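import Mathlib

/-!
# Deterministic amplitude bound (block (1-AMP) of R247), metric half

`Cone x ρ ε`: the half-cone (Apollonius) law at the vertex `x`, scale `ρ`, error `ε ρ²`.
`amplitude`: along a minimiser `σ` from `y` (`dist x y ≤ r`) to `w` (`dist x w = 2^J r`) the excess
`dist x p + dist p w - dist x w` at `p = σ s`, `s ≥ 2^(j+1) r`, is at most
`r (15·2^(-j/2) + 10 J √ε + 2^j ε)`.
-/

set_option autoImplicit false
open Set Filter Topology

noncomputable section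
namespace Crest.Agent.R247.Amp953

variable {X : Type*} [MetricSpace X]

/-- `m` is a midpoint of `x` and `u`. -/
def MidPt (x u m : X) : Prop := dist x m = dist x u / 2 ∧ dist m u = dist x u / 2

/-- Half-cone law at the vertex `x`, scale `ρ`, error `ε ρ²`. -/
def Cone (x : X) (ρ ε : ℝ) : Prop :=
  ∀ u v m : X, dist x u ≤ 2 * ρ → dist x v ≤ 2 * ρ → MidPt x u m →
    |dist v m ^ 2 - (dist v u ^ 2 / 2 + dist x v ^ 2 / 2 - dist x u ^ 2 / 4)| ≤ ε * ρ ^ 2

/-- The excess of `p` with respect to `x, w`. -/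
def exc (x w p : X) : ℝ := dist x p + dist p w - dist x w

lemma exc_nonneg (x w p : X) : 0 ≤ exc x w p := by
  unfold exc; linarith [dist_triangle x p w]

lemma Cone.mono {x : X} {ρ ε ε' : ℝ} (h : Cone x ρ ε) (he : ε ≤ ε') : Cone x ρ ε' :=
  fun u v m h1 h2 h3 => (h u v m h1 h2 h3).trans (by gcongr)

/-- Small excess ⇒ close to the x-ray. -/
lemma Cone.near {x : X} {ρ ε : ℝ} (h : Cone x ρ ε) {u p m : X} {δ : ℝ} (hρ : 0 ≤ ρ)
    (hu : dist x u = 2 * ρ) (hp : dist x p = ρ) (hδ : dist p u ≤ ρ + δ) (h0 : 0 ≤ δ)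
    (h1 : δ ≤ 2 * ρ) (hm : MidPt x u m) : dist p m ^ 2 ≤ 2 * ρ * δ + ε * ρ ^ 2 := by
  have h2 := h u p m hu.le (by linarith) hm
  rw [hu, hp] at h2
  have h3 := (abs_le.1 h2).2
  have h4 : dist p u ^ 2 ≤ (ρ + δ) ^ 2 := by
    have := dist_nonneg (x := p) (y := u)
    gcongr
  nlinarith

/-- Midpoints towards `x` contract by `1/2`. -/
lemma Cone.mid {x : X} {ρ ε : ℝ} (h : Cone x ρ ε) {a b a' b' : X}
    (ha : dist x a ≤ 2 * ρ) (hb : dist x b ≤ 2 * ρ) (ha' : MidPt x a a') (hb' : MidPt x b b') :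
    dist a' b' ^ 2 ≤ dist a b ^ 2 / 4 + 3 / 2 * (ε * ρ ^ 2) := by
  have hd : 0 ≤ dist x b := dist_nonneg
  have h1 := h a b' a' ha (by rw [hb'.1]; linarith) ha'
  have h2 := h b a b' hb ha hb'
  have h3 := (abs_le.1 h1).2
  have h4 := (abs_le.1 h2).2
  rw [dist_comm b' a', dist_comm b' a, hb'.1] at h3
  nlinarith

lemma sqrt_bound {a b c : ℝ} (hb : 0 ≤ b) (hc : 0 ≤ c) (h : a ^ 2 ≤ b ^ 2 + c ^ 2) :
    a ≤ b + c := by
  apply le_of_sq_le_sq _ (by positivity)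
  nlinarith [mul_nonneg hb hc]

/-- `β = 2^(-1/2)`. -/
def bet : ℝ := √(1 / 2)

lemma bet_sq : bet ^ 2 = 1 / 2 := Real.sq_sqrt (by norm_num)
lemma bet_pos : 0 < bet := Real.sqrt_pos.2 (by norm_num)
lemma bet_le : bet ≤ 5 / 7 := by
  apply le_of_sq_le_sq _ (by norm_num)
  rw [bet_sq]; norm_num
lemma bet_le_one : bet ≤ 1 := bet_le.trans (by norm_num)
lemma bet_pow (j : ℕ) : (bet ^ j) ^ 2 * 2 ^ j = 1 := by
  rw [← pow_mul, mul_comm, mul_comm j 2, pow_mul, bet_sq, ← mul_pow]; norm_num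
lemma bet_pow_sq (j : ℕ) : (bet ^ j) ^ 2 = 1 / 2 ^ j := by
  rw [eq_div_iff (by positivity)]; exact bet_pow j
lemma half_pow_le (j : ℕ) : (1 : ℝ) / 2 ^ j ≤ bet ^ j := by
  rw [← bet_pow_sq]
  have h1 : bet ^ j ≤ 1 := pow_le_one₀ bet_pos.le bet_le_one
  have h0 : 0 ≤ bet ^ j := (pow_pos bet_pos j).le
  nlinarith

/-- A dyadic chain below `a` towards `x`: `z j = a`, `z i` is a midpoint of `x` and `z (i+1)`. -/
def Chain (x a : X) (j : ℕ) (z : ℕ → X) : Prop := z j = a ∧ ∀ i < j, MidPt x (z (i + 1)) (z i)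

lemma exists_chain {x : X} (hmid : ∀ a, ∃ m, MidPt x a m) (a : X) (j : ℕ) :
    ∃ z, Chain x a j z := by
  choose f hf using hmid
  refine ⟨fun i => f^[j - i] a, by simp, fun i hi => ?_⟩
  have : j - i = (j - (i + 1)) + 1 := by omega
  simp only [this, Function.iterate_succ_apply']
  exact hf _

lemma Chain.dist_eq {x a : X} {j : ℕ} {z : ℕ → X} (h : Chain x a j z) {r : ℝ}
    (ha : dist x a = 2 ^ j * r) {i : ℕ} (hi : i ≤ j) : dist x (z i) = 2 ^ i * r := by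
  obtain ⟨k, rfl⟩ := Nat.exists_eq_add_of_le hi
  induction k generalizing i with
  | zero => simpa [← h.1] using ha
  | succ k ih =>
    have h1 : i + 1 + k = i + (k + 1) := by omega
    have h2 := ih (i := i + 1) (h1 ▸ h) (h1 ▸ ha) (by omega)
    have h3 := (h.2 i (by omega)).1
    rw [h3, h2, pow_succ]; ring

lemma Chain.restrict {x a : X} {j : ℕ} {z : ℕ → X} (h : Chain x a j z) {i : ℕ} (hi : i ≤ j) :
    Chain x (z i) i z := ⟨rfl, fun k hk => h.2 k (by omega)⟩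

/-- Two chains with tops at the same radius `2^j r`: the bottoms are `(θ + 2 j √ε) r` close. -/
lemma Chain.contract {x a b : X} {ε r : ℝ} (hr : 0 ≤ r) (hε : 0 ≤ ε) {j : ℕ} {z z' : ℕ → X}
    (h : Chain x a j z) (h' : Chain x b j z')
    (ha : dist x a = 2 ^ j * r) (hb : dist x b = 2 ^ j * r)
    (hC : ∀ i < j, Cone x (2 ^ i * r) ε) {θ : ℝ}
    (hθ : dist a b ≤ 2 ^ j * r * θ) {i : ℕ} (hi : i ≤ j) :
    dist (z i) (z' i) ≤ 2 ^ i * r * (θ + 2 * ((j : ℝ) - i) * √ε) := by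
  obtain ⟨k, rfl⟩ := Nat.exists_eq_add_of_le hi
  induction k generalizing i with
  | zero =>
    rw [← h.1, ← h'.1] at hθ
    simpa using hθ
  | succ k ih =>
    have h1 : i + 1 + k = i + (k + 1) := by omega
    have h2 := ih (i := i + 1) (h1 ▸ h) (h1 ▸ h') (h1 ▸ ha) (h1 ▸ hb) (fun l hl => hC l (by omega))
      (h1 ▸ hθ) (by omega)
    have hda := h.dist_eq ha (i := i + 1) (by omega)
    have hdb := h'.dist_eq hb (i := i + 1) (by omega)
    have hc := (hC i (by omega)).mid (a := z (i + 1)) (b := z' (i + 1)) (a' := z i) (b' := z' i)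
      (by rw [hda, pow_succ]; linarith) (by rw [hdb, pow_succ]; linarith)
      (h.2 i (by omega)) (h'.2 i (by omega))
    have hρ : 0 ≤ 2 ^ i * r := by positivity
    have hs : √ε ^ 2 = ε := Real.sq_sqrt hε
    have hs0 : 0 ≤ √ε := Real.sqrt_nonneg ε
    have h3 : dist (z i) (z' i) ≤ dist (z (i + 1)) (z' (i + 1)) / 2 + 2 * √ε * (2 ^ i * r) := by
      apply sqrt_bound (by positivity) (by positivity)
      have : (2 * √ε * (2 ^ i * r)) ^ 2 = 4 * (ε * (2 ^ i * r) ^ 2) := by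
        rw [mul_pow, mul_pow, hs]; ring
      rw [this]
      have h5 : 0 ≤ ε * (2 ^ i * r) ^ 2 := by positivity
      linarith [show (dist (z (i + 1)) (z' (i + 1)) / 2) ^ 2
        = dist (z (i + 1)) (z' (i + 1)) ^ 2 / 4 by ring]
    push_cast at h2 ⊢
    have h6 : (2 : ℝ) ^ (i + 1) = 2 * 2 ^ i := by rw [pow_succ]; ring
    rw [h6] at h2
    nlinarith

/-- A unit speed minimiser on `[0, L]`. -/
def Geo (σ : ℝ → X) (L : ℝ) : Prop :=
  ∀ s ∈ Icc (0 : ℝ) L, ∀ t ∈ Icc (0 : ℝ) L, dist (σ s) (σ t) = |s - t|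

lemma Geo.continuousOn {σ : ℝ → X} {L : ℝ} (h : Geo σ L) : ContinuousOn σ (Icc 0 L) := by
  intro s hs
  rw [Metric.continuousWithinAt_iff]
  intro ε hε
  refine ⟨ε, hε, fun t ht hd => ?_⟩
  rw [h t ht s hs]
  rwa [Real.dist_eq] at hd

lemma Geo.ivt {σ : ℝ → X} {L : ℝ} (h : Geo σ L) (x : X) {a b c : ℝ} (ha : 0 ≤ a) (hab : a ≤ b)
    (hb : b ≤ L) (h1 : dist x (σ a) ≤ c) (h2 : c ≤ dist x (σ b)) :
    ∃ t ∈ Icc a b, dist x (σ t) = c := by
  have hc : ContinuousOn (fun t => dist x (σ t)) (Icc a b) :=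
    (continuous_const.dist continuous_id).comp_continuousOn
      (h.continuousOn.mono (Icc_subset_Icc ha hb))
  exact intermediate_value_Icc hab hc ⟨h1, h2⟩

/-- The excess decreases along a minimiser ending at `w`. -/
lemma Geo.exc_anti {σ : ℝ → X} {L : ℝ} (h : Geo σ L) (x : X) {s t : ℝ} (hs : 0 ≤ s)
    (hst : s ≤ t) (ht : t ≤ L) : exc x (σ L) (σ t) ≤ exc x (σ L) (σ s) := by
  unfold exc
  have hL : L ∈ Icc (0 : ℝ) L := ⟨by linarith, le_refl _⟩
  rw [h t ⟨by linarith, ht⟩ L hL, h s ⟨hs, by linarith⟩ L hL, abs_sub_comm, abs_sub_comm s,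
    abs_of_nonneg (by linarith), abs_of_nonneg (by linarith)]
  have h1 := dist_triangle x (σ s) (σ t)
  rw [h s ⟨hs, by linarith⟩ t ⟨by linarith, ht⟩, abs_sub_comm, abs_of_nonneg (by linarith)] at h1
  linarith

/-- `d(σ s, σ t) = (d_x(σ t) - d_x(σ s)) + (excess drop)`. -/
lemma Geo.dist_eq_exc {σ : ℝ → X} {L : ℝ} (h : Geo σ L) (x : X) {s t : ℝ} (hs : 0 ≤ s)
    (hst : s ≤ t) (ht : t ≤ L) :
    dist (σ s) (σ t) = dist x (σ t) - dist x (σ s) + (exc x (σ L) (σ s) - exc x (σ L) (σ t)) := by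
  unfold exc
  have hL : L ∈ Icc (0 : ℝ) L := ⟨by linarith, le_refl _⟩
  rw [h t ⟨by linarith, ht⟩ L hL, h s ⟨hs, by linarith⟩ L hL,
    h s ⟨hs, by linarith⟩ t ⟨by linarith, ht⟩, abs_sub_comm, abs_sub_comm s L, abs_sub_comm t L,
    abs_of_nonneg (by linarith), abs_of_nonneg (by linarith), abs_of_nonneg (by linarith)]
  ring

lemma exc_le {x y w p : X} {r : ℝ} (hxy : dist x y ≤ r) (hp : dist y p + dist p w = dist y w) :
    exc x w p ≤ 2 * r := by
  unfold exc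
  have h1 := dist_triangle x y p
  have h2 := dist_triangle y x w
  rw [dist_comm y x] at h2
  linarith

lemma Geo.btw {σ : ℝ → X} {L : ℝ} (h : Geo σ L) {s : ℝ} (hs : 0 ≤ s) (hL : s ≤ L) :
    dist (σ 0) (σ s) + dist (σ s) (σ L) = dist (σ 0) (σ L) := by
  rw [h 0 ⟨le_refl _, by linarith⟩ s ⟨hs, hL⟩, h s ⟨hs, hL⟩ L ⟨by linarith, le_refl _⟩,
    h 0 ⟨le_refl _, by linarith⟩ L ⟨by linarith, le_refl _⟩]
  rw [zero_sub, zero_sub, abs_neg, abs_neg, abs_of_nonneg hs, abs_of_nonneg (by linarith : 0 ≤ L),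
    abs_sub_comm, abs_of_nonneg (by linarith)]
  ring

/-- the "cosine coordinate" of `y` in direction `z`, radius `ρ` -/
def cc (x y z : X) (ρ : ℝ) : ℝ := (dist x y ^ 2 + ρ ^ 2 - dist y z ^ 2) / (2 * ρ)

lemma Chain.cc_le {x a y : X} {ε r : ℝ} (hr : 0 < r) {j : ℕ} {z : ℕ → X}
    (h : Chain x a j z) (ha : dist x a = 2 ^ j * r) (hC : ∀ i < j, Cone x (2 ^ i * r) ε)
    (hy : dist x y ≤ r) {i : ℕ} (hi : i ≤ j) :
    |cc x y (z 0) r - cc x y (z i) (2 ^ i * r)| ≤ ε * (2 ^ i * r) / 2 - ε * r / 2 := by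
  induction i with
  | zero => simp
  | succ i ih =>
    have h1 := ih (by omega)
    have hρ : 0 < 2 ^ i * r := by positivity
    have h6 : (2 : ℝ) ^ (i + 1) = 2 * 2 ^ i := by rw [pow_succ]; ring
    have h7 : (1 : ℝ) ≤ 2 ^ i := one_le_pow₀ (by norm_num)
    have hd := h.dist_eq ha hi
    have h2 := hC i (by omega) (z (i + 1)) y (z i) (by rw [hd, h6]; linarith)
      (by nlinarith) (h.2 i (by omega))
    rw [hd, h6] at h2
    have h3 : |cc x y (z i) (2 ^ i * r) - cc x y (z (i + 1)) (2 ^ (i + 1) * r)| ≤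
        ε * (2 ^ i * r) / 2 := by
      have e : cc x y (z i) (2 ^ i * r) - cc x y (z (i + 1)) (2 ^ (i + 1) * r)
          = - (dist y (z i) ^ 2 - (dist y (z (i + 1)) ^ 2 / 2 + dist x y ^ 2 / 2 -
            (2 * 2 ^ i * r) ^ 2 / 4)) / (2 * (2 ^ i * r)) := by
        unfold cc
        rw [h6]
        field_simp
        ring
      rw [e, abs_div, abs_neg, abs_of_pos (by positivity : 0 < 2 * (2 ^ i * r)),
        div_le_iff₀ (by positivity)]
      calc _ ≤ ε * (2 ^ i * r) ^ 2 := h2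
        _ = _ := by ring
    calc |cc x y (z 0) r - cc x y (z (i + 1)) (2 ^ (i + 1) * r)|
        ≤ |cc x y (z 0) r - cc x y (z i) (2 ^ i * r)|
          + |cc x y (z i) (2 ^ i * r) - cc x y (z (i + 1)) (2 ^ (i + 1) * r)| := abs_sub_le _ _ _
      _ ≤ (ε * (2 ^ i * r) / 2 - ε * r / 2) + ε * (2 ^ i * r) / 2 := add_le_add h1 h3
      _ = _ := by rw [h6]; ring

/-- `d(y,z) = ρ - cc + O(r²/ρ)`. -/
lemma cc_bounds {x y z : X} {r ρ : ℝ} (hρ : 0 < ρ) (hy : dist x y ≤ r)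
    (hz : dist x z = ρ) :
    ρ - cc x y z ρ ≤ dist y z + r ^ 2 / (2 * ρ) ∧ dist y z ≤ ρ - cc x y z ρ + r ^ 2 / (2 * ρ) := by
  have h1 := dist_triangle x y z
  have h2 := dist_triangle y x z
  rw [dist_comm y x] at h2
  have h3 : ρ - cc x y z ρ - dist y z = ((ρ - dist y z) ^ 2 - dist x y ^ 2) / (2 * ρ) := by
    unfold cc; field_simp; ring
  have h4 : |ρ - dist y z| ≤ dist x y := abs_le.2 ⟨by linarith, by linarith⟩
  have h5 : (ρ - dist y z) ^ 2 ≤ dist x y ^ 2 := by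
    rw [← sq_abs (ρ - dist y z)]
    gcongr
  have h6 : dist x y ^ 2 ≤ r ^ 2 := by gcongr
  have h7 : 0 ≤ (ρ - dist y z) ^ 2 := sq_nonneg _
  constructor
  · have : ((ρ - dist y z) ^ 2 - dist x y ^ 2) / (2 * ρ) ≤ r ^ 2 / (2 * ρ) := by
      gcongr; nlinarith [sq_nonneg (dist x y), sq_nonneg r]
    linarith
  · have : -(r ^ 2 / (2 * ρ)) ≤ ((ρ - dist y z) ^ 2 - dist x y ^ 2) / (2 * ρ) := by
      rw [← neg_div]
      gcongr; linarith
    linarith

section main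
variable {x : X} {r ε : ℝ} {J : ℕ} {σ : ℝ → X} {L : ℝ}

/-- **Angular closeness**: the point of `σ` at distance `2^j r` from `x` is close to the point of
the `x`-ray of `w = σ L` at the same distance. -/
theorem angle (hr : 0 < r) (hε : 0 ≤ ε) (hσ : Geo σ L) (hxy : dist x (σ 0) ≤ r)
    (hxw : dist x (σ L) = 2 ^ J * r) (hmid : ∀ a, ∃ m, MidPt x a m)
    (hC : ∀ j < J, Cone x (2 ^ j * r) ε) {q : ℕ → X} (hq : Chain x (σ L) J q)
    {j : ℕ} (hj : j ≤ J) {s : ℝ} (hs : s ∈ Icc 0 L) (hsj : dist x (σ s) = 2 ^ j * r) :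
    dist (σ s) (q j) ≤ 2 ^ j * r * (7 * bet ^ j + 3 * ((J : ℝ) - j) * √ε) := by
  obtain ⟨k, rfl⟩ := Nat.exists_eq_add_of_le hj
  induction k generalizing j s with
  | zero =>
    have h1 : q j = σ L := hq.1
    have h2 : exc x (σ L) (σ s) ≤ 2 * r := exc_le hxy (hσ.btw hs.1 hs.2)
    unfold exc at h2
    rw [h1]
    have h3 : dist x (σ L) = 2 ^ j * r := hxw
    have h4 := half_pow_le j
    rw [div_le_iff₀ (by positivity)] at h4
    have h5 : 0 < bet ^ j := pow_pos bet_pos j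
    have h6 : (0 : ℝ) < 2 ^ j := by positivity
    simp only [add_zero, sub_self, mul_zero, zero_mul]
    have h7 : dist (σ s) (σ L) ≤ 2 * r := by linarith
    nlinarith
  | succ k ih =>
    have e1 : j + 1 + k = j + (k + 1) := by omega
    have hρ : 0 < 2 ^ j * r := by positivity
    -- the next point on `σ`
    obtain ⟨t, ht, htj⟩ := hσ.ivt x (a := s) (b := L) (c := 2 ^ (j + 1) * r) hs.1 hs.2 (le_refl _)
      (by rw [hsj, pow_succ]; nlinarith) (by
        rw [hxw]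
        gcongr
        · norm_num
        · omega)
    have ht0 : 0 ≤ t := hs.1.trans ht.1
    have h1 := ih (j := j + 1) (s := t) ⟨ht0, ht.2⟩ htj (e1 ▸ hxw) (e1 ▸ hC) (e1 ▸ hq) (by omega)
    obtain ⟨m, hm⟩ := hmid (σ t)
    have hCj := hC j (by omega)
    have hqd : dist x (q (j + 1)) = 2 ^ (j + 1) * r := hq.dist_eq hxw (by omega)
    have hee : √ε ^ 2 = ε := Real.sq_sqrt hε
    have he0 : 0 ≤ √ε := Real.sqrt_nonneg ε
    have h6 : (2 : ℝ) ^ (j + 1) = 2 * 2 ^ j := by rw [pow_succ]; ring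
    have hb := bet_pow_sq j
    have hbp : 0 < bet ^ j := pow_pos bet_pos j
    -- (A)
    have hA : dist (σ s) m ≤ 2 ^ j * r * (2 * bet ^ j) + √ε * (2 ^ j * r) := by
      apply sqrt_bound (by positivity) (by positivity)
      have hd := hσ.dist_eq_exc x hs.1 ht.1 ht.2
      rw [htj, hsj, h6] at hd
      have h2 : exc x (σ L) (σ s) ≤ 2 * r := exc_le hxy (hσ.btw hs.1 hs.2)
      have h3 := exc_nonneg x (σ L) (σ t)
      have h4 := hσ.exc_anti x hs.1 ht.1 ht.2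
      have h7 : (1 : ℝ) ≤ 2 ^ j := one_le_pow₀ (by norm_num)
      have h5 := hCj.near (u := σ t) (p := σ s) (m := m)
        (δ := exc x (σ L) (σ s) - exc x (σ L) (σ t)) hρ.le
        (by rw [htj, h6]; ring) hsj (by rw [hd]; linarith) (by linarith) (by nlinarith) hm
      have h8 : (2 ^ j * r * (2 * bet ^ j)) ^ 2 = 4 * r * (2 ^ j * r) := by
        have : (2 ^ j * r * (2 * bet ^ j)) ^ 2 = 4 * r * (2 ^ j * r) * ((bet ^ j) ^ 2 * 2 ^ j) := by
          ring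
        rw [this, bet_pow, mul_one]
      have h9 : (√ε * (2 ^ j * r)) ^ 2 = ε * (2 ^ j * r) ^ 2 := by rw [mul_pow, hee]
      rw [h8, h9]
      nlinarith
    -- (B)
    have hB : dist (q j) m ≤ dist (q (j + 1)) (σ t) / 2 + 2 * √ε * (2 ^ j * r) := by
      apply sqrt_bound (by positivity) (by positivity)
      have h5 := hCj.mid (a := q (j + 1)) (b := σ t) (a' := q j) (b' := m)
        (by rw [hqd, h6]; linarith) (by rw [htj, h6]; linarith) (hq.2 j (by omega)) hm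
      have : (2 * √ε * (2 ^ j * r)) ^ 2 = 4 * (ε * (2 ^ j * r) ^ 2) := by
        rw [mul_pow, mul_pow, hee]; ring
      rw [this]
      have h7 : 0 ≤ ε * (2 ^ j * r) ^ 2 := by positivity
      linarith [show (dist (q (j + 1)) (σ t) / 2) ^ 2 = dist (q (j + 1)) (σ t) ^ 2 / 4 by ring]
    have h9 := dist_triangle_right (σ s) (q j) m
    rw [dist_comm (q (j + 1)) (σ t)] at hB
    have hbe : bet ^ (j + 1) ≤ 5 / 7 * bet ^ j := by
      rw [pow_succ]
      nlinarith [bet_le]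
    push_cast at h1 ⊢
    rw [h6] at h1
    have h11 : ((j : ℝ) + 1 + k - (j + 1)) = k := by ring
    have h12 : ((j : ℝ) + (k + 1) - j) = k + 1 := by ring
    rw [h11] at h1
    rw [h12]
    have h10 : 2 ^ j * r * (7 * bet ^ (j + 1)) ≤ 2 ^ j * r * (5 * bet ^ j) := by
      apply mul_le_mul_of_nonneg_left _ hρ.le
      linarith
    calc dist (σ s) (q j) ≤ 2 ^ j * r * (2 * bet ^ j) + √ε * (2 ^ j * r)
          + ((2 * 2 ^ j * r * (7 * bet ^ (j + 1) + 3 * k * √ε)) / 2 + 2 * √ε * (2 ^ j * r)) := by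
          linarith
      _ = 2 ^ j * r * (2 * bet ^ j) + 3 * √ε * (2 ^ j * r) + 2 ^ j * r * (7 * bet ^ (j + 1))
          + 2 ^ j * r * (3 * k * √ε) := by ring
      _ ≤ 2 ^ j * r * (2 * bet ^ j) + 3 * √ε * (2 ^ j * r) + 2 ^ j * r * (5 * bet ^ j)
          + 2 ^ j * r * (3 * k * √ε) := by linarith
      _ = _ := by ring

/-- **Amplitude bound at dyadic radii.** -/
theorem amp_dyadic (hr : 0 < r) (hε : 0 ≤ ε) (hσ : Geo σ L) (hxy : dist x (σ 0) ≤ r)
    (hxw : dist x (σ L) = 2 ^ J * r) (hmid : ∀ a, ∃ m, MidPt x a m)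
    (hC : ∀ j < J, Cone x (2 ^ j * r) ε)
    {j : ℕ} (hj : j ≤ J) {s : ℝ} (hs : s ∈ Icc 0 L) (hsj : dist x (σ s) = 2 ^ j * r) :
    exc x (σ L) (σ s) ≤ r * (16 * bet ^ j + 10 * J * √ε + 2 ^ j * ε) := by
  obtain ⟨q, hq⟩ := exists_chain hmid (σ L) J
  obtain ⟨p, hp⟩ := exists_chain hmid (σ s) j
  have hang := angle hr hε hσ hxy hxw hmid hC hq hj hs hsj
  have hρ : 0 < 2 ^ j * r := by positivity
  have he0 : 0 ≤ √ε := Real.sqrt_nonneg ε
  have hbp : 0 < bet ^ j := pow_pos bet_pos j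
  have hqj := hq.dist_eq hxw hj
  have hqr := hq.restrict hj
  have hcon := hp.contract hr.le hε hqr hsj hqj (fun i hi => hC i (by omega)) hang
    (Nat.zero_le j)
  simp only [pow_zero, one_mul, Nat.cast_zero, sub_zero] at hcon
  have hc1 := hp.cc_le hr hsj (fun i hi => hC i (by omega)) hxy (le_refl j)
  have hc2 := hqr.cc_le hr hqj (fun i hi => hC i (by omega)) hxy (le_refl j)
  rw [hp.1] at hc1
  -- comparison at scale `r`
  have hq0 : dist x (q 0) = r := by simpa using hqr.dist_eq hqj (Nat.zero_le j)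
  have hp0 : dist x (p 0) = r := by simpa using hp.dist_eq hsj (Nat.zero_le j)
  have h0 : |cc x (σ 0) (q 0) r - cc x (σ 0) (p 0) r| ≤ 2 * dist (p 0) (q 0) := by
    have e : cc x (σ 0) (q 0) r - cc x (σ 0) (p 0) r
        = (dist (σ 0) (p 0) ^ 2 - dist (σ 0) (q 0) ^ 2) / (2 * r) := by
      unfold cc; field_simp; ring
    rw [e, abs_div, abs_of_pos (by positivity : 0 < 2 * r), div_le_iff₀ (by positivity)]
    have h1 : dist (σ 0) (p 0) ^ 2 - dist (σ 0) (q 0) ^ 2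
        = (dist (σ 0) (p 0) - dist (σ 0) (q 0)) * (dist (σ 0) (p 0) + dist (σ 0) (q 0)) := by ring
    rw [h1, abs_mul, abs_of_nonneg (a := dist (σ 0) (p 0) + dist (σ 0) (q 0)) (by positivity)]
    have h2 : |dist (σ 0) (p 0) - dist (σ 0) (q 0)| ≤ dist (p 0) (q 0) := by
      rw [abs_le]
      constructor
      · linarith [dist_triangle (σ 0) (p 0) (q 0)]
      · linarith [dist_triangle_right (σ 0) (p 0) (q 0)]
    have h3 : dist (σ 0) (p 0) + dist (σ 0) (q 0) ≤ 4 * r := by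
      linarith [dist_triangle_left (σ 0) (p 0) x, dist_triangle_left (σ 0) (q 0) x]
    calc _ ≤ dist (p 0) (q 0) * (4 * r) := by gcongr
      _ = _ := by ring
  obtain ⟨hb1, hb2⟩ := cc_bounds hρ hxy hqj
  obtain ⟨hb3, hb4⟩ := cc_bounds hρ hxy hsj
  -- the exact lower bound for the second
  have hb5 : 2 ^ j * r - cc x (σ 0) (σ s) (2 ^ j * r) ≤ dist (σ 0) (σ s) + r ^ 2 / (2 * (2 ^ j * r)) :=
    hb3
  have hv : dist x (q j) - dist (σ 0) (q j) ≤ dist x (σ L) - dist (σ 0) (σ L) := by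
    -- `q j` lies on an `x`-ray of `w`
    have hchain : ∀ i, j ≤ i → i ≤ J → dist (q j) (q i) ≤ dist x (q i) - dist x (q j) := by
      intro i hji
      induction i, hji using Nat.le_induction with
      | base => intro _; simp
      | succ i hi ih =>
        intro hiJ
        have h1 := ih (by omega)
        have h2 := hq.2 i (by omega)
        have h3 := dist_triangle (q j) (q i) (q (i + 1))
        rw [h2.2] at h3
        have h4 := h2.1
        linarith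
    have h1 := hchain J hj (le_refl J)
    rw [hq.1] at h1
    have h2 := dist_triangle (σ 0) (q j) (σ L)
    linarith
  have hexc : exc x (σ L) (σ s) = (dist x (σ s) - dist (σ 0) (σ s)) -
      (dist x (σ L) - dist (σ 0) (σ L)) := by
    unfold exc
    linarith [hσ.btw hs.1 hs.2]
  have hr2 : r ^ 2 / (2 * (2 ^ j * r)) ≤ bet ^ j * r / 2 := by
    have : r ^ 2 / (2 * (2 ^ j * r)) = 1 / 2 ^ j * r / 2 := by field_simp
    rw [this]
    have := half_pow_le j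
    gcongr
  have hcc := (abs_le.1 hc1).1
  have hcc' := (abs_le.1 hc1).2
  have hdd := (abs_le.1 hc2).1
  have hdd' := (abs_le.1 hc2).2
  have h00 := (abs_le.1 h0)
  have hcast : 3 * ((J : ℝ) - j) * √ε + 2 * j * √ε ≤ 3 * J * √ε := by
    have : (0 : ℝ) ≤ j * √ε := by positivity
    nlinarith
  have hJ : (0 : ℝ) ≤ J * √ε := by positivity
  have hεr : 0 ≤ ε * r := by positivity
  have hε2 : 0 ≤ ε * (2 ^ j * r) := by positivity
  have hbr : 0 < bet ^ j * r := by positivity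
  have hcon2 : dist (p 0) (q 0) ≤ r * (7 * bet ^ j + 3 * J * √ε) := by
    refine hcon.trans ?_
    apply mul_le_mul_of_nonneg_left _ hr.le
    linarith
  rw [hexc, hsj]
  rw [hqj] at hv
  calc 2 ^ j * r - dist (σ 0) (σ s) - (dist x (σ L) - dist (σ 0) (σ L))
      ≤ dist (σ 0) (q j) - dist (σ 0) (σ s) := by linarith
    _ ≤ ε * (2 ^ j * r) + 2 * dist (p 0) (q 0) + bet ^ j * r := by linarith
    _ ≤ ε * (2 ^ j * r) + 2 * (r * (7 * bet ^ j + 3 * J * √ε)) + bet ^ j * r := by linarith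
    _ = r * (15 * bet ^ j + 6 * J * √ε + 2 ^ j * ε) := by ring
    _ ≤ _ := by
      apply mul_le_mul_of_nonneg_left _ hr.le
      have : 6 * (J : ℝ) * √ε ≤ 10 * J * √ε := by nlinarith
      linarith

/-- **Amplitude bound**: excess along `σ` at arclength `s ≥ 2^(i+1) r`. -/
theorem amplitude (hr : 0 < r) (hε : 0 ≤ ε) (hσ : Geo σ L) (hxy : dist x (σ 0) ≤ r)
    (hxw : dist x (σ L) = 2 ^ J * r) (hmid : ∀ a, ∃ m, MidPt x a m)
    (hC : ∀ j < J, Cone x (2 ^ j * r) ε)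
    {i : ℕ} (hi : i ≤ J) {s : ℝ} (hs : s ≤ L) (hsi : 2 ^ (i + 1) * r ≤ s) :
    exc x (σ L) (σ s) ≤ r * (16 * bet ^ i + 10 * J * √ε + 2 ^ i * ε) := by
  have h2 : (1 : ℝ) ≤ 2 ^ i := one_le_pow₀ (by norm_num)
  have hs0 : 0 ≤ s := le_trans (by positivity) hsi
  have h1 : dist (σ 0) (σ s) = s := by
    rw [hσ 0 ⟨le_refl _, by linarith⟩ s ⟨hs0, hs⟩, zero_sub, abs_neg, abs_of_nonneg hs0]
  obtain ⟨t, ht, hti⟩ := hσ.ivt x (a := 0) (b := s) (c := 2 ^ i * r) (le_refl _) hs0 hs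
    (by nlinarith) (by
      have := dist_triangle (σ 0) x (σ s)
      rw [h1, dist_comm (σ 0) x] at this
      rw [pow_succ] at hsi
      nlinarith)
  exact (hσ.exc_anti x ht.1 ht.2 hs).trans
    (amp_dyadic hr hε hσ hxy hxw hmid hC hi ⟨ht.1, ht.2.trans hs⟩ hti)

/-- **Amplitude bound, final form**: `exc ≤ 18 r (2^(-j/2) + J √ε + ε^(1/3))`. -/
theorem amplitude' (hr : 0 < r) (hε : 0 ≤ ε) (hε1 : ε ≤ 1) (hσ : Geo σ L)
    (hxy : dist x (σ 0) ≤ r)
    (hxw : dist x (σ L) = 2 ^ J * r) (hmid : ∀ a, ∃ m, MidPt x a m)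
    (hC : ∀ j < J, Cone x (2 ^ j * r) ε)
    {j : ℕ} (hj : j ≤ J) {s : ℝ} (hs : s ≤ L) (hsj : 2 ^ (j + 1) * r ≤ s) :
    exc x (σ L) (σ s) ≤ 25 * r * (bet ^ j + J * √ε + ε ^ (1 / 3 : ℝ)) := by
  have he0 : 0 ≤ √ε := Real.sqrt_nonneg ε
  have hJ : (0 : ℝ) ≤ J * √ε := by positivity
  have hbj : 0 < bet ^ j := pow_pos bet_pos j
  rcases eq_or_lt_of_le hε with h0 | h0
  · have h := amplitude hr hε hσ hxy hxw hmid hC hj hs hsj
    have h1 : 0 ≤ ε ^ (1 / 3 : ℝ) := Real.rpow_nonneg hε _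
    refine h.trans ?_
    have h2 : 16 * bet ^ j + 10 * J * √ε + 2 ^ j * ε ≤
        25 * (bet ^ j + J * √ε + ε ^ (1 / 3 : ℝ)) := by
      rw [← h0] at hJ h1 ⊢
      linarith
    calc _ ≤ r * (25 * (bet ^ j + J * √ε + ε ^ (1 / 3 : ℝ))) := by gcongr
      _ = _ := by ring
  set a : ℝ := ε ^ (1 / 3 : ℝ) with ha
  have ha0 : 0 < a := Real.rpow_pos_of_pos h0 _
  have ha1 : a ≤ 1 := Real.rpow_le_one hε hε1 (by norm_num)
  have ha3 : a ^ 3 = ε := by
    rw [ha, ← Real.rpow_natCast, ← Real.rpow_mul hε]; norm_num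
  obtain ⟨m, hm1, hm2⟩ := exists_nat_pow_near (x := (a ^ 2)⁻¹) (y := (2 : ℝ))
    ((one_le_inv₀ (by positivity)).2 (by nlinarith)) (by norm_num)
  have key : ∀ i ≤ j, 16 * bet ^ i + 2 ^ i * ε ≤ 25 * (bet ^ j + a) →
      exc x (σ L) (σ s) ≤ 25 * r * (bet ^ j + J * √ε + a) := by
    intro i hi hle
    have h := amplitude hr hε hσ hxy hxw hmid hC (i := i) (hi.trans hj) hs
      (le_trans (by gcongr; norm_num) hsj)
    refine h.trans ?_
    calc _ ≤ r * (25 * (bet ^ j + J * √ε + a)) := by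
          gcongr; linarith
      _ = _ := by ring
  have hup : ∀ i ≤ m, (2 : ℝ) ^ i * ε ≤ a := by
    intro i hi
    have h1 : (2 : ℝ) ^ i ≤ (a ^ 2)⁻¹ := le_trans (pow_le_pow_right₀ (by norm_num) hi) hm1
    calc (2 : ℝ) ^ i * ε ≤ (a ^ 2)⁻¹ * a ^ 3 := by rw [ha3]; gcongr
      _ = a := by field_simp
  rcases le_total j m with hjm | hmj
  · apply key j (le_refl _)
    have := hup j hjm
    linarith
  · apply key m hmj
    have h1 := hup m (le_refl _)
    have h2 : bet ^ m ≤ 3 / 2 * a := by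
      apply le_of_sq_le_sq _ (by positivity)
      rw [bet_pow_sq, div_le_iff₀ (by positivity)]
      rw [inv_lt_iff_one_lt_mul₀ (by positivity), pow_succ] at hm2
      nlinarith
    linarith

end main

end Crest.Agent.R247.Amp953
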