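import Crest.Agent.R247.Hes3_124

/-!
R247, block (5), leaf P4 (helper657 / helper470): patching of local smooth approximations.
`ApprOn B O` = the statement `Appr B` of helper124 restricted to compact subsets of the open
set `O`. With a partition of unity in the core and the product rule for the Laplacian on the
core, local approximations give `Appr B`.
-/

set_option autoImplicit false
set_option linter.unusedSectionVars false

open MeasureTheory Filter Topology Set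
open scoped RealInnerProductSpace ENNReal NNReal

noncomputable section

namespace Crest.Agent.R247.App470

open Crest.Agent.R247.Hes124 Crest.Agent.R247.Dir593 Crest.Agent.R247.Dir593.GradS

variable {n : ℕ} {κ : ℝ} {X : Type*} [MetricSpace X] [MeasurableSpace X] [BorelSpace X]
  {μ : Measure X} [IsFiniteMeasureOnCompacts μ]

/-- smooth approximation in the graph norm of the Laplacian, on compact subsets of `O` -/
def ApprOn (B : BochS n κ X μ) (O : Set X) : Prop :=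
  ∀ (u : Lp ℝ 2 μ) (f : X → ℝ) (S0 : ℝ), u ∈ B.V → (∀ᵐ x ∂μ, |u x| ≤ S0) → MemLp f 2 μ →
    (∀ p : X → ℝ, IsT p → ∫ x, ⟪B.D u x, B.G p x⟫ ∂μ = - ∫ x, f x * p x ∂μ) →
    ∀ K : Set X, IsCompact K → K ⊆ O → ∀ ε : ℝ, 0 < ε → ∃ w ∈ B.core, (∀ x, |w x| ≤ S0 + 1) ∧
      ∫ x in K, ((w x - u x) ^ 2 + ‖B.G w x - B.D u x‖ ^ 2 + (tr (B.H w x) - f x) ^ 2) ∂μ ≤ ε

/-- the core is stable under products, with the product rule for the Laplacian -/
def CoreMul (B : BochS n κ X μ) : Prop :=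
  ∀ ⦃u v : X → ℝ⦄, u ∈ B.core → v ∈ B.core → (fun x => u x * v x) ∈ B.core ∧
    ∀ᵐ x ∂μ, tr (B.H (fun y => u y * v y) x) =
      u x * tr (B.H v x) + v x * tr (B.H u x) + 2 * ⟪B.G u x, B.G v x⟫

/-- partitions of unity in the core -/
def CorePU (B : BochS n κ X μ) : Prop :=
  ∀ K : Set X, IsCompact K → ∀ O : X → Set X, (∀ x, IsOpen (O x)) → (∀ x, x ∈ O x) →
    ∃ (s : Finset X) (χ : X → X → ℝ),
      (∀ a ∈ s, χ a ∈ B.core ∧ (∀ x, 0 ≤ χ a x) ∧ tsupport (χ a) ⊆ O a) ∧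
      (∀ x, ∑ a ∈ s, χ a x ≤ 1) ∧ ∃ W : Set X, IsOpen W ∧ K ⊆ W ∧ ∀ x ∈ W, ∑ a ∈ s, χ a x = 1

section Sums

variable (B : BochS n κ X μ)

lemma H_zero (h0 : (fun _ : X => (0:ℝ)) ∈ B.core) : ∀ᵐ x ∂μ, B.H (fun _ => (0:ℝ)) x = 0 := by
  filter_upwards [B.H_sub h0 h0] with x hx
  simpa using hx

lemma core_add (h0 : (fun _ : X => (0:ℝ)) ∈ B.core) {u v : X → ℝ} (hu : u ∈ B.core)
    (hv : v ∈ B.core) : (fun x => u x + v x) ∈ B.core ∧
      ∀ᵐ x ∂μ, B.H (fun y => u y + v y) x = B.H u x + B.H v x := by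
  have hn := B.core_sub h0 hv
  have h1 := B.core_sub hu hn
  have e : (fun x => u x - (0 - v x)) = fun x => u x + v x := by funext x; ring
  rw [e] at h1
  refine ⟨h1, ?_⟩
  filter_upwards [B.H_sub hu hn, B.H_sub h0 hv, H_zero B h0] with x a b c
  rw [← e, a, b, c]
  abel

lemma core_sum (h0 : (fun _ : X => (0:ℝ)) ∈ B.core) {ι : Type*} (s : Finset ι)
    {w : ι → X → ℝ} (hw : ∀ a ∈ s, w a ∈ B.core) :
    (fun x => ∑ a ∈ s, w a x) ∈ B.core ∧
      (∀ᵐ x ∂μ, B.H (fun y => ∑ a ∈ s, w a y) x = ∑ a ∈ s, B.H (w a) x) ∧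
      ∀ᵐ x ∂μ, B.G (fun y => ∑ a ∈ s, w a y) x = ∑ a ∈ s, B.G (w a) x := by
  classical
  induction s using Finset.induction_on with
  | empty =>
    refine ⟨by simpa using h0, ?_, ?_⟩
    · filter_upwards [H_zero B h0] with x hx
      simpa using hx
    · filter_upwards [B.const 0] with x hx
      simpa using hx
  | insert a s ha ih =>
    obtain ⟨i1, i2, i3⟩ := ih fun b hb => hw b (Finset.mem_insert_of_mem hb)
    have hwa := hw a (Finset.mem_insert_self a s)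
    obtain ⟨j1, j2⟩ := core_add B h0 hwa i1
    have e : (fun y => ∑ b ∈ insert a s, w b y) = fun y => w a y + ∑ b ∈ s, w b y := by
      funext y; rw [Finset.sum_insert ha]
    rw [e]
    refine ⟨j1, ?_, ?_⟩
    · filter_upwards [j2, i2] with x a1 a2
      rw [a1, a2, Finset.sum_insert ha]
    · filter_upwards [B.add (B.core_test hwa).1 (B.core_test i1).1, i3] with x a1 a2
      rw [a1, a2, Finset.sum_insert ha]

lemma tr_sum {ι : Type*} (s : Finset ι) (A : ι → S n) :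
    tr (∑ a ∈ s, A a) = ∑ a ∈ s, tr (A a) := by
  simp only [← inner_idm]
  rw [sum_inner]

/-- where a core function is `1` on an open set, its Laplacian vanishes -/
lemma tr_one (hm : CoreMul B) {σ : X → ℝ} (hσ : σ ∈ B.core) {W : Set X} (hW : IsOpen W)
    (h1 : ∀ x ∈ W, σ x = 1) : ∀ᵐ x ∂μ, x ∈ W → B.G σ x = 0 ∧ tr (B.H σ x) = 0 := by
  obtain ⟨hc, hp⟩ := hm hσ hσ
  have hG : ∀ᵐ x ∂μ, x ∈ W → B.G σ x = 0 := by
    filter_upwards [B.loc (B.core_test hσ).1 (LocallyLipschitz.const (1:ℝ)) hW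
      (fun x hx => h1 x hx), B.const 1] with x a b hx
    rw [a hx, b]
  have hsub := B.core_sub hc hσ
  have hH : ∀ᵐ x ∂μ, x ∈ W → B.H (fun y => σ y * σ y - σ y) x = 0 := by
    filter_upwards [B.H_supp hsub] with x hx hxW
    refine hx fun ht => ?_
    have hdis : Disjoint W (tsupport fun y => σ y * σ y - σ y) := by
      refine Disjoint.closure_right (Set.disjoint_left.2 fun y hy hy2 => hy2 ?_) hW
      simp [h1 y hy]
    exact Set.disjoint_left.1 hdis hxW ht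
  filter_upwards [hG, hH, hp, B.H_sub hc hσ] with x a b c d hx
  have ha := a hx
  have hb := b hx
  rw [d] at hb
  have hb' : B.H (fun y => σ y * σ y) x = B.H σ x := sub_eq_zero.1 hb
  rw [hb', h1 x hx, ha] at c
  refine ⟨ha, ?_⟩
  simp only [inner_zero_left] at c
  linarith

end Sums

/-! ### the pointwise estimate -/

/-- error of an approximation -/
def err (B : BochS n κ X μ) (u : Lp ℝ 2 μ) (f : X → ℝ) (w : X → ℝ) (x : X) : ℝ :=
  (w x - u x) ^ 2 + ‖B.G w x - B.D u x‖ ^ 2 + (tr (B.H w x) - f x) ^ 2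

lemma err_nonneg (B : BochS n κ X μ) (u : Lp ℝ 2 μ) (f w : X → ℝ) (x : X) :
    0 ≤ err B u f w x := by
  unfold err; positivity

lemma err_integrable (B : BochS n κ X μ) {u : Lp ℝ 2 μ} {f w : X → ℝ} (hf : MemLp f 2 μ)
    (hw : w ∈ B.core) : Integrable (err B u f w) μ := by
  have iU : Integrable (fun x => ‖w x - u x‖ ^ 2) μ :=
    int_sub_sq (B.core_test hw).memLp (Lp.memLp u)
  have iG : Integrable (fun x => ‖B.G w x - B.D u x‖ ^ 2) μ :=
    int_sub_sq (B.G_memLp hw) (Lp.memLp (B.D u))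
  have iT : Integrable (fun x => ‖tr (B.H w x) - f x‖ ^ 2) μ :=
    int_sub_sq (BochS.memLp_tr (B.H_memLp hw)) hf
  refine ((iU.add iG).add iT).congr (Eventually.of_forall fun x => ?_)
  simp [err, Real.norm_eq_abs, sq_abs]

lemma piece_le {E : Type*} [NormedAddCommGroup E] [InnerProductSpace ℝ E] {χ t z h C : ℝ}
    {a b : E} (h0 : 0 ≤ χ) (h1 : χ ≤ 1) (hC : 1 ≤ C) (ha : ‖a‖ ≤ C) (hh : |h| ≤ C) :
    (χ * t) ^ 2 + ‖χ • b + t • a‖ ^ 2 + (χ * z + t * h + 2 * ⟪a, b⟫) ^ 2 ≤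
      14 * C ^ 2 * (t ^ 2 + ‖b‖ ^ 2 + z ^ 2) := by
  have hC0 : 0 ≤ C := zero_le_one.trans hC
  have hχ2 : χ ^ 2 ≤ 1 := pow_le_one₀ h0 h1
  have e1 : (χ * t) ^ 2 ≤ t ^ 2 := by
    rw [mul_pow]; nlinarith [sq_nonneg t]
  have e2 : ‖χ • b + t • a‖ ^ 2 ≤ 2 * ‖b‖ ^ 2 + 2 * (C ^ 2 * t ^ 2) := by
    have g1 : ‖χ • b + t • a‖ ≤ ‖b‖ + C * |t| := by
      calc ‖χ • b + t • a‖ ≤ ‖χ • b‖ + ‖t • a‖ := norm_add_le _ _
        _ = χ * ‖b‖ + |t| * ‖a‖ := by
            rw [norm_smul, norm_smul, Real.norm_of_nonneg h0, Real.norm_eq_abs]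
        _ ≤ 1 * ‖b‖ + |t| * C := by gcongr
        _ = ‖b‖ + C * |t| := by ring
    have g2 : (C * |t|) ^ 2 = C ^ 2 * t ^ 2 := by rw [mul_pow, sq_abs]
    nlinarith [norm_nonneg (χ • b + t • a), sq_nonneg (‖b‖ - C * |t|), norm_nonneg b]
  have e3 : (χ * z + t * h + 2 * ⟪a, b⟫) ^ 2 ≤
      3 * z ^ 2 + 3 * (C ^ 2 * t ^ 2) + 12 * (C ^ 2 * ‖b‖ ^ 2) := by
    have g1 : (χ * z) ^ 2 ≤ z ^ 2 := by
      rw [mul_pow]; nlinarith [sq_nonneg z]
    have g2 : (t * h) ^ 2 ≤ C ^ 2 * t ^ 2 := by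
      rw [mul_pow, mul_comm]
      have : h ^ 2 ≤ C ^ 2 := by
        rw [← sq_abs]; exact pow_le_pow_left₀ (abs_nonneg _) hh 2
      nlinarith [sq_nonneg t]
    have g3 : ⟪a, b⟫ ^ 2 ≤ C ^ 2 * ‖b‖ ^ 2 := by
      have g4 : |⟪a, b⟫| ≤ C * ‖b‖ :=
        (abs_real_inner_le_norm _ _).trans (mul_le_mul_of_nonneg_right ha (norm_nonneg _))
      rw [← sq_abs, ← mul_pow]
      exact pow_le_pow_left₀ (abs_nonneg _) g4 2
    nlinarith [sq_nonneg (χ * z - t * h), sq_nonneg (χ * z - 2 * ⟪a, b⟫),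
      sq_nonneg (t * h - 2 * ⟪a, b⟫)]
  have hC2 : 1 ≤ C ^ 2 := one_le_pow₀ hC
  nlinarith [sq_nonneg t, sq_nonneg z, sq_nonneg ‖b‖, mul_nonneg (sub_nonneg.2 hC2) (sq_nonneg t),
    mul_nonneg (sub_nonneg.2 hC2) (sq_nonneg ‖b‖), mul_nonneg (sub_nonneg.2 hC2) (sq_nonneg z)]

lemma norm_sum_sq_le {E : Type*} [NormedAddCommGroup E] {ι : Type*} (s : Finset ι)
    (v : ι → E) : ‖∑ a ∈ s, v a‖ ^ 2 ≤ s.card * ∑ a ∈ s, ‖v a‖ ^ 2 := by
  have h1 : ‖∑ a ∈ s, v a‖ ^ 2 ≤ (∑ a ∈ s, ‖v a‖) ^ 2 :=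
    pow_le_pow_left₀ (norm_nonneg _) (norm_sum_le _ _) 2
  exact h1.trans sq_sum_le_card_mul_sum_sq

/-- **Patching**: local approximations give `Appr`. -/
theorem appr_of_loc {B : BochS n κ X μ} (h0 : (fun _ : X => (0:ℝ)) ∈ B.core) (hm : CoreMul B)
    (hPU : CorePU B) (hloc : ∀ x₀ : X, ∃ O : Set X, IsOpen O ∧ x₀ ∈ O ∧ ApprOn B O) :
    Appr B := by
  classical
  intro u f S0 hu hb hf hw K hK ε hε
  choose O hOo hOx hOa using hloc
  obtain ⟨s, χ, hχ, hχ1, W, hWo, hKW, hW1⟩ := hPU K hK O hOo hOx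
  -- the constant `C`
  have hCa : ∀ a ∈ s, ∃ C : ℝ, (∀ᵐ x ∂μ, ‖B.G (χ a) x‖ ≤ C) ∧ ∀ᵐ x ∂μ, |tr (B.H (χ a) x)| ≤ C := by
    intro a ha
    obtain ⟨C1, _, _, hC1⟩ := BochS.test_bdd B.toGradS (B.core_test (hχ a ha).1)
    obtain ⟨C2, hC2⟩ := B.H_bdd (hχ a ha).1
    refine ⟨max C1 (√n * C2), ?_, ?_⟩
    · filter_upwards [hC1] with x hx using hx.trans (le_max_left _ _)
    · filter_upwards [hC2] with x hx
      exact (abs_tr_le _).trans ((mul_le_mul_of_nonneg_left hx (Real.sqrt_nonneg _)).trans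
        (le_max_right _ _))
  choose! Cf hCf1 hCf2 using hCa
  obtain ⟨C, hC1, hCC⟩ : ∃ C : ℝ, 1 ≤ C ∧ ∀ a ∈ s, Cf a ≤ C := by
    refine ⟨1 + ∑ a ∈ s, |Cf a|, ?_, fun a ha => ?_⟩
    · have : 0 ≤ ∑ a ∈ s, |Cf a| := Finset.sum_nonneg fun a _ => abs_nonneg _
      linarith
    · have : |Cf a| ≤ ∑ a ∈ s, |Cf a| :=
        Finset.single_le_sum (f := fun a => |Cf a|) (fun b _ => abs_nonneg _) ha
      linarith [le_abs_self (Cf a)]
  -- the local approximations
  set N : ℝ := (s.card : ℝ) with hN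
  have hN0 : 0 ≤ N := Nat.cast_nonneg _
  set δ : ℝ := ε / (14 * C ^ 2 * (N + 1) ^ 2) with hδ
  have hδ0 : 0 < δ := by positivity
  have hex : ∀ a ∈ s, ∃ w ∈ B.core, (∀ x, |w x| ≤ S0 + 1) ∧
      ∫ x in tsupport (χ a), err B u f w x ∂μ ≤ δ := fun a ha =>
    hOa a u f S0 hu hb hf hw (tsupport (χ a)) (B.core_test (hχ a ha).1).2.isCompact
      (hχ a ha).2.2 δ hδ0
  choose! w hwc hwb hwi using hex
  have hpc : ∀ a ∈ s, (fun x => χ a x * w a x) ∈ B.core := fun a ha =>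
    (hm (hχ a ha).1 (hwc a ha)).1
  obtain ⟨hsc, hsH, hsG⟩ := core_sum B h0 s hpc
  refine ⟨fun x => ∑ a ∈ s, χ a x * w a x, hsc, ?_, ?_⟩
  · -- sup bound
    intro x
    have hS : 0 ≤ S0 + 1 := by
      obtain ⟨w', _, hw', _⟩ := hOa x u f S0 hu hb hf hw ∅ isCompact_empty (empty_subset _) 1
        one_pos
      exact (abs_nonneg _).trans (hw' x)
    calc |∑ a ∈ s, χ a x * w a x| ≤ ∑ a ∈ s, |χ a x * w a x| := Finset.abs_sum_le_sum_abs _ _
      _ ≤ ∑ a ∈ s, χ a x * (S0 + 1) := by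
          refine Finset.sum_le_sum fun a ha => ?_
          rw [abs_mul, abs_of_nonneg ((hχ a ha).2.1 x)]
          exact mul_le_mul_of_nonneg_left (hwb a ha x) ((hχ a ha).2.1 x)
      _ = (∑ a ∈ s, χ a x) * (S0 + 1) := by rw [Finset.sum_mul]
      _ ≤ 1 * (S0 + 1) := mul_le_mul_of_nonneg_right (hχ1 x) hS
      _ = S0 + 1 := one_mul _
  · -- the integral bound
    set σ : X → ℝ := fun x => ∑ a ∈ s, χ a x with hσ
    obtain ⟨hσc, hσH, hσG⟩ := core_sum B h0 s fun a ha => (hχ a ha).1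
    have hone := tr_one B hm hσc hWo hW1
    have hmul : ∀ᵐ x ∂μ, ∀ a ∈ s, B.G (fun y => χ a y * w a y) x =
        χ a x • B.G (w a) x + w a x • B.G (χ a) x :=
      (eventually_all_finset s).2 fun a ha =>
        B.mul (B.core_test (hχ a ha).1).1 (B.core_test (hwc a ha)).1
    have hmulH : ∀ᵐ x ∂μ, ∀ a ∈ s, tr (B.H (fun y => χ a y * w a y) x) =
        χ a x * tr (B.H (w a) x) + w a x * tr (B.H (χ a) x) + 2 * ⟪B.G (χ a) x, B.G (w a) x⟫ :=
      (eventually_all_finset s).2 fun a ha => (hm (hχ a ha).1 (hwc a ha)).2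
    have hb1 : ∀ᵐ x ∂μ, ∀ a ∈ s, ‖B.G (χ a) x‖ ≤ C ∧ |tr (B.H (χ a) x)| ≤ C :=
      (eventually_all_finset s).2 fun a ha => by
        filter_upwards [hCf1 a ha, hCf2 a ha] with x e1 e2
        exact ⟨e1.trans (hCC a ha), e2.trans (hCC a ha)⟩
    have hb2 : ∀ᵐ x ∂μ, ∀ a ∈ s, x ∉ tsupport (χ a) → B.G (χ a) x = 0 ∧ B.H (χ a) x = 0 :=
      (eventually_all_finset s).2 fun a ha => by
        filter_upwards [BochS.G_supp B.toGradS (B.core_test (hχ a ha).1),
          B.H_supp (hχ a ha).1] with x e1 e2 hx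
        exact ⟨e1 hx, e2 hx⟩
    have key : ∀ᵐ x ∂μ, x ∈ K → err B u f (fun x => ∑ a ∈ s, χ a x * w a x) x ≤
        14 * C ^ 2 * N * ∑ a ∈ s, (tsupport (χ a)).indicator (err B u f (w a)) x := by
      filter_upwards [hsH, hsG, hσH, hσG, hone, hmul, hmulH, hb1, hb2] with
        x a1 a2 a3 a4 a5 a6 a7 a8 a9 hxK
      have hxW := hKW hxK
      obtain ⟨g0, t0⟩ := a5 hxW
      have s1 : ∑ a ∈ s, χ a x = 1 := hW1 x hxW
      have s2 : ∑ a ∈ s, B.G (χ a) x = 0 := by rw [← a4]; exact g0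
      have s3 : ∑ a ∈ s, tr (B.H (χ a) x) = 0 := by rw [← tr_sum, ← a3]; exact t0
      -- the three identities
      have d1 : (∑ a ∈ s, χ a x * w a x) - u x = ∑ a ∈ s, χ a x * (w a x - u x) := by
        simp only [mul_sub, Finset.sum_sub_distrib]
        rw [← Finset.sum_mul, s1, one_mul]
      have d2 : B.G (fun x => ∑ a ∈ s, χ a x * w a x) x - B.D u x =
          ∑ a ∈ s, (χ a x • (B.G (w a) x - B.D u x) + (w a x - u x) • B.G (χ a) x) := by
        rw [a2, Finset.sum_congr rfl a6]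
        simp only [smul_sub, sub_smul, Finset.sum_add_distrib, Finset.sum_sub_distrib]
        rw [← Finset.sum_smul, ← Finset.smul_sum, s1, s2]
        simp only [one_smul, smul_zero]
        abel
      have d3 : tr (B.H (fun x => ∑ a ∈ s, χ a x * w a x) x) - f x =
          ∑ a ∈ s, (χ a x * (tr (B.H (w a) x) - f x) + (w a x - u x) * tr (B.H (χ a) x) +
            2 * ⟪B.G (χ a) x, B.G (w a) x - B.D u x⟫) := by
        rw [a1, tr_sum, Finset.sum_congr rfl a7]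
        simp only [mul_sub, sub_mul, inner_sub_right, Finset.sum_add_distrib,
          Finset.sum_sub_distrib]
        rw [← Finset.sum_mul, ← Finset.mul_sum s (fun a => tr (B.H (χ a) x)), s1, s3]
        have : ∑ a ∈ s, 2 * ⟪B.G (χ a) x, B.D u x⟫ = 0 := by
          rw [← Finset.mul_sum, ← sum_inner, s2, inner_zero_left, mul_zero]
        rw [this]
        ring
      have b1 : ((∑ a ∈ s, χ a x * w a x) - u x) ^ 2 ≤
          N * ∑ a ∈ s, (χ a x * (w a x - u x)) ^ 2 := by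
        rw [d1]; exact sq_sum_le_card_mul_sum_sq
      have b2 : ‖B.G (fun x => ∑ a ∈ s, χ a x * w a x) x - B.D u x‖ ^ 2 ≤
          N * ∑ a ∈ s, ‖χ a x • (B.G (w a) x - B.D u x) + (w a x - u x) • B.G (χ a) x‖ ^ 2 := by
        rw [d2]; exact norm_sum_sq_le _ _
      have b3 : (tr (B.H (fun x => ∑ a ∈ s, χ a x * w a x) x) - f x) ^ 2 ≤
          N * ∑ a ∈ s, (χ a x * (tr (B.H (w a) x) - f x) + (w a x - u x) * tr (B.H (χ a) x) +
            2 * ⟪B.G (χ a) x, B.G (w a) x - B.D u x⟫) ^ 2 := by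
        rw [d3]; exact sq_sum_le_card_mul_sum_sq
      calc err B u f (fun x => ∑ a ∈ s, χ a x * w a x) x
          ≤ N * ∑ a ∈ s, ((χ a x * (w a x - u x)) ^ 2 +
              ‖χ a x • (B.G (w a) x - B.D u x) + (w a x - u x) • B.G (χ a) x‖ ^ 2 +
              (χ a x * (tr (B.H (w a) x) - f x) + (w a x - u x) * tr (B.H (χ a) x) +
                2 * ⟪B.G (χ a) x, B.G (w a) x - B.D u x⟫) ^ 2) := by
            rw [Finset.sum_add_distrib, Finset.sum_add_distrib, mul_add, mul_add]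
            exact add_le_add (add_le_add b1 b2) b3
        _ ≤ N * ∑ a ∈ s, 14 * C ^ 2 * (tsupport (χ a)).indicator (err B u f (w a)) x := by
            refine mul_le_mul_of_nonneg_left (Finset.sum_le_sum fun a ha => ?_) hN0
            by_cases hx : x ∈ tsupport (χ a)
            · rw [indicator_of_mem hx]
              have hle1 : χ a x ≤ 1 := by
                refine le_trans ?_ (hχ1 x)
                exact Finset.single_le_sum (f := fun a => χ a x)
                  (fun b hb => (hχ b hb).2.1 x) ha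
              exact piece_le ((hχ a ha).2.1 x) hle1 hC1 (a8 a ha).1 (a8 a ha).2
            · rw [indicator_of_notMem hx, image_eq_zero_of_notMem_tsupport hx, (a9 a ha hx).1,
                (a9 a ha hx).2]
              simp [tr]
        _ = 14 * C ^ 2 * N * ∑ a ∈ s, (tsupport (χ a)).indicator (err B u f (w a)) x := by
            rw [← Finset.mul_sum]; ring
    have hI : ∀ a ∈ s, Integrable ((tsupport (χ a)).indicator (err B u f (w a))) μ := fun a ha =>
      (err_integrable B hf (hwc a ha)).indicator (isClosed_tsupport _).measurableSet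
    have hIs : Integrable (fun x => 14 * C ^ 2 * N *
        ∑ a ∈ s, (tsupport (χ a)).indicator (err B u f (w a)) x) μ :=
      (integrable_finsetSum _ hI).const_mul _
    have hnn : ∀ x, 0 ≤ 14 * C ^ 2 * N *
        ∑ a ∈ s, (tsupport (χ a)).indicator (err B u f (w a)) x := fun x =>
      mul_nonneg (by positivity) (Finset.sum_nonneg fun a _ =>
        indicator_nonneg (fun y _ => err_nonneg B u f (w a) y) x)
    calc ∫ x in K, err B u f (fun x => ∑ a ∈ s, χ a x * w a x) x ∂μ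
        ≤ ∫ x in K, 14 * C ^ 2 * N *
            ∑ a ∈ s, (tsupport (χ a)).indicator (err B u f (w a)) x ∂μ := by
          refine integral_mono_of_nonneg (Eventually.of_forall fun x => err_nonneg _ _ _ _ _)
            hIs.integrableOn ?_
          exact (ae_restrict_iff' hK.measurableSet).2 key
      _ ≤ ∫ x, 14 * C ^ 2 * N *
            ∑ a ∈ s, (tsupport (χ a)).indicator (err B u f (w a)) x ∂μ :=
          setIntegral_le_integral hIs (Eventually.of_forall hnn)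
      _ = 14 * C ^ 2 * N * ∑ a ∈ s, ∫ x in tsupport (χ a), err B u f (w a) x ∂μ := by
          rw [integral_const_mul, integral_finsetSum _ hI]
          congr 1
          refine Finset.sum_congr rfl fun a _ => ?_
          rw [integral_indicator (isClosed_tsupport _).measurableSet]
      _ ≤ 14 * C ^ 2 * N * ∑ a ∈ s, δ := by
          refine mul_le_mul_of_nonneg_left (Finset.sum_le_sum hwi) (by positivity)
      _ = 14 * C ^ 2 * N * (N * δ) := by rw [Finset.sum_const, nsmul_eq_mul]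
      _ ≤ 14 * C ^ 2 * (N + 1) ^ 2 * δ := by
          have : N * N ≤ (N + 1) ^ 2 := by nlinarith
          have h2 : 0 ≤ 14 * C ^ 2 * δ := by positivity
          nlinarith
      _ = ε := by
          rw [hδ]; field_simp

end Crest.Agent.R247.App470
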