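import Crest.Prelude.Def_PointedLimit

/-!
# R247, assembly (1): from the volume-pinched theorem to the unit-scale effective theorem

* `approx_centre` : change of centre of an approximation to `ℝⁿ`;
* `HasRicciLowerBound.mono` : monotonicity of the Ricci lower bound;
* `VC`, `BGr`, `EFF2`, `EFF1` : literal statements; `eff1_of_eff2`.
-/

set_option autoImplicit false
noncomputable section
open Set Filter Topology MeasureTheory Metric
open scoped ContDiff Manifold ENNReal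
open Bundle Crest.GeometryTopology.CoordMetric Crest.GeometryTopology.ChartCurvature
  Crest.GeometryTopology.PointedLimit

namespace Crest.Agent.R247.Asm951

universe u

/-! ### change of centre -/

/-- change of centre of an approximation to `ℝⁿ`. -/
theorem approx_centre {M : Type*} [MetricSpace M] {n : ℕ} {q x : M} {R ε R' ε' ρ : ℝ}
    (h : IsScaledApprox 1 q (0 : EuclideanSpace ℝ (Fin n)) R ε) (hx : dist q x ≤ ρ)
    (hρR : ρ < R) (h0 : 0 < R) (h1 : R' + ρ ≤ R) (h2 : 2 * ε ≤ ε') (hε' : 0 < ε') :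
    IsScaledApprox 1 x (0 : EuclideanSpace ℝ (Fin n)) R' ε' := by
  obtain ⟨f, hf0, hf1, hf2⟩ := h
  simp only [one_mul] at hf1 hf2
  have hε : ε ≤ ε' := by
    by_cases h : 0 ≤ ε
    · linarith
    · linarith
  have hq : dist q q < R := by rw [dist_self]; exact h0
  have hxR : dist q x < R := by linarith
  have hdom : ∀ z : M, dist x z < R' → dist q z < R := fun z hz => by
    have := dist_triangle q x z
    linarith
  refine ⟨fun z => f z - f x, by simp, ?_, ?_⟩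
  · intro z z' hz hz'
    simp only [one_mul] at hz hz' ⊢
    rw [dist_sub_right]
    exact (hf1 z z' (hdom z hz) (hdom z' hz')).trans hε
  · intro y hy
    have h3 := (abs_le.1 (hf1 q x hq hxR)).2
    rw [hf0] at h3
    have h4 : dist (0 : EuclideanSpace ℝ (Fin n)) (y + f x) < R - ε := by
      have h5 : dist (0 : EuclideanSpace ℝ (Fin n)) (y + f x) ≤ dist 0 y + dist 0 (f x) := by
        simp only [dist_zero_left]
        exact norm_add_le _ _
      linarith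
    obtain ⟨z, hz, hz'⟩ := hf2 _ h4
    have h6 : dist (f z - f x) y ≤ ε := by
      rw [dist_eq_norm] at hz' ⊢
      rwa [sub_sub, add_comm (f x) y]
    have h7 := (abs_le.1 (hf1 x z hxR hz)).1
    have h8 : dist (f x) (f z) ≤ dist 0 y + ε := by
      have h9 : dist (f x) (f z) = dist 0 (f z - f x) := by
        rw [dist_zero_left, dist_comm, dist_eq_norm]
      rw [h9]
      have := dist_triangle 0 y (f z - f x)
      rw [dist_comm y] at this
      linarith
    refine ⟨z, ?_, h6.trans hε⟩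
    rw [one_mul]
    linarith

/-! ### the Ricci lower bound -/

section Ricci

variable {n : ℕ} {M : Type*} [TopologicalSpace M] [ChartedSpace (EuclideanSpace ℝ (Fin n)) M]
  [RiemannianBundle (fun x : M => TangentSpace 𝓘(ℝ, EuclideanSpace ℝ (Fin n)) x)]

theorem quadForm_chartMetric (x : M) (y v : EuclideanSpace ℝ (Fin n)) :
    quadForm (chartMetric n M x) y v =
      inner ℝ
        (mfderiv 𝓘(ℝ, EuclideanSpace ℝ (Fin n)) 𝓘(ℝ, EuclideanSpace ℝ (Fin n))
          (chartAt (EuclideanSpace ℝ (Fin n)) x).symm y v)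
        (mfderiv 𝓘(ℝ, EuclideanSpace ℝ (Fin n)) 𝓘(ℝ, EuclideanSpace ℝ (Fin n))
          (chartAt (EuclideanSpace ℝ (Fin n)) x).symm y v) := by
  let D : EuclideanSpace ℝ (Fin n) →L[ℝ] TangentSpace 𝓘(ℝ, EuclideanSpace ℝ (Fin n))
      ((chartAt (EuclideanSpace ℝ (Fin n)) x).symm y) :=
    mfderiv 𝓘(ℝ, EuclideanSpace ℝ (Fin n)) 𝓘(ℝ, EuclideanSpace ℝ (Fin n))
      (chartAt (EuclideanSpace ℝ (Fin n)) x).symm y
  have hD : ∀ w : EuclideanSpace ℝ (Fin n),
      mfderiv 𝓘(ℝ, EuclideanSpace ℝ (Fin n)) 𝓘(ℝ, EuclideanSpace ℝ (Fin n))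
        (chartAt (EuclideanSpace ℝ (Fin n)) x).symm y w = D w := fun _ => rfl
  have hv : (v : EuclideanSpace ℝ (Fin n)) = ∑ i, v i • EuclideanSpace.single i (1 : ℝ) := by
    ext j
    simp [Pi.single_apply]
  have hDv : D v = ∑ i, v i • D (EuclideanSpace.single i (1 : ℝ)) := by
    conv_lhs => rw [hv]
    rw [map_sum]
    simp only [map_smul]
  rw [hD v, hDv, sum_inner]
  unfold quadForm
  refine Finset.sum_congr rfl fun i _ => ?_
  rw [inner_sum]
  refine Finset.sum_congr rfl fun j _ => ?_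
  rw [real_inner_smul_left, real_inner_smul_right]
  simp only [chartMetric, Matrix.of_apply]
  rw [hD, hD]
  ring

theorem quadForm_chartMetric_nonneg (x : M) (y v : EuclideanSpace ℝ (Fin n)) :
    0 ≤ quadForm (chartMetric n M x) y v := by
  rw [quadForm_chartMetric]
  exact real_inner_self_nonneg

theorem ricci_mono [IsManifold 𝓘(ℝ, EuclideanSpace ℝ (Fin n)) ∞ M]
    [IsContMDiffRiemannianBundle 𝓘(ℝ, EuclideanSpace ℝ (Fin n)) ∞ (EuclideanSpace ℝ (Fin n))
      (fun x : M => TangentSpace 𝓘(ℝ, EuclideanSpace ℝ (Fin n)) x)] {K K' : ℝ} (hK : K' ≤ K)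
    (h : HasRicciLowerBound n M K) : HasRicciLowerBound n M K' := fun x v =>
  (mul_le_mul_of_nonneg_right hK (quadForm_chartMetric_nonneg x _ v)).trans (h x v)

end Ricci

/-! ### literal statements -/

/-- **Volume convergence** (block (3)): non-collapsed unit balls which are Gromov–Hausdorff close to
Euclidean ones at a large scale have almost Euclidean volume. -/
def VC (n : ℕ) : Prop := ∀ v δ : ℝ, 0 < v → 0 < δ → ∃ ε : ℝ, 0 < ε ∧
  ∀ (M : Type u) [MetricSpace M] [CompleteSpace M] [ConnectedSpace M]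
    [ChartedSpace (EuclideanSpace ℝ (Fin n)) M]
    [IsManifold 𝓘(ℝ, EuclideanSpace ℝ (Fin n)) ∞ M]
    [RiemannianBundle (fun x : M => TangentSpace 𝓘(ℝ, EuclideanSpace ℝ (Fin n)) x)]
    [IsContMDiffRiemannianBundle 𝓘(ℝ, EuclideanSpace ℝ (Fin n)) ∞ (EuclideanSpace ℝ (Fin n))
      (fun x : M => TangentSpace 𝓘(ℝ, EuclideanSpace ℝ (Fin n)) x)]
    [IsRiemannianManifold 𝓘(ℝ, EuclideanSpace ℝ (Fin n)) M]
    [MeasurableSpace M] [BorelSpace M] (x : M),
    HasRicciLowerBound n M (-ε) →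
    IsScaledApprox 1 x (0 : EuclideanSpace ℝ (Fin n)) (1 / ε) ε →
    ENNReal.ofReal v ≤ Measure.euclideanHausdorffMeasure n (ball x 1) →
    ENNReal.ofReal (1 - δ) * volume (ball (0 : EuclideanSpace ℝ (Fin n)) 1) ≤
      Measure.euclideanHausdorffMeasure n (ball x 1)

/-- **Bishop–Gromov** (block (6e)). -/
def BGr (n : ℕ) : Prop := ∀ δ : ℝ, 0 ≤ δ →
  ∀ (M : Type u) [MetricSpace M] [CompleteSpace M] [ConnectedSpace M]
    [ChartedSpace (EuclideanSpace ℝ (Fin n)) M]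
    [IsManifold 𝓘(ℝ, EuclideanSpace ℝ (Fin n)) ∞ M]
    [RiemannianBundle (fun x : M => TangentSpace 𝓘(ℝ, EuclideanSpace ℝ (Fin n)) x)]
    [IsContMDiffRiemannianBundle 𝓘(ℝ, EuclideanSpace ℝ (Fin n)) ∞ (EuclideanSpace ℝ (Fin n))
      (fun x : M => TangentSpace 𝓘(ℝ, EuclideanSpace ℝ (Fin n)) x)]
    [IsRiemannianManifold 𝓘(ℝ, EuclideanSpace ℝ (Fin n)) M]
    [MeasurableSpace M] [BorelSpace M] (x : M) (r R : ℝ),
    HasRicciLowerBound n M (-δ) → 0 < r → r ≤ R →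
    Measure.euclideanHausdorffMeasure n (ball x R) ≤
      ENNReal.ofReal (Real.exp (δ * R ^ 2 / 2) * (R / r) ^ n) *
        Measure.euclideanHausdorffMeasure n (ball x r)

/-- **The volume-pinched theorem**: bi-Lipschitz charts from volume pinching at all scales `≤ 1` and
all points of `ball q R₀`. -/
def EFF2 (n : ℕ) : Prop := ∃ L : ℝ, 1 ≤ L ∧ ∃ ρ : ℝ, 0 < ρ ∧ ρ ≤ 1 / 4 ∧ ∃ R₀ : ℝ, 1 ≤ R₀ ∧
  ∃ δ : ℝ, 0 < δ ∧
  ∀ (M : Type u) [MetricSpace M] [CompleteSpace M] [ConnectedSpace M]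
    [ChartedSpace (EuclideanSpace ℝ (Fin n)) M]
    [IsManifold 𝓘(ℝ, EuclideanSpace ℝ (Fin n)) ∞ M]
    [RiemannianBundle (fun x : M => TangentSpace 𝓘(ℝ, EuclideanSpace ℝ (Fin n)) x)]
    [IsContMDiffRiemannianBundle 𝓘(ℝ, EuclideanSpace ℝ (Fin n)) ∞ (EuclideanSpace ℝ (Fin n))
      (fun x : M => TangentSpace 𝓘(ℝ, EuclideanSpace ℝ (Fin n)) x)]
    [IsRiemannianManifold 𝓘(ℝ, EuclideanSpace ℝ (Fin n)) M]
    [MeasurableSpace M] [BorelSpace M] (q : M),
    HasRicciLowerBound n M (-δ) →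
    (∀ x ∈ ball q R₀, ∀ r : ℝ, 0 < r → r ≤ 1 →
      ENNReal.ofReal (1 - δ) * volume (ball (0 : EuclideanSpace ℝ (Fin n)) r) ≤
        Measure.euclideanHausdorffMeasure n (ball x r)) →
    ∃ F : M → EuclideanSpace ℝ (Fin n),
      (∀ x ∈ ball q (2 * ρ), ∀ z ∈ ball q (2 * ρ),
        L⁻¹ * dist x z ≤ dist (F x) (F z) ∧ dist (F x) (F z) ≤ L * dist x z) ∧
      (∀ x ∈ ball q ρ, ∀ s : ℝ, 0 < s → s ≤ ρ → ∀ y : EuclideanSpace ℝ (Fin n),
        dist (F x) y < s / L → ∃ z, dist x z < s ∧ F z = y)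

/-- **The unit-scale effective theorem.** -/
def EFF1 (n : ℕ) : Prop := ∃ L : ℝ, 1 ≤ L ∧ ∃ ρ : ℝ, 0 < ρ ∧ ρ ≤ 1 / 4 ∧
  ∀ v : ℝ, 0 < v → ∃ ε : ℝ, 0 < ε ∧
  ∀ (M : Type u) [MetricSpace M] [CompleteSpace M] [ConnectedSpace M]
    [ChartedSpace (EuclideanSpace ℝ (Fin n)) M]
    [IsManifold 𝓘(ℝ, EuclideanSpace ℝ (Fin n)) ∞ M]
    [RiemannianBundle (fun x : M => TangentSpace 𝓘(ℝ, EuclideanSpace ℝ (Fin n)) x)]
    [IsContMDiffRiemannianBundle 𝓘(ℝ, EuclideanSpace ℝ (Fin n)) ∞ (EuclideanSpace ℝ (Fin n))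
      (fun x : M => TangentSpace 𝓘(ℝ, EuclideanSpace ℝ (Fin n)) x)]
    [IsRiemannianManifold 𝓘(ℝ, EuclideanSpace ℝ (Fin n)) M]
    [MeasurableSpace M] [BorelSpace M] (q : M),
    HasRicciLowerBound n M (-ε) →
    IsScaledApprox 1 q (0 : EuclideanSpace ℝ (Fin n)) (1 / ε) ε →
    ENNReal.ofReal v ≤ Measure.euclideanHausdorffMeasure n (ball q 1) →
    ∃ F : M → EuclideanSpace ℝ (Fin n),
      (∀ x ∈ ball q (2 * ρ), ∀ z ∈ ball q (2 * ρ),
        L⁻¹ * dist x z ≤ dist (F x) (F z) ∧ dist (F x) (F z) ≤ L * dist x z) ∧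
      (∀ x ∈ ball q ρ, ∀ s : ℝ, 0 < s → s ≤ ρ → ∀ y : EuclideanSpace ℝ (Fin n),
        dist (F x) y < s / L → ∃ z, dist x z < s ∧ F z = y)

/-! ### real-number lemma -/

theorem volume_ball_scale {n : ℕ} (r : ℝ) (hr : 0 < r) :
    volume (ball (0 : EuclideanSpace ℝ (Fin n)) r) =
      ENNReal.ofReal (r ^ n) * volume (ball (0 : EuclideanSpace ℝ (Fin n)) 1) := by
  have := Measure.addHaar_ball_of_pos (volume : Measure (EuclideanSpace ℝ (Fin n)))
    (0 : EuclideanSpace ℝ (Fin n)) hr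
  simpa using this

theorem eff1_of_eff2 {n : ℕ} (hVC : VC.{u} n) (hBG : BGr.{u} n) (h2 : EFF2.{u} n) :
    EFF1.{u} n := by
  obtain ⟨L, hL, ρ, hρ, hρ4, R₀, hR₀, δ, hδ, H⟩ := h2
  refine ⟨L, hL, ρ, hρ, hρ4, fun v hv => ?_⟩
  -- the volume of all unit balls
  set c : ℝ := Real.exp (1 * (R₀ + 1) ^ 2 / 2) * (R₀ + 1) ^ n with hc
  have hc0 : 0 < c := by positivity
  obtain ⟨ε₁, hε₁, hV⟩ := hVC (v / c) (min δ 1 / 2) (by positivity) (by positivity)
  -- the final `ε`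
  set δ₁ : ℝ := min δ 1 with hδ₁
  have hδ₁0 : 0 < δ₁ := lt_min hδ one_pos
  have hδ₁1 : δ₁ ≤ 1 := min_le_right _ _
  set ε : ℝ := min (min (ε₁ / 2) (1 / (1 / ε₁ + R₀))) (δ₁ / 2) with hε
  have hε0 : 0 < ε := by positivity
  have e1 : ε ≤ ε₁ / 2 := (min_le_left _ _).trans (min_le_left _ _)
  have e2 : ε ≤ 1 / (1 / ε₁ + R₀) := (min_le_left _ _).trans (min_le_right _ _)
  have e3 : ε ≤ δ₁ / 2 := min_le_right _ _
  have e4 : 1 / ε₁ + R₀ ≤ 1 / ε := by
    rw [le_div_iff₀ hε0]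
    have h5 : 0 < 1 / ε₁ + R₀ := by positivity
    rw [le_div_iff₀ h5] at e2
    linarith
  refine ⟨ε, hε0, ?_⟩
  intro M _ _ _ _ _ _ _ _ _ _ q hRic hApp hvol
  refine H M q (ricci_mono (by linarith [min_le_left δ 1]) hRic) ?_
  intro x hx r hr hr1
  have hqx : dist q x < R₀ := by rw [dist_comm]; exact hx
  -- the unit ball at `x` is not collapsed
  have hx1 : ENNReal.ofReal (v / c) ≤ Measure.euclideanHausdorffMeasure n (ball x 1) := by
    have h3 : ball q 1 ⊆ ball x (R₀ + 1) := ball_subset_ball' (by linarith)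
    have h4 := hBG ε hε0.le M x 1 (R₀ + 1) hRic one_pos (by linarith)
    have h5 : Real.exp (ε * (R₀ + 1) ^ 2 / 2) * ((R₀ + 1) / 1) ^ n ≤ c := by
      rw [hc, div_one]
      have : ε ≤ 1 := by linarith
      gcongr
    have h6 : ENNReal.ofReal v ≤
        ENNReal.ofReal c * Measure.euclideanHausdorffMeasure n (ball x 1) :=
      (hvol.trans (measure_mono h3)).trans (h4.trans (by gcongr))
    rw [ENNReal.ofReal_div_of_pos hc0]
    exact ENNReal.div_le_of_le_mul' h6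
  -- closeness at `x`
  have hxA : IsScaledApprox 1 x (0 : EuclideanSpace ℝ (Fin n)) (1 / ε₁) ε₁ := by
    have h5 : 0 < 1 / ε₁ := by positivity
    exact approx_centre hApp hqx.le (by linarith) (by positivity) e4 (by linarith) hε₁
  have h7 := hV M x (ricci_mono (by linarith) hRic) hxA hx1
  -- all smaller scales
  have h8 := hBG ε hε0.le M x r 1 hRic hr hr1
  rw [volume_ball_scale r hr]
  -- numerical
  have h9 : ENNReal.ofReal (1 - δ) ≤
      ENNReal.ofReal (1 - δ₁ / 2) * ENNReal.ofReal (Real.exp (-(ε / 2))) := by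
    rw [← ENNReal.ofReal_mul (by linarith)]
    refine ENNReal.ofReal_le_ofReal ?_
    have h10 : 1 - ε / 2 ≤ Real.exp (-(ε / 2)) := by
      have := Real.add_one_le_exp (-(ε / 2))
      linarith
    have h11 : (1 - δ₁ / 2) * (1 - ε / 2) ≤ (1 - δ₁ / 2) * Real.exp (-(ε / 2)) :=
      mul_le_mul_of_nonneg_left h10 (by linarith)
    have h12 : δ₁ ≤ δ := min_le_left _ _
    nlinarith
  calc ENNReal.ofReal (1 - δ) *
        (ENNReal.ofReal (r ^ n) * volume (ball (0 : EuclideanSpace ℝ (Fin n)) 1))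
      ≤ ENNReal.ofReal (1 - δ₁ / 2) * ENNReal.ofReal (Real.exp (-(ε / 2))) *
        (ENNReal.ofReal (r ^ n) * volume (ball (0 : EuclideanSpace ℝ (Fin n)) 1)) := by gcongr
    _ = ENNReal.ofReal (Real.exp (-(ε / 2))) * ENNReal.ofReal (r ^ n) *
        (ENNReal.ofReal (1 - δ₁ / 2) * volume (ball (0 : EuclideanSpace ℝ (Fin n)) 1)) := by ring
    _ ≤ ENNReal.ofReal (Real.exp (-(ε / 2))) * ENNReal.ofReal (r ^ n) *
        (ENNReal.ofReal (Real.exp (ε * 1 ^ 2 / 2) * (1 / r) ^ n) *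
          Measure.euclideanHausdorffMeasure n (ball x r)) :=
        mul_le_mul_right (h7.trans h8) _
    _ = Measure.euclideanHausdorffMeasure n (ball x r) := by
        rw [← ENNReal.ofReal_mul (Real.exp_pos _).le, ← mul_assoc,
          ← ENNReal.ofReal_mul (by positivity)]
        have : Real.exp (-(ε / 2)) * r ^ n * (Real.exp (ε * 1 ^ 2 / 2) * (1 / r) ^ n) = 1 := by
          have h13 : Real.exp (-(ε / 2)) * Real.exp (ε * 1 ^ 2 / 2) = 1 := by
            rw [← Real.exp_add]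
            simp
          have h14 : r ^ n * (1 / r) ^ n = 1 := by
            rw [← mul_pow, mul_one_div_cancel hr.ne', one_pow]
          calc Real.exp (-(ε / 2)) * r ^ n * (Real.exp (ε * 1 ^ 2 / 2) * (1 / r) ^ n)
              = (Real.exp (-(ε / 2)) * Real.exp (ε * 1 ^ 2 / 2)) * (r ^ n * (1 / r) ^ n) := by ring
            _ = 1 := by rw [h13, h14, one_mul]
        rw [this, ENNReal.ofReal_one, one_mul]

end Crest.Agent.R247.Asm951
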