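import Mathlib.Geometry.Euclidean.Volume.Measure
import Mathlib.MeasureTheory.Measure.Lebesgue.EqHaar
import Mathlib.Analysis.SpecificLimits.Basic
import Mathlib.Topology.MetricSpace.Antilipschitz

/-!
# R247, LS4: openness clause from volume pinching

A map `F` from a complete metric space to `ℝⁿ` which is (up to a constant factor `c`) a near
isometry on a ball, the small balls of which have almost maximal `n`-volume, is quantitatively open.
No degree, no invariance of domain.
-/

set_option autoImplicit false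
noncomputable section
open Set Filter Topology Metric MeasureTheory
open scoped ENNReal NNReal MeasureTheory

namespace Crest.Agent.R247.Opn79

variable {n : ℕ} {X : Type*} [MetricSpace X] [MeasurableSpace X] [BorelSpace X]

/-- Euclidean space -/
abbrev E (n : ℕ) : Type := EuclideanSpace ℝ (Fin n)

/-- Expanding maps do not decrease the `n`-volume much. -/
theorem vol_le (F : X → E n) (S : Set X) (K : ℝ≥0)
    (h : ∀ x ∈ S, ∀ z ∈ S, dist x z ≤ K * dist (F x) (F z)) :
    μHE[n] S ≤ (K : ℝ≥0∞) ^ n * volume (F '' S) := by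
  classical
  rcases S.eq_empty_or_nonempty with rfl | ⟨x₀, hx₀⟩
  · simp
  have : Nonempty X := ⟨x₀⟩
  have hinj : InjOn F S := by
    intro x hx z hz hxz
    have := h x hx z hz
    rw [hxz, dist_self, mul_zero] at this
    exact dist_le_zero.1 this
  set g : E n → X := Function.invFunOn F S with hg
  have hgF : ∀ x ∈ S, g (F x) = x := fun x hx => hinj.leftInvOn_invFunOn hx
  have hL : LipschitzOnWith K g (F '' S) := by
    apply LipschitzOnWith.of_dist_le_mul
    rintro _ ⟨x, hx, rfl⟩ _ ⟨z, hz, rfl⟩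
    rw [hgF x hx, hgF z hz]
    exact h x hx z hz
  have hS : g '' (F '' S) = S := by
    ext x
    constructor
    · rintro ⟨_, ⟨z, hz, rfl⟩, rfl⟩
      rwa [hgF z hz]
    · intro hx
      exact ⟨F x, ⟨x, hx, rfl⟩, hgF x hx⟩
  have h1 := hL.hausdorffMeasure_image_le (d := (n : ℝ)) (by positivity)
  rw [hS] at h1
  rw [← EuclideanSpace.euclideanHausdorffMeasure_eq_volume n]
  simp_rw [MeasureTheory.Measure.euclideanHausdorffMeasure_def, Measure.smul_apply,
    ENNReal.smul_def, smul_eq_mul]
  rw [mul_left_comm]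
  gcongr
  simpa using h1

/-- volume of a Euclidean ball -/
theorem vol_ball (x : E n) {r : ℝ} (hr : 0 < r) :
    volume (ball x r) = ENNReal.ofReal (r ^ n) * volume (ball (0 : E n) 1) := by
  have := Measure.addHaar_ball_of_pos (volume : Measure (E n)) x hr
  simpa using this

theorem num (n : ℕ) : ∃ ε₀ : ℝ, 0 < ε₀ ∧ ε₀ ≤ 1 / 2 ∧ ∀ ε, 0 ≤ ε → ε ≤ ε₀ →
    (1 + ε) ^ n < (1 - ε) * (1 - ε) ^ n + (1 / 4) ^ n := by
  have hc : Continuous fun ε : ℝ => (1 - ε) * (1 - ε) ^ n + (1 / 4) ^ n - (1 + ε) ^ n := by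
    fun_prop
  have h0 : 0 < (fun ε : ℝ => (1 - ε) * (1 - ε) ^ n + (1 / 4) ^ n - (1 + ε) ^ n) 0 := by
    simp only [sub_zero, one_mul, one_pow, add_zero]
    have : (0 : ℝ) < (1 / 4) ^ n := by positivity
    linarith
  have h1 := (hc.tendsto 0).eventually (lt_mem_nhds h0)
  obtain ⟨r, hr, h2⟩ := Metric.eventually_nhds_iff.1 h1
  refine ⟨min (r / 2) (1 / 2), by positivity, min_le_right _ _, fun ε h3 h4 => ?_⟩
  have h5 : dist ε 0 < r := by
    rw [Real.dist_eq, sub_zero, abs_of_nonneg h3]
    have := min_le_left (r / 2) (1 / 2)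
    linarith
  have := h2 h5
  linarith

section One

variable {G : X → E n} {q : X} {R ε : ℝ}

/-- The image of a ball is dense in the Euclidean ball, at scale `1/4`. -/
theorem dense (hε : 0 ≤ ε) (hε1 : ε < 1)
    (hnum : (1 + ε) ^ n < (1 - ε) * (1 - ε) ^ n + (1 / 4) ^ n)
    (hG : ∀ x z : X, dist q x < R → dist q z < R → |dist (G x) (G z) - dist x z| ≤ ε * dist x z)
    {z : X} {s : ℝ} (hs : 0 < s) (hz : ∀ x, dist z x < s → dist q x < R)
    (hvol : ENNReal.ofReal (1 - ε) * volume (ball (0 : E n) s) ≤ μHE[n] (ball z s))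
    (w : E n) (hw : dist (G z) w ≤ s / 2) : ∃ z', dist z z' < s ∧ dist (G z') w < s / 4 := by
  by_contra hcon
  push Not at hcon
  have hzz : dist q z < R := hz z (by simpa using hs)
  set V := volume (ball (0 : E n) 1) with hV
  have hV0 : V ≠ 0 := (measure_ball_pos _ _ one_pos).ne'
  have hVt : V ≠ ∞ := measure_ball_lt_top.ne
  set S := ball z s with hS
  have hSin : ∀ x ∈ S, dist q x < R := fun x hx => hz x (by rw [dist_comm]; exact hx)
  have hbd : ∀ x ∈ S, ∀ y ∈ S, (1 - ε) * dist x y ≤ dist (G x) (G y) ∧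
      dist (G x) (G y) ≤ (1 + ε) * dist x y := by
    intro x hx y hy
    have := abs_le.1 (hG x y (hSin x hx) (hSin y hy))
    constructor <;> nlinarith [this.1, this.2]
  have h1ε : 0 < 1 - ε := by linarith
  set K : ℝ≥0 := ⟨(1 - ε)⁻¹, by positivity⟩ with hK
  have hKr : (K : ℝ) = (1 - ε)⁻¹ := rfl
  have h1 : μHE[n] S ≤ (K : ℝ≥0∞) ^ n * volume (G '' S) := by
    apply vol_le
    intro x hx y hy
    rw [hKr, inv_mul_eq_div, le_div_iff₀ h1ε, mul_comm]
    exact (hbd x hx y hy).1
  have h2 : volume (G '' S) + volume (ball w (s / 4)) ≤ volume (ball (G z) ((1 + ε) * s)) := by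
    have hd : Disjoint (G '' S) (ball w (s / 4)) := by
      rw [Set.disjoint_left]
      rintro _ ⟨x, hx, rfl⟩ hxw
      have := hcon x (by rw [dist_comm]; exact hx)
      exact absurd hxw (by simpa using this)
    rw [← measure_union hd measurableSet_ball]
    apply measure_mono
    apply union_subset
    · rintro _ ⟨x, hx, rfl⟩
      rw [mem_ball]
      have h3 := (hbd x hx z (mem_ball_self hs)).2
      have h4 : dist x z < s := hx
      calc dist (G x) (G z) ≤ (1 + ε) * dist x z := h3
        _ < (1 + ε) * s := by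
          apply mul_lt_mul_of_pos_left h4
          linarith
    · intro y hy
      rw [mem_ball] at hy ⊢
      calc dist y (G z) ≤ dist y w + dist w (G z) := dist_triangle _ _ _
        _ < s / 4 + s / 2 := by rw [dist_comm w]; linarith
        _ ≤ (1 + ε) * s := by nlinarith
  rw [vol_ball w (r := s / 4) (by positivity), vol_ball (G z) (r := (1 + ε) * s) (by positivity)]
    at h2
  rw [vol_ball _ hs] at hvol
  have h3 : volume (G '' S) ≠ ∞ := by
    intro h
    rw [h, top_add, top_le_iff] at h2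
    exact ENNReal.mul_ne_top (ENNReal.ofReal_ne_top) hVt h2
  -- go to real numbers
  set v := V.toReal with hv
  have hvpos : 0 < v := ENNReal.toReal_pos hV0 hVt
  set a := (volume (G '' S)).toReal with ha
  have h2' : a + (s / 4) ^ n * v ≤ ((1 + ε) * s) ^ n * v := by
    have := ENNReal.toReal_mono (ENNReal.mul_ne_top ENNReal.ofReal_ne_top hVt) h2
    rw [ENNReal.toReal_add h3 (ENNReal.mul_ne_top ENNReal.ofReal_ne_top hVt),
      ENNReal.toReal_mul, ENNReal.toReal_mul, ENNReal.toReal_ofReal (by positivity),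
      ENNReal.toReal_ofReal (by positivity)] at this
    exact this
  have h4 : (1 - ε) * (s ^ n * v) ≤ ((1 - ε)⁻¹) ^ n * a := by
    have h5 := hvol.trans h1
    have := ENNReal.toReal_mono (ENNReal.mul_ne_top (by simp) h3) h5
    rw [ENNReal.toReal_mul, ENNReal.toReal_mul, ENNReal.toReal_mul,
      ENNReal.toReal_ofReal (by positivity), ENNReal.toReal_ofReal (by positivity),
      ENNReal.toReal_pow] at this
    exact this
  have h5 : (1 - ε) ^ n * ((1 - ε) * (s ^ n * v)) ≤ a := by
    rw [inv_pow, inv_mul_eq_div, le_div_iff₀ (by positivity)] at h4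
    linarith
  have h6 : 0 < s ^ n * v := by positivity
  rw [div_pow, mul_pow] at h2'
  have h7 : (1 / 4 : ℝ) ^ n * (s ^ n * v) = s ^ n / 4 ^ n * v := by
    rw [div_pow, one_pow]; ring
  nlinarith [mul_lt_mul_of_pos_right hnum h6]

/-- **Quantitative surjectivity.** -/
theorem surj [CompleteSpace X] (hε : 0 ≤ ε) (hε1 : ε < 1)
    (hnum : (1 + ε) ^ n < (1 - ε) * (1 - ε) ^ n + (1 / 4) ^ n)
    (hG : ∀ x z : X, dist q x < R → dist q z < R → |dist (G x) (G z) - dist x z| ≤ ε * dist x z)
    (hvol : ∀ z s, 0 < s → (∀ x, dist z x < s → dist q x < R) →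
      ENNReal.ofReal (1 - ε) * volume (ball (0 : E n) s) ≤ μHE[n] (ball z s))
    {x : X} {y : E n} {t : ℝ} (ht : 0 < t) (hx : dist q x + 4 * t < R) (hy : dist (G x) y ≤ t) :
    ∃ z, dist x z ≤ 4 * t ∧ G z = y := by
  classical
  -- one step
  have step : ∀ (k : ℕ) (z : X), ∃ z', (dist x z ≤ 4 * t - 4 * (t / 2 ^ k) →
      dist (G z) y ≤ t / 2 ^ k → dist z z' ≤ 4 * t / 2 / 2 ^ k ∧
        dist x z' ≤ 4 * t - 4 * (t / 2 ^ (k + 1)) ∧ dist (G z') y ≤ t / 2 ^ (k + 1)) := by
    intro k z
    by_cases h : dist x z ≤ 4 * t - 4 * (t / 2 ^ k) ∧ dist (G z) y ≤ t / 2 ^ k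
    · obtain ⟨h1, h2⟩ := h
      have hk : 0 < t / 2 ^ k := by positivity
      have hin : ∀ w, dist z w < 2 * (t / 2 ^ k) → dist q w < R := by
        intro w hw
        have := dist_triangle4 q x z w
        linarith
      obtain ⟨z', h3, h4⟩ := dense (s := 2 * (t / 2 ^ k)) hε hε1 hnum hG (by positivity) hin
        (hvol z _ (by positivity) hin) y (by linarith)
      refine ⟨z', fun _ _ => ⟨?_, ?_, ?_⟩⟩
      · have : 4 * t / 2 / 2 ^ k = 2 * (t / 2 ^ k) := by ring
        rw [this]; exact h3.le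
      · have h5 : t / 2 ^ (k + 1) = t / 2 ^ k / 2 := by rw [pow_succ]; field_simp
        rw [h5]
        have := dist_triangle x z z'
        linarith
      · have h5 : t / 2 ^ (k + 1) = t / 2 ^ k / 2 := by rw [pow_succ]; field_simp
        rw [h5]; linarith
    · exact ⟨z, fun h1 h2 => absurd ⟨h1, h2⟩ h⟩
  choose f hf using step
  set u : ℕ → X := fun k => Nat.rec x (fun k z => f k z) k with hu
  have hu0 : u 0 = x := rfl
  have hus : ∀ k, u (k + 1) = f k (u k) := fun k => rfl
  have hinv : ∀ k, dist x (u k) ≤ 4 * t - 4 * (t / 2 ^ k) ∧ dist (G (u k)) y ≤ t / 2 ^ k := by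
    intro k
    induction k with
    | zero => simp [hu0, hy]
    | succ k ih =>
      rw [hus]
      exact (hf k (u k) ih.1 ih.2).2
  have hd : ∀ k, dist (u k) (u (k + 1)) ≤ 4 * t / 2 / 2 ^ k := by
    intro k
    rw [hus]
    exact (hf k (u k) (hinv k).1 (hinv k).2).1
  obtain ⟨z, hz⟩ := cauchySeq_tendsto_of_complete (cauchySeq_of_le_geometric_two hd)
  have hxz : dist x z ≤ 4 * t := dist_le_of_le_geometric_two_of_tendsto₀ hd hz
  refine ⟨z, hxz, ?_⟩
  have hzR : dist q z < R := by
    have := dist_triangle q x z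
    linarith
  have huR : ∀ k, dist q (u k) < R := by
    intro k
    have h1 := dist_triangle q x (u k)
    have h2 := (hinv k).1
    have h3 : 0 < t / 2 ^ k := by positivity
    linarith
  have h1 : ∀ k, dist (G z) y ≤ (1 + ε) * dist (u k) z + t / 2 ^ k := by
    intro k
    have h2 := abs_le.1 (hG (u k) z (huR k) hzR)
    have h3 := dist_triangle (G z) (G (u k)) y
    have h4 := dist_comm (G z) (G (u k))
    linarith [(hinv k).2, h2.2]
  have h2 : Tendsto (fun k : ℕ => (1 + ε) * dist (u k) z + t / 2 ^ k) atTop (𝓝 0) := by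
    have h3 : Tendsto (fun k : ℕ => dist (u k) z) atTop (𝓝 0) := by
      simpa using tendsto_iff_dist_tendsto_zero.1 hz
    have h4 : Tendsto (fun k : ℕ => t / 2 ^ k) atTop (𝓝 0) := by
      have := (tendsto_pow_atTop_nhds_zero_of_lt_one (r := (1 / 2 : ℝ)) (by norm_num)
        (by norm_num)).const_mul t
      simpa [div_eq_mul_inv] using this
    simpa using (h3.const_mul (1 + ε)).add h4
  have h3 : dist (G z) y ≤ 0 := ge_of_tendsto' h2 h1
  exact dist_le_zero.1 h3

end One

/-- **LS4**: bi-Lipschitz and openness clauses from a near isometry `c • F` and volume pinching. -/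
theorem chart_of_near [CompleteSpace X] {F : X → E n} {q : X} {R ε c ρ L : ℝ} (hc : 0 < c)
    (hε : 0 ≤ ε) (hε1 : ε ≤ 1 / 2)
    (hnum : (1 + ε) ^ n < (1 - ε) * (1 - ε) ^ n + (1 / 4) ^ n)
    (hF : ∀ x z : X, dist q x < R → dist q z < R →
      |c * dist (F x) (F z) - dist x z| ≤ ε * dist x z)
    (hvol : ∀ z s, 0 < s → (∀ x, dist z x < s → dist q x < R) →
      ENNReal.ofReal (1 - ε) * volume (ball (0 : E n) s) ≤ μHE[n] (ball z s))
    (hρ : 2 * ρ ≤ R) (hL : 4 * c ≤ L) (hL' : 2 / c ≤ L) :
    (∀ x z : X, dist q x < 2 * ρ → dist q z < 2 * ρ →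
      L⁻¹ * dist x z ≤ dist (F x) (F z) ∧ dist (F x) (F z) ≤ L * dist x z) ∧
    (∀ x : X, dist q x < ρ → ∀ s : ℝ, 0 < s → s ≤ ρ →
      ∀ y, dist (F x) y < s / L → ∃ z, dist x z < s ∧ F z = y) := by
  have hLpos : 0 < L := by linarith
  constructor
  · intro x z hx hz
    have h1 := abs_le.1 (hF x z (by linarith) (by linarith))
    have hd : 0 ≤ dist x z := dist_nonneg
    have hD : 0 ≤ dist (F x) (F z) := dist_nonneg
    constructor
    · rw [inv_mul_le_iff₀ hLpos]
      have h2 : dist x z ≤ 2 * (c * dist (F x) (F z)) := by nlinarith [h1.1]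
      nlinarith
    · have h2 : c * dist (F x) (F z) ≤ 2 * dist x z := by nlinarith [h1.2]
      have h3 : dist (F x) (F z) ≤ 2 / c * dist x z := by
        rw [div_mul_eq_mul_div, le_div_iff₀ hc]; linarith
      nlinarith
  · intro x hx s hs hsρ y hy
    by_cases hxy : F x = y
    · exact ⟨x, by simpa using hs, hxy⟩
    set G : X → E n := fun x => c • F x with hG
    have hGd : ∀ x z, dist (G x) (G z) = c * dist (F x) (F z) := by
      intro x z
      simp only [hG, dist_smul₀, Real.norm_eq_abs, abs_of_pos hc]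
    set t := dist (G x) (c • y) with ht
    have ht' : t = c * dist (F x) y := by
      simp only [ht, hG, dist_smul₀, Real.norm_eq_abs, abs_of_pos hc]
    have ht0 : 0 < t := by
      rw [ht']
      exact mul_pos hc (dist_pos.2 hxy)
    have hts : 4 * t < s := by
      rw [ht']
      rw [lt_div_iff₀ hLpos] at hy
      have : 0 ≤ dist (F x) y := dist_nonneg
      nlinarith
    obtain ⟨z, hz1, hz2⟩ := surj (G := G) (q := q) (R := R) (ε := ε) hε (by linarith) hnum
      (fun x z hx hz => by rw [hGd]; exact hF x z hx hz) hvol (x := x) (y := c • y) (t := t) ht0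
      (by linarith) le_rfl
    refine ⟨z, by linarith, ?_⟩
    exact smul_right_injective _ hc.ne' hz2

end Crest.Agent.R247.Opn79
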