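import Crest.Agent.R247.Asm1_951
import Crest.Agent.R247.Opn_79

/-!
# R247, assembly (2): from near isometries to bi-Lipschitz charts

* `EFF3` : the near-isometric form of the volume-pinched theorem;
* `eff2_of_eff3`, `eff1_of_eff3`.
-/

set_option autoImplicit false
noncomputable section
open Set Filter Topology MeasureTheory Metric
open scoped ContDiff Manifold ENNReal NNReal
open Bundle Crest.GeometryTopology.CoordMetric Crest.GeometryTopology.ChartCurvature
  Crest.GeometryTopology.PointedLimit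

namespace Crest.Agent.R247.Asm951

universe u

/-- **The near-isometric theorem**: for every `η`, volume pinching at all scales `≤ 1` and all
points of `ball q R₀` gives a map which is `η`-isometric (up to the constant factor `c`) on a ball
of a definite radius `ρ = ρ(η)`. -/
def EFF3 (n : ℕ) : Prop := ∃ c : ℝ, 0 < c ∧ ∀ η : ℝ, 0 < η → ∃ ρ : ℝ, 0 < ρ ∧ ∃ R₀ : ℝ, 0 < R₀ ∧
  ∃ δ : ℝ, 0 < δ ∧
  ∀ (M : Type u) [MetricSpace M] [CompleteSpace M] [ConnectedSpace M]
    [ChartedSpace (EuclideanSpace ℝ (Fin n)) M]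
    [IsManifold 𝓘(ℝ, EuclideanSpace ℝ (Fin n)) ∞ M]
    [RiemannianBundle (fun x : M => TangentSpace 𝓘(ℝ, EuclideanSpace ℝ (Fin n)) x)]
    [IsContMDiffRiemannianBundle 𝓘(ℝ, EuclideanSpace ℝ (Fin n)) ∞ (EuclideanSpace ℝ (Fin n))
      (fun x : M => TangentSpace 𝓘(ℝ, EuclideanSpace ℝ (Fin n)) x)]
    [IsRiemannianManifold 𝓘(ℝ, EuclideanSpace ℝ (Fin n)) M]
    [MeasurableSpace M] [BorelSpace M] (q : M),
    HasRicciLowerBound n M (-δ) →
    (∀ x ∈ ball q R₀, ∀ r : ℝ, 0 < r → r ≤ 1 →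
      ENNReal.ofReal (1 - δ) * volume (ball (0 : EuclideanSpace ℝ (Fin n)) r) ≤
        Measure.euclideanHausdorffMeasure n (ball x r)) →
    ∃ F : M → EuclideanSpace ℝ (Fin n),
      ∀ x ∈ ball q ρ, ∀ z ∈ ball q ρ,
        |c * dist (F x) (F z) - dist x z| ≤ η * dist x z

/-- On a small near-isometric ball there is no ball of radius `1` with almost full volume. -/
theorem radius_le_one {n : ℕ} (hn : n ≠ 0) {X : Type*} [MetricSpace X] [MeasurableSpace X]
    [BorelSpace X] {F : X → EuclideanSpace ℝ (Fin n)} {q : X} {R ε c : ℝ}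
    (hc : 0 < c) (hε : 0 ≤ ε) (hε1 : ε ≤ 1 / 2) (hR0 : 0 < R) (hR : R ≤ 1 / 6)
    (hF : ∀ x z : X, dist q x < R → dist q z < R →
      |c * dist (F x) (F z) - dist x z| ≤ ε * dist x z) {z : X}
    (hz : ∀ x, dist z x < 1 → dist q x < R) :
    ¬ (ENNReal.ofReal (3 / 4) * volume (ball (0 : EuclideanSpace ℝ (Fin n)) 1) ≤
      Measure.euclideanHausdorffMeasure n (ball z 1)) := by
  intro hvol
  set V := volume (ball (0 : EuclideanSpace ℝ (Fin n)) 1) with hV
  have hV0 : V ≠ 0 := (measure_ball_pos _ _ one_pos).ne'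
  have hVt : V ≠ ⊤ := measure_ball_lt_top.ne
  set G : X → EuclideanSpace ℝ (Fin n) := fun x => c • F x with hG
  have hGd : ∀ x z, dist (G x) (G z) = c * dist (F x) (F z) := by
    intro x z
    simp only [hG, dist_smul₀, Real.norm_eq_abs, abs_of_pos hc]
  have hqq : dist q q < R := by rw [dist_self]; exact hR0
  have h1 : Measure.euclideanHausdorffMeasure n (ball z 1) ≤
      ((2 : ℝ≥0) : ℝ≥0∞) ^ n * volume (G '' (ball z 1)) := by
    apply Opn79.vol_le
    intro x hx y hy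
    have hx' := hz x (by rw [dist_comm]; exact hx)
    have hy' := hz y (by rw [dist_comm]; exact hy)
    have := (abs_le.1 (hF x y hx' hy')).1
    rw [hGd]
    have hd : 0 ≤ dist x y := dist_nonneg
    push_cast
    nlinarith
  have h2 : G '' (ball z 1) ⊆ ball (G q) (1 / 4) := by
    rintro _ ⟨x, hx, rfl⟩
    have hx' := hz x (by rw [dist_comm]; exact hx)
    have := (abs_le.1 (hF x q hx' hqq)).2
    rw [mem_ball, hGd]
    have hd : dist x q < R := by rw [dist_comm]; exact hx'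
    nlinarith
  have h3 : volume (G '' (ball z 1)) ≤ ENNReal.ofReal ((1 / 4) ^ n) * V :=
    (measure_mono h2).trans (Opn79.vol_ball (G q) (by norm_num)).le
  have h4 : ENNReal.ofReal (3 / 4) * V ≤ ENNReal.ofReal (2 ^ n * (1 / 4) ^ n) * V := by
    calc ENNReal.ofReal (3 / 4) * V ≤ _ := hvol
      _ ≤ _ := h1
      _ ≤ ((2 : ℝ≥0) : ℝ≥0∞) ^ n * (ENNReal.ofReal ((1 / 4) ^ n) * V) := by gcongr
      _ = _ := by
        rw [ENNReal.ofReal_mul (by positivity), mul_assoc,
          ENNReal.ofReal_pow (by norm_num)]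
        congr 2
        simp
  have h5 := (ENNReal.mul_le_mul_iff_left hV0 hVt).1 h4
  rw [ENNReal.ofReal_le_ofReal_iff (by positivity), ← mul_pow] at h5
  have h6 : (2 * (1 / 4) : ℝ) ^ n ≤ 1 / 2 := by
    calc (2 * (1 / 4) : ℝ) ^ n ≤ (2 * (1 / 4)) ^ 1 :=
          pow_le_pow_of_le_one (by norm_num) (by norm_num) (Nat.one_le_iff_ne_zero.2 hn)
      _ = 1 / 2 := by norm_num
  linarith

theorem eff2_of_eff3 {n : ℕ} (h : EFF3.{u} n) : EFF2.{u} n := by
  obtain ⟨c, hc, h⟩ := h
  obtain ⟨ε₀, hε₀, hε₀', hnum⟩ := Opn79.num n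
  obtain ⟨ρ₁, hρ₁, R₀, hR₀, δ, hδ, H⟩ := h ε₀ hε₀
  set L : ℝ := max (max (4 * c) (2 / c)) 1 with hL
  set ρ : ℝ := min (ρ₁ / 2) (1 / 12) with hρ
  have hρ0 : 0 < ρ := by positivity
  have hρa : 2 * ρ ≤ ρ₁ := by
    have : ρ ≤ ρ₁ / 2 := min_le_left _ _
    linarith
  have hρb : ρ ≤ 1 / 12 := min_le_right _ _
  refine ⟨L, le_max_right _ _, ρ, hρ0, by linarith, max R₀ 1, le_max_right _ _,
    min δ (min ε₀ (1 / 4)), by positivity, ?_⟩
  intro M _ _ _ _ _ _ _ _ _ _ q hRic hpin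
  have hδa : min δ (min ε₀ (1 / 4)) ≤ δ := min_le_left _ _
  have hδb : min δ (min ε₀ (1 / 4)) ≤ ε₀ := (min_le_right _ _).trans (min_le_left _ _)
  have hδc : min δ (min ε₀ (1 / 4)) ≤ 1 / 4 := (min_le_right _ _).trans (min_le_right _ _)
  have hpin' : ∀ δ' : ℝ, min δ (min ε₀ (1 / 4)) ≤ δ' → ∀ x ∈ ball q (max R₀ 1), ∀ r : ℝ, 0 < r →
      r ≤ 1 → ENNReal.ofReal (1 - δ') * volume (ball (0 : EuclideanSpace ℝ (Fin n)) r) ≤
        Measure.euclideanHausdorffMeasure n (ball x r) := by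
    intro δ' hδ' x hx r hr hr1
    refine le_trans ?_ (hpin x hx r hr hr1)
    gcongr
  obtain ⟨F, hF⟩ := H M q (ricci_mono (by linarith) hRic)
    (fun x hx r hr hr1 => hpin' δ hδa x (ball_subset_ball (le_max_left _ _) hx) r hr hr1)
  -- near isometry on `ball q (2 ρ)`
  have hF' : ∀ x z : M, dist q x < 2 * ρ → dist q z < 2 * ρ →
      |c * dist (F x) (F z) - dist x z| ≤ ε₀ * dist x z := by
    intro x z hx hz
    exact hF x (by rw [mem_ball, dist_comm]; linarith) z (by rw [mem_ball, dist_comm]; linarith)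
  have hvol : ∀ z s, 0 < s → (∀ x, dist z x < s → dist q x < 2 * ρ) →
      ENNReal.ofReal (1 - ε₀) * volume (ball (0 : EuclideanSpace ℝ (Fin n)) s) ≤
        Measure.euclideanHausdorffMeasure n (ball z s) := by
    intro z s hs hzs
    have hzq : dist q z < 2 * ρ := hzs z (by rw [dist_self]; exact hs)
    have hzR : z ∈ ball q (max R₀ 1) := by
      rw [mem_ball, dist_comm]
      have : (1 : ℝ) ≤ max R₀ 1 := le_max_right _ _
      linarith
    rcases le_or_gt s 1 with hs1 | hs1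
    · exact hpin' ε₀ hδb z hzR s hs hs1
    · rcases Nat.eq_zero_or_pos n with hn | hn
      · subst hn
        have h1 : volume (ball (0 : EuclideanSpace ℝ (Fin 0)) s) =
            volume (ball (0 : EuclideanSpace ℝ (Fin 0)) 1) := by
          rw [volume_ball_scale s hs]
          simp
        rw [h1]
        exact (hpin' ε₀ hδb z hzR 1 one_pos le_rfl).trans (measure_mono (ball_subset_ball hs1.le))
      · exfalso
        refine radius_le_one hn.ne' hc hε₀.le hε₀' (R := 2 * ρ) (by positivity) (by linarith) hF'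
          (z := z) (fun x hx => hzs x (by linarith)) ?_
        have := hpin' (1 / 4) hδc z hzR 1 one_pos le_rfl
        norm_num at this ⊢
        exact this
  have key := Opn79.chart_of_near (F := F) (q := q) (R := 2 * ρ) (ε := ε₀) (c := c) (ρ := ρ)
    (L := L) hc hε₀.le hε₀' (hnum ε₀ hε₀.le le_rfl) hF' hvol le_rfl
    ((le_max_left _ _).trans (le_max_left _ _)) ((le_max_right _ _).trans (le_max_left _ _))
  refine ⟨F, ?_, ?_⟩
  · intro x hx z hz
    exact key.1 x z (by rw [dist_comm]; exact hx) (by rw [dist_comm]; exact hz)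
  · intro x hx s hs hsρ y hy
    exact key.2 x (by rw [dist_comm]; exact hx) s hs hsρ y hy

theorem eff1_of_eff3 {n : ℕ} (hVC : VC.{u} n) (hBG : BGr.{u} n) (h3 : EFF3.{u} n) :
    EFF1.{u} n :=
  eff1_of_eff2 hVC hBG (eff2_of_eff3 h3)

end Crest.Agent.R247.Asm951
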