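import Crest.Agent.R247.Mcp2_688

/-! # Lemma BL (doc 1392, sec. 2), part 1: laws of the two moving points, Markov selection -/

set_option autoImplicit false
set_option linter.unusedSectionVars false
open MeasureTheory Set Filter Topology
open scoped ENNReal NNReal

noncomputable section
namespace Crest.Agent.R247.BL562
open Crest.Agent.R247.Mcp688

/-- Markov selection of a point where two functions are at most three times their means. -/
lemma exists_good {Ω : Type*} [MeasurableSpace Ω] (P : Measure Ω) {f g : Ω → ℝ≥0∞}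
    {a b : ℝ≥0∞} (hf : AEMeasurable f P) (hg : AEMeasurable g P)
    (ha : 3 * ∫⁻ w, f w ∂P ≤ a * P univ) (hb : 3 * ∫⁻ w, g w ∂P ≤ b * P univ)
    (h0 : P univ ≠ 0) (ht : P univ ≠ ∞) {p : Ω → Prop} (hp : ∀ᵐ w ∂P, p w) :
    ∃ w, p w ∧ f w ≤ a ∧ g w ≤ b := by
  have key : ∀ {f : Ω → ℝ≥0∞} {a : ℝ≥0∞}, AEMeasurable f P →
      3 * ∫⁻ w, f w ∂P ≤ a * P univ → 3 * P {w | a < f w} ≤ P univ := by
    intro f a hf ha
    rcases eq_or_ne a 0 with h | h
    · subst h
      rw [zero_mul, nonpos_iff_eq_zero, mul_eq_zero] at ha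
      have h1 : ∫⁻ w, f w ∂P = 0 := ha.resolve_left (by norm_num)
      have h2 : P {w | 0 < f w} = 0 := by
        have h3 := (lintegral_eq_zero_iff' hf).1 h1
        have h4 : ∀ᵐ w ∂P, ¬ (0 < f w) := by
          filter_upwards [h3] with w hw
          simp [hw]
        simpa only [ae_iff, not_not] using h4
      rw [h2]; simp
    · rcases eq_or_ne a ∞ with h' | h'
      · subst h'
        have : {w | ∞ < f w} = ∅ := by ext w; simp
        rw [this]; simp
      · have h1 : a * P {w | a < f w} ≤ ∫⁻ w, f w ∂P :=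
          (mul_le_mul_right (measure_mono fun w (hw : a < f w) => hw.le) a).trans
            (mul_meas_ge_le_lintegral₀ hf a)
        have h2 : a * (3 * P {w | a < f w}) ≤ a * P univ := by
          calc a * (3 * P {w | a < f w}) = 3 * (a * P {w | a < f w}) := by ring
            _ ≤ 3 * ∫⁻ w, f w ∂P := by gcongr
            _ ≤ _ := ha
        exact (ENNReal.mul_le_mul_iff_right h h').1 h2
  by_contra hcon
  push Not at hcon
  have h1 : ∀ᵐ w ∂P, w ∈ {w | a < f w} ∪ {w | b < g w} := by
    filter_upwards [hp] with w hw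
    by_cases h : f w ≤ a
    · right; exact hcon w hw h
    · left; exact not_le.1 h
  have h2 : P univ ≤ P ({w | a < f w} ∪ {w | b < g w}) := by
    apply measure_mono_ae
    filter_upwards [h1] with w hw _
    exact hw
  have h3 : 3 * P univ ≤ P univ + P univ := by
    calc 3 * P univ ≤ 3 * (P {w | a < f w} + P {w | b < g w}) := by
          gcongr
          exact h2.trans (measure_union_le _ _)
      _ = 3 * P {w | a < f w} + 3 * P {w | b < g w} := by ring
      _ ≤ _ := add_le_add (key hf ha) (key hg hb)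
  have h4 : (3 : ℝ≥0∞) * P univ = P univ + P univ + P univ := by ring
  rw [h4] at h3
  have h5 : P univ + P univ < P univ + P univ + P univ :=
    ENNReal.lt_add_right (by simp [ht]) h0
  exact absurd h3 (not_le.2 h5)

variable {n : ℕ} {κ : ℝ} {X : Type*} [MetricSpace X] [MeasurableSpace X] [BorelSpace X]
  {μ : Measure X}

/-- the linear inward motion, `lam x z y 0 = |z|/|y|`, `lam x z y 1 = 1`. -/
def lam (x z y : X) (s : ℝ) : ℝ := dist x z / dist x y + s * (1 - dist x z / dist x y)

lemma measurable_lam (x : X) : Measurable (fun p : X × X × ℝ => lam x p.1 p.2.1 p.2.2) := by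
  have h : Measurable (fun z : X => dist x z) :=
    (continuous_const.dist continuous_id).measurable
  have h1 : Measurable (fun p : X × X × ℝ => dist x p.1) := h.comp measurable_fst
  have h2 : Measurable (fun p : X × X × ℝ => dist x p.2.1) :=
    h.comp (measurable_fst.comp measurable_snd)
  unfold lam
  exact (h1.div h2).add ((measurable_snd.comp measurable_snd).mul
    (measurable_const.sub (h1.div h2)))

lemma lam_mem {x z y : X} {s l : ℝ} (hs : s ∈ Icc (0 : ℝ) 1) (hl : l ≤ 1)
    (h1 : l ≤ dist x z / dist x y) (h2 : dist x z / dist x y ≤ 1) :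
    lam x z y s ∈ Icc l 1 := by
  unfold lam
  have := hs.1
  have := hs.2
  constructor <;> nlinarith

/-- **Joint law** of `c(s) = T z s y` and `Φ = T x (lam s) y'`, for independent `z, y, y'`. -/
theorem law_le (C : Rad n κ X μ) [SFinite μ] (hκ : 0 ≤ κ) (x : X) {B Bp S : Set X}
    (hB : MeasurableSet B) (hBp : MeasurableSet Bp) (hS : MeasurableSet S) {D : ℝ}
    (hD1 : ∀ z ∈ B, ∀ y ∈ Bp, dist z y ≤ D) (hD2 : ∀ y' ∈ S, dist x y' ≤ D)
    (hl : ∀ z ∈ B, ∀ y ∈ Bp, 1 / 4 ≤ dist x z / dist x y ∧ dist x z / dist x y ≤ 1)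
    {s : ℝ} (hs : s ∈ Icc (0 : ℝ) 1) {g : X × X → ℝ≥0∞} (hg : Measurable g) :
    ∫⁻ z in B, ∫⁻ y in Bp, ∫⁻ y' in S, g (C.T z s y, C.T x (lam x z y s) y') ∂μ ∂μ ∂μ ≤
      ENNReal.ofReal (Real.exp (κ * D ^ 2 / 2) * 4 ^ n) ^ 2 * (μ B + μ Bp) *
        ∫⁻ p, ∫⁻ q, g (p, q) ∂μ ∂μ := by
  set K : ℝ≥0∞ := ENNReal.ofReal (Real.exp (κ * D ^ 2 / 2) * 4 ^ n) with hK
  set G : X → ℝ≥0∞ := fun p => ∫⁻ q, g (p, q) ∂μ with hG
  have hGm : Measurable G := hg.lintegral_prod_right'
  have hKt : ∀ t : ℝ, 1 / 4 ≤ t → t ≤ 1 →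
      ENNReal.ofReal (Real.exp (κ * D ^ 2 / 2) * (t⁻¹) ^ n) ≤ K := by
    intro t h1 h2
    apply ENNReal.ofReal_le_ofReal
    have : t⁻¹ ≤ 4 := by
      rw [inv_le_comm₀ (by linarith) (by norm_num)]
      linarith
    have h0 : 0 ≤ t⁻¹ := by positivity
    gcongr
  -- inner integral
  have h1 : ∀ z ∈ B, ∀ y ∈ Bp,
      ∫⁻ y' in S, g (C.T z s y, C.T x (lam x z y s) y') ∂μ ≤ K * G (C.T z s y) := by
    intro z hz y hy
    have hlm := lam_mem (s := s) hs (by norm_num) (hl z hz y hy).1 (hl z hz y hy).2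
    have hgm : Measurable (fun q => g (C.T z s y, q)) := hg.comp (measurable_const.prodMk
      measurable_id)
    refine (C.setLIntegral_T_le hκ x (t := lam x z y s) ⟨by linarith [hlm.1], hlm.2⟩ hS
      MeasurableSet.univ hD2 (fun _ _ _ => mem_univ _) hgm).trans ?_
    rw [Measure.restrict_univ]
    exact mul_le_mul_left (hKt _ hlm.1 hlm.2) _
  have h2 : ∫⁻ z in B, ∫⁻ y in Bp, ∫⁻ y' in S,
        g (C.T z s y, C.T x (lam x z y s) y') ∂μ ∂μ ∂μ
      ≤ ∫⁻ z in B, ∫⁻ y in Bp, K * G (C.T z s y) ∂μ ∂μ := by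
    apply setLIntegral_mono' hB
    intro z hz
    apply setLIntegral_mono' hBp
    intro y hy
    exact h1 z hz y hy
  have hmT : Measurable (fun p : X × X => C.T p.1 s p.2) :=
    C.measT.comp (measurable_fst.prodMk (measurable_const.prodMk measurable_snd))
  have hKG : Measurable (fun p : X × X => K * G (C.T p.1 s p.2)) :=
    (hGm.comp hmT).const_mul K
  refine h2.trans ?_
  rcases le_total (1 / 2) s with hs2 | hs2
  · -- integrate in `y`
    calc ∫⁻ z in B, ∫⁻ y in Bp, K * G (C.T z s y) ∂μ ∂μ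
        ≤ ∫⁻ _ in B, K * (K * ∫⁻ p, G p ∂μ) ∂μ := by
          apply setLIntegral_mono' hB
          intro z hz
          rw [lintegral_const_mul' _ _ ENNReal.ofReal_ne_top]
          gcongr
          refine (C.setLIntegral_T_le hκ z (t := s) ⟨by linarith, hs.2⟩ hBp
            MeasurableSet.univ (hD1 z hz) (fun _ _ _ => mem_univ _) hGm).trans ?_
          rw [Measure.restrict_univ]
          exact mul_le_mul_left (hKt _ (by linarith) hs.2) _
      _ = K ^ 2 * μ B * ∫⁻ p, G p ∂μ := by rw [setLIntegral_const]; ring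
      _ ≤ _ := by
          gcongr
          exact le_self_add
  · -- integrate in `z`
    rw [lintegral_lintegral_swap hKG.aemeasurable]
    calc ∫⁻ y in Bp, ∫⁻ z in B, K * G (C.T z s y) ∂μ ∂μ
        ≤ ∫⁻ _ in Bp, K * (K * ∫⁻ p, G p ∂μ) ∂μ := by
          apply setLIntegral_mono' hBp
          intro y hy
          rw [lintegral_const_mul' _ _ ENNReal.ofReal_ne_top]
          gcongr
          have he : ∫⁻ z in B, G (C.T z s y) ∂μ = ∫⁻ z in B, G (C.T y (1 - s) z) ∂μ := by
            apply setLIntegral_congr_fun_ae hB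
            filter_upwards [C.ae_U y] with z hz _
            have := C.T_symm y z hz s hs
            rw [this]
          rw [he]
          refine (C.setLIntegral_T_le hκ y (t := 1 - s) ⟨by linarith, by linarith [hs.1]⟩ hB
            MeasurableSet.univ (D := D) (fun z hz => by rw [dist_comm]; exact hD1 z hz y hy)
            (fun _ _ _ => mem_univ _) hGm).trans ?_
          rw [Measure.restrict_univ]
          exact mul_le_mul_left (hKt _ (by linarith) (by linarith [hs.1])) _
      _ = K ^ 2 * μ Bp * ∫⁻ p, G p ∂μ := by rw [setLIntegral_const]; ring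
      _ ≤ _ := by
          gcongr
          exact le_add_self

end Crest.Agent.R247.BL562
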