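import Crest.Agent.R247.BL1_562

/-! # Lemma BL (doc 1392, sec. 2), part 2: first exit and the core theorem -/

set_option autoImplicit false
set_option linter.unusedSectionVars false
open MeasureTheory Set Filter Topology
open scoped ENNReal NNReal

noncomputable section
namespace Crest.Agent.R247.BL562
open Crest.Agent.R247.Mcp688

variable {n : ℕ} {κ : ℝ} {X : Type*} [MetricSpace X] [MeasurableSpace X] [BorelSpace X]
  {μ : Measure X}

/-- linear parameter from `th1` to `1` -/
def th (th1 s : ℝ) : ℝ := th1 + s * (1 - th1)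

lemma th_mem {th1 s : ℝ} (h0 : th1 ≤ 1) (hs : s ∈ Icc (0 : ℝ) 1) : th th1 s ∈ Icc th1 1 := by
  unfold th
  have := hs.1
  have := hs.2
  constructor <;> nlinarith

/-- `E` cut off outside the tube of radius `R` around `T x (th s) P`. -/
def cut (C : Rad n κ X μ) (x P : X) (th1 R : ℝ) (E : X → X → ℝ≥0∞) (s : ℝ) (p q : X) : ℝ≥0∞ :=
  {w : X × X | dist w.1 (C.T x (th th1 s) P) < R ∧ dist w.2 (C.T x (th th1 s) P) < R}.indicator
    (fun w => E w.1 w.2) (p, q)

lemma cut_of_mem {C : Rad n κ X μ} {x P : X} {th1 R : ℝ} {E : X → X → ℝ≥0∞} {s : ℝ} {p q : X}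
    (hp : dist p (C.T x (th th1 s) P) < R) (hq : dist q (C.T x (th th1 s) P) < R) :
    cut C x P th1 R E s p q = E p q := by
  unfold cut
  rw [indicator_of_mem]
  exact ⟨hp, hq⟩

lemma continuousOn_T {C : Rad n κ X μ} {x z : X} (h : (x, z) ∈ C.U) :
    ContinuousOn (fun t => C.T x t z) (Icc (0 : ℝ) 1) := by
  have : LipschitzOnWith (Real.toNNReal (dist x z)) (fun t => C.T x t z) (Icc (0 : ℝ) 1) := by
    apply LipschitzOnWith.of_dist_le_mul
    intro s hs t ht
    rw [C.dist_T x z h s hs t ht, Real.coe_toNNReal _ dist_nonneg, Real.dist_eq, mul_comm]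
  exact this.continuousOn

/-- **First exit** from the tube (downwards in the parameter, starting at `a = 1`). -/
lemma first_exit (C : Rad n κ X μ) {x z y y' P : X} (hzy : (z, y) ∈ C.U) (hP : (x, P) ∈ C.U)
    {E : X → X → ℝ≥0∞} {R A0 Z1 q0 e0 th1 : ℝ} (hth0 : 0 ≤ th1) (hth : th1 ≤ 1)
    (hl : 1 / 4 ≤ dist x z / dist x y) (hl' : dist x z / dist x y ≤ 1)
    (hA0 : 0 ≤ A0) (hZ1 : 0 ≤ Z1)
    (hmix : ∀ a ∈ Icc (0 : ℝ) 1,
      ENNReal.ofReal (dist (C.T z a y) (C.T x (lam x z y a) y') / lam x z y a) ≤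
        ENNReal.ofReal A0 + ENNReal.ofReal q0 *
          ∫⁻ s in Ioc a 1, E (C.T z s y) (C.T x (lam x z y s) y'))
    (htr : ∀ a ∈ Icc (0 : ℝ) 1,
      dist (C.T x (lam x z y a) y') (C.T x (th th1 a) P) ≤ e0)
    (hZ : ENNReal.ofReal q0 * ∫⁻ s in Icc (0 : ℝ) 1,
      cut C x P th1 R E s (C.T z s y) (C.T x (lam x z y s) y') ≤ ENNReal.ofReal Z1)
    (hR : A0 + Z1 + e0 < R) :
    dist (C.T z 0 y) (C.T x (lam x z y 0) y') ≤ lam x z y 0 * (A0 + Z1) := by
  have he0 : 0 ≤ e0 := dist_nonneg.trans (htr 0 ⟨le_rfl, zero_le_one⟩)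
  -- the bound at `a`, given that the tube has not been left on `(a, 1]`
  have hstep : ∀ a ∈ Icc (0 : ℝ) 1,
      (∀ s ∈ Ioc a 1, dist (C.T z s y) (C.T x (th th1 s) P) < R) →
      dist (C.T z a y) (C.T x (lam x z y a) y') ≤ lam x z y a * (A0 + Z1) := by
    intro a ha hs
    have hlm := lam_mem (s := a) ha (by norm_num) hl hl'
    have hlp : 0 < lam x z y a := by linarith [hlm.1]
    have h1 : ∫⁻ s in Ioc a 1, E (C.T z s y) (C.T x (lam x z y s) y') ≤
        ∫⁻ s in Icc (0 : ℝ) 1, cut C x P th1 R E s (C.T z s y) (C.T x (lam x z y s) y') := by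
      calc ∫⁻ s in Ioc a 1, E (C.T z s y) (C.T x (lam x z y s) y')
          = ∫⁻ s in Ioc a 1, cut C x P th1 R E s (C.T z s y) (C.T x (lam x z y s) y') := by
            apply setLIntegral_congr_fun measurableSet_Ioc
            intro s hs'
            dsimp only
            rw [cut_of_mem (hs s hs')]
            exact lt_of_le_of_lt (htr s ⟨ha.1.trans hs'.1.le, hs'.2⟩) (by linarith)
        _ ≤ _ := by
            apply lintegral_mono_set
            intro s hs'
            exact ⟨ha.1.trans hs'.1.le, hs'.2⟩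
    have h2 : ENNReal.ofReal (dist (C.T z a y) (C.T x (lam x z y a) y') / lam x z y a) ≤
        ENNReal.ofReal (A0 + Z1) := by
      rw [ENNReal.ofReal_add hA0 hZ1]
      refine (hmix a ha).trans ?_
      gcongr
      refine le_trans ?_ hZ
      gcongr
    have h3 := (ENNReal.ofReal_le_ofReal_iff (by positivity)).1 h2
    rw [div_le_iff₀ hlp] at h3
    linarith
  have hno : ∀ a ∈ Icc (0 : ℝ) 1, dist (C.T z a y) (C.T x (th th1 a) P) < R := by
    by_contra hcon
    push Not at hcon
    obtain ⟨a0, ha0, hRa0⟩ := hcon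
    set φ : ℝ → ℝ := fun a => dist (C.T z a y) (C.T x (th th1 a) P) with hφ
    have hc : ContinuousOn φ (Icc (0 : ℝ) 1) := by
      have h1 : ContinuousOn (fun a => C.T x (th th1 a) P) (Icc (0 : ℝ) 1) := by
        apply (continuousOn_T hP).comp (t := Icc (0 : ℝ) 1)
        · unfold th; fun_prop
        · intro s hs
          have := th_mem hth hs
          exact ⟨hth0.trans this.1, this.2⟩
      exact continuous_dist.comp_continuousOn ((continuousOn_T hzy).prodMk h1)
    set A : Set ℝ := Icc (0 : ℝ) 1 ∩ φ ⁻¹' Ici R with hA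
    have hAc : IsCompact A := by
      have h1 : IsClosed A := hc.preimage_isClosed_of_isClosed isClosed_Icc isClosed_Ici
      exact isCompact_Icc.of_isClosed_subset h1 inter_subset_left
    have hAn : A.Nonempty := ⟨a0, ha0, hRa0⟩
    have hmem := hAc.sSup_mem hAn
    set a1 := sSup A with ha1
    have hlt : ∀ s ∈ Ioc a1 1, dist (C.T z s y) (C.T x (th th1 s) P) < R := by
      intro s hs
      by_contra hcon
      have : s ∈ A := ⟨⟨hmem.1.1.trans hs.1.le, hs.2⟩, not_lt.1 hcon⟩
      have := le_csSup hAc.bddAbove this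
      linarith [hs.1]
    have h1 := hstep a1 hmem.1 hlt
    have hlm := lam_mem (s := a1) hmem.1 (by norm_num) hl hl'
    have h2 : dist (C.T z a1 y) (C.T x (lam x z y a1) y') ≤ A0 + Z1 := by
      refine h1.trans ?_
      have : 0 ≤ A0 + Z1 := by positivity
      nlinarith [hlm.2]
    have h3 : φ a1 ≤ A0 + Z1 + e0 := by
      calc φ a1 ≤ dist (C.T z a1 y) (C.T x (lam x z y a1) y') +
            dist (C.T x (lam x z y a1) y') (C.T x (th th1 a1) P) := dist_triangle _ _ _
        _ ≤ _ := add_le_add h2 (htr a1 hmem.1)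
    have h4 : R ≤ φ a1 := hmem.2
    linarith
  exact hstep 0 ⟨le_rfl, zero_le_one⟩ fun s hs => hno s ⟨hs.1.le, hs.2⟩

section measurability
variable [SecondCountableTopology X]

lemma measurable_cut (C : Rad n κ X μ) (x P : X) (th1 R : ℝ) {E : X → X → ℝ≥0∞}
    (hE : Measurable (Function.uncurry E)) :
    Measurable (fun p : ℝ × X × X => cut C x P th1 R E p.1 p.2.1 p.2.2) := by
  have hc : Measurable (fun p : ℝ × X × X => C.T x (th th1 p.1) P) := by
    have h1 : Measurable (fun s : ℝ => th th1 s) := by unfold th; fun_prop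
    exact C.measT.comp (measurable_const.prodMk ((h1.comp measurable_fst).prodMk
      measurable_const))
  have h1 : MeasurableSet {p : ℝ × X × X | dist p.2.1 (C.T x (th th1 p.1) P) < R} :=
    measurableSet_lt ((measurable_fst.comp measurable_snd).dist hc) measurable_const
  have h2 : MeasurableSet {p : ℝ × X × X | dist p.2.2 (C.T x (th th1 p.1) P) < R} :=
    measurableSet_lt ((measurable_snd.comp measurable_snd).dist hc) measurable_const
  have h3 : (fun p : ℝ × X × X => cut C x P th1 R E p.1 p.2.1 p.2.2) =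
      ({p : ℝ × X × X | dist p.2.1 (C.T x (th th1 p.1) P) < R} ∩
        {p : ℝ × X × X | dist p.2.2 (C.T x (th th1 p.1) P) < R}).indicator
        (fun p => Function.uncurry E p.2) := by
    funext p
    unfold cut
    by_cases h : dist p.2.1 (C.T x (th th1 p.1) P) < R ∧ dist p.2.2 (C.T x (th th1 p.1) P) < R
    · rw [indicator_of_mem (by exact h), indicator_of_mem (by exact ⟨h.1, h.2⟩)]
      rfl
    · rw [indicator_of_notMem (by exact h), indicator_of_notMem (fun hh => h ⟨hh.1, hh.2⟩)]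
  rw [h3]
  exact (hE.comp measurable_snd).indicator (h1.inter h2)

lemma lintegral_cut (C : Rad n κ X μ) (x P : X) (th1 R : ℝ) (E : X → X → ℝ≥0∞) (s : ℝ) :
    ∫⁻ p, ∫⁻ q, cut C x P th1 R E s p q ∂μ ∂μ =
      ∫⁻ p in Metric.ball (C.T x (th th1 s) P) R, ∫⁻ q in Metric.ball (C.T x (th th1 s) P) R,
        E p q ∂μ ∂μ := by
  rw [← lintegral_indicator Metric.isOpen_ball.measurableSet]
  congr 1
  funext p
  by_cases hp : p ∈ Metric.ball (C.T x (th th1 s) P) R
  · rw [indicator_of_mem hp, ← lintegral_indicator Metric.isOpen_ball.measurableSet]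
    congr 1
    funext q
    by_cases hq : q ∈ Metric.ball (C.T x (th th1 s) P) R
    · rw [indicator_of_mem hq, cut_of_mem (Metric.mem_ball.1 hp) (Metric.mem_ball.1 hq)]
    · rw [indicator_of_notMem hq]
      unfold cut
      rw [indicator_of_notMem]
      intro h
      exact hq (Metric.mem_ball.2 h.2)
  · rw [indicator_of_notMem hp]
    have : ∀ q, cut C x P th1 R E s p q = 0 := by
      intro q
      unfold cut
      rw [indicator_of_notMem]
      intro h
      exact hp (Metric.mem_ball.2 h.1)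
    simp [this]

/-- the map `(z, y, y', s) ↦ (s, c(s), Φ(s))` -/
lemma measurable_pos (C : Rad n κ X μ) (x : X) :
    Measurable (fun p : (X × X × X) × ℝ =>
      (p.2, C.T p.1.1 p.2 p.1.2.1, C.T x (lam x p.1.1 p.1.2.1 p.2) p.1.2.2)) := by
  have h1 : Measurable (fun p : (X × X × X) × ℝ => p.1.1) := measurable_fst.comp measurable_fst
  have h2 : Measurable (fun p : (X × X × X) × ℝ => p.1.2.1) :=
    measurable_fst.comp (measurable_snd.comp measurable_fst)
  have h3 : Measurable (fun p : (X × X × X) × ℝ => p.1.2.2) :=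
    measurable_snd.comp (measurable_snd.comp measurable_fst)
  have h4 : Measurable (fun p : (X × X × X) × ℝ => lam x p.1.1 p.1.2.1 p.2) :=
    (measurable_lam x).comp (h1.prodMk (h2.prodMk measurable_snd))
  exact measurable_snd.prodMk ((C.measT.comp (h1.prodMk (measurable_snd.prodMk h2))).prodMk
    (C.measT.comp (measurable_const.prodMk (h4.prodMk h3))))

/-- **Expected truncated error** along the two moving points. -/
theorem exp_cut_le (C : Rad n κ X μ) [SFinite μ] (hκ : 0 ≤ κ) (x P : X) (th1 R : ℝ)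
    {B Bp S : Set X}
    (hB : MeasurableSet B) (hBp : MeasurableSet Bp) (hS : MeasurableSet S) {D : ℝ}
    (hD1 : ∀ z ∈ B, ∀ y ∈ Bp, dist z y ≤ D) (hD2 : ∀ y' ∈ S, dist x y' ≤ D)
    (hl : ∀ z ∈ B, ∀ y ∈ Bp, 1 / 4 ≤ dist x z / dist x y ∧ dist x z / dist x y ≤ 1)
    {E : X → X → ℝ≥0∞} (hE : Measurable (Function.uncurry E)) :
    ∫⁻ w, (∫⁻ s in Icc (0 : ℝ) 1, cut C x P th1 R E s (C.T w.1 s w.2.1)
        (C.T x (lam x w.1 w.2.1 s) w.2.2))
        ∂((μ.restrict B).prod ((μ.restrict Bp).prod (μ.restrict S))) ≤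
      ENNReal.ofReal (Real.exp (κ * D ^ 2 / 2) * 4 ^ n) ^ 2 * (μ B + μ Bp) *
        ∫⁻ s in Icc (0 : ℝ) 1, ∫⁻ p in Metric.ball (C.T x (th th1 s) P) R,
          ∫⁻ q in Metric.ball (C.T x (th th1 s) P) R, E p q ∂μ ∂μ := by
  have hm := (measurable_cut C x P th1 R hE).comp (measurable_pos C x)
  have hm' : Measurable (fun p : (X × X × X) × ℝ => cut C x P th1 R E p.2
      (C.T p.1.1 p.2 p.1.2.1) (C.T x (lam x p.1.1 p.1.2.1 p.2) p.1.2.2)) := hm
  rw [lintegral_lintegral_swap (f := fun (w : X × X × X) (s : ℝ) => cut C x P th1 R E s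
    (C.T w.1 s w.2.1) (C.T x (lam x w.1 w.2.1 s) w.2.2)) hm'.aemeasurable]
  have hm3 : Measurable (fun p : ℝ × X => ∫⁻ q, cut C x P th1 R E p.1 p.2 q ∂μ) := by
    have : Measurable (fun p : (ℝ × X) × X => cut C x P th1 R E p.1.1 p.1.2 p.2) :=
      (measurable_cut C x P th1 R hE).comp ((measurable_fst.comp measurable_fst).prodMk
        ((measurable_snd.comp measurable_fst).prodMk measurable_snd))
    exact this.lintegral_prod_right'
  have hm4 : Measurable (fun s : ℝ => ∫⁻ p, ∫⁻ q, cut C x P th1 R E s p q ∂μ ∂μ) :=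
    hm3.lintegral_prod_right'
  simp_rw [← lintegral_cut C x P th1 R E]
  rw [← lintegral_const_mul _ hm4]
  apply setLIntegral_mono (hm4.const_mul _)
  intro s hs
  have hms : Measurable (fun w : X × X × X => cut C x P th1 R E s (C.T w.1 s w.2.1)
      (C.T x (lam x w.1 w.2.1 s) w.2.2)) := hm'.comp (measurable_id.prodMk measurable_const)
  rw [lintegral_prod _ hms.aemeasurable]
  have h1 : ∀ z : X, ∫⁻ w : X × X, cut C x P th1 R E s (C.T z s w.1) (C.T x (lam x z w.1 s) w.2)
      ∂((μ.restrict Bp).prod (μ.restrict S)) =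
      ∫⁻ y in Bp, ∫⁻ y' in S, cut C x P th1 R E s (C.T z s y) (C.T x (lam x z y s) y') ∂μ ∂μ := by
    intro z
    rw [lintegral_prod]
    exact (hms.comp (measurable_const.prodMk measurable_id)).aemeasurable
  simp_rw [h1]
  have hg : Measurable (fun w : X × X => cut C x P th1 R E s w.1 w.2) :=
    (measurable_cut C x P th1 R hE).comp (measurable_const.prodMk measurable_id)
  exact law_le C hκ x hB hBp hS hD1 hD2 hl hs hg

end measurability

end Crest.Agent.R247.BL562
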