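import Crest.Agent.R247.BL2_562

/-! # Lemma BL (doc 1392, sec. 2), part 3: the core theorem -/

set_option autoImplicit false
set_option linter.unusedSectionVars false
open MeasureTheory Set Filter Topology Metric
open scoped ENNReal NNReal

noncomputable section
namespace Crest.Agent.R247.BL562
open Crest.Agent.R247.Mcp688

variable {n : ℕ} {κ : ℝ} {X : Type*} [MetricSpace X] [MeasurableSpace X] [BorelSpace X]
  {μ : Measure X}

/-- elementary bounds for the radii of `z ∈ ball b ρ0`, `y ∈ ball bp ρ0` -/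
lemma radii {z1 y1 r0 r1 ρ0 : ℝ} (hρ0 : 0 < ρ0) (hz : |z1 - r0| ≤ ρ0) (hy : |y1 - r1| ≤ ρ0)
    (h12 : r1 ≤ 2 * r0) (hρ : 8 * ρ0 ≤ r1 - r0) :
    0 < z1 ∧ z1 ≤ y1 ∧ 1 / 4 ≤ z1 / y1 ∧ z1 / y1 ≤ 1 ∧ (r0 - 2 * ρ0) / r1 ≤ z1 / y1 ∧
      |z1 / y1 - r0 / r1| * r1 ≤ 3 * ρ0 ∧
      (1 - z1 / y1) / (z1 / y1) ^ 2 ≤ 22 * (1 - r0 / r1) := by
  have hz' := abs_le.1 hz
  have hy' := abs_le.1 hy
  have hr0 : 8 * ρ0 ≤ r0 := by linarith
  have hr1 : 16 * ρ0 ≤ r1 := by linarith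
  have hr1p : 0 < r1 := by linarith
  have hz1 : 0 < z1 := by linarith
  have hzy : z1 ≤ y1 := by linarith
  have hy1 : 0 < y1 := by linarith
  have h4 : 1 / 4 ≤ z1 / y1 := by
    rw [le_div_iff₀ hy1]; linarith
  have hle : z1 / y1 ≤ 1 := (div_le_one hy1).2 hzy
  refine ⟨hz1, hzy, h4, hle, ?_, ?_, ?_⟩
  · rw [div_le_div_iff₀ hr1p hy1]
    nlinarith
  · have h5 : (z1 / y1 - r0 / r1) * r1 = ((z1 - r0) * r1 + r0 * (r1 - y1)) / y1 := by
      field_simp; ring
    have h6 : |z1 / y1 - r0 / r1| * r1 = |((z1 - r0) * r1 + r0 * (r1 - y1)) / y1| := by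
      rw [← h5, abs_mul, abs_of_pos hr1p]
    rw [h6, abs_div, abs_of_pos hy1, div_le_iff₀ hy1]
    have h7 : |(z1 - r0) * r1 + r0 * (r1 - y1)| ≤ ρ0 * r1 + r0 * ρ0 := by
      refine (abs_add_le _ _).trans ?_
      rw [abs_mul, abs_mul, abs_of_pos hr1p, abs_of_pos (by linarith : 0 < r0), abs_sub_comm r1]
      have h0r : 0 ≤ r0 := by linarith
      gcongr
    nlinarith
  · have h8 : 0 < z1 / y1 := by positivity
    have h9 : 1 - z1 / y1 ≤ 4 / 3 * (1 - r0 / r1) := by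
      have : 1 - z1 / y1 = (y1 - z1) / y1 := by field_simp
      have h' : 1 - r0 / r1 = (r1 - r0) / r1 := by field_simp
      rw [this, h', ← mul_div_assoc, div_le_div_iff₀ hy1 hr1p]
      nlinarith
    have h10 : 0 ≤ 1 - z1 / y1 := by linarith
    have h11 : 0 ≤ 1 - r0 / r1 := by linarith
    rw [div_le_iff₀ (by positivity)]
    have h12 : 1 / 16 ≤ (z1 / y1) ^ 2 := by nlinarith
    nlinarith

/-- The bracket in Lemma BL. -/
def QQ (ρ0 Cx l0 xb Z : ℝ) : ℝ :=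
  (14 + 8 * Cx) * ρ0 + 4 * Real.sqrt (6 * l0 * xb) + 12 * Cx * xb + Z

set_option maxHeartbeats 1600000 in
/-- **Lemma BL**, core form. -/
theorem bl_core [SFinite μ] [SecondCountableTopology X] (C : Rad n κ X μ) (hκ : 0 ≤ κ)
    {x b bp P : X} (hP : (x, P) ∈ C.U) {r0 r1 ρ0 R D Cx xb Z0 : ℝ}
    (hρ0 : 0 < ρ0) (hb : dist x b = r0) (hbp : dist x bp = r1) (hPr : dist x P = r1)
    (h12 : r1 ≤ 2 * r0) (hρ : 8 * ρ0 ≤ r1 - r0) (hD : 3 * r1 ≤ D)
    {S : Set X} (hS : MeasurableSet S) (hSb : S ⊆ ball P ρ0)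
    (htr : ∀ y' ∈ S, ∀ t ∈ Icc ((r0 - 2 * ρ0) / r1) 1,
      dist (C.T x t y') (C.T x t P) ≤ 2 * ρ0)
    (hB0 : μ (ball b ρ0) ≠ 0) (hBp0 : μ (ball bp ρ0) ≠ 0) (hS0 : μ S ≠ 0)
    (hBt : μ (ball b ρ0) ≠ ∞) (hBpt : μ (ball bp ρ0) ≠ ∞) (hSt : μ S ≠ ∞)
    {E : X → X → ℝ≥0∞} (hE : Measurable (Function.uncurry E)) (hCx : 0 ≤ Cx)
    (hmix : ∀ᵐ p ∂(μ.prod (μ.prod μ)), p.1 ∈ ball b ρ0 → p.2.1 ∈ ball bp ρ0 → p.2.2 ∈ S →
      ∀ a ∈ Icc (0 : ℝ) 1,
      ENNReal.ofReal (dist (C.T p.1 a p.2.1) (C.T x (lam x p.1 p.2.1 a) p.2.2) /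
          lam x p.1 p.2.1 a) ≤
        ENNReal.ofReal (dist p.2.1 p.2.2 +
          (Real.sqrt (2 * dist p.1 p.2.1 * (dist x p.1 + dist p.1 p.2.1 - dist x p.2.1)) +
            Cx * (dist x p.1 + dist p.1 p.2.1 - dist x p.2.1) +
            Cx * (1 - dist x p.1 / dist x p.2.1) * |dist x p.2.1 - dist x p.2.2|) /
            (dist x p.1 / dist x p.2.1)) +
        ENNReal.ofReal ((1 - dist x p.1 / dist x p.2.1) / (dist x p.1 / dist x p.2.1) ^ 2) *
          ∫⁻ s in Ioc a 1, E (C.T p.1 s p.2.1) (C.T x (lam x p.1 p.2.1 s) p.2.2))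
    (hxb0 : 0 ≤ xb)
    (hxb : ∫⁻ z in ball b ρ0, ∫⁻ y in ball bp ρ0,
        ENNReal.ofReal (dist x z + dist z y - dist x y) ∂μ ∂μ ≤
      ENNReal.ofReal xb * (μ (ball b ρ0) * μ (ball bp ρ0)))
    (hZ00 : 0 ≤ Z0)
    (hZ : 3 * (ENNReal.ofReal (Real.exp (κ * D ^ 2 / 2) * 4 ^ n) ^ 2 *
        (μ (ball b ρ0) + μ (ball bp ρ0)) *
        ∫⁻ s in Icc (0 : ℝ) 1, ∫⁻ p in ball (C.T x (th (r0 / r1) s) P) R,
          ∫⁻ q in ball (C.T x (th (r0 / r1) s) P) R, E p q ∂μ ∂μ) ≤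
      ENNReal.ofReal Z0 * (μ (ball b ρ0) * (μ (ball bp ρ0) * μ S)))
    (hR : dist bp P + QQ ρ0 Cx (dist b bp + 2 * ρ0) xb (22 * (1 - r0 / r1) * Z0) < R) :
    dist b (C.T x (r0 / r1) P) / r0 ≤ dist bp P / r1 +
      QQ ρ0 Cx (dist b bp + 2 * ρ0) xb (22 * (1 - r0 / r1) * Z0) / r0 := by
  set B := ball b ρ0 with hBdef
  set Bp := ball bp ρ0 with hBpdef
  have hr0 : 8 * ρ0 ≤ r0 := by linarith
  have hr0p : 0 < r0 := by linarith
  have hr1 : 16 * ρ0 ≤ r1 := by linarith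
  have hr1p : 0 < r1 := by linarith
  have hθ0 : 0 ≤ r0 / r1 := by positivity
  have hθ1 : r0 / r1 ≤ 1 := (div_le_one hr1p).2 (by linarith)
  have hzr : ∀ z ∈ B, |dist x z - r0| ≤ ρ0 := by
    intro z hz
    have h1 := abs_dist_sub_le z b x
    rw [dist_comm z x, dist_comm b x, hb] at h1
    exact h1.trans (mem_ball.1 hz).le
  have hyr : ∀ y ∈ Bp, |dist x y - r1| ≤ ρ0 := by
    intro z hz
    have h1 := abs_dist_sub_le z bp x
    rw [dist_comm z x, dist_comm bp x, hbp] at h1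
    exact h1.trans (mem_ball.1 hz).le
  have hy'r : ∀ y ∈ S, |dist x y - r1| ≤ ρ0 := by
    intro z hz
    have h1 := abs_dist_sub_le z P x
    rw [dist_comm z x, dist_comm P x, hPr] at h1
    exact h1.trans (mem_ball.1 (hSb hz)).le
  have hl : ∀ z ∈ B, ∀ y ∈ Bp, 1 / 4 ≤ dist x z / dist x y ∧ dist x z / dist x y ≤ 1 := by
    intro z hz y hy
    have h := radii hρ0 (hzr z hz) (hyr y hy) h12 hρ
    exact ⟨h.2.2.1, h.2.2.2.1⟩
  have hBm : MeasurableSet B := isOpen_ball.measurableSet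
  have hBpm : MeasurableSet Bp := isOpen_ball.measurableSet
  have hDzy : ∀ z ∈ B, ∀ y ∈ Bp, dist z y ≤ D := by
    intro z hz y hy
    have h1 := abs_le.1 (hzr z hz)
    have h2 := abs_le.1 (hyr y hy)
    have h3 := dist_triangle z x y
    rw [dist_comm z x] at h3
    linarith
  have hDy' : ∀ y' ∈ S, dist x y' ≤ D := by
    intro y hy
    have h2 := abs_le.1 (hy'r y hy)
    linarith
  -- the probability space
  set P3 : Measure (X × X × X) :=
    (μ.restrict B).prod ((μ.restrict Bp).prod (μ.restrict S)) with hP3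
  have hP3' : P3 = (μ.prod (μ.prod μ)).restrict (B ×ˢ (Bp ×ˢ S)) := by
    rw [hP3, Measure.prod_restrict, Measure.prod_restrict]
  have hP3u : P3 univ = μ B * (μ Bp * μ S) := by
    rw [hP3', Measure.restrict_apply_univ, Measure.prod_prod, Measure.prod_prod]
  have hP30 : P3 univ ≠ 0 := by
    rw [hP3u]
    exact mul_ne_zero hB0 (mul_ne_zero hBp0 hS0)
  have hP3t : P3 univ ≠ ∞ := by
    rw [hP3u]
    exact ENNReal.mul_ne_top hBt (ENNReal.mul_ne_top hBpt hSt)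
  -- the excess
  have hmexc : Measurable (fun w : X × X => ENNReal.ofReal
      (dist x w.1 + dist w.1 w.2 - dist x w.2)) := by
    have h : Measurable (fun z : X => dist x z) :=
      (continuous_const.dist continuous_id).measurable
    exact (((h.comp measurable_fst).add (measurable_fst.dist measurable_snd)).sub
      (h.comp measurable_snd)).ennreal_ofReal
  have hf1 : Measurable (fun w : X × X × X => ENNReal.ofReal
      (dist x w.1 + dist w.1 w.2.1 - dist x w.2.1)) :=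
    hmexc.comp (measurable_fst.prodMk (measurable_fst.comp measurable_snd))
  have ha : 3 * ∫⁻ w : X × X × X, ENNReal.ofReal (dist x w.1 + dist w.1 w.2.1 - dist x w.2.1)
      ∂P3 ≤ ENNReal.ofReal (3 * xb) * P3 univ := by
    have h1 : ∫⁻ w : X × X × X, ENNReal.ofReal (dist x w.1 + dist w.1 w.2.1 - dist x w.2.1)
      ∂P3 = (∫⁻ z in B, ∫⁻ y in Bp,
        ENNReal.ofReal (dist x z + dist z y - dist x y) ∂μ ∂μ) * μ S := by
      rw [hP3, lintegral_prod _ hf1.aemeasurable]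
      have h2 : ∀ z : X, ∫⁻ w : X × X, ENNReal.ofReal (dist x z + dist z w.1 - dist x w.1)
          ∂((μ.restrict Bp).prod (μ.restrict S)) =
          (∫⁻ y in Bp, ENNReal.ofReal (dist x z + dist z y - dist x y) ∂μ) * μ S := by
        intro z
        have hm2 : Measurable (fun y : X =>
            ENNReal.ofReal (dist x z + dist z y - dist x y)) :=
          hmexc.comp (measurable_const.prodMk measurable_id)
        rw [lintegral_prod (fun w : X × X => ENNReal.ofReal (dist x z + dist z w.1 - dist x w.1))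
          (hm2.comp measurable_fst).aemeasurable]
        simp only [lintegral_const, Measure.restrict_apply_univ]
        rw [lintegral_mul_const _ hm2]
      simp_rw [h2]
      rw [lintegral_mul_const]
      exact hmexc.lintegral_prod_right'
    rw [h1, hP3u, ENNReal.ofReal_mul (by norm_num)]
    calc 3 * ((∫⁻ z in B, ∫⁻ y in Bp,
        ENNReal.ofReal (dist x z + dist z y - dist x y) ∂μ ∂μ) * μ S)
        ≤ 3 * (ENNReal.ofReal xb * (μ B * μ Bp) * μ S) := by gcongr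
      _ = _ := by
        rw [show ENNReal.ofReal 3 = 3 by norm_num]
        ring
  -- the truncated error
  have hf2 : AEMeasurable (fun w : X × X × X => ∫⁻ s in Icc (0 : ℝ) 1,
      cut C x P (r0 / r1) R E s (C.T w.1 s w.2.1) (C.T x (lam x w.1 w.2.1 s) w.2.2)) P3 := by
    have hm := (measurable_cut C x P (r0 / r1) R hE).comp (measurable_pos C x)
    exact (Measurable.lintegral_prod_right' (ν := volume.restrict (Icc (0 : ℝ) 1))
      hm).aemeasurable
  have hb' : 3 * ∫⁻ w : X × X × X, (∫⁻ s in Icc (0 : ℝ) 1,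
      cut C x P (r0 / r1) R E s (C.T w.1 s w.2.1) (C.T x (lam x w.1 w.2.1 s) w.2.2)) ∂P3 ≤
      ENNReal.ofReal Z0 * P3 univ := by
    rw [hP3u]
    refine le_trans ?_ hZ
    gcongr
    exact exp_cut_le C hκ x P (r0 / r1) R hBm hBpm hS hDzy hDy' hl hE
  -- good points
  have hU : ∀ᵐ w ∂P3, (w.1, w.2.1) ∈ C.U := by
    have hm : MeasurableSet {w : X × X × X | (w.1, w.2.1) ∈ C.U} :=
      (measurable_fst.prodMk (measurable_fst.comp measurable_snd)) C.measU
    have h1 : ∀ᵐ w ∂(μ.prod (μ.prod μ)), (w.1, w.2.1) ∈ C.U := by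
      rw [Measure.ae_prod_iff_ae_ae hm]
      refine Eventually.of_forall fun z => ?_
      have hm2 : MeasurableSet {w : X × X | (z, w.1) ∈ C.U} :=
        (measurable_const.prodMk measurable_fst) C.measU
      show ∀ᵐ w ∂(μ.prod μ), (z, w.1) ∈ C.U
      rw [Measure.ae_prod_iff_ae_ae hm2]
      filter_upwards [C.ae_U z] with y hy
      exact Eventually.of_forall fun _ => hy
    rw [hP3']
    exact ae_restrict_of_ae h1
  have hall : ∀ᵐ w ∂P3, (w.1, w.2.1) ∈ C.U ∧ w ∈ B ×ˢ (Bp ×ˢ S) ∧ (w.1 ∈ B → w.2.1 ∈ Bp →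
      w.2.2 ∈ S → ∀ a ∈ Icc (0 : ℝ) 1,
      ENNReal.ofReal (dist (C.T w.1 a w.2.1) (C.T x (lam x w.1 w.2.1 a) w.2.2) /
          lam x w.1 w.2.1 a) ≤
        ENNReal.ofReal (dist w.2.1 w.2.2 +
          (Real.sqrt (2 * dist w.1 w.2.1 * (dist x w.1 + dist w.1 w.2.1 - dist x w.2.1)) +
            Cx * (dist x w.1 + dist w.1 w.2.1 - dist x w.2.1) +
            Cx * (1 - dist x w.1 / dist x w.2.1) * |dist x w.2.1 - dist x w.2.2|) /
            (dist x w.1 / dist x w.2.1)) +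
        ENNReal.ofReal ((1 - dist x w.1 / dist x w.2.1) / (dist x w.1 / dist x w.2.1) ^ 2) *
          ∫⁻ s in Ioc a 1, E (C.T w.1 s w.2.1) (C.T x (lam x w.1 w.2.1 s) w.2.2)) := by
    have h1 : ∀ᵐ w ∂P3, w ∈ B ×ˢ (Bp ×ˢ S) := by
      rw [hP3']
      exact ae_restrict_mem (hBm.prod (hBpm.prod hS))
    have h2 := hmix
    have h3 := ae_restrict_of_ae (s := B ×ˢ (Bp ×ˢ S)) h2
    rw [← hP3'] at h3
    filter_upwards [hU, h1, h3] with w hw1 hw2 hw3
    exact ⟨hw1, hw2, hw3⟩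
  obtain ⟨⟨z, y, y'⟩, ⟨hzy, ⟨hz, hy, hy'⟩, hm⟩, hex, hcut⟩ :=
    exists_good P3 hf1.aemeasurable hf2 ha hb' hP30 hP3t hall
  dsimp only at hzy hz hy hy' hm hex hcut
  have hm := hm hz hy hy'
  have hrad := radii hρ0 (hzr z hz) (hyr y hy) h12 hρ
  obtain ⟨hz1, hzy1, h4, hle1, hwin, hdiff, hq0⟩ := hrad
  set l1 := dist x z / dist x y with hl1
  have hl1p : 0 < l1 := by linarith
  set ex := dist x z + dist z y - dist x y with hexdef
  have hex0 : 0 ≤ ex := by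
    have := dist_triangle x z y
    linarith
  have hex3 : ex ≤ 3 * xb := (ENNReal.ofReal_le_ofReal_iff (by positivity)).1 hex
  set l0 := dist b bp + 2 * ρ0 with hl0
  have hl0p : 0 ≤ l0 := by positivity
  have hlzy : dist z y ≤ l0 := by
    have h1 := mem_ball.1 hz
    have h2 := mem_ball'.1 hy
    have h3 := dist_triangle4 z b bp y
    linarith
  have hyy' : dist y y' ≤ dist bp P + 2 * ρ0 := by
    have h1 := mem_ball.1 hy
    have h2 := mem_ball'.1 (hSb hy')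
    have h3 := dist_triangle4 y bp P y'
    linarith
  have hry : |dist x y - dist x y'| ≤ 2 * ρ0 := by
    have h1 := abs_le.1 (hyr y hy)
    have h2 := abs_le.1 (hy'r y' hy')
    rw [abs_le]
    constructor <;> linarith
  -- the initial bracket
  set A0 := dist bp P + 2 * ρ0 + 4 * (Real.sqrt (6 * l0 * xb) + 3 * Cx * xb + 2 * Cx * ρ0)
    with hA0
  have hA0n : 0 ≤ A0 := by
    have := Real.sqrt_nonneg (6 * l0 * xb)
    have : 0 ≤ dist bp P := dist_nonneg
    positivity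
  have hA : dist y y' + (Real.sqrt (2 * dist z y * ex) + Cx * ex +
      Cx * (1 - l1) * |dist x y - dist x y'|) / l1 ≤ A0 := by
    have h1 : Real.sqrt (2 * dist z y * ex) ≤ Real.sqrt (6 * l0 * xb) := by
      apply Real.sqrt_le_sqrt
      have : dist z y * ex ≤ l0 * (3 * xb) := mul_le_mul hlzy hex3 hex0 hl0p
      linarith
    have h2 : Cx * ex ≤ 3 * Cx * xb := by nlinarith
    have h3 : Cx * (1 - l1) * |dist x y - dist x y'| ≤ 2 * Cx * ρ0 := by
      have h31 : Cx * (1 - l1) ≤ Cx := by nlinarith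
      have h32 : 0 ≤ Cx * (1 - l1) := mul_nonneg hCx (by linarith)
      calc Cx * (1 - l1) * |dist x y - dist x y'| ≤ Cx * (2 * ρ0) :=
            mul_le_mul h31 hry (abs_nonneg _) hCx
        _ = _ := by ring
    have h4' : (Real.sqrt (2 * dist z y * ex) + Cx * ex +
      Cx * (1 - l1) * |dist x y - dist x y'|) / l1 ≤
        4 * (Real.sqrt (6 * l0 * xb) + 3 * Cx * xb + 2 * Cx * ρ0) := by
      rw [div_le_iff₀ hl1p]
      have h5 : 0 ≤ Real.sqrt (6 * l0 * xb) + 3 * Cx * xb + 2 * Cx * ρ0 := by positivity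
      nlinarith
    linarith
  have hZ1 : 0 ≤ 22 * (1 - r0 / r1) * Z0 := by
    have : 0 ≤ 1 - r0 / r1 := by linarith
    positivity
  -- tracking
  have htrk : ∀ a ∈ Icc (0 : ℝ) 1,
      dist (C.T x (lam x z y a) y') (C.T x (th (r0 / r1) a) P) ≤ 5 * ρ0 := by
    intro a ha'
    have hlm := lam_mem (s := a) ha' (by norm_num : (1 : ℝ) / 4 ≤ 1) h4 hle1
    have hlm2 := lam_mem (l := (r0 - 2 * ρ0) / r1) (s := a) ha'
      (hwin.trans hle1) hwin hle1
    have hth := th_mem hθ1 ha'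
    have h1 := htr y' hy' _ hlm2
    have h2 := C.dist_T x P hP (lam x z y a) ⟨by linarith [hlm.1], hlm.2⟩ (th (r0 / r1) a)
      ⟨hθ0.trans hth.1, hth.2⟩
    have h3 : |lam x z y a - th (r0 / r1) a| ≤ |l1 - r0 / r1| := by
      have : lam x z y a - th (r0 / r1) a = (1 - a) * (l1 - r0 / r1) := by
        unfold lam th; rw [← hl1]; ring
      rw [this, abs_mul, abs_of_nonneg (by linarith [ha'.2] : 0 ≤ 1 - a)]
      have h0 := abs_nonneg (l1 - r0 / r1)
      have := ha'.1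
      nlinarith
    have h4 : dist (C.T x (lam x z y a) P) (C.T x (th (r0 / r1) a) P) ≤ 3 * ρ0 := by
      rw [h2, hPr]
      refine le_trans ?_ hdiff
      gcongr
    linarith [dist_triangle (C.T x (lam x z y a) y') (C.T x (lam x z y a) P)
      (C.T x (th (r0 / r1) a) P)]
  have hfe := first_exit C (y' := y') (R := R) (E := E) (A0 := A0)
    (Z1 := 22 * (1 - r0 / r1) * Z0) (q0 := (1 - l1) / l1 ^ 2) (e0 := 5 * ρ0)
    (th1 := r0 / r1) hzy hP hθ0 hθ1 h4 hle1 hA0n hZ1 (fun a ha' => by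
      refine (hm a ha').trans ?_
      gcongr) htrk (by
      calc ENNReal.ofReal ((1 - l1) / l1 ^ 2) * ∫⁻ s in Icc (0 : ℝ) 1,
            cut C x P (r0 / r1) R E s (C.T z s y) (C.T x (lam x z y s) y')
          ≤ ENNReal.ofReal (22 * (1 - r0 / r1)) * ENNReal.ofReal Z0 := by
            gcongr
        _ = _ := by rw [← ENNReal.ofReal_mul (by linarith : 0 ≤ 22 * (1 - r0 / r1))])
    (by
      unfold QQ at hR
      rw [hA0]
      linarith)
  -- conclusion
  have hT0 : C.T z 0 y = z := C.T_zero z y hzy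
  have hlam0 : lam x z y 0 = l1 := by unfold lam; rw [← hl1]; ring
  have hth0 : th (r0 / r1) 0 = r0 / r1 := by unfold th; ring
  have ht0 := htrk 0 ⟨le_rfl, zero_le_one⟩
  rw [hlam0, hth0] at ht0
  rw [hT0, hlam0] at hfe
  have hbz := mem_ball'.1 hz
  have hDD : dist b (C.T x (r0 / r1) P) ≤ 6 * ρ0 + l1 * (A0 + 22 * (1 - r0 / r1) * Z0) := by
    have := dist_triangle4 b z (C.T x l1 y') (C.T x (r0 / r1) P)
    linarith
  have hDp2 : dist bp P ≤ 2 * r1 := by
    have := dist_triangle bp x P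
    rw [dist_comm bp x, hbp, hPr] at this
    linarith
  have hl1up : l1 * dist bp P ≤ r0 / r1 * dist bp P + 6 * ρ0 := by
    have h1 : l1 - r0 / r1 ≤ 3 * ρ0 / r1 := by
      rw [le_div_iff₀ hr1p]
      exact (mul_le_mul_of_nonneg_right (le_abs_self _) hr1p.le).trans hdiff
    have h2 : (l1 - r0 / r1) * dist bp P ≤ 3 * ρ0 / r1 * (2 * r1) := by
      calc (l1 - r0 / r1) * dist bp P ≤ 3 * ρ0 / r1 * dist bp P := by gcongr
        _ ≤ _ := by gcongr
    have h3 : 3 * ρ0 / r1 * (2 * r1) = 6 * ρ0 := by field_simp; ring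
    linarith
  have hfin : dist b (C.T x (r0 / r1) P) ≤ r0 / r1 * dist bp P +
      QQ ρ0 Cx l0 xb (22 * (1 - r0 / r1) * Z0) := by
    have h5 : 0 ≤ Real.sqrt (6 * l0 * xb) + 3 * Cx * xb + 2 * Cx * ρ0 := by
      have := Real.sqrt_nonneg (6 * l0 * xb)
      positivity
    have h6 : l1 * (A0 + 22 * (1 - r0 / r1) * Z0) ≤ l1 * dist bp P + (2 * ρ0 +
        4 * (Real.sqrt (6 * l0 * xb) + 3 * Cx * xb + 2 * Cx * ρ0) +
        22 * (1 - r0 / r1) * Z0) := by
      rw [hA0]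
      have : 0 ≤ 2 * ρ0 + 4 * (Real.sqrt (6 * l0 * xb) + 3 * Cx * xb + 2 * Cx * ρ0) +
        22 * (1 - r0 / r1) * Z0 := by positivity
      nlinarith
    unfold QQ
    linarith
  rw [div_le_iff₀ hr0p]
  calc dist b (C.T x (r0 / r1) P) ≤ _ := hfin
    _ = _ := by field_simp

end Crest.Agent.R247.BL562
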