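import Crest.Agent.R247.Far0_553

/-!
# Leaf (1-X) of R247, first half: the lower bound for the law `Λ_s` of the contracted annulus

If the conclusion `CEg` of Lemma CE holds at every radius `r ∈ [6s,8s]` of the ray of `v`, then
the law `Lam C x s` of `Far0_553` gives mass `≥ c ρⁿ` to every ball of radius `~ρ` centred near
`ray C x v τ`, `τ ∈ [s/4,3s]`.
-/

set_option autoImplicit false
set_option linter.unusedSectionVars false
open MeasureTheory Set Filter Topology Metric
open scoped ENNReal NNReal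

noncomputable section
namespace Crest.Agent.R247.LX149

open Crest.Agent.R247.Mcp688 Crest.Agent.R247.Far553

variable {n : ℕ} {κ : ℝ} {X : Type*} [MetricSpace X] [MeasurableSpace X] [BorelSpace X]
  {μ : Measure X}

/-- the conclusion of Lemma CE at the radius `r` of the ray from `x` to `w` -/
def CEg (C : Rad n κ X μ) (x w : X) (lam0 K0 ρ r : ℝ) : Prop :=
  ∃ S : Set X, MeasurableSet S ∧ S ⊆ ball (ray C x w r) ρ ∧
    ENNReal.ofReal (9/10) * μ (ball (ray C x w r) ρ) ≤ μ S ∧
    ∀ y ∈ S, ∀ t ∈ Icc lam0 1, dist (C.T x t y) (ray C x w (t * r)) ≤ K0 * ρ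

lemma measurableSet_ann (x : X) (a b : ℝ) : MeasurableSet (ann x a b) := by
  have h : Measurable (fun v : X => dist x v) := (continuous_const.dist continuous_id).measurable
  exact (measurableSet_le measurable_const h).inter (measurableSet_le h measurable_const)

lemma dist_ray_ray (C : Rad n κ X μ) {x w : X} (hU : (x, w) ∈ C.U) (hd : 0 < dist x w)
    {a b : ℝ} (ha : a ∈ Icc 0 (dist x w)) (hb : b ∈ Icc 0 (dist x w)) :
    dist (ray C x w a) (ray C x w b) = |a - b| := by
  unfold ray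
  rw [C.dist_T x w hU (a / dist x w) ⟨div_nonneg ha.1 hd.le, (div_le_one hd).2 ha.2⟩
    (b / dist x w) ⟨div_nonneg hb.1 hd.le, (div_le_one hd).2 hb.2⟩, ← sub_div, abs_div,
    abs_of_pos hd]
  field_simp

lemma dist_x_ray (C : Rad n κ X μ) {x w : X} (hU : (x, w) ∈ C.U) (hd : 0 < dist x w)
    {a : ℝ} (ha : a ∈ Icc 0 (dist x w)) : dist x (ray C x w a) = a := by
  unfold ray
  rw [C.dist_left hU ⟨div_nonneg ha.1 hd.le, (div_le_one hd).2 ha.2⟩]
  field_simp

/-- contraction of the ray is the ray -/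
lemma T_ray (C : Rad n κ X μ) {x w : X} (hU : (x, w) ∈ C.U) (hd : 0 < dist x w)
    {a t : ℝ} (ha : a ∈ Ioc 0 (dist x w)) (ht : t ∈ Icc (0 : ℝ) 1) :
    C.T x t (ray C x w a) = ray C x w (t * a) := by
  unfold ray
  rw [C.comp x w hU t ht (a / dist x w) ⟨div_pos ha.1 hd, (div_le_one hd).2 ha.2⟩, mul_div_assoc]

lemma ray_mem_U (C : Rad n κ X μ) {x w : X} (hU : (x, w) ∈ C.U) (hd : 0 < dist x w)
    {a : ℝ} (ha : a ∈ Ioc 0 (dist x w)) : (x, ray C x w a) ∈ C.U :=
  C.sub x w hU _ ⟨div_pos ha.1 hd, (div_le_one hd).2 ha.2⟩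

lemma measT_swap (C : Rad n κ X μ) (x : X) :
    Measurable (fun p : X × ℝ => C.T x p.2 p.1) :=
  C.measT.comp (measurable_const.prodMk (measurable_snd.prodMk measurable_fst))

lemma Lam_apply (C : Rad n κ X μ) (x : X) (s : ℝ) {B : Set X} (hB : MeasurableSet B) :
    Lam C x s B = ∫⁻ v in ann x (4 * s) (8 * s), (volume.restrict (Icc (1/64 : ℝ) (1/2)))
      {t | C.T x t v ∈ B} ∂μ := by
  unfold Lam
  rw [Measure.map_apply (measT_swap C x) hB, Measure.prod_apply (measT_swap C x hB)]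
  rfl

/-- **(X1)** the lower bound of the law. -/
theorem Lam_lower (C : Rad n κ X μ) {x w : X} (hU : (x, w) ∈ C.U) {s ρ K0 K1 v0 : ℝ}
    (hs : 0 < s) (hρ : 0 < ρ) (hρs : ρ ≤ s / 8) (hw : 8 * s ≤ dist x w)
    (hCE : ∀ r ∈ Icc (6 * s) (8 * s), CEg C x w (1/64) K0 ρ r)
    (hv0 : 0 ≤ v0)
    (hvol : ∀ y ∈ closedBall x (8 * s), ENNReal.ofReal (v0 * ρ ^ n) ≤ μ (ball y ρ))
    {τ : ℝ} (hτ : τ ∈ Icc (s / 4) (3 * s)) {b : X} (hb : dist b (ray C x w τ) ≤ K1 * ρ) :
    ENNReal.ofReal (v0 / 20 * ρ ^ n) ≤ Lam C x s (ball b ((K0 + K1 + 2) * ρ)) := by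
  classical
  have hd : 0 < dist x w := by linarith
  -- the radii
  set N : ℕ := ⌊s / ρ⌋₊ with hN
  have hsρ : 8 ≤ s / ρ := by rw [le_div_iff₀ hρ]; linarith
  have hN1 : s / ρ / 2 ≤ N := by
    have h1 : s / ρ < N + 1 := Nat.lt_floor_add_one _
    linarith
  have hN2 : (N : ℝ) ≤ s / ρ := Nat.floor_le (by positivity)
  have hN3 : (N : ℝ) * ρ ≤ s := by
    have := mul_le_mul_of_nonneg_right hN2 hρ.le
    calc (N : ℝ) * ρ ≤ (s / ρ) * ρ := this
      _ = s := by field_simp
  set R : ℕ → ℝ := fun i => 6 * s + ρ + 2 * i * ρ with hR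
  have hRlo : ∀ i, 6 * s + ρ ≤ R i := fun i => by
    simp only [hR]; have : (0:ℝ) ≤ 2 * i * ρ := by positivity
    linarith
  have hRhi : ∀ i, i < N → R i ≤ 8 * s - ρ := fun i hi => by
    simp only [hR]
    have h1 : ((i : ℝ) + 1) ≤ N := by exact_mod_cast hi
    have h2 : ((i : ℝ) + 1) * ρ ≤ N * ρ := mul_le_mul_of_nonneg_right h1 hρ.le
    nlinarith
  have hRI : ∀ i, i < N → R i ∈ Icc (6 * s) (8 * s) := fun i hi =>
    ⟨by have := hRlo i; linarith, by have := hRhi i hi; linarith⟩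
  have hRd : ∀ i, i < N → R i ∈ Icc 0 (dist x w) := fun i hi =>
    ⟨by have := (hRI i hi).1; linarith, by have := (hRI i hi).2; linarith⟩
  -- the sets
  have hex : ∀ i : ℕ, ∃ S : Set X, i < N → (MeasurableSet S ∧ S ⊆ ball (ray C x w (R i)) ρ ∧
      ENNReal.ofReal (9/10) * μ (ball (ray C x w (R i)) ρ) ≤ μ S ∧
      ∀ y ∈ S, ∀ t ∈ Icc (1/64 : ℝ) 1, dist (C.T x t y) (ray C x w (t * R i)) ≤ K0 * ρ) := by
    intro i
    by_cases hi : i < N
    · obtain ⟨S, h1, h2, h3, h4⟩ := hCE (R i) (hRI i hi)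
      exact ⟨S, fun _ => ⟨h1, h2, h3, h4⟩⟩
    · exact ⟨∅, fun h => absurd h hi⟩
  choose S hS using hex
  have hSA : ∀ i, i < N → S i ⊆ ann x (4 * s) (8 * s) := by
    intro i hi v hv
    have h1 := (hS i hi).2.1 hv
    rw [mem_ball] at h1
    have h2 : dist x (ray C x w (R i)) = R i := dist_x_ray C hU hd (hRd i hi)
    have h3 := dist_triangle x v (ray C x w (R i))
    have h4 := dist_triangle x (ray C x w (R i)) v
    rw [dist_comm (ray C x w (R i)) v] at h4
    have h5 := hRlo i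
    have h6 := hRhi i hi
    exact ⟨by linarith, by linarith⟩
  have hSd : ∀ i ∈ Finset.range N, ∀ j ∈ Finset.range N, i ≠ j → Disjoint (S i) (S j) := by
    intro i hi j hj hij
    rw [Finset.mem_range] at hi hj
    apply Disjoint.mono (hS i hi).2.1 (hS j hj).2.1
    apply ball_disjoint_ball
    rw [dist_ray_ray C hU hd (hRd i hi) (hRd j hj)]
    have h1 : R i - R j = 2 * ((i : ℝ) - j) * ρ := by simp only [hR]; ring
    rw [h1, abs_mul, abs_mul, abs_of_pos hρ]
    have h2 : (1 : ℝ) ≤ |(i : ℝ) - j| := by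
      have : (1 : ℤ) ≤ |(i : ℤ) - j| := by
        apply Int.one_le_abs
        intro h
        apply hij
        have : (i : ℤ) = j := by linarith
        exact_mod_cast this
      exact_mod_cast this
    have h3 : |(2:ℝ)| = 2 := by norm_num
    rw [h3]
    nlinarith
  -- lower bound of each fibre
  have hfib : ∀ i, i < N → ∀ v ∈ S i, ENNReal.ofReal (ρ / (8 * s)) ≤
      (volume.restrict (Icc (1/64 : ℝ) (1/2)))
        {t | C.T x t v ∈ ball b ((K0 + K1 + 2) * ρ)} := by
    intro i hi v hv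
    have hRp : 0 < R i := by have := hRlo i; linarith
    have hR8 : R i ≤ 8 * s := (hRI i hi).2
    have hR6 : 6 * s ≤ R i := (hRI i hi).1
    have hlen : ENNReal.ofReal (ρ / (8 * s)) ≤ volume (Icc ((τ - ρ) / R i) (τ / R i)) := by
      rw [Real.volume_Icc]
      apply ENNReal.ofReal_le_ofReal
      have : τ / R i - (τ - ρ) / R i = ρ / R i := by ring
      rw [this]
      exact div_le_div_of_nonneg_left hρ.le hRp hR8
    have hsub : Icc ((τ - ρ) / R i) (τ / R i) ⊆ Icc (1/64 : ℝ) (1/2) := by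
      apply Icc_subset_Icc
      · rw [div_le_div_iff₀ (by norm_num) hRp]
        have := hτ.1
        linarith
      · rw [div_le_div_iff₀ hRp (by norm_num)]
        have := hτ.2
        linarith
    refine hlen.trans ?_
    rw [Measure.restrict_apply' measurableSet_Icc]
    apply measure_mono
    intro t ht
    refine ⟨?_, hsub ht⟩
    have ht1 : t ∈ Icc (1/64 : ℝ) 1 := ⟨(hsub ht).1, by have := (hsub ht).2; linarith⟩
    have ht2 : τ - ρ ≤ t * R i := by
      have := ht.1
      rwa [div_le_iff₀ hRp] at this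
    have ht3 : t * R i ≤ τ := by
      have := ht.2
      rwa [le_div_iff₀ hRp] at this
    have h1 := (hS i hi).2.2.2 v hv t ht1
    have h2 : dist (ray C x w (t * R i)) (ray C x w τ) = |t * R i - τ| := by
      have hτ1 := hτ.1
      have hτ2 := hτ.2
      apply dist_ray_ray C hU hd
      · exact ⟨by linarith, by linarith⟩
      · exact ⟨by linarith, by linarith⟩
    have h3 : |t * R i - τ| ≤ ρ := by rw [abs_le]; constructor <;> linarith
    show C.T x t v ∈ ball b ((K0 + K1 + 2) * ρ)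
    rw [mem_ball]
    have h4 := dist_triangle4 (C.T x t v) (ray C x w (t * R i)) (ray C x w τ) b
    rw [dist_comm (ray C x w τ) b] at h4
    nlinarith
  -- the sum
  have hmain : ENNReal.ofReal (ρ / (8 * s)) * μ (⋃ i ∈ Finset.range N, S i) ≤
      Lam C x s (ball b ((K0 + K1 + 2) * ρ)) := by
    rw [Lam_apply C x s measurableSet_ball, ← setLIntegral_const]
    have hms : MeasurableSet (⋃ i ∈ Finset.range N, S i) :=
      Finset.measurableSet_biUnion _ fun i hi => (hS i (Finset.mem_range.1 hi)).1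
    calc ∫⁻ _ in (⋃ i ∈ Finset.range N, S i), ENNReal.ofReal (ρ / (8 * s)) ∂μ
        ≤ ∫⁻ v in (⋃ i ∈ Finset.range N, S i), (volume.restrict (Icc (1/64 : ℝ) (1/2)))
            {t | C.T x t v ∈ ball b ((K0 + K1 + 2) * ρ)} ∂μ := by
          apply setLIntegral_mono' hms
          intro v hv
          simp only [mem_iUnion, exists_prop, Finset.mem_range] at hv
          obtain ⟨i, hi, hvi⟩ := hv
          exact hfib i hi v hvi
      _ ≤ _ := by
          apply lintegral_mono_set
          intro v hv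
          simp only [mem_iUnion, exists_prop, Finset.mem_range] at hv
          obtain ⟨i, hi, hvi⟩ := hv
          exact hSA i hi hvi
  refine le_trans ?_ hmain
  rw [measure_biUnion_finset (fun i hi j hj hij => hSd i hi j hj hij)
    (fun i hi => (hS i (Finset.mem_range.1 hi)).1)]
  have hterm : ∀ i ∈ Finset.range N, ENNReal.ofReal (9/10 * (v0 * ρ ^ n)) ≤ μ (S i) := by
    intro i hi
    rw [Finset.mem_range] at hi
    refine le_trans ?_ (hS i hi).2.2.1
    rw [ENNReal.ofReal_mul (by norm_num)]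
    gcongr
    apply hvol
    rw [mem_closedBall, dist_comm, dist_x_ray C hU hd (hRd i hi)]
    exact (hRI i hi).2
  calc ENNReal.ofReal (v0 / 20 * ρ ^ n)
      ≤ ENNReal.ofReal (ρ / (8 * s) * (N * (9/10 * (v0 * ρ ^ n)))) := by
        apply ENNReal.ofReal_le_ofReal
        have h1 : ρ / (8 * s) * (s / ρ / 2) = 1 / 16 := by field_simp; norm_num
        have h2 : 0 ≤ ρ / (8 * s) := by positivity
        have h3 : 0 ≤ v0 * ρ ^ n := by positivity
        have h4 : 1 / 16 ≤ ρ / (8 * s) * N := by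
          rw [← h1]; exact mul_le_mul_of_nonneg_left hN1 h2
        calc v0 / 20 * ρ ^ n ≤ 1 / 16 * (9 / 10 * (v0 * ρ ^ n)) := by linarith
          _ ≤ (ρ / (8 * s) * N) * (9 / 10 * (v0 * ρ ^ n)) := by gcongr
          _ = _ := by ring
    _ = ENNReal.ofReal (ρ / (8 * s)) * ∑ _i ∈ Finset.range N,
          ENNReal.ofReal (9/10 * (v0 * ρ ^ n)) := by
        rw [Finset.sum_const, Finset.card_range, nsmul_eq_mul, ENNReal.ofReal_mul (by positivity),
          ENNReal.ofReal_mul (by positivity), ENNReal.ofReal_natCast]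
    _ ≤ _ := by gcongr with i hi; exact hterm i hi

/-! ### The base of Lemma CE over a whole scale -/

/-- composition of short steps: closeness is preserved with constant `2^m` along the ray down to
the fraction `q^m`. -/
theorem base_iter (C : Rad n κ X μ) {x v : X} (hU : (x, v) ∈ C.U) {N0 : ℝ} (hN0 : 8 ≤ N0)
    (hbase : ∀ r L : ℝ, 0 < L → N0 * L ≤ r → N0 * L ≤ dist x v - r →
      ∃ ρ₀ > 0, ∀ y, dist y (ray C x v r) < ρ₀ → (x, y) ∈ C.U →
        ∀ t ∈ Icc (1 - 4 * L / r) 1,
          dist (C.T x t y) (C.T x t (ray C x v r)) ≤ 2 * t * dist y (ray C x v r))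
    {r : ℝ} (hr : 0 < r) (hrv : 2 * r ≤ dist x v) (m : ℕ) :
    ∃ ρ₀ > 0, ∀ y, dist y (ray C x v r) < ρ₀ → (x, y) ∈ C.U →
      ∀ t ∈ Icc ((1 - 4 / N0) ^ m) 1,
        dist (C.T x t y) (C.T x t (ray C x v r)) ≤ 2 ^ m * t * dist y (ray C x v r) := by
  have hN0p : 0 < N0 := by linarith
  have hq1 : 4 / N0 ≤ 1 / 2 := by rw [div_le_div_iff₀ hN0p (by norm_num)]; linarith
  have hq0 : 0 < 4 / N0 := by positivity
  have hd : 0 < dist x v := by linarith
  induction m with
  | zero =>
    refine ⟨1, one_pos, fun y _ hyU t ht => ?_⟩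
    have : t = 1 := le_antisymm ht.2 (by simpa using ht.1)
    subst this
    rw [C.T_one x y hyU, C.T_one x _ (ray_mem_U C hU hd ⟨hr, by linarith⟩)]
    simp
  | succ m ih =>
    obtain ⟨ρ₁, hρ₁, h₁⟩ := ih
    set q : ℝ := (1 - 4 / N0) ^ m with hq
    have hqp : 0 < q := by apply pow_pos; linarith
    have hq1' : q ≤ 1 := by apply pow_le_one₀ <;> linarith
    -- the short step from radius `q r`
    obtain ⟨ρ₂, hρ₂, h₂⟩ := hbase (q * r) (q * r / N0) (by positivity)
      (by rw [mul_div_cancel₀ _ hN0p.ne'])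
      (by
        rw [mul_div_cancel₀ _ hN0p.ne']
        nlinarith)
    have hL : 1 - 4 * (q * r / N0) / (q * r) = 1 - 4 / N0 := by
      field_simp
    rw [hL] at h₂
    have h2m : (0:ℝ) < 2 ^ m := by positivity
    refine ⟨min ρ₁ (ρ₂ / 2 ^ m), lt_min hρ₁ (by positivity), fun y hy hyU t ht => ?_⟩
    have hy1 : dist y (ray C x v r) < ρ₁ := lt_of_lt_of_le hy (min_le_left _ _)
    have hy2 : dist y (ray C x v r) < ρ₂ / 2 ^ m := lt_of_lt_of_le hy (min_le_right _ _)
    have hqm : (1 - 4 / N0) ^ (m + 1) = q * (1 - 4 / N0) := by rw [pow_succ]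
    rw [hqm] at ht
    have ht0 : 0 < t := lt_of_lt_of_le (by apply mul_pos hqp; linarith) ht.1
    by_cases htq : q ≤ t
    · have := h₁ y hy1 hyU t ⟨htq, ht.2⟩
      refine this.trans ?_
      have h3 : 0 ≤ t * dist y (ray C x v r) := by positivity
      rw [pow_succ]
      nlinarith [mul_nonneg h2m.le h3]
    · push Not at htq
      have ha : dist (C.T x q y) (C.T x q (ray C x v r)) ≤ 2 ^ m * q * dist y (ray C x v r) :=
        h₁ y hy1 hyU q ⟨le_refl _, hq1'⟩
      have hTr : C.T x q (ray C x v r) = ray C x v (q * r) :=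
        T_ray C hU hd ⟨hr, by linarith⟩ ⟨hqp.le, hq1'⟩
      have hb : dist (C.T x q y) (ray C x v (q * r)) < ρ₂ := by
        rw [← hTr]
        refine lt_of_le_of_lt ha ?_
        rw [lt_div_iff₀ h2m] at hy2
        have : dist y (ray C x v r) * 2 ^ m * q ≤ dist y (ray C x v r) * 2 ^ m * 1 := by gcongr
        nlinarith
      have htd : t / q ∈ Icc (1 - 4 / N0) 1 := by
        constructor
        · rw [le_div_iff₀ hqp]; linarith [ht.1]
        · rw [div_le_one hqp]; exact htq.le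
      have hyUq : (x, C.T x q y) ∈ C.U := C.sub x y hyU q ⟨hqp, hq1'⟩
      have h3 := h₂ (C.T x q y) hb hyUq (t / q) htd
      have ht01 : t / q ∈ Icc (0:ℝ) 1 := ⟨by positivity, htd.2⟩
      have e1 : C.T x (t / q) (C.T x q y) = C.T x t y := by
        rw [C.comp x y hyU (t / q) ht01 q ⟨hqp, hq1'⟩, div_mul_cancel₀ _ hqp.ne']
      have e2 : C.T x (t / q) (ray C x v (q * r)) = C.T x t (ray C x v r) := by
        rw [T_ray C hU hd ⟨by positivity, by nlinarith⟩ ht01,
          T_ray C hU hd ⟨hr, by linarith⟩ ⟨ht0.le, ht.2⟩]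
        congr 1
        field_simp
      rw [e1, e2] at h3
      refine h3.trans ?_
      rw [← hTr]
      calc 2 * (t / q) * dist (C.T x q y) (C.T x q (ray C x v r))
          ≤ 2 * (t / q) * (2 ^ m * q * dist y (ray C x v r)) := by gcongr
        _ = 2 ^ (m + 1) * t * dist y (ray C x v r) := by field_simp; ring

end Crest.Agent.R247.LX149
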