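import Crest.Agent.R247.BL3_562
import Crest.Agent.R247.Lx1_149

/-! # Lemma BL (doc 1392, sec. 2), part 4: expected error and the version over `FarD` -/

set_option autoImplicit false
set_option linter.unusedSectionVars false
open MeasureTheory Set Filter Topology Metric
open scoped ENNReal NNReal

noncomputable section
namespace Crest.Agent.R247.BL562
open Crest.Agent.R247.Mcp688 Crest.Agent.R247.Far553 Crest.Agent.R247.LX149

variable {n : ℕ} {κ : ℝ} {X : Type*} [MetricSpace X] [MeasurableSpace X] [BorelSpace X]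
  {μ : Measure X}

lemma measurable_err [SecondCountableTopology X] (C : Rad n κ X μ) (ρ : ℝ) {H g : X → ℝ}
    (hH : Measurable H) (hg : Measurable g) :
    Measurable (Function.uncurry (err C ρ H g)) := by
  have h1 : Measurable (fun p : X × X => ∫⁻ t in Icc (0 : ℝ) 1, ENNReal.ofReal (H (C.T p.1 t p.2)))
      := by
    have h2 : Measurable (fun q : (X × X) × ℝ => ENNReal.ofReal (H (C.T q.1.1 q.2 q.1.2))) :=
      (hH.comp (C.measT.comp ((measurable_fst.comp measurable_fst).prodMk
        (measurable_snd.prodMk (measurable_snd.comp measurable_fst))))).ennreal_ofReal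
    exact h2.lintegral_prod_right'
  have h3 : Measurable (fun p : X × X => ENNReal.ofReal (ρ * (g p.1 + g p.2))) :=
    (((hg.comp measurable_fst).add (hg.comp measurable_snd)).const_mul ρ).ennreal_ofReal
  exact ((measurable_fst.dist measurable_snd).ennreal_ofReal.mul h1).add h3

/-- the expected error over a ball -/
theorem err_ball_le [SFinite μ] (C : Rad n κ X μ) (hκ : 0 ≤ κ) (c : X) {R ρ : ℝ}
    (hR : 0 < R) (hρR : ρ ≤ R) {H g : X → ℝ} (hH : Measurable H) (hg : Measurable g)
    (hH0 : ∀ z, 0 ≤ H z) (hg0 : ∀ z, 0 ≤ g z) :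
    ∫⁻ p in ball c R, ∫⁻ q in ball c R, err C ρ H g p q ∂μ ∂μ ≤
      ENNReal.ofReal (R * (4 * (Real.exp (κ * (2 * R) ^ 2 / 2) * 2 ^ n) + 2)) * μ (ball c R) *
        ∫⁻ z in ball c (2 * R), ENNReal.ofReal (H z + g z) ∂μ := by
  set K : ℝ := Real.exp (κ * (2 * R) ^ 2 / 2) * 2 ^ n with hK
  have hK0 : 0 ≤ K := by positivity
  have hbm : MeasurableSet (ball c R) := isOpen_ball.measurableSet
  have hbm2 : MeasurableSet (ball c (2 * R)) := isOpen_ball.measurableSet
  have hD : ∀ p ∈ ball c R, ∀ q ∈ ball c R, dist p q ≤ 2 * R := by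
    intro p hp q hq
    have := dist_triangle_right p q c
    linarith [mem_ball.1 hp, mem_ball.1 hq]
  have hseg : ∀ p ∈ ball c R, ∀ q ∈ ball c R, (p, q) ∈ C.U → ∀ t ∈ Icc (0 : ℝ) 1,
      C.T p t q ∈ ball c (2 * R) := by
    intro p hp q hq hU t ht
    rw [mem_ball]
    have h1 := C.dist_left hU ht
    have h2 := C.dist_right hU ht
    have h3 := dist_triangle_right p q c
    have h4 := dist_triangle (C.T p t q) p c
    have h5 := dist_triangle (C.T p t q) q c
    rw [dist_comm (C.T p t q) p, h1] at h4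
    rw [h2] at h5
    have h6 := mem_ball.1 hp
    have h7 := mem_ball.1 hq
    nlinarith [ht.1, ht.2]
  have hHm : Measurable (fun z => ENNReal.ofReal (H z)) := hH.ennreal_ofReal
  have hgm : Measurable (fun z => ENNReal.ofReal (g z)) := hg.ennreal_ofReal
  set I : ℝ≥0∞ := ∫⁻ z in ball c (2 * R), ENNReal.ofReal (H z + g z) ∂μ with hI
  have hIH : ∫⁻ z in ball c (2 * R), ENNReal.ofReal (H z) ∂μ ≤ I :=
    lintegral_mono fun z => ENNReal.ofReal_le_ofReal (by linarith [hg0 z])
  have hIg : ∫⁻ z in ball c R, ENNReal.ofReal (g z) ∂μ ≤ I :=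
    (lintegral_mono_set (ball_subset_ball (by linarith))).trans
      (lintegral_mono fun z => ENNReal.ofReal_le_ofReal (by linarith [hH0 z]))
  -- first term
  have h1 : ∫⁻ p in ball c R, ∫⁻ q in ball c R, ENNReal.ofReal (dist p q) *
      (∫⁻ t in Icc (0 : ℝ) 1, ENNReal.ofReal (H (C.T p t q))) ∂μ ∂μ ≤
      ENNReal.ofReal (R * (4 * K)) * μ (ball c R) * I := by
    calc ∫⁻ p in ball c R, ∫⁻ q in ball c R, ENNReal.ofReal (dist p q) *
          (∫⁻ t in Icc (0 : ℝ) 1, ENNReal.ofReal (H (C.T p t q))) ∂μ ∂μ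
        ≤ ∫⁻ p in ball c R, ∫⁻ q in ball c R, ENNReal.ofReal (2 * R) *
          (∫⁻ t in Icc (0 : ℝ) 1, ENNReal.ofReal (H (C.T p t q))) ∂μ ∂μ := by
          apply setLIntegral_mono' hbm
          intro p hp
          apply setLIntegral_mono' hbm
          intro q hq
          gcongr
          exact hD p hp q hq
      _ = ENNReal.ofReal (2 * R) * ∫⁻ p in ball c R, ∫⁻ q in ball c R,
          (∫⁻ t in Icc (0 : ℝ) 1, ENNReal.ofReal (H (C.T p t q))) ∂μ ∂μ := by
          simp_rw [lintegral_const_mul' _ _ ENNReal.ofReal_ne_top]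
      _ ≤ ENNReal.ofReal (2 * R) * (ENNReal.ofReal K * (μ (ball c R) + μ (ball c R)) *
          ∫⁻ z in ball c (2 * R), ENNReal.ofReal (H z) ∂μ) := by
          gcongr
          exact C.segment_le hκ hbm hbm hbm2 hD hseg hHm
      _ ≤ ENNReal.ofReal (2 * R) * (ENNReal.ofReal K * (μ (ball c R) + μ (ball c R)) * I) := by
          gcongr
      _ = _ := by
          have : ENNReal.ofReal (R * (4 * K)) = ENNReal.ofReal (2 * R) * ENNReal.ofReal K * 2 := by
            rw [← ENNReal.ofReal_mul (by linarith),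
              show (2 : ℝ≥0∞) = ENNReal.ofReal 2 by norm_num,
              ← ENNReal.ofReal_mul (by positivity)]
            congr 1; ring
          rw [this]; ring
  -- second term
  have h2 : ∫⁻ p in ball c R, ∫⁻ q in ball c R, ENNReal.ofReal (ρ * (g p + g q)) ∂μ ∂μ ≤
      ENNReal.ofReal (R * 2) * μ (ball c R) * I := by
    calc ∫⁻ p in ball c R, ∫⁻ q in ball c R, ENNReal.ofReal (ρ * (g p + g q)) ∂μ ∂μ
        ≤ ∫⁻ p in ball c R, ∫⁻ q in ball c R, (ENNReal.ofReal R * ENNReal.ofReal (g p) +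
          ENNReal.ofReal R * ENNReal.ofReal (g q)) ∂μ ∂μ := by
          apply lintegral_mono
          intro p
          apply lintegral_mono
          intro q
          dsimp only
          rw [← mul_add, ← ENNReal.ofReal_add (hg0 p) (hg0 q), ← ENNReal.ofReal_mul hR.le]
          apply ENNReal.ofReal_le_ofReal
          have := hg0 p
          have := hg0 q
          gcongr
      _ = ∫⁻ p in ball c R, (ENNReal.ofReal R * ENNReal.ofReal (g p) * μ (ball c R) +
          ENNReal.ofReal R * ∫⁻ q in ball c R, ENNReal.ofReal (g q) ∂μ) ∂μ := by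
          congr 1
          funext p
          rw [lintegral_add_left measurable_const, lintegral_const, Measure.restrict_apply_univ,
            lintegral_const_mul _ hgm]
      _ = ENNReal.ofReal R * (∫⁻ p in ball c R, ENNReal.ofReal (g p) ∂μ) * μ (ball c R) +
          (ENNReal.ofReal R * ∫⁻ q in ball c R, ENNReal.ofReal (g q) ∂μ) * μ (ball c R) := by
          rw [lintegral_add_right _ measurable_const, lintegral_const,
            Measure.restrict_apply_univ, lintegral_mul_const _ (hgm.const_mul _),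
            lintegral_const_mul _ hgm]
      _ ≤ ENNReal.ofReal R * I * μ (ball c R) + (ENNReal.ofReal R * I) * μ (ball c R) := by
          gcongr
      _ = _ := by
          have : ENNReal.ofReal (R * 2) = ENNReal.ofReal R * 2 := by
            rw [ENNReal.ofReal_mul hR.le]; norm_num
          rw [this]; ring
  have h3 : ∀ p, ∫⁻ q in ball c R, err C ρ H g p q ∂μ =
      (∫⁻ q in ball c R, ENNReal.ofReal (dist p q) *
        (∫⁻ t in Icc (0 : ℝ) 1, ENNReal.ofReal (H (C.T p t q))) ∂μ) +
      ∫⁻ q in ball c R, ENNReal.ofReal (ρ * (g p + g q)) ∂μ := by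
    intro p
    unfold err
    rw [lintegral_add_right]
    exact ((hg.const_add (g p)).const_mul ρ).ennreal_ofReal
  simp_rw [h3]
  have hm4 : Measurable (fun p : X => ∫⁻ q in ball c R, ENNReal.ofReal (ρ * (g p + g q)) ∂μ) := by
    have : Measurable (fun w : X × X => ENNReal.ofReal (ρ * (g w.1 + g w.2))) :=
      (((hg.comp measurable_fst).add (hg.comp measurable_snd)).const_mul ρ).ennreal_ofReal
    exact this.lintegral_prod_right'
  rw [lintegral_add_right _ hm4]
  refine (add_le_add h1 h2).trans (le_of_eq ?_)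
  rw [← add_mul, ← add_mul, ← ENNReal.ofReal_add (by positivity) (by positivity)]
  congr 3; ring

/-- affine change of variables -/
lemma lintegral_affine (f : ℝ → ℝ≥0∞) {r0 r1 : ℝ} (h : r0 < r1) :
    ∫⁻ s in Icc (0 : ℝ) 1, f (r0 + s * (r1 - r0)) =
      ENNReal.ofReal ((r1 - r0)⁻¹) * ∫⁻ r in Icc r0 r1, f r := by
  have hd : 0 < r1 - r0 := by linarith
  have h1 : (fun s : ℝ => r0 + s * (r1 - r0)) '' Icc (0 : ℝ) 1 = Icc r0 r1 := by
    ext r
    simp only [mem_image, mem_Icc]
    constructor
    · rintro ⟨s, ⟨hs0, hs1⟩, rfl⟩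
      constructor <;> nlinarith
    · rintro ⟨h0, h1⟩
      refine ⟨(r - r0) / (r1 - r0), ⟨div_nonneg (by linarith) hd.le,
        (div_le_one hd).2 (by linarith)⟩, ?_⟩
      field_simp
      ring
  rw [← h1, lintegral_image_eq_lintegral_abs_deriv_mul (f' := fun _ => r1 - r0)
    measurableSet_Icc]
  · rw [← lintegral_const_mul' _ _ ENNReal.ofReal_ne_top]
    congr 1
    funext s
    rw [← mul_assoc, ← ENNReal.ofReal_mul (by positivity), abs_of_pos hd,
      inv_mul_cancel₀ hd.ne', ENNReal.ofReal_one, one_mul]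
  · intro s _
    have := ((hasDerivAt_id s).mul_const (r1 - r0)).const_add r0
    simpa using this.hasDerivWithinAt
  · intro a _ b _ hab
    have : a * (r1 - r0) = b * (r1 - r0) := by
      have := hab
      dsimp only at this
      linarith
    exact mul_right_cancel₀ hd.ne' this

/-- the constant of Lemma BL -/
def C2 (n : ℕ) (ω M : ℝ) : ℝ :=
  1174 * (Real.exp 648 * 4 ^ n) ^ 2 * (4 * (Real.exp 2 * 2 ^ n) + 2) * M ^ (2 * n) / ω

lemma QQ_mono {ρ0 Cx l0 xb Z Z' : ℝ} (h : Z ≤ Z') : QQ ρ0 Cx l0 xb Z ≤ QQ ρ0 Cx l0 xb Z' := by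
  unfold QQ; linarith

end Crest.Agent.R247.BL562
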