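import Crest.Agent.R247.BL4_562

/-! # Lemma BL (doc 1392, sec. 2), part 5: the version over `FarD` -/

set_option autoImplicit false
set_option linter.unusedSectionVars false
open MeasureTheory Set Filter Topology Metric
open scoped ENNReal NNReal

noncomputable section
namespace Crest.Agent.R247.BL562
open Crest.Agent.R247.Mcp688 Crest.Agent.R247.Far553 Crest.Agent.R247.LX149

variable {n : ℕ} {κ : ℝ} {X : Type*} [MetricSpace X] [MeasurableSpace X] [BorelSpace X]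
  {μ : Measure X}

/-- the tube integral in terms of `loc` along the ray -/
lemma tube_le [ProperSpace X] [IsFiniteMeasureOnCompacts μ] {c : FarK} (C : Rad n κ X μ)
    (hκ : 0 ≤ κ) (hκ1 : κ ≤ 1) {x : X} {δ : ℝ} {ph : ℕ → ℝ} (Fd : FarD c C x δ ph)
    (hδ : δ ≤ 1 / 2) {v : X} (hv : (x, v) ∈ C.U) {r0 r1 R K e : ℝ} {k : ℕ}
    (hr0 : 0 < r0) (h01 : r0 < r1) (hr1v : r1 ≤ dist x v) (hr12 : r1 ≤ 12)
    (hk1 : dy k ≤ R) (hk2 : 2 * R ≤ K * dy k) (hR1 : R ≤ 1)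
    (he : ∫⁻ r in Icc r0 r1, loc μ n K (dy k) (fun z => Fd.H k z + Fd.g k z) (ray C x v r) ≤
      ENNReal.ofReal e) :
    ∫⁻ s in Icc (0 : ℝ) 1, ∫⁻ p in ball (C.T x (th (r0 / r1) s) (ray C x v r1)) R,
        ∫⁻ q in ball (C.T x (th (r0 / r1) s) (ray C x v r1)) R,
          err C (dy k) (Fd.H k) (Fd.g k) p q ∂μ ∂μ ≤
      ENNReal.ofReal (R * (4 * (Real.exp 2 * 2 ^ n) + 2) * (2 * c.ω * R ^ n) * dy k ^ n *
        (r1 - r0)⁻¹) * ENNReal.ofReal e := by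
  have hr1 : 0 < r1 := hr0.trans h01
  have hvp : 0 < dist x v := lt_of_lt_of_le hr1 hr1v
  have hdk := dy_pos k
  have hRp : 0 < R := lt_of_lt_of_le hdk hk1
  have hω := c.ω_pos
  set F : X → ℝ := fun z => Fd.H k z + Fd.g k z with hF
  have hs : ∀ s ∈ Icc (0 : ℝ) 1,
      ∫⁻ p in ball (C.T x (th (r0 / r1) s) (ray C x v r1)) R,
        ∫⁻ q in ball (C.T x (th (r0 / r1) s) (ray C x v r1)) R,
          err C (dy k) (Fd.H k) (Fd.g k) p q ∂μ ∂μ ≤
      ENNReal.ofReal (R * (4 * (Real.exp 2 * 2 ^ n) + 2) * (2 * c.ω * R ^ n) * dy k ^ n) *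
        loc μ n K (dy k) F (ray C x v (r0 + s * (r1 - r0))) := by
    intro s hs
    have hθ1 : r0 / r1 ≤ 1 := (div_le_one hr1).2 h01.le
    have hθ0 : 0 ≤ r0 / r1 := by positivity
    have hth := th_mem hθ1 hs
    have hctr : C.T x (th (r0 / r1) s) (ray C x v r1) = ray C x v (r0 + s * (r1 - r0)) := by
      rw [T_ray C hv hvp ⟨hr1, hr1v⟩ ⟨hθ0.trans hth.1, hth.2⟩]
      congr 1
      unfold th
      field_simp
    rw [hctr]
    have hrr : r0 + s * (r1 - r0) ∈ Icc 0 (dist x v) := by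
      have := hs.1
      have := hs.2
      constructor <;> nlinarith
    have hd : dist x (ray C x v (r0 + s * (r1 - r0))) = r0 + s * (r1 - r0) :=
      dist_x_ray C hv hvp hrr
    set y := ray C x v (r0 + s * (r1 - r0)) with hy
    have hd20 : dist x y < 20 := by
      rw [hd]
      have := hs.1
      have := hs.2
      nlinarith
    have h1 := err_ball_le C hκ y hRp hk1 (Fd.H_meas k) (Fd.g_meas k)
      (Fd.H_nonneg k) (Fd.g_nonneg k)
    have h2 : μ (ball y R) ≤ ENNReal.ofReal (2 * c.ω * R ^ n) := by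
      refine (Fd.vol_le y R hd20 hRp (by linarith)).trans (ENNReal.ofReal_le_ofReal ?_)
      gcongr
      linarith
    have h3 : ENNReal.ofReal (R * (4 * (Real.exp (κ * (2 * R) ^ 2 / 2) * 2 ^ n) + 2)) ≤
        ENNReal.ofReal (R * (4 * (Real.exp 2 * 2 ^ n) + 2)) := by
      apply ENNReal.ofReal_le_ofReal
      gcongr
      nlinarith
    have h4 : ∫⁻ z in ball y (2 * R), ENNReal.ofReal (Fd.H k z + Fd.g k z) ∂μ ≤
        ENNReal.ofReal (dy k ^ n) * loc μ n K (dy k) F y := by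
      unfold loc
      rw [← mul_assoc, ← ENNReal.ofReal_mul (by positivity), ← mul_pow,
        mul_inv_cancel₀ hdk.ne', one_pow, ENNReal.ofReal_one, one_mul]
      exact lintegral_mono_set (ball_subset_ball hk2)
    calc _ ≤ _ := h1
      _ ≤ ENNReal.ofReal (R * (4 * (Real.exp 2 * 2 ^ n) + 2)) *
          ENNReal.ofReal (2 * c.ω * R ^ n) * (ENNReal.ofReal (dy k ^ n) *
            loc μ n K (dy k) F y) := by gcongr
      _ = _ := by
        rw [← mul_assoc, ← ENNReal.ofReal_mul (by positivity),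
          ← ENNReal.ofReal_mul (by positivity)]
  calc _ ≤ ∫⁻ s in Icc (0 : ℝ) 1,
        ENNReal.ofReal (R * (4 * (Real.exp 2 * 2 ^ n) + 2) * (2 * c.ω * R ^ n) * dy k ^ n) *
        loc μ n K (dy k) F (ray C x v (r0 + s * (r1 - r0))) :=
        setLIntegral_mono' measurableSet_Icc hs
    _ = ENNReal.ofReal (R * (4 * (Real.exp 2 * 2 ^ n) + 2) * (2 * c.ω * R ^ n) * dy k ^ n) *
        (ENNReal.ofReal ((r1 - r0)⁻¹) * ∫⁻ r in Icc r0 r1,
          loc μ n K (dy k) F (ray C x v r)) := by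
        rw [lintegral_const_mul' _ _ ENNReal.ofReal_ne_top,
          lintegral_affine (fun r => loc μ n K (dy k) F (ray C x v r)) h01]
    _ ≤ ENNReal.ofReal (R * (4 * (Real.exp 2 * 2 ^ n) + 2) * (2 * c.ω * R ^ n) * dy k ^ n) *
        (ENNReal.ofReal ((r1 - r0)⁻¹) * ENNReal.ofReal e) := by gcongr
    _ = _ := by
        rw [← mul_assoc, ← ENNReal.ofReal_mul (by positivity)]

lemma ofReal_split {K Y e : ℝ} (hK : 0 ≤ K) (hY : 0 ≤ Y) :
    ENNReal.ofReal (3 * K ^ 2 * (Y * e)) =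
      3 * ENNReal.ofReal K ^ 2 * (ENNReal.ofReal Y * ENNReal.ofReal e) := by
  rw [ENNReal.ofReal_mul (by positivity : (0 : ℝ) ≤ 3 * K ^ 2),
    ENNReal.ofReal_mul (by norm_num : (0 : ℝ) ≤ 3), ENNReal.ofReal_pow hK, ENNReal.ofReal_mul hY]
  norm_num

set_option maxHeartbeats 800000 in
/-- **Lemma BL over `FarD`.** -/
theorem bl_far [ProperSpace X] [IsFiniteMeasureOnCompacts μ] {c : FarK} (C : Rad n κ X μ)
    (hκ : 0 ≤ κ) (hκ1 : κ ≤ 1) {x : X} {δ : ℝ} {ph : ℕ → ℝ} (Fd : FarD c C x δ ph)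
    (hδ : δ ≤ 1 / 2) {v b bp : X} (hv : (x, v) ∈ C.U) {r0 r1 ρ0 R M K Cx xb e : ℝ} {k : ℕ}
    (hr1v : r1 ≤ dist x v) (hr12 : r1 ≤ 12)
    (hρ0 : 0 < ρ0) (hb : dist x b = r0) (hbp : dist x bp = r1)
    (h12 : r1 ≤ 2 * r0) (hρ : 8 * ρ0 ≤ r1 - r0)
    (hk1 : dy k ≤ R) (hk2 : 2 * R ≤ K * dy k) (hM : R ≤ M * ρ0) (hR1 : R ≤ 1)
    (hCE : CEg C x v ((r0 - 2 * ρ0) / r1) 2 ρ0 r1)
    (hCx : 0 ≤ Cx)
    (hmix : ∀ᵐ p ∂(μ.prod (μ.prod μ)), p.1 ∈ ball b ρ0 → p.2.1 ∈ ball bp ρ0 →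
      p.2.2 ∈ ball (ray C x v r1) ρ0 → ∀ a ∈ Icc (0 : ℝ) 1,
      ENNReal.ofReal (dist (C.T p.1 a p.2.1) (C.T x (lam x p.1 p.2.1 a) p.2.2) /
          lam x p.1 p.2.1 a) ≤
        ENNReal.ofReal (dist p.2.1 p.2.2 +
          (Real.sqrt (2 * dist p.1 p.2.1 * (dist x p.1 + dist p.1 p.2.1 - dist x p.2.1)) +
            Cx * (dist x p.1 + dist p.1 p.2.1 - dist x p.2.1) +
            Cx * (1 - dist x p.1 / dist x p.2.1) * |dist x p.2.1 - dist x p.2.2|) /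
            (dist x p.1 / dist x p.2.1)) +
        ENNReal.ofReal ((1 - dist x p.1 / dist x p.2.1) / (dist x p.1 / dist x p.2.1) ^ 2) *
          ∫⁻ s in Ioc a 1, err C (dy k) (Fd.H k) (Fd.g k) (C.T p.1 s p.2.1)
            (C.T x (lam x p.1 p.2.1 s) p.2.2))
    (hxb0 : 0 ≤ xb)
    (hxb : ∫⁻ z in ball b ρ0, ∫⁻ y in ball bp ρ0,
        ENNReal.ofReal (dist x z + dist z y - dist x y) ∂μ ∂μ ≤
      ENNReal.ofReal xb * (μ (ball b ρ0) * μ (ball bp ρ0)))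
    (he0 : 0 ≤ e)
    (he : ∫⁻ r in Icc r0 r1, loc μ n K (dy k) (fun z => Fd.H k z + Fd.g k z) (ray C x v r) ≤
      ENNReal.ofReal e)
    (hR : dist bp (ray C x v r1) +
      QQ ρ0 Cx (dist b bp + 2 * ρ0) xb (C2 n c.ω M * (R * e / r1)) < R) :
    dist b (ray C x v r0) / r0 ≤ dist bp (ray C x v r1) / r1 +
      QQ ρ0 Cx (dist b bp + 2 * ρ0) xb (C2 n c.ω M * (R * e / r1)) / r0 := by
  have hr0 : 0 < r0 := by linarith
  have h01 : r0 < r1 := by linarith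
  have hr1 : 0 < r1 := by linarith
  have hvp : 0 < dist x v := lt_of_lt_of_le hr1 hr1v
  have hdk := dy_pos k
  have hRp : 0 < R := lt_of_lt_of_le hdk hk1
  have hω := c.ω_pos
  have hMp : 0 < M := by
    by_contra hcon
    have : M * ρ0 ≤ 0 := mul_nonpos_of_nonpos_of_nonneg (not_lt.1 hcon) hρ0.le
    linarith
  set P := ray C x v r1 with hPdef
  have hPU : (x, P) ∈ C.U := ray_mem_U C hv hvp ⟨hr1, hr1v⟩
  have hPr : dist x P = r1 := dist_x_ray C hv hvp ⟨hr1.le, hr1v⟩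
  obtain ⟨S, hSm, hSb, hSμ, hStr⟩ := hCE
  -- volumes
  have hvol : ∀ y : X, dist x y < 20 → ENNReal.ofReal (c.ω / 2 * ρ0 ^ n) ≤ μ (ball y ρ0) := by
    intro y hy
    refine le_trans (ENNReal.ofReal_le_ofReal ?_) (Fd.vol_ge y ρ0 hy hρ0 (by linarith))
    have : 0 ≤ ρ0 ^ n := by positivity
    have h1 : c.ω / 2 ≤ (1 - δ) * c.ω := by nlinarith
    gcongr
  have hb20 : dist x b < 20 := by rw [hb]; linarith
  have hbp20 : dist x bp < 20 := by rw [hbp]; linarith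
  have hP20 : dist x P < 20 := by rw [hPr]; linarith
  have hmpos : 0 < c.ω / 2 * ρ0 ^ n := by positivity
  have hm0 : ENNReal.ofReal (c.ω / 2 * ρ0 ^ n) ≠ 0 := (ENNReal.ofReal_pos.2 hmpos).ne'
  have hB0 : μ (ball b ρ0) ≠ 0 := fun h => hm0 (le_antisymm (h ▸ hvol b hb20) bot_le)
  have hBp0 : μ (ball bp ρ0) ≠ 0 := fun h => hm0 (le_antisymm (h ▸ hvol bp hbp20) bot_le)
  have hSlow : ENNReal.ofReal (9 / 10 * (c.ω / 2 * ρ0 ^ n)) ≤ μ S := by
    rw [ENNReal.ofReal_mul (by norm_num)]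
    exact (mul_le_mul_right (hvol P hP20) _).trans hSμ
  have hS0 : μ S ≠ 0 := by
    intro h
    rw [h, nonpos_iff_eq_zero, ENNReal.ofReal_eq_zero] at hSlow
    linarith
  have hBt : μ (ball b ρ0) ≠ ∞ := measure_ball_lt_top.ne
  have hBpt : μ (ball bp ρ0) ≠ ∞ := measure_ball_lt_top.ne
  have hSt : μ S ≠ ∞ := ((measure_mono hSb).trans_lt measure_ball_lt_top).ne
  -- tracking
  have htr : ∀ y' ∈ S, ∀ t ∈ Icc ((r0 - 2 * ρ0) / r1) 1,
      dist (C.T x t y') (C.T x t P) ≤ 2 * ρ0 := by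
    intro y' hy' t ht
    have h0 : 0 ≤ t := le_trans (div_nonneg (by linarith) hr1.le) ht.1
    rw [hPdef, T_ray C hv hvp ⟨hr1, hr1v⟩ ⟨h0, ht.2⟩]
    exact hStr y' hy' t ht
  have hgr0 : C.T x (r0 / r1) P = ray C x v r0 := by
    rw [hPdef, T_ray C hv hvp ⟨hr1, hr1v⟩ ⟨by positivity, (div_le_one hr1).2 h01.le⟩]
    congr 1
    field_simp
  -- the expected error
  have hJ := tube_le C hκ hκ1 Fd hδ hv hr0 h01 hr1v hr12 hk1 hk2 hR1 he
  set cE : ℝ := 4 * (Real.exp 2 * 2 ^ n) + 2 with hcE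
  have hcEp : 0 < cE := by positivity
  set K4 : ℝ := Real.exp 648 * 4 ^ n with hK4
  have hK4p : 0 < K4 := by positivity
  set Z0 : ℝ := 160 / 3 * K4 ^ 2 * cE * (R ^ n * dy k ^ n / ρ0 ^ (2 * n)) * R *
    (e / (r1 - r0)) / c.ω with hZ0
  have hZ0n : 0 ≤ Z0 := by
    have : 0 < r1 - r0 := by linarith
    positivity
  have hZ : 3 * (ENNReal.ofReal (Real.exp (κ * 36 ^ 2 / 2) * 4 ^ n) ^ 2 *
        (μ (ball b ρ0) + μ (ball bp ρ0)) *
        ∫⁻ s in Icc (0 : ℝ) 1, ∫⁻ p in ball (C.T x (th (r0 / r1) s) P) R,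
          ∫⁻ q in ball (C.T x (th (r0 / r1) s) P) R,
            err C (dy k) (Fd.H k) (Fd.g k) p q ∂μ ∂μ) ≤
      ENNReal.ofReal Z0 * (μ (ball b ρ0) * (μ (ball bp ρ0) * μ S)) := by
    set m : ℝ≥0∞ := ENNReal.ofReal (c.ω / 2 * ρ0 ^ n) with hm
    set s9 : ℝ≥0∞ := ENNReal.ofReal (9 / 20) with hs9
    have hSlow' : 2 * s9 * m ≤ μ S := by
      refine le_trans (le_of_eq ?_) hSlow
      rw [hs9, hm, show (2 : ℝ≥0∞) = ENNReal.ofReal 2 by norm_num,
        ← ENNReal.ofReal_mul (by norm_num), ← ENNReal.ofReal_mul (by norm_num)]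
      congr 1; ring
    have hlow : (μ (ball b ρ0) + μ (ball bp ρ0)) * (s9 * m ^ 2) ≤
        μ (ball b ρ0) * (μ (ball bp ρ0) * μ S) := by
      have h1 : μ (ball b ρ0) * (m * (2 * s9 * m)) ≤
          μ (ball b ρ0) * (μ (ball bp ρ0) * μ S) := by
        gcongr
        exact hvol bp hbp20
      have h2 : m * (μ (ball bp ρ0) * (2 * s9 * m)) ≤
          μ (ball b ρ0) * (μ (ball bp ρ0) * μ S) := by
        gcongr
        exact hvol b hb20
      have h3 : 2 * ((μ (ball b ρ0) + μ (ball bp ρ0)) * (s9 * m ^ 2)) ≤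
          2 * (μ (ball b ρ0) * (μ (ball bp ρ0) * μ S)) := by
        calc 2 * ((μ (ball b ρ0) + μ (ball bp ρ0)) * (s9 * m ^ 2))
            = μ (ball b ρ0) * (m * (2 * s9 * m)) + m * (μ (ball bp ρ0) * (2 * s9 * m)) := by ring
          _ ≤ _ := add_le_add h1 h2
          _ = _ := by ring
      exact (ENNReal.mul_le_mul_iff_right (by norm_num) (by norm_num)).1 h3
    have hK : ENNReal.ofReal (Real.exp (κ * 36 ^ 2 / 2) * 4 ^ n) ≤ ENNReal.ofReal K4 := by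
      apply ENNReal.ofReal_le_ofReal
      rw [hK4]
      gcongr
      nlinarith
    have hreal : 3 * K4 ^ 2 * (R * cE * (2 * c.ω * R ^ n) * dy k ^ n * (r1 - r0)⁻¹ * e) =
        Z0 * (9 / 20 * (c.ω / 2 * ρ0 ^ n) ^ 2) := by
      have hd : r1 - r0 ≠ 0 := by linarith
      have hρn : ρ0 ^ n ≠ 0 := by positivity
      rw [hZ0, show ρ0 ^ (2 * n) = (ρ0 ^ n) ^ 2 by rw [← pow_mul, mul_comm]]
      field_simp
      ring
    calc 3 * (ENNReal.ofReal (Real.exp (κ * 36 ^ 2 / 2) * 4 ^ n) ^ 2 *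
        (μ (ball b ρ0) + μ (ball bp ρ0)) *
        ∫⁻ s in Icc (0 : ℝ) 1, ∫⁻ p in ball (C.T x (th (r0 / r1) s) P) R,
          ∫⁻ q in ball (C.T x (th (r0 / r1) s) P) R,
            err C (dy k) (Fd.H k) (Fd.g k) p q ∂μ ∂μ)
        ≤ 3 * (ENNReal.ofReal K4 ^ 2 * (μ (ball b ρ0) + μ (ball bp ρ0)) *
          (ENNReal.ofReal (R * cE * (2 * c.ω * R ^ n) * dy k ^ n * (r1 - r0)⁻¹) *
            ENNReal.ofReal e)) := by gcongr
      _ = ENNReal.ofReal (3 * K4 ^ 2 *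
          (R * cE * (2 * c.ω * R ^ n) * dy k ^ n * (r1 - r0)⁻¹ * e)) *
            (μ (ball b ρ0) + μ (ball bp ρ0)) := by
          have hd : 0 < r1 - r0 := by linarith
          rw [ofReal_split hK4p.le (Y := R * cE * (2 * c.ω * R ^ n) * dy k ^ n * (r1 - r0)⁻¹)
            (by positivity)]
          ring
      _ = ENNReal.ofReal Z0 * ((μ (ball b ρ0) + μ (ball bp ρ0)) * (s9 * m ^ 2)) := by
          rw [hreal, ENNReal.ofReal_mul hZ0n, ENNReal.ofReal_mul (by norm_num),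
            ENNReal.ofReal_pow hmpos.le]
          ring
      _ ≤ _ := by gcongr
  -- comparison of the constants
  have hZC : 22 * (1 - r0 / r1) * Z0 ≤ C2 n c.ω M * (R * e / r1) := by
    have hd : 0 < r1 - r0 := by linarith
    have h1 : R ^ n * dy k ^ n / ρ0 ^ (2 * n) ≤ M ^ (2 * n) := by
      rw [div_le_iff₀ (by positivity)]
      calc R ^ n * dy k ^ n ≤ (M * ρ0) ^ n * (M * ρ0) ^ n := by
            gcongr
            exact hk1.trans hM
        _ = M ^ (2 * n) * ρ0 ^ (2 * n) := by rw [mul_pow, two_mul, pow_add, pow_add]; ring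
    have h2 : 22 * (1 - r0 / r1) * Z0 = 3520 / 3 * K4 ^ 2 * cE *
        (R ^ n * dy k ^ n / ρ0 ^ (2 * n)) / c.ω * (R * e / r1) := by
      have hd' : r1 - r0 ≠ 0 := hd.ne'
      rw [hZ0]
      have : 1 - r0 / r1 = (r1 - r0) / r1 := by field_simp
      rw [this]
      field_simp
      ring
    rw [h2]
    unfold C2
    rw [← hcE, ← hK4]
    have h3 : 0 ≤ R * e / r1 := by positivity
    have h4 : 3520 / 3 * K4 ^ 2 * cE * (R ^ n * dy k ^ n / ρ0 ^ (2 * n)) / c.ω ≤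
        1174 * K4 ^ 2 * cE * M ^ (2 * n) / c.ω := by
      gcongr
      norm_num
    exact mul_le_mul_of_nonneg_right h4 h3
  have hQ := QQ_mono (ρ0 := ρ0) (Cx := Cx) (l0 := dist b bp + 2 * ρ0) (xb := xb) hZC
  have hE := measurable_err C (dy k) (Fd.H_meas k) (Fd.g_meas k)
  have hfin := bl_core C hκ hPU (D := 36) (R := R) (S := S) (E := err C (dy k) (Fd.H k) (Fd.g k))
    hρ0 hb hbp hPr h12 hρ (by linarith) hSm hSb htr hB0 hBp0 hS0 hBt hBpt hSt hE hCx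
    (by
      filter_upwards [hmix] with p hp h1 h2 h3
      exact hp h1 h2 (hSb h3))
    hxb0 hxb hZ0n hZ (by linarith)
  rw [hgr0] at hfin
  refine hfin.trans ?_
  gcongr

end Crest.Agent.R247.BL562
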