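import Crest.Agent.R247.Mcp5_688

/-!
# Interface of block (1) (far propagation, docs 1392), helper553

`x` is a fixed centre, scales are `dy k = 2^{-k}`.  For `ρ = dy k` the functions are
(with `h = d_x²/2`, `R = (1-ρ²Δ)⁻¹`, `q = R m`, `u = h - ρ² q`)

* `H k = |Hess u - g|`, `g k = ρ |∇q|`, `q k = q_ρ`, `kk k = |∇u|² - 2u`, `nk k = |∇ kk k|`.

`FarD` collects everything which the manifold / PDE side delivers; all leaves of block (1) are typed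
over `Rad` + `FarD`.  All constants (`FarK`) depend on `n` only.
-/

set_option autoImplicit false
set_option linter.unusedSectionVars false
open MeasureTheory Set Filter Topology Metric
open scoped ENNReal NNReal

noncomputable section
namespace Crest.Agent.R247.Far553

universe u

open Crest.Agent.R247.Mcp688

/-- dyadic scales -/
def dy (k : ℕ) : ℝ := (1 / 2 : ℝ) ^ k

lemma dy_pos (k : ℕ) : 0 < dy k := by unfold dy; positivity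

lemma dy_succ (k : ℕ) : dy (k + 1) = dy k / 2 := by unfold dy; rw [pow_succ]; ring

lemma dy_le_one (k : ℕ) : dy k ≤ 1 := by
  unfold dy
  exact pow_le_one₀ (by norm_num) (by norm_num)

lemma dy_anti {j k : ℕ} (h : j ≤ k) : dy k ≤ dy j := by
  unfold dy
  exact pow_le_pow_of_le_one (by norm_num) (by norm_num) h

section defs

variable {n : ℕ} {κ : ℝ} {X : Type*} [MetricSpace X] [MeasurableSpace X] {μ : Measure X}

/-- `loc μ n K ρ F y = ρ⁻ⁿ ∫_{B(y,Kρ)} F` : the local mean of `F` at thickness `ρ`. -/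
def loc (μ : Measure X) (n : ℕ) (K ρ : ℝ) (F : X → ℝ) (y : X) : ℝ≥0∞ :=
  ENNReal.ofReal ((ρ⁻¹) ^ n) * ∫⁻ z in ball y (K * ρ), ENNReal.ofReal (F z) ∂μ

/-- the error in the pair inequality:
`d(P,Q) ∫_{[P,Q]} H + ρ (g P + g Q)` (with `g = ρ |∇q|`). -/
def err (C : Rad n κ X μ) (ρ : ℝ) (H g : X → ℝ) (P Q : X) : ℝ≥0∞ :=
  ENNReal.ofReal (dist P Q) * (∫⁻ t in Icc (0 : ℝ) 1, ENNReal.ofReal (H (C.T P t Q)))
    + ENNReal.ofReal (ρ * (g P + g Q))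

/-- the point of the ray from `x` to `v` at distance `r` from `x` -/
def ray (C : Rad n κ X μ) (x v : X) (r : ℝ) : X := C.T x (r / dist x v) v

/-- the annulus `a ≤ d_x ≤ b` -/
def ann (x : X) (a b : ℝ) : Set X := {z | a ≤ dist x z ∧ dist x z ≤ b}

/-- law of `T_λ v`, `v` uniform in `ann x (4s) (8s)`, `λ` uniform in `[1/64,1/2]` (not normalised:
total mass comparable to `sⁿ`). -/
def Lam (C : Rad n κ X μ) (x : X) (s : ℝ) : Measure X :=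
  ((μ.restrict (ann x (4 * s) (8 * s))).prod (volume.restrict (Icc (1 / 64 : ℝ) (1 / 2)))).map
    (fun p : X × ℝ => C.T x p.2 p.1)

/-- points with many rays nearby: `Lam_s (B(b,Kρ)) ≥ c ρⁿ`. -/
def NN (C : Rad n κ X μ) (x : X) (s ρ K c : ℝ) : Set X :=
  {b | ENNReal.ofReal (c * ρ ^ n) ≤ Lam C x s (ball b (K * ρ))}

/-- scale `dy j` is bad for the ray of `v`, at level `ε` -/
def bad (C : Rad n κ X μ) (x : X) (F : ℕ → X → ℝ) (K ε : ℝ) (j : ℕ) (v : X) : Prop :=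
  ∃ k, j ≤ k ∧ ENNReal.ofReal (ε * dy j) <
    ∫⁻ r in Icc (dy j) (2 * dy j), loc μ n K (dy k) (F k) (ray C x v r)

/-- the far conicality defect `⟨∇f_x, ∇d_w⟩(z) - (d_w(z) - d_w(x))`, `Dw` = radial derivative -/
def Rw (x z w : X) (Dw : ℝ) : ℝ := Dw - (dist z w - dist x w)

end defs

/-- constants, depending on `n` only -/
structure FarK where
  ω : ℝ
  N0 : ℝ
  B1 : ℝ → ℝ
  B2 : ℝ → ℝ → ℝ
  B3 : ℝ → ℝ → ℝ
  ω_pos : 0 < ω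
  N0_ge : 8 ≤ N0
  B1_pos : ∀ K, 0 < B1 K
  B2_pos : ∀ K ε, 0 < B2 K ε
  B3_pos : ∀ K c, 0 < B3 K c

/-- calculus along one minimiser `σ : z → w` of length `l` (arclength `τ`), thickness `ρ`
(301's form): `U = u ∘ σ`, `U1 = U'`, `e = (Hess u - g)(σ',σ')`, `K = k ∘ σ`, `K1 = K'`,
`N = |τσ' - ∇u|²`, `G = h ∘ σ`, and `Dw = ⟨∇h,∇d_w⟩(z) = -G'(0+)`. -/
structure AlongD (l ρ : ℝ) (G qs ks Hs gs nks : ℝ → ℝ) (Dw gz : ℝ) where
  U : ℝ → ℝ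
  U1 : ℝ → ℝ
  K : ℝ → ℝ
  e : ℝ → ℝ
  K1 : ℝ → ℝ
  hU : ∀ᵐ τ ∂(volume.restrict (Ioo 0 l)), U τ = G τ - ρ ^ 2 * qs τ
  hK : ∀ᵐ τ ∂(volume.restrict (Ioo 0 l)), K τ = ks τ
  e_int : IntervalIntegrable e volume 0 l
  K1_int : IntervalIntegrable K1 volume 0 l
  Hs_int : IntervalIntegrable Hs volume 0 l
  nks_int : IntervalIntegrable nks volume 0 l
  U1_cont : ContinuousOn U1 (Icc 0 l)
  ftc_U : ∀ a ∈ Icc 0 l, ∀ b ∈ Icc 0 l, U b - U a = ∫ τ in a..b, U1 τ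
  ftc_U1 : ∀ a ∈ Icc 0 l, ∀ b ∈ Icc 0 l, U1 b - U1 a = ∫ τ in a..b, (1 + e τ)
  ftc_K : ∀ a ∈ Icc 0 l, ∀ b ∈ Icc 0 l, K b - K a = ∫ τ in a..b, K1 τ
  N_nonneg : ∀ τ ∈ Icc 0 l, 0 ≤ τ ^ 2 - 2 * τ * U1 τ + K τ + 2 * U τ
  e_le : ∀ᵐ τ ∂(volume.restrict (Ioo 0 l)), |e τ| ≤ Hs τ
  K1_le : ∀ᵐ τ ∂(volume.restrict (Ioo 0 l)),
    |K1 τ - 2 * τ * e τ| ≤
      nks τ * Real.sqrt (τ ^ 2 - 2 * τ * U1 τ + K τ + 2 * U τ) / τ
        + 2 * Hs τ * (τ ^ 2 - 2 * τ * U1 τ + K τ + 2 * U τ) / τ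
  N_le : ∀ᵐ τ ∂(volume.restrict (Ioo 0 l)),
    Real.sqrt (τ ^ 2 - 2 * τ * U1 τ + K τ + 2 * U τ) ≤
      Real.sqrt (τ ^ 2 - 2 * τ * deriv G τ + 2 * G τ) + ρ * gs τ
  first : |U1 0 + Dw| ≤ ρ * gz

variable {n : ℕ} {κ : ℝ} {X : Type*} [MetricSpace X] [MeasurableSpace X] [BorelSpace X]
  {μ : Measure X}

/-- everything block (1) consumes about the centre `x` -/
structure FarD (c : FarK) (C : Rad n κ X μ) (x : X) (δ : ℝ) (ph : ℕ → ℝ) where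
  H : ℕ → X → ℝ
  g : ℕ → X → ℝ
  q : ℕ → X → ℝ
  kk : ℕ → X → ℝ
  nk : ℕ → X → ℝ
  H_meas : ∀ k, Measurable (H k)
  g_meas : ∀ k, Measurable (g k)
  q_meas : ∀ k, Measurable (q k)
  kk_meas : ∀ k, Measurable (kk k)
  nk_meas : ∀ k, Measurable (nk k)
  H_nonneg : ∀ k z, 0 ≤ H k z
  g_nonneg : ∀ k z, 0 ≤ g k z
  q_nonneg : ∀ k z, 0 ≤ q k z
  nk_nonneg : ∀ k z, 0 ≤ nk k z
  ph_nonneg : ∀ j, 0 ≤ ph j
  /-- sup bound of `q`: `ρ² q ≤ C (h + ρ²)` -/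
  q_le : ∀ k, ∀ᵐ z ∂μ, dist x z < 12 →
    dy k ^ 2 * q k z ≤ c.B1 1 * (dist x z ^ 2 + dy k ^ 2)
  /-- volume pinching on `B(x,20)` -/
  vol_ge : ∀ y r, dist x y < 20 → 0 < r → r ≤ 20 →
    ENNReal.ofReal ((1 - δ) * c.ω * r ^ n) ≤ μ (ball y r)
  vol_le : ∀ y r, dist x y < 20 → 0 < r → r ≤ 20 →
    μ (ball y r) ≤ ENNReal.ofReal ((1 + δ) * c.ω * r ^ n)
  /-- symmetry of `⟨∇f_a, ∇f_b⟩` -/
  sym : ∀ a b : X, ∃ Γ : X → ℝ, Measurable Γ ∧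
    RD C a (fun z => dist b z ^ 2 / 2) Γ ∧ RD C b (fun z => dist a z ^ 2 / 2) Γ
  /-- (VEL) infinitesimal law of cosines at almost every pair `p = (y, P)`
(`cs = cos` of the angle at `P` between the directions away from `x` and from `y`) -/
  vel : ∀ᵐ p ∂(μ.prod μ), ∃ cs ∈ Icc (-1 : ℝ) 1,
    HasDerivWithinAt (fun t : ℝ => dist x (C.T p.1 t p.2)) (cs * dist p.1 p.2) (Iio 1) 1 ∧
    ∀ a b : ℝ, 0 ≤ a → 0 ≤ b →
      Tendsto (fun ε : ℝ => dist (C.T x (1 - a * ε) p.2) (C.T p.1 (1 - b * ε) p.2) / ε) (𝓝[>] 0)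
        (𝓝 (Real.sqrt ((a * dist x p.2) ^ 2 + (b * dist p.1 p.2) ^ 2
          - 2 * (a * dist x p.2) * (b * dist p.1 p.2) * cs)))
  /-- (PE) the pair inequality: for almost every pair the radial derivative of the distance -/
  pe : ∀ k, ∀ᵐ p ∂(μ.prod μ), dist x p.1 < 12 → dist x p.2 < 12 →
    ∃ A : ℝ, HasDerivWithinAt (fun t : ℝ => dist (C.T x t p.1) (C.T x t p.2)) A (Iio 1) 1 ∧
      ENNReal.ofReal |A - dist p.1 p.2| ≤ err C (dy k) (H k) (g k) p.1 p.2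
  /-- (BASE) start of Lemma CE -/
  base : ∀ᵐ v ∂μ, dist x v < 12 → ∀ r L : ℝ, 0 < L → c.N0 * L ≤ r → c.N0 * L ≤ dist x v - r →
    ∃ ρ₀ > 0, ∀ y, dist y (ray C x v r) < ρ₀ → (x, y) ∈ C.U →
      ∀ t ∈ Icc (1 - 4 * L / r) 1,
        dist (C.T x t y) (C.T x t (ray C x v r)) ≤ 2 * t * dist y (ray C x v r)
  /-- (D1a) always: short steps have small local `L¹`-in-time means at every thickness -/
  d1a : ∀ K, 1 ≤ K → ∀ᵐ v ∂μ, dist x v < 12 → ∀ k, ∀ a b : ℝ, 0 < a → a ≤ b → b < dist x v →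
    8 * (b - a) ≤ a → 8 * (b - a) ≤ dist x v - b → dy k ≤ b - a →
      ∫⁻ r in Icc a b, loc μ n K (dy k) (fun z => H k z + g k z) (ray C x v r) ≤
        ENNReal.ofReal (c.B1 K * a * Real.sqrt ((b - a) / min a (dist x v - b)))
  /-- (D1b) the measure of the rays for which the scale `dy j` is bad -/
  d1b : ∀ K ε, 1 ≤ K → 0 < ε → ∀ j, 4 ≤ j →
    μ {v | 1 ≤ dist x v ∧ dist x v < 12 ∧ bad C x (fun k z => H k z + g k z) K ε j v} ≤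
      ENNReal.ofReal (c.B2 K ε * ph j)
  /-- (D2) bounds at thickness `dy k` on the set of points with many rays nearby -/
  d2_H : ∀ K s, 1 ≤ K → 0 < s → ∀ j k, 4 ≤ j → j ≤ k →
    ∫⁻ z in NN C x (dy j) (dy k) K s, ENNReal.ofReal (H k z ^ 2) ∂μ ≤
      ENNReal.ofReal (c.B3 K s * ph j * dy j ^ n)
  d2_g : ∀ K s, 1 ≤ K → 0 < s → ∀ j k, 4 ≤ j → j ≤ k →
    ∫⁻ z in NN C x (dy j) (dy k) K s, ENNReal.ofReal (g k z ^ 2) ∂μ ≤
      ENNReal.ofReal (c.B3 K s * ph j * dy j ^ n)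
  d2_q : ∀ K s, 1 ≤ K → 0 < s → ∀ j k, 4 ≤ j → j ≤ k →
    ∫⁻ z in NN C x (dy j) (dy k) K s, ENNReal.ofReal (q k z) ∂μ ≤
      ENNReal.ofReal (c.B3 K s * ph j * dy j ^ n)
  d2_k : ∀ K s, 1 ≤ K → 0 < s → ∀ j k, 4 ≤ j → j ≤ k →
    ∫⁻ z in NN C x (dy j) (dy k) K s, ENNReal.ofReal |kk k z| ∂μ ≤
      ENNReal.ofReal (c.B3 K s * dy k ^ 2 * ph j * dy j ^ n)
  d2_nk2 : ∀ K s, 1 ≤ K → 0 < s → ∀ j k, 4 ≤ j → j ≤ k →
    ∫⁻ z in NN C x (dy j) (dy k) K s ∩ {z | |kk k z| ≤ dy k ^ 2}, ENNReal.ofReal (nk k z ^ 2) ∂μ ≤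
      ENNReal.ofReal (c.B3 K s * dy k ^ 2 * (1 + (k - j : ℕ)) * ph j * dy j ^ n)
  d2_nk1 : ∀ K s, 1 ≤ K → 0 < s → ∀ j k, 4 ≤ j → j ≤ k →
    ∫⁻ z in NN C x (dy j) (dy k) K s ∩ {z | dy k ^ 2 < |kk k z|}, ENNReal.ofReal (nk k z) ∂μ ≤
      ENNReal.ofReal (c.B3 K s * dy k * (1 + (k - j : ℕ)) * ph j * dy j ^ n)
  /-- (D2') the same at the scale of the ball `B(x, 8 dy j)` itself, thickness `dy j` -/
  d2_ball : ∀ j, 4 ≤ j →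
    ∫⁻ z in ball x (16 * dy j), ENNReal.ofReal (H j z ^ 2 + g j z ^ 2 + q j z) ∂μ ≤
      ENNReal.ofReal (c.B3 1 1 * ph j * dy j ^ n)
  /-- (D3) calculus along almost every minimiser -/
  d3 : ∀ k, ∀ᵐ p ∂(μ.prod μ), dist x p.1 < 2 → dist x p.2 < 12 → p.1 ≠ p.2 →
    ∃ Dw : ℝ, HasDerivWithinAt (fun t : ℝ => dist (C.T x t p.1) p.2) Dw (Iio 1) 1 ∧
      HasDerivWithinAt (fun τ : ℝ => dist x (ray C p.1 p.2 τ) ^ 2 / 2) (-Dw) (Ici 0) 0 ∧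
      Nonempty (AlongD (dist p.1 p.2) (dy k) (fun τ => dist x (ray C p.1 p.2 τ) ^ 2 / 2)
        (fun τ => q k (ray C p.1 p.2 τ)) (fun τ => kk k (ray C p.1 p.2 τ))
        (fun τ => H k (ray C p.1 p.2 τ)) (fun τ => g k (ray C p.1 p.2 τ))
        (fun τ => nk k (ray C p.1 p.2 τ)) Dw (g k p.1))

/-- the pinching parameter may be increased -/
def FarD.mono {c : FarK} {C : Rad n κ X μ} {x : X} {δ δ' : ℝ} {ph : ℕ → ℝ}
    (D : FarD c C x δ ph) (h : δ ≤ δ') : FarD c C x δ' ph :=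
  { D with
    vol_ge := fun y r hy h0 h1 => (ENNReal.ofReal_le_ofReal (by
      have h2 : 0 ≤ c.ω * r ^ n := mul_nonneg c.ω_pos.le (pow_nonneg h0.le n)
      nlinarith)).trans (D.vol_ge y r hy h0 h1)
    vol_le := fun y r hy h0 h1 => (D.vol_le y r hy h0 h1).trans (ENNReal.ofReal_le_ofReal (by
      have h2 : 0 ≤ c.ω * r ^ n := mul_nonneg c.ω_pos.le (pow_nonneg h0.le n)
      nlinarith)) }

/-- **Conclusion of block (1)**: far propagation `(F)`, averaged over `z ∈ B(x, dy j)`,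
`w ∈ W = {4 ≤ d_p ≤ 8}`, with a summable defect whose tails are small when the tails of `ph` are. -/
def FarConcl (n : ℕ) (c : FarK) : Prop :=
  ∃ δ > (0 : ℝ), ∃ A > (0 : ℝ), ∃ β > (0 : ℝ), ∃ j₀ : ℕ, 4 ≤ j₀ ∧
    ∀ j₁ : ℕ, 4 ≤ j₁ → ∃ J₁ : ℕ, j₁ ≤ J₁ ∧
    ∀ (κ : ℝ), 0 ≤ κ → κ ≤ δ → ∀ (X : Type u) [MetricSpace X] [MeasurableSpace X] [BorelSpace X]
      [ProperSpace X] (μ : Measure X) [IsFiniteMeasureOnCompacts μ] (C : Rad n κ X μ) (x : X)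
      (ph : ℕ → ℝ) (_ : FarD c C x δ ph), Summable ph → ∀ p : X, dist p x < 1 →
      ∃ D : ℕ → ℝ, (∀ j, 0 ≤ D j) ∧ Summable D ∧
        (∀ J, J₁ ≤ J → ∑' j, D (J + j) ≤
          A * (∑' j, ph (j₁ + j) + (dy (J - j₁)) ^ β * (1 + ∑' j, ph (4 + j)))) ∧
        ∀ j, j₀ ≤ j → ∀ Dw : X → X → ℝ, Measurable (Function.uncurry Dw) →
          (∀ w, RD C x (fun z => dist z w) (fun z => Dw z w)) →
          ∫⁻ z in ball x (dy j), ∫⁻ w in ann p 4 8,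
              ENNReal.ofReal (Rw x z w (Dw z w) ^ 2) ∂μ ∂μ ≤
            ENNReal.ofReal (A * D j * dy j ^ 2 * dy j ^ n)

end Crest.Agent.R247.Far553
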