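import Crest.Agent.R247.Exc2_853
import Crest.Agent.R247.Far0_553

/-!
# R247, block (1), leaf (1-E), file 3: `xbar` as an iterated `lintegral`; (3c) = (U) along a
minimiser over the interface `FarD`.
-/

set_option autoImplicit false
set_option linter.unusedSectionVars false
open MeasureTheory Set Filter Topology Metric
open scoped ENNReal NNReal

noncomputable section
namespace Crest.Agent.R247.Exc853

open Crest.Agent.R247.Mcp688 Crest.Agent.R247.Far553

variable {n : ℕ} {κ : ℝ} {X : Type*} [MetricSpace X] [MeasurableSpace X] [BorelSpace X]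
  {μ : Measure X}

/-- `∫⁻ ofReal f = ofReal (average) * μ(ball)` for a nonnegative integrable `f`. -/
lemma lintegral_ball_eq (hB : Bpf μ) (b : X) {r : ℝ} (hr : 0 < r) {f : X → ℝ}
    (hf : IntegrableOn f (ball b r) μ) (h0 : ∀ y, 0 ≤ f y) :
    ∫⁻ y in ball b r, ENNReal.ofReal (f y) ∂μ =
      ENNReal.ofReal (⨍ y in ball b r, f y ∂μ) * μ (ball b r) := by
  rw [← ofReal_integral_eq_lintegral_ofReal hf (Eventually.of_forall h0), setAverage_eq,
    smul_eq_mul]
  have h1 : μ (ball b r) = ENNReal.ofReal (μ.real (ball b r)) :=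
    (ENNReal.ofReal_toReal (hB b r hr).2).symm
  have hpos : 0 < μ.real (ball b r) := ENNReal.toReal_pos (hB b r hr).1 (hB b r hr).2
  have hI : 0 ≤ ∫ y in ball b r, f y ∂μ := integral_nonneg h0
  conv_rhs => rw [h1, ← ENNReal.ofReal_mul (by positivity)]
  congr 1
  field_simp

/-- `xbar` in the form consumed by (BL): iterated `lintegral`. -/
theorem lintegral_xbar (hB : Bpf μ) (x b b' : X) {ρ : ℝ} (hρ : 0 < ρ) :
    ∫⁻ z in ball b ρ, ∫⁻ y in ball b' ρ, ENNReal.ofReal (dist x z + dist z y - dist x y) ∂μ ∂μ =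
      ENNReal.ofReal (xbar μ x b b' ρ) * μ (ball b ρ) * μ (ball b' ρ) := by
  have h1 : ∀ z, ∫⁻ y in ball b' ρ, ENNReal.ofReal (dist x z + dist z y - dist x y) ∂μ =
      ENNReal.ofReal (⨍ y in ball b' ρ, (dist x z + dist z y - dist x y) ∂μ) * μ (ball b' ρ) :=
    fun z => lintegral_ball_eq hB b' hρ (int_F hB x z b' hρ)
      (fun y => by linarith [dist_triangle x z y])
  have hlip := lip_average (K := 2) hB b' hρ (lip_F x) (fun z => int_F hB x z b' hρ)
  simp only [h1]
  rw [lintegral_mul_const _ (hlip.continuous.measurable.ennreal_ofReal),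
    lintegral_ball_eq hB b hρ (integrableOn_of_lip hB b hρ hlip)
      (fun z => average_nonneg' b' fun y => by linarith [dist_triangle x z y])]
  rfl

/-- a point of the ray from `x` to `v` before `w = T x lam v` has zero excess for `w` -/
lemma exc_ray (C : Rad n κ X μ) {x v : X} (hU : (x, v) ∈ C.U) (hv : x ≠ v) {lam r : ℝ}
    (hlam : lam ∈ Ioc (0 : ℝ) 1) (hr : 0 ≤ r) (hr' : r ≤ lam * dist x v) :
    Exc x (C.T x lam v) (ray C x v r) = 0 := by
  have hd : 0 < dist x v := dist_pos.2 hv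
  have ht : r / dist x v ∈ Icc (0 : ℝ) 1 := by
    refine ⟨by positivity, (div_le_one hd).2 (hr'.trans ?_)⟩
    nlinarith [hlam.2]
  unfold Exc ray
  rw [C.dist_left hU ht, C.dist_T x v hU _ ht lam ⟨hlam.1.le, hlam.2⟩,
    C.dist_left hU ⟨hlam.1.le, hlam.2⟩, div_mul_cancel₀ _ hd.ne', abs_sub_comm,
    abs_of_nonneg (by rw [sub_nonneg]; exact (div_le_iff₀ hd).2 hr'), sub_mul,
    div_mul_cancel₀ _ hd.ne']
  ring

lemma dist_ray (C : Rad n κ X μ) {x v : X} (hU : (x, v) ∈ C.U) (hv : x ≠ v) {r : ℝ}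
    (hr : 0 ≤ r) (hr' : r ≤ dist x v) : dist x (ray C x v r) = r := by
  have hd : 0 < dist x v := dist_pos.2 hv
  unfold ray
  rw [C.dist_left hU ⟨by positivity, (div_le_one hd).2 hr'⟩, div_mul_cancel₀ _ hd.ne']

/-- **(U)** = (3c) along a minimiser `σ : z → w`, `w = T x lam v`, over `FarD`:
`T(2τ) ≤ C_U D(τ)²/τ`, `D(τ) = d(σ τ, γ_v(|σ τ|))`. -/
theorem U_line {c : FarK} {C : Rad n κ X μ} {x : X} {δ : ℝ} {ph : ℕ → ℝ}
    (F : FarD c C x δ ph) (hB : Bpf μ) (hδ : δ ≤ 1 / 2) {K A : ℝ} (hK : 0 ≤ K) (hA : 0 ≤ A)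
    (hMV : MVH μ (ball x 20) 1 K A) {z v w : X} {l lam : ℝ} {σ : ℝ → X}
    (hU : (x, v) ∈ C.U) (hv : x ≠ v) (hlam : lam ∈ Ioc (0 : ℝ) 1) (hw : w = C.T x lam v)
    (hl : 0 ≤ l) (hσ : IsMin z w l σ) (hwx : dist x w < 12) (hwx' : 2 ≤ dist x w) {τ : ℝ}
    (hz : 2 * dist x z ≤ τ) (hτ : 0 < τ) (hτ1 : τ ≤ 1 / 4) :
    Exc x w (σ (2 * τ)) ≤ (16 * (3 * 2 ^ n) * K * A + 4 * K * A + 32) *
      (dist (σ τ) (ray C x v (dist x (σ τ))) ^ 2 / τ) := by
  have hd : 0 < dist x v := dist_pos.2 hv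
  have hlz : dist z w = l := by
    have := hσ.dist_w le_rfl hl
    rw [hσ.zero] at this
    linarith
  have hl1 : 15 / 8 ≤ l := by
    have := dist_triangle x z w
    linarith
  have hxσ : ∀ a, 0 ≤ a → a ≤ l → dist x (σ a) ≤ dist x z + a ∧ a - dist x z ≤ dist x (σ a) := by
    intro a ha hal
    have h1 := hσ.dist_le le_rfl ha hal
    rw [hσ.zero] at h1
    have h2 := dist_triangle x z (σ a)
    have h3 := dist_triangle z x (σ a)
    rw [dist_comm z x] at h3
    constructor <;> linarith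
  have hmem : ∀ a, 0 ≤ a → a ≤ 2 * τ → σ a ∈ ball x 20 := by
    intro a ha hal
    rw [mem_ball, dist_comm]
    have := (hxσ a ha (by linarith)).1
    linarith
  have hwlam : dist x w = lam * dist x v := by rw [hw, C.dist_left hU ⟨hlam.1.le, hlam.2⟩]
  set r := dist x (σ τ) with hr
  have hr1 := (hxσ τ hτ.le (by linarith)).1
  have hr2 := (hxσ τ hτ.le (by linarith)).2
  have hr0 : 0 ≤ r := dist_nonneg
  set g := ray C x v r with hg
  have hxg : dist x g = r := dist_ray C hU hv hr0 (by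
    have : lam * dist x v ≤ dist x v := by nlinarith [hlam.2]
    linarith)
  have hE : Exc x w g = 0 := by
    rw [hw]; exact exc_ray C hU hv hlam hr0 (by linarith)
  have hgw : dist g w = dist x w - r := by
    have : dist x g + dist g w - dist x w = 0 := hE
    linarith
  have hgS : g ∈ ball x 20 := by rw [mem_ball, dist_comm, hxg]; linarith
  have key := hσ.exc_le_sq (x := x) (g := g) (a := τ / 2) (b := τ) (c := 2 * τ) (L := τ / 2)
    (Cd := 3 * 2 ^ n) hB hK hA (by positivity) hMV (mem_ball_self (by norm_num))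
    (by rw [mem_ball, dist_comm]; linarith)
    (hmem _ (by linarith) (by linarith)) (hmem _ (by linarith) (by linarith))
    (hmem _ (by linarith) le_rfl) hgS (by linarith) (by linarith) (fun s hs hs' => ?_)
    (by linarith) (by linarith) (by linarith) (by linarith) (by linarith) (by linarith) hE
  · refine key.trans (le_of_eq ?_)
    field_simp
    ring
  · have h1 := hmem τ hτ.le (by linarith)
    rw [mem_ball, dist_comm] at h1 hgS
    have hω := c.ω_pos
    exact doubling_of_vol hω hδ hs (F.vol_ge _ _ h1 hs (by linarith))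
      (F.vol_le _ _ hgS (by linarith) (by linarith)) (hB _ _ hs).2

end Crest.Agent.R247.Exc853
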