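import Crest.Agent.R247.Far0_553
import Crest.Agent.R247.Exc3_853

/-!
# Props between the leaves of block (1) below `FarD` (helper553)

`BLP` = Lemma BL (doc 1392, sec. 2) over `FarD`; `CEP` = Lemma CE (short step) over `FarD`.
-/

set_option autoImplicit false
set_option linter.unusedSectionVars false
open MeasureTheory Set Filter Topology Metric
open scoped ENNReal NNReal

noncomputable section
namespace Crest.Agent.R247.Far553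

universe u
open Crest.Agent.R247.Mcp688

/-- The bracket of Lemma BL: `ρ + √(l₀ xb) + xb + C₂ R e`. -/
def brk (ρ l0 xb C2 R e : ℝ) : ℝ := ρ + Real.sqrt (l0 * xb) + xb + C2 * R * e

/-- **(BL)** over `FarD`, thickness `ρ = dy k`, tube radius `R = M ρ`. -/
def BLP (n : ℕ) (c : FarK) : Prop :=
  ∃ C1 : ℝ, 1 ≤ C1 ∧ ∀ M : ℝ, 1 ≤ M → ∃ C2 : ℝ, 1 ≤ C2 ∧ ∃ K : ℝ, 1 ≤ K ∧
  ∀ {κ : ℝ} {X : Type u} [MetricSpace X] [MeasurableSpace X] [BorelSpace X] [ProperSpace X]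
    {μ : Measure X} [IsFiniteMeasureOnCompacts μ] (C : Rad n κ X μ) (x : X) (δ : ℝ) (ph : ℕ → ℝ)
    (D : FarD c C x δ ph), 0 ≤ κ → κ * 1600 ≤ 1 → -1 ≤ δ → δ ≤ 1 / 2 →
  ∀ (b bp P : X) (r0 r1 : ℝ) (k : ℕ), (x, P) ∈ C.U → dist x b = r0 → dist x bp = r1 →
    dist x P = r1 → r1 ≤ 10 → r1 ≤ 2 * r0 → 8 * dy k ≤ r1 - r0 → M * dy k ≤ r1 / 16 →
  ∀ S : Set X, MeasurableSet S → S ⊆ ball P (dy k) →
    ENNReal.ofReal (9 / 10) * μ (ball P (dy k)) ≤ μ S →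
    (∀ y' ∈ S, ∀ t ∈ Icc ((r0 - 2 * dy k) / r1) 1,
      dist (C.T x t y') (C.T x t P) ≤ 2 * dy k) →
  ∀ xb e : ℝ, 0 ≤ xb → 0 ≤ e →
    ∫⁻ z in ball b (dy k), ∫⁻ y in ball bp (dy k),
        ENNReal.ofReal (dist x z + dist z y - dist x y) ∂μ ∂μ ≤
      ENNReal.ofReal xb * (μ (ball b (dy k)) * μ (ball bp (dy k))) →
    ∫⁻ r in Icc r0 r1, loc μ n K (dy k) (fun z => D.H k z + D.g k z) (C.T x (r / r1) P) ≤
      ENNReal.ofReal (e * r1) →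
    dist bp P + C1 * brk (dy k) (dist b bp + 2 * dy k) xb C2 (M * dy k) e < M * dy k →
    dist b (C.T x (r0 / r1) P) / r0 ≤
      dist bp P / r1 + C1 * brk (dy k) (dist b bp + 2 * dy k) xb C2 (M * dy k) e / r0

/-- **(CE)** over `FarD`, short step (`Λ = 2`). -/
def CEP (n : ℕ) (c : FarK) : Prop :=
  ∃ K ε : ℝ, 1 ≤ K ∧ 0 < ε ∧
  ∀ {κ : ℝ} {X : Type u} [MetricSpace X] [MeasurableSpace X] [BorelSpace X] [ProperSpace X]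
    {μ : Measure X} [IsFiniteMeasureOnCompacts μ] (C : Rad n κ X μ) (x : X) (δ : ℝ) (ph : ℕ → ℝ)
    (D : FarD c C x δ ph), 0 ≤ κ → κ * 1600 ≤ 1 → -1 ≤ δ → δ ≤ 1 / 2 →
  ∀ᵐ v ∂μ, dist x v ≤ 11 → ∀ r L : ℝ, 0 < L → c.N0 * L ≤ r →
    c.N0 * L ≤ dist x v - r → ∀ k0, 5 ≤ k0 →
    (∀ k, k0 ≤ k → ∫⁻ τ in Icc (r - 4 * L) r,
      loc μ n K (dy k) (fun z => D.H k z + D.g k z) (ray C x v τ) ≤ ENNReal.ofReal (ε * r)) →
    ∀ k, k0 ≤ k → ∃ S, MeasurableSet S ∧ S ⊆ ball (ray C x v r) (dy k) ∧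
      ENNReal.ofReal (9 / 10) * μ (ball (ray C x v r) (dy k)) ≤ μ S ∧
      ∀ y ∈ S, (x, y) ∈ C.U ∧ ∀ t ∈ Icc (1 - 4 * L / r) 1,
        dist (C.T x t y) (C.T x t (ray C x v r)) ≤ 2 * dy k

end Crest.Agent.R247.Far553
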