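import Crest.Agent.R247.Pair1_438

/-! # Leaf (1-CE) of R247, part 2: Lemma CE (radial flows stay close, induction on the radius) -/

set_option autoImplicit false
set_option linter.unusedSectionVars false
open MeasureTheory Set Filter Topology
open scoped ENNReal NNReal

noncomputable section
namespace Crest.Agent.R247.Pair438
open Crest.Agent.R247.Mcp688

variable {n : ℕ} {κ : ℝ} {X : Type*} [MetricSpace X] [MeasurableSpace X] [BorelSpace X]
  {μ : Measure X} (C : Rad n κ X μ)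

lemma measurable_seg [SFinite μ] {F : X → ℝ≥0∞} (hF : Measurable F) :
    Measurable (fun p : X × X => ∫⁻ s in Icc (0 : ℝ) 1, F (C.T p.1 s p.2)) := by
  have h : Measurable (fun q : (X × X) × ℝ => F (C.T q.1.1 q.2 q.1.2)) :=
    hF.comp (C.measT.comp ((measurable_fst.comp measurable_fst).prodMk
      (measurable_snd.prodMk (measurable_snd.comp measurable_fst))))
  exact h.lintegral_prod_right'

lemma measurable_Err [SecondCountableTopology X] [SFinite μ] {F : X → ℝ≥0∞} (hF : Measurable F)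
    (ρ : ℝ) : Measurable (fun p : X × X => Err C F ρ p.1 p.2) := by
  unfold Err
  refine Measurable.add (Measurable.mul ?_ (measurable_seg C hF)) (Measurable.mul measurable_const
    ((hF.comp measurable_fst).add (hF.comp measurable_snd)))
  exact (measurable_fst.dist measurable_snd).ennreal_ofReal

/-- the mean of the error over pairs of points of a ball -/
lemma Err_int [SecondCountableTopology X] [SFinite μ] (hκ : 0 ≤ κ) {F : X → ℝ≥0∞}
    (hF : Measurable F) (c : X) {a ρ D : ℝ} (ha : 0 ≤ a) (hρ : 0 ≤ ρ) (hD : 2 * a ≤ D) :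
    ∫⁻ p in Metric.closedBall c a, ∫⁻ q in Metric.closedBall c a, Err C F ρ p q ∂μ ∂μ ≤
      ENNReal.ofReal (4 * a * (Real.exp (κ * D ^ 2 / 2) * 2 ^ n) + 2 * ρ) *
        μ (Metric.closedBall c a) * ∫⁻ y in Metric.closedBall c (3 * a), F y ∂μ := by
  set W := Metric.closedBall c a with hW
  set W' := Metric.closedBall c (3 * a) with hW'
  have hWm : MeasurableSet W := Metric.isClosed_closedBall.measurableSet
  have hWm' : MeasurableSet W' := Metric.isClosed_closedBall.measurableSet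
  have hdist : ∀ p ∈ W, ∀ q ∈ W, dist p q ≤ 2 * a := by
    intro p hp q hq
    have h1 := Metric.mem_closedBall.1 hp
    have h2 := Metric.mem_closedBall.1 hq
    have h3 := dist_triangle_right p q c
    linarith
  have hsub : W ⊆ W' := Metric.closedBall_subset_closedBall (by linarith)
  have hseg := C.segment_le hκ hWm hWm hWm' (D := D) (fun p hp q hq => (hdist p hp q hq).trans hD)
    (fun p hp q hq hU t ht => by
      rw [hW', Metric.mem_closedBall]
      have h1 := C.dist_left hU ht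
      have h2 := hdist p hp q hq
      have h3 := Metric.mem_closedBall.1 hp
      have h4 := dist_triangle_left (C.T p t q) c p
      have h5 : t * dist p q ≤ 1 * dist p q := mul_le_mul_of_nonneg_right ht.2 dist_nonneg
      linarith) hF
  set G := ∫⁻ y in W', F y ∂μ with hG
  have hFW : ∫⁻ y in W, F y ∂μ ≤ G := lintegral_mono_set hsub
  have hms : Measurable (fun p : X × X => ∫⁻ s in Icc (0 : ℝ) 1, F (C.T p.1 s p.2)) :=
    measurable_seg C hF
  have hms1 : Measurable (fun p : X => ∫⁻ q in W, ∫⁻ s in Icc (0 : ℝ) 1, F (C.T p s q) ∂volume ∂μ) :=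
    hms.lintegral_prod_right'
  calc ∫⁻ p in W, ∫⁻ q in W, Err C F ρ p q ∂μ ∂μ
      ≤ ∫⁻ p in W, ((ENNReal.ofReal (2 * a) * ∫⁻ q in W, ∫⁻ s in Icc (0 : ℝ) 1, F (C.T p s q) ∂volume
          ∂μ) + ENNReal.ofReal ρ * (F p * μ W + G)) ∂μ := by
        apply setLIntegral_mono' hWm
        intro p hp
        have hmp : Measurable (fun q : X => ∫⁻ s in Icc (0 : ℝ) 1, F (C.T p s q)) :=
          hms.comp (measurable_const.prodMk measurable_id)
        calc ∫⁻ q in W, Err C F ρ p q ∂μ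
            ≤ ∫⁻ q in W, ((ENNReal.ofReal (2 * a) * ∫⁻ s in Icc (0 : ℝ) 1, F (C.T p s q)) +
                ENNReal.ofReal ρ * (F p + F q)) ∂μ := by
              apply setLIntegral_mono' hWm
              intro q hq
              unfold Err
              gcongr
              exact hdist p hp q hq
          _ = ENNReal.ofReal (2 * a) * (∫⁻ q in W, ∫⁻ s in Icc (0 : ℝ) 1, F (C.T p s q) ∂volume ∂μ)
                + ENNReal.ofReal ρ * (F p * μ W + ∫⁻ q in W, F q ∂μ) := by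
              rw [lintegral_add_left (hmp.const_mul _), lintegral_const_mul' _ _ ENNReal.ofReal_ne_top,
                lintegral_const_mul' _ _ ENNReal.ofReal_ne_top,
                lintegral_add_left measurable_const, setLIntegral_const]
          _ ≤ _ := by gcongr
    _ = ENNReal.ofReal (2 * a) * (∫⁻ p in W, ∫⁻ q in W, ∫⁻ s in Icc (0 : ℝ) 1, F (C.T p s q) ∂volume
          ∂μ ∂μ) + ENNReal.ofReal ρ * ((∫⁻ p in W, F p ∂μ) * μ W + G * μ W) := by
        rw [lintegral_add_left (hms1.const_mul _), lintegral_const_mul' _ _ ENNReal.ofReal_ne_top,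
          lintegral_const_mul' _ _ ENNReal.ofReal_ne_top,
          lintegral_add_left (hF.mul_const _), lintegral_mul_const _ hF, setLIntegral_const]
    _ ≤ ENNReal.ofReal (2 * a) * (ENNReal.ofReal (Real.exp (κ * D ^ 2 / 2) * 2 ^ n) * (μ W + μ W) *
          G) + ENNReal.ofReal ρ * (G * μ W + G * μ W) := by gcongr
    _ = _ := by
        have hE : ENNReal.ofReal (4 * a * (Real.exp (κ * D ^ 2 / 2) * 2 ^ n) + 2 * ρ) =
            2 * (ENNReal.ofReal (2 * a) * ENNReal.ofReal (Real.exp (κ * D ^ 2 / 2) * 2 ^ n)) +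
              2 * ENNReal.ofReal ρ := by
          rw [ENNReal.ofReal_add (by positivity) (by positivity),
            show 4 * a * (Real.exp (κ * D ^ 2 / 2) * 2 ^ n) =
              2 * ((2 * a) * (Real.exp (κ * D ^ 2 / 2) * 2 ^ n)) by ring,
            ENNReal.ofReal_mul (p := 2) (by norm_num), ENNReal.ofReal_mul (p := 2 * a)
              (by positivity), ENNReal.ofReal_mul (p := 2) (q := ρ) (by norm_num)]
          simp
        rw [hE]
        ring

/-- the set of starting points in `ball P ρ` whose `x`-ray stays `Λ t ρ`-close to the ray of `P` -/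
def tub (x P : X) (l0 Λ ρ : ℝ) : Set X :=
  {y | dist y P < ρ ∧ (x, y) ∈ C.U ∧
    ∀ t ∈ Icc l0 1, dist (C.T x t y) (C.T x t P) ≤ Λ * t * ρ}

lemma continuousOn_tdist {x y P : X} (hy : (x, y) ∈ C.U) (hP : (x, P) ∈ C.U) :
    ContinuousOn (fun t : ℝ => dist (C.T x t y) (C.T x t P)) (Icc 0 1) :=
  (lip_dist (lip_T C hy) (lip_T C hP)).continuousOn

lemma measurableSet_tub [SecondCountableTopology X] {x P : X} (hP : (x, P) ∈ C.U) {l0 Λ ρ : ℝ}
    (h0 : 0 ≤ l0) (h1 : l0 ≤ 1) : MeasurableSet (tub C x P l0 Λ ρ) := by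
  set cl : ℝ → ℝ := fun r => max l0 (min r 1) with hcl
  have hclm : ∀ r, cl r ∈ Icc l0 1 := fun r => ⟨le_max_left _ _, max_le h1 (min_le_right _ _)⟩
  have hclc : Continuous cl := by fun_prop
  have hcle : ∀ t ∈ Icc l0 1, cl t = t := fun t ht => by
    simp [hcl, min_eq_left ht.2, max_eq_right ht.1]
  have hset : tub C x P l0 Λ ρ = (Metric.ball P ρ ∩ {y | (x, y) ∈ C.U}) ∩
      ⋂ r : ℚ, {y | dist (C.T x (cl r) y) (C.T x (cl r) P) ≤ Λ * cl r * ρ} := by
    ext y
    simp only [tub, mem_ofPred_eq, mem_inter_iff, Metric.mem_ball, mem_iInter]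
    constructor
    · rintro ⟨h2, h3, h4⟩
      exact ⟨⟨h2, h3⟩, fun r => h4 _ (hclm _)⟩
    · rintro ⟨⟨h2, h3⟩, h4⟩
      refine ⟨h2, h3, ?_⟩
      have hc : Continuous (fun r : ℝ => dist (C.T x (cl r) y) (C.T x (cl r) P)) := by
        refine (continuousOn_tdist C h3 hP).comp_continuous hclc fun r => ?_
        exact ⟨h0.trans (hclm r).1, (hclm r).2⟩
      have hclosed : IsClosed {r : ℝ | dist (C.T x (cl r) y) (C.T x (cl r) P) ≤ Λ * cl r * ρ} :=
        isClosed_le hc (by fun_prop)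
      have hall : ∀ r : ℝ, dist (C.T x (cl r) y) (C.T x (cl r) P) ≤ Λ * cl r * ρ := fun r =>
        isClosed_property (p := fun r : ℝ => dist (C.T x (cl r) y) (C.T x (cl r) P) ≤ Λ * cl r * ρ)
          Rat.isDenseEmbedding_coe_real.dense hclosed (fun q => h4 q) r
      intro t ht
      have := hall t
      rwa [hcle t ht] at this
  rw [hset]
  refine MeasurableSet.inter (MeasurableSet.inter Metric.isOpen_ball.measurableSet ?_)
    (MeasurableSet.iInter fun r => ?_)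
  · exact (measurable_const.prodMk measurable_id) C.measU
  · exact measurableSet_le ((C.measT_xt x _).dist measurable_const) measurable_const

/-- weighted error along the flow, cut off to the tube of radius `a` around the ray of `P` -/
def gtub (x P : X) (F : X → ℝ≥0∞) (ρ a : ℝ) (s : ℝ) (p q : X) : ℝ≥0∞ :=
  (Metric.closedBall (C.T x s P) a).indicator (fun _ => (1 : ℝ≥0∞)) p *
    (Metric.closedBall (C.T x s P) a).indicator (fun _ => (1 : ℝ≥0∞)) q *
      (Err C F ρ p q / ENNReal.ofReal (s ^ 2))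

lemma measurable_gtub [SecondCountableTopology X] [SFinite μ] {x P : X} {F : X → ℝ≥0∞}
    (hF : Measurable F) (ρ a : ℝ) :
    Measurable (fun z : ℝ × X × X => gtub C x P F ρ a z.1 z.2.1 z.2.2) := by
  unfold gtub
  have hT : Measurable (fun z : ℝ × X => C.T x z.1 P) :=
    C.measT.comp (measurable_const.prodMk (measurable_fst.prodMk measurable_const))
  have hS : MeasurableSet {z : ℝ × X | dist z.2 (C.T x z.1 P) ≤ a} :=
    measurableSet_le (measurable_snd.dist hT) measurable_const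
  have hI : Measurable (fun z : ℝ × X =>
      (Metric.closedBall (C.T x z.1 P) a).indicator (fun _ => (1 : ℝ≥0∞)) z.2) := by
    have : (fun z : ℝ × X =>
        (Metric.closedBall (C.T x z.1 P) a).indicator (fun _ => (1 : ℝ≥0∞)) z.2) =
        {z : ℝ × X | dist z.2 (C.T x z.1 P) ≤ a}.indicator (fun _ => (1 : ℝ≥0∞)) := by
      ext z
      by_cases h : dist z.2 (C.T x z.1 P) ≤ a
      · rw [indicator_of_mem (Metric.mem_closedBall.2 h), indicator_of_mem (by exact h)]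
      · rw [indicator_of_notMem (fun h' => h (Metric.mem_closedBall.1 h')),
          indicator_of_notMem (by exact h)]
    rw [this]
    exact measurable_const.indicator hS
  refine Measurable.mul (Measurable.mul ?_ ?_) (Measurable.div ?_ ?_)
  · exact hI.comp (measurable_fst.prodMk (measurable_fst.comp measurable_snd))
  · exact hI.comp (measurable_fst.prodMk (measurable_snd.comp measurable_snd))
  · exact (measurable_Err C hF ρ).comp measurable_snd
  · exact (measurable_fst.pow_const 2).ennreal_ofReal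

/-- pushing a pair of sets forward by the flow: the expectation of the cut off error -/
lemma gtub_int [SecondCountableTopology X] [SFinite μ] (hκ : 0 ≤ κ) {x P : X}
    {F : X → ℝ≥0∞} (hF : Measurable F) {ρ a D l0 : ℝ} (ha : 0 ≤ a) (hρ : 0 ≤ ρ)
    (hD : 2 * a ≤ D) (h0 : 0 < l0) {A B : Set X} (hA : MeasurableSet A)
    (hB : MeasurableSet B) (hAD : ∀ y ∈ A, dist x y ≤ D) (hBD : ∀ y ∈ B, dist x y ≤ D)
    {s : ℝ} (hs : s ∈ Icc l0 1) :
    ∫⁻ y in A, ∫⁻ z in B, gtub C x P F ρ a s (C.T x s y) (C.T x s z) ∂μ ∂μ ≤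
      ENNReal.ofReal ((Real.exp (κ * D ^ 2 / 2) * (l0⁻¹) ^ n) ^ 2 * (l0⁻¹) ^ 2 *
        (4 * a * (Real.exp (κ * D ^ 2 / 2) * 2 ^ n) + 2 * ρ)) *
        μ (Metric.closedBall (C.T x s P) a) *
          ∫⁻ y in Metric.closedBall (C.T x s P) (3 * a), F y ∂μ := by
  have hs0 : 0 < s := h0.trans_le hs.1
  have hsI : s ∈ Ioc (0 : ℝ) 1 := ⟨hs0, hs.2⟩
  set H : ℝ := Real.exp (κ * D ^ 2 / 2) * (l0⁻¹) ^ n with hH
  have hH0 : 0 ≤ H := by positivity
  have hHs : Real.exp (κ * D ^ 2 / 2) * (s⁻¹) ^ n ≤ H := by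
    have h1 : s⁻¹ ≤ l0⁻¹ := inv_anti₀ h0 hs.1
    have h2 : 0 ≤ s⁻¹ := (inv_pos.2 hs0).le
    rw [hH]
    gcongr
  set W := Metric.closedBall (C.T x s P) a with hW
  have hWm : MeasurableSet W := Metric.isClosed_closedBall.measurableSet
  have hg := measurable_gtub C (x := x) (P := P) hF ρ a
  have hgs : Measurable (fun z : X × X => gtub C x P F ρ a s z.1 z.2) :=
    hg.comp (measurable_const.prodMk measurable_id)
  have hin : ∀ p, ∫⁻ z in B, gtub C x P F ρ a s p (C.T x s z) ∂μ ≤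
      ENNReal.ofReal H * ∫⁻ q, gtub C x P F ρ a s p q ∂μ := by
    intro p
    have h3 := C.setLIntegral_T_le hκ x hsI hB MeasurableSet.univ hBD (fun _ _ _ => mem_univ _)
      (g := gtub C x P F ρ a s p) (hgs.comp (measurable_const.prodMk measurable_id))
    rw [setLIntegral_univ] at h3
    exact h3.trans (mul_le_mul_left (ENNReal.ofReal_le_ofReal hHs) _)
  have hmid : Measurable (fun p => ∫⁻ q, gtub C x P F ρ a s p q ∂μ) := hgs.lintegral_prod_right'
  have hout := C.setLIntegral_T_le hκ x hsI hA MeasurableSet.univ hAD (fun _ _ _ => mem_univ _)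
      (g := fun p => ∫⁻ q, gtub C x P F ρ a s p q ∂μ) hmid
  rw [setLIntegral_univ] at hout
  have hcut : ∫⁻ p, ∫⁻ q, gtub C x P F ρ a s p q ∂μ ∂μ ≤
      ENNReal.ofReal ((l0⁻¹) ^ 2) * ∫⁻ p in W, ∫⁻ q in W, Err C F ρ p q ∂μ ∂μ := by
    have hdiv : ∀ e : ℝ≥0∞, e / ENNReal.ofReal (s ^ 2) ≤ ENNReal.ofReal ((l0⁻¹) ^ 2) * e := by
      intro e
      rw [div_eq_mul_inv, mul_comm, ← ENNReal.ofReal_inv_of_pos (by positivity)]
      gcongr
      rw [← inv_pow]
      have h1 : s⁻¹ ≤ l0⁻¹ := inv_anti₀ h0 hs.1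
      have h2 : 0 ≤ s⁻¹ := (inv_pos.2 hs0).le
      gcongr
    have he := measurable_Err C (μ := μ) hF ρ
    calc ∫⁻ p, ∫⁻ q, gtub C x P F ρ a s p q ∂μ ∂μ
        ≤ ∫⁻ p, W.indicator (fun p => ENNReal.ofReal ((l0⁻¹) ^ 2) *
            ∫⁻ q in W, Err C F ρ p q ∂μ) p ∂μ := by
          apply lintegral_mono
          intro p
          show ∫⁻ q, gtub C x P F ρ a s p q ∂μ ≤ W.indicator (fun p => ENNReal.ofReal ((l0⁻¹) ^ 2) *
            ∫⁻ q in W, Err C F ρ p q ∂μ) p
          by_cases hp : p ∈ W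
          · rw [indicator_of_mem hp, ← lintegral_const_mul' _ _ ENNReal.ofReal_ne_top,
              ← lintegral_indicator hWm]
            apply lintegral_mono
            intro q
            show gtub C x P F ρ a s p q ≤ W.indicator (fun q => ENNReal.ofReal ((l0⁻¹) ^ 2) *
              Err C F ρ p q) q
            unfold gtub
            rw [← hW, indicator_of_mem hp, one_mul]
            by_cases hq : q ∈ W
            · rw [indicator_of_mem hq, indicator_of_mem hq, one_mul]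
              exact hdiv _
            · rw [indicator_of_notMem hq, zero_mul]
              exact bot_le
          · rw [indicator_of_notMem hp]
            simp only [gtub, ← hW, indicator_of_notMem hp, zero_mul, lintegral_zero, le_refl]
      _ = _ := by
          rw [lintegral_indicator hWm, lintegral_const_mul' _ _ ENNReal.ofReal_ne_top]
  have hErr := Err_int C hκ hF (C.T x s P) ha hρ hD
  rw [← hW] at hErr
  calc ∫⁻ y in A, ∫⁻ z in B, gtub C x P F ρ a s (C.T x s y) (C.T x s z) ∂μ ∂μ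
      ≤ ∫⁻ y in A, ENNReal.ofReal H * ∫⁻ q, gtub C x P F ρ a s (C.T x s y) q ∂μ ∂μ :=
        lintegral_mono fun y => hin _
    _ = ENNReal.ofReal H * ∫⁻ y in A, ∫⁻ q, gtub C x P F ρ a s (C.T x s y) q ∂μ ∂μ := by
        rw [lintegral_const_mul' _ _ ENNReal.ofReal_ne_top]
    _ ≤ ENNReal.ofReal H * (ENNReal.ofReal H * ∫⁻ p, ∫⁻ q, gtub C x P F ρ a s p q ∂μ ∂μ) :=
        mul_le_mul_right (hout.trans (mul_le_mul_left (ENNReal.ofReal_le_ofReal hHs) _)) _
    _ ≤ ENNReal.ofReal H * (ENNReal.ofReal H * (ENNReal.ofReal ((l0⁻¹) ^ 2) *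
          (ENNReal.ofReal (4 * a * (Real.exp (κ * D ^ 2 / 2) * 2 ^ n) + 2 * ρ) * μ W *
            ∫⁻ y in Metric.closedBall (C.T x s P) (3 * a), F y ∂μ))) :=
        mul_le_mul_right (mul_le_mul_right (hcut.trans (mul_le_mul_right hErr _)) _) _
    _ = _ := by
        have hfin : ∀ Z : ℝ, 0 ≤ Z → ENNReal.ofReal (H ^ 2 * (l0⁻¹) ^ 2 * Z) =
            ENNReal.ofReal H * ENNReal.ofReal H * ENNReal.ofReal ((l0⁻¹) ^ 2) *
              ENNReal.ofReal Z := by
          intro Z hZ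
          rw [ENNReal.ofReal_mul (mul_nonneg (sq_nonneg _) (sq_nonneg _)),
            ENNReal.ofReal_mul (sq_nonneg _), pow_two H, ENNReal.ofReal_mul hH0]
        rw [hfin _ (by positivity)]
        ring

/-- deterministic part of Lemma CE: first exit -/
lemma first_exit {x P z y : X} {F : X → ℝ≥0∞} {l0 Λ N ρ : ℝ} (hP : (x, P) ∈ C.U) (h0 : 0 < l0)
    (hρ : 0 < ρ) (hΛ : 0 ≤ Λ) (hN : 2 * (1 + Λ) ≤ N)
    (hz : z ∈ tub C x P l0 Λ (ρ / N)) (hyP : dist y P < ρ) (hy : (x, y) ∈ C.U)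
    (hint : ∫⁻ s in Ioc l0 1, gtub C x P F ρ (8 * ρ) s (C.T x s z) (C.T x s y) ≤
      ENNReal.ofReal (ρ / 8))
    (hpair : ∀ a ∈ Ioc (0 : ℝ) 1,
      ENNReal.ofReal (dist (C.T x a z) (C.T x a y) / a) ≤ ENNReal.ofReal (dist z y) +
        ∫⁻ s in Ioc a 1, Err C F ρ (C.T x s z) (C.T x s y) / ENNReal.ofReal (s ^ 2)) :
    ∀ t ∈ Icc l0 1, dist (C.T x t y) (C.T x t P) ≤ 2 * t * ρ := by
  obtain ⟨hz1, hz2, hz3⟩ := hz
  have hNpos : 0 < N := by linarith
  by_contra hcon
  push Not at hcon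
  obtain ⟨t1, ht1, ht1'⟩ := hcon
  set A : Set ℝ := Icc l0 1 ∩ {t | 2 * t * ρ ≤ dist (C.T x t y) (C.T x t P)} with hA
  have hcont : ContinuousOn (fun t : ℝ => dist (C.T x t y) (C.T x t P)) (Icc l0 1) :=
    (continuousOn_tdist C hy hP).mono (Icc_subset_Icc_left h0.le)
  have hAc : IsClosed A := by
    have hc2 : ContinuousOn (fun t : ℝ => dist (C.T x t y) (C.T x t P) - 2 * t * ρ) (Icc l0 1) :=
      hcont.sub (by fun_prop)
    have := hc2.preimage_isClosed_of_isClosed isClosed_Icc (isClosed_Ici (a := (0 : ℝ)))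
    convert this using 1
    ext t
    simp [hA]
  have hAcomp : IsCompact A := isCompact_Icc.of_isClosed_subset hAc inter_subset_left
  have hAne : A.Nonempty := ⟨t1, ht1, ht1'.le⟩
  set t0 := sSup A with ht0
  have ht0A : t0 ∈ A := hAcomp.sSup_mem hAne
  have ht0pos : 0 < t0 := h0.trans_le ht0A.1.1
  have habove : ∀ s ∈ Ioc t0 1, dist (C.T x s y) (C.T x s P) < 2 * s * ρ := by
    intro s hs
    by_contra hcon
    push Not at hcon
    have : s ∈ A := ⟨⟨ht0A.1.1.trans hs.1.le, hs.2⟩, hcon⟩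
    exact absurd (le_csSup hAcomp.bddAbove this) (not_le.2 hs.1)
  have hgt : ∀ s ∈ Ioc t0 1, Err C F ρ (C.T x s z) (C.T x s y) / ENNReal.ofReal (s ^ 2) ≤
      gtub C x P F ρ (8 * ρ) s (C.T x s z) (C.T x s y) := by
    intro s hs
    have hsI : s ∈ Icc l0 1 := ⟨ht0A.1.1.trans hs.1.le, hs.2⟩
    have h3 : C.T x s y ∈ Metric.closedBall (C.T x s P) (8 * ρ) := by
      rw [Metric.mem_closedBall]
      have h4 := habove s hs
      have h5 : 2 * s * ρ ≤ 2 * 1 * ρ := by gcongr; exact hs.2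
      linarith
    have h4 : C.T x s z ∈ Metric.closedBall (C.T x s P) (8 * ρ) := by
      rw [Metric.mem_closedBall]
      have h5 := hz3 s hsI
      have h6 : Λ * s * (ρ / N) ≤ 1 * ρ := by
        have h7 : Λ / N ≤ 1 := by rw [div_le_one hNpos]; linarith
        have h8 : Λ / N * s ≤ 1 * 1 := mul_le_mul h7 hs.2 (ht0pos.trans hs.1).le zero_le_one
        calc Λ * s * (ρ / N) = (Λ / N * s) * ρ := by ring
          _ ≤ 1 * ρ := by gcongr; linarith
      linarith
    unfold gtub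
    rw [indicator_of_mem h3, indicator_of_mem h4, one_mul, one_mul]
  have h9 := hpair t0 ⟨ht0pos, ht0A.1.2⟩
  have h10 : ∫⁻ s in Ioc t0 1, Err C F ρ (C.T x s z) (C.T x s y) / ENNReal.ofReal (s ^ 2) ≤
      ENNReal.ofReal (ρ / 8) := by
    calc ∫⁻ s in Ioc t0 1, Err C F ρ (C.T x s z) (C.T x s y) / ENNReal.ofReal (s ^ 2)
        ≤ ∫⁻ s in Ioc t0 1, gtub C x P F ρ (8 * ρ) s (C.T x s z) (C.T x s y) :=
          setLIntegral_mono' measurableSet_Ioc hgt
      _ ≤ ∫⁻ s in Ioc l0 1, gtub C x P F ρ (8 * ρ) s (C.T x s z) (C.T x s y) :=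
          lintegral_mono_set (Ioc_subset_Ioc_left ht0A.1.1)
      _ ≤ _ := hint
  have h11 : dist (C.T x t0 z) (C.T x t0 y) / t0 ≤ dist z y + ρ / 8 := by
    rw [← ENNReal.ofReal_le_ofReal_iff (by positivity), ENNReal.ofReal_add (by positivity)
      (by positivity)]
    exact h9.trans (by gcongr)
  rw [div_le_iff₀ ht0pos] at h11
  have h12 : dist z y < ρ / N + ρ := by
    have := dist_triangle_right z y P
    linarith
  have h13 := hz3 t0 ht0A.1
  have h14 := dist_triangle_left (C.T x t0 y) (C.T x t0 P) (C.T x t0 z)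
  have h15 : 2 * t0 * ρ ≤ dist (C.T x t0 y) (C.T x t0 P) := ht0A.2
  have h16 : (1 + Λ) / N ≤ 1 / 2 := by
    rw [div_le_iff₀ hNpos]; linarith
  have h17 : (dist z y + ρ / 8) * t0 < (ρ / N + ρ + ρ / 8) * t0 := by
    gcongr
  have h18 : (ρ / N + ρ + ρ / 8) * t0 + Λ * t0 * (ρ / N) =
      (t0 * ρ) * ((1 + Λ) / N + (1 + 1 / 8)) := by ring
  have h19 : (t0 * ρ) * ((1 + Λ) / N + (1 + 1 / 8)) ≤ (t0 * ρ) * 2 := by
    have : 0 < t0 * ρ := by positivity
    gcongr
    linarith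
  linarith

/-- the auxiliary constant of Lemma CE -/
def ceM (n : ℕ) (κ D l0 : ℝ) : ℝ :=
  (Real.exp (κ * D ^ 2 / 2) * (l0⁻¹) ^ n) ^ 2 * (l0⁻¹) ^ 2 *
    (32 * (Real.exp (κ * D ^ 2 / 2) * 2 ^ n) + 2)

lemma ceM_pos (n : ℕ) (κ D : ℝ) {l0 : ℝ} (h : 0 < l0) : 0 < ceM n κ D l0 := by
  unfold ceM; positivity

/-- the smallness constant of Lemma CE -/
def ceC (n : ℕ) (κ D l0 N v V : ℝ) : ℝ := v ^ 2 / (100 * N ^ n * V * ceM n κ D l0)

lemma ceC_pos (n : ℕ) (κ D : ℝ) {l0 N v V : ℝ} (h : 0 < l0) (hN : 0 < N) (hv : 0 < v)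
    (hV : 0 < V) : 0 < ceC n κ D l0 N v V := by
  have := ceM_pos n κ D h
  unfold ceC; positivity

/-- one step of the induction on the radius -/
theorem ce_step [SecondCountableTopology X] [SFinite μ] (hκ : 0 ≤ κ) {x P : X}
    (hP : (x, P) ∈ C.U) {l0 Λ N v V ρ D : ℝ} (h0 : 0 < l0) (h1 : l0 ≤ 1) (hΛ : 0 ≤ Λ)
    (hN : 2 * (1 + Λ) ≤ N) (hv : 0 < v) (hV : 0 < V) (hρ : 0 < ρ) (hD1 : dist x P + ρ ≤ D)
    (hD2 : 16 * ρ ≤ D) {F : X → ℝ≥0∞} (hF : Measurable F) (hPV : PV C x (Err C F ρ))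
    (hlow : ENNReal.ofReal (v * ρ ^ n) ≤ μ (Metric.ball P ρ))
    (hlow' : ENNReal.ofReal (9 / 10 * (v * (ρ / N) ^ n)) ≤ μ (tub C x P l0 Λ (ρ / N)))
    (hfin : μ (Metric.ball P ρ) ≠ ∞)
    (hup : ∀ t ∈ Icc l0 1, μ (Metric.closedBall (C.T x t P) (8 * ρ)) ≤
      ENNReal.ofReal (V * ρ ^ n))
    (he : ∫⁻ t in Icc l0 1, ENNReal.ofReal ((ρ⁻¹) ^ n) *
      ∫⁻ y in Metric.ball (C.T x t P) (25 * ρ), F y ∂μ ≤
        ENNReal.ofReal (ceC n κ D l0 N v V)) :
    ENNReal.ofReal (9 / 10) * μ (Metric.ball P ρ) ≤ μ (tub C x P l0 2 ρ) := by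
  have hNpos : 0 < N := by linarith
  have hM : 0 < ceM n κ D l0 := ceM_pos n κ D h0
  set B := Metric.ball P ρ with hB
  set S := tub C x P l0 Λ (ρ / N) with hS
  have hBm : MeasurableSet B := Metric.isOpen_ball.measurableSet
  have hSm : MeasurableSet S := measurableSet_tub C hP h0.le h1
  have hρN : ρ / N ≤ ρ := by
    rw [div_le_iff₀ hNpos]
    nlinarith
  set g : ℝ × X × X → ℝ≥0∞ := fun q => gtub C x P F ρ (8 * ρ) q.1 (C.T x q.1 q.2.1)
    (C.T x q.1 q.2.2) with hg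
  have hgm : Measurable g := by
    have h2 := measurable_gtub C (x := x) (P := P) hF ρ (8 * ρ)
    refine h2.comp (measurable_fst.prodMk (Measurable.prodMk ?_ ?_))
    · exact (C.measT_x x).comp (measurable_fst.prodMk (measurable_fst.comp measurable_snd))
    · exact (C.measT_x x).comp (measurable_fst.prodMk (measurable_snd.comp measurable_snd))
  set J : X → X → ℝ≥0∞ := fun z y => ∫⁻ s in Ioc l0 1, g (s, z, y) with hJ
  have hJm : Measurable (fun q : X × X => J q.1 q.2) := by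
    have h2 : Measurable (fun q : (X × X) × ℝ => g (q.2, q.1.1, q.1.2)) :=
      hgm.comp (measurable_snd.prodMk ((measurable_fst.comp measurable_fst).prodMk
        (measurable_snd.comp measurable_fst)))
    exact h2.lintegral_prod_right'
  have hhm : Measurable (fun z => ∫⁻ y in B, J z y ∂μ) := hJm.lintegral_prod_right'
  -- the total integral
  have hAD : ∀ y ∈ S, dist x y ≤ D := by
    rintro y ⟨hy, -, -⟩
    have := dist_triangle_right x y P
    have h3 := dist_triangle x P y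
    rw [dist_comm P y] at h3
    linarith
  have hBD : ∀ y ∈ B, dist x y ≤ D := by
    intro y hy
    have h2 := Metric.mem_ball.1 hy
    have h3 := dist_triangle x P y
    rw [dist_comm P y] at h3
    linarith
  have htot : ∫⁻ z in S, ∫⁻ y in B, J z y ∂μ ∂μ ≤
      ENNReal.ofReal (ρ * ceM n κ D l0) * ENNReal.ofReal (V * ρ ^ n) *
        (ENNReal.ofReal (ρ ^ n) * ENNReal.ofReal (ceC n κ D l0 N v V)) := by
    have hsw : ∫⁻ z in S, ∫⁻ y in B, J z y ∂μ ∂μ =
        ∫⁻ s in Ioc l0 1, ∫⁻ z in S, ∫⁻ y in B, g (s, z, y) ∂μ ∂μ := by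
      have h2 : ∀ z, ∫⁻ y in B, J z y ∂μ = ∫⁻ s in Ioc l0 1, ∫⁻ y in B, g (s, z, y) ∂μ := by
        intro z
        rw [hJ, lintegral_lintegral_swap]
        exact (hgm.comp (measurable_snd.prodMk (measurable_const.prodMk
          measurable_fst))).aemeasurable
      simp_rw [h2]
      rw [lintegral_lintegral_swap]
      have h3 : Measurable (fun q : (X × ℝ) × X => g (q.1.2, q.1.1, q.2)) :=
        hgm.comp ((measurable_snd.comp measurable_fst).prodMk
          ((measurable_fst.comp measurable_fst).prodMk measurable_snd))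
      exact h3.lintegral_prod_right'.aemeasurable
    have hMe : (Real.exp (κ * D ^ 2 / 2) * (l0⁻¹) ^ n) ^ 2 * (l0⁻¹) ^ 2 *
        (4 * (8 * ρ) * (Real.exp (κ * D ^ 2 / 2) * 2 ^ n) + 2 * ρ) = ρ * ceM n κ D l0 := by
      unfold ceM; ring
    rw [hsw]
    calc ∫⁻ s in Ioc l0 1, ∫⁻ z in S, ∫⁻ y in B, g (s, z, y) ∂μ ∂μ
        ≤ ∫⁻ s in Ioc l0 1, ENNReal.ofReal (ρ * ceM n κ D l0) * ENNReal.ofReal (V * ρ ^ n) *
            ∫⁻ y in Metric.ball (C.T x s P) (25 * ρ), F y ∂μ := by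
          apply setLIntegral_mono' measurableSet_Ioc
          intro s hs
          have hsI : s ∈ Icc l0 1 := ⟨hs.1.le, hs.2⟩
          have h4 := gtub_int C hκ (x := x) (P := P) hF (ρ := ρ) (a := 8 * ρ) (D := D)
            (by positivity) hρ.le (by linarith) h0 hSm hBm hAD hBD hsI
          rw [hMe] at h4
          refine h4.trans ?_
          gcongr
          · exact hup s hsI
          · exact Metric.closedBall_subset_ball (by linarith)
      _ = ENNReal.ofReal (ρ * ceM n κ D l0) * ENNReal.ofReal (V * ρ ^ n) *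
            ∫⁻ s in Ioc l0 1, ∫⁻ y in Metric.ball (C.T x s P) (25 * ρ), F y ∂μ :=
          lintegral_const_mul' _ _ (ENNReal.mul_ne_top ENNReal.ofReal_ne_top
            ENNReal.ofReal_ne_top)
      _ ≤ _ := by
          gcongr
          have h5 : ∫⁻ s in Ioc l0 1, ∫⁻ y in Metric.ball (C.T x s P) (25 * ρ), F y ∂μ ≤
              ∫⁻ s in Icc l0 1, ∫⁻ y in Metric.ball (C.T x s P) (25 * ρ), F y ∂μ :=
            lintegral_mono_set Ioc_subset_Icc_self
          refine h5.trans ?_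
          rw [lintegral_const_mul' _ _ ENNReal.ofReal_ne_top] at he
          calc ∫⁻ s in Icc l0 1, ∫⁻ y in Metric.ball (C.T x s P) (25 * ρ), F y ∂μ
              = ENNReal.ofReal (ρ ^ n) * (ENNReal.ofReal ((ρ⁻¹) ^ n) *
                ∫⁻ s in Icc l0 1, ∫⁻ y in Metric.ball (C.T x s P) (25 * ρ), F y ∂μ) := by
                rw [← mul_assoc, ← ENNReal.ofReal_mul (by positivity), ← mul_pow,
                  mul_inv_cancel₀ hρ.ne', one_pow, ENNReal.ofReal_one, one_mul]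
            _ ≤ _ := by gcongr
  -- choice of `z`
  set τ : ℝ≥0∞ := ENNReal.ofReal (ρ / 8) * ENNReal.ofReal (v * ρ ^ n / 10) with hτ
  have hlt : ∫⁻ z in S, ∫⁻ y in B, J z y ∂μ ∂μ < τ * μ S := by
    refine lt_of_le_of_lt htot (lt_of_lt_of_le ?_ (mul_le_mul_right hlow' τ))
    rw [hτ, ← ENNReal.ofReal_mul (by positivity), ← ENNReal.ofReal_mul (by positivity),
      ← ENNReal.ofReal_mul (by positivity), ← ENNReal.ofReal_mul (by positivity),
      ← ENNReal.ofReal_mul (by positivity), ENNReal.ofReal_lt_ofReal_iff (by positivity)]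
    have h6 : ρ * ceM n κ D l0 * (V * ρ ^ n) * (ρ ^ n * ceC n κ D l0 N v V) =
        (ρ * (ρ ^ n) ^ 2 * v ^ 2 / N ^ n) * (1 / 100) := by
      unfold ceC
      field_simp
    have h7 : ρ / 8 * (v * ρ ^ n / 10) * (9 / 10 * (v * (ρ / N) ^ n)) =
        (ρ * (ρ ^ n) ^ 2 * v ^ 2 / N ^ n) * (9 / 800) := by
      rw [div_pow]
      ring
    rw [h6, h7]
    have h8 : 0 < ρ * (ρ ^ n) ^ 2 * v ^ 2 / N ^ n := by positivity
    apply mul_lt_mul_of_pos_left _ h8
    norm_num
  have hpair : ∀ᵐ z ∂μ, ∀ᵐ y ∂μ, ∀ a ∈ Ioc (0 : ℝ) 1,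
      ENNReal.ofReal (dist (C.T x a z) (C.T x a y) / a) ≤ ENNReal.ofReal (dist z y) +
        ∫⁻ s in Ioc a 1, Err C F ρ (C.T x s z) (C.T x s y) / ENNReal.ofReal (s ^ 2) :=
    Measure.ae_ae_of_ae_prod (pair0 C hPV)
  obtain ⟨z, hzS, hzp, hzJ⟩ : ∃ z ∈ S, (∀ᵐ y ∂μ, ∀ a ∈ Ioc (0 : ℝ) 1,
      ENNReal.ofReal (dist (C.T x a z) (C.T x a y) / a) ≤ ENNReal.ofReal (dist z y) +
        ∫⁻ s in Ioc a 1, Err C F ρ (C.T x s z) (C.T x s y) / ENNReal.ofReal (s ^ 2)) ∧
      ∫⁻ y in B, J z y ∂μ ≤ τ := by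
    by_contra hcon
    push Not at hcon
    have h9 : ∀ᵐ z ∂(μ.restrict S), τ ≤ ∫⁻ y in B, J z y ∂μ := by
      filter_upwards [ae_restrict_of_ae hpair, ae_restrict_mem hSm] with z hz1 hz2
      exact (hcon z hz2 hz1).le
    have h10 : τ * μ S ≤ ∫⁻ z in S, ∫⁻ y in B, J z y ∂μ ∂μ := by
      rw [← setLIntegral_const]
      exact lintegral_mono_ae h9
    exact absurd hlt (not_lt.2 h10)
  -- the bad set
  have hJz : Measurable (fun y => J z y) := hJm.comp (measurable_const.prodMk measurable_id)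
  set bad : Set X := {y | ENNReal.ofReal (ρ / 8) ≤ J z y} ∩ B with hbad
  have hbadm : μ bad ≤ ENNReal.ofReal (v * ρ ^ n / 10) := by
    have h11 := mul_meas_ge_le_lintegral (μ := μ.restrict B) hJz (ENNReal.ofReal (ρ / 8))
    rw [Measure.restrict_apply (measurableSet_le measurable_const hJz)] at h11
    have h12 : ENNReal.ofReal (ρ / 8) * μ bad ≤
        ENNReal.ofReal (ρ / 8) * ENNReal.ofReal (v * ρ ^ n / 10) := h11.trans hzJ
    exact (ENNReal.mul_le_mul_iff_right (by simp [hρ]) ENNReal.ofReal_ne_top).1 h12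
  have hcov : μ B ≤ μ (tub C x P l0 2 ρ) + μ bad := by
    refine le_trans (measure_mono_ae ?_) (measure_union_le _ _)
    filter_upwards [hzp, C.ae_U x] with y hy1 hy2 hyB
    by_cases hyJ : ENNReal.ofReal (ρ / 8) ≤ J z y
    · exact Or.inr ⟨hyJ, hyB⟩
    · left
      refine ⟨Metric.mem_ball.1 hyB, hy2, ?_⟩
      exact first_exit C hP h0 hρ hΛ hN hzS (Metric.mem_ball.1 hyB) hy2 (not_le.1 hyJ).le hy1
  have h13 : μ bad ≤ ENNReal.ofReal (1 / 10) * μ B := by
    calc μ bad ≤ ENNReal.ofReal (v * ρ ^ n / 10) := hbadm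
      _ = ENNReal.ofReal (1 / 10) * ENNReal.ofReal (v * ρ ^ n) := by
          rw [← ENNReal.ofReal_mul (by norm_num)]
          congr 1
          ring
      _ ≤ _ := by gcongr
  have h14 : ENNReal.ofReal (9 / 10) * μ B + ENNReal.ofReal (1 / 10) * μ B ≤
      μ (tub C x P l0 2 ρ) + ENNReal.ofReal (1 / 10) * μ B := by
    rw [← add_mul, ← ENNReal.ofReal_add (by norm_num) (by norm_num)]
    norm_num
    norm_num at h13
    exact hcov.trans (by gcongr)
  exact (ENNReal.add_le_add_iff_right (ENNReal.mul_ne_top ENNReal.ofReal_ne_top hfin)).1 h14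

lemma tub_mono {x P : X} {l0 Λ Λ' ρ : ℝ} (h0 : 0 ≤ l0) (hρ : 0 ≤ ρ) (h : Λ ≤ Λ') :
    tub C x P l0 Λ ρ ⊆ tub C x P l0 Λ' ρ := by
  rintro y ⟨h1, h2, h3⟩
  refine ⟨h1, h2, fun t ht => (h3 t ht).trans ?_⟩
  have : 0 ≤ t := h0.trans ht.1
  gcongr

/-- **LEMMA CE.**  If the local means of the error are small at all thicknesses `ρ ∈ Rs`, then for
every `ρ ∈ Rs` most points of `ball P ρ` have an `x`-ray which stays `Λ t ρ`-close to that of `P`
for all fractions `t ∈ [l0, 1]`. -/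
theorem CE [SecondCountableTopology X] [SFinite μ] (hκ : 0 ≤ κ) {x P : X}
    (hP : (x, P) ∈ C.U) {l0 Λ N v V D : ℝ} (h0 : 0 < l0) (h1 : l0 ≤ 1) (hΛ : 2 ≤ Λ)
    (hN : 2 * (1 + Λ) ≤ N) (hv : 0 < v) (hV : 0 < V) {Rs : Set ℝ}
    (hRs : ∀ ρ ∈ Rs, 0 < ρ ∧ dist x P + ρ ≤ D ∧ 16 * ρ ≤ D ∧ ρ / N ∈ Rs)
    {F : ℝ → X → ℝ≥0∞} (hF : ∀ ρ ∈ Rs, Measurable (F ρ))
    (hPV : ∀ ρ ∈ Rs, PV C x (Err C (F ρ) ρ))
    (hbase : ∃ ρ1 > 0, ∀ y, (x, y) ∈ C.U → dist y P < ρ1 → ∀ t ∈ Icc l0 1,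
      dist (C.T x t y) (C.T x t P) ≤ Λ * t * dist y P)
    (hlow : ∀ ρ ∈ Rs, ENNReal.ofReal (v * ρ ^ n) ≤ μ (Metric.ball P ρ))
    (hup : ∀ ρ ∈ Rs, ∀ t ∈ Icc l0 1, μ (Metric.closedBall (C.T x t P) (8 * ρ)) ≤
      ENNReal.ofReal (V * ρ ^ n))
    (he : ∀ ρ ∈ Rs, ∫⁻ t in Icc l0 1, ENNReal.ofReal ((ρ⁻¹) ^ n) *
      ∫⁻ y in Metric.ball (C.T x t P) (25 * ρ), F ρ y ∂μ ≤
        ENNReal.ofReal (ceC n κ D l0 N v V)) :
    ∀ ρ ∈ Rs, ENNReal.ofReal (9 / 10) * μ (Metric.ball P ρ) ≤ μ (tub C x P l0 Λ ρ) := by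
  have hNpos : 0 < N := by linarith
  have hN2 : 2 ≤ N := by linarith
  obtain ⟨ρ1, hρ1, hb⟩ := hbase
  have key : ∀ k : ℕ, ∀ ρ ∈ Rs, ρ ≤ N ^ k * ρ1 →
      ENNReal.ofReal (9 / 10) * μ (Metric.ball P ρ) ≤ μ (tub C x P l0 Λ ρ) := by
    intro k
    induction k with
    | zero =>
      intro ρ hρ hρk
      rw [pow_zero, one_mul] at hρk
      have hρ0 := (hRs ρ hρ).1
      calc ENNReal.ofReal (9 / 10) * μ (Metric.ball P ρ) ≤ 1 * μ (Metric.ball P ρ) := by
            gcongr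
            rw [← ENNReal.ofReal_one]
            exact ENNReal.ofReal_le_ofReal (by norm_num)
        _ = μ (Metric.ball P ρ) := one_mul _
        _ ≤ _ := by
            apply measure_mono_ae
            filter_upwards [C.ae_U x] with y hy hyB
            have hyB' := Metric.mem_ball.1 hyB
            refine ⟨hyB', hy, fun t ht => (hb y hy (hyB'.trans_le hρk) t ht).trans ?_⟩
            have : 0 ≤ t := h0.le.trans ht.1
            gcongr
    | succ k ih =>
      intro ρ hρ hρk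
      obtain ⟨hρ0, hρD, hρ16, hρN⟩ := hRs ρ hρ
      have h3 : ρ / N ≤ N ^ k * ρ1 := by
        rw [div_le_iff₀ hNpos]
        calc ρ ≤ N ^ (k + 1) * ρ1 := hρk
          _ = _ := by ring
      have h4 := ih (ρ / N) hρN h3
      have h5 : ENNReal.ofReal (9 / 10 * (v * (ρ / N) ^ n)) ≤ μ (tub C x P l0 Λ (ρ / N)) := by
        rw [ENNReal.ofReal_mul (by norm_num)]
        exact (mul_le_mul_right (hlow _ hρN) _).trans h4
      have hfin : μ (Metric.ball P ρ) ≠ ∞ := by
        have h6 := hup ρ hρ 1 ⟨h1, le_rfl⟩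
        rw [C.T_one x P hP] at h6
        have h7 : Metric.ball P ρ ⊆ Metric.closedBall P (8 * ρ) :=
          (Metric.ball_subset_closedBall).trans (Metric.closedBall_subset_closedBall (by linarith))
        exact (((measure_mono h7).trans h6).trans_lt ENNReal.ofReal_lt_top).ne
      have h8 := ce_step C hκ hP h0 h1 (by linarith) hN hv hV hρ0 hρD hρ16 (hF ρ hρ) (hPV ρ hρ)
        (hlow ρ hρ) h5 hfin (hup ρ hρ) (he ρ hρ)
      exact h8.trans (measure_mono (tub_mono C h0.le hρ0.le hΛ))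
  intro ρ hρ
  obtain ⟨k, hk⟩ : ∃ k : ℕ, ρ / ρ1 ≤ N ^ k := by
    obtain ⟨k, hk⟩ := pow_unbounded_of_one_lt (ρ / ρ1) (by linarith : (1 : ℝ) < N)
    exact ⟨k, hk.le⟩
  refine key k ρ hρ ?_
  rwa [div_le_iff₀ hρ1] at hk

end Crest.Agent.R247.Pair438
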