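import Crest.Agent.R247.Lx2_149
import Crest.Agent.R247.Ce1_438

/-!
# Lemma CE over `FarD` (R247): the pair inequality, general form, short step
-/

set_option autoImplicit false
set_option linter.unusedSectionVars false
open MeasureTheory Set Filter Topology Metric
open scoped ENNReal NNReal

noncomputable section
namespace Crest.Agent.R247.LX149

universe u

open Crest.Agent.R247.Mcp688 Crest.Agent.R247.Far553 Crest.Agent.R247.Pair438

section basic
variable {n : ℕ} {κ : ℝ} {X : Type*} [MetricSpace X] [MeasurableSpace X] [BorelSpace X]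
  {μ : Measure X} {c : FarK} {C : Rad n κ X μ} {x : X} {δ : ℝ} {ph : ℕ → ℝ}

/-- the error density, `⊤` outside the ball where `FarD` gives information -/
def Fx (D : FarD c C x δ ph) (k : ℕ) (z : X) : ℝ≥0∞ :=
  open Classical in if dist x z < 12 then ENNReal.ofReal (D.H k z + D.g k z) else ⊤

lemma measurable_Fx (D : FarD c C x δ ph) (k : ℕ) : Measurable (Fx D k) := by
  classical
  have h : Measurable (fun v : X => dist x v) := (continuous_const.dist continuous_id).measurable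
  unfold Fx
  exact Measurable.ite (measurableSet_lt h measurable_const : MeasurableSet {z | dist x z < 12})
    ((D.H_meas k).add (D.g_meas k)).ennreal_ofReal measurable_const

lemma Fx_of_lt (D : FarD c C x δ ph) (k : ℕ) {z : X} (hz : dist x z < 12) :
    Fx D k z = ENNReal.ofReal (D.H k z + D.g k z) := by
  unfold Fx; rw [if_pos hz]

lemma Fx_of_not (D : FarD c C x δ ph) (k : ℕ) {z : X} (hz : ¬ dist x z < 12) :
    Fx D k z = ⊤ := by
  unfold Fx; rw [if_neg hz]

lemma H_le_Fx (D : FarD c C x δ ph) (k : ℕ) (z : X) : ENNReal.ofReal (D.H k z) ≤ Fx D k z := by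
  by_cases hz : dist x z < 12
  · rw [Fx_of_lt D k hz]
    exact ENNReal.ofReal_le_ofReal (by have := D.g_nonneg k z; linarith)
  · rw [Fx_of_not D k hz]; exact le_top

lemma g_le_Fx (D : FarD c C x δ ph) (k : ℕ) (z : X) : ENNReal.ofReal (D.g k z) ≤ Fx D k z := by
  by_cases hz : dist x z < 12
  · rw [Fx_of_lt D k hz]
    exact ENNReal.ofReal_le_ofReal (by have := D.H_nonneg k z; linarith)
  · rw [Fx_of_not D k hz]; exact le_top

lemma err_le_Err (D : FarD c C x δ ph) (k : ℕ) (p q : X) :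
    err C (dy k) (D.H k) (D.g k) p q ≤ Err C (Fx D k) (dy k) p q := by
  unfold err Err
  gcongr
  · exact H_le_Fx D k _
  · rw [ENNReal.ofReal_mul (dy_pos k).le, ENNReal.ofReal_add (D.g_nonneg k p) (D.g_nonneg k q)]
    gcongr
    · exact g_le_Fx D k p
    · exact g_le_Fx D k q

/-- **the pair inequality in 438's form over `FarD`** -/
theorem PV_of_far [SFinite μ] (D : FarD c C x δ ph) (k : ℕ) :
    PV C x (Err C (Fx D k) (dy k)) := by
  have hU1 : ∀ᵐ p ∂(μ.prod μ), (x, p.1) ∈ C.U := Measure.quasiMeasurePreserving_fst.ae (C.ae_U x)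
  have hU2 : ∀ᵐ p ∂(μ.prod μ), (x, p.2) ∈ C.U := Measure.quasiMeasurePreserving_snd.ae (C.ae_U x)
  filter_upwards [D.pe k, hU1, hU2] with p hp h1 h2 e he
  have htop : ∀ z : X, (z = p.1 ∨ z = p.2) → dist x z < 12 := by
    intro z hz
    by_contra hcon
    have h3 : Fx D k z = ⊤ := Fx_of_not D k hcon
    have h4 : (⊤ : ℝ≥0∞) ≤ Err C (Fx D k) (dy k) p.1 p.2 := by
      unfold Err
      have h5 : ENNReal.ofReal (dy k) * (Fx D k p.1 + Fx D k p.2) = ⊤ := by
        have h6 : Fx D k p.1 + Fx D k p.2 = ⊤ := by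
          rcases hz with rfl | rfl <;> rw [h3] <;> simp
        rw [h6, ENNReal.mul_top]
        simpa using dy_pos k
      rw [h5]; simp
    exact absurd he (not_lt.2 (le_trans le_top h4))
  obtain ⟨G, hG, hGE⟩ := hp (htop p.1 (Or.inl rfl)) (htop p.2 (Or.inr rfl))
  have h3 : ENNReal.ofReal (dist p.1 p.2 - G) < ENNReal.ofReal e := by
    refine lt_of_le_of_lt ?_ he
    refine le_trans ?_ (hGE.trans (err_le_Err D k p.1 p.2))
    apply ENNReal.ofReal_le_ofReal
    rw [abs_sub_comm]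
    exact le_abs_self _
  have h4 : dist p.1 p.2 - G < e := by
    by_contra hcon
    push Not at hcon
    exact absurd h3 (not_lt.2 (ENNReal.ofReal_le_ofReal hcon))
  have h5 := (hasDerivWithinAt_iff_tendsto_slope' (by simp)).1 hG
  have h6 : ∀ᶠ t in 𝓝[<] (1 : ℝ), dist p.1 p.2 - e <
      slope (fun t : ℝ => dist (C.T x t p.1) (C.T x t p.2)) 1 t :=
    h5.eventually (lt_mem_nhds (by linarith))
  filter_upwards [h6, self_mem_nhdsWithin] with t ht ht1
  rw [slope_def_field, C.T_one x p.1 h1, C.T_one x p.2 h2] at ht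
  have ht1' : t - 1 < 0 := by simpa using ht1
  rw [lt_div_iff_of_neg ht1'] at ht
  linarith

/-! ### the constants -/

lemma ceC_mono {n : ℕ} {κ κ' D l0 l0' N v V : ℝ} (hκ : κ ≤ κ') (hl : 0 < l0') (hl' : l0' ≤ l0)
    (hN : 0 < N) (hv : 0 < v) (hV : 0 < V) :
    ceC n κ' D l0' N v V ≤ ceC n κ D l0 N v V := by
  have hl0 : 0 < l0 := lt_of_lt_of_le hl hl'
  have h1 := ceM_pos n κ D hl0
  have h2 := ceM_pos n κ' D hl
  have h3 : ceM n κ D l0 ≤ ceM n κ' D l0' := by
    have h4 : l0⁻¹ ≤ l0'⁻¹ := inv_anti₀ hl hl'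
    have h5 : 0 ≤ l0⁻¹ := (inv_pos.2 hl0).le
    have h6 : Real.exp (κ * D ^ 2 / 2) ≤ Real.exp (κ' * D ^ 2 / 2) := by
      apply Real.exp_le_exp.2
      have : 0 ≤ D ^ 2 := sq_nonneg D
      nlinarith
    have h7 : (l0⁻¹) ^ n ≤ (l0'⁻¹) ^ n := pow_le_pow_left₀ h5 h4 n
    have h8 : 0 ≤ (l0⁻¹) ^ n := pow_nonneg h5 n
    have h9 : 0 < Real.exp (κ * D ^ 2 / 2) := Real.exp_pos _
    unfold ceM
    gcongr
  unfold ceC
  gcongr

end basic

lemma dy_injective : Function.Injective dy := by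
  intro a b h
  unfold dy at h
  exact (pow_right_injective₀ (by norm_num : (0:ℝ) < 1/2) (by norm_num)) h

/-- `ρ = dy k ↦ k` -/
def kof (ρ : ℝ) : ℕ := Function.invFun dy ρ

lemma kof_dy (k : ℕ) : kof (dy k) = k := Function.leftInverse_invFun dy_injective k

lemma dy_div_pow (k q : ℕ) : dy k / 2 ^ q = dy (k + q) := by
  rw [dy_add, one_div, inv_pow, div_eq_mul_inv]

/-- **CE over `FarD`, general form** (base case as a hypothesis). -/
theorem ce_far (c : FarK) (n : ℕ) {Λ l00 : ℝ} (hΛ : 2 ≤ Λ) (hl00 : 0 < l00) :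
    ∃ ε : ℝ, 0 < ε ∧ ∀ (κ : ℝ) (X : Type u) [MetricSpace X] [MeasurableSpace X] [BorelSpace X]
      [SecondCountableTopology X] (μ : Measure X) [SFinite μ] (C : Rad n κ X μ) (x : X)
      (δ : ℝ) (ph : ℕ → ℝ) (D : FarD c C x δ ph), 0 ≤ κ → κ ≤ 1 → -1 ≤ δ → δ ≤ 1/2 →
      ∀ P, (x, P) ∈ C.U → dist x P ≤ 11 → ∀ l0, l00 ≤ l0 → l0 ≤ 1 → ∀ k0, 5 ≤ k0 →
      (∃ ρ1 > 0, ∀ y, (x, y) ∈ C.U → dist y P < ρ1 → ∀ t ∈ Icc l0 1,
        dist (C.T x t y) (C.T x t P) ≤ Λ * t * dist y P) →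
      (∀ k, k0 ≤ k → ∫⁻ t in Icc l0 1, loc μ n 25 (dy k) (fun z => D.H k z + D.g k z)
        (C.T x t P) ≤ ENNReal.ofReal ε) →
      ∀ k, k0 ≤ k → ENNReal.ofReal (9/10) * μ (ball P (dy k)) ≤ μ (tub C x P l0 Λ (dy k)) := by
  obtain ⟨q, hq⟩ : ∃ q : ℕ, 2 * (1 + Λ) ≤ (2:ℝ) ^ q := by
    obtain ⟨q, hq⟩ := pow_unbounded_of_one_lt (2 * (1 + Λ)) (by norm_num : (1:ℝ) < 2)
    exact ⟨q, hq.le⟩
  have hω := c.ω_pos
  set N : ℝ := 2 ^ q with hN
  have hNp : 0 < N := by positivity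
  set v : ℝ := c.ω / 2 with hv
  set V : ℝ := 2 * c.ω * 9 ^ n with hV
  have hvp : 0 < v := by positivity
  have hVp : 0 < V := by positivity
  refine ⟨ceC n 1 13 l00 N v V, ceC_pos n 1 13 hl00 hNp hvp hVp, ?_⟩
  intro κ X _ _ _ _ μ _ C x δ ph D hκ hκ1 hδ1 hδ2 P hP hP11 l0 hl0 hl01 k0 hk0 hbase hloc k hk
  have hl0p : 0 < l0 := lt_of_lt_of_le hl00 hl0
  have hdy : ∀ k, k0 ≤ k → dy k ≤ 1 / 32 := by
    intro k hk
    have h1 : dy k ≤ dy 5 := dy_anti (hk0.trans hk)
    have h2 : dy 5 = 1 / 32 := by unfold dy; norm_num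
    linarith
  have hTP : ∀ t ∈ Icc l0 1, dist x (C.T x t P) ≤ 11 := by
    intro t ht
    have ht0 : t ∈ Icc (0:ℝ) 1 := ⟨hl0p.le.trans ht.1, ht.2⟩
    rw [C.dist_left hP ht0]
    have h1 : t * dist x P ≤ 1 * dist x P := mul_le_mul_of_nonneg_right ht.2 dist_nonneg
    linarith
  have key := CE C hκ (x := x) (P := P) hP (l0 := l0) (Λ := Λ) (N := N) (v := v) (V := V)
    (D := 13) hl0p hl01 hΛ hq hvp hVp (Rs := {ρ | ∃ k, k0 ≤ k ∧ ρ = dy k})
    (by
      rintro ρ ⟨k, hk, rfl⟩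
      have h1 := hdy k hk
      have h2 := dy_pos k
      refine ⟨h2, by linarith, by linarith, k + q, by lia, ?_⟩
      rw [hN, dy_div_pow])
    (F := fun ρ => Fx D (kof ρ)) (fun ρ _ => measurable_Fx D _)
    (by
      rintro ρ ⟨k, hk, rfl⟩
      simp only [kof_dy]
      exact PV_of_far D k)
    hbase
    (by
      rintro ρ ⟨k, hk, rfl⟩
      have h1 := hdy k hk
      have h2 := dy_pos k
      refine le_trans ?_ (D.vol_ge P (dy k) (by linarith) h2 (by linarith))
      apply ENNReal.ofReal_le_ofReal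
      have h3 : 0 < c.ω * dy k ^ n := by positivity
      rw [hv]
      nlinarith)
    (by
      rintro ρ ⟨k, hk, rfl⟩ t ht
      have h1 := hdy k hk
      have h2 := dy_pos k
      have h4 := hTP t ht
      have h5 : closedBall (C.T x t P) (8 * dy k) ⊆ ball (C.T x t P) (9 * dy k) :=
        closedBall_subset_ball (by linarith)
      refine (measure_mono h5).trans ((D.vol_le _ (9 * dy k) (by linarith) (by linarith)
        (by linarith)).trans ?_)
      apply ENNReal.ofReal_le_ofReal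
      rw [hV, mul_pow]
      have h3 : 0 < c.ω * (9 ^ n * dy k ^ n) := by positivity
      nlinarith)
    (by
      rintro ρ ⟨k, hk, rfl⟩
      simp only [kof_dy]
      have h1 := hdy k hk
      have h2 := dy_pos k
      refine le_trans ?_ ((hloc k hk).trans (ENNReal.ofReal_le_ofReal
        (ceC_mono hκ1 hl00 hl0 hNp hvp hVp)))
      apply setLIntegral_mono' measurableSet_Icc
      intro t ht
      have h4 := hTP t ht
      unfold loc
      gcongr 1
      apply le_of_eq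
      apply setLIntegral_congr_fun measurableSet_ball
      intro z hz
      have h5 := mem_ball.1 hz
      have h6 := dist_triangle x (C.T x t P) z
      rw [dist_comm (C.T x t P) z] at h6
      exact Fx_of_lt D k (by linarith))
  exact key (dy k) ⟨k, hk, rfl⟩

/-- **CE over `FarD`, short step.** -/
theorem ce_short (c : FarK) (n : ℕ) :
    ∃ K ε : ℝ, 1 ≤ K ∧ 0 < ε ∧ ∀ (κ : ℝ) (X : Type u) [MetricSpace X] [MeasurableSpace X]
      [BorelSpace X] [SecondCountableTopology X] (μ : Measure X) [SFinite μ] (C : Rad n κ X μ)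
      (x : X) (δ : ℝ) (ph : ℕ → ℝ) (D : FarD c C x δ ph), 0 ≤ κ → κ ≤ 1 → -1 ≤ δ → δ ≤ 1/2 →
      ∀ᵐ v ∂μ, dist x v ≤ 11 → ∀ r L : ℝ, 0 < L → c.N0 * L ≤ r → c.N0 * L ≤ dist x v - r →
      ∀ k0, 5 ≤ k0 → (∀ k, k0 ≤ k → ∫⁻ τ in Icc (r - 4 * L) r,
        loc μ n K (dy k) (fun z => D.H k z + D.g k z) (ray C x v τ) ≤ ENNReal.ofReal (ε * r)) →
      ∀ k, k0 ≤ k → ∃ S, MeasurableSet S ∧ S ⊆ ball (ray C x v r) (dy k) ∧
        ENNReal.ofReal (9/10) * μ (ball (ray C x v r) (dy k)) ≤ μ S ∧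
        ∀ y ∈ S, (x, y) ∈ C.U ∧ ∀ t ∈ Icc (1 - 4 * L / r) 1,
          dist (C.T x t y) (C.T x t (ray C x v r)) ≤ 2 * t * dy k := by
  obtain ⟨ε, hε, key⟩ := ce_far.{u} c n (Λ := 2) (l00 := 1/2) le_rfl (by norm_num)
  refine ⟨25, ε, by norm_num, hε, ?_⟩
  intro κ X _ _ _ _ μ _ C x δ ph D hκ hκ1 hδ1 hδ2
  filter_upwards [C.ae_U x, D.base] with v hU hb hv r L hL hNr hNv k0 hk0 hloc k hk
  have hN0 := c.N0_ge
  have hr0 : 0 < r := by nlinarith
  have hLv : 0 < dist x v - r := by nlinarith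
  have hd : 0 < dist x v := by linarith
  have hrd : r ∈ Ioc 0 (dist x v) := ⟨hr0, by linarith⟩
  have h8L : 8 * L ≤ r := by nlinarith
  have hl0 : 1 / 2 ≤ 1 - 4 * L / r := by
    have : 4 * L / r ≤ 1 / 2 := by rw [div_le_div_iff₀ hr0 (by norm_num)]; linarith
    linarith
  have hl01 : 1 - 4 * L / r ≤ 1 := by
    have : 0 ≤ 4 * L / r := by positivity
    linarith
  have hP : (x, ray C x v r) ∈ C.U := ray_mem_U C hU hd hrd
  have hdP : dist x (ray C x v r) = r := dist_x_ray C hU hd ⟨hr0.le, hrd.2⟩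
  obtain ⟨ρ₀, hρ₀, hb'⟩ := hb (by linarith) r L hL hNr hNv
  have h1 := key κ X μ C x δ ph D hκ hκ1 hδ1 hδ2 (ray C x v r) hP (by rw [hdP]; linarith)
    (1 - 4 * L / r) hl0 hl01 k0 hk0 ⟨ρ₀, hρ₀, fun y hy1 hy2 => hb' y hy2 hy1⟩
    (by
      intro k' hk'
      have e1 : ∫⁻ t in Icc (1 - 4 * L / r) 1, loc μ n 25 (dy k')
          (fun z => D.H k' z + D.g k' z) (C.T x t (ray C x v r)) =
          ∫⁻ t in Icc (1 - 4 * L / r) 1, loc μ n 25 (dy k')
            (fun z => D.H k' z + D.g k' z) (ray C x v (t * r)) := by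
        apply setLIntegral_congr_fun measurableSet_Icc
        intro t ht
        simp only
        rw [T_ray C hU hd hrd ⟨by have := ht.1; linarith, ht.2⟩]
      rw [e1, lintegral_mul_right (fun u => loc μ n 25 (dy k')
            (fun z => D.H k' z + D.g k' z) (ray C x v u)) hr0]
      have e2 : (1 - 4 * L / r) * r = r - 4 * L := by field_simp
      rw [e2, one_mul]
      calc ENNReal.ofReal r⁻¹ * ∫⁻ u in Icc (r - 4 * L) r, loc μ n 25 (dy k')
            (fun z => D.H k' z + D.g k' z) (ray C x v u)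
          ≤ ENNReal.ofReal r⁻¹ * ENNReal.ofReal (ε * r) := by
            gcongr
            exact hloc k' hk'
        _ = ENNReal.ofReal ε := by
            rw [← ENNReal.ofReal_mul (by positivity)]
            congr 1
            field_simp)
    k hk
  have hm : MeasurableSet (tub C x (ray C x v r) (1 - 4 * L / r) 2 (dy k)) :=
    measurableSet_tub C hP (by linarith) hl01
  exact ⟨_, hm, fun y hy => mem_ball.2 hy.1, h1, fun y hy => ⟨hy.2.1, hy.2.2⟩⟩

end Crest.Agent.R247.LX149
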