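import Crest.Agent.R247.BL3_562
import Crest.Agent.R247.BL4_562
import Crest.Agent.R247.Lx4_149
import Crest.Agent.R247.Far1_553

/-! # Lemma BL (doc 1392, sec. 2), part 6: `BLP` of `Far1_553` from the mixed pair inequality -/

set_option autoImplicit false
set_option linter.unusedSectionVars false
open MeasureTheory Set Filter Topology Metric
open scoped ENNReal NNReal

noncomputable section
namespace Crest.Agent.R247.BL562

universe u
open Crest.Agent.R247.Mcp688 Crest.Agent.R247.Far553 Crest.Agent.R247.LX149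
  Crest.Agent.R247.Pair438

section
variable {n : ℕ} {κ : ℝ} {X : Type*} [MetricSpace X] [MeasurableSpace X] [BorelSpace X]
  {μ : Measure X}

/-- the mixed pair inequality (438's `pair1`): `c(a) = T z a y` against `T x (lam a) y'` -/
def Mix (C : Rad n κ X μ) (x : X) (E : X → X → ℝ≥0∞) (Cx : ℝ) : Prop :=
  ∀ᵐ p ∂(μ.prod (μ.prod μ)), 0 < dist x p.1 → dist x p.1 ≤ dist x p.2.1 →
    ∀ a ∈ Icc (0 : ℝ) 1,
      ENNReal.ofReal (dist (C.T p.1 a p.2.1) (C.T x (lam x p.1 p.2.1 a) p.2.2) /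
          lam x p.1 p.2.1 a) ≤
        ENNReal.ofReal (dist p.2.1 p.2.2 +
          (Real.sqrt (2 * dist p.1 p.2.1 * (dist x p.1 + dist p.1 p.2.1 - dist x p.2.1)) +
            Cx * (dist x p.1 + dist p.1 p.2.1 - dist x p.2.1) +
            Cx * (1 - dist x p.1 / dist x p.2.1) * |dist x p.2.1 - dist x p.2.2|) /
            (dist x p.1 / dist x p.2.1)) +
        ENNReal.ofReal ((1 - dist x p.1 / dist x p.2.1) / (dist x p.1 / dist x p.2.1) ^ 2) *
          ∫⁻ s in Ioc a 1, E (C.T p.1 s p.2.1) (C.T x (lam x p.1 p.2.1 s) p.2.2)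

/-- the mixed pair inequality for `p ∈ B × B' × S` -/
def MixOn (C : Rad n κ X μ) (x : X) (E : X → X → ℝ≥0∞) (Cx : ℝ) (B B' S : Set X) : Prop :=
  ∀ᵐ p ∂(μ.prod (μ.prod μ)), p.1 ∈ B → p.2.1 ∈ B' → p.2.2 ∈ S →
    ∀ a ∈ Icc (0 : ℝ) 1,
      ENNReal.ofReal (dist (C.T p.1 a p.2.1) (C.T x (lam x p.1 p.2.1 a) p.2.2) /
          lam x p.1 p.2.1 a) ≤
        ENNReal.ofReal (dist p.2.1 p.2.2 +
          (Real.sqrt (2 * dist p.1 p.2.1 * (dist x p.1 + dist p.1 p.2.1 - dist x p.2.1)) +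
            Cx * (dist x p.1 + dist p.1 p.2.1 - dist x p.2.1) +
            Cx * (1 - dist x p.1 / dist x p.2.1) * |dist x p.2.1 - dist x p.2.2|) /
            (dist x p.1 / dist x p.2.1)) +
        ENNReal.ofReal ((1 - dist x p.1 / dist x p.2.1) / (dist x p.1 / dist x p.2.1) ^ 2) *
          ∫⁻ s in Ioc a 1, E (C.T p.1 s p.2.1) (C.T x (lam x p.1 p.2.1 s) p.2.2)

lemma Mix.on {C : Rad n κ X μ} {x b bp : X} {E : X → X → ℝ≥0∞} {Cx r0 r1 ρ0 : ℝ}
    (h : Mix C x E Cx) (hρ0 : 0 < ρ0) (hb : dist x b = r0) (hbp : dist x bp = r1)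
    (h12 : r1 ≤ 2 * r0) (hρ : 8 * ρ0 ≤ r1 - r0) (S : Set X) :
    MixOn C x E Cx (ball b ρ0) (ball bp ρ0) S := by
  filter_upwards [h] with p hp h1 h2 h3
  have hz : |dist x p.1 - r0| ≤ ρ0 := by
    have h1' := _root_.abs_dist_sub_le p.1 b x
    rw [dist_comm p.1 x, dist_comm b x, hb] at h1'
    exact h1'.trans (mem_ball.1 h1).le
  have hy : |dist x p.2.1 - r1| ≤ ρ0 := by
    have h1' := _root_.abs_dist_sub_le p.2.1 bp x
    rw [dist_comm p.2.1 x, dist_comm bp x, hbp] at h1'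
    exact h1'.trans (mem_ball.1 h2).le
  have hrad := radii hρ0 hz hy h12 hρ
  exact hp hrad.1 hrad.2.1

/-- Lemma BL with volume bounds. -/
theorem bl_vol [SFinite μ] [SecondCountableTopology X] (C : Rad n κ X μ) (hκ : 0 ≤ κ)
    {x b bp P : X} (hP : (x, P) ∈ C.U) {r0 r1 ρ0 R D Cx xb v0 K4 Jr : ℝ}
    (hρ0 : 0 < ρ0) (hb : dist x b = r0) (hbp : dist x bp = r1) (hPr : dist x P = r1)
    (h12 : r1 ≤ 2 * r0) (hρ : 8 * ρ0 ≤ r1 - r0) (hD : 3 * r1 ≤ D)
    {S : Set X} (hS : MeasurableSet S) (hSb : S ⊆ ball P ρ0)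
    (htr : ∀ y' ∈ S, ∀ t ∈ Icc ((r0 - 2 * ρ0) / r1) 1,
      dist (C.T x t y') (C.T x t P) ≤ 2 * ρ0)
    (hv0 : 0 < v0) (hBv : ENNReal.ofReal v0 ≤ μ (ball b ρ0))
    (hBpv : ENNReal.ofReal v0 ≤ μ (ball bp ρ0)) (hSv : ENNReal.ofReal (9 / 10 * v0) ≤ μ S)
    (hBt : μ (ball b ρ0) ≠ ∞) (hBpt : μ (ball bp ρ0) ≠ ∞) (hSt : μ S ≠ ∞)
    {E : X → X → ℝ≥0∞} (hE : Measurable (Function.uncurry E)) (hCx : 0 ≤ Cx)
    (hmix : MixOn C x E Cx (ball b ρ0) (ball bp ρ0) S)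
    (hxb0 : 0 ≤ xb)
    (hxb : ∫⁻ z in ball b ρ0, ∫⁻ y in ball bp ρ0,
        ENNReal.ofReal (dist x z + dist z y - dist x y) ∂μ ∂μ ≤
      ENNReal.ofReal xb * (μ (ball b ρ0) * μ (ball bp ρ0)))
    (hK4 : Real.exp (κ * D ^ 2 / 2) * 4 ^ n ≤ K4)
    (hJr : 0 ≤ Jr)
    (hJ : ∫⁻ s in Icc (0 : ℝ) 1, ∫⁻ p in ball (C.T x (th (r0 / r1) s) P) R,
          ∫⁻ q in ball (C.T x (th (r0 / r1) s) P) R, E p q ∂μ ∂μ ≤ ENNReal.ofReal Jr)
    (hR : dist bp P + QQ ρ0 Cx (dist b bp + 2 * ρ0) xb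
      (22 * (1 - r0 / r1) * (20 / 3 * K4 ^ 2 * Jr / v0 ^ 2)) < R) :
    dist b (C.T x (r0 / r1) P) / r0 ≤ dist bp P / r1 +
      QQ ρ0 Cx (dist b bp + 2 * ρ0) xb
        (22 * (1 - r0 / r1) * (20 / 3 * K4 ^ 2 * Jr / v0 ^ 2)) / r0 := by
  have hm0 : ENNReal.ofReal v0 ≠ 0 := (ENNReal.ofReal_pos.2 hv0).ne'
  have hB0 : μ (ball b ρ0) ≠ 0 := fun h => hm0 (le_antisymm (h ▸ hBv) bot_le)
  have hBp0 : μ (ball bp ρ0) ≠ 0 := fun h => hm0 (le_antisymm (h ▸ hBpv) bot_le)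
  have hS0 : μ S ≠ 0 := by
    intro h
    rw [h, nonpos_iff_eq_zero, ENNReal.ofReal_eq_zero] at hSv
    linarith
  have hK4p : 0 < K4 := lt_of_lt_of_le (by positivity) hK4
  set Z0 : ℝ := 20 / 3 * K4 ^ 2 * Jr / v0 ^ 2 with hZ0
  have hZ0n : 0 ≤ Z0 := by positivity
  have hZ : 3 * (ENNReal.ofReal (Real.exp (κ * D ^ 2 / 2) * 4 ^ n) ^ 2 *
        (μ (ball b ρ0) + μ (ball bp ρ0)) *
        ∫⁻ s in Icc (0 : ℝ) 1, ∫⁻ p in ball (C.T x (th (r0 / r1) s) P) R,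
          ∫⁻ q in ball (C.T x (th (r0 / r1) s) P) R, E p q ∂μ ∂μ) ≤
      ENNReal.ofReal Z0 * (μ (ball b ρ0) * (μ (ball bp ρ0) * μ S)) := by
    set m : ℝ≥0∞ := ENNReal.ofReal v0 with hm
    set s9 : ℝ≥0∞ := ENNReal.ofReal (9 / 20) with hs9
    have hSlow' : 2 * s9 * m ≤ μ S := by
      refine le_trans (le_of_eq ?_) hSv
      rw [hs9, hm, show (2 : ℝ≥0∞) = ENNReal.ofReal 2 by norm_num,
        ← ENNReal.ofReal_mul (by norm_num), ← ENNReal.ofReal_mul (by norm_num)]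
      congr 1; ring
    have hlow : (μ (ball b ρ0) + μ (ball bp ρ0)) * (s9 * m ^ 2) ≤
        μ (ball b ρ0) * (μ (ball bp ρ0) * μ S) := by
      have h1 : μ (ball b ρ0) * (m * (2 * s9 * m)) ≤
          μ (ball b ρ0) * (μ (ball bp ρ0) * μ S) := by
        gcongr
      have h2 : m * (μ (ball bp ρ0) * (2 * s9 * m)) ≤
          μ (ball b ρ0) * (μ (ball bp ρ0) * μ S) := by
        gcongr
      have h3 : 2 * ((μ (ball b ρ0) + μ (ball bp ρ0)) * (s9 * m ^ 2)) ≤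
          2 * (μ (ball b ρ0) * (μ (ball bp ρ0) * μ S)) := by
        calc 2 * ((μ (ball b ρ0) + μ (ball bp ρ0)) * (s9 * m ^ 2))
            = μ (ball b ρ0) * (m * (2 * s9 * m)) + m * (μ (ball bp ρ0) * (2 * s9 * m)) := by ring
          _ ≤ _ := add_le_add h1 h2
          _ = _ := by ring
      exact (ENNReal.mul_le_mul_iff_right (by norm_num) (by norm_num)).1 h3
    have hreal : 3 * K4 ^ 2 * (Jr * 1) = Z0 * (9 / 20 * v0 ^ 2) := by
      have hvn : v0 ≠ 0 := hv0.ne'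
      rw [hZ0]
      field_simp
      ring
    have hspl : ENNReal.ofReal (3 * K4 ^ 2 * (Jr * 1)) =
        3 * ENNReal.ofReal K4 ^ 2 * ENNReal.ofReal Jr := by
      rw [ENNReal.ofReal_mul (by positivity : (0 : ℝ) ≤ 3 * K4 ^ 2), mul_one,
        ENNReal.ofReal_mul (by norm_num : (0 : ℝ) ≤ 3), ENNReal.ofReal_pow hK4p.le]
      norm_num
    calc 3 * (ENNReal.ofReal (Real.exp (κ * D ^ 2 / 2) * 4 ^ n) ^ 2 *
        (μ (ball b ρ0) + μ (ball bp ρ0)) *
        ∫⁻ s in Icc (0 : ℝ) 1, ∫⁻ p in ball (C.T x (th (r0 / r1) s) P) R,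
          ∫⁻ q in ball (C.T x (th (r0 / r1) s) P) R, E p q ∂μ ∂μ)
        ≤ 3 * (ENNReal.ofReal K4 ^ 2 * (μ (ball b ρ0) + μ (ball bp ρ0)) *
          ENNReal.ofReal Jr) := by
          have := ENNReal.ofReal_le_ofReal hK4
          gcongr
      _ = ENNReal.ofReal (3 * K4 ^ 2 * (Jr * 1)) *
            (μ (ball b ρ0) + μ (ball bp ρ0)) := by
          rw [hspl]
          ring
      _ = ENNReal.ofReal Z0 * ((μ (ball b ρ0) + μ (ball bp ρ0)) * (s9 * m ^ 2)) := by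
          rw [hreal, ENNReal.ofReal_mul hZ0n, ENNReal.ofReal_mul (by norm_num),
            ENNReal.ofReal_pow hv0.le]
          ring
      _ ≤ _ := by gcongr
  exact bl_core C hκ hP hρ0 hb hbp hPr h12 hρ hD hS hSb htr hB0 hBp0 hS0 hBt hBpt hSt hE hCx
    hmix hxb0 hxb hZ0n hZ hR


/-- the tube integral for `E = Err C (Fx D k) (dy k)` -/
lemma tube_le' [ProperSpace X] [IsFiniteMeasureOnCompacts μ] {c : FarK} (C : Rad n κ X μ)
    (hκ : 0 ≤ κ) (hκ1 : κ * 1600 ≤ 1) {x : X} {δ : ℝ} {ph : ℕ → ℝ} (Fd : FarD c C x δ ph)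
    (hδ : δ ≤ 1 / 2) {P : X} (hP : (x, P) ∈ C.U) {r0 r1 R K e : ℝ} {k : ℕ}
    (hr0 : 0 < r0) (h01 : r0 < r1) (hPr : dist x P = r1) (hr10 : r1 ≤ 10)
    (hk1 : dy k ≤ R) (hk2 : 4 * R ≤ K * dy k) (hR1 : R ≤ r1 / 16)
    (he : ∫⁻ r in Icc r0 r1, loc μ n K (dy k) (fun z => Fd.H k z + Fd.g k z)
      (C.T x (r / r1) P) ≤ ENNReal.ofReal e) :
    ∫⁻ s in Icc (0 : ℝ) 1, ∫⁻ p in ball (C.T x (th (r0 / r1) s) P) R,
        ∫⁻ q in ball (C.T x (th (r0 / r1) s) P) R,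
          Err C (Fx Fd k) (dy k) p q ∂μ ∂μ ≤
      ENNReal.ofReal (R * (4 * (Real.exp 2 * 2 ^ n) + 2) * (2 * c.ω * (2 * R) ^ n) * dy k ^ n *
        (r1 - r0)⁻¹) * ENNReal.ofReal e := by
  have hr1 : 0 < r1 := hr0.trans h01
  have hdk := dy_pos k
  have hRp : 0 < R := lt_of_lt_of_le hdk hk1
  have hω := c.ω_pos
  set F : X → ℝ := fun z => Fd.H k z + Fd.g k z with hF
  have hs : ∀ s ∈ Icc (0 : ℝ) 1,
      ∫⁻ p in ball (C.T x (th (r0 / r1) s) P) R,
        ∫⁻ q in ball (C.T x (th (r0 / r1) s) P) R,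
          Err C (Fx Fd k) (dy k) p q ∂μ ∂μ ≤
      ENNReal.ofReal (R * (4 * (Real.exp 2 * 2 ^ n) + 2) * (2 * c.ω * (2 * R) ^ n) * dy k ^ n) *
        loc μ n K (dy k) F (C.T x ((r0 + s * (r1 - r0)) / r1) P) := by
    intro s hs
    have hθ1 : r0 / r1 ≤ 1 := (div_le_one hr1).2 h01.le
    have hθ0 : 0 ≤ r0 / r1 := by positivity
    have hth := th_mem hθ1 hs
    have hctr : th (r0 / r1) s = (r0 + s * (r1 - r0)) / r1 := by
      unfold th
      field_simp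
    rw [← hctr]
    have hd : dist x (C.T x (th (r0 / r1) s) P) = th (r0 / r1) s * r1 := by
      rw [C.dist_left hP ⟨hθ0.trans hth.1, hth.2⟩, hPr]
    set y := C.T x (th (r0 / r1) s) P with hy
    have hd10 : dist x y ≤ 10 := by
      rw [hd]
      nlinarith [hth.1, hth.2]
    have h1 := Err_int C hκ (measurable_Fx Fd k) y hRp.le hdk.le (le_refl (2 * R))
    have h2 : μ (closedBall y R) ≤ ENNReal.ofReal (2 * c.ω * (2 * R) ^ n) := by
      refine (measure_mono (closedBall_subset_ball (by linarith : R < 2 * R))).trans ?_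
      refine (Fd.vol_le y (2 * R) (by linarith) (by linarith) (by linarith)).trans
        (ENNReal.ofReal_le_ofReal ?_)
      gcongr
      linarith
    have h3 : ENNReal.ofReal (4 * R * (Real.exp (κ * (2 * R) ^ 2 / 2) * 2 ^ n) + 2 * dy k) ≤
        ENNReal.ofReal (R * (4 * (Real.exp 2 * 2 ^ n) + 2)) := by
      apply ENNReal.ofReal_le_ofReal
      have h4 : Real.exp (κ * (2 * R) ^ 2 / 2) ≤ Real.exp 2 := by
        apply Real.exp_le_exp.2
        have : R ≤ 1 := by linarith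
        have h5 : (2 * R) ^ 2 ≤ 4 := by nlinarith
        nlinarith
      have h5 : 4 * R * (Real.exp (κ * (2 * R) ^ 2 / 2) * 2 ^ n) ≤
          4 * R * (Real.exp 2 * 2 ^ n) := by gcongr
      linarith
    have h4 : ∫⁻ z in closedBall y (3 * R), Fx Fd k z ∂μ ≤
        ENNReal.ofReal (dy k ^ n) * loc μ n K (dy k) F y := by
      unfold loc
      rw [← mul_assoc, ← ENNReal.ofReal_mul (by positivity), ← mul_pow,
        mul_inv_cancel₀ hdk.ne', one_pow, ENNReal.ofReal_one, one_mul]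
      have h5 : ∫⁻ z in closedBall y (3 * R), Fx Fd k z ∂μ =
          ∫⁻ z in closedBall y (3 * R), ENNReal.ofReal (F z) ∂μ := by
        apply setLIntegral_congr_fun isClosed_closedBall.measurableSet
        intro z hz
        dsimp only
        rw [Fx_of_lt]
        have := dist_triangle x y z
        have := mem_closedBall'.1 hz
        linarith
      rw [h5]
      exact lintegral_mono_set (closedBall_subset_ball (by linarith))
    calc ∫⁻ p in ball y R, ∫⁻ q in ball y R, Err C (Fx Fd k) (dy k) p q ∂μ ∂μ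
        ≤ ∫⁻ p in closedBall y R, ∫⁻ q in closedBall y R, Err C (Fx Fd k) (dy k) p q ∂μ ∂μ := by
          refine (lintegral_mono_set ball_subset_closedBall).trans ?_
          apply lintegral_mono
          intro p
          exact lintegral_mono_set ball_subset_closedBall
      _ ≤ _ := h1
      _ ≤ ENNReal.ofReal (R * (4 * (Real.exp 2 * 2 ^ n) + 2)) *
          ENNReal.ofReal (2 * c.ω * (2 * R) ^ n) * (ENNReal.ofReal (dy k ^ n) *
            loc μ n K (dy k) F y) := by gcongr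
      _ = _ := by
        rw [← mul_assoc, ← ENNReal.ofReal_mul (by positivity),
          ← ENNReal.ofReal_mul (by positivity)]
  calc _ ≤ ∫⁻ s in Icc (0 : ℝ) 1,
        ENNReal.ofReal (R * (4 * (Real.exp 2 * 2 ^ n) + 2) * (2 * c.ω * (2 * R) ^ n) *
          dy k ^ n) * loc μ n K (dy k) F (C.T x ((r0 + s * (r1 - r0)) / r1) P) :=
        setLIntegral_mono' measurableSet_Icc hs
    _ = ENNReal.ofReal (R * (4 * (Real.exp 2 * 2 ^ n) + 2) * (2 * c.ω * (2 * R) ^ n) *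
          dy k ^ n) * (ENNReal.ofReal ((r1 - r0)⁻¹) * ∫⁻ r in Icc r0 r1,
          loc μ n K (dy k) F (C.T x (r / r1) P)) := by
        rw [lintegral_const_mul' _ _ ENNReal.ofReal_ne_top,
          lintegral_affine (fun r => loc μ n K (dy k) F (C.T x (r / r1) P)) h01]
    _ ≤ ENNReal.ofReal (R * (4 * (Real.exp 2 * 2 ^ n) + 2) * (2 * c.ω * (2 * R) ^ n) *
          dy k ^ n) * (ENNReal.ofReal ((r1 - r0)⁻¹) * ENNReal.ofReal e) := by gcongr
    _ = _ := by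
        rw [← mul_assoc, ← ENNReal.ofReal_mul (by positivity)]

end

/-- constant in front of `R e` -/
def C3 (n : ℕ) (ω M : ℝ) : ℝ :=
  1174 * 2 ^ n * M ^ n * (Real.exp 1 * 4 ^ n) ^ 2 * (4 * (Real.exp 2 * 2 ^ n) + 2) / ω

set_option maxHeartbeats 1000000 in
/-- **`BLP` of `Far1_553`** (with `r1 ≤ 10` and `M ρ ≤ r1 / 16`) from the mixed pair inequality. -/
theorem blp_of_mix {n : ℕ} {c : FarK} {Cx : ℝ} (hCx : 0 ≤ Cx) {M : ℝ} (hM : 1 ≤ M)
    {κ : ℝ} {X : Type u} [MetricSpace X] [MeasurableSpace X] [BorelSpace X] [ProperSpace X]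
    {μ : Measure X} [IsFiniteMeasureOnCompacts μ] (C : Rad n κ X μ) (x : X) {δ : ℝ} {ph : ℕ → ℝ}
    (Fd : FarD c C x δ ph) (hκ : 0 ≤ κ) (hκ1 : κ * 1600 ≤ 1) (hδ : δ ≤ 1 / 2)
    (hmix : ∀ k, Mix C x (Err C (Fx Fd k) (dy k)) Cx)
    (b bp P : X) (r0 r1 : ℝ) (k : ℕ) (hP : (x, P) ∈ C.U) (hb : dist x b = r0)
    (hbp : dist x bp = r1) (hPr : dist x P = r1) (hr10 : r1 ≤ 10) (h12 : r1 ≤ 2 * r0)
    (hρ : 8 * dy k ≤ r1 - r0) (hMr : M * dy k ≤ r1 / 16)
    (S : Set X) (hS : MeasurableSet S) (hSb : S ⊆ ball P (dy k))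
    (hSμ : ENNReal.ofReal (9 / 10) * μ (ball P (dy k)) ≤ μ S)
    (htr : ∀ y' ∈ S, ∀ t ∈ Icc ((r0 - 2 * dy k) / r1) 1,
      dist (C.T x t y') (C.T x t P) ≤ 2 * dy k)
    (xb e : ℝ) (hxb0 : 0 ≤ xb) (he0 : 0 ≤ e)
    (hxb : ∫⁻ z in ball b (dy k), ∫⁻ y in ball bp (dy k),
        ENNReal.ofReal (dist x z + dist z y - dist x y) ∂μ ∂μ ≤
      ENNReal.ofReal xb * (μ (ball b (dy k)) * μ (ball bp (dy k))))
    (he : ∫⁻ r in Icc r0 r1, loc μ n (4 * M) (dy k) (fun z => Fd.H k z + Fd.g k z)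
      (C.T x (r / r1) P) ≤ ENNReal.ofReal (e * r1))
    (hR : dist bp P + (14 + 12 * Cx) *
      brk (dy k) (dist b bp + 2 * dy k) xb (max 1 (C3 n c.ω M)) (M * dy k) e < M * dy k) :
    dist b (C.T x (r0 / r1) P) / r0 ≤
      dist bp P / r1 + (14 + 12 * Cx) *
        brk (dy k) (dist b bp + 2 * dy k) xb (max 1 (C3 n c.ω M)) (M * dy k) e / r0 := by
  have hdk := dy_pos k
  have hr0 : 0 < r0 := by linarith
  have h01 : r0 < r1 := by linarith
  have hr1 : 0 < r1 := by linarith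
  have hω := c.ω_pos
  set R : ℝ := M * dy k with hRdef
  have hRp : 0 < R := by positivity
  have hk1 : dy k ≤ R := by rw [hRdef]; nlinarith
  -- volumes
  have hvol : ∀ y : X, dist x y < 20 →
      ENNReal.ofReal (c.ω / 2 * dy k ^ n) ≤ μ (ball y (dy k)) := by
    intro y hy
    refine le_trans (ENNReal.ofReal_le_ofReal ?_)
      (Fd.vol_ge y (dy k) hy hdk (by linarith [dy_le_one k]))
    have : 0 ≤ dy k ^ n := by positivity
    have h1 : c.ω / 2 ≤ (1 - δ) * c.ω := by nlinarith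
    gcongr
  have hvpos : 0 < c.ω / 2 * dy k ^ n := by positivity
  have hSlow : ENNReal.ofReal (9 / 10 * (c.ω / 2 * dy k ^ n)) ≤ μ S := by
    rw [ENNReal.ofReal_mul (by norm_num)]
    exact (mul_le_mul_right (hvol P (by rw [hPr]; linarith)) _).trans hSμ
  set cE : ℝ := 4 * (Real.exp 2 * 2 ^ n) + 2 with hcE
  have hcEp : 0 < cE := by positivity
  set K4 : ℝ := Real.exp 1 * 4 ^ n with hK4
  have hK4p : 0 < K4 := by positivity
  have hd : 0 < r1 - r0 := by linarith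
  set Jr : ℝ := R * cE * (2 * c.ω * (2 * R) ^ n) * dy k ^ n * (r1 - r0)⁻¹ * (e * r1) with hJr
  have hJr0 : 0 ≤ Jr := by positivity
  have hJ : ∫⁻ s in Icc (0 : ℝ) 1, ∫⁻ p in ball (C.T x (th (r0 / r1) s) P) R,
        ∫⁻ q in ball (C.T x (th (r0 / r1) s) P) R,
          Err C (Fx Fd k) (dy k) p q ∂μ ∂μ ≤ ENNReal.ofReal Jr := by
    refine (tube_le' C hκ hκ1 Fd hδ hP hr0 h01 hPr hr10 hk1 (K := 4 * M)
      (by rw [hRdef]; linarith) hMr he).trans (le_of_eq ?_)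
    exact (ENNReal.ofReal_mul (by positivity)).symm
  have hK4' : Real.exp (κ * 36 ^ 2 / 2) * 4 ^ n ≤ K4 := by
    rw [hK4]
    gcongr
    linarith
  -- comparison of the brackets
  have hZC : 22 * (1 - r0 / r1) * (20 / 3 * K4 ^ 2 * Jr / (c.ω / 2 * dy k ^ n) ^ 2) ≤
      max 1 (C3 n c.ω M) * R * e := by
    have h2 : 22 * (1 - r0 / r1) * (20 / 3 * K4 ^ 2 * Jr / (c.ω / 2 * dy k ^ n) ^ 2) =
        3520 / 3 * 2 ^ n * M ^ n * K4 ^ 2 * cE / c.ω * (R * e) := by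
      have hd' : r1 - r0 ≠ 0 := hd.ne'
      have hdn : dy k ^ n ≠ 0 := by positivity
      rw [hJr]
      have h3 : 1 - r0 / r1 = (r1 - r0) / r1 := by field_simp
      have h4 : (2 * R) ^ n = 2 ^ n * M ^ n * dy k ^ n := by rw [hRdef]; ring
      rw [h3, h4]
      field_simp
      ring
    rw [h2]
    have h3 : 3520 / 3 * 2 ^ n * M ^ n * K4 ^ 2 * cE / c.ω ≤ C3 n c.ω M := by
      unfold C3
      rw [← hcE, ← hK4]
      gcongr
      norm_num
    have h4 : 0 ≤ R * e := by positivity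
    calc 3520 / 3 * 2 ^ n * M ^ n * K4 ^ 2 * cE / c.ω * (R * e)
        ≤ max 1 (C3 n c.ω M) * (R * e) :=
          mul_le_mul_of_nonneg_right (h3.trans (le_max_right _ _)) h4
      _ = _ := by ring
  have hQ : QQ (dy k) Cx (dist b bp + 2 * dy k) xb
      (22 * (1 - r0 / r1) * (20 / 3 * K4 ^ 2 * Jr / (c.ω / 2 * dy k ^ n) ^ 2)) ≤
      (14 + 12 * Cx) *
        brk (dy k) (dist b bp + 2 * dy k) xb (max 1 (C3 n c.ω M)) R e := by
    refine (QQ_mono hZC).trans ?_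
    unfold QQ brk
    have hl : 0 ≤ dist b bp + 2 * dy k := by positivity
    have h1 : Real.sqrt (6 * (dist b bp + 2 * dy k) * xb) =
        Real.sqrt 6 * Real.sqrt ((dist b bp + 2 * dy k) * xb) := by
      rw [mul_assoc, Real.sqrt_mul (by norm_num)]
    have h2 : Real.sqrt 6 ≤ 3 := by
      rw [Real.sqrt_le_left (by norm_num)]; norm_num
    have h3 := Real.sqrt_nonneg ((dist b bp + 2 * dy k) * xb)
    have h4 : 0 ≤ max 1 (C3 n c.ω M) * R * e := by positivity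
    have h5 : 4 * Real.sqrt (6 * (dist b bp + 2 * dy k) * xb) ≤
        12 * Real.sqrt ((dist b bp + 2 * dy k) * xb) := by
      rw [h1]; nlinarith
    nlinarith [mul_nonneg hCx hdk.le, mul_nonneg hCx h3, mul_nonneg hCx h4,
      mul_nonneg hCx hxb0]
  have hEm : Measurable (Function.uncurry (Err C (Fx Fd k) (dy k))) :=
    measurable_Err C (measurable_Fx Fd k) (dy k)
  have hfin := bl_vol C hκ hP (D := 36) (R := R) (S := S) (E := Err C (Fx Fd k) (dy k))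
    hdk hb hbp hPr h12 hρ (by linarith) hS hSb htr hvpos (hvol b (by rw [hb]; linarith))
    (hvol bp (by rw [hbp]; linarith)) hSlow measure_ball_lt_top.ne measure_ball_lt_top.ne
    ((measure_mono hSb).trans_lt measure_ball_lt_top).ne hEm hCx
    ((hmix k).on hdk hb hbp h12 hρ S) hxb0 hxb hK4' hJr0 hJ (by linarith)
  refine hfin.trans ?_
  gcongr

end Crest.Agent.R247.BL562
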