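import Crest.Agent.R247.Pair2_438
import Crest.Agent.R247.Far0_553

/-! # Leaf (1-CE) of R247, part 4: PAIR over the interface `FarD` -/

set_option autoImplicit false
set_option linter.unusedSectionVars false
open MeasureTheory Set Filter Topology
open scoped ENNReal NNReal

noncomputable section
namespace Crest.Agent.R247.Pair438
open Crest.Agent.R247.Mcp688
open Crest.Agent.R247.BL562 (lam measurable_lam)
open Crest.Agent.R247.Far553 (dy dy_pos err FarK FarD)

variable {n : ℕ} {κ : ℝ} {X : Type*} [MetricSpace X] [MeasurableSpace X] [BorelSpace X]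
  {μ : Measure X} {C : Rad n κ X μ} {c : FarK} {x : X} {δ : ℝ} {ph : ℕ → ℝ}

/-- the error of `FarD.pe`, infinite outside `B(x,12)` -/
def errx (C : Rad n κ X μ) (x : X) (ρ : ℝ) (H g : X → ℝ) (P Q : X) : ℝ≥0∞ :=
  open Classical in
  if dist x P < 12 ∧ dist x Q < 12 then err C ρ H g P Q else ⊤

lemma vel_far (D : FarD c C x δ ph) : VEL C x := D.vel

lemma ae_U2 [SFinite μ] (C : Rad n κ X μ) (x : X) :
    ∀ᵐ p ∂(μ.prod μ), (x, p.1) ∈ C.U ∧ (x, p.2) ∈ C.U :=
  (Measure.quasiMeasurePreserving_fst.ae (C.ae_U x)).and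
    (Measure.quasiMeasurePreserving_snd.ae (C.ae_U x))

/-- (PV) with the local error -/
lemma PV_errx [SFinite μ] (D : FarD c C x δ ph) (k : ℕ) :
    PV C x (errx C x (dy k) (D.H k) (D.g k)) := by
  filter_upwards [D.pe k, ae_U2 C x] with p hp hU e he
  by_cases hd : dist x p.1 < 12 ∧ dist x p.2 < 12
  · obtain ⟨A, hA, hAE⟩ := hp hd.1 hd.2
    rw [errx, if_pos hd] at he
    have h1 : dist p.1 p.2 - A < e := by
      by_contra hcon
      push Not at hcon
      have h2 : e ≤ |A - dist p.1 p.2| := by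
        rw [abs_sub_comm]
        exact hcon.trans (le_abs_self _)
      exact absurd (hAE.trans_lt he) (not_lt.2 (ENNReal.ofReal_le_ofReal h2))
    have h2 := (hasDerivWithinAt_iff_tendsto_slope' (by simp)).1 hA
    have h3 : ∀ᶠ t in 𝓝[<] (1 : ℝ), dist p.1 p.2 - e <
        slope (fun t : ℝ => dist (C.T x t p.1) (C.T x t p.2)) 1 t :=
      h2.eventually (lt_mem_nhds (by linarith))
    filter_upwards [h3, self_mem_nhdsWithin] with t ht ht1
    simp only [mem_Iio] at ht1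
    rw [slope_def_field, C.T_one _ _ hU.1, C.T_one _ _ hU.2, lt_div_iff_of_neg (by linarith)] at ht
    linarith
  · rw [errx, if_neg hd] at he
    exact absurd he (by simp)

/-- **the mixed pair inequality over `FarD`**, in the literal form consumed by `BL562.bl_core`
(`Cx = 4`). -/
theorem hmix_far [SFinite μ] (D : FarD c C x δ ph) (k : ℕ) :
    ∀ᵐ p ∂(μ.prod (μ.prod μ)), 0 < dist x p.1 → dist x p.1 ≤ dist x p.2.1 →
      dist x p.2.1 ≤ 4 * dist x p.1 → dist x p.1 + dist p.1 p.2.1 < 12 → dist x p.2.2 < 12 →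
      ∀ a ∈ Icc (0 : ℝ) 1,
      ENNReal.ofReal (dist (C.T p.1 a p.2.1) (C.T x (lam x p.1 p.2.1 a) p.2.2) /
          lam x p.1 p.2.1 a) ≤
        ENNReal.ofReal (dist p.2.1 p.2.2 +
          (Real.sqrt (2 * dist p.1 p.2.1 * (dist x p.1 + dist p.1 p.2.1 - dist x p.2.1)) +
            4 * (dist x p.1 + dist p.1 p.2.1 - dist x p.2.1) +
            4 * (1 - dist x p.1 / dist x p.2.1) * |dist x p.2.1 - dist x p.2.2|) /
            (dist x p.1 / dist x p.2.1)) +
        ENNReal.ofReal ((1 - dist x p.1 / dist x p.2.1) / (dist x p.1 / dist x p.2.1) ^ 2) *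
          ∫⁻ s in Ioc a 1, err C (dy k) (D.H k) (D.g k) (C.T p.1 s p.2.1)
            (C.T x (lam x p.1 p.2.1 s) p.2.2) := by
  have hU : ∀ᵐ q ∂(μ.prod μ), q ∈ C.U :=
    (Measure.ae_prod_iff_ae_ae (p := fun q => q ∈ C.U) C.measU).2
      (Eventually.of_forall fun z => C.ae_U z)
  have hU12 : ∀ᵐ w ∂(μ.prod (μ.prod μ)), (w.1, w.2.1) ∈ C.U :=
    ae_proj12 (p := fun q => q ∈ C.U) hU
  have hU3 : ∀ᵐ w ∂(μ.prod (μ.prod μ)), (x, w.2.2) ∈ C.U := by
    have h1 : ∀ᵐ q ∂(μ.prod μ), (x, q.2) ∈ C.U := Measure.quasiMeasurePreserving_snd.ae (C.ae_U x)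
    exact Measure.quasiMeasurePreserving_snd.ae (p := fun q : X × X => (x, q.2) ∈ C.U) h1
  filter_upwards [pair1 C (vel_far D) (PV_errx D k), hU12, hU3] with p hp hU1 hU2 h0 h1 h2 h3 h4 a ha
  obtain ⟨-, -, hq0, hq1⟩ := lam_pos h0 h1 ha
  have hy0 : 0 < dist x p.2.1 := h0.trans_le h1
  have hq4 : 1 / 4 ≤ dist x p.1 / dist x p.2.1 := by
    rw [le_div_iff₀ hy0]
    linarith
  have hmain := hp h0 h1 a ha
  have hcongr : ∫⁻ s in Ioc a 1, errx C x (dy k) (D.H k) (D.g k) (C.T p.1 s p.2.1)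
      (C.T x (lam x p.1 p.2.1 s) p.2.2) = ∫⁻ s in Ioc a 1, err C (dy k) (D.H k) (D.g k)
        (C.T p.1 s p.2.1) (C.T x (lam x p.1 p.2.1 s) p.2.2) := by
    apply setLIntegral_congr_fun measurableSet_Ioc
    intro s hs
    have hsI : s ∈ Icc (0 : ℝ) 1 := ⟨ha.1.trans hs.1.le, hs.2⟩
    obtain ⟨hl1, hl2, -, -⟩ := lam_pos h0 h1 hsI
    have h5 : dist x (C.T p.1 s p.2.1) < 12 := by
      have h6 := dist_triangle x p.1 (C.T p.1 s p.2.1)
      rw [C.dist_left hU1 hsI] at h6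
      have h7 : s * dist p.1 p.2.1 ≤ 1 * dist p.1 p.2.1 :=
        mul_le_mul_of_nonneg_right hs.2 dist_nonneg
      linarith
    have h8 : dist x (C.T x (lam x p.1 p.2.1 s) p.2.2) < 12 := by
      rw [C.dist_left hU2 ⟨hq0.le.trans hl1, hl2⟩]
      have h7 : lam x p.1 p.2.1 s * dist x p.2.2 ≤ 1 * dist x p.2.2 :=
        mul_le_mul_of_nonneg_right hl2 dist_nonneg
      linarith
    show errx C x (dy k) (D.H k) (D.g k) _ _ = _
    rw [errx, if_pos ⟨h5, h8⟩]
  rw [hcongr] at hmain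
  refine hmain.trans (add_le_add (ENNReal.ofReal_le_ofReal ?_) le_rfl)
  have hex : exc x p.1 p.2.1 = dist x p.1 + dist p.1 p.2.1 - dist x p.2.1 := rfl
  have hex0 := exc_nonneg x p.1 p.2.1
  rw [← hex]
  have h10 : 0 ≤ 4 * (1 - dist x p.1 / dist x p.2.1) * |dist x p.2.1 - dist x p.2.2| :=
    mul_nonneg (by linarith) (abs_nonneg _)
  have h11 : Real.sqrt (2 * dist p.1 p.2.1 * exc x p.1 p.2.1) + 2 * exc x p.1 p.2.1 ≤
      Real.sqrt (2 * dist p.1 p.2.1 * exc x p.1 p.2.1) + 4 * exc x p.1 p.2.1 +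
        4 * (1 - dist x p.1 / dist x p.2.1) * |dist x p.2.1 - dist x p.2.2| := by linarith
  have h12 := div_le_div_of_nonneg_right h11 hq0.le
  linarith

end Crest.Agent.R247.Pair438
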