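import Crest.Agent.R247.BL6_562
import Crest.Agent.R247.Pair3_438

/-! # Lemma BL (doc 1392, sec. 2), part 7: **`BLP n c`** of `Far1_553` -/

set_option autoImplicit false
set_option linter.unusedSectionVars false
open MeasureTheory Set Filter Topology Metric
open scoped ENNReal NNReal

noncomputable section
namespace Crest.Agent.R247.BL562

universe u
open Crest.Agent.R247.Mcp688 Crest.Agent.R247.Far553 Crest.Agent.R247.LX149

section
variable {n : ℕ} {κ : ℝ} {X : Type*} [MetricSpace X] [MeasurableSpace X] [BorelSpace X]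
  {μ : Measure X}

/-- the tube integral for `err` -/
lemma tube7 [ProperSpace X] [IsFiniteMeasureOnCompacts μ] {c : FarK} (C : Rad n κ X μ)
    (hκ : 0 ≤ κ) (hκ1 : κ * 1600 ≤ 1) {x : X} {δ : ℝ} {ph : ℕ → ℝ} (Fd : FarD c C x δ ph)
    (hδ : δ ≤ 1 / 2) {P : X} (hP : (x, P) ∈ C.U) {r0 r1 R K e : ℝ} {k : ℕ}
    (hr0 : 0 < r0) (h01 : r0 < r1) (hPr : dist x P = r1) (hr12 : r1 ≤ 12)
    (hk1 : dy k ≤ R) (hk2 : 2 * R ≤ K * dy k) (hR1 : R ≤ 5)
    (he : ∫⁻ r in Icc r0 r1, loc μ n K (dy k) (fun z => Fd.H k z + Fd.g k z)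
      (C.T x (r / r1) P) ≤ ENNReal.ofReal e) :
    ∫⁻ s in Icc (0 : ℝ) 1, ∫⁻ p in ball (C.T x (th (r0 / r1) s) P) R,
        ∫⁻ q in ball (C.T x (th (r0 / r1) s) P) R,
          err C (dy k) (Fd.H k) (Fd.g k) p q ∂μ ∂μ ≤
      ENNReal.ofReal (R * (4 * (Real.exp 2 * 2 ^ n) + 2) * (2 * c.ω * R ^ n) * dy k ^ n *
        (r1 - r0)⁻¹) * ENNReal.ofReal e := by
  have hr1 : 0 < r1 := hr0.trans h01
  have hdk := dy_pos k
  have hRp : 0 < R := lt_of_lt_of_le hdk hk1
  have hω := c.ω_pos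
  set F : X → ℝ := fun z => Fd.H k z + Fd.g k z with hF
  have hs : ∀ s ∈ Icc (0 : ℝ) 1,
      ∫⁻ p in ball (C.T x (th (r0 / r1) s) P) R,
        ∫⁻ q in ball (C.T x (th (r0 / r1) s) P) R,
          err C (dy k) (Fd.H k) (Fd.g k) p q ∂μ ∂μ ≤
      ENNReal.ofReal (R * (4 * (Real.exp 2 * 2 ^ n) + 2) * (2 * c.ω * R ^ n) * dy k ^ n) *
        loc μ n K (dy k) F (C.T x ((r0 + s * (r1 - r0)) / r1) P) := by
    intro s hs
    have hθ1 : r0 / r1 ≤ 1 := (div_le_one hr1).2 h01.le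
    have hθ0 : 0 ≤ r0 / r1 := by positivity
    have hth := th_mem hθ1 hs
    have hctr : th (r0 / r1) s = (r0 + s * (r1 - r0)) / r1 := by
      unfold th
      field_simp
    rw [← hctr]
    have hd : dist x (C.T x (th (r0 / r1) s) P) = th (r0 / r1) s * r1 := by
      rw [C.dist_left hP ⟨hθ0.trans hth.1, hth.2⟩, hPr]
    set y := C.T x (th (r0 / r1) s) P with hy
    have hd20 : dist x y < 20 := by
      rw [hd]
      nlinarith [hth.1, hth.2]
    have h1 := err_ball_le C hκ y hRp hk1 (Fd.H_meas k) (Fd.g_meas k)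
      (Fd.H_nonneg k) (Fd.g_nonneg k)
    have h2 : μ (ball y R) ≤ ENNReal.ofReal (2 * c.ω * R ^ n) := by
      refine (Fd.vol_le y R hd20 hRp (by linarith)).trans (ENNReal.ofReal_le_ofReal ?_)
      gcongr
      linarith
    have h3 : ENNReal.ofReal (R * (4 * (Real.exp (κ * (2 * R) ^ 2 / 2) * 2 ^ n) + 2)) ≤
        ENNReal.ofReal (R * (4 * (Real.exp 2 * 2 ^ n) + 2)) := by
      apply ENNReal.ofReal_le_ofReal
      gcongr
      nlinarith
    have h4 : ∫⁻ z in ball y (2 * R), ENNReal.ofReal (Fd.H k z + Fd.g k z) ∂μ ≤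
        ENNReal.ofReal (dy k ^ n) * loc μ n K (dy k) F y := by
      unfold loc
      rw [← mul_assoc, ← ENNReal.ofReal_mul (by positivity), ← mul_pow,
        mul_inv_cancel₀ hdk.ne', one_pow, ENNReal.ofReal_one, one_mul]
      exact lintegral_mono_set (ball_subset_ball hk2)
    calc _ ≤ _ := h1
      _ ≤ ENNReal.ofReal (R * (4 * (Real.exp 2 * 2 ^ n) + 2)) *
          ENNReal.ofReal (2 * c.ω * R ^ n) * (ENNReal.ofReal (dy k ^ n) *
            loc μ n K (dy k) F y) := by gcongr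
      _ = _ := by
        rw [← mul_assoc, ← ENNReal.ofReal_mul (by positivity),
          ← ENNReal.ofReal_mul (by positivity)]
  calc _ ≤ ∫⁻ s in Icc (0 : ℝ) 1,
        ENNReal.ofReal (R * (4 * (Real.exp 2 * 2 ^ n) + 2) * (2 * c.ω * R ^ n) *
          dy k ^ n) * loc μ n K (dy k) F (C.T x ((r0 + s * (r1 - r0)) / r1) P) :=
        setLIntegral_mono' measurableSet_Icc hs
    _ = ENNReal.ofReal (R * (4 * (Real.exp 2 * 2 ^ n) + 2) * (2 * c.ω * R ^ n) *
          dy k ^ n) * (ENNReal.ofReal ((r1 - r0)⁻¹) * ∫⁻ r in Icc r0 r1,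
          loc μ n K (dy k) F (C.T x (r / r1) P)) := by
        rw [lintegral_const_mul' _ _ ENNReal.ofReal_ne_top,
          lintegral_affine (fun r => loc μ n K (dy k) F (C.T x (r / r1) P)) h01]
    _ ≤ ENNReal.ofReal (R * (4 * (Real.exp 2 * 2 ^ n) + 2) * (2 * c.ω * R ^ n) *
          dy k ^ n) * (ENNReal.ofReal ((r1 - r0)⁻¹) * ENNReal.ofReal e) := by gcongr
    _ = _ := by
        rw [← mul_assoc, ← ENNReal.ofReal_mul (by positivity)]

/-- the mean excess controls `dist b bp` -/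
lemma dist_le_of_xb {x b bp : X} {ρ0 xb : ℝ}
    (hB0 : μ (ball b ρ0) ≠ 0) (hBp0 : μ (ball bp ρ0) ≠ 0)
    (hBt : μ (ball b ρ0) ≠ ∞) (hBpt : μ (ball bp ρ0) ≠ ∞) (hxb0 : 0 ≤ xb)
    (hxb : ∫⁻ z in ball b ρ0, ∫⁻ y in ball bp ρ0,
        ENNReal.ofReal (dist x z + dist z y - dist x y) ∂μ ∂μ ≤
      ENNReal.ofReal xb * (μ (ball b ρ0) * μ (ball bp ρ0))) :
    dist x b + dist b bp - dist x bp - 4 * ρ0 ≤ xb := by
  set t : ℝ := dist x b + dist b bp - dist x bp - 4 * ρ0 with ht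
  have h1 : ENNReal.ofReal t * (μ (ball b ρ0) * μ (ball bp ρ0)) ≤
      ∫⁻ z in ball b ρ0, ∫⁻ y in ball bp ρ0,
        ENNReal.ofReal (dist x z + dist z y - dist x y) ∂μ ∂μ := by
    have h2 : ∀ z ∈ ball b ρ0, ENNReal.ofReal t * μ (ball bp ρ0) ≤
        ∫⁻ y in ball bp ρ0, ENNReal.ofReal (dist x z + dist z y - dist x y) ∂μ := by
      intro z hz
      have h3 : ∀ y ∈ ball bp ρ0, ENNReal.ofReal t ≤
          ENNReal.ofReal (dist x z + dist z y - dist x y) := by
        intro y hy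
        apply ENNReal.ofReal_le_ofReal
        have hz' := mem_ball.1 hz
        have hy' := mem_ball.1 hy
        have h4 := dist_triangle x z b
        have h5 := dist_triangle4 b z y bp
        rw [dist_comm b z] at h5
        have h6 := dist_triangle x bp y
        rw [dist_comm bp y] at h6
        linarith
      calc ENNReal.ofReal t * μ (ball bp ρ0) = ∫⁻ _ in ball bp ρ0, ENNReal.ofReal t ∂μ := by
            rw [setLIntegral_const]
        _ ≤ _ := setLIntegral_mono' measurableSet_ball h3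
    calc ENNReal.ofReal t * (μ (ball b ρ0) * μ (ball bp ρ0))
        = ∫⁻ _ in ball b ρ0, ENNReal.ofReal t * μ (ball bp ρ0) ∂μ := by
          rw [setLIntegral_const]; ring
      _ ≤ _ := setLIntegral_mono' measurableSet_ball h2
  have h2 := h1.trans hxb
  have h3 : μ (ball b ρ0) * μ (ball bp ρ0) ≠ 0 := mul_ne_zero hB0 hBp0
  have h4 : μ (ball b ρ0) * μ (ball bp ρ0) ≠ ∞ := ENNReal.mul_ne_top hBt hBpt
  have h5 : ENNReal.ofReal t ≤ ENNReal.ofReal xb :=
    (ENNReal.mul_le_mul_iff_left h3 h4).1 h2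
  exact (ENNReal.ofReal_le_ofReal_iff hxb0).1 h5

end

set_option maxHeartbeats 1000000 in
/-- **Lemma BL over `FarD`**: `BLP` of `Far1_553`. -/
theorem blp (n : ℕ) (c : FarK) : BLP.{u} n c := by
  refine ⟨14 + 12 * 4, by norm_num, fun M hM => ⟨max 1 (C3 n c.ω M), le_max_left _ _, 4 * M,
    by linarith, ?_⟩⟩
  intro κ X _ _ _ _ μ _ C x δ ph Fd hκ hκ1 _ hδ b bp P r0 r1 k hP hb hbp hPr hr11 h12 hρ hMr
    S hS hSb hSμ htr xb e hxb0 he0 hxb he hR
  have hdk := dy_pos k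
  have hr0 : 0 < r0 := by linarith
  have h01 : r0 < r1 := by linarith
  have hr1 : 0 < r1 := by linarith
  have hω := c.ω_pos
  set R : ℝ := M * dy k with hRdef
  have hRp : 0 < R := by positivity
  have hk1 : dy k ≤ R := by rw [hRdef]; nlinarith
  -- volumes
  have hvol : ∀ y : X, dist x y < 20 →
      ENNReal.ofReal (c.ω / 2 * dy k ^ n) ≤ μ (ball y (dy k)) := by
    intro y hy
    refine le_trans (ENNReal.ofReal_le_ofReal ?_)
      (Fd.vol_ge y (dy k) hy hdk (by linarith [dy_le_one k]))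
    have : 0 ≤ dy k ^ n := by positivity
    have h1 : c.ω / 2 ≤ (1 - δ) * c.ω := by nlinarith
    gcongr
  have hvpos : 0 < c.ω / 2 * dy k ^ n := by positivity
  have hSlow : ENNReal.ofReal (9 / 10 * (c.ω / 2 * dy k ^ n)) ≤ μ S := by
    rw [ENNReal.ofReal_mul (by norm_num)]
    exact (mul_le_mul_right (hvol P (by rw [hPr]; linarith)) _).trans hSμ
  -- `xb`, `dy k` and `dist b bp` are small
  have hm0 : ENNReal.ofReal (c.ω / 2 * dy k ^ n) ≠ 0 := (ENNReal.ofReal_pos.2 hvpos).ne'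
  have hB0 : μ (ball b (dy k)) ≠ 0 := fun h =>
    hm0 (le_antisymm (h ▸ hvol b (by rw [hb]; linarith)) bot_le)
  have hBp0 : μ (ball bp (dy k)) ≠ 0 := fun h =>
    hm0 (le_antisymm (h ▸ hvol bp (by rw [hbp]; linarith)) bot_le)
  have hbb := dist_le_of_xb (x := x) hB0 hBp0 measure_ball_lt_top.ne
    measure_ball_lt_top.ne hxb0 hxb
  rw [hb, hbp] at hbb
  have hbrk : 62 * (dy k + xb) < r1 / 4 := by
    have h1 : 0 ≤ Real.sqrt ((dist b bp + 2 * dy k) * xb) := Real.sqrt_nonneg _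
    have h2 : 0 ≤ max 1 (C3 n c.ω M) * R * e := by positivity
    have h3 : 0 ≤ dist bp P := dist_nonneg
    unfold brk at hR
    linarith
  have hmix : MixOn C x (err C (dy k) (Fd.H k) (Fd.g k)) 4 (ball b (dy k)) (ball bp (dy k))
      S := by
    filter_upwards [Pair438.hmix_far Fd k] with p hp h1 h2 h3
    have hz : |dist x p.1 - r0| ≤ dy k := by
      have h1' := _root_.abs_dist_sub_le p.1 b x
      rw [dist_comm p.1 x, dist_comm b x, hb] at h1'
      exact h1'.trans (mem_ball.1 h1).le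
    have hy : |dist x p.2.1 - r1| ≤ dy k := by
      have h1' := _root_.abs_dist_sub_le p.2.1 bp x
      rw [dist_comm p.2.1 x, dist_comm bp x, hbp] at h1'
      exact h1'.trans (mem_ball.1 h2).le
    have hrad := radii hdk hz hy h12 hρ
    have hz2 := abs_le.1 hz
    have hy2 := abs_le.1 hy
    have hzy : dist p.1 p.2.1 ≤ dist b bp + 2 * dy k := by
      have h5 := dist_triangle4 p.1 b bp p.2.1
      have h6 := mem_ball.1 h1
      have h7 := mem_ball.1 h2
      rw [dist_comm bp p.2.1] at h5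
      linarith
    have hyP : dist x p.2.2 ≤ r1 + dy k := by
      have h5 := dist_triangle x P p.2.2
      have h6 := mem_ball.1 (hSb h3)
      rw [dist_comm P p.2.2] at h5
      linarith
    exact hp hrad.1 hrad.2.1 (by linarith [hz2.1, hy2.2]) (by linarith [hz2.2])
      (by linarith)
  set cE : ℝ := 4 * (Real.exp 2 * 2 ^ n) + 2 with hcE
  have hcEp : 0 < cE := by positivity
  set K4 : ℝ := Real.exp 1 * 4 ^ n with hK4
  have hK4p : 0 < K4 := by positivity
  have hd : 0 < r1 - r0 := by linarith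
  set Jr : ℝ := R * cE * (2 * c.ω * R ^ n) * dy k ^ n * (r1 - r0)⁻¹ * (e * r1) with hJr
  have hJr0 : 0 ≤ Jr := by positivity
  have hJ : ∫⁻ s in Icc (0 : ℝ) 1, ∫⁻ p in ball (C.T x (th (r0 / r1) s) P) R,
        ∫⁻ q in ball (C.T x (th (r0 / r1) s) P) R,
          err C (dy k) (Fd.H k) (Fd.g k) p q ∂μ ∂μ ≤ ENNReal.ofReal Jr := by
    refine (tube7 C hκ hκ1 Fd hδ hP hr0 h01 hPr (by linarith) hk1 (K := 4 * M)
      (by rw [hRdef]; nlinarith) (by linarith) he).trans (le_of_eq ?_)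
    exact (ENNReal.ofReal_mul (by positivity)).symm
  have hK4' : Real.exp (κ * 36 ^ 2 / 2) * 4 ^ n ≤ K4 := by
    rw [hK4]
    gcongr
    linarith
  -- comparison of the brackets
  have hZC : 22 * (1 - r0 / r1) * (20 / 3 * K4 ^ 2 * Jr / (c.ω / 2 * dy k ^ n) ^ 2) ≤
      max 1 (C3 n c.ω M) * R * e := by
    have h2 : 22 * (1 - r0 / r1) * (20 / 3 * K4 ^ 2 * Jr / (c.ω / 2 * dy k ^ n) ^ 2) =
        3520 / 3 * M ^ n * K4 ^ 2 * cE / c.ω * (R * e) := by
      have hd' : r1 - r0 ≠ 0 := hd.ne'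
      have hdn : dy k ^ n ≠ 0 := by positivity
      rw [hJr]
      have h3 : 1 - r0 / r1 = (r1 - r0) / r1 := by field_simp
      have h4 : R ^ n = M ^ n * dy k ^ n := by rw [hRdef]; ring
      rw [h3, h4]
      field_simp
      ring
    rw [h2]
    have h3 : 3520 / 3 * M ^ n * K4 ^ 2 * cE / c.ω ≤ C3 n c.ω M := by
      unfold C3
      rw [← hcE, ← hK4]
      have h5 : (1 : ℝ) ≤ 2 ^ n := one_le_pow₀ (by norm_num)
      have h6 : 3520 / 3 * M ^ n ≤ 1174 * 2 ^ n * M ^ n := by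
        have : 0 < M ^ n := by positivity
        have : (3520 / 3 : ℝ) ≤ 1174 * 2 ^ n := by linarith
        gcongr
      gcongr
    have h4 : 0 ≤ R * e := by positivity
    calc 3520 / 3 * M ^ n * K4 ^ 2 * cE / c.ω * (R * e)
        ≤ max 1 (C3 n c.ω M) * (R * e) :=
          mul_le_mul_of_nonneg_right (h3.trans (le_max_right _ _)) h4
      _ = _ := by ring
  have hQ : QQ (dy k) 4 (dist b bp + 2 * dy k) xb
      (22 * (1 - r0 / r1) * (20 / 3 * K4 ^ 2 * Jr / (c.ω / 2 * dy k ^ n) ^ 2)) ≤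
      (14 + 12 * 4) *
        brk (dy k) (dist b bp + 2 * dy k) xb (max 1 (C3 n c.ω M)) R e := by
    refine (QQ_mono hZC).trans ?_
    unfold QQ brk
    have hl : 0 ≤ dist b bp + 2 * dy k := by positivity
    have h1 : Real.sqrt (6 * (dist b bp + 2 * dy k) * xb) =
        Real.sqrt 6 * Real.sqrt ((dist b bp + 2 * dy k) * xb) := by
      rw [mul_assoc, Real.sqrt_mul (by norm_num)]
    have h2 : Real.sqrt 6 ≤ 3 := by
      rw [Real.sqrt_le_left (by norm_num)]; norm_num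
    have h3 := Real.sqrt_nonneg ((dist b bp + 2 * dy k) * xb)
    have h4 : 0 ≤ max 1 (C3 n c.ω M) * R * e := by positivity
    have h5 : 4 * Real.sqrt (6 * (dist b bp + 2 * dy k) * xb) ≤
        12 * Real.sqrt ((dist b bp + 2 * dy k) * xb) := by
      rw [h1]; nlinarith
    nlinarith
  have hEm : Measurable (Function.uncurry (err C (dy k) (Fd.H k) (Fd.g k))) :=
    measurable_err C (dy k) (Fd.H_meas k) (Fd.g_meas k)
  have hfin := bl_vol C hκ hP (D := 36) (R := R) (S := S) (E := err C (dy k) (Fd.H k) (Fd.g k))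
    hdk hb hbp hPr h12 hρ (by linarith) hS hSb htr hvpos (hvol b (by rw [hb]; linarith))
    (hvol bp (by rw [hbp]; linarith)) hSlow measure_ball_lt_top.ne measure_ball_lt_top.ne
    ((measure_mono hSb).trans_lt measure_ball_lt_top).ne hEm (by norm_num)
    hmix hxb0 hxb hK4' hJr0 hJ (by linarith)
  refine hfin.trans ?_
  gcongr

end Crest.Agent.R247.BL562
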