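import Crest.Agent.R247.Far0_553

/-!
# R247, leaf P11 (helper644): the measure of the rays with a bad scale (`FarD.d1b`)

Input: 436's energy inequality along rays (`Sv5`) and 193's maximal estimate.
-/

set_option autoImplicit false
set_option linter.unusedSectionVars false
open MeasureTheory Set Filter Topology Metric
open scoped ENNReal NNReal

noncomputable section
namespace Crest.Agent.R247.Bad644

open Crest.Agent.R247.Mcp688 Crest.Agent.R247.Far553

/-- scaling of a one-dimensional lower integral -/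
lemma lint_scale {l : ℝ} (hl : 0 < l) {f : ℝ → ℝ≥0∞} (hf : Measurable f) (a b : ℝ) :
    ∫⁻ r in Icc a b, f (r / l) = ENNReal.ofReal l * ∫⁻ t in Icc (a / l) (b / l), f t := by
  have h1 : Measure.map (fun r : ℝ => l⁻¹ * r) volume = ENNReal.ofReal l • (volume : Measure ℝ) := by
    rw [Real.map_volume_mul_left (inv_ne_zero hl.ne'), inv_inv, abs_of_pos hl]
  have h2 : ∫⁻ r in Icc a b, f (r / l) =
      ∫⁻ r, (Icc (a / l) (b / l)).indicator f (l⁻¹ * r) := by
    rw [← lintegral_indicator measurableSet_Icc]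
    refine lintegral_congr fun r => ?_
    by_cases h : r ∈ Icc a b
    · have h' : l⁻¹ * r ∈ Icc (a / l) (b / l) := by
        rw [mem_Icc] at h ⊢
        rw [inv_mul_eq_div]
        exact ⟨by gcongr; exact h.1, by gcongr; exact h.2⟩
      rw [indicator_of_mem h, indicator_of_mem h', inv_mul_eq_div]
    · have h' : l⁻¹ * r ∉ Icc (a / l) (b / l) := by
        intro h3
        apply h
        rw [mem_Icc, inv_mul_eq_div] at h3
        exact ⟨(div_le_div_iff_of_pos_right hl).1 h3.1, (div_le_div_iff_of_pos_right hl).1 h3.2⟩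
      rw [indicator_of_notMem h, indicator_of_notMem h']
  rw [h2, ← lintegral_map (f := (Icc (a / l) (b / l)).indicator f) (g := fun r : ℝ => l⁻¹ * r)
    (hf.indicator measurableSet_Icc) (measurable_const.mul measurable_id), h1,
    lintegral_smul_measure, lintegral_indicator measurableSet_Icc]
  rfl

variable {n : ℕ} {κ : ℝ} {X : Type*} [MetricSpace X] [MeasurableSpace X] [BorelSpace X]
  {μ : Measure X}

lemma measurable_ray (C : Rad n κ X μ) (x : X) :
    Measurable fun p : X × ℝ => ray C x p.1 p.2 := by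
  unfold ray
  have h1 : Measurable fun p : X × ℝ => dist x p.1 :=
    (continuous_const.dist continuous_id).measurable.comp measurable_fst
  exact (C.measT_x x).comp ((measurable_snd.div h1).prodMk measurable_fst)

lemma dist_ray (C : Rad n κ X μ) {x v : X} (hU : (x, v) ∈ C.U) {r : ℝ} (h0 : 0 ≤ r)
    (hr : r ≤ dist x v) (hv : 0 < dist x v) : dist x (ray C x v r) = r := by
  unfold ray
  rw [C.dist_left hU ⟨div_nonneg h0 hv.le, (div_le_one hv).2 hr⟩, div_mul_cancel₀ _ hv.ne']

/-- law of the rays in the radius variable -/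
lemma law_le (C : Rad n κ X μ) [SFinite μ] (hκ : 0 ≤ κ) (x : X) {s : ℝ} (hs : 0 < s)
    (hs4 : 4 * s ≤ 1) {E : Set X} (hE : MeasurableSet E) :
    ∫⁻ v in {v | 1 ≤ dist x v ∧ dist x v < 12},
        ∫⁻ r in Icc s (4 * s), E.indicator (fun _ => (1 : ℝ≥0∞)) (ray C x v r) ∂volume ∂μ ≤
      ENNReal.ofReal (48 * 12 ^ n * Real.exp (72 * κ) * s * (s⁻¹) ^ n) * μ E := by
  have hd : Continuous fun v : X => dist x v := continuous_const.dist continuous_id
  have hA : MeasurableSet {v : X | 1 ≤ dist x v ∧ dist x v < 12} :=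
    (measurableSet_le measurable_const hd.measurable).inter
      (measurableSet_lt hd.measurable measurable_const)
  have hg : Measurable (E.indicator (fun _ => (1 : ℝ≥0∞))) := measurable_const.indicator hE
  have h1 : ∀ v ∈ {v : X | 1 ≤ dist x v ∧ dist x v < 12},
      ∫⁻ r in Icc s (4 * s), E.indicator (fun _ => (1 : ℝ≥0∞)) (ray C x v r) ≤
        12 * ∫⁻ t in Icc (s / 12) (4 * s), E.indicator (fun _ => (1 : ℝ≥0∞)) (C.T x t v) := by
    intro v hv
    have hl : 0 < dist x v := by linarith [hv.1]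
    have hf : Measurable fun t : ℝ => E.indicator (fun _ => (1 : ℝ≥0∞)) (C.T x t v) :=
      hg.comp ((C.measT_x x).comp (measurable_id.prodMk measurable_const))
    have h2 := lint_scale hl hf s (4 * s)
    have h3 : ∫⁻ r in Icc s (4 * s), E.indicator (fun _ => (1 : ℝ≥0∞)) (ray C x v r) =
        ENNReal.ofReal (dist x v) * ∫⁻ t in Icc (s / dist x v) (4 * s / dist x v),
          E.indicator (fun _ => (1 : ℝ≥0∞)) (C.T x t v) := h2
    rw [h3]
    refine mul_le_mul' ?_ ?_
    · calc ENNReal.ofReal (dist x v) ≤ ENNReal.ofReal 12 := ENNReal.ofReal_le_ofReal hv.2.le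
        _ = 12 := by norm_num
    · refine lintegral_mono_set (Icc_subset_Icc ?_ ?_)
      · exact div_le_div_of_nonneg_left hs.le hl hv.2.le
      · rw [div_le_iff₀ hl]
        nlinarith [hv.1]
  calc _ ≤ ∫⁻ v in {v | 1 ≤ dist x v ∧ dist x v < 12},
        12 * ∫⁻ t in Icc (s / 12) (4 * s), E.indicator (fun _ => (1 : ℝ≥0∞)) (C.T x t v) ∂volume ∂μ :=
        setLIntegral_mono' hA h1
    _ = 12 * ∫⁻ v in {v | 1 ≤ dist x v ∧ dist x v < 12},
        ∫⁻ t in Icc (s / 12) (4 * s), E.indicator (fun _ => (1 : ℝ≥0∞)) (C.T x t v) ∂volume ∂μ := by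
        rw [lintegral_const_mul' _ _ (by norm_num)]
    _ ≤ 12 * (ENNReal.ofReal (Real.exp (κ * 12 ^ 2 / 2) * ((s / 12)⁻¹) ^ n * (4 * s - s / 12)) *
        ∫⁻ y in (univ : Set X), E.indicator (fun _ => (1 : ℝ≥0∞)) y ∂μ) := by
        gcongr
        exact C.ray_lintegral_le hκ x (by positivity) hs4 hA MeasurableSet.univ
          (fun z hz => hz.2.le) (fun _ _ _ _ _ => mem_univ _) hg
    _ ≤ _ := by
        rw [Measure.restrict_univ, lintegral_indicator_const hE, one_mul, ← mul_assoc]
        gcongr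
        rw [show (12 : ℝ≥0∞) = ENNReal.ofReal 12 by norm_num, ← ENNReal.ofReal_mul (by norm_num)]
        apply ENNReal.ofReal_le_ofReal
        have e1 : (s / 12)⁻¹ = 12 * s⁻¹ := by rw [inv_div]; rfl
        have e2 : κ * 12 ^ 2 / 2 = 72 * κ := by ring
        rw [e1, mul_pow, e2]
        have h5 : 0 ≤ Real.exp (72 * κ) * (12 ^ n * (s⁻¹) ^ n) := by positivity
        nlinarith [mul_nonneg h5 hs.le]

/-- **(P11)** the measure of the rays with a bad scale -/
theorem d1b_of (C : Rad n κ X μ) [SFinite μ] (hκ : 0 ≤ κ) (x : X) {F N : ℕ → X → ℝ}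
    (hN : ∀ k, Measurable (N k)) (hN0 : ∀ k z, 0 ≤ N k z) {j : ℕ} (hj : 4 ≤ j)
    {K ε CK C2 M : ℝ} (hε : 0 < ε) (hCK : 0 < CK) (hC2 : 0 < C2)
    (h5 : ∀ᵐ v ∂μ, 1 ≤ dist x v → dist x v < 12 → ∀ k, j ≤ k →
      ∫⁻ r in Icc (dy j) (2 * dy j), loc μ n K (dy k) (F k) (ray C x v r) ≤
        ENNReal.ofReal (CK * dy j * √((dy j)⁻¹ * ∫ r in dy j..4 * dy j,
          min C2 (N k (ray C x v r)))))
    (hM : μ {y | y ∈ ball x (5 * dy j) ∧ ∃ k, j ≤ k ∧ (ε / CK) ^ 2 / 6 < N k y} ≤
      ENNReal.ofReal (M * dy j ^ n)) :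
    μ {v | 1 ≤ dist x v ∧ dist x v < 12 ∧ bad C x F K ε j v} ≤
      ENNReal.ofReal (96 * 12 ^ n * Real.exp (72 * κ) * C2 / (ε / CK) ^ 2 * M) := by
  set s := dy j with hs
  have hs0 : 0 < s := dy_pos j
  have hs16 : s ≤ 1 / 16 := by
    have h1 := dy_anti hj
    have h2 : dy 4 = 1 / 16 := by unfold dy; norm_num
    rw [h2] at h1; exact h1
  set c0 : ℝ := (ε / CK) ^ 2 with hc0
  have hc00 : 0 < c0 := by positivity
  set E : Set X := {y | y ∈ ball x (5 * s) ∧ ∃ k, j ≤ k ∧ c0 / 6 < N k y} with hEdef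
  have hE : MeasurableSet E := by
    have e : E = ball x (5 * s) ∩ ⋃ k, ⋃ (_ : j ≤ k), {y | c0 / 6 < N k y} := by
      ext y
      simp only [hEdef, mem_inter_iff, mem_iUnion, exists_prop]; rfl
    rw [e]
    exact measurableSet_ball.inter (MeasurableSet.iUnion fun k => MeasurableSet.iUnion fun _ =>
      measurableSet_lt measurable_const (hN k))
  have hd : Continuous fun v : X => dist x v := continuous_const.dist continuous_id
  have hA : MeasurableSet {v : X | 1 ≤ dist x v ∧ dist x v < 12} :=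
    (measurableSet_le measurable_const hd.measurable).inter
      (measurableSet_lt hd.measurable measurable_const)
  set J : X → ℝ≥0∞ := fun v => ∫⁻ r in Icc s (4 * s), E.indicator (fun _ => (1 : ℝ≥0∞)) (ray C x v r)
    with hJ
  have hgm : Measurable (E.indicator (fun _ => (1 : ℝ≥0∞))) := measurable_const.indicator hE
  have hJm : Measurable J :=
    Measurable.lintegral_prod_right' (f := fun p : X × ℝ =>
      E.indicator (fun _ => (1 : ℝ≥0∞)) (ray C x p.1 p.2)) (hgm.comp (measurable_ray C x))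
  -- almost every bad ray spends a definite time in `E`
  have hbad : ∀ᵐ v ∂μ, v ∈ {v | 1 ≤ dist x v ∧ dist x v < 12 ∧ bad C x F K ε j v} →
      v ∈ {v | 1 ≤ dist x v ∧ dist x v < 12} ∩ {v | ENNReal.ofReal (c0 * s / (2 * C2)) ≤ J v} := by
    filter_upwards [h5, C.ae_U x] with v h5v hU hv
    obtain ⟨hv1, hv12, k, hk, hlt⟩ := hv
    refine ⟨⟨hv1, hv12⟩, ?_⟩
    have hl : 0 < dist x v := by linarith
    have h6 := h5v hv1 hv12 k hk
    have h7 := hlt.trans_le h6
    rw [ENNReal.ofReal_lt_ofReal_iff_of_nonneg (by positivity)] at h7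
    set Y : ℝ := s⁻¹ * ∫ r in s..4 * s, min C2 (N k (ray C x v r)) with hY
    have h8 : ε / CK < √Y := by
      rw [div_lt_iff₀ hCK]
      have : ε * s < (√Y * CK) * s := by linarith
      exact lt_of_mul_lt_mul_right this hs0.le
    have h9 : c0 < Y := by
      have h10 : 0 < √Y := lt_trans (by positivity) h8
      have h11 : 0 < Y := Real.sqrt_pos.1 h10
      rw [hc0, ← Real.sq_sqrt h11.le]
      gcongr
    -- pointwise bound
    have hrm : Measurable fun r : ℝ => ray C x v r :=
      (measurable_ray C x).comp (measurable_const.prodMk measurable_id)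
    have hNm : Measurable fun r : ℝ => min C2 (N k (ray C x v r)) :=
      measurable_const.min ((hN k).comp hrm)
    have hint : IntervalIntegrable (fun r => min C2 (N k (ray C x v r))) volume s (4 * s) := by
      rw [intervalIntegrable_iff]
      refine Measure.integrableOn_of_bounded (M := C2) (by simp) hNm.aestronglyMeasurable ?_
      refine Eventually.of_forall fun r => ?_
      rw [Real.norm_eq_abs, abs_of_nonneg (le_min hC2.le (hN0 k _))]
      exact min_le_left _ _
    set e1 : ℝ → ℝ := fun r => E.indicator (fun _ => (1 : ℝ)) (ray C x v r) with he1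
    have he1m : Measurable e1 := (measurable_const.indicator hE).comp hrm
    have he10 : ∀ r, 0 ≤ e1 r := fun r => indicator_nonneg (fun _ _ => zero_le_one) _
    have he11 : ∀ r, e1 r ≤ 1 := fun r => by
      simp only [he1, indicator]
      split_ifs <;> norm_num
    have he1i : IntervalIntegrable e1 volume s (4 * s) := by
      rw [intervalIntegrable_iff]
      refine Measure.integrableOn_of_bounded (M := 1) (by simp) he1m.aestronglyMeasurable ?_
      refine Eventually.of_forall fun r => ?_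
      rw [Real.norm_eq_abs, abs_of_nonneg (he10 r)]
      exact he11 r
    have hpt : ∀ r ∈ Icc s (4 * s), min C2 (N k (ray C x v r)) ≤ c0 / 6 + C2 * e1 r := by
      intro r hr
      have hdr : dist x (ray C x v r) = r :=
        dist_ray C hU (hs0.le.trans hr.1) (by linarith [hr.2]) hl
      by_cases hc : c0 / 6 < N k (ray C x v r)
      · have hmem : ray C x v r ∈ E := by
          refine ⟨?_, k, hk, hc⟩
          rw [mem_ball, dist_comm, hdr]
          linarith [hr.2]
        have : e1 r = 1 := by simp only [he1]; rw [indicator_of_mem hmem]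
        rw [this, mul_one]
        exact (min_le_left _ _).trans (by linarith)
      · have h12 := mul_nonneg hC2.le (he10 r)
        exact (min_le_right _ _).trans (by linarith [not_lt.1 hc])
    have hI : ∫ r in s..4 * s, min C2 (N k (ray C x v r)) ≤
        3 * s * (c0 / 6) + C2 * ∫ r in s..4 * s, e1 r := by
      have h13 : ∫ r in s..4 * s, min C2 (N k (ray C x v r)) ≤
          ∫ r in s..4 * s, (c0 / 6 + C2 * e1 r) :=
        intervalIntegral.integral_mono_on (by linarith) hint
          (intervalIntegrable_const.add (he1i.const_mul C2)) hpt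
      rw [intervalIntegral.integral_add intervalIntegrable_const (he1i.const_mul C2),
        intervalIntegral.integral_const, intervalIntegral.integral_const_mul, smul_eq_mul] at h13
      linarith
    have hYs : Y * s = ∫ r in s..4 * s, min C2 (N k (ray C x v r)) := by
      rw [hY]; field_simp
    have h14 : c0 * s / (2 * C2) ≤ ∫ r in s..4 * s, e1 r := by
      rw [div_le_iff₀ (by positivity)]
      nlinarith [mul_lt_mul_of_pos_right h9 hs0]
    show ENNReal.ofReal (c0 * s / (2 * C2)) ≤ J v
    refine (ENNReal.ofReal_le_ofReal h14).trans ?_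
    rw [intervalIntegral.integral_of_le (by linarith), ← integral_Icc_eq_integral_Ioc,
      ofReal_integral_eq_lintegral_ofReal]
    · refine lintegral_mono fun r => ?_
      simp only [he1, indicator]
      split_ifs <;> simp
    · refine Measure.integrableOn_of_bounded (M := 1) (by simp) he1m.aestronglyMeasurable ?_
      refine Eventually.of_forall fun r => ?_
      rw [Real.norm_eq_abs, abs_of_nonneg (he10 r)]
      exact he11 r
    · exact Eventually.of_forall he10
  have hS : MeasurableSet {v | ENNReal.ofReal (c0 * s / (2 * C2)) ≤ J v} :=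
    measurableSet_le measurable_const hJm
  have h1 : μ {v | 1 ≤ dist x v ∧ dist x v < 12 ∧ bad C x F K ε j v} ≤
      μ ({v | 1 ≤ dist x v ∧ dist x v < 12} ∩ {v | ENNReal.ofReal (c0 * s / (2 * C2)) ≤ J v}) :=
    measure_mono_ae hbad
  have hc1 : 0 < c0 * s / (2 * C2) := by positivity
  have h2 : ENNReal.ofReal (c0 * s / (2 * C2)) *
      μ ({v | 1 ≤ dist x v ∧ dist x v < 12} ∩ {v | ENNReal.ofReal (c0 * s / (2 * C2)) ≤ J v}) ≤
      ∫⁻ v in {v | 1 ≤ dist x v ∧ dist x v < 12}, J v ∂μ := by
    have h3 := mul_meas_ge_le_lintegral (μ := μ.restrict {v | 1 ≤ dist x v ∧ dist x v < 12}) hJm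
      (ENNReal.ofReal (c0 * s / (2 * C2)))
    rw [Measure.restrict_apply hS, inter_comm] at h3
    exact h3
  have h3 := law_le C hκ x hs0 (by linarith) hE
  have h4 : μ E ≤ ENNReal.ofReal (M * s ^ n) := hM
  have h6 : ENNReal.ofReal (c0 * s / (2 * C2)) *
      μ {v | 1 ≤ dist x v ∧ dist x v < 12 ∧ bad C x F K ε j v} ≤
      ENNReal.ofReal (48 * 12 ^ n * Real.exp (72 * κ) * s * (s⁻¹) ^ n) *
        ENNReal.ofReal (M * s ^ n) :=
    calc _ ≤ _ := mul_le_mul' le_rfl h1
      _ ≤ _ := h2
      _ ≤ _ := h3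
      _ ≤ _ := mul_le_mul' le_rfl h4
  rw [← ENNReal.ofReal_mul (by positivity)] at h6
  have h7 : 48 * 12 ^ n * Real.exp (72 * κ) * s * (s⁻¹) ^ n * (M * s ^ n) =
      (c0 * s / (2 * C2)) * (96 * 12 ^ n * Real.exp (72 * κ) * C2 / c0 * M) := by
    have h8 : (s⁻¹) ^ n * s ^ n = 1 := by
      rw [← mul_pow, inv_mul_cancel₀ hs0.ne', one_pow]
    calc _ = 48 * 12 ^ n * Real.exp (72 * κ) * s * M * ((s⁻¹) ^ n * s ^ n) := by ring
      _ = _ := by rw [h8]; field_simp; ring
  rw [h7, ENNReal.ofReal_mul hc1.le] at h6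
  have hne : ENNReal.ofReal (c0 * s / (2 * C2)) ≠ 0 := by
    rw [Ne, ENNReal.ofReal_eq_zero]; linarith
  exact (ENNReal.mul_le_mul_iff_right hne ENNReal.ofReal_ne_top).1 h6

end Crest.Agent.R247.Bad644
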