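import Crest.Agent.R202.GeoTens

/-!
Row 247, block (6-B), file 1 (helper84): coordinate Riemannian calculus on an open subset of
Euclidean space.  Gradient, covariant derivative of vector fields, Hessian, divergence, metric
compatibility, Ricci identity, Bochner formula, for the literal terms of `Def_CoordMetric`.
-/

set_option autoImplicit false

open scoped ContDiff Topology
open Filter Set
open Crest.GeometryTopology.CoordMetric Crest.GeometryTopology.ChartCurvature
open Crest.Agent.R202.Tens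

noncomputable section

namespace Crest.Agent.R247.Bo84

variable {n : ℕ}

local notation "𝔼" => EuclideanSpace ℝ (Fin n)

/-- the gradient of `f` for the metric field `g`, in coordinates. -/
def grad (g : MetricField n) (f : EuclideanSpace ℝ (Fin n) → ℝ)
    (x : EuclideanSpace ℝ (Fin n)) : EuclideanSpace ℝ (Fin n) :=
  WithLp.toLp 2 fun i => ∑ j, inverseField g x i j * pderiv j f x

/-- the inner product `⟨df, dh⟩` of two differentials. -/
def gam (g : MetricField n) (f h : EuclideanSpace ℝ (Fin n) → ℝ)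
    (x : EuclideanSpace ℝ (Fin n)) : ℝ :=
  ∑ i, ∑ j, inverseField g x i j * pderiv i f x * pderiv j h x

/-- the Hessian of `f` as a bilinear form, in coordinates. -/
def hess (g : MetricField n) (f : EuclideanSpace ℝ (Fin n) → ℝ)
    (x : EuclideanSpace ℝ (Fin n)) :
    EuclideanSpace ℝ (Fin n) →L[ℝ] EuclideanSpace ℝ (Fin n) →L[ℝ] ℝ :=
  fderiv ℝ (fderiv ℝ f) x -
    (ContinuousLinearMap.compL ℝ (EuclideanSpace ℝ (Fin n)) (EuclideanSpace ℝ (Fin n)) ℝ
      (fderiv ℝ f x)).comp (Gam g x)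

/-- the covariant derivative of a vector field. -/
def cov (g : MetricField n) (V : EuclideanSpace ℝ (Fin n) → EuclideanSpace ℝ (Fin n))
    (x : EuclideanSpace ℝ (Fin n)) :
    EuclideanSpace ℝ (Fin n) →L[ℝ] EuclideanSpace ℝ (Fin n) :=
  fderiv ℝ V x + (Gam g x).flip (V x)

/-- the Hessian endomorphism (covariant derivative of the gradient). -/
def hessE (g : MetricField n) (f : EuclideanSpace ℝ (Fin n) → ℝ)
    (x : EuclideanSpace ℝ (Fin n)) :
    EuclideanSpace ℝ (Fin n) →L[ℝ] EuclideanSpace ℝ (Fin n) :=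
  cov g (grad g f) x

/-- trace of a continuous endomorphism. -/
def trL : (EuclideanSpace ℝ (Fin n) →L[ℝ] EuclideanSpace ℝ (Fin n)) →L[ℝ] ℝ :=
  ∑ k : Fin n, (EuclideanSpace.proj k : EuclideanSpace ℝ (Fin n) →L[ℝ] ℝ).comp
    (ContinuousLinearMap.apply ℝ (EuclideanSpace ℝ (Fin n)) (EuclideanSpace.single k (1:ℝ)))

/-- squared norm of the Hessian. -/
def hessSq (g : MetricField n) (f : EuclideanSpace ℝ (Fin n) → ℝ)
    (x : EuclideanSpace ℝ (Fin n)) : ℝ :=
  trL ((hessE g f x).comp (hessE g f x))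

/-- the divergence of a vector field, in the form used by `laplaceBeltrami`. -/
def divg (g : MetricField n) (V : EuclideanSpace ℝ (Fin n) → EuclideanSpace ℝ (Fin n))
    (x : EuclideanSpace ℝ (Fin n)) : ℝ :=
  (1 / Real.sqrt (g x).det) * ∑ i, pderiv i (fun y => Real.sqrt (g y).det * V y i) x

/-! ### algebra -/

lemma grad_apply (g : MetricField n) (f : 𝔼 → ℝ) (x : 𝔼) (i : Fin n) :
    grad g f x i = ∑ j, inverseField g x i j * pderiv j f x := rfl

lemma hess_apply (g : MetricField n) (f : 𝔼 → ℝ) (x X Y : 𝔼) :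
    hess g f x X Y = fderiv ℝ (fderiv ℝ f) x X Y - fderiv ℝ f x (Gam g x X Y) := rfl

lemma cov_apply (g : MetricField n) (V : 𝔼 → 𝔼) (x X : 𝔼) :
    cov g V x X = fderiv ℝ V x X + Gam g x X (V x) := rfl

lemma hessE_apply (g : MetricField n) (f : 𝔼 → ℝ) (x X : 𝔼) :
    hessE g f x X = fderiv ℝ (grad g f) x X + Gam g x X (grad g f x) := rfl

lemma trL_apply (T : 𝔼 →L[ℝ] 𝔼) : trL T = ∑ k, T (EuclideanSpace.single k 1) k := by
  simp only [trL, sum_apply, ContinuousLinearMap.comp_apply]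
  rfl

lemma trL_eq_trace (T : 𝔼 →L[ℝ] 𝔼) :
    trL T = LinearMap.trace ℝ _ (T : 𝔼 →ₗ[ℝ] 𝔼) := by
  rw [trL_apply, trace_eq_sum]; rfl

lemma trL_comp_comm (S T : 𝔼 →L[ℝ] 𝔼) : trL (S.comp T) = trL (T.comp S) := by
  rw [trL_eq_trace, trL_eq_trace]
  exact LinearMap.trace_mul_comm ℝ (S : 𝔼 →ₗ[ℝ] 𝔼) (T : 𝔼 →ₗ[ℝ] 𝔼)

lemma divg_grad (g : MetricField n) (f : 𝔼 → ℝ) (x : 𝔼) :
    divg g (grad g f) x = laplaceBeltrami g f x := rfl

lemma gam_eq_fderiv_grad (g : MetricField n) (f h : 𝔼 → ℝ) (x : 𝔼) :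
    gam g f h x = fderiv ℝ f x (grad g h x) := by
  rw [fderiv_eq_sum, gam]
  refine Finset.sum_congr rfl fun i _ => ?_
  rw [grad_apply, Finset.sum_mul]
  refine Finset.sum_congr rfl fun j _ => by ring

section Symm

variable {g : MetricField n} {U : Set (EuclideanSpace ℝ (Fin n))} {x : EuclideanSpace ℝ (Fin n)}

lemma det_pos (hg : IsRiemannianOn g U) (hx : x ∈ U) : 0 < (g x).det := (hg.posDef x hx).det_pos

lemma inv_symm (hg : IsRiemannianOn g U) (hx : x ∈ U) (i j : Fin n) :
    inverseField g x i j = inverseField g x j i := by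
  have h1 : (g x).transpose = g x := by
    ext i j
    exact metric_symm hg hx j i
  have h2 : ((g x)⁻¹).transpose = (g x)⁻¹ := by
    rw [Matrix.transpose_nonsing_inv, h1]
  exact (congrFun (congrFun h2 j) i)

lemma mul_inv_apply (hg : IsRiemannianOn g U) (hx : x ∈ U) (i k : Fin n) :
    ∑ j, g x i j * inverseField g x j k = if i = k then 1 else 0 := by
  have h1 := Matrix.mul_nonsing_inv (g x) (det_pos hg hx).ne'.isUnit
  have h2 := congrFun (congrFun h1 i) k
  rw [Matrix.mul_apply, Matrix.one_apply] at h2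
  exact h2

lemma bil_grad (hg : IsRiemannianOn g U) (hx : x ∈ U) (f : 𝔼 → ℝ) (Y : 𝔼) :
    bil (g x) (grad g f x) Y = fderiv ℝ f x Y := by
  rw [bil_symm hg hx, bil_apply, fderiv_eq_sum]
  refine Finset.sum_congr rfl fun i _ => ?_
  have h1 : ∀ j, g x i j * Y i * grad g f x j =
      ∑ k, Y i * (g x i j * inverseField g x j k) * pderiv k f x := by
    intro j
    rw [grad_apply, Finset.mul_sum]
    refine Finset.sum_congr rfl fun k _ => by ring
  simp only [h1]
  rw [Finset.sum_comm]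
  have h2 : ∀ k, ∑ j, Y i * (g x i j * inverseField g x j k) * pderiv k f x =
      if i = k then Y i * pderiv k f x else 0 := by
    intro k
    rw [← Finset.sum_mul, ← Finset.mul_sum, mul_inv_apply hg hx]
    split_ifs <;> ring
  simp only [h2]
  simp

lemma gam_comm (hg : IsRiemannianOn g U) (hx : x ∈ U) (f h : 𝔼 → ℝ) :
    gam g f h x = gam g h f x := by
  rw [gam, gam, Finset.sum_comm]
  refine Finset.sum_congr rfl fun i _ => Finset.sum_congr rfl fun j _ => ?_
  rw [inv_symm hg hx]; ring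

lemma gam_eq_bil (hg : IsRiemannianOn g U) (hx : x ∈ U) (f h : 𝔼 → ℝ) :
    gam g f h x = bil (g x) (grad g f x) (grad g h x) := by
  rw [gam_eq_fderiv_grad, bil_grad hg hx]

lemma gam_eq_fderiv_grad' (hg : IsRiemannianOn g U) (hx : x ∈ U) (f h : 𝔼 → ℝ) :
    gam g f h x = fderiv ℝ h x (grad g f x) := by
  rw [gam_comm hg hx, gam_eq_fderiv_grad]

lemma bil_self_nonneg (hg : IsRiemannianOn g U) (hx : x ∈ U) (X : 𝔼) : 0 ≤ bil (g x) X X := by
  rcases eq_or_ne X 0 with rfl | h
  · simp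
  · exact (bil_pos hg hx h).le

lemma gam_self_nonneg (hg : IsRiemannianOn g U) (hx : x ∈ U) (f : 𝔼 → ℝ) :
    0 ≤ gam g f f x := by
  rw [gam_eq_bil hg hx]; exact bil_self_nonneg hg hx _

lemma bil_injective (hg : IsRiemannianOn g U) (hx : x ∈ U) {X Y : 𝔼}
    (h : ∀ Z, bil (g x) X Z = bil (g x) Y Z) : X = Y := by
  rw [← sub_eq_zero]
  by_contra hne
  have h1 := bil_pos hg hx hne
  have h3 : bil (g x) (X - Y) = bil (g x) X - bil (g x) Y := map_sub _ _ _
  have h2 : bil (g x) (X - Y) (X - Y) = 0 := by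
    rw [h3, sub_apply, h, sub_self]
  exact h1.ne' h2

/-- symmetry of the Christoffel map. -/
lemma Gam_symm (hg : IsRiemannianOn g U) (hx : x ∈ U) (X Y : 𝔼) :
    Gam g x X Y = Gam g x Y X := by
  ext k
  rw [Gam_apply, Gam_apply, Finset.sum_comm]
  refine Finset.sum_congr rfl fun i _ => Finset.sum_congr rfl fun j _ => ?_
  rw [christoffel_symm hg hx k j i]; ring

lemma isLC (hg : IsRiemannianOn g U) (hx : x ∈ U) : IsLC (Gf g) x (Gam g x) :=
  isLC_Gam (fun i j => differentiableAt_entry hg hx i j) (det_pos hg hx).ne'.isUnit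
    (fun i j => metric_symm hg hx i j)

lemma differentiableAt_Gf (hg : IsRiemannianOn g U) (hx : x ∈ U) :
    DifferentiableAt ℝ (Gf g) x :=
  (hasFDerivAt_Gf fun i j => differentiableAt_entry hg hx i j).differentiableAt

lemma fderiv_Gf_symm (hg : IsRiemannianOn g U) (hx : x ∈ U) (W X Y : 𝔼) :
    fderiv ℝ (Gf g) x W X Y = fderiv ℝ (Gf g) x W Y X := by
  have h1 : ∀ X Y : 𝔼, fderiv ℝ (fun y => Gf g y X Y) x W = fderiv ℝ (Gf g) x W X Y := by
    intro X Y
    have := fderiv_apply2 (G := Gf g) (Φ := fun z => z) (u := fun _ => X) (v := fun _ => Y)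
        (y := x) (differentiableAt_Gf hg hx) differentiableAt_id (differentiableAt_const _)
        (differentiableAt_const _) W
    simpa using this
  rw [← h1, ← h1]
  have h2 : (fun y => Gf g y X Y) =ᶠ[𝓝 x] fun y => Gf g y Y X := by
    filter_upwards [hg.isOpen.mem_nhds hx] with y hy using bil_symm hg hy X Y
  rw [h2.fderiv_eq]

/-- metric compatibility. -/
lemma metric_compat (hg : IsRiemannianOn g U) (hx : x ∈ U) (W X Y : 𝔼) :
    fderiv ℝ (Gf g) x W X Y =
      bil (g x) (Gam g x W X) Y + bil (g x) X (Gam g x W Y) := by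
  have h1 := isLC hg hx W X Y
  have h2 := isLC hg hx W Y X
  have e : ∀ X Y, Gf g x X Y = bil (g x) X Y := fun _ _ => rfl
  rw [e] at h1 h2
  rw [bil_symm hg hx X, h1, h2, fderiv_Gf_symm hg hx Y, fderiv_Gf_symm hg hx W Y X]
  ring

/-- Leibniz rule for the metric. -/
lemma fderiv_bil (hg : IsRiemannianOn g U) (hx : x ∈ U) {V W : 𝔼 → 𝔼}
    (hV : DifferentiableAt ℝ V x) (hW : DifferentiableAt ℝ W x) (X : 𝔼) :
    fderiv ℝ (fun y => bil (g y) (V y) (W y)) x X =
      bil (g x) (cov g V x X) (W x) + bil (g x) (V x) (cov g W x X) := by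
  have h1 := fderiv_apply2 (G := Gf g) (Φ := fun z => z) (u := V) (v := W)
        (y := x) (differentiableAt_Gf hg hx) differentiableAt_id hV hW X
  simp only [fderiv_fun_id, ContinuousLinearMap.coe_id', id_eq] at h1
  have e : ∀ y X Y, Gf g y X Y = bil (g y) X Y := fun _ _ _ => rfl
  simp only [e] at h1
  rw [h1, metric_compat hg hx, cov_apply, cov_apply, map_add, map_add, add_apply]
  ring

/-! ### second order -/

lemma contDiffAt_entry (hg : IsRiemannianOn g U) (hx : x ∈ U) (i j : Fin n) :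
    ContDiffAt ℝ ∞ (fun y => g y i j) x :=
  (hg.contDiffOn i j).contDiffAt (hg.isOpen.mem_nhds hx)

lemma contDiffAt_inv (hg : IsRiemannianOn g U) (hx : x ∈ U) (i j : Fin n) :
    ContDiffAt ℝ ∞ (fun y => inverseField g y i j) x :=
  (contDiffOn_inv_entry hg i j).contDiffAt (hg.isOpen.mem_nhds hx)

lemma contDiffAt_toLp {k : WithTop ℕ∞} {F : Fin n → 𝔼 → ℝ} {x : 𝔼}
    (h : ∀ i, ContDiffAt ℝ k (F i) x) :
    ContDiffAt ℝ k (fun y => (WithLp.toLp 2 (fun i => F i y) : 𝔼)) x := by
  rw [contDiffAt_piLp]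
  exact h

lemma contDiffAt_pderiv {k m : WithTop ℕ∞} {f : 𝔼 → ℝ} {x : 𝔼} (hf : ContDiffAt ℝ k f x)
    (hmk : m + 1 ≤ k) (i : Fin n) : ContDiffAt ℝ m (pderiv i f) x :=
  (hf.fderiv_right hmk).clm_apply contDiffAt_const

lemma contDiffAt_grad (hg : IsRiemannianOn g U) (hx : x ∈ U) {k m : WithTop ℕ∞} {f : 𝔼 → ℝ}
    (hf : ContDiffAt ℝ k f x) (hmk : m + 1 ≤ k) (hm : m ≤ ∞) :
    ContDiffAt ℝ m (grad g f) x := by
  refine contDiffAt_toLp fun i => ?_
  refine ContDiffAt.sum fun j _ => ?_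
  exact ((contDiffAt_inv hg hx i j).of_le hm).mul (contDiffAt_pderiv hf hmk j)

lemma contDiffAt_sum3 {ι κ μ E F : Type*} [Fintype ι] [Fintype κ] [Fintype μ]
    [NormedAddCommGroup E] [NormedSpace ℝ E] [NormedAddCommGroup F] [NormedSpace ℝ F]
    {k : WithTop ℕ∞} {f : ι → κ → μ → E → ℝ} {x : E} (hf : ∀ i j l, ContDiffAt ℝ k (f i j l) x)
    (L : ι → κ → μ → F) : ContDiffAt ℝ k (fun y => ∑ i, ∑ j, ∑ l, f i j l y • L i j l) x :=
  ContDiffAt.sum fun i _ => ContDiffAt.sum fun j _ => ContDiffAt.sum fun l _ =>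
    (hf i j l).smul contDiffAt_const

lemma contDiffAt_Gam (hg : IsRiemannianOn g U) (hx : x ∈ U) : ContDiffAt ℝ ∞ (Gam g) x :=
  contDiffAt_sum3 (E := 𝔼) (F := 𝔼 →L[ℝ] 𝔼 →L[ℝ] 𝔼) (fun i j k =>
    (contDiffOn_christoffel hg k i j).contDiffAt (hg.isOpen.mem_nhds hx)) _

lemma contDiffAt_flip {E F G H : Type*}
    [NormedAddCommGroup E] [NormedSpace ℝ E] [NormedAddCommGroup F] [NormedSpace ℝ F]
    [NormedAddCommGroup G] [NormedSpace ℝ G] [NormedAddCommGroup H] [NormedSpace ℝ H]
    {k : WithTop ℕ∞} {f : H → E →L[ℝ] F →L[ℝ] G} {x : H} (hf : ContDiffAt ℝ k f x) :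
    ContDiffAt ℝ k (fun y => (f y).flip) x := by
  have h1 : ContDiff ℝ k (fun T : E →L[ℝ] F →L[ℝ] G => T.flip) := by
    apply IsBoundedLinearMap.contDiff
    refine ⟨⟨fun a b => rfl, fun a b => rfl⟩, 1, one_pos, fun T => ?_⟩
    rw [ContinuousLinearMap.opNorm_flip, one_mul]
  exact h1.contDiffAt.comp x hf

lemma contDiffAt_cov (hg : IsRiemannianOn g U) (hx : x ∈ U) {k m : WithTop ℕ∞} {V : 𝔼 → 𝔼}
    (hV : ContDiffAt ℝ k V x) (hmk : m + 1 ≤ k) (hm : m ≤ ∞) :
    ContDiffAt ℝ m (cov g V) x := by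
  have h1 : ContDiffAt ℝ m (fderiv ℝ V) x := hV.fderiv_right hmk
  have h2 : ContDiffAt ℝ m (fun y => (Gam g y).flip) x :=
    contDiffAt_flip ((contDiffAt_Gam hg hx).of_le hm)
  exact h1.add (h2.clm_apply (hV.of_le (le_trans (by simp) hmk)))

/-- the Hessian bilinear form is the covariant derivative of the gradient. -/
lemma bil_hessE (hg : IsRiemannianOn g U) (hx : x ∈ U) {f : 𝔼 → ℝ} (hf : ContDiffAt ℝ 2 f x)
    (X Y : 𝔼) : bil (g x) (hessE g f x X) Y = hess g f x X Y := by
  have hgr : DifferentiableAt ℝ (grad g f) x :=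
    (contDiffAt_grad hg hx (m := 1) hf (by norm_num) (by simp)).differentiableAt (by norm_num)
  have hdf : DifferentiableAt ℝ (fderiv ℝ f) x :=
    (hf.fderiv_right (m := 1) (by norm_num)).differentiableAt (by norm_num)
  -- differentiate `⟨grad f, Y⟩ = df Y`
  have h1 := fderiv_bil hg hx hgr (differentiableAt_const Y) X
  have h2 : (fun y => bil (g y) (grad g f y) Y) =ᶠ[𝓝 x] fun y => fderiv ℝ f y Y := by
    filter_upwards [hg.isOpen.mem_nhds hx] with y hy using bil_grad hg hy f Y
  rw [h2.fderiv_eq, fderiv_clm_apply hdf (differentiableAt_const _)] at h1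
  simp only [fderiv_fun_const, Pi.zero_apply, ContinuousLinearMap.comp_zero,
    zero_apply, ContinuousLinearMap.flip_apply, cov_apply, zero_add] at h1
  rw [hess_apply, h1, hessE_apply, bil_grad hg hx]
  ring

lemma fderiv2_symm {f : 𝔼 → ℝ} (hf : ContDiffAt ℝ 2 f x) (X Y : 𝔼) :
    fderiv ℝ (fderiv ℝ f) x X Y = fderiv ℝ (fderiv ℝ f) x Y X :=
  (hf.isSymmSndFDerivAt (by simp)).eq X Y

/-- symmetry of the Hessian. -/
lemma hess_symm (hg : IsRiemannianOn g U) (hx : x ∈ U) {f : 𝔼 → ℝ} (hf : ContDiffAt ℝ 2 f x)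
    (X Y : 𝔼) : hess g f x X Y = hess g f x Y X := by
  rw [hess_apply, hess_apply, fderiv2_symm hf, Gam_symm hg hx]

lemma bil_hessE_symm (hg : IsRiemannianOn g U) (hx : x ∈ U) {f : 𝔼 → ℝ}
    (hf : ContDiffAt ℝ 2 f x) (X Y : 𝔼) :
    bil (g x) (hessE g f x X) Y = bil (g x) X (hessE g f x Y) := by
  rw [bil_hessE hg hx hf, bil_symm hg hx X, bil_hessE hg hx hf, hess_symm hg hx hf]

/-- derivative of `⟨df, dh⟩`. -/
lemma fderiv_gam (hg : IsRiemannianOn g U) (hx : x ∈ U) {f h : 𝔼 → ℝ}
    (hf : ContDiffAt ℝ 2 f x) (hh : ContDiffAt ℝ 2 h x) (X : 𝔼) :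
    fderiv ℝ (gam g f h) x X =
      hess g f x X (grad g h x) + hess g h x X (grad g f x) := by
  have hgf : DifferentiableAt ℝ (grad g f) x :=
    (contDiffAt_grad hg hx (m := 1) hf (by norm_num) (by simp)).differentiableAt (by norm_num)
  have hgh : DifferentiableAt ℝ (grad g h) x :=
    (contDiffAt_grad hg hx (m := 1) hh (by norm_num) (by simp)).differentiableAt (by norm_num)
  have h1 : gam g f h =ᶠ[𝓝 x] fun y => bil (g y) (grad g f y) (grad g h y) := by
    filter_upwards [hg.isOpen.mem_nhds hx] with y hy using gam_eq_bil hg hy f h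
  rw [h1.fderiv_eq, fderiv_bil hg hx hgf hgh]
  rw [bil_symm hg hx (grad g f x)]
  change bil (g x) (hessE g f x X) _ + bil (g x) (hessE g h x X) _ = _
  rw [bil_hessE hg hx hf, bil_hessE hg hx hh]

/-- the gradient of `⟨df, dh⟩`. -/
lemma grad_gam (hg : IsRiemannianOn g U) (hx : x ∈ U) {f h : 𝔼 → ℝ}
    (hf : ContDiffAt ℝ 2 f x) (hh : ContDiffAt ℝ 2 h x) :
    grad g (gam g f h) x =
      hessE g f x (grad g h x) + hessE g h x (grad g f x) := by
  refine bil_injective hg hx fun Z => ?_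
  rw [bil_grad hg hx, fderiv_gam hg hx hf hh, map_add, add_apply, bil_hessE hg hx hf,
    bil_hessE hg hx hh, hess_symm hg hx hf, hess_symm hg hx hh]

/-- Ricci identity. -/
lemma ricci_identity (hg : IsRiemannianOn g U) (hx : x ∈ U) {V : 𝔼 → 𝔼}
    (hV : ContDiffAt ℝ 2 V x) (X Y : 𝔼) :
    (fderiv ℝ (cov g V) x X Y + Gam g x X (cov g V x Y) - cov g V x (Gam g x X Y)) -
      (fderiv ℝ (cov g V) x Y X + Gam g x Y (cov g V x X) - cov g V x (Gam g x Y X)) =
      curv (Gam g) x X Y (V x) := by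
  have hdV : DifferentiableAt ℝ V x := hV.differentiableAt (by norm_num)
  have hddV : DifferentiableAt ℝ (fderiv ℝ V) x :=
    (hV.fderiv_right (m := 1) (by norm_num)).differentiableAt (by norm_num)
  have hG : DifferentiableAt ℝ (Gam g) x := (contDiffAt_Gam hg hx).differentiableAt (by simp)
  have hcov : DifferentiableAt ℝ (cov g V) x :=
    (contDiffAt_cov hg hx (m := 1) hV (by norm_num) (by simp)).differentiableAt (by norm_num)
  have key : ∀ X Y : 𝔼, fderiv ℝ (cov g V) x X Y = fderiv ℝ (fderiv ℝ V) x X Y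
      + (fderiv ℝ (Gam g) x X Y (V x) + Gam g x Y (fderiv ℝ V x X)) := by
    intro X Y
    have e1 : fderiv ℝ (fun y => cov g V y Y) x X = fderiv ℝ (cov g V) x X Y := by
      rw [fderiv_clm_apply hcov (differentiableAt_const _)]
      simp
    have e2 : (fun y => cov g V y Y) = fun y => fderiv ℝ V y Y + Gam g y Y (V y) := rfl
    have h3 : DifferentiableAt ℝ (fun y => fderiv ℝ V y Y) x :=
      hddV.clm_apply (differentiableAt_const _)
    have h4 : DifferentiableAt ℝ (fun y => Gam g y Y (V y)) x :=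
      (hG.clm_apply (differentiableAt_const _)).clm_apply hdV
    rw [← e1, e2, fderiv_fun_add h3 h4, add_apply]
    congr 1
    · rw [fderiv_clm_apply hddV (differentiableAt_const _)]
      simp
    · have := fderiv_apply2 (G := Gam g) (Φ := fun z => z) (u := fun _ => Y) (v := V)
        (y := x) hG differentiableAt_id (differentiableAt_const _) hdV X
      simpa using this
  have hsymm : fderiv ℝ (fderiv ℝ V) x X Y = fderiv ℝ (fderiv ℝ V) x Y X :=
    (hV.isSymmSndFDerivAt (by simp)).eq X Y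
  rw [key, key, hsymm, Gam_symm hg hx Y X]
  simp only [cov_apply, curv, map_add]
  abel

/-! ### divergence and Laplacian -/

lemma sum_adj_col (A : Matrix (Fin n) (Fin n) ℝ) (i : Fin n) (b : Fin n → ℝ) :
    (A.updateCol i b).det = ∑ j, A.adjugate i j * b j := by
  rw [← Matrix.cramer_apply, Matrix.cramer_eq_adjugate_mulVec]
  rfl

/-- Jacobi's formula. -/
theorem hasFDerivAt_det {V : Type*} [NormedAddCommGroup V] [NormedSpace ℝ V]
    {A : V → Matrix (Fin n) (Fin n) ℝ} {A' : Fin n → Fin n → V →L[ℝ] ℝ} {x : V}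
    (hA : ∀ i j, HasFDerivAt (fun y => A y i j) (A' i j) x) :
    HasFDerivAt (fun y => (A y).det) (∑ i, ∑ j, (A x).adjugate i j • A' j i) x := by
  have h1 : ∀ y, (A y).det =
      ∑ σ : Equiv.Perm (Fin n), ((Equiv.Perm.sign σ : ℤ) : ℝ) * ∏ i, A y (σ i) i := by
    intro y; rw [Matrix.det_apply']
  simp_rw [h1]
  have h2 : HasFDerivAt (fun y =>
        ∑ σ : Equiv.Perm (Fin n), ((Equiv.Perm.sign σ : ℤ) : ℝ) * ∏ i, A y (σ i) i)
      (∑ σ : Equiv.Perm (Fin n), ((Equiv.Perm.sign σ : ℤ) : ℝ) •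
        ∑ i, (∏ j ∈ Finset.univ.erase i, A x (σ j) j) • A' (σ i) i) x := by
    refine HasFDerivAt.fun_sum fun σ _ => ?_
    exact (HasFDerivAt.finsetProd (fun i _ => hA (σ i) i)).const_mul _
  refine h2.congr_fderiv ?_
  ext v
  simp only [sum_apply, smul_apply, smul_eq_mul]
  simp_rw [← sum_adj_col (A x) _ (fun j => A' j _ v), Matrix.det_apply']
  rw [Finset.sum_comm]
  refine Finset.sum_congr rfl fun σ _ => ?_
  rw [Finset.mul_sum]
  refine Finset.sum_congr rfl fun i _ => ?_
  congr 1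
  rw [← Finset.mul_prod_erase Finset.univ _ (Finset.mem_univ i)]
  simp only [Matrix.updateCol_self]
  rw [mul_comm]
  congr 1
  refine Finset.prod_congr rfl fun j hj => ?_
  rw [Matrix.updateCol_ne (Finset.ne_of_mem_erase hj)]

/-- derivative of the determinant of the metric. -/
lemma pderiv_det (hg : IsRiemannianOn g U) (hx : x ∈ U) (k : Fin n) :
    pderiv k (fun y => (g y).det) x =
      (g x).det * ∑ i, ∑ j, inverseField g x i j * pderiv k (fun y => g y i j) x := by
  have h1 := hasFDerivAt_det (A := g) (x := x)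
    (fun i j => (differentiableAt_entry hg hx i j).hasFDerivAt)
  rw [pderiv, h1.fderiv]
  simp only [sum_apply, smul_apply, smul_eq_mul, Finset.mul_sum]
  have hadj : ∀ i j, (g x).adjugate i j = (g x).det * inverseField g x i j := by
    intro i j
    have hne := (det_pos hg hx).ne'
    simp only [inverseField, Matrix.inv_def, Ring.inverse_eq_inv', Matrix.smul_apply, smul_eq_mul]
    field_simp
  refine Finset.sum_congr rfl fun i _ => Finset.sum_congr rfl fun j _ => ?_
  have h3 : (fun y => g y j i) =ᶠ[𝓝 x] fun y => g y i j := by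
    filter_upwards [hg.isOpen.mem_nhds hx] with y hy using metric_symm hg hy j i
  rw [hadj, h3.fderiv_eq]
  change _ = (g x).det * (inverseField g x i j * fderiv ℝ (fun y => g y i j) x
    (EuclideanSpace.single k 1))
  ring

/-- trace of the Christoffel symbols. -/
lemma sum_christoffel (hg : IsRiemannianOn g U) (hx : x ∈ U) (i : Fin n) :
    ∑ k, christoffel g x k k i =
      (1 / 2) * ∑ k, ∑ l, inverseField g x k l * pderiv i (fun y => g y k l) x := by
  simp only [christoffel]
  rw [← Finset.mul_sum]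
  congr 1
  have h1 : ∀ k, ∑ l, inverseField g x k l *
      (pderiv k (fun y => g y i l) x + pderiv i (fun y => g y k l) x
        - pderiv l (fun y => g y k i) x) =
      ∑ l, inverseField g x k l * pderiv i (fun y => g y k l) x +
      (∑ l, inverseField g x k l * pderiv k (fun y => g y i l) x -
        ∑ l, inverseField g x k l * pderiv l (fun y => g y k i) x) := by
    intro k
    rw [← Finset.sum_sub_distrib, ← Finset.sum_add_distrib]
    refine Finset.sum_congr rfl fun l _ => by ring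
  simp only [h1]
  rw [Finset.sum_add_distrib, Finset.sum_sub_distrib]
  have h2 : ∑ k, ∑ l, inverseField g x k l * pderiv l (fun y => g y k i) x =
      ∑ k, ∑ l, inverseField g x k l * pderiv k (fun y => g y i l) x := by
    rw [Finset.sum_comm]
    refine Finset.sum_congr rfl fun k _ => Finset.sum_congr rfl fun l _ => ?_
    have h3 : (fun y => g y l i) =ᶠ[𝓝 x] fun y => g y i l := by
      filter_upwards [hg.isOpen.mem_nhds hx] with y hy using metric_symm hg hy l i
    rw [inv_symm hg hx l k]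
    unfold pderiv
    rw [h3.fderiv_eq]
  rw [h2]
  ring

lemma pderiv_sqrt_det (hg : IsRiemannianOn g U) (hx : x ∈ U) (i : Fin n) :
    pderiv i (fun y => Real.sqrt (g y).det) x =
      Real.sqrt (g x).det * ∑ k, christoffel g x k k i := by
  have hd : DifferentiableAt ℝ (fun y => (g y).det) x :=
    (hasFDerivAt_det (A := g) (x := x)
      (fun i j => (differentiableAt_entry hg hx i j).hasFDerivAt)).differentiableAt
  have hpos := det_pos hg hx
  have h1 : pderiv i (fun y => Real.sqrt (g y).det) x =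
      1 / (2 * Real.sqrt (g x).det) * pderiv i (fun y => (g y).det) x := by
    unfold pderiv
    rw [(hd.hasFDerivAt.sqrt hpos.ne').fderiv]
    rfl
  rw [h1, pderiv_det hg hx, sum_christoffel hg hx]
  have h2 : Real.sqrt (g x).det ≠ 0 := (Real.sqrt_pos.2 hpos).ne'
  have h3 : (g x).det = Real.sqrt (g x).det * Real.sqrt (g x).det :=
    (Real.mul_self_sqrt hpos.le).symm
  set s := Real.sqrt (g x).det with hs
  rw [h3]
  field_simp

lemma contDiffAt_sqrt_det (hg : IsRiemannianOn g U) (hx : x ∈ U) :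
    ContDiffAt ℝ ∞ (fun y => Real.sqrt (g y).det) x := by
  have h1 : ContDiffAt ℝ ∞ (fun y => (g y).det) x := by
    simp only [Matrix.det_apply]
    refine ContDiffAt.sum fun σ _ => ?_
    refine ContDiffAt.const_smul _ ?_
    exact contDiffAt_prod fun i _ => contDiffAt_entry hg hx (σ i) i
  exact h1.sqrt (det_pos hg hx).ne'

/-- the divergence is the trace of the covariant derivative. -/
theorem divg_eq_trL (hg : IsRiemannianOn g U) (hx : x ∈ U) {V : 𝔼 → 𝔼}
    (hV : DifferentiableAt ℝ V x) : divg g V x = trL (cov g V x) := by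
  have hs : DifferentiableAt ℝ (fun y => Real.sqrt (g y).det) x :=
    (contDiffAt_sqrt_det hg hx).differentiableAt (by simp)
  have hVi : ∀ i, HasFDerivAt (fun y => V y i)
      ((EuclideanSpace.proj i : 𝔼 →L[ℝ] ℝ).comp (fderiv ℝ V x)) x := fun i =>
    (EuclideanSpace.proj i : 𝔼 →L[ℝ] ℝ).hasFDerivAt.comp x hV.hasFDerivAt
  have hne : Real.sqrt (g x).det ≠ 0 := (Real.sqrt_pos.2 (det_pos hg hx)).ne'
  have h1 : ∀ i, pderiv i (fun y => Real.sqrt (g y).det * V y i) x =
      Real.sqrt (g x).det * (fderiv ℝ V x (EuclideanSpace.single i 1) i +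
        (∑ k, christoffel g x k k i) * V x i) := by
    intro i
    have h2 := (hs.hasFDerivAt.fun_mul (hVi i)).fderiv
    have h3 := pderiv_sqrt_det hg hx i
    unfold pderiv at h3 ⊢
    rw [h2]
    simp only [add_apply, smul_apply, smul_eq_mul, ContinuousLinearMap.comp_apply, prj_apply]
    rw [h3]
    ring
  rw [divg, trL_apply]
  simp only [h1]
  rw [← Finset.mul_sum, ← mul_assoc, one_div, inv_mul_cancel₀ hne, one_mul,
    Finset.sum_add_distrib]
  simp only [cov_apply, PiLp.add_apply]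
  rw [Finset.sum_add_distrib]
  congr 1
  have h4 : ∀ k, (Gam g x (EuclideanSpace.single k 1) (V x)) k =
      ∑ j, christoffel g x k k j * V x j := by
    intro k
    rw [Gam_apply, Finset.sum_eq_single k]
    · refine Finset.sum_congr rfl fun j _ => by simp
    · intro b _ hb
      refine Finset.sum_eq_zero fun j _ => ?_
      simp [hb]
    · simp
  simp only [h4, Finset.sum_mul]
  rw [Finset.sum_comm]

/-- the Laplacian is the trace of the Hessian. -/
theorem lap_eq_trL (hg : IsRiemannianOn g U) (hx : x ∈ U) {f : 𝔼 → ℝ}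
    (hf : ContDiffAt ℝ 2 f x) : laplaceBeltrami g f x = trL (hessE g f x) := by
  rw [← divg_grad, divg_eq_trL hg hx]
  · rfl
  · exact (contDiffAt_grad hg hx (m := 1) hf (by norm_num) (by simp)).differentiableAt
      (by norm_num)

/-- **Bochner's formula**, endomorphism form. -/
theorem bochner' (hg : IsRiemannianOn g U) (hx : x ∈ U) {f : 𝔼 → ℝ}
    (hf : ContDiffAt ℝ 3 f x) :
    (1 / 2) * laplaceBeltrami g (gam g f f) x =
      hessSq g f x + gam g f (laplaceBeltrami g f) x +
        ∑ i, ∑ j, ricci g x i j * grad g f x i * grad g f x j := by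
  have hf2 : ContDiffAt ℝ 2 f x := hf.of_le (by norm_num)
  have hev : ∀ᶠ y in 𝓝 x, y ∈ U ∧ ContDiffAt ℝ 2 f y :=
    (eventually_of_mem (hg.isOpen.mem_nhds hx) fun _ h => h).and (hf2.eventually (by norm_num))
  set V := grad g f with hV
  have hV2 : ContDiffAt ℝ 2 V x :=
    contDiffAt_grad hg hx (m := 2) hf (by norm_num) (WithTop.coe_le_coe.2 le_top)
  have hH1 : ContDiffAt ℝ 1 (cov g V) x :=
    contDiffAt_cov hg hx (m := 1) hV2 (by norm_num) (by simp)
  have hHd : DifferentiableAt ℝ (cov g V) x := hH1.differentiableAt (by norm_num)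
  have hVd : DifferentiableAt ℝ V x := hV2.differentiableAt (by norm_num)
  -- the gradient of `½ |∇ f|²`
  have hgr : grad g (gam g f f) =ᶠ[𝓝 x] fun y => (2:ℝ) • cov g V y (V y) := by
    filter_upwards [hev] with y hy
    rw [grad_gam hg hy.1 hy.2 hy.2, two_smul]
    rfl
  have hdW : DifferentiableAt ℝ (fun y => cov g V y (V y)) x := hHd.clm_apply hVd
  have hcovW : ∀ X, cov g (grad g (gam g f f)) x X = (2:ℝ) •
      (fderiv ℝ (cov g V) x X (V x) + cov g V x (fderiv ℝ V x X) + Gam g x X (cov g V x (V x))) := by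
    intro X
    rw [cov_apply, hgr.fderiv_eq, hgr.self_of_nhds, fderiv_fun_const_smul hdW,
      smul_apply, fderiv_clm_apply hHd hVd]
    simp only [add_apply, ContinuousLinearMap.comp_apply, ContinuousLinearMap.flip_apply, map_smul,
      ← smul_add]
    congr 1
    abel
  have hdG : DifferentiableAt ℝ (grad g (gam g f f)) x :=
    (hdW.const_smul (2:ℝ)).congr_of_eventuallyEq hgr
  -- Ricci identity
  set v := V x with hv
  set T := cov g V x with hT
  have hric : ∀ X, fderiv ℝ (cov g V) x X v + T (fderiv ℝ V x X) + Gam g x X (T v) =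
      curv (Gam g) x X v v + (T.comp T) X + fderiv ℝ (cov g V) x v X +
        ((Gam g x v).comp T) X - (T.comp (Gam g x v)) X := by
    intro X
    have h1 := ricci_identity hg hx hV2 X v
    rw [← h1]
    have h2 : T X = fderiv ℝ V x X + Gam g x X v := rfl
    simp only [ContinuousLinearMap.comp_apply]
    have h3 : T (T X) = T (fderiv ℝ V x X) + T (Gam g x X v) := by
      conv_lhs => rw [h2]
      rw [map_add]
    rw [h3]
    abel
  have hlap : (laplaceBeltrami g f) =ᶠ[𝓝 x] fun y => trL (cov g V y) := by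
    filter_upwards [hev] with y hy using lap_eq_trL hg hy.1 hy.2
  have hfl : gam g f (laplaceBeltrami g f) x = trL (fderiv ℝ (cov g V) x v) := by
    rw [gam_eq_fderiv_grad' hg hx, hlap.fderiv_eq]
    have h4 := (trL (n := n)).hasFDerivAt.comp x hHd.hasFDerivAt
    have h5 : fderiv ℝ (fun y => trL (cov g V y)) x = (trL (n := n)).comp (fderiv ℝ (cov g V) x) :=
      h4.fderiv
    rw [h5]
    rfl
  rw [← divg_grad, divg_eq_trL hg hx hdG, trL_apply]
  simp only [hcovW, hric]
  rw [hfl, hessSq, ricci_form hg hx v v]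
  have h6 : trL ((Gam g x v).comp T) = trL (T.comp (Gam g x v)) := trL_comp_comm _ _
  rw [trL_apply, trL_apply] at h6
  rw [trL_apply, trL_apply]
  simp only [PiLp.smul_apply, PiLp.add_apply, PiLp.sub_apply, smul_eq_mul]
  rw [← Finset.mul_sum, Finset.sum_sub_distrib, Finset.sum_add_distrib, Finset.sum_add_distrib,
    Finset.sum_add_distrib, h6]
  change _ = ∑ k, (T.comp T) (EuclideanSpace.single k 1) k + _ + _
  ring

end Symm

end Crest.Agent.R247.Bo84
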