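import Crest.Agent.R247.Bo1_84

/-!
Row 247, block (6-B), file 2 (helper84): orthonormal frames, inequalities for the Hessian, the
Bochner inequality, and the sum / product / chain rules.
-/

set_option autoImplicit false

open scoped ContDiff Topology
open Filter Set
open Crest.GeometryTopology.CoordMetric Crest.GeometryTopology.ChartCurvature
open Crest.Agent.R202.Tens

noncomputable section

namespace Crest.Agent.R247.Bo84

variable {n : ℕ}

local notation "𝔼" => EuclideanSpace ℝ (Fin n)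

variable {g : MetricField n} {U : Set (EuclideanSpace ℝ (Fin n))} {x : EuclideanSpace ℝ (Fin n)}

open scoped MatrixOrder in
lemma exists_factor {A : Matrix (Fin n) (Fin n) ℝ} (hA : A.PosSemidef) :
    ∃ B : Matrix (Fin n) (Fin n) ℝ, A = B.transpose * B := by
  obtain ⟨B, hB⟩ := CStarAlgebra.nonneg_iff_eq_star_mul_self.mp hA.nonneg
  refine ⟨B, ?_⟩
  rw [hB]
  congr 1

/-- orthonormal frames of a positive definite matrix. -/
lemma exists_frame_matrix {A : Matrix (Fin n) (Fin n) ℝ} (hA : A.PosDef) :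
    ∃ ξ : Fin n → EuclideanSpace ℝ (Fin n),
      (∀ a b, bil A (ξ a) (ξ b) = if a = b then 1 else 0) ∧
      ∀ i j, A⁻¹ i j = ∑ a, ξ a i * ξ a j := by
  obtain ⟨B, hBt⟩ := exists_factor hA.posSemidef
  have hdet : IsUnit B.det := by
    have h1 : A.det = B.det * B.det := by rw [hBt, Matrix.det_mul, Matrix.det_transpose]
    have h2 := hA.det_pos
    rw [h1] at h2
    rw [isUnit_iff_ne_zero]
    rintro h3
    rw [h3] at h2
    simp at h2
  set C := B⁻¹ with hC
  have hBC : B * C = 1 := Matrix.mul_nonsing_inv B hdet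
  have hCB : C * B = 1 := Matrix.nonsing_inv_mul B hdet
  have hBC' : C.transpose * B.transpose = 1 := by
    rw [← Matrix.transpose_mul, hBC, Matrix.transpose_one]
  have hCB' : B.transpose * C.transpose = 1 := by
    rw [← Matrix.transpose_mul, hCB, Matrix.transpose_one]
  refine ⟨fun a => WithLp.toLp 2 fun i => C i a, fun a b => ?_, fun i j => ?_⟩
  · have h1 : C.transpose * A * C = 1 := by
      rw [hBt, ← Matrix.mul_assoc, hBC', Matrix.one_mul, hBC]
    have h2 := congrFun (congrFun h1 a) b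
    rw [Matrix.one_apply] at h2
    rw [← h2, bil_apply, Matrix.mul_apply]
    have h3 : ∀ j, (C.transpose * A) a j * C j b = ∑ i, A i j * C i a * C j b := by
      intro j
      rw [Matrix.mul_apply, Finset.sum_mul]
      refine Finset.sum_congr rfl fun i _ => ?_
      rw [Matrix.transpose_apply]; ring
    simp only [h3]
    rw [Finset.sum_comm]
  · have h1 : A * (C * C.transpose) = 1 := by
      rw [hBt, Matrix.mul_assoc, ← Matrix.mul_assoc B, hBC, Matrix.one_mul, hCB']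
    rw [Matrix.inv_eq_right_inv h1, Matrix.mul_apply]
    rfl

/-- an orthonormal frame at a point. -/
structure IsFrame (A : Matrix (Fin n) (Fin n) ℝ) (ξ : Fin n → EuclideanSpace ℝ (Fin n)) : Prop where
  orth : ∀ a b, bil A (ξ a) (ξ b) = if a = b then 1 else 0
  inv : ∀ i j, A⁻¹ i j = ∑ a, ξ a i * ξ a j

lemma exists_frame (hg : IsRiemannianOn g U) (hx : x ∈ U) : ∃ ξ, IsFrame (g x) ξ := by
  obtain ⟨ξ, h1, h2⟩ := exists_frame_matrix (hg.posDef x hx)
  exact ⟨ξ, h1, h2⟩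

/-- expansion of a vector in a frame. -/
lemma IsFrame.expand (hg : IsRiemannianOn g U) (hx : x ∈ U) {ξ : Fin n → 𝔼}
    (h : IsFrame (g x) ξ) (X : 𝔼) : X = ∑ a, bil (g x) X (ξ a) • ξ a := by
  ext i
  have h1 : ∀ a, (bil (g x) X (ξ a) • ξ a) i =
      ∑ k, ∑ j, g x k j * X k * (ξ a j * ξ a i) := by
    intro a
    rw [PiLp.smul_apply, smul_eq_mul, bil_apply, Finset.sum_mul]
    refine Finset.sum_congr rfl fun k _ => ?_
    rw [Finset.sum_mul]
    refine Finset.sum_congr rfl fun j _ => by ring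
  rw [WithLp.ofLp_sum, Finset.sum_apply]
  simp only [h1]
  rw [Finset.sum_comm]
  have h2 : ∀ k, ∑ a, ∑ j, g x k j * X k * (ξ a j * ξ a i) =
      X k * ∑ j, g x k j * inverseField g x j i := by
    intro k
    rw [Finset.sum_comm, Finset.mul_sum]
    refine Finset.sum_congr rfl fun j _ => ?_
    rw [← Finset.mul_sum, ← h.inv]
    simp only [inverseField]
    ring
  simp only [h2, mul_inv_apply hg hx]
  simp

/-- trace in a frame. -/
lemma IsFrame.trL_eq (hg : IsRiemannianOn g U) (hx : x ∈ U) {ξ : Fin n → 𝔼}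
    (h : IsFrame (g x) ξ) (T : 𝔼 →L[ℝ] 𝔼) : trL T = ∑ a, bil (g x) (T (ξ a)) (ξ a) := by
  rw [trL_apply]
  have h1 : ∀ k, T (EuclideanSpace.single k 1) k =
      ∑ a, (bil (g x) (EuclideanSpace.single k 1) (ξ a)) * T (ξ a) k := by
    intro k
    conv_lhs => rw [h.expand hg hx (EuclideanSpace.single k 1)]
    rw [map_sum, WithLp.ofLp_sum, Finset.sum_apply]
    refine Finset.sum_congr rfl fun a _ => ?_
    rw [map_smul, PiLp.smul_apply, smul_eq_mul]
  simp only [h1]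
  rw [Finset.sum_comm]
  refine Finset.sum_congr rfl fun a _ => ?_
  conv_rhs => rw [eq_sum_single (T (ξ a))]
  rw [map_sum, sum_apply]
  refine Finset.sum_congr rfl fun k _ => ?_
  rw [map_smul, smul_apply, smul_eq_mul]
  ring

/-- Parseval in a frame. -/
lemma IsFrame.bil_eq (hg : IsRiemannianOn g U) (hx : x ∈ U) {ξ : Fin n → 𝔼}
    (h : IsFrame (g x) ξ) (X Y : 𝔼) :
    bil (g x) X Y = ∑ a, bil (g x) X (ξ a) * bil (g x) Y (ξ a) := by
  conv_lhs => rw [h.expand hg hx X]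
  rw [map_sum, sum_apply]
  refine Finset.sum_congr rfl fun a _ => ?_
  rw [map_smul, smul_apply, smul_eq_mul, bil_symm hg hx (ξ a)]

/-- the squared norm of the Hessian in a frame. -/
lemma hessSq_frame (hg : IsRiemannianOn g U) (hx : x ∈ U) {f : 𝔼 → ℝ}
    (hf : ContDiffAt ℝ 2 f x) {ξ : Fin n → 𝔼} (h : IsFrame (g x) ξ) :
    hessSq g f x = ∑ a, ∑ b, hess g f x (ξ a) (ξ b) ^ 2 := by
  rw [hessSq, h.trL_eq hg hx]
  refine Finset.sum_congr rfl fun a _ => ?_
  rw [ContinuousLinearMap.comp_apply, bil_hessE_symm hg hx hf, h.bil_eq hg hx]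
  refine Finset.sum_congr rfl fun b _ => ?_
  rw [bil_hessE hg hx hf, sq]

/-- the Laplacian in a frame. -/
lemma lap_frame (hg : IsRiemannianOn g U) (hx : x ∈ U) {f : 𝔼 → ℝ}
    (hf : ContDiffAt ℝ 2 f x) {ξ : Fin n → 𝔼} (h : IsFrame (g x) ξ) :
    laplaceBeltrami g f x = ∑ a, hess g f x (ξ a) (ξ a) := by
  rw [lap_eq_trL hg hx hf, h.trL_eq hg hx]
  exact Finset.sum_congr rfl fun a _ => bil_hessE hg hx hf _ _

lemma hessSq_nonneg (hg : IsRiemannianOn g U) (hx : x ∈ U) {f : 𝔼 → ℝ}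
    (hf : ContDiffAt ℝ 2 f x) : 0 ≤ hessSq g f x := by
  obtain ⟨ξ, hξ⟩ := exists_frame hg hx
  rw [hessSq_frame hg hx hf hξ]
  positivity

/-- `(Δ f)² ≤ n |Hess f|²`. -/
lemma lap_sq_le (hg : IsRiemannianOn g U) (hx : x ∈ U) {f : 𝔼 → ℝ}
    (hf : ContDiffAt ℝ 2 f x) : laplaceBeltrami g f x ^ 2 ≤ n * hessSq g f x := by
  obtain ⟨ξ, hξ⟩ := exists_frame hg hx
  rw [hessSq_frame hg hx hf hξ, lap_frame hg hx hf hξ]
  have h1 : (∑ a, hess g f x (ξ a) (ξ a)) ^ 2 ≤
      (Finset.univ : Finset (Fin n)).card * ∑ a, hess g f x (ξ a) (ξ a) ^ 2 :=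
    sq_sum_le_card_mul_sum_sq
  rw [Finset.card_univ, Fintype.card_fin] at h1
  refine h1.trans ?_
  gcongr with a _
  exact Finset.single_le_sum (f := fun b => hess g f x (ξ a) (ξ b) ^ 2)
    (fun b _ => sq_nonneg _) (Finset.mem_univ a)

/-- `Hess f (X, Y)² ≤ |Hess f|² |X|² |Y|²`. -/
lemma hess_sq_le (hg : IsRiemannianOn g U) (hx : x ∈ U) {f : 𝔼 → ℝ}
    (hf : ContDiffAt ℝ 2 f x) (X Y : 𝔼) :
    hess g f x X Y ^ 2 ≤ hessSq g f x * bil (g x) X X * bil (g x) Y Y := by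
  obtain ⟨ξ, hξ⟩ := exists_frame hg hx
  set p : Fin n → ℝ := fun a => bil (g x) X (ξ a) with hp
  set q : Fin n → ℝ := fun a => bil (g x) Y (ξ a) with hq
  have h1 : hess g f x X Y = ∑ ab : Fin n × Fin n,
      hess g f x (ξ ab.1) (ξ ab.2) * (p ab.1 * q ab.2) := by
    rw [Fintype.sum_prod_type]
    have e1 : hess g f x X = ∑ a, p a • hess g f x (ξ a) := by
      conv_lhs => rw [hξ.expand hg hx X]
      rw [map_sum]
      exact Finset.sum_congr rfl fun a _ => map_smul _ _ _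
    rw [e1, sum_apply]
    refine Finset.sum_congr rfl fun a _ => ?_
    rw [smul_apply]
    conv_lhs => rw [hξ.expand hg hx Y]
    rw [map_sum, Finset.smul_sum]
    refine Finset.sum_congr rfl fun b _ => ?_
    rw [map_smul, smul_eq_mul, smul_eq_mul]
    ring
  rw [h1, hessSq_frame hg hx hf hξ, hξ.bil_eq hg hx X X, hξ.bil_eq hg hx Y Y]
  refine (Finset.sum_mul_sq_le_sq_mul_sq _ _ _).trans (le_of_eq ?_)
  rw [Fintype.sum_prod_type, Fintype.sum_prod_type, mul_assoc]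
  congr 1
  rw [Finset.sum_mul_sum]
  refine Finset.sum_congr rfl fun a _ => Finset.sum_congr rfl fun b _ => ?_
  simp only [hp, hq]
  ring

/-- `|T X|² ≤ |Hess f|² |X|²` for the Hessian endomorphism. -/
lemma hessE_sq_le (hg : IsRiemannianOn g U) (hx : x ∈ U) {f : 𝔼 → ℝ}
    (hf : ContDiffAt ℝ 2 f x) (X : 𝔼) :
    bil (g x) (hessE g f x X) (hessE g f x X) ≤ hessSq g f x * bil (g x) X X := by
  have h1 := hess_sq_le hg hx hf X (hessE g f x X)
  rw [← bil_hessE hg hx hf] at h1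
  set s := bil (g x) (hessE g f x X) (hessE g f x X) with hs
  have h0 : 0 ≤ s := bil_self_nonneg hg hx _
  rcases h0.eq_or_lt with h | h
  · rw [← h]
    exact mul_nonneg (hessSq_nonneg hg hx hf) (bil_self_nonneg hg hx X)
  · rw [sq] at h1
    exact le_of_mul_le_mul_right h1 h

/-- Cauchy–Schwarz for `gam`. -/
lemma gam_sq_le (hg : IsRiemannianOn g U) (hx : x ∈ U) (f h : 𝔼 → ℝ) :
    gam g f h x ^ 2 ≤ gam g f f x * gam g h h x := by
  obtain ⟨ξ, hξ⟩ := exists_frame hg hx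
  rw [gam_eq_bil hg hx, gam_eq_bil hg hx, gam_eq_bil hg hx, hξ.bil_eq hg hx,
    hξ.bil_eq hg hx (grad g f x) (grad g f x), hξ.bil_eq hg hx (grad g h x) (grad g h x)]
  refine (Finset.sum_mul_sq_le_sq_mul_sq _ _ _).trans (le_of_eq ?_)
  simp only [sq]

lemma bil_sq_le (hg : IsRiemannianOn g U) (hx : x ∈ U) (X Y : 𝔼) :
    bil (g x) X Y ^ 2 ≤ bil (g x) X X * bil (g x) Y Y := by
  obtain ⟨ξ, hξ⟩ := exists_frame hg hx
  rw [hξ.bil_eq hg hx, hξ.bil_eq hg hx X X, hξ.bil_eq hg hx Y Y]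
  refine (Finset.sum_mul_sq_le_sq_mul_sq _ _ _).trans (le_of_eq ?_)
  simp only [sq]

/-- Kato: `|∇ |∇ f|²|² ≤ 4 |Hess f|² |∇ f|²`. -/
lemma kato (hg : IsRiemannianOn g U) (hx : x ∈ U) {f : 𝔼 → ℝ}
    (hf : ContDiffAt ℝ 2 f x) :
    gam g (gam g f f) (gam g f f) x ≤ 4 * hessSq g f x * gam g f f x := by
  have e1 : ∀ X : 𝔼, bil (g x) ((2:ℝ) • X) ((2:ℝ) • X) = 4 * bil (g x) X X := by
    intro X
    rw [map_smul, map_smul (bil (g x)) (2:ℝ) X, smul_apply, smul_eq_mul, smul_eq_mul]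
    ring
  rw [gam_eq_bil hg hx (gam g f f), grad_gam hg hx hf hf, ← two_smul ℝ, e1,
    gam_eq_bil hg hx f f]
  have := hessE_sq_le hg hx hf (grad g f x)
  linarith

/-- **Bochner's inequality**: if `Ric ≥ K` at `x` then
`½ Δ|∇f|² ≥ |Hess f|² + ⟨∇f, ∇Δf⟩ + K |∇f|²`. -/
theorem bochner_ineq (hg : IsRiemannianOn g U) (hx : x ∈ U) {f : 𝔼 → ℝ}
    (hf : ContDiffAt ℝ 3 f x) {K : ℝ}
    (hK : ∀ v : 𝔼, K * quadForm g x v ≤ ∑ i, ∑ j, ricci g x i j * v i * v j) :
    hessSq g f x + gam g f (laplaceBeltrami g f) x + K * gam g f f x ≤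
      (1 / 2) * laplaceBeltrami g (gam g f f) x := by
  rw [bochner' hg hx hf, gam_eq_bil hg hx f f, ← quadForm_eq]
  have := hK (grad g f x)
  linarith

end Crest.Agent.R247.Bo84
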