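import Crest.Agent.R247.Bo2_84

/-!
Row 247, block (6-B), file 3 (helper84): sum, product and chain rules for the gradient, the inner
product of differentials, the Hessian, the divergence and the Laplacian.
-/

set_option autoImplicit false

open scoped ContDiff Topology
open Filter Set
open Crest.GeometryTopology.CoordMetric Crest.GeometryTopology.ChartCurvature
open Crest.Agent.R202.Tens

noncomputable section

namespace Crest.Agent.R247.Bo84

variable {n : ℕ}

local notation "𝔼" => EuclideanSpace ℝ (Fin n)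

variable {g : MetricField n} {U : Set (EuclideanSpace ℝ (Fin n))} {x : EuclideanSpace ℝ (Fin n)}
  {f h k : EuclideanSpace ℝ (Fin n) → ℝ}

/-! ### the gradient depends only on the differential -/

/-- the gradient as a linear function of the differential. -/
def sharp (g : MetricField n) (x : EuclideanSpace ℝ (Fin n)) :
    (EuclideanSpace ℝ (Fin n) →L[ℝ] ℝ) →ₗ[ℝ] EuclideanSpace ℝ (Fin n) where
  toFun L := WithLp.toLp 2 fun i => ∑ j, inverseField g x i j * L (EuclideanSpace.single j 1)
  map_add' L L' := by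
    ext i
    simp only [add_apply, PiLp.add_apply, mul_add, Finset.sum_add_distrib]
  map_smul' c L := by
    ext i
    simp only [smul_apply, PiLp.smul_apply, smul_eq_mul, RingHom.id_apply, Finset.mul_sum]
    exact Finset.sum_congr rfl fun j _ => by ring

lemma grad_eq_sharp (g : MetricField n) (f : 𝔼 → ℝ) (x : 𝔼) :
    grad g f x = sharp g x (fderiv ℝ f x) := rfl

lemma gam_congr_fderiv {f' h' : 𝔼 → ℝ} (h1 : fderiv ℝ f x = fderiv ℝ f' x)
    (h2 : fderiv ℝ h x = fderiv ℝ h' x) : gam g f h x = gam g f' h' x := by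
  rw [gam_eq_fderiv_grad, gam_eq_fderiv_grad, grad_eq_sharp, grad_eq_sharp, h1, h2]

lemma grad_congr {f' : 𝔼 → ℝ} (h1 : f =ᶠ[𝓝 x] f') : grad g f x = grad g f' x := by
  rw [grad_eq_sharp, grad_eq_sharp, h1.fderiv_eq]

lemma gam_congr {f' h' : 𝔼 → ℝ} (h1 : f =ᶠ[𝓝 x] f') (h2 : h =ᶠ[𝓝 x] h') :
    gam g f h x = gam g f' h' x := gam_congr_fderiv h1.fderiv_eq h2.fderiv_eq

lemma gam_congr_eventually {f' h' : 𝔼 → ℝ} (h1 : f =ᶠ[𝓝 x] f') (h2 : h =ᶠ[𝓝 x] h') :
    gam g f h =ᶠ[𝓝 x] gam g f' h' := by
  filter_upwards [h1.eventuallyEq_nhds, h2.eventuallyEq_nhds] with y a b using gam_congr a b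

lemma hess_congr {f' : 𝔼 → ℝ} (h1 : f =ᶠ[𝓝 x] f') : hess g f x = hess g f' x := by
  rw [hess, hess, h1.fderiv.fderiv_eq, h1.fderiv_eq]

lemma hessE_congr {f' : 𝔼 → ℝ} (h1 : f =ᶠ[𝓝 x] f') : hessE g f x = hessE g f' x := by
  have h2 : grad g f =ᶠ[𝓝 x] grad g f' := by
    filter_upwards [h1.eventuallyEq_nhds] with y hy using grad_congr hy
  rw [hessE, hessE, cov, cov, h2.fderiv_eq, h2.self_of_nhds]

lemma hessSq_congr {f' : 𝔼 → ℝ} (h1 : f =ᶠ[𝓝 x] f') : hessSq g f x = hessSq g f' x := by
  rw [hessSq, hessSq, hessE_congr h1]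

lemma lap_congr {f' : 𝔼 → ℝ} (h1 : f =ᶠ[𝓝 x] f') :
    laplaceBeltrami g f x = laplaceBeltrami g f' x := by
  have h2 : grad g f =ᶠ[𝓝 x] grad g f' := by
    filter_upwards [h1.eventuallyEq_nhds] with y hy using grad_congr hy
  rw [← divg_grad, ← divg_grad, divg, divg]
  congr 1
  refine Finset.sum_congr rfl fun i _ => ?_
  have h3 : (fun y => Real.sqrt (g y).det * grad g f y i) =ᶠ[𝓝 x]
      fun y => Real.sqrt (g y).det * grad g f' y i := by
    filter_upwards [h2] with y hy
    rw [hy]
  rw [pderiv, pderiv, h3.fderiv_eq]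

lemma lap_congr_eventually {f' : 𝔼 → ℝ} (h1 : f =ᶠ[𝓝 x] f') :
    laplaceBeltrami g f =ᶠ[𝓝 x] laplaceBeltrami g f' := by
  filter_upwards [h1.eventuallyEq_nhds] with y a using lap_congr a

/-! ### first order rules -/

lemma grad_add (hf : DifferentiableAt ℝ f x) (hh : DifferentiableAt ℝ h x) :
    grad g (fun y => f y + h y) x = grad g f x + grad g h x := by
  rw [grad_eq_sharp, fderiv_fun_add hf hh, map_add]; rfl

lemma grad_sub (hf : DifferentiableAt ℝ f x) (hh : DifferentiableAt ℝ h x) :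
    grad g (fun y => f y - h y) x = grad g f x - grad g h x := by
  rw [grad_eq_sharp, fderiv_fun_sub hf hh, map_sub]; rfl

lemma grad_const_mul (c : ℝ) (hf : DifferentiableAt ℝ f x) :
    grad g (fun y => c * f y) x = c • grad g f x := by
  rw [grad_eq_sharp, fderiv_const_mul hf, map_smul]; rfl

lemma grad_const (c : ℝ) : grad g (fun _ => c) x = 0 := by
  rw [grad_eq_sharp, fderiv_fun_const, Pi.zero_apply, map_zero]

lemma grad_mul (hf : DifferentiableAt ℝ f x) (hh : DifferentiableAt ℝ h x) :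
    grad g (fun y => f y * h y) x = f x • grad g h x + h x • grad g f x := by
  rw [grad_eq_sharp, fderiv_fun_mul hf hh, map_add, map_smul, map_smul]; rfl

lemma grad_comp {φ : ℝ → ℝ} (hφ : DifferentiableAt ℝ φ (f x)) (hf : DifferentiableAt ℝ f x) :
    grad g (fun y => φ (f y)) x = deriv φ (f x) • grad g f x := by
  have h1 : fderiv ℝ (fun y => φ (f y)) x = deriv φ (f x) • fderiv ℝ f x :=
    (hφ.hasDerivAt.comp_hasFDerivAt x hf.hasFDerivAt).fderiv
  rw [grad_eq_sharp, h1, map_smul]; rfl

lemma gam_add_left (hf : DifferentiableAt ℝ f x) (hh : DifferentiableAt ℝ h x) :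
    gam g (fun y => f y + h y) k x = gam g f k x + gam g h k x := by
  rw [gam_eq_fderiv_grad, fderiv_fun_add hf hh, add_apply, gam_eq_fderiv_grad,
    gam_eq_fderiv_grad]

lemma gam_sub_left (hf : DifferentiableAt ℝ f x) (hh : DifferentiableAt ℝ h x) :
    gam g (fun y => f y - h y) k x = gam g f k x - gam g h k x := by
  rw [gam_eq_fderiv_grad, fderiv_fun_sub hf hh, sub_apply, gam_eq_fderiv_grad,
    gam_eq_fderiv_grad]

lemma gam_const_mul_left (c : ℝ) (hf : DifferentiableAt ℝ f x) :
    gam g (fun y => c * f y) k x = c * gam g f k x := by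
  rw [gam_eq_fderiv_grad, fderiv_const_mul hf, smul_apply, gam_eq_fderiv_grad, smul_eq_mul]

lemma gam_const_left (c : ℝ) : gam g (fun _ => c) k x = 0 := by
  rw [gam_eq_fderiv_grad, fderiv_fun_const, Pi.zero_apply, zero_apply]

lemma gam_mul_left (hf : DifferentiableAt ℝ f x) (hh : DifferentiableAt ℝ h x) :
    gam g (fun y => f y * h y) k x = f x * gam g h k x + h x * gam g f k x := by
  rw [gam_eq_fderiv_grad, fderiv_fun_mul hf hh, add_apply, smul_apply, smul_apply,
    gam_eq_fderiv_grad, gam_eq_fderiv_grad, smul_eq_mul, smul_eq_mul]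

lemma gam_comp_left {φ : ℝ → ℝ} (hφ : DifferentiableAt ℝ φ (f x))
    (hf : DifferentiableAt ℝ f x) :
    gam g (fun y => φ (f y)) k x = deriv φ (f x) * gam g f k x := by
  have h1 : fderiv ℝ (fun y => φ (f y)) x = deriv φ (f x) • fderiv ℝ f x :=
    (hφ.hasDerivAt.comp_hasFDerivAt x hf.hasFDerivAt).fderiv
  rw [gam_eq_fderiv_grad, h1, smul_apply, gam_eq_fderiv_grad, smul_eq_mul]

lemma gam_add_right (hf : DifferentiableAt ℝ f x) (hh : DifferentiableAt ℝ h x) :
    gam g k (fun y => f y + h y) x = gam g k f x + gam g k h x := by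
  rw [gam_eq_fderiv_grad, grad_add hf hh, map_add, gam_eq_fderiv_grad, gam_eq_fderiv_grad]

lemma gam_sub_right (hf : DifferentiableAt ℝ f x) (hh : DifferentiableAt ℝ h x) :
    gam g k (fun y => f y - h y) x = gam g k f x - gam g k h x := by
  rw [gam_eq_fderiv_grad, grad_sub hf hh, map_sub, gam_eq_fderiv_grad, gam_eq_fderiv_grad]

lemma gam_const_mul_right (c : ℝ) (hf : DifferentiableAt ℝ f x) :
    gam g k (fun y => c * f y) x = c * gam g k f x := by
  rw [gam_eq_fderiv_grad, grad_const_mul c hf, map_smul, gam_eq_fderiv_grad, smul_eq_mul]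

lemma gam_const_right (c : ℝ) : gam g k (fun _ => c) x = 0 := by
  rw [gam_eq_fderiv_grad, grad_const, map_zero]

lemma gam_mul_right (hf : DifferentiableAt ℝ f x) (hh : DifferentiableAt ℝ h x) :
    gam g k (fun y => f y * h y) x = f x * gam g k h x + h x * gam g k f x := by
  rw [gam_eq_fderiv_grad, grad_mul hf hh, map_add, map_smul, map_smul,
    gam_eq_fderiv_grad, gam_eq_fderiv_grad, smul_eq_mul, smul_eq_mul]

lemma gam_comp_right {φ : ℝ → ℝ} (hφ : DifferentiableAt ℝ φ (f x))
    (hf : DifferentiableAt ℝ f x) :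
    gam g k (fun y => φ (f y)) x = deriv φ (f x) * gam g k f x := by
  rw [gam_eq_fderiv_grad, grad_comp hφ hf, map_smul, gam_eq_fderiv_grad, smul_eq_mul]

/-! ### regularity -/

lemma contDiffAt_gam (hg : IsRiemannianOn g U) (hx : x ∈ U) {a m : WithTop ℕ∞}
    (hf : ContDiffAt ℝ a f x) (hh : ContDiffAt ℝ a h x) (hma : m + 1 ≤ a) (hm : m ≤ ∞) :
    ContDiffAt ℝ m (gam g f h) x := by
  refine ContDiffAt.sum fun i _ => ContDiffAt.sum fun j _ => ?_
  exact (((contDiffAt_inv hg hx i j).of_le hm).mul (contDiffAt_pderiv hf hma i)).mul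
    (contDiffAt_pderiv hh hma j)

lemma contDiffAt_divg (hg : IsRiemannianOn g U) (hx : x ∈ U) {a m : WithTop ℕ∞} {V : 𝔼 → 𝔼}
    (hV : ContDiffAt ℝ a V x) (hma : m + 1 ≤ a) (hm : m + 1 ≤ ∞) :
    ContDiffAt ℝ m (divg g V) x := by
  have h0 : m ≤ m + 1 := by simp
  have hs := contDiffAt_sqrt_det hg hx
  have h1 : ContDiffAt ℝ m (fun y => 1 / Real.sqrt (g y).det) x :=
    contDiffAt_const.div (hs.of_le (h0.trans hm)) (Real.sqrt_pos.2 (det_pos hg hx)).ne'
  refine h1.mul (ContDiffAt.sum fun i _ => ?_)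
  refine contDiffAt_pderiv (k := m + 1) ?_ le_rfl i
  refine (hs.of_le hm).mul ?_
  exact (EuclideanSpace.proj i : 𝔼 →L[ℝ] ℝ).contDiff.contDiffAt.comp x (hV.of_le hma)

lemma contDiffAt_lap (hg : IsRiemannianOn g U) (hx : x ∈ U) {a m : WithTop ℕ∞}
    (hf : ContDiffAt ℝ a f x) (hma : m + 1 + 1 ≤ a) (hm : m + 1 ≤ ∞) :
    ContDiffAt ℝ m (laplaceBeltrami g f) x :=
  contDiffAt_divg hg hx (contDiffAt_grad hg hx (m := m + 1) hf hma hm) le_rfl hm

/-! ### second order rules -/

/-- `div (h V) = h div V + dh(V)`. -/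
lemma divg_smul (hg : IsRiemannianOn g U) (hx : x ∈ U) {V : 𝔼 → 𝔼}
    (hh : DifferentiableAt ℝ h x) (hV : DifferentiableAt ℝ V x) :
    divg g (fun y => h y • V y) x = h x * divg g V x + fderiv ℝ h x (V x) := by
  have hd : DifferentiableAt ℝ (fun y => h y • V y) x := hh.smul hV
  rw [divg_eq_trL hg hx hd, divg_eq_trL hg hx hV]
  have h1 : cov g (fun y => h y • V y) x = h x • cov g V x +
      (fderiv ℝ h x).smulRight (V x) := by
    ext1 X
    rw [cov_apply, fderiv_fun_smul hh hV]
    simp only [add_apply, smul_apply, ContinuousLinearMap.smulRight_apply, cov_apply, map_smul,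
      smul_add]
    abel
  rw [h1, map_add, map_smul, smul_eq_mul]
  congr 1
  rw [trL_apply, fderiv_eq_sum]
  refine Finset.sum_congr rfl fun i _ => ?_
  simp only [ContinuousLinearMap.smulRight_apply, PiLp.smul_apply, smul_eq_mul]
  rw [mul_comm]; rfl

lemma divg_add {V W : 𝔼 → 𝔼} (hg : IsRiemannianOn g U) (hx : x ∈ U)
    (hV : DifferentiableAt ℝ V x) (hW : DifferentiableAt ℝ W x) :
    divg g (fun y => V y + W y) x = divg g V x + divg g W x := by
  have hd : DifferentiableAt ℝ (fun y => V y + W y) x := hV.add hW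
  rw [divg_eq_trL hg hx hd, divg_eq_trL hg hx hV, divg_eq_trL hg hx hW, ← map_add]
  congr 1
  ext1 X
  rw [cov_apply, fderiv_fun_add hV hW]
  simp only [add_apply, cov_apply, map_add]
  abel

lemma divg_congr {V W : 𝔼 → 𝔼} (h1 : V =ᶠ[𝓝 x] W) : divg g V x = divg g W x := by
  rw [divg, divg]
  congr 1
  refine Finset.sum_congr rfl fun i _ => ?_
  have h3 : (fun y => Real.sqrt (g y).det * V y i) =ᶠ[𝓝 x]
      fun y => Real.sqrt (g y).det * W y i := by
    filter_upwards [h1] with y hy
    rw [hy]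
  rw [pderiv, pderiv, h3.fderiv_eq]

lemma differentiableAt_grad (hg : IsRiemannianOn g U) (hx : x ∈ U) (hf : ContDiffAt ℝ 2 f x) :
    DifferentiableAt ℝ (grad g f) x :=
  (contDiffAt_grad hg hx (m := 1) hf (by norm_num) (by simp)).differentiableAt (by norm_num)

lemma eventually_differentiableAt (hf : ContDiffAt ℝ 2 f x) :
    ∀ᶠ y in 𝓝 x, DifferentiableAt ℝ f y := by
  filter_upwards [hf.eventually (by norm_num)] with y hy
  exact hy.differentiableAt (by norm_num)

lemma lap_add (hg : IsRiemannianOn g U) (hx : x ∈ U) (hf : ContDiffAt ℝ 2 f x)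
    (hh : ContDiffAt ℝ 2 h x) :
    laplaceBeltrami g (fun y => f y + h y) x = laplaceBeltrami g f x + laplaceBeltrami g h x := by
  rw [← divg_grad, ← divg_grad, ← divg_grad, ← divg_add hg hx (differentiableAt_grad hg hx hf)
    (differentiableAt_grad hg hx hh)]
  refine divg_congr ?_
  filter_upwards [eventually_differentiableAt hf, eventually_differentiableAt hh] with y a b
    using grad_add a b

lemma lap_const_mul (hg : IsRiemannianOn g U) (hx : x ∈ U) (c : ℝ) (hf : ContDiffAt ℝ 2 f x) :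
    laplaceBeltrami g (fun y => c * f y) x = c * laplaceBeltrami g f x := by
  have h1 := divg_smul hg hx (h := fun _ => c) (differentiableAt_const c)
    (differentiableAt_grad hg hx hf)
  rw [fderiv_fun_const, Pi.zero_apply, zero_apply, add_zero] at h1
  rw [← divg_grad, ← divg_grad, ← h1]
  refine divg_congr ?_
  filter_upwards [eventually_differentiableAt hf] with y a using grad_const_mul c a

lemma lap_sub (hg : IsRiemannianOn g U) (hx : x ∈ U) (hf : ContDiffAt ℝ 2 f x)
    (hh : ContDiffAt ℝ 2 h x) :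
    laplaceBeltrami g (fun y => f y - h y) x = laplaceBeltrami g f x - laplaceBeltrami g h x := by
  have h1 := lap_add hg hx hf (h := fun y => (-1) * h y) (contDiffAt_const.mul hh)
  rw [lap_const_mul hg hx (-1) hh] at h1
  have h2 : (fun y => f y - h y) = fun y => f y + (-1) * h y := by
    ext y; ring
  rw [h2, h1]; ring

lemma lap_const (c : ℝ) : laplaceBeltrami g (fun _ => c) x = 0 := by
  have h4 : grad g (fun _ : 𝔼 => c) = fun _ => 0 := by
    ext1 y; exact grad_const c
  rw [← divg_grad, h4]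
  simp [divg, pderiv]

/-- `Δ(f h) = f Δh + h Δf + 2⟨df, dh⟩`. -/
lemma lap_mul (hg : IsRiemannianOn g U) (hx : x ∈ U) (hf : ContDiffAt ℝ 2 f x)
    (hh : ContDiffAt ℝ 2 h x) :
    laplaceBeltrami g (fun y => f y * h y) x =
      f x * laplaceBeltrami g h x + h x * laplaceBeltrami g f x + 2 * gam g f h x := by
  have hfd : DifferentiableAt ℝ f x := hf.differentiableAt (by norm_num)
  have hhd : DifferentiableAt ℝ h x := hh.differentiableAt (by norm_num)
  have hgf := differentiableAt_grad hg hx hf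
  have hgh := differentiableAt_grad hg hx hh
  have h1 : divg g (fun y => f y • grad g h y + h y • grad g f y) x =
      f x * laplaceBeltrami g h x + h x * laplaceBeltrami g f x + 2 * gam g f h x := by
    rw [divg_add hg hx (V := fun y => f y • grad g h y) (W := fun y => h y • grad g f y)
        (hfd.smul hgh) (hhd.smul hgf), divg_smul hg hx hfd hgh,
      divg_smul hg hx hhd hgf, divg_grad, divg_grad, ← gam_eq_fderiv_grad,
      ← gam_eq_fderiv_grad' hg hx]
    ring
  rw [← h1, ← divg_grad]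
  refine divg_congr ?_
  filter_upwards [eventually_differentiableAt hf, eventually_differentiableAt hh] with y a b
    using grad_mul a b

/-- `Δ(φ∘f) = φ'(f) Δf + φ''(f) |df|²`. -/
lemma lap_comp (hg : IsRiemannianOn g U) (hx : x ∈ U) {φ : ℝ → ℝ}
    (hφ : ContDiffAt ℝ 2 φ (f x)) (hf : ContDiffAt ℝ 2 f x) :
    laplaceBeltrami g (fun y => φ (f y)) x =
      deriv φ (f x) * laplaceBeltrami g f x + deriv (deriv φ) (f x) * gam g f f x := by
  have hfd : DifferentiableAt ℝ f x := hf.differentiableAt (by norm_num)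
  have hgf := differentiableAt_grad hg hx hf
  have hφ' : DifferentiableAt ℝ (deriv φ) (f x) := by
    have h1 : ContDiffAt ℝ 1 (fderiv ℝ φ) (f x) := hφ.fderiv_right (by norm_num)
    have h2 : DifferentiableAt ℝ (fun t => fderiv ℝ φ t 1) (f x) :=
      (h1.differentiableAt (by norm_num)).clm_apply (differentiableAt_const _)
    exact h2
  have h1 : divg g (fun y => deriv φ (f y) • grad g f y) x =
      deriv φ (f x) * laplaceBeltrami g f x + deriv (deriv φ) (f x) * gam g f f x := by
    rw [divg_smul hg hx (h := fun y => deriv φ (f y)) (hφ'.comp x hfd) hgf, divg_grad,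
      gam_eq_fderiv_grad]
    congr 1
    have h3 : fderiv ℝ (fun y => deriv φ (f y)) x = deriv (deriv φ) (f x) • fderiv ℝ f x :=
      (hφ'.hasDerivAt.comp_hasFDerivAt x hfd.hasFDerivAt).fderiv
    rw [h3, smul_apply, smul_eq_mul]
  rw [← h1, ← divg_grad]
  refine divg_congr ?_
  have hcont := hf.continuousAt
  filter_upwards [eventually_differentiableAt hf,
    hcont.eventually ((hφ.eventually (by norm_num)))] with y a b
    using grad_comp (b.differentiableAt (by norm_num)) a

/-! ### Hessian rules -/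

lemma hess_add (hf : ContDiffAt ℝ 2 f x) (hh : ContDiffAt ℝ 2 h x) (X Y : 𝔼) :
    hess g (fun y => f y + h y) x X Y = hess g f x X Y + hess g h x X Y := by
  have hfd : DifferentiableAt ℝ f x := hf.differentiableAt (by norm_num)
  have hhd : DifferentiableAt ℝ h x := hh.differentiableAt (by norm_num)
  have hf2 : DifferentiableAt ℝ (fderiv ℝ f) x :=
    (hf.fderiv_right (m := 1) (by norm_num)).differentiableAt (by norm_num)
  have hh2 : DifferentiableAt ℝ (fderiv ℝ h) x :=
    (hh.fderiv_right (m := 1) (by norm_num)).differentiableAt (by norm_num)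
  have h1 : fderiv ℝ (fun y => f y + h y) =ᶠ[𝓝 x] fun y => fderiv ℝ f y + fderiv ℝ h y := by
    filter_upwards [eventually_differentiableAt hf, eventually_differentiableAt hh] with y a b
      using fderiv_fun_add a b
  rw [hess_apply, hess_apply, hess_apply, h1.fderiv_eq, fderiv_fun_add hf2 hh2,
    fderiv_fun_add hfd hhd]
  simp only [add_apply]
  ring

lemma hess_const_mul (c : ℝ) (hf : ContDiffAt ℝ 2 f x) (X Y : 𝔼) :
    hess g (fun y => c * f y) x X Y = c * hess g f x X Y := by
  have hfd : DifferentiableAt ℝ f x := hf.differentiableAt (by norm_num)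
  have hf2 : DifferentiableAt ℝ (fderiv ℝ f) x :=
    (hf.fderiv_right (m := 1) (by norm_num)).differentiableAt (by norm_num)
  have h1 : fderiv ℝ (fun y => c * f y) =ᶠ[𝓝 x] fun y => c • fderiv ℝ f y := by
    filter_upwards [eventually_differentiableAt hf] with y a using fderiv_const_mul a c
  rw [hess_apply, hess_apply, h1.fderiv_eq, fderiv_fun_const_smul hf2,
    fderiv_const_mul hfd]
  simp only [smul_apply, smul_eq_mul]
  ring

lemma hess_mul (hf : ContDiffAt ℝ 2 f x) (hh : ContDiffAt ℝ 2 h x) (X Y : 𝔼) :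
    hess g (fun y => f y * h y) x X Y = f x * hess g h x X Y + h x * hess g f x X Y +
      fderiv ℝ f x X * fderiv ℝ h x Y + fderiv ℝ h x X * fderiv ℝ f x Y := by
  have hfd : DifferentiableAt ℝ f x := hf.differentiableAt (by norm_num)
  have hhd : DifferentiableAt ℝ h x := hh.differentiableAt (by norm_num)
  have hf2 : DifferentiableAt ℝ (fderiv ℝ f) x :=
    (hf.fderiv_right (m := 1) (by norm_num)).differentiableAt (by norm_num)
  have hh2 : DifferentiableAt ℝ (fderiv ℝ h) x :=
    (hh.fderiv_right (m := 1) (by norm_num)).differentiableAt (by norm_num)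
  have h1 : fderiv ℝ (fun y => f y * h y) =ᶠ[𝓝 x]
      fun y => f y • fderiv ℝ h y + h y • fderiv ℝ f y := by
    filter_upwards [eventually_differentiableAt hf, eventually_differentiableAt hh] with y a b
      using fderiv_fun_mul a b
  rw [hess_apply, hess_apply, hess_apply, h1.fderiv_eq,
    fderiv_fun_add (f := fun y => f y • fderiv ℝ h y) (g := fun y => h y • fderiv ℝ f y)
      (hfd.smul hh2) (hhd.smul hf2), fderiv_fun_smul hfd hh2,
    fderiv_fun_smul hhd hf2, fderiv_fun_mul hfd hhd]
  simp only [add_apply, smul_apply, smul_eq_mul, ContinuousLinearMap.smulRight_apply]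
  ring

lemma hess_comp {φ : ℝ → ℝ} (hφ : ContDiffAt ℝ 2 φ (f x)) (hf : ContDiffAt ℝ 2 f x) (X Y : 𝔼) :
    hess g (fun y => φ (f y)) x X Y = deriv φ (f x) * hess g f x X Y +
      deriv (deriv φ) (f x) * (fderiv ℝ f x X * fderiv ℝ f x Y) := by
  have hfd : DifferentiableAt ℝ f x := hf.differentiableAt (by norm_num)
  have hf2 : DifferentiableAt ℝ (fderiv ℝ f) x :=
    (hf.fderiv_right (m := 1) (by norm_num)).differentiableAt (by norm_num)
  have hφ' : DifferentiableAt ℝ (deriv φ) (f x) := by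
    have h1 : ContDiffAt ℝ 1 (fderiv ℝ φ) (f x) := hφ.fderiv_right (by norm_num)
    have h2 : DifferentiableAt ℝ (fun t => fderiv ℝ φ t 1) (f x) :=
      (h1.differentiableAt (by norm_num)).clm_apply (differentiableAt_const _)
    exact h2
  have hd : ∀ y, DifferentiableAt ℝ f y → DifferentiableAt ℝ φ (f y) →
      fderiv ℝ (fun y => φ (f y)) y = deriv φ (f y) • fderiv ℝ f y := fun y a b =>
    (b.hasDerivAt.comp_hasFDerivAt y a.hasFDerivAt).fderiv
  have h1 : fderiv ℝ (fun y => φ (f y)) =ᶠ[𝓝 x] fun y => deriv φ (f y) • fderiv ℝ f y := by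
    filter_upwards [eventually_differentiableAt hf,
      hf.continuousAt.eventually ((hφ.eventually (by norm_num)))] with y a b
      using hd y a (b.differentiableAt (by norm_num))
  have h3 : fderiv ℝ (fun y => deriv φ (f y)) x = deriv (deriv φ) (f x) • fderiv ℝ f x :=
    (hφ'.hasDerivAt.comp_hasFDerivAt x hfd.hasFDerivAt).fderiv
  have hc : DifferentiableAt ℝ (fun y => deriv φ (f y)) x := hφ'.comp x hfd
  rw [hess_apply, hess_apply, h1.fderiv_eq, fderiv_fun_smul hc hf2, h3,
    hd x hfd (hφ.differentiableAt (by norm_num))]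
  simp only [add_apply, smul_apply, smul_eq_mul, ContinuousLinearMap.smulRight_apply]
  ring

end Crest.Agent.R247.Bo84
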