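import Crest.Agent.R247.Bo3_84

/-!
Row 247, block (6-B), file 4 (helper84): invariance of the gradient, the inner product of
differentials, the covariant derivative, the Hessian, the divergence and the Laplacian under
local isometries (`Pull`), in particular under transition maps.
-/

set_option autoImplicit false

open scoped ContDiff Topology
open Filter Set
open Crest.GeometryTopology.CoordMetric Crest.GeometryTopology.ChartCurvature
open Crest.Agent.R202.Tens

noncomputable section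

namespace Crest.Agent.R247.Bo84

variable {n : ℕ}

local notation "𝔼" => EuclideanSpace ℝ (Fin n)

variable {g' g : MetricField n} {Φ : EuclideanSpace ℝ (Fin n) → EuclideanSpace ℝ (Fin n)}
  {V W : Set (EuclideanSpace ℝ (Fin n))} {y : EuclideanSpace ℝ (Fin n)}
  {f h : EuclideanSpace ℝ (Fin n) → ℝ}

lemma pull_differentiableAt (p : Pull g' g Φ V W) (hy : y ∈ V) : DifferentiableAt ℝ Φ y :=
  (p.contDiffAt hy).differentiableAt (by simp)

lemma fderiv_pull (p : Pull g' g Φ V W) (hy : y ∈ V) (hf : DifferentiableAt ℝ f (Φ y)) (X : 𝔼) :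
    fderiv ℝ (fun z => f (Φ z)) y X = fderiv ℝ f (Φ y) (fderiv ℝ Φ y X) := by
  have h1 : fderiv ℝ (f ∘ Φ) y = (fderiv ℝ f (Φ y)).comp (fderiv ℝ Φ y) :=
    fderiv_comp y hf (pull_differentiableAt p hy)
  exact congrArg (fun L => L X) h1

/-- transformation of the gradient. -/
theorem grad_pull (p : Pull g' g Φ V W) (hy : y ∈ V) (hf : DifferentiableAt ℝ f (Φ y)) :
    fderiv ℝ Φ y (grad g' (fun z => f (Φ z)) y) = grad g f (Φ y) := by
  refine bil_injective p.riem (p.maps y hy) fun Z' => ?_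
  obtain ⟨Z, rfl⟩ := p.surj hy Z'
  rw [← p.bil_eq hy, bil_grad p.riem' hy, bil_grad p.riem (p.maps y hy), fderiv_pull p hy hf]

/-- invariance of `⟨df, dh⟩`. -/
theorem gam_pull (p : Pull g' g Φ V W) (hy : y ∈ V) (hf : DifferentiableAt ℝ f (Φ y))
    (hh : DifferentiableAt ℝ h (Φ y)) :
    gam g' (fun z => f (Φ z)) (fun z => h (Φ z)) y = gam g f h (Φ y) := by
  rw [gam_eq_bil p.riem' hy, gam_eq_bil p.riem (p.maps y hy), p.bil_eq hy, grad_pull p hy hf,
    grad_pull p hy hh]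

/-- transformation of the covariant derivative. -/
theorem cov_pull (p : Pull g' g Φ V W) (hy : y ∈ V) {A' A : 𝔼 → 𝔼}
    (hA' : DifferentiableAt ℝ A' y) (hA : DifferentiableAt ℝ A (Φ y))
    (hAA : ∀ᶠ z in 𝓝 y, fderiv ℝ Φ z (A' z) = A (Φ z)) (X : 𝔼) :
    fderiv ℝ Φ y (cov g' A' y X) = cov g A (Φ y) (fderiv ℝ Φ y X) := by
  have hddΦ : DifferentiableAt ℝ (fderiv ℝ Φ) y :=
    ((p.contDiffAt hy).fderiv_right (m := ∞) (by simp)).differentiableAt (by simp)
  have h1 : fderiv ℝ (fun z => fderiv ℝ Φ z (A' z)) y X =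
      fderiv ℝ (fun z => A (Φ z)) y X := by rw [EventuallyEq.fderiv_eq hAA]
  have h2 : fderiv ℝ (fun z => A (Φ z)) y X = fderiv ℝ A (Φ y) (fderiv ℝ Φ y X) := by
    have h3 : fderiv ℝ (A ∘ Φ) y = (fderiv ℝ A (Φ y)).comp (fderiv ℝ Φ y) :=
      fderiv_comp y hA (pull_differentiableAt p hy)
    exact congrArg (fun L => L X) h3
  rw [h2, fderiv_clm_apply hddΦ hA'] at h1
  simp only [add_apply, ContinuousLinearMap.comp_apply, ContinuousLinearMap.flip_apply] at h1
  rw [cov_apply, cov_apply, map_add, p.gam_eq hy, hAA.self_of_nhds, ← h1]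
  abel

lemma trL_of_comm (p : Pull g' g Φ V W) (hy : y ∈ V) {T' T : 𝔼 →L[ℝ] 𝔼}
    (h : ∀ X, fderiv ℝ Φ y (T' X) = T (fderiv ℝ Φ y X)) : trL T' = trL T := by
  rw [trL_eq_trace, trL_eq_trace]
  exact trace_conj_of_comm (J := (fderiv ℝ Φ y : 𝔼 →ₗ[ℝ] 𝔼)) ⟨p.inj y hy, p.surj hy⟩ h

/-- invariance of the divergence. -/
theorem divg_pull (p : Pull g' g Φ V W) (hy : y ∈ V) {A' A : 𝔼 → 𝔼}
    (hA' : DifferentiableAt ℝ A' y) (hA : DifferentiableAt ℝ A (Φ y))
    (hAA : ∀ᶠ z in 𝓝 y, fderiv ℝ Φ z (A' z) = A (Φ z)) :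
    divg g' A' y = divg g A (Φ y) := by
  rw [divg_eq_trL p.riem' hy hA', divg_eq_trL p.riem (p.maps y hy) hA]
  exact trL_of_comm p hy fun X => cov_pull p hy hA' hA hAA X

lemma contDiffAt_comp_pull (p : Pull g' g Φ V W) (hy : y ∈ V) {k : WithTop ℕ∞} (hk : k ≤ ∞)
    (hf : ContDiffAt ℝ k f (Φ y)) : ContDiffAt ℝ k (fun z => f (Φ z)) y :=
  hf.comp y ((p.contDiffAt hy).of_le hk)

lemma eventually_grad_pull (p : Pull g' g Φ V W) (hy : y ∈ V) (hf : ContDiffAt ℝ 1 f (Φ y)) :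
    ∀ᶠ z in 𝓝 y, fderiv ℝ Φ z (grad g' (fun z => f (Φ z)) z) = grad g f (Φ z) := by
  have hc : ContinuousAt Φ y := (p.contDiffAt hy).continuousAt
  filter_upwards [p.isOpen.mem_nhds hy, hc.eventually (hf.eventually (by norm_num))] with z hz hfz
  exact grad_pull p hz (hfz.differentiableAt (by norm_num))

lemma eventually_gam_pull (p : Pull g' g Φ V W) (hy : y ∈ V) (hf : ContDiffAt ℝ 1 f (Φ y))
    (hh : ContDiffAt ℝ 1 h (Φ y)) :
    ∀ᶠ z in 𝓝 y, gam g' (fun z => f (Φ z)) (fun z => h (Φ z)) z = gam g f h (Φ z) := by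
  have hc : ContinuousAt Φ y := (p.contDiffAt hy).continuousAt
  filter_upwards [p.isOpen.mem_nhds hy, hc.eventually (hf.eventually (by norm_num)),
    hc.eventually (hh.eventually (by norm_num))] with z hz hfz hhz
  exact gam_pull p hz (hfz.differentiableAt (by norm_num)) (hhz.differentiableAt (by norm_num))

lemma two_le_infty : (2 : WithTop ℕ∞) ≤ ∞ := WithTop.coe_le_coe.2 le_top

lemma one_le_infty : (1 : WithTop ℕ∞) ≤ ∞ := WithTop.coe_le_coe.2 le_top

lemma three_le_infty : (3 : WithTop ℕ∞) ≤ ∞ := WithTop.coe_le_coe.2 le_top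

/-- transformation of the Hessian endomorphism. -/
theorem hessE_pull (p : Pull g' g Φ V W) (hy : y ∈ V) (hf : ContDiffAt ℝ 2 f (Φ y)) (X : 𝔼) :
    fderiv ℝ Φ y (hessE g' (fun z => f (Φ z)) y X) = hessE g f (Φ y) (fderiv ℝ Φ y X) := by
  have hf' : ContDiffAt ℝ 2 (fun z => f (Φ z)) y := contDiffAt_comp_pull p hy two_le_infty hf
  exact cov_pull p hy (differentiableAt_grad p.riem' hy hf')
    (differentiableAt_grad p.riem (p.maps y hy) hf)
    (eventually_grad_pull p hy (hf.of_le (by norm_num))) X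

/-- transformation of the Hessian. -/
theorem hess_pull (p : Pull g' g Φ V W) (hy : y ∈ V) (hf : ContDiffAt ℝ 2 f (Φ y)) (X Y : 𝔼) :
    hess g' (fun z => f (Φ z)) y X Y = hess g f (Φ y) (fderiv ℝ Φ y X) (fderiv ℝ Φ y Y) := by
  have hf' : ContDiffAt ℝ 2 (fun z => f (Φ z)) y := contDiffAt_comp_pull p hy two_le_infty hf
  rw [← bil_hessE p.riem' hy hf', ← bil_hessE p.riem (p.maps y hy) hf, p.bil_eq hy,
    hessE_pull p hy hf]

/-- invariance of the Laplacian. -/
theorem lap_pull (p : Pull g' g Φ V W) (hy : y ∈ V) (hf : ContDiffAt ℝ 2 f (Φ y)) :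
    laplaceBeltrami g' (fun z => f (Φ z)) y = laplaceBeltrami g f (Φ y) := by
  have hf' : ContDiffAt ℝ 2 (fun z => f (Φ z)) y := contDiffAt_comp_pull p hy two_le_infty hf
  rw [lap_eq_trL p.riem' hy hf', lap_eq_trL p.riem (p.maps y hy) hf]
  exact trL_of_comm p hy fun X => hessE_pull p hy hf X

/-- invariance of the squared norm of the Hessian. -/
theorem hessSq_pull (p : Pull g' g Φ V W) (hy : y ∈ V) (hf : ContDiffAt ℝ 2 f (Φ y)) :
    hessSq g' (fun z => f (Φ z)) y = hessSq g f (Φ y) := by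
  rw [hessSq, hessSq]
  refine trL_of_comm p hy fun X => ?_
  rw [ContinuousLinearMap.comp_apply, ContinuousLinearMap.comp_apply, hessE_pull p hy hf,
    hessE_pull p hy hf]

/-- orthonormal frames are transported. -/
theorem frame_pull (p : Pull g' g Φ V W) (hy : y ∈ V) {ξ : Fin n → 𝔼}
    (hξ : IsFrame (g' y) ξ) (a b : Fin n) :
    bil (g (Φ y)) (fderiv ℝ Φ y (ξ a)) (fderiv ℝ Φ y (ξ b)) = if a = b then 1 else 0 := by
  rw [← p.bil_eq hy, hξ.orth]

/-- an orthonormal family of `n` vectors is a frame. -/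
theorem isFrame_of_orth {x : EuclideanSpace ℝ (Fin n)}
    {ξ : Fin n → 𝔼}
    (h : ∀ a b, bil (g x) (ξ a) (ξ b) = if a = b then 1 else 0) : IsFrame (g x) ξ := by
  refine ⟨h, fun i j => ?_⟩
  set C : Matrix (Fin n) (Fin n) ℝ := Matrix.of fun i a => ξ a i with hC
  have h1 : C.transpose * (g x * C) = 1 := by
    ext a b
    rw [Matrix.one_apply, ← h a b, bil_apply, Matrix.mul_apply]
    refine Finset.sum_congr rfl fun i _ => ?_
    rw [Matrix.mul_apply, Matrix.transpose_apply, Finset.mul_sum]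
    refine Finset.sum_congr rfl fun j _ => ?_
    simp only [hC, Matrix.of_apply]
    ring
  have h2 : g x * C * C.transpose = 1 := mul_eq_one_comm.1 h1
  rw [Matrix.mul_assoc] at h2
  rw [Matrix.inv_eq_right_inv h2, Matrix.mul_apply]
  rfl

end Crest.Agent.R247.Bo84
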