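import Crest.Agent.R247.Bo4_84
import Crest.Prelude.Def_PointedLimit

/-!
Row 247, block (6-B), file 5 (helper84): the metric of a Riemannian manifold in a chart is smooth,
and the transition maps between charts are local isometries (`Pull`).
-/

set_option autoImplicit false
set_option maxSynthPendingDepth 3

open scoped ContDiff Topology Manifold
open Filter Set Bundle
open Crest.GeometryTopology.CoordMetric Crest.GeometryTopology.ChartCurvature
  Crest.GeometryTopology.PointedLimit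
open Crest.Agent.R202.Tens

noncomputable section

namespace Crest.Agent.R247.Bo84

variable {n : ℕ} {M : Type*} [TopologicalSpace M] [ChartedSpace (EuclideanSpace ℝ (Fin n)) M]
  [IsManifold 𝓘(ℝ, EuclideanSpace ℝ (Fin n)) ∞ M]
  [RiemannianBundle (fun x : M => TangentSpace 𝓘(ℝ, EuclideanSpace ℝ (Fin n)) x)]
  [IsContMDiffRiemannianBundle 𝓘(ℝ, EuclideanSpace ℝ (Fin n)) ∞ (EuclideanSpace ℝ (Fin n))
      (fun x : M => TangentSpace 𝓘(ℝ, EuclideanSpace ℝ (Fin n)) x)]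

local notation "𝔼" => EuclideanSpace ℝ (Fin n)
local notation "𝓘E" => 𝓘(ℝ, EuclideanSpace ℝ (Fin n))

section NoMetric

omit [RiemannianBundle (fun x : M => TangentSpace 𝓘(ℝ, EuclideanSpace ℝ (Fin n)) x)]
  [IsContMDiffRiemannianBundle 𝓘(ℝ, EuclideanSpace ℝ (Fin n)) ∞ (EuclideanSpace ℝ (Fin n))
      (fun x : M => TangentSpace 𝓘(ℝ, EuclideanSpace ℝ (Fin n)) x)]

/-- derivative of the chart inverse, as a map of the model space. -/
def dSy (x₀ : M) (y : EuclideanSpace ℝ (Fin n)) :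
    EuclideanSpace ℝ (Fin n) →L[ℝ] EuclideanSpace ℝ (Fin n) :=
  mfderiv 𝓘(ℝ, EuclideanSpace ℝ (Fin n)) 𝓘(ℝ, EuclideanSpace ℝ (Fin n))
    (chartAt (EuclideanSpace ℝ (Fin n)) x₀).symm y

/-- derivative of the chart, as a map of the model space. -/
def dCh (x₀ p : M) :
    EuclideanSpace ℝ (Fin n) →L[ℝ] EuclideanSpace ℝ (Fin n) :=
  mfderiv 𝓘(ℝ, EuclideanSpace ℝ (Fin n)) 𝓘(ℝ, EuclideanSpace ℝ (Fin n))
    (chartAt (EuclideanSpace ℝ (Fin n)) x₀) p

theorem dCh_dSy (x₀ : M) {y : 𝔼} (hy : y ∈ (chartAt 𝔼 x₀).target) (u : 𝔼) :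
    dCh x₀ ((chartAt 𝔼 x₀).symm y) (dSy x₀ y u) = u := by
  have h1 := (mdifferentiable_chart (I := 𝓘E) x₀).comp_symm_deriv hy
  exact congrArg (fun L : 𝔼 →L[ℝ] 𝔼 => L u) h1

theorem dSy_dCh (x₀ : M) {p : M} (hp : p ∈ (chartAt 𝔼 x₀).source) (v : 𝔼) :
    dSy x₀ (chartAt 𝔼 x₀ p) (dCh x₀ p v) = v := by
  have h1 := (mdifferentiable_chart (I := 𝓘E) x₀).symm_comp_deriv hp
  exact congrArg (fun L : TangentSpace 𝓘E p →L[ℝ] TangentSpace 𝓘E p => L v) h1

theorem dSy_injective {x₀ : M} {y : 𝔼} (hy : y ∈ (chartAt 𝔼 x₀).target) :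
    Function.Injective (dSy x₀ y) := by
  intro u v h
  rw [← dCh_dSy x₀ hy u, ← dCh_dSy x₀ hy v, h]

theorem contMDiffOn_dSy_section (x₀ : M) (u : 𝔼) :
    ContMDiffOn 𝓘E (𝓘E).tangent ∞
      (fun y : 𝔼 => (TotalSpace.mk' 𝔼 ((chartAt 𝔼 x₀).symm y)
        (mfderiv 𝓘E 𝓘E (chartAt 𝔼 x₀).symm y u) : TangentBundle 𝓘E M))
      (chartAt 𝔼 x₀).target := by
  have h1 : ContMDiffOn 𝓘E 𝓘E ∞ (chartAt 𝔼 x₀).symm (chartAt 𝔼 x₀).target :=
    contMDiffOn_chart_symm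
  have h2 := h1.contMDiffOn_tangentMapWithin (m := ∞) (by simp)
    (chartAt 𝔼 x₀).open_target.uniqueMDiffOn
  have h3 : ContMDiffOn 𝓘E (𝓘E).tangent ∞
      (fun y : 𝔼 => (TotalSpace.mk' 𝔼 y u : TangentBundle 𝓘E 𝔼)) (chartAt 𝔼 x₀).target := by
    apply ContMDiff.contMDiffOn
    exact contMDiff_vectorSpace_iff_contDiff (V := fun _ => u).2 contDiff_const
  have h4 := h2.comp h3 (fun y hy => hy)
  apply h4.congr
  intro y hy
  simp only [Function.comp, tangentMapWithin]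
  rw [mfderivWithin_eq_mfderiv ((chartAt 𝔼 x₀).open_target.uniqueMDiffWithinAt hy)
    ((h1.contMDiffAt ((chartAt 𝔼 x₀).open_target.mem_nhds hy)).mdifferentiableAt (by simp))]

/-- transition map from the chart at `x₀` to the chart at `x₁`. -/
def trans (x₀ x₁ : M) (y : EuclideanSpace ℝ (Fin n)) : EuclideanSpace ℝ (Fin n) :=
  chartAt (EuclideanSpace ℝ (Fin n)) x₁ ((chartAt (EuclideanSpace ℝ (Fin n)) x₀).symm y)

/-- domain of the transition map. -/
def tdom (x₀ x₁ : M) : Set (EuclideanSpace ℝ (Fin n)) :=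
  (chartAt (EuclideanSpace ℝ (Fin n)) x₀).target ∩
    (chartAt (EuclideanSpace ℝ (Fin n)) x₀).symm ⁻¹' (chartAt (EuclideanSpace ℝ (Fin n)) x₁).source

omit [IsManifold 𝓘(ℝ, EuclideanSpace ℝ (Fin n)) ∞ M] in
theorem isOpen_tdom (x₀ x₁ : M) : IsOpen (tdom (n := n) x₀ x₁) :=
  (chartAt 𝔼 x₀).isOpen_inter_preimage_symm (chartAt 𝔼 x₁).open_source

theorem contDiffOn_trans (x₀ x₁ : M) : ContDiffOn ℝ ∞ (trans (n := n) x₀ x₁) (tdom x₀ x₁) := by
  rw [← contMDiffOn_iff_contDiffOn]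
  have h1 : ContMDiffOn 𝓘E 𝓘E ∞ (chartAt 𝔼 x₀).symm (chartAt 𝔼 x₀).target :=
    contMDiffOn_chart_symm
  have h2 : ContMDiffOn 𝓘E 𝓘E ∞ (chartAt 𝔼 x₁) (chartAt 𝔼 x₁).source := contMDiffOn_chart
  exact h2.comp (h1.mono inter_subset_left) fun y hy => hy.2

omit [IsManifold 𝓘(ℝ, EuclideanSpace ℝ (Fin n)) ∞ M] in
theorem symm_trans {x₀ x₁ : M} {y : 𝔼} (hy : y ∈ tdom x₀ x₁) :
    (chartAt 𝔼 x₁).symm (trans x₀ x₁ y) = (chartAt 𝔼 x₀).symm y :=
  (chartAt 𝔼 x₁).left_inv hy.2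

omit [IsManifold 𝓘(ℝ, EuclideanSpace ℝ (Fin n)) ∞ M] in
theorem trans_mem {x₀ x₁ : M} {y : 𝔼} (hy : y ∈ tdom x₀ x₁) :
    trans x₀ x₁ y ∈ (chartAt 𝔼 x₁).target := (chartAt 𝔼 x₁).map_source hy.2

theorem fderiv_trans {x₀ x₁ : M} {y : 𝔼} (hy : y ∈ tdom x₀ x₁) (u : 𝔼) :
    fderiv ℝ (trans x₀ x₁) y u = dCh x₁ ((chartAt 𝔼 x₀).symm y) (dSy x₀ y u) := by
  have h1 : MDifferentiableAt 𝓘E 𝓘E (chartAt 𝔼 x₀).symm y :=
    (mdifferentiable_chart (I := 𝓘E) x₀).mdifferentiableAt_symm hy.1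
  have h2 : MDifferentiableAt 𝓘E 𝓘E (chartAt 𝔼 x₁) ((chartAt 𝔼 x₀).symm y) :=
    (mdifferentiable_chart (I := 𝓘E) x₁).mdifferentiableAt hy.2
  have h3 := mfderiv_comp y h2 h1
  have h4 : fderiv ℝ (trans x₀ x₁) y = mfderiv 𝓘E 𝓘E
      ((chartAt 𝔼 x₁) ∘ (chartAt 𝔼 x₀).symm) y := by
    rw [mfderiv_eq_fderiv]; rfl
  rw [h4, h3]
  rfl

/-- chain rule for the chart inverse. -/
theorem dSy_trans {x₀ x₁ : M} {y : 𝔼} (hy : y ∈ tdom x₀ x₁) (u : 𝔼) :
    dSy x₁ (trans x₀ x₁ y) (fderiv ℝ (trans x₀ x₁) y u) = dSy x₀ y u := by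
  rw [fderiv_trans hy]
  exact dSy_dCh x₁ hy.2 (dSy x₀ y u)

end NoMetric

omit [IsManifold 𝓘(ℝ, EuclideanSpace ℝ (Fin n)) ∞ M]
  [IsContMDiffRiemannianBundle 𝓘(ℝ, EuclideanSpace ℝ (Fin n)) ∞ (EuclideanSpace ℝ (Fin n))
      (fun x : M => TangentSpace 𝓘(ℝ, EuclideanSpace ℝ (Fin n)) x)] in
theorem inner_congr {p q : M} (h : p = q) (v w : 𝔼) :
    @inner ℝ (TangentSpace 𝓘E p) _ v w = @inner ℝ (TangentSpace 𝓘E q) _ v w := by
  subst h; rfl

omit [IsManifold 𝓘(ℝ, EuclideanSpace ℝ (Fin n)) ∞ M]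
  [IsContMDiffRiemannianBundle 𝓘(ℝ, EuclideanSpace ℝ (Fin n)) ∞ (EuclideanSpace ℝ (Fin n))
      (fun x : M => TangentSpace 𝓘(ℝ, EuclideanSpace ℝ (Fin n)) x)] in
/-- the chart metric as a bilinear form. -/
theorem bil_chartMetric (x₀ : M) (y u v : 𝔼) :
    bil (chartMetric n M x₀ y) u v =
      @inner ℝ (TangentSpace 𝓘E ((chartAt 𝔼 x₀).symm y)) _ (dSy x₀ y u) (dSy x₀ y v) := by
  have h1 : ∀ w : 𝔼, dSy x₀ y w = ∑ i, w i • dSy x₀ y (EuclideanSpace.single i 1) := by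
    intro w
    conv_lhs => rw [eq_sum_single w]
    rw [map_sum]
    exact Finset.sum_congr rfl fun i _ => map_smul _ _ _
  rw [h1 u, h1 v, bil_apply]
  erw [sum_inner]
  refine Finset.sum_congr rfl fun i _ => ?_
  erw [inner_sum]
  refine Finset.sum_congr rfl fun j _ => ?_
  erw [real_inner_smul_left, real_inner_smul_right]
  have h2 : chartMetric n M x₀ y i j = @inner ℝ (TangentSpace 𝓘E ((chartAt 𝔼 x₀).symm y)) _
      (dSy x₀ y (EuclideanSpace.single i 1)) (dSy x₀ y (EuclideanSpace.single j 1)) := rfl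
  rw [h2]
  ring

omit [IsContMDiffRiemannianBundle 𝓘(ℝ, EuclideanSpace ℝ (Fin n)) ∞ (EuclideanSpace ℝ (Fin n))
      (fun x : M => TangentSpace 𝓘(ℝ, EuclideanSpace ℝ (Fin n)) x)] in
/-- the inner product of a tangent space in a chart. -/
theorem inner_eq_bil (x₀ : M) {p : M} (hp : p ∈ (chartAt 𝔼 x₀).source) (v w : 𝔼) :
    @inner ℝ (TangentSpace 𝓘E p) _ v w =
      bil (chartMetric n M x₀ (chartAt 𝔼 x₀ p)) (dCh x₀ p v) (dCh x₀ p w) := by
  rw [bil_chartMetric, dSy_dCh x₀ hp, dSy_dCh x₀ hp]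
  exact inner_congr ((chartAt 𝔼 x₀).left_inv hp).symm v w

theorem contDiffOn_chartMetric (x₀ : M) (i j : Fin n) :
    ContDiffOn ℝ ∞ (fun y => chartMetric n M x₀ y i j) (chartAt 𝔼 x₀).target := by
  rw [← contMDiffOn_iff_contDiffOn]
  have h1 := contMDiffOn_dSy_section x₀ (EuclideanSpace.single i (1:ℝ) : 𝔼)
  have h2 := contMDiffOn_dSy_section x₀ (EuclideanSpace.single j (1:ℝ) : 𝔼)
  exact h1.inner_bundle h2

/-- the chart metric is Riemannian on the target of the chart. -/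
theorem isRiemannianOn_chartMetric (x₀ : M) :
    IsRiemannianOn (chartMetric n M x₀) (chartAt 𝔼 x₀).target where
  isOpen := (chartAt 𝔼 x₀).open_target
  contDiffOn i j := contDiffOn_chartMetric x₀ i j
  posDef y hy := by
    refine Matrix.PosDef.of_dotProduct_mulVec_pos ?_ ?_
    · ext i j
      simp only [Matrix.conjTranspose_apply, star_trivial]
      exact real_inner_comm (F := TangentSpace 𝓘E ((chartAt 𝔼 x₀).symm y)) _ _
    · intro v hv
      have hv' : (WithLp.toLp 2 v : 𝔼) ≠ 0 := by simpa using hv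
      have h1 : 0 < bil (chartMetric n M x₀ y) (WithLp.toLp 2 v) (WithLp.toLp 2 v) := by
        rw [bil_chartMetric]
        refine real_inner_self_pos.2 ?_
        intro h0
        exact hv' (dSy_injective hy (h0.trans (map_zero _).symm))
      rw [bil_apply] at h1
      refine h1.trans_eq ?_
      simp only [dotProduct, Matrix.mulVec, star_trivial, Finset.mul_sum]
      refine Finset.sum_congr rfl fun i _ => Finset.sum_congr rfl fun j _ => ?_
      ring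

/-- the transition maps are local isometries. -/
theorem pull_trans (x₀ x₁ : M) :
    Pull (chartMetric n M x₀) (chartMetric n M x₁) (trans x₀ x₁) (tdom x₀ x₁)
      (chartAt 𝔼 x₁).target where
  isOpen := isOpen_tdom x₀ x₁
  riem := isRiemannianOn_chartMetric x₁
  maps y hy := trans_mem hy
  smooth := contDiffOn_trans x₀ x₁
  pull y hy i j := by
    rw [← bil_apply, bil_chartMetric, dSy_trans hy, dSy_trans hy]
    exact inner_congr (symm_trans hy).symm _ _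
  inj y hy := by
    intro u v h
    apply dSy_injective hy.1
    rw [← dSy_trans hy, ← dSy_trans hy, h]

/-- the lower Ricci bound at every point of every chart. -/
theorem ricci_chart {K : ℝ} (hK : HasRicciLowerBound n M K) (x₀ : M) {y : 𝔼}
    (hy : y ∈ (chartAt 𝔼 x₀).target) (v : 𝔼) :
    K * quadForm (chartMetric n M x₀) y v ≤
      ∑ i, ∑ j, ricci (chartMetric n M x₀) y i j * v i * v j := by
  set p := (chartAt 𝔼 x₀).symm y with hp
  have hyd : y ∈ tdom x₀ p := ⟨hy, mem_chart_source 𝔼 p⟩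
  have hP := pull_trans (n := n) x₀ p
  have h1 := hK p (fderiv ℝ (trans x₀ p) y v)
  have h2 : trans x₀ p y = chartCentre n M p := rfl
  rw [← h2, ← hP.quadForm_pull hyd] at h1
  rw [hP.ricci_pull hyd]
  exact h1

end Crest.Agent.R247.Bo84
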