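import Crest.Agent.R247.Bo5_84

/-!
Row 247, block (6-B), file 6 (helper84): calculus on the manifold.  `mGam n f h`, `mLap n f`,
`mHess n f`, `mHessSq n f`, `mgrad n f` as functions on `M`, their expression in every chart, and
Bochner's formula and inequality on `M`.
-/

set_option autoImplicit false
set_option maxSynthPendingDepth 3
set_option linter.unusedSectionVars false

open scoped ContDiff Topology Manifold
open Filter Set Bundle
open Crest.GeometryTopology.CoordMetric Crest.GeometryTopology.ChartCurvature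
  Crest.GeometryTopology.PointedLimit
open Crest.Agent.R202.Tens

noncomputable section

namespace Crest.Agent.R247.Bo84

variable (n : ℕ) {M : Type*} [TopologicalSpace M] [ChartedSpace (EuclideanSpace ℝ (Fin n)) M]
  [IsManifold 𝓘(ℝ, EuclideanSpace ℝ (Fin n)) ∞ M]
  [RiemannianBundle (fun x : M => TangentSpace 𝓘(ℝ, EuclideanSpace ℝ (Fin n)) x)]
  [IsContMDiffRiemannianBundle 𝓘(ℝ, EuclideanSpace ℝ (Fin n)) ∞ (EuclideanSpace ℝ (Fin n))
      (fun x : M => TangentSpace 𝓘(ℝ, EuclideanSpace ℝ (Fin n)) x)]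

local notation "𝔼" => EuclideanSpace ℝ (Fin n)
local notation "𝓘E" => 𝓘(ℝ, EuclideanSpace ℝ (Fin n))

/-- a function read in the chart at `x₀`. -/
def inCh (x₀ : M) (f : M → ℝ) (y : EuclideanSpace ℝ (Fin n)) : ℝ :=
  f ((chartAt (EuclideanSpace ℝ (Fin n)) x₀).symm y)

/-- `⟨df, dh⟩` on the manifold. -/
def mGam (f h : M → ℝ) (p : M) : ℝ :=
  gam (chartMetric n M p) (inCh n p f) (inCh n p h) (chartCentre n M p)

/-- the Laplacian on the manifold. -/
def mLap (f : M → ℝ) (p : M) : ℝ :=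
  laplaceBeltrami (chartMetric n M p) (inCh n p f) (chartCentre n M p)

/-- the squared norm of the Hessian on the manifold. -/
def mHessSq (f : M → ℝ) (p : M) : ℝ :=
  hessSq (chartMetric n M p) (inCh n p f) (chartCentre n M p)

/-- the gradient on the manifold, an element of the tangent space. -/
def mgrad (f : M → ℝ) (p : M) : TangentSpace 𝓘(ℝ, EuclideanSpace ℝ (Fin n)) p :=
  dSy p (chartCentre n M p) (grad (chartMetric n M p) (inCh n p f) (chartCentre n M p))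

/-- the Hessian on the manifold. -/
def mHess (f : M → ℝ) (p : M) (v w : TangentSpace 𝓘(ℝ, EuclideanSpace ℝ (Fin n)) p) : ℝ :=
  hess (chartMetric n M p) (inCh n p f) (chartCentre n M p) (dCh p p v) (dCh p p w)

/-- the Hessian endomorphism on the manifold. -/
def mHessE (f : M → ℝ) (p : M) (v : TangentSpace 𝓘(ℝ, EuclideanSpace ℝ (Fin n)) p) :
    TangentSpace 𝓘(ℝ, EuclideanSpace ℝ (Fin n)) p :=
  dSy p (chartCentre n M p)
    (hessE (chartMetric n M p) (inCh n p f) (chartCentre n M p) (dCh p p v))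

/-- the Ricci form on the manifold. -/
def mRic (p : M) (v w : TangentSpace 𝓘(ℝ, EuclideanSpace ℝ (Fin n)) p) : ℝ :=
  ∑ i, ∑ j, ricci (chartMetric n M p) (chartCentre n M p) i j * dCh p p v i * dCh p p w j

variable {n}

variable {x₀ p : M} {f h : M → ℝ} {y : EuclideanSpace ℝ (Fin n)}

/-! ### regularity in charts -/

lemma contDiffAt_inCh {k : WithTop ℕ∞} (hk : k ≤ ∞) (hy : y ∈ (chartAt 𝔼 x₀).target)
    (hf : ContMDiffAt 𝓘E 𝓘(ℝ, ℝ) k f ((chartAt 𝔼 x₀).symm y)) :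
    ContDiffAt ℝ k (inCh n x₀ f) y := by
  have h1 : ContMDiffAt 𝓘E 𝓘E k (chartAt 𝔼 x₀).symm y :=
    ((contMDiffOn_chart_symm (I := 𝓘E) (n := ∞) (x := x₀)).contMDiffAt
      ((chartAt 𝔼 x₀).open_target.mem_nhds hy)).of_le hk
  have h2 : ContMDiffAt 𝓘E 𝓘(ℝ, ℝ) k (f ∘ (chartAt 𝔼 x₀).symm) y := hf.comp y h1
  exact contMDiffAt_iff_contDiffAt.1 h2

lemma contMDiffAt_of_inCh {k : WithTop ℕ∞} (hk : k ≤ ∞) (hp : p ∈ (chartAt 𝔼 x₀).source)
    (hf : ContDiffAt ℝ k (inCh n x₀ f) (chartAt 𝔼 x₀ p)) :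
    ContMDiffAt 𝓘E 𝓘(ℝ, ℝ) k f p := by
  have h1 : ContMDiffAt 𝓘E 𝓘E k (chartAt 𝔼 x₀) p :=
    ((contMDiffOn_chart (I := 𝓘E) (n := ∞) (x := x₀)).contMDiffAt
      ((chartAt 𝔼 x₀).open_source.mem_nhds hp)).of_le hk
  have h2 : ContMDiffAt 𝓘E 𝓘(ℝ, ℝ) k (inCh n x₀ f ∘ chartAt 𝔼 x₀) p :=
    (contMDiffAt_iff_contDiffAt.2 hf).comp p h1
  refine h2.congr_of_eventuallyEq ?_
  filter_upwards [(chartAt 𝔼 x₀).open_source.mem_nhds hp] with q hq
  simp only [Function.comp, inCh, (chartAt 𝔼 x₀).left_inv hq]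

lemma differentiableAt_inCh (hy : y ∈ (chartAt 𝔼 x₀).target)
    (hf : MDifferentiableAt 𝓘E 𝓘(ℝ, ℝ) f ((chartAt 𝔼 x₀).symm y)) :
    DifferentiableAt ℝ (inCh n x₀ f) y := by
  have h1 : MDifferentiableAt 𝓘E 𝓘E (chartAt 𝔼 x₀).symm y :=
    (mdifferentiable_chart (I := 𝓘E) x₀).mdifferentiableAt_symm hy
  exact (hf.comp y h1).differentiableAt

lemma mdifferentiableAt_of_inCh (hp : p ∈ (chartAt 𝔼 x₀).source)
    (hf : DifferentiableAt ℝ (inCh n x₀ f) (chartAt 𝔼 x₀ p)) :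
    MDifferentiableAt 𝓘E 𝓘(ℝ, ℝ) f p := by
  have h1 : MDifferentiableAt 𝓘E 𝓘E (chartAt 𝔼 x₀) p :=
    (mdifferentiable_chart (I := 𝓘E) x₀).mdifferentiableAt hp
  have h2 : MDifferentiableAt 𝓘E 𝓘(ℝ, ℝ) (inCh n x₀ f ∘ chartAt 𝔼 x₀) p :=
    hf.mdifferentiableAt.comp p h1
  refine h2.congr_of_eventuallyEq ?_
  filter_upwards [(chartAt 𝔼 x₀).open_source.mem_nhds hp] with q hq
  simp only [Function.comp, inCh, (chartAt 𝔼 x₀).left_inv hq]

/-- the differential in a chart (no differentiability needed). -/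
lemma fderiv_inCh (hy : y ∈ (chartAt 𝔼 x₀).target) (u : 𝔼) :
    fderiv ℝ (inCh n x₀ f) y u =
      mfderiv 𝓘E 𝓘(ℝ, ℝ) f ((chartAt 𝔼 x₀).symm y) (dSy x₀ y u) := by
  by_cases hf : MDifferentiableAt 𝓘E 𝓘(ℝ, ℝ) f ((chartAt 𝔼 x₀).symm y)
  · have h1 : MDifferentiableAt 𝓘E 𝓘E (chartAt 𝔼 x₀).symm y :=
      (mdifferentiable_chart (I := 𝓘E) x₀).mdifferentiableAt_symm hy
    have h3 := mfderiv_comp y hf h1
    rw [mfderiv_eq_fderiv] at h3
    exact congrArg (fun L => L u) h3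
  · have h2 : ¬ DifferentiableAt ℝ (inCh n x₀ f) y := by
      intro h
      apply hf
      refine mdifferentiableAt_of_inCh (x₀ := x₀) ((chartAt 𝔼 x₀).map_target hy) ?_
      rw [(chartAt 𝔼 x₀).right_inv hy]
      exact h
    rw [fderiv_zero_of_not_differentiableAt h2, mfderiv_zero_of_not_mdifferentiableAt hf]
    rfl

lemma inCh_trans {x₁ : M} (hy : y ∈ tdom x₀ x₁) :
    inCh n x₀ f =ᶠ[𝓝 y] fun z => inCh n x₁ f (trans x₀ x₁ z) := by
  filter_upwards [(isOpen_tdom x₀ x₁).mem_nhds hy] with z hz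
  rw [inCh, inCh, symm_trans hz]

lemma mem_tdom_self (hy : y ∈ (chartAt 𝔼 x₀).target) :
    y ∈ tdom x₀ ((chartAt 𝔼 x₀).symm y) := ⟨hy, mem_chart_source 𝔼 _⟩

lemma trans_self (x₀ : M) (y : 𝔼) :
    trans x₀ ((chartAt 𝔼 x₀).symm y) y = chartCentre n M ((chartAt 𝔼 x₀).symm y) := rfl

/-! ### the gradient and `⟨df, dh⟩` -/

/-- the gradient represents the differential. -/
lemma inner_mgrad (f : M → ℝ) (p : M) (v : TangentSpace 𝓘E p) :
    inner ℝ (mgrad n f p) v = mfderiv 𝓘E 𝓘(ℝ, ℝ) f p v := by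
  have hp := mem_chart_source 𝔼 p
  have hc : chartCentre n M p ∈ (chartAt 𝔼 p).target := mem_chart_target 𝔼 p
  have hg := isRiemannianOn_chartMetric (n := n) p
  have h0 := inner_eq_bil p hp (mgrad n f p) v
  have e1 : dCh p p (mgrad n f p) = grad (chartMetric n M p) (inCh n p f) (chartCentre n M p) := by
    have h1 := dCh_dSy p hc (grad (chartMetric n M p) (inCh n p f) (chartCentre n M p))
    have h2 : (chartAt 𝔼 p).symm (chartCentre n M p) = p := (chartAt 𝔼 p).left_inv hp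
    rw [h2] at h1
    exact h1
  have e2 : chartCentre n M p = chartAt 𝔼 p p := rfl
  rw [h0, e1, ← e2, bil_grad hg hc, fderiv_inCh hc, e2, dSy_dCh p hp v,
    (chartAt 𝔼 p).left_inv hp]

/-- a vector that represents the differential is the gradient. -/
lemma mgrad_unique {w : TangentSpace 𝓘E p}
    (hw : ∀ v : TangentSpace 𝓘E p, inner ℝ w v = mfderiv 𝓘E 𝓘(ℝ, ℝ) f p v) :
    w = mgrad n f p := by
  refine ext_inner_right ℝ fun v => ?_
  rw [hw, inner_mgrad]

/-- the gradient in a chart. -/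
lemma mgrad_chart (hy : y ∈ (chartAt 𝔼 x₀).target) :
    mgrad n f ((chartAt 𝔼 x₀).symm y) = dSy x₀ y (grad (chartMetric n M x₀) (inCh n x₀ f) y) := by
  symm
  refine mgrad_unique fun v => ?_
  have hg := isRiemannianOn_chartMetric (n := n) x₀
  have hps : (chartAt 𝔼 x₀).symm y ∈ (chartAt 𝔼 x₀).source := (chartAt 𝔼 x₀).map_target hy
  have hyp : chartAt 𝔼 x₀ ((chartAt 𝔼 x₀).symm y) = y := (chartAt 𝔼 x₀).right_inv hy
  have h0 := inner_eq_bil x₀ hps (dSy x₀ y (grad (chartMetric n M x₀) (inCh n x₀ f) y)) v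
  rw [hyp, dCh_dSy x₀ hy, bil_grad hg hy, fderiv_inCh hy] at h0
  have h1 := dSy_dCh x₀ hps v
  rw [hyp] at h1
  rw [h1] at h0
  exact h0

lemma mGam_eq_inner (f h : M → ℝ) (p : M) :
    mGam n f h p = inner ℝ (mgrad n f p) (mgrad n h p) := by
  have hp := mem_chart_source 𝔼 p
  have hc : chartCentre n M p ∈ (chartAt 𝔼 p).target := mem_chart_target 𝔼 p
  have hg := isRiemannianOn_chartMetric (n := n) p
  have e1 : ∀ f : M → ℝ, dCh p p (mgrad n f p) =
      grad (chartMetric n M p) (inCh n p f) (chartCentre n M p) := by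
    intro f
    have h1 := dCh_dSy p hc (grad (chartMetric n M p) (inCh n p f) (chartCentre n M p))
    have h2 : (chartAt 𝔼 p).symm (chartCentre n M p) = p := (chartAt 𝔼 p).left_inv hp
    rw [h2] at h1
    exact h1
  have h0 := inner_eq_bil p hp (mgrad n f p) (mgrad n h p)
  rw [h0, e1, e1, mGam, gam_eq_bil hg hc]
  rfl

lemma mGam_eq_mfderiv (f h : M → ℝ) (p : M) :
    mGam n f h p = mfderiv 𝓘E 𝓘(ℝ, ℝ) f p (mgrad n h p) := by
  rw [mGam_eq_inner, inner_mgrad]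

/-- `⟨df, dh⟩` in every chart (no differentiability needed). -/
theorem mGam_chart (hy : y ∈ (chartAt 𝔼 x₀).target) (f h : M → ℝ) :
    mGam n f h ((chartAt 𝔼 x₀).symm y) =
      gam (chartMetric n M x₀) (inCh n x₀ f) (inCh n x₀ h) y := by
  have hg := isRiemannianOn_chartMetric (n := n) x₀
  rw [mGam_eq_inner, mgrad_chart hy, mgrad_chart hy, gam_eq_bil hg hy, bil_chartMetric]

theorem mGam_chart' (hp : p ∈ (chartAt 𝔼 x₀).source) (f h : M → ℝ) :
    mGam n f h p = gam (chartMetric n M x₀) (inCh n x₀ f) (inCh n x₀ h) (chartAt 𝔼 x₀ p) := by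
  rw [← mGam_chart ((chartAt 𝔼 x₀).map_source hp), (chartAt 𝔼 x₀).left_inv hp]

lemma mGam_comm (f h : M → ℝ) (p : M) : mGam n f h p = mGam n h f p := by
  rw [mGam_eq_inner, mGam_eq_inner, real_inner_comm]

lemma mGam_self (f : M → ℝ) (p : M) : mGam n f f p = ‖mgrad n f p‖ ^ 2 := by
  rw [mGam_eq_inner, real_inner_self_eq_norm_sq]

lemma mGam_self_nonneg (f : M → ℝ) (p : M) : 0 ≤ mGam n f f p := by
  rw [mGam_self]; positivity

lemma mGam_sq_le (f h : M → ℝ) (p : M) :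
    mGam n f h p ^ 2 ≤ mGam n f f p * mGam n h h p := by
  have hg := isRiemannianOn_chartMetric (n := n) p
  exact gam_sq_le hg (mem_chart_target 𝔼 p) _ _

/-- `mGam` read in a chart is the coordinate expression on the whole target. -/
lemma inCh_mGam (hy : y ∈ (chartAt 𝔼 x₀).target) (f h : M → ℝ) :
    inCh n x₀ (mGam n f h) =ᶠ[𝓝 y] gam (chartMetric n M x₀) (inCh n x₀ f) (inCh n x₀ h) := by
  filter_upwards [(chartAt 𝔼 x₀).open_target.mem_nhds hy] with z hz using mGam_chart hz f h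

end Crest.Agent.R247.Bo84
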