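import Crest.Agent.R247.Bo6_84

/-!
Row 247, block (6-B), file 7 (helper84): second order calculus on the manifold: the Laplacian, the
Hessian, their expression in every chart, Bochner's formula and inequality on `M`.
-/

set_option autoImplicit false
set_option maxSynthPendingDepth 3
set_option linter.unusedSectionVars false

open scoped ContDiff Topology Manifold
open Filter Set Bundle
open Crest.GeometryTopology.CoordMetric Crest.GeometryTopology.ChartCurvature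
  Crest.GeometryTopology.PointedLimit
open Crest.Agent.R202.Tens

noncomputable section

namespace Crest.Agent.R247.Bo84

variable {n : ℕ} {M : Type*} [TopologicalSpace M] [ChartedSpace (EuclideanSpace ℝ (Fin n)) M]
  [IsManifold 𝓘(ℝ, EuclideanSpace ℝ (Fin n)) ∞ M]
  [RiemannianBundle (fun x : M => TangentSpace 𝓘(ℝ, EuclideanSpace ℝ (Fin n)) x)]
  [IsContMDiffRiemannianBundle 𝓘(ℝ, EuclideanSpace ℝ (Fin n)) ∞ (EuclideanSpace ℝ (Fin n))
      (fun x : M => TangentSpace 𝓘(ℝ, EuclideanSpace ℝ (Fin n)) x)]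

local notation "𝔼" => EuclideanSpace ℝ (Fin n)
local notation "𝓘E" => 𝓘(ℝ, EuclideanSpace ℝ (Fin n))

variable {x₀ p : M} {f h : M → ℝ} {y : EuclideanSpace ℝ (Fin n)}

/-! ### expressions in charts -/

/-- the Laplacian in every chart. -/
theorem mLap_chart (hy : y ∈ (chartAt 𝔼 x₀).target)
    (hf : ContMDiffAt 𝓘E 𝓘(ℝ, ℝ) 2 f ((chartAt 𝔼 x₀).symm y)) :
    mLap n f ((chartAt 𝔼 x₀).symm y) = laplaceBeltrami (chartMetric n M x₀) (inCh n x₀ f) y := by
  have hyd := mem_tdom_self hy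
  have hP := pull_trans (n := n) x₀ ((chartAt 𝔼 x₀).symm y)
  have hc := trans_mem hyd
  have hf' : ContDiffAt ℝ 2 (inCh n ((chartAt 𝔼 x₀).symm y) f)
      (trans x₀ ((chartAt 𝔼 x₀).symm y) y) := by
    refine contDiffAt_inCh two_le_infty hc ?_
    rw [symm_trans hyd]
    exact hf
  rw [lap_congr (inCh_trans hyd), lap_pull hP hyd hf']
  rfl

theorem mLap_chart' (hp : p ∈ (chartAt 𝔼 x₀).source) (hf : ContMDiffAt 𝓘E 𝓘(ℝ, ℝ) 2 f p) :
    mLap n f p = laplaceBeltrami (chartMetric n M x₀) (inCh n x₀ f) (chartAt 𝔼 x₀ p) := by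
  have h1 := (chartAt 𝔼 x₀).left_inv hp
  rw [← mLap_chart ((chartAt 𝔼 x₀).map_source hp) (by rw [h1]; exact hf), h1]

/-- the squared norm of the Hessian in every chart. -/
theorem mHessSq_chart (hy : y ∈ (chartAt 𝔼 x₀).target)
    (hf : ContMDiffAt 𝓘E 𝓘(ℝ, ℝ) 2 f ((chartAt 𝔼 x₀).symm y)) :
    mHessSq n f ((chartAt 𝔼 x₀).symm y) = hessSq (chartMetric n M x₀) (inCh n x₀ f) y := by
  have hyd := mem_tdom_self hy
  have hP := pull_trans (n := n) x₀ ((chartAt 𝔼 x₀).symm y)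
  have hc := trans_mem hyd
  have hf' : ContDiffAt ℝ 2 (inCh n ((chartAt 𝔼 x₀).symm y) f)
      (trans x₀ ((chartAt 𝔼 x₀).symm y) y) := by
    refine contDiffAt_inCh two_le_infty hc ?_
    rw [symm_trans hyd]
    exact hf
  rw [hessSq_congr (inCh_trans hyd), hessSq_pull hP hyd hf']
  rfl

theorem mHessSq_chart' (hp : p ∈ (chartAt 𝔼 x₀).source) (hf : ContMDiffAt 𝓘E 𝓘(ℝ, ℝ) 2 f p) :
    mHessSq n f p = hessSq (chartMetric n M x₀) (inCh n x₀ f) (chartAt 𝔼 x₀ p) := by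
  have h1 := (chartAt 𝔼 x₀).left_inv hp
  rw [← mHessSq_chart ((chartAt 𝔼 x₀).map_source hp) (by rw [h1]; exact hf), h1]

/-- the Hessian in every chart. -/
theorem mHess_chart (hy : y ∈ (chartAt 𝔼 x₀).target)
    (hf : ContMDiffAt 𝓘E 𝓘(ℝ, ℝ) 2 f ((chartAt 𝔼 x₀).symm y)) (u v : 𝔼) :
    mHess n f ((chartAt 𝔼 x₀).symm y) (dSy x₀ y u) (dSy x₀ y v) =
      hess (chartMetric n M x₀) (inCh n x₀ f) y u v := by
  have hyd := mem_tdom_self hy
  have hP := pull_trans (n := n) x₀ ((chartAt 𝔼 x₀).symm y)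
  have hc := trans_mem hyd
  have hf' : ContDiffAt ℝ 2 (inCh n ((chartAt 𝔼 x₀).symm y) f)
      (trans x₀ ((chartAt 𝔼 x₀).symm y) y) := by
    refine contDiffAt_inCh two_le_infty hc ?_
    rw [symm_trans hyd]
    exact hf
  rw [hess_congr (inCh_trans hyd), hess_pull hP hyd hf', fderiv_trans hyd, fderiv_trans hyd]
  rfl

lemma mHess_congr_point {p q : M} (hpq : p = q) (f : M → ℝ) (v w : 𝔼) :
    @mHess n M _ _ _ f p v w = @mHess n M _ _ _ f q v w := by
  subst hpq; rfl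

lemma mHess_chart'_aux (hp : p ∈ (chartAt 𝔼 x₀).source) (hf : ContMDiffAt 𝓘E 𝓘(ℝ, ℝ) 2 f p)
    (v w : 𝔼) :
    @mHess n M _ _ _ f p v w = hess (chartMetric n M x₀) (inCh n x₀ f) (chartAt 𝔼 x₀ p)
      (dCh x₀ p v) (dCh x₀ p w) := by
  have h1 := (chartAt 𝔼 x₀).left_inv hp
  rw [← mHess_chart ((chartAt 𝔼 x₀).map_source hp) (by rw [h1]; exact hf),
    dSy_dCh x₀ hp, dSy_dCh x₀ hp]
  exact mHess_congr_point h1.symm f v w

theorem mHess_chart' (hp : p ∈ (chartAt 𝔼 x₀).source) (hf : ContMDiffAt 𝓘E 𝓘(ℝ, ℝ) 2 f p)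
    (v w : TangentSpace 𝓘E p) :
    mHess n f p v w = hess (chartMetric n M x₀) (inCh n x₀ f) (chartAt 𝔼 x₀ p)
      (dCh x₀ p v) (dCh x₀ p w) := mHess_chart'_aux hp hf v w

/-- the Ricci form in every chart. -/
theorem mRic_chart (hy : y ∈ (chartAt 𝔼 x₀).target) (u v : 𝔼) :
    mRic n ((chartAt 𝔼 x₀).symm y) (dSy x₀ y u) (dSy x₀ y v) =
      ∑ i, ∑ j, ricci (chartMetric n M x₀) y i j * u i * v j := by
  have hyd := mem_tdom_self hy
  have hP := pull_trans (n := n) x₀ ((chartAt 𝔼 x₀).symm y)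
  rw [hP.ricci_pull hyd, fderiv_trans hyd, fderiv_trans hyd]
  rfl

/-! ### facts at the centre of the preferred chart -/

lemma dCh_mgrad (f : M → ℝ) (p : M) : dCh p p (mgrad n f p) =
    grad (chartMetric n M p) (inCh n p f) (chartCentre n M p) := by
  have hp := mem_chart_source 𝔼 p
  have hc : chartCentre n M p ∈ (chartAt 𝔼 p).target := mem_chart_target 𝔼 p
  have h1 := dCh_dSy p hc (grad (chartMetric n M p) (inCh n p f) (chartCentre n M p))
  have h2 : (chartAt 𝔼 p).symm (chartCentre n M p) = p := (chartAt 𝔼 p).left_inv hp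
  rw [h2] at h1
  exact h1

lemma dCh_mHessE (f : M → ℝ) (p : M) (v : TangentSpace 𝓘E p) : dCh p p (mHessE n f p v) =
    hessE (chartMetric n M p) (inCh n p f) (chartCentre n M p) (dCh p p v) := by
  have hp := mem_chart_source 𝔼 p
  have hc : chartCentre n M p ∈ (chartAt 𝔼 p).target := mem_chart_target 𝔼 p
  have h1 := dCh_dSy p hc
    (hessE (chartMetric n M p) (inCh n p f) (chartCentre n M p) (dCh p p v))
  have h2 : (chartAt 𝔼 p).symm (chartCentre n M p) = p := (chartAt 𝔼 p).left_inv hp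
  rw [h2] at h1
  exact h1

lemma inner_centre (p : M) (v w : TangentSpace 𝓘E p) :
    inner ℝ v w = bil (chartMetric n M p (chartCentre n M p)) (dCh p p v) (dCh p p w) :=
  inner_eq_bil p (mem_chart_source 𝔼 p) v w

lemma mfderiv_centre (f : M → ℝ) (p : M) (v : TangentSpace 𝓘E p) :
    mfderiv 𝓘E 𝓘(ℝ, ℝ) f p v = fderiv ℝ (inCh n p f) (chartCentre n M p) (dCh p p v) := by
  have hc : chartCentre n M p ∈ (chartAt 𝔼 p).target := mem_chart_target 𝔼 p
  rw [← inner_mgrad, inner_centre, dCh_mgrad, bil_grad (isRiemannianOn_chartMetric p) hc]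

lemma contDiffAt_centre {k : WithTop ℕ∞} (hk : k ≤ ∞) (hf : ContMDiffAt 𝓘E 𝓘(ℝ, ℝ) k f p) :
    ContDiffAt ℝ k (inCh n p f) (chartCentre n M p) := by
  refine contDiffAt_inCh hk (mem_chart_target 𝔼 p) ?_
  have h2 : (chartAt 𝔼 p).symm (chartCentre n M p) = p :=
    (chartAt 𝔼 p).left_inv (mem_chart_source 𝔼 p)
  rw [h2]
  exact hf

lemma centre_mem (p : M) : chartCentre n M p ∈ (chartAt 𝔼 p).target := mem_chart_target 𝔼 p

/-- the Hessian is the covariant derivative of the gradient. -/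
lemma inner_mHessE (hf : ContMDiffAt 𝓘E 𝓘(ℝ, ℝ) 2 f p) (v w : TangentSpace 𝓘E p) :
    inner ℝ (mHessE n f p v) w = mHess n f p v w := by
  rw [inner_centre, dCh_mHessE, bil_hessE (isRiemannianOn_chartMetric p) (centre_mem p)
    (contDiffAt_centre two_le_infty hf)]
  rfl

lemma mHess_symm (hf : ContMDiffAt 𝓘E 𝓘(ℝ, ℝ) 2 f p) (v w : TangentSpace 𝓘E p) :
    mHess n f p v w = mHess n f p w v :=
  hess_symm (isRiemannianOn_chartMetric p) (centre_mem p)
    (contDiffAt_centre two_le_infty hf) _ _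

lemma mHess_add_left (f : M → ℝ) (p : M) (v v' w : TangentSpace 𝓘E p) :
    mHess n f p (v + v') w = mHess n f p v w + mHess n f p v' w := by
  simp only [mHess]
  have h1 : dCh p p (v + v') = dCh p p v + dCh p p v' := map_add (dCh p p) v v'
  rw [h1, map_add, add_apply]

lemma mHess_smul_left (f : M → ℝ) (p : M) (c : ℝ) (v w : TangentSpace 𝓘E p) :
    mHess n f p (c • v) w = c * mHess n f p v w := by
  simp only [mHess]
  have h1 : dCh p p (c • v) = c • dCh p p v := map_smul (dCh p p) c v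
  rw [h1, map_smul, smul_apply, smul_eq_mul]

lemma mHess_add_right (f : M → ℝ) (p : M) (v w w' : TangentSpace 𝓘E p) :
    mHess n f p v (w + w') = mHess n f p v w + mHess n f p v w' := by
  simp only [mHess]
  have h1 : dCh p p (w + w') = dCh p p w + dCh p p w' := map_add (dCh p p) w w'
  rw [h1, map_add]

lemma mHess_smul_right (f : M → ℝ) (p : M) (c : ℝ) (v w : TangentSpace 𝓘E p) :
    mHess n f p v (c • w) = c * mHess n f p v w := by
  simp only [mHess]
  have h1 : dCh p p (c • w) = c • dCh p p w := map_smul (dCh p p) c w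
  rw [h1, map_smul, smul_eq_mul]

/-- derivative of `⟨df, dh⟩`. -/
theorem mfderiv_mGam (hf : ContMDiffAt 𝓘E 𝓘(ℝ, ℝ) 2 f p) (hh : ContMDiffAt 𝓘E 𝓘(ℝ, ℝ) 2 h p)
    (v : TangentSpace 𝓘E p) :
    mfderiv 𝓘E 𝓘(ℝ, ℝ) (mGam n f h) p v =
      mHess n f p v (mgrad n h p) + mHess n h p v (mgrad n f p) := by
  rw [mfderiv_centre, (inCh_mGam (centre_mem p) f h).fderiv_eq,
    fderiv_gam (isRiemannianOn_chartMetric p) (centre_mem p)
      (contDiffAt_centre two_le_infty hf) (contDiffAt_centre two_le_infty hh),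
    mHess, mHess, dCh_mgrad, dCh_mgrad]

/-- the gradient of `⟨df, dh⟩`. -/
theorem mgrad_mGam (hf : ContMDiffAt 𝓘E 𝓘(ℝ, ℝ) 2 f p) (hh : ContMDiffAt 𝓘E 𝓘(ℝ, ℝ) 2 h p) :
    mgrad n (mGam n f h) p = mHessE n f p (mgrad n h p) + mHessE n h p (mgrad n f p) := by
  symm
  refine mgrad_unique fun v => ?_
  rw [inner_add_left, inner_mHessE hf, inner_mHessE hh, mfderiv_mGam hf hh, mHess_symm hf,
    mHess_symm hh]

/-! ### frames -/

/-- an orthonormal family of `n` tangent vectors gives a frame of the chart metric. -/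
lemma isFrame_centre {e : Fin n → TangentSpace 𝓘E p}
    (he : ∀ a b, inner ℝ (e a) (e b) = if a = b then (1:ℝ) else 0) :
    IsFrame (chartMetric n M p (chartCentre n M p)) (fun a => dCh p p (e a)) :=
  isFrame_of_orth fun a b => by rw [← inner_centre, he]

/-- the squared norm of the Hessian in an orthonormal frame. -/
theorem mHessSq_frame (hf : ContMDiffAt 𝓘E 𝓘(ℝ, ℝ) 2 f p) {e : Fin n → TangentSpace 𝓘E p}
    (he : ∀ a b, inner ℝ (e a) (e b) = if a = b then (1:ℝ) else 0) :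
    mHessSq n f p = ∑ a, ∑ b, mHess n f p (e a) (e b) ^ 2 :=
  hessSq_frame (isRiemannianOn_chartMetric p) (centre_mem p)
    (contDiffAt_centre two_le_infty hf) (isFrame_centre he)

/-- the Laplacian in an orthonormal frame. -/
theorem mLap_frame (hf : ContMDiffAt 𝓘E 𝓘(ℝ, ℝ) 2 f p) {e : Fin n → TangentSpace 𝓘E p}
    (he : ∀ a b, inner ℝ (e a) (e b) = if a = b then (1:ℝ) else 0) :
    mLap n f p = ∑ a, mHess n f p (e a) (e a) :=
  lap_frame (isRiemannianOn_chartMetric p) (centre_mem p)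
    (contDiffAt_centre two_le_infty hf) (isFrame_centre he)

/-- Parseval in an orthonormal frame. -/
theorem inner_frame {e : Fin n → TangentSpace 𝓘E p}
    (he : ∀ a b, inner ℝ (e a) (e b) = if a = b then (1:ℝ) else 0)
    (v w : TangentSpace 𝓘E p) :
    inner ℝ v w = ∑ a, (inner ℝ v (e a) : ℝ) * inner ℝ w (e a) := by
  rw [inner_centre, (isFrame_centre he).bil_eq (isRiemannianOn_chartMetric p) (centre_mem p)]
  exact Finset.sum_congr rfl fun a _ => by rw [inner_centre, inner_centre]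

/-- the differential as a real valued function on the tangent space. -/
def dM (n : ℕ) {M : Type*} [TopologicalSpace M] [ChartedSpace (EuclideanSpace ℝ (Fin n)) M]
    (f : M → ℝ) (p : M) (v : TangentSpace 𝓘(ℝ, EuclideanSpace ℝ (Fin n)) p) : ℝ :=
  mfderiv 𝓘(ℝ, EuclideanSpace ℝ (Fin n)) 𝓘(ℝ, ℝ) f p v

lemma dM_eq (f : M → ℝ) (p : M) (v : TangentSpace 𝓘E p) :
    dM n f p v = mfderiv 𝓘E 𝓘(ℝ, ℝ) f p v := rfl

lemma inner_mgrad' (f : M → ℝ) (p : M) (v : TangentSpace 𝓘E p) :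
    inner ℝ (mgrad n f p) v = dM n f p v := inner_mgrad f p v

/-- `⟨df, dh⟩` in an orthonormal frame. -/
theorem mGam_frame {e : Fin n → TangentSpace 𝓘E p}
    (he : ∀ a b, inner ℝ (e a) (e b) = if a = b then (1:ℝ) else 0) (f h : M → ℝ) :
    mGam n f h p = ∑ a, dM n f p (e a) * dM n h p (e a) := by
  rw [mGam_eq_inner, inner_frame he]
  exact Finset.sum_congr rfl fun a _ => by rw [inner_mgrad', inner_mgrad']

/-- the gradient in an orthonormal frame. -/
theorem mgrad_frame {e : Fin n → TangentSpace 𝓘E p}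
    (he : ∀ a b, inner ℝ (e a) (e b) = if a = b then (1:ℝ) else 0) (v : TangentSpace 𝓘E p) :
    v = ∑ a, (inner ℝ v (e a) : ℝ) • e a := by
  refine ext_inner_right ℝ fun w => ?_
  rw [inner_frame he, sum_inner]
  refine Finset.sum_congr rfl fun a _ => ?_
  rw [real_inner_smul_left, real_inner_comm w (e a)]

/-! ### inequalities -/

lemma mHessSq_nonneg (hf : ContMDiffAt 𝓘E 𝓘(ℝ, ℝ) 2 f p) : 0 ≤ mHessSq n f p :=
  hessSq_nonneg (isRiemannianOn_chartMetric p) (centre_mem p) (contDiffAt_centre two_le_infty hf)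

lemma mLap_sq_le (hf : ContMDiffAt 𝓘E 𝓘(ℝ, ℝ) 2 f p) :
    mLap n f p ^ 2 ≤ n * mHessSq n f p :=
  lap_sq_le (isRiemannianOn_chartMetric p) (centre_mem p) (contDiffAt_centre two_le_infty hf)

lemma mHess_sq_le (hf : ContMDiffAt 𝓘E 𝓘(ℝ, ℝ) 2 f p) (v w : TangentSpace 𝓘E p) :
    mHess n f p v w ^ 2 ≤ mHessSq n f p * ‖v‖ ^ 2 * ‖w‖ ^ 2 := by
  rw [← real_inner_self_eq_norm_sq v, ← real_inner_self_eq_norm_sq w, inner_centre,
    inner_centre]
  exact hess_sq_le (isRiemannianOn_chartMetric p) (centre_mem p)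
    (contDiffAt_centre two_le_infty hf) _ _

lemma abs_mHess_le (hf : ContMDiffAt 𝓘E 𝓘(ℝ, ℝ) 2 f p) (v w : TangentSpace 𝓘E p) :
    |mHess n f p v w| ≤ Real.sqrt (mHessSq n f p) * ‖v‖ * ‖w‖ := by
  refine abs_le_of_sq_le_sq' ?_ (by positivity) |> abs_le.2
  rw [mul_pow, mul_pow, Real.sq_sqrt (mHessSq_nonneg hf)]
  exact mHess_sq_le hf v w

lemma mHessE_norm_sq_le (hf : ContMDiffAt 𝓘E 𝓘(ℝ, ℝ) 2 f p) (v : TangentSpace 𝓘E p) :
    ‖mHessE n f p v‖ ^ 2 ≤ mHessSq n f p * ‖v‖ ^ 2 := by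
  rw [← real_inner_self_eq_norm_sq v, ← real_inner_self_eq_norm_sq (mHessE n f p v),
    inner_centre, inner_centre, dCh_mHessE]
  exact hessE_sq_le (isRiemannianOn_chartMetric p) (centre_mem p)
    (contDiffAt_centre two_le_infty hf) _

lemma mkato (hf : ContMDiffAt 𝓘E 𝓘(ℝ, ℝ) 2 f p) :
    mGam n (mGam n f f) (mGam n f f) p ≤ 4 * mHessSq n f p * mGam n f f p := by
  have h1 := kato (isRiemannianOn_chartMetric p) (centre_mem p)
    (contDiffAt_centre (n := n) two_le_infty hf)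
  have h2 := gam_congr (g := chartMetric n M p) (inCh_mGam (centre_mem p) f f)
    (inCh_mGam (centre_mem p) f f)
  rw [mGam, h2]
  exact h1

/-! ### regularity -/

lemma contMDiffAt_mGam {a m : WithTop ℕ∞} (hf : ContMDiffAt 𝓘E 𝓘(ℝ, ℝ) a f p)
    (hh : ContMDiffAt 𝓘E 𝓘(ℝ, ℝ) a h p) (hma : m + 1 ≤ a) (ha : a ≤ ∞) :
    ContMDiffAt 𝓘E 𝓘(ℝ, ℝ) m (mGam n f h) p := by
  have hm : m ≤ ∞ := (le_trans (by simp) hma).trans ha
  refine contMDiffAt_of_inCh hm (mem_chart_source 𝔼 p) ?_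
  refine ContDiffAt.congr_of_eventuallyEq ?_ (inCh_mGam (centre_mem p) f h)
  exact contDiffAt_gam (isRiemannianOn_chartMetric p) (centre_mem p)
    (contDiffAt_centre ha hf) (contDiffAt_centre ha hh) hma hm

/-- the Laplacian read in a chart. -/
lemma inCh_mLap (hy : y ∈ (chartAt 𝔼 x₀).target)
    (hf : ContMDiffAt 𝓘E 𝓘(ℝ, ℝ) 2 f ((chartAt 𝔼 x₀).symm y)) :
    inCh n x₀ (mLap n f) =ᶠ[𝓝 y] laplaceBeltrami (chartMetric n M x₀) (inCh n x₀ f) := by
  have h1 : ContMDiffAt 𝓘E 𝓘E 2 (chartAt 𝔼 x₀).symm y :=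
    ((contMDiffOn_chart_symm (I := 𝓘E) (n := ∞) (x := x₀)).contMDiffAt
      ((chartAt 𝔼 x₀).open_target.mem_nhds hy)).of_le two_le_infty
  have h2 : ∀ᶠ q in 𝓝 ((chartAt 𝔼 x₀).symm y), ContMDiffAt 𝓘E 𝓘(ℝ, ℝ) 2 f q :=
    (contMDiffAt_iff_contMDiffAt_nhds (by norm_num)).1 hf
  filter_upwards [(chartAt 𝔼 x₀).open_target.mem_nhds hy, h1.continuousAt.eventually h2]
    with z hz hfz using mLap_chart hz hfz

lemma contMDiffAt_mLap {a m : WithTop ℕ∞} (hf : ContMDiffAt 𝓘E 𝓘(ℝ, ℝ) a f p)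
    (hma : m + 1 + 1 ≤ a) (ha : a ≤ ∞) : ContMDiffAt 𝓘E 𝓘(ℝ, ℝ) m (mLap n f) p := by
  have hm1 : m + 1 ≤ ∞ := (le_trans (by simp) hma).trans ha
  have hm : m ≤ ∞ := le_trans (by simp) hm1
  have h2 : (2 : WithTop ℕ∞) ≤ a := le_trans (by
    have : (1 : WithTop ℕ∞) + 1 ≤ m + 1 + 1 := by gcongr; simp
    refine le_trans ?_ this
    norm_num) hma
  have hf2 : ContMDiffAt 𝓘E 𝓘(ℝ, ℝ) 2 f ((chartAt 𝔼 p).symm (chartCentre n M p)) := by
    have h3 : (chartAt 𝔼 p).symm (chartCentre n M p) = p :=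
      (chartAt 𝔼 p).left_inv (mem_chart_source 𝔼 p)
    rw [h3]
    exact hf.of_le h2
  refine contMDiffAt_of_inCh hm (mem_chart_source 𝔼 p) ?_
  refine ContDiffAt.congr_of_eventuallyEq ?_ (inCh_mLap (centre_mem p) hf2)
  exact contDiffAt_lap (isRiemannianOn_chartMetric p) (centre_mem p)
    (contDiffAt_centre ha hf) hma hm1

/-! ### Bochner -/

/-- **Bochner's formula** on the manifold. -/
theorem mBochner (hf : ContMDiffAt 𝓘E 𝓘(ℝ, ℝ) 3 f p) :
    (1 / 2) * mLap n (mGam n f f) p =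
      mHessSq n f p + mGam n f (mLap n f) p + mRic n p (mgrad n f p) (mgrad n f p) := by
  have h0 : (chartAt 𝔼 p).symm (chartCentre n M p) = p :=
    (chartAt 𝔼 p).left_inv (mem_chart_source 𝔼 p)
  have hf2 : ContMDiffAt 𝓘E 𝓘(ℝ, ℝ) 2 f ((chartAt 𝔼 p).symm (chartCentre n M p)) := by
    rw [h0]; exact hf.of_le (by norm_num)
  have h1 := bochner' (isRiemannianOn_chartMetric p) (centre_mem p)
    (contDiffAt_centre (n := n) three_le_infty hf)
  have h2 := lap_congr (g := chartMetric n M p) (inCh_mGam (centre_mem p) f f)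
  have h3 := gam_congr (g := chartMetric n M p) (EventuallyEq.refl _ (inCh n p f))
    (inCh_mLap (centre_mem p) hf2)
  rw [mLap, h2, h1, mGam, h3, mHessSq, mRic, dCh_mgrad]

/-- the lower Ricci bound in terms of `mRic`. -/
theorem mRic_ge {K : ℝ} (hK : HasRicciLowerBound n M K) (p : M) (v : TangentSpace 𝓘E p) :
    K * ‖v‖ ^ 2 ≤ mRic n p v v := by
  have h1 := hK p (dCh p p v)
  rw [quadForm_eq, ← inner_centre, real_inner_self_eq_norm_sq] at h1
  exact h1

/-- **Bochner's inequality** on the manifold. -/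
theorem mBochner_ineq {K : ℝ} (hK : HasRicciLowerBound n M K)
    (hf : ContMDiffAt 𝓘E 𝓘(ℝ, ℝ) 3 f p) :
    mHessSq n f p + mGam n f (mLap n f) p + K * mGam n f f p ≤
      (1 / 2) * mLap n (mGam n f f) p := by
  rw [mBochner hf, mGam_self]
  have := mRic_ge hK p (mgrad n f p)
  linarith

end Crest.Agent.R247.Bo84
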