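import Crest.Agent.R247.Bo7_84

/-!
Row 247, block (6-B), file 8 (helper84): sum, product and chain rules on the manifold for the
gradient, `⟨df, dh⟩`, the Laplacian and the Hessian; locality.
-/

set_option autoImplicit false
set_option maxSynthPendingDepth 3
set_option linter.unusedSectionVars false

open scoped ContDiff Topology Manifold
open Filter Set Bundle
open Crest.GeometryTopology.CoordMetric Crest.GeometryTopology.ChartCurvature
  Crest.GeometryTopology.PointedLimit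
open Crest.Agent.R202.Tens

noncomputable section

namespace Crest.Agent.R247.Bo84

variable {n : ℕ} {M : Type*} [TopologicalSpace M] [ChartedSpace (EuclideanSpace ℝ (Fin n)) M]
  [IsManifold 𝓘(ℝ, EuclideanSpace ℝ (Fin n)) ∞ M]
  [RiemannianBundle (fun x : M => TangentSpace 𝓘(ℝ, EuclideanSpace ℝ (Fin n)) x)]
  [IsContMDiffRiemannianBundle 𝓘(ℝ, EuclideanSpace ℝ (Fin n)) ∞ (EuclideanSpace ℝ (Fin n))
      (fun x : M => TangentSpace 𝓘(ℝ, EuclideanSpace ℝ (Fin n)) x)]

local notation "𝔼" => EuclideanSpace ℝ (Fin n)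
local notation "𝓘E" => 𝓘(ℝ, EuclideanSpace ℝ (Fin n))

variable {p : M} {f h k f' h' : M → ℝ}

lemma differentiableAt_centre (hf : MDifferentiableAt 𝓘E 𝓘(ℝ, ℝ) f p) :
    DifferentiableAt ℝ (inCh n p f) (chartCentre n M p) := by
  refine differentiableAt_inCh (centre_mem p) ?_
  have h2 : (chartAt 𝔼 p).symm (chartCentre n M p) = p :=
    (chartAt 𝔼 p).left_inv (mem_chart_source 𝔼 p)
  rw [h2]
  exact hf

lemma inCh_centre (f : M → ℝ) (p : M) : inCh n p f (chartCentre n M p) = f p := by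
  have h2 : (chartAt 𝔼 p).symm (chartCentre n M p) = p :=
    (chartAt 𝔼 p).left_inv (mem_chart_source 𝔼 p)
  rw [inCh, h2]

lemma inCh_congr (hff : f =ᶠ[𝓝 p] f') :
    inCh n p f =ᶠ[𝓝 (chartCentre n M p)] inCh n p f' := by
  have h2 : (chartAt 𝔼 p).symm (chartCentre n M p) = p :=
    (chartAt 𝔼 p).left_inv (mem_chart_source 𝔼 p)
  have h1 : Tendsto (chartAt 𝔼 p).symm (𝓝 (chartCentre n M p)) (𝓝 p) := by
    have := (chartAt 𝔼 p).continuousAt_symm (centre_mem (n := n) p)
    rw [ContinuousAt, h2] at this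
    exact this
  exact h1.eventually hff

/-! ### locality -/

lemma mGam_congr (hff : f =ᶠ[𝓝 p] f') (hhh : h =ᶠ[𝓝 p] h') :
    mGam n f h p = mGam n f' h' p := gam_congr (inCh_congr hff) (inCh_congr hhh)

lemma mLap_congr (hff : f =ᶠ[𝓝 p] f') : mLap n f p = mLap n f' p := lap_congr (inCh_congr hff)

lemma mHessSq_congr (hff : f =ᶠ[𝓝 p] f') : mHessSq n f p = mHessSq n f' p :=
  hessSq_congr (inCh_congr hff)

lemma mHess_congr (hff : f =ᶠ[𝓝 p] f') (v w : TangentSpace 𝓘E p) :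
    mHess n f p v w = mHess n f' p v w := by
  rw [mHess, mHess, hess_congr (inCh_congr hff)]

lemma mgrad_congr (hff : f =ᶠ[𝓝 p] f') : mgrad n f p = mgrad n f' p := by
  rw [mgrad, mgrad, grad_congr (inCh_congr hff)]

/-! ### first order -/

lemma mgrad_add (hf : MDifferentiableAt 𝓘E 𝓘(ℝ, ℝ) f p)
    (hh : MDifferentiableAt 𝓘E 𝓘(ℝ, ℝ) h p) :
    mgrad n (fun q => f q + h q) p = mgrad n f p + mgrad n h p := by
  have h1 := grad_add (g := chartMetric n M p) (differentiableAt_centre hf)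
    (differentiableAt_centre hh)
  exact (congrArg (dSy p (chartCentre n M p)) h1).trans (map_add _ _ _)

lemma mgrad_sub (hf : MDifferentiableAt 𝓘E 𝓘(ℝ, ℝ) f p)
    (hh : MDifferentiableAt 𝓘E 𝓘(ℝ, ℝ) h p) :
    mgrad n (fun q => f q - h q) p = mgrad n f p - mgrad n h p := by
  have h1 := grad_sub (g := chartMetric n M p) (differentiableAt_centre hf)
    (differentiableAt_centre hh)
  exact (congrArg (dSy p (chartCentre n M p)) h1).trans (map_sub _ _ _)

lemma mgrad_const_mul (c : ℝ) (hf : MDifferentiableAt 𝓘E 𝓘(ℝ, ℝ) f p) :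
    mgrad n (fun q => c * f q) p = c • mgrad n f p := by
  have h1 := grad_const_mul (g := chartMetric n M p) c (differentiableAt_centre hf)
  exact (congrArg (dSy p (chartCentre n M p)) h1).trans (map_smul _ _ _)

lemma mgrad_const (c : ℝ) : mgrad n (fun _ => c) p = 0 := by
  have h1 := grad_const (g := chartMetric n M p) (x := chartCentre n M p) c
  exact (congrArg (dSy p (chartCentre n M p)) h1).trans (map_zero _)

lemma mgrad_mul (hf : MDifferentiableAt 𝓘E 𝓘(ℝ, ℝ) f p)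
    (hh : MDifferentiableAt 𝓘E 𝓘(ℝ, ℝ) h p) :
    mgrad n (fun q => f q * h q) p = f p • mgrad n h p + h p • mgrad n f p := by
  have h1 := grad_mul (g := chartMetric n M p) (differentiableAt_centre hf)
    (differentiableAt_centre hh)
  rw [inCh_centre, inCh_centre] at h1
  refine (congrArg (dSy p (chartCentre n M p)) h1).trans ?_
  rw [map_add, map_smul, map_smul]
  rfl

lemma mgrad_comp {φ : ℝ → ℝ} (hφ : DifferentiableAt ℝ φ (f p))
    (hf : MDifferentiableAt 𝓘E 𝓘(ℝ, ℝ) f p) :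
    mgrad n (fun q => φ (f q)) p = deriv φ (f p) • mgrad n f p := by
  have hφ' : DifferentiableAt ℝ φ (inCh n p f (chartCentre n M p)) := by
    rw [inCh_centre]; exact hφ
  have h1 := grad_comp (g := chartMetric n M p) hφ' (differentiableAt_centre hf)
  rw [inCh_centre] at h1
  refine (congrArg (dSy p (chartCentre n M p)) h1).trans ?_
  rw [map_smul]
  rfl

lemma mGam_add_left (hf : MDifferentiableAt 𝓘E 𝓘(ℝ, ℝ) f p)
    (hh : MDifferentiableAt 𝓘E 𝓘(ℝ, ℝ) h p) :
    mGam n (fun q => f q + h q) k p = mGam n f k p + mGam n h k p :=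
  gam_add_left (differentiableAt_centre hf) (differentiableAt_centre hh)

lemma mGam_sub_left (hf : MDifferentiableAt 𝓘E 𝓘(ℝ, ℝ) f p)
    (hh : MDifferentiableAt 𝓘E 𝓘(ℝ, ℝ) h p) :
    mGam n (fun q => f q - h q) k p = mGam n f k p - mGam n h k p :=
  gam_sub_left (differentiableAt_centre hf) (differentiableAt_centre hh)

lemma mGam_const_mul_left (c : ℝ) (hf : MDifferentiableAt 𝓘E 𝓘(ℝ, ℝ) f p) :
    mGam n (fun q => c * f q) k p = c * mGam n f k p :=
  gam_const_mul_left c (differentiableAt_centre hf)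

lemma mGam_const_left (c : ℝ) : mGam n (fun _ => c) k p = 0 := gam_const_left c

lemma mGam_mul_left (hf : MDifferentiableAt 𝓘E 𝓘(ℝ, ℝ) f p)
    (hh : MDifferentiableAt 𝓘E 𝓘(ℝ, ℝ) h p) :
    mGam n (fun q => f q * h q) k p = f p * mGam n h k p + h p * mGam n f k p := by
  have h1 := gam_mul_left (g := chartMetric n M p) (k := inCh n p k)
    (differentiableAt_centre hf) (differentiableAt_centre hh)
  rw [inCh_centre, inCh_centre] at h1
  exact h1

lemma mGam_comp_left {φ : ℝ → ℝ} (hφ : DifferentiableAt ℝ φ (f p))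
    (hf : MDifferentiableAt 𝓘E 𝓘(ℝ, ℝ) f p) :
    mGam n (fun q => φ (f q)) k p = deriv φ (f p) * mGam n f k p := by
  have hφ' : DifferentiableAt ℝ φ (inCh n p f (chartCentre n M p)) := by
    rw [inCh_centre]; exact hφ
  have h1 := gam_comp_left (g := chartMetric n M p) (k := inCh n p k) hφ'
    (differentiableAt_centre hf)
  rw [inCh_centre] at h1
  exact h1

lemma mGam_add_right (hf : MDifferentiableAt 𝓘E 𝓘(ℝ, ℝ) f p)
    (hh : MDifferentiableAt 𝓘E 𝓘(ℝ, ℝ) h p) :
    mGam n k (fun q => f q + h q) p = mGam n k f p + mGam n k h p :=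
  gam_add_right (differentiableAt_centre hf) (differentiableAt_centre hh)

lemma mGam_sub_right (hf : MDifferentiableAt 𝓘E 𝓘(ℝ, ℝ) f p)
    (hh : MDifferentiableAt 𝓘E 𝓘(ℝ, ℝ) h p) :
    mGam n k (fun q => f q - h q) p = mGam n k f p - mGam n k h p :=
  gam_sub_right (differentiableAt_centre hf) (differentiableAt_centre hh)

lemma mGam_const_mul_right (c : ℝ) (hf : MDifferentiableAt 𝓘E 𝓘(ℝ, ℝ) f p) :
    mGam n k (fun q => c * f q) p = c * mGam n k f p :=
  gam_const_mul_right c (differentiableAt_centre hf)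

lemma mGam_const_right (c : ℝ) : mGam n k (fun _ => c) p = 0 := gam_const_right c

lemma mGam_mul_right (hf : MDifferentiableAt 𝓘E 𝓘(ℝ, ℝ) f p)
    (hh : MDifferentiableAt 𝓘E 𝓘(ℝ, ℝ) h p) :
    mGam n k (fun q => f q * h q) p = f p * mGam n k h p + h p * mGam n k f p := by
  rw [mGam_comm, mGam_mul_left hf hh, mGam_comm h, mGam_comm f]

lemma mGam_comp_right {φ : ℝ → ℝ} (hφ : DifferentiableAt ℝ φ (f p))
    (hf : MDifferentiableAt 𝓘E 𝓘(ℝ, ℝ) f p) :
    mGam n k (fun q => φ (f q)) p = deriv φ (f p) * mGam n k f p := by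
  rw [mGam_comm, mGam_comp_left hφ hf, mGam_comm f]

/-! ### second order -/

lemma mLap_add (hf : ContMDiffAt 𝓘E 𝓘(ℝ, ℝ) 2 f p) (hh : ContMDiffAt 𝓘E 𝓘(ℝ, ℝ) 2 h p) :
    mLap n (fun q => f q + h q) p = mLap n f p + mLap n h p :=
  lap_add (isRiemannianOn_chartMetric p) (centre_mem p) (contDiffAt_centre two_le_infty hf)
    (contDiffAt_centre two_le_infty hh)

lemma mLap_sub (hf : ContMDiffAt 𝓘E 𝓘(ℝ, ℝ) 2 f p) (hh : ContMDiffAt 𝓘E 𝓘(ℝ, ℝ) 2 h p) :
    mLap n (fun q => f q - h q) p = mLap n f p - mLap n h p :=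
  lap_sub (isRiemannianOn_chartMetric p) (centre_mem p) (contDiffAt_centre two_le_infty hf)
    (contDiffAt_centre two_le_infty hh)

lemma mLap_const_mul (c : ℝ) (hf : ContMDiffAt 𝓘E 𝓘(ℝ, ℝ) 2 f p) :
    mLap n (fun q => c * f q) p = c * mLap n f p :=
  lap_const_mul (isRiemannianOn_chartMetric p) (centre_mem p) c
    (contDiffAt_centre two_le_infty hf)

lemma mLap_const (c : ℝ) : mLap n (fun _ => c) p = 0 := lap_const c

lemma mLap_mul (hf : ContMDiffAt 𝓘E 𝓘(ℝ, ℝ) 2 f p) (hh : ContMDiffAt 𝓘E 𝓘(ℝ, ℝ) 2 h p) :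
    mLap n (fun q => f q * h q) p = f p * mLap n h p + h p * mLap n f p + 2 * mGam n f h p := by
  have h1 := lap_mul (isRiemannianOn_chartMetric p) (centre_mem p)
    (contDiffAt_centre (n := n) two_le_infty hf) (contDiffAt_centre two_le_infty hh)
  rw [inCh_centre, inCh_centre] at h1
  exact h1

lemma mLap_comp {φ : ℝ → ℝ} (hφ : ContDiffAt ℝ 2 φ (f p)) (hf : ContMDiffAt 𝓘E 𝓘(ℝ, ℝ) 2 f p) :
    mLap n (fun q => φ (f q)) p =
      deriv φ (f p) * mLap n f p + deriv (deriv φ) (f p) * mGam n f f p := by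
  have hφ' : ContDiffAt ℝ 2 φ (inCh n p f (chartCentre n M p)) := by
    rw [inCh_centre]; exact hφ
  have h1 := lap_comp (isRiemannianOn_chartMetric p) (centre_mem p) hφ'
    (contDiffAt_centre (n := n) two_le_infty hf)
  rw [inCh_centre] at h1
  exact h1

lemma mHess_add (hf : ContMDiffAt 𝓘E 𝓘(ℝ, ℝ) 2 f p) (hh : ContMDiffAt 𝓘E 𝓘(ℝ, ℝ) 2 h p)
    (v w : TangentSpace 𝓘E p) :
    mHess n (fun q => f q + h q) p v w = mHess n f p v w + mHess n h p v w :=
  hess_add (contDiffAt_centre two_le_infty hf) (contDiffAt_centre two_le_infty hh) _ _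

lemma mHess_const_mul (c : ℝ) (hf : ContMDiffAt 𝓘E 𝓘(ℝ, ℝ) 2 f p)
    (v w : TangentSpace 𝓘E p) :
    mHess n (fun q => c * f q) p v w = c * mHess n f p v w :=
  hess_const_mul c (contDiffAt_centre two_le_infty hf) _ _

lemma mHess_sub (hf : ContMDiffAt 𝓘E 𝓘(ℝ, ℝ) 2 f p) (hh : ContMDiffAt 𝓘E 𝓘(ℝ, ℝ) 2 h p)
    (v w : TangentSpace 𝓘E p) :
    mHess n (fun q => f q - h q) p v w = mHess n f p v w - mHess n h p v w := by
  have h1 : (fun q => f q - h q) = fun q => f q + (-1) * h q := by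
    ext q; ring
  have h2 : ContMDiffAt 𝓘E 𝓘(ℝ, ℝ) 2 (fun q => (-1) * h q) p := contMDiffAt_const.mul hh
  rw [h1, mHess_add hf h2, mHess_const_mul (-1) hh]
  ring

lemma mHess_mul (hf : ContMDiffAt 𝓘E 𝓘(ℝ, ℝ) 2 f p) (hh : ContMDiffAt 𝓘E 𝓘(ℝ, ℝ) 2 h p)
    (v w : TangentSpace 𝓘E p) :
    mHess n (fun q => f q * h q) p v w = f p * mHess n h p v w + h p * mHess n f p v w +
      dM n f p v * dM n h p w + dM n h p v * dM n f p w := by
  have h1 := hess_mul (g := chartMetric n M p) (contDiffAt_centre (n := n) two_le_infty hf)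
    (contDiffAt_centre two_le_infty hh) (dCh p p v) (dCh p p w)
  rw [inCh_centre, inCh_centre] at h1
  have e : ∀ (f : M → ℝ) (v : TangentSpace 𝓘E p),
      dM n f p v = fderiv ℝ (inCh n p f) (chartCentre n M p) (dCh p p v) :=
    fun f v => mfderiv_centre f p v
  rw [e, e, e, e]
  exact h1

lemma mHess_comp {φ : ℝ → ℝ} (hφ : ContDiffAt ℝ 2 φ (f p))
    (hf : ContMDiffAt 𝓘E 𝓘(ℝ, ℝ) 2 f p) (v w : TangentSpace 𝓘E p) :
    mHess n (fun q => φ (f q)) p v w = deriv φ (f p) * mHess n f p v w +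
      deriv (deriv φ) (f p) * (dM n f p v * dM n f p w) := by
  have hφ' : ContDiffAt ℝ 2 φ (inCh n p f (chartCentre n M p)) := by
    rw [inCh_centre]; exact hφ
  have h1 := hess_comp (g := chartMetric n M p) hφ'
    (contDiffAt_centre (n := n) two_le_infty hf) (dCh p p v) (dCh p p w)
  rw [inCh_centre] at h1
  have e : ∀ (f : M → ℝ) (v : TangentSpace 𝓘E p),
      dM n f p v = fderiv ℝ (inCh n p f) (chartCentre n M p) (dCh p p v) :=
    fun f v => mfderiv_centre f p v
  rw [e, e]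
  exact h1

/-- the full polarised Bochner identity is not needed; this is the form with the deviation from
the metric: `|Hess f - c g|² = |Hess f|² - 2 c Δf + n c²`. -/
lemma mHessSq_sub_metric (hf : ContMDiffAt 𝓘E 𝓘(ℝ, ℝ) 2 f p) (c : ℝ)
    {e : Fin n → TangentSpace 𝓘E p}
    (he : ∀ a b, inner ℝ (e a) (e b) = if a = b then (1:ℝ) else 0) :
    ∑ a, ∑ b, (mHess n f p (e a) (e b) - c * inner ℝ (e a) (e b)) ^ 2 =
      mHessSq n f p - 2 * c * mLap n f p + n * c ^ 2 := by
  rw [mHessSq_frame hf he, mLap_frame hf he]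
  simp only [he]
  have h1 : ∀ a b : Fin n, (mHess n f p (e a) (e b) - c * (if a = b then (1:ℝ) else 0)) ^ 2 =
      mHess n f p (e a) (e b) ^ 2 +
        (if a = b then (-2 * c * mHess n f p (e a) (e b) + c ^ 2) else 0) := by
    intro a b
    split_ifs <;> ring
  simp only [h1, Finset.sum_add_distrib, Finset.sum_ite_eq, Finset.mem_univ, if_true]
  rw [← Finset.mul_sum]
  simp only [Finset.sum_const, Finset.card_univ, Fintype.card_fin, nsmul_eq_mul]
  ring

end Crest.Agent.R247.Bo84
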