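import Mathlib

/-!
R247 (helper342), block (1-B), file 1: base case of Lemma CE, the abstract differential inequality.

For a vector field `V` on a normed space with a varying bilinear form `G` (the metric in a chart) and
two solutions of `p' = s⁻¹ V(p)`, the quantity `w = G(p)(q - p, q - p)` satisfies
`w' ≥ s⁻¹ (lam - ε) w` near a point where `(L_V G)(ζ,ζ) ≥ lam G(ζ,ζ)`.
-/

set_option autoImplicit false
set_option maxSynthPendingDepth 3

open Filter Set Topology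

namespace Crest.Agent.R247.Bs342

section infin
variable {E : Type*} [NormedAddCommGroup E] [NormedSpace ℝ E]

/-- the Lie derivative of `G` along `V`, with `V' = DV` at the point -/
noncomputable def lieq (G : E → E →L[ℝ] E →L[ℝ] ℝ) (V : E → E) (V' : E →L[ℝ] E) (a ζ : E) : ℝ :=
  fderiv ℝ G a (V a) ζ ζ + G a (V' ζ) ζ + G a ζ (V' ζ)

/-- **infinitesimal inequality near a point** -/
theorem lie_near {G : E → E →L[ℝ] E →L[ℝ] ℝ} {V : E → E} {V' : E →L[ℝ] E} {a : E}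
    (hV : HasStrictFDerivAt V V' a) (hG : ContinuousAt G a) (hG' : ContinuousAt (fderiv ℝ G) a)
    {c : ℝ} (hc : 0 < c) (hco : ∀ ζ, c * ‖ζ‖ ^ 2 ≤ G a ζ ζ) {lam : ℝ}
    (hlam : ∀ ζ, lam * G a ζ ζ ≤ lieq G V V' a ζ) {ε : ℝ} (hε : 0 < ε) :
    ∀ᶠ r : E × E in 𝓝 (a, a), (lam - ε) * G r.1 (r.2 - r.1) (r.2 - r.1) ≤
      fderiv ℝ G r.1 (V r.1) (r.2 - r.1) (r.2 - r.1) + G r.1 (V r.2 - V r.1) (r.2 - r.1) +
        G r.1 (r.2 - r.1) (V r.2 - V r.1) := by
  -- the bilinear form `B p`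
  set B : E → E →L[ℝ] E →L[ℝ] ℝ := fun p =>
    fderiv ℝ G p (V p) + (G p).comp V' + ((G p).flip.comp V').flip - (lam - ε) • G p with hB
  have hBa : ∀ p ζ, B p ζ ζ = fderiv ℝ G p (V p) ζ ζ + G p (V' ζ) ζ + G p ζ (V' ζ) -
      (lam - ε) * G p ζ ζ := by
    intro p ζ
    simp [hB]
  have hBc : ContinuousAt B a := by
    have h1 : ContinuousAt (fun p => fderiv ℝ G p (V p)) a := hG'.clm_apply hV.continuousAt
    have h2 : ContinuousAt (fun p => (G p).comp V') a := hG.clm_comp continuousAt_const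
    have h3 : ContinuousAt (fun p => (G p).flip) a :=
      (ContinuousLinearMap.flipₗᵢ ℝ E E ℝ).continuous.continuousAt.comp hG
    have h4 : ContinuousAt (fun p => (G p).flip.comp V') a := h3.clm_comp continuousAt_const
    have h5 : ContinuousAt (fun p => ((G p).flip.comp V').flip) a :=
      (ContinuousLinearMap.flipₗᵢ ℝ E E ℝ).continuous.continuousAt.comp h4
    exact ((h1.add h2).add h5).sub (hG.const_smul (lam - ε))
  have hB0 : ∀ ζ, ε * c * ‖ζ‖ ^ 2 ≤ B a ζ ζ := by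
    intro ζ
    rw [hBa]
    have h1 := hlam ζ
    have h2 := hco ζ
    unfold lieq at h1
    nlinarith
  set K : ℝ := ‖G a‖ + 1 with hK
  have hK0 : 0 < K := by have := norm_nonneg (G a); linarith
  have e1 : ∀ᶠ p in 𝓝 a, ‖B p - B a‖ < ε * c / 2 := by
    have : Tendsto (fun p => ‖B p - B a‖) (𝓝 a) (𝓝 ‖B a - B a‖) := (hBc.sub continuousAt_const).norm
    rw [sub_self, norm_zero] at this
    exact this.eventually (gt_mem_nhds (by positivity))
  have e2 : ∀ᶠ p in 𝓝 a, ‖G p‖ < K := by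
    have : Tendsto (fun p => ‖G p‖) (𝓝 a) (𝓝 ‖G a‖) := hG.norm
    exact this.eventually (gt_mem_nhds (by rw [hK]; linarith))
  have e3 : ∀ᶠ r : E × E in 𝓝 (a, a), ‖V r.1 - V r.2 - V' (r.1 - r.2)‖ ≤
      (ε * c / (4 * K)) * ‖r.1 - r.2‖ :=
    hV.isLittleO.def (by positivity)
  have f1 : ∀ᶠ r : E × E in 𝓝 (a, a), ‖B r.1 - B a‖ < ε * c / 2 :=
    (continuous_fst.tendsto (a, a)).eventually e1
  have f2 : ∀ᶠ r : E × E in 𝓝 (a, a), ‖G r.1‖ < K := (continuous_fst.tendsto (a, a)).eventually e2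
  have f3 : ∀ᶠ r : E × E in 𝓝 (a, a), ‖V r.2 - V r.1 - V' (r.2 - r.1)‖ ≤
      (ε * c / (4 * K)) * ‖r.2 - r.1‖ := by
    have : Tendsto (fun r : E × E => (r.2, r.1)) (𝓝 (a, a)) (𝓝 (a, a)) :=
      (continuous_snd.prodMk continuous_fst).tendsto (a, a)
    exact this.eventually e3
  filter_upwards [f1, f2, f3] with r h1 h2 h3
  set p := r.1
  set ζ := r.2 - r.1 with hζ
  set ρ := V r.2 - V r.1 - V' ζ with hρ
  have hVq : V r.2 - V r.1 = V' ζ + ρ := by rw [hρ]; abel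
  rw [hVq]
  have g1 : |B p ζ ζ - B a ζ ζ| ≤ ε * c / 2 * ‖ζ‖ ^ 2 := by
    have : B p ζ ζ - B a ζ ζ = (B p - B a) ζ ζ := by simp
    rw [this, ← Real.norm_eq_abs]
    calc ‖(B p - B a) ζ ζ‖ ≤ ‖B p - B a‖ * ‖ζ‖ * ‖ζ‖ := (B p - B a).le_opNorm₂ ζ ζ
      _ ≤ ε * c / 2 * ‖ζ‖ * ‖ζ‖ := by gcongr
      _ = ε * c / 2 * ‖ζ‖ ^ 2 := by ring
  have g2 : |G p ρ ζ| ≤ ε * c / 4 * ‖ζ‖ ^ 2 := by
    rw [← Real.norm_eq_abs]
    calc ‖G p ρ ζ‖ ≤ ‖G p‖ * ‖ρ‖ * ‖ζ‖ := (G p).le_opNorm₂ ρ ζ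
      _ ≤ K * (ε * c / (4 * K) * ‖ζ‖) * ‖ζ‖ := by gcongr
      _ = ε * c / 4 * ‖ζ‖ ^ 2 := by field_simp
  have g3 : |G p ζ ρ| ≤ ε * c / 4 * ‖ζ‖ ^ 2 := by
    rw [← Real.norm_eq_abs]
    calc ‖G p ζ ρ‖ ≤ ‖G p‖ * ‖ζ‖ * ‖ρ‖ := (G p).le_opNorm₂ ζ ρ
      _ ≤ K * ‖ζ‖ * (ε * c / (4 * K) * ‖ζ‖) := by gcongr
      _ = ε * c / 4 * ‖ζ‖ ^ 2 := by field_simp
  have g4 := hB0 ζ
  have g5 := hBa p ζ
  have h6 : G p (V' ζ + ρ) ζ = G p (V' ζ) ζ + G p ρ ζ := by simp
  have h7 : G p ζ (V' ζ + ρ) = G p ζ (V' ζ) + G p ζ ρ := by simp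
  rw [h6, h7]
  have a1 := (abs_le.1 g1).1
  have a2 := (abs_le.1 g2).1
  have a3 := (abs_le.1 g3).1
  linarith

end infin

section ode
variable {E : Type*} [NormedAddCommGroup E] [NormedSpace ℝ E]

/-- **ODE comparison**: `w(a) ≤ (a/b)^lam w(b)` in the form `w(a) a^{-lam} ≤ w(b) b^{-lam}`. -/
theorem ode_pair {G : E → E →L[ℝ] E →L[ℝ] ℝ} {V : E → E} {lam : ℝ} {p q : ℝ → E} {a b : ℝ}
    (ha : 0 < a) (hab : a ≤ b)
    (hp : ContinuousOn p (Icc a b)) (hq : ContinuousOn q (Icc a b))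
    (hp' : ∀ s ∈ Ioo a b, HasDerivAt p (s⁻¹ • V (p s)) s)
    (hq' : ∀ s ∈ Ioo a b, HasDerivAt q (s⁻¹ • V (q s)) s)
    (hGc : ∀ s ∈ Icc a b, ContinuousAt G (p s))
    (hGd : ∀ s ∈ Ioo a b, DifferentiableAt ℝ G (p s))
    (hin : ∀ s ∈ Ioo a b, lam * G (p s) (q s - p s) (q s - p s) ≤
      fderiv ℝ G (p s) (V (p s)) (q s - p s) (q s - p s) +
      G (p s) (V (q s) - V (p s)) (q s - p s) + G (p s) (q s - p s) (V (q s) - V (p s))) :
    G (p a) (q a - p a) (q a - p a) ≤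
      Real.exp (lam * (Real.log a - Real.log b)) * G (p b) (q b - p b) (q b - p b) := by
  set w : ℝ → ℝ := fun s => G (p s) (q s - p s) (q s - p s) with hw
  set F : ℝ → ℝ := fun s => Real.exp (-(lam * Real.log s)) * w s with hF
  have hwc : ContinuousOn w (Icc a b) := by
    have h1 : ContinuousOn (fun s => G (p s)) (Icc a b) := by
      intro s hs
      exact (hGc s hs).comp_continuousWithinAt (hp s hs)
    have h2 : ContinuousOn (fun s => q s - p s) (Icc a b) := hq.sub hp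
    exact (h1.clm_apply h2).clm_apply h2
  have hFc : ContinuousOn F (Icc a b) := by
    have h1 : ContinuousOn (fun s => Real.exp (-(lam * Real.log s))) (Icc a b) := by
      apply Real.continuous_exp.comp_continuousOn
      apply ContinuousOn.neg
      apply ContinuousOn.mul continuousOn_const
      exact Real.continuousOn_log.mono fun s hs => (ha.trans_le hs.1).ne'
    exact h1.mul hwc
  have hwd : ∀ s ∈ Ioo a b, HasDerivAt w (s⁻¹ * (fderiv ℝ G (p s) (V (p s)) (q s - p s) (q s - p s) +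
      G (p s) (V (q s) - V (p s)) (q s - p s) + G (p s) (q s - p s) (V (q s) - V (p s)))) s := by
    intro s hs
    have h1 : HasDerivAt (fun s => G (p s)) (fderiv ℝ G (p s) (s⁻¹ • V (p s))) s :=
      (hGd s hs).hasFDerivAt.comp_hasDerivAt s (hp' s hs)
    have h2 : HasDerivAt (fun s => q s - p s) (s⁻¹ • V (q s) - s⁻¹ • V (p s)) s :=
      (hq' s hs).sub (hp' s hs)
    have h3 := (h1.clm_apply h2).clm_apply h2
    refine h3.congr_deriv ?_
    rw [← smul_sub]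
    simp only [map_smul, add_apply, FunLike.coe_smul, Pi.smul_apply, smul_eq_mul]
    ring
  have hFd : ∀ s ∈ Ioo a b, ∃ F', HasDerivAt F F' s ∧ 0 ≤ F' := by
    intro s hs
    have hs0 : 0 < s := ha.trans hs.1
    have h1 : HasDerivAt (fun s => Real.exp (-(lam * Real.log s)))
        (Real.exp (-(lam * Real.log s)) * (-(lam * s⁻¹))) s :=
      (((Real.hasDerivAt_log hs0.ne').const_mul lam).neg).exp
    refine ⟨_, h1.mul (hwd s hs), ?_⟩
    have h2 := hin s hs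
    have h3 : 0 < Real.exp (-(lam * Real.log s)) := Real.exp_pos _
    have h4 : 0 < s⁻¹ := by positivity
    have key : 0 ≤ Real.exp (-(lam * Real.log s)) * (s⁻¹ *
        ((fderiv ℝ G (p s) (V (p s)) (q s - p s) (q s - p s) +
      G (p s) (V (q s) - V (p s)) (q s - p s) + G (p s) (q s - p s) (V (q s) - V (p s))) -
        lam * w s)) := by
      apply mul_nonneg h3.le
      apply mul_nonneg h4.le
      rw [hw]
      linarith
    calc (0 : ℝ) ≤ _ := key
      _ = _ := by ring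
  have hmono : MonotoneOn F (Icc a b) := by
    apply monotoneOn_of_deriv_nonneg (convex_Icc a b) hFc
    · intro s hs
      rw [interior_Icc] at hs
      obtain ⟨F', h1, _⟩ := hFd s hs
      exact h1.differentiableAt.differentiableWithinAt
    · intro s hs
      rw [interior_Icc] at hs
      obtain ⟨F', h1, h2⟩ := hFd s hs
      rw [h1.deriv]
      exact h2
  have h1 := hmono (left_mem_Icc.2 hab) (right_mem_Icc.2 hab) hab
  simp only [hF, hw] at h1
  have h2 : Real.exp (lam * (Real.log a - Real.log b)) =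
      Real.exp (lam * Real.log a) * Real.exp (-(lam * Real.log b)) := by
    rw [← Real.exp_add]; congr 1; ring
  rw [h2, mul_assoc]
  calc G (p a) (q a - p a) (q a - p a) = Real.exp (lam * Real.log a) *
      (Real.exp (-(lam * Real.log a)) * G (p a) (q a - p a) (q a - p a)) := by
        rw [← mul_assoc, ← Real.exp_add]; simp
    _ ≤ _ := by
        apply mul_le_mul_of_nonneg_left h1 (Real.exp_pos _).le

end ode

end Crest.Agent.R247.Bs342
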