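import Crest.Agent.R247.Far0_553

/-!
# Common calculus of block (2): the structure `GRep`

`G a b u = ⟨∇f_a, ∇f_b⟩(u)`, `f_a = d_a²/2`, as a jointly measurable representative of the radial
derivatives of 688's `Rad`.
-/

set_option autoImplicit false
set_option linter.unusedSectionVars false
open MeasureTheory Set Filter Topology Metric
open scoped ENNReal NNReal

noncomputable section
namespace Crest.Agent.R247.Cal550

open Crest.Agent.R247.Mcp688 Crest.Agent.R247.Far553

variable {n : ℕ} {κ : ℝ} {X : Type*} [MetricSpace X] [MeasurableSpace X] [BorelSpace X]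
  {μ : Measure X}

/-- `f_a = d_a² / 2` -/
def ff (a u : X) : ℝ := dist a u ^ 2 / 2

/-- `G a b u = ⟨∇f_a, ∇f_b⟩(u)` -/
structure GRep (C : Rad n κ X μ) (G : X → X → X → ℝ) : Prop where
  meas : Measurable (fun p : X × X × X => G p.1 p.2.1 p.2.2)
  symm : ∀ a b u, G a b u = G b a u
  self : ∀ a u, G a a u = dist a u ^ 2
  bd : ∀ a b u, |G a b u| ≤ dist a u * dist b u
  rd : ∀ a b, RD C a (fun u => dist b u ^ 2 / 2) (G a b)

/-- `⟨∇f_x, ∇d_w⟩(z)` -/
def Ed (G : X → X → X → ℝ) (x z w : X) : ℝ := G x w z / dist z w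

/-- `P_{x,v}(u) = ⟨∇f_x, ∇f_v⟩(u) - f_x(u) - f_v(u) + f_x(v)` -/
def PP (G : X → X → X → ℝ) (x v u : X) : ℝ := G x v u - ff x u - ff v u + ff x v

/-- `e_x(u,w) = ⟨∇f_x, ∇d_w⟩(u) - (d_w(u) - d_w(x))` -/
def ee (G : X → X → X → ℝ) (x u w : X) : ℝ := Ed G x u w - (dist u w - dist x w)

lemma ee_eq_Rw (G : X → X → X → ℝ) (x u w : X) : ee G x u w = Rw x u w (Ed G x u w) := rfl

lemma ff_symm (a u : X) : ff a u = ff u a := by unfold ff; rw [dist_comm]

lemma ff_nonneg (a u : X) : 0 ≤ ff a u := by unfold ff; positivity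

lemma ff_self (a : X) : ff a a = 0 := by unfold ff; simp

namespace GRep

variable {C : Rad n κ X μ} {G : X → X → X → ℝ} (h : GRep C G)

include h

lemma PP_symm (x v u : X) : PP G x v u = PP G v x u := by
  unfold PP; rw [h.symm x v u, ff_symm x v]; ring

lemma PP_self (x u : X) : PP G x x u = 0 := by
  unfold PP; rw [h.self, ff_self]; unfold ff; ring

lemma meas_Ed (x : X) [SecondCountableTopology X] :
    Measurable (Function.uncurry (fun z w => Ed G x z w)) := by
  have h1 : Measurable (fun p : X × X => G x p.2 p.1) :=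
    h.meas.comp (measurable_const.prodMk (measurable_snd.prodMk measurable_fst))
  have h2 : Measurable (fun p : X × X => dist p.1 p.2) := measurable_dist
  exact h1.div h2

/-- `Ed G x · w` is the radial derivative of `d_w`. -/
lemma rd_dist (hμ : ∀ w : X, μ {w} = 0) (x w : X) :
    RD C x (fun z => dist z w) (fun z => Ed G x z w) := by
  have hne : ∀ᵐ z ∂μ, z ≠ w := by
    have : {z | z ≠ w}ᶜ = ({w} : Set X) := by ext; simp
    rw [ae_iff]
    simpa using hμ w
  filter_upwards [h.rd x w, C.ae_U x, hne] with z hz hU hzw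
  have hd : 0 < dist z w := dist_pos.2 hzw
  have e1 : (fun t : ℝ => dist (C.T x t z) w) =
      fun t => Real.sqrt (2 * (dist w (C.T x t z) ^ 2 / 2)) := by
    funext t
    rw [mul_div_cancel₀ _ (two_ne_zero), Real.sqrt_sq dist_nonneg, dist_comm]
  rw [e1]
  have h1 := (hz.const_mul (2 : ℝ)).sqrt (by
    simp only [C.T_one x z hU]
    rw [dist_comm w z]
    positivity)
  simp only [C.T_one x z hU] at h1
  convert h1 using 1
  rw [mul_div_cancel₀ _ (two_ne_zero), Real.sqrt_sq dist_nonneg, dist_comm w z, Ed]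
  field_simp

/-- consumption of block (1) -/
lemma far_le [SecondCountableTopology X] (hμ : ∀ w : X, μ {w} = 0) {x p : X} {r B : ℝ}
    (hF : ∀ Dw : X → X → ℝ, Measurable (Function.uncurry Dw) →
          (∀ w, RD C x (fun z => dist z w) (fun z => Dw z w)) →
          ∫⁻ z in ball x r, ∫⁻ w in ann p 4 8,
              ENNReal.ofReal (Rw x z w (Dw z w) ^ 2) ∂μ ∂μ ≤ ENNReal.ofReal B) :
    ∫⁻ z in ball x r, ∫⁻ w in ann p 4 8, ENNReal.ofReal (ee G x z w ^ 2) ∂μ ∂μ ≤
      ENNReal.ofReal B := by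
  exact hF (fun z w => Ed G x z w) (h.meas_Ed x) (fun w => h.rd_dist hμ x w)

end GRep

end Crest.Agent.R247.Cal550
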