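import Mathlib

/-!
# (1-CH) part 1: chains of backward steps (deterministic, one fixed line)

`chain`: iteration of `d i ≤ G (d (i+1) + q i)` where each step is only available after the
smallness of `d (i+1)` is known.  `scale_chain`: one dyadic scale cut into `N` equal steps.
-/

set_option autoImplicit false
open Finset

noncomputable section
namespace Crest.Agent.R247.Ch111

/-- Iteration of a backward inequality which is only available under a smallness hypothesis. -/
theorem chain {M : ℕ} {G : ℝ} (hG : 1 ≤ G) {d q : ℕ → ℝ} (hdM : 0 ≤ d M)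
    (hq : ∀ i < M, 0 ≤ q i)
    (hstep : ∀ i < M, d (i + 1) ≤ G ^ M * (d M + ∑ k ∈ range M, q k) →
      d i ≤ G * (d (i + 1) + q i)) :
    ∀ i ≤ M, d i ≤ G ^ (M - i) * (d M + ∑ k ∈ Ico i M, q k) := by
  have hG0 : 0 ≤ G := by linarith
  intro i hi
  induction hi using Nat.decreasingInduction with
  | self => simp
  | of_succ i hi ih =>
    have hsub : ∑ k ∈ Ico (i + 1) M, q k ≤ ∑ k ∈ range M, q k := by
      rw [range_eq_Ico]
      refine sum_le_sum_of_subset_of_nonneg (Ico_subset_Ico (by omega) le_rfl) ?_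
      intro k hk _
      exact hq k (mem_Ico.1 hk).2
    have hnn : 0 ≤ d M + ∑ k ∈ Ico (i + 1) M, q k := by
      have : 0 ≤ ∑ k ∈ Ico (i + 1) M, q k :=
        sum_nonneg fun k hk => hq k (mem_Ico.1 hk).2
      linarith
    have h1 : d (i + 1) ≤ G ^ M * (d M + ∑ k ∈ range M, q k) := by
      refine ih.trans ?_
      calc G ^ (M - (i + 1)) * (d M + ∑ k ∈ Ico (i + 1) M, q k)
          ≤ G ^ M * (d M + ∑ k ∈ Ico (i + 1) M, q k) := by
            apply mul_le_mul_of_nonneg_right _ hnn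
            exact pow_le_pow_right₀ hG (by omega)
        _ ≤ G ^ M * (d M + ∑ k ∈ range M, q k) := by
            apply mul_le_mul_of_nonneg_left _ (by positivity)
            linarith
    have h2 := hstep i hi h1
    have hsplit : ∑ k ∈ Ico i M, q k = q i + ∑ k ∈ Ico (i + 1) M, q k := by
      rw [← sum_eq_sum_Ico_succ_bot hi]
    have hqi := hq i hi
    have hpow : (1 : ℝ) ≤ G ^ (M - (i + 1)) := one_le_pow₀ hG
    calc d i ≤ G * (d (i + 1) + q i) := h2
      _ ≤ G * (G ^ (M - (i + 1)) * (d M + ∑ k ∈ Ico (i + 1) M, q k)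
            + G ^ (M - (i + 1)) * q i) := by
          apply mul_le_mul_of_nonneg_left _ hG0
          nlinarith
      _ = G ^ (M - i) * (d M + ∑ k ∈ Ico i M, q k) := by
          rw [hsplit]
          have : M - i = (M - (i + 1)) + 1 := by omega
          rw [this, pow_succ]
          ring

/-- Cauchy–Schwarz in the form `∑ √x ≤ √(N ∑ x)`. -/
lemma sum_sqrt_le (N : ℕ) (f : ℕ → ℝ) (hf : ∀ i < N, 0 ≤ f i) :
    ∑ i ∈ range N, √(f i) ≤ √(N * ∑ i ∈ range N, f i) := by
  apply Real.le_sqrt_of_sq_le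
  have h := sq_sum_le_card_mul_sum_sq (s := range N) (f := fun i => √(f i))
  rw [card_range] at h
  refine h.trans (le_of_eq ?_)
  congr 1
  refine sum_congr rfl fun i hi => ?_
  exact Real.sq_sqrt (hf i (mem_range.1 hi))

/-- one backward step along the line (`D` = distance to the ray, `R` = distance to `x`,
`T` = excess, as functions of the arclength from `z`) -/
def Stp (K c C1 G : ℝ) (D R T : ℝ → ℝ) (L τ₁ τ₂ τ₃ : ℝ) : Prop :=
  2 * K * (√(L * (T τ₁ - T τ₃)) + D τ₂) ≤ c * L →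
    D τ₁ / R τ₁ ≤ G * (D τ₂ / R τ₂ + C1 / R τ₂ * √(L * (T τ₁ - T τ₃)))

/-- the smallness constant of one dyadic scale -/
def eps0 (K c C1 G : ℝ) (N : ℕ) : ℝ :=
  c / (2 * K * (2 + 5 * G ^ N * (1 + 2 * C1 * (N + 2))) * N)

lemma eps0_pos {K c C1 G : ℝ} {N : ℕ} (hK : 0 < K) (hc : 0 < c) (hC : 0 ≤ C1) (hG : 1 ≤ G)
    (hN : 1 ≤ N) : 0 < eps0 K c C1 G N := by
  unfold eps0
  have : (1 : ℝ) ≤ N := by exact_mod_cast hN
  positivity

set_option maxHeartbeats 1600000 in
/-- **One dyadic scale** cut into `N` equal steps. -/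
theorem scale_chain {N : ℕ} (hN : 1 ≤ N) {K c C1 G s : ℝ} {D R T : ℝ → ℝ} (hK : 0 < K)
    (hc : 0 < c) (hC : 0 ≤ C1) (hG : 1 ≤ G) (hs : 0 < s)
    (hD : ∀ τ, s ≤ τ → τ ≤ 4 * s → 0 ≤ D τ)
    (hR : ∀ τ, s ≤ τ → τ ≤ 4 * s → s / 2 ≤ R τ ∧ R τ ≤ 5 * s)
    (hT0 : ∀ τ, s ≤ τ → τ ≤ 4 * s → 0 ≤ T τ)
    (hT : ∀ τ τ', s ≤ τ → τ ≤ τ' → τ' ≤ 4 * s → T τ' ≤ T τ)
    (hst : ∀ i < N, Stp K c C1 G D R T (s / N) (s + i * (s / N)) (s + (i + 1) * (s / N))
      (s + (i + 2) * (s / N)))
    (hsmD : D (2 * s) / R (2 * s) ≤ eps0 K c C1 G N)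
    (hsmT : T s ≤ (eps0 K c C1 G N) ^ 2 * s) :
    D s / R s ≤ G ^ N * (D (2 * s) / R (2 * s)
      + 2 * C1 * √(2 * (T s - T (4 * s)) / s)) := by
  have hN0 : (0 : ℝ) < N := by exact_mod_cast (by omega : 0 < N)
  have hN1 : (1 : ℝ) ≤ N := by exact_mod_cast hN
  set L : ℝ := s / N with hL
  have hL0 : 0 < L := by positivity
  have hNL : N * L = s := by rw [hL]; field_simp
  have hεp := eps0_pos (N := N) hK hc hC hG hN
  have h8 : 2 * K * (2 + 5 * G ^ N * (1 + 2 * C1 * (N + 2))) * N * eps0 K c C1 G N = c := by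
    unfold eps0; field_simp
  generalize eps0 K c C1 G N = ε at *
  have hL' : L ≤ s := by rw [hL]; exact div_le_self hs.le hN1
  have hLs : s / (N : ℝ) = L := rfl
  clear_value L
  -- the points
  set p : ℕ → ℝ := fun i => s + i * L with hp
  have hpN : p N = 2 * s := by simp only [hp]; rw [hNL]; ring
  have hp0 : p 0 = s := by simp [hp]
  have hps : ∀ i, s ≤ p i := fun i => by
    simp only [hp]; nlinarith [mul_nonneg (Nat.cast_nonneg (α := ℝ) i) hL0.le]
  have hp1 : ∀ i : ℕ, p (i + 1) = s + (i + 1) * L := fun i => by simp [hp]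
  have hp2 : ∀ i : ℕ, p (i + 2) = s + (i + 2) * L := fun i => by simp [hp]
  have hpm : ∀ i j : ℕ, i ≤ j → p i ≤ p j := fun i j hij => by
    simp only [hp]
    have : (i : ℝ) ≤ j := by exact_mod_cast hij
    nlinarith
  have hp4 : ∀ i ≤ N + 1, p i ≤ 4 * s := fun i hi => by
    have h1 : (i : ℝ) ≤ N + 1 := by exact_mod_cast hi
    have h2 : (i : ℝ) * L ≤ (N + 1) * L := by nlinarith
    have h3 := hL'
    simp only [hp]
    nlinarith
  -- the excess increments
  set DT : ℕ → ℝ := fun i => T (p i) - T (p (i + 2)) with hDT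
  have hTn : ∀ i < N, T (p (i + 2)) ≤ T (p i) := fun i hi =>
    hT _ _ (hps _) (hpm _ _ (by omega)) (hp4 _ (by omega))
  have hTp : ∀ i ≤ N + 1, 0 ≤ T (p i) := fun i hi => hT0 _ (hps _) (hp4 _ hi)
  have hTs : ∀ i ≤ N + 1, T (p i) ≤ T s := fun i hi => hT _ _ le_rfl (hps _) (hp4 _ hi)
  have hDT0 : ∀ i < N, 0 ≤ DT i := fun i hi => by
    have h1 := hTn i hi
    simp only [hDT]
    linarith
  -- sum of the increments
  have hsum : ∑ i ∈ range N, DT i ≤ 2 * (T s - T (4 * s)) := by
    have h1 : ∑ i ∈ range N, DT i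
        = ∑ i ∈ range N, (T (p i) - T (p (i + 1)))
          + ∑ i ∈ range N, (T (p (i + 1)) - T (p (i + 2))) := by
      rw [← sum_add_distrib]
      refine sum_congr rfl fun i _ => ?_
      simp only [hDT]; ring
    have h2 : ∑ i ∈ range N, (T (p i) - T (p (i + 1))) = T (p 0) - T (p N) :=
      sum_range_sub' (fun i => T (p i)) N
    have h3 : ∑ i ∈ range N, (T (p (i + 1)) - T (p (i + 2))) = T (p 1) - T (p (N + 1)) := by
      have := sum_range_sub' (fun i => T (p (i + 1))) N
      simpa using this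
    have h5 : T (4 * s) ≤ T (p N) := hT _ _ (hps _) (hp4 _ (by omega)) le_rfl
    have h6 : T (4 * s) ≤ T (p (N + 1)) := hT _ _ (hps _) (hp4 _ le_rfl) le_rfl
    have h7 : T (p 1) ≤ T s := hTs 1 (by omega)
    have h8 : T (p 0) = T s := by rw [hp0]
    rw [h1, h2, h3, h8]
    linarith
  -- the errors
  set d : ℕ → ℝ := fun i => D (p i) / R (p i) with hd
  set q : ℕ → ℝ := fun i => C1 / R (p (i + 1)) * √(L * DT i) with hq
  have hRp : ∀ i ≤ N + 1, 0 < R (p i) := fun i hi => by
    have := (hR _ (hps i) (hp4 i hi)).1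
    linarith
  have hq0 : ∀ i < N, 0 ≤ q i := fun i hi => by
    have := hRp (i + 1) (by omega)
    simp only [hq]; positivity
  have hqle : ∀ i < N, q i ≤ 2 * C1 / s * √(L * DT i) := fun i hi => by
    have h1 := (hR _ (hps (i + 1)) (hp4 (i + 1) (by omega))).1
    simp only [hq]
    apply mul_le_mul_of_nonneg_right _ (Real.sqrt_nonneg _)
    rw [div_le_div_iff₀ (hRp (i + 1) (by omega)) hs]
    nlinarith
  have hqsum : ∑ i ∈ range N, q i
      ≤ 2 * C1 * √(2 * (T s - T (4 * s)) / s) := by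
    have h1 : ∑ i ∈ range N, q i ≤ 2 * C1 / s * ∑ i ∈ range N, √(L * DT i) := by
      rw [mul_sum]
      exact sum_le_sum fun i hi => hqle i (mem_range.1 hi)
    have h2 : ∑ i ∈ range N, √(L * DT i) ≤ √(N * ∑ i ∈ range N, L * DT i) :=
      sum_sqrt_le N _ fun i hi => mul_nonneg hL0.le (hDT0 i hi)
    have h3 : N * ∑ i ∈ range N, L * DT i = s * ∑ i ∈ range N, DT i := by
      rw [← mul_sum, ← mul_assoc, hNL]
    have h4 : √(N * ∑ i ∈ range N, L * DT i)
        ≤ √(s ^ 2 * (2 * (T s - T (4 * s)) / s)) := by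
      apply Real.sqrt_le_sqrt
      rw [h3]
      have : s ^ 2 * (2 * (T s - T (4 * s)) / s)
          = s * (2 * (T s - T (4 * s))) := by field_simp
      rw [this]
      exact mul_le_mul_of_nonneg_left hsum hs.le
    rw [Real.sqrt_mul (x := s ^ 2) (by positivity), Real.sqrt_sq hs.le] at h4
    calc ∑ i ∈ range N, q i ≤ 2 * C1 / s * ∑ i ∈ range N, √(L * DT i) := h1
      _ ≤ 2 * C1 / s * (s * √(2 * (T s - T (4 * s)) / s)) := by
          apply mul_le_mul_of_nonneg_left (h2.trans h4); positivity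
      _ = 2 * C1 * √(2 * (T s - T (4 * s)) / s) := by
          field_simp
  -- size of the sum
  have hTs0 : 0 ≤ T s := hT0 _ le_rfl (by linarith)
  have hT4 : 0 ≤ T (4 * s) := hT0 _ (by linarith) le_rfl
  have hbound : 2 * C1 * √(2 * (T s - T (4 * s)) / s) ≤ 2 * C1 * (N + 2) * ε := by
    have h1 : √(2 * (T s - T (4 * s)) / s) ≤ (N + 2) * ε := by
      apply Real.sqrt_le_iff.2
      refine ⟨by positivity, ?_⟩
      rw [div_le_iff₀ hs]
      have h2 : 2 * (T s - T (4 * s)) ≤ (N + 2) * T s := by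
        nlinarith
      have h3 : (N + 2) * T s ≤ (N + 2) * (ε ^ 2 * s) := by
        apply mul_le_mul_of_nonneg_left hsmT; positivity
      have h4 : ((N : ℝ) + 2) * (ε ^ 2 * s) ≤ ((N + 2) * ε) ^ 2 * s := by
        have : (0 : ℝ) ≤ (N + 2) * (N + 1) * (ε ^ 2 * s) := by positivity
        nlinarith
      linarith
    calc 2 * C1 * √(2 * (T s - T (4 * s)) / s) ≤ 2 * C1 * ((N + 2) * ε) := by
          apply mul_le_mul_of_nonneg_left h1; positivity
      _ = _ := by ring
  have hdN : d N = D (2 * s) / R (2 * s) := by simp only [hd, hpN]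
  have hdN0 : 0 ≤ d N := by
    simp only [hd]
    exact div_nonneg (hD _ (hps N) (hp4 N (by omega))) (hRp N (by omega)).le
  have hB : G ^ N * (d N + ∑ k ∈ range N, q k) ≤ G ^ N * (1 + 2 * C1 * (N + 2)) * ε := by
    rw [mul_assoc]
    apply mul_le_mul_of_nonneg_left _ (by positivity)
    rw [hdN]
    nlinarith [hqsum.trans hbound]
  have hmain := chain hG (d := d) (q := q) hdN0 hq0 (fun i hi hdi => by
    have hst' := hst i hi
    unfold Stp at hst'
    rw [← hp1, ← hp2] at hst'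
    have hpi : s + (i : ℝ) * L = p i := rfl
    rw [hpi] at hst'
    have hcond : 2 * K * (√(L * (T (p i) - T (p (i + 2)))) + D (p (i + 1))) ≤ c * L := by
      have hRi := hRp (i + 1) (by omega)
      have hR5 := (hR _ (hps (i + 1)) (hp4 (i + 1) (by omega))).2
      have h1 : D (p (i + 1)) = d (i + 1) * R (p (i + 1)) := by
        simp only [hd]; field_simp
      have hdi' : d (i + 1) ≤ G ^ N * (1 + 2 * C1 * (N + 2)) * ε := hdi.trans hB
      have hdp : 0 ≤ G ^ N * (1 + 2 * C1 * (N + 2)) * ε := by positivity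
      have h2 : D (p (i + 1)) ≤ 5 * s * (G ^ N * (1 + 2 * C1 * (N + 2)) * ε) := by
        rw [h1]
        calc d (i + 1) * R (p (i + 1)) ≤ G ^ N * (1 + 2 * C1 * (N + 2)) * ε * R (p (i + 1)) :=
              mul_le_mul_of_nonneg_right hdi' hRi.le
          _ ≤ G ^ N * (1 + 2 * C1 * (N + 2)) * ε * (5 * s) :=
              mul_le_mul_of_nonneg_left hR5 hdp
          _ = _ := by ring
      have h3 : √(L * (T (p i) - T (p (i + 2)))) ≤ 2 * s * ε := by
        apply Real.sqrt_le_iff.2
        refine ⟨by positivity, ?_⟩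
        have h4 : T (p i) - T (p (i + 2)) ≤ 2 * T s := by
          have a1 := hTs i (by omega)
          have a2 := hTp (i + 2 - 1) (by omega)
          have a3 : 0 ≤ T (p (i + 2)) := hTp (i + 2) (by omega)
          have a4 := hTp i (by omega)
          nlinarith
        have h5 : L * (T (p i) - T (p (i + 2))) ≤ s * (2 * (ε ^ 2 * s)) := by
          have b1 := hL'
          calc L * (T (p i) - T (p (i + 2))) ≤ L * (2 * T s) :=
                mul_le_mul_of_nonneg_left h4 hL0.le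
            _ ≤ s * (2 * T s) := mul_le_mul_of_nonneg_right b1 (by linarith)
            _ ≤ s * (2 * (ε ^ 2 * s)) := by
                apply mul_le_mul_of_nonneg_left _ hs.le; linarith
        have h6 : 0 ≤ ε ^ 2 * s ^ 2 := by positivity
        nlinarith
      have h7 : 2 * K * (√(L * (T (p i) - T (p (i + 2)))) + D (p (i + 1)))
          ≤ 2 * K * (2 + 5 * G ^ N * (1 + 2 * C1 * (N + 2))) * ε * s := by
        have : 2 * K * (√(L * (T (p i) - T (p (i + 2)))) + D (p (i + 1)))
            ≤ 2 * K * (2 * s * ε + 5 * s * (G ^ N * (1 + 2 * C1 * (N + 2)) * ε)) := by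
          apply mul_le_mul_of_nonneg_left (by linarith) (by positivity)
        refine this.trans (le_of_eq ?_)
        ring
      refine h7.trans (le_of_eq ?_)
      calc 2 * K * (2 + 5 * G ^ N * (1 + 2 * C1 * (N + 2))) * ε * s
          = (2 * K * (2 + 5 * G ^ N * (1 + 2 * C1 * (N + 2))) * N * ε) * L := by
            rw [← hNL]; ring
        _ = c * L := by rw [h8]
    exact hst' hcond) 0 (Nat.zero_le _)
  have h0 : d 0 = D s / R s := by simp only [hd, hp0]
  rw [h0, Nat.sub_zero, ← range_eq_Ico, hdN] at hmain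
  refine hmain.trans ?_
  apply mul_le_mul_of_nonneg_left _ (by positivity)
  linarith [hqsum]

end Crest.Agent.R247.Ch111
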