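import Crest.Agent.R247.Ch1_111

/-!
# (1-CH) part 2: the top chain (from `w` down to radius `1/8`), geometric steps
-/

set_option autoImplicit false
open Finset

noncomputable section
namespace Crest.Agent.R247.Ch111

/-- number of steps and ratio of the geometric top chain -/
lemma geo_steps {Λ : ℝ} (hΛ : 1 / 2 ≤ Λ) {N : ℕ} (hN : 400 ≤ N) :
    ∃ (M : ℕ) (q : ℝ), 1 ≤ M ∧ 1 < q ∧ q - 1 ≤ 2 / N ∧ 1 / (2 * N) ≤ q - 1 ∧
      q ^ M = Real.exp Λ ∧ (4 : ℝ) ^ M ≤ 4 * Real.exp Λ ^ (2 * N) := by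
  have hN0 : (400 : ℝ) ≤ N := by exact_mod_cast hN
  have hNΛ : 200 ≤ N * Λ := by nlinarith
  have hM1 : N * Λ ≤ (⌈N * Λ⌉₊ : ℝ) := Nat.le_ceil _
  have hM2 : (⌈N * Λ⌉₊ : ℝ) < N * Λ + 1 := Nat.ceil_lt_add_one (by linarith)
  set M := ⌈N * Λ⌉₊ with hM
  have hMpos : (0 : ℝ) < M := by linarith
  have hM0 : 1 ≤ M := by
    have : (0 : ℝ) < M := hMpos
    have : 0 < M := by exact_mod_cast this
    omega
  have hx0 : 0 < Λ / M := by positivity
  have hx1 : Λ / M ≤ 1 / N := by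
    rw [div_le_div_iff₀ hMpos (by linarith)]; nlinarith
  have hx2 : 1 / (2 * N) ≤ Λ / M := by
    rw [div_le_div_iff₀ (by linarith) hMpos]; nlinarith
  refine ⟨M, Real.exp (Λ / M), hM0, ?_, ?_, ?_, ?_, ?_⟩
  · exact Real.one_lt_exp_iff.2 hx0
  · have hx3 : Λ / M ≤ 1 := by
      refine hx1.trans ?_
      rw [div_le_one (by linarith)]; linarith
    have := Real.exp_bound_div_one_sub_of_interval (x := Λ / M) hx0.le (by
      refine lt_of_le_of_lt hx1 ?_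
      rw [div_lt_one (by linarith)]; linarith)
    have h1 : 1 / (1 - Λ / M) ≤ 1 + 2 * (Λ / M) := by
      have h2 : Λ / M ≤ 1 / 2 := by
        refine hx1.trans ?_
        rw [div_le_div_iff₀ (by linarith) (by norm_num)]; linarith
      rw [div_le_iff₀ (by linarith)]
      nlinarith
    have h3 : 2 * (Λ / M) ≤ 2 / N := by
      have : 2 * (1 / (N : ℝ)) = 2 / N := by ring
      linarith
    linarith
  · have := Real.add_one_le_exp (Λ / M)
    linarith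
  · rw [← Real.exp_nat_mul]
    congr 1
    field_simp
  · have h4 : (4 : ℝ) = Real.exp (Real.log 4) := by rw [Real.exp_log (by norm_num)]
    have hl4 : Real.log 4 ≤ 2 := by
      have : Real.log 4 = 2 * Real.log 2 := by
        rw [show (4 : ℝ) = 2 ^ 2 by norm_num, Real.log_pow]; norm_num
      have := Real.log_two_lt_d9
      linarith
    have hl40 : 0 ≤ Real.log 4 := Real.log_nonneg (by norm_num)
    have e1 : (4 : ℝ) ^ M = Real.exp (M * Real.log 4) := by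
      rw [Real.exp_nat_mul, ← h4]
    have e2 : 4 * Real.exp Λ ^ (2 * N) = Real.exp (Real.log 4 + (2 * N : ℕ) * Λ) := by
      rw [Real.exp_add, ← h4, Real.exp_nat_mul]
    rw [e1, e2]
    apply Real.exp_le_exp.2
    push_cast
    have h5 : (M : ℝ) * Real.log 4 ≤ (N * Λ + 1) * Real.log 4 :=
      mul_le_mul_of_nonneg_right hM2.le hl40
    have h6 : (N * Λ) * Real.log 4 ≤ (N * Λ) * 2 :=
      mul_le_mul_of_nonneg_left hl4 (by linarith)
    nlinarith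

/-- the exponent of the top chain -/
def topP (Nb : ℕ) : ℕ := 2 * (400 * Nb)

/-- the constant of the top chain -/
def topC (C1 : ℝ) (Nb : ℕ) : ℝ := 128 * C1 * 11 ^ (topP Nb)

/-- the smallness constant of the top chain -/
def topA (K c C1 : ℝ) (Nb : ℕ) : ℝ :=
  16 * K * (400 * Nb) * (1 + 640 * C1) * 11 ^ (topP Nb) / c

/-- The top chain, sequence form (`i = 0` is the point `w`). -/
theorem top_seq {K c C1 Ts Lm : ℝ} (hK : 0 < K) (hC : 0 ≤ C1) (hTs : 0 ≤ Ts)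
    {M : ℕ} {Dp Rp Lp DT : ℕ → ℝ} (hc : 0 < c)
    (hD0 : Dp 0 = 0) (hR1 : ∀ i ≤ M, 1 / 32 ≤ Rp i)
    (hR2 : ∀ i ≤ M, Rp i ≤ 20) (hL1 : ∀ i < M, Lm ≤ Lp i) (hLm : 0 < Lm)
    (hL2 : ∀ i < M, Lp i ≤ 1 / 2) (hDT : ∀ i < M, DT i ≤ 2 * Ts)
    (hst : ∀ i < M, 2 * K * (√(Lp i * DT i) + Dp i) ≤ c * Lp i →
      Dp (i + 1) / Rp (i + 1) ≤ 2 * (Dp i / Rp i + C1 / Rp i * √(Lp i * DT i)))
    (hsm : 2 * K * ((1 + 640 * C1) * 4 ^ M * √Ts) ≤ c * Lm) :
    Dp M / Rp M ≤ 4 ^ M * (32 * C1 * √Ts) := by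
  have hQ0 : 0 ≤ 32 * C1 * √Ts := by positivity
  have hsq0 : 0 ≤ √Ts := Real.sqrt_nonneg _
  have hMlt : (M : ℝ) ≤ 2 ^ M := by exact_mod_cast (Nat.lt_two_pow_self).le
  have hBQ : (2 : ℝ) ^ M * (0 + ∑ k ∈ range M, (fun _ => 32 * C1 * √Ts) k)
      ≤ 4 ^ M * (32 * C1 * √Ts) := by
    simp only [sum_const, card_range, nsmul_eq_mul, zero_add]
    calc (2 : ℝ) ^ M * (M * (32 * C1 * √Ts)) ≤ 2 ^ M * (2 ^ M * (32 * C1 * √Ts)) := by
          apply mul_le_mul_of_nonneg_left _ (by positivity)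
          exact mul_le_mul_of_nonneg_right hMlt hQ0
      _ = 4 ^ M * (32 * C1 * √Ts) := by
          rw [← mul_assoc, ← mul_pow]; norm_num
  have hdM : Dp (M - M) / Rp (M - M) = 0 := by rw [Nat.sub_self, hD0, zero_div]
  have hmain := chain (M := M) (G := 2) (by norm_num)
    (d := fun j => Dp (M - j) / Rp (M - j)) (q := fun _ => 32 * C1 * √Ts)
    (by simp only [hdM]; exact le_rfl) (fun _ _ => hQ0) (fun j hj hdj => by
      simp only [hdM] at hdj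
      have hdj' := hdj.trans hBQ
      obtain ⟨i, hi⟩ : ∃ i, M = j + 1 + i := ⟨M - (j + 1), by omega⟩
      have e1 : M - j = i + 1 := by omega
      have e2 : M - (j + 1) = i := by omega
      have hiM : i < M := by omega
      rw [e2] at hdj'
      simp only [e1, e2]
      have hRi := hR1 i hiM.le
      have hRi2 := hR2 i hiM.le
      have hRp : 0 < Rp i := by linarith only [hRi]
      have hsqi : √(Lp i * DT i) ≤ √Ts := by
        apply Real.sqrt_le_sqrt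
        have h1 := hL2 i hiM
        have h2 : 0 < Lp i := lt_of_lt_of_le hLm (hL1 i hiM)
        calc Lp i * DT i ≤ Lp i * (2 * Ts) := mul_le_mul_of_nonneg_left (hDT i hiM) h2.le
          _ ≤ 1 / 2 * (2 * Ts) := mul_le_mul_of_nonneg_right h1 (by linarith only [hTs])
          _ = Ts := by ring
      have h4M : (1 : ℝ) ≤ 4 ^ M := one_le_pow₀ (by norm_num)
      have hDi : Dp i ≤ 4 ^ M * (32 * C1 * √Ts) * 20 := by
        have h1 : Dp i = Dp i / Rp i * Rp i := by field_simp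
        rw [h1]
        calc Dp i / Rp i * Rp i ≤ 4 ^ M * (32 * C1 * √Ts) * Rp i :=
              mul_le_mul_of_nonneg_right hdj' hRp.le
          _ ≤ 4 ^ M * (32 * C1 * √Ts) * 20 :=
              mul_le_mul_of_nonneg_left hRi2 (by positivity)
      have hcond : 2 * K * (√(Lp i * DT i) + Dp i) ≤ c * Lp i := by
        have h5 : √Ts ≤ 4 ^ M * √Ts := le_mul_of_one_le_left hsq0 h4M
        have h6 : 4 ^ M * (32 * C1 * √Ts) * 20 = 640 * C1 * 4 ^ M * √Ts := by ring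
        have h7 : √(Lp i * DT i) + Dp i ≤ (1 + 640 * C1) * 4 ^ M * √Ts := by
          have : (1 + 640 * C1) * 4 ^ M * √Ts = 4 ^ M * √Ts + 640 * C1 * 4 ^ M * √Ts := by ring
          rw [this]
          linarith only [hsqi, h5, hDi, h6]
        calc 2 * K * (√(Lp i * DT i) + Dp i) ≤ 2 * K * ((1 + 640 * C1) * 4 ^ M * √Ts) :=
              mul_le_mul_of_nonneg_left h7 (by positivity)
          _ ≤ c * Lm := hsm
          _ ≤ c * Lp i := mul_le_mul_of_nonneg_left (hL1 i hiM) hc.le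
      have h8 := hst i hiM hcond
      have h9 : C1 / Rp i * √(Lp i * DT i) ≤ 32 * C1 * √Ts := by
        have h10 : C1 / Rp i ≤ 32 * C1 := by
          rw [div_le_iff₀ hRp]
          calc C1 = 32 * C1 * (1 / 32) := by ring
            _ ≤ 32 * C1 * Rp i := mul_le_mul_of_nonneg_left hRi (by positivity)
        exact mul_le_mul h10 hsqi (Real.sqrt_nonneg _) (by positivity)
      linarith only [h8, h9]) 0 (Nat.zero_le _)
  simp only [Nat.sub_zero, hdM] at hmain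
  rw [← range_eq_Ico] at hmain
  exact hmain.trans hBQ

/-- the exponent bookkeeping of the smallness hypothesis -/
lemma top_sm {K c C1 X0 y : ℝ} {Nb M : ℕ} (hK : 0 < K) (hc : 0 < c) (hC : 0 ≤ C1)
    (hNb : 1 ≤ Nb) (hX0 : 0 < X0) (hy : 0 ≤ y)
    (h4 : (4 : ℝ) ^ M ≤ 4 * 11 ^ (topP Nb) * X0⁻¹ ^ (topP Nb))
    (hsm : topA K c C1 Nb * y ≤ X0 ^ (topP Nb + 1)) :
    2 * K * ((1 + 640 * C1) * 4 ^ M * y) ≤ c * (X0 / (2 * (400 * Nb))) := by
  have hNb0 : (0 : ℝ) < Nb := by exact_mod_cast hNb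
  have h1 : 2 * K * ((1 + 640 * C1) * 4 ^ M * y) ≤ 2 * K * ((1 + 640 * C1) *
      (4 * 11 ^ (topP Nb) * X0⁻¹ ^ (topP Nb)) * y) := by
    apply mul_le_mul_of_nonneg_left _ (by positivity)
    apply mul_le_mul_of_nonneg_right _ hy
    exact mul_le_mul_of_nonneg_left h4 (by positivity)
  have h2 : 2 * K * ((1 + 640 * C1) * (4 * 11 ^ (topP Nb) * X0⁻¹ ^ (topP Nb)) * y)
      = (c / (2 * (400 * Nb))) * X0⁻¹ ^ (topP Nb) * (topA K c C1 Nb * y) := by
    unfold topA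
    field_simp
    ring
  have h3 : (c / (2 * (400 * Nb))) * X0⁻¹ ^ (topP Nb) * (topA K c C1 Nb * y)
      ≤ (c / (2 * (400 * Nb))) * X0⁻¹ ^ (topP Nb) * X0 ^ (topP Nb + 1) :=
    mul_le_mul_of_nonneg_left hsm (by positivity)
  have h4 : (c / (2 * (400 * Nb))) * X0⁻¹ ^ (topP Nb) * X0 ^ (topP Nb + 1)
      = c * (X0 / (2 * (400 * Nb))) := by
    rw [pow_succ, inv_pow]
    field_simp
  linarith only [h1, h2, h3, h4]

/-- the geometric points of the top chain -/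
lemma top_points {Nb : ℕ} (hNb : 1 ≤ Nb) {ℓ X0 s : ℝ} (hℓ2 : 2 ≤ ℓ) (hℓ : ℓ ≤ 10)
    (hX0 : 0 < X0) (hX1 : X0 ≤ 1) (hs : 1 / 16 ≤ s) (hs8 : s ≤ 1 / 8) :
    ∃ (M : ℕ) (p : ℕ → ℝ), 1 ≤ M ∧ p 0 = ℓ ∧ p M = s ∧ (∀ i ≤ M, s ≤ p i) ∧ (∀ i, p i ≤ ℓ) ∧
      (∀ i, p (i + 1) < p i) ∧ (∀ i < M, X0 / (2 * (400 * Nb)) ≤ p i - p (i + 1)) ∧
      (∀ i < M, p i - p (i + 1) ≤ 1 / 2) ∧ Nb * (ℓ - p 1) ≤ X0 ∧
      (∀ i < M, Nb * (p i - p (i + 1)) ≤ p i) ∧
      (∀ i < M, Nb * (p i - p (i + 1)) ≤ ℓ + X0 - p i) ∧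
      (∀ i, (p (i + 1) - p (i + 2)) / 2 ≤ p i - p (i + 1)) ∧
      (∀ i, p i - p (i + 1) ≤ p (i + 1) - p (i + 2)) ∧
      (4 : ℝ) ^ M ≤ 4 * 11 ^ (topP Nb) * X0⁻¹ ^ (topP Nb) := by
  have hNb0 : (1 : ℝ) ≤ Nb := by exact_mod_cast hNb
  have hN400 : 400 ≤ 400 * Nb := by omega
  have hXJ1 : 15 / 8 ≤ ℓ + X0 - s := by linarith only [hℓ2, hX0, hs8]
  have hXJ2 : ℓ + X0 - s ≤ 11 := by linarith only [hℓ, hX1, hs]
  have hrat : 15 / 8 ≤ (ℓ + X0 - s) / X0 := by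
    rw [le_div_iff₀ hX0]; nlinarith only [hXJ1, hX0, hX1]
  have hΛ : 1 / 2 ≤ Real.log ((ℓ + X0 - s) / X0) := by
    rw [Real.le_log_iff_exp_le (by linarith only [hrat])]
    refine le_trans ?_ hrat
    have h1 : Real.exp (1 / 2) ^ 2 ≤ (15 / 8) ^ 2 := by
      rw [← Real.exp_nat_mul]
      norm_num
      have := Real.exp_one_lt_d9
      linarith only [this]
    exact (pow_le_pow_iff_left₀ (Real.exp_pos _).le (by norm_num) (by norm_num)).1 h1
  obtain ⟨M, q, hM1, hq1, hq2, hq3, hqM, h4M⟩ := geo_steps hΛ hN400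
  rw [Real.exp_log (by linarith only [hrat])] at hqM h4M
  have hq0 : 0 < q := by linarith only [hq1]
  have hNr : ((400 * Nb : ℕ) : ℝ) = 400 * Nb := by push_cast; ring
  rw [hNr] at hq2 hq3
  have hq2' : q - 1 ≤ 1 / (200 * Nb) := by
    refine hq2.trans (le_of_eq ?_)
    field_simp; norm_num
  have hqle2 : q ≤ 2 := by
    have : 1 / (200 * (Nb : ℝ)) ≤ 1 := by
      rw [div_le_one (by linarith only [hNb0])]; linarith only [hNb0]
    linarith only [this, hq2']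
  have hpow1 : ∀ i : ℕ, 1 ≤ q ^ i := fun i => one_le_pow₀ hq1.le
  have hXle : ∀ i ≤ M, X0 * q ^ i ≤ 11 := fun i hi => by
    calc X0 * q ^ i ≤ X0 * q ^ M :=
          mul_le_mul_of_nonneg_left (pow_le_pow_right₀ hq1.le hi) hX0.le
      _ = ℓ + X0 - s := by rw [hqM]; field_simp
      _ ≤ 11 := hXJ2
  have hdiff : ∀ i : ℕ, (ℓ + X0 - X0 * q ^ i) - (ℓ + X0 - X0 * q ^ (i + 1))
      = X0 * q ^ i * (q - 1) := fun i => by rw [pow_succ]; ring
  have hXp : ∀ i : ℕ, 0 < X0 * q ^ i := fun i => by positivity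
  have hLb : ∀ i, Nb * (X0 * q ^ i * (q - 1)) ≤ X0 * q ^ i / 200 := fun i => by
    calc Nb * (X0 * q ^ i * (q - 1)) ≤ Nb * (X0 * q ^ i * (1 / (200 * Nb))) := by
          apply mul_le_mul_of_nonneg_left _ (by linarith only [hNb0])
          exact mul_le_mul_of_nonneg_left hq2' (hXp i).le
      _ = X0 * q ^ i / 200 := by field_simp
  have hLb' : ∀ i, X0 * q ^ i * (q - 1) ≤ X0 * q ^ i / 200 := fun i => by
    have h1 := hLb i
    have h2 : 0 ≤ X0 * q ^ i * (q - 1) := mul_nonneg (hXp i).le (by linarith only [hq1])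
    nlinarith only [h1, h2, hNb0]
  refine ⟨M, fun i => ℓ + X0 - X0 * q ^ i, hM1, by simp, ?_, ?_, ?_, ?_, ?_, ?_, ?_, ?_, ?_,
    ?_, ?_, ?_⟩
  · simp only
    rw [hqM]; field_simp; ring
  · intro i hi
    simp only
    have : X0 * q ^ i ≤ ℓ + X0 - s := by
      calc X0 * q ^ i ≤ X0 * q ^ M :=
            mul_le_mul_of_nonneg_left (pow_le_pow_right₀ hq1.le hi) hX0.le
        _ = ℓ + X0 - s := by rw [hqM]; field_simp
    linarith only [this]
  · intro i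
    simp only
    have : X0 * 1 ≤ X0 * q ^ i := mul_le_mul_of_nonneg_left (hpow1 i) hX0.le
    linarith only [this]
  · intro i
    have h1 := hdiff i
    have h2 : 0 < X0 * q ^ i * (q - 1) := mul_pos (hXp i) (by linarith only [hq1])
    simp only
    linarith only [h1, h2]
  · intro i _
    simp only
    rw [hdiff]
    have h1 : X0 * (1 / (2 * (400 * Nb))) ≤ X0 * q ^ i * (q - 1) := by
      apply mul_le_mul _ hq3 (by positivity) (hXp i).le
      exact le_mul_of_one_le_right hX0.le (hpow1 i)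
    calc X0 / (2 * (400 * Nb)) = X0 * (1 / (2 * (400 * Nb))) := by ring
      _ ≤ _ := h1
  · intro i hi
    simp only
    rw [hdiff]
    have := hXle i hi.le
    linarith only [hLb' i, this]
  · simp only
    have h1 := hLb 0
    have h2 : (ℓ : ℝ) - (ℓ + X0 - X0 * q ^ 1) = X0 * q ^ 0 * (q - 1) := by ring
    rw [h2]
    refine h1.trans ?_
    rw [pow_zero]
    linarith only [hX0]
  · intro i hi
    simp only
    rw [hdiff]
    have h1 := hLb i
    have h2 := hXle i hi.le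
    have h3 : X0 * q ^ i ≤ ℓ + X0 - s := by
      calc X0 * q ^ i ≤ X0 * q ^ M :=
            mul_le_mul_of_nonneg_left (pow_le_pow_right₀ hq1.le hi.le) hX0.le
        _ = ℓ + X0 - s := by rw [hqM]; field_simp
    linarith only [h1, h2, h3, hs]
  · intro i _
    simp only
    rw [hdiff]
    have h1 := hLb i
    have h2 := hXp i
    have h3 : ℓ + X0 - (ℓ + X0 - X0 * q ^ i) = X0 * q ^ i := by ring
    rw [h3]
    linarith only [h1, h2]
  · intro i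
    simp only
    have h1 := hdiff i
    have h2 := hdiff (i + 1)
    have h3 : 0 ≤ X0 * q ^ i * (q - 1) := mul_nonneg (hXp i).le (by linarith only [hq1])
    have h4 : X0 * q ^ (i + 1) * (q - 1) = q * (X0 * q ^ i * (q - 1)) := by
      rw [pow_succ]; ring
    have h5 : (ℓ + X0 - X0 * q ^ (i + 1)) - (ℓ + X0 - X0 * q ^ (i + 2))
        = q * (X0 * q ^ i * (q - 1)) := by rw [← h4, ← h2]
    rw [h1, h5]
    nlinarith only [h3, hqle2]
  · intro i
    simp only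
    have h1 := hdiff i
    have h2 := hdiff (i + 1)
    have h3 : 0 ≤ X0 * q ^ i * (q - 1) := mul_nonneg (hXp i).le (by linarith only [hq1])
    have h4 : X0 * q ^ (i + 1) * (q - 1) = q * (X0 * q ^ i * (q - 1)) := by
      rw [pow_succ]; ring
    have h5 : (ℓ + X0 - X0 * q ^ (i + 1)) - (ℓ + X0 - X0 * q ^ (i + 2))
        = q * (X0 * q ^ i * (q - 1)) := by rw [← h4, ← h2]
    rw [h1, h5]
    nlinarith only [h3, hq1]
  · have hP : topP Nb = 2 * (400 * Nb) := rfl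
    have h11 : (4 : ℝ) ^ M ≤ 4 * (11 / X0) ^ (2 * (400 * Nb)) := by
      refine h4M.trans ?_
      apply mul_le_mul_of_nonneg_left _ (by norm_num)
      apply pow_le_pow_left₀ (by linarith only [hrat])
      exact div_le_div_of_nonneg_right hXJ2 hX0.le
    refine h11.trans (le_of_eq ?_)
    rw [hP, div_eq_mul_inv, mul_pow]; ring

/-- **The top chain.** -/
theorem top_chain {K c C1 : ℝ} (hK : 0 < K) (hc : 0 < c) (hC : 0 ≤ C1) {Nb : ℕ} (hNb : 1 ≤ Nb) {ℓ X0 s : ℝ} {D R T : ℝ → ℝ}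
    (hℓ2 : 2 ≤ ℓ) (hℓ : ℓ ≤ 10) (hX0 : 0 < X0) (hX1 : X0 ≤ 1) (hs : 1 / 16 ≤ s)
    (hs8 : s ≤ 1 / 8) (hDℓ : D ℓ = 0)
    (hR : ∀ τ, s ≤ τ → τ ≤ ℓ → τ / 2 ≤ R τ ∧ R τ ≤ 2 * τ)
    (hT0 : ∀ τ, s ≤ τ → τ ≤ ℓ → 0 ≤ T τ)
    (hT : ∀ τ τ', s ≤ τ → τ ≤ τ' → τ' ≤ ℓ → T τ' ≤ T τ)
    (hst : ∀ τ₁ τ₂ τ₃, s ≤ τ₁ → τ₁ < τ₂ → τ₂ < τ₃ → τ₃ ≤ ℓ → Nb * (τ₂ - τ₁) ≤ τ₂ →
      Nb * (τ₂ - τ₁) ≤ ℓ + X0 - τ₂ → (τ₂ - τ₁) / 2 ≤ τ₃ - τ₂ → τ₃ - τ₂ ≤ τ₂ - τ₁ →
      Stp K c C1 2 D R T (τ₂ - τ₁) τ₁ τ₂ τ₃)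
    (hlast : ∀ τ₁, s ≤ τ₁ → τ₁ < ℓ → Nb * (ℓ - τ₁) ≤ X0 →
      2 * K * √((ℓ - τ₁) * T τ₁) ≤ c * (ℓ - τ₁) →
      D τ₁ / R τ₁ ≤ 2 * (C1 / R ℓ * √((ℓ - τ₁) * T τ₁)))
    (hsm : topA K c C1 Nb * √(T s) ≤ X0 ^ (topP Nb + 1)) :
    D s / R s ≤ topC C1 Nb * X0⁻¹ ^ (topP Nb) * √(T s) := by
  have hsℓ : s ≤ ℓ := by linarith only [hs8, hℓ2]
  have hTs0 : 0 ≤ T s := hT0 s le_rfl hsℓ
  obtain ⟨M, p, hM1, hp0, hpM, hps, hpℓ, hpd, hLm, hL2, hN0, hN1, hN2, hh1, hh2, h4M⟩ :=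
    top_points hNb hℓ2 hℓ hX0 hX1 hs hs8
  have hNb0 : (0 : ℝ) < Nb := by exact_mod_cast hNb
  have hTle : ∀ i ≤ M, T (p i) ≤ T s := fun i hi => hT _ _ le_rfl (hps i hi) (hpℓ i)
  have hTnn : ∀ i ≤ M, 0 ≤ T (p i) := fun i hi => hT0 _ (hps i hi) (hpℓ i)
  have key := top_seq (K := K) (c := c) (C1 := C1) (Ts := T s) (Lm := X0 / (2 * (400 * Nb)))
    hK hC hTs0 (M := M) (Dp := fun i => D (p i)) (Rp := fun i => R (p i))
    (Lp := fun i => p i - p (i + 1))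
    (DT := fun i => T (p (i + 1)) - (if i = 0 then 0 else T (p (i - 1)))) hc
    (by simp only [hp0, hDℓ])
    (fun i hi => by
      have h1 := (hR _ (hps i hi) (hpℓ i)).1
      have h2 := hps i hi
      linarith only [h1, h2, hs])
    (fun i hi => by
      have h1 := (hR _ (hps i hi) (hpℓ i)).2
      have h2 := hpℓ i
      linarith only [h1, h2, hℓ])
    hLm (by positivity) hL2
    (fun i hi => by
      have a1 := hTle (i + 1) hi
      have a2 := hTnn (i + 1) hi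
      have a3 : 0 ≤ (if i = 0 then 0 else T (p (i - 1))) := by
        split_ifs
        · exact le_rfl
        · exact hTnn _ (by omega)
      linarith only [a1, a2, a3])
    (fun i hi hcond => by
      rcases Nat.eq_zero_or_pos i with hi0 | hi0
      · subst hi0
        simp only [if_true, sub_zero, zero_add, hp0, hDℓ, add_zero, zero_div] at hcond ⊢
        exact hlast (p 1) (hps 1 hi) (by have := hpd 0; rwa [hp0] at this) hN0 hcond
      · obtain ⟨k, rfl⟩ : ∃ k, i = k + 1 := ⟨i - 1, by omega⟩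
        simp only [Nat.add_one_ne_zero, if_false, Nat.add_sub_cancel] at hcond ⊢
        exact hst (p (k + 1 + 1)) (p (k + 1)) (p k) (hps _ hi) (hpd _) (hpd _) (hpℓ _)
          (hN1 _ hi) (hN2 _ hi) (hh1 k) (hh2 k) hcond)
    (top_sm hK hc hC hNb hX0 (Real.sqrt_nonneg _) h4M hsm)
  simp only [hpM] at key
  refine key.trans ?_
  calc 4 ^ M * (32 * C1 * √(T s)) ≤ (4 * 11 ^ (topP Nb) * X0⁻¹ ^ (topP Nb)) *
        (32 * C1 * √(T s)) := mul_le_mul_of_nonneg_right h4M (by positivity)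
    _ = topC C1 Nb * X0⁻¹ ^ (topP Nb) * √(T s) := by
        simp only [topC]; ring

end Crest.Agent.R247.Ch111
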