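import Crest.Agent.R247.Ch2_111

/-!
# (1-CH) part 3: the a-priori iteration (`D_j` small at all scales) and the normalised
inequalities `hB`, `hTop`, `hU` of 858's closing.
-/

set_option autoImplicit false
open Finset

noncomputable section
namespace Crest.Agent.R247.Ch111

/-- data along one line `σ : z → w` (`τ` = arclength from `z`) -/
structure Line (K c C1 Gg CU : ℝ) (Ng Nb : ℕ) (j0 J : ℕ) (t X0 ℓ : ℝ) (bad : ℕ → Prop)
    (D R T : ℝ → ℝ) : Prop where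
  t_pos : 0 < t
  J_ge : 1 / 16 ≤ 2 ^ J * t
  J_le : 2 ^ J * t ≤ 1 / 8
  ℓ_ge : 2 ≤ ℓ
  ℓ_le : ℓ ≤ 10
  X0_pos : 0 < X0
  X0_le : X0 ≤ 1
  D_nonneg : ∀ τ, 0 ≤ D τ
  D_last : D ℓ = 0
  R_le : ∀ τ, 0 ≤ τ → τ ≤ ℓ → |R τ - τ| ≤ t
  T_nonneg : ∀ τ, 0 ≤ T τ
  T_anti : ∀ τ τ', 0 ≤ τ → τ ≤ τ' → τ' ≤ ℓ → T τ' ≤ T τ
  T_le : ∀ τ, 0 ≤ τ → τ ≤ ℓ → T τ ≤ 2 * t
  good : ∀ j, j0 ≤ j → j < J → ¬ bad j → ∀ i < Ng,
    Stp K c C1 Gg D R T (2 ^ j * t / Ng) (2 ^ j * t + i * (2 ^ j * t / Ng))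
      (2 ^ j * t + (i + 1) * (2 ^ j * t / Ng)) (2 ^ j * t + (i + 2) * (2 ^ j * t / Ng))
  always : ∀ τ₁ τ₂ τ₃, 2 ^ j0 * t ≤ τ₁ → τ₁ < τ₂ → τ₂ < τ₃ → τ₃ ≤ ℓ → Nb * (τ₂ - τ₁) ≤ τ₂ →
      Nb * (τ₂ - τ₁) ≤ ℓ + X0 - τ₂ → (τ₂ - τ₁) / 2 ≤ τ₃ - τ₂ → τ₃ - τ₂ ≤ τ₂ - τ₁ →
      Stp K c C1 2 D R T (τ₂ - τ₁) τ₁ τ₂ τ₃
  last : ∀ τ₁, 2 ^ j0 * t ≤ τ₁ → τ₁ < ℓ → Nb * (ℓ - τ₁) ≤ X0 →
      2 * K * √((ℓ - τ₁) * T τ₁) ≤ c * (ℓ - τ₁) →
      D τ₁ / R τ₁ ≤ 2 * (C1 / R ℓ * √((ℓ - τ₁) * T τ₁))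
  U : ∀ τ, 2 ^ j0 * t ≤ τ → τ ≤ 1 / 4 → T (2 * τ) ≤ CU * (D τ ^ 2 / τ)

namespace Line

variable {K c C1 Gg CU : ℝ} {Ng Nb : ℕ} {j0 J : ℕ} {t X0 ℓ : ℝ} {bad : ℕ → Prop}
  {D R T : ℝ → ℝ} (h : Line K c C1 Gg CU Ng Nb j0 J t X0 ℓ bad D R T)
include h

lemma s_pos (j : ℕ) : 0 < 2 ^ j * t := by have := h.t_pos; positivity

lemma s_mono {i j : ℕ} (hij : i ≤ j) : (2 : ℝ) ^ i * t ≤ 2 ^ j * t :=
  mul_le_mul_of_nonneg_right (pow_le_pow_right₀ (by norm_num) hij) h.t_pos.le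

lemma s_le {j : ℕ} (hj : j ≤ J) : (2 : ℝ) ^ j * t ≤ 1 / 8 := (h.s_mono hj).trans h.J_le

lemma R_bd {τ : ℝ} (hτ : 2 * t ≤ τ) (hτℓ : τ ≤ ℓ) : τ / 2 ≤ R τ ∧ R τ ≤ 2 * τ := by
  have h1 := abs_le.1 (h.R_le τ (by linarith [h.t_pos]) hτℓ)
  have := h.t_pos
  constructor <;> linarith [h1.1, h1.2]

lemma R_pos {τ : ℝ} (hτ : 2 * t ≤ τ) (hτℓ : τ ≤ ℓ) : 0 < R τ := by
  have := (h.R_bd hτ hτℓ).1
  linarith [h.t_pos]

/-- one dyadic scale, always (short steps) -/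
lemma step_bad (hK : 0 < K) (hc : 0 < c) (hC : 0 ≤ C1) (hNb : 1 ≤ Nb) {j : ℕ} (hj0 : j0 ≤ j)
    (hj1 : 1 ≤ j) (hjJ : j < J) (hNb2 : 4 ≤ Nb)
    (hsmD : D (2 * (2 ^ j * t)) / R (2 * (2 ^ j * t)) ≤ eps0 K c C1 2 Nb)
    (hsmT : T (2 ^ j * t) ≤ (eps0 K c C1 2 Nb) ^ 2 * (2 ^ j * t)) :
    D (2 ^ j * t) / R (2 ^ j * t) ≤ 2 ^ Nb * (D (2 * (2 ^ j * t)) / R (2 * (2 ^ j * t))
      + 2 * C1 * √(2 * (T (2 ^ j * t) - T (4 * (2 ^ j * t))) / (2 ^ j * t))) := by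
  have hs := h.s_pos j
  have hs8 := h.s_le hjJ.le
  have hℓ := h.ℓ_ge
  have ht := h.t_pos
  have h2t : 2 * t ≤ 2 ^ j * t := by
    have := h.s_mono hj1
    linarith
  have hNb0 : (0 : ℝ) < Nb := by exact_mod_cast (by omega : 0 < Nb)
  have hNb4 : (4 : ℝ) ≤ Nb := by exact_mod_cast hNb2
  have hst0 : (2 : ℝ) ^ j0 * t ≤ 2 ^ j * t := h.s_mono hj0
  refine scale_chain hNb hK hc hC (by norm_num) hs (fun τ _ _ => h.D_nonneg τ)
    (fun τ h1 h2 => ?_) (fun τ _ _ => h.T_nonneg τ)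
    (fun τ τ' h1 h2 h3 => h.T_anti τ τ' (by linarith) h2 (by linarith)) (fun i hi => ?_) hsmD hsmT
  · have := h.R_bd (τ := τ) (by linarith) (by linarith)
    constructor
    · linarith [this.1]
    · have h5 := abs_le.1 (h.R_le τ (by linarith) (by linarith))
      linarith [h5.2]
  · generalize 2 ^ j * t = s at *
    have hi' : (i : ℝ) + 1 ≤ Nb := by exact_mod_cast hi
    have hi0 : (0 : ℝ) ≤ i := Nat.cast_nonneg i
    have hL : 0 < s / Nb := by positivity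
    have hNL : Nb * (s / Nb) = s := by field_simp
    have hL4 : s / Nb ≤ s := div_le_self hs.le (by linarith)
    have e1 : s + ((i : ℝ) + 1) * (s / Nb) - (s + i * (s / Nb)) = s / Nb := by ring
    have e2 : s + ((i : ℝ) + 2) * (s / Nb) - (s + (i + 1) * (s / Nb)) = s / Nb := by ring
    have b1 : ((i : ℝ) + 1) * (s / Nb) ≤ s := by
      calc ((i : ℝ) + 1) * (s / Nb) ≤ Nb * (s / Nb) := mul_le_mul_of_nonneg_right hi' hL.le
        _ = s := hNL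
    have b2 : ((i : ℝ) + 2) * (s / Nb) ≤ 2 * s := by
      have : ((i : ℝ) + 2) * (s / Nb) = (i + 1) * (s / Nb) + s / Nb := by ring
      linarith
    have b0 : 0 ≤ (i : ℝ) * (s / Nb) := by positivity
    have key := h.always (s + i * (s / Nb)) (s + (i + 1) * (s / Nb)) (s + (i + 2) * (s / Nb))
      (by linarith) (by linarith) (by linarith) (by linarith)
      (by rw [e1, hNL]; have : 0 ≤ ((i : ℝ) + 1) * (s / Nb) := by positivity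
          linarith)
      (by rw [e1, hNL]; linarith [h.X0_pos]) (by rw [e1, e2]; linarith) (by rw [e1, e2])
    rwa [e1] at key

/-- one dyadic scale, good -/
lemma step_good (hK : 0 < K) (hc : 0 < c) (hC : 0 ≤ C1) (hNg : 1 ≤ Ng) (hGg : 1 ≤ Gg) {j : ℕ}
    (hj0 : j0 ≤ j) (hj1 : 1 ≤ j) (hjJ : j < J) (hb : ¬ bad j)
    (hsmD : D (2 * (2 ^ j * t)) / R (2 * (2 ^ j * t)) ≤ eps0 K c C1 Gg Ng)
    (hsmT : T (2 ^ j * t) ≤ (eps0 K c C1 Gg Ng) ^ 2 * (2 ^ j * t)) :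
    D (2 ^ j * t) / R (2 ^ j * t) ≤ Gg ^ Ng * (D (2 * (2 ^ j * t)) / R (2 * (2 ^ j * t))
      + 2 * C1 * √(2 * (T (2 ^ j * t) - T (4 * (2 ^ j * t))) / (2 ^ j * t))) := by
  have hs := h.s_pos j
  have hs8 := h.s_le hjJ.le
  have hℓ := h.ℓ_ge
  have ht := h.t_pos
  have h2t : 2 * t ≤ 2 ^ j * t := by
    have := h.s_mono hj1
    linarith
  refine scale_chain hNg hK hc hC hGg hs (fun τ _ _ => h.D_nonneg τ)
    (fun τ h1 h2 => ?_) (fun τ _ _ => h.T_nonneg τ)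
    (fun τ τ' h1 h2 h3 => h.T_anti τ τ' (by linarith) h2 (by linarith))
    (h.good j hj0 hjJ hb) hsmD hsmT
  have := h.R_bd (τ := τ) (by linarith) (by linarith)
  constructor
  · linarith [this.1]
  · have h5 := abs_le.1 (h.R_le τ (by linarith) (by linarith))
    linarith [h5.2]

end Line

/-- Backward iteration with a-priori smallness: if `(B')_j` is available as soon as
`d (j+1) ≤ ε`, and the weighted sum is `≤ ε`, then `d j ≤ ε` for all `j`. -/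
theorem apriori {J j1 : ℕ} {ε Gb : ℝ} {d q : ℕ → ℝ} {bad : ℕ → Prop} [DecidablePred bad]
    (hGb : 1 ≤ Gb) (hd : ∀ j, 0 ≤ d j) (hq : ∀ j, 0 ≤ q j)
    (W : ℕ → ℝ) (hW : ∀ j, W j = (2 : ℝ) ^ ((j : ℝ) / 8) * Gb ^ (#{i ∈ range j | bad i}))
    (hst : ∀ j, j1 ≤ j → j < J → d (j + 1) ≤ ε →
      d j ≤ (if bad j then Gb else (2 : ℝ) ^ ((1 : ℝ) / 8)) * (d (j + 1) + q j))
    (hsum : W J * d J + ∑ k ∈ Ico j1 J, W (k + 1) * q k ≤ ε) :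
    ∀ j, j1 ≤ j → j ≤ J → d j ≤ ε := by
  have hW1 : ∀ j, 1 ≤ W j := fun j => by
    rw [hW]
    exact one_le_mul_of_one_le_of_one_le
      (Real.one_le_rpow (by norm_num) (by positivity)) (one_le_pow₀ hGb)
  have hWs : ∀ j, (if bad j then Gb else (2 : ℝ) ^ ((1 : ℝ) / 8)) * W j ≤ W (j + 1) := fun j => by
    rw [hW, hW, range_add_one, filter_insert]
    have e1 : (2 : ℝ) ^ (((j + 1 : ℕ) : ℝ) / 8) = 2 ^ ((j : ℝ) / 8) * 2 ^ ((1 : ℝ) / 8) := by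
      rw [← Real.rpow_add (by norm_num)]
      congr 1
      push_cast; ring
    have h2 : (1 : ℝ) ≤ 2 ^ ((1 : ℝ) / 8) := Real.one_le_rpow (by norm_num) (by norm_num)
    have hp : (0 : ℝ) < 2 ^ ((j : ℝ) / 8) := by positivity
    have hg : (0 : ℝ) < Gb ^ #{i ∈ range j | bad i} := by positivity
    split_ifs with hb
    · rw [card_insert_of_notMem (by simp), e1, pow_succ]
      have : 0 ≤ 2 ^ ((j : ℝ) / 8) * Gb ^ #{i ∈ range j | bad i} * Gb := by positivity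
      nlinarith
    · rw [e1]
      apply le_of_eq; ring
  have main : ∀ j ≤ J, j1 ≤ j → W j * d j ≤ W J * d J + ∑ k ∈ Ico j J, W (k + 1) * q k := by
    intro j hj
    induction hj using Nat.decreasingInduction with
    | self => intro _; simp
    | of_succ j hj ih =>
      intro hj1
      have ih' := ih (by omega)
      have hsub : ∑ k ∈ Ico (j + 1) J, W (k + 1) * q k ≤ ∑ k ∈ Ico j1 J, W (k + 1) * q k := by
        refine sum_le_sum_of_subset_of_nonneg (Ico_subset_Ico (by omega) le_rfl) ?_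
        intro k _ _
        exact mul_nonneg (by linarith [hW1 (k + 1)]) (hq k)
      have hdj : d (j + 1) ≤ ε := by
        have h1 := hW1 (j + 1)
        have h2 := hd (j + 1)
        nlinarith
      have hs := hst j hj1 hj hdj
      have hnn : 0 ≤ d (j + 1) + q j := add_nonneg (hd _) (hq _)
      have hW0 : 0 ≤ W j := by linarith [hW1 j]
      rw [sum_eq_sum_Ico_succ_bot hj]
      calc W j * d j ≤ W j * ((if bad j then Gb else (2 : ℝ) ^ ((1 : ℝ) / 8)) *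
            (d (j + 1) + q j)) := mul_le_mul_of_nonneg_left hs hW0
        _ = ((if bad j then Gb else (2 : ℝ) ^ ((1 : ℝ) / 8)) * W j) * (d (j + 1) + q j) := by ring
        _ ≤ W (j + 1) * (d (j + 1) + q j) := mul_le_mul_of_nonneg_right (hWs j) hnn
        _ ≤ _ := by nlinarith
  intro j hj1 hjJ
  have h1 := main j hjJ hj1
  have hsub : ∑ k ∈ Ico j J, W (k + 1) * q k ≤ ∑ k ∈ Ico j1 J, W (k + 1) * q k := by
    refine sum_le_sum_of_subset_of_nonneg (Ico_subset_Ico hj1 le_rfl) ?_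
    intro k _ _
    exact mul_nonneg (by linarith [hW1 (k + 1)]) (hq k)
  have h2 := hW1 j
  have h3 := hd j
  nlinarith

end Crest.Agent.R247.Ch111
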