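import Crest.Agent.R247.Clo3_858
import Mathlib.Analysis.SpecialFunctions.Log.Base

/-!
# Closing numerics of block (1) (doc 1392, section 5), part 4: the forms with real powers
-/

set_option autoImplicit false

namespace Crest.Agent.R247.Clo858

open Finset

noncomputable section

lemma nb_zero {bad : ℕ → Prop} [DecidablePred bad] (j : ℕ) :
    nb bad 0 j = ((Finset.range j).filter bad).card := by
  unfold nb
  rw [Finset.range_eq_Ico]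

/-- **closing, with smallness preconditions** (real powers of 2). -/
theorem closing_pre (CU CB Gb Ct : ℝ) (hCU : 0 ≤ CU) (hCB : 0 ≤ CB) (hGb : 1 ≤ Gb) (hCt : 0 ≤ Ct) :
    ∃ beta c3 eps del Hη : ℝ, 0 < beta ∧ 0 < c3 ∧ 0 < eps ∧ 0 < del ∧ 0 < Hη ∧
      ∀ (η : ℝ) (_ : 0 < η) (j1 : ℕ), ∃ (j0 : ℕ) (C : ℝ), j1 ≤ j0 ∧ (Hη ≤ η → j0 = j1) ∧ 0 ≤ C ∧
      ∀ (J : ℕ) (T r : ℕ → ℝ) (bad : ℕ → Prop) [DecidablePred bad],
      (∀ j, 0 ≤ T j) → (∀ j, T j ≤ 2) → Antitone T → (∀ j, 0 ≤ r j) →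
      (∀ j, j1 ≤ j → j < J → r j ≤ η * (Real.sqrt 2) ^ j → T (j + 1) ≤ CU * r j ^ 2) →
      (∀ j, j1 ≤ j → j < J → r (j + 1) ≤ η * (Real.sqrt 2) ^ (j + 1) →
        r j ≤ (if bad j then Gb else (2 : ℝ) ^ (1 / 8 : ℝ)) * ((Real.sqrt 2)⁻¹ * r (j + 1) +
          CB * Real.sqrt ((1 + del) * T j - T (j + 2)))) →
      (r J ^ 2 ≤ Ct * (2 : ℝ) ^ (eps * J) * T J) →
      (∀ j, j ≤ J → (((Finset.range j).filter bad).card : ℝ) ≤ c3 * (1 + j)) →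
      ∀ j, j0 ≤ j → j ≤ J → r j ≤ η * (Real.sqrt 2) ^ j ∧
        T j ≤ C * (2 : ℝ) ^ (-beta * j) ∧ r j ^ 2 ≤ C * (2 : ℝ) ^ (-beta * j) := by
  have h1 : (1 : ℝ) ≤ (2 : ℝ) ^ (1 / 8 : ℝ) := Real.one_le_rpow (by norm_num) (by norm_num)
  have h2 : (2 : ℝ) ^ (1 / 8 : ℝ) < Real.sqrt 2 := by
    rw [Real.sqrt_eq_rpow]
    exact Real.rpow_lt_rpow_of_exponent_lt (by norm_num) (by norm_num)
  obtain ⟨b, c3, e, del, H, hb0, hb1, hc3, he, hdel, hH, hmain⟩ :=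
    closing_core ((2 : ℝ) ^ (1 / 8 : ℝ)) CU CB Gb Ct h1 h2 hCU hCB hGb hCt
  have hlb : Real.logb 2 b < 0 := (Real.logb_neg_iff (by norm_num) hb0).2 hb1
  have hle : 0 < Real.logb 2 e := Real.logb_pos (by norm_num) he
  refine ⟨-Real.logb 2 b, c3, Real.logb 2 e, del, H, by linarith, hc3, hle, hdel, hH, ?_⟩
  intro η hη j1
  obtain ⟨j0, C, hj, hjH, hC, hm⟩ := hmain η hη j1
  refine ⟨j0, C, hj, hjH, hC, ?_⟩
  intro J T r bad _ hT0 hT2 hTm hr hU hB hTop hbad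
  have hpb : ∀ j : ℕ, (2 : ℝ) ^ (-(-Real.logb 2 b) * (j : ℝ)) = b ^ j := by
    intro j
    rw [neg_neg, Real.rpow_mul (by norm_num), Real.rpow_logb (by norm_num) (by norm_num) hb0,
      Real.rpow_natCast]
  have hpe : ∀ j : ℕ, (2 : ℝ) ^ (Real.logb 2 e * (j : ℝ)) = e ^ j := by
    intro j
    rw [Real.rpow_mul (by norm_num), Real.rpow_logb (by norm_num) (by norm_num) (by linarith),
      Real.rpow_natCast]
  intro j hj0 hjJ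
  rw [hpb]
  exact hm J T r bad hT0 hT2 hTm hr hU hB (by rw [← hpe]; exact hTop)
    (fun j hj => by rw [nb_zero]; exact hbad j hj) j hj0 hjJ

/-- **closing**, unconditional form. -/
theorem closing (CU CB Gb Ct : ℝ) (hCU : 0 ≤ CU) (hCB : 0 ≤ CB) (hGb : 1 ≤ Gb) (hCt : 0 ≤ Ct) :
    ∃ beta c3 eps del : ℝ, 0 < beta ∧ 0 < c3 ∧ 0 < eps ∧ 0 < del ∧
      ∀ (j0 : ℕ), ∃ (C : ℝ), 0 ≤ C ∧
      ∀ (J : ℕ) (T r : ℕ → ℝ) (bad : ℕ → Prop) [DecidablePred bad],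
      (∀ j, 0 ≤ T j) → (∀ j, T j ≤ 2) → Antitone T → (∀ j, 0 ≤ r j) →
      (∀ j, j0 ≤ j → j < J → T (j + 1) ≤ CU * r j ^ 2) →
      (∀ j, j0 ≤ j → j < J →
        r j ≤ (if bad j then Gb else (2 : ℝ) ^ (1 / 8 : ℝ)) * ((Real.sqrt 2)⁻¹ * r (j + 1) +
          CB * Real.sqrt ((1 + del) * T j - T (j + 2)))) →
      (r J ^ 2 ≤ Ct * (2 : ℝ) ^ (eps * J) * T J) →
      (∀ j, j ≤ J → (((Finset.range j).filter bad).card : ℝ) ≤ c3 * (1 + j)) →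
      ∀ j, j0 ≤ j → j ≤ J →
        T j ≤ C * (2 : ℝ) ^ (-beta * j) ∧ r j ^ 2 ≤ C * (2 : ℝ) ^ (-beta * j) := by
  obtain ⟨beta, c3, eps, del, H, hb, hc, he, hd, hH, hmain⟩ :=
    closing_pre CU CB Gb Ct hCU hCB hGb hCt
  refine ⟨beta, c3, eps, del, hb, hc, he, hd, ?_⟩
  intro j1
  obtain ⟨j0, C, hj, hjH, hC, hm⟩ := hmain H hH j1
  refine ⟨C, hC, ?_⟩
  intro J T r bad _ hT0 hT2 hTm hr hU hB hTop hbad j hj0 hjJ
  have := hm J T r bad hT0 hT2 hTm hr (fun j h1 h2 _ => hU j h1 h2) (fun j h1 h2 _ => hB j h1 h2)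
    hTop hbad j (by rw [hjH le_rfl]; exact hj0) hjJ
  exact this.2

end

end Crest.Agent.R247.Clo858
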