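import Crest.Agent.R247.Ch3_111
import Crest.Agent.R247.Clo4_858

/-!
# (1-CH) part 4: decay of the excess and of the distance to the ray along one line
-/

set_option autoImplicit false
open Finset

noncomputable section
namespace Crest.Agent.R247.Ch111

open Crest.Agent.R247.Clo858

/-- `2^(1/16)` is larger than `(1 + 1/50)/(1 - 1/100)`. -/
lemma kap_le : (1 + 1 / 50 : ℝ) ≤ 2 ^ ((1 : ℝ) / 16) * (1 - 1 / 100) := by
  have h1 : (104 / 100 : ℝ) ≤ 2 ^ ((1 : ℝ) / 16) := by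
    rw [← Real.rpow_le_rpow_iff (z := 16) (by norm_num) (by positivity) (by norm_num),
      ← Real.rpow_mul (by norm_num)]
    norm_num
  nlinarith

/-- change of normalisation `r = D / √(s t)` in one dyadic step -/
lemma renorm {D0 D1 R0 R1 s t G Gb C1 ΔT : ℝ} (hs : 0 < s) (ht : 0 < t)
    (hR1 : 0 < R1) (hR01 : R0 ≤ s * (1 + 1 / 50)) (hR11 : 2 * s * (1 - 1 / 100) ≤ R1)
    (hR0 : 0 < R0) (hG : 0 ≤ G) (hC : 0 ≤ C1) (hD1 : 0 ≤ D1)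
    (hGb : G * 2 ^ ((1 : ℝ) / 16) ≤ Gb)
    (h : D0 / R0 ≤ G * (D1 / R1 + 2 * C1 * √(2 * ΔT / s))) :
    D0 / √(s * t) ≤ Gb * ((√2)⁻¹ * (D1 / √(2 * s * t)) + 3 * C1 * √(ΔT / t)) := by
  have hst : 0 < √(s * t) := Real.sqrt_pos.2 (by positivity)
  have hκ := kap_le
  set κ : ℝ := 2 ^ ((1 : ℝ) / 16) with hκdef
  have hκ1 : 1 ≤ κ := Real.one_le_rpow (by norm_num) (by norm_num)
  have e2 : √(2 * s * t) = √2 * √(s * t) := by
    rw [mul_assoc, Real.sqrt_mul (by norm_num)]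
  have hs2 : 0 < √2 := by positivity
  have hs22 : √2 * √2 = 2 := Real.mul_self_sqrt (by norm_num)
  -- first term
  have a1 : R0 / √(s * t) * (D1 / R1) ≤ κ * ((√2)⁻¹ * (D1 / √(2 * s * t))) := by
    have b1 : (√2)⁻¹ * (D1 / √(2 * s * t)) = D1 / (2 * √(s * t)) := by
      have e3 : (√2)⁻¹ * (D1 / (√2 * √(s * t))) = D1 / ((√2 * √2) * √(s * t)) := by
        field_simp
      rw [e2, e3, hs22]
    rw [b1, div_mul_div_comm, mul_div_assoc', div_le_div_iff₀ (by positivity) (by positivity)]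
    have b2 : R0 * 2 ≤ κ * R1 := by
      calc R0 * 2 ≤ s * (1 + 1 / 50) * 2 := by linarith
        _ ≤ s * (κ * (1 - 1 / 100)) * 2 := by
            have := mul_le_mul_of_nonneg_left hκ hs.le
            linarith
        _ = κ * (2 * s * (1 - 1 / 100)) := by ring
        _ ≤ κ * R1 := mul_le_mul_of_nonneg_left hR11 (by linarith)
    calc R0 * D1 * (2 * √(s * t)) = (R0 * 2) * (D1 * √(s * t)) := by ring
      _ ≤ (κ * R1) * (D1 * √(s * t)) := mul_le_mul_of_nonneg_right b2 (by positivity)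
      _ = κ * D1 * (√(s * t) * R1) := by ring
  -- second term
  have a2 : R0 / √(s * t) * (2 * C1 * √(2 * ΔT / s)) ≤ κ * (3 * C1 * √(ΔT / t)) := by
    have b1 : √(2 * ΔT / s) = √2 * √(ΔT / s) := by
      rw [mul_div_assoc, Real.sqrt_mul (by norm_num)]
    have b3 : √(ΔT / s) * s = √(s * t) * √(ΔT / t) := by
      rw [← Real.sqrt_mul (by positivity)]
      have : s * t * (ΔT / t) = s ^ 2 * (ΔT / s) := by field_simp
      rw [this, Real.sqrt_mul (by positivity), Real.sqrt_sq hs.le]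
      ring
    have b4 : √2 ≤ 3 / 2 := by
      rw [Real.sqrt_le_left (by norm_num)]; norm_num
    rw [b1, div_mul_eq_mul_div, div_le_iff₀ hst]
    have c1 : 0 ≤ √(ΔT / s) := Real.sqrt_nonneg _
    have c2 : 0 ≤ √(ΔT / t) := Real.sqrt_nonneg _
    calc R0 * (2 * C1 * (√2 * √(ΔT / s)))
        ≤ (s * (1 + 1 / 50)) * (2 * C1 * (√2 * √(ΔT / s))) :=
          mul_le_mul_of_nonneg_right hR01 (by positivity)
      _ = ((1 + 1 / 50) * √2) * (2 * C1) * (√(ΔT / s) * s) := by ring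
      _ ≤ (κ * (3 / 2)) * (2 * C1) * (√(ΔT / s) * s) := by
          apply mul_le_mul_of_nonneg_right _ (by positivity)
          apply mul_le_mul_of_nonneg_right _ (by positivity)
          apply mul_le_mul _ b4 hs2.le (by linarith)
          linarith
      _ = κ * (3 * C1 * √(ΔT / t)) * √(s * t) := by rw [b3]; ring
  have e0 : D0 / √(s * t) = R0 / √(s * t) * (D0 / R0) := by field_simp
  rw [e0]
  calc R0 / √(s * t) * (D0 / R0)
      ≤ R0 / √(s * t) * (G * (D1 / R1 + 2 * C1 * √(2 * ΔT / s))) :=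
        mul_le_mul_of_nonneg_left h (by positivity)
    _ = G * (R0 / √(s * t) * (D1 / R1) + R0 / √(s * t) * (2 * C1 * √(2 * ΔT / s))) := by ring
    _ ≤ G * (κ * ((√2)⁻¹ * (D1 / √(2 * s * t))) + κ * (3 * C1 * √(ΔT / t))) :=
        mul_le_mul_of_nonneg_left (add_le_add a1 a2) hG
    _ = G * κ * ((√2)⁻¹ * (D1 / √(2 * s * t)) + 3 * C1 * √(ΔT / t)) := by ring
    _ ≤ Gb * ((√2)⁻¹ * (D1 / √(2 * s * t)) + 3 * C1 * √(ΔT / t)) := by
        apply mul_le_mul_of_nonneg_right hGb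
        positivity

/-- the top bound in normalised form -/
lemma renorm_top {DJ RJ s t X0 TJ Ct a ε : ℝ} {P J : ℕ} (hs16 : 1 / 16 ≤ s) (hs8 : s ≤ 1 / 8)
    (ht : 0 < t) (hst : s = 2 ^ J * t) (hRJ : 0 < RJ) (hRJ2 : RJ ≤ 2 * s) (hT : 0 ≤ TJ)
    (hDJ : 0 ≤ DJ) (ha : 0 ≤ a) (haP : 2 * a * P = ε) (hε : ε ≤ 1)
    (hX : t ^ a ≤ X0) (hX0 : 0 < X0)
    (h : DJ / RJ ≤ Ct * X0⁻¹ ^ P * √TJ) :
    (DJ / √(s * t)) ^ 2 ≤ 8 * Ct ^ 2 * 2 ^ (ε * J) * (TJ / t) := by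
  have hs0 : 0 < s := by linarith
  have h1 : DJ ≤ 2 * s * (Ct * X0⁻¹ ^ P * √TJ) := by
    have e : DJ = RJ * (DJ / RJ) := by field_simp
    rw [e]
    exact mul_le_mul hRJ2 h (by positivity) (by positivity)
  have h2 : DJ ^ 2 ≤ (2 * s * (Ct * X0⁻¹ ^ P * √TJ)) ^ 2 := pow_le_pow_left₀ hDJ h1 2
  have e3 : (2 * s * (Ct * X0⁻¹ ^ P * √TJ)) ^ 2 = 4 * s ^ 2 * Ct ^ 2 * (X0⁻¹ ^ P) ^ 2 * TJ := by
    have : √TJ ^ 2 = TJ := Real.sq_sqrt hT
    calc (2 * s * (Ct * X0⁻¹ ^ P * √TJ)) ^ 2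
        = 4 * s ^ 2 * Ct ^ 2 * (X0⁻¹ ^ P) ^ 2 * √TJ ^ 2 := by ring
      _ = _ := by rw [this]
  -- `X0⁻¹ ^ (2P) ≤ 16 * 2^(ε J)`
  have hta : 0 < t ^ a := Real.rpow_pos_of_pos ht a
  have h4 : (X0⁻¹ ^ P) ^ 2 ≤ 16 * 2 ^ (ε * J) := by
    have c1 : X0⁻¹ ≤ (t ^ a)⁻¹ := inv_anti₀ hta hX
    have c2 : (X0⁻¹ ^ P) ^ 2 ≤ ((t ^ a)⁻¹ ^ P) ^ 2 := by
      apply pow_le_pow_left₀ (by positivity)
      exact pow_le_pow_left₀ (by positivity) c1 P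
    have c3 : ((t ^ a)⁻¹ ^ P) ^ 2 = (t⁻¹) ^ ε := by
      rw [← Real.inv_rpow ht.le, ← Real.rpow_natCast, ← Real.rpow_natCast, ← Real.rpow_mul
        (Real.rpow_nonneg (by positivity) _), ← Real.rpow_mul (by positivity)]
      congr 1
      rw [← haP]; push_cast; ring
    have c4 : t⁻¹ ≤ 16 * 2 ^ J := by
      rw [inv_le_iff_one_le_mul₀ ht]
      rw [hst] at hs16
      linarith
    have hε0 : 0 ≤ ε := by rw [← haP]; positivity
    have c5 : (t⁻¹) ^ ε ≤ (16 * 2 ^ J) ^ ε :=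
      Real.rpow_le_rpow (by positivity) c4 hε0
    have c6 : ((16 : ℝ) * 2 ^ J) ^ ε = 16 ^ ε * 2 ^ (ε * J) := by
      rw [Real.mul_rpow (by norm_num) (by positivity), ← Real.rpow_natCast 2 J,
        ← Real.rpow_mul (by norm_num)]
      congr 2
      ring
    have c7 : (16 : ℝ) ^ ε ≤ 16 := by
      calc (16 : ℝ) ^ ε ≤ 16 ^ (1 : ℝ) := Real.rpow_le_rpow_of_exponent_le (by norm_num) hε
        _ = 16 := Real.rpow_one _
    calc (X0⁻¹ ^ P) ^ 2 ≤ (t⁻¹) ^ ε := c2.trans (le_of_eq c3)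
      _ ≤ 16 ^ ε * 2 ^ (ε * J) := c5.trans (le_of_eq c6)
      _ ≤ 16 * 2 ^ (ε * J) := mul_le_mul_of_nonneg_right c7 (by positivity)
  rw [div_pow, Real.sq_sqrt (by positivity), div_le_iff₀ (by positivity)]
  have hpe : (0 : ℝ) < 2 ^ (ε * J) := by positivity
  calc DJ ^ 2 ≤ 4 * s ^ 2 * Ct ^ 2 * (X0⁻¹ ^ P) ^ 2 * TJ := h2.trans (le_of_eq e3)
    _ ≤ 4 * s ^ 2 * Ct ^ 2 * (16 * 2 ^ (ε * J)) * TJ := by
        apply mul_le_mul_of_nonneg_right _ hT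
        exact mul_le_mul_of_nonneg_left h4 (by positivity)
    _ = (64 * s) * (s * Ct ^ 2 * 2 ^ (ε * J) * TJ) := by ring
    _ ≤ 8 * (s * Ct ^ 2 * 2 ^ (ε * J) * TJ) := by
        apply mul_le_mul_of_nonneg_right _ (by positivity)
        linarith
    _ = 8 * Ct ^ 2 * 2 ^ (ε * J) * (TJ / t) * (s * t) := by
        field_simp

lemma sqrt_pow_mul {t : ℝ} (ht : 0 < t) (i : ℕ) : √(2 ^ i * t * t) = √2 ^ i * t := by
  rw [mul_assoc, Real.sqrt_mul (by positivity), Real.sqrt_mul_self ht.le]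
  congr 1
  rw [Real.sqrt_eq_iff_mul_self_eq (by positivity) (by positivity), ← mul_pow,
    Real.mul_self_sqrt (by norm_num)]

namespace Line

variable {K c C1 Gg CU : ℝ} {Ng Nb : ℕ} {j1 J : ℕ} {t X0 ℓ : ℝ} {bad : ℕ → Prop}
  {D R T : ℝ → ℝ}

open Classical in
/-- (B') in 858's normalisation -/
lemma hB (h : Line K c C1 Gg CU Ng Nb j1 J t X0 ℓ bad D R T) (hK : 0 < K) (hc : 0 < c)
    (hC : 0 ≤ C1) (hGg : 1 ≤ Gg) (hNg : 1 ≤ Ng) (hNb : 4 ≤ Nb)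
    (hG : Gg ^ Ng ≤ (2 : ℝ) ^ ((1 : ℝ) / 16)) {ε del : ℝ} (hdel : 0 < del)
    (hε0 : 0 < ε) (hεl1 : ε ≤ eps0 K c C1 Gg Ng) (hεl2 : ε ≤ eps0 K c C1 2 Nb) {i : ℕ}
    (hi2 : 2 / ε ^ 2 ≤ (2 : ℝ) ^ i) (hi50 : (50 : ℝ) ≤ 2 ^ i) (hi1 : 1 ≤ i) (hij1 : j1 ≤ i)
    (hiJ : i < J) (hsm : D (2 ^ (i + 1) * t) / √(2 ^ (i + 1) * t * t) ≤ ε / 2 * √2 ^ (i + 1)) :
    D (2 ^ i * t) / √(2 ^ i * t * t) ≤
      (if bad i then (2 : ℝ) ^ (Nb + 1) else (2 : ℝ) ^ ((1 : ℝ) / 8)) * ((√2)⁻¹ *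
        (D (2 ^ (i + 1) * t) / √(2 ^ (i + 1) * t * t)) +
        3 * C1 * √((1 + del) * (T (2 ^ i * t) / t) - T (4 * (2 ^ i * t)) / t)) := by
  have ht := h.t_pos
  have hℓ := h.ℓ_ge
  have hsi := h.s_pos i
  have hs := h.s_le hiJ.le
  have e2 : (2 : ℝ) ^ (i + 1) * t = 2 * (2 ^ i * t) := by rw [pow_succ]; ring
  have h2t : 2 * t ≤ 2 ^ i * t := by
    have := h.s_mono hi1
    linarith only [this]
  -- smallness
  have hR1 := h.R_bd (τ := 2 * (2 ^ i * t)) (by linarith only [h2t, ht])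
    (by linarith only [hs, hℓ])
  have hR0 := h.R_bd (τ := 2 ^ i * t) h2t (by linarith only [hs, hℓ])
  have hD1 : D (2 * (2 ^ i * t)) ≤ ε / 2 * (2 * (2 ^ i * t)) := by
    rw [sqrt_pow_mul ht, e2] at hsm
    rw [div_le_iff₀ (by positivity)] at hsm
    refine hsm.trans (le_of_eq ?_)
    have : √2 ^ (i + 1) * √2 ^ (i + 1) = 2 ^ (i + 1) := by
      rw [← mul_pow, Real.mul_self_sqrt (by norm_num)]
    calc ε / 2 * √2 ^ (i + 1) * (√2 ^ (i + 1) * t)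
        = ε / 2 * ((√2 ^ (i + 1) * √2 ^ (i + 1)) * t) := by ring
      _ = ε / 2 * (2 * (2 ^ i * t)) := by rw [this, pow_succ]; ring
  have hsmD : D (2 * (2 ^ i * t)) / R (2 * (2 ^ i * t)) ≤ ε := by
    rw [div_le_iff₀ (by linarith only [hR1.1, hsi])]
    nlinarith only [hR1.1, hD1, hε0]
  have hTi : T (2 ^ i * t) ≤ 2 * t := h.T_le _ hsi.le (by linarith only [hs, hℓ])
  have hsmT : T (2 ^ i * t) ≤ ε ^ 2 * (2 ^ i * t) := by
    refine hTi.trans ?_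
    rw [div_le_iff₀ (by positivity)] at hi2
    nlinarith only [hi2, ht]
  have hεsq : ∀ y, ε ≤ y → ε ^ 2 * (2 ^ i * t) ≤ y ^ 2 * (2 ^ i * t) := fun y hy =>
    mul_le_mul_of_nonneg_right (pow_le_pow_left₀ hε0.le hy 2) hsi.le
  have hR0u : R (2 ^ i * t) ≤ 2 ^ i * t * (1 + 1 / 50) := by
    have h5 := (abs_le.1 (h.R_le (2 ^ i * t) hsi.le (by linarith only [hs, hℓ]))).2
    nlinarith only [h5, hi50, ht]
  have hR1l : 2 * (2 ^ i * t) * (1 - 1 / 100) ≤ R (2 * (2 ^ i * t)) := by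
    have h5 := (abs_le.1 (h.R_le (2 * (2 ^ i * t)) (by linarith only [hsi])
      (by linarith only [hs, hℓ]))).1
    nlinarith only [h5, hi50, ht]
  have hR1p : 0 < R (2 * (2 ^ i * t)) := by linarith only [hR1.1, hsi]
  have hR0p : 0 < R (2 ^ i * t) := by linarith only [hR0.1, hsi]
  have hfin : ∀ Gb : ℝ, 0 ≤ Gb →
      D (2 ^ i * t) / √(2 ^ i * t * t) ≤ Gb * ((√2)⁻¹ *
        (D (2 * (2 ^ i * t)) / √(2 * (2 ^ i * t) * t)) +
        3 * C1 * √((T (2 ^ i * t) - T (4 * (2 ^ i * t))) / t)) →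
      D (2 ^ i * t) / √(2 ^ i * t * t) ≤ Gb * ((√2)⁻¹ *
        (D (2 ^ (i + 1) * t) / √(2 ^ (i + 1) * t * t)) +
        3 * C1 * √((1 + del) * (T (2 ^ i * t) / t) - T (4 * (2 ^ i * t)) / t)) :=
    fun Gb hGb0 hh => by
    rw [e2]
    refine hh.trans ?_
    apply mul_le_mul_of_nonneg_left _ hGb0
    have h1 : √((T (2 ^ i * t) - T (4 * (2 ^ i * t))) / t) ≤
        √((1 + del) * (T (2 ^ i * t) / t) - T (4 * (2 ^ i * t)) / t) := by
      apply Real.sqrt_le_sqrt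
      rw [sub_div]
      have : 0 ≤ del * (T (2 ^ i * t) / t) := by
        have := h.T_nonneg (2 ^ i * t)
        positivity
      linarith only [this]
    exact add_le_add le_rfl (mul_le_mul_of_nonneg_left h1 (by positivity))
  by_cases hb : bad i
  · simp only [if_pos hb]
    refine hfin _ (by positivity) ?_
    have hstep := h.step_bad hK hc hC (by omega) (j := i) hij1 hi1 hiJ hNb (hsmD.trans hεl2)
      (hsmT.trans (hεsq _ hεl2))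
    refine renorm hsi ht hR1p hR0u hR1l hR0p (by positivity) hC (h.D_nonneg _) ?_ hstep
    have : (2 : ℝ) ^ ((1 : ℝ) / 16) ≤ 2 := by
      calc (2 : ℝ) ^ ((1 : ℝ) / 16) ≤ 2 ^ (1 : ℝ) :=
            Real.rpow_le_rpow_of_exponent_le (by norm_num) (by norm_num)
        _ = 2 := Real.rpow_one _
    rw [pow_succ]
    exact mul_le_mul_of_nonneg_left this (by positivity)
  · simp only [if_neg hb]
    refine hfin _ (by positivity) ?_
    have hstep := h.step_good hK hc hC hNg hGg (j := i) hij1 hi1 hiJ hb (hsmD.trans hεl1)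
      (hsmT.trans (hεsq _ hεl1))
    refine renorm hsi ht hR1p hR0u hR1l hR0p (by positivity) hC (h.D_nonneg _) ?_ hstep
    have : (2 : ℝ) ^ ((1 : ℝ) / 8) = 2 ^ ((1 : ℝ) / 16) * 2 ^ ((1 : ℝ) / 16) := by
      rw [← Real.rpow_add (by norm_num)]; norm_num
    rw [this]
    exact mul_le_mul_of_nonneg_right hG (by positivity)

/-- smallness hypothesis of the top chain -/
lemma small_top {A A1 t a X0 Tv : ℝ} {P : ℕ} (hA : 0 ≤ A) (hA1 : A1 = √2 * A + 1) (ht : 0 < t)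
    (ht1 : t ≤ 1) (htA : t ≤ A1⁻¹ ^ 4) (htX : t ^ a ≤ X0) (haP : a * (P + 1) ≤ 1 / 4)
    (hT : Tv ≤ 2 * t) : A * √Tv ≤ X0 ^ (P + 1) := by
  have hA10 : 0 < A1 := by rw [hA1]; positivity
  have hta0 : 0 < t ^ a := Real.rpow_pos_of_pos ht a
  have b1 : (t ^ a) ^ (P + 1) ≤ X0 ^ (P + 1) := pow_le_pow_left₀ hta0.le htX _
  refine le_trans ?_ b1
  have b2 : (t ^ a) ^ (P + 1) = t ^ (a * (P + 1)) := by
    rw [← Real.rpow_natCast, ← Real.rpow_mul ht.le]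
    push_cast; ring_nf
  rw [b2]
  have b3 : t ^ ((1 : ℝ) / 4) ≤ t ^ (a * (P + 1)) :=
    Real.rpow_le_rpow_of_exponent_ge ht ht1 haP
  refine le_trans ?_ b3
  have b4 : √Tv ≤ √2 * √t := by
    rw [← Real.sqrt_mul (by norm_num)]
    exact Real.sqrt_le_sqrt hT
  have b5 : √t = t ^ ((1 : ℝ) / 4) * t ^ ((1 : ℝ) / 4) := by
    rw [Real.sqrt_eq_rpow, ← Real.rpow_add ht]; norm_num
  have b6 : t ^ ((1 : ℝ) / 4) ≤ A1⁻¹ := by
    have : A1⁻¹ = (A1⁻¹ ^ 4) ^ ((1 : ℝ) / 4) := by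
      rw [← Real.rpow_natCast (A1⁻¹) 4, ← Real.rpow_mul (by positivity)]
      norm_num
    rw [this]
    exact Real.rpow_le_rpow ht.le htA (by norm_num)
  have hq0 : 0 ≤ t ^ ((1 : ℝ) / 4) := by positivity
  have b7 : √2 * A * t ^ ((1 : ℝ) / 4) ≤ 1 := by
    calc √2 * A * t ^ ((1 : ℝ) / 4) ≤ A1 * A1⁻¹ := by
          apply mul_le_mul _ b6 hq0 hA10.le
          rw [hA1]; linarith
      _ = 1 := mul_inv_cancel₀ hA10.ne'
  calc A * √Tv ≤ A * (√2 * √t) := mul_le_mul_of_nonneg_left b4 hA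
    _ = (√2 * A * t ^ ((1 : ℝ) / 4)) * t ^ ((1 : ℝ) / 4) := by rw [b5]; ring
    _ ≤ 1 * t ^ ((1 : ℝ) / 4) := mul_le_mul_of_nonneg_right b7 hq0
    _ = t ^ ((1 : ℝ) / 4) := one_mul _

/-- the top bound in 858's normalisation -/
lemma hTop (h : Line K c C1 Gg CU Ng Nb j1 J t X0 ℓ bad D R T) (hK : 0 < K) (hc : 0 < c)
    (hC : 0 ≤ C1) (hNb : 1 ≤ Nb) {A1 a eps : ℝ} (hA1 : A1 = √2 * topA K c C1 Nb + 1)
    (ht1 : t ≤ 1) (htA : t ≤ A1⁻¹ ^ 4) (htX : t ^ a ≤ X0) (ha0 : 0 ≤ a)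
    (haP : a * (topP Nb + 1) ≤ 1 / 4) (hae : 2 * a * topP Nb ≤ eps) (hJ1 : 1 ≤ J)
    (hJj1 : j1 ≤ J) :
    (D (2 ^ J * t) / √(2 ^ J * t * t)) ^ 2 ≤
      8 * topC C1 Nb ^ 2 * (2 : ℝ) ^ (eps * J) * (T (2 ^ J * t) / t) := by
  have ht := h.t_pos
  have hℓ := h.ℓ_ge
  have hsJ := h.s_pos J
  have hsJ8 := h.J_le
  have hsJ16 := h.J_ge
  have hA : 0 ≤ topA K c C1 Nb := by unfold topA; positivity
  have h2t : 2 * t ≤ 2 ^ J * t := by
    have := h.s_mono hJ1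
    linarith only [this]
  have hTJ : T (2 ^ J * t) ≤ 2 * t := h.T_le _ hsJ.le (by linarith only [hsJ8, hℓ])
  have hP0 : (0 : ℝ) ≤ topP Nb := Nat.cast_nonneg _
  have htop := top_chain hK hc hC hNb (ℓ := ℓ) (X0 := X0) (s := 2 ^ J * t) (D := D)
    (R := R) (T := T) h.ℓ_ge h.ℓ_le h.X0_pos h.X0_le hsJ16 hsJ8 h.D_last
    (fun τ h1 h2 => h.R_bd (by linarith only [h1, h2t]) h2) (fun τ _ _ => h.T_nonneg τ)
    (fun τ τ' h1 h2 h3 => h.T_anti τ τ' (by linarith only [h1, hsJ]) h2 h3)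
    (fun τ₁ τ₂ τ₃ h1 h2 h3 h4 h5 h6 h7 h8 =>
      h.always τ₁ τ₂ τ₃ ((h.s_mono hJj1).trans h1) h2 h3 h4 h5 h6 h7 h8)
    (fun τ₁ h1 h2 h3 h4 => h.last τ₁ ((h.s_mono hJj1).trans h1) h2 h3 h4)
    (small_top hA hA1 ht ht1 htA htX haP hTJ)
  have hRJ := h.R_bd (τ := 2 ^ J * t) h2t (by linarith only [hsJ8, hℓ])
  have hrt := renorm_top (s := 2 ^ J * t) (P := topP Nb) (J := J) (a := a)
    (ε := 2 * a * topP Nb) hsJ16 hsJ8
    ht rfl (by linarith only [hRJ.1, hsJ]) hRJ.2 (h.T_nonneg _) (h.D_nonneg _) ha0 rfl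
    (by nlinarith only [haP, ha0, hP0]) htX h.X0_pos htop
  refine hrt.trans ?_
  apply mul_le_mul_of_nonneg_right _ (div_nonneg (h.T_nonneg _) ht.le)
  apply mul_le_mul_of_nonneg_left _ (by positivity)
  apply Real.rpow_le_rpow_of_exponent_le (by norm_num)
  exact mul_le_mul_of_nonneg_right hae (Nat.cast_nonneg _)

end Line

open Classical in
/-- **Decay along one line**: the excess and the distance to the ray decay. -/
theorem line_decay {K c C1 Gg CU : ℝ} {Ng Nb : ℕ} (hK : 0 < K) (hc : 0 < c) (hC : 0 ≤ C1)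
    (hGg : 1 ≤ Gg) (hCU : 0 ≤ CU) (hNg : 1 ≤ Ng) (hNb : 4 ≤ Nb)
    (hG : Gg ^ Ng ≤ (2 : ℝ) ^ ((1 : ℝ) / 16)) :
    ∃ β c3 a : ℝ, 0 < β ∧ 0 < c3 ∧ 0 < a ∧ a ≤ 1 / 4 ∧ ∀ j1 : ℕ, ∃ (j0 : ℕ) (t0 C : ℝ),
      j1 ≤ j0 ∧ 0 < t0 ∧ 0 ≤ C ∧ ∀ (J : ℕ) (t X0 ℓ : ℝ) (bad : ℕ → Prop) (D R T : ℝ → ℝ),
      Line K c C1 Gg CU Ng Nb j1 J t X0 ℓ bad D R T → t ≤ t0 → t ^ a ≤ X0 →
      (∀ j, j ≤ J → (#{i ∈ range j | bad i} : ℝ) ≤ c3 * (1 + j)) →
      ∀ j, j0 ≤ j → j ≤ J → T (2 ^ j * t) ≤ C * t * (2 : ℝ) ^ (-β * j) ∧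
        D (2 ^ j * t) ^ 2 ≤ C * t * (2 ^ j * t) * (2 : ℝ) ^ (-β * j) := by
  have hNb1 : 1 ≤ Nb := by omega
  obtain ⟨β, c3, eps, del, Hη, hβ, hc3, heps, hdel, hHη, hcl⟩ :=
    closing_pre CU (3 * C1) (2 ^ (Nb + 1)) (8 * topC C1 Nb ^ 2) hCU (by positivity)
      (one_le_pow₀ (by norm_num)) (by positivity)
  -- the smallness constants
  have hε1 := eps0_pos (K := K) (c := c) (C1 := C1) (G := Gg) (N := Ng) hK hc hC hGg hNg
  have hε2 := eps0_pos (K := K) (c := c) (C1 := C1) (G := 2) (N := Nb) hK hc hC (by norm_num) hNb1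
  obtain ⟨ε, hε0, hεl1, hεl2⟩ : ∃ ε : ℝ, 0 < ε ∧ ε ≤ eps0 K c C1 Gg Ng ∧
      ε ≤ eps0 K c C1 2 Nb := ⟨_, lt_min hε1 hε2, min_le_left _ _, min_le_right _ _⟩
  obtain ⟨m1, hm10, hm11, hm1e⟩ : ∃ m1 : ℝ, 0 < m1 ∧ m1 ≤ 1 ∧ m1 ≤ eps :=
    ⟨min eps 1, lt_min heps one_pos, min_le_right _ _, min_le_left _ _⟩
  have hP0 : (0 : ℝ) ≤ topP Nb := Nat.cast_nonneg _
  obtain ⟨a, ha0, haP⟩ : ∃ a : ℝ, 0 < a ∧ a * (topP Nb + 1) = m1 / 4 :=
    ⟨m1 / (4 * (topP Nb + 1)), by positivity, by field_simp⟩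
  have haP2 : 2 * a * topP Nb ≤ eps := by nlinarith only [haP, ha0, hP0, hm1e, hm10]
  have ha1 : a ≤ 1 / 4 := by nlinarith only [haP, ha0, hP0, hm11]
  refine ⟨β, c3, a, hβ, hc3, ha0, ha1, fun j1 => ?_⟩
  obtain ⟨j2, hj2⟩ : ∃ j2 : ℕ, max (2 / ε ^ 2) 50 ≤ (2 : ℝ) ^ j2 := by
    obtain ⟨n, hn⟩ := pow_unbounded_of_one_lt (max (2 / ε ^ 2) 50) (one_lt_two (α := ℝ))
    exact ⟨n, hn.le⟩
  have hj2a : 2 / ε ^ 2 ≤ (2 : ℝ) ^ j2 := (le_max_left _ _).trans hj2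
  have hj2b : (50 : ℝ) ≤ (2 : ℝ) ^ j2 := (le_max_right _ _).trans hj2
  obtain ⟨j0, C, hj0, -, hC0, hmain⟩ := hcl (ε / 2) (by positivity) (max j1 (max j2 1))
  have hj01 : j1 ≤ j0 := (le_max_left _ _).trans hj0
  obtain ⟨A1, hA1⟩ : ∃ A1 : ℝ, A1 = √2 * topA K c C1 Nb + 1 := ⟨_, rfl⟩
  have hA10 : 0 < A1 := by rw [hA1]; unfold topA; positivity
  refine ⟨j0, min 1 (A1⁻¹ ^ 4), C, hj01, lt_min one_pos (by positivity), hC0, ?_⟩
  intro J t X0 ℓ bad D R T h ht0 htX hbad j hj0j hjJ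
  have ht := h.t_pos
  have ht1 : t ≤ 1 := ht0.trans (min_le_left _ _)
  have htA : t ≤ A1⁻¹ ^ 4 := ht0.trans (min_le_right _ _)
  have hℓ := h.ℓ_ge
  have hbig : ∀ i, max j1 (max j2 1) ≤ i → 2 / ε ^ 2 ≤ (2 : ℝ) ^ i ∧ (50 : ℝ) ≤ 2 ^ i ∧ 1 ≤ i ∧
      j1 ≤ i := fun i hi => by
    have h1 : j2 ≤ i := ((le_max_left _ _).trans (le_max_right _ _)).trans hi
    have h2 : (2 : ℝ) ^ j2 ≤ 2 ^ i := pow_le_pow_right₀ (by norm_num) h1
    exact ⟨hj2a.trans h2, hj2b.trans h2,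
      ((le_max_right _ _).trans (le_max_right _ _)).trans hi, (le_max_left _ _).trans hi⟩
  have hs8 : ∀ i ≤ J, 2 ^ i * t ≤ 1 / 8 := fun i hi => h.s_le hi
  -- the normalised sequences
  have hres := hmain J (fun i => T (min (2 ^ i * t) ℓ) / t)
    (fun i => D (2 ^ i * t) / √(2 ^ i * t * t)) bad
    (fun i => div_nonneg (h.T_nonneg _) ht.le)
    (fun i => by
      rw [div_le_iff₀ ht]
      exact h.T_le _ (le_min (h.s_pos i).le (by linarith only [hℓ])) (min_le_right _ _))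
    (fun i i' hii => by
      apply div_le_div_of_nonneg_right _ ht.le
      exact h.T_anti _ _ (le_min (h.s_pos i).le (by linarith only [hℓ]))
        (min_le_min_right _ (h.s_mono hii)) (min_le_right _ _))
    (fun i => div_nonneg (h.D_nonneg _) (Real.sqrt_nonneg _))
    (fun i hi hiJ _ => by
      -- (U)
      obtain ⟨-, -, hi1, hij1⟩ := hbig i hi
      have hsi := h.s_pos i
      have hs := hs8 i hiJ.le
      have h1 := h.U (2 ^ i * t) (h.s_mono hij1) (by linarith only [hs])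
      have e0 : (2 : ℝ) ^ (i + 1) * t = 2 * (2 ^ i * t) := by rw [pow_succ]; ring
      have e1 : min (2 ^ (i + 1) * t) ℓ = 2 * (2 ^ i * t) := by
        rw [e0]
        exact min_eq_left (by linarith only [hs, hℓ])
      rw [e1, div_pow, Real.sq_sqrt (by positivity)]
      rw [div_le_iff₀ ht]
      refine h1.trans (le_of_eq ?_)
      field_simp)
    (fun i hi hiJ hsm => by
      -- (B')
      obtain ⟨hi2, hi50, hi1, hij1⟩ := hbig i hi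
      have hs := hs8 i hiJ.le
      have e4 : (2 : ℝ) ^ (i + 2) * t = 4 * (2 ^ i * t) := by rw [pow_add]; ring
      have e1 : min (2 ^ i * t) ℓ = 2 ^ i * t := min_eq_left (by linarith only [hs, hℓ])
      have e1' : min (2 ^ (i + 2) * t) ℓ = 4 * (2 ^ i * t) := by
        rw [e4]; exact min_eq_left (by linarith only [hs, hℓ])
      have key := h.hB hK hc hC hGg hNg hNb hG hdel hε0 hεl1 hεl2 hi2 hi50 hi1 hij1 hiJ hsm
      rw [e1, e1']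
      exact key)
    (by
      -- top
      have hJj : max j1 (max j2 1) ≤ J := hj0.trans (hj0j.trans hjJ)
      obtain ⟨-, -, hJ1, hJj1⟩ := hbig J hJj
      have hsJ8 := h.J_le
      have e1 : min (2 ^ J * t) ℓ = 2 ^ J * t := min_eq_left (by linarith only [hsJ8, hℓ])
      rw [e1]
      exact h.hTop hK hc hC hNb1 hA1 ht1 htA htX ha0.le (by linarith only [haP, hm11]) haP2
        hJ1 hJj1)
    hbad j hj0j hjJ
  obtain ⟨-, hT, hD⟩ := hres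
  have hsj := h.s_pos j
  have e1 : min (2 ^ j * t) ℓ = 2 ^ j * t :=
    min_eq_left (by have := hs8 j hjJ; linarith only [this, hℓ])
  rw [e1, div_le_iff₀ ht] at hT
  rw [div_pow, Real.sq_sqrt (by positivity), div_le_iff₀ (by positivity)] at hD
  refine ⟨hT.trans (le_of_eq (by ring)), hD.trans (le_of_eq (by ring))⟩

end Crest.Agent.R247.Ch111
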