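import Mathlib.MeasureTheory.Integral.Lebesgue.Add
import Mathlib.MeasureTheory.Integral.Lebesgue.Countable
import Mathlib.Algebra.BigOperators.Intervals
import Mathlib.Analysis.SpecialFunctions.Pow.Real

/-!
# R247, block (1-N), part N1: the one-sided discrete rising sun lemma

Index `m` is the scale `s_m = 2^{-m} s_0` (`m = 0` is the coarsest one).  `Hit c Bad m` says
that some window `[i, m]` (scales from `t = s_m` up to `s_i`) holds more than the proportion
`c` of bad scales.
-/

open MeasureTheory Finset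
open scoped ENNReal

namespace Crest.Agent.R247.Num824

/-- One-sided rising sun lemma for a sequence of nonnegative reals. -/
theorem rising_ex {b : ℕ → ℝ} (hb : ∀ j, 0 ≤ b j) {c : ℝ} (_hc : 0 < c)
    (H : ℕ → Prop) [DecidablePred H]
    (hH : ∀ m, H m → ∃ i ≤ m, c * ((m : ℝ) + 1 - i) ≤ ∑ j ∈ Ico i (m + 1), b j) (N : ℕ) :
    c * (#{m ∈ range N | H m} : ℝ) ≤ ∑ j ∈ range N, b j := by
  induction N using Nat.strong_induction_on with
  | _ N ih =>
    rcases Nat.eq_zero_or_pos N with rfl | hN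
    · simp
    obtain ⟨m, rfl⟩ : ∃ m, N = m + 1 := ⟨N - 1, by omega⟩
    by_cases hm : H m
    · obtain ⟨i, him, hi⟩ := hH m hm
      have h1 := ih i (by omega)
      have hsub : {k ∈ range (m + 1) | H k} ⊆ {k ∈ range i | H k} ∪ Ico i (m + 1) := by
        intro k hk
        rw [mem_filter, mem_range] at hk
        rw [mem_union, mem_filter, mem_range, mem_Ico]
        by_cases hki : k < i
        · exact Or.inl ⟨hki, hk.2⟩
        · exact Or.inr ⟨by omega, hk.1⟩
      have hcard : (#{k ∈ range (m + 1) | H k} : ℝ) ≤ #{k ∈ range i | H k} + ((m : ℝ) + 1 - i) := by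
        have h2 := (card_le_card hsub).trans (card_union_le _ _)
        rw [Nat.card_Ico] at h2
        have h3 : ((#{k ∈ range (m + 1) | H k} : ℕ) : ℝ) ≤
            ((#{k ∈ range i | H k} + (m + 1 - i) : ℕ) : ℝ) := by exact_mod_cast h2
        refine h3.trans (le_of_eq ?_)
        have : i ≤ m + 1 := by omega
        push_cast [Nat.cast_sub this]
        ring
      calc c * (#{k ∈ range (m + 1) | H k} : ℝ)
          ≤ c * (#{k ∈ range i | H k} + ((m : ℝ) + 1 - i)) := by gcongr
        _ = c * #{k ∈ range i | H k} + c * ((m : ℝ) + 1 - i) := by ring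
        _ ≤ ∑ j ∈ range i, b j + ∑ j ∈ Ico i (m + 1), b j := add_le_add h1 hi
        _ = ∑ j ∈ range (m + 1), b j := by
          rw [range_eq_Ico, range_eq_Ico, sum_Ico_consecutive _ (by omega) (by omega)]
    · have h1 := ih m (by omega)
      have : {k ∈ range (m + 1) | H k} = {k ∈ range m | H k} := by
        ext k
        simp only [mem_filter, mem_range]
        constructor
        · rintro ⟨h, h'⟩
          refine ⟨lt_of_le_of_ne (by omega) ?_, h'⟩
          rintro rfl
          exact hm h'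
        · rintro ⟨h, h'⟩
          exact ⟨by omega, h'⟩
      rw [this]
      refine h1.trans ?_
      rw [sum_range_succ]
      exact le_add_of_nonneg_right (hb m)

/-- One-sided rising sun lemma. -/
theorem rising {b : ℕ → ℝ} (hb : ∀ j, 0 ≤ b j) {c : ℝ} (hc : 0 < c) (N : ℕ)
    [DecidablePred fun m : ℕ =>
      ∃ i : ℕ, i ≤ m ∧ c * ((m : ℝ) + 1 - i) < ∑ j ∈ Ico i (m + 1), b j] :
    c * (#{m ∈ range N |
        ∃ i : ℕ, i ≤ m ∧ c * ((m : ℝ) + 1 - i) < ∑ j ∈ Ico i (m + 1), b j} : ℝ)
      ≤ ∑ j ∈ range N, b j :=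
  rising_ex hb hc _ (fun _ ⟨i, hi, h⟩ => ⟨i, hi, h.le⟩) N

open Classical in
/-- The proportion of bad scales in some window `[i, m]` exceeds `c`. -/
def Hit (c : ℝ) (Bad : ℕ → Prop) (m : ℕ) : Prop :=
  ∃ i ≤ m, c * ((m : ℝ) + 1 - i) < (#{j ∈ Ico i (m + 1) | Bad j} : ℝ)

open Classical in
theorem not_hit {c : ℝ} {Bad : ℕ → Prop} {m : ℕ} (h : ¬ Hit c Bad m) {i : ℕ} (hi : i ≤ m) :
    (#{j ∈ Ico i (m + 1) | Bad j} : ℝ) ≤ c * ((m : ℝ) + 1 - i) := by
  by_contra h'
  exact h ⟨i, hi, not_le.1 h'⟩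

open Classical in
/-- The form consumed by the closing: near scale `m`, `j` counts the scales from `m` upwards,
`bad' j = Bad (m - j)`. -/
theorem not_hit' {c : ℝ} {Bad : ℕ → Prop} {m : ℕ} (h : ¬ Hit c Bad m) {j : ℕ}
    (hj : j ≤ m + 1) :
    (#{i ∈ range j | Bad (m - i)} : ℝ) ≤ c * (j : ℝ) := by
  rcases Nat.eq_zero_or_pos j with rfl | hj0
  · simp
  have h1 := not_hit h (i := m + 1 - j) (by omega)
  have h2 : #{i ∈ range j | Bad (m - i)} = #{k ∈ Ico (m + 1 - j) (m + 1) | Bad k} := by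
    refine card_bij (fun i _ => m - i) ?_ ?_ ?_
    · intro i hi
      rw [mem_filter, mem_range] at hi
      rw [mem_filter, mem_Ico]
      exact ⟨⟨by omega, by omega⟩, hi.2⟩
    · intro i hi i' hi' h
      rw [mem_filter, mem_range] at hi hi'
      have h : m - i = m - i' := h
      omega
    · intro k hk
      rw [mem_filter, mem_Ico] at hk
      refine ⟨m - k, ?_, by omega⟩
      rw [mem_filter, mem_range]
      refine ⟨by omega, ?_⟩
      have : m - (m - k) = k := by omega
      rw [this]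
      exact hk.2
  rw [h2]
  refine h1.trans (le_of_eq ?_)
  rw [Nat.cast_sub hj]
  push_cast
  ring

open Classical in
theorem rising_hit {c : ℝ} (hc : 0 < c) (Bad : ℕ → Prop) (N : ℕ) :
    c * (#{m ∈ range N | Hit c Bad m} : ℝ) ≤ (#{m ∈ range N | Bad m} : ℝ) := by
  have h := rising_ex (b := fun j => if Bad j then (1 : ℝ) else 0)
    (fun j => by split_ifs <;> norm_num) hc (Hit c Bad) (fun m ⟨i, hi, h⟩ => ⟨i, hi, by
      refine h.le.trans (le_of_eq ?_)
      rw [sum_ite, sum_const_zero, add_zero, sum_const, nsmul_eq_mul, mul_one]⟩) N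
  refine h.trans (le_of_eq ?_)
  rw [sum_ite, sum_const_zero, add_zero, sum_const, nsmul_eq_mul, mul_one]

section Meas

variable {Ω : Type*} [MeasurableSpace Ω]

open Classical in
theorem measurableSet_hit {c : ℝ} {Bd : ℕ → Set Ω} (hBd : ∀ j, MeasurableSet (Bd j)) (m : ℕ) :
    MeasurableSet {w | Hit c (fun j => w ∈ Bd j) m} := by
  have h1 : ∀ i : ℕ, Measurable fun w => (#{j ∈ Ico i (m + 1) | w ∈ Bd j} : ℝ) := by
    intro i
    have : (fun w => (#{j ∈ Ico i (m + 1) | w ∈ Bd j} : ℝ)) =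
        fun w => ∑ j ∈ Ico i (m + 1), (Bd j).indicator (fun _ => (1 : ℝ)) w := by
      funext w
      rw [card_eq_sum_ones, Nat.cast_sum, sum_filter]
      refine sum_congr rfl fun j _ => ?_
      by_cases h : w ∈ Bd j
      · rw [if_pos h, Set.indicator_of_mem h]; norm_num
      · rw [if_neg h, Set.indicator_of_notMem h]
    rw [this]
    exact Finset.measurable_sum _ fun j _ => measurable_const.indicator (hBd j)
  have h2 : {w | Hit c (fun j => w ∈ Bd j) m} =
      ⋃ i ∈ Iic m, {w | c * ((m : ℝ) + 1 - i) < (#{j ∈ Ico i (m + 1) | w ∈ Bd j} : ℝ)} := by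
    ext w
    simp only [Hit, Set.mem_ofPred_eq, Set.mem_iUnion, mem_Iic, exists_prop]
  rw [h2]
  exact Finset.measurableSet_biUnion _ fun i _ => measurableSet_lt measurable_const (h1 i)

open Classical in
/-- Rising sun in measure. -/
theorem rising_meas {c : ℝ} (hc : 0 < c) (P : Measure Ω) {Bd : ℕ → Set Ω}
    (hBd : ∀ j, MeasurableSet (Bd j)) (N : ℕ) :
    ∑ m ∈ range N, P {w | Hit c (fun j => w ∈ Bd j) m}
      ≤ ENNReal.ofReal (1 / c) * ∑ m ∈ range N, P (Bd m) := by
  have hH := measurableSet_hit (c := c) hBd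
  have h1 : ∀ {A : ℕ → Set Ω}, (∀ j, MeasurableSet (A j)) →
      ∑ m ∈ range N, P (A m) = ∫⁻ w, ENNReal.ofReal (#{m ∈ range N | w ∈ A m} : ℝ) ∂P := by
    intro A hA
    have : (fun w => ENNReal.ofReal (#{m ∈ range N | w ∈ A m} : ℝ)) =
        fun w => ∑ m ∈ range N, (A m).indicator (fun _ => (1 : ℝ≥0∞)) w := by
      funext w
      rw [card_eq_sum_ones, sum_filter, Nat.cast_sum, ENNReal.ofReal_sum_of_nonneg]
      · refine sum_congr rfl fun j _ => ?_
        by_cases h : w ∈ A j
        · rw [if_pos h, Set.indicator_of_mem h]; simp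
        · rw [if_neg h, Set.indicator_of_notMem h]; simp
      · intro j _
        positivity
    rw [this, lintegral_finsetSum _ fun m _ => measurable_const.indicator (hA m)]
    refine sum_congr rfl fun m _ => ?_
    rw [lintegral_indicator (hA m)]
    simp
  rw [h1 (A := fun m => {w | Hit c (fun j => w ∈ Bd j) m}) hH, h1 hBd,
    ← lintegral_const_mul' _ _ ENNReal.ofReal_ne_top]
  refine lintegral_mono fun w => ?_
  dsimp only
  rw [← ENNReal.ofReal_mul (by positivity)]
  refine ENNReal.ofReal_le_ofReal ?_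
  have h2 := rising_hit hc (fun j => w ∈ Bd j) N
  rw [one_div, le_inv_mul_iff₀ hc]
  exact h2

open Classical in
theorem rising_tsum {c : ℝ} (hc : 0 < c) (P : Measure Ω) {Bd : ℕ → Set Ω}
    (hBd : ∀ j, MeasurableSet (Bd j)) :
    ∑' m, P {w | Hit c (fun j => w ∈ Bd j) m} ≤ ENNReal.ofReal (1 / c) * ∑' m, P (Bd m) := by
  refine ENNReal.tsum_le_of_sum_range_le fun N => (rising_meas hc P hBd N).trans ?_
  gcongr
  exact ENNReal.sum_le_tsum _

end Meas

end Crest.Agent.R247.Num824
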