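import Crest.Agent.R247.Far0_553
import Crest.Agent.R247.Num1_824

/-!
# R247, block (1-CH): bad count along a real base scale, choice of the base scale, conversion
(helper101, for 111)

`t = dy m` is the near scale, `t' ∈ [t, 2t)` a real base scale, `s_j = 2 ^ j * t'`.
-/

set_option autoImplicit false
open Finset

noncomputable section
namespace Crest.Agent.R247.Chb101

open Crest.Agent.R247.Far553 Crest.Agent.R247.Num824

/-- one of the dyadic scales `dy i` near `2 ^ j * dy m` is bad -/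
def badP (Bad : ℕ → Prop) (m j : ℕ) : Prop :=
  3 ≤ j ∧ ∃ i, Bad i ∧ m ≤ i + j + 4 ∧ i + j ≤ m + 3

/-- the same, and the `8` coarsest scales are bad by definition -/
def badQ (Bad : ℕ → Prop) (m j : ℕ) : Prop :=
  3 ≤ j ∧ ((∃ i, Bad i ∧ m ≤ i + j + 4 ∧ i + j ≤ m + 3) ∨ m ≤ j + 8)

lemma not_badP {Bad : ℕ → Prop} {m j : ℕ} (hj : 3 ≤ j) (h : ¬ badP Bad m j) {i : ℕ}
    (h1 : m ≤ i + j + 4) (h2 : i + j ≤ m + 3) : ¬ Bad i :=
  fun hi => h ⟨hj, i, hi, h1, h2⟩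

lemma not_badQ {Bad : ℕ → Prop} {m j : ℕ} (hj : 3 ≤ j) (h : ¬ badQ Bad m j) {i : ℕ}
    (h1 : m ≤ i + j + 4) (h2 : i + j ≤ m + 3) : ¬ Bad i ∧ 5 ≤ i := by
  refine ⟨fun hi => h ⟨hj, Or.inl ⟨i, hi, h1, h2⟩⟩, ?_⟩
  have h3 : ¬ m ≤ j + 8 := fun h3 => h ⟨hj, Or.inr h3⟩
  omega

open Classical in
/-- **Count of the bad scales**, for a real base scale. -/
theorem card_badP {c : ℝ} (hc : 0 ≤ c) {Bad : ℕ → Prop} {m : ℕ} (h : ¬ Hit c Bad m) {j : ℕ}
    (hj : j ≤ m) : (#{i ∈ range j | badP Bad m i} : ℝ) ≤ 40 * c * (1 + j) := by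
  -- a bad scale attached to each `i`
  have hex : ∀ i : ℕ, ∃ k : ℕ, badP Bad m i → Bad k ∧ m ≤ k + i + 4 ∧ k + i ≤ m + 3 := by
    intro i
    by_cases hi : badP Bad m i
    · obtain ⟨_, k, hk⟩ := hi
      exact ⟨k, fun _ => hk⟩
    · exact ⟨0, fun h => absurd h hi⟩
  choose f hf using hex
  set W : Finset ℕ := {k ∈ Ico (m - (j + 3)) (m + 1) | Bad k} with hW
  have h1 : #{i ∈ range j | badP Bad m i} ≤ 8 * #W := by
    refine card_le_mul_card_image_of_maps_to (f := f) (fun i hi => ?_) 8 (fun k _ => ?_)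
    · have hi := mem_filter.1 (Finset.mem_coe.1 hi)
      have h2 := hf i hi.2
      have h3 := mem_range.1 hi.1
      have h4 := hi.2.1
      rw [hW]
      refine Finset.mem_coe.2 (mem_filter.2 ⟨mem_Ico.2 ⟨by omega, by omega⟩, h2.1⟩)
    · have h5 : ({i ∈ {i ∈ range j | badP Bad m i} | f i = k} : Finset ℕ) ⊆
          Icc (m - (k + 4)) (m + 3 - k) := by
        intro i hi
        obtain ⟨hi1, hi2⟩ := mem_filter.1 hi
        have h2 := hf i (mem_filter.1 hi1).2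
        rw [hi2] at h2
        rw [mem_Icc]
        omega
      refine (card_le_card h5).trans ?_
      rw [Nat.card_Icc]
      omega
  have h2 : (#W : ℝ) ≤ c * ((j : ℝ) + 4) := by
    rcases le_total (j + 3) m with hjm | hjm
    · have h3 := not_hit h (i := m - (j + 3)) (by omega)
      refine h3.trans (mul_le_mul_of_nonneg_left (le_of_eq ?_) hc)
      rw [Nat.cast_sub hjm]
      push_cast
      ring
    · have h3 := not_hit h (i := 0) (by omega)
      have h4 : m - (j + 3) = 0 := by omega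
      rw [hW, h4]
      refine h3.trans (mul_le_mul_of_nonneg_left ?_ hc)
      have h5 : (m : ℝ) ≤ (j : ℝ) + 3 := by exact_mod_cast hjm
      push_cast
      linarith
  have h6 : (#{i ∈ range j | badP Bad m i} : ℝ) ≤ 8 * #W := by exact_mod_cast h1
  have h7 : (0 : ℝ) ≤ j := Nat.cast_nonneg j
  nlinarith [mul_nonneg hc h7]

open Classical in
/-- the same, when the coarsest scales are declared to be bad -/
theorem card_badQ {c : ℝ} (hc : 0 < c) {Bad : ℕ → Prop} {m : ℕ} (hm : 8 / c + 8 ≤ m)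
    (h : ¬ Hit c Bad m) {j : ℕ} (hj : j ≤ m) :
    (#{i ∈ range j | badQ Bad m i} : ℝ) ≤ 41 * c * (1 + j) := by
  have h1 := card_badP hc.le h hj
  have h7 : (0 : ℝ) ≤ j := Nat.cast_nonneg j
  rcases le_total (j + 8) m with hjm | hjm
  · have h2 : ({i ∈ range j | badQ Bad m i} : Finset ℕ) = {i ∈ range j | badP Bad m i} := by
      ext i
      simp only [mem_filter, mem_range, badQ, badP]
      constructor
      · rintro ⟨hi, hi3, h4 | h4⟩
        · exact ⟨hi, hi3, h4⟩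
        · omega
      · rintro ⟨hi, hi3, h4⟩
        exact ⟨hi, hi3, Or.inl h4⟩
    rw [h2]
    nlinarith [mul_nonneg hc.le h7]
  · have h2 : ({i ∈ range j | badQ Bad m i} : Finset ℕ) ⊆
        {i ∈ range j | badP Bad m i} ∪ Ico (m - 8) m := by
      intro i hi
      simp only [mem_filter, mem_range, badQ, badP, mem_union, mem_Ico] at hi ⊢
      obtain ⟨hi, hi3, h4 | h4⟩ := hi
      · exact Or.inl ⟨hi, hi3, h4⟩
      · exact Or.inr ⟨by omega, by omega⟩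
    have h3 := (card_le_card h2).trans (card_union_le _ _)
    rw [Nat.card_Ico] at h3
    have h4 : #{i ∈ range j | badQ Bad m i} ≤ #{i ∈ range j | badP Bad m i} + 8 := by omega
    have h5 : (#{i ∈ range j | badQ Bad m i} : ℝ) ≤ #{i ∈ range j | badP Bad m i} + 8 := by
      exact_mod_cast h4
    have h6 : (m : ℝ) ≤ (j : ℝ) + 8 := by exact_mod_cast hjm
    have h8 : 8 / c ≤ 1 + j := by linarith
    have h9 : 8 ≤ c * (1 + j) := by
      rw [div_le_iff₀ hc] at h8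
      linarith
    nlinarith

/-- **Choice of the base scale.** -/
theorem exists_base {m j0 : ℕ} {τ : ℝ} (h1 : 2 ^ j0 * dy m ≤ τ) (h2 : τ ≤ 1 / 8) :
    ∃ (j J : ℕ) (t' : ℝ), dy m ≤ t' ∧ t' < 2 * dy m ∧ 2 ^ j * t' = τ ∧ j0 ≤ j ∧ j ≤ J ∧
      J + 3 ≤ m ∧ 1 / 16 ≤ 2 ^ J * t' ∧ 2 ^ J * t' ≤ 1 / 8 := by
  have ht := dy_pos m
  have hp0 : (1 : ℝ) ≤ 2 ^ j0 := one_le_pow₀ (by norm_num)
  have hτ : 0 < τ := lt_of_lt_of_le (by positivity) h1
  have hx : 1 ≤ τ / dy m := by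
    rw [le_div_iff₀ ht]
    nlinarith
  obtain ⟨j, hj1, hj2⟩ := exists_nat_pow_near hx (by norm_num : (1 : ℝ) < 2)
  have hj1 := (le_div_iff₀ ht).1 hj1
  have hj2 := (div_lt_iff₀ ht).1 hj2
  have h2j : (0 : ℝ) < 2 ^ j := by positivity
  set t' := τ / 2 ^ j with ht'
  have he : 2 ^ j * t' = τ := by rw [ht']; field_simp
  have hta : dy m ≤ t' := by rw [ht', le_div_iff₀ h2j]; linarith
  have htb : t' < 2 * dy m := by
    rw [ht', div_lt_iff₀ h2j]
    rw [pow_succ] at hj2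
    linarith
  have ht0 : 0 < t' := lt_of_lt_of_le ht hta
  have hp1 : (1 : ℝ) ≤ 2 ^ j := one_le_pow₀ (by norm_num)
  have hy : 1 ≤ 1 / 8 / t' := by
    rw [le_div_iff₀ ht0]
    nlinarith
  obtain ⟨J, hJ1, hJ2⟩ := exists_nat_pow_near hy (by norm_num : (1 : ℝ) < 2)
  have hJ1 := (le_div_iff₀ ht0).1 hJ1
  have hJ2 := (div_lt_iff₀ ht0).1 hJ2
  have hm8 : (2 : ℝ) ^ J * dy m ≤ 1 / 8 :=
    (mul_le_mul_of_nonneg_left hta (by positivity)).trans hJ1
  refine ⟨j, J, t', hta, htb, he, ?_, ?_, ?_, ?_, hJ1⟩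
  · -- `j0 ≤ j`
    have h3 : (2 : ℝ) ^ j0 < 2 ^ (j + 1) := lt_of_mul_lt_mul_right (h1.trans_lt hj2) ht.le
    have := (pow_lt_pow_iff_right₀ (by norm_num : (1 : ℝ) < 2)).1 h3
    omega
  · -- `j ≤ J`
    have h3 : (2 : ℝ) ^ j < 2 ^ (J + 1) :=
      lt_of_mul_lt_mul_right ((he.trans_le h2).trans_lt hJ2) ht0.le
    have := (pow_lt_pow_iff_right₀ (by norm_num : (1 : ℝ) < 2)).1 h3
    omega
  · -- `J + 3 ≤ m`
    unfold dy at hm8
    by_contra hcon
    have hcon : m < J + 3 := not_le.1 hcon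
    have h4 : (1 / 2 : ℝ) ^ m = 1 / 2 ^ m := by rw [div_pow, one_pow]
    rw [h4] at hm8
    have h5 : (2 : ℝ) ^ m < 2 ^ (J + 3) := pow_lt_pow_right₀ (by norm_num) hcon
    have h6 : (2 : ℝ) ^ J * (1 / 2 ^ m) ≤ 1 / 8 := hm8
    have h7 : (2 : ℝ) ^ J * 8 ≤ 2 ^ m := by
      have hm0 : (0 : ℝ) < 2 ^ m := by positivity
      have h8 : (2 : ℝ) ^ J = 2 ^ J * (1 / 2 ^ m) * 2 ^ m := by field_simp
      nlinarith
    rw [pow_add] at h5
    norm_num at h5
    linarith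
  · rw [pow_succ] at hJ2
    linarith

lemma rpow_base {t' τ β : ℝ} {j : ℕ} (ht : 0 < t') (he : 2 ^ j * t' = τ) :
    (2 : ℝ) ^ (-β * j) = (t' / τ) ^ β := by
  have h1 : t' / τ = ((2 : ℝ) ^ (j : ℝ))⁻¹ := by
    rw [← he, Real.rpow_natCast]
    field_simp
  rw [h1, Real.inv_rpow (by positivity), ← Real.rpow_mul (by norm_num), ← Real.rpow_neg (by norm_num)]
  congr 1
  ring

/-- **Conversion** from the base scale `t'` to `t`. -/
theorem conv {t t' τ β C A : ℝ} {j : ℕ} (hβ : 0 ≤ β) (hC : 0 ≤ C) (ht : 0 < t) (h1 : t ≤ t')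
    (h2 : t' < 2 * t) (he : 2 ^ j * t' = τ) (hA : A ≤ C * t' * (2 : ℝ) ^ (-β * j)) :
    A ≤ C * 2 ^ (1 + β) * t * (t / τ) ^ β := by
  have ht' : 0 < t' := ht.trans_le h1
  have hτ : 0 < τ := by rw [← he]; positivity
  refine hA.trans ?_
  rw [rpow_base ht' he]
  have h3 : (t' / τ) ^ β ≤ 2 ^ β * (t / τ) ^ β := by
    rw [← Real.mul_rpow (by norm_num) (by positivity)]
    refine Real.rpow_le_rpow (by positivity) ?_ hβ
    rw [← mul_div_assoc]
    exact div_le_div_of_nonneg_right h2.le hτ.le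
  have h4 : (2 : ℝ) ^ (1 + β) = 2 * 2 ^ β := by rw [Real.rpow_add (by norm_num), Real.rpow_one]
  rw [h4]
  have h5 : 0 ≤ (t' / τ) ^ β := by positivity
  have h6 : 0 ≤ (2 : ℝ) ^ β * (t / τ) ^ β := by positivity
  calc C * t' * (t' / τ) ^ β ≤ C * t' * (2 ^ β * (t / τ) ^ β) := by gcongr
    _ ≤ C * (2 * t) * (2 ^ β * (t / τ) ^ β) := by gcongr
    _ = C * (2 * 2 ^ β) * t * (t / τ) ^ β := by ring

/-- conversion with a smaller exponent -/
theorem conv_le {t t' τ β γ C A : ℝ} {j : ℕ} (hγ : γ ≤ β) (hβ : 0 ≤ β) (hC : 0 ≤ C) (ht : 0 < t)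
    (h1 : t ≤ t') (h2 : t' < 2 * t) (he : 2 ^ j * t' = τ)
    (hA : A ≤ C * t' * (2 : ℝ) ^ (-β * j)) :
    A ≤ C * 2 ^ (1 + β) * t * (t / τ) ^ γ := by
  have ht' : 0 < t' := ht.trans_le h1
  have hτ : 0 < τ := by rw [← he]; positivity
  refine (conv hβ hC ht h1 h2 he hA).trans ?_
  have h3 : t / τ ≤ 1 := by
    rw [div_le_one hτ, ← he]
    have : (1 : ℝ) ≤ 2 ^ j := one_le_pow₀ (by norm_num)
    nlinarith
  have h4 : (t / τ) ^ β ≤ (t / τ) ^ γ := Real.rpow_le_rpow_of_exponent_ge (by positivity) h3 hγ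
  gcongr

/-- conversion for the squared distance, `D² ≤ C t' s_j 2^{-βj}`, `s_j = τ` -/
theorem conv_sq {t t' τ β γ C A : ℝ} {j : ℕ} (hγ : γ ≤ β) (hβ : 0 ≤ β) (hC : 0 ≤ C) (ht : 0 < t)
    (h1 : t ≤ t') (h2 : t' < 2 * t) (he : 2 ^ j * t' = τ)
    (hA : A ≤ C * t' * (2 ^ j * t') * (2 : ℝ) ^ (-β * j)) :
    A ≤ C * 2 ^ (1 + β) * t * τ * (t / τ) ^ γ := by
  have ht' : 0 < t' := ht.trans_le h1
  have hτ : 0 < τ := by rw [← he]; positivity
  have h3 : A / τ ≤ C * t' * (2 : ℝ) ^ (-β * j) := by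
    rw [div_le_iff₀ hτ]
    rw [he] at hA
    linarith
  have h4 := conv_le hγ hβ hC ht h1 h2 he h3
  rw [div_le_iff₀ hτ] at h4
  linarith

end Crest.Agent.R247.Chb101
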