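import Mathlib.MeasureTheory.Integral.Lebesgue.Add
import Mathlib.MeasureTheory.Integral.Lebesgue.Countable
import Mathlib.Algebra.BigOperators.Intervals
import Mathlib.Algebra.Order.Field.GeomSum
import Mathlib.Analysis.SpecialFunctions.Pow.Real
import Mathlib.Analysis.SpecificLimits.Basic
import Mathlib.Analysis.SpecificLimits.Normed

/-!
# R247, block (1-N), part N3: summations over dyadic scales
-/

open MeasureTheory Finset
open scoped ENNReal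

namespace Crest.Agent.R247.Num824

/-- `2^{-b j}` -/
lemma rpow_neg_nat (b : ℝ) (j : ℕ) : (2 : ℝ) ^ (-(b * j)) = ((2 : ℝ) ^ (-b)) ^ j := by
  rw [← Real.rpow_natCast, ← Real.rpow_mul (by norm_num)]
  congr 1
  ring

lemma two_neg_pos (b : ℝ) : 0 < (2 : ℝ) ^ (-b) := Real.rpow_pos_of_pos (by norm_num) _

lemma two_neg_lt_one {b : ℝ} (hb : 0 < b) : (2 : ℝ) ^ (-b) < 1 :=
  Real.rpow_lt_one_of_one_lt_of_neg (by norm_num) (by linarith)

/-- the geometric constant `(1 - 2^{-b})⁻¹` -/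
noncomputable def geoC (b : ℝ) : ℝ := (1 - (2 : ℝ) ^ (-b))⁻¹

lemma geoC_pos {b : ℝ} (hb : 0 < b) : 0 < geoC b :=
  inv_pos.2 (by linarith [two_neg_lt_one hb])

lemma one_le_geoC {b : ℝ} (hb : 0 < b) : 1 ≤ geoC b := by
  unfold geoC
  have h1 := two_neg_lt_one hb
  have h2 := two_neg_pos b
  exact (one_le_inv₀ (by linarith)).2 (by linarith)

lemma geo_sum_le {b : ℝ} (hb : 0 < b) (N : ℕ) :
    ∑ j ∈ range N, (2 : ℝ) ^ (-(b * j)) ≤ geoC b := by
  simp_rw [rpow_neg_nat]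
  have h1 := two_neg_lt_one hb
  have h2 := two_neg_pos b
  rw [geom_sum_eq h1.ne, geoC, ← neg_div_neg_eq, neg_sub, neg_sub, div_eq_mul_inv]
  have h3 : (0 : ℝ) ≤ (1 - (2 : ℝ) ^ (-b))⁻¹ := inv_nonneg.2 (by linarith)
  have h4 : 0 ≤ ((2 : ℝ) ^ (-b)) ^ N := by positivity
  nlinarith

lemma geo_sum_Ico_le {b : ℝ} (hb : 0 < b) (m N : ℕ) :
    ∑ j ∈ Ico m N, (2 : ℝ) ^ (-(b * j)) ≤ geoC b * (2 : ℝ) ^ (-(b * m)) := by
  rw [sum_Ico_eq_sum_range]
  have : ∀ k : ℕ, (2 : ℝ) ^ (-(b * ((m + k : ℕ) : ℝ))) = (2 : ℝ) ^ (-(b * m)) * (2 : ℝ) ^ (-(b * k)) := by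
    intro k
    rw [← Real.rpow_add (by norm_num)]
    congr 1
    push_cast
    ring
  simp_rw [this, ← mul_sum]
  rw [mul_comm]
  have h2 : 0 < (2 : ℝ) ^ (-(b * (m : ℝ))) := two_neg_pos _
  exact mul_le_mul_of_nonneg_right (geo_sum_le hb _) h2.le

lemma sq_add_le {x y θ : ℝ} (h0 : 0 < θ) (h1 : θ < 1) :
    (x + y) ^ 2 ≤ (1 - θ)⁻¹ * x ^ 2 + θ⁻¹ * y ^ 2 := by
  have h2 : 0 < 1 - θ := by linarith
  have h3 : (1 - θ)⁻¹ * x ^ 2 + θ⁻¹ * y ^ 2 - (x + y) ^ 2 =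
      (1 - θ)⁻¹ * θ⁻¹ * (θ * x - (1 - θ) * y) ^ 2 := by
    field_simp
    ring
  have h4 : 0 ≤ (1 - θ)⁻¹ * θ⁻¹ * (θ * x - (1 - θ) * y) ^ 2 := by positivity
  linarith

/-- Cauchy–Schwarz with geometric weights. -/
theorem geo_cs {b : ℝ} (hb : 0 < b) (x : ℕ → ℝ) (J : ℕ) :
    (∑ j ∈ range J, x j) ^ 2 ≤ geoC b * ∑ j ∈ range J, (2 : ℝ) ^ (b * j) * x j ^ 2 := by
  induction J generalizing x with
  | zero => simp
  | succ J ih =>
    rw [sum_range_succ', sum_range_succ' (fun j => (2 : ℝ) ^ (b * (j : ℝ)) * x j ^ 2)]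
    have h1 := sq_add_le (x := x 0) (y := ∑ j ∈ range J, x (j + 1)) (two_neg_pos b)
      (two_neg_lt_one hb)
    rw [add_comm] at h1
    refine h1.trans ?_
    have h2 := ih (fun j => x (j + 1))
    have h3 : ((2 : ℝ) ^ (-b))⁻¹ = 2 ^ b := by rw [Real.rpow_neg (by norm_num), inv_inv]
    rw [h3]
    have h4 : (2 : ℝ) ^ b * (∑ j ∈ range J, x (j + 1)) ^ 2 ≤
        2 ^ b * (geoC b * ∑ j ∈ range J, (2 : ℝ) ^ (b * j) * x (j + 1) ^ 2) := by gcongr
    have h5 : (2 : ℝ) ^ b * (geoC b * ∑ j ∈ range J, (2 : ℝ) ^ (b * j) * x (j + 1) ^ 2) =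
        geoC b * ∑ j ∈ range J, (2 : ℝ) ^ (b * ((j + 1 : ℕ) : ℝ)) * x (j + 1) ^ 2 := by
      rw [mul_left_comm, mul_sum]
      congr 1
      refine sum_congr rfl fun j _ => ?_
      rw [← mul_assoc, ← Real.rpow_add (by norm_num)]
      congr 2
      push_cast
      ring
    have h6 : (1 - (2 : ℝ) ^ (-b))⁻¹ * x 0 ^ 2 = geoC b * ((2 : ℝ) ^ (b * ((0 : ℕ) : ℝ)) * x 0 ^ 2) := by
      simp [geoC]
    rw [h6, mul_add, add_comm]
    exact add_le_add (h4.trans h5.le) le_rfl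

/-- Convolution bound. -/
theorem conv {K : Type*} [CommSemiring K] [PartialOrder K] [IsOrderedRing K] {w p : ℕ → K}
    (hw : ∀ j, 0 ≤ w j) (hp : ∀ j, 0 ≤ p j) (N : ℕ) :
    ∑ i ∈ range N, ∑ j ∈ range (i + 1), w j * p (i - j) ≤
      (∑ j ∈ range N, w j) * ∑ i ∈ range N, p i := by
  have h1 : ∑ i ∈ range N, ∑ j ∈ range (i + 1), w j * p (i - j) =
      ∑ j ∈ range N, ∑ i ∈ Ico j N, w j * p (i - j) := by
    refine sum_comm' fun i j => ?_
    simp only [mem_range, mem_Ico]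
    omega
  rw [h1, sum_mul]
  refine sum_le_sum fun j hj => ?_
  rw [← mul_sum]
  refine mul_le_mul_of_nonneg_left ?_ (hw j)
  rw [sum_Ico_eq_sum_range]
  simp only [Nat.add_sub_cancel_left]
  exact sum_le_sum_of_subset_of_nonneg (range_subset_range.2 (Nat.sub_le _ _))
    fun i _ _ => hp i

/-- Double sum over pairs of scales `t ≤ s` with weight `(t/s)^b`. -/
theorem dbl {b : ℝ} (hb : 0 < b) {p : ℕ → ℝ} (hp : ∀ j, 0 ≤ p j) (N : ℕ) :
    ∑ m ∈ range N, ∑ j ∈ range (m + 1), (2 : ℝ) ^ (-(b * j)) * p (m - j) ≤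
      geoC b * ∑ i ∈ range N, p i := by
  refine (conv (fun j => (two_neg_pos _).le) hp N).trans ?_
  have : 0 ≤ ∑ i ∈ range N, p i := sum_nonneg fun i _ => hp i
  exact mul_le_mul_of_nonneg_right (geo_sum_le hb N) this

/-- the same with the coarse scale `i = m - j` as summation index -/
theorem dbl' {b : ℝ} (hb : 0 < b) {p : ℕ → ℝ} (hp : ∀ j, 0 ≤ p j) (N : ℕ) :
    ∑ m ∈ range N, ∑ i ∈ range (m + 1), (2 : ℝ) ^ (-(b * ((m : ℝ) - i))) * p i ≤
      geoC b * ∑ i ∈ range N, p i := by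
  refine le_trans (le_of_eq ?_) (dbl hb hp N)
  refine sum_congr rfl fun m _ => ?_
  rw [← sum_range_reflect]
  refine sum_congr rfl fun j hj => ?_
  have hj : j ≤ m := by rw [mem_range] at hj; omega
  have h2 : m + 1 - 1 - j = m - j := by omega
  rw [h2, Nat.cast_sub hj, sub_sub_cancel]

/-- `ENNReal` form of `dbl` -/
theorem dblE {b : ℝ} (hb : 0 < b) (p : ℕ → ℝ≥0∞) (N : ℕ) :
    ∑ m ∈ range N, ∑ j ∈ range (m + 1), ENNReal.ofReal ((2 : ℝ) ^ (-(b * j))) * p (m - j) ≤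
      ENNReal.ofReal (geoC b) * ∑ i ∈ range N, p i := by
  refine (conv (fun j => zero_le) (fun j => zero_le) N).trans ?_
  gcongr
  rw [← ENNReal.ofReal_sum_of_nonneg fun j _ => (two_neg_pos _).le]
  exact ENNReal.ofReal_le_ofReal (geo_sum_le hb N)

/-- absorbing a linear factor in a geometric one -/
noncomputable def logC (b : ℝ) : ℝ := 1 + 2 / (b * Real.log 2)

lemma one_le_logC {b : ℝ} (hb : 0 < b) : 1 ≤ logC b := by
  unfold logC
  have : 0 < Real.log 2 := Real.log_pos (by norm_num)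
  have : 0 ≤ 2 / (b * Real.log 2) := by positivity
  linarith

theorem logabs {b : ℝ} (hb : 0 < b) (j : ℕ) :
    (1 + (j : ℝ)) * (2 : ℝ) ^ (-(b * j)) ≤ logC b * (2 : ℝ) ^ (-(b / 2 * j)) := by
  have hl : 0 < Real.log 2 := Real.log_pos (by norm_num)
  have h1 : (1 + (j : ℝ)) ≤ logC b * (2 : ℝ) ^ (b / 2 * j) := by
    have h2 : (2 : ℝ) ^ (b / 2 * (j : ℝ)) = Real.exp (Real.log 2 * (b / 2 * j)) := by
      rw [Real.rpow_def_of_pos (by norm_num)]
    have h3 := Real.add_one_le_exp (Real.log 2 * (b / 2 * (j : ℝ)))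
    rw [← h2] at h3
    have h4 : (1 : ℝ) ≤ 2 ^ (b / 2 * (j : ℝ)) := Real.one_le_rpow (by norm_num) (by positivity)
    have h5 : (j : ℝ) ≤ 2 / (b * Real.log 2) * 2 ^ (b / 2 * (j : ℝ)) := by
      have h6 : 2 / (b * Real.log 2) * (Real.log 2 * (b / 2 * (j : ℝ)) + 1) ≤
          2 / (b * Real.log 2) * 2 ^ (b / 2 * (j : ℝ)) := by gcongr
      have h7 : 2 / (b * Real.log 2) * (Real.log 2 * (b / 2 * (j : ℝ)) + 1) =
          j + 2 / (b * Real.log 2) := by field_simp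
      have h8 : 0 ≤ 2 / (b * Real.log 2) := by positivity
      linarith
    unfold logC
    linarith
  calc (1 + (j : ℝ)) * (2 : ℝ) ^ (-(b * j))
      ≤ (logC b * (2 : ℝ) ^ (b / 2 * j)) * (2 : ℝ) ^ (-(b * j)) := by gcongr
    _ = logC b * (2 : ℝ) ^ (-(b / 2 * j)) := by
        rw [mul_assoc, ← Real.rpow_add (by norm_num)]
        congr 2
        ring

/-- double exponential tail -/
theorem exp_tail {c : ℝ} (hc : 0 < c) : Summable fun i : ℕ => Real.exp (-(c * 2 ^ i)) := by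
  have h1 : ∀ i : ℕ, Real.exp (-(c * 2 ^ i)) ≤ Real.exp (-c) ^ i := by
    intro i
    rw [← Real.exp_nat_mul]
    apply Real.exp_le_exp.2
    have h2 : (i : ℝ) ≤ 2 ^ i := by exact_mod_cast (Nat.lt_two_pow_self).le
    nlinarith
  refine Summable.of_nonneg_of_le (fun i => (Real.exp_pos _).le) h1 ?_
  exact summable_geometric_of_lt_one (Real.exp_pos _).le (Real.exp_lt_one_iff.2 (by linarith))

/-- the tail sums of `exp(-c 2^i)` are small -/
theorem exp_tail_small {c δ : ℝ} (hc : 0 < c) (hδ : 0 < δ) :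
    ∃ i0 : ℕ, ∀ i1, i0 ≤ i1 → ∀ N, ∑ i ∈ Ico i1 N, Real.exp (-(c * 2 ^ i)) ≤ δ := by
  have hs := exp_tail hc
  have h1 := tendsto_sum_nat_add fun i : ℕ => Real.exp (-(c * 2 ^ i))
  obtain ⟨i0, h2⟩ := Filter.eventually_atTop.1 (h1.eventually (gt_mem_nhds hδ))
  refine ⟨i0, fun i1 hi N => ?_⟩
  have h3 : Summable fun k : ℕ => Real.exp (-(c * 2 ^ (k + i1))) :=
    (summable_nat_add_iff i1).2 hs
  rw [sum_Ico_eq_sum_range]
  simp_rw [add_comm i1]
  exact (h3.sum_le_tsum _ fun i _ => (Real.exp_pos _).le).trans (h2 i1 hi).le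

/-- weights `2^{nj} e^{-c 2^j}` are summable -/
theorem wt_summable {c : ℝ} (hc : 0 < c) (n : ℕ) :
    Summable fun j : ℕ => (2 : ℝ) ^ (n * j) * Real.exp (-(c * 2 ^ j)) := by
  have h1 : ∀ j : ℕ, (2 : ℝ) ^ (n * j) * Real.exp (-(c * 2 ^ j)) ≤
      ((n.factorial : ℝ) * (2 / c) ^ n) * Real.exp (-(c / 2 * 2 ^ j)) := by
    intro j
    have h2 : (c / 2 * 2 ^ j) ^ n / n.factorial ≤ Real.exp (c / 2 * 2 ^ j) :=
      Real.pow_div_factorial_le_exp _ (by positivity) n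
    have hf : (0 : ℝ) < n.factorial := by exact_mod_cast n.factorial_pos
    have h3 : (2 : ℝ) ^ (n * j) ≤ (n.factorial : ℝ) * (2 / c) ^ n * Real.exp (c / 2 * 2 ^ j) := by
      rw [div_le_iff₀ hf] at h2
      have h4 : (2 : ℝ) ^ (n * j) = (2 / c) ^ n * (c / 2 * 2 ^ j) ^ n := by
        rw [← mul_pow, ← mul_assoc]
        have : 2 / c * (c / 2) = 1 := by field_simp
        rw [this, one_mul, ← pow_mul, mul_comm]
      rw [h4]
      calc (2 / c) ^ n * (c / 2 * 2 ^ j) ^ n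
          ≤ (2 / c) ^ n * (Real.exp (c / 2 * 2 ^ j) * n.factorial) := by gcongr
        _ = _ := by ring
    calc (2 : ℝ) ^ (n * j) * Real.exp (-(c * 2 ^ j))
        ≤ ((n.factorial : ℝ) * (2 / c) ^ n * Real.exp (c / 2 * 2 ^ j)) *
            Real.exp (-(c * 2 ^ j)) := by gcongr
      _ = _ := by
        rw [mul_assoc, ← Real.exp_add]
        congr 2
        ring
  exact Summable.of_nonneg_of_le (fun j => by positivity) h1
    ((exp_tail (by positivity : 0 < c / 2)).mul_left _)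

end Crest.Agent.R247.Num824
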