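import Crest.Agent.R247.Num1_824
import Crest.Agent.R247.Num2_824
import Mathlib.Topology.Algebra.InfiniteSum.Real
import Mathlib.MeasureTheory.Measure.Real

/-!
# R247, block (1-N): windowed forms (tails of the sums), see JC8
-/

open MeasureTheory Finset
open scoped ENNReal

namespace Crest.Agent.R247.Num824

open Classical in
/-- **Windowed hits**: only the scales of index `≥ J/m` matter. -/
theorem hit_window {c : ℝ} (hc : 0 < c) (hc1 : c ≤ 1) {Bad : ℕ → Prop} {m J j : ℕ}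
    (hm : 4 / c ≤ m) (hmJ : m ≤ J) (hJj : J ≤ j) (h : Hit c Bad j) :
    Hit (c / 2) (fun i => Bad i ∧ J / m ≤ i) j := by
  obtain ⟨i, hij, hi⟩ := h
  have hm0 : 0 < (m : ℝ) := lt_of_lt_of_le (by positivity) hm
  have hcm : 4 ≤ c * m := by rw [div_le_iff₀ hc] at hm; linarith
  have hmJ' : (m : ℝ) ≤ J := by exact_mod_cast hmJ
  have hJj' : (J : ℝ) ≤ j := by exact_mod_cast hJj
  have hij' : (i : ℝ) ≤ j := by exact_mod_cast hij
  set L : ℝ := (j : ℝ) + 1 - i with hL
  have hL1 : 1 ≤ L := by linarith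
  set k : ℕ := ⌊c * L / 2⌋₊ with hk
  have hk1 : (k : ℝ) ≤ c * L / 2 := Nat.floor_le (by positivity)
  have hk2 : c * L / 2 < k + 1 := Nat.lt_floor_add_one _
  have hi0 : (0 : ℝ) ≤ i := Nat.cast_nonneg i
  -- the new window
  have hik : i + k ≤ j := by
    have h1 : ((i + k : ℕ) : ℝ) < (j : ℝ) + 1 := by
      push_cast
      have : c * L / 2 < L := by nlinarith
      linarith
    have h2 : (i + k : ℕ) < j + 1 := by exact_mod_cast h1
    omega
  have hlow : J / m ≤ i + k := by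
    have h1 : ((J / m : ℕ) : ℝ) ≤ (J : ℝ) / m := Nat.cast_div_le
    have h2 : (J : ℝ) / m ≤ c * J / 4 := by
      rw [div_le_div_iff₀ hm0 (by norm_num)]
      nlinarith
    have h3 : c * (J : ℝ) / 4 ≤ c * j / 4 := by gcongr
    have h5 : c * j ≥ 4 := hcm.trans (by gcongr; linarith)
    have h6 : c * j / 4 ≤ i + c * L / 2 - 1 := by
      have : i * (1 - c / 2) ≥ 0 := by
        apply mul_nonneg hi0
        linarith
      rw [hL]
      nlinarith
    have h7 : ((J / m : ℕ) : ℝ) < ((i + k + 1 : ℕ) : ℝ) := by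
      push_cast
      linarith
    have h8 : J / m < i + k + 1 := by exact_mod_cast h7
    omega
  refine ⟨i + k, hik, ?_⟩
  have hsub : {a ∈ Ico i (j + 1) | Bad a} ⊆
      Ico i (i + k) ∪ {a ∈ Ico (i + k) (j + 1) | Bad a ∧ J / m ≤ a} := by
    intro a ha
    rw [mem_filter, mem_Ico] at ha
    rw [mem_union, mem_filter, mem_Ico, mem_Ico]
    by_cases hak : a < i + k
    · exact Or.inl ⟨ha.1.1, hak⟩
    · exact Or.inr ⟨⟨by omega, ha.1.2⟩, ha.2, by omega⟩
  have hcard := (card_le_card hsub).trans (card_union_le _ _)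
  rw [Nat.card_Ico] at hcard
  have hcard' : (#{a ∈ Ico i (j + 1) | Bad a} : ℝ) ≤
      k + (#{a ∈ Ico (i + k) (j + 1) | Bad a ∧ J / m ≤ a} : ℝ) := by
    have : i + k - i = k := by omega
    rw [this] at hcard
    exact_mod_cast hcard
  push_cast
  have hcL : 0 ≤ c * (k : ℝ) := by positivity
  rw [hL] at hk1 hi
  linarith

open Classical in
/-- Windowed rising sun in measure. -/
theorem rising_window {Ω : Type*} [MeasurableSpace Ω] {c : ℝ} (hc : 0 < c) (hc1 : c ≤ 1)
    (P : Measure Ω) {Bd : ℕ → Set Ω} (hBd : ∀ j, MeasurableSet (Bd j)) {m J : ℕ}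
    (hm : 4 / c ≤ m) (hmJ : m ≤ J) (N : ℕ) :
    ∑ j ∈ Ico J N, P {w | Hit c (fun i => w ∈ Bd i) j} ≤
      ENNReal.ofReal (2 / c) * ∑ i ∈ Ico (J / m) N, P (Bd i) := by
  set Bd' : ℕ → Set Ω := fun i => if J / m ≤ i then Bd i else ∅ with hB'
  have hBd' : ∀ j, MeasurableSet (Bd' j) := by
    intro j
    rw [hB']
    dsimp only
    split_ifs
    · exact hBd j
    · exact MeasurableSet.empty
  have hmem : ∀ w i, w ∈ Bd' i ↔ w ∈ Bd i ∧ J / m ≤ i := by
    intro w i
    rw [hB']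
    dsimp only
    split_ifs with h
    · exact ⟨fun h' => ⟨h', h⟩, fun h' => h'.1⟩
    · exact ⟨fun h' => absurd h' (Set.notMem_empty w), fun h' => absurd h'.2 h⟩
  have h1 := rising_meas (c := c / 2) (by positivity) P hBd' N
  have h2 : ∑ j ∈ Ico J N, P {w | Hit c (fun i => w ∈ Bd i) j} ≤
      ∑ j ∈ range N, P {w | Hit (c / 2) (fun i => w ∈ Bd' i) j} := by
    have h3 : ∑ j ∈ Ico J N, P {w | Hit c (fun i => w ∈ Bd i) j} ≤
        ∑ j ∈ Ico J N, P {w | Hit (c / 2) (fun i => w ∈ Bd' i) j} := by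
      refine sum_le_sum fun j hj => measure_mono fun w hw => ?_
      have h4 := hit_window hc hc1 hm hmJ (mem_Ico.1 hj).1 hw
      have h5 : (fun i => w ∈ Bd' i) = fun i => w ∈ Bd i ∧ J / m ≤ i := by
        funext i
        exact propext (hmem w i)
      show Hit (c / 2) (fun i => w ∈ Bd' i) j
      rw [h5]
      exact h4
    refine h3.trans (sum_le_sum_of_subset ?_)
    intro j hj
    rw [mem_Ico] at hj
    exact mem_range.2 hj.2
  refine h2.trans (h1.trans (le_of_eq ?_))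
  have h6 : 1 / (c / 2) = 2 / c := by field_simp
  rw [h6]
  congr 1
  have h7 : ∀ j ∈ range N, P (Bd' j) = if J / m ≤ j then P (Bd j) else 0 := by
    intro j _
    rw [hB']
    dsimp only
    split_ifs
    · rfl
    · exact measure_empty
  rw [sum_congr rfl h7, ← sum_filter]
  refine sum_congr ?_ fun _ _ => rfl
  ext j
  simp only [mem_filter, mem_range, mem_Ico]
  tauto

/-- Windowed double sum. -/
theorem dbl_window {b : ℝ} (hb : 0 < b) {p : ℕ → ℝ} (hp : ∀ j, 0 ≤ p j) {m J : ℕ} (hm : 2 ≤ m)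
    (N : ℕ) :
    ∑ j ∈ Ico J N, ∑ i ∈ range (j + 1), (2 : ℝ) ^ (-(b * ((j : ℝ) - i))) * p i ≤
      geoC b * (∑ i ∈ Ico (J / m) N, p i + (2 : ℝ) ^ (-(b / 2 * J)) * ∑ i ∈ range (J / m), p i) := by
  have hg := geoC_pos hb
  have hsplit : ∀ j ∈ Ico J N, ∑ i ∈ range (j + 1), (2 : ℝ) ^ (-(b * ((j : ℝ) - i))) * p i =
      ∑ i ∈ range (J / m), (2 : ℝ) ^ (-(b * ((j : ℝ) - i))) * p i +
        ∑ i ∈ range (j + 1), (2 : ℝ) ^ (-(b * ((j : ℝ) - i))) * (if J / m ≤ i then p i else 0) := by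
    intro j hj
    have hJj : J ≤ j := (mem_Ico.1 hj).1
    have h1 : J / m ≤ j + 1 := (Nat.div_le_self J m).trans (by omega)
    have h2 : ∑ i ∈ range (j + 1), (2 : ℝ) ^ (-(b * ((j : ℝ) - i))) *
        (if J / m ≤ i then p i else 0) =
        ∑ i ∈ Ico (J / m) (j + 1), (2 : ℝ) ^ (-(b * ((j : ℝ) - i))) * p i := by
      have h3 : ∀ i : ℕ, (2 : ℝ) ^ (-(b * ((j : ℝ) - i))) * (if J / m ≤ i then p i else 0) =
          if J / m ≤ i then (2 : ℝ) ^ (-(b * ((j : ℝ) - i))) * p i else 0 := by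
        intro i
        split_ifs
        · rfl
        · rw [mul_zero]
      simp_rw [h3]
      rw [← sum_filter]
      refine sum_congr ?_ fun _ _ => rfl
      ext i
      simp only [mem_filter, mem_range, mem_Ico]
      tauto
    rw [h2, range_eq_Ico, range_eq_Ico, sum_Ico_consecutive _ (Nat.zero_le _) h1]
  rw [sum_congr rfl hsplit, sum_add_distrib, mul_add, add_comm]
  refine add_le_add ?_ ?_
  · have h1 : ∑ j ∈ Ico J N, ∑ i ∈ range (j + 1), (2 : ℝ) ^ (-(b * ((j : ℝ) - i))) *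
        (if J / m ≤ i then p i else 0) ≤ ∑ j ∈ range N, ∑ i ∈ range (j + 1),
          (2 : ℝ) ^ (-(b * ((j : ℝ) - i))) * (if J / m ≤ i then p i else 0) := by
      refine sum_le_sum_of_subset_of_nonneg ?_ ?_
      · intro j hj
        rw [mem_Ico] at hj
        exact mem_range.2 hj.2
      · intro j _ _
        refine sum_nonneg fun i _ => mul_nonneg (by positivity) ?_
        split_ifs
        · exact hp i
        · exact le_rfl
    refine h1.trans ((dbl' hb (fun i => ?_) N).trans (le_of_eq ?_))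
    · split_ifs
      · exact hp i
      · exact le_rfl
    · congr 1
      rw [← sum_filter]
      refine sum_congr ?_ fun _ _ => rfl
      ext i
      simp only [mem_filter, mem_range, mem_Ico]
      tauto
  · have h1 : ∀ j ∈ Ico J N, ∑ i ∈ range (J / m), (2 : ℝ) ^ (-(b * ((j : ℝ) - i))) * p i ≤
        (2 : ℝ) ^ (-(b * j)) * ((2 : ℝ) ^ (b / 2 * J) * ∑ i ∈ range (J / m), p i) := by
      intro j _
      rw [mul_sum, mul_sum]
      refine sum_le_sum fun i hi => ?_
      rw [← mul_assoc]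
      refine mul_le_mul_of_nonneg_right ?_ (hp i)
      rw [← Real.rpow_add (by norm_num)]
      apply Real.rpow_le_rpow_of_exponent_le (by norm_num)
      have h3 : i < J / m := mem_range.1 hi
      have h4 : J / m ≤ J / 2 := Nat.div_le_div_left hm (by norm_num)
      have h5 : i ≤ J / 2 := by omega
      have h6 : (i : ℝ) ≤ (J : ℝ) / 2 := (Nat.cast_le.2 h5).trans Nat.cast_div_le
      nlinarith
    refine (sum_le_sum h1).trans ?_
    rw [← sum_mul]
    have h2 := geo_sum_Ico_le hb J N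
    have hS : 0 ≤ ∑ i ∈ range (J / m), p i := sum_nonneg fun i _ => hp i
    calc (∑ j ∈ Ico J N, (2 : ℝ) ^ (-(b * (j : ℝ)))) *
          ((2 : ℝ) ^ (b / 2 * J) * ∑ i ∈ range (J / m), p i)
        ≤ (geoC b * (2 : ℝ) ^ (-(b * J))) *
          ((2 : ℝ) ^ (b / 2 * J) * ∑ i ∈ range (J / m), p i) := by gcongr
      _ = geoC b * (((2 : ℝ) ^ (-(b * J)) * (2 : ℝ) ^ (b / 2 * J)) *
          ∑ i ∈ range (J / m), p i) := by ring
      _ = _ := by
          rw [← Real.rpow_add (by norm_num)]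
          congr 4
          ring

lemma sum_Ico_le_tsum {p : ℕ → ℝ} (hp : ∀ j, 0 ≤ p j) (hs : Summable p) (a N : ℕ) :
    ∑ i ∈ Ico a N, p i ≤ ∑' j, p (a + j) := by
  rw [sum_Ico_eq_sum_range]
  have h : Summable fun j => p (a + j) := by
    simpa [add_comm] using (summable_nat_add_iff (f := p) a).2 hs
  exact h.sum_le_tsum _ fun i _ => hp _

/-- **The errors `D j` are summable with small tails** (numerical form of the summation in
`FarConcl`). -/
theorem tail_D {b c : ℝ} (hb : 0 < b) (hc : 0 < c) (hc1 : c ≤ 1) :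
    ∃ m : ℕ, 2 ≤ m ∧ ∃ A > (0 : ℝ), ∀ (A1 K0 : ℝ), 0 ≤ A1 → 0 ≤ K0 →
      ∀ {Ω : Type*} [MeasurableSpace Ω] (P : Measure Ω) [IsFiniteMeasure P] (Bd : ℕ → Set Ω),
      (∀ j, MeasurableSet (Bd j)) → (∀ i < 4, Bd i = ∅) →
      ∀ ph : ℕ → ℝ, (∀ i, 0 ≤ ph i) → Summable ph →
      (∀ i, 4 ≤ i → P (Bd i) ≤ ENNReal.ofReal (K0 * ph i)) →
      ∀ D : ℕ → ℝ, (∀ j, 0 ≤ D j) →
      (∀ j, 4 ≤ j → D j ≤ A1 * (∑ i ∈ Ico 4 (j + 1), (2 : ℝ) ^ (-(b * ((j : ℝ) - i))) * ph i +
        P.real {w | Hit c (fun i => w ∈ Bd i) j} + ((1 / 2 : ℝ) ^ j) ^ b)) →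
      Summable D ∧ ∀ J, 4 * m ≤ J → ∑' j, D (J + j) ≤
        A * A1 * (1 + K0) * (∑' j, ph (J / m + j) +
          ((1 / 2 : ℝ) ^ J) ^ (b / 2) * (1 + ∑' j, ph (4 + j))) := by
  obtain ⟨m0, hm0⟩ := exists_nat_ge (4 / c)
  set m := max 2 m0 with hmdef
  have hm2 : 2 ≤ m := le_max_left _ _
  have hm : 4 / c ≤ m := hm0.trans (by exact_mod_cast le_max_right _ _)
  have hg := geoC_pos hb
  have hg1 := one_le_geoC hb
  refine ⟨m, hm2, geoC b + 2 / c, by positivity, ?_⟩
  intro A1 K0 hA1 hK0 Ω _ P _ Bd hBd hB4 ph hph hs hK D hD0 hD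
  have hdy : ∀ (J : ℕ) (a : ℝ), ((1 / 2 : ℝ) ^ J) ^ a = (2 : ℝ) ^ (-(a * J)) := by
    intro J a
    rw [one_div, inv_pow, Real.inv_rpow (by positivity), Real.rpow_neg (by norm_num),
      ← Real.rpow_natCast, ← Real.rpow_mul (by norm_num), mul_comm a]
  -- the partial sums
  have key : ∀ J, 4 * m ≤ J → ∀ N, ∑ j ∈ Ico J N, D j ≤
      (geoC b + 2 / c) * A1 * (1 + K0) * (∑' j, ph (J / m + j) +
          ((1 / 2 : ℝ) ^ J) ^ (b / 2) * (1 + ∑' j, ph (4 + j))) := by
    intro J hJ N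
    have hJm : 4 ≤ J / m := by
      rw [Nat.le_div_iff_mul_le (by omega)]
      exact hJ
    have hmJ : m ≤ J := by omega
    have hJ4 : 4 ≤ J := by omega
    set T := ∑' j, ph (J / m + j) with hT
    set T4 := ∑' j, ph (4 + j) with hT4
    have hT0 : 0 ≤ T := tsum_nonneg fun j => hph _
    have hT40 : 0 ≤ T4 := tsum_nonneg fun j => hph _
    set e := ((1 / 2 : ℝ) ^ J) ^ (b / 2) with he
    have he0 : 0 ≤ e := by positivity
    -- (1) convolution
    set p : ℕ → ℝ := fun i => if 4 ≤ i then ph i else 0 with hp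
    have hp0 : ∀ i, 0 ≤ p i := by
      intro i
      rw [hp]
      dsimp only
      split_ifs
      · exact hph i
      · exact le_rfl
    have s1 : ∑ j ∈ Ico J N, ∑ i ∈ Ico 4 (j + 1), (2 : ℝ) ^ (-(b * ((j : ℝ) - i))) * ph i ≤
        geoC b * (T + e * T4) := by
      have h1 : ∀ j ∈ Ico J N, ∑ i ∈ Ico 4 (j + 1), (2 : ℝ) ^ (-(b * ((j : ℝ) - i))) * ph i =
          ∑ i ∈ range (j + 1), (2 : ℝ) ^ (-(b * ((j : ℝ) - i))) * p i := by
        intro j _
        have h2 : ∀ i : ℕ, (2 : ℝ) ^ (-(b * ((j : ℝ) - i))) * p i =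
            if 4 ≤ i then (2 : ℝ) ^ (-(b * ((j : ℝ) - i))) * ph i else 0 := by
          intro i
          rw [hp]
          dsimp only
          split_ifs
          · rfl
          · rw [mul_zero]
        simp_rw [h2]
        rw [← sum_filter]
        refine sum_congr ?_ fun _ _ => rfl
        ext i
        simp only [mem_filter, mem_range, mem_Ico]
        tauto
      rw [sum_congr rfl h1]
      refine (dbl_window hb hp0 hm2 N).trans ?_
      have h3 : ∑ i ∈ Ico (J / m) N, p i ≤ T := by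
        refine le_trans (le_of_eq (sum_congr rfl fun i hi => ?_)) (sum_Ico_le_tsum hph hs (J / m) N)
        rw [mem_Ico] at hi
        exact if_pos (by omega)
      have h4 : ∑ i ∈ range (J / m), p i ≤ T4 := by
        refine le_trans (le_of_eq ?_) (sum_Ico_le_tsum hph hs 4 (J / m))
        rw [hp, ← sum_filter]
        refine sum_congr ?_ fun _ _ => rfl
        ext i
        simp only [mem_filter, mem_range, mem_Ico]
        tauto
      have h5 : (2 : ℝ) ^ (-(b / 2 * J)) = e := by rw [he, hdy]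
      rw [h5]
      gcongr
    -- (2) hits
    have s2 : ∑ j ∈ Ico J N, P.real {w | Hit c (fun i => w ∈ Bd i) j} ≤ 2 / c * (K0 * T) := by
      have h1 := rising_window hc hc1 P hBd hm hmJ N
      have h2 : ENNReal.ofReal (∑ j ∈ Ico J N, P.real {w | Hit c (fun i => w ∈ Bd i) j}) =
          ∑ j ∈ Ico J N, P {w | Hit c (fun i => w ∈ Bd i) j} := by
        rw [ENNReal.ofReal_sum_of_nonneg fun _ _ => measureReal_nonneg]
        refine sum_congr rfl fun j _ => ?_
        rw [Measure.real, ENNReal.ofReal_toReal (measure_ne_top P _)]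
      have h3 : ∑ i ∈ Ico (J / m) N, P (Bd i) ≤ ENNReal.ofReal (K0 * T) := by
        calc ∑ i ∈ Ico (J / m) N, P (Bd i)
            ≤ ∑ i ∈ Ico (J / m) N, ENNReal.ofReal (K0 * ph i) := by
              refine sum_le_sum fun i hi => hK i ?_
              rw [mem_Ico] at hi
              omega
          _ = ENNReal.ofReal (∑ i ∈ Ico (J / m) N, K0 * ph i) := by
              rw [ENNReal.ofReal_sum_of_nonneg fun i _ => mul_nonneg hK0 (hph i)]
          _ ≤ _ := by
              apply ENNReal.ofReal_le_ofReal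
              rw [← mul_sum]
              gcongr
              exact sum_Ico_le_tsum hph hs _ _
      have h4 : ENNReal.ofReal (∑ j ∈ Ico J N, P.real {w | Hit c (fun i => w ∈ Bd i) j}) ≤
          ENNReal.ofReal (2 / c * (K0 * T)) := by
        rw [h2, ENNReal.ofReal_mul (by positivity)]
        refine h1.trans ?_
        gcongr
      exact (ENNReal.ofReal_le_ofReal_iff (by positivity)).1 h4
    -- (3) geometric
    have s3 : ∑ j ∈ Ico J N, ((1 / 2 : ℝ) ^ j) ^ b ≤ geoC b * e := by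
      simp_rw [hdy]
      refine (geo_sum_Ico_le hb J N).trans ?_
      rw [he, hdy]
      gcongr
      · norm_num
      · have : (0 : ℝ) ≤ J := Nat.cast_nonneg J
        nlinarith
    have s4 : ∑ j ∈ Ico J N, D j ≤ A1 * (geoC b * (T + e * T4) + 2 / c * (K0 * T) + geoC b * e) := by
      calc ∑ j ∈ Ico J N, D j ≤ ∑ j ∈ Ico J N, A1 * (∑ i ∈ Ico 4 (j + 1),
            (2 : ℝ) ^ (-(b * ((j : ℝ) - i))) * ph i +
            P.real {w | Hit c (fun i => w ∈ Bd i) j} + ((1 / 2 : ℝ) ^ j) ^ b) := by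
            refine sum_le_sum fun j hj => hD j ?_
            rw [mem_Ico] at hj
            omega
        _ = A1 * (∑ j ∈ Ico J N, ∑ i ∈ Ico 4 (j + 1), (2 : ℝ) ^ (-(b * ((j : ℝ) - i))) * ph i +
            ∑ j ∈ Ico J N, P.real {w | Hit c (fun i => w ∈ Bd i) j} +
            ∑ j ∈ Ico J N, ((1 / 2 : ℝ) ^ j) ^ b) := by
            rw [← mul_sum, sum_add_distrib, sum_add_distrib]
        _ ≤ _ := by gcongr
    refine s4.trans ?_
    have hc2 : 0 ≤ 2 / c := by positivity
    have t1 : geoC b * (T + e * T4) + 2 / c * (K0 * T) + geoC b * e ≤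
        (geoC b + 2 / c) * (1 + K0) * (T + e * (1 + T4)) := by
      have e1 : (geoC b + 2 / c) * (1 + K0) * (T + e * (1 + T4)) -
          (geoC b * (T + e * T4) + 2 / c * (K0 * T) + geoC b * e) =
          geoC b * K0 * (T + e * (1 + T4)) + 2 / c * T + 2 / c * (1 + K0) * (e * (1 + T4)) := by
        ring
      have e2 : 0 ≤ geoC b * K0 * (T + e * (1 + T4)) + 2 / c * T +
          2 / c * (1 + K0) * (e * (1 + T4)) := by positivity
      linarith
    calc A1 * (geoC b * (T + e * T4) + 2 / c * (K0 * T) + geoC b * e)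
        ≤ A1 * ((geoC b + 2 / c) * (1 + K0) * (T + e * (1 + T4))) := by gcongr
      _ = _ := by ring
  have hsum : Summable D := by
    rw [← summable_nat_add_iff (4 * m)]
    refine summable_of_sum_range_le (c := (geoC b + 2 / c) * A1 * (1 + K0) *
      (∑' j, ph (4 * m / m + j) + ((1 / 2 : ℝ) ^ (4 * m)) ^ (b / 2) * (1 + ∑' j, ph (4 + j))))
      (fun j => hD0 _) fun N => ?_
    have h := key (4 * m) le_rfl (4 * m + N)
    rw [sum_Ico_eq_sum_range, Nat.add_sub_cancel_left] at h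
    simp_rw [add_comm (4 * m)] at h
    exact h
  refine ⟨hsum, fun J hJ => ?_⟩
  refine Real.tsum_le_of_sum_range_le (fun j => hD0 _) fun N => ?_
  have h := key J hJ (J + N)
  rwa [sum_Ico_eq_sum_range, Nat.add_sub_cancel_left] at h

end Crest.Agent.R247.Num824
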