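import Crest.Agent.R247.FarAsm2_196
import Crest.Agent.R247.Num5_824

/-!
# Assembly of block (1), part 3: the interfaces (helper196)

* `BdS F L i` : the rays (end points `v`) for which scale `dy i` is bad at one of the levels of `L`;
* `DecayP` : output of the closing argument (111/858/553), for the pair `(z, v)`, `w = T_λ v`;
* `NNP` : output of 149;
* `PathP` : pathwise bound of the conicality defect (from `DecayP`, `NNP` and 301's 1-D analysis);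
* `PathP → FarConcl` is the averaging (508).
-/

set_option autoImplicit false
set_option linter.unusedSectionVars false
open MeasureTheory Set Filter Topology Metric
open scoped ENNReal NNReal

noncomputable section
namespace Crest.Agent.R247.FarAsm196

universe u

open Crest.Agent.R247.Mcp688 Crest.Agent.R247.Far553

/-- the contraction factor `1/(1+θ)`, `θ = (dy j)^a` -/
def lamj (a : ℝ) (j : ℕ) : ℝ := 1 / (1 + dy j ^ a)

/-- admissible levels `(K, ε)` -/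
def Lev (L : List (ℝ × ℝ)) : Prop := ∀ q ∈ L, 1 ≤ q.1 ∧ 0 < q.2

section bds
variable {n : ℕ} {κ : ℝ} {X : Type*} [MetricSpace X] [MeasurableSpace X] [BorelSpace X]
  {μ : Measure X} {c : FarK} {C : Rad n κ X μ} {x : X} {δ : ℝ} {ph : ℕ → ℝ}

/-- end points of rays for which the scale `dy i` is bad, at one of the levels of `L` -/
def BdS (F : FarD c C x δ ph) (L : List (ℝ × ℝ)) (i : ℕ) : Set X :=
  {v | 4 ≤ i ∧ 1 ≤ dist x v ∧ dist x v < 12 ∧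
    ∃ q ∈ L, bad C x (fun k z => F.H k z + F.g k z) q.1 q.2 i v}

end bds

/-- **Decay** (docs 1392, sec. 2-5): for almost every line `(z, v)`, if `v` is not hit, then along
the minimiser from `z` to `w = T_λ v` the excess and the distance to the ray of `v` decay. -/
def DecayP (n : ℕ) (c : FarK) : Prop :=
  ∃ (δ a β c1 C0 : ℝ) (L : List (ℝ × ℝ)) (j0 jm : ℕ),
    0 < δ ∧ 0 < a ∧ a ≤ 1 ∧ 0 < β ∧ β ≤ 1 ∧ 0 < c1 ∧ c1 ≤ 1 ∧ 1 ≤ C0 ∧ Lev L ∧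
    ∀ (κ : ℝ), 0 ≤ κ → κ ≤ δ → ∀ (X : Type u) [MetricSpace X] [MeasurableSpace X] [BorelSpace X]
      [ProperSpace X] (μ : Measure X) [IsFiniteMeasureOnCompacts μ] (C : Rad n κ X μ) (x : X)
      (ph : ℕ → ℝ) (F : FarD c C x δ ph) (p : X), dist p x < 1 → ∀ j, jm ≤ j →
      ∀ᵐ z ∂μ, dist x z < dy j → ∀ᵐ v ∂(Law508.Nu C x (lamj a j) (ann p 4 8)),
        ¬ Num824.Hit c1 (fun i => v ∈ BdS F L i) j →
        ∀ τ ∈ Icc (2 ^ j0 * dy j) (1 / 8 : ℝ), ∀ w y : X, w = C.T x (lamj a j) v →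
          y = ray C z w τ →
          dist x y - τ + (dist z w - dist x w) ≤ C0 * dy j * (dy j / τ) ^ β ∧
          dist y (ray C x v (dist x y)) ^ 2 ≤ C0 * dy j * τ * (dy j / τ) ^ (β / 2)

/-- **Many rays nearby** (149's `NN_of_good`) -/
def NNP (n : ℕ) (c : FarK) : Prop :=
  ∃ (K ε K2 c' : ℝ) (k0 : ℕ), 1 ≤ K ∧ 0 < ε ∧ 0 < K2 ∧ 0 < c' ∧
    ∀ (κ : ℝ), 0 ≤ κ → κ ≤ 1 → ∀ (X : Type u) [MetricSpace X] [MeasurableSpace X] [BorelSpace X]
      [ProperSpace X] (μ : Measure X) [IsFiniteMeasureOnCompacts μ] (C : Rad n κ X μ) (x : X)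
      (δ : ℝ) (ph : ℕ → ℝ) (F : FarD c C x δ ph), 0 ≤ δ → δ ≤ 1 / 2 →
      ∀ᵐ v ∂μ, 1 ≤ dist x v → dist x v < 12 → ∀ j, 6 ≤ j →
        (∀ i, j - 2 ≤ i → i ≤ j + 4 → ¬ bad C x (fun k z => F.H k z + F.g k z) K ε i v) →
        ∀ k, j + k0 ≤ k → ∀ τ ∈ Icc (dy j / 4) (3 * dy j), ∀ K1 : ℝ, 0 ≤ K1 → ∀ b : X,
          dist b (ray C x v τ) ≤ K1 * dy k → b ∈ NN C x (dy j) (dy k) (K2 + K1) c'

/-- **Pathwise bound** of the conicality defect. -/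
def PathP (n : ℕ) (c : FarK) : Prop :=
  ∃ (δ a b c1 Cp K cN : ℝ) (L : List (ℝ × ℝ)) (kf : ℕ → ℕ → ℕ) (j0 jm : ℕ),
    0 < δ ∧ δ ≤ 1 / 2 ∧ 0 < a ∧ a ≤ 1 ∧ 0 < b ∧ 0 < c1 ∧ c1 ≤ 1 ∧ 0 < Cp ∧ 1 ≤ K ∧ 0 < cN ∧
    Lev L ∧ (∀ i j, i ≤ kf i j) ∧ (∀ i j, i ≤ j → kf i j ≤ j) ∧ j0 + 4 ≤ jm ∧
    (∀ j, jm ≤ j → dy j ^ a ≤ 1 / 20) ∧
    ∀ (κ : ℝ), 0 ≤ κ → κ ≤ δ → ∀ (X : Type u) [MetricSpace X] [MeasurableSpace X] [BorelSpace X]
      [ProperSpace X] (μ : Measure X) [IsFiniteMeasureOnCompacts μ] (C : Rad n κ X μ) (x : X)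
      (ph : ℕ → ℝ) (F : FarD c C x δ ph) (p : X), dist p x < 1 → ∀ j, jm ≤ j →
      ∀ᵐ z ∂μ, dist x z < dy j → ∀ᵐ v ∂(Law508.Nu C x (lamj a j) (ann p 4 8)),
        ∀ w : X, w = C.T x (lamj a j) v →
        ∃ Dw : ℝ, HasDerivWithinAt (fun t : ℝ => dist (C.T x t z) w) Dw (Iio 1) 1 ∧
          (¬ Num824.Hit c1 (fun i => v ∈ BdS F L i) j →
            ENNReal.ofReal (Rw x z w Dw ^ 2) ≤ ENNReal.ofReal Cp *
              (Fst F (j - j0) z w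
                + ∑ i ∈ Finset.Ico 4 (j + 1),
                    ENNReal.ofReal (dy j ^ 2 * (2 : ℝ) ^ (-(b * ((j : ℝ) - i)))) *
                      (Blk F i (kf i j) K cN z w + (BdS F L i).indicator (fun _ => 1) v)
                + ENNReal.ofReal (dy j ^ 2 * dy j ^ b)))

end Crest.Agent.R247.FarAsm196
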