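import Crest.Agent.R247.Exc4_853
import Crest.Agent.R247.FarAsm3_196
import Crest.Agent.R247.Ch3_111

/-!
# R247, block (1-CH): the elementary geometry of one line (helper101, for 111)

`w = C.T x lam v`, `σ τ = ray C z w τ`, `R τ = dist x (σ τ)`,
`D τ = dist (σ τ) (ray C x v (R τ))`, `T τ = Exc x w (σ τ)`.
-/

set_option autoImplicit false
set_option linter.unusedSectionVars false
open MeasureTheory Set Filter Topology Metric
open scoped ENNReal NNReal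

noncomputable section
namespace Crest.Agent.R247.Lin101

open Crest.Agent.R247.Mcp688 Crest.Agent.R247.Far553 Crest.Agent.R247.Exc853
open Crest.Agent.R247.FarAsm196 Crest.Agent.R247.Ch111

variable {n : ℕ} {κ : ℝ} {X : Type*} [MetricSpace X] [MeasurableSpace X] [BorelSpace X]
  {μ : Measure X}

/-- distance from `x` along the line -/
def Rl (C : Rad n κ X μ) (x z w : X) (τ : ℝ) : ℝ := dist x (ray C z w τ)

/-- distance from the ray of `v` -/
def Dl (C : Rad n κ X μ) (x z v w : X) (τ : ℝ) : ℝ :=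
  dist (ray C z w τ) (ray C x v (dist x (ray C z w τ)))

/-- excess along the line -/
def Tl (C : Rad n κ X μ) (x z w : X) (τ : ℝ) : ℝ := Exc x w (ray C z w τ)

/-- one line -/
structure Geo (C : Rad n κ X μ) (p x z v : X) (t lam : ℝ) : Prop where
  lam_mem : lam ∈ Ioc (0 : ℝ) 1
  U : (x, v) ∈ C.U
  mem : C.T x lam v ∈ ann p 4 8
  Uz : (z, C.T x lam v) ∈ C.U
  px : dist p x < 1
  xz : dist x z < t
  t_le : t ≤ 1 / 2

lemma ae_geo (C : Rad n κ X μ) (hκ : 0 ≤ κ) {p x z : X} {t lam : ℝ}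
    (hl : lam ∈ Ioc (0 : ℝ) 1) (hp : dist p x < 1) (hz : dist x z < t) (ht : t ≤ 1 / 2) :
    ∀ᵐ v ∂(Law508.Nu C x lam (ann p 4 8)), Geo C p x z v t lam := by
  have hW : MeasurableSet (ann p 4 8) := by
    have hd : Measurable (fun z : X => dist p z) :=
      (continuous_const.dist continuous_id).measurable
    exact (measurableSet_le measurable_const hd).inter (measurableSet_le hd measurable_const)
  have h1 := Law508.Nu_ae C x hl hW
  have h2 : ∀ᵐ v ∂(Law508.Nu C x lam (ann p 4 8)), (z, C.T x lam v) ∈ C.U := by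
    have h3 := Law508.Nu_preimage_le C hκ x hl hW {w | (z, w) ∉ C.U}
    have h4 : μ ({w | (z, w) ∉ C.U} ∩ ann p 4 8) = 0 :=
      measure_mono_null inter_subset_left (C.ae_U z)
    rw [h4] at h3
    exact le_antisymm h3 zero_le
  filter_upwards [h1, h2] with v hv hv2
  exact ⟨hl, hv.1, hv.2.2, hv2, hp, hz, ht⟩

namespace Geo

variable {C : Rad n κ X μ} {p x z v : X} {t lam : ℝ} (h : Geo C p x z v t lam)
include h

lemma t_pos : 0 < t := dist_nonneg.trans_lt h.xz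

lemma xw_gt : 3 < dist x (C.T x lam v) := by
  have h1 := dist_triangle p x (C.T x lam v)
  have h2 := h.mem.1
  have h3 := h.px
  linarith

lemma xw_lt : dist x (C.T x lam v) < 9 := by
  have h1 := dist_triangle x p (C.T x lam v)
  have h2 := h.mem.2
  have h3 := h.px
  rw [dist_comm x p] at h1
  linarith

lemma xw_eq : dist x (C.T x lam v) = lam * dist x v :=
  C.dist_left h.U ⟨h.lam_mem.1.le, h.lam_mem.2⟩

lemma xv_ge : dist x (C.T x lam v) ≤ dist x v := by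
  rw [h.xw_eq]
  have := h.lam_mem.2
  nlinarith [dist_nonneg (x := x) (y := v)]

lemma x_ne_v : x ≠ v := by
  intro hxv
  have h1 := h.xw_gt
  have h2 := h.xv_ge
  rw [← hxv, dist_self] at h2
  rw [← hxv] at h1
  linarith

lemma l_gt : 2 < dist z (C.T x lam v) := by
  have h1 := dist_triangle x z (C.T x lam v)
  have h2 := h.xw_gt
  have h3 := h.xz
  have h4 := h.t_le
  linarith

lemma l_lt : dist z (C.T x lam v) < 10 := by
  have h1 := dist_triangle z x (C.T x lam v)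
  have h2 := h.xw_lt
  have h3 := h.xz
  have h4 := h.t_le
  rw [dist_comm z x] at h1
  linarith

lemma abs_l : |dist z (C.T x lam v) - dist x (C.T x lam v)| < t := by
  have h1 := dist_triangle z x (C.T x lam v)
  have h2 := dist_triangle x z (C.T x lam v)
  have h3 := h.xz
  rw [dist_comm z x] at h1
  rw [abs_lt]
  constructor <;> linarith

lemma z_ne_w : z ≠ C.T x lam v := by
  intro hzw
  have h1 := h.l_gt
  rw [← hzw, dist_self] at h1
  linarith

lemma isMin : IsMin z (C.T x lam v) (dist z (C.T x lam v)) (fun τ => ray C z (C.T x lam v) τ) :=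
  isMin_of_rad C h.Uz h.z_ne_w

lemma R_le {τ : ℝ} (h0 : 0 ≤ τ) (h1 : τ ≤ dist z (C.T x lam v)) :
    |Rl C x z (C.T x lam v) τ - τ| ≤ dist x z := by
  have h2 : dist z (ray C z (C.T x lam v) τ) = τ := by
    have := h.isMin.dist_le le_rfl h0 h1
    rw [h.isMin.zero] at this
    linarith
  have h3 := dist_triangle x z (ray C z (C.T x lam v) τ)
  have h4 := dist_triangle z x (ray C z (C.T x lam v) τ)
  rw [dist_comm z x] at h4
  unfold Rl
  rw [abs_le]
  constructor <;> linarith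

lemma ray_last : ray C z (C.T x lam v) (dist z (C.T x lam v)) = C.T x lam v := h.isMin.last

lemma D_last : Dl C x z v (C.T x lam v) (dist z (C.T x lam v)) = 0 := by
  unfold Dl
  rw [h.ray_last, h.xw_eq]
  unfold ray
  have hd : dist x v ≠ 0 := (dist_pos.2 h.x_ne_v).ne'
  rw [mul_div_assoc, div_self hd, mul_one, dist_self]

lemma D_nonneg (τ : ℝ) : 0 ≤ Dl C x z v (C.T x lam v) τ := dist_nonneg

lemma T_nonneg (τ : ℝ) : 0 ≤ Tl C x z (C.T x lam v) τ := Exc_nonneg _ _ _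

lemma T_anti {τ τ' : ℝ} (h0 : 0 ≤ τ) (h1 : τ ≤ τ') (h2 : τ' ≤ dist z (C.T x lam v)) :
    Tl C x z (C.T x lam v) τ' ≤ Tl C x z (C.T x lam v) τ :=
  h.isMin.exc_anti x h0 h1 h2

lemma T_le {τ : ℝ} (h0 : 0 ≤ τ) (h1 : τ ≤ dist z (C.T x lam v)) :
    Tl C x z (C.T x lam v) τ ≤ 2 * dist x z :=
  h.isMin.exc_le h0 h1

lemma T_last : Tl C x z (C.T x lam v) (dist z (C.T x lam v)) = 0 :=
  h.isMin.exc_last x

/-- the form used in 196's `DecayP` -/
lemma T_eq {τ : ℝ} (h0 : 0 ≤ τ) (h1 : τ ≤ dist z (C.T x lam v)) :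
    Tl C x z (C.T x lam v) τ = dist x (ray C z (C.T x lam v) τ) - τ +
      (dist z (C.T x lam v) - dist x (C.T x lam v)) := by
  have h2 : dist (ray C z (C.T x lam v) τ) (C.T x lam v) = dist z (C.T x lam v) - τ :=
    h.isMin.dist_w h0 h1
  unfold Tl Exc
  rw [h2]
  ring

/-- the ray of `v` continues beyond `w` -/
lemma X0_eq {θ : ℝ} (hθ : 0 < θ) (hlam : lam = 1 / (1 + θ)) :
    dist x v - dist x (C.T x lam v) = θ * dist x (C.T x lam v) := by
  rw [h.xw_eq, hlam]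
  field_simp
  ring

lemma X0_eq' {θ : ℝ} (hθ : 0 < θ) (hlam : lam = 1 / (1 + θ)) :
    dist x v = (1 + θ) * dist x (C.T x lam v) := by
  have := h.X0_eq hθ hlam
  linarith

/-- **(U)** along the line -/
lemma U_field {c : FarK} {δ : ℝ} {ph : ℕ → ℝ} (F : FarD c C x δ ph) [ProperSpace X]
    [IsFiniteMeasureOnCompacts μ] (hκ : 0 ≤ κ) (hn : 1 ≤ n)
    (hδ' : -1 ≤ δ) (hδ : δ ≤ 1 / 2) (hκ' : κ * 1600 ≤ 1) {τ : ℝ} (h1 : 2 * t ≤ τ)
    (h2 : τ ≤ 1 / 4) :
    Tl C x z (C.T x lam v) (2 * τ) ≤ (192 * 2 ^ n + 48) *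
      (Dl C x z v (C.T x lam v) τ ^ 2 / τ) := by
  have ht := h.t_pos
  have hxz := h.xz
  exact far_U F hκ hn hδ' hδ hκ' (σ := fun τ => ray C z (C.T x lam v) τ) h.U h.x_ne_v h.lam_mem rfl
    dist_nonneg h.isMin (by linarith [h.xw_lt]) (by linarith [h.xw_gt]) (by linarith)
    (by linarith) h2

/-- **All elementary fields of 111's `Line`**, base scale `t' ∈ [t, 2t)`. -/
theorem line {K c₁ C1 Gg CU : ℝ} {Ng Nb j0 J : ℕ} {t' θ : ℝ} {bad : ℕ → Prop}
    (hθ : 0 < θ) (hθ' : θ ≤ 1 / 20) (ht : t ≤ t')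
    (hJ1 : 1 / 16 ≤ 2 ^ J * t') (hJ2 : 2 ^ J * t' ≤ 1 / 8)
    (good : ∀ j, j0 ≤ j → j < J → ¬ bad j → ∀ i < Ng,
      Stp K c₁ C1 Gg (Dl C x z v (C.T x lam v)) (Rl C x z (C.T x lam v))
        (Tl C x z (C.T x lam v)) (2 ^ j * t' / Ng) (2 ^ j * t' + i * (2 ^ j * t' / Ng))
        (2 ^ j * t' + (i + 1) * (2 ^ j * t' / Ng)) (2 ^ j * t' + (i + 2) * (2 ^ j * t' / Ng)))
    (always : ∀ τ₁ τ₂ τ₃, 2 ^ j0 * t' ≤ τ₁ → τ₁ < τ₂ → τ₂ < τ₃ → τ₃ ≤ dist z (C.T x lam v) →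
      Nb * (τ₂ - τ₁) ≤ τ₂ →
      Nb * (τ₂ - τ₁) ≤ dist z (C.T x lam v) + θ * dist x (C.T x lam v) - τ₂ →
      (τ₂ - τ₁) / 2 ≤ τ₃ - τ₂ → τ₃ - τ₂ ≤ τ₂ - τ₁ →
      Stp K c₁ C1 2 (Dl C x z v (C.T x lam v)) (Rl C x z (C.T x lam v))
        (Tl C x z (C.T x lam v)) (τ₂ - τ₁) τ₁ τ₂ τ₃)
    (last : ∀ τ₁, 2 ^ j0 * t' ≤ τ₁ → τ₁ < dist z (C.T x lam v) →
      Nb * (dist z (C.T x lam v) - τ₁) ≤ θ * dist x (C.T x lam v) →
      2 * K * √((dist z (C.T x lam v) - τ₁) * Tl C x z (C.T x lam v) τ₁) ≤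
        c₁ * (dist z (C.T x lam v) - τ₁) →
      Dl C x z v (C.T x lam v) τ₁ / Rl C x z (C.T x lam v) τ₁ ≤
        2 * (C1 / Rl C x z (C.T x lam v) (dist z (C.T x lam v)) *
          √((dist z (C.T x lam v) - τ₁) * Tl C x z (C.T x lam v) τ₁)))
    (U : ∀ τ, 2 ^ j0 * t' ≤ τ → τ ≤ 1 / 4 → Tl C x z (C.T x lam v) (2 * τ) ≤
      CU * (Dl C x z v (C.T x lam v) τ ^ 2 / τ)) :
    Line K c₁ C1 Gg CU Ng Nb j0 J t' (θ * dist x (C.T x lam v)) (dist z (C.T x lam v)) bad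
      (Dl C x z v (C.T x lam v)) (Rl C x z (C.T x lam v)) (Tl C x z (C.T x lam v)) where
  t_pos := h.t_pos.trans_le ht
  J_ge := hJ1
  J_le := hJ2
  ℓ_ge := h.l_gt.le
  ℓ_le := h.l_lt.le
  X0_pos := mul_pos hθ (by linarith [h.xw_gt])
  X0_le := by
    have h1 := h.xw_lt
    have h2 := h.xw_gt
    calc θ * dist x (C.T x lam v) ≤ 1 / 20 * 9 := by gcongr
      _ ≤ 1 := by norm_num
  D_nonneg := h.D_nonneg
  D_last := h.D_last
  R_le := fun τ h0 h1 => (h.R_le h0 h1).trans (h.xz.le.trans ht)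
  T_nonneg := h.T_nonneg
  T_anti := fun τ τ' h0 h1 h2 => h.T_anti h0 h1 h2
  T_le := fun τ h0 h1 => (h.T_le h0 h1).trans (by linarith [h.xz])
  good := good
  always := always
  last := last
  U := U

end Geo

/-- `θ = dy j ^ a` is small for large `j` -/
lemma exists_theta {a : ℝ} (ha : 0 < a) {ε : ℝ} (hε : 0 < ε) :
    ∃ jm : ℕ, ∀ j, jm ≤ j → dy j ^ a ≤ ε := by
  have h1 : Tendsto (fun j : ℕ => ((1 / 2 : ℝ) ^ a) ^ j) atTop (𝓝 0) := by
    refine tendsto_pow_atTop_nhds_zero_of_lt_one (by positivity) ?_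
    exact Real.rpow_lt_one (by norm_num) (by norm_num) ha
  obtain ⟨jm, hjm⟩ := (h1.eventually (ge_mem_nhds hε)).exists_forall_of_atTop
  refine ⟨jm, fun j hj => ?_⟩
  have h2 := hjm j hj
  have h3 : dy j ^ a = ((1 / 2 : ℝ) ^ a) ^ j := by
    unfold dy
    rw [← Real.rpow_natCast, ← Real.rpow_natCast, ← Real.rpow_mul (by norm_num),
      ← Real.rpow_mul (by norm_num)]
    congr 1
    ring
  rw [h3]
  exact h2

lemma lamj_mem (a : ℝ) (j : ℕ) : lamj a j ∈ Ioc (0 : ℝ) 1 := by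
  have h1 : 0 < dy j ^ a := Real.rpow_pos_of_pos (dy_pos j) _
  unfold lamj
  constructor
  · positivity
  · rw [div_le_one (by positivity)]
    linarith

end Crest.Agent.R247.Lin101
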