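import Crest.Agent.R247.Ch4_111
import Crest.Agent.R247.Chb_101
import Crest.Agent.R247.Lin_101

/-!
# (1-CH) part 5: `DecayP` (196's interface) from the one-step inequalities `StpP`
-/

set_option autoImplicit false
set_option linter.unusedSectionVars false
open MeasureTheory Set Filter Topology Metric
open scoped ENNReal NNReal

noncomputable section
namespace Crest.Agent.R247.Ch111

universe u

open Crest.Agent.R247.Mcp688 Crest.Agent.R247.Far553 Crest.Agent.R247.Exc853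
open Crest.Agent.R247.FarAsm196 Crest.Agent.R247.Lin101 Crest.Agent.R247.Chb101

/-- the three one-step inequalities along lines, over `FarD` (553's `Stp2`) -/
def StpP (n : ℕ) (c : FarK) : Prop :=
  ∃ K C1 : ℝ, 0 < K ∧ 0 ≤ C1 ∧ ∃ Ng0 : ℕ, ∀ Ng : ℕ, Ng0 ≤ Ng → 1 ≤ Ng → ∀ Gg : ℝ, 1 < Gg →
  ∃ (Kb εb : ℝ) (Nb : ℕ), 1 ≤ Kb ∧ 0 < εb ∧ 4 ≤ Nb ∧
  ∀ {κ : ℝ} {X : Type u} [MetricSpace X] [MeasurableSpace X] [BorelSpace X] [ProperSpace X]
    {μ : Measure X} [IsFiniteMeasureOnCompacts μ] (C : Rad n κ X μ) (x : X) (δ : ℝ) (ph : ℕ → ℝ)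
    (F : FarD c C x δ ph), 0 ≤ κ → κ * 1600 ≤ 1 → -1 ≤ δ → δ ≤ 1 / 2 →
  ∀ᵐ v ∂μ, (x, v) ∈ C.U → dist x v ≤ 11 → ∀ (lam : ℝ), lam ∈ Ioc (0 : ℝ) 1 →
    ∀ (w z : X), w = C.T x lam v → (z, w) ∈ C.U → z ≠ w → ∀ t : ℝ, 0 < t → dist x z ≤ t →
    4 * t ≤ 1 / 8 → 4 * t ≤ dist x v - dist x w → dist x v - dist x w ≤ 1 →
    2 ≤ dist x w → dist x w ≤ 9 →
    (∀ s : ℝ, 4 * t ≤ s → s ≤ 1 / 8 →
      (∀ i : ℕ, s / 8 ≤ dy i → dy i ≤ 8 * s →
        ¬ bad C x (fun k z => F.H k z + F.g k z) Kb εb i v) →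
      ∀ i < Ng, Stp K (1 / 256) C1 Gg (Dl C x z v w) (Rl C x z w) (Tl C x z w) (s / Ng)
        (s + i * (s / Ng)) (s + (i + 1) * (s / Ng)) (s + (i + 2) * (s / Ng))) ∧
    (∀ τ₁ τ₂ τ₃, 4 * t ≤ τ₁ → τ₁ < τ₂ → τ₂ < τ₃ → τ₃ ≤ dist z w → Nb * (τ₂ - τ₁) ≤ τ₂ →
      Nb * (τ₂ - τ₁) ≤ dist z w + (dist x v - dist x w) - τ₂ →
      (τ₂ - τ₁) / 2 ≤ τ₃ - τ₂ → τ₃ - τ₂ ≤ τ₂ - τ₁ →
      Stp K (1 / 256) C1 2 (Dl C x z v w) (Rl C x z w) (Tl C x z w) (τ₂ - τ₁) τ₁ τ₂ τ₃) ∧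
    (∀ τ₁, 4 * t ≤ τ₁ → τ₁ < dist z w → Nb * (dist z w - τ₁) ≤ dist x v - dist x w →
      2 * K * √((dist z w - τ₁) * Tl C x z w τ₁) ≤ 1 / 256 * (dist z w - τ₁) →
      Dl C x z v w τ₁ / Rl C x z w τ₁ ≤
        2 * (C1 / Rl C x z w (dist z w) * √((dist z w - τ₁) * Tl C x z w τ₁)))

/-- window of dyadic scales met by `[s/8, 8s]`, `s = 2^j t'`, `t' ∈ [dy m, 2 dy m)` -/
lemma window_idx {m j i : ℕ} {t' : ℝ} (h1 : dy m ≤ t') (h2 : t' < 2 * dy m)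
    (hi1 : 2 ^ j * t' / 8 ≤ dy i) (hi2 : dy i ≤ 8 * (2 ^ j * t')) :
    m ≤ i + j + 4 ∧ i + j ≤ m + 3 := by
  have hd : ∀ k : ℕ, dy k = 1 / 2 ^ k := fun k => by unfold dy; rw [div_pow, one_pow]
  rw [hd] at h1 h2 hi1 hi2
  have p2 : ∀ k : ℕ, (0 : ℝ) < 2 ^ k := fun k => by positivity
  constructor
  · -- `dy i ≤ 8 · 2^j t' < 16 · 2^j dy m`
    by_contra hcon
    have hcon : i + j + 4 < m := not_le.1 hcon
    have h3 : (1 : ℝ) / 2 ^ i < 16 * 2 ^ j * (1 / 2 ^ m) := by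
      calc (1 : ℝ) / 2 ^ i ≤ 8 * (2 ^ j * t') := hi2
        _ < 8 * (2 ^ j * (2 * (1 / 2 ^ m))) := by
            have := mul_lt_mul_of_pos_left h2 (p2 j)
            linarith
        _ = 16 * 2 ^ j * (1 / 2 ^ m) := by ring
    have h4 : (2 : ℝ) ^ (i + j + 4) < 2 ^ m := pow_lt_pow_right₀ (by norm_num) hcon
    rw [div_lt_iff₀ (p2 i)] at h3
    have h5 : 16 * 2 ^ j * (1 / 2 ^ m) * 2 ^ i = 2 ^ (i + j + 4) / (2 : ℝ) ^ m := by
      rw [pow_add, pow_add]; field_simp; norm_num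
    rw [h5, lt_div_iff₀ (p2 m)] at h3
    linarith
  · by_contra hcon
    have hcon : m + 3 < i + j := not_le.1 hcon
    have h3 : 2 ^ j * (1 / 2 ^ m) / 8 ≤ (1 : ℝ) / 2 ^ i := by
      refine le_trans ?_ hi1
      have := mul_le_mul_of_nonneg_left h1 (p2 j).le
      linarith
    have h4 : (2 : ℝ) ^ (m + 3) < 2 ^ (i + j) := pow_lt_pow_right₀ (by norm_num) hcon
    rw [le_div_iff₀ (p2 i)] at h3
    have h5 : 2 ^ j * (1 / 2 ^ m) / 8 * 2 ^ i = 2 ^ (i + j) / (2 : ℝ) ^ (m + 3) := by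
      rw [pow_add, pow_add]; field_simp; norm_num
    rw [h5, div_le_iff₀ (p2 _)] at h3
    linarith

set_option maxHeartbeats 4000000 in
/-- **Decay** (196's `DecayP`) from the one-step inequalities. -/
theorem decay_of_stp {n : ℕ} {c : FarK} (hn : 1 ≤ n) (hS : StpP.{u} n c) : DecayP.{u} n c := by
  classical
  obtain ⟨K, C1, hK, hC1, Ng0, hS⟩ := hS
  -- number of steps and factor of the good scales
  set Ng : ℕ := max Ng0 1 with hNg
  have hNg1 : 1 ≤ Ng := le_max_right _ _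
  set Gg : ℝ := (2 : ℝ) ^ ((1 : ℝ) / (16 * Ng)) with hGg
  have hNgr : (0 : ℝ) < Ng := by exact_mod_cast hNg1
  have hGg1 : 1 < Gg := Real.one_lt_rpow (by norm_num) (by positivity)
  have hGgN : Gg ^ Ng ≤ (2 : ℝ) ^ ((1 : ℝ) / 16) := by
    rw [hGg, ← Real.rpow_natCast, ← Real.rpow_mul (by norm_num)]
    apply le_of_eq
    congr 1
    field_simp
  obtain ⟨Kb, εb, Nb, hKb, hεb, hNb, hS⟩ := hS Ng (le_max_left _ _) hNg1 Gg hGg1
  obtain ⟨β, c3, a, hβ, hc3, ha0, ha4, hdec⟩ := line_decay (K := K) (c := 1 / 256) (C1 := C1)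
    (Gg := Gg) (CU := 192 * 2 ^ n + 48) (Ng := Ng) (Nb := Nb) hK (by norm_num) hC1 hGg1.le
    (by positivity) hNg1 hNb hGgN
  obtain ⟨j0, t0, C2, hj03, ht0, hC20, hdec⟩ := hdec 3
  clear_value Gg Ng
  -- the constants
  set c1 : ℝ := min (c3 / 41) 1 with hc1
  have hc10 : 0 < c1 := lt_min (by positivity) one_pos
  have hc1a : 41 * c1 ≤ c3 := by
    have : c1 ≤ c3 / 41 := min_le_left _ _
    linarith
  have hc11 : c1 ≤ 1 := min_le_right _ _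
  clear_value c1
  obtain ⟨j1, hj1⟩ := exists_theta ha0 (ε := 1 / 20) (by norm_num)
  obtain ⟨j2, hj2⟩ : ∃ j2 : ℕ, 8 / c1 + 8 ≤ j2 := exists_nat_ge _
  obtain ⟨j3, hj3⟩ : ∃ j3 : ℕ, ∀ j, j3 ≤ j → 2 * dy j ≤ t0 := by
    obtain ⟨k, hk⟩ := exists_pow_lt_of_lt_one (show 0 < t0 / 2 by positivity)
      (show (1 / 2 : ℝ) < 1 by norm_num)
    refine ⟨k, fun j hj => ?_⟩
    have h1 := dy_anti hj
    have h2 : dy k < t0 / 2 := hk
    linarith
  set γ : ℝ := min β 1 with hγ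
  have hγ0 : 0 < γ := lt_min hβ one_pos
  have hγβ : γ ≤ β := min_le_left _ _
  have hγ1 : γ ≤ 1 := min_le_right _ _
  clear_value γ
  refine ⟨1 / 1600, a, γ, c1, max 1 (C2 * 2 ^ (1 + β)), [(Kb, εb)], j0,
    max (max j1 j2) (max j3 5), by norm_num, ha0, by linarith, hγ0, hγ1, hc10, hc11,
    le_max_left _ _, ?_, ?_⟩
  · intro q hq
    rw [List.mem_singleton] at hq
    rw [hq]
    exact ⟨hKb, hεb⟩
  intro κ hκ0 hκ X _ _ _ _ μ _ C x ph F p hp j hj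
  have hjj1 : j1 ≤ j := ((le_max_left _ _).trans (le_max_left _ _)).trans hj
  have hjj2 : j2 ≤ j := ((le_max_right _ _).trans (le_max_left _ _)).trans hj
  have hjj3 : j3 ≤ j := ((le_max_left _ _).trans (le_max_right _ _)).trans hj
  have hjj4 : 5 ≤ j := ((le_max_right _ _).trans (le_max_right _ _)).trans hj
  have hθ := hj1 j hjj1
  have hθ0 : 0 < dy j ^ a := Real.rpow_pos_of_pos (dy_pos j) _
  have hdj := dy_pos j
  have hdj32 : dy j ≤ 1 / 32 := by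
    have := dy_anti hjj4
    have h4 : dy 5 = 1 / 32 := by unfold dy; norm_num
    linarith
  have hdj16 : dy j ≤ 1 / 16 := by linarith
  have hκ' : κ * 1600 ≤ 1 := by linarith
  have hSv := hS C x (1 / 1600) ph F hκ0 hκ' (by norm_num) (by norm_num)
  refine Eventually.of_forall fun z hz => ?_
  have hgeo := ae_geo (μ := μ) C hκ0 (lamj_mem a j) hp hz (by linarith)
  filter_upwards [hgeo, (Law508.Nu_ac C x (lamj a j) (ann p 4 8)).ae_le hSv] with v hg hst hHit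
  intro τ hτ w y hw hy
  have hlam : lamj a j = 1 / (1 + dy j ^ a) := rfl
  have hX0 := hg.X0_eq hθ0 hlam
  have hxw1 := hg.xw_gt
  have hxw2 := hg.xw_lt
  -- `dy j ≤ dy j ^ a / 4`
  have hdja : 4 * dy j ≤ dy j ^ a := by
    have h1 : dy j = dy j ^ (3 / 4 : ℝ) * dy j ^ (1 / 4 : ℝ) := by
      rw [← Real.rpow_add hdj]; norm_num
    have h2 : dy j ^ (1 / 4 : ℝ) ≤ dy j ^ a :=
      Real.rpow_le_rpow_of_exponent_ge hdj (by linarith) ha4
    have h3 : dy j ^ (3 / 4 : ℝ) ≤ (1 / 16) ^ (3 / 4 : ℝ) :=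
      Real.rpow_le_rpow hdj.le hdj16 (by norm_num)
    have h4 : ((1 : ℝ) / 16) ^ (3 / 4 : ℝ) = 1 / 8 := by
      rw [show (1 / 16 : ℝ) = (1 / 2) ^ (4 : ℕ) by norm_num, ← Real.rpow_natCast,
        ← Real.rpow_mul (by norm_num)]
      norm_num
    have h5 : 0 ≤ dy j ^ (1 / 4 : ℝ) := by positivity
    calc 4 * dy j = 4 * (dy j ^ (3 / 4 : ℝ) * dy j ^ (1 / 4 : ℝ)) := by rw [← h1]
      _ ≤ 4 * (1 / 8 * dy j ^ a) := by
          rw [h4] at h3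
          have := mul_le_mul h3 h2 h5 (by norm_num)
          linarith
      _ ≤ dy j ^ a := by linarith
  -- base scale
  obtain ⟨i, J, t', ht'1, ht'2, hiτ, hj0i, hiJ, hJm, hJ1, hJ2⟩ := exists_base hτ.1 hτ.2
  have ht'0 : 0 < t' := hdj.trans_le ht'1
  obtain ⟨hgood, halw, hlast⟩ := hst hg.U
    (by
      have := hg.X0_eq' hθ0 hlam
      rw [this]
      nlinarith)
    (lamj a j) (lamj_mem a j) _ z rfl hg.Uz hg.z_ne_w (dy j) hdj hz.le (by linarith)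
    (by
      rw [hX0]
      nlinarith)
    (by
      rw [hX0]
      nlinarith)
    (by linarith) hxw2.le
  have h8 : ∀ i0 : ℕ, 3 ≤ i0 → 4 * dy j ≤ 2 ^ i0 * t' := fun i0 hi0 => by
    have h1 : (2 : ℝ) ^ 3 ≤ 2 ^ i0 := pow_le_pow_right₀ (by norm_num) hi0
    have h2 : (2 : ℝ) ^ 3 * t' ≤ 2 ^ i0 * t' := mul_le_mul_of_nonneg_right h1 ht'0.le
    linarith
  have hline := hg.line (K := K) (c₁ := 1 / 256) (C1 := C1) (Gg := Gg) (CU := 192 * 2 ^ n + 48)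
    (Ng := Ng) (Nb := Nb) (j0 := 3) (J := J) (t' := t') (θ := dy j ^ a)
    (bad := badQ (fun i => v ∈ BdS F [(Kb, εb)] i) j) hθ0 hθ ht'1 hJ1 hJ2
    (fun i1 hi1 hi1J hnb => by
      refine hgood (2 ^ i1 * t') (h8 i1 hi1) ?_ ?_
      · have : (2 : ℝ) ^ i1 ≤ 2 ^ J := pow_le_pow_right₀ (by norm_num) hi1J.le
        have := mul_le_mul_of_nonneg_right this ht'0.le
        linarith
      · intro k hk1 hk2 hbad
        obtain ⟨h1, h2⟩ := window_idx ht'1 ht'2 hk1 hk2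
        obtain ⟨h3, h4⟩ := not_badQ hi1 hnb h1 h2
        apply h3
        refine ⟨by omega, ?_, ?_, ⟨(Kb, εb), List.mem_singleton_self _, hbad⟩⟩
        · have := hg.xv_ge
          linarith
        · have := hg.X0_eq' hθ0 hlam
          rw [this]
          nlinarith)
    (fun τ₁ τ₂ τ₃ h1 h2 h3 h4 h5 h6 h7 h8' => halw τ₁ τ₂ τ₃ ((h8 3 le_rfl).trans h1) h2 h3 h4 h5
      (by rw [hX0]; exact h6) h7 h8')
    (fun τ₁ h1 h2 h3 h4 => hlast τ₁ ((h8 3 le_rfl).trans h1) h2 (by rw [hX0]; exact h3) h4)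
    (fun τ' h1 h2 => hg.U_field F hκ0 hn (by norm_num) (by norm_num) hκ'
      (by have := h8 3 le_rfl; linarith) h2)
  have hres := hdec J t' _ _ _ _ _ _ hline
    (by have := hj3 j hjj3; linarith)
    (by
      -- `t' ^ a ≤ θ |w|`
      have h1 : t' ^ a ≤ (2 * dy j) ^ a := Real.rpow_le_rpow ht'0.le ht'2.le ha0.le
      have h2 : (2 * dy j) ^ a = 2 ^ a * dy j ^ a := Real.mul_rpow (by norm_num) hdj.le
      have h3 : (2 : ℝ) ^ a ≤ 2 := by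
        calc (2 : ℝ) ^ a ≤ 2 ^ (1 : ℝ) :=
              Real.rpow_le_rpow_of_exponent_le (by norm_num) (by linarith)
          _ = 2 := Real.rpow_one _
      have h4 : (2 : ℝ) ^ a * dy j ^ a ≤ 2 * dy j ^ a :=
        mul_le_mul_of_nonneg_right h3 hθ0.le
      nlinarith)
    (fun k hk => by
      have h1 := card_badQ hc10 (Bad := fun i => v ∈ BdS F [(Kb, εb)] i) (m := j)
        (by
          have : (j2 : ℝ) ≤ j := by exact_mod_cast hjj2
          linarith) hHit (j := k) (by omega)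
      have h2 : 41 * c1 * (1 + (k : ℝ)) ≤ c3 * (1 + k) :=
        mul_le_mul_of_nonneg_right hc1a (by positivity)
      refine le_trans (le_of_eq ?_) (h1.trans h2)
      congr)
    i hj0i hiJ
  rw [hiτ] at hres
  obtain ⟨hT, hD⟩ := hres
  have hτ0 : 0 < τ := lt_of_lt_of_le (by positivity) hτ.1
  have hτl : τ ≤ dist z (C.T x (lamj a j) v) := by
    have := hg.l_gt
    linarith [hτ.2]
  subst hw
  subst hy
  have hp1 : 0 ≤ (dy j / τ) ^ γ := by positivity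
  have hp2 : 0 ≤ (dy j / τ) ^ (γ / 2) := by positivity
  constructor
  · rw [hg.T_eq hτ0.le hτl] at hT
    have h1 := conv_le hγβ hβ.le hC20 hdj ht'1 ht'2 hiτ hT
    refine h1.trans ?_
    apply mul_le_mul_of_nonneg_right _ hp1
    apply mul_le_mul_of_nonneg_right (le_max_right _ _) hdj.le
  · have hD' : Dl C x z v (C.T x (lamj a j) v) τ ^ 2 ≤
        C2 * t' * (2 ^ i * t') * (2 : ℝ) ^ (-β * i) := by
      rw [hiτ]; exact hD
    have h1 := conv_sq (γ := γ / 2) (by linarith) hβ.le hC20 hdj ht'1 ht'2 hiτ hD'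
    refine h1.trans ?_
    apply mul_le_mul_of_nonneg_right _ hp2
    apply mul_le_mul_of_nonneg_right _ hτ0.le
    apply mul_le_mul_of_nonneg_right (le_max_right _ _) hdj.le

end Crest.Agent.R247.Ch111
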