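import Crest.Agent.R247.FarAsm6_196

/-!
# Assembly of block (1), part 7: `DecayP → NNP → PathP` (helper196)
-/

set_option autoImplicit false
set_option linter.unusedSectionVars false
open MeasureTheory Set Filter Topology Metric
open scoped ENNReal NNReal

noncomputable section
namespace Crest.Agent.R247.FarAsm196

universe u

open Crest.Agent.R247.Mcp688 Crest.Agent.R247.Far553

open Classical in
lemma hit_mono {c1 : ℝ} {B B' : ℕ → Prop} (h : ∀ i, B i → B' i) {m : ℕ}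
    (hh : Num824.Hit c1 B m) : Num824.Hit c1 B' m := by
  obtain ⟨i, hi, hc⟩ := hh
  refine ⟨i, hi, hc.trans_le ?_⟩
  have : (Finset.filter (fun j => B j) (Finset.Ico i (m + 1))).card ≤
      (Finset.filter (fun j => B' j) (Finset.Ico i (m + 1))).card := by
    apply Finset.card_le_card
    intro j hj
    rw [Finset.mem_filter] at hj ⊢
    exact ⟨hj.1, h j hj.2⟩
  convert (Nat.cast_le (α := ℝ)).2 this

lemma exists_jm {a : ℝ} (ha : 0 < a) : ∃ j2 : ℕ, ∀ j, j2 ≤ j → dy j ^ a ≤ 1 / 20 := by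
  obtain ⟨N, hN⟩ := exists_nat_ge (5 / a)
  refine ⟨N, fun j hj => ?_⟩
  rw [dy_rpow, ← Real.rpow_mul (by norm_num)]
  have h1 : (N : ℝ) ≤ j := by exact_mod_cast hj
  have h2 : 5 ≤ (j : ℝ) * a := by
    rw [div_le_iff₀ ha] at hN
    nlinarith
  calc (2 : ℝ) ^ (-(j : ℝ) * a) ≤ (2 : ℝ) ^ (-(5 : ℝ)) := two_rpow_mono (by linarith)
    _ ≤ 1 / 20 := by
      rw [Real.rpow_neg (by norm_num)]
      norm_num

lemma lamj_pos (a : ℝ) (j : ℕ) : 0 < lamj a j := by
  unfold lamj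
  have : 0 < dy j ^ a := Real.rpow_pos_of_pos (dy_pos j) _
  positivity

lemma lamj_mem (a : ℝ) (j : ℕ) : lamj a j ∈ Ioc (0 : ℝ) 1 := by
  refine ⟨lamj_pos a j, ?_⟩
  unfold lamj
  have : 0 < dy j ^ a := Real.rpow_pos_of_pos (dy_pos j) _
  rw [div_le_one (by positivity)]
  linarith

/-- **`PathP` from the closing (`DecayP`) and the rays nearby (`NNP`)** -/
theorem path_of {n : ℕ} {c : FarK} (hDec : DecayP.{u} n c) (hN : NNP.{u} n c) :
    PathP.{u} n c := by
  obtain ⟨δ1, a, β, c1, C0, L, j0, jm, hδ1, ha0, ha1, hβ0, hβ1, hc10, hc11, hC0, hL, hdec⟩ := hDec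
  obtain ⟨K, ε, K2, c', k0, hK, hε, hK2, hc', hnn⟩ := hN
  obtain ⟨j2, hj2⟩ := exists_jm ha0
  have hB1 := c.B1_pos 1
  have hcX := Cur301.one_le_cX
  have hMq : 1 ≤ 5 * c.B1 1 + 1 := by linarith
  have hg := Num824.geoC_pos (b := β / 2) (by positivity)
  have hCp : 0 < Cpc β C0 (5 * c.B1 1 + 1) := by
    unfold Cpc A1c
    have := dy_pos 6
    positivity
  refine ⟨min δ1 (1 / 2), a, β / 2, c1, Cpc β C0 (5 * c.B1 1 + 1),
    K2 + Real.sqrt (4 * C0), c', (K, ε) :: L, kf β, j0 + 2 * k0 + 4,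
    max jm (max (j0 + 2 * k0 + 10) j2), lt_min hδ1 (by norm_num), min_le_right _ _, ha0, ha1,
    by positivity, hc10, hc11, hCp, ?_, hc', ?_, le_kf β, fun i j hij => kf_le hβ0.le hβ1 hij,
    by omega, fun j hj => hj2 j (by omega), ?_⟩
  · have h1 : 1 ≤ Real.sqrt (4 * C0) := by
      rw [Real.one_le_sqrt]
      linarith
    linarith
  · intro q hq
    rw [List.mem_cons] at hq
    rcases hq with rfl | hq
    · exact ⟨hK, hε⟩
    · exact hL q hq
  intro κ hκ0 hκ X _ _ _ _ μ _ C x ph F p hp j hj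
  have hj1 : jm ≤ j := by omega
  have hj3 : j0 + 2 * k0 + 10 ≤ j := by omega
  have hj4 : j2 ≤ j := by omega
  have hθ := hj2 j hj4
  have hθ0 : 0 < dy j ^ a := Real.rpow_pos_of_pos (dy_pos j) _
  set W : Set X := ann p 4 8 with hW
  have hWm : MeasurableSet W := measurableSet_ann p 4 8
  have hlam := lamj_mem a j
  have hδ' : min δ1 (1 / 2) ≤ δ1 := min_le_left _ _
  have hδ0 : (0 : ℝ) ≤ min δ1 (1 / 2) := (lt_min hδ1 (by norm_num)).le
  have hδ2 : min δ1 (1 / 2) ≤ 1 / 2 := min_le_right _ _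
  have hdy1 : dy j ≤ 1 / 16 := by
    refine (dy_anti (show 4 ≤ j by omega)).trans ?_
    unfold dy; norm_num
  have hjpos := dy_pos j
  set m : ℕ := j - (j0 + 2 * k0 + 4) with hm
  have hmj : m ≤ j := by omega
  have hdym := dy_pos m
  have hdyjm : dy j ≤ dy m := dy_anti hmj
  have hdym1 : dy m ≤ 1 / 16 := by
    refine (dy_anti (show 4 ≤ m by omega)).trans ?_
    unfold dy; norm_num
  -- a.e. facts
  have a1 := hdec κ hκ0 (hκ.trans hδ') X μ C x ph (F.mono hδ') p hp j hj1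
  have a2 : ∀ᵐ v ∂(Law508.Nu C x (lamj a j) W), _ :=
    (Law508.Nu_ac C x (lamj a j) W).ae_le
      (hnn κ hκ0 (hκ.trans (hδ2.trans (by norm_num))) X μ C x (min δ1 (1 / 2)) ph F hδ0 hδ2)
  have a3 := Law508.Nu_ae C x hlam hWm
  have a4 : ∀ᵐ z ∂μ, ∀ᵐ v ∂(Law508.Nu C x (lamj a j) W), ∀ k,
      dist x z < 2 → dist x (C.T x (lamj a j) v) < 12 → z ≠ C.T x (lamj a j) v →
      ∃ Dw : ℝ, HasDerivWithinAt (fun t : ℝ => dist (C.T x t z) (C.T x (lamj a j) v)) Dw
        (Iio 1) 1 ∧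
      HasDerivWithinAt (fun τ : ℝ => dist x (ray C z (C.T x (lamj a j) v) τ) ^ 2 / 2) (-Dw)
        (Ici 0) 0 ∧
      Nonempty (AlongD (dist z (C.T x (lamj a j) v)) (dy k)
        (fun τ => dist x (ray C z (C.T x (lamj a j) v) τ) ^ 2 / 2)
        (fun τ => F.q k (ray C z (C.T x (lamj a j) v) τ))
        (fun τ => F.kk k (ray C z (C.T x (lamj a j) v) τ))
        (fun τ => F.H k (ray C z (C.T x (lamj a j) v) τ))
        (fun τ => F.g k (ray C z (C.T x (lamj a j) v) τ))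
        (fun τ => F.nk k (ray C z (C.T x (lamj a j) v) τ)) Dw (F.g k z)) := by
    have h := ae_all_iff.2 F.d3
    exact Law508.Nu_ae_of_ae_prod C hκ0 x hlam hWm h
  filter_upwards [a1, a4] with z b1 b4 hz
  have b5 : ∀ᵐ v ∂(Law508.Nu C x (lamj a j) W), (z, C.T x (lamj a j) v) ∈ C.U :=
    Law508.Nu_ae_of_ae C hκ0 x hlam hWm (C.ae_U z)
  have b6 := Law508.Nu_ae_of_ae C hκ0 x hlam hWm (ae_arc C z (F.q_le m))
  filter_upwards [b1 hz, a2, a3, b4, b5, b6] with v d1 d2 d3 d4 d5 d6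
  intro w hw
  subst hw
  set w : X := C.T x (lamj a j) v with hwdef
  obtain ⟨hxv, hxw, hwW⟩ := d3
  have hz1 : dist x z < 1 := by linarith
  have hzw := dist_bounds hp hz1 hwW
  have hxw1 : 3 ≤ dist x w ∧ dist x w ≤ 9 := by
    obtain ⟨h1, h2⟩ := hwW
    have h3 := dist_triangle p x w
    have h4 := dist_triangle x p w
    rw [dist_comm x p] at h4
    constructor <;> linarith
  have hdv : dist x w = lamj a j * dist x v := C.dist_left hxv ⟨hlam.1.le, hlam.2⟩
  have hdv' : dist x v = (1 + dy j ^ a) * dist x w := by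
    rw [hdv, lamj]
    field_simp
  have hv1 : 1 ≤ dist x v := by rw [hdv']; nlinarith
  have hv2 : dist x v < 12 := by rw [hdv']; nlinarith
  have hne : z ≠ w := by
    intro h
    have := hzw.1
    rw [h, dist_self] at this
    norm_num at this
  -- the radial derivative
  obtain ⟨Dw, hDw, -, -⟩ := d4 0 (by linarith) (by linarith) hne
  refine ⟨Dw, hDw, fun hhit => ?_⟩
  have hA : ∀ k, Nonempty (AlongD (dist z w) (dy k) (fun τ => dist x (ray C z w τ) ^ 2 / 2)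
        (fun τ => F.q k (ray C z w τ)) (fun τ => F.kk k (ray C z w τ))
        (fun τ => F.H k (ray C z w τ)) (fun τ => F.g k (ray C z w τ))
        (fun τ => F.nk k (ray C z w τ)) Dw (F.g k z)) := by
    intro k
    obtain ⟨Dw', hDw', -, hA'⟩ := d4 k (by linarith) (by linarith) hne
    have : Dw' = Dw := (uniqueDiffWithinAt_Iio (1 : ℝ)).eq_deriv _ hDw' hDw
    rw [this] at hA'
    exact hA'
  have hhit' : ¬ Num824.Hit c1 (fun i => v ∈ BdS (F.mono hδ') L i) j := by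
    intro h
    refine hhit (hit_mono (fun i hi => ?_) h)
    obtain ⟨h1, h2, h3, q, hq, hb⟩ := hi
    exact ⟨h1, h2, h3, q, List.mem_cons_of_mem _ hq, hb⟩
  have hT := d1 hhit'
  refine line_bound F hβ0 hβ1 hC0 hMq (L := (K, ε) :: L) List.mem_cons_self hj3 d5 hzw.1 hz
    hA (fun τ hτ => hT τ hτ w _ rfl rfl) hv1 hv2 (fun i hi hg => d2 hv1 hv2 i hi hg) ?_
  -- `q` is bounded on the first block
  have h7 := d6 (by linarith)
  rw [ae_restrict_iff' measurableSet_Ioc] at h7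
  have h8 : ∀ᵐ τ : ℝ, τ ≠ 0 := by simp [ae_iff, measure_singleton]
  filter_upwards [h7, h8] with τ h7 h8 hτ
  have hτ0 : 0 < τ := lt_of_le_of_ne hτ.1 (Ne.symm h8)
  have hτl : τ ≤ dist z w := by linarith [hτ.2, hzw.1]
  have h9 : dist z (ray C z w τ) = τ := Law508.ray_mem_ann C d5 hτ.1 hτl (by linarith)
  have h10 : dist x (ray C z w τ) ≤ 2 * dy m := by
    have := dist_triangle x z (ray C z w τ)
    have := hτ.2
    linarith
  have h11 := h7 ⟨hτ0, hτl⟩ (by linarith)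
  have h12 : dist x (ray C z w τ) ^ 2 ≤ (2 * dy m) ^ 2 := pow_le_pow_left₀ dist_nonneg h10 2
  have h13 : dy m ^ 2 * F.q m (ray C z w τ) ≤ dy m ^ 2 * (5 * c.B1 1) := by
    refine h11.trans ?_
    calc c.B1 1 * (dist x (ray C z w τ) ^ 2 + dy m ^ 2)
        ≤ c.B1 1 * ((2 * dy m) ^ 2 + dy m ^ 2) := by gcongr
      _ = _ := by ring
  have h14 := le_of_mul_le_mul_left h13 (by positivity)
  linarith

end Crest.Agent.R247.FarAsm196
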