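import Crest.Agent.R247.Fin2_508

/-!
# Assembly of block (1), averaging, part 3 (helper508)

`farConcl_of_path : PathP n c → FarConcl n c`.
-/

set_option autoImplicit false
set_option linter.unusedSectionVars false
open MeasureTheory Set Filter Topology Metric
open scoped ENNReal NNReal

noncomputable section
namespace Crest.Agent.R247.Fin508

universe u

open Crest.Agent.R247.Mcp688 Crest.Agent.R247.Far553 Crest.Agent.R247.FarAsm196

section slice
variable {n : ℕ} {κ : ℝ} {X : Type*} [MetricSpace X] [MeasurableSpace X] [BorelSpace X]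
  {μ : Measure X} {c : FarK} {C : Rad n κ X μ} {x : X} {δ : ℝ} {ph : ℕ → ℝ}

lemma lamj_mem (a : ℝ) (j : ℕ) : lamj a j ∈ Ioc (0 : ℝ) 1 := by
  have h := dy_pos j
  have h2 : 0 < dy j ^ a := Real.rpow_pos_of_pos h a
  unfold lamj
  exact ⟨by positivity, by rw [div_le_one (by positivity)]; linarith⟩

lemma ball_le (F : FarD c C x δ ph) (hδ : δ ≤ 1) {r : ℝ} (h0 : 0 < r) (hr : r ≤ 20) :
    μ (ball x r) ≤ ENNReal.ofReal (2 * c.ω * r ^ n) := by
  have hω := c.ω_pos
  refine (F.vol_le x r (by simp) h0 hr).trans (ENNReal.ofReal_le_ofReal ?_)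
  gcongr
  linarith

lemma ball9_le (F : FarD c C x δ ph) (hδ : δ ≤ 1) {p : X} (hp : dist p x < 1) :
    μ (ball p 9) ≤ ENNReal.ofReal (CW n c) := by
  refine (measure_mono (?_ : ball p 9 ⊆ ball x 10)).trans ?_
  · intro w hw
    rw [mem_ball] at hw ⊢
    have := dist_triangle w p x
    linarith
  · exact ball_le F hδ (by norm_num) (by norm_num)

lemma Ht_eq (F : FarD c C x δ ph) (hδ : δ ≤ 1) (L : List (ℝ × ℝ)) {c1 : ℝ} (hc : 0 < c1)
    (j : ℕ) : μ (Ht F L c1 j) = ENNReal.ofReal ((μ.restrict (ball x 12)).real (Ht F L c1 j)) := by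
  have hfin : μ (ball x 12) ≠ ∞ :=
    ne_top_of_le_ne_top ENNReal.ofReal_ne_top (ball_le F hδ (by norm_num) (by norm_num))
  have hs : Ht F L c1 j ⊆ ball x 12 := hit_subset F L hc j
  rw [Measure.real, Measure.restrict_apply' measurableSet_ball,
    inter_eq_left.2 hs, ENNReal.ofReal_toReal]
  exact ne_top_of_le_ne_top hfin (measure_mono hs)

variable [SecondCountableTopology X] [SFinite μ]

/-- **slice estimate**: the average over `w ∈ W` for fixed `z`. -/
theorem slice (hκ : 0 ≤ κ) (hκ1 : κ ≤ 1) (hδ : δ ≤ 1) (F : FarD c C x δ ph)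
    {L : List (ℝ × ℝ)} (hL : Lev L) {kf : ℕ → ℕ → ℕ} (hkf1 : ∀ i j, i ≤ kf i j)
    (hkf2 : ∀ i j, i ≤ j → kf i j ≤ j) {a b c1 Cp K cN : ℝ} (hb : 0 < b)
    (hc1 : 0 < c1) (hCp : 0 < Cp) (hK : 1 ≤ K) (hcN : 0 < cN) (m j : ℕ)
    (hθ : dy j ^ a ≤ 1 / 20) {p z : X} (hp : dist p x < 1) (hz : dist x z < dy j)
    {Dw : X → ℝ} (hDw : Measurable Dw) (h1 : ∀ᵐ w ∂μ, |Rw x z w (Dw w)| ≤ 2 * dist x z)
    (h2 : ∀ᵐ v ∂(Law508.Nu C x (lamj a j) (ann p 4 8)), v ∉ Ht F L c1 j →
      ENNReal.ofReal (Rw x z (C.T x (lamj a j) v) (Dw (C.T x (lamj a j) v)) ^ 2) ≤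
        ENNReal.ofReal Cp * (Fst F m z (C.T x (lamj a j) v) +
          BlkS F L kf b K cN j z (C.T x (lamj a j) v) v +
          ENNReal.ofReal (dy j ^ 2 * dy j ^ b))) :
    ∫⁻ w in ann p 4 8, ENNReal.ofReal (Rw x z w (Dw w) ^ 2) ∂μ ≤
      ENNReal.ofReal (Real.exp 50) * (ENNReal.ofReal Cp * ∫⁻ w in ann p 4 8, Fst F m z w ∂μ +
        ENNReal.ofReal (dy j ^ 2 * (4 * (μ.restrict (ball x 12)).real (Ht F L c1 j) +
          4 * (Law508.Cdef n 1 * dy j ^ a) * CW n c +
          Cp * ((26 * CL n * c.B3 K cN * Num824.logC b + K0 c L) * SJ (b / 2) ph j +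
            dy j ^ b * CW n c)))) := by
  have hdj := dy_pos j
  have hdj1 := dy_le_one j
  have hθ0 : 0 < dy j ^ a := Real.rpow_pos_of_pos hdj a
  have hl := lamj_mem a j
  have hCL := CL_pos n
  have hB3 := c.B3_pos K cN
  have hK0 := K0_nonneg c L
  have hCW := CW_pos n c
  have hlog := Num824.one_le_logC hb
  have hSJ := SJ_nonneg (b / 2) F.ph_nonneg j
  have hCd := Law508.Cdef_pos n 1
  set M : ℝ≥0∞ := ENNReal.ofReal (4 * dy j ^ 2) with hM
  set f : X → ℝ≥0∞ := fun w => min (ENNReal.ofReal (Rw x z w (Dw w) ^ 2)) M with hf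
  have hRm : Measurable fun w => Rw x z w (Dw w) := by
    unfold Rw
    exact hDw.sub ((measurable_const.dist measurable_id).sub (measurable_const.dist measurable_id))
  have hfm : Measurable f := (hRm.pow_const 2).ennreal_ofReal.min measurable_const
  have hfM : ∀ w, f w ≤ M := fun w => min_le_right _ _
  have s1 : ∫⁻ w in ann p 4 8, ENNReal.ofReal (Rw x z w (Dw w) ^ 2) ∂μ ≤
      ∫⁻ w in ann p 4 8, f w ∂μ := by
    apply lintegral_mono_ae
    filter_upwards [ae_restrict_of_ae h1] with w hw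
    apply le_min le_rfl
    apply ENNReal.ofReal_le_ofReal
    have h3 : |Rw x z w (Dw w)| ≤ 2 * dy j := by linarith
    calc Rw x z w (Dw w) ^ 2 = |Rw x z w (Dw w)| ^ 2 := (sq_abs _).symm
      _ ≤ (2 * dy j) ^ 2 := by gcongr
      _ = 4 * dy j ^ 2 := by ring
  have hfin : μ (ball p 9) ≠ ∞ := ne_top_of_le_ne_top ENNReal.ofReal_ne_top (ball9_le F hδ hp)
  have s2 := Law508.avg_le C hκ x p hp.le hθ0 hθ hfin hfm (M := M) (fun w _ => hfM w)
  have hlam : 1 / (1 + dy j ^ a) = lamj a j := rfl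
  rw [hlam] at s2
  -- the integral over the end points
  have hHm : MeasurableSet (Ht F L c1 j) :=
    Num824.measurableSet_hit (fun i => measurableSet_BdS F L i) j
  have hmR : Measurable fun v => (Fst F m z (C.T x (lamj a j) v) +
      BlkS F L kf b K cN j z (C.T x (lamj a j) v) v + ENNReal.ofReal (dy j ^ 2 * dy j ^ b)) :=
    ((meas_Fst_T F m z _).add (meas_BlkS F L kf b K cN j z _)).add measurable_const
  have s3 : ∫⁻ v, f (C.T x (lamj a j) v) ∂(Law508.Nu C x (lamj a j) (ann p 4 8)) ≤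
      M * μ (Ht F L c1 j) + ENNReal.ofReal Cp * (∫⁻ w in ann p 4 8, Fst F m z w ∂μ +
      ENNReal.ofReal (dy j ^ 2 * ((26 * CL n * c.B3 K cN * Num824.logC b + K0 c L) *
        SJ (b / 2) ph j) + dy j ^ 2 * dy j ^ b * CW n c)) := by
    have hR := Rhs_avg hκ hκ1 hδ F hL hkf1 hkf2 hb hK hcN m j hp (by linarith : dist x z < 1) hl
    calc ∫⁻ v, f (C.T x (lamj a j) v) ∂(Law508.Nu C x (lamj a j) (ann p 4 8))
        ≤ ∫⁻ v, ((Ht F L c1 j).indicator (fun _ => M) v + ENNReal.ofReal Cp *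
            (Fst F m z (C.T x (lamj a j) v) + BlkS F L kf b K cN j z (C.T x (lamj a j) v) v +
              ENNReal.ofReal (dy j ^ 2 * dy j ^ b))) ∂(Law508.Nu C x (lamj a j) (ann p 4 8)) := by
          apply lintegral_mono_ae
          filter_upwards [h2] with v hv
          by_cases hH : v ∈ Ht F L c1 j
          · rw [indicator_of_mem hH]
            exact (hfM _).trans le_self_add
          · rw [indicator_of_notMem hH, zero_add]
            exact (min_le_left _ _).trans (hv hH)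
      _ = M * Law508.Nu C x (lamj a j) (ann p 4 8) (Ht F L c1 j) + ENNReal.ofReal Cp *
            ∫⁻ v, (Fst F m z (C.T x (lamj a j) v) + BlkS F L kf b K cN j z (C.T x (lamj a j) v) v +
              ENNReal.ofReal (dy j ^ 2 * dy j ^ b)) ∂(Law508.Nu C x (lamj a j) (ann p 4 8)) := by
          rw [lintegral_add_left (measurable_const.indicator hHm), lintegral_const_mul _ hmR,
            lintegral_indicator hHm, setLIntegral_const]
      _ ≤ _ := add_le_add (mul_le_mul_right (Law508.Nu_le C hκ x hl _ _) _)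
          (mul_le_mul_right hR _)
  have hexp : ENNReal.ofReal (Real.exp (κ * 81 / 2)) ≤ ENNReal.ofReal (Real.exp 50) := by
    apply ENNReal.ofReal_le_ofReal
    apply Real.exp_le_exp.2
    linarith
  have hCdκ : Law508.Cdef n κ ≤ Law508.Cdef n 1 := by
    unfold Law508.Cdef
    gcongr
  refine s1.trans (s2.trans (mul_le_mul' hexp ?_))
  rw [Ht_eq F hδ L hc1 j] at s3
  set h : ℝ := (μ.restrict (ball x 12)).real (Ht F L c1 j) with hh
  have hh0 : 0 ≤ h := measureReal_nonneg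
  have s4 : M * (ENNReal.ofReal (Law508.Cdef n κ * dy j ^ a) * μ (ball p 9)) ≤
      ENNReal.ofReal (4 * dy j ^ 2 * (Law508.Cdef n 1 * dy j ^ a * CW n c)) := by
    rw [hM, ENNReal.ofReal_mul (p := 4 * dy j ^ 2) (by positivity),
      ENNReal.ofReal_mul (p := Law508.Cdef n 1 * dy j ^ a) (by positivity)]
    refine mul_le_mul_right (mul_le_mul' (ENNReal.ofReal_le_ofReal ?_) (ball9_le F hδ hp)) _
    gcongr
  refine (add_le_add s3 s4).trans ?_
  rw [hM, ← ENNReal.ofReal_mul (by positivity), mul_add (ENNReal.ofReal Cp),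
    ← ENNReal.ofReal_mul hCp.le]
  generalize hI : ENNReal.ofReal Cp * ∫⁻ w in ann p 4 8, Fst F m z w ∂μ = I
  calc ENNReal.ofReal (4 * dy j ^ 2 * h) + (I + ENNReal.ofReal (Cp * (dy j ^ 2 *
          ((26 * CL n * c.B3 K cN * Num824.logC b + K0 c L) * SJ (b / 2) ph j) +
            dy j ^ 2 * dy j ^ b * CW n c))) +
        ENNReal.ofReal (4 * dy j ^ 2 * (Law508.Cdef n 1 * dy j ^ a * CW n c))
      = I + (ENNReal.ofReal (4 * dy j ^ 2 * h) + ENNReal.ofReal (Cp * (dy j ^ 2 *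
          ((26 * CL n * c.B3 K cN * Num824.logC b + K0 c L) * SJ (b / 2) ph j) +
            dy j ^ 2 * dy j ^ b * CW n c)) +
        ENNReal.ofReal (4 * dy j ^ 2 * (Law508.Cdef n 1 * dy j ^ a * CW n c))) := by ring
    _ = _ := by
        rw [← ENNReal.ofReal_add (by positivity) (by positivity),
          ← ENNReal.ofReal_add (by positivity) (by positivity)]
        congr 2
        ring
    _ ≤ _ := le_rfl

/-- the final constant -/
def Afin (n : ℕ) (c : FarK) (L : List (ℝ × ℝ)) (b b' Cp K cN : ℝ) (j0 : ℕ) : ℝ :=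
  Real.exp 50 * (Cp * CF n c * 2 ^ (b' * j0) * (2 ^ j0) ^ (n + 2) +
    2 * c.ω * (4 + 4 * Law508.Cdef n 1 * CW n c +
      Cp * (26 * CL n * c.B3 K cN * Num824.logC b + K0 c L) + Cp * CW n c))

lemma Afin_pos (n : ℕ) (c : FarK) (L : List (ℝ × ℝ)) {b b' Cp K cN : ℝ} (hb : 0 < b)
    (hCp : 0 < Cp) (j0 : ℕ) : 0 < Afin n c L b b' Cp K cN j0 := by
  have hCL := CL_pos n
  have hB3 := c.B3_pos K cN
  have hK0 := K0_nonneg c L
  have hCW := CW_pos n c
  have hlog := Num824.one_le_logC hb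
  have hCd := Law508.Cdef_pos n 1
  have hω := c.ω_pos
  have hCF := CF_pos n c
  unfold Afin
  positivity

lemma dy_add (m j0 : ℕ) : dy m = 2 ^ j0 * dy (m + j0) := by
  unfold dy
  rw [pow_add, one_div, inv_pow, inv_pow]
  field_simp

/-- the real-number arithmetic of the averaging -/
lemma arith {E Cp CFc P T2 B CWc Cd ω2 ph S S' h θ e e' s sn sm smn : ℝ}
    (hE : 0 ≤ E) (hCp : 0 ≤ Cp) (hCF : 0 ≤ CFc) (hP : 0 ≤ P) (hT : 0 ≤ T2) (hB : 0 ≤ B)
    (hCW : 0 ≤ CWc) (hCd : 0 ≤ Cd) (hω : 0 ≤ ω2) (hS : 0 ≤ S) (hh : 0 ≤ h)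
    (he' : 0 ≤ e') (hs : 0 ≤ s) (hsn : 0 ≤ sn) (hSS : S' ≤ S) (hθe : θ ≤ e') (hee : e ≤ e')
    (hph : ph ≤ P * S) (hsm : sm * smn = T2 * (s * sn)) :
    E * (Cp * (CFc * ph * sm * smn) + s * (4 * h + 4 * (Cd * θ) * CWc +
      Cp * (B * S' + e * CWc)) * (ω2 * sn)) ≤
    E * (Cp * CFc * P * T2 + ω2 * (4 + 4 * Cd * CWc + Cp * B + Cp * CWc)) *
      (S + h + e') * s * sn := by
  have h1 : Cp * (CFc * ph * sm * smn) ≤ Cp * CFc * P * T2 * (S + h + e') * (s * sn) := by
    calc Cp * (CFc * ph * sm * smn) = Cp * CFc * ph * (sm * smn) := by ring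
      _ = Cp * CFc * ph * (T2 * (s * sn)) := by rw [hsm]
      _ ≤ Cp * CFc * (P * S) * (T2 * (s * sn)) := by gcongr
      _ ≤ Cp * CFc * (P * (S + h + e')) * (T2 * (s * sn)) := by
          gcongr
          linarith
      _ = _ := by ring
  have h2 : s * (4 * h + 4 * (Cd * θ) * CWc + Cp * (B * S' + e * CWc)) * (ω2 * sn) ≤
      ω2 * (4 + 4 * Cd * CWc + Cp * B + Cp * CWc) * (S + h + e') * (s * sn) := by
    have h3 : 4 * h + 4 * (Cd * θ) * CWc + Cp * (B * S' + e * CWc) ≤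
        (4 + 4 * Cd * CWc + Cp * B + Cp * CWc) * (S + h + e') := by
      calc 4 * h + 4 * (Cd * θ) * CWc + Cp * (B * S' + e * CWc)
          ≤ 4 * (S + h + e') + 4 * (Cd * (S + h + e')) * CWc +
            Cp * (B * (S + h + e') + (S + h + e') * CWc) := by
            gcongr <;> linarith
        _ = _ := by ring
    calc s * (4 * h + 4 * (Cd * θ) * CWc + Cp * (B * S' + e * CWc)) * (ω2 * sn)
        ≤ s * ((4 + 4 * Cd * CWc + Cp * B + Cp * CWc) * (S + h + e')) * (ω2 * sn) := by gcongr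
      _ = _ := by ring
  calc E * (Cp * (CFc * ph * sm * smn) + s * (4 * h + 4 * (Cd * θ) * CWc +
        Cp * (B * S' + e * CWc)) * (ω2 * sn))
      ≤ E * (Cp * CFc * P * T2 * (S + h + e') * (s * sn) +
        ω2 * (4 + 4 * Cd * CWc + Cp * B + Cp * CWc) * (S + h + e') * (s * sn)) := by gcongr
    _ = _ := by ring

/-- **averaging**: from the pathwise bound to the integrated bound. -/
theorem avg_main (hκ : 0 ≤ κ) (hκ1 : κ ≤ 1) (hδ : δ ≤ 1) (F : FarD c C x δ ph)
    {L : List (ℝ × ℝ)} (hL : Lev L) {kf : ℕ → ℕ → ℕ} (hkf1 : ∀ i j, i ≤ kf i j)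
    (hkf2 : ∀ i j, i ≤ j → kf i j ≤ j) {a b b' c1 Cp K cN : ℝ} (hb' : 0 < b')
    (hba : b' ≤ a) (hbb : b' ≤ b / 2) (hc1 : 0 < c1) (hCp : 0 < Cp) (hK : 1 ≤ K) (hcN : 0 < cN)
    {m j j0 : ℕ} (hm : m + j0 = j) (hm4 : 4 ≤ m) (hθ : dy j ^ a ≤ 1 / 20) {p : X}
    (hp : dist p x < 1)
    (hpath : ∀ᵐ z ∂μ, dist x z < dy j → ∀ᵐ v ∂(Law508.Nu C x (lamj a j) (ann p 4 8)),
        ∀ w : X, w = C.T x (lamj a j) v →
        ∃ Dw : ℝ, HasDerivWithinAt (fun t : ℝ => dist (C.T x t z) w) Dw (Iio 1) 1 ∧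
          (v ∉ Ht F L c1 j → ENNReal.ofReal (Rw x z w Dw ^ 2) ≤ ENNReal.ofReal Cp *
              (Fst F m z w + BlkS F L kf b K cN j z w v + ENNReal.ofReal (dy j ^ 2 * dy j ^ b))))
    {Dw : X → X → ℝ} (hDm : Measurable (Function.uncurry Dw))
    (hRD : ∀ w, RD C x (fun z => dist z w) (fun z => Dw z w)) :
    ∫⁻ z in ball x (dy j), ∫⁻ w in ann p 4 8, ENNReal.ofReal (Rw x z w (Dw z w) ^ 2) ∂μ ∂μ ≤
      ENNReal.ofReal (Afin n c L b b' Cp K cN j0 *
        (SJ b' ph j + (μ.restrict (ball x 12)).real (Ht F L c1 j) + dy j ^ b') *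
          dy j ^ 2 * dy j ^ n) := by
  have hb : 0 < b := by linarith
  have hdj := dy_pos j
  have hdj1 := dy_le_one j
  have hθ0 : 0 < dy j ^ a := Real.rpow_pos_of_pos hdj a
  have hl := lamj_mem a j
  have hCL := CL_pos n
  have hB3 := c.B3_pos K cN
  have hK0 := K0_nonneg c L
  have hCW := CW_pos n c
  have hlog := Num824.one_le_logC hb
  have hSJ := SJ_nonneg (b / 2) F.ph_nonneg j
  have hSJ' := SJ_nonneg b' F.ph_nonneg j
  have hCd := Law508.Cdef_pos n 1
  have hω := c.ω_pos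
  have hCF := CF_pos n c
  have hWm : MeasurableSet (ann p 4 8) := FarAsm196.measurableSet_ann p 4 8
  set h : ℝ := (μ.restrict (ball x 12)).real (Ht F L c1 j) with hh
  have hh0 : 0 ≤ h := measureReal_nonneg
  set Q : ℝ := 4 * h + 4 * (Law508.Cdef n 1 * dy j ^ a) * CW n c +
    Cp * ((26 * CL n * c.B3 K cN * Num824.logC b + K0 c L) * SJ (b / 2) ph j +
      dy j ^ b * CW n c) with hQ
  have hQ0 : 0 ≤ Q := by positivity
  have hslice : ∀ᵐ z ∂(μ.restrict (ball x (dy j))),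
      ∫⁻ w in ann p 4 8, ENNReal.ofReal (Rw x z w (Dw z w) ^ 2) ∂μ ≤
      ENNReal.ofReal (Real.exp 50) * (ENNReal.ofReal Cp * ∫⁻ w in ann p 4 8, Fst F m z w ∂μ +
        ENNReal.ofReal (dy j ^ 2 * Q)) := by
    filter_upwards [ae_restrict_of_ae hpath, ae_restrict_of_ae (der_ident C x hDm hRD),
      ae_restrict_mem measurableSet_ball] with z hz1 hz2 hz3
    have hz : dist x z < dy j := by rw [dist_comm]; exact mem_ball.1 hz3
    have hDz : Measurable (Dw z) := hDm.comp (measurable_const.prodMk measurable_id)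
    refine slice hκ hκ1 hδ F hL hkf1 hkf2 hb hc1 hCp hK hcN m j hθ hp hz hDz
      (hz2.mono fun w hw => hw.1) ?_
    filter_upwards [hz1 hz, Law508.Nu_ae_of_ae C hκ x hl hWm hz2] with v hv1 hv2 hvH
    obtain ⟨D', hD', hbd⟩ := hv1 _ rfl
    rw [← hv2.2 D' hD']
    exact hbd hvH
  have hGm : Measurable fun z => ∫⁻ w in ann p 4 8, Fst F m z w ∂μ := by
    have := measurable_Fst F m
    generalize Fst F m = f at this ⊢
    exact this.lintegral_prod_right'
  have hGm2 : Measurable fun z => ENNReal.ofReal Cp * ∫⁻ w in ann p 4 8, Fst F m z w ∂μ +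
      ENNReal.ofReal (dy j ^ 2 * Q) := (hGm.const_mul _).add measurable_const
  have hF := Fst_avg F hκ1 hδ (lawFirst C hκ) hp hm4 (by omega : m ≤ j)
  have hV := ball_le F hδ hdj (by linarith : dy j ≤ 20)
  calc ∫⁻ z in ball x (dy j), ∫⁻ w in ann p 4 8, ENNReal.ofReal (Rw x z w (Dw z w) ^ 2) ∂μ ∂μ
      ≤ ∫⁻ z in ball x (dy j), ENNReal.ofReal (Real.exp 50) *
          (ENNReal.ofReal Cp * ∫⁻ w in ann p 4 8, Fst F m z w ∂μ +
            ENNReal.ofReal (dy j ^ 2 * Q)) ∂μ := lintegral_mono_ae hslice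
    _ = ENNReal.ofReal (Real.exp 50) * (ENNReal.ofReal Cp *
          ∫⁻ z in ball x (dy j), ∫⁻ w in ann p 4 8, Fst F m z w ∂μ ∂μ +
            ENNReal.ofReal (dy j ^ 2 * Q) * μ (ball x (dy j))) := by
        rw [lintegral_const_mul _ hGm2,
          lintegral_add_right _ measurable_const, lintegral_const_mul _ hGm, setLIntegral_const]
    _ ≤ ENNReal.ofReal (Real.exp 50) * (ENNReal.ofReal Cp *
          ENNReal.ofReal (CF n c * ph m * dy m ^ 2 * dy m ^ n) +
            ENNReal.ofReal (dy j ^ 2 * Q) * ENNReal.ofReal (2 * c.ω * dy j ^ n)) := by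
        gcongr
    _ = ENNReal.ofReal (Real.exp 50 * (Cp * (CF n c * ph m * dy m ^ 2 * dy m ^ n) +
          dy j ^ 2 * Q * (2 * c.ω * dy j ^ n))) := by
        have := F.ph_nonneg m
        have := dy_pos m
        rw [← ENNReal.ofReal_mul hCp.le, ← ENNReal.ofReal_mul (by positivity),
          ← ENNReal.ofReal_add (by positivity) (by positivity),
          ← ENNReal.ofReal_mul (by positivity)]
    _ ≤ _ := by
        apply ENNReal.ofReal_le_ofReal
        have e1 : dy j ^ a ≤ dy j ^ b' := Real.rpow_le_rpow_of_exponent_ge hdj hdj1 hba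
        have e2 : dy j ^ b ≤ dy j ^ b' := Real.rpow_le_rpow_of_exponent_ge hdj hdj1 (by linarith)
        have e3 : SJ (b / 2) ph j ≤ SJ b' ph j := SJ_anti hbb F.ph_nonneg j
        have e4 : ph m ≤ 2 ^ (b' * j0) * SJ b' ph j := by
          have := term_le_SJ (b := b') F.ph_nonneg hm4 (by omega : m ≤ j)
          have e : (j : ℝ) - m = j0 := by
            rw [← hm]
            push_cast
            ring
          rwa [e] at this
        have e5 : dy m ^ 2 * dy m ^ n = (2 ^ j0) ^ (n + 2) * (dy j ^ 2 * dy j ^ n) := by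
          rw [dy_add m j0, hm, ← pow_add, ← pow_add, add_comm 2 n, mul_pow]
        have hP : (0 : ℝ) ≤ 2 ^ (b' * j0) := by positivity
        have hT : (0 : ℝ) ≤ (2 ^ j0) ^ (n + 2) := by positivity
        exact arith (Real.exp_pos 50).le hCp.le hCF.le hP hT (by positivity) hCW.le hCd.le
          (by positivity) hSJ' hh0 (by positivity) (by positivity) (by positivity) e3 e1 e2 e4 e5

end slice

/-- **The averaging of block (1)**: the pathwise bound gives the conclusion of block (1). -/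
theorem farConcl_of_path {n : ℕ} {c : FarK} (h : PathP.{u} n c) : FarConcl.{u} n c := by
  obtain ⟨δ, a, b, c1, Cp, K, cN, L, kf, j0, jm, hδ0, hδ2, ha0, ha1, hb0, hc1, hc11, hCp, hK, hcN,
    hL, hkf1, hkf2, hjm, hθ, H⟩ := h
  set b' := min (b / 2) a with hb'
  have hb'0 : 0 < b' := lt_min (by positivity) ha0
  obtain ⟨m, hm2, At, hAt, HT⟩ := Num824.tail_D' hb'0 hc1 hc11
  refine ⟨δ, hδ0, max (At * (1 + K0 c L)) (Afin n c L b b' Cp K cN j0),
    lt_max_of_lt_right (Afin_pos n c L hb0 hCp j0), b' / 2, by positivity, jm, by omega, ?_⟩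
  intro j₁ hj₁
  refine ⟨m * j₁, by nlinarith, ?_⟩
  intro κ hκ hκδ X _ _ _ _ μ _ C x ph F hs p hp
  have hκ1 : κ ≤ 1 := by linarith
  have hδ1 : δ ≤ 1 := by linarith
  have : IsFiniteMeasure (μ.restrict (ball x 12)) := ⟨by
    rw [Measure.restrict_apply_univ]
    exact (ball_le F hδ1 (by norm_num) (by norm_num)).trans_lt ENNReal.ofReal_lt_top⟩
  set D : ℕ → ℝ := fun j => SJ b' ph j + (μ.restrict (ball x 12)).real (Ht F L c1 j) + dy j ^ b'
    with hD
  have hD0 : ∀ j, 0 ≤ D j := by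
    intro j
    have h1 := SJ_nonneg b' F.ph_nonneg j
    have h2 : 0 ≤ (μ.restrict (ball x 12)).real (Ht F L c1 j) := measureReal_nonneg
    have h3 : 0 ≤ dy j ^ b' := (Real.rpow_pos_of_pos (dy_pos j) _).le
    simp only [hD]
    positivity
  obtain ⟨hS, hT⟩ := HT 1 (K0 c L) zero_le_one (K0_nonneg c L) (μ.restrict (ball x 12))
    (fun i => BdS F L i) (fun i => measurableSet_BdS F L i) (fun i hi => BdS_lt F L hi) ph
    F.ph_nonneg hs
    (fun i hi => (Measure.restrict_le_self _).trans (measure_BdS_le F hL hi)) D hD0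
    (fun j _ => by rw [one_mul]; exact le_rfl)
  refine ⟨D, hD0, hS, ?_, ?_⟩
  · intro J hJ
    refine (hT j₁ hj₁ J hJ).trans ?_
    rw [mul_one]
    have h1 : 0 ≤ ∑' j, ph (j₁ + j) := tsum_nonneg fun j => F.ph_nonneg _
    have h2 : 0 ≤ ∑' j, ph (4 + j) := tsum_nonneg fun j => F.ph_nonneg _
    have h3 : 0 ≤ dy (J - j₁) ^ (b' / 2) := (Real.rpow_pos_of_pos (dy_pos _) _).le
    exact mul_le_mul_of_nonneg_right (le_max_left _ _) (by positivity)
  · intro j hj Dw hDm hRD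
    have h4 := avg_main hκ hκ1 hδ1 F hL hkf1 hkf2 hb'0 (min_le_right _ _) (min_le_left _ _)
      hc1 hCp hK hcN (m := j - j0) (j := j) (j0 := j0) (by omega) (by omega) (hθ j hj) hp
      (H κ hκ hκδ X μ C x ph F p hp j hj) hDm hRD
    refine h4.trans (ENNReal.ofReal_le_ofReal ?_)
    have h5 := hD0 j
    have h6 := dy_pos j
    have h7 := mul_le_mul_of_nonneg_right (le_max_right (At * (1 + K0 c L))
      (Afin n c L b b' Cp K cN j0)) (by positivity : 0 ≤ D j * dy j ^ 2 * dy j ^ n)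
    calc Afin n c L b b' Cp K cN j0 * (SJ b' ph j +
          (μ.restrict (ball x 12)).real (Ht F L c1 j) + dy j ^ b') * dy j ^ 2 * dy j ^ n
        = Afin n c L b b' Cp K cN j0 * (D j * dy j ^ 2 * dy j ^ n) := by
          simp only [hD]
          ring
      _ ≤ _ := h7
      _ = _ := by ring

end Crest.Agent.R247.Fin508
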