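import Crest.Agent.R247.Lx5_149
import Crest.Agent.R247.Far1_553
import Crest.Agent.R247.FarAsm3_196

/-!
# `NNP n c` and the changed `CEP` from `Lx4_149`, `Lx5_149`
-/

set_option autoImplicit false
set_option linter.unusedSectionVars false
open MeasureTheory Set Filter Topology Metric
open scoped ENNReal NNReal

noncomputable section
namespace Crest.Agent.R247.LX149

universe u

open Crest.Agent.R247.Mcp688 Crest.Agent.R247.Far553 Crest.Agent.R247.Pair438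

/-- **`NNP`** (literal interface of `FarAsm3_196`) -/
theorem nnp (n : ℕ) (c : FarK) : FarAsm196.NNP.{u} n c := by
  obtain ⟨K, ε, K2, c', hK, hε, hK2, hc', h⟩ := NN_of_good.{u} c n
  refine ⟨K, ε, K2, c', 4, hK, hε, hK2, hc', ?_⟩
  intro κ hκ hκ1 X _ _ _ _ μ _ C x δ ph F hδ0 hδ
  filter_upwards [h κ X μ C x δ ph F hκ hκ1 (by linarith) hδ] with v hv hv1 hv12 j hj hgood k hk
    τ hτ K1 _ b hb
  exact hv hv1 hv12 j hj hgood k hk τ hτ K1 b hb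

/-- the changed form of `CEP` -/
def CEP' (n : ℕ) (c : FarK) : Prop :=
  ∃ K ε : ℝ, 1 ≤ K ∧ 0 < ε ∧
  ∀ {κ : ℝ} {X : Type u} [MetricSpace X] [MeasurableSpace X] [BorelSpace X] [ProperSpace X]
    {μ : Measure X} [IsFiniteMeasureOnCompacts μ] (C : Rad n κ X μ) (x : X) (δ : ℝ) (ph : ℕ → ℝ)
    (D : FarD c C x δ ph), 0 ≤ κ → κ * 1600 ≤ 1 → -1 ≤ δ → δ ≤ 1 / 2 →
  ∀ᵐ v ∂μ, dist x v ≤ 11 → ∀ r L : ℝ, 0 < L → c.N0 * L ≤ r →
    c.N0 * L ≤ dist x v - r → ∀ k0, 5 ≤ k0 →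
    (∀ k, k0 ≤ k → ∫⁻ τ in Icc (r - 4 * L) r,
      loc μ n K (dy k) (fun z => D.H k z + D.g k z) (ray C x v τ) ≤ ENNReal.ofReal (ε * r)) →
    ∀ k, k0 ≤ k → ∃ S, MeasurableSet S ∧ S ⊆ ball (ray C x v r) (dy k) ∧
      ENNReal.ofReal (9 / 10) * μ (ball (ray C x v r) (dy k)) ≤ μ S ∧
      ∀ y ∈ S, (x, y) ∈ C.U ∧ ∀ t ∈ Icc (1 - 4 * L / r) 1,
        dist (C.T x t y) (C.T x t (ray C x v r)) ≤ 2 * dy k

theorem cep' (n : ℕ) (c : FarK) : CEP'.{u} n c := by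
  obtain ⟨K, ε, hK, hε, h⟩ := ce_short.{u} c n
  refine ⟨K, ε, hK, hε, ?_⟩
  intro κ X _ _ _ _ μ _ C x δ ph D hκ hκ1 hδ0 hδ
  filter_upwards [h κ X μ C x δ ph D hκ (by linarith) hδ0 hδ] with v hv hv11 r L hL h1 h2 k0 hk0
    hloc k hk
  obtain ⟨S, hS1, hS2, hS3, hS4⟩ := hv hv11 r L hL h1 h2 k0 hk0 hloc k hk
  refine ⟨S, hS1, hS2, hS3, fun y hy => ⟨(hS4 y hy).1, fun t ht => ?_⟩⟩
  refine ((hS4 y hy).2 t ht).trans ?_
  have h3 := dy_pos k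
  have h4 : t ≤ 1 := ht.2
  nlinarith

end Crest.Agent.R247.LX149
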