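import Mathlib

/-!
# R247, block (1), leaf (1-E): the excess inequalities (3a), (3b), (3b'), (3c) of doc 1392

Everything is derived from the mean value inequality `MVH` for the nonnegative functions
`y ↦ dist p y + dist y q - c`.
-/

set_option autoImplicit false
set_option linter.unusedSectionVars false
open MeasureTheory Set Filter Topology Metric
open scoped ENNReal NNReal

noncomputable section
namespace Crest.Agent.R247.Exc853

variable {X : Type*} [MetricSpace X] [MeasurableSpace X] [BorelSpace X] {μ : Measure X}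

/-- The excess `E(y) = |y| + d(y,w) - |w|`, `|·| = dist x ·`. -/
def Exc (x w y : X) : ℝ := dist x y + dist y w - dist x w

/-- Mean value inequality for the functions `y ↦ ∑ dist (p i) y - c ≥ 0`, centres in `S`,
radii `≤ R`. -/
def MVH (μ : Measure X) (S : Set X) (R K A : ℝ) : Prop :=
  ∀ (k : ℕ) (p : Fin k → X) (b : X) (c r : ℝ), (∀ i, p i ∈ S) → b ∈ S → 0 < r → r ≤ R →
    (∀ i, 4 * r ≤ dist (p i) b) → (∀ y, c ≤ ∑ i, dist (p i) y) →
    ⨍ y in ball b r, (∑ i, dist (p i) y - c) ∂μ ≤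
      K * ((∑ i, dist (p i) b - c) + A * r ^ 2 * ∑ i, (dist (p i) b)⁻¹)

/-- `MVH` for two points. -/
lemma MVH.two {S : Set X} {R K A : ℝ} (h : MVH μ S R K A) {p q b : X} {c r : ℝ} (hp : p ∈ S)
    (hq : q ∈ S) (hb : b ∈ S) (hr : 0 < r) (hrR : r ≤ R) (hpb : 4 * r ≤ dist p b)
    (hqb : 4 * r ≤ dist b q) (hc : ∀ y, c ≤ dist p y + dist y q) :
    ⨍ y in ball b r, (dist p y + dist y q - c) ∂μ ≤
      K * ((dist p b + dist b q - c) + A * r ^ 2 * ((dist p b)⁻¹ + (dist b q)⁻¹)) := by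
  have := h 2 ![p, q] b c r (by intro i; fin_cases i <;> simpa) hb hr hrR
    (by intro i; fin_cases i <;> simp [dist_comm q b, hpb, hqb])
    (by intro y; simpa [Fin.sum_univ_two, dist_comm q y] using hc y)
  simpa [Fin.sum_univ_two, dist_comm q] using this

/-- `MVH` for four points. -/
lemma MVH.four {S : Set X} {R K A : ℝ} (h : MVH μ S R K A) {p q u v b : X} {c r : ℝ} (hp : p ∈ S)
    (hq : q ∈ S) (hu : u ∈ S) (hv : v ∈ S) (hb : b ∈ S) (hr : 0 < r) (hrR : r ≤ R)
    (hpb : 4 * r ≤ dist p b) (hqb : 4 * r ≤ dist b q) (hub : 4 * r ≤ dist u b)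
    (hvb : 4 * r ≤ dist b v) (hc : ∀ y, c ≤ dist p y + dist y q + dist u y + dist y v) :
    ⨍ y in ball b r, (dist p y + dist y q + dist u y + dist y v - c) ∂μ ≤
      K * ((dist p b + dist b q + dist u b + dist b v - c) +
        A * r ^ 2 * ((dist p b)⁻¹ + (dist b q)⁻¹ + (dist u b)⁻¹ + (dist b v)⁻¹)) := by
  have := h 4 ![p, q, u, v] b c r (by intro i; fin_cases i <;> simpa) hb hr hrR
    (by intro i; fin_cases i <;> simp [dist_comm q b, dist_comm v b, hpb, hqb, hub, hvb])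
    (by intro y; simpa [Fin.sum_univ_four, dist_comm q y, dist_comm v y] using hc y)
  simpa [Fin.sum_univ_four, dist_comm q, dist_comm v] using this

lemma Exc_nonneg (x w y : X) : 0 ≤ Exc x w y := by
  unfold Exc; linarith [dist_triangle x y w]

lemma Exc_anti {x w b b' : X} (h : dist b b' + dist b' w = dist b w) :
    Exc x w b' ≤ Exc x w b := by
  unfold Exc; linarith [dist_triangle x b b']

lemma abs_Exc_sub_le (x w y g : X) : |Exc x w y - Exc x w g| ≤ 2 * dist y g := by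
  unfold Exc
  have h1 := abs_dist_sub_le y g x
  have h2 := abs_dist_sub_le y g w
  rw [dist_comm y x, dist_comm g x] at h1
  rw [abs_le] at h1 h2 ⊢
  constructor <;> linarith [h1.1, h1.2, h2.1, h2.2]

lemma Exc_le_of_zero {x w g : X} (h : Exc x w g = 0) (y : X) : Exc x w y ≤ 2 * dist y g := by
  have := abs_Exc_sub_le x w y g
  rw [h, sub_zero] at this
  exact (le_abs_self _).trans this

lemma continuous_Exc (x w : X) : Continuous (Exc x w) := by unfold Exc; fun_prop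

/-! ### averages -/

/-- Balls have positive and finite measure. -/
def Bpf (μ : Measure X) : Prop := ∀ (b : X) (r : ℝ), 0 < r → μ (ball b r) ≠ 0 ∧ μ (ball b r) ≠ ∞

lemma integrableOn_of_lip (hB : Bpf μ) (b : X) {r : ℝ} (hr : 0 < r) {f : X → ℝ} {K : ℝ≥0}
    (hf : LipschitzWith K f) : IntegrableOn f (ball b r) μ := by
  refine IntegrableOn.of_bound (lt_top_iff_ne_top.2 (hB b r hr).2)
    hf.continuous.aestronglyMeasurable (|f b| + K * r) ?_
  refine (ae_restrict_iff' measurableSet_ball).2 (Eventually.of_forall fun y hy => ?_)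
  have h1 := hf.dist_le_mul y b
  rw [Real.dist_eq] at h1
  have h2 : |f y| ≤ |f b| + |f y - f b| := by
    have := abs_add_le (f b) (f y - f b)
    simpa using this
  rw [Real.norm_eq_abs]
  have h3 : (K : ℝ) * dist y b ≤ K * r :=
    mul_le_mul_of_nonneg_left (mem_ball.1 hy).le K.2
  linarith

lemma average_const' (hB : Bpf μ) (b : X) {r : ℝ} (hr : 0 < r) (c : ℝ) :
    ⨍ _y in ball b r, c ∂μ = c := by
  rw [setAverage_const (hB b r hr).1 (hB b r hr).2]

lemma average_mono' (b : X) {r : ℝ} {f g : X → ℝ}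
    (hf : IntegrableOn f (ball b r) μ) (hg : IntegrableOn g (ball b r) μ)
    (h : ∀ y ∈ ball b r, f y ≤ g y) : ⨍ y in ball b r, f y ∂μ ≤ ⨍ y in ball b r, g y ∂μ := by
  rw [setAverage_eq, setAverage_eq]
  refine smul_le_smul_of_nonneg_left ?_ (by positivity)
  exact setIntegral_mono_on hf hg measurableSet_ball h

lemma average_add' (b : X) {r : ℝ} {f g : X → ℝ}
    (hf : IntegrableOn f (ball b r) μ) (hg : IntegrableOn g (ball b r) μ) :
    ⨍ y in ball b r, (f y + g y) ∂μ = ⨍ y in ball b r, f y ∂μ + ⨍ y in ball b r, g y ∂μ := by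
  rw [setAverage_eq, setAverage_eq, setAverage_eq, integral_add hf hg, smul_add]

lemma average_sub' (b : X) {r : ℝ} {f g : X → ℝ}
    (hf : IntegrableOn f (ball b r) μ) (hg : IntegrableOn g (ball b r) μ) :
    ⨍ y in ball b r, (f y - g y) ∂μ = ⨍ y in ball b r, f y ∂μ - ⨍ y in ball b r, g y ∂μ := by
  rw [setAverage_eq, setAverage_eq, setAverage_eq, integral_sub hf hg, smul_sub]

lemma average_const_mul' (b : X) {r : ℝ} (c : ℝ) (f : X → ℝ) :
    ⨍ y in ball b r, (c * f y) ∂μ = c * ⨍ y in ball b r, f y ∂μ := by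
  rw [setAverage_eq, setAverage_eq, integral_const_mul, smul_eq_mul, smul_eq_mul]; ring

lemma average_nonneg' (b : X) {r : ℝ} {f : X → ℝ} (h : ∀ y, 0 ≤ f y) :
    0 ≤ ⨍ y in ball b r, f y ∂μ := by
  rw [setAverage_eq]
  exact smul_nonneg (by positivity) (integral_nonneg h)

lemma lip_two (p q : X) (c : ℝ) : LipschitzWith 2 (fun y => dist p y + dist y q - c) := by
  have h : LipschitzWith (1 + 1) (fun y => dist p y + dist y q) :=
    (LipschitzWith.dist_right p).add (LipschitzWith.dist_left q)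
  refine LipschitzWith.of_dist_le_mul fun y z => ?_
  have := h.dist_le_mul y z
  rw [Real.dist_eq] at this ⊢
  norm_num at this ⊢
  simpa using this

lemma lip_Exc (x w : X) : LipschitzWith 2 (Exc x w) := lip_two x w (dist x w)

/-- comparison of averages on two balls of comparable measure -/
lemma average_le_of_subset (hB : Bpf μ) {b g : X} {r s : ℝ} (hr : 0 < r) (hs : 0 < s)
    (hsub : ball b r ⊆ ball g s) {Cd : ℝ} (hCd : μ.real (ball g s) ≤ Cd * μ.real (ball b r))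
    {f : X → ℝ} (h0 : ∀ y, 0 ≤ f y) (hf : IntegrableOn f (ball g s) μ) :
    ⨍ y in ball b r, f y ∂μ ≤ Cd * ⨍ y in ball g s, f y ∂μ := by
  have hb : 0 < μ.real (ball b r) := ENNReal.toReal_pos (hB b r hr).1 (hB b r hr).2
  have hg : 0 < μ.real (ball g s) := ENNReal.toReal_pos (hB g s hs).1 (hB g s hs).2
  rw [setAverage_eq, setAverage_eq, smul_eq_mul, smul_eq_mul]
  have h1 : ∫ y in ball b r, f y ∂μ ≤ ∫ y in ball g s, f y ∂μ :=
    setIntegral_mono_set hf (Eventually.of_forall fun y => h0 y) hsub.eventuallyLE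
  have h2 : 0 ≤ ∫ y in ball g s, f y ∂μ := integral_nonneg h0
  have h3 : (μ.real (ball b r))⁻¹ ≤ Cd * (μ.real (ball g s))⁻¹ := by
    rw [inv_le_iff_one_le_mul₀ hb]
    have : μ.real (ball g s) * (μ.real (ball g s))⁻¹ ≤
        Cd * μ.real (ball b r) * (μ.real (ball g s))⁻¹ :=
      mul_le_mul_of_nonneg_right hCd (by positivity)
    rw [mul_inv_cancel₀ hg.ne'] at this
    linarith
  calc (μ.real (ball b r))⁻¹ * ∫ y in ball b r, f y ∂μ
      ≤ (μ.real (ball b r))⁻¹ * ∫ y in ball g s, f y ∂μ := by gcongr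
    _ ≤ (Cd * (μ.real (ball g s))⁻¹) * ∫ y in ball g s, f y ∂μ := by gcongr
    _ = _ := by ring

/-! ### (3a) -/

/-- pointwise form of (3a) -/
lemma exc_next_pt {x w b₀ b₂ : X} (h02w : dist b₀ b₂ + dist b₂ w = dist b₀ w) (y : X) :
    Exc x w b₂ ≤ Exc x w y + (dist b₀ y + dist y b₂ - dist b₀ b₂) := by
  unfold Exc
  linarith [dist_triangle x y b₂, dist_triangle b₀ y w]

/-- **(3a)** the excess at the next point is bounded by the average at the previous one:
`b₀, b₁, b₂, w` aligned. -/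
theorem exc_next_le (hB : Bpf μ) {S : Set X} {R K A : ℝ} (hMV : MVH μ S R K A)
    {x w b₀ b₁ b₂ : X} {r : ℝ} (hS₀ : b₀ ∈ S) (hS₁ : b₁ ∈ S) (hS₂ : b₂ ∈ S) (hr : 0 < r)
    (hrR : r ≤ R) (h01 : 4 * r ≤ dist b₀ b₁) (h12 : 4 * r ≤ dist b₁ b₂)
    (h012 : dist b₀ b₁ + dist b₁ b₂ = dist b₀ b₂) (h02w : dist b₀ b₂ + dist b₂ w = dist b₀ w) :
    Exc x w b₂ ≤ ⨍ y in ball b₁ r, Exc x w y ∂μ +
      K * (A * r ^ 2 * ((dist b₀ b₁)⁻¹ + (dist b₁ b₂)⁻¹)) := by
  have hV := hMV.two (c := dist b₀ b₂) hS₀ hS₂ hS₁ hr hrR h01 h12 (fun y => dist_triangle _ _ _)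
  rw [h012, sub_self, zero_add] at hV
  have hi1 : IntegrableOn (Exc x w) (ball b₁ r) μ := integrableOn_of_lip hB b₁ hr (lip_Exc x w)
  have hi2 : IntegrableOn (fun y => dist b₀ y + dist y b₂ - dist b₀ b₂) (ball b₁ r) μ :=
    integrableOn_of_lip hB b₁ hr (lip_two _ _ _)
  have h1 : ⨍ _y in ball b₁ r, Exc x w b₂ ∂μ ≤
      ⨍ y in ball b₁ r, (Exc x w y + (dist b₀ y + dist y b₂ - dist b₀ b₂)) ∂μ :=
    average_mono' b₁ (integrableOn_const (hB b₁ r hr).2) (hi1.add hi2)
      fun y _ => exc_next_pt h02w y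
  rw [average_const' hB b₁ hr, average_add' b₁ hi1 hi2] at h1
  linarith

/-! ### (3b) -/

/-- The averaged excess `E[|zz| + d(zz,y) - |y|]`, `zz` uniform in `B_ρ(b)`, `y` uniform in
`B_ρ(b')`. -/
def xbar (μ : Measure X) (x b b' : X) (ρ : ℝ) : ℝ :=
  ⨍ zz in ball b ρ, (⨍ y in ball b' ρ, (dist x zz + dist zz y - dist x y) ∂μ) ∂μ

lemma xbar_nonneg (x b b' : X) (ρ : ℝ) : 0 ≤ xbar μ x b b' ρ :=
  average_nonneg' b fun zz => average_nonneg' b' fun y => by
    linarith [dist_triangle x zz y]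

/-- A function `zz ↦ ⨍ F(zz,·)` is Lipschitz if all the `F(·,y)` are. -/
lemma lip_average (hB : Bpf μ) (b' : X) {ρ : ℝ} (hρ : 0 < ρ) {F : X → X → ℝ} {K : ℝ≥0}
    (hF : ∀ y, LipschitzWith K (fun zz => F zz y))
    (hi : ∀ zz, IntegrableOn (F zz) (ball b' ρ) μ) :
    LipschitzWith K (fun zz : X => ⨍ y in ball b' ρ, F zz y ∂μ) := by
  refine LipschitzWith.of_le_add_mul K fun z z' => ?_
  have h1 : ⨍ y in ball b' ρ, F z y ∂μ ≤ ⨍ y in ball b' ρ, (F z' y + K * dist z z') ∂μ := by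
    refine average_mono' b' (hi z)
      ((hi z').add (integrableOn_const (hB b' ρ hρ).2)) fun y _ => ?_
    have := (hF y).dist_le_mul z z'
    rw [Real.dist_eq] at this
    linarith [le_abs_self (F z y - F z' y)]
  rwa [average_add' b' (hi z') (integrableOn_const (hB b' ρ hρ).2), average_const' hB b' hρ] at h1

lemma lip_F (x y : X) : LipschitzWith 2 (fun zz => dist x zz + dist zz y - dist x y) :=
  lip_two x y _

lemma int_F (hB : Bpf μ) (x zz b' : X) {ρ : ℝ} (hρ : 0 < ρ) :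
    IntegrableOn (fun y => dist x zz + dist zz y - dist x y) (ball b' ρ) μ := by
  refine integrableOn_of_lip (K := 2) hB b' hρ ?_
  refine LipschitzWith.of_le_add_mul _ fun y z => ?_
  have h1 := dist_triangle zz z y
  have h2 := dist_triangle x y z
  rw [dist_comm z y] at h1
  norm_num
  linarith

/-- `xbar` is at most the outer average of a bound `G` of the inner averages. -/
lemma xbar_le_of_inner (hB : Bpf μ) {x b b' : X} {ρ : ℝ} (hρ : 0 < ρ) {G : X → ℝ}
    (hG : IntegrableOn G (ball b ρ) μ)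
    (h : ∀ zz ∈ ball b ρ, ⨍ y in ball b' ρ, (dist x zz + dist zz y - dist x y) ∂μ ≤ G zz) :
    xbar μ x b b' ρ ≤ ⨍ zz in ball b ρ, G zz ∂μ :=
  average_mono' b (integrableOn_of_lip hB b hρ (lip_average hB b' hρ (lip_F x)
    (fun zz => int_F hB x zz b' hρ))) hG h

lemma dist_ball_ge {b b' zz : X} {ρ L : ℝ} (h8 : 8 * ρ ≤ L) (hbb : L ≤ dist b b')
    (hzz : zz ∈ ball b ρ) (hρ : 0 < ρ) : L / 2 ≤ dist zz b' := by
  have hz : dist zz b < ρ := mem_ball.1 hzz
  have := dist_triangle b zz b'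
  rw [dist_comm b zz] at this
  linarith

/-- the outer average for (3b), (3b') -/
lemma outer_le (hB : Bpf μ) {S : Set X} {R K A L : ℝ} (hK : 1 ≤ K) (hA : 0 ≤ A)
    (hMV : MVH μ S R K A) {x b b' : X} {ρ c e : ℝ} (hx : x ∈ S) (hbS : b ∈ S)
    (hb' : b' ∈ S) (hρ : 0 < ρ) (hρR : ρ ≤ R) (h8 : 8 * ρ ≤ L) (hxb : L ≤ dist x b)
    (hbb : L ≤ dist b b') (hc : c ≤ dist x b') :
    ⨍ zz in ball b ρ, (K * ((dist x zz + dist zz b' - c) + e)) ∂μ ≤
      K ^ 2 * (dist x b + dist b b' - c) + K * e + 2 * K ^ 2 * A * ρ ^ 2 / L := by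
  have hL : 0 < L := by linarith
  have hi3 : IntegrableOn (fun zz => dist x zz + dist zz b' - c) (ball b ρ) μ :=
    integrableOn_of_lip hB b hρ (lip_two x b' c)
  have hc2 : IntegrableOn (fun _ : X => e) (ball b ρ) μ := integrableOn_const (hB b ρ hρ).2
  have hout := hMV.two (c := c) hx hb' hbS hρ hρR (by linarith) (by linarith) (fun y => by
    linarith [dist_triangle x y b'])
  rw [average_const_mul', average_add' b hi3 hc2, average_const' hB b hρ]
  have i1 : (dist x b)⁻¹ ≤ L⁻¹ := inv_anti₀ hL hxb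
  have i2 : (dist b b')⁻¹ ≤ L⁻¹ := inv_anti₀ hL hbb
  have h1 : A * ρ ^ 2 * ((dist x b)⁻¹ + (dist b b')⁻¹) ≤ A * ρ ^ 2 * (L⁻¹ + L⁻¹) := by gcongr
  have hK0 : 0 ≤ K := by linarith
  have h2 : K * (⨍ zz in ball b ρ, (dist x zz + dist zz b' - c) ∂μ + e) ≤
      K * (K * ((dist x b + dist b b' - c) + A * ρ ^ 2 * (L⁻¹ + L⁻¹)) + e) := by
    refine mul_le_mul_of_nonneg_left ?_ hK0
    have := mul_le_mul_of_nonneg_left (add_le_add_right h1 (dist x b + dist b b' - c)) hK0
    linarith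
  refine h2.trans (le_of_eq ?_)
  ring

/-- **(3b)**: `b, b', b'', w` aligned. -/
theorem xbar_le (hB : Bpf μ) {S : Set X} {R K A L : ℝ} (hK : 1 ≤ K) (hA : 0 ≤ A)
    (hMV : MVH μ S R K A) {x w b b' b'' : X} {ρ : ℝ} (hx : x ∈ S) (hw : w ∈ S)
    (hbS : ball b ρ ⊆ S) (hb' : b' ∈ S) (hb'' : b'' ∈ S) (hρ : 0 < ρ) (hρR : ρ ≤ R)
    (h8 : 8 * ρ ≤ L) (hxb : L ≤ dist x b) (hbb : L ≤ dist b b') (hbw : L ≤ dist b' w)
    (hbc : L ≤ dist b' b'') (h1 : dist b b' + dist b' b'' = dist b b'')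
    (h2 : dist b b'' + dist b'' w = dist b w) :
    xbar μ x b b' ρ ≤ K ^ 2 * (Exc x w b - Exc x w b'') + 7 * K ^ 2 * A * ρ ^ 2 / L := by
  have hL : 0 < L := by linarith
  have hb : b ∈ S := hbS (mem_ball_self hρ)
  have hK0 : 0 ≤ K := by linarith
  have h3 : dist b' b'' + dist b'' w = dist b' w := by
    have := dist_triangle b b' w
    have := dist_triangle b' b'' w
    linarith
  have h4 : dist b b' + dist b' w = dist b w := by linarith
  set e : ℝ := A * ρ ^ 2 * (5 / L) with he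
  set c : ℝ := dist x w - dist b' w + Exc x w b'' with hc
  have hcx : c ≤ dist x b' := by
    have := Exc_anti (x := x) h3
    have h5 : Exc x w b' = dist x b' + dist b' w - dist x w := rfl
    linarith
  have hin : ∀ zz ∈ ball b ρ, ⨍ y in ball b' ρ, (dist x zz + dist zz y - dist x y) ∂μ ≤
      K * ((dist x zz + dist zz b' - c) + e) := by
    intro zz hzz
    have hz2 : L / 2 ≤ dist zz b' := dist_ball_ge h8 hbb hzz hρ
    set c' : ℝ := dist x w - dist x zz + Exc x w b'' + dist b b'' with hc'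
    have hpt : ∀ y, dist x zz + dist zz y - dist x y ≤
        dist zz y + dist y w + dist b y + dist y b'' - c' := by
      intro y
      have h6 := exc_next_pt (x := x) h2 y
      have h7 : Exc x w y = dist x y + dist y w - dist x w := rfl
      linarith
    have hmv := hMV.four (c := c') (hbS hzz) hw hb hb'' hb' hρ hρR (by linarith) (by linarith)
      (by linarith) (by linarith) (fun y => by linarith [hpt y, dist_triangle x zz y])
    have hi4 : IntegrableOn (fun y => dist zz y + dist y w + dist b y + dist y b'' - c')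
        (ball b' ρ) μ := by
      have := (integrableOn_of_lip hB b' hρ (lip_two zz w 0)).add
        (integrableOn_of_lip hB b' hρ (lip_two b b'' c'))
      refine this.congr (Eventually.of_forall fun y => ?_)
      simp only [Pi.add_apply]; ring
    have hle := average_mono' b' (int_F hB x zz b' hρ) hi4 fun y _ => hpt y
    refine hle.trans (hmv.trans (mul_le_mul_of_nonneg_left ?_ hK0))
    have i1 : (dist zz b')⁻¹ ≤ 2 * L⁻¹ := by
      have := inv_anti₀ (by linarith : 0 < L / 2) hz2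
      rwa [inv_div, div_eq_mul_inv] at this
    have i2 : (dist b' w)⁻¹ ≤ L⁻¹ := inv_anti₀ hL hbw
    have i3 : (dist b b')⁻¹ ≤ L⁻¹ := inv_anti₀ hL hbb
    have i4 : (dist b' b'')⁻¹ ≤ L⁻¹ := inv_anti₀ hL hbc
    have h5 : A * ρ ^ 2 * ((dist zz b')⁻¹ + (dist b' w)⁻¹ + (dist b b')⁻¹ + (dist b' b'')⁻¹) ≤
        e := by
      rw [he, div_eq_mul_inv]
      refine mul_le_mul_of_nonneg_left ?_ (by positivity)
      linarith
    linarith
  have hG : IntegrableOn (fun zz => K * ((dist x zz + dist zz b' - c) + e)) (ball b ρ) μ := by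
    have := ((integrableOn_of_lip hB b hρ (lip_two x b' c)).add
      (integrableOn_const (C := e) (hB b ρ hρ).2)).const_mul K
    exact this
  have hout := outer_le (e := e) hB hK hA hMV hx hb hb' hρ hρR h8 hxb hbb hcx
  refine (xbar_le_of_inner hB hρ hG hin).trans (hout.trans ?_)
  have e1 : dist x b + dist b b' - c = Exc x w b - Exc x w b'' := by
    have h5 : Exc x w b = dist x b + dist b w - dist x w := rfl
    linarith
  rw [e1]
  have h6 : K * e ≤ K ^ 2 * e := by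
    have : 0 ≤ e := by positivity
    nlinarith [mul_nonneg (mul_nonneg hK0 this) (by linarith : (0:ℝ) ≤ K - 1)]
  have h7 : K ^ 2 * e + 2 * K ^ 2 * A * ρ ^ 2 / L = 7 * K ^ 2 * A * ρ ^ 2 / L := by
    rw [he]; ring
  linarith

/-- **(3b')**, the last step `b' = w`, with `w'` beyond `w` on the ray from `x`. -/
theorem xbar_last_le (hB : Bpf μ) {S : Set X} {R K A L : ℝ} (hK : 1 ≤ K) (hA : 0 ≤ A)
    (hMV : MVH μ S R K A) {x w w' b : X} {ρ : ℝ} (hx : x ∈ S) (hw : w ∈ S) (hw'S : w' ∈ S)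
    (hbS : ball b ρ ⊆ S) (hρ : 0 < ρ) (hρR : ρ ≤ R) (h8 : 8 * ρ ≤ L) (hxb : L ≤ dist x b)
    (hbb : L ≤ dist b w) (hww : L ≤ dist w w') (hw' : dist x w + dist w w' = dist x w') :
    xbar μ x b w ρ ≤ K ^ 2 * Exc x w b + 5 * K ^ 2 * A * ρ ^ 2 / L := by
  have hL : 0 < L := by linarith
  have hb : b ∈ S := hbS (mem_ball_self hρ)
  have hK0 : 0 ≤ K := by linarith
  set e : ℝ := A * ρ ^ 2 * (3 / L) with he
  have hin : ∀ zz ∈ ball b ρ, ⨍ y in ball w ρ, (dist x zz + dist zz y - dist x y) ∂μ ≤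
      K * ((dist x zz + dist zz w - dist x w) + e) := by
    intro zz hzz
    have hz2 : L / 2 ≤ dist zz w := dist_ball_ge h8 hbb hzz hρ
    have hpt : ∀ y, dist x zz + dist zz y - dist x y ≤
        dist zz y + dist y w' - (dist x w' - dist x zz) := by
      intro y
      linarith [dist_triangle x y w']
    have hmv := hMV.two (c := dist x w' - dist x zz) (hbS hzz) hw'S hw hρ hρR (by linarith)
      (by linarith) (fun y => by linarith [hpt y, dist_triangle x zz y])
    have hle := average_mono' w (int_F hB x zz w hρ)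
      (integrableOn_of_lip hB w hρ (lip_two zz w' (dist x w' - dist x zz))) fun y _ => hpt y
    refine hle.trans (hmv.trans (mul_le_mul_of_nonneg_left ?_ hK0))
    have i1 : (dist zz w)⁻¹ ≤ 2 * L⁻¹ := by
      have := inv_anti₀ (by linarith : 0 < L / 2) hz2
      rwa [inv_div, div_eq_mul_inv] at this
    have i2 : (dist w w')⁻¹ ≤ L⁻¹ := inv_anti₀ hL hww
    have h5 : A * ρ ^ 2 * ((dist zz w)⁻¹ + (dist w w')⁻¹) ≤ e := by
      rw [he, div_eq_mul_inv]
      refine mul_le_mul_of_nonneg_left ?_ (by positivity)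
      linarith
    linarith
  have hG : IntegrableOn (fun zz => K * ((dist x zz + dist zz w - dist x w) + e)) (ball b ρ) μ := by
    have := ((integrableOn_of_lip hB b hρ (lip_two x w (dist x w))).add
      (integrableOn_const (C := e) (hB b ρ hρ).2)).const_mul K
    exact this
  have hout := outer_le (e := e) hB hK hA hMV hx hb hw hρ hρR h8 hxb hbb le_rfl
  refine (xbar_le_of_inner hB hρ hG hin).trans (hout.trans ?_)
  have e1 : dist x b + dist b w - dist x w = Exc x w b := rfl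
  rw [e1]
  have h6 : K * e ≤ K ^ 2 * e := by
    have : 0 ≤ e := by positivity
    nlinarith [mul_nonneg (mul_nonneg hK0 this) (by linarith : (0:ℝ) ≤ K - 1)]
  have h7 : K ^ 2 * e + 2 * K ^ 2 * A * ρ ^ 2 / L = 5 * K ^ 2 * A * ρ ^ 2 / L := by
    rw [he]; ring
  linarith

/-! ### (3c) -/

/-- **(3c)** `E(b₂) ≤ C_U D²/L`, `D = d(b₁, g)`, `g` a point with `E(g) = 0`. -/
theorem exc_next_le_sq (hB : Bpf μ) {S : Set X} {R K A Cd L : ℝ} (hK : 0 ≤ K)
    (hA : 0 ≤ A) (hCd : 0 ≤ Cd) (hMV : MVH μ S R K A) {x w b₀ b₁ b₂ g : X} (hx : x ∈ S)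
    (hw : w ∈ S) (hS₀ : b₀ ∈ S) (hS₁ : b₁ ∈ S) (hS₂ : b₂ ∈ S) (hSg : g ∈ S)
    (hL : 0 < L) (hLR : L ≤ R)
    (hdb : ∀ r, 0 < r → r ≤ L → μ.real (ball g (2 * r)) ≤ Cd * μ.real (ball b₁ r))
    (h01 : L ≤ dist b₀ b₁) (h12 : L ≤ dist b₁ b₂) (hxg : L ≤ dist x g) (hgw : L ≤ dist g w)
    (h012 : dist b₀ b₁ + dist b₁ b₂ = dist b₀ b₂) (h02w : dist b₀ b₂ + dist b₂ w = dist b₀ w)
    (hg : Exc x w g = 0) :
    Exc x w b₂ ≤ (8 * Cd * K * A + 2 * K * A + 16) * (dist b₁ g ^ 2 / L) := by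
  have h12w : dist b₁ b₂ + dist b₂ w = dist b₁ w := by
    have := dist_triangle b₀ b₁ w
    have := dist_triangle b₁ b₂ w
    linarith
  set D := dist b₁ g with hD
  have hE21 : Exc x w b₂ ≤ Exc x w b₁ := Exc_anti h12w
  have hE1 : Exc x w b₁ ≤ 2 * D := Exc_le_of_zero hg b₁
  have hD0 : 0 ≤ D := dist_nonneg
  rcases le_or_gt D (L / 8) with hs | hs
  · rcases hD0.eq_or_lt with h0 | h0
    · rw [← h0] at hE1
      have : 0 ≤ (8 * Cd * K * A + 2 * K * A + 16) * (D ^ 2 / L) := by positivity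
      linarith
    · have h3a := exc_next_le (x := x) (w := w) hB hMV hS₀ hS₁ hS₂ h0 (by linarith : D ≤ R)
        (by linarith) (by linarith) h012 h02w
      have hmv := hMV.two (c := dist x w) (r := 2 * D) hx hw hSg (by linarith) (by linarith)
        (by linarith) (by linarith) (fun y => dist_triangle _ _ _)
      have hsub : ball b₁ D ⊆ ball g (2 * D) := ball_subset_ball' (by rw [← hD]; linarith)
      have hav : ⨍ y in ball b₁ D, Exc x w y ∂μ ≤ Cd * ⨍ y in ball g (2 * D), Exc x w y ∂μ :=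
        average_le_of_subset hB h0 (by linarith) hsub (hdb D h0 (by linarith)) (Exc_nonneg x w)
          (integrableOn_of_lip hB g (by linarith) (lip_Exc x w))
      have hg' : dist x g + dist g w - dist x w = 0 := hg
      rw [hg', zero_add] at hmv
      have hmv' : ⨍ y in ball g (2 * D), Exc x w y ∂μ ≤ 8 * K * A * (D ^ 2 / L) := by
        refine hmv.trans ?_
        have i1 : (dist x g)⁻¹ ≤ L⁻¹ := inv_anti₀ hL hxg
        have i2 : (dist g w)⁻¹ ≤ L⁻¹ := inv_anti₀ hL hgw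
        calc K * (A * (2 * D) ^ 2 * ((dist x g)⁻¹ + (dist g w)⁻¹))
            ≤ K * (A * (2 * D) ^ 2 * (L⁻¹ + L⁻¹)) := by gcongr
          _ = 8 * K * A * (D ^ 2 / L) := by ring
      have h3a' : K * (A * D ^ 2 * ((dist b₀ b₁)⁻¹ + (dist b₁ b₂)⁻¹)) ≤
          2 * K * A * (D ^ 2 / L) := by
        have i1 : (dist b₀ b₁)⁻¹ ≤ L⁻¹ := inv_anti₀ hL h01
        have i2 : (dist b₁ b₂)⁻¹ ≤ L⁻¹ := inv_anti₀ hL h12
        calc K * (A * D ^ 2 * ((dist b₀ b₁)⁻¹ + (dist b₁ b₂)⁻¹))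
            ≤ K * (A * D ^ 2 * (L⁻¹ + L⁻¹)) := by gcongr
          _ = 2 * K * A * (D ^ 2 / L) := by ring
      have hav' : Cd * ⨍ y in ball g (2 * D), Exc x w y ∂μ ≤ Cd * (8 * K * A * (D ^ 2 / L)) :=
        mul_le_mul_of_nonneg_left hmv' hCd
      have h16 : 0 ≤ D ^ 2 / L := by positivity
      calc Exc x w b₂ ≤ Cd * (8 * K * A * (D ^ 2 / L)) + 2 * K * A * (D ^ 2 / L) := by linarith
        _ ≤ (8 * Cd * K * A + 2 * K * A + 16) * (D ^ 2 / L) := by nlinarith
  · have h1 : 2 * D ≤ 16 * (D ^ 2 / L) := by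
      rw [mul_div_assoc', le_div_iff₀ hL]
      nlinarith
    have h2 : 0 ≤ (8 * Cd * K * A + 2 * K * A) * (D ^ 2 / L) := by positivity
    nlinarith

end Crest.Agent.R247.Exc853
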