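import Crest.Agent.R247.Mv3_447
import Crest.Agent.R247.Exc1_853
import Crest.Agent.R247.Far0_553

/-! # `MVH` (853's form of the mean value inequality) from `Rad`, and from `FarD` -/

set_option autoImplicit false
set_option linter.unusedSectionVars false
open MeasureTheory Set Filter Topology Metric
open scoped ENNReal NNReal

noncomputable section
namespace Crest.Agent.R247.Mv447
open Crest.Agent.R247.Mcp688 Crest.Agent.R247.Exc853 Crest.Agent.R247.Far553

variable {n : ℕ} {κ : ℝ} {X : Type*} [MetricSpace X] [MeasurableSpace X] [BorelSpace X]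
  {μ : Measure X}

lemma SubLap.zero (C : Rad n κ X μ) (b : X) (r : ℝ) : SubLap C b r 0 (fun _ => (0 : ℝ)) := by
  refine ⟨fun _ => 0, Eventually.of_forall fun z => hasDerivWithinAt_const _ _ _,
    fun g _ _ _ => ?_⟩
  simp

lemma lip_finset_sum {ι : Type*} (s : Finset ι) {V : ι → X → ℝ}
    (hL : ∀ i y z, |V i y - V i z| ≤ 1 * dist y z) (y z : X) :
    |∑ i ∈ s, V i y - ∑ i ∈ s, V i z| ≤ (s.card : ℝ) * dist y z := by
  rw [← Finset.sum_sub_distrib]
  refine (Finset.abs_sum_le_sum_abs _ _).trans ?_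
  calc ∑ i ∈ s, |V i y - V i z| ≤ ∑ _ ∈ s, dist y z :=
        Finset.sum_le_sum fun i _ => by simpa using hL i y z
    _ = _ := by rw [Finset.sum_const, nsmul_eq_mul]

lemma SubLap.finset_sum {ι : Type*} (C : Rad n κ X μ) {b : X} {r : ℝ} (hr : 0 < r)
    (hfin : μ (closedBall b r) ≠ ∞) (s : Finset ι) {A : ι → ℝ} {V : ι → X → ℝ}
    (hL : ∀ i y z, |V i y - V i z| ≤ 1 * dist y z)
    (hV : ∀ i, SubLap C b r (A i) (V i)) :
    SubLap C b r (∑ i ∈ s, A i) (fun z => ∑ i ∈ s, V i z) := by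
  classical
  induction s using Finset.induction_on with
  | empty => simpa using SubLap.zero C b r
  | insert i s hi ih =>
    rw [Finset.sum_insert hi]
    have h1 := (hV i).add ih (hL i) (lip_finset_sum s hL) hr hfin
    simpa only [Finset.sum_insert hi] using h1

/-- **853's `MVH` from `Rad`**, with constants `K` (volume comparability) and `A = 1`. -/
theorem mvh_of_rad (C : Rad n κ X μ) (hκ : 0 ≤ κ) (hn : 1 ≤ n) [SFinite μ] {S : Set X}
    {R K Ω : ℝ} (hK : 0 ≤ K) (hfin : ∀ b ∈ S, μ (closedBall b R) ≠ ∞)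
    (hsym : ∀ v b : X, RDsymm C v b)
    (hup : ∀ b ∈ S, ∀ s, 0 < s → s ≤ R → Vc μ b s ≤ Ω * s ^ n)
    (hlo : ∀ b ∈ S, ∀ s, 0 < s → s ≤ R →
      Real.exp (κ * s ^ 2 / 2) * Ω * s ^ n ≤ K * μ.real (ball b s))
    (hpos : ∀ b ∈ S, ∀ s, 0 < s → s ≤ R → 0 < μ.real (ball b s))
    (hD : ∀ p ∈ S, ∀ b ∈ S, κ * dist p b ^ 2 ≤ 1) :
    MVH μ S R K 1 := by
  intro k p b c r hp hb hr hrR hpb hc
  have hn0 : (1 : ℝ) ≤ n := by exact_mod_cast hn
  have hfinr : μ (closedBall b r) ≠ ∞ :=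
    ne_top_of_le_ne_top (hfin b hb) (measure_mono (closedBall_subset_closedBall hrR))
  have hupr : ∀ s, 0 < s → s ≤ r → Vc μ b s ≤ Ω * s ^ n :=
    fun s hs hsr => hup b hb s hs (hsr.trans hrR)
  -- the Laplacian bounds
  have hdpos : ∀ i, 0 < dist (p i) b := fun i => by
    have := hpb i
    linarith
  set A : Fin k → ℝ := fun i => 4 / 3 * n * (dist (p i) b)⁻¹ with hA
  have hlap : ∀ i, SubLap C b r (A i) (fun z => dist (p i) z) := by
    intro i
    have hd := hdpos i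
    have h4 := hpb i
    set d := dist (p i) b with hdd
    have h1 : ∀ z, dist b z ≤ r → 3 / 4 * d ≤ dist (p i) z := by
      intro z hz
      have := dist_triangle (p i) z b
      rw [dist_comm z b] at this
      linarith
    have h2 : ∀ z, dist b z ≤ r → dist (p i) z ≤ 5 / 4 * d := by
      intro z hz
      have := dist_triangle (p i) b z
      linarith
    refine (subLap_dist C hκ hn hr (by positivity) h1 h2 hfinr (hsym (p i) b)).mono ?_
    have h5 : κ * d ^ 2 ≤ 1 := hD (p i) (hp i) b hb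
    have h6 : κ * (5 / 4 * d) ≤ 5 / 4 * d⁻¹ := by
      have : κ * (5 / 4 * d) = 5 / 4 * (κ * d ^ 2) * d⁻¹ := by field_simp
      rw [this]
      have h7 : 0 ≤ d⁻¹ := (inv_pos.2 hd).le
      nlinarith [mul_le_mul_of_nonneg_right h5 h7]
    have h7 : ((n : ℝ) - 1) / (3 / 4 * d) = 4 / 3 * (n - 1) * d⁻¹ := by
      field_simp
    rw [h7]
    show 4 / 3 * (n - 1) * d⁻¹ + κ * (5 / 4 * d) ≤ 4 / 3 * n * d⁻¹
    have h8 : 0 < d⁻¹ := inv_pos.2 hd
    nlinarith
  have hL : ∀ (i : Fin k) (y z : X), |dist (p i) y - dist (p i) z| ≤ 1 * dist y z :=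
    fun i => dist_lip (p i)
  have hsum := (SubLap.finset_sum C hr hfinr Finset.univ hL hlap).sub_const c
  have hVL : ∀ y z : X, |(∑ i, dist (p i) y - c) - (∑ i, dist (p i) z - c)| ≤
      ((Finset.univ : Finset (Fin k)).card : ℝ) * dist y z := by
    intro y z
    rw [sub_sub_sub_cancel_right]
    exact lip_finset_sum Finset.univ hL y z
  have hA0 : 0 ≤ ∑ i, A i := Finset.sum_nonneg fun i _ => by
    have := (inv_pos.2 (hdpos i)).le
    positivity
  have hmv := mean_value C hκ hn (b := b) (r := r) hr hA0 hfinr hupr hVL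
    (fun z _ => by linarith [hc z]) hsum
  -- open ball versus closed ball
  have hVm : Measurable fun y : X => ∑ i, dist (p i) y - c := measurable_of_lip hVL
  have hint : IntegrableOn (fun y : X => ∑ i, dist (p i) y - c) (closedBall b r) μ := by
    refine IntegrableOn.of_bound (lt_of_le_of_ne le_top hfinr)
      hVm.aestronglyMeasurable.restrict
      (|∑ i, dist (p i) b - c| + |((Finset.univ : Finset (Fin k)).card : ℝ)| * r) ?_
    filter_upwards [ae_restrict_mem isClosed_closedBall.measurableSet] with z hz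
    rw [Real.norm_eq_abs]
    apply bound_of_lip hVL
    rwa [mem_closedBall, dist_comm] at hz
  have hle : ∫ y in ball b r, (∑ i, dist (p i) y - c) ∂μ ≤
      ∫ y in closedBall b r, (∑ i, dist (p i) y - c) ∂μ :=
    setIntegral_mono_set hint (Eventually.of_forall fun y => by
      show 0 ≤ ∑ i, dist (p i) y - c
      linarith [hc y]) (Eventually.of_forall ball_subset_closedBall)
  have hVb : 0 ≤ ∑ i, dist (p i) b - c := by linarith [hc b]
  have hpos' := hpos b hb r hr hrR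
  rw [setAverage_eq, smul_eq_mul]
  have e1 : (∑ i, A i) * r ^ 2 / (2 * n) = 2 / 3 * (r ^ 2 * ∑ i, (dist (p i) b)⁻¹) := by
    have : ∑ i, A i = 4 / 3 * n * ∑ i, (dist (p i) b)⁻¹ := by rw [Finset.mul_sum]
    rw [this]
    field_simp
    ring
  rw [e1] at hmv
  have hS0 : 0 ≤ r ^ 2 * ∑ i, (dist (p i) b)⁻¹ := by
    have : 0 ≤ ∑ i, (dist (p i) b)⁻¹ := Finset.sum_nonneg fun i _ => (inv_pos.2 (hdpos i)).le
    positivity
  set B : ℝ := ∑ i, dist (p i) b - c + 2 / 3 * (r ^ 2 * ∑ i, (dist (p i) b)⁻¹) with hB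
  have hB0 : 0 ≤ B := by positivity
  have h3 : ∫ y in ball b r, (∑ i, dist (p i) y - c) ∂μ ≤ K * μ.real (ball b r) * B := by
    refine (hle.trans hmv).trans ?_
    exact mul_le_mul_of_nonneg_right (hlo b hb r hr hrR) hB0
  calc (μ.real (ball b r))⁻¹ * ∫ y in ball b r, (∑ i, dist (p i) y - c) ∂μ
      ≤ (μ.real (ball b r))⁻¹ * (K * μ.real (ball b r) * B) :=
        mul_le_mul_of_nonneg_left h3 (inv_pos.2 hpos').le
    _ = K * B := by field_simp
    _ ≤ K * ((∑ i, dist (p i) b - c) + 1 * r ^ 2 * ∑ i, (dist (p i) b)⁻¹) := by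
        apply mul_le_mul_of_nonneg_left _ hK
        rw [one_mul, hB]
        linarith

/-! ### over `FarD` -/

section farD
variable {c : FarK} {C : Rad n κ X μ} {x : X} {δ : ℝ} {ph : ℕ → ℝ}

lemma farD_rdsymm (F : FarD c C x δ ph) (v b : X) : RDsymm C v b := by
  obtain ⟨Γ, _, h1, h2⟩ := F.sym v b
  exact ⟨Γ, h1, h2⟩

lemma farD_ball_ne_top (F : FarD c C x δ ph) {y : X} {r : ℝ} (hy : dist x y < 20) (hr : 0 < r)
    (hr20 : r ≤ 20) : μ (ball y r) ≠ ∞ :=
  ne_top_of_le_ne_top ENNReal.ofReal_ne_top (F.vol_le y r hy hr hr20)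

lemma farD_closedBall_ne_top (F : FarD c C x δ ph) {y : X} {r : ℝ} (hy : dist x y < 20)
    (hr : 0 < r) (hr20 : r < 20) : μ (closedBall y r) ≠ ∞ :=
  ne_top_of_le_ne_top (farD_ball_ne_top F hy (hr.trans hr20) le_rfl)
    (measure_mono (closedBall_subset_ball hr20))

lemma farD_real_ball_ge (F : FarD c C x δ ph) {y : X} {r : ℝ} (hy : dist x y < 20)
    (hr : 0 < r) (hr20 : r ≤ 20) : (1 - δ) * c.ω * r ^ n ≤ μ.real (ball y r) := by
  have h1 := ENNReal.toReal_mono (farD_ball_ne_top F hy hr hr20) (F.vol_ge y r hy hr hr20)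
  rw [ENNReal.toReal_ofReal'] at h1
  exact (le_max_left _ _).trans h1

lemma farD_closedBall_le (F : FarD c C x δ ph) (hδ : -1 ≤ δ) {y : X} {r : ℝ}
    (hy : dist x y < 20) (hr : 0 < r) (hr20 : r < 20) :
    μ.real (closedBall y r) ≤ (1 + δ) * c.ω * r ^ n := by
  have h0 : 0 ≤ 1 + δ := by linarith
  have h1 : ∀ᶠ s in 𝓝[>] r, μ.real (closedBall y r) ≤ (1 + δ) * c.ω * s ^ n := by
    filter_upwards [Ioo_mem_nhdsGT hr20] with s hs
    have hs0 : 0 < s := hr.trans hs.1
    have h2 := ENNReal.toReal_mono ENNReal.ofReal_ne_top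
      ((measure_mono (closedBall_subset_ball hs.1)).trans (F.vol_le y s hy hs0 hs.2.le))
    have hω := c.ω_pos
    rwa [ENNReal.toReal_ofReal (by positivity)] at h2
  have h2 : Tendsto (fun s : ℝ => (1 + δ) * c.ω * s ^ n) (𝓝[>] r)
      (𝓝 ((1 + δ) * c.ω * r ^ n)) := by
    apply Tendsto.mono_left _ nhdsWithin_le_nhds
    apply Continuous.tendsto
    fun_prop
  exact ge_of_tendsto h2 h1

/-- **(1-MV) over `FarD`**, `S = B(x,20)`, `R = 10`, `K = 4`, `A = 1`. -/
theorem mvh_of_farD (F : FarD c C x δ ph) (hκ : 0 ≤ κ) (hn : 1 ≤ n) [SFinite μ]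
    (hδ0 : -1 ≤ δ) (hδ : δ ≤ 1 / 2) (hκ' : κ * 1600 ≤ 1) : MVH μ (ball x 20) 10 4 1 := by
  have hω := c.ω_pos
  refine mvh_of_rad C hκ hn (Ω := (1 + δ) * c.ω) (by norm_num) (fun b hb => ?_)
    (farD_rdsymm F) (fun b hb s hs hs10 => ?_) (fun b hb s hs hs10 => ?_)
    (fun b hb s hs hs10 => ?_) (fun p hp b hb => ?_)
  · rw [mem_ball, dist_comm] at hb
    exact farD_closedBall_ne_top F hb (by norm_num) (by norm_num)
  · rw [mem_ball, dist_comm] at hb
    exact farD_closedBall_le F hδ0 hb hs (by linarith)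
  · rw [mem_ball, dist_comm] at hb
    have h1 := farD_real_ball_ge F hb hs (by linarith)
    have h2 : Real.exp (κ * s ^ 2 / 2) ≤ 4 / 3 := by
      have h3 : κ * s ^ 2 / 2 ≤ 1 / 32 := by
        have : s ^ 2 ≤ 10 ^ 2 := by gcongr
        nlinarith
      have h4 := Real.add_one_le_exp (-(κ * s ^ 2 / 2))
      have h5 : Real.exp (-(κ * s ^ 2 / 2)) * Real.exp (κ * s ^ 2 / 2) = 1 := by
        rw [← Real.exp_add]; simp
      have h6 := Real.exp_pos (κ * s ^ 2 / 2)
      nlinarith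
    have h3 : 0 ≤ 1 + δ := by linarith
    calc Real.exp (κ * s ^ 2 / 2) * ((1 + δ) * c.ω) * s ^ n
        ≤ 4 / 3 * ((1 + δ) * c.ω) * s ^ n := by gcongr
      _ ≤ 4 / 3 * ((3 * (1 - δ)) * c.ω) * s ^ n := by
          gcongr
          linarith
      _ = 4 * ((1 - δ) * c.ω * s ^ n) := by ring
      _ ≤ _ := by gcongr
  · rw [mem_ball, dist_comm] at hb
    have h1 := farD_real_ball_ge F hb hs (by linarith)
    have : 0 < (1 - δ) * c.ω * s ^ n := by
      have : 0 < 1 - δ := by linarith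
      positivity
    linarith
  · rw [mem_ball, dist_comm] at hp hb
    have h1 := dist_triangle p x b
    rw [dist_comm p x] at h1
    have h2 : dist p b ≤ 40 := by linarith
    have h3 : dist p b ^ 2 ≤ 40 ^ 2 := by gcongr
    nlinarith

/-- sharp form: `K = exp(50 κ) (1 + δ) / (1 - δ)` -/
theorem mvh_of_farD_sharp (F : FarD c C x δ ph) (hκ : 0 ≤ κ) (hn : 1 ≤ n) [SFinite μ]
    (hδ0 : -1 ≤ δ) (hδ : δ < 1) (hκ' : κ * 1600 ≤ 1) :
    MVH μ (ball x 20) 10 (Real.exp (50 * κ) * (1 + δ) / (1 - δ)) 1 := by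
  have hω := c.ω_pos
  have h1δ : 0 < 1 - δ := by linarith
  have h1δ' : 0 ≤ 1 + δ := by linarith
  refine mvh_of_rad C hκ hn (Ω := (1 + δ) * c.ω) (by positivity) (fun b hb => ?_)
    (farD_rdsymm F) (fun b hb s hs hs10 => ?_) (fun b hb s hs hs10 => ?_)
    (fun b hb s hs hs10 => ?_) (fun p hp b hb => ?_)
  · rw [mem_ball, dist_comm] at hb
    exact farD_closedBall_ne_top F hb (by norm_num) (by norm_num)
  · rw [mem_ball, dist_comm] at hb
    exact farD_closedBall_le F hδ0 hb hs (by linarith)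
  · rw [mem_ball, dist_comm] at hb
    have h1 := farD_real_ball_ge F hb hs (by linarith)
    have h2 : Real.exp (κ * s ^ 2 / 2) ≤ Real.exp (50 * κ) := by
      apply Real.exp_le_exp.2
      have : s ^ 2 ≤ 10 ^ 2 := by gcongr
      nlinarith
    calc Real.exp (κ * s ^ 2 / 2) * ((1 + δ) * c.ω) * s ^ n
        ≤ Real.exp (50 * κ) * ((1 + δ) * c.ω) * s ^ n := by gcongr
      _ = Real.exp (50 * κ) * (1 + δ) / (1 - δ) * ((1 - δ) * c.ω * s ^ n) := by field_simp
      _ ≤ _ := by gcongr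
  · rw [mem_ball, dist_comm] at hb
    have h1 := farD_real_ball_ge F hb hs (by linarith)
    have : 0 < (1 - δ) * c.ω * s ^ n := by positivity
    linarith
  · rw [mem_ball, dist_comm] at hp hb
    have h1 := dist_triangle p x b
    rw [dist_comm p x] at h1
    have h2 : dist p b ≤ 40 := by linarith
    have h3 : dist p b ^ 2 ≤ 40 ^ 2 := by gcongr
    nlinarith

end farD

end Crest.Agent.R247.Mv447
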