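import Crest.Agent.R247.Exc3_853
import Crest.Agent.R247.Mv4_447

/-!
# R247, block (1), leaf (1-E), file 4: (3b), (3b'), (3c) over the interface `FarD`, all hypotheses
discharged.
-/

set_option autoImplicit false
set_option linter.unusedSectionVars false
open MeasureTheory Set Filter Topology Metric
open scoped ENNReal NNReal

noncomputable section
namespace Crest.Agent.R247.Exc853

open Crest.Agent.R247.Mcp688 Crest.Agent.R247.Far553

variable {n : ℕ} {κ : ℝ} {X : Type*} [MetricSpace X] [MeasurableSpace X] [BorelSpace X]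
  {μ : Measure X}

lemma MVH.mono_R {S : Set X} {R R' K A : ℝ} (h : MVH μ S R K A) (hR : R' ≤ R) :
    MVH μ S R' K A := fun k p b c r hp hb hr hrR h4 hc => h k p b c r hp hb hr (hrR.trans hR) h4 hc

section far
variable [ProperSpace X] [IsFiniteMeasureOnCompacts μ] {c : FarK} {C : Rad n κ X μ} {x : X} {δ : ℝ}
  {ph : ℕ → ℝ}

/-- all balls have positive finite measure, over `FarD` -/
lemma bpf_far (F : FarD c C x δ ph) (hκ : 0 ≤ κ) (hδ : δ ≤ 1 / 2) : Bpf μ := by
  refine bpf_of_rad C hκ x fun h0 => ?_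
  have h1 := F.vol_ge x 1 (by simp) one_pos (by norm_num)
  rw [h0, nonpos_iff_eq_zero, ENNReal.ofReal_eq_zero] at h1
  have hω := c.ω_pos
  have : 0 < (1 - δ) * c.ω * 1 ^ n := by
    have : 0 < 1 - δ := by linarith
    positivity
  linarith

/-- **(3b)** over `FarD`: `xbar ≤ 16 (T(a) - T(c)) + 112 ρ²/L`. -/
theorem far_xbar_le (F : FarD c C x δ ph) (hκ : 0 ≤ κ) (hn : 1 ≤ n) (hδ' : -1 ≤ δ)
    (hδ : δ ≤ 1 / 2) (hκ' : κ * 1600 ≤ 1) {z w : X} {l L ρ a b c' : ℝ} {σ : ℝ → X}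
    (hσ : IsMin z w l σ) (hl : 0 ≤ l) (hz : dist x z ≤ 1) (hw : dist x w ≤ 12) (hρ : 0 < ρ)
    (hρ1 : ρ ≤ 1) (h8 : 8 * ρ ≤ L) (ha : 0 ≤ a) (hab : L ≤ b - a) (hbc : L ≤ c' - b)
    (hc : c' ≤ l) (hxb : L ≤ dist x (σ a)) :
    xbar μ x (σ a) (σ b) ρ ≤ 16 * (Exc x w (σ a) - Exc x w (σ c')) + 112 * ρ ^ 2 / L := by
  have hL : 0 < L := by linarith
  have hlz : dist z w = l := by
    have := hσ.dist_w le_rfl hl
    rw [hσ.zero] at this
    linarith
  have hmem : ∀ s, 0 ≤ s → s ≤ l → dist x (σ s) < 19 := by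
    intro s hs hsl
    rcases le_or_gt s (l / 2) with h | h
    · have h1 := hσ.dist_le le_rfl hs hsl
      rw [hσ.zero] at h1
      have h2 := dist_triangle x z (σ s)
      have h3 := dist_triangle z x w
      rw [dist_comm z x] at h3
      linarith
    · have h1 := hσ.dist_w hs hsl
      have h2 := dist_triangle x w (σ s)
      rw [dist_comm w (σ s)] at h2
      have h3 := dist_triangle z x w
      rw [dist_comm z x] at h3
      linarith
  have hMV := (Mv447.mvh_of_farD F hκ hn hδ' hδ hκ').mono_R (R' := 1) (by norm_num)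
  have key := hσ.xbar_le (x := x) (a := a) (b := b) (c := c') (bpf_far F hκ hδ) (by norm_num)
    (by norm_num) hMV (mem_ball_self (by norm_num)) (by rw [mem_ball, dist_comm]; linarith)
    (fun y hy => by
      rw [mem_ball] at hy ⊢
      have := hmem a ha (by linarith)
      have := dist_triangle y (σ a) x
      rw [dist_comm (σ a) x] at this
      linarith)
    (by rw [mem_ball, dist_comm]; exact (hmem b (by linarith) (by linarith)).trans (by norm_num))
    (by rw [mem_ball, dist_comm]; exact (hmem c' (by linarith) hc).trans (by norm_num))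
    hρ hρ1 h8 ha hab hbc hc hxb
  refine key.trans (le_of_eq ?_)
  ring

/-- **(3b')** over `FarD`, last step. -/
theorem far_xbar_last_le (F : FarD c C x δ ph) (hκ : 0 ≤ κ) (hn : 1 ≤ n) (hδ' : -1 ≤ δ)
    (hδ : δ ≤ 1 / 2) (hκ' : κ * 1600 ≤ 1) {z w v : X} {l L ρ a lam : ℝ} {σ : ℝ → X}
    (hU : (x, v) ∈ C.U) (hlam : lam ∈ Ioc (0 : ℝ) 1) (hwv : w = C.T x lam v)
    (hv : dist x v ≤ 12)
    (hσ : IsMin z w l σ) (hl : 0 ≤ l) (hz : dist x z ≤ 1) (hρ : 0 < ρ)
    (hρ1 : ρ ≤ 1) (h8 : 8 * ρ ≤ L) (ha : 0 ≤ a) (hal : L ≤ l - a)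
    (hxb : L ≤ dist x (σ a)) (hwv' : L ≤ (1 - lam) * dist x v) :
    xbar μ x (σ a) w ρ ≤ 16 * Exc x w (σ a) + 80 * ρ ^ 2 / L := by
  have hL : 0 < L := by linarith
  have hlz : dist z w = l := by
    have := hσ.dist_w le_rfl hl
    rw [hσ.zero] at this
    linarith
  have hxw : dist x w = lam * dist x v := by rw [hwv, C.dist_left hU ⟨hlam.1.le, hlam.2⟩]
  have hwv1 : dist w v = (1 - lam) * dist x v := by
    rw [hwv, C.dist_right hU ⟨hlam.1.le, hlam.2⟩]
  have hw : dist x w ≤ 12 := by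
    have : 0 ≤ dist w v := dist_nonneg
    linarith
  have hmem : ∀ s, 0 ≤ s → s ≤ l → dist x (σ s) < 19 := by
    intro s hs hsl
    rcases le_or_gt s (l / 2) with h | h
    · have h1 := hσ.dist_le le_rfl hs hsl
      rw [hσ.zero] at h1
      have h2 := dist_triangle x z (σ s)
      have h3 := dist_triangle z x w
      rw [dist_comm z x] at h3
      linarith
    · have h1 := hσ.dist_w hs hsl
      have h2 := dist_triangle x w (σ s)
      rw [dist_comm w (σ s)] at h2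
      have h3 := dist_triangle z x w
      rw [dist_comm z x] at h3
      linarith
  have hMV := (Mv447.mvh_of_farD F hκ hn hδ' hδ hκ').mono_R (R' := 1) (by norm_num)
  have key := hσ.xbar_last_le (x := x) (a := a) (w' := v) (bpf_far F hκ hδ) (by norm_num)
    (by norm_num) hMV (mem_ball_self (by norm_num)) (by rw [mem_ball, dist_comm]; linarith)
    (by rw [mem_ball, dist_comm]; linarith)
    (fun y hy => by
      rw [mem_ball] at hy ⊢
      have := hmem a ha (by linarith)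
      have := dist_triangle y (σ a) x
      rw [dist_comm (σ a) x] at this
      linarith)
    hρ hρ1 h8 ha hal hxb (by rw [hwv1]; exact hwv') (by rw [hwv1, hxw]; ring)
  refine key.trans (le_of_eq ?_)
  ring

/-- **(U)** over `FarD`: `T(2τ) ≤ (192·2ⁿ + 48) D(τ)²/τ`. -/
theorem far_U (F : FarD c C x δ ph) (hκ : 0 ≤ κ) (hn : 1 ≤ n) (hδ' : -1 ≤ δ)
    (hδ : δ ≤ 1 / 2) (hκ' : κ * 1600 ≤ 1) {z w v : X} {l lam τ : ℝ} {σ : ℝ → X}
    (hU : (x, v) ∈ C.U) (hv : x ≠ v) (hlam : lam ∈ Ioc (0 : ℝ) 1) (hwv : w = C.T x lam v)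
    (hl : 0 ≤ l) (hσ : IsMin z w l σ) (hwx : dist x w < 12) (hwx' : 2 ≤ dist x w)
    (hz : 2 * dist x z ≤ τ) (hτ : 0 < τ) (hτ1 : τ ≤ 1 / 4) :
    Exc x w (σ (2 * τ)) ≤ (192 * 2 ^ n + 48) *
      (dist (σ τ) (ray C x v (dist x (σ τ))) ^ 2 / τ) := by
  have hMV := (Mv447.mvh_of_farD F hκ hn hδ' hδ hκ').mono_R (R' := 1) (by norm_num)
  refine (U_line F (bpf_far F hκ hδ) hδ (by norm_num) (by norm_num) hMV hU hv hlam hwv hl hσ hwx
    hwx' hz hτ hτ1).trans (le_of_eq ?_)
  ring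

end far

end Crest.Agent.R247.Exc853
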