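import Crest.Agent.R247.Stp1_553
import Crest.Agent.R247.Exc4_853
import Crest.Agent.R247.Ch1_111
import Crest.Agent.R247.Lx6_149

/-!
# (1-STP), part 2: the fields `good`, `always`, `last` of 111's `Line` over `FarD`
-/

set_option autoImplicit false
set_option linter.unusedSectionVars false
open MeasureTheory Set Filter Topology Metric
open scoped ENNReal NNReal

noncomputable section
namespace Crest.Agent.R247.Stp553

universe u
open Crest.Agent.R247.Mcp688 Crest.Agent.R247.Far553 Crest.Agent.R247.Exc853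
open Crest.Agent.R247.Ch111

theorem cep (n : ℕ) (c : FarK) : CEP.{u} n c := LX149.cep' n c

section defs
variable {n : ℕ} {κ : ℝ} {X : Type*} [MetricSpace X] [MeasurableSpace X] {μ : Measure X}

/-- distance of `σ τ` to the ray of `v` -/
def Dl (C : Rad n κ X μ) (x v : X) (σ : ℝ → X) (τ : ℝ) : ℝ :=
  dist (σ τ) (ray C x v (dist x (σ τ)))
/-- radius -/
def Rl (x : X) (σ : ℝ → X) (τ : ℝ) : ℝ := dist x (σ τ)
/-- excess -/
def Tl (x w : X) (σ : ℝ → X) (τ : ℝ) : ℝ := Exc x w (σ τ)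
end defs

section line
variable {n : ℕ} {κ : ℝ} {X : Type*} [MetricSpace X] [MeasurableSpace X] [BorelSpace X]
  {μ : Measure X} {x z w : X} {l t : ℝ} {σ : ℝ → X}

lemma Rl_eq (hσ : IsMin z w l σ) {τ : ℝ} (h0 : 0 ≤ τ) (h1 : τ ≤ l) :
    Rl x σ τ = dist x w - (l - τ) + Tl x w σ τ := by
  have h := hσ.dist_w h0 h1
  unfold Rl Tl Exc
  linarith

lemma Rl_abs (hσ : IsMin z w l σ) (hz : dist x z ≤ t) {τ : ℝ} (h0 : 0 ≤ τ) (h1 : τ ≤ l) :
    |Rl x σ τ - τ| ≤ t := by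
  have h := hσ.dist_le le_rfl h0 h1
  rw [hσ.zero] at h
  have h2 := dist_triangle x z (σ τ)
  have h3 := dist_triangle z x (σ τ)
  rw [dist_comm z x] at h3
  unfold Rl
  rw [abs_le]
  constructor <;> linarith

lemma Tl_nonneg (τ : ℝ) : 0 ≤ Tl x w σ τ := Exc_nonneg _ _ _

lemma Tl_anti (hσ : IsMin z w l σ) {a b : ℝ} (ha : 0 ≤ a) (hab : a ≤ b) (hb : b ≤ l) :
    Tl x w σ b ≤ Tl x w σ a := hσ.exc_anti x ha hab hb

lemma Tl_le (hσ : IsMin z w l σ) (hz : dist x z ≤ t) {a : ℝ} (ha : 0 ≤ a) (hb : a ≤ l) :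
    Tl x w σ a ≤ 2 * t := (hσ.exc_le ha hb).trans (by linarith)

end line

/-- the conclusion of `window` for the ray of `v`, at the levels `(Kb, e0)` and the factor `G` -/
def Win {n : ℕ} {κ : ℝ} {X : Type*} [MetricSpace X] [MeasurableSpace X] {μ : Measure X}
    (C : Rad n κ X μ) (x v : X) (N0 K C1 G Kb e0 : ℝ) (F : ℕ → X → ℝ) : Prop :=
  ∀ (b bp : X) (L DT : ℝ), 0 < L → dist b bp = L →
      L / 2 ≤ dist x bp - dist x b → N0 * L ≤ dist x bp → N0 * L ≤ dist x v - dist x bp →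
      dist x bp ≤ 10 → 0 ≤ DT →
      (∀ ρ, 0 < ρ → 16 * ρ ≤ L → xbar μ x b bp ρ ≤ 224 * (DT + ρ ^ 2 / L)) →
      (∀ k, dy k ≤ L / 2 → ∫⁻ τ in Icc (dist x bp - 2 * L) (dist x bp),
        loc μ n Kb (dy k) (F k) (ray C x v τ) ≤ ENNReal.ofReal (e0 * dist x bp)) →
      K * (Real.sqrt (L * DT) + dist bp (ray C x v (dist x bp))) ≤ L / 256 →
      dist b (ray C x v (dist x b)) / dist x b ≤
        G * (dist bp (ray C x v (dist x bp)) / dist x bp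
          + C1 / dist x bp * Real.sqrt (L * DT))

/-- smallness of the excess drop from the premise of `Stp` -/
lemma drop_small {K L DT : ℝ} (hK : 1 ≤ K) (hL : 0 < L) (hDT : 0 ≤ DT)
    (h : K * Real.sqrt (L * DT) ≤ L / 256) : DT ≤ L / 4 := by
  have h0 : 0 ≤ Real.sqrt (L * DT) := Real.sqrt_nonneg _
  have h1 : Real.sqrt (L * DT) ≤ L / 256 := le_trans (by nlinarith) h
  have h2 : L * DT ≤ (L / 256) ^ 2 := by
    rw [← Real.sq_sqrt (by positivity : 0 ≤ L * DT)]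
    exact pow_le_pow_left₀ h0 h1 2
  have h3 : L * DT ≤ L * (L / 4) := by nlinarith [sq_nonneg L]
  exact le_of_mul_le_mul_left h3 hL

section far
variable {n : ℕ} {κ : ℝ} {X : Type*} [MetricSpace X] [MeasurableSpace X] [BorelSpace X]
  {μ : Measure X} [ProperSpace X] [IsFiniteMeasureOnCompacts μ] {c : FarK} {C : Rad n κ X μ}
  {x : X} {δ : ℝ} {ph : ℕ → ℝ}

/-- `Win` gives `Stp` for three points of the line. -/
theorem stp_of_win (F : FarD c C x δ ph) (hκ : 0 ≤ κ) (hn : 1 ≤ n) (hδ' : -1 ≤ δ)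
    (hδ : δ ≤ 1 / 2) (hκ' : κ * 1600 ≤ 1) {z w v : X} {l t : ℝ} {σ : ℝ → X}
    {K C1 G Kb e0 : ℝ} (hK : 1 ≤ K)
    (hwin : Win C x v c.N0 K C1 G Kb e0 (fun k z => F.H k z + F.g k z))
    (hσ : IsMin z w l σ) (hl : 0 ≤ l) (hz : dist x z ≤ t) (ht : t ≤ 1 / 4)
    (hw : dist x w ≤ 19 / 2) {τ₁ τ₂ τ₃ : ℝ} (h0 : 0 ≤ τ₁) (h12 : τ₁ < τ₂) (h23 : τ₂ < τ₃)
    (h3 : τ₃ ≤ l) (hL : (τ₂ - τ₁) / 2 ≤ τ₃ - τ₂) (hN1 : c.N0 * (τ₂ - τ₁) ≤ Rl x σ τ₂)
    (hN2 : c.N0 * (τ₂ - τ₁) ≤ dist x v - Rl x σ τ₂)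
    (htube : ∀ k, dy k ≤ (τ₂ - τ₁) / 2 →
      ∫⁻ τ in Icc (Rl x σ τ₂ - 2 * (τ₂ - τ₁)) (Rl x σ τ₂),
        loc μ n Kb (dy k) (fun z => F.H k z + F.g k z) (ray C x v τ) ≤
          ENNReal.ofReal (e0 * Rl x σ τ₂)) :
    Stp (K / 2) (1 / 256) C1 G (Dl C x v σ) (Rl x σ) (Tl x w σ) (τ₂ - τ₁) τ₁ τ₂ τ₃ := by
  intro hprem
  set L := τ₂ - τ₁ with hLdef
  have hLp : 0 < L := by linarith
  set DT := Tl x w σ τ₁ - Tl x w σ τ₃ with hDTdef
  have ha12 := Tl_anti (x := x) hσ h0 h12.le (by linarith)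
  have ha23 := Tl_anti (x := x) hσ (by linarith) h23.le h3
  have hDT : 0 ≤ DT := by linarith
  have hN0 := c.N0_ge
  have hD2 : 0 ≤ Dl C x v σ τ₂ := dist_nonneg
  have hS : 0 ≤ Real.sqrt (L * DT) := Real.sqrt_nonneg _
  have hprem' : K * (Real.sqrt (L * DT) + Dl C x v σ τ₂) ≤ L / 256 := by
    have : 2 * (K / 2) * (Real.sqrt (L * DT) + Dl C x v σ τ₂) ≤ 1 / 256 * L := hprem
    linarith
  have hsm : DT ≤ L / 4 := drop_small hK hLp hDT (le_trans (by nlinarith) hprem')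
  have hR1 := Rl_eq (x := x) hσ h0 (by linarith : τ₁ ≤ l)
  have hR2 := Rl_eq (x := x) hσ (by linarith : 0 ≤ τ₂) (by linarith : τ₂ ≤ l)
  have hT2 := Tl_le (x := x) hσ hz (by linarith : 0 ≤ τ₂) (by linarith : τ₂ ≤ l)
  have hR1' : Rl x σ τ₂ - L ≤ Rl x σ τ₁ := by linarith
  have h8 : 8 * L ≤ Rl x σ τ₂ := le_trans (by nlinarith) hN1
  exact hwin (σ τ₁) (σ τ₂) L DT hLp (hσ.dist_le h0 h12.le (by linarith))
    (by change L / 2 ≤ Rl x σ τ₂ - Rl x σ τ₁; linarith) hN1 hN2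
    (by change Rl x σ τ₂ ≤ 10; linarith) hDT
    (fun ρ hρ hρL => by
      have hwx : dist x w ≤ 12 := by linarith
      have hR10 : Rl x σ τ₂ ≤ 10 := by linarith
      have hb := far_xbar_le F hκ hn hδ' hδ hκ' (a := τ₁) (b := τ₂) (c' := τ₃) (L := L / 2)
        (ρ := ρ) hσ hl (by linarith) hwx hρ (by nlinarith) (by linarith) h0 (by linarith) hL h3
        (by change L / 2 ≤ Rl x σ τ₁; linarith)
      refine hb.trans ?_
      have e1 : 112 * ρ ^ 2 / (L / 2) = 224 * (ρ ^ 2 / L) := by field_simp; ring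
      rw [e1]
      have : 16 * (Exc x w (σ τ₁) - Exc x w (σ τ₃)) = 16 * DT := rfl
      rw [this]
      linarith)
    htube hprem'

/-- the last step, `τ₂ = l` -/
theorem stp_last_of_win (F : FarD c C x δ ph) (hκ : 0 ≤ κ) (hn : 1 ≤ n) (hδ' : -1 ≤ δ)
    (hδ : δ ≤ 1 / 2) (hκ' : κ * 1600 ≤ 1) {z w v : X} {l t lam : ℝ} {σ : ℝ → X}
    {K C1 G Kb e0 : ℝ} (hK : 1 ≤ K) (hU : (x, v) ∈ C.U) (hlam : lam ∈ Ioc (0 : ℝ) 1)
    (hwv : w = C.T x lam v) (hv0 : 0 < dist x v)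
    (hwin : Win C x v c.N0 K C1 G Kb e0 (fun k z => F.H k z + F.g k z))
    (hσ : IsMin z w l σ) (hl : 0 ≤ l) (hz : dist x z ≤ t) (ht : t ≤ 1 / 4) (hv : dist x v ≤ 12)
    (hw : dist x w ≤ 19 / 2) {τ₁ : ℝ} (h0 : 0 ≤ τ₁) (h12 : τ₁ < l)
    (hN1 : c.N0 * (l - τ₁) ≤ dist x w)
    (hN2 : c.N0 * (l - τ₁) ≤ dist x v - dist x w)
    (htube : ∀ k, dy k ≤ (l - τ₁) / 2 →
      ∫⁻ τ in Icc (dist x w - 2 * (l - τ₁)) (dist x w),
        loc μ n Kb (dy k) (fun z => F.H k z + F.g k z) (ray C x v τ) ≤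
          ENNReal.ofReal (e0 * dist x w))
    (hprem : 2 * (K / 2) * √((l - τ₁) * Tl x w σ τ₁) ≤ 1 / 256 * (l - τ₁)) :
    Dl C x v σ τ₁ / Rl x σ τ₁ ≤ G * (C1 / Rl x σ l * √((l - τ₁) * Tl x w σ τ₁)) := by
  set L := l - τ₁ with hLdef
  have hLp : 0 < L := by linarith
  have hN0 := c.N0_ge
  have hxw : dist x w = lam * dist x v := by rw [hwv, C.dist_left hU ⟨hlam.1.le, hlam.2⟩]
  have hray : ray C x v (dist x w) = w := by
    unfold ray
    rw [hxw, mul_div_cancel_right₀ _ hv0.ne', hwv]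
  have hRl : Rl x σ l = dist x w := by unfold Rl; rw [hσ.last]
  have hT0 : 0 ≤ Tl x w σ τ₁ := Tl_nonneg _
  have hprem' : K * Real.sqrt (L * Tl x w σ τ₁) ≤ L / 256 := by linarith
  have hsm : Tl x w σ τ₁ ≤ L / 4 := drop_small hK hLp hT0 hprem'
  have hR1 := Rl_eq (x := x) hσ h0 (by linarith : τ₁ ≤ l)
  have h8 : 8 * L ≤ dist x w := le_trans (by nlinarith) hN1
  have key := hwin (σ τ₁) w L (Tl x w σ τ₁) hLp (hσ.dist_w h0 h12.le)
    (by change L / 2 ≤ dist x w - Rl x σ τ₁; linarith) hN1 hN2 (by linarith) hT0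
    (fun ρ hρ hρL => by
      have hb := far_xbar_last_le F hκ hn hδ' hδ hκ' (a := τ₁) (L := L)
        (ρ := ρ) hU hlam hwv hv hσ hl (by linarith) hρ (by linarith) (by linarith) h0
        (by linarith)
        (by change L ≤ Rl x σ τ₁; linarith)
        (by
          have : c.N0 * L ≤ dist x v - dist x w := hN2
          rw [sub_mul, one_mul, ← hxw]
          nlinarith)
      refine hb.trans ?_
      have e1 : 80 * ρ ^ 2 / L = 80 * (ρ ^ 2 / L) := by ring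
      rw [e1]
      have h1 : 0 ≤ ρ ^ 2 / L := by positivity
      have : 16 * Exc x w (σ τ₁) = 16 * Tl x w σ τ₁ := rfl
      rw [this]
      linarith)
    htube (by rw [hray, dist_self, add_zero]; exact hprem')
  rw [hray, dist_self, zero_div, zero_add] at key
  rw [hRl]
  exact key

/-- the tube integral over an arbitrary short window, from `d1a` -/
theorem tube_always {v : X} {Kb e0 Nb : ℝ} (F : FarD c C x δ ph) (he0 : 0 < e0)
    (hd1a : ∀ k, ∀ a b : ℝ, 0 < a → a ≤ b → b < dist x v →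
      8 * (b - a) ≤ a → 8 * (b - a) ≤ dist x v - b → dy k ≤ b - a →
      ∫⁻ r in Icc a b, loc μ n Kb (dy k) (fun z => F.H k z + F.g k z) (ray C x v r) ≤
        ENNReal.ofReal (c.B1 Kb * a * Real.sqrt ((b - a) / min a (dist x v - b))))
    (hNb : 18 ≤ Nb) (hNb2 : 2 * (c.B1 Kb / e0) ^ 2 + 2 ≤ Nb)
    {r L : ℝ} (hL : 0 < L) (h1 : Nb * L ≤ r) (h2 : Nb * L ≤ dist x v - r) :
    ∀ k, dy k ≤ L / 2 → ∫⁻ τ in Icc (r - 2 * L) r,
      loc μ n Kb (dy k) (fun z => F.H k z + F.g k z) (ray C x v τ) ≤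
        ENNReal.ofReal (e0 * r) := by
  intro k hk
  have hB := c.B1_pos Kb
  have hr : 18 * L ≤ r := le_trans (by nlinarith) h1
  have hr2 : 18 * L ≤ dist x v - r := le_trans (by nlinarith) h2
  refine (hd1a k (r - 2 * L) r (by linarith) (by linarith) (by linarith) (by linarith)
    (by linarith) (by linarith)).trans (ENNReal.ofReal_le_ofReal ?_)
  set m := min (r - 2 * L) (dist x v - r) with hm
  have hm1 : (Nb - 2) * L ≤ m := le_min (by nlinarith) (by nlinarith)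
  have hm0 : 0 < m := lt_of_lt_of_le (by nlinarith) hm1
  have h3 : r - (r - 2 * L) = 2 * L := by ring
  rw [h3]
  have h4 : 2 * L / m ≤ (e0 / c.B1 Kb) ^ 2 := by
    rw [div_le_iff₀ hm0]
    have h5 : 2 * (c.B1 Kb / e0) ^ 2 * L ≤ m := le_trans (by nlinarith) hm1
    have h6 : (e0 / c.B1 Kb) ^ 2 * (2 * (c.B1 Kb / e0) ^ 2 * L) = 2 * L := by
      field_simp
    calc 2 * L = (e0 / c.B1 Kb) ^ 2 * (2 * (c.B1 Kb / e0) ^ 2 * L) := h6.symm
      _ ≤ (e0 / c.B1 Kb) ^ 2 * m := mul_le_mul_of_nonneg_left h5 (by positivity)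
  have h5 : Real.sqrt (2 * L / m) ≤ e0 / c.B1 Kb := by
    rw [Real.sqrt_le_left (by positivity)]; exact h4
  calc c.B1 Kb * (r - 2 * L) * Real.sqrt (2 * L / m)
      ≤ c.B1 Kb * r * (e0 / c.B1 Kb) := by
        apply mul_le_mul _ h5 (Real.sqrt_nonneg _) (by nlinarith)
        nlinarith
    _ = e0 * r := by field_simp

/-- the tube integral at a good scale -/
theorem tube_good {v : X} {Kb e0 : ℝ} {G : ℕ → X → ℝ} (he0 : 0 < e0)
    {s r L : ℝ} (hs : 0 < s) (hs8 : s ≤ 1 / 8) (hL : 0 < L) (hLs : 4 * L ≤ s)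
    (h1 : s / 2 ≤ r - 2 * L) (h2 : r ≤ 4 * s)
    (hgood : ∀ i : ℕ, s / 8 ≤ dy i → dy i ≤ 8 * s → ¬ bad C x G Kb (e0 / 16) i v) :
    ∀ k, dy k ≤ L / 2 → ∫⁻ τ in Icc (r - 2 * L) r,
      loc μ n Kb (dy k) (G k) (ray C x v τ) ≤ ENNReal.ofReal (e0 * r) := by
  intro k hk
  obtain ⟨i0, hi1, hi2⟩ := exists_dy (a := s / 2) (by positivity) (by linarith)
  have hi4 : 4 ≤ i0 := by
    by_contra hlt
    have h3 : dy 3 ≤ dy i0 := dy_anti (by omega)
    have h4 : dy 3 = 1 / 8 := by unfold dy; norm_num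
    linarith
  obtain ⟨m, rfl⟩ : ∃ m, i0 = m + 3 := ⟨i0 - 3, by omega⟩
  set d := dy (m + 3) with hd
  have hd0 : 0 < d := dy_pos _
  have e1 : dy (m + 2) = 2 * d := by have := dy_succ (m + 2); linarith
  have e2 : dy (m + 1) = 4 * d := by have := dy_succ (m + 1); linarith
  have e3 : dy m = 8 * d := by have := dy_succ m; linarith
  have hkm : m + 3 ≤ k := by
    by_contra hlt
    have h3 : dy (m + 3) ≤ dy k := dy_anti (by omega)
    have : d ≤ dy k := h3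
    linarith
  set f : ℝ → ℝ≥0∞ := fun τ => loc μ n Kb (dy k) (G k) (ray C x v τ) with hf
  have hb : ∀ i : ℕ, s / 8 ≤ dy i → dy i ≤ 8 * s → i ≤ k →
      ∫⁻ τ in Icc (dy i) (2 * dy i), f τ ≤ ENNReal.ofReal (e0 / 16 * dy i) := by
    intro i h3 h4 h5
    by_contra h6
    exact hgood i h3 h4 ⟨k, h5, not_le.1 h6⟩
  have b0 := hb (m + 3) (by rw [← hd]; linarith) (by rw [← hd]; linarith) hkm
  have b1 := hb (m + 2) (by rw [e1]; linarith) (by rw [e1]; linarith) (by omega)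
  have b2 := hb (m + 1) (by rw [e2]; linarith) (by rw [e2]; linarith) (by omega)
  have b3 := hb m (by rw [e3]; linarith) (by rw [e3]; linarith) (by omega)
  rw [← hd] at b0
  rw [e1] at b1
  rw [e2] at b2
  rw [e3] at b3
  have hsub : Icc (r - 2 * L) r ⊆ Icc d (2 * d) ∪ (Icc (2 * d) (2 * (2 * d)) ∪
      (Icc (4 * d) (2 * (4 * d)) ∪ Icc (8 * d) (2 * (8 * d)))) := by
    intro τ hτ
    have h3 : d ≤ τ := by linarith [hτ.1]
    have h4 : τ ≤ 16 * d := by linarith [hτ.2]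
    rcases le_total τ (2 * d) with h5 | h5
    · exact Or.inl ⟨h3, h5⟩
    · rcases le_total τ (4 * d) with h6 | h6
      · exact Or.inr (Or.inl ⟨h5, by linarith⟩)
      · rcases le_total τ (8 * d) with h7 | h7
        · exact Or.inr (Or.inr (Or.inl ⟨h6, by linarith⟩))
        · exact Or.inr (Or.inr (Or.inr ⟨h7, by linarith⟩))
  have e00 : 0 ≤ e0 / 16 * d := by positivity
  calc ∫⁻ τ in Icc (r - 2 * L) r, f τ
      ≤ ∫⁻ τ in Icc d (2 * d) ∪ (Icc (2 * d) (2 * (2 * d)) ∪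
      (Icc (4 * d) (2 * (4 * d)) ∪ Icc (8 * d) (2 * (8 * d)))), f τ := lintegral_mono_set hsub
    _ ≤ (∫⁻ τ in Icc d (2 * d), f τ) + ((∫⁻ τ in Icc (2 * d) (2 * (2 * d)), f τ) +
      ((∫⁻ τ in Icc (4 * d) (2 * (4 * d)), f τ) + ∫⁻ τ in Icc (8 * d) (2 * (8 * d)), f τ)) := by
        refine (lintegral_union_le _ _ _).trans (add_le_add le_rfl ?_)
        refine (lintegral_union_le _ _ _).trans (add_le_add le_rfl ?_)
        exact lintegral_union_le _ _ _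
    _ ≤ ENNReal.ofReal (e0 / 16 * d) + (ENNReal.ofReal (e0 / 16 * (2 * d)) +
      (ENNReal.ofReal (e0 / 16 * (4 * d)) + ENNReal.ofReal (e0 / 16 * (8 * d)))) :=
        add_le_add b0 (add_le_add b1 (add_le_add b2 b3))
    _ = ENNReal.ofReal (e0 / 16 * d + (e0 / 16 * (2 * d) + (e0 / 16 * (4 * d)
          + e0 / 16 * (8 * d)))) := by
        rw [ENNReal.ofReal_add (by positivity) (by positivity),
          ENNReal.ofReal_add (by positivity) (by positivity),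
          ENNReal.ofReal_add (by positivity) (by positivity)]
    _ ≤ ENNReal.ofReal (e0 * r) := ENNReal.ofReal_le_ofReal (by nlinarith)

end far

/-- **(1-STP)** : the fields `good`, `always`, `last` of `Ch111.Line`, over `FarD`. -/
theorem stp_all {n : ℕ} {c : FarK} (hn : 1 ≤ n) (hBLP : BLP.{u} n c) :
    ∃ K C1 : ℝ, 1 / 2 ≤ K ∧ 1 ≤ C1 ∧ ∀ (Ng : ℕ) (Gg : ℝ), 4 ≤ Ng → 2 * c.N0 ≤ (Ng : ℝ) →
    1 < Gg → ∃ (Kb εb : ℝ) (Nb : ℕ), 1 ≤ Kb ∧ 0 < εb ∧ 18 ≤ Nb ∧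
    ∀ {κ : ℝ} {X : Type u} [MetricSpace X] [MeasurableSpace X] [BorelSpace X] [ProperSpace X]
      {μ : Measure X} [IsFiniteMeasureOnCompacts μ] (C : Rad n κ X μ) (x : X) (δ : ℝ)
      (ph : ℕ → ℝ) (F : FarD c C x δ ph), 0 ≤ κ → κ * 1600 ≤ 1 → -1 ≤ δ → δ ≤ 1 / 2 →
    ∀ᵐ v ∂μ, 1 ≤ dist x v → dist x v ≤ 11 →
    ∀ (lam : ℝ) (z w : X) (t l : ℝ) (σ : ℝ → X), lam ∈ Ioc (0 : ℝ) 1 → w = C.T x lam v →
      0 < t → dist x z ≤ t → 4 * t ≤ 1 / 8 → 4 * t ≤ dist x v - dist x w →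
      dist x v - dist x w ≤ 1 → 2 ≤ dist x w →
      dist x w ≤ 19 / 2 → 0 ≤ l → IsMin z w l σ →
      (∀ s, 4 * t ≤ s → s ≤ 1 / 8 →
        (∀ i : ℕ, s / 8 ≤ dy i → dy i ≤ 8 * s →
          ¬ bad C x (fun k z => F.H k z + F.g k z) Kb εb i v) →
        ∀ i < Ng, Stp K (1 / 256) C1 Gg (Dl C x v σ) (Rl x σ) (Tl x w σ) (s / Ng)
          (s + i * (s / Ng)) (s + (i + 1) * (s / Ng)) (s + (i + 2) * (s / Ng))) ∧
      (∀ τ₁ τ₂ τ₃, 2 * t ≤ τ₁ → τ₁ < τ₂ → τ₂ < τ₃ → τ₃ ≤ l → Nb * (τ₂ - τ₁) ≤ τ₂ →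
        Nb * (τ₂ - τ₁) ≤ l + (dist x v - dist x w) - τ₂ → (τ₂ - τ₁) / 2 ≤ τ₃ - τ₂ →
        τ₃ - τ₂ ≤ τ₂ - τ₁ →
        Stp K (1 / 256) C1 2 (Dl C x v σ) (Rl x σ) (Tl x w σ) (τ₂ - τ₁) τ₁ τ₂ τ₃) ∧
      (∀ τ₁, 2 * t ≤ τ₁ → τ₁ < l → Nb * (l - τ₁) ≤ dist x v - dist x w →
        2 * K * √((l - τ₁) * Tl x w σ τ₁) ≤ 1 / 256 * (l - τ₁) →
        Dl C x v σ τ₁ / Rl x σ τ₁ ≤ 2 * (C1 / Rl x σ l * √((l - τ₁) * Tl x w σ τ₁))) := by
  obtain ⟨K, C1, hK, hC1, hwin⟩ := window hBLP (cep n c)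
  refine ⟨K / 2, C1, by linarith, hC1, fun Ng Gg hNg4 hNg hGg => ?_⟩
  obtain ⟨Kg, eg, hKg, heg, hwg⟩ := hwin Gg hGg
  obtain ⟨Ka, ea, hKa, hea, hwa⟩ := hwin 2 (by norm_num)
  have hN0 := c.N0_ge
  have hBa := c.B1_pos Ka
  obtain ⟨Nb, hNb⟩ := exists_nat_ge
    (max (2 * c.N0) (max 36 (2 * (2 * (c.B1 Ka / ea) ^ 2 + 2))))
  have hNb1 : 2 * c.N0 ≤ Nb := (le_max_left _ _).trans hNb
  have hNb2 : 36 ≤ (Nb : ℝ) := (le_max_left _ _).trans ((le_max_right _ _).trans hNb)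
  have hNb3 : 2 * (2 * (c.B1 Ka / ea) ^ 2 + 2) ≤ Nb :=
    (le_max_right _ _).trans ((le_max_right _ _).trans hNb)
  refine ⟨Kg, eg / 16, Nb, hKg, by positivity, by
    have : (18 : ℝ) ≤ Nb := by linarith
    exact_mod_cast this, ?_⟩
  intro κ X _ _ _ _ μ _ C x δ ph F hκ hκ' hδ0 hδ
  filter_upwards [hwg C x δ ph F hκ hκ' hδ0 hδ, hwa C x δ ph F hκ hκ' hδ0 hδ, C.ae_U x,
    F.d1a Ka hKa] with v hg ha hU hd1a hv1 hv11
  intro lam z w t l σ hlam hwv ht hz ht8 hX0 hX1 hw2 hw9 hl hσ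
  have hg' : Win C x v c.N0 K C1 Gg Kg eg (fun k z => F.H k z + F.g k z) := hg hv1 hv11
  have ha' : Win C x v c.N0 K C1 2 Ka ea (fun k z => F.H k z + F.g k z) := ha hv1 hv11
  have hv0 : 0 < dist x v := by linarith
  have hv12 : dist x v < 12 := by linarith
  have hl2 : dist x w - t ≤ l := by
    have h1 := hσ.dist_w le_rfl hl
    rw [hσ.zero, sub_zero] at h1
    have h2 := dist_triangle x z w
    linarith
  have hNg4' : (4 : ℝ) ≤ Ng := by exact_mod_cast hNg4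
  have hNg0 : (0 : ℝ) < Ng := by linarith
  have hNb0 : (0 : ℝ) < Nb := by linarith
  refine ⟨?_, ?_, ?_⟩
  · -- good
    intro s hs4 hs8 hgood i hi
    have hs : 0 < s := by linarith
    set L := s / Ng with hL
    have hL0 : 0 < L := by positivity
    have hNL : Ng * L = s := by rw [hL]; field_simp
    have hL4 : 4 * L ≤ s := by nlinarith
    have hi' : (i : ℝ) + 1 ≤ Ng := by exact_mod_cast hi
    have hi0 : (0 : ℝ) ≤ i := Nat.cast_nonneg i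
    have hiL : 0 ≤ (i : ℝ) * L := by positivity
    have hiL' : ((i : ℝ) + 1) * L ≤ s := by
      calc ((i : ℝ) + 1) * L ≤ Ng * L := mul_le_mul_of_nonneg_right hi' hL0.le
        _ = s := hNL
    have e1 : s + ((i : ℝ) + 1) * L - (s + i * L) = L := by ring
    have e2 : s + ((i : ℝ) + 2) * L - (s + (i + 1) * L) = L := by ring
    have e3 : s + ((i : ℝ) + 2) * L = s + (i + 1) * L + L := by ring
    have e4 : ((i : ℝ) + 1) * L = i * L + L := by ring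
    have hR := abs_le.1 (Rl_abs (x := x) hσ hz (τ := s + ((i : ℝ) + 1) * L) (by positivity)
      (by linarith))
    have hN0L : c.N0 * L ≤ s / 2 := by
      have : 2 * c.N0 * L ≤ Ng * L := mul_le_mul_of_nonneg_right hNg hL0.le
      linarith
    have key := stp_of_win F hκ hn hδ0 hδ hκ' (C1 := C1) (G := Gg) (Kb := Kg) (e0 := eg) hK hg' hσ
      hl hz (by linarith) hw9 (τ₁ := s + i * L) (τ₂ := s + ((i : ℝ) + 1) * L)
      (τ₃ := s + ((i : ℝ) + 2) * L) (by linarith) (by linarith) (by linarith) (by linarith)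
      (by linarith) (by rw [e1]; linarith) (by rw [e1]; linarith) (by
        rw [e1]
        exact tube_good (C := C) (G := fun k z => F.H k z + F.g k z) heg hs hs8 hL0 hL4
          (by linarith) (by linarith) hgood)
    rw [e1] at key
    exact key
  · -- always
    intro τ₁ τ₂ τ₃ h1 h12 h23 h3 hb1 hb2 h4 h5
    set L := τ₂ - τ₁ with hL
    have hL0 : 0 < L := by linarith
    have hR := abs_le.1 (Rl_abs (x := x) hσ hz (τ := τ₂) (by linarith) (by linarith))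
    have hRe := Rl_eq (x := x) hσ (τ := τ₂) (by linarith) (by linarith)
    have hT := Tl_le (x := x) hσ hz (a := τ₂) (by linarith) (by linarith)
    have hT0 : 0 ≤ Tl x w σ τ₂ := Tl_nonneg _
    have hr1 : Nb / 2 * L ≤ Rl x σ τ₂ := by nlinarith
    have hr2 : Nb / 2 * L ≤ dist x v - Rl x σ τ₂ := by nlinarith
    have hN0b : c.N0 * L ≤ Nb / 2 * L := mul_le_mul_of_nonneg_right (by linarith) hL0.le
    exact stp_of_win F hκ hn hδ0 hδ hκ' (C1 := C1) (G := 2) (Kb := Ka) (e0 := ea) hK ha' hσ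
      hl hz (by linarith) hw9 (by linarith) h12 h23 h3 h4 (by linarith) (by linarith)
      (tube_always F hea (hd1a hv12) (Nb := Nb / 2) (by linarith) (by linarith) hL0 hr1 hr2)
  · -- last
    intro τ₁ h1 h12 hb hprem
    set L := l - τ₁ with hL
    have hL0 : 0 < L := by linarith
    have h36 : 36 * L ≤ Nb * L := mul_le_mul_of_nonneg_right hNb2 hL0.le
    have hr1 : Nb / 2 * L ≤ dist x w := by linarith
    have hr2 : Nb / 2 * L ≤ dist x v - dist x w := by nlinarith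
    have hN0b : c.N0 * L ≤ Nb / 2 * L := mul_le_mul_of_nonneg_right (by linarith) hL0.le
    exact stp_last_of_win F hκ hn hδ0 hδ hκ' (C1 := C1) (G := 2) (Kb := Ka) (e0 := ea) hK hU hlam
      hwv hv0 ha' hσ hl hz (by linarith) hv12.le hw9 (by linarith) h12 (by linarith) (by linarith)
      (tube_always F hea (hd1a hv12) (Nb := Nb / 2) (by linarith) (by linarith) hL0 hr1 hr2)
      hprem

end Crest.Agent.R247.Stp553
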