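import Crest.Agent.R247.Ch5_111
import Crest.Agent.R247.Stp2_553
import Crest.Agent.R247.BL7_562
import Crest.Agent.R247.Lx6_149
import Crest.Agent.R247.FarAsm7_196
import Crest.Agent.R247.Fin3_508

/-!
# Block (1) closed: `DecayP`, `PathP`, `FarConcl` without hypotheses
-/

set_option autoImplicit false
set_option linter.unusedSectionVars false
open MeasureTheory Set Filter Topology Metric
open scoped ENNReal NNReal

noncomputable section
namespace Crest.Agent.R247.Ch111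

universe u

open Crest.Agent.R247.Mcp688 Crest.Agent.R247.Far553 Crest.Agent.R247.Exc853

theorem stpP {n : ℕ} (c : FarK) (hn : 1 ≤ n) : StpP.{u} n c := by
  obtain ⟨K, C1, hK, hC1, h⟩ := Stp553.stp_all hn (BL562.blp.{u} n c)
  obtain ⟨N1, hN1⟩ : ∃ N : ℕ, 2 * c.N0 ≤ N := exists_nat_ge _
  refine ⟨K, C1, by linarith, by linarith, max 4 N1, fun Ng hNg _ Gg hGg => ?_⟩
  have hNg4 : 4 ≤ Ng := (le_max_left _ _).trans hNg
  have hNgN : (N1 : ℝ) ≤ Ng := by exact_mod_cast (le_max_right _ _).trans hNg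
  obtain ⟨Kb, εb, Nb, hKb, hεb, hNb, h⟩ := h Ng Gg hNg4 (hN1.trans hNgN) hGg
  refine ⟨Kb, εb, Nb, hKb, hεb, by omega, ?_⟩
  intro κ X _ _ _ _ μ _ C x δ ph F hκ hκ' hδ0 hδ
  filter_upwards [h C x δ ph F hκ hκ' hδ0 hδ] with v hv hU hv11 lam hlam w z hw hzU hzw t ht hxz
    ht8 hX0 hX1 hw2 hw9
  have hv1 : 1 ≤ dist x v := by linarith
  obtain ⟨h1, h2, h3⟩ := hv hv1 hv11 lam z w t (dist z w) (fun τ => ray C z w τ) hlam hw ht hxz
    ht8 hX0 hX1 hw2 (by linarith) dist_nonneg (isMin_of_rad C hzU hzw)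
  have hwr : ray C z w (dist z w) = w := (isMin_of_rad C hzU hzw).last
  refine ⟨h1, ?_, ?_⟩
  · intro τ₁ τ₂ τ₃ a1
    exact h2 τ₁ τ₂ τ₃ (by linarith)
  · intro τ₁ a1
    exact h3 τ₁ (by linarith)

/-- **(1-CH)** -/
theorem decayP {n : ℕ} (c : FarK) (hn : 1 ≤ n) : FarAsm196.DecayP.{u} n c :=
  decay_of_stp hn (stpP c hn)

theorem pathP {n : ℕ} (c : FarK) (hn : 1 ≤ n) : FarAsm196.PathP.{u} n c :=
  FarAsm196.path_of (decayP c hn) (LX149.nnp n c)

/-- **block (1)** -/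
theorem farConcl {n : ℕ} (c : FarK) (hn : 1 ≤ n) : FarConcl.{u} n c :=
  Fin508.farConcl_of_path (pathP c hn)

end Crest.Agent.R247.Ch111
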