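import Mathlib.Analysis.SpecialFunctions.Pow.Real
import Mathlib.Analysis.SpecificLimits.Basic
import Mathlib.Tactic

/-!
# Closing numerics of block (1) (doc 1392, section 5), part 1

One-sided rising sun for finite windows, product bounds, iteration of the backward recursion.
-/

set_option autoImplicit false

namespace Crest.Agent.R247.Clo858

open Finset

noncomputable section

/-- number of bad indices in `[i, j)` -/
def nb (bad : ℕ → Prop) [DecidablePred bad] (i j : ℕ) : ℕ := ((Finset.Ico i j).filter bad).card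

section basics

variable {bad : ℕ → Prop} [DecidablePred bad]

lemma nb_mono_left {i i' j : ℕ} (h : i ≤ i') : nb bad i' j ≤ nb bad i j := by
  unfold nb
  exact Finset.card_le_card (Finset.filter_subset_filter _ (Finset.Ico_subset_Ico_left h))

lemma nb_mono_right {i j j' : ℕ} (h : j ≤ j') : nb bad i j ≤ nb bad i j' := by
  unfold nb
  exact Finset.card_le_card (Finset.filter_subset_filter _ (Finset.Ico_subset_Ico_right h))

lemma nb_add {i j k : ℕ} (h1 : i ≤ j) (h2 : j ≤ k) : nb bad i j + nb bad j k = nb bad i k := by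
  unfold nb
  rw [← Finset.Ico_union_Ico_eq_Ico h1 h2, Finset.filter_union, Finset.card_union_of_disjoint]
  exact Finset.disjoint_filter_filter (Finset.Ico_disjoint_Ico_consecutive i j k)

lemma nb_succ {i j : ℕ} (h : i ≤ j) : nb bad i (j + 1) = nb bad i j + (if bad j then 1 else 0) := by
  rw [← nb_add h (Nat.le_succ j)]
  congr 1
  unfold nb
  rw [Nat.Ico_succ_singleton, Finset.filter_singleton]
  split <;> simp

lemma nb_self {i : ℕ} : nb bad i i = 0 := by simp [nb]

open Classical in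
/-- indices in `[a, n)` starting a window in `[a, n)` with bad density `> c` -/
def wit (bad : ℕ → Prop) [DecidablePred bad] (c : ℝ) (n a : ℕ) : Finset ℕ :=
  (Finset.Ico a n).filter (fun i => ∃ j, i < j ∧ j ≤ n ∧ c * ((j - i : ℕ) : ℝ) < (nb bad i j : ℝ))

lemma mem_wit {c : ℝ} {n a i : ℕ} : i ∈ wit bad c n a ↔ (a ≤ i ∧ i < n) ∧
    ∃ j, i < j ∧ j ≤ n ∧ c * ((j - i : ℕ) : ℝ) < (nb bad i j : ℝ) := by
  classical
  simp only [wit, Finset.mem_filter, Finset.mem_Ico]

/-- **one-sided rising sun** on a finite window. -/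
lemma rising {c : ℝ} (hc : 0 ≤ c) (n : ℕ) : ∀ d a : ℕ, n - a = d →
    c * ((wit bad c n a).card : ℝ) ≤ (nb bad a n : ℝ) := by
  classical
  intro d
  induction d using Nat.strong_induction_on with
  | _ d ih =>
    intro a ha
    rcases Nat.lt_or_ge a n with han | han
    · by_cases hw : ∃ j, a < j ∧ j ≤ n ∧ c * ((j - a : ℕ) : ℝ) < (nb bad a j : ℝ)
      · obtain ⟨j, haj, hjn, hj⟩ := hw
        have h1 := ih (n - j) (by omega) j rfl
        have h2 : (wit bad c n a).card ≤ (j - a) + (wit bad c n j).card := by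
          have hsub : wit bad c n a ⊆ Finset.Ico a j ∪ wit bad c n j := by
            intro i hi
            rw [mem_wit] at hi
            rw [Finset.mem_union, Finset.mem_Ico, mem_wit]
            rcases Nat.lt_or_ge i j with h | h
            · exact Or.inl ⟨hi.1.1, h⟩
            · exact Or.inr ⟨⟨h, hi.1.2⟩, hi.2⟩
          refine (Finset.card_le_card hsub).trans ((Finset.card_union_le _ _).trans ?_)
          simp
        have h3 : (nb bad a n : ℝ) = (nb bad a j : ℝ) + (nb bad j n : ℝ) := by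
          rw [← nb_add haj.le hjn]; push_cast; ring
        have h4 : ((wit bad c n a).card : ℝ) ≤ ((j - a : ℕ) : ℝ) + ((wit bad c n j).card : ℝ) := by
          exact_mod_cast h2
        calc c * ((wit bad c n a).card : ℝ)
            ≤ c * (((j - a : ℕ) : ℝ) + ((wit bad c n j).card : ℝ)) := by gcongr
          _ ≤ _ := by rw [h3]; nlinarith
      · have h1 := ih (n - (a + 1)) (by omega) (a + 1) rfl
        have h2 : wit bad c n a ⊆ wit bad c n (a + 1) := by
          intro i hi
          rw [mem_wit] at hi ⊢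
          refine ⟨⟨?_, hi.1.2⟩, hi.2⟩
          rcases Nat.lt_or_ge a i with h | h
          · exact h
          · have : i = a := le_antisymm h hi.1.1
            subst this
            exact absurd hi.2 hw
        have h3 : (nb bad (a + 1) n : ℝ) ≤ (nb bad a n : ℝ) := by
          exact_mod_cast nb_mono_left (Nat.le_succ a)
        have h4 : ((wit bad c n a).card : ℝ) ≤ ((wit bad c n (a + 1)).card : ℝ) := by
          exact_mod_cast Finset.card_le_card h2
        refine le_trans ?_ (h1.trans h3)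
        gcongr
    · have : wit bad c n a = ∅ := by
        ext i
        rw [mem_wit]
        constructor
        · rintro ⟨h, -⟩; omega
        · intro h; simp at h
      rw [this]
      simp

end basics

/-- natural powers against a small density of bad indices -/
lemma exists_dens {G γ : ℝ} (hG : 1 ≤ G) (hγ : 1 < γ) :
    ∃ c : ℝ, 0 < c ∧ ∀ m n : ℕ, (m : ℝ) ≤ c * n → G ^ m ≤ γ ^ n := by
  have hG0 : 0 < G := by linarith
  have hγ0 : 0 < γ := by linarith
  have hL : 0 ≤ Real.log G := Real.log_nonneg hG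
  have hl : 0 < Real.log γ := Real.log_pos hγ
  refine ⟨Real.log γ / (Real.log G + 1), by positivity, fun m n h => ?_⟩
  rw [← Real.log_le_log_iff (by positivity) (by positivity), Real.log_pow, Real.log_pow]
  have h1 : (m : ℝ) * (Real.log G + 1) ≤ n * Real.log γ := by
    have := mul_le_mul_of_nonneg_right h (show 0 ≤ Real.log G + 1 by linarith)
    calc (m : ℝ) * (Real.log G + 1) ≤ Real.log γ / (Real.log G + 1) * n * (Real.log G + 1) := this
      _ = n * Real.log γ := by field_simp
  nlinarith [(Nat.cast_nonneg m : (0 : ℝ) ≤ m)]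

section products

variable (bad : ℕ → Prop) [DecidablePred bad] (gg Gb : ℝ)

/-- growth factor of scale `l` -/
def GG (l : ℕ) : ℝ := if bad l then Gb else gg

/-- `∏_{l ∈ [i,j)} G_l / √2` -/
def PP (i j : ℕ) : ℝ := ∏ l ∈ Finset.Ico i j, GG bad gg Gb l * (Real.sqrt 2)⁻¹

variable {bad gg Gb}

lemma GG_pos (hg : 1 ≤ gg) (hG : 1 ≤ Gb) (l : ℕ) : 0 < GG bad gg Gb l := by
  unfold GG; split <;> linarith

lemma PP_nonneg (hg : 1 ≤ gg) (hG : 1 ≤ Gb) (i j : ℕ) : 0 ≤ PP bad gg Gb i j :=
  Finset.prod_nonneg fun l _ => mul_nonneg (GG_pos hg hG l).le (by positivity)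

lemma PP_self (i : ℕ) : PP bad gg Gb i i = 1 := by simp [PP]

lemma PP_succ {i j : ℕ} (h : i ≤ j) :
    PP bad gg Gb i (j + 1) = PP bad gg Gb i j * (GG bad gg Gb j * (Real.sqrt 2)⁻¹) := by
  unfold PP
  rw [Finset.prod_Ico_succ_top h]

lemma PP_le (hg : 1 ≤ gg) (hG : 1 ≤ Gb) {i j : ℕ} (h : i ≤ j) :
    PP bad gg Gb i j ≤ (gg / Real.sqrt 2) ^ (j - i) * Gb ^ (nb bad i j) := by
  induction j, h using Nat.le_induction with
  | base => simp [PP_self, nb_self]
  | succ j hij ih =>
    rw [PP_succ hij, nb_succ hij, Nat.succ_sub hij, pow_succ]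
    have h2 : (0 : ℝ) < Real.sqrt 2 := by positivity
    have hq : 0 ≤ gg / Real.sqrt 2 := by positivity
    have hstep : GG bad gg Gb j * (Real.sqrt 2)⁻¹ ≤
        gg / Real.sqrt 2 * Gb ^ (if bad j then 1 else 0) := by
      unfold GG
      split
      · rw [pow_one, div_eq_mul_inv]
        have : Gb * (Real.sqrt 2)⁻¹ ≤ gg * (Gb * (Real.sqrt 2)⁻¹) :=
          le_mul_of_one_le_left (by positivity) hg
        linarith
      · rw [pow_zero, mul_one, div_eq_mul_inv]
    calc PP bad gg Gb i j * (GG bad gg Gb j * (Real.sqrt 2)⁻¹)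
        ≤ ((gg / Real.sqrt 2) ^ (j - i) * Gb ^ (nb bad i j)) *
          (gg / Real.sqrt 2 * Gb ^ (if bad j then 1 else 0)) := by
          apply mul_le_mul ih hstep
          · exact mul_nonneg (GG_pos hg hG j).le (by positivity)
          · positivity
      _ = _ := by rw [pow_add]; ring

/-- iteration of the backward recursion -/
lemma iterate {CB : ℝ} {r x : ℕ → ℝ} {i m : ℕ} (him : i ≤ m) (hg : 1 ≤ gg) (hG : 1 ≤ Gb)
    (h : ∀ j, i ≤ j → j < m → r j ≤ GG bad gg Gb j * ((Real.sqrt 2)⁻¹ * r (j + 1) + CB * x j)) :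
    r i ≤ Real.sqrt 2 * CB * ∑ j ∈ Finset.Ico i m, PP bad gg Gb i (j + 1) * x j +
      PP bad gg Gb i m * r m := by
  induction m, him using Nat.le_induction with
  | base => simp [PP_self]
  | succ m him ih =>
    have h1 := ih (fun j h1 h2 => h j h1 (by omega))
    have h2 := h m him (Nat.lt_succ_self m)
    have hP := PP_nonneg (bad := bad) hg hG i m
    have h3 := mul_le_mul_of_nonneg_left h2 hP
    rw [Finset.sum_Ico_succ_top him, PP_succ him]
    have hs : Real.sqrt 2 * (Real.sqrt 2)⁻¹ = 1 := mul_inv_cancel₀ (by positivity)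
    calc r i ≤ _ := h1
      _ ≤ Real.sqrt 2 * CB * ∑ j ∈ Finset.Ico i m, PP bad gg Gb i (j + 1) * x j +
          PP bad gg Gb i m * (GG bad gg Gb m * ((Real.sqrt 2)⁻¹ * r (m + 1) + CB * x m)) := by
          linarith
      _ = Real.sqrt 2 * CB * ∑ j ∈ Finset.Ico i m, PP bad gg Gb i (j + 1) * x j +
          PP bad gg Gb i m * GG bad gg Gb m * (Real.sqrt 2)⁻¹ * r (m + 1) +
          (1 : ℝ) * (PP bad gg Gb i m * GG bad gg Gb m * CB * x m) := by ring
      _ = _ := by rw [← hs]; ring

/-- one geometric bound used twice -/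
lemma geo_bound {CB X R y z v lam γ : ℝ} {r x : ℕ → ℝ} {j J : ℕ} (hjJ : j ≤ J)
    (hCB : 0 ≤ CB) (hX : 0 ≤ X) (hR : 0 ≤ R) (hy : 0 ≤ y) (hz : 0 ≤ z)
    (hv : 0 ≤ v) (hlam : 0 ≤ lam) (hγ : 1 ≤ γ) (hyv : γ * y ≤ v) (hzv : γ * z ≤ v) (hlv : lam * v < 1)
    (hlam1 : lam ≤ 1)
    (hPP : ∀ i, j ≤ i → i ≤ J → PP bad gg Gb j i ≤ lam ^ (i - j) * γ ^ (1 + i))
    (hx0 : ∀ i, j ≤ i → i < J → 0 ≤ x i)
    (hx : ∀ i, j ≤ i → i < J → x i ≤ X * y ^ i)
    (hrJ : r J ≤ R * z ^ J) (hrJ0 : 0 ≤ r J)
    (h : r j ≤ Real.sqrt 2 * CB * ∑ i ∈ Finset.Ico j J, PP bad gg Gb j (i + 1) * x i +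
      PP bad gg Gb j J * r J) :
    r j ≤ (Real.sqrt 2 * CB * (γ ^ 2 * X / (1 - lam * v)) + γ * R) * v ^ j := by
  have hγ0 : 0 ≤ γ := by linarith
  have h1v : 0 < 1 - lam * v := by linarith
  have hsum : ∑ i ∈ Finset.Ico j J, PP bad gg Gb j (i + 1) * x i ≤
      γ ^ 2 * X / (1 - lam * v) * v ^ j := by
    have hterm : ∀ i ∈ Finset.Ico j J, PP bad gg Gb j (i + 1) * x i ≤
        γ ^ 2 * X * v ^ j * (lam * v) ^ (i - j) := by
      intro i hi
      rw [Finset.mem_Ico] at hi
      have h1 := hPP (i + 1) (by omega) (by omega)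
      have h2 := hx i hi.1 hi.2
      have h3 : (i + 1 - j) = (i - j) + 1 := by omega
      have h4 : v ^ i = v ^ j * v ^ (i - j) := by rw [← pow_add]; congr 1; omega
      calc PP bad gg Gb j (i + 1) * x i
          ≤ (lam ^ (i + 1 - j) * γ ^ (1 + (i + 1))) * (X * y ^ i) :=
            mul_le_mul h1 h2 (hx0 i hi.1 hi.2) (by positivity)
        _ = lam * (γ ^ 2 * X * lam ^ (i - j) * (γ * y) ^ i) := by
            rw [h3, mul_pow]; ring
        _ ≤ 1 * (γ ^ 2 * X * lam ^ (i - j) * (γ * y) ^ i) := by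
            gcongr
        _ ≤ 1 * (γ ^ 2 * X * lam ^ (i - j) * v ^ i) := by gcongr
        _ = γ ^ 2 * X * v ^ j * (lam * v) ^ (i - j) := by rw [h4, mul_pow]; ring
    calc ∑ i ∈ Finset.Ico j J, PP bad gg Gb j (i + 1) * x i
        ≤ ∑ i ∈ Finset.Ico j J, γ ^ 2 * X * v ^ j * (lam * v) ^ (i - j) := Finset.sum_le_sum hterm
      _ = γ ^ 2 * X * v ^ j * ∑ i ∈ Finset.Ico j J, (lam * v) ^ (i - j) := by
          rw [Finset.mul_sum]
      _ = γ ^ 2 * X * v ^ j * ∑ k ∈ Finset.range (J - j), (lam * v) ^ k := by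
          rw [Finset.sum_Ico_eq_sum_range]
          congr 1
          apply Finset.sum_congr rfl
          intro k _
          congr 1
          omega
      _ ≤ γ ^ 2 * X * v ^ j * (1 - lam * v)⁻¹ := by
          have : ∑ k ∈ Finset.range (J - j), (lam * v) ^ k ≤ (1 - lam * v)⁻¹ := by
            rw [← tsum_geometric_of_lt_one (by positivity) hlv]
            exact (summable_geometric_of_lt_one (by positivity) hlv).sum_le_tsum _
              (fun k _ => by positivity)
          gcongr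
      _ = γ ^ 2 * X / (1 - lam * v) * v ^ j := by rw [div_eq_mul_inv]; ring
  have htop : PP bad gg Gb j J * r J ≤ γ * R * v ^ j := by
    have h1 := hPP J hjJ le_rfl
    have h4 : v ^ J = v ^ j * v ^ (J - j) := by rw [← pow_add]; congr 1; omega
    calc PP bad gg Gb j J * r J ≤ (lam ^ (J - j) * γ ^ (1 + J)) * (R * z ^ J) :=
          mul_le_mul h1 hrJ hrJ0 (by positivity)
      _ = γ * R * lam ^ (J - j) * (γ * z) ^ J := by rw [mul_pow]; ring
      _ ≤ γ * R * lam ^ (J - j) * v ^ J := by gcongr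
      _ = γ * R * v ^ j * (lam * v) ^ (J - j) := by rw [h4, mul_pow]; ring
      _ ≤ γ * R * v ^ j * 1 := by
          gcongr
          exact pow_le_one₀ (by positivity) hlv.le
      _ = _ := by ring
  calc r j ≤ _ := h
    _ ≤ Real.sqrt 2 * CB * (γ ^ 2 * X / (1 - lam * v) * v ^ j) + γ * R * v ^ j := by gcongr
    _ = _ := by ring

end products

end

end Crest.Agent.R247.Clo858
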