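import Crest.Agent.R247.Clo1_858

/-!
# Closing numerics of block (1) (doc 1392, section 5), part 2: decay of the excess
-/

set_option autoImplicit false

namespace Crest.Agent.R247.Clo858

open Finset

noncomputable section

/-- existence of roots -/
lemma exists_root {a : ℝ} (h0 : 0 < a) (h1 : a < 1) {n : ℕ} (hn : n ≠ 0) :
    ∃ θ : ℝ, 0 < θ ∧ θ < 1 ∧ θ ^ n = a := by
  refine ⟨a ^ ((n : ℝ)⁻¹), Real.rpow_pos_of_pos h0 _, ?_, Real.rpow_inv_natCast_pow h0.le hn⟩
  apply Real.rpow_lt_one h0.le h1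
  positivity

/-- no window `[i, j)`, `j ≤ J`, has bad density above `c` -/
def Gd (bad : ℕ → Prop) [DecidablePred bad] (c : ℝ) (J i : ℕ) : Prop :=
  ∀ j, i < j → j ≤ J → (nb bad i j : ℝ) ≤ c * ((j - i : ℕ) : ℝ)

section good

variable {bad : ℕ → Prop} [DecidablePred bad]

open Classical in
/-- number of good starting points in `[j0, j)` -/
lemma card_good {c3 c4 : ℝ} (hc4 : 0 < c4) (hc3 : 16 * c3 ≤ c4) {J j j0 : ℕ}
    (hbad : ∀ j, j ≤ J → (nb bad 0 j : ℝ) ≤ c3 * (1 + j)) (hj : 2 * j ≤ J) (hj1 : 1 ≤ j) :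
    j ≤ 2 * ((Finset.Ico j0 j).filter (fun i => Gd bad c4 J i)).card + 2 * j0 := by
  have hsub : (Finset.Ico j0 j).filter (fun i => ¬ Gd bad c4 J i) ⊆ wit bad c4 (2 * j) 0 := by
    intro i hi
    rw [Finset.mem_filter, Finset.mem_Ico] at hi
    obtain ⟨⟨_, hij⟩, hng⟩ := hi
    rw [mem_wit]
    refine ⟨⟨Nat.zero_le _, by omega⟩, ?_⟩
    unfold Gd at hng
    push Not at hng
    obtain ⟨j', hij', hj'J, hlt⟩ := hng
    refine ⟨j', hij', ?_, hlt⟩
    by_contra hcon
    push Not at hcon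
    have h1 : (nb bad i j' : ℝ) ≤ c3 * (1 + j') :=
      le_trans (by exact_mod_cast nb_mono_left (Nat.zero_le i)) (hbad j' hj'J)
    have h2 : c4 * ((j' - i : ℕ) : ℝ) < c4 / 16 * (1 + j') := by
      refine hlt.trans_le (h1.trans ?_)
      have : c3 ≤ c4 / 16 := by linarith
      gcongr
    rw [Nat.cast_sub hij'.le] at h2
    have h3 : (16 : ℝ) * ((j' : ℝ) - i) < 1 + j' := by
      by_contra h
      push Not at h
      nlinarith
    have h4 : (2 * (i : ℝ) + 2) < j' := by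
      have : 2 * i + 2 < j' := by omega
      exact_mod_cast this
    linarith
  have hw := rising (bad := bad) hc4.le (2 * j) (2 * j - 0) 0 rfl
  have h5 := hbad (2 * j) hj
  have h6 : ((wit bad c4 (2 * j) 0).card : ℝ) ≤ (1 + 2 * (j : ℝ)) / 16 := by
    have h7 : c4 * ((wit bad c4 (2 * j) 0).card : ℝ) ≤ c3 * (1 + ((2 * j : ℕ) : ℝ)) := hw.trans h5
    push_cast at h7
    have h8 : c3 * (1 + 2 * (j : ℝ)) ≤ c4 / 16 * (1 + 2 * (j : ℝ)) := by
      have : c3 ≤ c4 / 16 := by linarith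
      gcongr
    have h9 : c4 * ((wit bad c4 (2 * j) 0).card : ℝ) ≤ c4 * ((1 + 2 * (j : ℝ)) / 16) := by
      calc _ ≤ _ := h7.trans h8
        _ = _ := by ring
    exact le_of_mul_le_mul_left h9 hc4
  have h10 : (((Finset.Ico j0 j).filter (fun i => ¬ Gd bad c4 J i)).card : ℝ) ≤
      (1 + 2 * (j : ℝ)) / 16 :=
    le_trans (by exact_mod_cast Finset.card_le_card hsub) h6
  have h11 := Finset.card_filter_add_card_filter_not (s := Finset.Ico j0 j) (fun i => Gd bad c4 J i)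
  rw [Nat.card_Ico] at h11
  have h12 : ((j : ℝ)) ≤ (((Finset.Ico j0 j).filter (fun i => Gd bad c4 J i)).card : ℝ) +
      (((Finset.Ico j0 j).filter (fun i => ¬ Gd bad c4 J i)).card : ℝ) + j0 := by
    have : j ≤ ((Finset.Ico j0 j).filter (fun i => Gd bad c4 J i)).card +
      ((Finset.Ico j0 j).filter (fun i => ¬ Gd bad c4 J i)).card + j0 := by omega
    exact_mod_cast this
  have hj1' : (1 : ℝ) ≤ j := by exact_mod_cast hj1
  have h13 : (j : ℝ) ≤ 2 * (((Finset.Ico j0 j).filter (fun i => Gd bad c4 J i)).card : ℝ) + 2 * j0 := by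
    linarith
  exact_mod_cast h13

/-- constants of the contraction step -/
lemma exists_small {CU CB Ct m : ℝ} (hCU : 0 ≤ CU) (hCB : 0 ≤ CB) (hCt : 0 ≤ Ct) (hm0 : 0 < m)
    (hm1 : m < 1) : ∃ κ : ℝ, ∃ K : ℕ, 0 < κ ∧ κ ≤ 1 / 2 ∧ 1 ≤ K ∧
      CU * (Real.sqrt 2 * CB * ((Real.sqrt (2 * κ) + Real.sqrt 2 * m ^ K) / (1 - m)) +
        Real.sqrt Ct * m ^ K) ^ 2 ≤ 1 / 2 := by
  set a0 : ℝ := 1 / (2 * (CU + 1)) with ha0
  have ha0p : 0 < a0 := by positivity
  have h1m : 0 < 1 - m := by linarith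
  have hs2 : 0 < Real.sqrt 2 := by positivity
  set d : ℝ := a0 * (1 - m) / (4 * Real.sqrt 2 * (CB + 1)) with hd
  have hdp : 0 < d := by positivity
  obtain ⟨K, hK⟩ := exists_pow_lt_of_lt_one
    (show 0 < a0 / (2 * (Real.sqrt 2 * CB * Real.sqrt 2 / (1 - m) + Real.sqrt Ct + 1)) by positivity) hm1
  refine ⟨min (1 / 2) (d ^ 2 / 2), K + 1, by positivity, min_le_left _ _, by omega, ?_⟩
  set κ := min (1 / 2) (d ^ 2 / 2)
  have hκ : Real.sqrt (2 * κ) ≤ d := by
    apply Real.sqrt_le_iff.2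
    refine ⟨hdp.le, ?_⟩
    have : κ ≤ d ^ 2 / 2 := min_le_right _ _
    linarith
  have hmK : m ^ (K + 1) ≤ a0 / (2 * (Real.sqrt 2 * CB * Real.sqrt 2 / (1 - m) + Real.sqrt Ct + 1)) := by
    refine le_trans ?_ hK.le
    exact pow_le_pow_of_le_one hm0.le hm1.le (Nat.le_succ K)
  have hA : Real.sqrt 2 * CB * ((Real.sqrt (2 * κ) + Real.sqrt 2 * m ^ (K + 1)) / (1 - m)) +
        Real.sqrt Ct * m ^ (K + 1) ≤ a0 := by
    have e1 : Real.sqrt 2 * CB * (d / (1 - m)) ≤ a0 / 2 := by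
      have : Real.sqrt 2 * CB * (d / (1 - m)) = a0 * (CB / (CB + 1)) / 4 := by
        rw [hd]; field_simp
      rw [this]
      have h : CB / (CB + 1) ≤ 1 := by
        rw [div_le_one (by linarith)]; linarith
      nlinarith
    have e2 : (Real.sqrt 2 * CB * Real.sqrt 2 / (1 - m) + Real.sqrt Ct) * m ^ (K + 1) ≤ a0 / 2 := by
      set q := Real.sqrt 2 * CB * Real.sqrt 2 / (1 - m) + Real.sqrt Ct with hq
      have hq0 : 0 ≤ q := by positivity
      calc q * m ^ (K + 1) ≤ q * (a0 / (2 * (q + 1))) := by gcongr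
        _ ≤ (q + 1) * (a0 / (2 * (q + 1))) := by gcongr; linarith
        _ = a0 / 2 := by field_simp
    calc _ = Real.sqrt 2 * CB * (Real.sqrt (2 * κ) / (1 - m)) +
          (Real.sqrt 2 * CB * Real.sqrt 2 / (1 - m) + Real.sqrt Ct) * m ^ (K + 1) := by ring
      _ ≤ Real.sqrt 2 * CB * (d / (1 - m)) + a0 / 2 := by gcongr
      _ ≤ a0 := by linarith
  have hA0 : 0 ≤ Real.sqrt 2 * CB * ((Real.sqrt (2 * κ) + Real.sqrt 2 * m ^ (K + 1)) / (1 - m)) +
        Real.sqrt Ct * m ^ (K + 1) := by positivity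
  calc _ ≤ CU * a0 ^ 2 := by gcongr
    _ ≤ 1 / 2 := by
      rw [ha0]
      rw [div_pow, one_pow, mul_one_div, div_le_iff₀ (by positivity)]
      nlinarith

/-- contraction at a good index -/
lemma contr {gg Gb lam m e κ CU CB Ct c4 : ℝ} {K J i : ℕ} {T r : ℕ → ℝ}
    (hg : 1 ≤ gg) (hG : 1 ≤ Gb) (hlam : lam = gg / Real.sqrt 2) (hm0 : 0 < m) (hm1 : m < 1)
    (hlm : lam = m ^ 4) (he1 : 1 ≤ e) (hem : e * m ≤ 1)
    (hCU : 0 ≤ CU) (hCB : 0 ≤ CB) (hCt : 0 ≤ Ct) (hκ0 : 0 < κ) (hκ1 : κ ≤ 1 / 2) (hK1 : 1 ≤ K)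
    (hsmall : CU * (Real.sqrt 2 * CB * ((Real.sqrt (2 * κ) + Real.sqrt 2 * m ^ K) / (1 - m)) +
        Real.sqrt Ct * m ^ K) ^ 2 ≤ 1 / 2)
    (hc4 : ∀ a b : ℕ, (a : ℝ) ≤ c4 * b → Gb ^ a ≤ (m⁻¹ ^ 2) ^ b)
    (hT0 : ∀ j, 0 ≤ T j) (hTm : Antitone T) (hr : ∀ j, 0 ≤ r j)
    (hU : T (i + 1) ≤ CU * r i ^ 2)
    (hB : ∀ j, i ≤ j → j < J → r j ≤ GG bad gg Gb j * ((Real.sqrt 2)⁻¹ * r (j + 1) +
      CB * Real.sqrt ((1 + κ) * T j - T (j + 2))))
    (hTop : r J ^ 2 ≤ Ct * e ^ J * T J)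
    (hgd : Gd bad c4 J i) (hiK : i + K ≤ J) (h2 : J ≤ 2 * (J - i)) :
    T (i + K) ≤ (1 - κ) * T i := by
  by_contra hcon
  push Not at hcon
  have hiJ : i ≤ J := by omega
  have h1m : 0 < 1 - m := by linarith
  have he0 : 0 ≤ e := by linarith
  have hPP : ∀ j, i ≤ j → j ≤ J → PP bad gg Gb i j ≤ (m ^ 2) ^ (j - i) := by
    intro j hij hjJ
    rcases Nat.eq_or_lt_of_le hij with h | h
    · subst h; simp [PP_self]
    · have h3 := hc4 _ _ (hgd j h hjJ)
      calc PP bad gg Gb i j ≤ (gg / Real.sqrt 2) ^ (j - i) * Gb ^ (nb bad i j) := PP_le hg hG hij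
        _ ≤ (m ^ 4) ^ (j - i) * (m⁻¹ ^ 2) ^ (j - i) := by
            rw [← hlam, hlm]; gcongr
        _ = (m ^ 2) ^ (j - i) := by
            rw [← mul_pow]; congr 1; field_simp
  have hit := iterate (bad := bad) (CB := CB) (x := fun j => Real.sqrt ((1 + κ) * T j - T (j + 2)))
    hiJ hg hG hB
  -- the sum
  have hterm : ∀ j ∈ Finset.Ico i J, PP bad gg Gb i (j + 1) * Real.sqrt ((1 + κ) * T j - T (j + 2)) ≤
      Real.sqrt (T i) * (Real.sqrt (2 * κ) + Real.sqrt 2 * m ^ K) * m ^ (j - i) := by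
    intro j hj
    rw [Finset.mem_Ico] at hj
    have hp := hPP (j + 1) (by omega) (by omega)
    have hTj : T j ≤ T i := hTm hj.1
    rcases Nat.lt_or_ge (i + K) (j + 2) with hlt | hge
    · have hx : Real.sqrt ((1 + κ) * T j - T (j + 2)) ≤ Real.sqrt 2 * Real.sqrt (T i) := by
        rw [← Real.sqrt_mul (by norm_num)]
        apply Real.sqrt_le_sqrt
        have := hT0 (j + 2)
        nlinarith [hT0 j]
      calc PP bad gg Gb i (j + 1) * Real.sqrt ((1 + κ) * T j - T (j + 2))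
          ≤ (m ^ 2) ^ (j + 1 - i) * (Real.sqrt 2 * Real.sqrt (T i)) :=
            mul_le_mul hp hx (Real.sqrt_nonneg _) (by positivity)
        _ = Real.sqrt (T i) * (Real.sqrt 2 * m ^ (j + 1 - i)) * m ^ (j + 1 - i) := by
            rw [← pow_mul, mul_comm 2, pow_mul]; ring
        _ ≤ Real.sqrt (T i) * (Real.sqrt 2 * m ^ K) * m ^ (j - i) := by
            have hA := pow_le_pow_of_le_one hm0.le hm1.le (show K ≤ j + 1 - i by omega)
            have hB' := pow_le_pow_of_le_one hm0.le hm1.le (show j - i ≤ j + 1 - i by omega)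
            exact mul_le_mul (mul_le_mul_of_nonneg_left
              (mul_le_mul_of_nonneg_left hA (Real.sqrt_nonneg _)) (Real.sqrt_nonneg _)) hB'
              (by positivity) (by positivity)
        _ ≤ _ := by
            gcongr
            linarith [Real.sqrt_nonneg (2 * κ)]
    · have hx : Real.sqrt ((1 + κ) * T j - T (j + 2)) ≤ Real.sqrt (2 * κ) * Real.sqrt (T i) := by
        rw [← Real.sqrt_mul (by positivity)]
        apply Real.sqrt_le_sqrt
        have h5 : T (i + K) ≤ T (j + 2) := hTm (by omega)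
        nlinarith [hT0 j]
      calc PP bad gg Gb i (j + 1) * Real.sqrt ((1 + κ) * T j - T (j + 2))
          ≤ (m ^ 2) ^ (j + 1 - i) * (Real.sqrt (2 * κ) * Real.sqrt (T i)) :=
            mul_le_mul hp hx (Real.sqrt_nonneg _) (by positivity)
        _ = Real.sqrt (T i) * Real.sqrt (2 * κ) * m ^ (2 * (j + 1 - i)) := by
            rw [← pow_mul]; ring
        _ ≤ Real.sqrt (T i) * Real.sqrt (2 * κ) * m ^ (j - i) := by
            gcongr _ * ?_
            exact pow_le_pow_of_le_one hm0.le hm1.le (by omega)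
        _ ≤ _ := by
            gcongr
            have : 0 ≤ Real.sqrt 2 * m ^ K := by positivity
            linarith
  have hsum : ∑ j ∈ Finset.Ico i J, PP bad gg Gb i (j + 1) *
      Real.sqrt ((1 + κ) * T j - T (j + 2)) ≤
      Real.sqrt (T i) * ((Real.sqrt (2 * κ) + Real.sqrt 2 * m ^ K) / (1 - m)) := by
    calc _ ≤ ∑ j ∈ Finset.Ico i J,
          Real.sqrt (T i) * (Real.sqrt (2 * κ) + Real.sqrt 2 * m ^ K) * m ^ (j - i) :=
          Finset.sum_le_sum hterm
      _ = Real.sqrt (T i) * (Real.sqrt (2 * κ) + Real.sqrt 2 * m ^ K) *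
          ∑ k ∈ Finset.range (J - i), m ^ k := by
          rw [← Finset.mul_sum, Finset.sum_Ico_eq_sum_range]
          congr 1
          apply Finset.sum_congr rfl
          intro k _
          congr 1
          omega
      _ ≤ Real.sqrt (T i) * (Real.sqrt (2 * κ) + Real.sqrt 2 * m ^ K) * (1 - m)⁻¹ := by
          have : ∑ k ∈ Finset.range (J - i), m ^ k ≤ (1 - m)⁻¹ := by
            rw [← tsum_geometric_of_lt_one hm0.le hm1]
            exact (summable_geometric_of_lt_one hm0.le hm1).sum_le_tsum _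
              (fun k _ => by positivity)
          gcongr
      _ = _ := by rw [div_eq_mul_inv]; ring
  -- the top term
  have hrJ : r J ≤ Real.sqrt Ct * e ^ (J - i) * Real.sqrt (T i) := by
    have h3 : r J ^ 2 ≤ (Real.sqrt Ct * e ^ (J - i) * Real.sqrt (T i)) ^ 2 := by
      calc r J ^ 2 ≤ Ct * e ^ J * T J := hTop
        _ ≤ Ct * e ^ (2 * (J - i)) * T i := by
            have := hT0 J
            gcongr
            · exact hTm hiJ
        _ = _ := by
            rw [mul_pow, mul_pow, Real.sq_sqrt hCt, Real.sq_sqrt (hT0 i), ← pow_mul]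
            ring_nf
    exact (sq_le_sq₀ (hr J) (by positivity)).1 h3
  have htop : PP bad gg Gb i J * r J ≤ Real.sqrt (T i) * (Real.sqrt Ct * m ^ K) := by
    calc PP bad gg Gb i J * r J ≤ (m ^ 2) ^ (J - i) *
          (Real.sqrt Ct * e ^ (J - i) * Real.sqrt (T i)) :=
          mul_le_mul (hPP J hiJ le_rfl) hrJ (hr J) (by positivity)
      _ = Real.sqrt (T i) * (Real.sqrt Ct * ((e * m) ^ (J - i) * m ^ (J - i))) := by
          rw [mul_pow, ← pow_mul, mul_comm 2, pow_mul]; ring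
      _ ≤ Real.sqrt (T i) * (Real.sqrt Ct * (1 * m ^ K)) := by
          have hA := pow_le_pow_of_le_one hm0.le hm1.le (show K ≤ J - i by omega)
          have hB' : (e * m) ^ (J - i) ≤ 1 := pow_le_one₀ (by positivity) hem
          exact mul_le_mul_of_nonneg_left (mul_le_mul_of_nonneg_left
            (mul_le_mul hB' hA (by positivity) zero_le_one) (Real.sqrt_nonneg _))
            (Real.sqrt_nonneg _)
      _ = _ := by ring
  have hri : r i ≤ Real.sqrt (T i) *
      (Real.sqrt 2 * CB * ((Real.sqrt (2 * κ) + Real.sqrt 2 * m ^ K) / (1 - m)) +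
        Real.sqrt Ct * m ^ K) := by
    calc r i ≤ _ := hit
      _ ≤ Real.sqrt 2 * CB * (Real.sqrt (T i) *
          ((Real.sqrt (2 * κ) + Real.sqrt 2 * m ^ K) / (1 - m))) +
          Real.sqrt (T i) * (Real.sqrt Ct * m ^ K) := by gcongr
      _ = _ := by ring
  have h6 : T (i + 1) ≤ T i / 2 := by
    calc T (i + 1) ≤ CU * r i ^ 2 := hU
      _ ≤ CU * (Real.sqrt (T i) *
          (Real.sqrt 2 * CB * ((Real.sqrt (2 * κ) + Real.sqrt 2 * m ^ K) / (1 - m)) +
            Real.sqrt Ct * m ^ K)) ^ 2 := by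
          have := hr i
          gcongr
      _ = T i * (CU * (Real.sqrt 2 * CB * ((Real.sqrt (2 * κ) + Real.sqrt 2 * m ^ K) / (1 - m)) +
            Real.sqrt Ct * m ^ K) ^ 2) := by
          rw [mul_pow, Real.sq_sqrt (hT0 i)]; ring
      _ ≤ T i * (1 / 2) := by
          have := hT0 i
          gcongr
      _ = T i / 2 := by ring
  have h7 : T (i + K) ≤ T (i + 1) := hTm (by omega)
  have := hT0 i
  nlinarith

/-- decay from contraction at good indices -/
lemma decay {c3 c4 κ b3 : ℝ} {K J j0 : ℕ} {T : ℕ → ℝ} (hc4 : 0 < c4) (hc3 : 16 * c3 ≤ c4)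
    (hbad : ∀ j, j ≤ J → (nb bad 0 j : ℝ) ≤ c3 * (1 + j))
    (hT0 : ∀ j, 0 ≤ T j) (hT2 : ∀ j, T j ≤ 2) (hTm : Antitone T) (hK1 : 1 ≤ K)
    (hκ1 : κ ≤ 1 / 2) (hκ0 : 0 < κ) (hb0 : 0 < b3) (hb1 : b3 < 1) (hbK : b3 ^ (16 * K) = 1 - κ)
    (hctr : ∀ i, j0 ≤ i → Gd bad c4 J i → i + K ≤ J → J ≤ 2 * (J - i) → T (i + K) ≤ (1 - κ) * T i) :
    ∀ m, m ≤ J → T m ≤ 2 * (b3⁻¹ ^ (4 * (4 * K + 4 * j0 + 2))) * (b3 ^ 4) ^ m := by
  classical
  obtain ⟨K', rfl⟩ : ∃ K', K = K' + 1 := ⟨K - 1, by omega⟩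
  set Pi : ℕ → ℝ := fun i => ∏ l ∈ Finset.range (K' + 1), T (i + l) with hPi
  have hPi0 : ∀ i, 0 ≤ Pi i := fun i => Finset.prod_nonneg fun l _ => hT0 _
  have hstep : ∀ i (ρ : ℝ), 0 ≤ ρ → T (i + (K' + 1)) ≤ ρ * T i → Pi (i + 1) ≤ ρ * Pi i := by
    intro i ρ hρ h
    simp only [hPi]
    rw [Finset.prod_range_succ, Finset.prod_range_succ' (fun l => T (i + l))]
    have h1 : ∏ l ∈ Finset.range K', T (i + 1 + l) = ∏ l ∈ Finset.range K', T (i + (l + 1)) :=
      Finset.prod_congr rfl fun l _ => by congr 1; omega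
    have h2 : T (i + 1 + K') = T (i + (K' + 1)) := by congr 1; omega
    rw [h1, h2, add_zero]
    have h3 : 0 ≤ ∏ l ∈ Finset.range K', T (i + (l + 1)) := Finset.prod_nonneg fun l _ => hT0 _
    nlinarith
  -- bound of Pi
  have hPiB : ∀ j, j0 ≤ j → 2 * j ≤ J → K' + 1 ≤ j →
      Pi j ≤ 2 ^ (K' + 1) * (1 - κ) ^ ((Finset.Ico j0 j).filter (fun i => Gd bad c4 J i)).card := by
    intro j hj0 hjJ hKj
    have key : ∀ j', j0 ≤ j' → j' ≤ j → Pi j' ≤ 2 ^ (K' + 1) *
        (1 - κ) ^ ((Finset.Ico j0 j').filter (fun i => Gd bad c4 J i)).card := by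
      intro j' hj'
      induction j', hj' using Nat.le_induction with
      | base =>
        intro _
        simp only [Finset.Ico_self, Finset.filter_empty, Finset.card_empty, pow_zero, mul_one]
        calc Pi j0 ≤ ∏ l ∈ Finset.range (K' + 1), (2 : ℝ) :=
              Finset.prod_le_prod (fun l _ => hT0 _) (fun l _ => hT2 _)
          _ = 2 ^ (K' + 1) := by simp
      | succ i hi ih =>
        intro hij
        have h1 := ih (by omega)
        have h1κ : 0 ≤ 1 - κ := by linarith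
        by_cases hgd : Gd bad c4 J i
        · have h2 := hstep i (1 - κ) h1κ (hctr i hi hgd (by omega) (by omega))
          have h3 : ((Finset.Ico j0 (i + 1)).filter (fun i => Gd bad c4 J i)).card =
              ((Finset.Ico j0 i).filter (fun i => Gd bad c4 J i)).card + 1 := by
            rw [← Finset.insert_Ico_right_eq_Ico_add_one hi, Finset.filter_insert, if_pos hgd,
              Finset.card_insert_of_notMem]
            simp
          rw [h3, pow_succ]
          calc Pi (i + 1) ≤ (1 - κ) * Pi i := h2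
            _ ≤ (1 - κ) * (2 ^ (K' + 1) *
              (1 - κ) ^ ((Finset.Ico j0 i).filter (fun i => Gd bad c4 J i)).card) := by gcongr
            _ = _ := by ring
        · have h2 := hstep i 1 zero_le_one (by rw [one_mul]; exact hTm (by omega))
          have h3 : ((Finset.Ico j0 (i + 1)).filter (fun i => Gd bad c4 J i)).card =
              ((Finset.Ico j0 i).filter (fun i => Gd bad c4 J i)).card := by
            rw [← Finset.insert_Ico_right_eq_Ico_add_one hi, Finset.filter_insert, if_neg hgd]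
          rw [h3]
          linarith
    exact key j hj0 le_rfl
  have hTj : ∀ j, j0 ≤ j → 2 * j ≤ J → K' + 1 ≤ j →
      T (j + (K' + 1)) ≤ 2 * (b3 ^ 8) ^ (j - 2 * j0) := by
    intro j hj0 hjJ hKj
    have h1 := hPiB j hj0 hjJ hKj
    have h2 : T (j + (K' + 1)) ^ (K' + 1) ≤ Pi j := by
      calc T (j + (K' + 1)) ^ (K' + 1) = ∏ _l ∈ Finset.range (K' + 1), T (j + (K' + 1)) := by simp
        _ ≤ Pi j := by
          apply Finset.prod_le_prod (fun l _ => hT0 _)
          intro l hl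
          rw [Finset.mem_range] at hl
          exact hTm (by omega)
    have h3 := card_good (j0 := j0) hc4 hc3 hbad hjJ (by omega)
    set mm := ((Finset.Ico j0 j).filter (fun i => Gd bad c4 J i)).card with hmm
    have h4 : (1 - κ) ^ mm ≤ ((b3 ^ 8) ^ (j - 2 * j0)) ^ (K' + 1) := by
      rw [← hbK, ← pow_mul, ← pow_mul, ← pow_mul]
      apply pow_le_pow_of_le_one hb0.le hb1.le
      have : j - 2 * j0 ≤ 2 * mm := by omega
      calc 8 * ((j - 2 * j0) * (K' + 1)) ≤ 8 * ((2 * mm) * (K' + 1)) := by gcongr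
        _ = 16 * (K' + 1) * mm := by ring
    have h5 : T (j + (K' + 1)) ^ (K' + 1) ≤ (2 * (b3 ^ 8) ^ (j - 2 * j0)) ^ (K' + 1) := by
      rw [mul_pow]
      calc _ ≤ _ := h2.trans h1
        _ ≤ _ := by gcongr
    exact (pow_le_pow_iff_left₀ (hT0 _) (by positivity) (by omega)).1 h5
  intro m hm
  set N0 := 4 * (K' + 1) + 4 * j0 + 2 with hN0
  have hrew : 2 * (b3⁻¹ ^ (4 * N0)) * (b3 ^ 4) ^ m = 2 * ((b3 ^ 4) ^ m / (b3 ^ 4) ^ N0) := by
    rw [inv_pow, ← pow_mul b3 4 N0]; field_simp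
  rw [hrew]
  have hb4 : 0 < b3 ^ 4 := by positivity
  have hb41 : b3 ^ 4 ≤ 1 := pow_le_one₀ hb0.le hb1.le
  rcases Nat.lt_or_ge N0 m with hlt | hge
  · have h1 := hTj (m / 2 - (K' + 1)) (by omega) (by omega) (by omega)
    have h2 : T m ≤ T (m / 2 - (K' + 1) + (K' + 1)) := hTm (by omega)
    refine h2.trans (h1.trans ?_)
    have h3 : (b3 ^ 4) ^ m / (b3 ^ 4) ^ N0 = (b3 ^ 4) ^ (m - N0) := by
      rw [div_eq_iff (by positivity), ← pow_add]; congr 1; omega
    rw [h3]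
    gcongr 2 * ?_
    rw [← pow_mul, ← pow_mul]
    apply pow_le_pow_of_le_one hb0.le hb1.le
    omega
  · have h3 : 1 ≤ (b3 ^ 4) ^ m / (b3 ^ 4) ^ N0 := by
      rw [one_le_div (by positivity)]
      exact pow_le_pow_of_le_one hb4.le hb41 hge
    linarith [hT2 m]

end good

end

end Crest.Agent.R247.Clo858
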