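import Crest.Agent.R247.Clo2_858

/-!
# Closing numerics of block (1) (doc 1392, section 5), part 3: the closing theorems
-/

set_option autoImplicit false

namespace Crest.Agent.R247.Clo858

open Finset

noncomputable section

set_option maxHeartbeats 2000000 in
/-- **Closing theorem** (with smallness preconditions, all "steps legitimate").
`T j` = excess at scale `2 ^ j t` divided by `t`; `r j = D_j / √(s_j t)`. Backward recursion `hB` and
`hU` are only required where `D` is small compared with the radius. -/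
theorem closing_core (gg CU CB Gb Ct : ℝ) (hg1 : 1 ≤ gg) (hg2 : gg < Real.sqrt 2) (hCU : 0 ≤ CU)
    (hCB : 0 ≤ CB) (hGb : 1 ≤ Gb) (hCt : 0 ≤ Ct) :
    ∃ b c3 e del Hη : ℝ, 0 < b ∧ b < 1 ∧ 0 < c3 ∧ 1 < e ∧ 0 < del ∧ 0 < Hη ∧
      ∀ (η : ℝ) (_ : 0 < η) (j1 : ℕ), ∃ (j0 : ℕ) (C : ℝ), j1 ≤ j0 ∧ (Hη ≤ η → j0 = j1) ∧ 0 ≤ C ∧
      ∀ (J : ℕ) (T r : ℕ → ℝ) (bad : ℕ → Prop) [DecidablePred bad],
      (∀ j, 0 ≤ T j) → (∀ j, T j ≤ 2) → Antitone T → (∀ j, 0 ≤ r j) →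
      (∀ j, j1 ≤ j → j < J → r j ≤ η * (Real.sqrt 2) ^ j → T (j + 1) ≤ CU * r j ^ 2) →
      (∀ j, j1 ≤ j → j < J → r (j + 1) ≤ η * (Real.sqrt 2) ^ (j + 1) →
        r j ≤ (if bad j then Gb else gg) * ((Real.sqrt 2)⁻¹ * r (j + 1) +
          CB * Real.sqrt ((1 + del) * T j - T (j + 2)))) →
      (r J ^ 2 ≤ Ct * e ^ J * T J) →
      (∀ j, j ≤ J → (nb bad 0 j : ℝ) ≤ c3 * (1 + j)) →
      ∀ j, j0 ≤ j → j ≤ J → r j ≤ η * (Real.sqrt 2) ^ j ∧ T j ≤ C * b ^ j ∧ r j ^ 2 ≤ C * b ^ j := by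
  have hs2 : (0 : ℝ) < Real.sqrt 2 := by positivity
  have hgg0 : 0 < gg := by linarith
  have hlam0 : 0 < gg / Real.sqrt 2 := by positivity
  have hlam1 : gg / Real.sqrt 2 < 1 := by rw [div_lt_one hs2]; exact hg2
  obtain ⟨m, hm0, hm1, hm4⟩ := exists_root hlam0 hlam1 (n := 4) (by norm_num)
  have hminv : 1 < m⁻¹ := (one_lt_inv₀ hm0).2 hm1
  obtain ⟨c4, hc4, hd4⟩ := exists_dens (γ := m⁻¹ ^ 2) hGb (one_lt_pow₀ hminv (by norm_num))
  obtain ⟨κ, K, hκ0, hκ1, hK1, hsmall⟩ := exists_small hCU hCB hCt hm0 hm1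
  obtain ⟨b3, hb0, hb1, hbK⟩ := exists_root (a := 1 - κ) (by linarith) (by linarith)
    (n := 16 * K) (by omega)
  have hb3inv : 1 < b3⁻¹ := (one_lt_inv₀ hb0).2 hb1
  set s0 : ℝ := (1 + Real.sqrt 2 / gg) / 2 with hs0
  have hq : 1 < Real.sqrt 2 / gg := by rw [one_lt_div hgg0]; exact hg2
  have hs01 : 1 < s0 := by rw [hs0]; linarith
  have hs02 : s0 < Real.sqrt 2 / gg := by rw [hs0]; linarith
  set σ : ℝ := min b3⁻¹ (min m⁻¹ s0) with hσ
  have hσ1 : 1 < σ := lt_min hb3inv (lt_min hminv hs01)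
  have hσ0 : 0 < σ := by linarith
  have hσb : σ ≤ b3⁻¹ := min_le_left _ _
  have hσm : σ ≤ m⁻¹ := (min_le_right _ _).trans (min_le_left _ _)
  have hσs : σ < Real.sqrt 2 / gg := ((min_le_right _ _).trans (min_le_right _ _)).trans_lt hs02
  have hσlam : gg / Real.sqrt 2 * σ < 1 := by
    calc gg / Real.sqrt 2 * σ < gg / Real.sqrt 2 * (Real.sqrt 2 / gg) :=
          mul_lt_mul_of_pos_left hσs hlam0
      _ = 1 := by field_simp
  have hσ2 : σ < Real.sqrt 2 := by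
    refine hσs.trans_le ?_
    exact div_le_self hs2.le hg1
  set γ : ℝ := Real.sqrt σ with hγ
  have hγ1 : 1 < γ := by
    rw [hγ]; exact Real.lt_sqrt_of_sq_lt (by simpa using hσ1)
  have hγ0 : 0 < γ := by linarith
  have hγγ : γ * γ = σ := Real.mul_self_sqrt hσ0.le
  have hγσ : γ ≤ σ := by nlinarith
  obtain ⟨ca, hca, hda⟩ := exists_dens (γ := γ) hGb hγ1
  set R5 : ℝ := Real.sqrt (2 * Ct) with hR5
  set C5 : ℝ := Real.sqrt 2 * CB * (γ ^ 2 * 2 / (1 - gg / Real.sqrt 2 * σ)) + γ * R5 with hC5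
  have h1σ : 0 < 1 - gg / Real.sqrt 2 * σ := by linarith
  have hC50 : 0 ≤ C5 := by positivity
  refine ⟨b3 ^ 2, min ca (c4 / 16), σ, κ, C5 + 1, by positivity,
    pow_lt_one₀ hb0.le hb1 (by norm_num), by positivity, hσ1, hκ0, by positivity, ?_⟩
  intro η hη j1
  -- threshold j0
  have hσq0 : 0 ≤ σ / Real.sqrt 2 := by positivity
  have hσq1 : σ / Real.sqrt 2 < 1 := by rw [div_lt_one hs2]; exact hσ2
  obtain ⟨j0, hj1j0, hjH, hthr⟩ : ∃ j0, j1 ≤ j0 ∧ (C5 + 1 ≤ η → j0 = j1) ∧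
      ∀ j, j0 ≤ j → C5 * (σ / Real.sqrt 2) ^ j ≤ η := by
    by_cases hcase : C5 + 1 ≤ η
    · refine ⟨j1, le_rfl, fun _ => rfl, fun j _ => ?_⟩
      calc C5 * (σ / Real.sqrt 2) ^ j ≤ C5 * 1 := by
            gcongr
            exact pow_le_one₀ hσq0 hσq1.le
        _ ≤ η := by linarith
    · obtain ⟨j0', hj0'⟩ := exists_pow_lt_of_lt_one (show 0 < η / (C5 + 1) by positivity) hσq1
      refine ⟨max j0' j1, le_max_right _ _, fun h => absurd h hcase, fun j hj => ?_⟩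
      have h2 : (σ / Real.sqrt 2) ^ j ≤ (σ / Real.sqrt 2) ^ j0' :=
        pow_le_pow_of_le_one hσq0 hσq1.le ((le_max_left _ _).trans hj)
      calc C5 * (σ / Real.sqrt 2) ^ j ≤ (C5 + 1) * (η / (C5 + 1)) := by
            gcongr
            · linarith
            · exact h2.trans hj0'.le
        _ = η := by field_simp
  set CT : ℝ := 2 * (b3⁻¹ ^ (4 * (4 * K + 4 * j0 + 2))) with hCT
  have hCT0 : 0 ≤ CT := by positivity
  set C6 : ℝ := Real.sqrt 2 * CB * (γ ^ 2 * Real.sqrt (2 * CT) / (1 - gg / Real.sqrt 2 * b3)) +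
    γ * Real.sqrt (Ct * CT) with hC6
  refine ⟨j0, CT + C6 ^ 2, hj1j0, hjH, by positivity, ?_⟩
  intro J T r bad _ hT0 hT2 hTm hr hU hB hTop hbad
  have hc3a : ∀ j, j ≤ J → (nb bad 0 j : ℝ) ≤ ca * ((1 + j : ℕ) : ℝ) := by
    intro j hj
    refine (hbad j hj).trans ?_
    push_cast
    have : min ca (c4 / 16) ≤ ca := min_le_left _ _
    gcongr
  have hPP : ∀ j, ∀ i, j ≤ i → i ≤ J →
      PP bad gg Gb j i ≤ (gg / Real.sqrt 2) ^ (i - j) * γ ^ (1 + i) := by
    intro j i hji hiJ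
    refine (PP_le hg1 hGb hji).trans ?_
    have h1 : Gb ^ (nb bad j i) ≤ γ ^ (1 + i) := by
      apply hda
      refine le_trans ?_ (hc3a i hiJ)
      exact_mod_cast nb_mono_left (Nat.zero_le j)
    gcongr
  have hx2 : ∀ i, Real.sqrt ((1 + κ) * T i - T (i + 2)) ≤ Real.sqrt (2 * T i) := by
    intro i
    apply Real.sqrt_le_sqrt
    nlinarith [hT0 i, hT0 (i + 2)]
  have hrJ : r J ≤ R5 * (Real.sqrt σ) ^ J := by
    have h3 : r J ^ 2 ≤ (R5 * (Real.sqrt σ) ^ J) ^ 2 := by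
      calc r J ^ 2 ≤ Ct * σ ^ J * T J := hTop
        _ ≤ Ct * σ ^ J * 2 := by gcongr; exact hT2 J
        _ = _ := by
            rw [mul_pow, hR5, Real.sq_sqrt (by positivity), ← pow_mul, mul_comm J 2, pow_mul,
              Real.sq_sqrt hσ0.le]
            ring
    exact (sq_le_sq₀ (hr J) (by positivity)).1 h3
  -- a priori bound
  have hap : ∀ d j, J - j = d → j0 ≤ j → j ≤ J → r j ≤ η * (Real.sqrt 2) ^ j := by
    intro d
    induction d using Nat.strong_induction_on with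
    | _ d ih =>
      intro j hd hj0j hjJ
      have hB' : ∀ i, j ≤ i → i < J → r i ≤ GG bad gg Gb i * ((Real.sqrt 2)⁻¹ * r (i + 1) +
          CB * Real.sqrt ((1 + κ) * T i - T (i + 2))) := by
        intro i hji hiJ
        exact hB i (by omega) hiJ (ih (J - (i + 1)) (by omega) (i + 1) rfl (by omega) (by omega))
      have hit := iterate (bad := bad) (CB := CB)
        (x := fun j => Real.sqrt ((1 + κ) * T j - T (j + 2))) hjJ hg1 hGb hB'
      have h1 := geo_bound (bad := bad) (gg := gg) (Gb := Gb) (X := 2) (R := R5) (y := 1)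
        (z := Real.sqrt σ) (v := σ) (lam := gg / Real.sqrt 2) (γ := γ) hjJ hCB (by norm_num)
        (by positivity) (by norm_num) (by positivity) hσ0.le hlam0.le hγ1.le
        (by rw [mul_one]; exact hγσ) (by rw [← hγ, hγγ]) hσlam hlam1.le (hPP j)
        (fun i _ _ => Real.sqrt_nonneg _)
        (fun i _ _ => by
          rw [one_pow, mul_one]
          refine (hx2 i).trans ?_
          apply Real.sqrt_le_iff.2
          refine ⟨by norm_num, ?_⟩
          linarith [hT2 i]) hrJ (hr J) hit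
      refine h1.trans ?_
      rw [← hC5]
      have h3 : C5 * (σ / Real.sqrt 2) ^ j ≤ η := hthr j hj0j
      calc C5 * σ ^ j = C5 * (σ / Real.sqrt 2) ^ j * (Real.sqrt 2) ^ j := by
            rw [div_pow]; field_simp
        _ ≤ η * (Real.sqrt 2) ^ j := by gcongr
  have hsm : ∀ j, j0 ≤ j → j ≤ J → r j ≤ η * (Real.sqrt 2) ^ j := fun j h1 h2 =>
    hap (J - j) j rfl h1 h2
  have hB' : ∀ i, j0 ≤ i → i < J → r i ≤ GG bad gg Gb i * ((Real.sqrt 2)⁻¹ * r (i + 1) +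
      CB * Real.sqrt ((1 + κ) * T i - T (i + 2))) := by
    intro i hji hiJ
    exact hB i (hj1j0.trans hji) hiJ (hsm (i + 1) (by omega) (by omega))
  have hU' : ∀ i, j0 ≤ i → i < J → T (i + 1) ≤ CU * r i ^ 2 := by
    intro i hji hiJ
    exact hU i (hj1j0.trans hji) hiJ (hsm i hji hiJ.le)
  -- decay of T
  have hdec := decay (bad := bad) (c3 := min ca (c4 / 16)) (c4 := c4) (κ := κ) (b3 := b3) (K := K)
    (J := J) (j0 := j0) (T := T) hc4 (by have := min_le_right ca (c4 / 16); linarith) hbad hT0 hT2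
    hTm hK1 hκ1 hκ0 hb0 hb1 hbK (by
      intro i hji hgd hiK hJ2
      exact contr (bad := bad) (r := r) hg1 hGb rfl hm0 hm1 hm4.symm hσ1.le
        (by
          calc σ * m ≤ m⁻¹ * m := by gcongr
            _ = 1 := inv_mul_cancel₀ hm0.ne')
        hCU hCB hCt hκ0 hκ1 hK1 hsmall hd4 hT0 hTm hr (hU' i hji (by omega))
        (fun j hij hjJ => hB' j (by omega) hjJ) hTop hgd hiK hJ2)
  have hTd : ∀ m, m ≤ J → T m ≤ CT * (b3 ^ 4) ^ m := hdec
  have hb3v : σ * (b3 * b3) ≤ b3 := by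
    calc σ * (b3 * b3) ≤ b3⁻¹ * (b3 * b3) := by gcongr
      _ = b3 := by field_simp
  intro j hj0j hjJ
  refine ⟨hsm j hj0j hjJ, ?_, ?_⟩
  · calc T j ≤ CT * (b3 ^ 4) ^ j := hTd j hjJ
      _ ≤ CT * (b3 ^ 2) ^ j := by
        have : b3 ^ 4 ≤ b3 ^ 2 := pow_le_pow_of_le_one hb0.le hb1.le (by norm_num)
        gcongr
      _ ≤ (CT + C6 ^ 2) * (b3 ^ 2) ^ j := by
        gcongr
        nlinarith [sq_nonneg C6]
  · have hit := iterate (bad := bad) (CB := CB)
      (x := fun j => Real.sqrt ((1 + κ) * T j - T (j + 2))) hjJ hg1 hGb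
      (fun i h1 h2 => hB' i (by omega) h2)
    have hrJ2 : r J ≤ Real.sqrt (Ct * CT) * (Real.sqrt σ * b3 ^ 2) ^ J := by
      have h3 : r J ^ 2 ≤ (Real.sqrt (Ct * CT) * (Real.sqrt σ * b3 ^ 2) ^ J) ^ 2 := by
        calc r J ^ 2 ≤ Ct * σ ^ J * T J := hTop
          _ ≤ Ct * σ ^ J * (CT * (b3 ^ 4) ^ J) := by gcongr; exact hTd J le_rfl
          _ = _ := by
              have hpw : ((Real.sqrt σ * b3 ^ 2) ^ J) ^ 2 = σ ^ J * (b3 ^ 4) ^ J := by
                rw [← pow_mul, mul_comm J 2, pow_mul, mul_pow, Real.sq_sqrt hσ0.le, mul_pow]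
                congr 2
                ring
              rw [mul_pow, Real.sq_sqrt (by positivity), hpw]
              ring
      exact (sq_le_sq₀ (hr J) (by positivity)).1 h3
    have hlb : gg / Real.sqrt 2 * b3 < 1 := by nlinarith
    have h1 := geo_bound (bad := bad) (gg := gg) (Gb := Gb) (X := Real.sqrt (2 * CT))
      (R := Real.sqrt (Ct * CT)) (y := b3 ^ 2)
      (z := Real.sqrt σ * b3 ^ 2) (v := b3) (lam := gg / Real.sqrt 2) (γ := γ) hjJ hCB
      (by positivity) (by positivity) (by positivity) (by positivity) hb0.le hlam0.le hγ1.le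
      (by
        calc γ * b3 ^ 2 ≤ σ * (b3 * b3) := by rw [sq]; gcongr
          _ ≤ b3 := hb3v)
      (by
        rw [← hγ]
        calc γ * (γ * b3 ^ 2) = σ * (b3 * b3) := by rw [← hγγ]; ring
          _ ≤ b3 := hb3v) hlb hlam1.le (hPP j)
      (fun i _ _ => Real.sqrt_nonneg _)
      (fun i _ hiJ => by
        refine (hx2 i).trans ?_
        have h4 : 2 * T i ≤ (Real.sqrt (2 * CT) * (b3 ^ 2) ^ i) ^ 2 := by
          have hpw : ((b3 ^ 2) ^ i) ^ 2 = (b3 ^ 4) ^ i := by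
            rw [← pow_mul, ← pow_mul, ← pow_mul]; congr 1; ring
          rw [mul_pow, Real.sq_sqrt (by positivity), hpw]
          have := hTd i hiJ.le
          linarith
        exact Real.sqrt_le_iff.2 ⟨by positivity, h4⟩) hrJ2 (hr J) hit
    rw [← hC6] at h1
    have h5 : r j ^ 2 ≤ (C6 * b3 ^ j) ^ 2 := by
      have := hr j
      gcongr
    calc r j ^ 2 ≤ (C6 * b3 ^ j) ^ 2 := h5
      _ = C6 ^ 2 * (b3 ^ 2) ^ j := by rw [mul_pow, ← pow_mul, ← pow_mul, mul_comm j 2]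
      _ ≤ (CT + C6 ^ 2) * (b3 ^ 2) ^ j := by gcongr; linarith

end

end Crest.Agent.R247.Clo858
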