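import Mathlib.MeasureTheory.Integral.IntervalIntegral.AbsolutelyContinuousFun
import Mathlib.MeasureTheory.Integral.IntervalIntegral.FundThmCalculus
import Mathlib.Analysis.SpecialFunctions.SmoothTransition
import Mathlib.Analysis.Calculus.ContDiff.Deriv

/-!
# R247, block (1), doc 1392 section 6, deterministic part (1): calculus of antiderivatives

`AD F f a b` : `F` is an indefinite integral of the integrable function `f` on `[a, b]`.
-/

set_option autoImplicit false
noncomputable section
open Set Filter Topology MeasureTheory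
open scoped Interval

namespace Crest.Agent.R247.Cur301

/-- `F` is an indefinite integral of `f` on `[a, b]`. -/
structure AD (F f : ℝ → ℝ) (a b : ℝ) : Prop where
  le : a ≤ b
  int : IntervalIntegrable f volume a b
  eq : ∀ x ∈ Icc a b, F x = F a + ∫ y in a..x, f y

namespace AD
variable {F f G g : ℝ → ℝ} {a b : ℝ}

lemma int_sub (h : AD F f a b) {x y : ℝ} (hx : x ∈ Icc a b) (hy : y ∈ Icc a b) :
    IntervalIntegrable f volume x y :=
  h.int.mono_set (by
    rw [uIcc_of_le h.le]
    exact uIcc_subset_Icc hx hy)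

lemma sub_eq (h : AD F f a b) {x y : ℝ} (hx : x ∈ Icc a b) (hy : y ∈ Icc a b) :
    F y - F x = ∫ z in x..y, f z := by
  have ha : a ∈ Icc a b := left_mem_Icc.2 h.le
  rw [h.eq x hx, h.eq y hy, ← intervalIntegral.integral_add_adjacent_intervals
    (h.int_sub ha hx) (h.int_sub hx hy)]
  ring

lemma mono (h : AD F f a b) {x y : ℝ} (hx : x ∈ Icc a b) (hy : y ∈ Icc a b) (hxy : x ≤ y) :
    AD F f x y where
  le := hxy
  int := h.int_sub hx hy
  eq := fun z hz => by
    have hz' : z ∈ Icc a b := ⟨hx.1.trans hz.1, hz.2.trans hy.2⟩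
    have := h.sub_eq hx hz'
    linarith

lemma congr {F' f' : ℝ → ℝ} (h : AD F f a b) (hF : ∀ x ∈ Icc a b, F' x = F x)
    (hf : ∀ᵐ x, x ∈ Icc a b → f' x = f x) : AD F' f' a b where
  le := h.le
  int := by
    refine h.int.congr_ae ?_
    rw [uIoc_of_le h.le]
    refine (ae_restrict_iff' measurableSet_Ioc).2 ?_
    filter_upwards [hf] with x hx hx'
    exact (hx (Ioc_subset_Icc_self hx')).symm
  eq := fun x hx => by
    rw [hF x hx, hF a (left_mem_Icc.2 h.le), h.eq x hx]
    congr 1
    apply intervalIntegral.integral_congr_ae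
    filter_upwards [hf] with z hz hz'
    rw [uIoc_of_le hx.1] at hz'
    exact (hz ⟨hz'.1.le, hz'.2.trans hx.2⟩).symm

/-- the global representative -/
def ext (F f : ℝ → ℝ) (a : ℝ) (x : ℝ) : ℝ := F a + ∫ y in a..x, f y

lemma ac_ext (h : AD F f a b) : AbsolutelyContinuousOnInterval (ext F f a) a b := by
  have h1 := h.int.absolutelyContinuousOnInterval_intervalIntegral (c := a) (by simp)
  have h2 : AbsolutelyContinuousOnInterval (fun _ : ℝ => F a) a b := by
    have h3 : LipschitzOnWith 0 (fun _ : ℝ => F a) (uIcc a b) := by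
      intro x _ y _
      simp
    exact h3.absolutelyContinuousOnInterval
  exact h2.add h1

lemma deriv_ext (h : AD F f a b) : ∀ᵐ x, x ∈ uIcc a b → HasDerivAt (ext F f a) (f x) x := by
  filter_upwards [h.int.ae_hasDerivAt_integral] with x hx hx'
  exact (hx hx' a (by simp)).const_add _

lemma ext_eq (h : AD F f a b) {x : ℝ} (hx : x ∈ Icc a b) : ext F f a x = F x := (h.eq x hx).symm

lemma continuousOn (h : AD F f a b) : ContinuousOn F (Icc a b) := by
  have h1 := h.ac_ext.continuousOn
  rw [uIcc_of_le h.le] at h1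
  exact h1.congr fun x hx => (h.ext_eq hx).symm

lemma intervalIntegrable (h : AD F f a b) : IntervalIntegrable F volume a b := by
  apply ContinuousOn.intervalIntegrable
  rw [uIcc_of_le h.le]
  exact h.continuousOn

lemma add (h : AD F f a b) (h' : AD G g a b) :
    AD (fun x => F x + G x) (fun x => f x + g x) a b where
  le := h.le
  int := h.int.add h'.int
  eq := fun x hx => by
    have ha : a ∈ Icc a b := left_mem_Icc.2 h.le
    rw [intervalIntegral.integral_add (h.int_sub ha hx) (h'.int_sub ha hx), h.eq x hx, h'.eq x hx]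
    ring

lemma const_mul (h : AD F f a b) (c : ℝ) : AD (fun x => c * F x) (fun x => c * f x) a b where
  le := h.le
  int := h.int.const_mul c
  eq := fun x hx => by
    rw [intervalIntegral.integral_const_mul, h.eq x hx]
    ring

lemma sub (h : AD F f a b) (h' : AD G g a b) :
    AD (fun x => F x - G x) (fun x => f x - g x) a b := by
  have := h.add (h'.const_mul (-1))
  refine this.congr (fun x _ => by ring) (Eventually.of_forall fun x _ => by ring)

lemma const (hab : a ≤ b) (c : ℝ) : AD (fun _ => c) (fun _ => 0) a b where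
  le := hab
  int := by simp
  eq := fun x _ => by simp

lemma mul (h : AD F f a b) (h' : AD G g a b) :
    AD (fun x => F x * G x) (fun x => f x * G x + F x * g x) a b := by
  have hi : IntervalIntegrable (fun x => f x * G x + F x * g x) volume a b := by
    have hc1 := h.continuousOn
    have hc2 := h'.continuousOn
    rw [← uIcc_of_le h.le] at hc1 hc2
    exact (h.int.mul_continuousOn hc2).add (h'.int.continuousOn_mul hc1)
  refine ⟨h.le, hi, fun x hx => ?_⟩
  have ha : a ∈ Icc a b := left_mem_Icc.2 h.le
  have hsub : uIcc a x ⊆ uIcc a b := by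
    rw [uIcc_of_le h.le]
    exact uIcc_subset_Icc ha hx
  have h1 := AbsolutelyContinuousOnInterval.integral_deriv_mul_eq_sub
    (h.ac_ext.mono hsub) (h'.ac_ext.mono hsub)
  have h2 : ∫ y in a..x, (deriv (ext F f a) y * ext G g a y + ext F f a y * deriv (ext G g a) y) =
      ∫ y in a..x, (f y * G y + F y * g y) := by
    apply intervalIntegral.integral_congr_ae
    filter_upwards [h.deriv_ext, h'.deriv_ext] with y hy hy' hyx
    have hy1 : y ∈ uIcc a b := hsub (uIoc_subset_uIcc hyx)
    have hy2 : y ∈ Icc a b := by rwa [uIcc_of_le h.le] at hy1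
    rw [(hy hy1).deriv, (hy' hy1).deriv, h.ext_eq hy2, h'.ext_eq hy2]
  rw [h2, h.ext_eq hx, h'.ext_eq hx, h.ext_eq ha, h'.ext_eq ha] at h1
  linarith

/-- `C¹` functions. -/
lemma of_hasDerivAt (hab : a ≤ b) (h : ∀ x ∈ Icc a b, HasDerivAt F (f x) x)
    (hf : ContinuousOn f (Icc a b)) : AD F f a b where
  le := hab
  int := by
    apply ContinuousOn.intervalIntegrable
    rwa [uIcc_of_le hab]
  eq := fun x hx => by
    have ha : a ∈ Icc a b := left_mem_Icc.2 hab
    rw [intervalIntegral.integral_eq_sub_of_hasDerivAt]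
    · ring
    · intro y hy
      exact h y (uIcc_subset_Icc ha hx hy)
    · apply ContinuousOn.intervalIntegrable
      exact hf.mono (uIcc_subset_Icc ha hx)

lemma integral_eq (h : AD F f a b) : ∫ y in a..b, f y = F b - F a :=
  (h.sub_eq (left_mem_Icc.2 h.le) (right_mem_Icc.2 h.le)).symm

/-- Integration by parts with vanishing boundary values. -/
lemma parts (h : AD F f a b) (h' : AD G g a b) (h0 : F a * G a = 0) (h1 : F b * G b = 0) :
    ∫ x in a..b, F x * g x = - ∫ x in a..b, f x * G x := by
  have h2 := (h.mul h').integral_eq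
  have hc1 := h.continuousOn
  have hc2 := h'.continuousOn
  rw [← uIcc_of_le h.le] at hc1 hc2
  rw [intervalIntegral.integral_add (h.int.mul_continuousOn hc2) (h'.int.continuousOn_mul hc1),
    h0, h1] at h2
  linarith

/-- oscillation bound -/
lemma abs_sub_le (h : AD F f a b) {x y : ℝ} (hx : x ∈ Icc a b) (hy : y ∈ Icc a b) :
    |F y - F x| ≤ ∫ z in a..b, |f z| := by
  have key : ∀ x y, x ∈ Icc a b → y ∈ Icc a b → x ≤ y → |F y - F x| ≤ ∫ z in a..b, |f z| := by
    intro x y hx hy hxy
    rw [h.sub_eq hx hy]
    refine (intervalIntegral.abs_integral_le_integral_abs hxy).trans ?_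
    exact intervalIntegral.integral_mono_interval hx.1 hxy hy.2
      (Eventually.of_forall fun z => abs_nonneg _) h.int.abs
  rcases le_total x y with h1 | h1
  · exact key x y hx hy h1
  · rw [abs_sub_comm]
    exact key y x hy hx h1

end AD

end Crest.Agent.R247.Cur301
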