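import Crest.Agent.R247.Cur1_301

/-!
# R247, block (1), doc 1392 section 6, deterministic part (2): the cutoff functions

`chi` : smooth, `1` on `(-∞, 1/2]`, `0` on `[1, ∞)`; `ch s τ = chi (τ / s)`, derivatives `ch1`, `ch2`;
`ph s = ch (2 s) - ch s` supported in `[s / 2, 2 s]`, derivatives `ph1`, `ph2`.
-/

set_option autoImplicit false
noncomputable section
open Set Filter Topology MeasureTheory
open scoped Interval ContDiff

namespace Crest.Agent.R247.Cur301

def chi (x : ℝ) : ℝ := Real.smoothTransition (2 - 2 * x)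
def chi1 (x : ℝ) : ℝ := deriv chi x
def chi2 (x : ℝ) : ℝ := deriv chi1 x

lemma chi_contDiff : ContDiff ℝ ∞ chi :=
  Real.smoothTransition.contDiff.comp (by fun_prop)

lemma chi_eq_one {x : ℝ} (hx : x ≤ 1 / 2) : chi x = 1 :=
  Real.smoothTransition.one_of_one_le (by linarith)

lemma chi_eq_zero {x : ℝ} (hx : 1 ≤ x) : chi x = 0 :=
  Real.smoothTransition.zero_of_nonpos (by linarith)

lemma chi_nonneg (x : ℝ) : 0 ≤ chi x := Real.smoothTransition.nonneg _
lemma chi_le_one (x : ℝ) : chi x ≤ 1 := Real.smoothTransition.le_one _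

lemma chi1_contDiff : ContDiff ℝ ∞ chi1 := by
  have h := chi_contDiff
  rw [contDiff_infty_iff_deriv] at h
  exact h.2

lemma chi2_contDiff : ContDiff ℝ ∞ chi2 := by
  have h := chi1_contDiff
  rw [contDiff_infty_iff_deriv] at h
  exact h.2

lemma hasDerivAt_chi (x : ℝ) : HasDerivAt chi (chi1 x) x :=
  (chi_contDiff.differentiable (by simp) x).hasDerivAt

lemma hasDerivAt_chi1 (x : ℝ) : HasDerivAt chi1 (chi2 x) x :=
  (chi1_contDiff.differentiable (by simp) x).hasDerivAt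

lemma continuous_chi1 : Continuous chi1 := chi1_contDiff.continuous
lemma continuous_chi2 : Continuous chi2 := chi2_contDiff.continuous

/-- a function whose value is constant on an open set has zero derivative on its closure -/
lemma deriv_zero_closure {f f' : ℝ → ℝ} {c : ℝ} {U : Set ℝ} (hU : IsOpen U)
    (hf : ∀ x, HasDerivAt f (f' x) x) (hc : ∀ x ∈ U, f x = c) (h' : Continuous f') :
    ∀ x ∈ closure U, f' x = 0 := by
  have h1 : ∀ x ∈ U, f' x = 0 := by
    intro x hx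
    have h2 : f =ᶠ[𝓝 x] fun _ => c := by
      filter_upwards [hU.mem_nhds hx] with y hy
      exact hc y hy
    exact (hf x).unique ((hasDerivAt_const x c).congr_of_eventuallyEq h2)
  have h3 : IsClosed {x | f' x = 0} := isClosed_eq h' continuous_const
  exact fun x hx => closure_minimal (fun y hy => h1 y hy) h3 hx

lemma chi1_eq_zero {x : ℝ} (hx : x ≤ 1 / 2 ∨ 1 ≤ x) : chi1 x = 0 := by
  rcases hx with hx | hx
  · refine deriv_zero_closure isOpen_Iio hasDerivAt_chi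
      (fun y (hy : y < 1 / 2) => chi_eq_one hy.le) continuous_chi1 x ?_
    rw [closure_Iio]
    exact hx
  · refine deriv_zero_closure isOpen_Ioi hasDerivAt_chi
      (fun y (hy : 1 < y) => chi_eq_zero hy.le) continuous_chi1 x ?_
    rw [closure_Ioi]
    exact hx

lemma chi2_eq_zero {x : ℝ} (hx : x ≤ 1 / 2 ∨ 1 ≤ x) : chi2 x = 0 := by
  rcases hx with hx | hx
  · refine deriv_zero_closure isOpen_Iio hasDerivAt_chi1
      (fun y (hy : y < 1 / 2) => chi1_eq_zero (Or.inl hy.le)) continuous_chi2 x ?_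
    rw [closure_Iio]
    exact hx
  · refine deriv_zero_closure isOpen_Ioi hasDerivAt_chi1
      (fun y (hy : 1 < y) => chi1_eq_zero (Or.inr hy.le)) continuous_chi2 x ?_
    rw [closure_Ioi]
    exact hx

lemma exists_chiBound : ∃ C : ℝ, 1 ≤ C ∧ (∀ x, |chi1 x| ≤ C) ∧ ∀ x, |chi2 x| ≤ C := by
  obtain ⟨C1, h1⟩ := (isCompact_Icc (a := (0 : ℝ)) (b := 1)).exists_bound_of_continuousOn
    continuous_chi1.continuousOn
  obtain ⟨C2, h2⟩ := (isCompact_Icc (a := (0 : ℝ)) (b := 1)).exists_bound_of_continuousOn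
    continuous_chi2.continuousOn
  refine ⟨max 1 (max C1 C2), le_max_left _ _, fun x => ?_, fun x => ?_⟩
  · by_cases hx : x ∈ Icc (0 : ℝ) 1
    · exact (h1 x hx).trans ((le_max_left _ _).trans (le_max_right _ _))
    · rw [chi1_eq_zero, abs_zero]
      · exact zero_le_one.trans (le_max_left _ _)
      · by_contra h
        push Not at h
        exact hx ⟨by linarith [h.1], h.2.le⟩
  · by_cases hx : x ∈ Icc (0 : ℝ) 1
    · exact (h2 x hx).trans ((le_max_right _ _).trans (le_max_right _ _))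
    · rw [chi2_eq_zero, abs_zero]
      · exact zero_le_one.trans (le_max_left _ _)
      · by_contra h
        push Not at h
        exact hx ⟨by linarith [h.1], h.2.le⟩

/-- a bound for the derivatives of the cutoff -/
def cX : ℝ := exists_chiBound.choose

lemma one_le_cX : 1 ≤ cX := exists_chiBound.choose_spec.1
lemma abs_chi1 (x : ℝ) : |chi1 x| ≤ cX := exists_chiBound.choose_spec.2.1 x
lemma abs_chi2 (x : ℝ) : |chi2 x| ≤ cX := exists_chiBound.choose_spec.2.2 x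

/-! ### scaled cutoffs -/

def ch (s τ : ℝ) : ℝ := chi (τ / s)
def ch1 (s τ : ℝ) : ℝ := chi1 (τ / s) / s
def ch2 (s τ : ℝ) : ℝ := chi2 (τ / s) / s ^ 2

lemma hasDerivAt_ch (s τ : ℝ) : HasDerivAt (ch s) (ch1 s τ) τ := by
  have h1 : HasDerivAt (fun x : ℝ => x / s) (1 / s) τ := (hasDerivAt_id τ).div_const s
  have h2 : HasDerivAt (ch s) (chi1 (τ / s) * (1 / s)) τ := (hasDerivAt_chi (τ / s)).comp τ h1
  refine h2.congr_deriv ?_
  unfold ch1
  ring

lemma hasDerivAt_ch1 (s τ : ℝ) : HasDerivAt (ch1 s) (ch2 s τ) τ := by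
  have h1 : HasDerivAt (fun x : ℝ => x / s) (1 / s) τ := (hasDerivAt_id τ).div_const s
  have h2 : HasDerivAt (ch1 s) (chi2 (τ / s) * (1 / s) / s) τ :=
    ((hasDerivAt_chi1 (τ / s)).comp τ h1).div_const s
  refine h2.congr_deriv ?_
  unfold ch2
  ring

lemma continuous_ch (s : ℝ) : Continuous (ch s) :=
  chi_contDiff.continuous.comp (by fun_prop)
lemma continuous_ch1 (s : ℝ) : Continuous (ch1 s) :=
  (continuous_chi1.comp (by fun_prop)).div_const _
lemma continuous_ch2 (s : ℝ) : Continuous (ch2 s) :=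
  (continuous_chi2.comp (by fun_prop)).div_const _

lemma ch1_eq_zero {s τ : ℝ} (hs : 0 < s) (h : τ ≤ s / 2 ∨ s ≤ τ) : ch1 s τ = 0 := by
  rw [ch1, chi1_eq_zero, zero_div]
  rcases h with h | h
  · left
    rw [div_le_iff₀ hs]
    linarith
  · right
    rwa [le_div_iff₀ hs, one_mul]

lemma ch2_eq_zero {s τ : ℝ} (hs : 0 < s) (h : τ ≤ s / 2 ∨ s ≤ τ) : ch2 s τ = 0 := by
  rw [ch2, chi2_eq_zero, zero_div]
  rcases h with h | h
  · left
    rw [div_le_iff₀ hs]
    linarith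
  · right
    rwa [le_div_iff₀ hs, one_mul]

lemma ch_eq_one {s τ : ℝ} (hs : 0 < s) (h : τ ≤ s / 2) : ch s τ = 1 := by
  rw [ch, chi_eq_one]
  rw [div_le_iff₀ hs]
  linarith

lemma ch_eq_zero {s τ : ℝ} (hs : 0 < s) (h : s ≤ τ) : ch s τ = 0 := by
  rw [ch, chi_eq_zero]
  rwa [le_div_iff₀ hs, one_mul]

lemma ch_nonneg (s τ : ℝ) : 0 ≤ ch s τ := chi_nonneg _
lemma ch_le_one (s τ : ℝ) : ch s τ ≤ 1 := chi_le_one _

lemma abs_ch1 {s : ℝ} (hs : 0 < s) (τ : ℝ) : |ch1 s τ| ≤ cX / s := by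
  rw [ch1, abs_div, abs_of_pos hs]
  exact div_le_div_of_nonneg_right (abs_chi1 _) hs.le

lemma abs_ch2 {s : ℝ} (hs : 0 < s) (τ : ℝ) : |ch2 s τ| ≤ cX / s ^ 2 := by
  rw [ch2, abs_div, abs_of_pos (by positivity : (0 : ℝ) < s ^ 2)]
  exact div_le_div_of_nonneg_right (abs_chi2 _) (by positivity)

/-! ### the partition -/

def ph (s τ : ℝ) : ℝ := ch (2 * s) τ - ch s τ
def ph1 (s τ : ℝ) : ℝ := ch1 (2 * s) τ - ch1 s τ
def ph2 (s τ : ℝ) : ℝ := ch2 (2 * s) τ - ch2 s τ

lemma hasDerivAt_ph (s τ : ℝ) : HasDerivAt (ph s) (ph1 s τ) τ :=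
  (hasDerivAt_ch _ _).sub (hasDerivAt_ch _ _)
lemma hasDerivAt_ph1 (s τ : ℝ) : HasDerivAt (ph1 s) (ph2 s τ) τ :=
  (hasDerivAt_ch1 _ _).sub (hasDerivAt_ch1 _ _)

lemma continuous_ph (s : ℝ) : Continuous (ph s) := (continuous_ch _).sub (continuous_ch _)
lemma continuous_ph1 (s : ℝ) : Continuous (ph1 s) := (continuous_ch1 _).sub (continuous_ch1 _)
lemma continuous_ph2 (s : ℝ) : Continuous (ph2 s) := (continuous_ch2 _).sub (continuous_ch2 _)

lemma ph_eq_zero {s τ : ℝ} (hs : 0 < s) (h : τ ≤ s / 2 ∨ 2 * s ≤ τ) : ph s τ = 0 := by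
  rw [ph]
  rcases h with h | h
  · rw [ch_eq_one (by linarith) (by linarith), ch_eq_one hs h, sub_self]
  · rw [ch_eq_zero (by linarith) h, ch_eq_zero hs (by linarith), sub_self]

lemma ph1_eq_zero {s τ : ℝ} (hs : 0 < s) (h : τ ≤ s / 2 ∨ 2 * s ≤ τ) : ph1 s τ = 0 := by
  rw [ph1]
  rcases h with h | h
  · rw [ch1_eq_zero (by linarith) (Or.inl (by linarith)), ch1_eq_zero hs (Or.inl h), sub_self]
  · rw [ch1_eq_zero (by linarith) (Or.inr h), ch1_eq_zero hs (Or.inr (by linarith)), sub_self]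

lemma ph2_eq_zero {s τ : ℝ} (hs : 0 < s) (h : τ ≤ s / 2 ∨ 2 * s ≤ τ) : ph2 s τ = 0 := by
  rw [ph2]
  rcases h with h | h
  · rw [ch2_eq_zero (by linarith) (Or.inl (by linarith)), ch2_eq_zero hs (Or.inl h), sub_self]
  · rw [ch2_eq_zero (by linarith) (Or.inr h), ch2_eq_zero hs (Or.inr (by linarith)), sub_self]

lemma abs_ph (s τ : ℝ) : |ph s τ| ≤ 1 := by
  rw [ph, abs_le]
  have h1 := ch_nonneg (2 * s) τ
  have h2 := ch_nonneg s τ
  have h3 := ch_le_one (2 * s) τ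
  have h4 := ch_le_one s τ
  constructor <;> linarith

lemma abs_ph1 {s : ℝ} (hs : 0 < s) (τ : ℝ) : |ph1 s τ| ≤ 2 * cX / s := by
  have hc := one_le_cX
  have h1 := abs_ch1 (by linarith : 0 < 2 * s) τ
  have h2 := abs_ch1 hs τ
  rw [ph1]
  refine (abs_sub _ _).trans ?_
  have h3 : cX / (2 * s) ≤ cX / s := by
    apply div_le_div_of_nonneg_left (by linarith) hs (by linarith)
  have h4 : 2 * cX / s = cX / s + cX / s := by ring
  rw [h4]
  linarith

lemma abs_ph2 {s : ℝ} (hs : 0 < s) (τ : ℝ) : |ph2 s τ| ≤ 2 * cX / s ^ 2 := by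
  have hc := one_le_cX
  have h1 := abs_ch2 (by linarith : 0 < 2 * s) τ
  have h2 := abs_ch2 hs τ
  rw [ph2]
  refine (abs_sub _ _).trans ?_
  have h3 : cX / (2 * s) ^ 2 ≤ cX / s ^ 2 := by
    apply div_le_div_of_nonneg_left (by linarith) (by positivity)
    have : 0 < s ^ 2 := by positivity
    nlinarith
  have h4 : 2 * cX / s ^ 2 = cX / s ^ 2 + cX / s ^ 2 := by ring
  rw [h4]
  linarith

lemma AD_ph {s : ℝ} (a b : ℝ) (hab : a ≤ b) : AD (ph s) (ph1 s) a b :=
  AD.of_hasDerivAt hab (fun x _ => hasDerivAt_ph s x) (continuous_ph1 s).continuousOn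
lemma AD_ph1 {s : ℝ} (a b : ℝ) (hab : a ≤ b) : AD (ph1 s) (ph2 s) a b :=
  AD.of_hasDerivAt hab (fun x _ => hasDerivAt_ph1 s x) (continuous_ph2 s).continuousOn
lemma AD_ch {s : ℝ} (a b : ℝ) (hab : a ≤ b) : AD (ch s) (ch1 s) a b :=
  AD.of_hasDerivAt hab (fun x _ => hasDerivAt_ch s x) (continuous_ch1 s).continuousOn
lemma AD_ch1 {s : ℝ} (a b : ℝ) (hab : a ≤ b) : AD (ch1 s) (ch2 s) a b :=
  AD.of_hasDerivAt hab (fun x _ => hasDerivAt_ch1 s x) (continuous_ch2 s).continuousOn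

end Crest.Agent.R247.Cur301
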