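import Crest.Agent.R247.Cur2_301

/-!
# R247, block (1), doc 1392 section 6, deterministic part (3): the sharp estimate at one scale

Everything is scalar.  Along the minimiser `σ` put `U = u ∘ σ`, `U1 = U'`, `U1' = 1 + e`
(`e = (Hess u - g)(σ', σ')`), `K = k ∘ σ` (`k = |∇u|² - 2u`), `K1 = K'` and
`N = τ² - 2 τ U' + K + 2 U = |τ σ' - ∇u|² ≥ 0`.  Then `N' = K' - 2 τ e`.
-/

set_option autoImplicit false
noncomputable section
open Set Filter Topology MeasureTheory
open scoped Interval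

namespace Crest.Agent.R247.Cur301

/-- `|τ σ' - ∇u|²` -/
def Nf (U U1 K : ℝ → ℝ) (τ : ℝ) : ℝ := τ ^ 2 - 2 * τ * U1 τ + K τ + 2 * U τ

lemma AD_Nf {U U1 e K K1 : ℝ → ℝ} {a b : ℝ} (hU : AD U U1 a b)
    (hU1 : AD U1 (fun τ => 1 + e τ) a b) (hK : AD K K1 a b) :
    AD (Nf U U1 K) (fun τ => K1 τ - 2 * τ * e τ) a b := by
  have hid : AD (fun τ : ℝ => τ) (fun _ => (1 : ℝ)) a b :=
    AD.of_hasDerivAt hU.le (fun x _ => hasDerivAt_id x) continuousOn_const
  have h := (((hid.mul hid).sub ((hid.mul hU1).const_mul 2)).add hK).add (hU.const_mul 2)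
  refine h.congr (fun x _ => ?_) (Eventually.of_forall fun x _ => ?_)
  · unfold Nf
    ring
  · ring

/-- the sup bound of `N` and the bound of its variation -/
theorem N_bound {N N1 G H : ℝ → ℝ} {a b A X Nb : ℝ} (hab : a < b) (ha : 0 < a)
    (hN : AD N N1 a b) (hN0 : ∀ τ ∈ Icc a b, 0 ≤ N τ)
    (hN1 : ∀ᵐ τ, τ ∈ Icc a b → |N1 τ| ≤ G τ * √(N τ) / τ + 2 * H τ * N τ / τ)
    (hG : IntervalIntegrable G volume a b) (hH : IntervalIntegrable H volume a b)
    (hG0 : ∀ᵐ τ, τ ∈ Icc a b → 0 ≤ G τ) (hH0 : ∀ᵐ τ, τ ∈ Icc a b → 0 ≤ H τ)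
    (hA : ∫ τ in a..b, G τ / τ ≤ A) (hX : ∫ τ in a..b, H τ / τ ≤ X) (hX8 : X ≤ 1 / 8)
    (hNb : ∫ τ in a..b, N τ ≤ (b - a) * Nb) :
    ∃ S : ℝ, 0 ≤ S ∧ S ≤ 2 * (Nb + A ^ 2) ∧ ∫ τ in a..b, |N1 τ| ≤ √S * A + 2 * S * X := by
  -- the maximum
  obtain ⟨τ₁, hτ₁, hmax⟩ := isCompact_Icc.exists_isMaxOn (nonempty_Icc.2 hab.le) hN.continuousOn
  set S := N τ₁ with hS
  have hS0 : 0 ≤ S := hN0 _ hτ₁
  have hmax' : ∀ τ ∈ Icc a b, N τ ≤ S := fun τ hτ => hmax hτ
  -- a point below the mean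
  obtain ⟨τ₀, hτ₀, hmin⟩ := isCompact_Icc.exists_isMinOn (nonempty_Icc.2 hab.le) hN.continuousOn
  have hmin' : ∀ τ ∈ Icc a b, N τ₀ ≤ N τ := fun τ hτ => hmin hτ
  have h0 : N τ₀ ≤ Nb := by
    have h1 : (b - a) * N τ₀ ≤ ∫ τ in a..b, N τ := by
      have h2 := intervalIntegral.integral_mono_on hab.le
        (intervalIntegrable_const (c := N τ₀)) hN.intervalIntegrable hmin'
      simpa using h2
    have h2 : (b - a) * N τ₀ ≤ (b - a) * Nb := h1.trans hNb
    exact le_of_mul_le_mul_left h2 (sub_pos.2 hab)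
  -- integrability of `G/τ`, `H/τ`
  have hinv : ContinuousOn (fun τ : ℝ => τ⁻¹) (uIcc a b) := by
    rw [uIcc_of_le hab.le]
    exact continuousOn_inv₀.mono fun τ hτ => (ha.trans_le hτ.1).ne'
  have hGi : IntervalIntegrable (fun τ => G τ / τ) volume a b := by
    simp only [div_eq_mul_inv]
    exact hG.mul_continuousOn hinv
  have hHi : IntervalIntegrable (fun τ => H τ / τ) volume a b := by
    simp only [div_eq_mul_inv]
    exact hH.mul_continuousOn hinv
  -- the variation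
  have hvar : ∫ τ in a..b, |N1 τ| ≤ √S * A + 2 * S * X := by
    have h1 : ∫ τ in a..b, |N1 τ| ≤ ∫ τ in a..b, (√S * (G τ / τ) + 2 * S * (H τ / τ)) := by
      apply intervalIntegral.integral_mono_ae_restrict hab.le hN.int.abs
        ((hGi.const_mul _).add (hHi.const_mul _))
      refine (ae_restrict_iff' (measurableSet_Icc (a := a) (b := b))).2 ?_
      filter_upwards [hN1, hG0, hH0] with τ h1 h2 h3 hτ
      have hτ0 : 0 < τ := ha.trans_le hτ.1
      refine (h1 hτ).trans ?_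
      have h4 : √(N τ) ≤ √S := Real.sqrt_le_sqrt (hmax' τ hτ)
      have h5 : G τ * √(N τ) / τ ≤ √S * (G τ / τ) := by
        rw [mul_div_right_comm, mul_comm (√S)]
        exact mul_le_mul_of_nonneg_left h4 (div_nonneg (h2 hτ) hτ0.le)
      have h6 : 2 * H τ * N τ / τ ≤ 2 * S * (H τ / τ) := by
        have h7 : 2 * H τ * N τ / τ = 2 * (H τ / τ) * N τ := by ring
        have h8 : 2 * S * (H τ / τ) = 2 * (H τ / τ) * S := by ring
        rw [h7, h8]
        exact mul_le_mul_of_nonneg_left (hmax' τ hτ)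
          (by have := div_nonneg (h3 hτ) hτ0.le; linarith)
      linarith
    rw [intervalIntegral.integral_add (hGi.const_mul _) (hHi.const_mul _),
      intervalIntegral.integral_const_mul, intervalIntegral.integral_const_mul] at h1
    refine h1.trans ?_
    have h2 := mul_le_mul_of_nonneg_left hA (Real.sqrt_nonneg S)
    have h3 := mul_le_mul_of_nonneg_left hX (by linarith : (0 : ℝ) ≤ 2 * S)
    linarith
  refine ⟨S, hS0, ?_, hvar⟩
  have h1 := hN.abs_sub_le hτ₀ hτ₁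
  have h2 : N τ₁ - N τ₀ ≤ √S * A + 2 * S * X := (le_abs_self _).trans (h1.trans hvar)
  have h3 : √S * A ≤ S / 4 + A ^ 2 := by
    have h4 : √S ^ 2 = S := Real.sq_sqrt hS0
    nlinarith [sq_nonneg (√S / 2 - A)]
  have h5 : 2 * S * X ≤ S / 4 := by nlinarith
  linarith

/-- `∫ ph s * e` -/
theorem ph_e_bound {s : ℝ} {K K1 N e : ℝ → ℝ} (hs : 0 < s)
    (hK : AD K K1 (s / 2) (2 * s))
    (hN : AD N (fun τ => K1 τ - 2 * τ * e τ) (s / 2) (2 * s)) {Va Kb : ℝ}
    (hVa : ∫ τ in (s / 2)..(2 * s), |K1 τ - 2 * τ * e τ| ≤ Va)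
    (hKb : ∫ τ in (s / 2)..(2 * s), |K τ| ≤ (3 / 2 * s) * Kb) :
    |∫ τ in (s / 2)..(2 * s), ph s τ * e τ| ≤ 6 * cX * Kb / s + Va / s := by
  have hab : s / 2 ≤ 2 * s := by linarith
  have hc := one_le_cX
  have hpos : ∀ τ ∈ Icc (s / 2) (2 * s), 0 < τ := fun τ hτ => by linarith [hτ.1]
  -- the function `ψ = ph s / (2 τ)`
  set ψ : ℝ → ℝ := fun τ => ph s τ * (2 * τ)⁻¹ with hψ
  set ψ1 : ℝ → ℝ := fun τ => ph1 s τ * (2 * τ)⁻¹ + ph s τ * (-(2 * τ ^ 2)⁻¹) with hψ1
  have hinvD : AD (fun τ : ℝ => (2 * τ)⁻¹) (fun τ => -(2 * τ ^ 2)⁻¹) (s / 2) (2 * s) := by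
    refine AD.of_hasDerivAt hab (fun x hx => ?_) ?_
    · have hx0 := hpos x hx
      have h1 : HasDerivAt (fun τ : ℝ => 2 * τ) 2 x := by
        simpa using (hasDerivAt_id x).const_mul 2
      have h2 := h1.inv (by positivity)
      refine h2.congr_deriv ?_
      field_simp
    · apply ContinuousOn.neg
      apply ContinuousOn.inv₀ (by fun_prop)
      intro x hx
      have := hpos x hx
      positivity
  have hψD : AD ψ ψ1 (s / 2) (2 * s) := (AD_ph _ _ hab).mul hinvD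
  have hψa : ψ (s / 2) = 0 := by simp [hψ, ph_eq_zero hs (Or.inl le_rfl)]
  have hψb : ψ (2 * s) = 0 := by simp [hψ, ph_eq_zero hs (Or.inr le_rfl)]
  have hψc : ContinuousOn ψ (uIcc (s / 2) (2 * s)) := by
    rw [uIcc_of_le hab]
    exact hψD.continuousOn
  have hψ1c : ContinuousOn ψ1 (Icc (s / 2) (2 * s)) := by
    apply ContinuousOn.add
    · apply ContinuousOn.mul (continuous_ph1 s).continuousOn
      apply ContinuousOn.inv₀ (by fun_prop)
      intro x hx
      have := hpos x hx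
      positivity
    · apply ContinuousOn.mul (continuous_ph s).continuousOn
      apply ContinuousOn.neg
      apply ContinuousOn.inv₀ (by fun_prop)
      intro x hx
      have := hpos x hx
      positivity
  have hψ1c' : ContinuousOn ψ1 (uIcc (s / 2) (2 * s)) := by rwa [uIcc_of_le hab]
  -- splitting
  have h1 : ∫ τ in (s / 2)..(2 * s), ph s τ * e τ =
      (∫ τ in (s / 2)..(2 * s), ψ τ * K1 τ) -
        ∫ τ in (s / 2)..(2 * s), ψ τ * (K1 τ - 2 * τ * e τ) := by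
    rw [← intervalIntegral.integral_sub (hK.int.continuousOn_mul hψc)
      (hN.int.continuousOn_mul hψc)]
    apply intervalIntegral.integral_congr
    intro τ hτ
    rw [uIcc_of_le hab] at hτ
    have := hpos τ hτ
    simp only [hψ]
    field_simp
    ring
  have h2 : ∫ τ in (s / 2)..(2 * s), ψ τ * K1 τ = - ∫ τ in (s / 2)..(2 * s), ψ1 τ * K τ :=
    hψD.parts hK (by rw [hψa, zero_mul]) (by rw [hψb, zero_mul])
  -- bounds
  have hψ1b : ∀ τ ∈ Icc (s / 2) (2 * s), |ψ1 τ| ≤ 4 * cX / s ^ 2 := by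
    intro τ hτ
    have hτ0 := hpos τ hτ
    have hi1 : |(2 * τ)⁻¹| ≤ 1 / s := by
      rw [abs_of_pos (by positivity), inv_eq_one_div]
      exact one_div_le_one_div_of_le hs (by linarith [hτ.1])
    have hi2 : |-(2 * τ ^ 2)⁻¹| ≤ 2 / s ^ 2 := by
      rw [abs_neg, abs_of_pos (by positivity), inv_eq_one_div, div_le_div_iff₀ (by positivity)
        (by positivity)]
      have : s ^ 2 ≤ (2 * τ) ^ 2 := by
        apply pow_le_pow_left₀ hs.le
        linarith [hτ.1]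
      nlinarith
    calc |ψ1 τ| ≤ |ph1 s τ * (2 * τ)⁻¹| + |ph s τ * (-(2 * τ ^ 2)⁻¹)| := abs_add_le _ _
      _ = |ph1 s τ| * |(2 * τ)⁻¹| + |ph s τ| * |-(2 * τ ^ 2)⁻¹| := by rw [abs_mul, abs_mul]
      _ ≤ (2 * cX / s) * (1 / s) + 1 * (2 / s ^ 2) := by
          have e1 := abs_ph1 hs τ
          have e2 := abs_ph s τ
          gcongr
      _ = (2 * cX + 2) / s ^ 2 := by field_simp
      _ ≤ 4 * cX / s ^ 2 := by
          apply div_le_div_of_nonneg_right _ (by positivity)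
          linarith
  have hψb' : ∀ τ ∈ Icc (s / 2) (2 * s), |ψ τ| ≤ 1 / s := by
    intro τ hτ
    have hτ0 := hpos τ hτ
    have hi1 : |(2 * τ)⁻¹| ≤ 1 / s := by
      rw [abs_of_pos (by positivity), inv_eq_one_div]
      exact one_div_le_one_div_of_le hs (by linarith [hτ.1])
    rw [hψ, abs_mul]
    calc |ph s τ| * |(2 * τ)⁻¹| ≤ 1 * (1 / s) := by
          have e2 := abs_ph s τ
          gcongr
      _ = 1 / s := one_mul _
  have h3 : |∫ τ in (s / 2)..(2 * s), ψ1 τ * K τ| ≤ 6 * cX * Kb / s := by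
    refine (intervalIntegral.abs_integral_le_integral_abs hab).trans ?_
    have h4 : ∫ τ in (s / 2)..(2 * s), |ψ1 τ * K τ| ≤
        ∫ τ in (s / 2)..(2 * s), (4 * cX / s ^ 2) * |K τ| := by
      apply intervalIntegral.integral_mono_on hab
        ((hK.intervalIntegrable.continuousOn_mul hψ1c').abs) (hK.intervalIntegrable.abs.const_mul _)
      intro τ hτ
      rw [abs_mul]
      exact mul_le_mul_of_nonneg_right (hψ1b τ hτ) (abs_nonneg _)
    rw [intervalIntegral.integral_const_mul] at h4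
    refine h4.trans ?_
    calc 4 * cX / s ^ 2 * ∫ τ in (s / 2)..(2 * s), |K τ|
        ≤ 4 * cX / s ^ 2 * ((3 / 2 * s) * Kb) := by gcongr
      _ = 6 * cX * Kb / s := by
          field_simp
          ring
  have h5 : |∫ τ in (s / 2)..(2 * s), ψ τ * (K1 τ - 2 * τ * e τ)| ≤ Va / s := by
    refine (intervalIntegral.abs_integral_le_integral_abs hab).trans ?_
    have h4 : ∫ τ in (s / 2)..(2 * s), |ψ τ * (K1 τ - 2 * τ * e τ)| ≤
        ∫ τ in (s / 2)..(2 * s), (1 / s) * |K1 τ - 2 * τ * e τ| := by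
      apply intervalIntegral.integral_mono_on hab
        ((hN.int.continuousOn_mul hψc).abs) (hN.int.abs.const_mul _)
      intro τ hτ
      rw [abs_mul]
      exact mul_le_mul_of_nonneg_right (hψb' τ hτ) (abs_nonneg _)
    rw [intervalIntegral.integral_const_mul] at h4
    refine h4.trans ?_
    calc 1 / s * ∫ τ in (s / 2)..(2 * s), |K1 τ - 2 * τ * e τ| ≤ 1 / s * Va := by gcongr
      _ = Va / s := by ring
  rw [h1, h2]
  calc |(-∫ τ in (s / 2)..(2 * s), ψ1 τ * K τ) -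
        ∫ τ in (s / 2)..(2 * s), ψ τ * (K1 τ - 2 * τ * e τ)|
      ≤ |(-∫ τ in (s / 2)..(2 * s), ψ1 τ * K τ)| +
        |∫ τ in (s / 2)..(2 * s), ψ τ * (K1 τ - 2 * τ * e τ)| := abs_sub _ _
    _ ≤ _ := by
        rw [abs_neg]
        linarith

/-- two integrations by parts: `∫ ph2 s * U = ∫ ph s * (1 + e)` -/
theorem ph2_U {s : ℝ} {U U1 e : ℝ → ℝ} (hs : 0 < s) (hU : AD U U1 (s / 2) (2 * s))
    (hU1 : AD U1 (fun τ => 1 + e τ) (s / 2) (2 * s)) :
    ∫ τ in (s / 2)..(2 * s), ph2 s τ * U τ = ∫ τ in (s / 2)..(2 * s), ph s τ * (1 + e τ) := by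
  have hab : s / 2 ≤ 2 * s := by linarith
  have h1 := (AD_ph1 (s := s) _ _ hab).parts hU
    (by rw [ph1_eq_zero hs (Or.inl le_rfl), zero_mul])
    (by rw [ph1_eq_zero hs (Or.inr le_rfl), zero_mul])
  have h2 := (AD_ph (s := s) _ _ hab).parts hU1
    (by rw [ph_eq_zero hs (Or.inl le_rfl), zero_mul])
    (by rw [ph_eq_zero hs (Or.inr le_rfl), zero_mul])
  linarith

/-- the quadratic part: `∫ ph2 s * (τ - v)² / 2 = ∫ ph s` -/
theorem ph2_quad {s : ℝ} (hs : 0 < s) (v : ℝ) :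
    ∫ τ in (s / 2)..(2 * s), ph2 s τ * ((τ - v) ^ 2 / 2) = ∫ τ in (s / 2)..(2 * s), ph s τ := by
  have hab : s / 2 ≤ 2 * s := by linarith
  have h1 : AD (fun τ : ℝ => (τ - v) ^ 2 / 2) (fun τ => τ - v) (s / 2) (2 * s) := by
    refine AD.of_hasDerivAt hab (fun x _ => ?_) (by fun_prop)
    have h2 : HasDerivAt (fun τ : ℝ => τ - v) 1 x := (hasDerivAt_id x).sub_const v
    refine ((h2.pow 2).div_const 2).congr_deriv ?_
    simp
  have h2 : AD (fun τ : ℝ => τ - v) (fun τ => 1 + 0) (s / 2) (2 * s) := by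
    refine AD.of_hasDerivAt hab (fun x _ => ?_) (by fun_prop)
    simpa using (hasDerivAt_id x).sub_const v
  have h3 := ph2_U (e := fun _ => 0) hs h1 h2
  simpa using h3

/-- the decomposition of `∫ ph2 s * w`, `w = U + ρ² Q - (τ - v)² / 2` -/
theorem ph2_w {s ρ v : ℝ} {U U1 e Q w : ℝ → ℝ} (hs : 0 < s) (hU : AD U U1 (s / 2) (2 * s))
    (hU1 : AD U1 (fun τ => 1 + e τ) (s / 2) (2 * s))
    (hQ : IntervalIntegrable Q volume (s / 2) (2 * s))
    (hw : ∀ τ ∈ Icc (s / 2) (2 * s), w τ = U τ + ρ ^ 2 * Q τ - (τ - v) ^ 2 / 2) :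
    ∫ τ in (s / 2)..(2 * s), ph2 s τ * w τ =
      (∫ τ in (s / 2)..(2 * s), ph s τ * e τ) +
        ρ ^ 2 * ∫ τ in (s / 2)..(2 * s), ph2 s τ * Q τ := by
  have hab : s / 2 ≤ 2 * s := by linarith
  have hc2 : ContinuousOn (ph2 s) (uIcc (s / 2) (2 * s)) := (continuous_ph2 s).continuousOn
  have hc0 : ContinuousOn (ph s) (uIcc (s / 2) (2 * s)) := (continuous_ph s).continuousOn
  have he : IntervalIntegrable e volume (s / 2) (2 * s) := by
    have := hU1.int.sub (intervalIntegrable_const (c := (1 : ℝ)))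
    refine this.congr_ae (Eventually.of_forall fun x => ?_)
    simp
  have hq : IntervalIntegrable (fun τ : ℝ => (τ - v) ^ 2 / 2) volume (s / 2) (2 * s) := by
    apply Continuous.intervalIntegrable
    fun_prop
  have h1 : ∫ τ in (s / 2)..(2 * s), ph2 s τ * w τ =
      ∫ τ in (s / 2)..(2 * s), (ph2 s τ * U τ + ρ ^ 2 * (ph2 s τ * Q τ) -
        ph2 s τ * ((τ - v) ^ 2 / 2)) := by
    apply intervalIntegral.integral_congr
    intro τ hτ
    rw [uIcc_of_le hab] at hτ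
    simp only
    rw [hw τ hτ]
    ring
  have h2 : ∫ τ in (s / 2)..(2 * s), ph s τ * (1 + e τ) =
      (∫ τ in (s / 2)..(2 * s), ph s τ) + ∫ τ in (s / 2)..(2 * s), ph s τ * e τ := by
    rw [← intervalIntegral.integral_add ((continuous_ph s).intervalIntegrable _ _)
      (he.continuousOn_mul hc0)]
    apply intervalIntegral.integral_congr
    intro τ _
    simp only
    ring
  have i1 := hU.intervalIntegrable.continuousOn_mul hc2
  have i2 := (hQ.continuousOn_mul hc2).const_mul (ρ ^ 2)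
  have i3 := hq.continuousOn_mul hc2
  rw [h1, intervalIntegral.integral_sub (i1.add i2) i3, intervalIntegral.integral_add i1 i2,
    intervalIntegral.integral_const_mul, ph2_U hs hU hU1, ph2_quad hs v, h2]
  ring

end Crest.Agent.R247.Cur301
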