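import Crest.Agent.R247.Cur3_301

/-!
# R247, block (1), doc 1392 section 6, deterministic part (4): one scale, final form

`r τ = dist x (σ τ)`, `v = dist z w - dist x w`, `T τ = r τ - τ + v` (excess),
`w τ = r τ ^ 2 / 2 - (τ - v) ^ 2 / 2`.
-/

set_option autoImplicit false
noncomputable section
open Set Filter Topology MeasureTheory
open scoped Interval NNReal

namespace Crest.Agent.R247.Cur301

lemma AD.of_lipschitz {F : ℝ → ℝ} {a b L : ℝ} (hab : a ≤ b)
    (h : ∀ x ∈ Icc a b, ∀ y ∈ Icc a b, |F x - F y| ≤ L * |x - y|) : AD F (deriv F) a b := by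
  have hL : LipschitzOnWith (Real.toNNReal L) F (uIcc a b) := by
    rw [uIcc_of_le hab]
    refine LipschitzOnWith.of_dist_le_mul fun x hx y hy => ?_
    rw [Real.dist_eq, Real.dist_eq]
    refine (h x hx y hy).trans ?_
    gcongr
    exact Real.le_coe_toNNReal L
  have hac := hL.absolutelyContinuousOnInterval
  refine ⟨hab, hac.intervalIntegrable_deriv, fun x hx => ?_⟩
  have hsub : uIcc a x ⊆ uIcc a b := by
    rw [uIcc_of_le hab]
    exact uIcc_subset_Icc (left_mem_Icc.2 hab) hx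
  have := (hac.mono hsub).integral_deriv_eq_sub
  linarith

/-- the excess along the curve -/
def Tf (r : ℝ → ℝ) (v τ : ℝ) : ℝ := r τ - τ + v

/-- the defect function -/
def wf (r : ℝ → ℝ) (v τ : ℝ) : ℝ := r τ ^ 2 / 2 - (τ - v) ^ 2 / 2

/-- `h ∘ σ` -/
def gf (r : ℝ → ℝ) (τ : ℝ) : ℝ := r τ ^ 2 / 2

lemma wf_eq (r : ℝ → ℝ) (v τ : ℝ) : wf r v τ = (τ - v) * Tf r v τ + Tf r v τ ^ 2 / 2 := by
  unfold wf Tf
  ring

/-- the geometric hypotheses on the interval `[a, b]` -/
structure Crv (r : ℝ → ℝ) (v t a b : ℝ) : Prop where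
  lip : ∀ x ∈ Icc a b, ∀ y ∈ Icc a b, |r x - r y| ≤ |x - y|
  hv : |v| ≤ t
  hT0 : ∀ x ∈ Icc a b, 0 ≤ Tf r v x
  hT2 : ∀ x ∈ Icc a b, Tf r v x ≤ 2 * t

namespace Crv
variable {r : ℝ → ℝ} {v t a b : ℝ}

lemma mono (h : Crv r v t a b) {a' b' : ℝ} (ha : a ≤ a') (hb : b' ≤ b) : Crv r v t a' b' where
  lip := fun x hx y hy => h.lip x ⟨ha.trans hx.1, hx.2.trans hb⟩ y ⟨ha.trans hy.1, hy.2.trans hb⟩
  hv := h.hv
  hT0 := fun x hx => h.hT0 x ⟨ha.trans hx.1, hx.2.trans hb⟩
  hT2 := fun x hx => h.hT2 x ⟨ha.trans hx.1, hx.2.trans hb⟩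

lemma t_nonneg (h : Crv r v t a b) : 0 ≤ t := (abs_nonneg _).trans h.hv

lemma antitone (h : Crv r v t a b) {x y : ℝ} (hx : x ∈ Icc a b) (hy : y ∈ Icc a b) (hxy : x ≤ y) :
    Tf r v y ≤ Tf r v x := by
  have h1 := h.lip y hy x hx
  rw [abs_of_nonneg (by linarith : (0 : ℝ) ≤ y - x)] at h1
  have := (le_abs_self _).trans h1
  unfold Tf
  linarith

lemma abs_w_le (h : Crv r v t a b) {s : ℝ} (hab : a ≤ b) (hbs : b ≤ 2 * s) (hts : 8 * t ≤ s)
    (ha : t ≤ a) {x : ℝ} (hx : x ∈ Icc a b) :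
    0 ≤ wf r v x ∧ wf r v x ≤ 9 / 4 * s * Tf r v a := by
  have h0 := h.hT0 x hx
  have h2 := h.hT2 x hx
  have hv := abs_le.1 h.hv
  have ht := h.t_nonneg
  have hx1 : 0 ≤ x - v := by linarith [hx.1]
  have hx2 : x - v ≤ 17 / 8 * s := by linarith [hx.2]
  have h3 : Tf r v x ≤ Tf r v a := h.antitone ⟨le_rfl, hab⟩ hx hx.1
  rw [wf_eq]
  constructor
  · positivity
  · have h4 : Tf r v x ^ 2 / 2 ≤ (1 / 8 * s) * Tf r v x := by
      have : Tf r v x / 2 ≤ 1 / 8 * s := by linarith
      nlinarith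
    have hs : 0 ≤ s := by linarith
    calc (x - v) * Tf r v x + Tf r v x ^ 2 / 2
        ≤ (17 / 8 * s) * Tf r v x + (1 / 8 * s) * Tf r v x := by
          have := mul_le_mul_of_nonneg_right hx2 h0
          linarith
      _ = 9 / 4 * s * Tf r v x := by ring
      _ ≤ 9 / 4 * s * Tf r v a := by
          apply mul_le_mul_of_nonneg_left h3
          positivity

lemma r_bound (h : Crv r v t a b) {x : ℝ} (hx : x ∈ Icc a b) : |r x| ≤ |x| + 3 * t := by
  have h0 := h.hT0 x hx
  have h2 := h.hT2 x hx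
  have h1 : r x = Tf r v x + x - v := by unfold Tf; ring
  rw [h1]
  calc |Tf r v x + x - v| ≤ |Tf r v x| + |x| + |v| := by
        refine (abs_sub _ _).trans ?_
        gcongr
        exact abs_add_le _ _
    _ ≤ 2 * t + |x| + t := by
        rw [abs_of_nonneg h0]
        have := h.hv
        gcongr
    _ = |x| + 3 * t := by ring

lemma AD_g (h : Crv r v t a b) (hab : a ≤ b) : AD (gf r) (deriv (gf r)) a b := by
  refine AD.of_lipschitz (L := |a| + |b| + 3 * t) hab fun x hx y hy => ?_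
  have hx' : |x| ≤ |a| + |b| := by
    rw [abs_le]
    have h1 := neg_abs_le a
    have h2 := le_abs_self b
    have h3 := abs_nonneg a
    have h4 := abs_nonneg b
    constructor <;> linarith [hx.1, hx.2]
  have hy' : |y| ≤ |a| + |b| := by
    rw [abs_le]
    have h1 := neg_abs_le a
    have h2 := le_abs_self b
    have h3 := abs_nonneg a
    have h4 := abs_nonneg b
    constructor <;> linarith [hy.1, hy.2]
  have h1 := h.r_bound hx
  have h2 := h.r_bound hy
  have h3 := h.lip x hx y hy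
  have h4 : gf r x - gf r y = (r x + r y) / 2 * (r x - r y) := by unfold gf; ring
  rw [h4, abs_mul]
  have h5 : |(r x + r y) / 2| ≤ |a| + |b| + 3 * t := by
    rw [abs_div, abs_two]
    have := abs_add_le (r x) (r y)
    linarith
  exact mul_le_mul h5 h3 (abs_nonneg _) ((abs_nonneg _).trans h5)

lemma AD_w (h : Crv r v t a b) (hab : a ≤ b) :
    AD (wf r v) (fun τ => deriv (gf r) τ - (τ - v)) a b := by
  have h1 : AD (fun τ : ℝ => (τ - v) ^ 2 / 2) (fun τ => τ - v) a b := by
    refine AD.of_hasDerivAt hab (fun x _ => ?_) (by fun_prop)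
    have h2 : HasDerivAt (fun τ : ℝ => τ - v) 1 x := (hasDerivAt_id x).sub_const v
    refine ((h2.pow 2).div_const 2).congr_deriv ?_
    simp
  exact (h.AD_g hab).sub h1

/-- the integral of `|τ σ' - ∇h|² = τ² - 2 τ (h ∘ σ)' + 2 h` -/
lemma integral_Nh (h : Crv r v t a b) {s : ℝ} (ha : a = s / 2) (hb : b = 2 * s) (hs : 0 < s)
    (hts : 8 * t ≤ s) :
    ∫ τ in a..b, (τ ^ 2 - 2 * τ * deriv (gf r) τ + r τ ^ 2) ≤
      3 / 2 * s * (t ^ 2 + 21 / 2 * (s * Tf r v a)) := by
  have hab : a ≤ b := by linarith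
  have hAw := h.AD_w hab
  have hid : AD (fun τ : ℝ => τ) (fun _ => (1 : ℝ)) a b :=
    AD.of_hasDerivAt hab (fun x _ => hasDerivAt_id x) continuousOn_const
  have hprod := (hid.mul hAw).integral_eq
  have hwi := hAw.intervalIntegrable
  have i1 : IntervalIntegrable (fun τ => τ * (deriv (gf r) τ - (τ - v))) volume a b :=
    hAw.int.continuousOn_mul continuousOn_id
  have h1 : ∫ τ in a..b, (τ ^ 2 - 2 * τ * deriv (gf r) τ + r τ ^ 2) =
      ∫ τ in a..b, (v ^ 2 + 4 * wf r v τ -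
        2 * (1 * wf r v τ + τ * (deriv (gf r) τ - (τ - v)))) := by
    apply intervalIntegral.integral_congr
    intro τ _
    simp only [wf]
    ring
  have i2 : IntervalIntegrable (fun τ => v ^ 2 + 4 * wf r v τ) volume a b :=
    intervalIntegrable_const.add (hwi.const_mul 4)
  have i3 : IntervalIntegrable (fun τ => 2 * (1 * wf r v τ + τ * (deriv (gf r) τ - (τ - v))))
      volume a b := ((hwi.const_mul 1).add i1).const_mul 2
  rw [h1, intervalIntegral.integral_sub i2 i3, intervalIntegral.integral_const_mul, hprod,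
    intervalIntegral.integral_add intervalIntegrable_const (hwi.const_mul 4),
    intervalIntegral.integral_const_mul, intervalIntegral.integral_const, smul_eq_mul]
  have ht := h.t_nonneg
  have hta : t ≤ a := by linarith
  have hbs : b ≤ 2 * s := hb.le
  have h4 : ∫ τ in a..b, wf r v τ ≤ (b - a) * (9 / 4 * s * Tf r v a) := by
    have := intervalIntegral.integral_mono_on hab hwi
      (intervalIntegrable_const (c := 9 / 4 * s * Tf r v a))
      (fun τ hτ => (h.abs_w_le hab hbs hts hta hτ).2)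
    rw [intervalIntegral.integral_const, smul_eq_mul] at this
    exact this
  have h5 := h.abs_w_le hab hbs hts hta (left_mem_Icc.2 hab)
  have h6 := h.abs_w_le hab hbs hts hta (right_mem_Icc.2 hab)
  have h7 : v ^ 2 ≤ t ^ 2 := sq_le_sq' (by linarith [(abs_le.1 h.hv).1]) (abs_le.1 h.hv).2
  have hba : b - a = 3 / 2 * s := by linarith
  rw [hba] at h4 ⊢
  have h8 : (3 / 2 * s) * v ^ 2 ≤ (3 / 2 * s) * t ^ 2 :=
    mul_le_mul_of_nonneg_left h7 (by positivity)
  have h9 : 0 ≤ b * wf r v b := mul_nonneg (by linarith) h6.1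
  have h10 : a * wf r v a ≤ a * (9 / 4 * s * Tf r v a) :=
    mul_le_mul_of_nonneg_left h5.2 (by linarith)
  have h11 : a * (9 / 4 * s * Tf r v a) = 9 / 8 * (s * (s * Tf r v a)) := by
    rw [ha]
    ring
  have h12 : 0 ≤ s * (s * Tf r v a) :=
    mul_nonneg hs.le (mul_nonneg hs.le (h.hT0 a (left_mem_Icc.2 hab)))
  nlinarith

/-- **the cap**: `|I_s| ≤ 7 cX T(s / 2)` -/
theorem cap {s : ℝ} (h : Crv r v t (s / 2) (2 * s)) (hs : 0 < s) (hts : 8 * t ≤ s) :
    |∫ τ in (s / 2)..(2 * s), ph2 s τ * wf r v τ| ≤ 7 * cX * Tf r v (s / 2) := by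
  have hab : s / 2 ≤ 2 * s := by linarith
  have hc := one_le_cX
  have hT := h.hT0 (s / 2) (left_mem_Icc.2 hab)
  have h1 := intervalIntegral.norm_integral_le_of_norm_le_const
    (a := s / 2) (b := 2 * s) (f := fun τ => ph2 s τ * wf r v τ)
    (C := 2 * cX / s ^ 2 * (9 / 4 * s * Tf r v (s / 2))) (fun τ hτ => by
      rw [uIoc_of_le hab] at hτ
      have h2 := h.abs_w_le hab le_rfl hts (by linarith [h.t_nonneg])
        (Ioc_subset_Icc_self hτ)
      rw [Real.norm_eq_abs, abs_mul, abs_of_nonneg h2.1]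
      exact mul_le_mul (abs_ph2 hs τ) h2.2 h2.1 (by positivity))
  rw [Real.norm_eq_abs] at h1
  refine h1.trans ?_
  rw [abs_of_nonneg (by linarith : (0 : ℝ) ≤ 2 * s - s / 2)]
  have h3 : 2 * cX / s ^ 2 * (9 / 4 * s * Tf r v (s / 2)) * (2 * s - s / 2) =
      27 / 4 * (cX * Tf r v (s / 2)) := by
    field_simp
    ring
  rw [h3]
  have : 0 ≤ cX * Tf r v (s / 2) := by positivity
  linarith

end Crv

/-- Cauchy–Schwarz through the optimisation of a parameter -/
lemma sq_le_of_param {X L Y : ℝ} (hL : 0 < L) (hX : 0 ≤ X)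
    (h : ∀ c : ℝ, 0 < c → 2 * X ≤ c * L + Y / c) : X ^ 2 ≤ L * Y := by
  rcases hX.eq_or_lt with h0 | h0
  · have h1 := h
    rw [← h0] at h1 ⊢
    -- `Y ≥ 0`
    have hY : 0 ≤ Y := by
      by_contra hY
      push Not at hY
      have h2 := h1 (√(-Y / (2 * L))) (Real.sqrt_pos.2 (div_pos (by linarith) (by positivity)))
      set c := √(-Y / (2 * L)) with hc
      have hc0 : 0 < c := Real.sqrt_pos.2 (div_pos (by linarith) (by positivity))
      have hc2 : c ^ 2 = -Y / (2 * L) := Real.sq_sqrt (div_nonneg (by linarith) (by positivity))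
      have h3 : (0 : ℝ) ≤ c ^ 2 * L + Y := by
        have := mul_le_mul_of_nonneg_right h2 hc0.le
        have h4 : (c * L + Y / c) * c = c ^ 2 * L + Y := by
          field_simp
        rw [h4] at this
        linarith
      rw [hc2] at h3
      have h5 : -Y / (2 * L) * L = -Y / 2 := by field_simp
      rw [h5] at h3
      linarith
    nlinarith
  · have h1 := h (X / L) (by positivity)
    have h2 : X / L * L = X := div_mul_cancel₀ _ hL.ne'
    rw [h2] at h1
    have h3 : Y / (X / L) = L * Y / X := by field_simp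
    rw [h3] at h1
    have h4 : X ≤ L * Y / X := by linarith
    rw [le_div_iff₀ h0] at h4
    nlinarith

end Crest.Agent.R247.Cur301
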