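import Crest.Agent.R247.Cur4_301

/-!
# R247, block (1), doc 1392 section 6, deterministic part (5): the theorem at one scale

`scale_main` : `I_s² ≤ C C₁² (ρ²/s)² Y`, `Y = X² + k₁² + k₂ + Kb + Qb + Db`.
-/

set_option autoImplicit false
noncomputable section
open Set Filter Topology MeasureTheory
open scoped Interval NNReal

namespace Crest.Agent.R247.Cur301

/-- all quantities along the curve at one scale; `U = u ∘ σ`, `e = (Hess u - g)(σ', σ')`,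
`K = k ∘ σ`, `H = |Hess u - g| ∘ σ`, `Gn = |∇k| ∘ σ`, `Q = q ∘ σ`, `D = ρ² |∇q|² ∘ σ`. -/
structure Sc (r : ℝ → ℝ) (ρ a b : ℝ) (U U1 e Q K K1 Gn H D : ℝ → ℝ) : Prop where
  hU : AD U U1 a b
  hU1 : AD U1 (fun τ => 1 + e τ) a b
  hK : AD K K1 a b
  hQ : ∀ᵐ τ, τ ∈ Icc a b → gf r τ = U τ + ρ ^ 2 * Q τ
  hN0 : ∀ τ ∈ Icc a b, 0 ≤ Nf U U1 K τ
  hN1 : ∀ᵐ τ, τ ∈ Icc a b → |K1 τ - 2 * τ * e τ| ≤
    Gn τ * √(Nf U U1 K τ) / τ + 2 * H τ * Nf U U1 K τ / τ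
  hND : ∀ᵐ τ, τ ∈ Icc a b → Nf U U1 K τ ≤
    2 * (τ ^ 2 - 2 * τ * deriv (gf r) τ + r τ ^ 2) + 2 * ρ ^ 2 * D τ
  hGn : ∀ᵐ τ, τ ∈ Icc a b → 0 ≤ Gn τ
  hH : ∀ᵐ τ, τ ∈ Icc a b → 0 ≤ H τ
  hD : ∀ᵐ τ, τ ∈ Icc a b → 0 ≤ D τ
  iGn : IntervalIntegrable Gn volume a b
  iH : IntervalIntegrable H volume a b
  iD : IntervalIntegrable D volume a b

lemma div_int {a b : ℝ} (ha : 0 < a) (hab : a ≤ b) {f : ℝ → ℝ}
    (hf : IntervalIntegrable f volume a b) :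
    IntervalIntegrable (fun τ => f τ / τ) volume a b := by
  have hinv : ContinuousOn (fun τ : ℝ => τ⁻¹) (uIcc a b) := by
    rw [uIcc_of_le hab]
    exact continuousOn_inv₀.mono fun τ hτ => (ha.trans_le hτ.1).ne'
  simp only [div_eq_mul_inv]
  exact hf.mul_continuousOn hinv

/-- from `dτ / τ` to `dτ` -/
lemma int_le_div {a b : ℝ} (ha : 0 < a) (hab : a ≤ b) {f : ℝ → ℝ}
    (hf0 : ∀ᵐ τ, τ ∈ Icc a b → 0 ≤ f τ)
    (hf : IntervalIntegrable f volume a b) :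
    ∫ τ in a..b, f τ ≤ b * ∫ τ in a..b, f τ / τ := by
  rw [← intervalIntegral.integral_const_mul]
  apply intervalIntegral.integral_mono_ae_restrict hab hf ((div_int ha hab hf).const_mul _)
  refine (ae_restrict_iff' (measurableSet_Icc (a := a) (b := b))).2 ?_
  filter_upwards [hf0] with τ h0 hτ
  have hτ0 : 0 < τ := ha.trans_le hτ.1
  have h1 : f τ = τ * (f τ / τ) := by field_simp
  calc f τ = τ * (f τ / τ) := h1
    _ ≤ b * (f τ / τ) := mul_le_mul_of_nonneg_right hτ.2 (div_nonneg (h0 hτ) hτ0.le)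

/-- the mean of `N` -/
lemma N_mean {r : ℝ → ℝ} {v t s ρ C1 Db : ℝ} {U U1 e Q K K1 Gn H D : ℝ → ℝ}
    (hc : Crv r v t (s / 2) (2 * s)) (hs : 0 < s) (hts : 8 * t ≤ s) (hC1 : 1 ≤ C1)
    (hT : s * Tf r v (s / 2) ≤ C1 * ρ ^ 2) (ht : t ^ 2 ≤ C1 * ρ ^ 2)
    (hS : Sc r ρ (s / 2) (2 * s) U U1 e Q K K1 Gn H D)
    (hDb : ∫ τ in (s / 2)..(2 * s), D τ / τ ≤ Db) (hDb1 : Db ≤ 1) :
    ∫ τ in (s / 2)..(2 * s), Nf U U1 K τ ≤ (2 * s - s / 2) * (26 * C1 * ρ ^ 2) := by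
  have hab : s / 2 ≤ 2 * s := by linarith
  have hN := AD_Nf hS.hU hS.hU1 hS.hK
  have hDint : ∫ τ in (s / 2)..(2 * s), D τ ≤ 2 * s * Db :=
    (int_le_div (by linarith) hab hS.hD hS.iD).trans
      (mul_le_mul_of_nonneg_left hDb (by positivity))
  have hgi := (hc.AD_g hab).int
  have i1 : IntervalIntegrable (fun τ => τ ^ 2 - 2 * τ * deriv (gf r) τ + r τ ^ 2) volume
      (s / 2) (2 * s) := by
    have e1 : IntervalIntegrable (fun τ : ℝ => τ ^ 2) volume (s / 2) (2 * s) := by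
      apply Continuous.intervalIntegrable
      fun_prop
    have e2 : IntervalIntegrable (fun τ => 2 * τ * deriv (gf r) τ) volume (s / 2) (2 * s) :=
      hgi.continuousOn_mul (by fun_prop)
    have e3 : IntervalIntegrable (fun τ => r τ ^ 2) volume (s / 2) (2 * s) := by
      have := ((hc.AD_g hab).intervalIntegrable).const_mul 2
      refine this.congr_ae (Eventually.of_forall fun τ => ?_)
      simp only [gf]
      ring
    exact (e1.sub e2).add e3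
  have h1 : ∫ τ in (s / 2)..(2 * s), Nf U U1 K τ ≤ ∫ τ in (s / 2)..(2 * s),
      (2 * (τ ^ 2 - 2 * τ * deriv (gf r) τ + r τ ^ 2) + 2 * ρ ^ 2 * D τ) := by
    apply intervalIntegral.integral_mono_ae_restrict hab hN.intervalIntegrable
      ((i1.const_mul 2).add (hS.iD.const_mul _))
    exact (ae_restrict_iff' (measurableSet_Icc (a := s / 2) (b := 2 * s))).2 hS.hND
  rw [intervalIntegral.integral_add (i1.const_mul 2) (hS.iD.const_mul _),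
    intervalIntegral.integral_const_mul, intervalIntegral.integral_const_mul] at h1
  have h2 := hc.integral_Nh rfl rfl hs hts
  have hρ0 : 0 ≤ ρ ^ 2 := sq_nonneg ρ
  have h6 : 2 * ρ ^ 2 * ∫ τ in (s / 2)..(2 * s), D τ ≤ 2 * ρ ^ 2 * (2 * s * 1) := by
    apply mul_le_mul_of_nonneg_left _ (by positivity)
    refine hDint.trans ?_
    apply mul_le_mul_of_nonneg_left hDb1 (by positivity)
  have h7 : 3 / 2 * s * (t ^ 2 + 21 / 2 * (s * Tf r v (s / 2))) ≤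
      3 / 2 * s * (C1 * ρ ^ 2 + 21 / 2 * (C1 * ρ ^ 2)) := by
    apply mul_le_mul_of_nonneg_left _ (by positivity)
    linarith
  have h8 : 0 ≤ s * ρ ^ 2 := by positivity
  have h9 : s * ρ ^ 2 ≤ C1 * (s * ρ ^ 2) := le_mul_of_one_le_left h8 hC1
  have h10 : 3 / 2 * s * (C1 * ρ ^ 2 + 21 / 2 * (C1 * ρ ^ 2)) = 69 / 4 * (C1 * (s * ρ ^ 2)) := by
    ring
  have h11 : (2 * s - s / 2) * (26 * C1 * ρ ^ 2) = 39 * (C1 * (s * ρ ^ 2)) := by ring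
  have h12 : 2 * ρ ^ 2 * (2 * s * 1) = 4 * (s * ρ ^ 2) := by ring
  rw [h11]
  rw [h10] at h7
  rw [h12] at h6
  linarith

/-- the variation of `N` -/
lemma N_var {r : ℝ → ℝ} {v t s ρ C1 Db X A : ℝ} {U U1 e Q K K1 Gn H D : ℝ → ℝ}
    (hc : Crv r v t (s / 2) (2 * s)) (hs : 0 < s) (hts : 8 * t ≤ s) (hρ : 0 < ρ) (hC1 : 1 ≤ C1)
    (hT : s * Tf r v (s / 2) ≤ C1 * ρ ^ 2) (ht : t ^ 2 ≤ C1 * ρ ^ 2)
    (hS : Sc r ρ (s / 2) (2 * s) U U1 e Q K K1 Gn H D)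
    (hDb : ∫ τ in (s / 2)..(2 * s), D τ / τ ≤ Db) (hDb1 : Db ≤ 1)
    (hX : ∫ τ in (s / 2)..(2 * s), H τ / τ ≤ X) (hX8 : X ≤ 1 / 8)
    (hA : ∫ τ in (s / 2)..(2 * s), Gn τ / τ ≤ ρ * A) (hA1 : A ≤ 1) :
    ∫ τ in (s / 2)..(2 * s), |K1 τ - 2 * τ * e τ| ≤ C1 * ρ ^ 2 * (8 * A + 108 * X) := by
  have hab : s / 2 ≤ 2 * s := by linarith
  have hab' : s / 2 < 2 * s := by linarith
  have hN := AD_Nf hS.hU hS.hU1 hS.hK
  have hmean := N_mean hc hs hts hC1 hT ht hS hDb hDb1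
  have hpos : ∀ τ ∈ Icc (s / 2) (2 * s), 0 < τ := fun τ hτ => by linarith [hτ.1]
  have hX0 : 0 ≤ X := by
    refine le_trans ?_ hX
    apply intervalIntegral.integral_nonneg_of_ae_restrict hab
    refine (ae_restrict_iff' (measurableSet_Icc (a := s / 2) (b := 2 * s))).2 ?_
    filter_upwards [hS.hH] with τ h0 hτ
    exact div_nonneg (h0 hτ) (hpos τ hτ).le
  have hA0' : 0 ≤ ρ * A := by
    refine le_trans ?_ hA
    apply intervalIntegral.integral_nonneg_of_ae_restrict hab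
    refine (ae_restrict_iff' (measurableSet_Icc (a := s / 2) (b := 2 * s))).2 ?_
    filter_upwards [hS.hGn] with τ h0 hτ
    exact div_nonneg (h0 hτ) (hpos τ hτ).le
  have hA0 : 0 ≤ A := nonneg_of_mul_nonneg_right hA0' hρ
  obtain ⟨S, hS0, hSle, hSvar⟩ := N_bound (N1 := fun τ => K1 τ - 2 * τ * e τ)
    (G := Gn) (H := H) (A := ρ * A) (X := X)
    hab' (by linarith) hN hS.hN0 hS.hN1 hS.iGn hS.iH hS.hGn hS.hH hA hX hX8 hmean
  refine hSvar.trans ?_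
  have hρ2 : 0 < ρ ^ 2 := by positivity
  have hS54 : S ≤ 54 * C1 * ρ ^ 2 := by
    have h1 : (ρ * A) ^ 2 ≤ ρ ^ 2 * 1 := by
      rw [mul_pow]
      apply mul_le_mul_of_nonneg_left _ hρ2.le
      exact pow_le_one₀ hA0 hA1
    have h2 : ρ ^ 2 ≤ C1 * ρ ^ 2 := le_mul_of_one_le_left hρ2.le hC1
    linarith
  have hsS : √S ≤ 8 * C1 * ρ := by
    rw [Real.sqrt_le_left (by positivity)]
    have h1 : (8 * C1 * ρ) ^ 2 = 64 * C1 * (C1 * ρ ^ 2) := by ring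
    have h2 : C1 * ρ ^ 2 ≤ C1 * (C1 * ρ ^ 2) := le_mul_of_one_le_left (by positivity) hC1
    have h3 : 0 < C1 * ρ ^ 2 := by positivity
    linarith
  have h1 : √S * (ρ * A) ≤ 8 * C1 * ρ * (ρ * A) := mul_le_mul_of_nonneg_right hsS hA0'
  have h2 : 2 * S * X ≤ 2 * (54 * C1 * ρ ^ 2) * X := by
    apply mul_le_mul_of_nonneg_right _ hX0
    linarith
  calc √S * (ρ * A) + 2 * S * X ≤ 8 * C1 * ρ * (ρ * A) + 2 * (54 * C1 * ρ ^ 2) * X := by linarith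
    _ = C1 * ρ ^ 2 * (8 * A + 108 * X) := by ring

/-- `∫ ph2 s * Q` -/
lemma ph2_Q {s Qb : ℝ} {Q : ℝ → ℝ} (hs : 0 < s)
    (iQ : IntervalIntegrable Q volume (s / 2) (2 * s))
    (hQb : ∫ τ in (s / 2)..(2 * s), |Q τ| / τ ≤ Qb) :
    |∫ τ in (s / 2)..(2 * s), ph2 s τ * Q τ| ≤ 4 * cX * Qb / s := by
  have hab : s / 2 ≤ 2 * s := by linarith
  have hcX := one_le_cX
  have h0 : ∫ τ in (s / 2)..(2 * s), |Q τ| ≤ 2 * s * Qb :=
    (int_le_div (by linarith) hab (Eventually.of_forall fun τ _ => abs_nonneg _) iQ.abs).trans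
      (mul_le_mul_of_nonneg_left hQb (by positivity))
  refine (intervalIntegral.abs_integral_le_integral_abs hab).trans ?_
  have h1 : ∫ τ in (s / 2)..(2 * s), |ph2 s τ * Q τ| ≤
      ∫ τ in (s / 2)..(2 * s), (2 * cX / s ^ 2) * |Q τ| := by
    apply intervalIntegral.integral_mono_on hab
      ((iQ.continuousOn_mul (continuous_ph2 s).continuousOn).abs) (iQ.abs.const_mul _)
    intro τ hτ
    rw [abs_mul]
    exact mul_le_mul_of_nonneg_right (abs_ph2 hs τ) (abs_nonneg _)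
  rw [intervalIntegral.integral_const_mul] at h1
  refine h1.trans ?_
  calc 2 * cX / s ^ 2 * ∫ τ in (s / 2)..(2 * s), |Q τ|
      ≤ 2 * cX / s ^ 2 * (2 * s * Qb) := mul_le_mul_of_nonneg_left h0 (by positivity)
    _ = 4 * cX * Qb / s := by
        field_simp
        ring

/-- algebra -/
lemma alg_small {X k1 k2 Kb Qb Db Y : ℝ} (hX : 0 ≤ X) (hk1 : 0 ≤ k1) (hk2 : 0 ≤ k2) (hKb : 0 ≤ Kb)
    (hQb : 0 ≤ Qb) (hDb : 0 ≤ Db) (hY : X ^ 2 + k1 ^ 2 + k2 + Kb + Qb + Db = Y)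
    (hY1 : Y ≤ 1 / 200) :
    X ≤ √Y ∧ k1 ≤ √Y ∧ k2 ≤ √Y ∧ Kb ≤ √Y ∧ Qb ≤ √Y ∧ Db ≤ 1 ∧ √Y ≤ 1 / 14 := by
  have hX2 := sq_nonneg X
  have hk2' := sq_nonneg k1
  have hY0 : 0 ≤ Y := by linarith
  have h14 : √Y ≤ 1 / 14 := by
    rw [Real.sqrt_le_left (by norm_num)]
    linarith
  have hYs : Y ≤ √Y := by
    have h1 := Real.sq_sqrt hY0
    have h2 := Real.sqrt_nonneg Y
    nlinarith
  refine ⟨Real.le_sqrt_of_sq_le (by linarith), Real.le_sqrt_of_sq_le (by linarith),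
    by linarith, by linarith, by linarith, by linarith, h14⟩

/-- **The sharp bound at one scale.** -/
theorem scale_sharp {r : ℝ → ℝ} {v t s ρ C1 X k1 k2 Kb Qb Db Y : ℝ}
    {U U1 e Q K K1 Gn H D : ℝ → ℝ}
    (hc : Crv r v t (s / 2) (2 * s)) (hs : 0 < s) (hts : 8 * t ≤ s) (hρ : 0 < ρ) (hC1 : 1 ≤ C1)
    (hT : s * Tf r v (s / 2) ≤ C1 * ρ ^ 2) (ht : t ^ 2 ≤ C1 * ρ ^ 2)
    (hS : Sc r ρ (s / 2) (2 * s) U U1 e Q K K1 Gn H D)
    (hX : 0 ≤ X) (hk1 : 0 ≤ k1) (hk2 : 0 ≤ k2) (hKb : 0 ≤ Kb) (hQb : 0 ≤ Qb) (hDb : 0 ≤ Db)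
    (iX : ∫ τ in (s / 2)..(2 * s), H τ / τ ≤ X)
    (ik : ∫ τ in (s / 2)..(2 * s), Gn τ / τ ≤ ρ * (k1 + k2))
    (iKb : ∫ τ in (s / 2)..(2 * s), |K τ| / τ ≤ ρ ^ 2 * Kb)
    (iQb : ∫ τ in (s / 2)..(2 * s), |Q τ| / τ ≤ Qb)
    (iDb : ∫ τ in (s / 2)..(2 * s), D τ / τ ≤ Db)
    (hY : X ^ 2 + k1 ^ 2 + k2 + Kb + Qb + Db = Y) (hY1 : Y ≤ 1 / 200) :
    |∫ τ in (s / 2)..(2 * s), ph2 s τ * wf r v τ| ≤ ρ ^ 2 / s * C1 * (136 * cX * √Y) := by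
  have hab : s / 2 ≤ 2 * s := by linarith
  have hcX := one_le_cX
  obtain ⟨a1, a2, a3, a4, a5, a6, a7⟩ := alg_small hX hk1 hk2 hKb hQb hDb hY hY1
  have hsY0 := Real.sqrt_nonneg Y
  have iQ : IntervalIntegrable Q volume (s / 2) (2 * s) := by
    have h1 : IntervalIntegrable (fun τ => (gf r τ - U τ) / ρ ^ 2) volume (s / 2) (2 * s) :=
      (((hc.AD_g hab).intervalIntegrable).sub hS.hU.intervalIntegrable).div_const _
    refine h1.congr_ae ?_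
    rw [uIoc_of_le hab]
    refine (ae_restrict_iff' measurableSet_Ioc).2 ?_
    filter_upwards [hS.hQ] with τ h2 hτ
    have h3 := h2 (Ioc_subset_Icc_self hτ)
    simp only [h3]
    field_simp
    ring
  have hVa := N_var (A := k1 + k2) hc hs hts hρ hC1 hT ht hS iDb a6 iX (by linarith) ik
    (by linarith)
  have hKb' : ∫ τ in (s / 2)..(2 * s), |K τ| ≤ (3 / 2 * s) * (4 / 3 * (ρ ^ 2 * Kb)) := by
    refine (int_le_div (by linarith) hab (Eventually.of_forall fun τ _ => abs_nonneg _)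
      hS.hK.intervalIntegrable.abs).trans ?_
    calc 2 * s * ∫ τ in (s / 2)..(2 * s), |K τ| / τ ≤ 2 * s * (ρ ^ 2 * Kb) :=
          mul_le_mul_of_nonneg_left iKb (by positivity)
      _ = (3 / 2 * s) * (4 / 3 * (ρ ^ 2 * Kb)) := by ring
  have hN := AD_Nf hS.hU hS.hU1 hS.hK
  have hI1 := ph_e_bound hs hS.hK hN hVa hKb'
  have hI2 := ph2_Q hs iQ iQb
  have hdec : ∫ τ in (s / 2)..(2 * s), ph2 s τ * wf r v τ =
      (∫ τ in (s / 2)..(2 * s), ph s τ * e τ) +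
        ρ ^ 2 * ∫ τ in (s / 2)..(2 * s), ph2 s τ * Q τ := by
    rw [← ph2_w (ρ := ρ) (v := v) (Q := Q)
      (w := fun τ => U τ + ρ ^ 2 * Q τ - (τ - v) ^ 2 / 2) hs hS.hU hS.hU1 iQ (fun τ _ => rfl)]
    apply intervalIntegral.integral_congr_ae
    filter_upwards [hS.hQ] with τ h2 hτ
    rw [uIoc_of_le hab] at hτ
    have h3 := h2 (Ioc_subset_Icc_self hτ)
    unfold gf at h3
    unfold wf
    rw [h3]
  rw [hdec]
  refine (abs_add_le _ _).trans ?_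
  have hρ2 : 0 < ρ ^ 2 := by positivity
  rw [abs_mul, abs_of_nonneg hρ2.le]
  have h1 : ρ ^ 2 * |∫ τ in (s / 2)..(2 * s), ph2 s τ * Q τ| ≤ ρ ^ 2 * (4 * cX * Qb / s) :=
    mul_le_mul_of_nonneg_left hI2 hρ2.le
  have h2 : 6 * cX * (4 / 3 * (ρ ^ 2 * Kb)) / s + C1 * ρ ^ 2 * (8 * (k1 + k2) + 108 * X) / s +
      ρ ^ 2 * (4 * cX * Qb / s) =
      ρ ^ 2 / s * (8 * cX * Kb + C1 * (8 * (k1 + k2) + 108 * X) + 4 * cX * Qb) := by
    field_simp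
    ring
  have h3 : 8 * cX * Kb + C1 * (8 * (k1 + k2) + 108 * X) + 4 * cX * Qb ≤
      C1 * (136 * cX * √Y) := by
    have e3 : cX * Kb ≤ cX * √Y := mul_le_mul_of_nonneg_left a4 (by linarith)
    have e4 : cX * Qb ≤ cX * √Y := mul_le_mul_of_nonneg_left a5 (by linarith)
    have e5 : √Y ≤ cX * √Y := le_mul_of_one_le_left hsY0 hcX
    have e6 : cX * √Y ≤ C1 * (cX * √Y) := le_mul_of_one_le_left (by positivity) hC1
    have e7 : 8 * (k1 + k2) + 108 * X ≤ 124 * (cX * √Y) := by linarith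
    have e8 : C1 * (8 * (k1 + k2) + 108 * X) ≤ C1 * (124 * (cX * √Y)) :=
      mul_le_mul_of_nonneg_left e7 (by linarith)
    have e9 : C1 * (136 * cX * √Y) = C1 * (124 * (cX * √Y)) + 12 * (C1 * (cX * √Y)) := by ring
    rw [e9]
    linarith
  have h4 : ρ ^ 2 / s * (8 * cX * Kb + C1 * (8 * (k1 + k2) + 108 * X) + 4 * cX * Qb) ≤
      ρ ^ 2 / s * C1 * (136 * cX * √Y) := by
    rw [mul_assoc (ρ ^ 2 / s)]
    exact mul_le_mul_of_nonneg_left h3 (by positivity)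
  linarith

/-- **The theorem at one scale**: cap and sharp bound merged. -/
theorem scale_main {r : ℝ → ℝ} {v t s ρ C1 X k1 k2 Kb Qb Db : ℝ}
    {U U1 e Q K K1 Gn H D : ℝ → ℝ}
    (hc : Crv r v t (s / 2) (2 * s)) (hs : 0 < s) (hts : 8 * t ≤ s) (hρ : 0 < ρ) (hC1 : 1 ≤ C1)
    (hT : s * Tf r v (s / 2) ≤ C1 * ρ ^ 2) (ht : t ^ 2 ≤ C1 * ρ ^ 2)
    (hS : Sc r ρ (s / 2) (2 * s) U U1 e Q K K1 Gn H D)
    (hX : 0 ≤ X) (hk1 : 0 ≤ k1) (hk2 : 0 ≤ k2) (hKb : 0 ≤ Kb) (hQb : 0 ≤ Qb) (hDb : 0 ≤ Db)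
    (iX : ∫ τ in (s / 2)..(2 * s), H τ / τ ≤ X)
    (ik : ∫ τ in (s / 2)..(2 * s), Gn τ / τ ≤ ρ * (k1 + k2))
    (iKb : ∫ τ in (s / 2)..(2 * s), |K τ| / τ ≤ ρ ^ 2 * Kb)
    (iQb : ∫ τ in (s / 2)..(2 * s), |Q τ| / τ ≤ Qb)
    (iDb : ∫ τ in (s / 2)..(2 * s), D τ / τ ≤ Db) :
    (∫ τ in (s / 2)..(2 * s), ph2 s τ * wf r v τ) ^ 2 ≤
      20000 * cX ^ 2 * C1 ^ 2 * (ρ ^ 2 / s) ^ 2 * (X ^ 2 + k1 ^ 2 + k2 + Kb + Qb + Db) := by
  have hcX := one_le_cX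
  have hcap := hc.cap hs hts
  have hT' : Tf r v (s / 2) ≤ C1 * (ρ ^ 2 / s) := by
    rw [← mul_div_assoc, le_div_iff₀ hs]
    linarith
  have hY0 : 0 ≤ X ^ 2 + k1 ^ 2 + k2 + Kb + Qb + Db := by positivity
  rw [← sq_abs]
  by_cases hY200 : X ^ 2 + k1 ^ 2 + k2 + Kb + Qb + Db ≤ 1 / 200
  · have h1 := scale_sharp hc hs hts hρ hC1 hT ht hS hX hk1 hk2 hKb hQb hDb iX ik iKb iQb iDb rfl
      hY200
    refine (pow_le_pow_left₀ (abs_nonneg _) h1 2).trans ?_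
    have h2 := Real.sq_sqrt hY0
    calc (ρ ^ 2 / s * C1 * (136 * cX * √(X ^ 2 + k1 ^ 2 + k2 + Kb + Qb + Db))) ^ 2
        = 18496 * cX ^ 2 * C1 ^ 2 * (ρ ^ 2 / s) ^ 2 *
          (√(X ^ 2 + k1 ^ 2 + k2 + Kb + Qb + Db)) ^ 2 := by ring
      _ ≤ _ := by
          rw [h2]
          apply mul_le_mul_of_nonneg_right _ hY0
          have : 0 ≤ cX ^ 2 * C1 ^ 2 * (ρ ^ 2 / s) ^ 2 := by positivity
          linarith
  · push Not at hY200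
    have h1 : |∫ τ in (s / 2)..(2 * s), ph2 s τ * wf r v τ| ≤ 7 * cX * (C1 * (ρ ^ 2 / s)) :=
      hcap.trans (mul_le_mul_of_nonneg_left hT' (by linarith))
    refine (pow_le_pow_left₀ (abs_nonneg _) h1 2).trans ?_
    have h3 : 0 ≤ cX ^ 2 * C1 ^ 2 * (ρ ^ 2 / s) ^ 2 := by positivity
    calc (7 * cX * (C1 * (ρ ^ 2 / s))) ^ 2 = 49 * (cX ^ 2 * C1 ^ 2 * (ρ ^ 2 / s) ^ 2) := by ring
      _ ≤ 20000 * (cX ^ 2 * C1 ^ 2 * (ρ ^ 2 / s) ^ 2) * (1 / 200) := by linarith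
      _ ≤ 20000 * (cX ^ 2 * C1 ^ 2 * (ρ ^ 2 / s) ^ 2) *
          (X ^ 2 + k1 ^ 2 + k2 + Kb + Qb + Db) :=
          mul_le_mul_of_nonneg_left hY200.le (by positivity)
      _ = _ := by ring

end Crest.Agent.R247.Cur301
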