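import Crest.Agent.R247.Cur5_301
import Crest.Agent.R247.Far0_553

/-!
# R247, block (1), doc 1392 section 6, deterministic part (6): over `AlongD`

* `jf r v s = ∫ ch2 s * w`, `blk r v s = ∫ ph2 s * w = jf (2 s) - jf s`;
* `decomp` : the telescoping identity;
* `blk_le`, `blk_cap` : the block estimates in `ℝ≥0∞`;
* `first_le` : the first block.
-/

set_option autoImplicit false
noncomputable section
open Set Filter Topology MeasureTheory
open scoped Interval NNReal ENNReal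

namespace Crest.Agent.R247.Cur301
open Crest.Agent.R247.Far553

def jf (r : ℝ → ℝ) (v s : ℝ) : ℝ := ∫ τ in (s / 2)..s, ch2 s τ * wf r v τ

def blk (r : ℝ → ℝ) (v s : ℝ) : ℝ := ∫ τ in (s / 2)..(2 * s), ph2 s τ * wf r v τ

lemma Crv.of_min {r : ℝ → ℝ} {l v t : ℝ}
    (hlip : ∀ x ∈ Icc 0 l, ∀ y ∈ Icc 0 l, |r x - r y| ≤ |x - y|)
    (h0 : r 0 ≤ t) (hl : r l = l - v) (hv : |v| ≤ t) : Crv r v t 0 l where
  lip := hlip
  hv := hv
  hT0 := fun x hx => by
    have hx0 : 0 ≤ l := hx.1.trans hx.2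
    have h1 := hlip l ⟨hx0, le_rfl⟩ x hx
    rw [abs_of_nonneg (by linarith [hx.2] : (0 : ℝ) ≤ l - x)] at h1
    have := (le_abs_self _).trans h1
    unfold Tf
    linarith
  hT2 := fun x hx => by
    have hx0 : 0 ≤ l := hx.1.trans hx.2
    have h1 := hlip x hx 0 ⟨le_rfl, hx0⟩
    rw [sub_zero, abs_of_nonneg hx.1] at h1
    have := (le_abs_self _).trans h1
    have h2 := (abs_le.1 hv).2
    unfold Tf
    linarith

section telescoping
variable {r : ℝ → ℝ} {v t a b : ℝ}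

lemma blk_eq {s : ℝ} (hs : 0 < s) (h : Crv r v t a b) (ha : a ≤ s / 2) (hb : 2 * s ≤ b) :
    blk r v s = jf r v (2 * s) - jf r v s := by
  have hw : ∀ {c d : ℝ}, a ≤ c → c ≤ d → d ≤ b → IntervalIntegrable (wf r v) volume c d :=
    fun {c d} hc hcd hd => ((h.mono hc hd).AD_w hcd).intervalIntegrable
  have i1 : IntervalIntegrable (fun τ => ch2 (2 * s) τ * wf r v τ) volume (s / 2) (2 * s) :=
    (hw ha (by linarith) hb).continuousOn_mul (continuous_ch2 _).continuousOn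
  have i2 : IntervalIntegrable (fun τ => ch2 s τ * wf r v τ) volume (s / 2) (2 * s) :=
    (hw ha (by linarith) hb).continuousOn_mul (continuous_ch2 _).continuousOn
  have h1 : blk r v s = (∫ τ in (s / 2)..(2 * s), ch2 (2 * s) τ * wf r v τ) -
      ∫ τ in (s / 2)..(2 * s), ch2 s τ * wf r v τ := by
    unfold blk
    rw [← intervalIntegral.integral_sub i1 i2]
    apply intervalIntegral.integral_congr
    intro τ _
    simp only [ph2]
    ring
  have j1 : IntervalIntegrable (fun τ => ch2 (2 * s) τ * wf r v τ) volume (s / 2) s :=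
    (hw ha (by linarith) (by linarith)).continuousOn_mul (continuous_ch2 _).continuousOn
  have j2 : IntervalIntegrable (fun τ => ch2 (2 * s) τ * wf r v τ) volume s (2 * s) :=
    (hw (by linarith) (by linarith) hb).continuousOn_mul (continuous_ch2 _).continuousOn
  have j3 : IntervalIntegrable (fun τ => ch2 s τ * wf r v τ) volume (s / 2) s :=
    (hw ha (by linarith) (by linarith)).continuousOn_mul (continuous_ch2 _).continuousOn
  have j4 : IntervalIntegrable (fun τ => ch2 s τ * wf r v τ) volume s (2 * s) :=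
    (hw (by linarith) (by linarith) hb).continuousOn_mul (continuous_ch2 _).continuousOn
  have z1 : ∫ τ in (s / 2)..s, ch2 (2 * s) τ * wf r v τ = 0 := by
    rw [intervalIntegral.integral_congr (g := fun _ => (0 : ℝ))]
    · simp
    · intro τ hτ
      rw [uIcc_of_le (by linarith)] at hτ
      simp only
      rw [ch2_eq_zero (by linarith) (Or.inl (by linarith [hτ.2])), zero_mul]
  have z2 : ∫ τ in s..(2 * s), ch2 s τ * wf r v τ = 0 := by
    rw [intervalIntegral.integral_congr (g := fun _ => (0 : ℝ))]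
    · simp
    · intro τ hτ
      rw [uIcc_of_le (by linarith)] at hτ
      simp only
      rw [ch2_eq_zero hs (Or.inr hτ.1), zero_mul]
  rw [h1, ← intervalIntegral.integral_add_adjacent_intervals j1 j2,
    ← intervalIntegral.integral_add_adjacent_intervals j3 j4, z1, z2, jf, jf]
  have : 2 * s / 2 = s := by ring
  rw [this]
  ring

/-- the telescoping identity over the dyadic scales `dy i`, `i₁ < i ≤ m` -/
lemma sum_blk (h : Crv r v t a b) {i₁ m : ℕ} (him : i₁ ≤ m) (ha : a ≤ dy m / 2)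
    (hb : dy i₁ ≤ b) :
    ∑ i ∈ Finset.Ioc i₁ m, blk r v (dy i) = jf r v (dy i₁) - jf r v (dy m) := by
  induction m, him using Nat.le_induction with
  | base => simp
  | succ k hk ih =>
    have h2 : dy (k + 1) = dy k / 2 := dy_succ k
    have hk0 := dy_pos k
    rw [← Finset.insert_Ioc_right_eq_Ioc_add_one hk, Finset.sum_insert (by simp),
      ih (by rw [h2] at ha; linarith)]
    have h3 := blk_eq (dy_pos (k + 1)) h ha (by
      have := dy_anti hk
      rw [h2]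
      linarith)
    rw [h3]
    have h4 : 2 * dy (k + 1) = dy k := by rw [h2]; ring
    rw [h4]
    ring

/-- **(D)** the decomposition of the far defect -/
theorem decomp (h : Crv r v t a b) {i₁ m : ℕ} (him : i₁ ≤ m) (ha : a ≤ dy m / 2)
    (hb : dy i₁ ≤ b) (Dw : ℝ) :
    Dw - v = (Dw - v + jf r v (dy m)) + ∑ i ∈ Finset.Ioc i₁ m, blk r v (dy i)
      - jf r v (dy i₁) := by
  rw [sum_blk h him ha hb]
  ring

/-- **(T)** -/
theorem jf_cap {s : ℝ} (h : Crv r v t (s / 2) s) (hs : 0 < s) (hts : 8 * t ≤ s) :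
    |jf r v s| ≤ 2 * cX * Tf r v (s / 2) := by
  have hab : s / 2 ≤ s := by linarith
  have hc := one_le_cX
  have hT := h.hT0 (s / 2) (left_mem_Icc.2 hab)
  have h1 := intervalIntegral.norm_integral_le_of_norm_le_const
    (a := s / 2) (b := s) (f := fun τ => ch2 s τ * wf r v τ)
    (C := cX / s ^ 2 * (9 / 4 * s * Tf r v (s / 2))) (fun τ hτ => by
      rw [uIoc_of_le hab] at hτ
      have h2 := h.abs_w_le hab (by linarith : s ≤ 2 * s) hts (by linarith [h.t_nonneg])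
        (Ioc_subset_Icc_self hτ)
      rw [Real.norm_eq_abs, abs_mul, abs_of_nonneg h2.1]
      exact mul_le_mul (abs_ch2 hs τ) h2.2 h2.1 (by positivity))
  rw [Real.norm_eq_abs] at h1
  refine h1.trans ?_
  rw [abs_of_nonneg (by linarith : (0 : ℝ) ≤ s - s / 2)]
  have h3 : cX / s ^ 2 * (9 / 4 * s * Tf r v (s / 2)) * (s - s / 2) =
      9 / 8 * (cX * Tf r v (s / 2)) := by
    field_simp
    ring
  rw [h3]
  have : 0 ≤ cX * Tf r v (s / 2) := by positivity
  linarith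

end telescoping

/-! ### conversion to lower integrals -/

lemma ofReal_int_div {a b : ℝ} (ha : 0 < a) (hab : a ≤ b) {f : ℝ → ℝ}
    (hf0 : ∀ τ, 0 ≤ f τ) (hf : IntervalIntegrable f volume a b) :
    ENNReal.ofReal (∫ τ in a..b, f τ / τ) =
      ∫⁻ τ in Icc a b, ENNReal.ofReal (f τ) * ENNReal.ofReal τ⁻¹ := by
  have hi := div_int ha hab hf
  rw [intervalIntegral.integral_of_le hab, ← integral_Icc_eq_integral_Ioc,
    ofReal_integral_eq_lintegral_ofReal]
  · apply setLIntegral_congr_fun measurableSet_Icc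
    intro τ hτ
    simp only
    rw [div_eq_mul_inv, ENNReal.ofReal_mul (hf0 τ)]
  · rw [intervalIntegrable_iff_integrableOn_Ioc_of_le hab] at hi
    rwa [← integrableOn_Icc_iff_integrableOn_Ioc] at hi
  · refine (ae_restrict_iff' measurableSet_Icc).2 (Eventually.of_forall fun τ hτ => ?_)
    exact div_nonneg (hf0 τ) (ha.trans_le hτ.1).le

/-- integrability from finiteness of the lower integral -/
lemma intervalIntegrable_of_lint {a b : ℝ} (ha : 0 < a) (hab : a ≤ b) {f : ℝ → ℝ}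
    (hf0 : ∀ τ, 0 ≤ f τ) (hm : Measurable f)
    (h : ∫⁻ τ in Icc a b, ENNReal.ofReal (f τ) * ENNReal.ofReal τ⁻¹ ≠ ∞) :
    IntervalIntegrable f volume a b := by
  rw [intervalIntegrable_iff_integrableOn_Ioc_of_le hab]
  refine IntegrableOn.mono_set (t := Icc a b) ?_ Ioc_subset_Icc_self
  refine ⟨hm.aestronglyMeasurable, ?_⟩
  rw [hasFiniteIntegral_iff_ofReal (Eventually.of_forall hf0)]
  have hb0 : 0 < b := ha.trans_le hab
  have h1 : ∫⁻ τ in Icc a b, ENNReal.ofReal (f τ) ≤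
      ENNReal.ofReal b * ∫⁻ τ in Icc a b, ENNReal.ofReal (f τ) * ENNReal.ofReal τ⁻¹ := by
    rw [← lintegral_const_mul' _ _ ENNReal.ofReal_ne_top]
    apply setLIntegral_mono' measurableSet_Icc
    intro τ hτ
    have hτ0 : 0 < τ := ha.trans_le hτ.1
    rw [← ENNReal.ofReal_mul (hf0 τ), ← ENNReal.ofReal_mul hb0.le]
    apply ENNReal.ofReal_le_ofReal
    have h2 : 1 ≤ b * τ⁻¹ := by
      rw [← div_eq_mul_inv, one_le_div hτ0]
      exact hτ.2
    have h3 := mul_le_mul_of_nonneg_left h2 (hf0 τ)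
    have h4 : f τ * (b * τ⁻¹) = b * (f τ * τ⁻¹) := by ring
    linarith
  exact h1.trans_lt (ENNReal.mul_lt_top ENNReal.ofReal_lt_top h.lt_top)

/-- the right hand side of the block estimate -/
def Bq (ρ a b : ℝ) (qs ks Hs gs nks : ℝ → ℝ) : ℝ≥0∞ :=
  (∫⁻ τ in Icc a b, ENNReal.ofReal (Hs τ) * ENNReal.ofReal τ⁻¹) ^ 2 +
  (ENNReal.ofReal ρ⁻¹ * ∫⁻ τ in Icc a b,
    ENNReal.ofReal (if |ks τ| ≤ ρ ^ 2 then nks τ else 0) * ENNReal.ofReal τ⁻¹) ^ 2 +
  ENNReal.ofReal ρ⁻¹ * (∫⁻ τ in Icc a b,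
    ENNReal.ofReal (if |ks τ| ≤ ρ ^ 2 then 0 else nks τ) * ENNReal.ofReal τ⁻¹) +
  ENNReal.ofReal (ρ⁻¹ ^ 2) * (∫⁻ τ in Icc a b, ENNReal.ofReal |ks τ| * ENNReal.ofReal τ⁻¹) +
  (∫⁻ τ in Icc a b, ENNReal.ofReal (qs τ) * ENNReal.ofReal τ⁻¹) +
  (∫⁻ τ in Icc a b, ENNReal.ofReal (gs τ ^ 2) * ENNReal.ofReal τ⁻¹)

lemma Crv.abs_deriv_gf_le {r : ℝ → ℝ} {v t a b τ : ℝ} (h : Crv r v t a b) (hτ : τ ∈ Ioo a b) :
    |deriv (gf r) τ| ≤ |r τ| := by
  apply le_of_forall_pos_le_add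
  intro ε hε
  have key : ‖deriv (gf r) τ‖ ≤ |r τ| + ε := by
    refine norm_deriv_le_of_lip' (𝕜 := ℝ) (F := ℝ) (f := gf r) (x₀ := τ) (C := |r τ| + ε)
      (by positivity) ?_
    have h1 : ∀ᶠ x in 𝓝 τ, x ∈ Ioo a b := isOpen_Ioo.mem_nhds hτ
    have h2 : ∀ᶠ x in 𝓝 τ, |x - τ| < ε := by
      have := Metric.ball_mem_nhds τ hε
      filter_upwards [this] with x hx
      rwa [Metric.mem_ball, Real.dist_eq] at hx
    filter_upwards [h1, h2] with x hx hx2
    rw [Real.norm_eq_abs, Real.norm_eq_abs]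
    have h3 := h.lip x (Ioo_subset_Icc_self hx) τ (Ioo_subset_Icc_self hτ)
    have h4 : gf r x - gf r τ = (r x + r τ) / 2 * (r x - r τ) := by unfold gf; ring
    rw [h4, abs_mul]
    have h5 : |(r x + r τ) / 2| ≤ |r τ| + ε := by
      have h6 : (r x + r τ) / 2 = r τ + (r x - r τ) / 2 := by ring
      rw [h6]
      refine (abs_add_le _ _).trans ?_
      rw [abs_div, abs_two]
      have := abs_nonneg (r x - r τ)
      linarith
    exact mul_le_mul h5 h3 (abs_nonneg _) ((abs_nonneg _).trans h5)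
  rwa [Real.norm_eq_abs] at key

/-- the radial defect is nonnegative -/
lemma Crv.Nh_nonneg {r : ℝ → ℝ} {v t a b τ : ℝ} (h : Crv r v t a b) (hτ : τ ∈ Ioo a b)
    (h0 : 0 ≤ a) : 0 ≤ τ ^ 2 - 2 * τ * deriv (gf r) τ + r τ ^ 2 := by
  have h1 := h.abs_deriv_gf_le hτ
  have h2 := le_abs_self (deriv (gf r) τ)
  have hτ0 : 0 ≤ τ := h0.trans hτ.1.le
  have h3 : τ * deriv (gf r) τ ≤ τ * |r τ| := mul_le_mul_of_nonneg_left (h2.trans h1) hτ0
  have h4 : |r τ| ^ 2 = r τ ^ 2 := sq_abs _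
  nlinarith [sq_nonneg (τ - |r τ|)]

/-- `AlongD` gives `Sc` on a subinterval -/
lemma sc_of_along {l ρ Dw gz a b : ℝ} {r qs ks Hs gs nks : ℝ → ℝ}
    (A : AlongD l ρ (gf r) qs ks Hs gs nks Dw gz) {v t : ℝ} (hc : Crv r v t a b)
    (ha : 0 < a) (hab : a ≤ b) (hb : b ≤ l)
    (hH : ∀ τ, 0 ≤ Hs τ) (hn : ∀ τ, 0 ≤ nks τ) (hg : ∀ τ, 0 ≤ gs τ) (hρ : 0 < ρ)
    (ig : IntervalIntegrable (fun τ => gs τ ^ 2) volume a b) :
    Sc r ρ a b A.U A.U1 A.e qs A.K A.K1 nks Hs (fun τ => gs τ ^ 2) := by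
  have hl0 : 0 ≤ l := (ha.le.trans hab).trans hb
  have hsub : ∀ {τ : ℝ}, τ ∈ Icc a b → τ ∈ Icc 0 l := fun {τ} hτ =>
    ⟨ha.le.trans hτ.1, hτ.2.trans hb⟩
  have hmono : ∀ {f : ℝ → ℝ}, IntervalIntegrable f volume 0 l →
      IntervalIntegrable f volume a b := fun {f} hf =>
    hf.mono_set (by
      rw [uIcc_of_le hab, uIcc_of_le hl0]
      exact Icc_subset_Icc ha.le hb)
  have hae : ∀ {p : ℝ → Prop}, (∀ᵐ τ ∂(volume.restrict (Ioo 0 l)), p τ) →
      ∀ᵐ τ, τ ∈ Icc a b → p τ := fun {p} hp => by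
    rw [ae_restrict_iff' measurableSet_Ioo] at hp
    have h1 : ∀ᵐ τ : ℝ, τ ≠ l := by simp [ae_iff, measure_singleton]
    filter_upwards [hp, h1] with τ h2 h3 hτ
    exact h2 ⟨ha.trans_le hτ.1, lt_of_le_of_ne (hτ.2.trans hb) h3⟩
  have mkAD : ∀ {F f : ℝ → ℝ}, IntervalIntegrable f volume 0 l →
      (∀ c ∈ Icc 0 l, ∀ d ∈ Icc 0 l, F d - F c = ∫ τ in c..d, f τ) → AD F f a b :=
    fun {F f} hf hF => ⟨hab, hmono hf, fun x hx => by
      have := hF a (hsub ⟨le_rfl, hab⟩) x (hsub hx)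
      linarith⟩
  have iU1 : IntervalIntegrable A.U1 volume 0 l := by
    apply ContinuousOn.intervalIntegrable
    rw [uIcc_of_le hl0]
    exact A.U1_cont
  refine
    { hU := mkAD iU1 A.ftc_U
      hU1 := mkAD (intervalIntegrable_const.add A.e_int) A.ftc_U1
      hK := mkAD A.K1_int A.ftc_K
      hQ := ?_
      hN0 := fun τ hτ => A.N_nonneg τ (hsub hτ)
      hN1 := ?_
      hND := ?_
      hGn := Eventually.of_forall fun τ _ => hn τ
      hH := Eventually.of_forall fun τ _ => hH τ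
      hD := Eventually.of_forall fun τ _ => sq_nonneg _
      iGn := hmono A.nks_int
      iH := hmono A.Hs_int
      iD := ig }
  · filter_upwards [hae A.hU] with τ h1 hτ
    rw [h1 hτ]
    ring
  · filter_upwards [hae A.K1_le] with τ h1 hτ
    exact h1 hτ
  · have e1 : ∀ᵐ τ : ℝ, τ ≠ a := by simp [ae_iff, measure_singleton]
    have e2 : ∀ᵐ τ : ℝ, τ ≠ b := by simp [ae_iff, measure_singleton]
    filter_upwards [hae A.N_le, e1, e2] with τ h1 h1a h1b hτ
    have h2 := h1 hτ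
    have h3 := A.N_nonneg τ (hsub hτ)
    have h5 : 0 ≤ ρ * gs τ := mul_nonneg hρ.le (hg τ)
    have h6 := hc.Nh_nonneg (τ := τ)
      ⟨lt_of_le_of_ne hτ.1 (Ne.symm h1a), lt_of_le_of_ne hτ.2 h1b⟩ ha.le
    have h7 := Real.sq_sqrt h3
    have h8 := Real.sq_sqrt h6
    have h9 := Real.sqrt_nonneg (τ ^ 2 - 2 * τ * A.U1 τ + A.K τ + 2 * A.U τ)
    have h12 : 2 * gf r τ = r τ ^ 2 := by unfold gf; ring
    rw [h12] at h2
    have h11 : (√(τ ^ 2 - 2 * τ * A.U1 τ + A.K τ + 2 * A.U τ)) ^ 2 ≤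
        (√(τ ^ 2 - 2 * τ * deriv (gf r) τ + r τ ^ 2) + ρ * gs τ) ^ 2 :=
      pow_le_pow_left₀ h9 h2 2
    unfold Nf
    have h13 : (√(τ ^ 2 - 2 * τ * deriv (gf r) τ + r τ ^ 2) + ρ * gs τ) ^ 2 ≤
        2 * (√(τ ^ 2 - 2 * τ * deriv (gf r) τ + r τ ^ 2)) ^ 2 + 2 * (ρ * gs τ) ^ 2 := by
      nlinarith [sq_nonneg (√(τ ^ 2 - 2 * τ * deriv (gf r) τ + r τ ^ 2) - ρ * gs τ)]
    rw [h7] at h11
    rw [h8] at h13
    have h14 : (ρ * gs τ) ^ 2 = ρ ^ 2 * gs τ ^ 2 := by ring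
    rw [h14] at h13
    linarith

end Crest.Agent.R247.Cur301
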