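import Crest.Agent.R247.Cur6_301

/-!
# R247, block (1), doc 1392 section 6, deterministic part (7): the block estimates over `AlongD`

* `blk_le`, `blk_cap` : the block estimates in `ℝ≥0∞`;
* `first_real`, `first_le` : the first block.
-/

set_option autoImplicit false
noncomputable section
open Set Filter Topology MeasureTheory
open scoped Interval NNReal ENNReal

namespace Crest.Agent.R247.Cur301
open Crest.Agent.R247.Far553

/-- `∫ f dτ/τ` from the lower integral -/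
lemma int_eq_toReal {a b : ℝ} (ha : 0 < a) (hab : a ≤ b) {f : ℝ → ℝ}
    (hf0 : ∀ τ, 0 ≤ f τ) (hf : IntervalIntegrable f volume a b) :
    ∫ τ in a..b, f τ / τ =
      (∫⁻ τ in Icc a b, ENNReal.ofReal (f τ) * ENNReal.ofReal τ⁻¹).toReal := by
  rw [← ofReal_int_div ha hab hf0 hf, ENNReal.toReal_ofReal]
  exact intervalIntegral.integral_nonneg hab fun τ hτ => div_nonneg (hf0 τ) (ha.trans_le hτ.1).le

/-- **(B)** the block estimate -/
theorem blk_le {l ρ Dw gz s C1 v t : ℝ} {r qs ks Hs gs nks : ℝ → ℝ}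
    (A : AlongD l ρ (gf r) qs ks Hs gs nks Dw gz) (hc : Crv r v t (s / 2) (2 * s))
    (hs : 0 < s) (hts : 8 * t ≤ s) (hl : 2 * s ≤ l) (hρ : 0 < ρ) (hC1 : 1 ≤ C1)
    (hT : s * Tf r v (s / 2) ≤ C1 * ρ ^ 2) (ht : t ^ 2 ≤ C1 * ρ ^ 2)
    (mH : Measurable Hs) (mg : Measurable gs) (mn : Measurable nks) (mq : Measurable qs)
    (mk : Measurable ks)
    (hH : ∀ τ, 0 ≤ Hs τ) (hg : ∀ τ, 0 ≤ gs τ) (hn : ∀ τ, 0 ≤ nks τ) (hq : ∀ τ, 0 ≤ qs τ) :
    ENNReal.ofReal (blk r v s ^ 2) ≤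
      ENNReal.ofReal (20000 * cX ^ 2 * C1 ^ 2 * (ρ ^ 2 / s) ^ 2) *
        Bq ρ (s / 2) (2 * s) qs ks Hs gs nks := by
  have hcX := one_le_cX
  have hab : s / 2 ≤ 2 * s := by linarith
  have ha : 0 < s / 2 := by linarith
  have hcoef : 0 < 20000 * cX ^ 2 * C1 ^ 2 * (ρ ^ 2 / s) ^ 2 := by positivity
  by_cases hB : Bq ρ (s / 2) (2 * s) qs ks Hs gs nks = ∞
  · rw [hB, ENNReal.mul_top (by simpa using hcoef)]
    exact le_top
  have mks : Measurable fun τ => |ks τ| := mk.abs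
  have hset : MeasurableSet {τ | |ks τ| ≤ ρ ^ 2} := measurableSet_le mks measurable_const
  set n1 : ℝ → ℝ := fun τ => if |ks τ| ≤ ρ ^ 2 then nks τ else 0 with hn1
  set n2 : ℝ → ℝ := fun τ => if |ks τ| ≤ ρ ^ 2 then 0 else nks τ with hn2
  have mn1 : Measurable n1 := Measurable.ite hset mn measurable_const
  have mn2 : Measurable n2 := Measurable.ite hset measurable_const mn
  have n1n : ∀ τ, 0 ≤ n1 τ := fun τ => by
    simp only [hn1]
    split_ifs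
    · exact hn τ
    · exact le_rfl
  have n2n : ∀ τ, 0 ≤ n2 τ := fun τ => by
    simp only [hn2]
    split_ifs
    · exact le_rfl
    · exact hn τ
  set T1 := ∫⁻ τ in Icc (s / 2) (2 * s), ENNReal.ofReal (Hs τ) * ENNReal.ofReal τ⁻¹ with hT1
  set T2 := ∫⁻ τ in Icc (s / 2) (2 * s), ENNReal.ofReal (n1 τ) * ENNReal.ofReal τ⁻¹ with hT2
  set T3 := ∫⁻ τ in Icc (s / 2) (2 * s), ENNReal.ofReal (n2 τ) * ENNReal.ofReal τ⁻¹ with hT3
  set T4 := ∫⁻ τ in Icc (s / 2) (2 * s), ENNReal.ofReal |ks τ| * ENNReal.ofReal τ⁻¹ with hT4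
  set T5 := ∫⁻ τ in Icc (s / 2) (2 * s), ENNReal.ofReal (qs τ) * ENNReal.ofReal τ⁻¹ with hT5
  set T6 := ∫⁻ τ in Icc (s / 2) (2 * s), ENNReal.ofReal (gs τ ^ 2) * ENNReal.ofReal τ⁻¹ with hT6
  have hBq : Bq ρ (s / 2) (2 * s) qs ks Hs gs nks =
      T1 ^ 2 + (ENNReal.ofReal ρ⁻¹ * T2) ^ 2 + ENNReal.ofReal ρ⁻¹ * T3 +
        ENNReal.ofReal (ρ⁻¹ ^ 2) * T4 + T5 + T6 := rfl
  rw [hBq] at hB ⊢
  simp only [ENNReal.add_eq_top, not_or] at hB
  obtain ⟨⟨⟨⟨⟨f1, f2⟩, f3⟩, f4⟩, f5⟩, f6⟩ := hB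
  have hρi : 0 < ρ⁻¹ := inv_pos.2 hρ
  have g1 : T1 ≠ ∞ := fun h => f1 (by rw [h]; simp)
  have g2 : T2 ≠ ∞ := fun h => f2 (by
    rw [h, ENNReal.mul_top (by simpa using hρ)]
    simp)
  have g3 : T3 ≠ ∞ := fun h => f3 (by
    rw [h, ENNReal.mul_top (by simpa using hρ)])
  have g4 : T4 ≠ ∞ := fun h => f4 (by
    have : (0 : ℝ) < ρ⁻¹ ^ 2 := by positivity
    rw [h, ENNReal.mul_top (ENNReal.ofReal_pos.2 this).ne'])
  have i1 := intervalIntegrable_of_lint ha hab hH mH g1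
  have i2 := intervalIntegrable_of_lint ha hab n1n mn1 g2
  have i3 := intervalIntegrable_of_lint ha hab n2n mn2 g3
  have i4 := intervalIntegrable_of_lint ha hab (fun τ => abs_nonneg _) mks g4
  have i5 := intervalIntegrable_of_lint ha hab hq mq f5
  have i6 := intervalIntegrable_of_lint ha hab (fun τ => sq_nonneg (gs τ)) (mg.pow_const 2) f6
  have hsc := sc_of_along A hc ha hab hl hH hn hg hρ i6
  have hKk : ∀ᵐ τ, τ ∈ Icc (s / 2) (2 * s) → A.K τ = ks τ := by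
    have h0 := A.hK
    rw [ae_restrict_iff' measurableSet_Ioo] at h0
    have h1 : ∀ᵐ τ : ℝ, τ ≠ l := by simp [ae_iff, measure_singleton]
    filter_upwards [h0, h1] with τ h2 h3 hτ
    exact h2 ⟨ha.trans_le hτ.1, lt_of_le_of_ne (hτ.2.trans hl) h3⟩
  have hmain := scale_main (X := T1.toReal) (k1 := ρ⁻¹ * T2.toReal) (k2 := ρ⁻¹ * T3.toReal)
    (Kb := ρ⁻¹ ^ 2 * T4.toReal) (Qb := T5.toReal) (Db := T6.toReal) hc hs hts hρ hC1 hT ht hsc
    ENNReal.toReal_nonneg (by positivity) (by positivity) (by positivity)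
    ENNReal.toReal_nonneg ENNReal.toReal_nonneg
    (int_eq_toReal ha hab hH i1).le
    (by
      have h1 : ∫ τ in (s / 2)..(2 * s), nks τ / τ =
          (∫ τ in (s / 2)..(2 * s), n1 τ / τ) + ∫ τ in (s / 2)..(2 * s), n2 τ / τ := by
        rw [← intervalIntegral.integral_add (div_int ha hab i2) (div_int ha hab i3)]
        apply intervalIntegral.integral_congr
        intro τ _
        simp only [hn1, hn2]
        split_ifs <;> simp
      rw [h1, int_eq_toReal ha hab n1n i2, int_eq_toReal ha hab n2n i3]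
      have h2 : ρ * (ρ⁻¹ * T2.toReal + ρ⁻¹ * T3.toReal) = T2.toReal + T3.toReal := by
        field_simp
      rw [h2])
    (by
      have h1 : ∫ τ in (s / 2)..(2 * s), |A.K τ| / τ = ∫ τ in (s / 2)..(2 * s), |ks τ| / τ := by
        apply intervalIntegral.integral_congr_ae
        filter_upwards [hKk] with τ h2 hτ
        rw [uIoc_of_le hab] at hτ
        rw [h2 (Ioc_subset_Icc_self hτ)]
      rw [h1, int_eq_toReal ha hab (fun τ => abs_nonneg _) i4]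
      have h2 : ρ ^ 2 * (ρ⁻¹ ^ 2 * T4.toReal) = T4.toReal := by
        field_simp
      rw [h2])
    (by
      have h1 : ∫ τ in (s / 2)..(2 * s), |qs τ| / τ = ∫ τ in (s / 2)..(2 * s), qs τ / τ := by
        apply intervalIntegral.integral_congr
        intro τ _
        simp only [abs_of_nonneg (hq τ)]
      rw [h1, int_eq_toReal ha hab hq i5])
    (int_eq_toReal ha hab (fun τ => sq_nonneg (gs τ)) i6).le
  have h1 : ENNReal.ofReal (blk r v s ^ 2) ≤ ENNReal.ofReal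
      (20000 * cX ^ 2 * C1 ^ 2 * (ρ ^ 2 / s) ^ 2 * (T1.toReal ^ 2 + (ρ⁻¹ * T2.toReal) ^ 2 +
        ρ⁻¹ * T3.toReal + ρ⁻¹ ^ 2 * T4.toReal + T5.toReal + T6.toReal)) :=
    ENNReal.ofReal_le_ofReal hmain
  refine h1.trans (le_of_eq ?_)
  rw [ENNReal.ofReal_mul hcoef.le, ENNReal.ofReal_add (by positivity) (by positivity),
    ENNReal.ofReal_add (by positivity) (by positivity),
    ENNReal.ofReal_add (by positivity) (by positivity),
    ENNReal.ofReal_add (by positivity) (by positivity),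
    ENNReal.ofReal_add (by positivity) (by positivity),
    ENNReal.ofReal_pow ENNReal.toReal_nonneg, ENNReal.ofReal_pow (by positivity),
    ENNReal.ofReal_mul hρi.le, ENNReal.ofReal_mul hρi.le,
    ENNReal.ofReal_mul (by positivity : (0 : ℝ) ≤ ρ⁻¹ ^ 2),
    ENNReal.ofReal_toReal g1, ENNReal.ofReal_toReal g2, ENNReal.ofReal_toReal g3,
    ENNReal.ofReal_toReal g4, ENNReal.ofReal_toReal f5, ENNReal.ofReal_toReal f6]

/-- the cap in the same normalisation -/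
theorem blk_cap {s ρ C1 v t : ℝ} {r : ℝ → ℝ} (hc : Crv r v t (s / 2) (2 * s))
    (hs : 0 < s) (hts : 8 * t ≤ s) (hT : s * Tf r v (s / 2) ≤ C1 * ρ ^ 2) :
    blk r v s ^ 2 ≤ 49 * cX ^ 2 * C1 ^ 2 * (ρ ^ 2 / s) ^ 2 := by
  have hcX := one_le_cX
  have hcap := hc.cap hs hts
  have hT' : Tf r v (s / 2) ≤ C1 * (ρ ^ 2 / s) := by
    rw [← mul_div_assoc, le_div_iff₀ hs]
    linarith
  have h1 : |blk r v s| ≤ 7 * cX * (C1 * (ρ ^ 2 / s)) :=
    hcap.trans (mul_le_mul_of_nonneg_left hT' (by linarith))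
  rw [← sq_abs]
  refine (pow_le_pow_left₀ (abs_nonneg _) h1 2).trans (le_of_eq ?_)
  ring

/-- the cap without normalisation: `blk² ≤ 49 cX² T(s/2)²` -/
theorem blk_cap' {s v t : ℝ} {r : ℝ → ℝ} (hc : Crv r v t (s / 2) (2 * s))
    (hs : 0 < s) (hts : 8 * t ≤ s) : |blk r v s| ≤ 7 * cX * Tf r v (s / 2) :=
  hc.cap hs hts

/-- **(F)** the first block, real form -/
theorem first_real {l ρ Dw gz v t : ℝ} {r qs ks Hs gs nks : ℝ → ℝ}
    (A : AlongD l ρ (gf r) qs ks Hs gs nks Dw gz) (hc : Crv r v t 0 l)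
    (hρ : 0 < ρ) (hρl : ρ ≤ l) (hq : ∀ τ, 0 ≤ qs τ)
    (iq : IntervalIntegrable qs volume 0 ρ) :
    |Dw - v + jf r v ρ| ≤ ρ * gz + (∫ τ in (0 : ℝ)..ρ, Hs τ) + cX * ∫ τ in (0 : ℝ)..ρ, qs τ := by
  have hcX := one_le_cX
  have hl0 : 0 ≤ l := hρ.le.trans hρl
  have hρ0 := hρ.le
  have hsub : ∀ {τ : ℝ}, τ ∈ Icc 0 ρ → τ ∈ Icc 0 l := fun {τ} hτ => ⟨hτ.1, hτ.2.trans hρl⟩
  have hmono : ∀ {f : ℝ → ℝ}, IntervalIntegrable f volume 0 l →
      IntervalIntegrable f volume 0 ρ := fun {f} hf =>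
    hf.mono_set (by
      rw [uIcc_of_le hρ0, uIcc_of_le hl0]
      exact Icc_subset_Icc le_rfl hρl)
  have mkAD : ∀ {F f : ℝ → ℝ}, IntervalIntegrable f volume 0 l →
      (∀ c ∈ Icc 0 l, ∀ d ∈ Icc 0 l, F d - F c = ∫ τ in c..d, f τ) → AD F f 0 ρ :=
    fun {F f} hf hF => ⟨hρ0, hmono hf, fun x hx => by
      have := hF 0 (hsub ⟨le_rfl, hρ0⟩) x (hsub hx)
      linarith⟩
  have iU1 : IntervalIntegrable A.U1 volume 0 l := by
    apply ContinuousOn.intervalIntegrable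
    rw [uIcc_of_le hl0]
    exact A.U1_cont
  have hU : AD A.U A.U1 0 ρ := mkAD iU1 A.ftc_U
  have hU1 : AD A.U1 (fun τ => 1 + A.e τ) 0 ρ :=
    mkAD (intervalIntegrable_const.add A.e_int) A.ftc_U1
  -- general formula
  have key : ∀ {F F1 f : ℝ → ℝ}, AD F F1 0 ρ → AD F1 (fun τ => 1 + f τ) 0 ρ →
      IntervalIntegrable f volume 0 ρ →
      ∫ τ in (0 : ℝ)..ρ, ch2 ρ τ * F τ =
        F1 0 + (∫ τ in (0 : ℝ)..ρ, ch ρ τ) + ∫ τ in (0 : ℝ)..ρ, ch ρ τ * f τ := by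
    intro F F1 f h1 h2 hf
    have e1 := (AD_ch1 (s := ρ) _ _ hρ0).parts h1
      (by rw [ch1_eq_zero (τ := 0) hρ (Or.inl (by linarith)), zero_mul])
      (by rw [ch1_eq_zero (τ := ρ) hρ (Or.inr le_rfl), zero_mul])
    have e2 := ((AD_ch (s := ρ) _ _ hρ0).mul h2).integral_eq
    have hcc : ContinuousOn (ch ρ) (uIcc 0 ρ) := (continuous_ch ρ).continuousOn
    have hcc1 : ContinuousOn (ch1 ρ) (uIcc 0 ρ) := (continuous_ch1 ρ).continuousOn
    rw [intervalIntegral.integral_add (h2.intervalIntegrable.continuousOn_mul hcc1)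
      (h2.int.continuousOn_mul hcc), ch_eq_one (τ := 0) hρ (by linarith),
      ch_eq_zero (τ := ρ) hρ le_rfl] at e2
    have e3 : ∫ τ in (0 : ℝ)..ρ, ch ρ τ * (1 + f τ) =
        (∫ τ in (0 : ℝ)..ρ, ch ρ τ) + ∫ τ in (0 : ℝ)..ρ, ch ρ τ * f τ := by
      rw [← intervalIntegral.integral_add ((continuous_ch ρ).intervalIntegrable _ _)
        (hf.continuousOn_mul hcc)]
      apply intervalIntegral.integral_congr
      intro τ _
      simp only
      ring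
    rw [e3] at e2
    linarith
  have hf1 := key hU hU1 (hmono A.e_int)
  have hf2 : ∫ τ in (0 : ℝ)..ρ, ch2 ρ τ * ((τ - v) ^ 2 / 2) =
      -v + ∫ τ in (0 : ℝ)..ρ, ch ρ τ := by
    have h1 : AD (fun τ : ℝ => (τ - v) ^ 2 / 2) (fun τ => τ - v) 0 ρ := by
      refine AD.of_hasDerivAt hρ0 (fun x _ => ?_) (by fun_prop)
      have h2 : HasDerivAt (fun τ : ℝ => τ - v) 1 x := (hasDerivAt_id x).sub_const v
      refine ((h2.pow 2).div_const 2).congr_deriv ?_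
      simp
    have h2 : AD (fun τ : ℝ => τ - v) (fun τ => 1 + 0) 0 ρ := by
      refine AD.of_hasDerivAt hρ0 (fun x _ => ?_) (by fun_prop)
      simpa using (hasDerivAt_id x).sub_const v
    have h3 := key (f := fun _ => 0) h1 h2 (by simp)
    rw [h3]
    simp
  -- `jf` as an integral over `[0, ρ]`
  have hw : IntervalIntegrable (wf r v) volume 0 ρ :=
    ((hc.mono le_rfl hρl).AD_w hρ0).intervalIntegrable
  have hcc2 : ContinuousOn (ch2 ρ) (uIcc 0 ρ) := (continuous_ch2 ρ).continuousOn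
  have hj : jf r v ρ = ∫ τ in (0 : ℝ)..ρ, ch2 ρ τ * wf r v τ := by
    have hi := hw.continuousOn_mul hcc2
    have s1 : uIcc 0 (ρ / 2) ⊆ uIcc 0 ρ := by
      rw [uIcc_of_le (by linarith), uIcc_of_le hρ0]
      exact Icc_subset_Icc le_rfl (by linarith)
    have s2 : uIcc (ρ / 2) ρ ⊆ uIcc 0 ρ := by
      rw [uIcc_of_le (by linarith), uIcc_of_le hρ0]
      exact Icc_subset_Icc (by linarith) le_rfl
    rw [← intervalIntegral.integral_add_adjacent_intervals (hi.mono_set s1) (hi.mono_set s2), jf]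
    have z1 : ∫ τ in (0 : ℝ)..(ρ / 2), ch2 ρ τ * wf r v τ = 0 := by
      rw [intervalIntegral.integral_congr (g := fun _ => (0 : ℝ))]
      · simp
      · intro τ hτ
        rw [uIcc_of_le (by linarith)] at hτ
        simp only
        rw [ch2_eq_zero hρ (Or.inl hτ.2), zero_mul]
    rw [z1, zero_add]
  have hdec : ∫ τ in (0 : ℝ)..ρ, ch2 ρ τ * wf r v τ =
      (∫ τ in (0 : ℝ)..ρ, ch2 ρ τ * A.U τ) + ρ ^ 2 * (∫ τ in (0 : ℝ)..ρ, ch2 ρ τ * qs τ) -
        ∫ τ in (0 : ℝ)..ρ, ch2 ρ τ * ((τ - v) ^ 2 / 2) := by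
    have j1 := hU.intervalIntegrable.continuousOn_mul hcc2
    have j2 := (iq.continuousOn_mul hcc2).const_mul (ρ ^ 2)
    have j3 : IntervalIntegrable (fun τ : ℝ => ch2 ρ τ * ((τ - v) ^ 2 / 2)) volume 0 ρ := by
      apply Continuous.intervalIntegrable
      exact (continuous_ch2 ρ).mul (by fun_prop)
    rw [← intervalIntegral.integral_const_mul, ← intervalIntegral.integral_add j1 j2,
      ← intervalIntegral.integral_sub (j1.add j2) j3]
    apply intervalIntegral.integral_congr_ae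
    have h0 := A.hU
    rw [ae_restrict_iff' measurableSet_Ioo] at h0
    have h1 : ∀ᵐ τ : ℝ, τ ≠ l := by simp [ae_iff, measure_singleton]
    filter_upwards [h0, h1] with τ h2 h3 hτ
    rw [uIoc_of_le hρ0] at hτ
    have h4 := h2 ⟨hτ.1, lt_of_le_of_ne (hτ.2.trans hρl) h3⟩
    have h5 : gf r τ = A.U τ + ρ ^ 2 * qs τ := by linarith
    unfold gf at h5
    unfold wf
    rw [h5]
    ring
  have hfin : Dw - v + jf r v ρ = (A.U1 0 + Dw) + (∫ τ in (0 : ℝ)..ρ, ch ρ τ * A.e τ) +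
      ρ ^ 2 * ∫ τ in (0 : ℝ)..ρ, ch2 ρ τ * qs τ := by
    rw [hj, hdec, hf1, hf2]
    ring
  rw [hfin]
  have b1 : |∫ τ in (0 : ℝ)..ρ, ch ρ τ * A.e τ| ≤ ∫ τ in (0 : ℝ)..ρ, Hs τ := by
    refine (intervalIntegral.abs_integral_le_integral_abs hρ0).trans ?_
    have hcc : ContinuousOn (ch ρ) (uIcc 0 ρ) := (continuous_ch ρ).continuousOn
    apply intervalIntegral.integral_mono_ae_restrict hρ0
      (((hmono A.e_int).continuousOn_mul hcc).abs) (hmono A.Hs_int)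
    refine (ae_restrict_iff' (measurableSet_Icc (a := (0 : ℝ)) (b := ρ))).2 ?_
    have h0 := A.e_le
    rw [ae_restrict_iff' measurableSet_Ioo] at h0
    have h1 : ∀ᵐ τ : ℝ, τ ≠ l := by simp [ae_iff, measure_singleton]
    have h1' : ∀ᵐ τ : ℝ, τ ≠ 0 := by simp [ae_iff, measure_singleton]
    filter_upwards [h0, h1, h1'] with τ h2 h3 h3' hτ
    have h4 := h2 ⟨lt_of_le_of_ne hτ.1 (Ne.symm h3'), lt_of_le_of_ne (hτ.2.trans hρl) h3⟩
    rw [abs_mul, abs_of_nonneg (ch_nonneg ρ τ)]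
    calc ch ρ τ * |A.e τ| ≤ 1 * |A.e τ| :=
          mul_le_mul_of_nonneg_right (ch_le_one ρ τ) (abs_nonneg _)
      _ ≤ Hs τ := by rwa [one_mul]
  have b2 : |ρ ^ 2 * ∫ τ in (0 : ℝ)..ρ, ch2 ρ τ * qs τ| ≤ cX * ∫ τ in (0 : ℝ)..ρ, qs τ := by
    rw [abs_mul, abs_of_nonneg (by positivity : (0 : ℝ) ≤ ρ ^ 2)]
    have h1 : |∫ τ in (0 : ℝ)..ρ, ch2 ρ τ * qs τ| ≤ cX / ρ ^ 2 * ∫ τ in (0 : ℝ)..ρ, qs τ := by
      refine (intervalIntegral.abs_integral_le_integral_abs hρ0).trans ?_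
      rw [← intervalIntegral.integral_const_mul]
      apply intervalIntegral.integral_mono_on hρ0 ((iq.continuousOn_mul hcc2).abs)
        (iq.const_mul _)
      intro τ _
      rw [abs_mul, abs_of_nonneg (hq τ)]
      exact mul_le_mul_of_nonneg_right (abs_ch2 hρ τ) (hq τ)
    calc ρ ^ 2 * |∫ τ in (0 : ℝ)..ρ, ch2 ρ τ * qs τ|
        ≤ ρ ^ 2 * (cX / ρ ^ 2 * ∫ τ in (0 : ℝ)..ρ, qs τ) :=
          mul_le_mul_of_nonneg_left h1 (by positivity)
      _ = cX * ∫ τ in (0 : ℝ)..ρ, qs τ := by field_simp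
  calc |A.U1 0 + Dw + (∫ τ in (0 : ℝ)..ρ, ch ρ τ * A.e τ) +
        ρ ^ 2 * ∫ τ in (0 : ℝ)..ρ, ch2 ρ τ * qs τ|
      ≤ |A.U1 0 + Dw| + |∫ τ in (0 : ℝ)..ρ, ch ρ τ * A.e τ| +
        |ρ ^ 2 * ∫ τ in (0 : ℝ)..ρ, ch2 ρ τ * qs τ| := abs_add_three _ _ _
    _ ≤ _ := by
        have := A.first
        linarith

/-- conversion of an integral over `[0, ρ]` -/
lemma ofReal_int {a b : ℝ} (hab : a ≤ b) {f : ℝ → ℝ}
    (hf0 : ∀ τ, 0 ≤ f τ) (hf : IntervalIntegrable f volume a b) :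
    ENNReal.ofReal (∫ τ in a..b, f τ) = ∫⁻ τ in Icc a b, ENNReal.ofReal (f τ) := by
  rw [intervalIntegral.integral_of_le hab, ← integral_Icc_eq_integral_Ioc,
    ofReal_integral_eq_lintegral_ofReal]
  · rw [intervalIntegrable_iff_integrableOn_Ioc_of_le hab] at hf
    rwa [← integrableOn_Icc_iff_integrableOn_Ioc] at hf
  · exact Eventually.of_forall fun τ => hf0 τ

lemma intervalIntegrable_of_lint' {a b : ℝ} (hab : a ≤ b) {f : ℝ → ℝ}
    (hf0 : ∀ τ, 0 ≤ f τ) (hm : Measurable f)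
    (h : ∫⁻ τ in Icc a b, ENNReal.ofReal (f τ) ≠ ∞) :
    IntervalIntegrable f volume a b := by
  rw [intervalIntegrable_iff_integrableOn_Ioc_of_le hab]
  refine IntegrableOn.mono_set (t := Icc a b) ?_ Ioc_subset_Icc_self
  refine ⟨hm.aestronglyMeasurable, ?_⟩
  rw [hasFiniteIntegral_iff_ofReal (Eventually.of_forall hf0)]
  exact h.lt_top

/-- Cauchy–Schwarz on `[0, ρ]` -/
lemma sq_int_le {ρ : ℝ} (hρ : 0 < ρ) {f : ℝ → ℝ} (hf0 : ∀ τ, 0 ≤ f τ)
    (hf : IntervalIntegrable f volume 0 ρ)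
    (hf2 : IntervalIntegrable (fun τ => f τ ^ 2) volume 0 ρ) :
    (∫ τ in (0 : ℝ)..ρ, f τ) ^ 2 ≤ ρ * ∫ τ in (0 : ℝ)..ρ, f τ ^ 2 := by
  apply sq_le_of_param hρ (intervalIntegral.integral_nonneg hρ.le fun τ _ => hf0 τ)
  intro c hc
  have h1 : ∫ τ in (0 : ℝ)..ρ, 2 * f τ ≤ ∫ τ in (0 : ℝ)..ρ, (c + c⁻¹ * f τ ^ 2) := by
    apply intervalIntegral.integral_mono_on hρ.le (hf.const_mul 2)
      (intervalIntegrable_const.add (hf2.const_mul _))
    intro τ _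
    have h3 : 0 ≤ c⁻¹ * (f τ - c) ^ 2 := by positivity
    have h4 : c⁻¹ * (f τ - c) ^ 2 = c⁻¹ * f τ ^ 2 - 2 * f τ + c := by
      field_simp
      ring
    linarith
  rw [intervalIntegral.integral_const_mul, intervalIntegral.integral_add intervalIntegrable_const
    (hf2.const_mul _), intervalIntegral.integral_const_mul, intervalIntegral.integral_const,
    smul_eq_mul] at h1
  rw [div_eq_inv_mul]
  have h2 : (ρ - 0) * c = c * ρ := by ring
  rw [h2] at h1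
  exact h1

/-- **(F)** the first block, `ℝ≥0∞` form -/
theorem first_le {l ρ Dw gz v t Mq : ℝ} {r qs ks Hs gs nks : ℝ → ℝ}
    (A : AlongD l ρ (gf r) qs ks Hs gs nks Dw gz) (hc : Crv r v t 0 l)
    (hρ : 0 < ρ) (hρl : ρ ≤ l) (hMq : 1 ≤ Mq)
    (mH : Measurable Hs) (mq : Measurable qs)
    (hH : ∀ τ, 0 ≤ Hs τ) (hq : ∀ τ, 0 ≤ qs τ) (hqM : ∀ᵐ τ, τ ∈ Icc 0 ρ → qs τ ≤ Mq)
    (hgz : 0 ≤ gz) :
    ENNReal.ofReal ((Dw - v + jf r v ρ) ^ 2) ≤ ENNReal.ofReal (3 * cX ^ 2 * Mq) *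
      (ENNReal.ofReal ((ρ * gz) ^ 2) +
        ENNReal.ofReal ρ * (∫⁻ τ in Icc 0 ρ, ENNReal.ofReal (Hs τ ^ 2)) +
        ENNReal.ofReal ρ * ∫⁻ τ in Icc 0 ρ, ENNReal.ofReal (qs τ)) := by
  have hcX := one_le_cX
  have hcoef : 0 < 3 * cX ^ 2 * Mq := by positivity
  have hρe : ENNReal.ofReal ρ ≠ 0 := by simpa using hρ
  have hl0 : 0 ≤ l := hρ.le.trans hρl
  by_cases h2 : ∫⁻ τ in Icc 0 ρ, ENNReal.ofReal (Hs τ ^ 2) = ∞
  · rw [h2, ENNReal.mul_top hρe, add_top, top_add, ENNReal.mul_top (by simpa using hcoef)]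
    exact le_top
  by_cases h3 : ∫⁻ τ in Icc 0 ρ, ENNReal.ofReal (qs τ) = ∞
  · rw [h3, ENNReal.mul_top hρe, add_top, ENNReal.mul_top (by simpa using hcoef)]
    exact le_top
  have iH2 := intervalIntegrable_of_lint' hρ.le (fun τ => sq_nonneg (Hs τ)) (mH.pow_const 2) h2
  have iq := intervalIntegrable_of_lint' hρ.le hq mq h3
  have iH : IntervalIntegrable Hs volume 0 ρ := A.Hs_int.mono_set (by
      rw [uIcc_of_le hρ.le, uIcc_of_le hl0]
      exact Icc_subset_Icc le_rfl hρl)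
  have hreal := first_real A hc hρ hρl hq iq
  have hHsq := sq_int_le hρ hH iH iH2
  set IH := ∫ τ in (0 : ℝ)..ρ, Hs τ with hIH
  set IH2 := ∫ τ in (0 : ℝ)..ρ, Hs τ ^ 2 with hIH2
  set Iq := ∫ τ in (0 : ℝ)..ρ, qs τ with hIq
  have hIq0 : 0 ≤ Iq := intervalIntegral.integral_nonneg hρ.le fun τ _ => hq τ
  have hIH20 : 0 ≤ IH2 := intervalIntegral.integral_nonneg hρ.le fun τ _ => sq_nonneg _
  have hIqM : Iq ≤ Mq * ρ := by
    have h4 : Iq ≤ ∫ _ in (0 : ℝ)..ρ, Mq := by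
      apply intervalIntegral.integral_mono_ae_restrict hρ.le iq intervalIntegrable_const
      exact (ae_restrict_iff' (measurableSet_Icc (a := (0 : ℝ)) (b := ρ))).2 hqM
    rw [intervalIntegral.integral_const, smul_eq_mul] at h4
    linarith
  have hmain : (Dw - v + jf r v ρ) ^ 2 ≤ 3 * cX ^ 2 * Mq * ((ρ * gz) ^ 2 + ρ * IH2 + ρ * Iq) := by
    rw [← sq_abs]
    have h5 := pow_le_pow_left₀ (abs_nonneg _) hreal 2
    refine h5.trans ?_
    have h6 : (ρ * gz + IH + cX * Iq) ^ 2 ≤ 3 * ((ρ * gz) ^ 2 + IH ^ 2 + (cX * Iq) ^ 2) := by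
      nlinarith [sq_nonneg (ρ * gz - IH), sq_nonneg (ρ * gz - cX * Iq), sq_nonneg (IH - cX * Iq)]
    refine h6.trans ?_
    have h7 : (cX * Iq) ^ 2 ≤ cX ^ 2 * Mq * (ρ * Iq) := by
      have : Iq * Iq ≤ Mq * ρ * Iq := mul_le_mul_of_nonneg_right hIqM hIq0
      calc (cX * Iq) ^ 2 = cX ^ 2 * (Iq * Iq) := by ring
        _ ≤ cX ^ 2 * (Mq * ρ * Iq) := mul_le_mul_of_nonneg_left this (by positivity)
        _ = _ := by ring
    have h8 : 1 ≤ cX ^ 2 * Mq := one_le_mul_of_one_le_of_one_le (one_le_pow₀ hcX) hMq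
    have h9 : (ρ * gz) ^ 2 ≤ cX ^ 2 * Mq * (ρ * gz) ^ 2 :=
      le_mul_of_one_le_left (sq_nonneg _) h8
    have h10 : IH ^ 2 ≤ cX ^ 2 * Mq * (ρ * IH2) :=
      hHsq.trans (le_mul_of_one_le_left (by positivity) h8)
    linarith
  refine (ENNReal.ofReal_le_ofReal hmain).trans (le_of_eq ?_)
  rw [ENNReal.ofReal_mul hcoef.le, ENNReal.ofReal_add (by positivity) (by positivity),
    ENNReal.ofReal_add (by positivity) (by positivity), ENNReal.ofReal_mul hρ.le,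
    ENNReal.ofReal_mul hρ.le, hIH2, hIq, ofReal_int hρ.le (fun τ => sq_nonneg (Hs τ)) iH2,
    ofReal_int hρ.le hq iq]

/-! ### the curve of `Rad` -/

set_option linter.unusedSectionVars false
section rad
open Crest.Agent.R247.Mcp688
variable {n : ℕ} {κ : ℝ} {X : Type*} [MetricSpace X] [MeasurableSpace X] [BorelSpace X]
  {μ : Measure X} (C : Rad n κ X μ)

/-- **(C)** the geometric hypotheses for the minimiser `z → w` seen from `x` -/
theorem crv_ray {x z w : X} (hU : (z, w) ∈ C.U) (hzw : 0 < dist z w) :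
    Crv (fun τ => dist x (ray C z w τ)) (dist z w - dist x w) (dist x z) 0 (dist z w) := by
  have hmem : ∀ τ ∈ Icc 0 (dist z w), τ / dist z w ∈ Icc (0 : ℝ) 1 := fun τ hτ =>
    ⟨div_nonneg hτ.1 hzw.le, (div_le_one hzw).2 hτ.2⟩
  apply Crv.of_min
  · intro a ha b hb
    have h1 : |dist x (ray C z w a) - dist x (ray C z w b)| ≤
        dist (ray C z w a) (ray C z w b) := by
      rw [dist_comm x, dist_comm x]
      exact abs_dist_sub_le _ _ _
    refine h1.trans (le_of_eq ?_)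
    unfold ray
    rw [C.dist_T z w hU _ (hmem a ha) _ (hmem b hb), ← sub_div, abs_div, abs_of_pos hzw,
      div_mul_cancel₀ _ hzw.ne']
  · simp only [ray]
    rw [zero_div, C.T_zero z w hU]
  · simp only [ray]
    rw [div_self hzw.ne', C.T_one z w hU]
    ring
  · have := abs_dist_sub_le z x w
    rw [dist_comm z x] at this
    exact this

lemma measurable_ray (z w : X) : Measurable (ray C z w) := by
  unfold ray
  exact C.measT.comp (measurable_const.prodMk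
    ((measurable_id.div_const _).prodMk measurable_const))

end rad

end Crest.Agent.R247.Cur301
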