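import Crest.Agent.R247.Far0_553

/-!
# R247, leaf P13 (helper62): the field `d2_ball` of `FarD`

At thickness `ρ = s = dy j` the local mean `loc μ n 40 s S y` at any `y ∈ B(x,24s)` already sees the
whole ball `B(x,16s)`.  So the ray inequality (436), used on the rays to the annulus
`16s ≤ d_x ≤ 24s` on the fractions `t ∈ [1/2,1]`, bounds `∫_{B(x,16s)} S` by the `L¹` norm of
`q + B` on `B(x,24s)`.
-/

set_option autoImplicit false
set_option linter.unusedSectionVars false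
open MeasureTheory Set Filter Topology Metric
open scoped ENNReal NNReal

noncomputable section
namespace Crest.Agent.R247.D2b62

open Crest.Agent.R247.Mcp688 Crest.Agent.R247.Far553

lemma ofReal_integral_le {α : Type*} [MeasurableSpace α] {ν : Measure α} (f : α → ℝ)
    (h0 : 0 ≤ᵐ[ν] f) : ENNReal.ofReal (∫ a, f a ∂ν) ≤ ∫⁻ a, ENNReal.ofReal (f a) ∂ν := by
  by_cases hi : Integrable f ν
  · rw [ofReal_integral_eq_lintegral_ofReal hi h0]
  · rw [integral_undef hi]
    simp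

variable {n : ℕ} {κ : ℝ} {X : Type*} [MetricSpace X] [MeasurableSpace X] [BorelSpace X]
  {μ : Measure X} (C : Rad n κ X μ)

lemma le_loc {x y : X} {s : ℝ} (S : X → ℝ) (hy : dist x y ≤ 24 * s) :
    ENNReal.ofReal ((s⁻¹) ^ n) * ∫⁻ z in ball x (16 * s), ENNReal.ofReal (S z) ∂μ ≤
      loc μ n 40 s S y := by
  unfold loc
  have h : ball x (16 * s) ⊆ ball y (40 * s) := ball_subset_ball' (by linarith)
  gcongr

lemma measurableSet_ann (x : X) (a b : ℝ) : MeasurableSet (ann x a b) := by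
  have hd : Measurable fun z : X => dist x z := (continuous_const.dist continuous_id).measurable
  exact (measurableSet_le measurable_const hd).inter (measurableSet_le hd measurable_const)

include C in
/-- the integrated form of the ray inequality on the annulus -/
theorem int_S_le [SFinite μ] (hκ : 0 ≤ κ) (x : X) {s : ℝ} {S q B : X → ℝ}
    (hqm : Measurable q) (hBm : Measurable B) (hq0 : ∀ z, 0 ≤ q z) (hB0 : ∀ z, 0 ≤ B z)
    {CK : ℝ} (hCK : 0 ≤ CK)
    (hray : ∀ᵐ v ∂μ, dist x v ≤ 24 * s →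
      ∫⁻ t in Icc (1 / 2 : ℝ) 1, loc μ n 40 s S (C.T x t v) * ENNReal.ofReal t⁻¹ ≤
        ENNReal.ofReal (CK * (q (C.T x 1 v) + ∫ t in (1 / 2 : ℝ)..1, B (C.T x t v) / t))) :
    μ (ann x (16 * s) (24 * s)) *
        (ENNReal.ofReal ((s⁻¹) ^ n) * ∫⁻ z in ball x (16 * s), ENNReal.ofReal (S z) ∂μ) ≤
      ENNReal.ofReal (2 * CK * (1 + 2 ^ n * Real.exp (κ * (24 * s) ^ 2 / 2))) *
        ∫⁻ z in closedBall x (24 * s), ENNReal.ofReal (q z + B z) ∂μ := by
  set I : ℝ≥0∞ := ENNReal.ofReal ((s⁻¹) ^ n) * ∫⁻ z in ball x (16 * s), ENNReal.ofReal (S z) ∂μ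
    with hI
  set A : Set X := ann x (16 * s) (24 * s) with hA
  set W : Set X := closedBall x (24 * s) with hW
  have hAm : MeasurableSet A := measurableSet_ann x _ _
  have hWm : MeasurableSet W := isClosed_closedBall.measurableSet
  have hmeas : Measurable (fun p : X × ℝ => ENNReal.ofReal (2 * B (C.T x p.2 p.1))) :=
    (((hBm.comp (C.measT.comp (measurable_const.prodMk
      (measurable_snd.prodMk measurable_fst)))).const_mul 2)).ennreal_ofReal
  -- pointwise
  have hpt : ∀ᵐ v ∂μ, v ∈ A → I * ENNReal.ofReal (1 / 2) ≤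
      ENNReal.ofReal CK * (ENNReal.ofReal (q v) +
        ∫⁻ t in Icc (1 / 2 : ℝ) 1, ENNReal.ofReal (2 * B (C.T x t v))) := by
    filter_upwards [hray, C.ae_U x] with v hv hU hvA
    have hvA1 : 16 * s ≤ dist x v := hvA.1
    have hvA2 : dist x v ≤ 24 * s := hvA.2
    have h1 : I * ENNReal.ofReal (1 / 2) ≤
        ∫⁻ t in Icc (1 / 2 : ℝ) 1, loc μ n 40 s S (C.T x t v) * ENNReal.ofReal t⁻¹ := by
      calc I * ENNReal.ofReal (1 / 2) = ∫⁻ _ in Icc (1 / 2 : ℝ) 1, I := by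
            rw [setLIntegral_const, Real.volume_Icc]
            norm_num
        _ ≤ _ := by
            apply setLIntegral_mono_ae' measurableSet_Icc
            refine Eventually.of_forall fun t ht => ?_
            have ht0 : 0 < t := by linarith [ht.1]
            have h2 : I ≤ loc μ n 40 s S (C.T x t v) := by
              apply le_loc
              rw [C.dist_left hU ⟨ht0.le, ht.2⟩]
              calc t * dist x v ≤ 1 * dist x v := by gcongr; exact ht.2
                _ ≤ _ := by linarith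
            have h3 : (1 : ℝ≥0∞) ≤ ENNReal.ofReal t⁻¹ := by
              rw [← ENNReal.ofReal_one]
              exact ENNReal.ofReal_le_ofReal ((one_le_inv₀ ht0).2 ht.2)
            calc I = I * 1 := (mul_one I).symm
              _ ≤ _ := by gcongr
    refine h1.trans ((hv hvA2).trans ?_)
    rw [ENNReal.ofReal_mul hCK, C.T_one x v hU]
    gcongr
    refine (ENNReal.ofReal_add_le).trans ?_
    gcongr
    rw [intervalIntegral.integral_of_le (by norm_num)]
    refine (ofReal_integral_le _ ?_).trans ?_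
    · refine (ae_restrict_iff' measurableSet_Ioc).2 (Eventually.of_forall fun t ht => ?_)
      have ht0 : 0 < t := by linarith [ht.1]
      exact div_nonneg (hB0 _) ht0.le
    · calc ∫⁻ t in Ioc (1 / 2 : ℝ) 1, ENNReal.ofReal (B (C.T x t v) / t)
          ≤ ∫⁻ t in Ioc (1 / 2 : ℝ) 1, ENNReal.ofReal (2 * B (C.T x t v)) := by
            apply setLIntegral_mono_ae' measurableSet_Ioc
            refine Eventually.of_forall fun t ht => ENNReal.ofReal_le_ofReal ?_
            have ht0 : 0 < t := by linarith [ht.1]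
            rw [div_le_iff₀ ht0]
            have := hB0 (C.T x t v)
            nlinarith [ht.1]
        _ ≤ _ := lintegral_mono_set Ioc_subset_Icc_self
  -- integrate
  have h1 : μ A * (I * ENNReal.ofReal (1 / 2)) ≤
      ∫⁻ v in A, ENNReal.ofReal CK * (ENNReal.ofReal (q v) +
        ∫⁻ t in Icc (1 / 2 : ℝ) 1, ENNReal.ofReal (2 * B (C.T x t v)) ∂volume) ∂μ := by
    calc μ A * (I * ENNReal.ofReal (1 / 2)) = ∫⁻ _ in A, I * ENNReal.ofReal (1 / 2) ∂μ := by
          rw [setLIntegral_const, mul_comm]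
      _ ≤ _ := setLIntegral_mono_ae' hAm hpt
  have h2 : ∫⁻ v in A, ENNReal.ofReal CK * (ENNReal.ofReal (q v) +
        ∫⁻ t in Icc (1 / 2 : ℝ) 1, ENNReal.ofReal (2 * B (C.T x t v)) ∂volume) ∂μ =
      ENNReal.ofReal CK * (∫⁻ v in A, ENNReal.ofReal (q v) ∂μ +
        ∫⁻ v in A, ∫⁻ t in Icc (1 / 2 : ℝ) 1, ENNReal.ofReal (2 * B (C.T x t v)) ∂volume ∂μ) := by
    rw [lintegral_const_mul' _ _ ENNReal.ofReal_ne_top, lintegral_add_left hqm.ennreal_ofReal]
  have h3 : ∫⁻ v in A, ∫⁻ t in Icc (1 / 2 : ℝ) 1, ENNReal.ofReal (2 * B (C.T x t v)) ∂volume ∂μ ≤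
      ENNReal.ofReal (Real.exp (κ * (24 * s) ^ 2 / 2) * ((1 / 2 : ℝ)⁻¹) ^ n * (1 - 1 / 2)) *
        ∫⁻ y in W, ENNReal.ofReal (2 * B y) ∂μ := by
    refine C.ray_lintegral_le hκ x (R := 24 * s) (by norm_num) le_rfl hAm hWm
      (fun z hz => hz.2) (fun z hz hU t ht => ?_) (g := fun y => ENNReal.ofReal (2 * B y))
      ((hBm.const_mul 2).ennreal_ofReal)
    rw [hW, mem_closedBall, dist_comm, C.dist_left hU ⟨by linarith [ht.1], ht.2⟩]
    calc t * dist x z ≤ 1 * dist x z := by gcongr; exact ht.2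
      _ ≤ _ := by rw [one_mul]; exact hz.2
  have h4 : ∫⁻ v in A, ENNReal.ofReal (q v) ∂μ ≤ ∫⁻ z in W, ENNReal.ofReal (q z + B z) ∂μ := by
    refine (lintegral_mono_set (t := W) fun z hz => ?_).trans ?_
    · rw [hW, mem_closedBall, dist_comm]; exact hz.2
    · exact lintegral_mono fun z => ENNReal.ofReal_le_ofReal (by linarith [hB0 z])
  have h5 : ∫⁻ y in W, ENNReal.ofReal (2 * B y) ∂μ ≤
      2 * ∫⁻ z in W, ENNReal.ofReal (q z + B z) ∂μ := by
    rw [← lintegral_const_mul' _ _ (by norm_num)]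
    refine lintegral_mono fun z => ?_
    rw [ENNReal.ofReal_mul (by norm_num)]
    simp only [ENNReal.ofReal_ofNat]
    gcongr
    linarith [hq0 z]
  set J : ℝ≥0∞ := ∫⁻ z in W, ENNReal.ofReal (q z + B z) ∂μ with hJ
  set E : ℝ := Real.exp (κ * (24 * s) ^ 2 / 2) with hE
  have hE0 : 0 < E := Real.exp_pos _
  have h6 : μ A * (I * ENNReal.ofReal (1 / 2)) ≤
      ENNReal.ofReal CK * (J + ENNReal.ofReal (E * 2 ^ n * (1 / 2)) * (2 * J)) := by
    refine h1.trans (h2.le.trans ?_)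
    have e1 : ((1 / 2 : ℝ)⁻¹) ^ n = 2 ^ n := by norm_num
    have e2 : (1 : ℝ) - 1 / 2 = 1 / 2 := by norm_num
    rw [e1, e2] at h3
    gcongr
    exact h3.trans (by gcongr)
  have h7 : μ A * I = 2 * (μ A * (I * ENNReal.ofReal (1 / 2))) := by
    have e3 : ENNReal.ofReal (1 / 2) * 2 = 1 := by
      rw [show (2 : ℝ≥0∞) = ENNReal.ofReal 2 by simp, ← ENNReal.ofReal_mul (by norm_num)]
      norm_num
    calc μ A * I = μ A * I * (ENNReal.ofReal (1 / 2) * 2) := by rw [e3, mul_one]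
      _ = _ := by ring
  rw [h7]
  calc 2 * (μ A * (I * ENNReal.ofReal (1 / 2)))
      ≤ 2 * (ENNReal.ofReal CK * (J + ENNReal.ofReal (E * 2 ^ n * (1 / 2)) * (2 * J))) := by
        gcongr
    _ = ENNReal.ofReal (2 * CK * (1 + 2 ^ n * E)) * J := by
        have e4 : (2 : ℝ≥0∞) = ENNReal.ofReal 2 := by simp
        rw [e4, ← mul_assoc, ← mul_assoc, ← ENNReal.ofReal_mul (by norm_num),
          ← ENNReal.ofReal_mul (by positivity)]
        have e5 : J + ENNReal.ofReal (E * 2 ^ n * (1 / 2) * 2) * J =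
            ENNReal.ofReal (1 + 2 ^ n * E) * J := by
          rw [ENNReal.ofReal_add (by norm_num) (by positivity), ENNReal.ofReal_one, add_mul,
            one_mul]
          congr 3
          ring
        rw [e5, ← mul_assoc, ← ENNReal.ofReal_mul (by positivity)]

omit [BorelSpace X] in
lemma ball_sub_ann (x : X) (a b : ℝ) : ball x b ⊆ ball x a ∪ ann x a b := by
  intro z hz
  rw [mem_ball, dist_comm] at hz
  rcases lt_or_ge (dist x z) a with h | h
  · left; rw [mem_ball, dist_comm]; exact h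
  · right; exact ⟨h, hz.le⟩

/-- the annulus `16 s ≤ d_x ≤ 24 s` has measure at least `ω sⁿ` under the pinching of the volume -/
lemma ann_ge (x : X) {s ω δ : ℝ} (hs : 0 < s) (hω : 0 < ω) (hδ : δ ≤ 1 / 10) (hn : 1 ≤ n)
    (hge : ENNReal.ofReal ((1 - δ) * ω * (24 * s) ^ n) ≤ μ (ball x (24 * s)))
    (hle : μ (ball x (16 * s)) ≤ ENNReal.ofReal ((1 + δ) * ω * (16 * s) ^ n)) :
    ENNReal.ofReal (ω * s ^ n) ≤ μ (ann x (16 * s) (24 * s)) := by
  have h1 : μ (ball x (24 * s)) ≤ μ (ball x (16 * s)) + μ (ann x (16 * s) (24 * s)) :=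
    (measure_mono (ball_sub_ann x _ _)).trans (measure_union_le _ _)
  have h16 : (16 : ℝ) ≤ 16 ^ n := by
    calc (16 : ℝ) = 16 ^ 1 := by norm_num
      _ ≤ 16 ^ n := pow_le_pow_right₀ (by norm_num) hn
  have h15 : (3 / 2 : ℝ) ≤ (3 / 2) ^ n := by
    calc (3 / 2 : ℝ) = (3 / 2) ^ 1 := by norm_num
      _ ≤ (3 / 2) ^ n := pow_le_pow_right₀ (by norm_num) hn
  have h24 : (24 : ℝ) ^ n = (3 / 2) ^ n * 16 ^ n := by rw [← mul_pow]; norm_num
  have hsn : 0 < s ^ n := by positivity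
  have h24' : (3 / 2) * (16 : ℝ) ^ n ≤ 24 ^ n := by
    rw [h24]
    gcongr
  have h2 : ω * s ^ n + (1 + δ) * ω * (16 * s) ^ n ≤ (1 - δ) * ω * (24 * s) ^ n := by
    rw [mul_pow, mul_pow]
    have h3 : 1 + (1 + δ) * 16 ^ n ≤ (1 - δ) * 24 ^ n := by
      have h4 : (1 - δ) * ((3 / 2) * 16 ^ n) ≤ (1 - δ) * 24 ^ n := by
        apply mul_le_mul_of_nonneg_left h24' (by linarith)
      nlinarith
    have h5 : 0 < ω * s ^ n := by positivity
    have h6 := mul_le_mul_of_nonneg_left h3 h5.le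
    nlinarith
  by_contra hcon
  rw [not_le] at hcon
  have h7 : μ (ball x (16 * s)) + μ (ann x (16 * s) (24 * s)) <
      ENNReal.ofReal ((1 + δ) * ω * (16 * s) ^ n) + ENNReal.ofReal (ω * s ^ n) :=
    ENNReal.add_lt_add_of_le_of_lt (ne_top_of_le_ne_top ENNReal.ofReal_ne_top hle) hle hcon
  by_cases h1d : 0 ≤ 1 + δ
  · rw [← ENNReal.ofReal_add (by positivity) (by positivity)] at h7
    have h8 := hge.trans_lt (h1.trans_lt h7)
    rw [ENNReal.ofReal_lt_ofReal_iff_of_nonneg] at h8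
    · linarith
    · have : 0 ≤ 1 - δ := by linarith
      positivity
  · have h9 : (1 + δ) * ω * (16 * s) ^ n ≤ 0 := by
      have : 0 < ω * (16 * s) ^ n := by positivity
      nlinarith [not_le.1 h1d]
    rw [ENNReal.ofReal_of_nonpos h9, zero_add] at h7
    have h8 := hge.trans_lt (h1.trans_lt h7)
    have h10 : ENNReal.ofReal (ω * s ^ n) ≤ ENNReal.ofReal ((1 - δ) * ω * (24 * s) ^ n) := by
      apply ENNReal.ofReal_le_ofReal
      rw [mul_pow]
      have h11 : 1 ≤ (1 - δ) * 24 ^ n := by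
        have : (1 : ℝ) ≤ 24 ^ n := one_le_pow₀ (by norm_num)
        nlinarith [not_le.1 h1d]
      have h5 : 0 < ω * s ^ n := by positivity
      nlinarith [mul_le_mul_of_nonneg_left h11 h5.le]
    exact absurd h8 (not_lt.2 h10)

/-- the constant -/
def Kd2 (n : ℕ) (ω CK E : ℝ) : ℝ := 8 * CK * (1 + 2 ^ n * E) / ω + 1

include C in
/-- **P13**: `d2_ball` from the ray inequality at thickness `s` and the `L¹` bound on
`B(x, 24 s)`. -/
theorem d2_ball_of [SFinite μ] (hκ : 0 ≤ κ) (x : X) {s ω δ : ℝ} (hs : 0 < s) (hω : 0 < ω)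
    (hδ : δ ≤ 1 / 10) (hn : 1 ≤ n)
    (hge : ENNReal.ofReal ((1 - δ) * ω * (24 * s) ^ n) ≤ μ (ball x (24 * s)))
    (hle : μ (ball x (16 * s)) ≤ ENNReal.ofReal ((1 + δ) * ω * (16 * s) ^ n))
    {H g S q B : X → ℝ} (hqm : Measurable q) (hBm : Measurable B)
    (hq0 : ∀ z, 0 ≤ q z) (hB0 : ∀ z, 0 ≤ B z)
    (hS : ∀ z, H z ^ 2 + g z ^ 2 ≤ 4 * S z) {CK : ℝ} (hCK : 0 ≤ CK)
    (hray : ∀ᵐ v ∂μ, dist x v ≤ 24 * s →
      ∫⁻ t in Icc (1 / 2 : ℝ) 1, loc μ n 40 s S (C.T x t v) * ENNReal.ofReal t⁻¹ ≤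
        ENNReal.ofReal (CK * (q (C.T x 1 v) + ∫ t in (1 / 2 : ℝ)..1, B (C.T x t v) / t)))
    {M E : ℝ} (hE : Real.exp (κ * (24 * s) ^ 2 / 2) ≤ E)
    (hM : ∫⁻ z in closedBall x (24 * s), ENNReal.ofReal (q z + B z) ∂μ ≤
      ENNReal.ofReal (M * s ^ n)) :
    ∫⁻ z in ball x (16 * s), ENNReal.ofReal (H z ^ 2 + g z ^ 2 + q z) ∂μ ≤
      ENNReal.ofReal (Kd2 n ω CK E * M * s ^ n) := by
  have hsn : 0 < s ^ n := by positivity
  have hE0 : 0 < E := (Real.exp_pos _).trans_le hE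
  have hS0 : ∀ z, 0 ≤ S z := fun z => by nlinarith [hS z, sq_nonneg (H z), sq_nonneg (g z)]
  have hann := ann_ge (n := n) x hs hω hδ hn hge hle
  have hmain := int_S_le C hκ x hqm hBm hq0 hB0 hCK hray
  set I : ℝ≥0∞ := ∫⁻ z in ball x (16 * s), ENNReal.ofReal (S z) ∂μ with hI
  -- `∫ S ≤ (2 CK (1 + 2ⁿ E) / ω) M sⁿ`
  have h1 : ENNReal.ofReal ω * I ≤ ENNReal.ofReal (2 * CK * (1 + 2 ^ n * E) * (M * s ^ n)) := by
    calc ENNReal.ofReal ω * I
        = ENNReal.ofReal (ω * s ^ n) * (ENNReal.ofReal ((s⁻¹) ^ n) * I) := by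
          rw [← mul_assoc, ← ENNReal.ofReal_mul (by positivity)]
          congr 2
          rw [inv_pow]
          field_simp
      _ ≤ μ (ann x (16 * s) (24 * s)) * (ENNReal.ofReal ((s⁻¹) ^ n) * I) := by gcongr
      _ ≤ ENNReal.ofReal (2 * CK * (1 + 2 ^ n * Real.exp (κ * (24 * s) ^ 2 / 2))) *
          ENNReal.ofReal (M * s ^ n) := hmain.trans (by gcongr)
      _ ≤ ENNReal.ofReal (2 * CK * (1 + 2 ^ n * E)) * ENNReal.ofReal (M * s ^ n) := by gcongr
      _ = _ := by rw [← ENNReal.ofReal_mul (by positivity)]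
  have h2 : I ≤ ENNReal.ofReal (2 * CK * (1 + 2 ^ n * E) / ω * (M * s ^ n)) := by
    calc I = ENNReal.ofReal ω⁻¹ * (ENNReal.ofReal ω * I) := by
          rw [← mul_assoc, ← ENNReal.ofReal_mul (by positivity), inv_mul_cancel₀ hω.ne',
            ENNReal.ofReal_one, one_mul]
      _ ≤ ENNReal.ofReal ω⁻¹ * ENNReal.ofReal (2 * CK * (1 + 2 ^ n * E) * (M * s ^ n)) := by
          gcongr
      _ = _ := by
          rw [← ENNReal.ofReal_mul (by positivity)]
          congr 1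
          field_simp
  -- `∫ q ≤ M sⁿ`
  have h3 : ∫⁻ z in ball x (16 * s), ENNReal.ofReal (q z) ∂μ ≤ ENNReal.ofReal (M * s ^ n) := by
    refine le_trans ?_ hM
    refine (lintegral_mono_set (t := closedBall x (24 * s)) fun z hz => ?_).trans
      (lintegral_mono fun z => ENNReal.ofReal_le_ofReal (by linarith [hB0 z]))
    rw [mem_closedBall]
    rw [mem_ball] at hz
    linarith
  by_cases hM0 : 0 ≤ M
  · calc ∫⁻ z in ball x (16 * s), ENNReal.ofReal (H z ^ 2 + g z ^ 2 + q z) ∂μ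
        ≤ ∫⁻ z in ball x (16 * s), (4 * ENNReal.ofReal (S z) + ENNReal.ofReal (q z)) ∂μ := by
          refine lintegral_mono fun z => ?_
          have e4 : (4 : ℝ≥0∞) = ENNReal.ofReal 4 := by simp
          rw [e4, ← ENNReal.ofReal_mul (by norm_num), ← ENNReal.ofReal_add
            (mul_nonneg (by norm_num) (hS0 z)) (hq0 z)]
          exact ENNReal.ofReal_le_ofReal (by linarith [hS z])
      _ = 4 * I + ∫⁻ z in ball x (16 * s), ENNReal.ofReal (q z) ∂μ := by
          rw [lintegral_add_right _ hqm.ennreal_ofReal, lintegral_const_mul' _ _ (by norm_num)]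
      _ ≤ 4 * ENNReal.ofReal (2 * CK * (1 + 2 ^ n * E) / ω * (M * s ^ n)) +
          ENNReal.ofReal (M * s ^ n) := by gcongr
      _ = _ := by
          have e4 : (4 : ℝ≥0∞) = ENNReal.ofReal 4 := by simp
          rw [e4, ← ENNReal.ofReal_mul (by norm_num), ← ENNReal.ofReal_add (by positivity)
            (by positivity)]
          congr 1
          unfold Kd2
          ring
  · -- `M < 0` : everything vanishes
    rw [not_le] at hM0
    have hM' : M * s ^ n ≤ 0 := by nlinarith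
    rw [ENNReal.ofReal_of_nonpos hM', nonpos_iff_eq_zero] at h3
    have h4 : I = 0 := by
      have : 2 * CK * (1 + 2 ^ n * E) / ω * (M * s ^ n) ≤ 0 :=
        mul_nonpos_of_nonneg_of_nonpos (by positivity) hM'
      rw [ENNReal.ofReal_of_nonpos this, nonpos_iff_eq_zero] at h2
      exact h2
    calc ∫⁻ z in ball x (16 * s), ENNReal.ofReal (H z ^ 2 + g z ^ 2 + q z) ∂μ
        ≤ ∫⁻ z in ball x (16 * s), (4 * ENNReal.ofReal (S z) + ENNReal.ofReal (q z)) ∂μ := by
          refine lintegral_mono fun z => ?_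
          have e4 : (4 : ℝ≥0∞) = ENNReal.ofReal 4 := by simp
          rw [e4, ← ENNReal.ofReal_mul (by norm_num), ← ENNReal.ofReal_add
            (mul_nonneg (by norm_num) (hS0 z)) (hq0 z)]
          exact ENNReal.ofReal_le_ofReal (by linarith [hS z])
      _ = 4 * I + ∫⁻ z in ball x (16 * s), ENNReal.ofReal (q z) ∂μ := by
          rw [lintegral_add_right _ hqm.ennreal_ofReal, lintegral_const_mul' _ _ (by norm_num)]
      _ = 0 := by rw [h4, h3]; simp
      _ ≤ _ := bot_le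

/-- the same at the scales of `FarD`: `s = dy j`, `4 ≤ j`, `κ ≤ 1`; literal field `d2_ball` once
`ph`, `B3` are inserted. -/
theorem d2_ball_dy [SFinite μ] (hκ : 0 ≤ κ) (hκ1 : κ ≤ 1) (x : X) {ω δ : ℝ} (hω : 0 < ω)
    (hδ : δ ≤ 1 / 10) (hn : 1 ≤ n)
    (vol_ge : ∀ y r, dist x y < 20 → 0 < r → r ≤ 20 →
      ENNReal.ofReal ((1 - δ) * ω * r ^ n) ≤ μ (ball y r))
    (vol_le : ∀ y r, dist x y < 20 → 0 < r → r ≤ 20 →
      μ (ball y r) ≤ ENNReal.ofReal ((1 + δ) * ω * r ^ n))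
    {H g S q B : ℕ → X → ℝ} (hqm : ∀ k, Measurable (q k)) (hBm : ∀ k, Measurable (B k))
    (hq0 : ∀ k z, 0 ≤ q k z) (hB0 : ∀ k z, 0 ≤ B k z)
    (hS : ∀ k z, H k z ^ 2 + g k z ^ 2 ≤ 4 * S k z) {CK : ℝ} (hCK : 0 ≤ CK)
    (hray : ∀ k, 4 ≤ k → ∀ᵐ v ∂μ, dist x v ≤ 2 → ∀ a b : ℝ, 0 < a → a ≤ b → b ≤ 1 →
      ∫⁻ t in Icc a b, loc μ n 40 (dy k) (S k) (C.T x t v) * ENNReal.ofReal t⁻¹ ≤
        ENNReal.ofReal (CK * (q k (C.T x b v) + ∫ t in a..b, B k (C.T x t v) / t)))
    {ph : ℕ → ℝ} {C1 : ℝ}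
    (hM : ∀ j, 4 ≤ j → ∫⁻ z in closedBall x (24 * dy j), ENNReal.ofReal (q j z + B j z) ∂μ ≤
      ENNReal.ofReal (C1 * ph j * dy j ^ n)) :
    ∀ j, 4 ≤ j → ∫⁻ z in ball x (16 * dy j), ENNReal.ofReal (H j z ^ 2 + g j z ^ 2 + q j z) ∂μ ≤
      ENNReal.ofReal (Kd2 n ω CK 4 * C1 * ph j * dy j ^ n) := by
  intro j hj
  have hs := dy_pos j
  have hs16 : dy j ≤ 1 / 16 := by
    calc dy j ≤ dy 4 := dy_anti hj
      _ = 1 / 16 := by norm_num [dy]
  have hE : Real.exp (κ * (24 * dy j) ^ 2 / 2) ≤ 4 := by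
    have h1 : κ * (24 * dy j) ^ 2 / 2 ≤ 9 / 8 := by
      have h2 : (24 * dy j) ^ 2 ≤ (3 / 2) ^ 2 := by
        apply pow_le_pow_left₀ (by positivity)
        linarith
      nlinarith [sq_nonneg (24 * dy j)]
    calc Real.exp (κ * (24 * dy j) ^ 2 / 2) ≤ Real.exp (9 / 8) := Real.exp_le_exp.2 h1
      _ = Real.exp 1 * Real.exp (1 / 8) := by rw [← Real.exp_add]; norm_num
      _ ≤ 2.7182818286 * (8 / 7) := by
          have h3 := Real.exp_one_lt_d9.le
          have h4 : Real.exp (1 / 8) ≤ 8 / 7 := by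
            have h5 := Real.one_sub_le_exp_neg (1 / 8)
            have h6 : Real.exp (-(1 / 8)) * Real.exp (1 / 8) = 1 := by
              rw [← Real.exp_add]; simp
            have h7 := Real.exp_pos (1 / 8)
            nlinarith
          have h5 := (Real.exp_pos (1 / 8)).le
          gcongr
      _ ≤ 4 := by norm_num
  have h := d2_ball_of (n := n) C hκ x (s := dy j) hs hω hδ hn
    (vol_ge x (24 * dy j) (by simp) (by positivity) (by linarith))
    (vol_le x (16 * dy j) (by simp) (by positivity) (by linarith))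
    (hqm j) (hBm j) (hq0 j) (hB0 j) (hS j) hCK
    (by
      filter_upwards [hray j hj] with v hv hv24
      exact hv (by linarith) (1 / 2) 1 (by norm_num) (by norm_num) le_rfl)
    hE (M := C1 * ph j) (hM j hj)
  refine h.trans (le_of_eq ?_)
  congr 1
  ring

end Crest.Agent.R247.D2b62
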