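import Crest.Agent.R247.Dir4_593

/-!
# R247, block (1) / (5-M): weak Laplacian comparison on `V`, local comparison  (helper386)

`S : GradS X F μ` gradient structure, `LapC S n κ` : `Δ (d_b² / 2) ≤ n + κ d_b²` weakly, tested with
nonnegative test functions.

* `lapC_V`     : the same for `w ∈ V`, `w ≥ 0`, `w = 0` off a ball;
* `local_comp` : if `v - ρ² Δ v ≤ 0` and `0 ≤ v ≤ M` on `ball b t`, then
  `v ≤ M (1 - a (1 - d_b² / t²))` on `ball b t`, `a (1 + 2 ρ² (n + κ t²) / t²) ≤ 1`.
-/

set_option autoImplicit false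
set_option linter.unusedSectionVars false

open MeasureTheory Filter Topology Set
open scoped RealInnerProductSpace ENNReal NNReal

noncomputable section

namespace Crest.Agent.R247.Dec386

open Crest.Agent.R242 Crest.Agent.R247.Dir593 Crest.Agent.R247.Dir593.GradS

variable {X : Type*} [MetricSpace X] [MeasurableSpace X] {F : Type*}
  [NormedAddCommGroup F] [InnerProductSpace ℝ F] {μ : Measure X} (S : GradS X F μ)

/-- half of the squared distance -/
def hd (b : X) (z : X) : ℝ := dist b z ^ 2 / 2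

/-- weak Laplacian comparison `Δ (d_b² / 2) ≤ n + κ d_b²` against nonnegative test functions -/
def LapC (n : ℕ) (κ : ℝ) : Prop := ∀ (b : X) (φ : X → ℝ), IsT φ → (∀ z, 0 ≤ φ z) →
    0 ≤ ∫ z, (⟪S.G (hd b) z, S.G φ z⟫ + (n + κ * dist b z ^ 2) * φ z) ∂μ

theorem locLip_dist (b : X) : LocallyLipschitz (fun z => dist b z) :=
  (LipschitzWith.dist_right b).locallyLipschitz

theorem locLip_hd (b : X) : LocallyLipschitz (hd b) := by
  have h := locLip_mul (locLip_dist b) (locLip_dist b)
  have h2 := locLip_mul (LocallyLipschitz.const (1 / 2 : ℝ)) h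
  have e : hd b = fun y => 1 / 2 * (dist b y * dist b y) := by
    funext y; simp only [hd]; ring
  rw [e]; exact h2

variable [BorelSpace X] [IsFiniteMeasureOnCompacts μ] [ProperSpace X]

/-- the cut-off `1` on `ball b R`, `0` off `ball b (R + 1)` -/
def cut (b : X) (R : ℝ) (z : X) : ℝ := max 0 (min (R + 1 - dist b z) 1)

theorem cut_lip (b : X) (R : ℝ) : LipschitzWith 1 (cut b R) := by
  refine LipschitzWith.of_dist_le_mul fun x y => ?_
  rw [NNReal.coe_one, one_mul, Real.dist_eq]
  have h1 := abs_clamp_sub 0 1 (R + 1 - dist b x) (R + 1 - dist b y)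
  rw [one_mul] at h1
  refine h1.trans ?_
  have e : R + 1 - dist b x - (R + 1 - dist b y) = dist y b - dist x b := by
    rw [dist_comm b, dist_comm b]; ring
  rw [e]
  have := abs_dist_sub_le y x b
  rwa [dist_comm y x] at this

theorem cut_mem (b : X) (R : ℝ) (z : X) : 0 ≤ cut b R z ∧ cut b R z ≤ 1 :=
  ⟨le_max_left _ _, max_le zero_le_one (min_le_right _ _)⟩

theorem cut_one {b : X} {R : ℝ} {z : X} (h : dist b z ≤ R) : cut b R z = 1 := by
  unfold cut
  rw [min_eq_right (by linarith), max_eq_right zero_le_one]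

theorem cut_zero {b : X} {R : ℝ} {z : X} (h : R + 1 ≤ dist b z) : cut b R z = 0 := by
  unfold cut
  rw [max_eq_left]
  exact (min_le_left _ _).trans (by linarith)

theorem cut_isT (b : X) (R : ℝ) : IsT (cut b R) := by
  refine ⟨(cut_lip b R).locallyLipschitz,
    HasCompactSupport.intro (isCompact_closedBall b (R + 1)) fun x hx => ?_⟩
  rw [Metric.mem_closedBall, not_le, dist_comm] at hx
  exact cut_zero hx.le

theorem memLp_A (b : X) (R : ℝ) :
    MemLp ((Metric.closedBall b R).indicator (S.G (hd b))) 2 μ := by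
  obtain ⟨C, hC0, hC⟩ := S.bound_compact (locLip_hd b) (isCompact_closedBall b R)
  have hm : MeasurableSet (Metric.closedBall b R) := Metric.isClosed_closedBall.measurableSet
  have h1 : MemLp ((Metric.closedBall b R).indicator fun _ => C) 2 μ :=
    memLp_indicator_const 2 hm C (Or.inr (isCompact_closedBall b R).measure_lt_top.ne)
  refine h1.mono ((S.meas (locLip_hd b)).indicator hm) ?_
  filter_upwards [hC] with x e1
  by_cases hx : x ∈ Metric.closedBall b R
  · rw [indicator_of_mem hx, indicator_of_mem hx, Real.norm_of_nonneg hC0]; exact e1 hx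
  · rw [indicator_of_notMem hx, indicator_of_notMem hx]; simp

theorem memLp_B (n : ℕ) {κ : ℝ} (hκ : 0 ≤ κ) (b : X) (R : ℝ) :
    MemLp ((Metric.closedBall b R).indicator fun z => (n : ℝ) + κ * dist b z ^ 2) 2 μ := by
  have hm : MeasurableSet (Metric.closedBall b R) := Metric.isClosed_closedBall.measurableSet
  have h1 : MemLp ((Metric.closedBall b R).indicator fun _ => (n : ℝ) + κ * R ^ 2) 2 μ :=
    memLp_indicator_const 2 hm _ (Or.inr (isCompact_closedBall b R).measure_lt_top.ne)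
  have hc : Continuous fun z => (n : ℝ) + κ * dist b z ^ 2 := by fun_prop
  refine h1.mono (hc.aestronglyMeasurable.indicator hm) (Eventually.of_forall fun x => ?_)
  by_cases hx : x ∈ Metric.closedBall b R
  · rw [indicator_of_mem hx, indicator_of_mem hx]
    rw [Metric.mem_closedBall, dist_comm] at hx
    have h2 : (0:ℝ) ≤ n := Nat.cast_nonneg n
    rw [Real.norm_of_nonneg (by positivity), Real.norm_of_nonneg (by positivity)]
    have := dist_nonneg (x := b) (y := x)
    gcongr
  · rw [indicator_of_notMem hx, indicator_of_notMem hx]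

/-- **weak Laplacian comparison on `V`** -/
theorem lapC_V {n : ℕ} {κ : ℝ} (hL : LapC S n κ) (hκ : 0 ≤ κ) {w : Lp ℝ 2 μ} (hw : w ∈ S.V)
    (h0 : ∀ᵐ y ∂μ, 0 ≤ w y) {b : X} {R : ℝ} (hR : ∀ᵐ y ∂μ, R ≤ dist b y → w y = 0) :
    0 ≤ (∫ z, (⟪S.G (hd b) z, S.D w z⟫ : ℝ) ∂μ) + ∫ z, (n + κ * dist b z ^ 2) * w z ∂μ := by
  set A : Lp F 2 μ := (memLp_A S (μ := μ) b (R + 1)).toLp _ with hA
  set B : Lp ℝ 2 μ := (memLp_B (μ := μ) n hκ b (R + 1)).toLp _ with hB
  have hAc : (A : X → F) =ᵐ[μ] (Metric.closedBall b (R + 1)).indicator (S.G (hd b)) :=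
    MemLp.coeFn_toLp _
  have hBc : (B : X → ℝ) =ᵐ[μ] (Metric.closedBall b (R + 1)).indicator
      fun z => (n : ℝ) + κ * dist b z ^ 2 := MemLp.coeFn_toLp _
  -- the product inequality for elements vanishing off the big ball
  have key : ∀ {p : Lp ℝ 2 μ} {g : Lp F 2 μ}, (∀ᵐ y ∂μ, R + 1 < dist b y → p y = 0 ∧ g y = 0) →
      (⟪A, g⟫ = ∫ z, (⟪S.G (hd b) z, g z⟫ : ℝ) ∂μ ∧
        ⟪B, p⟫ = ∫ z, (n + κ * dist b z ^ 2) * p z ∂μ) := by
    intro p g hpg
    rw [L2.inner_def, L2.inner_def]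
    refine ⟨integral_congr_ae ?_, integral_congr_ae ?_⟩
    · filter_upwards [hAc, hpg] with x e1 e2
      rw [e1]
      by_cases hx : x ∈ Metric.closedBall b (R + 1)
      · rw [indicator_of_mem hx]
      · rw [indicator_of_notMem hx]
        rw [Metric.mem_closedBall, not_le, dist_comm] at hx
        rw [(e2 hx).2]; simp
    · filter_upwards [hBc, hpg] with x e1 e2
      rw [e1]
      by_cases hx : x ∈ Metric.closedBall b (R + 1)
      · rw [indicator_of_mem hx]; simp [mul_comm]
      · rw [indicator_of_notMem hx]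
        rw [Metric.mem_closedBall, not_le, dist_comm] at hx
        rw [(e2 hx).1]; simp
  -- approximation
  obtain ⟨f, hf, f0, f1, f2, -⟩ := S.exists_seq_nonneg hw h0
  have hχ := cut_isT b R
  have hT : ∀ k, IsT fun y => cut b R y * f k y := fun k => hχ.mul (hf k).1
  have hGχ1 : ∀ᵐ x ∂μ, ‖S.G (cut b R) x‖ ≤ 1 := by
    filter_upwards [S.norm_le hχ.1 isOpen_univ (cut_lip b R).lipschitzOnWith] with x hx
    simpa using hx (mem_univ x)
  have hGχ0 : ∀ᵐ x ∂μ, x ∈ Metric.ball b R → S.G (cut b R) x = 0 := by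
    have hEq : EqOn (cut b R) (fun _ => (1:ℝ)) (Metric.ball b R) := fun x hx => by
      rw [Metric.mem_ball, dist_comm] at hx
      exact cut_one hx.le
    filter_upwards [S.loc hχ.1 (LocallyLipschitz.const (1:ℝ)) Metric.isOpen_ball hEq,
      S.const 1] with x a1 a2 hx
    rw [a1 hx, a2]
  have hDf : ∀ k, ∀ᵐ x ∂μ, S.D (tL (hT k)) x =
      cut b R x • S.D (tL (hf k)) x + (tL (hf k) : Lp ℝ 2 μ) x • S.G (cut b R) x := fun k => by
    filter_upwards [S.D_tL (hT k), S.mul hχ.1 (hf k).1, S.D_tL (hf k), coe_tL (μ := μ) (hf k)]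
      with x a1 a2 a3 a4
    rw [a1, a2, a3, a4]
  -- facts on `w`
  have hDw0 : ∀ᵐ x ∂μ, R ≤ dist b x → S.D w x = 0 := by
    filter_upwards [S.D_level hw 0, hR] with x a1 a2 hx
    exact a1 (a2 hx)
  have hcw : ∀ᵐ x ∂μ, cut b R x * w x = w x ∧ cut b R x • S.D w x = S.D w x ∧
      w x • S.G (cut b R) x = 0 := by
    filter_upwards [hR, hDw0, hGχ0] with x a1 a2 a3
    by_cases hx : R ≤ dist b x
    · rw [a1 hx, a2 hx]; simp
    · rw [not_le] at hx
      rw [cut_one hx.le, a3 (by rw [Metric.mem_ball, dist_comm]; exact hx)]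
      simp
  have t1 : Tendsto (fun k => (tL (hT k) : Lp ℝ 2 μ)) atTop (𝓝 w) := by
    rw [tendsto_iff_norm_sub_tendsto_zero]
    refine squeeze_zero (fun _ => norm_nonneg _) (g := fun k => 1 * ‖(tL (hf k) : Lp ℝ 2 μ) - w‖)
      (fun k => ?_) (by simpa using (tendsto_iff_norm_sub_tendsto_zero.1 f1).const_mul 1)
    refine norm_le_of_ae zero_le_one ?_
    filter_upwards [Lp.coeFn_sub (tL (hT k) : Lp ℝ 2 μ) w, Lp.coeFn_sub (tL (hf k) : Lp ℝ 2 μ) w,
      coe_tL (μ := μ) (hT k), coe_tL (μ := μ) (hf k), hcw] with x a1 a2 a3 a4 a5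
    rw [a1, a2, Pi.sub_apply, Pi.sub_apply, a3, a4]
    have e : cut b R x * f k x - w x = cut b R x * (f k x - w x) := by
      rw [mul_sub, a5.1]
    rw [e, norm_mul]
    refine mul_le_mul_of_nonneg_right ?_ (norm_nonneg _)
    rw [Real.norm_of_nonneg (cut_mem b R x).1]
    exact (cut_mem b R x).2
  have t2 : Tendsto (fun k => S.D (tL (hT k))) atTop (𝓝 (S.D w)) := by
    rw [tendsto_iff_norm_sub_tendsto_zero]
    have hm : ∀ k, MemLp (fun x => cut b R x • (S.D (tL (hf k)) - S.D w : Lp F 2 μ) x) 2 μ :=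
      fun k => memLp_smul hχ.1.continuous.aestronglyMeasurable (C := 1)
        (Eventually.of_forall fun x => by
          rw [abs_of_nonneg (cut_mem b R x).1]; exact (cut_mem b R x).2) _
    have hm2 : ∀ k, MemLp (fun x => ((tL (hf k) : Lp ℝ 2 μ) - w : Lp ℝ 2 μ) x • S.G (cut b R) x) 2 μ :=
      fun k => by
        refine (Lp.memLp ((tL (hf k) : Lp ℝ 2 μ) - w)).of_le_mul (c := 1)
          ((Lp.aestronglyMeasurable _).smul (S.meas hχ.1)) ?_
        filter_upwards [hGχ1] with x hx
        rw [norm_smul, mul_comm]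
        exact mul_le_mul_of_nonneg_right hx (norm_nonneg _)
    refine squeeze_zero (fun _ => norm_nonneg _)
      (g := fun k => 1 * ‖S.D (tL (hf k)) - S.D w‖ + 1 * ‖(tL (hf k) : Lp ℝ 2 μ) - w‖)
      (fun k => ?_) ?_
    · have e1 : S.D (tL (hT k)) - S.D w = (hm k).toLp _ + (hm2 k).toLp _ := by
        ext1
        filter_upwards [Lp.coeFn_sub (S.D (tL (hT k))) (S.D w), hDf k,
          Lp.coeFn_add ((hm k).toLp _) ((hm2 k).toLp _), MemLp.coeFn_toLp (hm k),
          MemLp.coeFn_toLp (hm2 k), Lp.coeFn_sub (S.D (tL (hf k))) (S.D w),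
          Lp.coeFn_sub (tL (hf k) : Lp ℝ 2 μ) w, hcw] with x a1 a2 a3 a4 a5 a6 a7 a8
        rw [a1, Pi.sub_apply, a2, a3, Pi.add_apply, a4, a5, a6, a7, Pi.sub_apply, Pi.sub_apply]
        rw [smul_sub, sub_smul, a8.2.1, a8.2.2]
        abel
      rw [e1]
      refine (norm_add_le _ _).trans (add_le_add ?_ ?_)
      · refine norm_le_of_ae zero_le_one ?_
        filter_upwards [MemLp.coeFn_toLp (hm k)] with x a1
        rw [a1, norm_smul]
        refine mul_le_mul_of_nonneg_right ?_ (norm_nonneg _)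
        rw [Real.norm_of_nonneg (cut_mem b R x).1]
        exact (cut_mem b R x).2
      · refine norm_le_of_ae zero_le_one ?_
        filter_upwards [MemLp.coeFn_toLp (hm2 k), hGχ1] with x a1 a2
        rw [a1, norm_smul, mul_comm]
        exact mul_le_mul_of_nonneg_right a2 (norm_nonneg _)
    · have h1 := (tendsto_iff_norm_sub_tendsto_zero.1 f2).const_mul 1
      have h2 := (tendsto_iff_norm_sub_tendsto_zero.1 f1).const_mul 1
      simpa using h1.add h2
  -- the inequality for the approximants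
  have hk : ∀ k, 0 ≤ ⟪A, S.D (tL (hT k))⟫ + ⟪B, (tL (hT k) : Lp ℝ 2 μ)⟫ := by
    intro k
    have hz : ∀ᵐ y ∂μ, R + 1 < dist b y →
        (tL (hT k) : Lp ℝ 2 μ) y = 0 ∧ S.D (tL (hT k)) y = 0 := by
      have ho : IsOpen {y : X | R + 1 < dist b y} := isOpen_lt continuous_const (by fun_prop)
      filter_upwards [coe_tL (μ := μ) (hT k), S.D_tL (hT k),
        S.zero_of_open (hT k).1 ho (fun x hx => by
          rw [cut_zero (le_of_lt hx), zero_mul])] with x a1 a2 a3 hx
      refine ⟨?_, ?_⟩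
      · rw [a1, cut_zero hx.le, zero_mul]
      · rw [a2]; exact a3 hx
    obtain ⟨e1, e2⟩ := key hz
    have h1 := hL b _ (hT k) (fun z => mul_nonneg (cut_mem b R z).1 (f0 k z))
    rw [e1, e2]
    have i1 : Integrable (fun z => (⟪S.G (hd b) z, S.D (tL (hT k)) z⟫ : ℝ)) μ := by
      refine (L2.integrable_inner A (S.D (tL (hT k)))).congr ?_
      filter_upwards [hAc, hz] with x e1 e2
      rw [e1]
      by_cases hx : x ∈ Metric.closedBall b (R + 1)
      · rw [indicator_of_mem hx]
      · rw [indicator_of_notMem hx]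
        rw [Metric.mem_closedBall, not_le, dist_comm] at hx
        rw [(e2 hx).2]; simp
    have i2 : Integrable (fun z => (n + κ * dist b z ^ 2) * (tL (hT k) : Lp ℝ 2 μ) z) μ := by
      refine (L2.integrable_inner B (tL (hT k) : Lp ℝ 2 μ)).congr ?_
      filter_upwards [hBc, hz] with x e1 e2
      rw [e1]
      by_cases hx : x ∈ Metric.closedBall b (R + 1)
      · rw [indicator_of_mem hx]; simp [mul_comm]
      · rw [indicator_of_notMem hx]
        rw [Metric.mem_closedBall, not_le, dist_comm] at hx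
        rw [(e2 hx).1]; simp
    rw [← integral_add i1 i2]
    refine h1.trans_eq (integral_congr_ae ?_)
    filter_upwards [coe_tL (μ := μ) (hT k), S.D_tL (hT k)] with x a1 a2
    rw [a1, a2]
  have hlim : Tendsto (fun k => ⟪A, S.D (tL (hT k))⟫ + ⟪B, (tL (hT k) : Lp ℝ 2 μ)⟫) atTop
      (𝓝 (⟪A, S.D w⟫ + ⟪B, w⟫ : ℝ)) :=
    (tendsto_const_nhds.inner t2).add (tendsto_const_nhds.inner t1)
  have h2 : (0:ℝ) ≤ ⟪A, S.D w⟫ + ⟪B, w⟫ := ge_of_tendsto' hlim hk
  obtain ⟨e1, e2⟩ := key (p := w) (g := S.D w) (by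
    filter_upwards [hR, hDw0] with x a1 a2 hx
    exact ⟨a1 (by linarith), a2 (by linarith)⟩)
  rwa [e1, e2] at h2

/-! ### local comparison -/

/-- the bump `(1 - d_b²/t²)⁺` -/
def psi (b : X) (t : ℝ) (z : X) : ℝ := max (1 + (-(2 / t ^ 2)) * hd b z) 0

theorem psi_isT (b : X) {t : ℝ} (ht : 0 < t) : IsT (psi b t) := by
  have h1 : LocallyLipschitz fun z => 1 + (-(2 / t ^ 2)) * hd b z :=
    (LocallyLipschitz.const 1).add (locLip_mul (LocallyLipschitz.const _) (locLip_hd b))
  refine ⟨h1.max_const 0,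
    HasCompactSupport.intro (isCompact_closedBall b t) fun x hx => ?_⟩
  rw [Metric.mem_closedBall, not_le, dist_comm] at hx
  have h2 : t ^ 2 ≤ dist b x ^ 2 := by gcongr
  have h3 : 2 / t ^ 2 * hd b x = dist b x ^ 2 / t ^ 2 := by
    simp only [hd]; field_simp
  have h4 : 1 ≤ dist b x ^ 2 / t ^ 2 := by rw [one_le_div (by positivity)]; exact h2
  exact max_eq_right (by linarith)

theorem psi_zero {b : X} {t : ℝ} (ht : 0 < t) {x : X} (hx : t ≤ dist b x) : psi b t x = 0 := by
  have h2 : t ^ 2 ≤ dist b x ^ 2 := by gcongr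
  have h3 : 2 / t ^ 2 * hd b x = dist b x ^ 2 / t ^ 2 := by
    simp only [hd]; field_simp
  have h4 : 1 ≤ dist b x ^ 2 / t ^ 2 := by rw [one_le_div (by positivity)]; exact h2
  exact max_eq_right (by linarith)

theorem psi_in {b : X} {t : ℝ} (ht : 0 < t) {x : X} (hx : dist b x < t) :
    psi b t x = 1 + (-(2 / t ^ 2)) * hd b x := by
  have h2 : dist b x ^ 2 ≤ t ^ 2 := by gcongr
  have h3 : 2 / t ^ 2 * hd b x = dist b x ^ 2 / t ^ 2 := by
    simp only [hd]; field_simp
  have h4 : dist b x ^ 2 / t ^ 2 ≤ 1 := by rw [div_le_one (by positivity)]; exact h2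
  exact max_eq_left (by linarith)

theorem psi_in' {b : X} {t : ℝ} (ht : 0 < t) {x : X} (hx : dist b x < t) :
    psi b t x = 1 - dist b x ^ 2 / t ^ 2 := by
  rw [psi_in ht hx]
  simp only [hd]
  field_simp
  ring

/-- gradient of the bump on the ball -/
theorem G_psi (b : X) {t : ℝ} (ht : 0 < t) :
    ∀ᵐ x ∂μ, dist b x < t → S.G (psi b t) x = (-(2 / t ^ 2)) • S.G (hd b) x := by
  have h1 : LocallyLipschitz fun z => (-(2 / t ^ 2)) * hd b z :=
    locLip_mul (LocallyLipschitz.const _) (locLip_hd b)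
  have hEq : EqOn (psi b t) (fun z => 1 + (-(2 / t ^ 2)) * hd b z) (Metric.ball b t) :=
    fun x hx => by
      rw [Metric.mem_ball, dist_comm] at hx
      exact psi_in ht hx
  filter_upwards [S.loc (psi_isT b ht).1 ((LocallyLipschitz.const (1:ℝ)).add h1)
    Metric.isOpen_ball hEq, S.add (LocallyLipschitz.const (1:ℝ)) h1, S.const 1,
    S.smul (-(2 / t ^ 2)) (locLip_hd b)] with x a1 a2 a3 a4 hx
  rw [a1 (by rw [Metric.mem_ball, dist_comm]; exact hx), a2, a3, a4, zero_add]

/-- **local comparison** -/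
theorem local_comp {n : ℕ} {κ : ℝ} (hL : LapC S n κ) (hκ : 0 ≤ κ) {v : Lp ℝ 2 μ} (hv : v ∈ S.V)
    (h0 : ∀ᵐ y ∂μ, 0 ≤ v y) {M : ℝ} (hM0 : 0 ≤ M) {b : X} {t ρ : ℝ} (ht : 0 < t)
    (hvM : ∀ᵐ y ∂μ, dist b y < t → v y ≤ M)
    (hsub : ∀ w ∈ S.V, (∀ᵐ y ∂μ, 0 ≤ w y) → (∀ᵐ y ∂μ, t ≤ dist b y → w y = 0) →
      ρ ^ 2 * ⟪S.D v, S.D w⟫ + ⟪v, w⟫ ≤ 0)
    {a : ℝ} (ha0 : 0 ≤ a) (ha : a * (1 + 2 * ρ ^ 2 * (n + κ * t ^ 2) / t ^ 2) ≤ 1) :
    ∀ᵐ y ∂μ, dist b y < t → v y ≤ M * (1 - a * (1 - dist b y ^ 2 / t ^ 2)) := by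
  have hψ := psi_isT (X := X) b ht
  set ψL : Lp ℝ 2 μ := tL hψ with hψL
  have hψc : (ψL : X → ℝ) =ᵐ[μ] psi b t := coe_tL hψ
  have hψV : ψL ∈ S.V := S.tL_mem hψ
  -- the truncation of `v`
  have hmc : MemLp (fun x => max 0 (min (v x) M)) 2 μ := by
    refine (Lp.memLp v).mono ?_ ?_
    · exact aestronglyMeasurable_const.sup ((Lp.aestronglyMeasurable v).inf
        aestronglyMeasurable_const)
    · refine Eventually.of_forall fun x => ?_
      rw [Real.norm_of_nonneg (le_max_left _ _), Real.norm_eq_abs]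
      exact max_le (abs_nonneg _) ((min_le_left _ _).trans (le_abs_self _))
  set w1 : Lp ℝ 2 μ := hmc.toLp _ with hw1
  have hw1c : (w1 : X → ℝ) =ᵐ[μ] fun x => max 0 (min (v x) M) := MemLp.coeFn_toLp _
  obtain ⟨hw1V, hDw1⟩ := S.D_clamp hv le_rfl hM0 hw1c
  set c : ℝ := a * M with hc
  have hc0 : 0 ≤ c := mul_nonneg ha0 hM0
  set v1 : Lp ℝ 2 μ := w1 + c • ψL with hv1
  have hv1V : v1 ∈ S.V := S.V.add_mem hw1V (S.V.smul_mem c hψV)
  have hv1c : ∀ᵐ x ∂μ, v1 x = max 0 (min (v x) M) + c * psi b t x := by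
    filter_upwards [Lp.coeFn_add w1 (c • ψL), Lp.coeFn_smul c ψL, hψc, hw1c] with x a1 a2 a3 a4
    rw [hv1, a1, Pi.add_apply, a2, Pi.smul_apply, a3, a4, smul_eq_mul]
  have hDv1 : ∀ᵐ x ∂μ, S.D v1 x = (Ioc 0 M).indicator (fun _ => (1:ℝ)) (v x) • S.D v x +
      c • S.D ψL x := by
    have e : S.D v1 = S.D w1 + c • S.D ψL := by
      rw [hv1, S.D_add hw1V (S.V.smul_mem c hψV), S.D_smul c hψV]
    rw [e]
    filter_upwards [Lp.coeFn_add (S.D w1) (c • S.D ψL), Lp.coeFn_smul c (S.D ψL), hDw1]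
      with x a1 a2 a3
    rw [a1, Pi.add_apply, a2, Pi.smul_apply, a3]
  set w : Lp ℝ 2 μ := cutL v1 M hM0 with hw
  have hwc : (w : X → ℝ) =ᵐ[μ] fun x => max (v1 x - M) 0 := coe_cutL v1 hM0
  obtain ⟨hwV, hDw⟩ := S.D_cut hv1V hM0 hwc
  have hw0 : ∀ᵐ y ∂μ, 0 ≤ w y := by
    filter_upwards [hwc] with x a1
    rw [a1]; exact le_max_right _ _
  have hwb : ∀ᵐ y ∂μ, t ≤ dist b y → w y = 0 := by
    filter_upwards [hwc, hv1c] with x a1 a2 hx
    rw [a1, a2, psi_zero ht hx, mul_zero, add_zero]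
    exact max_eq_right (by linarith [max_le hM0 (min_le_right (v x) M)])
  have h1 := hsub w hwV hw0 hwb
  have h2 := lapC_V S hL hκ hwV hw0 hwb
  -- pointwise facts
  have hpt : ∀ᵐ x ∂μ, S.D w x = (Ioi M).indicator (fun _ => (1:ℝ)) (v1 x) •
      (S.D v x + c • S.D ψL x) := by
    filter_upwards [hDw, hDv1, hv1c, hvM, h0, S.D_level hv 0] with x a1 a2 a3 a4 a5 a6
    rw [a1]
    by_cases hx : M < v1 x
    · have hb : dist b x < t := by
        by_contra hcon
        rw [a3, psi_zero ht (not_lt.1 hcon), mul_zero, add_zero] at hx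
        exact absurd hx (not_lt.2 (max_le hM0 (min_le_right _ _)))
      rw [a2]
      congr 2
      by_cases h5 : v x = 0
      · rw [a6 h5, smul_zero]
      · rw [indicator_of_mem (show v x ∈ Ioc 0 M from
          ⟨lt_of_le_of_ne a5 (Ne.symm h5), a4 hb⟩), one_smul]
    · rw [indicator_of_notMem (show v1 x ∉ Ioi M from hx), zero_smul, zero_smul]
  have hpt2 : ∀ᵐ x ∂μ, w x = (Ioi M).indicator (fun _ => (1:ℝ)) (v1 x) *
      (v x - M + c * psi b t x) := by
    filter_upwards [hwc, hv1c, hvM, h0] with x a1 a3 a4 a5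
    rw [a1]
    by_cases hx : M < v1 x
    · have hb : dist b x < t := by
        by_contra hcon
        rw [a3, psi_zero ht (not_lt.1 hcon), mul_zero, add_zero] at hx
        exact absurd hx (not_lt.2 (max_le hM0 (min_le_right _ _)))
      rw [indicator_of_mem (mem_Ioi.2 hx), max_eq_left (by linarith), a3, min_eq_left (a4 hb),
        max_eq_right a5]
      ring
    · rw [indicator_of_notMem (show v1 x ∉ Ioi M from hx), zero_mul]
      exact max_eq_right (by linarith [not_lt.1 hx])
  -- gradient part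
  have e1 : (⟪S.D v, S.D w⟫ : ℝ) + c * ⟪S.D ψL, S.D w⟫ = ‖S.D w‖ ^ 2 := by
    rw [← real_inner_smul_left, ← inner_add_left, ← real_inner_self_eq_norm_sq, L2.inner_def,
      L2.inner_def]
    refine integral_congr_ae ?_
    filter_upwards [Lp.coeFn_add (S.D v) (c • S.D ψL), Lp.coeFn_smul c (S.D ψL), hpt]
      with x a1 a2 a3
    rw [a1, Pi.add_apply, a2, Pi.smul_apply]
    by_cases hx : M < v1 x
    · rw [indicator_of_mem (mem_Ioi.2 hx), one_smul] at a3
      rw [← a3]
    · rw [indicator_of_notMem (show v1 x ∉ Ioi M from hx), zero_smul] at a3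
      rw [a3]; simp
  -- the function part
  have e2 : (⟪v, w⟫ : ℝ) = ‖w‖ ^ 2 + ∫ x, (M - c * psi b t x) * w x ∂μ := by
    have hi : Integrable (fun x => (M - c * psi b t x) * w x) μ := by
      have h3 : MemLp (fun x => (M - c * psi b t x) * (Metric.closedBall b t).indicator 1 x) 2 μ := by
        have hm : MeasurableSet (Metric.closedBall b t) := Metric.isClosed_closedBall.measurableSet
        have h4 : MemLp ((Metric.closedBall b t).indicator fun _ => (M + c : ℝ)) 2 μ :=
          memLp_indicator_const 2 hm _ (Or.inr (isCompact_closedBall b t).measure_lt_top.ne)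
        refine h4.mono ?_ (Eventually.of_forall fun x => ?_)
        · exact (aestronglyMeasurable_const.sub
            (hψ.1.continuous.aestronglyMeasurable.const_mul c)).mul
            (aestronglyMeasurable_one.indicator hm)
        · by_cases hx : x ∈ Metric.closedBall b t
          · rw [indicator_of_mem hx, indicator_of_mem hx, Pi.one_apply, mul_one]
            have h5 : 0 ≤ psi b t x := le_max_right _ _
            have h6 : psi b t x ≤ 1 := by
              refine max_le ?_ zero_le_one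
              have : 0 ≤ 2 / t ^ 2 * hd b x := by simp only [hd]; positivity
              linarith
            rw [Real.norm_eq_abs, Real.norm_of_nonneg (by linarith), abs_le]
            have h7 : c * psi b t x ≤ c := by nlinarith
            have h8 : 0 ≤ c * psi b t x := mul_nonneg hc0 h5
            constructor <;> linarith
          · rw [indicator_of_notMem hx, indicator_of_notMem hx]; simp
      refine (L2.integrable_inner (h3.toLp _) w).congr ?_
      filter_upwards [MemLp.coeFn_toLp h3, hwb] with x a1 a2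
      rw [a1]
      by_cases hx : x ∈ Metric.closedBall b t
      · rw [indicator_of_mem hx]; simp [mul_comm]
      · rw [indicator_of_notMem hx]
        rw [Metric.mem_closedBall, not_le, dist_comm] at hx
        rw [a2 hx.le]; simp
    have h3 : (⟪v, w⟫ : ℝ) - ∫ x, (M - c * psi b t x) * w x ∂μ = ‖w‖ ^ 2 := by
      rw [← real_inner_self_eq_norm_sq, L2.inner_def, L2.inner_def,
        ← integral_sub (L2.integrable_inner v w) hi]
      refine integral_congr_ae ?_
      filter_upwards [hpt2] with x a3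
      have e4 : (inner ℝ (w x) (w x) : ℝ) = w x * w x := by simp [pow_two]
      have e5 : (inner ℝ (v x) (w x) : ℝ) = v x * w x := by simp [mul_comm]
      simp only [e4, e5]
      by_cases hx : M < v1 x
      · rw [indicator_of_mem (mem_Ioi.2 hx), one_mul] at a3
        rw [← sub_mul]
        congr 1
        rw [a3]; ring
      · rw [indicator_of_notMem (show v1 x ∉ Ioi M from hx), zero_mul] at a3
        rw [a3]; simp
    linarith
  -- the gradient of the bump against `D w`
  have e3 : (⟪S.D ψL, S.D w⟫ : ℝ) = (-(2 / t ^ 2)) * ∫ z, (⟪S.G (hd b) z, S.D w z⟫ : ℝ) ∂μ := by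
    rw [L2.inner_def, ← integral_const_mul]
    refine integral_congr_ae ?_
    filter_upwards [S.D_tL hψ, G_psi S b ht, S.D_level hwV 0, hwb] with x a1 a2 a3 a4
    rw [a1]
    by_cases hx : dist b x < t
    · rw [a2 hx, real_inner_smul_left]
    · rw [a3 (a4 (not_lt.1 hx))]; simp
  set I1 : ℝ := ∫ z, (⟪S.G (hd b) z, S.D w z⟫ : ℝ) ∂μ with hI1
  set I2 : ℝ := ∫ z, (n + κ * dist b z ^ 2) * w z ∂μ with hI2
  have hwi : Integrable (w : X → ℝ) μ := by
    have hm : MeasurableSet (Metric.closedBall b t) := Metric.isClosed_closedBall.measurableSet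
    have h4 : MemLp ((Metric.closedBall b t).indicator fun _ => (1 : ℝ)) 2 μ :=
      memLp_indicator_const 2 hm _ (Or.inr (isCompact_closedBall b t).measure_lt_top.ne)
    refine (L2.integrable_inner (h4.toLp _) w).congr ?_
    filter_upwards [MemLp.coeFn_toLp h4, hwb] with x a1 a2
    rw [a1]
    by_cases hx : x ∈ Metric.closedBall b t
    · rw [indicator_of_mem hx]; simp
    · rw [indicator_of_notMem hx]
      rw [Metric.mem_closedBall, not_le, dist_comm] at hx
      rw [a2 hx.le]; simp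
  have h5 : I2 ≤ (n + κ * t ^ 2) * ∫ z, w z ∂μ := by
    rw [hI2, ← integral_const_mul]
    refine integral_mono_of_nonneg ?_ (hwi.const_mul _) ?_
    · filter_upwards [hw0] with x a1
      have : (0:ℝ) ≤ n := Nat.cast_nonneg n
      show (0:ℝ) ≤ (n + κ * dist b x ^ 2) * w x
      positivity
    · filter_upwards [hw0, hwb] with x a1 a2
      by_cases hx : dist b x < t
      · have h6 : dist b x ^ 2 ≤ t ^ 2 := by gcongr
        show (n + κ * dist b x ^ 2) * w x ≤ (n + κ * t ^ 2) * w x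
        gcongr
      · show (n + κ * dist b x ^ 2) * w x ≤ (n + κ * t ^ 2) * w x
        rw [a2 (not_lt.1 hx)]; simp
  have hw1 : 0 ≤ ∫ z, w z ∂μ := integral_nonneg_of_ae hw0
  have h6 : M * (1 - a) * ∫ z, w z ∂μ ≤ ∫ x, (M - c * psi b t x) * w x ∂μ := by
    rw [← integral_const_mul]
    refine integral_mono_of_nonneg ?_ ?_ ?_
    · filter_upwards [hw0] with x a1
      have h8 : 0 ≤ M * (1 - a) := by
        refine mul_nonneg hM0 ?_
        have h9 : 0 ≤ 2 * ρ ^ 2 * (n + κ * t ^ 2) / t ^ 2 := by positivity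
        nlinarith
      show (0:ℝ) ≤ M * (1 - a) * w x
      positivity
    · -- integrability as above
      have h3 : MemLp (fun x => (M - c * psi b t x) * (Metric.closedBall b t).indicator 1 x) 2 μ := by
        have hm : MeasurableSet (Metric.closedBall b t) := Metric.isClosed_closedBall.measurableSet
        have h4 : MemLp ((Metric.closedBall b t).indicator fun _ => (M + c : ℝ)) 2 μ :=
          memLp_indicator_const 2 hm _ (Or.inr (isCompact_closedBall b t).measure_lt_top.ne)
        refine h4.mono ?_ (Eventually.of_forall fun x => ?_)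
        · exact (aestronglyMeasurable_const.sub
            (hψ.1.continuous.aestronglyMeasurable.const_mul c)).mul
            (aestronglyMeasurable_one.indicator hm)
        · by_cases hx : x ∈ Metric.closedBall b t
          · rw [indicator_of_mem hx, indicator_of_mem hx, Pi.one_apply, mul_one]
            have h5 : 0 ≤ psi b t x := le_max_right _ _
            have h6 : psi b t x ≤ 1 := by
              refine max_le ?_ zero_le_one
              have : 0 ≤ 2 / t ^ 2 * hd b x := by simp only [hd]; positivity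
              linarith
            rw [Real.norm_eq_abs, Real.norm_of_nonneg (by linarith), abs_le]
            have h7 : c * psi b t x ≤ c := by nlinarith
            have h8 : 0 ≤ c * psi b t x := mul_nonneg hc0 h5
            constructor <;> linarith
          · rw [indicator_of_notMem hx, indicator_of_notMem hx]; simp
      refine (L2.integrable_inner (h3.toLp _) w).congr ?_
      filter_upwards [MemLp.coeFn_toLp h3, hwb] with x a1 a2
      rw [a1]
      by_cases hx : x ∈ Metric.closedBall b t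
      · rw [indicator_of_mem hx]; simp [mul_comm]
      · rw [indicator_of_notMem hx]
        rw [Metric.mem_closedBall, not_le, dist_comm] at hx
        rw [a2 hx.le]; simp
    · filter_upwards [hw0] with x a1
      have h6 : psi b t x ≤ 1 := by
        refine max_le ?_ zero_le_one
        have : 0 ≤ 2 / t ^ 2 * hd b x := by simp only [hd]; positivity
        linarith
      show M * (1 - a) * w x ≤ (M - c * psi b t x) * w x
      refine mul_le_mul_of_nonneg_right ?_ a1
      have : c * psi b t x ≤ c := by nlinarith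
      rw [hc] at this ⊢
      linarith
  -- conclusion
  have h7 : ρ ^ 2 * ‖S.D w‖ ^ 2 + ‖w‖ ^ 2 ≤ 0 := by
    have h8 : ρ ^ 2 * (⟪S.D v, S.D w⟫ : ℝ) = ρ ^ 2 * ‖S.D w‖ ^ 2 + ρ ^ 2 * c * (2 / t ^ 2) * I1 := by
      rw [← e1, e3]; ring
    rw [h8, e2] at h1
    have h9 : 0 ≤ ρ ^ 2 * c * (2 / t ^ 2) := by positivity
    have h10 : -(ρ ^ 2 * c * (2 / t ^ 2) * ((n + κ * t ^ 2) * ∫ z, w z ∂μ)) ≤
        ρ ^ 2 * c * (2 / t ^ 2) * I1 := by
      have h11 : -((n + κ * t ^ 2) * ∫ z, w z ∂μ) ≤ I1 := by linarith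
      nlinarith [mul_le_mul_of_nonneg_left h11 h9]
    have h12 : ρ ^ 2 * c * (2 / t ^ 2) * ((n + κ * t ^ 2) * ∫ z, w z ∂μ) ≤
        M * (1 - a) * ∫ z, w z ∂μ := by
      have h13 : ρ ^ 2 * c * (2 / t ^ 2) * (n + κ * t ^ 2) ≤ M * (1 - a) := by
        have h14 : ρ ^ 2 * c * (2 / t ^ 2) * (n + κ * t ^ 2) =
            M * (a * (2 * ρ ^ 2 * (n + κ * t ^ 2) / t ^ 2)) := by rw [hc]; ring
        rw [h14]
        refine mul_le_mul_of_nonneg_left ?_ hM0
        linarith
      calc ρ ^ 2 * c * (2 / t ^ 2) * ((n + κ * t ^ 2) * ∫ z, w z ∂μ)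
          = ρ ^ 2 * c * (2 / t ^ 2) * (n + κ * t ^ 2) * ∫ z, w z ∂μ := by ring
        _ ≤ _ := mul_le_mul_of_nonneg_right h13 hw1
    linarith
  have h8 : w = 0 := by
    have h9 : ‖w‖ ^ 2 = 0 := by
      have : 0 ≤ ρ ^ 2 * ‖S.D w‖ ^ 2 := by positivity
      exact le_antisymm (by linarith) (sq_nonneg _)
    exact norm_eq_zero.1 (by simpa using h9)
  have h9 : (w : X → ℝ) =ᵐ[μ] 0 := by rw [h8]; exact Lp.coeFn_zero _ _ _
  filter_upwards [h9, hwc, hv1c, hvM, h0] with x a1 a2 a3 a4 a5 hx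
  rw [a1] at a2
  have h10 : v1 x - M ≤ 0 := by
    have := le_max_left (v1 x - M) 0
    rw [← a2] at this
    exact this
  rw [a3, min_eq_left (a4 hx), max_eq_right a5, psi_in' ht hx] at h10
  rw [hc] at h10
  linarith

end Crest.Agent.R247.Dec386
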