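import Crest.Agent.R247.Dir2_593

/-!
# R247, block (1) / (5-M): order of the resolvents (R4)  (helper386)

`Q` a Markov form on `L²(μ)`, `Q.res h = (1 + h L)⁻¹`, `resD Q h l` the resolvent of a functional.

* `resD_mono`            : monotonicity in the functional;
* `resD_order`           : `R_g l ≤ (h / g) R_h l` for `0 < g ≤ h`, `l ≥ 0`;
* `res_super`            : `(1 - g / h) R_g v ≤ v` for an `h`-supersolution `v`, `0 < g < h`;
* `res_resD_le`          : the same for `v = R_h l`;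
* `resD_four`, `res_four`: `R_{h/4} ≤ 4 R_h`;  `res_super_four` : `R_{h/4} v ≤ (4/3) v`;
* `res_resD_sq`          : `R_h (R_h l) ≤ (16/3) R_{4h} l`.

(With `h = ρ²` these are exactly (R4) of the blueprint.)
-/

set_option autoImplicit false

open MeasureTheory Filter Topology Set
open scoped RealInnerProductSpace ENNReal

noncomputable section

namespace Crest.Agent.R247.Ord386

open Crest.Agent.R242 Crest.Agent.R247.Dir593

variable {X : Type*} [MeasurableSpace X] {μ : Measure X} {Q : CForm (Lp ℝ 2 μ)}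

/-- nonnegative functionals -/
def Pos (l : Fnl Q) : Prop := ∀ w ∈ Q.dom, 0 ≤ᵐ[μ] (w : X → ℝ) → 0 ≤ l.f w

/-- `v` is an `h`-supersolution -/
def Super (Q : CForm (Lp ℝ 2 μ)) (h : ℝ) (v : Lp ℝ 2 μ) : Prop :=
  v ∈ Q.dom ∧ ∀ w ∈ Q.dom, 0 ≤ᵐ[μ] (w : X → ℝ) → 0 ≤ h * Q.E v w + ⟪v, w⟫

/-- the functional `w ↦ h E(v, w) + ⟪v, w⟫` -/
def eqF (Q : CForm (Lp ℝ 2 μ)) (h : ℝ) {v : Lp ℝ 2 μ} (hv : v ∈ Q.dom) : Fnl Q where
  f := fun w => h * Q.E v w + ⟪v, w⟫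
  add' := by
    intro u w hu hw
    rw [Q.add_right hv hu hw, inner_add_right]
    ring
  smul' := by
    intro c u hu
    rw [Q.smul_right c hv hu, real_inner_smul_right]
    ring
  C := |h| * Real.sqrt (Q.E v v) + ‖v‖
  C0 := by positivity
  bound := by
    intro u hu
    have h1 := Q.abs_le_sqrt hv hu
    have h2 := abs_real_inner_le_norm v u
    have h3 := Q.nonneg hu
    have h4 : Real.sqrt (Q.E u u) ≤ Real.sqrt (‖u‖ ^ 2 + Q.E u u) :=
      Real.sqrt_le_sqrt (by nlinarith [sq_nonneg ‖u‖])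
    have h5 : ‖u‖ ≤ Real.sqrt (‖u‖ ^ 2 + Q.E u u) := Real.le_sqrt_of_sq_le (by linarith)
    calc |h * Q.E v u + ⟪v, u⟫| ≤ |h * Q.E v u| + |⟪v, u⟫| := abs_add_le _ _
      _ ≤ |h| * (Real.sqrt (Q.E v v) * Real.sqrt (‖u‖ ^ 2 + Q.E u u)) +
          ‖v‖ * Real.sqrt (‖u‖ ^ 2 + Q.E u u) := by
        rw [abs_mul]
        gcongr
        exact h1.trans (by gcongr)
        exact h2.trans (by gcongr)
      _ = _ := by ring

theorem eqF_apply {h : ℝ} {v : Lp ℝ 2 μ} (hv : v ∈ Q.dom) (w : Lp ℝ 2 μ) :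
    (eqF Q h hv).f w = h * Q.E v w + ⟪v, w⟫ := rfl

theorem resD_eqF {h : ℝ} (hh : 0 < h) {v : Lp ℝ 2 μ} (hv : v ∈ Q.dom) :
    resD Q h (eqF Q h hv) = v := (eq_resD hh hv fun _ _ => rfl).symm

theorem super_resD {h : ℝ} (hh : 0 < h) {l : Fnl Q} (hl : Pos l) : Super Q h (resD Q h l) :=
  ⟨resD_mem hh l, fun w hw h0 => by rw [resD_eq hh l hw]; exact hl w hw h0⟩

theorem pos_ofInner {f : Lp ℝ 2 μ} (hf : 0 ≤ᵐ[μ] (f : X → ℝ)) : Pos (Fnl.ofInner Q f) := by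
  intro w _ h0
  show (0:ℝ) ≤ ⟪f, w⟫
  rw [L2.inner_def]
  refine integral_nonneg_of_ae ?_
  filter_upwards [hf, h0] with x h1 h2
  have h3 : (0:ℝ) ≤ f x := h1
  have h4 : (0:ℝ) ≤ w x := h2
  simpa [mul_comm] using mul_nonneg h3 h4

/-- difference of functionals -/
def sub (l l' : Fnl Q) : Fnl Q where
  f := fun w => l.f w - l'.f w
  add' := by
    intro u w hu hw
    rw [l.add' hu hw, l'.add' hu hw]; ring
  smul' := by
    intro c u hu
    rw [l.smul' c hu, l'.smul' c hu]; ring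
  C := l.C + l'.C
  C0 := add_nonneg l.C0 l'.C0
  bound := by
    intro u hu
    have h1 := l.bound hu
    have h2 := l'.bound hu
    calc |l.f u - l'.f u| ≤ |l.f u| + |l'.f u| := abs_sub _ _
      _ ≤ _ := by rw [add_mul]; exact add_le_add h1 h2

/-- multiple of a functional -/
def smul (c : ℝ) (l : Fnl Q) : Fnl Q where
  f := fun w => c * l.f w
  add' := by
    intro u w hu hw
    rw [l.add' hu hw]; ring
  smul' := by
    intro a u hu
    rw [l.smul' a hu]; ring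
  C := |c| * l.C
  C0 := mul_nonneg (abs_nonneg _) l.C0
  bound := by
    intro u hu
    rw [abs_mul, mul_assoc]
    exact mul_le_mul_of_nonneg_left (l.bound hu) (abs_nonneg _)

theorem resD_sub {h : ℝ} (hh : 0 < h) (l l' : Fnl Q) :
    resD Q h (sub l l') = resD Q h l - resD Q h l' := by
  refine (eq_resD hh (Q.dom.sub_mem (resD_mem hh l) (resD_mem hh l')) fun v hv => ?_).symm
  rw [Q.sub_left (resD_mem hh l) (resD_mem hh l') hv, inner_sub_left]
  show _ = l.f v - l'.f v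
  rw [← resD_eq hh l hv, ← resD_eq hh l' hv]
  ring

theorem resD_smul {h : ℝ} (hh : 0 < h) (c : ℝ) (l : Fnl Q) :
    resD Q h (smul c l) = c • resD Q h l := by
  refine (eq_resD hh (Q.dom.smul_mem c (resD_mem hh l)) fun v hv => ?_).symm
  rw [Q.smul_left c (resD_mem hh l) hv, real_inner_smul_left]
  show _ = c * l.f v
  rw [← resD_eq hh l hv]
  ring

/-- from `0 ≤ b - a` a.e. -/
theorem le_of_sub {a b : Lp ℝ 2 μ} (h : 0 ≤ᵐ[μ] ((b - a : Lp ℝ 2 μ) : X → ℝ)) :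
    (a : X → ℝ) ≤ᵐ[μ] (b : X → ℝ) := by
  filter_upwards [h, Lp.coeFn_sub b a] with x h1 h2
  rw [h2, Pi.sub_apply] at h1
  have h3 : (0:ℝ) ≤ b x - a x := h1
  linarith

variable (hQ : Markov Q)

include hQ

/-- monotonicity of `resD` in the functional -/
theorem resD_mono {h : ℝ} (hh : 0 < h) {l l' : Fnl Q}
    (hl : ∀ w ∈ Q.dom, 0 ≤ᵐ[μ] (w : X → ℝ) → l.f w ≤ l'.f w) :
    ((resD Q h l : Lp ℝ 2 μ) : X → ℝ) ≤ᵐ[μ] ((resD Q h l' : Lp ℝ 2 μ) : X → ℝ) := by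
  refine le_of_sub ?_
  rw [← resD_sub hh]
  exact hQ.resD_nonneg hh fun w hw h0 => sub_nonneg.2 (hl w hw h0)

/-- monotonicity of `res` -/
theorem res_mono {h : ℝ} (hh : 0 < h) {f g : Lp ℝ 2 μ} (hfg : (f : X → ℝ) ≤ᵐ[μ] (g : X → ℝ)) :
    (Q.res h f : X → ℝ) ≤ᵐ[μ] (Q.res h g : X → ℝ) :=
  (hQ.symMarkov_res hh).mono hfg

theorem super_nonneg {h : ℝ} (hh : 0 < h) {v : Lp ℝ 2 μ} (hv : Super Q h v) :
    0 ≤ᵐ[μ] (v : X → ℝ) := by
  have h1 := hQ.resD_nonneg hh (l := eqF Q h hv.1) hv.2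
  rwa [resD_eqF hh] at h1

/-- **(R4), first part**: `R_g l ≤ (h / g) R_h l` for `0 < g ≤ h`, `l ≥ 0`. -/
theorem resD_order {g h : ℝ} (hg : 0 < g) (hgh : g ≤ h) {l : Fnl Q} (hl : Pos l) :
    ∀ᵐ x ∂μ, resD Q g l x ≤ h / g * resD Q h l x := by
  have hh : 0 < h := lt_of_lt_of_le hg hgh
  have h1 := resD_resolvent hg hh l
  have h2 := hQ.res_nonneg hg (hQ.resD_nonneg hh hl)
  set u := resD Q h l with hu
  set a := resD Q g l with ha
  filter_upwards [h2, Lp.coeFn_add ((g / h) • a) ((1 - g / h) • Q.res g u),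
    Lp.coeFn_smul (g / h) a, Lp.coeFn_smul (1 - g / h) (Q.res g u)] with x e1 e2 e3 e4
  have e5 : u x = g / h * a x + (1 - g / h) * Q.res g u x := by
    conv_lhs => rw [h1]
    rw [e2, Pi.add_apply, e3, e4, Pi.smul_apply, Pi.smul_apply, smul_eq_mul, smul_eq_mul]
  have e6 : (0:ℝ) ≤ Q.res g u x := e1
  have e7 : 0 ≤ 1 - g / h := by
    rw [sub_nonneg, div_le_one hh]; exact hgh
  have e8 : g / h * a x ≤ u x := by
    rw [e5]; nlinarith [mul_nonneg e7 e6]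
  have e9 : h / g * (g / h * a x) = a x := by field_simp
  rw [← e9]
  exact mul_le_mul_of_nonneg_left e8 (by positivity)

theorem res_order {g h : ℝ} (hg : 0 < g) (hgh : g ≤ h) {f : Lp ℝ 2 μ}
    (hf : 0 ≤ᵐ[μ] (f : X → ℝ)) : ∀ᵐ x ∂μ, Q.res g f x ≤ h / g * Q.res h f x := by
  have hh : 0 < h := lt_of_lt_of_le hg hgh
  have h1 := resD_order hQ hg hgh (pos_ofInner (Q := Q) hf)
  rwa [resD_ofInner hg, resD_ofInner hh] at h1

/-- `R_g (R_h l) ≤ (1 - g/h)⁻¹ R_h l` -/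
theorem res_resD_le {g h : ℝ} (hg : 0 < g) (hgh : g < h) {l : Fnl Q} (hl : Pos l) :
    ∀ᵐ x ∂μ, Q.res g (resD Q h l) x ≤ (1 - g / h)⁻¹ * resD Q h l x := by
  have hh : 0 < h := hg.trans hgh
  have h1 := resD_resolvent hg hh l
  have h2 := hQ.resD_nonneg hg hl
  set u := resD Q h l with hu
  set a := resD Q g l with ha
  filter_upwards [h2, Lp.coeFn_add ((g / h) • a) ((1 - g / h) • Q.res g u),
    Lp.coeFn_smul (g / h) a, Lp.coeFn_smul (1 - g / h) (Q.res g u)] with x e1 e2 e3 e4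
  have e5 : u x = g / h * a x + (1 - g / h) * Q.res g u x := by
    conv_lhs => rw [h1]
    rw [e2, Pi.add_apply, e3, e4, Pi.smul_apply, Pi.smul_apply, smul_eq_mul, smul_eq_mul]
  have e6 : (0:ℝ) ≤ a x := e1
  have e7 : 0 < 1 - g / h := by
    rw [sub_pos, div_lt_one hh]; exact hgh
  have e10 : 0 < g / h := by positivity
  have e8 : (1 - g / h) * Q.res g u x ≤ u x := by
    rw [e5]; nlinarith [mul_nonneg e10.le e6]
  rw [inv_mul_eq_div, le_div_iff₀ e7, mul_comm]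
  exact e8

/-- **(R4), second part**: supersolutions. -/
theorem res_super {g h : ℝ} (hg : 0 < g) (hgh : g < h) {v : Lp ℝ 2 μ} (hv : Super Q h v) :
    ∀ᵐ x ∂μ, Q.res g v x ≤ (1 - g / h)⁻¹ * v x := by
  have hh : 0 < h := hg.trans hgh
  have h1 := res_resD_le hQ hg hgh (l := eqF Q h hv.1) hv.2
  rwa [resD_eqF hh] at h1

theorem resD_four {h : ℝ} (hh : 0 < h) {l : Fnl Q} (hl : Pos l) :
    ∀ᵐ x ∂μ, resD Q (h / 4) l x ≤ 4 * resD Q h l x := by
  have h1 := resD_order hQ (g := h / 4) (h := h) (by positivity) (by linarith) hl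
  have e : h / (h / 4) = 4 := by field_simp
  rwa [e] at h1

theorem res_four {h : ℝ} (hh : 0 < h) {f : Lp ℝ 2 μ} (hf : 0 ≤ᵐ[μ] (f : X → ℝ)) :
    ∀ᵐ x ∂μ, Q.res (h / 4) f x ≤ 4 * Q.res h f x := by
  have h1 := res_order hQ (g := h / 4) (h := h) (by positivity) (by linarith) hf
  have e : h / (h / 4) = 4 := by field_simp
  rwa [e] at h1

theorem res_super_four {h : ℝ} (hh : 0 < h) {v : Lp ℝ 2 μ} (hv : Super Q h v) :
    ∀ᵐ x ∂μ, Q.res (h / 4) v x ≤ 4 / 3 * v x := by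
  have h1 := res_super hQ (g := h / 4) (h := h) (by positivity) (by linarith) hv
  have e : (1 - h / 4 / h)⁻¹ = 4 / 3 := by
    field_simp; norm_num
  rwa [e] at h1

/-- **(R4), third part**: `R_h² l ≤ (16/3) R_{4h} l`. -/
theorem res_resD_sq {h : ℝ} (hh : 0 < h) {l : Fnl Q} (hl : Pos l) :
    ∀ᵐ x ∂μ, Q.res h (resD Q h l) x ≤ 16 / 3 * resD Q (4 * h) l x := by
  have h4 : 0 < 4 * h := by positivity
  have h1 := resD_four hQ h4 hl
  have e : 4 * h / 4 = h := by ring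
  rw [e] at h1
  have h2 := res_super_four hQ h4 (super_resD h4 hl)
  rw [e] at h2
  have h3 : ((resD Q h l : Lp ℝ 2 μ) : X → ℝ) ≤ᵐ[μ] (((4:ℝ) • resD Q (4 * h) l : Lp ℝ 2 μ) : X → ℝ) := by
    filter_upwards [h1, Lp.coeFn_smul (4:ℝ) (resD Q (4 * h) l)] with x a1 a2
    rw [a2, Pi.smul_apply, smul_eq_mul]; exact a1
  have h5 := res_mono hQ hh h3
  rw [map_smul] at h5
  filter_upwards [h2, h5, Lp.coeFn_smul (4:ℝ) (Q.res h (resD Q (4 * h) l))] with x a1 a2 a3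
  rw [a3, Pi.smul_apply, smul_eq_mul] at a2
  linarith

theorem res_sq {h : ℝ} (hh : 0 < h) {f : Lp ℝ 2 μ} (hf : 0 ≤ᵐ[μ] (f : X → ℝ)) :
    ∀ᵐ x ∂μ, Q.res h (Q.res h f) x ≤ 16 / 3 * Q.res (4 * h) f x := by
  have h1 := res_resD_sq hQ hh (pos_ofInner (Q := Q) hf)
  rwa [resD_ofInner hh, resD_ofInner (by positivity)] at h1

/-- supersolutions are preserved by scaling up: an `h`-supersolution is a `g`-supersolution for
`g ≤ h` (`v ≥ 0`). -/
theorem super_le {g h : ℝ} (hg : 0 < g) (hgh : g ≤ h) {v : Lp ℝ 2 μ} (hv : Super Q h v) :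
    Super Q g v := by
  have hh : 0 < h := lt_of_lt_of_le hg hgh
  refine ⟨hv.1, fun w hw h0 => ?_⟩
  have h1 := hv.2 w hw h0
  have h2 : (0:ℝ) ≤ ⟪v, w⟫ := pos_ofInner (Q := Q) (super_nonneg hQ hh hv) w hw h0
  have h3 : g * Q.E v w + ⟪v, w⟫ = g / h * (h * Q.E v w + ⟪v, w⟫) + (1 - g / h) * ⟪v, w⟫ := by
    field_simp
    ring
  rw [h3]
  have h4 : 0 ≤ 1 - g / h := by rw [sub_nonneg, div_le_one hh]; exact hgh
  have h5 : 0 ≤ g / h := by positivity
  exact add_nonneg (mul_nonneg h5 h1) (mul_nonneg h4 h2)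

omit hQ in
/-- the resolvent of a nonnegative function is a supersolution -/
theorem super_res {h : ℝ} (hh : 0 < h) {f : Lp ℝ 2 μ} (hf : 0 ≤ᵐ[μ] (f : X → ℝ)) :
    Super Q h (Q.res h f) := by
  have h1 := super_resD hh (pos_ofInner (Q := Q) hf)
  rwa [resD_ofInner hh] at h1

end Crest.Agent.R247.Ord386
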