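import Crest.Agent.R247.Dec1_386
import Crest.Agent.R247.Ord1_386

/-!
# R247, block (1) / (5-M): exponential decay of resolvents (R3)  (helper386)

* `decay_pow` : if `0 ≤ v ≤ M`, `v - ρ² Δ v ≤ 0` off `closedBall x₀ a₀`, `κ ρ² ≤ 1`, then
  `v ≤ M θⁿ` at distance `> a₀ + k (3/2) ρ`, `θ = 1 - (3/4)/(2n+3)`;
* `decay`     : `v y ≤ 2 M exp (-(dist x₀ y - a₀) / ((4 n + 6) ρ))` a.e.;
* `decay_res` : the same for `v = Q.res (ρ²) f`, `0 ≤ f ≤ M` supported in `closedBall x₀ a₀`;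
* `decay_ind` : (R3) for the indicator of a measurable `B ⊆ closedBall x₀ a₀`.
-/

set_option autoImplicit false
set_option linter.unusedSectionVars false

open MeasureTheory Filter Topology Set
open scoped RealInnerProductSpace ENNReal NNReal

noncomputable section

namespace Crest.Agent.R247.Dec386

open Crest.Agent.R242 Crest.Agent.R247.Dir593 Crest.Agent.R247.Dir593.GradS

variable {X : Type*} [MetricSpace X] [MeasurableSpace X] {F : Type*}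
  [NormedAddCommGroup F] [InnerProductSpace ℝ F] {μ : Measure X} (S : GradS X F μ)
  [BorelSpace X] [IsFiniteMeasureOnCompacts μ] [ProperSpace X]

theorem decay_pow {n : ℕ} {κ : ℝ} (hL : LapC S n κ) (hκ : 0 ≤ κ) {v : Lp ℝ 2 μ} (hv : v ∈ S.V)
    (h0 : ∀ᵐ y ∂μ, 0 ≤ v y) {M : ℝ} (hM0 : 0 ≤ M) (hM : ∀ᵐ y ∂μ, v y ≤ M) {x₀ : X} {a₀ ρ : ℝ}
    (hρ : 0 < ρ) (hκρ : κ * ρ ^ 2 ≤ 1)
    (hsub : ∀ w ∈ S.V, (∀ᵐ y ∂μ, 0 ≤ w y) → (∀ᵐ y ∂μ, dist x₀ y ≤ a₀ → w y = 0) →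
      ρ ^ 2 * ⟪S.D v, S.D w⟫ + ⟪v, w⟫ ≤ 0) (k : ℕ) :
    ∀ᵐ y ∂μ, a₀ + k * (3 / 2 * ρ) < dist x₀ y →
      v y ≤ M * (1 - 3 / 4 * (1 / (2 * n + 3))) ^ k := by
  have hn : (0:ℝ) ≤ n := Nat.cast_nonneg n
  set a : ℝ := 1 / (2 * n + 3) with ha
  have ha0 : 0 < a := by rw [ha]; positivity
  have ha1 : a ≤ 1 := by rw [ha, div_le_one (by positivity)]; linarith
  have hθ0 : 0 ≤ 1 - 3 / 4 * a := by linarith
  have haeq : a * (1 + 2 * ρ ^ 2 * (n + κ * ρ ^ 2) / ρ ^ 2) ≤ 1 := by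
    have e : 2 * ρ ^ 2 * (n + κ * ρ ^ 2) / ρ ^ 2 = 2 * (n + κ * ρ ^ 2) := by
      field_simp
    rw [e, ha, one_div_mul_eq_div, div_le_one (by positivity)]
    linarith
  induction k with
  | zero =>
    filter_upwards [hM] with y hy _
    simpa using hy
  | succ k ih =>
    have : Nonempty X := ⟨x₀⟩
    have hstep : ∀ b : X, a₀ + k * (3 / 2 * ρ) + ρ ≤ dist x₀ b →
        ∀ᵐ y ∂μ, dist b y < ρ / 2 → v y ≤ M * (1 - 3 / 4 * a) ^ (k + 1) := by
      intro b hb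
      have hk0 : (0:ℝ) ≤ k * (3 / 2 * ρ) := by positivity
      have h1 : ∀ᵐ y ∂μ, dist b y < ρ → v y ≤ M * (1 - 3 / 4 * a) ^ k := by
        filter_upwards [ih] with y hy hyb
        refine hy ?_
        have := dist_triangle x₀ y b
        rw [dist_comm y b] at this
        linarith
      have h2 := local_comp S hL hκ hv h0 (mul_nonneg hM0 (pow_nonneg hθ0 k)) (b := b) hρ h1
        (ρ := ρ) (fun w hw hw0 hwb => hsub w hw hw0 (by
          filter_upwards [hwb] with y hy hya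
          refine hy ?_
          have := dist_triangle x₀ y b
          rw [dist_comm y b] at this
          linarith)) ha0.le haeq
      filter_upwards [h2] with y hy hyb
      refine (hy (by linarith)).trans ?_
      rw [pow_succ (1 - 3 / 4 * a) k, ← mul_assoc M]
      refine mul_le_mul_of_nonneg_left ?_ (mul_nonneg hM0 (pow_nonneg hθ0 k))
      have h3 : dist b y ^ 2 / ρ ^ 2 ≤ 1 / 4 := by
        rw [div_le_iff₀ (by positivity)]
        nlinarith [dist_nonneg (x := b) (y := y)]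
      nlinarith
    have hall : ∀ᵐ y ∂μ, ∀ i : ℕ, a₀ + k * (3 / 2 * ρ) + ρ ≤ dist x₀ (TopologicalSpace.denseSeq X i) →
        dist (TopologicalSpace.denseSeq X i) y < ρ / 2 → v y ≤ M * (1 - 3 / 4 * a) ^ (k + 1) := by
      refine ae_all_iff.2 fun i => ?_
      by_cases hi : a₀ + k * (3 / 2 * ρ) + ρ ≤ dist x₀ (TopologicalSpace.denseSeq X i)
      · filter_upwards [hstep _ hi] with y hy _ using hy
      · exact Eventually.of_forall fun y h => absurd h hi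
    filter_upwards [hall] with y hy hyd
    obtain ⟨i, hi⟩ := (TopologicalSpace.denseRange_denseSeq X).exists_dist_lt y
      (show 0 < ρ / 2 by positivity)
    refine hy i ?_ (by rw [dist_comm]; exact hi)
    have := dist_triangle x₀ (TopologicalSpace.denseSeq X i) y
    rw [dist_comm (TopologicalSpace.denseSeq X i) y] at this
    push_cast at hyd
    linarith

/-- **exponential decay** -/
theorem decay {n : ℕ} {κ : ℝ} (hL : LapC S n κ) (hκ : 0 ≤ κ) {v : Lp ℝ 2 μ} (hv : v ∈ S.V)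
    (h0 : ∀ᵐ y ∂μ, 0 ≤ v y) {M : ℝ} (hM0 : 0 ≤ M) (hM : ∀ᵐ y ∂μ, v y ≤ M) {x₀ : X} {a₀ ρ : ℝ}
    (hρ : 0 < ρ) (hκρ : κ * ρ ^ 2 ≤ 1)
    (hsub : ∀ w ∈ S.V, (∀ᵐ y ∂μ, 0 ≤ w y) → (∀ᵐ y ∂μ, dist x₀ y ≤ a₀ → w y = 0) →
      ρ ^ 2 * ⟪S.D v, S.D w⟫ + ⟪v, w⟫ ≤ 0) :
    ∀ᵐ y ∂μ, v y ≤ 2 * M * Real.exp (-((dist x₀ y - a₀) / ((4 * n + 6) * ρ))) := by
  have hn : (0:ℝ) ≤ n := Nat.cast_nonneg n
  set a : ℝ := 1 / (2 * n + 3) with ha
  have ha0 : 0 < a := by rw [ha]; positivity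
  have ha1 : a ≤ 1 / 3 := by
    rw [ha]; exact one_div_le_one_div_of_le (by norm_num) (by linarith)
  have hall := ae_all_iff.2 fun k => decay_pow S hL hκ hv h0 hM0 hM hρ hκρ hsub k
  filter_upwards [hall, hM] with y hy hyM
  by_cases hd : dist x₀ y ≤ a₀
  · have h1 : 1 ≤ Real.exp (-((dist x₀ y - a₀) / ((4 * n + 6) * ρ))) := by
      apply Real.one_le_exp
      have : (dist x₀ y - a₀) / ((4 * n + 6) * ρ) ≤ 0 :=
        div_nonpos_of_nonpos_of_nonneg (by linarith) (by positivity)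
      linarith
    nlinarith
  · rw [not_le] at hd
    set s : ℝ := (dist x₀ y - a₀) / (3 / 2 * ρ) with hs
    have hs0 : 0 < s := div_pos (by linarith) (by positivity)
    obtain ⟨k, hk1, hk2⟩ : ∃ k : ℕ, (k : ℝ) < s ∧ s - 1 ≤ k := by
      have h1 : 0 < ⌈s⌉₊ := Nat.ceil_pos.2 hs0
      refine ⟨⌈s⌉₊ - 1, ?_, ?_⟩
      · have := Nat.ceil_lt_add_one hs0.le
        rw [Nat.cast_sub (by omega)]
        push_cast
        linarith
      · have := Nat.le_ceil s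
        rw [Nat.cast_sub (by omega)]
        push_cast
        linarith
    have h2 := hy k (by
      have h3 : (k : ℝ) * (3 / 2 * ρ) < s * (3 / 2 * ρ) := by
        have : 0 < 3 / 2 * ρ := by positivity
        nlinarith
      have h4 : s * (3 / 2 * ρ) = dist x₀ y - a₀ := by rw [hs]; field_simp
      linarith)
    refine h2.trans ?_
    have h5 : (1 - 3 / 4 * a) ^ k ≤ Real.exp (-(3 / 4 * a)) ^ k := by
      have h6 : 1 - 3 / 4 * a ≤ Real.exp (-(3 / 4 * a)) := by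
        have := Real.add_one_le_exp (-(3 / 4 * a))
        linarith
      exact pow_le_pow_left₀ (by linarith) h6 k
    rw [← Real.exp_nat_mul] at h5
    have h6 : (k : ℝ) * -(3 / 4 * a) ≤ 3 / 4 * a + -((dist x₀ y - a₀) / ((4 * n + 6) * ρ)) := by
      have h7 : (dist x₀ y - a₀) / ((4 * n + 6) * ρ) = 3 / 4 * a * s := by
        rw [hs, ha]; field_simp; ring
      rw [h7]
      nlinarith
    have h8 : Real.exp (3 / 4 * a) ≤ 2 := by
      have h9 : Real.exp (3 / 4 * a) ≤ Real.exp (1 / 4) := Real.exp_le_exp.2 (by linarith)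
      have h10 : Real.exp (1 / 4 : ℝ) ≤ 2 := by
        have h11 : (1 / 4 : ℝ) ≤ Real.log 2 := by
          have := Real.log_two_gt_d9
          linarith
        have := (Real.le_log_iff_exp_le (by norm_num : (0:ℝ) < 2)).1 h11
        exact this
      exact h9.trans h10
    have h9 : (1 - 3 / 4 * a) ^ k ≤ 2 * Real.exp (-((dist x₀ y - a₀) / ((4 * n + 6) * ρ))) := by
      refine h5.trans ((Real.exp_le_exp.2 h6).trans ?_)
      rw [Real.exp_add]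
      exact mul_le_mul_of_nonneg_right h8 (Real.exp_pos _).le
    calc M * (1 - 3 / 4 * a) ^ k
        ≤ M * (2 * Real.exp (-((dist x₀ y - a₀) / ((4 * n + 6) * ρ)))) :=
          mul_le_mul_of_nonneg_left h9 hM0
      _ = _ := by ring

/-- decay of the resolvent of a bounded compactly supported function -/
theorem decay_res {n : ℕ} {κ : ℝ} (hL : LapC S n κ) (hκ : 0 ≤ κ) {Q : CForm (Lp ℝ 2 μ)}
    (hQ : Markov Q) (hdom : Q.dom = S.V)
    (hE : ∀ u ∈ S.V, ∀ w ∈ S.V, Q.E u w = ⟪S.D u, S.D w⟫) {f : Lp ℝ 2 μ} {M : ℝ} (hM0 : 0 ≤ M)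
    (hf0 : ∀ᵐ y ∂μ, 0 ≤ f y) (hfM : ∀ᵐ y ∂μ, f y ≤ M) {x₀ : X} {a₀ ρ : ℝ}
    (hfs : ∀ᵐ y ∂μ, a₀ < dist x₀ y → f y = 0) (hρ : 0 < ρ) (hκρ : κ * ρ ^ 2 ≤ 1) :
    ∀ᵐ y ∂μ, Q.res (ρ ^ 2) f y ≤ 2 * M * Real.exp (-((dist x₀ y - a₀) / ((4 * n + 6) * ρ))) := by
  have hρ2 : 0 < ρ ^ 2 := by positivity
  have hvd : Q.res (ρ ^ 2) f ∈ Q.dom := Q.res_mem hρ2 f
  have hvV : Q.res (ρ ^ 2) f ∈ S.V := by rw [← hdom]; exact hvd
  refine decay S hL hκ hvV (hQ.res_nonneg hρ2 hf0) hM0 (hQ.res_le hρ2 hM0 hfM) hρ hκρ ?_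
  intro w hw hw0 hwb
  have h1 := Q.res_eq hρ2 f (v := w) (by rw [hdom]; exact hw)
  rw [hE _ hvV _ hw] at h1
  rw [h1, L2.inner_def]
  refine (integral_eq_zero_of_ae ?_).le
  filter_upwards [hwb, hfs] with y h2 h3
  show (inner ℝ (f y) (w y) : ℝ) = 0
  by_cases hy : dist x₀ y ≤ a₀
  · rw [h2 hy, inner_zero_right]
  · rw [h3 (not_le.1 hy), inner_zero_left]

/-- **(R3)**: decay of `R_ρ 1_B` off `closedBall x₀ a₀ ⊇ B`. -/
theorem decay_ind {n : ℕ} {κ : ℝ} (hL : LapC S n κ) (hκ : 0 ≤ κ) {Q : CForm (Lp ℝ 2 μ)}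
    (hQ : Markov Q) (hdom : Q.dom = S.V)
    (hE : ∀ u ∈ S.V, ∀ w ∈ S.V, Q.E u w = ⟪S.D u, S.D w⟫) {B : Set X} (hB : MeasurableSet B)
    (hμ : μ B ≠ ∞) {x₀ : X} {a₀ ρ : ℝ} (hBa : B ⊆ Metric.closedBall x₀ a₀) (hρ : 0 < ρ)
    (hκρ : κ * ρ ^ 2 ≤ 1) :
    ∀ᵐ y ∂μ, Q.res (ρ ^ 2) (ind hB hμ) y ≤
      2 * Real.exp (-((dist x₀ y - a₀) / ((4 * n + 6) * ρ))) := by
  have h := decay_res S hL hκ hQ hdom hE (f := ind hB hμ) zero_le_one (ind_nonneg hB hμ)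
    (ind_le_one hB hμ) (x₀ := x₀) (a₀ := a₀) (by
      filter_upwards [coe_ind hB hμ] with y hy hd
      rw [hy, indicator_of_notMem]
      intro hyB
      have := hBa hyB
      rw [Metric.mem_closedBall, dist_comm] at this
      linarith) hρ hκρ
  simpa using h

end Crest.Agent.R247.Dec386
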