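import Crest.Agent.R247.Dir4_593

/-!
R247, block (5) abstract half (helper593): density of `V`, the Dirichlet form `S.form`, the Markov
property, functionals `∫ a p + ∫ ⟪g, D p⟫`, localisation of functionals, positivity on test
functions.
-/

set_option autoImplicit false
set_option linter.unusedSectionVars false

open MeasureTheory Filter Topology Set
open scoped RealInnerProductSpace ENNReal NNReal

noncomputable section

namespace Crest.Agent.R247.Dir593

open Crest.Agent.R242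

namespace GradS

variable {X : Type*} [MetricSpace X] [MeasurableSpace X] {F : Type*}
  [NormedAddCommGroup F] [InnerProductSpace ℝ F] {μ : Measure X} (S : GradS X F μ)
  [BorelSpace X] [IsFiniteMeasureOnCompacts μ]

/-! ### density -/

/-- indicator of a compact set -/
theorem ind_compact_mem [ProperSpace X] {K : Set X} (hK : IsCompact K)
    (hKm : MeasurableSet K) (hμ : μ K ≠ ∞) : ind hKm hμ ∈ closure (S.V : Set (Lp ℝ 2 μ)) := by
  rcases K.eq_empty_or_nonempty with rfl | hne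
  · have h0 : ind hKm hμ = 0 := by
      ext1
      filter_upwards [coe_ind hKm hμ, Lp.coeFn_zero ℝ 2 μ] with x h1 h2
      rw [h1, h2]; simp
    rw [h0]; exact subset_closure S.V.zero_mem
  set c : ℕ → X → ℝ := fun k x => max 0 (1 - ((k : ℝ) + 1) * Metric.infDist x K) with hc
  have hcL : ∀ k : ℕ, LipschitzWith ((k : ℝ≥0) + 1) (c k) := by
    intro k
    refine LipschitzWith.of_dist_le_mul fun x y => ?_
    rw [Real.dist_eq]
    simp only [hc]
    rw [max_comm 0, max_comm 0]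
    refine (abs_max_sub_max_le_abs _ _ _).trans ?_
    have e : 1 - ((k : ℝ) + 1) * Metric.infDist x K - (1 - ((k : ℝ) + 1) * Metric.infDist y K) =
        -(((k : ℝ) + 1) * (Metric.infDist x K - Metric.infDist y K)) := by ring
    rw [e, abs_neg, abs_mul, abs_of_nonneg (by positivity : (0:ℝ) ≤ (k : ℝ) + 1)]
    have h1 : |Metric.infDist x K - Metric.infDist y K| ≤ dist x y := by
      have := (Metric.lipschitz_infDist_pt K).dist_le_mul x y
      simpa [Real.dist_eq] using this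
    push_cast
    exact mul_le_mul_of_nonneg_left h1 (by positivity)
  have hc01 : ∀ k x, 0 ≤ c k x ∧ c k x ≤ 1 := fun k x => by
    refine ⟨le_max_left _ _, max_le zero_le_one ?_⟩
    have : 0 ≤ ((k : ℝ) + 1) * Metric.infDist x K := mul_nonneg (by positivity) Metric.infDist_nonneg
    linarith
  have hcs0 : ∀ k x, x ∉ Metric.cthickening 1 K → c k x = 0 := fun k x hx => by
    have h1 : 1 < Metric.infDist x K := by
      by_contra hcon
      refine hx (Metric.mem_cthickening_iff.2 ?_)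
      exact (ENNReal.le_ofReal_iff_toReal_le (Metric.infEDist_ne_top hne) zero_le_one).2
        (not_lt.1 hcon)
    simp only [hc]
    rw [max_eq_left]
    have : (0:ℝ) ≤ k := Nat.cast_nonneg k
    nlinarith
  have hcomp : IsCompact (Metric.cthickening 1 K) := hK.cthickening
  have hcT : ∀ k, IsT (c k) := fun k =>
    ⟨(hcL k).locallyLipschitz, HasCompactSupport.intro hcomp fun x hx => hcs0 k x hx⟩
  have hlim : ∀ x, Tendsto (fun k => c k x) atTop (𝓝 (K.indicator (fun _ => 1) x)) := fun x => by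
    by_cases hx : x ∈ K
    · rw [indicator_of_mem hx]
      refine tendsto_const_nhds.congr fun k => ?_
      simp only [hc]
      rw [Metric.infDist_zero_of_mem hx]; simp
    · rw [indicator_of_notMem hx]
      have h1 : 0 < Metric.infDist x K := (hK.isClosed.notMem_iff_infDist_pos hne).1 hx
      refine tendsto_const_nhds.congr' ?_
      filter_upwards [eventually_gt_atTop ⌈1 / Metric.infDist x K⌉₊] with k hk
      have h2 : 1 / Metric.infDist x K < k := (Nat.le_ceil _).trans_lt (by exact_mod_cast hk)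
      rw [div_lt_iff₀ h1] at h2
      simp only [hc]
      rw [max_eq_left]
      nlinarith
  have hb : MemLp ((Metric.cthickening 1 K).indicator fun _ => (1:ℝ)) 2 μ :=
    memLp_indicator_const 2 hcomp.isClosed.measurableSet 1 (Or.inr hcomp.measure_lt_top.ne)
  have t1 : Tendsto (fun k => (tL (hcT k) : Lp ℝ 2 μ)) atTop (𝓝 (ind hKm hμ)) := by
    refine tendsto_dom hb (fun k => ?_) ?_
    · filter_upwards [coe_tL (μ := μ) (hcT k), coe_ind hKm hμ] with x a1 a2
      rw [a1, a2]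
      by_cases hx : x ∈ Metric.cthickening 1 K
      · rw [indicator_of_mem hx, Real.norm_eq_abs, abs_le]
        have h3 : 0 ≤ K.indicator (fun _ => (1:ℝ)) x ∧ K.indicator (fun _ => (1:ℝ)) x ≤ 1 := by
          by_cases hxK : x ∈ K <;> simp [hxK]
        constructor <;> linarith [(hc01 k x).1, (hc01 k x).2, h3.1, h3.2]
      · rw [indicator_of_notMem hx, hcs0 k x hx,
          indicator_of_notMem (fun h => hx (Metric.self_subset_cthickening K h))]
        simp
    · have h5 : ∀ᵐ x ∂μ, ∀ k, (tL (hcT k) : Lp ℝ 2 μ) x = c k x :=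
        ae_all_iff.2 fun k => coe_tL (hcT k)
      filter_upwards [h5, coe_ind hKm hμ] with x a1 a2
      simp only [a1, a2]
      exact hlim x
  exact mem_closure_of_tendsto t1 (Filter.Eventually.of_forall fun k => S.tL_mem (hcT k))

theorem dense_V [ProperSpace X] : Dense (S.V : Set (Lp ℝ 2 μ)) := by
  have : IsLocallyFiniteMeasure μ := isLocallyFiniteMeasure_of_isFiniteMeasureOnCompacts
  intro f
  have hcl : closure (S.V : Set (Lp ℝ 2 μ)) = (S.V.topologicalClosure : Set (Lp ℝ 2 μ)) := rfl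
  refine Lp.induction (p := 2) (by norm_num)
    (motive := fun f : Lp ℝ 2 μ => f ∈ closure (S.V : Set (Lp ℝ 2 μ))) ?_ ?_ isClosed_closure f
  · intro c s hs hμs
    have h1 : ((Lp.simpleFunc.indicatorConst 2 hs hμs.ne c : Lp.simpleFunc ℝ 2 μ) : Lp ℝ 2 μ) =
        c • ind hs hμs.ne := by
      rw [Lp.simpleFunc.coe_indicatorConst]
      ext1
      filter_upwards [indicatorConstLp_coeFn (p := 2) (hs := hs) (hμs := hμs.ne) (c := c),
        coe_ind hs hμs.ne, Lp.coeFn_smul c (ind hs hμs.ne)] with x a1 a2 a3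
      rw [a1, a3, Pi.smul_apply, a2]
      by_cases hx : x ∈ s <;> simp [hx]
    rw [h1, hcl]
    refine Submodule.smul_mem _ c ?_
    rw [← SetLike.mem_coe, ← hcl]
    -- approximate by compact subsets
    rw [mem_closure_iff_seq_limit]
    have hex : ∀ k : ℕ, ∃ u ∈ (S.V : Set (Lp ℝ 2 μ)), ‖u - ind hs hμs.ne‖ ≤ 2 / ((k : ℝ) + 1) := by
      intro k
      have hε : (0:ℝ) < 1 / ((k : ℝ) + 1) := by positivity
      obtain ⟨K, hKs, hK, hKlt⟩ := hs.exists_isCompact_sdiff_lt hμs.ne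
        (ε := ENNReal.ofReal ((1 / ((k : ℝ) + 1)) ^ 2)) (by positivity)
      have hKμ : μ K ≠ ∞ := hK.measure_lt_top.ne
      have h2 := S.ind_compact_mem hK hK.isClosed.measurableSet hKμ
      obtain ⟨u, hu, hdist⟩ := Metric.mem_closure_iff.1 h2 _ hε
      refine ⟨u, hu, ?_⟩
      have h3 : ‖ind hK.isClosed.measurableSet hKμ - ind hs hμs.ne‖ ≤ 1 / ((k : ℝ) + 1) := by
        refine abs_le_of_sq_le_sq' ?_ hε.le |>.2
        rw [normSq]
        have e : ∫ x, ‖(ind hK.isClosed.measurableSet hKμ - ind hs hμs.ne : Lp ℝ 2 μ) x‖ ^ 2 ∂μ =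
            ∫ x, (s \ K).indicator (fun _ => (1:ℝ)) x ∂μ := by
          refine integral_congr_ae ?_
          filter_upwards [Lp.coeFn_sub (ind hK.isClosed.measurableSet hKμ) (ind hs hμs.ne),
            coe_ind hK.isClosed.measurableSet hKμ, coe_ind hs hμs.ne] with x a1 a2 a3
          rw [a1, Pi.sub_apply, a2, a3]
          by_cases hxK : x ∈ K
          · have hxs := hKs hxK
            simp [hxK, hxs]
          · by_cases hxs : x ∈ s
            · simp [hxK, hxs]
            · simp [hxK, hxs]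
        rw [e, integral_indicator (hs.diff hK.isClosed.measurableSet)]
        simp only [integral_const, MeasurableSet.univ, measureReal_restrict_apply, univ_inter,
          smul_eq_mul, mul_one]
        exact ENNReal.toReal_le_of_le_ofReal (by positivity) hKlt.le
      rw [dist_comm, dist_eq_norm] at hdist
      calc ‖u - ind hs hμs.ne‖ = ‖(u - ind hK.isClosed.measurableSet hKμ) +
            (ind hK.isClosed.measurableSet hKμ - ind hs hμs.ne)‖ := by congr 1; abel
        _ ≤ 1 / ((k : ℝ) + 1) + 1 / ((k : ℝ) + 1) := (norm_add_le _ _).trans (add_le_add hdist.le h3)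
        _ = 2 / ((k : ℝ) + 1) := by ring
    choose u hu hun using hex
    refine ⟨u, hu, ?_⟩
    rw [tendsto_iff_norm_sub_tendsto_zero]
    refine squeeze_zero (fun _ => norm_nonneg _) hun ?_
    have := (tendsto_one_div_add_atTop_nhds_zero_nat (𝕜 := ℝ)).const_mul 2
    simpa [div_eq_mul_inv] using this
  · intro f g hf hg _ h1 h2
    rw [hcl] at h1 h2 ⊢
    exact S.V.topologicalClosure.add_mem h1 h2

/-! ### the Dirichlet form -/

/-- the Dirichlet form `∫ ⟪D u, D v⟫` -/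
def form [CompleteSpace F] (hd : Dense (S.V : Set (Lp ℝ 2 μ))) : CForm (Lp ℝ 2 μ) where
  dom := S.V
  E := fun u v => ⟪S.D u, S.D v⟫
  add_left' := fun hu hv _ => by rw [S.D_add hu hv, inner_add_left]
  smul_left' := fun c _ _ hu _ => by rw [S.D_smul c hu, real_inner_smul_left]
  symm' := fun _ _ => real_inner_comm _ _
  nonneg' := fun _ => real_inner_self_nonneg
  closed' := by
    intro u f C hu hC hlim
    have h1 : ∀ n, ‖S.D (u n)‖ ≤ Real.sqrt C := fun n => by
      refine Real.le_sqrt_of_sq_le ?_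
      rw [← real_inner_self_eq_norm_sq]
      exact hC n
    obtain ⟨hf, hn, -⟩ := S.weak_closed hu hlim h1
    refine ⟨hf, ?_⟩
    rw [real_inner_self_eq_norm_sq]
    have hC0 : 0 ≤ C := real_inner_self_nonneg.trans (hC 0)
    calc ‖S.D f‖ ^ 2 ≤ Real.sqrt C ^ 2 := pow_le_pow_left₀ (norm_nonneg _) hn 2
      _ = C := Real.sq_sqrt hC0
  dense' := hd

section Form

variable [CompleteSpace F] (hd : Dense (S.V : Set (Lp ℝ 2 μ)))

theorem form_E (u v : Lp ℝ 2 μ) : (S.form hd).E u v = ∫ x, ⟪S.D u x, S.D v x⟫ ∂μ := rfl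

theorem form_E_inner (u v : Lp ℝ 2 μ) : (S.form hd).E u v = ⟪S.D u, S.D v⟫ := rfl

theorem form_dom : (S.form hd).dom = S.V := rfl

theorem markov : Markov (S.form hd) where
  cut := by
    intro a ha u w hu hw
    obtain ⟨hwV, hD⟩ := S.D_cut hu ha hw
    refine ⟨hwV, le_of_eq ?_⟩
    rw [form_E, form_E]
    refine integral_congr_ae ?_
    filter_upwards [hD] with x hx
    rw [hx]
    by_cases h : u x ∈ Ioi a
    · rw [indicator_of_mem h, one_smul]
    · rw [indicator_of_notMem h, zero_smul]; simp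

/-! ### functionals -/

/-- the functional `p ↦ ∫ a p + ∫ ⟪g, D p⟫` -/
def fnl (a : Lp ℝ 2 μ) (g : Lp F 2 μ) : Fnl (S.form hd) where
  f := fun p => ⟪a, p⟫ + ⟪g, S.D p⟫
  add' := fun hu hv => by
    rw [S.D_add hu hv, inner_add_right, inner_add_right]; ring
  smul' := fun c _ hu => by
    rw [S.D_smul c hu, real_inner_smul_right, real_inner_smul_right]; ring
  C := ‖a‖ + ‖g‖
  C0 := by positivity
  bound := by
    intro u _
    have h1 := abs_real_inner_le_norm a u
    have h2 := abs_real_inner_le_norm g (S.D u)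
    have h3 : ‖u‖ ≤ Real.sqrt (‖u‖ ^ 2 + (S.form hd).E u u) := by
      refine Real.le_sqrt_of_sq_le ?_
      rw [form_E_inner, real_inner_self_eq_norm_sq]
      linarith [sq_nonneg ‖S.D u‖]
    have h4 : ‖S.D u‖ ≤ Real.sqrt (‖u‖ ^ 2 + (S.form hd).E u u) := by
      refine Real.le_sqrt_of_sq_le ?_
      rw [form_E_inner, real_inner_self_eq_norm_sq]
      linarith [sq_nonneg ‖u‖]
    have h5 := abs_add_le (⟪a, u⟫ : ℝ) ⟪g, S.D u⟫
    have h6 := mul_le_mul_of_nonneg_left h3 (norm_nonneg a)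
    have h7 := mul_le_mul_of_nonneg_left h4 (norm_nonneg g)
    rw [add_mul]
    linarith

theorem fnl_apply (a : Lp ℝ 2 μ) (g : Lp F 2 μ) (p : Lp ℝ 2 μ) :
    (S.fnl hd a g).f p = ∫ x, a x * p x ∂μ + ∫ x, ⟪g x, S.D p x⟫ ∂μ := by
  show (⟪a, p⟫ : ℝ) + ⟪g, S.D p⟫ = _
  rw [L2.inner_def, L2.inner_def]
  congr 1
  refine integral_congr_ae (Filter.Eventually.of_forall fun x => ?_)
  simp [mul_comm]

variable {S hd}

/-- continuity of functionals -/
theorem _root_.Crest.Agent.R247.Dir593.Fnl.tendsto (l : Fnl (S.form hd)) {u : ℕ → Lp ℝ 2 μ}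
    {w : Lp ℝ 2 μ} (hu : ∀ k, u k ∈ S.V) (hw : w ∈ S.V) (h1 : Tendsto u atTop (𝓝 w))
    (h2 : Tendsto (fun k => S.D (u k)) atTop (𝓝 (S.D w))) :
    Tendsto (fun k => l.f (u k)) atTop (𝓝 (l.f w)) := by
  rw [tendsto_iff_dist_tendsto_zero]
  have h3 : ∀ k, dist (l.f (u k)) (l.f w) ≤
      l.C * Real.sqrt (‖u k - w‖ ^ 2 + ‖S.D (u k) - S.D w‖ ^ 2) := fun k => by
    rw [Real.dist_eq, ← l.sub (hu k) hw]
    have := l.bound ((S.form hd).dom.sub_mem (hu k) hw)
    rw [form_E_inner, real_inner_self_eq_norm_sq, S.D_sub (hu k) hw] at this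
    exact this
  refine squeeze_zero (fun _ => dist_nonneg) h3 ?_
  have h4 := ((tendsto_iff_norm_sub_tendsto_zero.1 h1).pow 2).add
    ((tendsto_iff_norm_sub_tendsto_zero.1 h2).pow 2)
  have h5 := (h4.sqrt).const_mul l.C
  simpa using h5

/-- positivity from test functions -/
theorem _root_.Crest.Agent.R247.Dir593.Fnl.nonneg_of_test {l : Fnl (S.form hd)}
    (h : ∀ (p : X → ℝ) (hp : IsT p), (∀ x, 0 ≤ p x) → 0 ≤ l.f (tL hp)) {w : Lp ℝ 2 μ}
    (hw : w ∈ S.V) (hw0 : ∀ᵐ x ∂μ, 0 ≤ w x) : 0 ≤ l.f w := by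
  obtain ⟨f, hf, h0, h1, h2, -⟩ := S.exists_seq_nonneg hw hw0
  exact ge_of_tendsto' (l.tendsto (fun k => S.tL_mem (hf k)) hw h1 h2) fun k => h _ (hf k) (h0 k)

/-- mass bound from test functions -/
theorem _root_.Crest.Agent.R247.Dir593.Fnl.le_of_test {l : Fnl (S.form hd)} {m : ℝ}
    (h : ∀ (p : X → ℝ) (hp : IsT p), (∀ x, 0 ≤ p x ∧ p x ≤ 1) → l.f (tL hp) ≤ m) {w : Lp ℝ 2 μ}
    (hw : w ∈ S.V) (hw0 : ∀ᵐ x ∂μ, 0 ≤ w x) (hw1 : ∀ᵐ x ∂μ, w x ≤ 1) : l.f w ≤ m := by
  obtain ⟨f, hf, h0, h1, h2, -⟩ := S.exists_seq_Icc hw (a := 0) (b := 1) le_rfl zero_le_one hw0 hw1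
  exact le_of_tendsto' (l.tendsto (fun k => S.tL_mem (hf k)) hw h1 h2) fun k => h _ (hf k) (h0 k)

variable (S hd)

/-- multiplier: locally Lipschitz, bounded with bounded gradient -/
structure Mult (p : X → ℝ) (C : ℝ) : Prop where
  ll : LocallyLipschitz p
  C0 : 0 ≤ C
  bd : ∀ᵐ x ∂μ, |p x| ≤ C
  gd : ∀ᵐ x ∂μ, ‖S.G p x‖ ≤ C

theorem IsT.mult {p : X → ℝ} (hp : IsT p) : ∃ C, S.Mult p C := by
  obtain ⟨C1, hC10, hC1⟩ := S.bound_compact hp.1 hp.2.isCompact
  obtain ⟨C2, hC2⟩ := hp.1.continuous.bounded_above_of_compact_support hp.2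
  have h0 := S.zero_of_open hp.1 (isClosed_tsupport p).isOpen_compl
    (fun x hx => image_eq_zero_of_notMem_tsupport hx)
  refine ⟨max C1 C2, hp.1, le_max_of_le_left hC10,
    Filter.Eventually.of_forall fun x => (hC2 x).trans (le_max_right _ _), ?_⟩
  filter_upwards [hC1, h0] with x a1 a2
  by_cases hx : x ∈ tsupport p
  · exact (a1 hx).trans (le_max_left _ _)
  · rw [a2 hx, norm_zero]; exact le_max_of_le_left hC10

/-- Lipschitz bounded functions are multipliers -/
theorem mult_of_lip {p : X → ℝ} {K : ℝ≥0} (hp : LipschitzWith K p) {C : ℝ}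
    (hb : ∀ x, |p x| ≤ C) : S.Mult p (max C K) where
  ll := hp.locallyLipschitz
  C0 := le_max_of_le_right K.2
  bd := Filter.Eventually.of_forall fun x => (hb x).trans (le_max_left _ _)
  gd := by
    filter_upwards [S.norm_le hp.locallyLipschitz isOpen_univ hp.lipschitzOnWith] with x hx
    exact (hx (mem_univ x)).trans (le_max_right _ _)

variable {S}

theorem Mult.memLp {p : X → ℝ} {C : ℝ} (hp : S.Mult p C) (u : Lp ℝ 2 μ) :
    MemLp (fun x => p x * u x) 2 μ :=
  memLp_smul hp.ll.continuous.aestronglyMeasurable hp.bd u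

/-- the product `p u` -/
def Mult.mul {p : X → ℝ} {C : ℝ} (hp : S.Mult p C) (u : Lp ℝ 2 μ) : Lp ℝ 2 μ := (hp.memLp u).toLp _

theorem Mult.coe_mul {p : X → ℝ} {C : ℝ} (hp : S.Mult p C) (u : Lp ℝ 2 μ) :
    (hp.mul u : X → ℝ) =ᵐ[μ] fun x => p x * u x := MemLp.coeFn_toLp _

theorem Mult.mul_mem {p : X → ℝ} {C : ℝ} (hp : S.Mult p C) {u : Lp ℝ 2 μ} (hu : u ∈ S.V) :
    hp.mul u ∈ S.V := (S.D_mul_lip hu hp.ll hp.C0 hp.bd hp.gd (hp.coe_mul u)).1

theorem Mult.D_mul {p : X → ℝ} {C : ℝ} (hp : S.Mult p C) {u : Lp ℝ 2 μ} (hu : u ∈ S.V) :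
    (S.D (hp.mul u) : X → F) =ᵐ[μ] fun x => p x • S.D u x + u x • S.G p x :=
  (S.D_mul_lip hu hp.ll hp.C0 hp.bd hp.gd (hp.coe_mul u)).2

theorem Mult.mul_add {p : X → ℝ} {C : ℝ} (hp : S.Mult p C) (u v : Lp ℝ 2 μ) :
    hp.mul (u + v) = hp.mul u + hp.mul v := by
  ext1
  filter_upwards [hp.coe_mul (u + v), hp.coe_mul u, hp.coe_mul v, Lp.coeFn_add u v,
    Lp.coeFn_add (hp.mul u) (hp.mul v)] with x a1 a2 a3 a4 a5
  rw [a1, a5, Pi.add_apply, a2, a3, a4, Pi.add_apply]; ring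

theorem Mult.mul_smul {p : X → ℝ} {C : ℝ} (hp : S.Mult p C) (c : ℝ) (u : Lp ℝ 2 μ) :
    hp.mul (c • u) = c • hp.mul u := by
  ext1
  filter_upwards [hp.coe_mul (c • u), hp.coe_mul u, Lp.coeFn_smul c u,
    Lp.coeFn_smul c (hp.mul u)] with x a1 a2 a4 a5
  rw [a1, a5, Pi.smul_apply, a2, a4, Pi.smul_apply, smul_eq_mul, smul_eq_mul]; ring

theorem Mult.norm_mul_le {p : X → ℝ} {C : ℝ} (hp : S.Mult p C) (u : Lp ℝ 2 μ) :
    ‖hp.mul u‖ ≤ C * ‖u‖ := by
  refine norm_le_of_ae hp.C0 ?_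
  filter_upwards [hp.coe_mul u, hp.bd] with x a1 a2
  rw [a1, norm_mul, Real.norm_eq_abs]
  exact mul_le_mul_of_nonneg_right a2 (norm_nonneg _)

theorem Mult.norm_D_mul_le {p : X → ℝ} {C : ℝ} (hp : S.Mult p C) {u : Lp ℝ 2 μ} (hu : u ∈ S.V) :
    ‖S.D (hp.mul u)‖ ≤ C * (‖S.D u‖ + ‖u‖) := by
  have hP : MemLp (fun x => p x • S.D u x) 2 μ :=
    memLp_smul hp.ll.continuous.aestronglyMeasurable hp.bd (S.D u)
  have hQ : MemLp (fun x => u x • S.G p x) 2 μ := by
    refine (Lp.memLp u).of_le_mul (c := C) ((Lp.aestronglyMeasurable u).smul (S.meas hp.ll)) ?_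
    filter_upwards [hp.gd] with x hx
    rw [norm_smul, mul_comm]
    exact mul_le_mul_of_nonneg_right hx (norm_nonneg _)
  have e : S.D (hp.mul u) = hP.toLp _ + hQ.toLp _ := by
    ext1
    filter_upwards [hp.D_mul hu, Lp.coeFn_add (hP.toLp _) (hQ.toLp _), hP.coeFn_toLp,
      hQ.coeFn_toLp] with x a1 a2 a3 a4
    rw [a1, a2, Pi.add_apply, a3, a4]
  have h1 : ‖(hP.toLp _ : Lp F 2 μ)‖ ≤ C * ‖S.D u‖ := by
    refine norm_le_of_ae hp.C0 ?_
    filter_upwards [hP.coeFn_toLp, hp.bd] with x a1 a2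
    rw [a1, norm_smul, Real.norm_eq_abs]
    exact mul_le_mul_of_nonneg_right a2 (norm_nonneg _)
  have h2 : ‖(hQ.toLp _ : Lp F 2 μ)‖ ≤ C * ‖u‖ := by
    refine norm_le_of_ae hp.C0 ?_
    filter_upwards [hQ.coeFn_toLp, hp.gd] with x a1 a2
    rw [a1, norm_smul, mul_comm]
    exact mul_le_mul_of_nonneg_right a2 (norm_nonneg _)
  rw [e]
  refine (norm_add_le _ _).trans ?_
  rw [_root_.mul_add]
  linarith

/-- localised functional `w ↦ l (p w)` -/
def Mult.fnl {p : X → ℝ} {C : ℝ} (hp : S.Mult p C) {hd : Dense (S.V : Set (Lp ℝ 2 μ))}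
    (l : Fnl (S.form hd)) : Fnl (S.form hd) where
  f := fun w => l.f (hp.mul w)
  add' := fun hu hv => by rw [hp.mul_add, l.add' (hp.mul_mem hu) (hp.mul_mem hv)]
  smul' := fun c _ hu => by rw [hp.mul_smul, l.smul' c (hp.mul_mem hu)]
  C := l.C * (2 * C)
  C0 := mul_nonneg l.C0 (mul_nonneg zero_le_two hp.C0)
  bound := by
    intro u hu
    have h1 := l.bound (u := hp.mul u) (hp.mul_mem hu)
    rw [form_E_inner, real_inner_self_eq_norm_sq] at h1
    rw [form_E_inner, real_inner_self_eq_norm_sq]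
    refine h1.trans ?_
    rw [mul_assoc]
    refine mul_le_mul_of_nonneg_left ?_ l.C0
    rw [Real.sqrt_le_left (by have := hp.C0; positivity), mul_pow, Real.sq_sqrt (by positivity)]
    have h2 := hp.norm_mul_le u
    have h3 := hp.norm_D_mul_le hu
    have h4 := pow_le_pow_left₀ (norm_nonneg _) h2 2
    have h5 := pow_le_pow_left₀ (norm_nonneg _) h3 2
    have h6 : (C * (‖S.D u‖ + ‖u‖)) ^ 2 ≤ C ^ 2 * (2 * (‖S.D u‖ ^ 2 + ‖u‖ ^ 2)) := by
      rw [mul_pow]
      refine mul_le_mul_of_nonneg_left ?_ (sq_nonneg _)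
      nlinarith [sq_nonneg (‖S.D u‖ - ‖u‖)]
    nlinarith [sq_nonneg (C * ‖u‖), sq_nonneg (C * ‖S.D u‖), sq_nonneg C]

theorem Mult.fnl_apply {p : X → ℝ} {C : ℝ} (hp : S.Mult p C) {hd : Dense (S.V : Set (Lp ℝ 2 μ))}
    (l : Fnl (S.form hd)) (w : Lp ℝ 2 μ) : (hp.fnl l).f w = l.f (hp.mul w) := rfl

end Form

end GradS

end Crest.Agent.R247.Dir593
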