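import Crest.Agent.R247.Dir3_593

/-!
R247, block (5-M) (helper126): the interface `WLap` (weak Laplacian comparison
`Δ (d_y²/2) ≤ n + κ d_y²` and `|∇ d_y| = 1` in the language of `GradS`), its extension to
nonnegative functions of `V`, nonnegative approximation in `V`.
-/

set_option autoImplicit false
set_option linter.unusedSectionVars false

open MeasureTheory Filter Topology Set
open scoped RealInnerProductSpace ENNReal NNReal

noncomputable section

namespace Crest.Agent.R247.Smv126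

open Crest.Agent.R247.Dir593 Crest.Agent.R247.Dir593.GradS

variable {X : Type*} [MetricSpace X] [MeasurableSpace X] {F : Type*}
  [NormedAddCommGroup F] [InnerProductSpace ℝ F] {μ : Measure X}

/-- half squared distance to `y` -/
def hf (y z : X) : ℝ := dist y z ^ 2 / 2

/-- **Weak Laplacian comparison** `Δ (d_y²/2) ≤ n + κ d_y²` and `|∇ d_y| = 1` in the language
of `GradS`. -/
structure WLap (S : GradS X F μ) (n : ℕ) (κ : ℝ) : Prop where
  lap : ∀ (y : X) {φ : X → ℝ}, IsT φ → (∀ z, 0 ≤ φ z) →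
    0 ≤ ∫ z, ((n + κ * dist y z ^ 2) * φ z + ⟪S.G (hf y) z, S.G φ z⟫) ∂μ
  unit : ∀ y : X, ∀ᵐ z ∂μ, ‖S.G (dist y) z‖ = 1

theorem locLip_dist (y : X) : LocallyLipschitz (dist y) :=
  (LipschitzWith.dist_right y).locallyLipschitz

theorem contDiff_half_sq : ContDiff ℝ 1 (fun s : ℝ => s ^ 2 / 2) := by fun_prop

theorem locLip_hf (y : X) : LocallyLipschitz (hf y) :=
  (contDiff_half_sq.locallyLipschitz).comp (locLip_dist y)

section Basic

variable (S : GradS X F μ)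

/-- gradient of a function of the distance -/
theorem G_comp (y : X) {χ : ℝ → ℝ} (hχ : ContDiff ℝ 1 χ) :
    ∀ᵐ z ∂μ, S.G (fun z => χ (dist y z)) z = deriv χ (dist y z) • S.G (dist y) z :=
  S.comp (locLip_dist y) hχ

theorem G_hf (y : X) : ∀ᵐ z ∂μ, S.G (hf y) z = dist y z • S.G (dist y) z := by
  filter_upwards [G_comp S y contDiff_half_sq] with z hz
  have e : deriv (fun s : ℝ => s ^ 2 / 2) (dist y z) = dist y z := by
    have h1 : HasDerivAt (fun s : ℝ => s ^ 2 / 2) ((2:ℕ) * dist y z ^ (2 - 1) * 1 / 2) (dist y z) :=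
      ((hasDerivAt_id (dist y z)).pow 2).div_const 2
    rw [h1.deriv]; norm_num
  rw [e] at hz
  exact hz

variable {S}

theorem WLap.inner_radial {n : ℕ} {κ : ℝ} (W : WLap S n κ) (y : X) {χ : ℝ → ℝ}
    (hχ : ContDiff ℝ 1 χ) :
    ∀ᵐ z ∂μ, ⟪S.G (hf y) z, S.G (fun z => χ (dist y z)) z⟫ = dist y z * deriv χ (dist y z) := by
  filter_upwards [G_hf S y, G_comp S y hχ, W.unit y] with z e1 e2 e3
  rw [e1, e2, real_inner_smul_left, real_inner_smul_right, real_inner_self_eq_norm_sq, e3]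
  ring

theorem isT_radial [ProperSpace X] (y : X) {χ : ℝ → ℝ} (hχ : ContDiff ℝ 1 χ) {R : ℝ}
    (h0 : ∀ s, R ≤ s → χ s = 0) : IsT fun z => χ (dist y z) := by
  refine ⟨hχ.locallyLipschitz.comp (locLip_dist y), ?_⟩
  refine HasCompactSupport.intro (isCompact_closedBall y R) fun z hz => ?_
  rw [Metric.mem_closedBall, not_le, dist_comm] at hz
  exact h0 _ hz.le

end Basic

section Compact

variable [BorelSpace X] [IsFiniteMeasureOnCompacts μ]

theorem memLp_compact {E : Type*} [NormedAddCommGroup E] {g : X → E}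
    (hm : AEStronglyMeasurable g μ) {K : Set X} (hK : IsCompact K) {C : ℝ}
    (hb : ∀ᵐ z ∂μ, z ∈ K → ‖g z‖ ≤ C) (h0 : ∀ᵐ z ∂μ, z ∉ K → g z = 0) (p : ℝ≥0∞) :
    MemLp g p μ := by
  have h1 : MemLp (K.indicator fun _ => |C|) p μ :=
    memLp_indicator_const p hK.isClosed.measurableSet |C| (Or.inr hK.measure_lt_top.ne)
  refine h1.mono hm ?_
  filter_upwards [hb, h0] with z e1 e2
  by_cases hz : z ∈ K
  · rw [indicator_of_mem hz, Real.norm_of_nonneg (abs_nonneg C)]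
    exact (e1 hz).trans (le_abs_self C)
  · rw [indicator_of_notMem hz, e2 hz]; simp

variable (S : GradS X F μ)

/-- a locally Lipschitz function times a test function: bounded with compact support -/
theorem exists_bound_cont {f : X → ℝ} (hf : Continuous f) {K : Set X} (hK : IsCompact K) :
    ∃ C : ℝ, 0 ≤ C ∧ ∀ z ∈ K, |f z| ≤ C := by
  obtain ⟨C, hC⟩ := hK.exists_bound_of_continuousOn hf.continuousOn
  exact ⟨max C 0, le_max_right _ _, fun z hz => (hC z hz).trans (le_max_left _ _)⟩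

theorem memLp_ζG {f ζ : X → ℝ} (hf : LocallyLipschitz f) (hζ : IsT ζ) (p : ℝ≥0∞) :
    MemLp (fun z => ζ z • S.G f z) p μ := by
  obtain ⟨C, hC0, hC⟩ := S.bound_compact hf hζ.2.isCompact
  obtain ⟨C', hC0', hC'⟩ := exists_bound_cont hζ.1.continuous hζ.2.isCompact
  refine memLp_compact (hζ.1.continuous.aestronglyMeasurable.smul (S.meas hf)) hζ.2.isCompact
    (C := C' * C) ?_ ?_ p
  · filter_upwards [hC] with z e1 hz
    change ‖ζ z • S.G f z‖ ≤ C' * C
    rw [norm_smul, Real.norm_eq_abs]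
    exact mul_le_mul (hC' z hz) (e1 hz) (norm_nonneg _) hC0'
  · refine Filter.Eventually.of_forall fun z hz => ?_
    change ζ z • S.G f z = 0
    rw [image_eq_zero_of_notMem_tsupport hz, zero_smul]

theorem memLp_GG {f ζ : X → ℝ} (hf : LocallyLipschitz f) (hζ : IsT ζ) (p : ℝ≥0∞) :
    MemLp (fun z => ⟪S.G f z, S.G ζ z⟫) p μ := by
  obtain ⟨C, hC0, hC⟩ := S.bound_compact hf hζ.2.isCompact
  obtain ⟨C', hC0', hC'⟩ := S.bound_compact hζ.1 hζ.2.isCompact
  have h0 := S.zero_of_open hζ.1 (isClosed_tsupport ζ).isOpen_compl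
    (fun x hx => image_eq_zero_of_notMem_tsupport hx)
  refine memLp_compact ((S.meas hf).inner (S.meas hζ.1)) hζ.2.isCompact (C := C * C') ?_ ?_ p
  · filter_upwards [hC, hC'] with z e1 e2 hz
    exact (norm_inner_le_norm _ _).trans
      (mul_le_mul (e1 hz) (e2 hz) (norm_nonneg _) hC0)
  · filter_upwards [h0] with z e1 hz
    rw [e1 hz, inner_zero_right]

theorem memLp_mulT {f ζ : X → ℝ} (hf : Continuous f) (hζ : IsT ζ) (p : ℝ≥0∞) :
    MemLp (fun z => f z * ζ z) p μ :=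
  (hf.mul hζ.1.continuous).memLp_of_hasCompactSupport (hζ.2.mul_left)

/-- **nonnegative approximation in `V`** -/
theorem exists_seq_nonneg {v : Lp ℝ 2 μ} (hv : v ∈ S.V) (h0 : 0 ≤ᵐ[μ] (v : X → ℝ)) :
    ∃ (f : ℕ → X → ℝ) (hf : ∀ k, IsT (f k)), (∀ k z, 0 ≤ f k z) ∧
      Tendsto (fun k => (tL (hf k) : Lp ℝ 2 μ)) atTop (𝓝 v) ∧
      Tendsto (fun k => S.D (tL (hf k))) atTop (𝓝 (S.D v)) := by
  obtain ⟨f, hf, h1, h2, h3, h4⟩ := S.exists_seq_ae hv
  have hmx : LocallyLipschitz (fun s : ℝ => max s 0) :=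
    (LipschitzWith.id.max_const 0).locallyLipschitz
  have hT : ∀ k, IsT (fun z => max (f k z) 0) := fun k => (hf k).comp hmx (max_self 0)
  refine ⟨fun k z => max (f k z) 0, hT, fun k z => le_max_right _ _, ?_, ?_⟩
  · rw [tendsto_iff_norm_sub_tendsto_zero]
    refine squeeze_zero (fun _ => norm_nonneg _) (g := fun k => 1 * ‖(tL (hf k) : Lp ℝ 2 μ) - v‖)
      (fun k => ?_) ?_
    · refine norm_le_of_ae zero_le_one ?_
      filter_upwards [Lp.coeFn_sub (tL (hT k) : Lp ℝ 2 μ) v, Lp.coeFn_sub (tL (hf k) : Lp ℝ 2 μ) v,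
        coe_tL (μ := μ) (hT k), coe_tL (μ := μ) (hf k), h0] with x a1 a2 a3 a4 a5
      rw [a1, a2, Pi.sub_apply, Pi.sub_apply, a3, a4, one_mul, Real.norm_eq_abs, Real.norm_eq_abs]
      have e : v x = max (v x) 0 := (max_eq_left a5).symm
      conv_lhs => rw [e]
      exact abs_max_sub_max_le_abs _ _ _
    · simpa using (tendsto_iff_norm_sub_tendsto_zero.1 h1).const_mul 1
  · have hv0 : ∀ᵐ x ∂μ, v x = 0 → S.D v x = 0 := S.D_level hv 0
    refine smul_tendsto (a := fun k x => (Ioi (0:ℝ)).indicator (fun _ => (1:ℝ)) (f k x))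
      (a' := fun x => (Ioi (0:ℝ)).indicator (fun _ => (1:ℝ)) (v x)) zero_le_one (fun k => ?_)
      (fun k => Filter.Eventually.of_forall fun x => ?_) h2 ?_ (fun k => ?_) ?_
    · exact ((measurable_const.indicator measurableSet_Ioi).comp
        (hf k).1.continuous.measurable).aestronglyMeasurable
    · by_cases hx : f k x ∈ Ioi (0:ℝ)
      · rw [indicator_of_mem hx]; simp
      · rw [indicator_of_notMem hx]; simp
    · filter_upwards [h3, hv0, h0] with x a1 a2 a3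
      rcases eq_or_lt_of_le (show (0:ℝ) ≤ v x from a3) with h | h
      · exact Or.inl (a2 h.symm)
      · right
        rw [indicator_of_mem (mem_Ioi.2 h)]
        refine tendsto_const_nhds.congr' ?_
        filter_upwards [a1 (Ioi_mem_nhds h)] with k hk
        have hk' : f k x ∈ Ioi (0:ℝ) := hk
        rw [indicator_of_mem hk']
    · have hw : ((tL (hT k) : Lp ℝ 2 μ) : X → ℝ) =ᵐ[μ] fun x => max ((tL (hf k) : Lp ℝ 2 μ) x - 0) 0 := by
        filter_upwards [coe_tL (μ := μ) (hT k), coe_tL (μ := μ) (hf k)] with x a1 a2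
        rw [a1, a2, sub_zero]
      filter_upwards [(S.D_cut (S.tL_mem (hf k)) le_rfl hw).2, coe_tL (μ := μ) (hf k)] with x a1 a2
      rw [a1, a2]
    · filter_upwards [hv0, h0] with x a1 a2
      rcases eq_or_lt_of_le (show (0:ℝ) ≤ v x from a2) with h | h
      · rw [a1 h.symm, smul_zero]
      · rw [indicator_of_mem (mem_Ioi.2 h), one_smul]

variable {S} {n : ℕ} {κ : ℝ}

/-- the weak Laplacian comparison tested with `v ζ`, `v ∈ V` nonnegative, `ζ` a nonnegative test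
function. -/
theorem WLap.lapV (W : WLap S n κ) (y : X) {v : Lp ℝ 2 μ} (hv : v ∈ S.V)
    (h0 : 0 ≤ᵐ[μ] (v : X → ℝ)) {ζ : X → ℝ} (hζ : IsT ζ) (hζ0 : ∀ z, 0 ≤ ζ z) :
    Integrable (fun z => ((n + κ * dist y z ^ 2) * ζ z + ⟪S.G (hf y) z, S.G ζ z⟫) * v z) μ ∧
    Integrable (fun z => ζ z * ⟪S.G (hf y) z, S.D v z⟫) μ ∧
    0 ≤ ∫ z, (((n + κ * dist y z ^ 2) * ζ z + ⟪S.G (hf y) z, S.G ζ z⟫) * v z
      + ζ z * ⟪S.G (hf y) z, S.D v z⟫) ∂μ := by
  have hcd : Continuous fun z : X => (n:ℝ) + κ * dist y z ^ 2 := by fun_prop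
  have m1 : MemLp (fun z => (n + κ * dist y z ^ 2) * ζ z + ⟪S.G (hf y) z, S.G ζ z⟫) 2 μ :=
    (memLp_mulT hcd hζ 2).add (memLp_GG S (locLip_hf y) hζ 2)
  have m2 : MemLp (fun z => ζ z • S.G (hf y) z) 2 μ := memLp_ζG S (locLip_hf y) hζ 2
  set w1 : Lp ℝ 2 μ := m1.toLp _ with hw1
  set w2 : Lp F 2 μ := m2.toLp _ with hw2
  have c1 : (w1 : X → ℝ) =ᵐ[μ] _ := MemLp.coeFn_toLp m1
  have c2 : (w2 : X → F) =ᵐ[μ] _ := MemLp.coeFn_toLp m2
  have e1 : ∀ g : Lp ℝ 2 μ, (fun z => (inner ℝ (w1 z) (g z) : ℝ)) =ᵐ[μ]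
      fun z => ((n + κ * dist y z ^ 2) * ζ z + ⟪S.G (hf y) z, S.G ζ z⟫) * g z := by
    intro g
    filter_upwards [c1] with z a1
    rw [a1]; simp [mul_comm]
  have e2 : ∀ g : Lp F 2 μ, (fun z => (inner ℝ (w2 z) (g z) : ℝ)) =ᵐ[μ]
      fun z => ζ z * ⟪S.G (hf y) z, g z⟫ := by
    intro g
    filter_upwards [c2] with z a1
    rw [a1, real_inner_smul_left]
  have i1 : ∀ g : Lp ℝ 2 μ, Integrable (fun z =>
      ((n + κ * dist y z ^ 2) * ζ z + ⟪S.G (hf y) z, S.G ζ z⟫) * g z) μ := fun g =>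
    (L2.integrable_inner w1 g).congr (e1 g)
  have i2 : ∀ g : Lp F 2 μ, Integrable (fun z => ζ z * ⟪S.G (hf y) z, g z⟫) μ := fun g =>
    (L2.integrable_inner w2 g).congr (e2 g)
  have key : ∀ (g : Lp ℝ 2 μ) (g' : Lp F 2 μ), ∫ z, (((n + κ * dist y z ^ 2) * ζ z +
      ⟪S.G (hf y) z, S.G ζ z⟫) * g z + ζ z * ⟪S.G (hf y) z, g' z⟫) ∂μ = ⟪w1, g⟫ + ⟪w2, g'⟫ := by
    intro g g'
    rw [integral_add (i1 g) (i2 g'), L2.inner_def, L2.inner_def, integral_congr_ae (e1 g),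
      integral_congr_ae (e2 g')]
  refine ⟨i1 v, i2 _, ?_⟩
  obtain ⟨f, hT, hf0, h1, h2⟩ := exists_seq_nonneg S hv h0
  rw [key]
  have hlim : Tendsto (fun k => (⟪w1, (tL (hT k) : Lp ℝ 2 μ)⟫ : ℝ) + ⟪w2, S.D (tL (hT k))⟫) atTop
      (𝓝 (⟪w1, v⟫ + ⟪w2, S.D v⟫)) :=
    (tendsto_const_nhds.inner h1).add (tendsto_const_nhds.inner h2)
  refine ge_of_tendsto' hlim fun k => ?_
  rw [← key]
  have h3 := W.lap y ((hT k).mul hζ.1) (fun z => mul_nonneg (hf0 k z) (hζ0 z))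
  refine h3.trans_eq (integral_congr_ae ?_)
  filter_upwards [coe_tL (μ := μ) (hT k), S.D_tL (hT k), S.mul (hT k).1 hζ.1] with z a1 a2 a3
  rw [a1, a2, a3, inner_add_right, real_inner_smul_right, real_inner_smul_right]
  ring

end Compact

end Crest.Agent.R247.Smv126
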