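import Crest.Agent.R247.Dec2_386
import Crest.Agent.R247.Dir5_593
import Crest.Agent.R247.Smv0_126

/-!
# R247, block (1) / (5-M): (R3) for the Dirichlet form, from `WLap`  (helper386)

* `lapC_of_wlap` : `Smv126.WLap S n κ → LapC S n κ`;
* `res_decay`    : `(S.form hd).res (ρ²) f`, `0 ≤ f ≤ M`, `f = 0` off `closedBall x₀ a₀`;
* `r3`, `r3_closed` : (R3) in the form consumed by `Max3_193`.
-/

set_option autoImplicit false
set_option linter.unusedSectionVars false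

open MeasureTheory Filter Topology Set
open scoped RealInnerProductSpace ENNReal NNReal

noncomputable section

namespace Crest.Agent.R247.Dec386

open Crest.Agent.R242 Crest.Agent.R247.Dir593 Crest.Agent.R247.Dir593.GradS

variable {X : Type*} [MetricSpace X] [MeasurableSpace X] {F : Type*}
  [NormedAddCommGroup F] [InnerProductSpace ℝ F] {μ : Measure X} {S : GradS X F μ}

theorem lapC_of_wlap {n : ℕ} {κ : ℝ} (W : Smv126.WLap S n κ) : LapC S n κ := by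
  intro b φ hφ h0
  refine (W.lap b hφ h0).trans_eq (integral_congr_ae (Eventually.of_forall fun z => ?_))
  show (n + κ * dist b z ^ 2) * φ z + ⟪S.G (Smv126.hf b) z, S.G φ z⟫ =
    ⟪S.G (hd b) z, S.G φ z⟫ + (n + κ * dist b z ^ 2) * φ z
  rw [add_comm]
  rfl

variable [BorelSpace X] [IsFiniteMeasureOnCompacts μ] [ProperSpace X] [CompleteSpace F]
  (hd : Dense (S.V : Set (Lp ℝ 2 μ)))

theorem res_decay {n : ℕ} {κ : ℝ} (W : Smv126.WLap S n κ) (hκ : 0 ≤ κ) {f : Lp ℝ 2 μ} {M : ℝ}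
    (hM0 : 0 ≤ M) (hf0 : ∀ᵐ y ∂μ, 0 ≤ f y) (hfM : ∀ᵐ y ∂μ, f y ≤ M) {x₀ : X} {a₀ ρ : ℝ}
    (hfs : ∀ᵐ y ∂μ, a₀ < dist x₀ y → f y = 0) (hρ : 0 < ρ) (hκρ : κ * ρ ^ 2 ≤ 1) :
    ∀ᵐ y ∂μ, (S.form hd).res (ρ ^ 2) f y ≤
      2 * M * Real.exp (-((dist x₀ y - a₀) / ((4 * n + 6) * ρ))) :=
  decay_res S (lapC_of_wlap W) hκ (S.markov hd) (S.form_dom hd)
    (fun u _ w _ => S.form_E_inner hd u w) hM0 hf0 hfM hfs hρ hκρ

/-- **(R3)** -/
theorem r3 {n : ℕ} {κ : ℝ} (W : Smv126.WLap S n κ) (hκ : 0 ≤ κ) {B : Set X}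
    (hB : MeasurableSet B) (hμ : μ B ≠ ∞) {x₀ : X} {r ρ : ℝ} (hBr : B ⊆ Metric.closedBall x₀ r)
    (hρ : 0 < ρ) (hκρ : κ * ρ ^ 2 ≤ 1) :
    ∀ᵐ y ∂μ, 2 * r ≤ dist x₀ y → (S.form hd).res (ρ ^ 2) (ind hB hμ) y ≤
      2 * Real.exp (-(1 / (8 * n + 12)) * (dist x₀ y / ρ)) := by
  have hn : (0:ℝ) ≤ n := Nat.cast_nonneg n
  filter_upwards [decay_ind S (lapC_of_wlap W) hκ (S.markov hd) (S.form_dom hd)
    (fun u _ w _ => S.form_E_inner hd u w) hB hμ hBr hρ hκρ] with y hy hd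
  refine hy.trans ?_
  refine mul_le_mul_of_nonneg_left (Real.exp_le_exp.2 ?_) (by norm_num)
  have h1 : dist x₀ y / 2 ≤ dist x₀ y - r := by linarith
  have h2 : dist x₀ y / 2 / ((4 * n + 6) * ρ) ≤ (dist x₀ y - r) / ((4 * n + 6) * ρ) :=
    div_le_div_of_nonneg_right h1 (by positivity)
  have h3 : dist x₀ y / 2 / ((4 * n + 6) * ρ) = 1 / (8 * n + 12) * (dist x₀ y / ρ) := by
    field_simp
    ring
  linarith

end Crest.Agent.R247.Dec386
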