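import Crest.Agent.R247.Dec3_386

/-!
# R247, (R3in): exponential decay of resolvents INTO a ball  (helper939)

* `decay_in` : `(S.form hd).res (ρ²) f y ≤ 2 M exp (-(A - dist x y) / ((4 n + 6) ρ))` a.e., if
  `0 ≤ f ≤ M` and `f = 0` on `ball x A` (`κ ρ² ≤ 1`);
* `r3in` : the case `A = 32`, `dist x y ≤ 16`.
-/

set_option autoImplicit false
set_option linter.unusedSectionVars false

open MeasureTheory Filter Topology Set
open scoped RealInnerProductSpace ENNReal NNReal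

noncomputable section

namespace Crest.Agent.R247.Din939

open Crest.Agent.R242 Crest.Agent.R247.Dir593 Crest.Agent.R247.Dir593.GradS
open Crest.Agent.R247.Dec386

variable {X : Type*} [MetricSpace X] [MeasurableSpace X] {F : Type*}
  [NormedAddCommGroup F] [InnerProductSpace ℝ F] {μ : Measure X} (S : GradS X F μ)
  [BorelSpace X] [IsFiniteMeasureOnCompacts μ] [ProperSpace X]

theorem decay_in_pow {n : ℕ} {κ : ℝ} (hL : LapC S n κ) (hκ : 0 ≤ κ) {v : Lp ℝ 2 μ} (hv : v ∈ S.V)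
    (h0 : ∀ᵐ y ∂μ, 0 ≤ v y) {M : ℝ} (hM0 : 0 ≤ M) (hM : ∀ᵐ y ∂μ, v y ≤ M) {x₀ : X} {a₀ ρ : ℝ}
    (hρ : 0 < ρ) (hκρ : κ * ρ ^ 2 ≤ 1)
    (hsub : ∀ w ∈ S.V, (∀ᵐ y ∂μ, 0 ≤ w y) → (∀ᵐ y ∂μ, a₀ ≤ dist x₀ y → w y = 0) →
      ρ ^ 2 * ⟪S.D v, S.D w⟫ + ⟪v, w⟫ ≤ 0) (k : ℕ) :
    ∀ᵐ y ∂μ, dist x₀ y < a₀ - k * (3 / 2 * ρ) →
      v y ≤ M * (1 - 3 / 4 * (1 / (2 * n + 3))) ^ k := by
  have hn : (0:ℝ) ≤ n := Nat.cast_nonneg n
  set a : ℝ := 1 / (2 * n + 3) with ha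
  have ha0 : 0 < a := by rw [ha]; positivity
  have ha1 : a ≤ 1 := by rw [ha, div_le_one (by positivity)]; linarith
  have hθ0 : 0 ≤ 1 - 3 / 4 * a := by linarith
  have haeq : a * (1 + 2 * ρ ^ 2 * (n + κ * ρ ^ 2) / ρ ^ 2) ≤ 1 := by
    have e : 2 * ρ ^ 2 * (n + κ * ρ ^ 2) / ρ ^ 2 = 2 * (n + κ * ρ ^ 2) := by
      field_simp
    rw [e, ha, one_div_mul_eq_div, div_le_one (by positivity)]
    linarith
  induction k with
  | zero =>
    filter_upwards [hM] with y hy _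
    simpa using hy
  | succ k ih =>
    have : Nonempty X := ⟨x₀⟩
    have hk0 : (0:ℝ) ≤ k * (3 / 2 * ρ) := by positivity
    have hstep : ∀ b : X, dist x₀ b ≤ a₀ - k * (3 / 2 * ρ) - ρ →
        ∀ᵐ y ∂μ, dist b y < ρ / 2 → v y ≤ M * (1 - 3 / 4 * a) ^ (k + 1) := by
      intro b hb
      have h1 : ∀ᵐ y ∂μ, dist b y < ρ → v y ≤ M * (1 - 3 / 4 * a) ^ k := by
        filter_upwards [ih] with y hy hyb
        refine hy ?_
        have := dist_triangle x₀ b y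
        linarith
      have h2 := local_comp S hL hκ hv h0 (mul_nonneg hM0 (pow_nonneg hθ0 k)) (b := b) hρ h1
        (ρ := ρ) (fun w hw hw0 hwb => hsub w hw hw0 (by
          filter_upwards [hwb] with y hy hya
          refine hy ?_
          have := dist_triangle x₀ b y
          linarith)) ha0.le haeq
      filter_upwards [h2] with y hy hyb
      refine (hy (by linarith)).trans ?_
      rw [pow_succ (1 - 3 / 4 * a) k, ← mul_assoc M]
      refine mul_le_mul_of_nonneg_left ?_ (mul_nonneg hM0 (pow_nonneg hθ0 k))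
      have h3 : dist b y ^ 2 / ρ ^ 2 ≤ 1 / 4 := by
        rw [div_le_iff₀ (by positivity)]
        nlinarith [dist_nonneg (x := b) (y := y)]
      nlinarith
    have hall : ∀ᵐ y ∂μ, ∀ i : ℕ,
        dist x₀ (TopologicalSpace.denseSeq X i) ≤ a₀ - k * (3 / 2 * ρ) - ρ →
        dist (TopologicalSpace.denseSeq X i) y < ρ / 2 → v y ≤ M * (1 - 3 / 4 * a) ^ (k + 1) := by
      refine ae_all_iff.2 fun i => ?_
      by_cases hi : dist x₀ (TopologicalSpace.denseSeq X i) ≤ a₀ - k * (3 / 2 * ρ) - ρ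
      · filter_upwards [hstep _ hi] with y hy _ using hy
      · exact Eventually.of_forall fun y h => absurd h hi
    filter_upwards [hall] with y hy hyd
    obtain ⟨i, hi⟩ := (TopologicalSpace.denseRange_denseSeq X).exists_dist_lt y
      (show 0 < ρ / 2 by positivity)
    refine hy i ?_ (by rw [dist_comm]; exact hi)
    have := dist_triangle x₀ y (TopologicalSpace.denseSeq X i)
    push_cast at hyd
    linarith

/-- **exponential decay into a ball** -/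
theorem decay_in {n : ℕ} {κ : ℝ} (hL : LapC S n κ) (hκ : 0 ≤ κ) {v : Lp ℝ 2 μ} (hv : v ∈ S.V)
    (h0 : ∀ᵐ y ∂μ, 0 ≤ v y) {M : ℝ} (hM0 : 0 ≤ M) (hM : ∀ᵐ y ∂μ, v y ≤ M) {x₀ : X} {a₀ ρ : ℝ}
    (hρ : 0 < ρ) (hκρ : κ * ρ ^ 2 ≤ 1)
    (hsub : ∀ w ∈ S.V, (∀ᵐ y ∂μ, 0 ≤ w y) → (∀ᵐ y ∂μ, a₀ ≤ dist x₀ y → w y = 0) →
      ρ ^ 2 * ⟪S.D v, S.D w⟫ + ⟪v, w⟫ ≤ 0) :
    ∀ᵐ y ∂μ, v y ≤ 2 * M * Real.exp (-((a₀ - dist x₀ y) / ((4 * n + 6) * ρ))) := by
  have hn : (0:ℝ) ≤ n := Nat.cast_nonneg n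
  set a : ℝ := 1 / (2 * n + 3) with ha
  have ha0 : 0 < a := by rw [ha]; positivity
  have ha1 : a ≤ 1 / 3 := by
    rw [ha]; exact one_div_le_one_div_of_le (by norm_num) (by linarith)
  have hall := ae_all_iff.2 fun k => decay_in_pow S hL hκ hv h0 hM0 hM hρ hκρ hsub k
  filter_upwards [hall, hM] with y hy hyM
  by_cases hd : a₀ ≤ dist x₀ y
  · have h1 : 1 ≤ Real.exp (-((a₀ - dist x₀ y) / ((4 * n + 6) * ρ))) := by
      apply Real.one_le_exp
      have : (a₀ - dist x₀ y) / ((4 * n + 6) * ρ) ≤ 0 :=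
        div_nonpos_of_nonpos_of_nonneg (by linarith) (by positivity)
      linarith
    nlinarith
  · rw [not_le] at hd
    set s : ℝ := (a₀ - dist x₀ y) / (3 / 2 * ρ) with hs
    have hs0 : 0 < s := div_pos (by linarith) (by positivity)
    obtain ⟨k, hk1, hk2⟩ : ∃ k : ℕ, (k : ℝ) < s ∧ s - 1 ≤ k := by
      have h1 : 0 < ⌈s⌉₊ := Nat.ceil_pos.2 hs0
      refine ⟨⌈s⌉₊ - 1, ?_, ?_⟩
      · have := Nat.ceil_lt_add_one hs0.le
        rw [Nat.cast_sub (by omega)]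
        push_cast
        linarith
      · have := Nat.le_ceil s
        rw [Nat.cast_sub (by omega)]
        push_cast
        linarith
    have h2 := hy k (by
      have h3 : (k : ℝ) * (3 / 2 * ρ) < s * (3 / 2 * ρ) := by
        have : 0 < 3 / 2 * ρ := by positivity
        nlinarith
      have h4 : s * (3 / 2 * ρ) = a₀ - dist x₀ y := by rw [hs]; field_simp
      linarith)
    refine h2.trans ?_
    have h5 : (1 - 3 / 4 * a) ^ k ≤ Real.exp (-(3 / 4 * a)) ^ k := by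
      have h6 : 1 - 3 / 4 * a ≤ Real.exp (-(3 / 4 * a)) := by
        have := Real.add_one_le_exp (-(3 / 4 * a))
        linarith
      exact pow_le_pow_left₀ (by linarith) h6 k
    rw [← Real.exp_nat_mul] at h5
    have h6 : (k : ℝ) * -(3 / 4 * a) ≤ 3 / 4 * a + -((a₀ - dist x₀ y) / ((4 * n + 6) * ρ)) := by
      have h7 : (a₀ - dist x₀ y) / ((4 * n + 6) * ρ) = 3 / 4 * a * s := by
        rw [hs, ha]; field_simp; ring
      rw [h7]
      nlinarith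
    have h8 : Real.exp (3 / 4 * a) ≤ 2 := by
      have h9 : Real.exp (3 / 4 * a) ≤ Real.exp (1 / 4) := Real.exp_le_exp.2 (by linarith)
      have h10 : Real.exp (1 / 4 : ℝ) ≤ 2 := by
        have h11 : (1 / 4 : ℝ) ≤ Real.log 2 := by
          have := Real.log_two_gt_d9
          linarith
        have := (Real.le_log_iff_exp_le (by norm_num : (0:ℝ) < 2)).1 h11
        exact this
      exact h9.trans h10
    have h9 : (1 - 3 / 4 * a) ^ k ≤ 2 * Real.exp (-((a₀ - dist x₀ y) / ((4 * n + 6) * ρ))) := by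
      refine h5.trans ((Real.exp_le_exp.2 h6).trans ?_)
      rw [Real.exp_add]
      exact mul_le_mul_of_nonneg_right h8 (Real.exp_pos _).le
    calc M * (1 - 3 / 4 * a) ^ k
        ≤ M * (2 * Real.exp (-((a₀ - dist x₀ y) / ((4 * n + 6) * ρ)))) :=
          mul_le_mul_of_nonneg_left h9 hM0
      _ = _ := by ring

variable {S} [CompleteSpace F] (hd : Dense (S.V : Set (Lp ℝ 2 μ)))

/-- decay of the resolvent into a ball on which `f` vanishes -/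
theorem res_decay_in {n : ℕ} {κ : ℝ} (W : Smv126.WLap S n κ) (hκ : 0 ≤ κ) {f : Lp ℝ 2 μ} {M : ℝ}
    (hM0 : 0 ≤ M) (hf0 : ∀ᵐ y ∂μ, 0 ≤ f y) (hfM : ∀ᵐ y ∂μ, f y ≤ M) {x₀ : X} {a₀ ρ : ℝ}
    (hfs : ∀ᵐ y ∂μ, dist x₀ y < a₀ → f y = 0) (hρ : 0 < ρ) (hκρ : κ * ρ ^ 2 ≤ 1) :
    ∀ᵐ y ∂μ, (S.form hd).res (ρ ^ 2) f y ≤
      2 * M * Real.exp (-((a₀ - dist x₀ y) / ((4 * n + 6) * ρ))) := by
  have hQ := S.markov hd
  have hdom := S.form_dom hd
  have hρ2 : 0 < ρ ^ 2 := by positivity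
  have hvd : (S.form hd).res (ρ ^ 2) f ∈ (S.form hd).dom := (S.form hd).res_mem hρ2 f
  have hvV : (S.form hd).res (ρ ^ 2) f ∈ S.V := by rw [← hdom]; exact hvd
  refine decay_in S (lapC_of_wlap W) hκ hvV (hQ.res_nonneg hρ2 hf0) hM0
    (hQ.res_le hρ2 hM0 hfM) hρ hκρ ?_
  intro w hw hw0 hwb
  have h1 := (S.form hd).res_eq hρ2 f (v := w) (by rw [hdom]; exact hw)
  rw [S.form_E_inner hd] at h1
  rw [h1, L2.inner_def]
  refine (integral_eq_zero_of_ae ?_).le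
  filter_upwards [hwb, hfs] with y h2 h3
  show (inner ℝ (f y) (w y) : ℝ) = 0
  by_cases hy : a₀ ≤ dist x₀ y
  · rw [h2 hy, inner_zero_right]
  · rw [h3 (not_le.1 hy), inner_zero_left]

/-- **(R3in)** : decay into `closedBall x 16` for `f` supported off `ball x 32`. -/
theorem r3in {n : ℕ} {κ : ℝ} (W : Smv126.WLap S n κ) (hκ : 0 ≤ κ) {ρ : ℝ} (hρ : 0 < ρ)
    (hκρ : κ * ρ ^ 2 ≤ 1) (x : X) {f : Lp ℝ 2 μ} (hf0 : ∀ᵐ y ∂μ, 0 ≤ f y)
    (hf1 : ∀ᵐ y ∂μ, f y ≤ 1) (hfs : ∀ᵐ y ∂μ, dist x y < 32 → f y = 0) :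
    ∀ᵐ y ∂μ, dist x y ≤ 16 → (S.form hd).res (ρ ^ 2) f y ≤
      2 * Real.exp (-(8 / (2 * n + 3)) / ρ) := by
  have hn : (0:ℝ) ≤ n := Nat.cast_nonneg n
  filter_upwards [res_decay_in hd W hκ zero_le_one hf0 hf1 hfs hρ hκρ] with y hy hdy
  refine hy.trans ?_
  rw [mul_one]
  refine mul_le_mul_of_nonneg_left (Real.exp_le_exp.2 ?_) (by norm_num)
  have h2 : 16 / ((4 * n + 6) * ρ) ≤ (32 - dist x y) / ((4 * n + 6) * ρ) :=
    div_le_div_of_nonneg_right (by linarith) (by positivity)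
  have h3 : 16 / ((4 * n + 6) * ρ) = 8 / (2 * n + 3) / ρ := by
    field_simp
    ring
  rw [neg_div]
  linarith

end Crest.Agent.R247.Din939
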