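import Mathlib

/-!
R247, block (5) abstract half (helper593): symmetric sub-Markov operators on `L²(μ)`;
`L¹` contraction, Hopf's maximal lemma, the weak `(1,1)` maximal inequality, Abel means.
-/

set_option autoImplicit false

open MeasureTheory Filter Topology Set
open scoped RealInnerProductSpace ENNReal

noncomputable section

namespace Crest.Agent.R247.Dir593

variable {X : Type*} [MeasurableSpace X] {μ : Measure X}

/-- symmetric sub-Markov operator on `L²` -/
structure SymMarkov (T : Lp ℝ 2 μ →L[ℝ] Lp ℝ 2 μ) : Prop where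
  symm : ∀ f g : Lp ℝ 2 μ, ⟪T f, g⟫ = ⟪f, T g⟫
  pos : ∀ f : Lp ℝ 2 μ, 0 ≤ᵐ[μ] f → 0 ≤ᵐ[μ] T f
  le_one : ∀ f : Lp ℝ 2 μ, (∀ᵐ x ∂μ, f x ≤ 1) → ∀ᵐ x ∂μ, T f x ≤ 1

/-- the indicator of a set of finite measure -/
def ind {B : Set X} (hB : MeasurableSet B) (hμ : μ B ≠ ∞) : Lp ℝ 2 μ :=
  indicatorConstLp 2 hB hμ 1

theorem coe_ind {B : Set X} (hB : MeasurableSet B) (hμ : μ B ≠ ∞) :
    (ind hB hμ : X → ℝ) =ᵐ[μ] B.indicator fun _ => 1 := indicatorConstLp_coeFn

theorem inner_ind (f : Lp ℝ 2 μ) {B : Set X} (hB : MeasurableSet B) (hμ : μ B ≠ ∞) :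
    ⟪f, ind hB hμ⟫ = ∫ x in B, f x ∂μ := by
  rw [L2.inner_def, ← integral_indicator hB]
  refine integral_congr_ae ?_
  filter_upwards [coe_ind hB hμ] with x hx
  rw [hx]
  by_cases h : x ∈ B
  · simp [h]
  · simp [h]

theorem ind_nonneg {B : Set X} (hB : MeasurableSet B) (hμ : μ B ≠ ∞) :
    0 ≤ᵐ[μ] (ind hB hμ : X → ℝ) := by
  filter_upwards [coe_ind hB hμ] with x hx
  rw [hx]
  exact indicator_nonneg (fun _ _ => zero_le_one) x

theorem ind_le_one {B : Set X} (hB : MeasurableSet B) (hμ : μ B ≠ ∞) :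
    ∀ᵐ x ∂μ, ind hB hμ x ≤ 1 := by
  filter_upwards [coe_ind hB hμ] with x hx
  rw [hx]
  by_cases h : x ∈ B
  · simp [h]
  · simp [h]

theorem integrableOn_of_L2 (f : Lp ℝ 2 μ) {B : Set X} (hB : MeasurableSet B) (hμ : μ B ≠ ∞) :
    IntegrableOn f B μ := by
  have h := Lp.memLp f
  have : IsFiniteMeasure (μ.restrict B) := ⟨by rw [Measure.restrict_apply_univ]; exact hμ.lt_top⟩
  exact (h.restrict B).integrable (by norm_num)

namespace SymMarkov

variable {T : Lp ℝ 2 μ →L[ℝ] Lp ℝ 2 μ} (hT : SymMarkov T)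

include hT in
theorem mono {f g : Lp ℝ 2 μ} (h : f ≤ᵐ[μ] g) : T f ≤ᵐ[μ] T g := by
  have h1 : 0 ≤ᵐ[μ] (g - f : Lp ℝ 2 μ) := by
    filter_upwards [Lp.coeFn_sub g f, h] with x hx h2
    rw [hx]
    simpa using h2
  have h3 := hT.pos _ h1
  rw [map_sub] at h3
  filter_upwards [Lp.coeFn_sub (T g) (T f), h3] with x hx h4
  rw [hx] at h4
  simpa using h4

/-- `∫_B T f ≤ ∫ f` -/
theorem setIntegral_le {f : Lp ℝ 2 μ} (hf : 0 ≤ᵐ[μ] f) (hfi : Integrable f μ) {B : Set X}
    (hT : SymMarkov T) (hB : MeasurableSet B) (hμ : μ B ≠ ∞) :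
    ∫ x in B, T f x ∂μ ≤ ∫ x, f x ∂μ := by
  rw [← inner_ind, hT.symm, L2.inner_def]
  have h1 := hT.le_one _ (ind_le_one hB hμ)
  have h0 := hT.pos _ (ind_nonneg hB hμ)
  refine integral_mono_of_nonneg ?_ hfi ?_
  · filter_upwards [h0, hf] with x h2 h3
    simpa using mul_nonneg h2 h3
  · filter_upwards [h1, h0, hf] with x h2 h3 h4
    have h5 : (inner ℝ (f x) (T (ind hB hμ) x) : ℝ) = f x * T (ind hB hμ) x := by
      simp [mul_comm]
    rw [h5]
    have h6 : (0:ℝ) ≤ f x := h4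
    nlinarith

variable [SigmaFinite μ]

/-- `L¹` contraction, `lintegral` form -/
theorem lintegral_le {f : Lp ℝ 2 μ} (hT : SymMarkov T) (hf : 0 ≤ᵐ[μ] f) (hfi : Integrable f μ) :
    ∫⁻ x, ENNReal.ofReal (T f x) ∂μ ≤ ENNReal.ofReal (∫ x, f x ∂μ) := by
  have h0 := hT.pos _ hf
  have hm : AEMeasurable (fun x => ENNReal.ofReal (T f x)) μ :=
    (Lp.aestronglyMeasurable (T f)).aemeasurable.ennreal_ofReal
  set S := spanningSets μ with hS
  have h1 : ∫⁻ x, ENNReal.ofReal (T f x) ∂μ = ⨆ n, ∫⁻ x in S n, ENNReal.ofReal (T f x) ∂μ := by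
    rw [← setLIntegral_univ, ← iUnion_spanningSets μ,
      setLIntegral_iUnion_of_directed _ (monotone_spanningSets μ).directed_le]
  rw [h1]
  refine iSup_le fun n => ?_
  have hB := measurableSet_spanningSets μ n
  have hμ := (measure_spanningSets_lt_top μ n).ne
  rw [← ofReal_integral_eq_lintegral_ofReal (integrableOn_of_L2 (T f) hB hμ)
    (ae_restrict_of_ae h0)]
  exact ENNReal.ofReal_le_ofReal (setIntegral_le hf hfi hT hB hμ)

theorem integrable {f : Lp ℝ 2 μ} (hT : SymMarkov T) (hf : 0 ≤ᵐ[μ] f) (hfi : Integrable f μ) :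
    Integrable (T f) μ := by
  refine ⟨Lp.aestronglyMeasurable _, ?_⟩
  rw [HasFiniteIntegral]
  have h0 := hT.pos _ hf
  have h1 : ∫⁻ x, ‖T f x‖ₑ ∂μ = ∫⁻ x, ENNReal.ofReal (T f x) ∂μ := by
    refine lintegral_congr_ae ?_
    filter_upwards [h0] with x hx
    rw [Real.enorm_eq_ofReal hx]
  rw [h1]
  exact (hT.lintegral_le hf hfi).trans_lt ENNReal.ofReal_lt_top

theorem integral_le {f : Lp ℝ 2 μ} (hT : SymMarkov T) (hf : 0 ≤ᵐ[μ] f) (hfi : Integrable f μ) :
    ∫ x, T f x ∂μ ≤ ∫ x, f x ∂μ := by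
  have h0 := hT.pos _ hf
  have h1 : 0 ≤ ∫ x, f x ∂μ := integral_nonneg_of_ae hf
  rw [integral_eq_lintegral_of_nonneg_ae h0 (Lp.aestronglyMeasurable _)]
  exact ENNReal.toReal_le_of_le_ofReal h1 (hT.lintegral_le hf hfi)

/-- positive part in `L²` -/
theorem integrable_of {f : Lp ℝ 2 μ} (hT : SymMarkov T) (hfi : Integrable f μ) :
    Integrable (T f) μ := by
  have e : f = Lp.posPart f - Lp.negPart f := by
    ext1
    filter_upwards [Lp.coeFn_sub (Lp.posPart f) (Lp.negPart f), Lp.coeFn_posPart f,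
      Lp.coeFn_negPart f] with x h1 h2 h3
    rw [h1, Pi.sub_apply, h2, h3]
    rcases le_total (f x) 0 with h | h
    · rw [max_eq_right h, min_eq_left h]; ring
    · rw [max_eq_left h, min_eq_right h]; ring
  have hp : Integrable (Lp.posPart f) μ := by
    refine (hfi.pos_part).congr ?_
    filter_upwards [Lp.coeFn_posPart f] with x h
    rw [h]
  have hn : Integrable (Lp.negPart f) μ := by
    refine (hfi.neg_part).congr ?_
    filter_upwards [Lp.coeFn_negPart f] with x h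
    rw [h]
    rcases le_total (f x) 0 with h | h
    · rw [min_eq_left h, max_eq_left (by linarith)]
    · rw [min_eq_right h, max_eq_right (by linarith)]; simp
  have hp0 : 0 ≤ᵐ[μ] (Lp.posPart f : X → ℝ) := by
    filter_upwards [Lp.coeFn_posPart f] with x h
    rw [h]; exact le_max_right _ _
  have hn0 : 0 ≤ᵐ[μ] (Lp.negPart f : X → ℝ) := by
    filter_upwards [Lp.coeFn_negPart f] with x h
    rw [h]; simp
  have h1 := hT.integrable hp0 hp
  have h2 := hT.integrable hn0 hn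
  rw [e, map_sub]
  exact (h1.sub h2).congr (Lp.coeFn_sub _ _).symm


/-! ### Hopf's maximal lemma -/

/-- the upper envelope `P_{N+1} = (f + T P_N)⁺` -/
def P (T : Lp ℝ 2 μ →L[ℝ] Lp ℝ 2 μ) (f : Lp ℝ 2 μ) : ℕ → Lp ℝ 2 μ
  | 0 => 0
  | N + 1 => Lp.posPart (f + T (P T f N))

/-- partial sums -/
def S (T : Lp ℝ 2 μ →L[ℝ] Lp ℝ 2 μ) (f : Lp ℝ 2 μ) (N : ℕ) : Lp ℝ 2 μ :=
  ∑ j ∈ Finset.range N, (T ^ j) f

omit [SigmaFinite μ] in
theorem S_zero (f : Lp ℝ 2 μ) : S T f 0 = 0 := by simp [S]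

omit [SigmaFinite μ] in
theorem S_succ (f : Lp ℝ 2 μ) (N : ℕ) : S T f (N + 1) = f + T (S T f N) := by
  rw [S, Finset.sum_range_succ', S, map_sum, add_comm]
  congr 1
  refine Finset.sum_congr rfl fun j _ => ?_
  rw [pow_succ', show (T * T ^ j) = T.comp (T ^ j) from rfl, ContinuousLinearMap.comp_apply]

omit [SigmaFinite μ] in
theorem coe_P_succ (f : Lp ℝ 2 μ) (N : ℕ) :
    (P T f (N + 1) : X → ℝ) =ᵐ[μ] fun x => max (f x + T (P T f N) x) 0 := by
  filter_upwards [Lp.coeFn_posPart (f + T (P T f N)), Lp.coeFn_add f (T (P T f N))] with x h1 h2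
  rw [P, h1, h2]
  rfl

omit [SigmaFinite μ] in
theorem P_nonneg (f : Lp ℝ 2 μ) (N : ℕ) : 0 ≤ᵐ[μ] (P T f N : X → ℝ) := by
  cases N with
  | zero => filter_upwards [Lp.coeFn_zero (E := ℝ) (p := 2) (μ := μ)] with x hx; rw [P, hx]
  | succ N =>
    filter_upwards [coe_P_succ (T := T) f N] with x hx
    rw [hx]
    exact le_max_right _ _

omit [SigmaFinite μ] in
theorem P_le_succ (hT : SymMarkov T) (f : Lp ℝ 2 μ) (N : ℕ) :
    (P T f N : X → ℝ) ≤ᵐ[μ] (P T f (N + 1) : X → ℝ) := by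
  induction N with
  | zero =>
    filter_upwards [Lp.coeFn_zero (E := ℝ) (p := 2) (μ := μ), P_nonneg (T := T) f 1] with x hx h1
    rw [P, hx]
    exact h1
  | succ N ih =>
    filter_upwards [coe_P_succ (T := T) f N, coe_P_succ (T := T) f (N + 1), hT.mono ih]
      with x h1 h2 h3
    rw [h1, h2]
    exact max_le_max (by linarith) le_rfl

omit [SigmaFinite μ] in
theorem S_le_P (hT : SymMarkov T) (f : Lp ℝ 2 μ) (N : ℕ) :
    (S T f N : X → ℝ) ≤ᵐ[μ] (P T f N : X → ℝ) := by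
  induction N with
  | zero => rw [S_zero, P]
  | succ N ih =>
    rw [S_succ]
    filter_upwards [coe_P_succ (T := T) f N, Lp.coeFn_add f (T (S T f N)), hT.mono ih]
      with x h1 h2 h3
    rw [h1, h2]
    exact le_max_of_le_left (by simpa using h3)

omit [SigmaFinite μ] in
theorem P_mono (hT : SymMarkov T) (f : Lp ℝ 2 μ) {n N : ℕ} (h : n ≤ N) :
    (P T f n : X → ℝ) ≤ᵐ[μ] (P T f N : X → ℝ) := by
  induction N, h using Nat.le_induction with
  | base => exact Filter.EventuallyLE.refl _ _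
  | succ N _ ih => exact ih.trans (P_le_succ hT f N)

theorem integrable_P (hT : SymMarkov T) {f : Lp ℝ 2 μ} (hf : Integrable f μ) (N : ℕ) :
    Integrable (P T f N) μ := by
  induction N with
  | zero =>
    refine (integrable_zero X ℝ μ).congr ?_
    filter_upwards [Lp.coeFn_zero (E := ℝ) (p := 2) (μ := μ)] with x hx
    rw [P, hx]
  | succ N ih =>
    refine Integrable.congr ?_ (coe_P_succ (T := T) f N).symm
    exact (hf.add (hT.integrable_of ih)).pos_part

/-- **Hopf's maximal lemma**. -/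
theorem hopf (hT : SymMarkov T) {f : Lp ℝ 2 μ} (hf : Integrable f μ) (N : ℕ) :
    0 ≤ ∫ x in {x | 0 < P T f N x}, f x ∂μ := by
  have hA : MeasurableSet {x | 0 < P T f N x} :=
    measurableSet_lt measurable_const (Lp.stronglyMeasurable _).measurable
  cases N with
  | zero =>
    have h0 : μ {x | 0 < P T f 0 x} = 0 := by
      have h1 : (P T f 0 : X → ℝ) =ᵐ[μ] 0 := by
        rw [P]; exact Lp.coeFn_zero _ _ _
      have h2 : ∀ᵐ x ∂μ, ¬ 0 < P T f 0 x := by
        filter_upwards [h1] with x hx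
        rw [hx]; simp
      simpa using ae_iff.1 h2
    rw [setIntegral_measure_zero _ h0]
  | succ N =>
    set Q := P T f (N + 1) with hQ
    have hQi : Integrable Q μ := integrable_P hT hf (N + 1)
    have hTQi : Integrable (T Q) μ := hT.integrable_of hQi
    have h1 : ∀ᵐ x ∂μ, x ∈ {x | 0 < Q x} → Q x - T Q x ≤ f x := by
      filter_upwards [coe_P_succ (T := T) f N, hT.mono (P_le_succ hT f N)] with x h2 h3 h4
      have h4' : 0 < Q x := h4
      rw [hQ, h2] at h4'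
      have h5 : 0 < f x + T (P T f N) x := by
        rcases lt_max_iff.1 h4' with h | h
        · exact h
        · exact absurd h (lt_irrefl _)
      rw [hQ, h2, max_eq_left h5.le]
      linarith
    have h2 : ∫ x in {x | 0 < Q x}, (Q x - T Q x) ∂μ ≤ ∫ x in {x | 0 < Q x}, f x ∂μ :=
      setIntegral_mono_on_ae (hQi.sub hTQi).integrableOn hf.integrableOn hA h1
    refine le_trans ?_ h2
    rw [integral_sub hQi.integrableOn hTQi.integrableOn]
    have hQ0 : 0 ≤ᵐ[μ] (Q : X → ℝ) := P_nonneg f (N + 1)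
    have h3 : ∫ x in {x | 0 < Q x}, Q x ∂μ = ∫ x, Q x ∂μ := by
      refine setIntegral_eq_integral_of_ae_compl_eq_zero ?_
      filter_upwards [hQ0] with x hx hx2
      have hx3 : ¬ 0 < Q x := hx2
      exact le_antisymm (not_lt.1 hx3) hx
    have h4 : ∫ x in {x | 0 < Q x}, T Q x ∂μ ≤ ∫ x, T Q x ∂μ :=
      setIntegral_le_integral hTQi (hT.pos _ hQ0)
    have h5 := hT.integral_le hQ0 hQi
    linarith

/-- the exceedance set of the Cesaro means -/
def exc (T : Lp ℝ 2 μ →L[ℝ] Lp ℝ 2 μ) (g : Lp ℝ 2 μ) (t : ℝ) : Set X :=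
  {x | ∃ N : ℕ, 1 ≤ N ∧ t * N < ∑ j ∈ Finset.range N, ((T ^ j) g : Lp ℝ 2 μ) x}

omit [SigmaFinite μ] in
theorem measurableSet_exc (T : Lp ℝ 2 μ →L[ℝ] Lp ℝ 2 μ) (g : Lp ℝ 2 μ) (t : ℝ) :
    MeasurableSet (exc T g t) := by
  have : exc T g t = ⋃ N : ℕ, ⋃ _ : 1 ≤ N,
      {x | t * N < ∑ j ∈ Finset.range N, ((T ^ j) g : Lp ℝ 2 μ) x} := by
    ext x; simp [exc]
  rw [this]
  refine MeasurableSet.iUnion fun N => MeasurableSet.iUnion fun _ =>
    measurableSet_lt measurable_const ?_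
  exact Finset.measurable_sum _ fun j _ => (Lp.stronglyMeasurable _).measurable

omit [SigmaFinite μ] in
theorem pow_pos (hT : SymMarkov T) {g : Lp ℝ 2 μ} (hg : 0 ≤ᵐ[μ] g) (j : ℕ) :
    0 ≤ᵐ[μ] ((T ^ j) g : Lp ℝ 2 μ) := by
  induction j with
  | zero => simpa using hg
  | succ j ih => rw [pow_succ', show (T * T ^ j) = T.comp (T ^ j) from rfl, ContinuousLinearMap.comp_apply]; exact hT.pos _ ih

omit [SigmaFinite μ] in
theorem pow_le_one (hT : SymMarkov T) {g : Lp ℝ 2 μ} (hg : ∀ᵐ x ∂μ, g x ≤ 1) (j : ℕ) :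
    ∀ᵐ x ∂μ, ((T ^ j) g : Lp ℝ 2 μ) x ≤ 1 := by
  induction j with
  | zero => simpa using hg
  | succ j ih => rw [pow_succ', show (T * T ^ j) = T.comp (T ^ j) from rfl, ContinuousLinearMap.comp_apply]; exact hT.le_one _ ih

omit [SigmaFinite μ] in
theorem coe_S (g : Lp ℝ 2 μ) (N : ℕ) : (S T g N : X → ℝ) =ᵐ[μ]
    fun x => ∑ j ∈ Finset.range N, ((T ^ j) g : Lp ℝ 2 μ) x := by
  rw [S]
  induction N with
  | zero =>
    filter_upwards [Lp.coeFn_zero (E := ℝ) (p := 2) (μ := μ)] with x hx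
    rw [Finset.range_zero, Finset.sum_empty, Finset.sum_empty]; exact hx
  | succ N ih =>
    rw [Finset.sum_range_succ]
    filter_upwards [Lp.coeFn_add (∑ j ∈ Finset.range N, (T ^ j) g) ((T ^ N) g), ih] with x h1 h2
    rw [h1, Pi.add_apply, h2, Finset.sum_range_succ]

/-- **weak (1,1) maximal inequality**, constant one. -/
theorem weak11 (hT : SymMarkov T) {g : Lp ℝ 2 μ} (hg : 0 ≤ᵐ[μ] g) (hgi : Integrable g μ) {t : ℝ}
    (ht : 0 < t) : μ (exc T g t) ≤ ENNReal.ofReal ((∫ x, g x ∂μ) / t) := by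
  -- truncated sets
  set EN : ℕ → Set X := fun N =>
    {x | ∃ n : ℕ, 1 ≤ n ∧ n ≤ N ∧ t * n < ∑ j ∈ Finset.range n, ((T ^ j) g : Lp ℝ 2 μ) x} with hEN
  have hmeas : ∀ N, MeasurableSet (EN N) := by
    intro N
    have : EN N = ⋃ n : ℕ, ⋃ _ : 1 ≤ n, ⋃ _ : n ≤ N,
        {x | t * n < ∑ j ∈ Finset.range n, ((T ^ j) g : Lp ℝ 2 μ) x} := by
      ext x
      simp only [hEN, mem_iUnion]
      constructor
      · rintro ⟨n, h1, h2, h3⟩; exact ⟨n, h1, h2, h3⟩
      · rintro ⟨n, h1, h2, h3⟩; exact ⟨n, h1, h2, h3⟩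
    rw [this]
    refine MeasurableSet.iUnion fun n => MeasurableSet.iUnion fun _ => MeasurableSet.iUnion fun _ =>
      measurableSet_lt measurable_const ?_
    exact Finset.measurable_sum _ fun j _ => (Lp.stronglyMeasurable _).measurable
  -- finite measure subsets
  have key : ∀ N, ∀ B : Set X, MeasurableSet B → μ B ≠ ∞ → B ⊆ EN N →
      μ B ≤ ENNReal.ofReal ((∫ x, g x ∂μ) / t) := by
    intro N B hB hμ hsub
    set f : Lp ℝ 2 μ := g - t • ind hB hμ with hf
    have hcf : (f : X → ℝ) =ᵐ[μ] fun x => g x - t * B.indicator (fun _ => 1) x := by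
      filter_upwards [Lp.coeFn_sub g (t • ind hB hμ), Lp.coeFn_smul t (ind hB hμ), coe_ind hB hμ]
        with x h1 h2 h3
      rw [hf, h1, Pi.sub_apply, h2, Pi.smul_apply, h3, smul_eq_mul]
    have hBi : Integrable (fun x => t * B.indicator (fun _ => (1:ℝ)) x) μ :=
      ((integrable_indicator_iff hB).2 (integrableOn_const hμ)).const_mul t
    have hfi : Integrable f μ := (hgi.sub hBi).congr hcf.symm
    have hh := hopf hT hfi N
    set A : Set X := {x | 0 < P T f N x} with hA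
    have hAm : MeasurableSet A :=
      measurableSet_lt measurable_const (Lp.stronglyMeasurable _).measurable
    -- `B ⊆ A` a.e.
    have hBA : ∀ᵐ x ∂μ, x ∈ B → x ∈ A := by
      have h1 : ∀ᵐ x ∂μ, ∀ n, S T f n x = ∑ j ∈ Finset.range n, ((T ^ j) f : Lp ℝ 2 μ) x :=
        ae_all_iff.2 fun n => coe_S f n
      have h2 : ∀ᵐ x ∂μ, ∀ j, ((T ^ j) f : Lp ℝ 2 μ) x =
          ((T ^ j) g : Lp ℝ 2 μ) x - t * ((T ^ j) (ind hB hμ) : Lp ℝ 2 μ) x := by
        refine ae_all_iff.2 fun j => ?_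
        rw [hf, map_sub, map_smul]
        filter_upwards [Lp.coeFn_sub ((T ^ j) g) (t • (T ^ j) (ind hB hμ)),
          Lp.coeFn_smul t ((T ^ j) (ind hB hμ))] with x h1 h2
        rw [h1, Pi.sub_apply, h2, Pi.smul_apply, smul_eq_mul]
      have h3 : ∀ᵐ x ∂μ, ∀ j, ((T ^ j) (ind hB hμ) : Lp ℝ 2 μ) x ≤ 1 :=
        ae_all_iff.2 fun j => hT.pow_le_one (ind_le_one hB hμ) j
      have h4 : ∀ᵐ x ∂μ, ∀ n, n ≤ N → S T f n x ≤ P T f N x := by
        refine ae_all_iff.2 fun n => ?_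
        by_cases hn : n ≤ N
        · filter_upwards [(S_le_P hT f n).trans (P_mono hT f hn)] with x hx _
          exact hx
        · exact Filter.Eventually.of_forall fun x h => absurd h hn
      filter_upwards [h1, h2, h3, h4] with x e1 e2 e3 e4 hx
      obtain ⟨n, hn1, hnN, hlt⟩ := hsub hx
      refine lt_of_lt_of_le ?_ (e4 n hnN)
      rw [e1 n, Finset.sum_congr rfl fun j _ => e2 j, Finset.sum_sub_distrib]
      have h5 : ∑ j ∈ Finset.range n, t * ((T ^ j) (ind hB hμ) : Lp ℝ 2 μ) x ≤ t * n := by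
        calc ∑ j ∈ Finset.range n, t * ((T ^ j) (ind hB hμ) : Lp ℝ 2 μ) x
            ≤ ∑ _j ∈ Finset.range n, t * 1 :=
              Finset.sum_le_sum fun j _ => mul_le_mul_of_nonneg_left (e3 j) ht.le
          _ = t * n := by simp [mul_comm]
      linarith
    have h6 : ∫ x in A, f x ∂μ = ∫ x in A, g x ∂μ - t * μ.real B := by
      rw [setIntegral_congr_ae hAm (g := fun x => g x - t * B.indicator (fun _ => 1) x)
        (by filter_upwards [hcf] with x hx _ using hx),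
        integral_sub hgi.integrableOn hBi.integrableOn, integral_const_mul]
      congr 2
      rw [integral_indicator hB, Measure.restrict_restrict hB]
      have h7 : μ.restrict (B ∩ A) = μ.restrict B := by
        refine Measure.restrict_congr_set ?_
        filter_upwards [hBA] with x hx
        refine propext ⟨fun h => h.1, fun h => ⟨h, hx h⟩⟩
      rw [h7]
      simp
    rw [h6] at hh
    have h8 : ∫ x in A, g x ∂μ ≤ ∫ x, g x ∂μ := setIntegral_le_integral hgi hg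
    have h9 : μ.real B ≤ (∫ x, g x ∂μ) / t := by
      rw [le_div_iff₀ ht]
      linarith
    rw [← ENNReal.ofReal_toReal hμ]
    exact ENNReal.ofReal_le_ofReal h9
  have hE : exc T g t = ⋃ N, EN N := by
    ext x
    simp only [exc, hEN, mem_iUnion]
    constructor
    · rintro ⟨N, h1, h2⟩; exact ⟨N, N, h1, le_rfl, h2⟩
    · rintro ⟨N, n, h1, -, h2⟩; exact ⟨n, h1, h2⟩
  have hmono : Monotone EN := by
    intro N M hNM x hx
    obtain ⟨n, h1, h2, h3⟩ := hx
    exact ⟨n, h1, h2.trans hNM, h3⟩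
  rw [hE, hmono.measure_iUnion]
  refine iSup_le fun N => ?_
  have h10 : EN N = ⋃ k, EN N ∩ spanningSets μ k := by
    rw [← inter_iUnion, iUnion_spanningSets, inter_univ]
  rw [h10, (show Monotone fun k => EN N ∩ spanningSets μ k from fun a b h =>
    inter_subset_inter_right _ (monotone_spanningSets μ h)).measure_iUnion]
  refine iSup_le fun k => ?_
  refine key N _ ((hmeas N).inter (measurableSet_spanningSets μ k)) ?_ inter_subset_left
  exact ((measure_mono inter_subset_right).trans_lt (measure_spanningSets_lt_top μ k)).ne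

end SymMarkov

/-- Abel means are bounded by Cesaro means. -/
theorem abel_le {a : ℕ → ℝ} {t r : ℝ} (hr0 : 0 ≤ r) (hr1 : r ≤ 1)
    (h : ∀ N : ℕ, 1 ≤ N → ∑ j ∈ Finset.range N, a j ≤ t * N) (M : ℕ) :
    ∑ j ∈ Finset.range M, r ^ j * a j ≤ t * ∑ j ∈ Finset.range M, r ^ j := by
  have key : ∀ M : ℕ, ∑ j ∈ Finset.range (M + 1), r ^ j * (a j - t) ≤
      r ^ M * ∑ j ∈ Finset.range (M + 1), (a j - t) := by
    intro M
    induction M with
    | zero => simp
    | succ M ih =>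
      rw [Finset.sum_range_succ, Finset.sum_range_succ (fun j => a j - t) (M + 1)]
      have hB : ∑ j ∈ Finset.range (M + 1), (a j - t) ≤ 0 := by
        rw [Finset.sum_sub_distrib]
        have := h (M + 1) (by omega)
        simp only [Finset.sum_const, Finset.card_range, nsmul_eq_mul]
        linarith [mul_comm t ((M + 1 : ℕ) : ℝ)]
      have hp : r ^ (M + 1) ≤ r ^ M := pow_le_pow_of_le_one hr0 hr1 (Nat.le_succ M)
      have h2 : r ^ M * ∑ j ∈ Finset.range (M + 1), (a j - t) ≤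
          r ^ (M + 1) * ∑ j ∈ Finset.range (M + 1), (a j - t) :=
        mul_le_mul_of_nonpos_right hp hB
      rw [mul_add]
      linarith
  cases M with
  | zero => simp
  | succ M =>
    have h1 := key M
    have hB : ∑ j ∈ Finset.range (M + 1), (a j - t) ≤ 0 := by
      rw [Finset.sum_sub_distrib]
      have := h (M + 1) (by omega)
      simp only [Finset.sum_const, Finset.card_range, nsmul_eq_mul]
      linarith [mul_comm t ((M + 1 : ℕ) : ℝ)]
    have h2 : r ^ M * ∑ j ∈ Finset.range (M + 1), (a j - t) ≤ 0 :=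
      mul_nonpos_of_nonneg_of_nonpos (pow_nonneg hr0 M) hB
    have h3 : ∑ j ∈ Finset.range (M + 1), r ^ j * (a j - t) =
        ∑ j ∈ Finset.range (M + 1), r ^ j * a j - t * ∑ j ∈ Finset.range (M + 1), r ^ j := by
      rw [Finset.mul_sum, ← Finset.sum_sub_distrib]
      exact Finset.sum_congr rfl fun j _ => by ring
    linarith

end Crest.Agent.R247.Dir593
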