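import Crest.Agent.R242.Form2
import Crest.Agent.R247.Dir1_593

/-!
R247, block (5) abstract half (helper593): Markov forms, resolvents on the dual of the form
domain, maximal inequality over all resolvent scales.
-/

set_option autoImplicit false

open MeasureTheory Filter Topology Set
open scoped RealInnerProductSpace ENNReal

noncomputable section

namespace Crest.Agent.R247.Dir593

open Crest.Agent.R242

/-! ### continuous functionals on the form domain -/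

section DualGeneral

variable {H : Type*} [NormedAddCommGroup H] [InnerProductSpace ℝ H]

/-- a linear functional on the form domain, bounded in the form norm -/
structure Fnl (Q : CForm H) where
  f : H → ℝ
  add' : ∀ {u v : H}, u ∈ Q.dom → v ∈ Q.dom → f (u + v) = f u + f v
  smul' : ∀ (c : ℝ) {u : H}, u ∈ Q.dom → f (c • u) = c * f u
  C : ℝ
  C0 : 0 ≤ C
  bound : ∀ {u : H}, u ∈ Q.dom → |f u| ≤ C * Real.sqrt (‖u‖ ^ 2 + Q.E u u)

namespace Fnl

variable {Q : CForm H} (l : Fnl Q)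

lemma zero : l.f 0 = 0 := by
  have := l.smul' 0 Q.dom.zero_mem
  simpa using this

lemma neg {u : H} (hu : u ∈ Q.dom) : l.f (-u) = -l.f u := by
  have := l.smul' (-1) hu
  simpa using this

lemma sub {u v : H} (hu : u ∈ Q.dom) (hv : v ∈ Q.dom) : l.f (u - v) = l.f u - l.f v := by
  rw [sub_eq_add_neg, l.add' hu (Q.dom.neg_mem hv), l.neg hv, sub_eq_add_neg]

end Fnl

/-- the functional `p ↦ ⟪g, p⟫` -/
def Fnl.ofInner (Q : CForm H) (g : H) : Fnl Q where
  f := fun p => ⟪g, p⟫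
  add' := fun _ _ => inner_add_right _ _ _
  smul' := fun c u _ => real_inner_smul_right _ _ _
  C := ‖g‖
  C0 := norm_nonneg _
  bound := by
    intro u hu
    refine (abs_real_inner_le_norm g u).trans ?_
    refine mul_le_mul_of_nonneg_left ?_ (norm_nonneg _)
    refine Real.le_sqrt_of_sq_le ?_
    have := Q.nonneg hu
    linarith

variable (Q : CForm H)

/-- `(1/4)` of the energy of a difference from the parallelogram identity. -/
lemma closed_diff [CompleteSpace H] {u : ℕ → H} (hu : ∀ n, u n ∈ Q.dom) {b : ℕ → ℝ}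
    (hb : Tendsto b atTop (𝓝 0))
    (h : ∀ n m N, N ≤ n → N ≤ m → ‖u n - u m‖ ^ 2 + Q.E (u n - u m) (u n - u m) ≤ b N) :
    ∃ w ∈ Q.dom, Tendsto u atTop (𝓝 w) ∧ ∀ n, ‖u n - w‖ ^ 2 + Q.E (u n - w) (u n - w) ≤ 2 * b n := by
  have hb0 : ∀ N, 0 ≤ b N := fun N => by
    have := h N N N le_rfl le_rfl
    have h2 := Q.nonneg (Q.dom.sub_mem (hu N) (hu N))
    nlinarith [sq_nonneg ‖u N - u N‖]
  have hcau : CauchySeq u := by
    refine cauchySeq_of_le_tendsto_0 (fun N => Real.sqrt (b N)) ?_ ?_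
    · intro n m N hn hm
      rw [dist_eq_norm]
      refine Real.le_sqrt_of_sq_le ?_
      have := h n m N hn hm
      have h2 := Q.nonneg (Q.dom.sub_mem (hu n) (hu m))
      linarith
    · simpa using hb.sqrt
  obtain ⟨w, hw⟩ := cauchySeq_tendsto_of_complete hcau
  have key : ∀ n, u n - w ∈ Q.dom ∧ Q.E (u n - w) (u n - w) ≤ b n := by
    intro n
    refine Q.closed' (fun m => u n - u (m + n)) (u n - w) (b n)
      (fun m => Q.dom.sub_mem (hu n) (hu _)) (fun m => ?_)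
      (tendsto_const_nhds.sub (hw.comp (tendsto_add_atTop_nat n)))
    have h1 := h n (m + n) n le_rfl (by omega)
    nlinarith [sq_nonneg ‖u n - u (m + n)‖]
  have hwd : w ∈ Q.dom := by
    have h1 := Q.dom.sub_mem (hu 0) (key 0).1
    simpa using h1
  refine ⟨w, hwd, hw, fun n => ?_⟩
  have h3 : ‖u n - w‖ ^ 2 ≤ b n := by
    have h4 : Tendsto (fun m => ‖u n - u (m + n)‖ ^ 2) atTop (𝓝 (‖u n - w‖ ^ 2)) :=
      ((tendsto_const_nhds.sub (hw.comp (tendsto_add_atTop_nat n))).norm).pow 2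
    refine le_of_tendsto' h4 fun m => ?_
    have h1 := h n (m + n) n le_rfl (by omega)
    have h2 := Q.nonneg (Q.dom.sub_mem (hu n) (hu (m + n)))
    linarith
  have := (key n).2
  linarith

/-- Riesz for the form: solution of `h E(u,v) + ⟪u,v⟫ = l v`. -/
theorem exists_resD [CompleteSpace H] {h : ℝ} (hh : 0 < h) (l : Fnl Q) :
    ∃ u ∈ Q.dom, ∀ v ∈ Q.dom, h * Q.E u v + ⟪u, v⟫ = l.f v := by
  classical
  set N : H → ℝ := fun u => h * Q.E u u + ‖u‖ ^ 2 with hN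
  set Φ : H → ℝ := fun u => N u - 2 * l.f u with hΦ
  set c : ℝ := 1 + 1 / h with hc
  have hc0 : 0 < c := by positivity
  have hN0 : ∀ u ∈ Q.dom, 0 ≤ N u := fun u hu => by
    have := Q.nonneg hu
    simp only [hN]; positivity
  have hNc : ∀ u ∈ Q.dom, ‖u‖ ^ 2 + Q.E u u ≤ c * N u := fun u hu => by
    have h1 := Q.nonneg hu
    simp only [hN, hc]
    have h2 : (1 + 1 / h) * (h * Q.E u u + ‖u‖ ^ 2) =
        ‖u‖ ^ 2 + Q.E u u + (h * Q.E u u + ‖u‖ ^ 2 / h) := by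
      field_simp; ring
    rw [h2]
    have h3 : 0 ≤ h * Q.E u u + ‖u‖ ^ 2 / h := by positivity
    linarith
  have hl : ∀ u ∈ Q.dom, 2 * l.f u ≤ N u / 2 + 2 * l.C ^ 2 * c := fun u hu => by
    have h1 := (le_abs_self _).trans (l.bound hu)
    have h2 : Real.sqrt (‖u‖ ^ 2 + Q.E u u) ≤ Real.sqrt (c * N u) := Real.sqrt_le_sqrt (hNc u hu)
    have h3 := mul_le_mul_of_nonneg_left h2 l.C0
    have h4 := Real.sq_sqrt (mul_nonneg hc0.le (hN0 u hu))
    set s := Real.sqrt (c * N u) with hs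
    have h5 : N u = s ^ 2 / c := by rw [h4]; field_simp
    rw [h5]
    have h6 : l.C * s * 2 ≤ s ^ 2 / c / 2 + 2 * l.C ^ 2 * c := by
      have h7 : s ^ 2 / c / 2 + 2 * l.C ^ 2 * c - l.C * s * 2 = (s - 2 * l.C * c) ^ 2 / (2 * c) := by
        field_simp; ring
      have h8 : 0 ≤ (s - 2 * l.C * c) ^ 2 / (2 * c) := by positivity
      linarith
    linarith
  set S : Set ℝ := Φ '' (Q.dom : Set H) with hS
  have hSne : S.Nonempty := ⟨Φ 0, 0, Q.dom.zero_mem, rfl⟩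
  have hSb : BddBelow S := ⟨-(2 * l.C ^ 2 * c), by
    rintro _ ⟨u, hu, rfl⟩
    have h1 := hl u hu
    have h2 := hN0 u hu
    simp only [hΦ]; linarith⟩
  set I := sInf S with hI
  have hIle : ∀ u ∈ Q.dom, I ≤ Φ u := fun u hu => csInf_le hSb ⟨u, hu, rfl⟩
  have hex : ∀ n : ℕ, ∃ u ∈ Q.dom, Φ u < I + 1 / ((n : ℝ) + 1) := by
    intro n
    obtain ⟨_, ⟨u, hu, rfl⟩, hlt⟩ := exists_lt_of_csInf_lt hSne
      (show sInf S < I + 1 / ((n : ℝ) + 1) by
        have : (0 : ℝ) < 1 / ((n : ℝ) + 1) := by positivity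
        linarith)
    exact ⟨u, hu, hlt⟩
  choose u hu hlt using hex
  -- parallelogram
  have hpar : ∀ a ∈ Q.dom, ∀ b ∈ Q.dom, N (a - b) ≤ 2 * (Φ a + Φ b - 2 * I) := by
    intro a ha b hb
    have hm : (1 / 2 : ℝ) • (a + b) ∈ Q.dom := Q.dom.smul_mem _ (Q.dom.add_mem ha hb)
    have h1 := hIle _ hm
    have hE : Q.E ((1 / 2 : ℝ) • (a + b)) ((1 / 2 : ℝ) • (a + b)) =
        (1 / 4) * (Q.E a a + 2 * Q.E a b + Q.E b b) := by
      rw [Q.smul_left _ (Q.dom.add_mem ha hb) hm, Q.smul_right _ (Q.dom.add_mem ha hb)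
        (Q.dom.add_mem ha hb), Q.expand_add ha hb]
      ring
    have hlm : l.f ((1 / 2 : ℝ) • (a + b)) = (1 / 2) * (l.f a + l.f b) := by
      rw [l.smul' _ (Q.dom.add_mem ha hb), l.add' ha hb]
    simp only [hΦ, hN] at h1 ⊢
    rw [hE, hlm, norm_smul, mul_pow, norm_add_sq_real] at h1
    rw [Q.expand_sub ha hb, norm_sub_sq_real]
    have h12 : ‖(1 / 2 : ℝ)‖ ^ 2 = 1 / 4 := by norm_num
    rw [h12] at h1
    nlinarith
  set b : ℕ → ℝ := fun N => c * (4 / ((N : ℝ) + 1)) with hb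
  have hbt : Tendsto b atTop (𝓝 0) := by
    have := ((tendsto_one_div_add_atTop_nhds_zero_nat (𝕜 := ℝ)).const_mul 4).const_mul c
    simpa [hb, div_eq_mul_inv] using this
  obtain ⟨w, hwd, hw, hwb⟩ := closed_diff Q hu hbt (fun n m K hn hm => by
    have h1 := hpar _ (hu n) _ (hu m)
    have h2 := hlt n
    have h3 := hlt m
    have h4 : 1 / ((n : ℝ) + 1) ≤ 1 / ((K : ℝ) + 1) := by
      apply one_div_le_one_div_of_le (by positivity)
      have : (K : ℝ) ≤ n := by exact_mod_cast hn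
      linarith
    have h5 : 1 / ((m : ℝ) + 1) ≤ 1 / ((K : ℝ) + 1) := by
      apply one_div_le_one_div_of_le (by positivity)
      have : (K : ℝ) ≤ m := by exact_mod_cast hm
      linarith
    refine (hNc _ (Q.dom.sub_mem (hu n) (hu m))).trans ?_
    simp only [hb]
    refine mul_le_mul_of_nonneg_left ?_ hc0.le
    have h6 : 4 / ((K : ℝ) + 1) = 4 * (1 / ((K : ℝ) + 1)) := by ring
    rw [h6]
    linarith)
  -- first variation: inequality `I ≤ Φ (w + t v)` and `Φ (u n) → ` ...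
  refine ⟨w, hwd, fun v hv => ?_⟩
  -- set `d n = u n - w`, small in the form norm
  have hN1 : ∀ n, N (u n - w) ≤ (h + 1) * (2 * b n) := fun n => by
    have h1 := hwb n
    have h2 := Q.nonneg (Q.dom.sub_mem (hu n) hwd)
    simp only [hN]
    nlinarith [sq_nonneg ‖u n - w‖]
  -- the bilinear form
  have hvar : ∀ n : ℕ, ∀ t : ℝ, -(1 / ((n : ℝ) + 1)) ≤
      2 * t * (h * Q.E (u n) v + ⟪u n, v⟫ - l.f v) + t ^ 2 * N v := by
    intro n t
    have h1 := hIle _ (Q.dom.add_mem (hu n) (Q.dom.smul_mem t hv))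
    have h2 : Φ (u n + t • v) = Φ (u n) + (2 * t * (h * Q.E (u n) v + ⟪u n, v⟫ - l.f v) +
        t ^ 2 * N v) := by
      simp only [hΦ, hN]
      rw [Q.expand (hu n) hv, l.add' (hu n) (Q.dom.smul_mem t hv), l.smul' t hv,
        norm_add_sq_real, norm_smul, real_inner_smul_right, mul_pow, Real.norm_eq_abs, sq_abs]
      ring
    rw [h2] at h1
    have h3 := hlt n
    linarith
  have hE : Tendsto (fun n => Q.E (u n) v) atTop (𝓝 (Q.E w v)) := by
    have h1 : ∀ n, |Q.E (u n) v - Q.E w v| ≤ Real.sqrt (2 * b n) * Real.sqrt (Q.E v v) := by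
      intro n
      rw [← Q.sub_left (hu n) hwd hv]
      refine (Q.abs_le_sqrt (Q.dom.sub_mem (hu n) hwd) hv).trans ?_
      refine mul_le_mul_of_nonneg_right (Real.sqrt_le_sqrt ?_) (Real.sqrt_nonneg _)
      have := hwb n
      nlinarith [sq_nonneg ‖u n - w‖]
    rw [tendsto_iff_dist_tendsto_zero]
    have h2 : Tendsto (fun n => Real.sqrt (2 * b n) * Real.sqrt (Q.E v v)) atTop (𝓝 0) := by
      have h3 := ((hbt.const_mul 2).sqrt).mul_const (Real.sqrt (Q.E v v))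
      simpa using h3
    exact squeeze_zero (fun _ => dist_nonneg) h1 h2
  have hI2 : Tendsto (fun n => (⟪u n, v⟫ : ℝ)) atTop (𝓝 ⟪w, v⟫) :=
    hw.inner tendsto_const_nhds
  have hlim : ∀ t : ℝ, 0 ≤ 2 * t * (h * Q.E w v + ⟪w, v⟫ - l.f v) + t ^ 2 * N v := by
    intro t
    have h1 : Tendsto (fun n : ℕ => -(1 / ((n : ℝ) + 1))) atTop (𝓝 (-0)) :=
      (tendsto_one_div_add_atTop_nhds_zero_nat (𝕜 := ℝ)).neg
    rw [neg_zero] at h1
    refine le_of_tendsto_of_tendsto' h1 ?_ (fun n => hvar n t)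
    exact ((((hE.const_mul h).add hI2).sub_const _).const_mul _).add_const _
  have h3 : h * Q.E w v + ⟪w, v⟫ - l.f v = 0 := by
    have h1 : ∀ t : ℝ, 0 ≤ N v * (t * t) + (2 * (h * Q.E w v + ⟪w, v⟫ - l.f v)) * t + 0 := by
      intro t; have := hlim t; nlinarith
    have h2 := discrim_le_zero h1
    unfold discrim at h2
    nlinarith
  linarith

/-- The resolvent `(1 + h L)⁻¹` on functionals. -/
def resD [CompleteSpace H] (h : ℝ) (l : Fnl Q) : H :=
  open Classical in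
  if hh : 0 < h then Classical.choose (exists_resD Q hh l) else 0

variable [CompleteSpace H] {Q}

lemma resD_mem {h : ℝ} (hh : 0 < h) (l : Fnl Q) : resD Q h l ∈ Q.dom := by
  unfold resD; rw [dif_pos hh]; exact (Classical.choose_spec (exists_resD Q hh l)).1

lemma resD_eq {h : ℝ} (hh : 0 < h) (l : Fnl Q) {v : H} (hv : v ∈ Q.dom) :
    h * Q.E (resD Q h l) v + ⟪resD Q h l, v⟫ = l.f v := by
  unfold resD; rw [dif_pos hh]; exact (Classical.choose_spec (exists_resD Q hh l)).2 v hv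

/-- uniqueness -/
lemma eq_resD {h : ℝ} (hh : 0 < h) {l : Fnl Q} {u : H} (hu : u ∈ Q.dom)
    (he : ∀ v ∈ Q.dom, h * Q.E u v + ⟪u, v⟫ = l.f v) : u = resD Q h l := by
  have hw := resD_mem hh l
  set w := resD Q h l with hwdef
  have h1 := he (u - w) (Q.dom.sub_mem hu hw)
  have h2 := resD_eq hh l (Q.dom.sub_mem hu hw)
  rw [← hwdef] at h2
  have h3 : h * Q.E (u - w) (u - w) + ⟪u - w, u - w⟫ = 0 := by
    rw [Q.sub_left hu hw (Q.dom.sub_mem hu hw), inner_sub_left]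
    linarith
  have h4 := Q.nonneg (Q.dom.sub_mem hu hw)
  rw [real_inner_self_eq_norm_sq] at h3
  have h5 : ‖u - w‖ ^ 2 = 0 := by nlinarith [sq_nonneg ‖u - w‖, mul_nonneg hh.le h4]
  have h6 : ‖u - w‖ = 0 := by simpa using h5
  exact sub_eq_zero.mp (norm_eq_zero.mp h6)

lemma resD_ofInner {h : ℝ} (hh : 0 < h) (g : H) : resD Q h (Fnl.ofInner Q g) = Q.res h g :=
  (eq_resD hh (Q.res_mem hh g) fun _ hv => Q.res_eq hh g hv).symm

/-- symmetry -/
lemma inner_resD {h : ℝ} (hh : 0 < h) (l : Fnl Q) (g : H) :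
    ⟪resD Q h l, g⟫ = l.f (Q.res h g) := by
  have h1 := resD_eq hh l (Q.res_mem hh g)
  have h2 := Q.res_eq hh g (resD_mem hh l)
  rw [Q.symm (Q.res_mem hh g) (resD_mem hh l)] at h2
  rw [← h1, real_inner_comm, ← h2, real_inner_comm (resD Q h l) (Q.res h g)]

/-- resolvent identity -/
lemma resD_resolvent {g h : ℝ} (hg : 0 < g) (hh : 0 < h) (l : Fnl Q) :
    resD Q h l = (g / h) • resD Q g l + (1 - g / h) • Q.res g (resD Q h l) := by
  have h1m := resD_mem hh l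
  have h2m := resD_mem hg l
  have h3m := Q.res_mem hg (resD Q h l)
  -- both sides solve the `g`-problem with the functional `(g/h) l + (1-g/h) ⟪u, ·⟫`
  set u := resD Q h l with hu
  set w := (g / h) • resD Q g l + (1 - g / h) • Q.res g u with hw
  have hwd : w ∈ Q.dom := Q.dom.add_mem (Q.dom.smul_mem _ h2m) (Q.dom.smul_mem _ h3m)
  have hd := Q.dom.sub_mem h1m hwd
  have e1 := resD_eq hh l hd
  have e2 := resD_eq hg l hd
  have e3 := Q.res_eq hg u hd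
  rw [← hu] at e1
  have e4 : g * Q.E w (u - w) + ⟪w, u - w⟫ = (g / h) * l.f (u - w) + (1 - g / h) * ⟪u, u - w⟫ := by
    rw [← e2, ← e3, hw, Q.add_left (Q.dom.smul_mem _ h2m) (Q.dom.smul_mem _ h3m) (by rw [← hw]; exact hd),
      Q.smul_left _ h2m (by rw [← hw]; exact hd), Q.smul_left _ h3m (by rw [← hw]; exact hd),
      inner_add_left, real_inner_smul_left, real_inner_smul_left]
    ring
  have e5 : g * Q.E u (u - w) + ⟪u, u - w⟫ = (g / h) * l.f (u - w) + (1 - g / h) * ⟪u, u - w⟫ := by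
    rw [← e1]; field_simp; ring
  have e6 : g * Q.E (u - w) (u - w) + ⟪u - w, u - w⟫ = 0 := by
    rw [Q.sub_left h1m hwd hd, inner_sub_left]
    linarith
  have h4 := Q.nonneg hd
  rw [real_inner_self_eq_norm_sq] at e6
  have h5 : ‖u - w‖ ^ 2 = 0 := by nlinarith [sq_nonneg ‖u - w‖, mul_nonneg hg.le h4]
  have h6 : ‖u - w‖ = 0 := by simpa using h5
  exact sub_eq_zero.mp (norm_eq_zero.mp h6)

/-- energy bound -/
lemma resD_energy {h : ℝ} (hh : 0 < h) (l : Fnl Q) :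
    h * Q.E (resD Q h l) (resD Q h l) + ‖resD Q h l‖ ^ 2 = l.f (resD Q h l) := by
  have := resD_eq hh l (resD_mem hh l)
  rwa [real_inner_self_eq_norm_sq] at this

end DualGeneral

/-! ### the maximal inequality for resolvent families -/

section Family

variable {X : Type*} [MeasurableSpace X] {μ : Measure X}

theorem family_expand {T : Lp ℝ 2 μ →L[ℝ] Lp ℝ 2 μ} {u0 u : Lp ℝ 2 μ} {a r : ℝ}
    (h : u = a • u0 + r • T u) (M : ℕ) :
    u = a • (∑ j ∈ Finset.range M, r ^ j • (T ^ j) u0) + r ^ M • (T ^ M) u := by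
  induction M with
  | zero => simp
  | succ M ih =>
    have h2 : (T ^ M) u = a • (T ^ M) u0 + r • (T ^ (M + 1)) u := by
      conv_lhs => rw [h]
      rw [map_add, map_smul, map_smul, pow_succ,
        show (T ^ M * T) = (T ^ M).comp T from rfl, ContinuousLinearMap.comp_apply]
    conv_lhs => rw [ih, h2]
    rw [Finset.sum_range_succ, pow_succ]
    module

theorem coe_sum_smul (r : ℝ) (v : ℕ → Lp ℝ 2 μ) (M : ℕ) :
    ((∑ j ∈ Finset.range M, r ^ j • v j : Lp ℝ 2 μ) : X → ℝ) =ᵐ[μ]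
      fun x => ∑ j ∈ Finset.range M, r ^ j * v j x := by
  induction M with
  | zero =>
    filter_upwards [Lp.coeFn_zero (E := ℝ) (p := 2) (μ := μ)] with x hx
    rw [Finset.range_zero, Finset.sum_empty, Finset.sum_empty]; exact hx
  | succ M ih =>
    rw [Finset.sum_range_succ]
    filter_upwards [Lp.coeFn_add (∑ j ∈ Finset.range M, r ^ j • v j) (r ^ M • v M), ih,
      Lp.coeFn_smul (r ^ M) (v M)] with x h1 h2 h3
    rw [h1, Pi.add_apply, h2, h3, Finset.sum_range_succ, Pi.smul_apply, smul_eq_mul]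

theorem family_le {T : Lp ℝ 2 μ →L[ℝ] Lp ℝ 2 μ} (hn : ‖T‖ ≤ 1)
    {u0 u : Lp ℝ 2 μ} {k t : ℝ} (ht : 0 ≤ t) (hk : 1 ≤ k) (h : u = (1 / k) • u0 + (1 - 1 / k) • T u) :
    ∀ᵐ x ∂μ, x ∉ SymMarkov.exc T u0 t → u x ≤ t := by
  have hk0 : 0 < k := by linarith
  set r : ℝ := 1 - 1 / k with hr
  have hr0 : 0 ≤ r := by
    have : 1 / k ≤ 1 := by rw [div_le_one hk0]; exact hk
    linarith
  have hr1 : r < 1 := by
    have : 0 < 1 / k := by positivity
    linarith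
  set s : ℕ → Lp ℝ 2 μ := fun M => (1 / k) • (∑ j ∈ Finset.range M, r ^ j • (T ^ j) u0) with hs
  have hTn : ∀ M : ℕ, ‖(T ^ M) u‖ ≤ ‖u‖ := by
    intro M
    induction M with
    | zero => simp
    | succ M ih =>
      rw [pow_succ', show (T * T ^ M) = T.comp (T ^ M) from rfl, ContinuousLinearMap.comp_apply]
      refine (T.le_opNorm _).trans ?_
      calc ‖T‖ * ‖(T ^ M) u‖ ≤ 1 * ‖(T ^ M) u‖ := mul_le_mul_of_nonneg_right hn (norm_nonneg _)
        _ ≤ ‖u‖ := by rw [one_mul]; exact ih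
  have hst : Tendsto s atTop (𝓝 u) := by
    rw [tendsto_iff_norm_sub_tendsto_zero]
    refine squeeze_zero (fun _ => norm_nonneg _) (g := fun M => r ^ M * ‖u‖) (fun M => ?_) ?_
    · have h1 := family_expand h M
      have aux : ∀ a b c : Lp ℝ 2 μ, b = a + c → a - b = -c := by
        intro a b c h; rw [h]; abel
      have h2 : s M - u = -(r ^ M • (T ^ M) u) := aux _ _ _ h1
      rw [h2, norm_neg, norm_smul, Real.norm_of_nonneg (pow_nonneg hr0 M)]
      exact mul_le_mul_of_nonneg_left (hTn M) (pow_nonneg hr0 M)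
    · have := (tendsto_pow_atTop_nhds_zero_of_lt_one hr0 hr1).mul_const ‖u‖
      simpa using this
  obtain ⟨ns, -, hns⟩ := (tendstoInMeasure_of_tendsto_Lp hst).exists_seq_tendsto_ae
  have hc : ∀ᵐ x ∂μ, ∀ M, s M x = (1 / k) * ∑ j ∈ Finset.range M, r ^ j * ((T ^ j) u0 : Lp ℝ 2 μ) x := by
    refine ae_all_iff.2 fun M => ?_
    filter_upwards [Lp.coeFn_smul (1 / k) (∑ j ∈ Finset.range M, r ^ j • (T ^ j) u0),
      coe_sum_smul r (fun j => (T ^ j) u0) M] with x h1 h2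
    simp only [hs]
    rw [h1, Pi.smul_apply, h2, smul_eq_mul]
  filter_upwards [hns, hc] with x h1 h2 hx
  refine le_of_tendsto' h1 fun i => ?_
  rw [h2]
  have h3 : ∀ N : ℕ, 1 ≤ N → ∑ j ∈ Finset.range N, ((T ^ j) u0 : Lp ℝ 2 μ) x ≤ t * N := by
    intro N hN
    by_contra hcon
    exact hx ⟨N, hN, not_le.1 hcon⟩
  have h4 := abel_le hr0 hr1.le h3 (ns i)
  -- the geometric sum
  have h5 : (1 / k) * ∑ j ∈ Finset.range (ns i), r ^ j ≤ 1 := by
    have h6 : (1 / k) = 1 - r := by rw [hr]; ring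
    rw [h6]
    have h7 := mul_neg_geom_sum r (ns i)
    rw [h7]
    have := pow_nonneg hr0 (ns i)
    linarith
  have hk1 : 0 ≤ 1 / k := by positivity
  calc (1 / k) * ∑ j ∈ Finset.range (ns i), r ^ j * ((T ^ j) u0 : Lp ℝ 2 μ) x
      ≤ (1 / k) * (t * ∑ j ∈ Finset.range (ns i), r ^ j) := mul_le_mul_of_nonneg_left h4 hk1
    _ = t * ((1 / k) * ∑ j ∈ Finset.range (ns i), r ^ j) := by ring
    _ ≤ t * 1 := mul_le_mul_of_nonneg_left h5 ht
    _ = t := mul_one t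

/-- **maximal inequality for a resolvent family**: one exceptional set for all `k ≥ 1`. -/
theorem family_weak11 [SigmaFinite μ] {T : Lp ℝ 2 μ →L[ℝ] Lp ℝ 2 μ} (hT : SymMarkov T)
    (hn : ‖T‖ ≤ 1) {u0 : Lp ℝ 2 μ} (h0 : 0 ≤ᵐ[μ] u0) (hi : Integrable u0 μ) {t : ℝ} (ht : 0 < t) :
    ∃ B : Set X, MeasurableSet B ∧ μ B ≤ ENNReal.ofReal ((∫ x, u0 x ∂μ) / t) ∧
      ∀ (k : ℝ) (u : Lp ℝ 2 μ), 1 ≤ k → u = (1 / k) • u0 + (1 - 1 / k) • T u →
        ∀ᵐ x ∂μ, x ∉ B → u x ≤ t :=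
  ⟨SymMarkov.exc T u0 t, SymMarkov.measurableSet_exc T u0 t, hT.weak11 h0 hi ht,
    fun _ _ hk h => family_le hn ht.le hk h⟩

end Family

/-! ### Markov forms -/

section Markov

variable {X : Type*} [MeasurableSpace X] {μ : Measure X}

/-- The form is Markovian: cut-offs `(u - a)⁺`, `a ≥ 0`, operate. -/
structure Markov (Q : CForm (Lp ℝ 2 μ)) : Prop where
  cut : ∀ (a : ℝ), 0 ≤ a → ∀ u w : Lp ℝ 2 μ, u ∈ Q.dom →
    ((w : X → ℝ) =ᵐ[μ] fun x => max (u x - a) 0) → w ∈ Q.dom ∧ Q.E w w ≤ Q.E u w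

theorem memLp_cut (u : Lp ℝ 2 μ) {a : ℝ} (ha : 0 ≤ a) :
    MemLp (fun x => max (u x - a) 0) 2 μ := by
  refine (Lp.memLp u).mono ?_ ?_
  · exact ((Lp.aestronglyMeasurable u).sub aestronglyMeasurable_const).sup
      aestronglyMeasurable_const
  · refine Filter.Eventually.of_forall fun x => ?_
    rw [Real.norm_of_nonneg (le_max_right _ _), Real.norm_eq_abs]
    rcases le_total (u x - a) 0 with h | h
    · rw [max_eq_right h]; exact abs_nonneg _
    · rw [max_eq_left h]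
      exact (by linarith : u x - a ≤ u x).trans (le_abs_self _)

/-- the cut-off `(u - a)⁺` -/
def cutL (u : Lp ℝ 2 μ) (a : ℝ) (ha : 0 ≤ a) : Lp ℝ 2 μ := (memLp_cut u ha).toLp _

theorem coe_cutL (u : Lp ℝ 2 μ) {a : ℝ} (ha : 0 ≤ a) :
    (cutL u a ha : X → ℝ) =ᵐ[μ] fun x => max (u x - a) 0 := MemLp.coeFn_toLp _

namespace Markov

variable {Q : CForm (Lp ℝ 2 μ)} (hQ : Markov Q)

include hQ

theorem cut_mem {u : Lp ℝ 2 μ} (hu : u ∈ Q.dom) {a : ℝ} (ha : 0 ≤ a) : cutL u a ha ∈ Q.dom :=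
  (hQ.cut a ha u _ hu (coe_cutL u ha)).1

theorem res_le {h : ℝ} (hh : 0 < h) {a : ℝ} (ha : 0 ≤ a) {f : Lp ℝ 2 μ}
    (hf : ∀ᵐ x ∂μ, f x ≤ a) : ∀ᵐ x ∂μ, Q.res h f x ≤ a := by
  set u := Q.res h f with hu
  have hud : u ∈ Q.dom := Q.res_mem hh f
  obtain ⟨hwd, hE⟩ := hQ.cut a ha u _ hud (coe_cutL u ha)
  set w := cutL u a ha with hw
  have h1 := Q.res_eq hh f hwd
  rw [← hu] at h1
  have h2 : 0 ≤ Q.E w w := Q.nonneg hwd
  have h3 : (⟪u - f, w⟫ : ℝ) ≤ 0 := by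
    rw [inner_sub_left]
    nlinarith [mul_nonneg hh.le (h2.trans hE)]
  have h4 : ‖w‖ ^ 2 ≤ ⟪u - f, w⟫ := by
    rw [← real_inner_self_eq_norm_sq, L2.inner_def, L2.inner_def]
    refine integral_mono_ae (L2.integrable_inner w w) (L2.integrable_inner (u - f) w) ?_
    filter_upwards [coe_cutL u ha, Lp.coeFn_sub u f, hf] with x e1 e2 e3
    simp only [e2, Pi.sub_apply]
    rw [← hw] at e1
    have e4 : (inner ℝ (w x) (w x) : ℝ) = w x * w x := by simp [pow_two]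
    have e5 : (inner ℝ (u x - f x) (w x) : ℝ) = (u x - f x) * w x := by simp [mul_comm]
    rw [e4, e5]
    rcases le_total (u x - a) 0 with h | h
    · rw [e1, max_eq_right h]; simp
    · rw [e1, max_eq_left h]
      nlinarith
  have h5 : ‖w‖ ^ 2 = 0 := le_antisymm (h4.trans h3) (sq_nonneg _)
  have h6 : w = 0 := norm_eq_zero.1 (by simpa using h5)
  have h7 : (w : X → ℝ) =ᵐ[μ] 0 := by rw [h6]; exact Lp.coeFn_zero _ _ _
  filter_upwards [coe_cutL u ha, h7] with x e1 e2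
  rw [← hw, e2] at e1
  have e3 : max (u x - a) 0 = 0 := e1.symm
  have := le_max_left (u x - a) 0
  linarith

theorem res_nonneg {h : ℝ} (hh : 0 < h) {f : Lp ℝ 2 μ} (hf : 0 ≤ᵐ[μ] (f : X → ℝ)) :
    0 ≤ᵐ[μ] (Q.res h f : X → ℝ) := by
  have h1 : ∀ᵐ x ∂μ, (-f : Lp ℝ 2 μ) x ≤ 0 := by
    filter_upwards [Lp.coeFn_neg f, hf] with x e1 e2
    rw [e1, Pi.neg_apply]
    simpa using e2
  have h2 := hQ.res_le hh le_rfl h1
  rw [map_neg] at h2
  filter_upwards [Lp.coeFn_neg (Q.res h f), h2] with x e1 e2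
  rw [e1, Pi.neg_apply] at e2
  simpa using e2

theorem symMarkov_res {h : ℝ} (hh : 0 < h) : SymMarkov (Q.res h) where
  symm := fun f g => Q.res_symm h f g
  pos := fun _ hf => hQ.res_nonneg hh hf
  le_one := fun _ hf => hQ.res_le hh zero_le_one hf

/-- positivity on functionals -/
theorem resD_nonneg {h : ℝ} (hh : 0 < h) {l : Fnl Q}
    (hl : ∀ w ∈ Q.dom, 0 ≤ᵐ[μ] (w : X → ℝ) → 0 ≤ l.f w) :
    0 ≤ᵐ[μ] ((resD Q h l : Lp ℝ 2 μ) : X → ℝ) := by
  set u := resD Q h l with hu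
  have hud : u ∈ Q.dom := resD_mem hh l
  have hnd : -u ∈ Q.dom := Q.dom.neg_mem hud
  obtain ⟨hwd, hE⟩ := hQ.cut 0 le_rfl (-u) _ hnd (coe_cutL (-u) le_rfl)
  set w := cutL (-u) 0 le_rfl with hw
  have hw0 : 0 ≤ᵐ[μ] (w : X → ℝ) := by
    filter_upwards [coe_cutL (-u) (le_refl (0:ℝ))] with x e1
    rw [← hw] at e1
    rw [e1]; exact le_max_right _ _
  have h1 := resD_eq hh l hwd
  rw [← hu] at h1
  have h2 := hl w hwd hw0
  have h3 : Q.E (-u) w = -Q.E u w := Q.neg_left hud hwd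
  have h0 : 0 ≤ Q.E w w := Q.nonneg hwd
  have h4 : (⟪u, w⟫ : ℝ) = -‖w‖ ^ 2 := by
    rw [← real_inner_self_eq_norm_sq, L2.inner_def, L2.inner_def, ← integral_neg]
    refine integral_congr_ae ?_
    filter_upwards [coe_cutL (-u) (le_refl (0:ℝ)), Lp.coeFn_neg u] with x e1 e2
    rw [← hw, e2, Pi.neg_apply] at e1
    have e4 : (inner ℝ (w x) (w x) : ℝ) = w x * w x := by simp [pow_two]
    have e5 : (inner ℝ (u x) (w x) : ℝ) = u x * w x := by simp [mul_comm]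
    simp only [e4, e5]
    rcases le_total (-u x - 0) 0 with h | h
    · rw [e1, max_eq_right h]; simp
    · rw [e1, max_eq_left h]; ring
  have h5 : ‖w‖ ^ 2 ≤ 0 := by
    rw [h3] at hE
    nlinarith [mul_nonneg hh.le (by linarith : 0 ≤ -Q.E u w)]
  have h6 : w = 0 := norm_eq_zero.1 (by simpa using le_antisymm h5 (sq_nonneg _))
  have h7 : (w : X → ℝ) =ᵐ[μ] 0 := by rw [h6]; exact Lp.coeFn_zero _ _ _
  filter_upwards [coe_cutL (-u) (le_refl (0:ℝ)), h7, Lp.coeFn_neg u] with x e1 e2 e3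
  rw [← hw, e2, e3, Pi.neg_apply] at e1
  have e4 : max (-u x - 0) 0 = 0 := e1.symm
  have := le_max_left (-u x - 0) 0
  show (0:ℝ) ≤ u x
  linarith

/-- mass bound, on sets -/
theorem setIntegral_resD_le {h : ℝ} (hh : 0 < h) {l : Fnl Q} {m : ℝ}
    (hm : ∀ w ∈ Q.dom, 0 ≤ᵐ[μ] (w : X → ℝ) → (∀ᵐ x ∂μ, w x ≤ 1) → l.f w ≤ m) {B : Set X}
    (hB : MeasurableSet B) (hμ : μ B ≠ ∞) : ∫ x in B, resD Q h l x ∂μ ≤ m := by
  rw [← inner_ind _ hB hμ, inner_resD hh]
  exact hm _ (Q.res_mem hh _) (hQ.res_nonneg hh (ind_nonneg hB hμ))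
    (hQ.res_le hh zero_le_one (ind_le_one hB hμ))

/-- mass bound: `R l` is integrable with `∫ R l ≤ m`. -/
theorem integral_resD_le [SigmaFinite μ] {h : ℝ} (hh : 0 < h) {l : Fnl Q} {m : ℝ}
    (hl : ∀ w ∈ Q.dom, 0 ≤ᵐ[μ] (w : X → ℝ) → 0 ≤ l.f w)
    (hm : ∀ w ∈ Q.dom, 0 ≤ᵐ[μ] (w : X → ℝ) → (∀ᵐ x ∂μ, w x ≤ 1) → l.f w ≤ m) :
    Integrable ((resD Q h l : Lp ℝ 2 μ) : X → ℝ) μ ∧ ∫ x, resD Q h l x ∂μ ≤ m := by
  have h0 := hQ.resD_nonneg hh hl
  have hm0 : 0 ≤ m := by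
    have := hm 0 Q.dom.zero_mem (by
      filter_upwards [Lp.coeFn_zero (E := ℝ) (p := 2) (μ := μ)] with x hx; rw [hx]) (by
      filter_upwards [Lp.coeFn_zero (E := ℝ) (p := 2) (μ := μ)] with x hx; rw [hx]; simp)
    rwa [l.zero] at this
  set S := spanningSets μ with hS
  have h2 : ∫⁻ x, ENNReal.ofReal (resD Q h l x) ∂μ ≤ ENNReal.ofReal m := by
    have h1 : ∫⁻ x, ENNReal.ofReal (resD Q h l x) ∂μ =
        ⨆ n, ∫⁻ x in S n, ENNReal.ofReal (resD Q h l x) ∂μ := by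
      rw [← setLIntegral_univ, ← iUnion_spanningSets μ,
        setLIntegral_iUnion_of_directed _ (monotone_spanningSets μ).directed_le]
    rw [h1]
    refine iSup_le fun n => ?_
    have hB := measurableSet_spanningSets μ n
    have hμ := (measure_spanningSets_lt_top μ n).ne
    rw [← ofReal_integral_eq_lintegral_ofReal (integrableOn_of_L2 (resD Q h l) hB hμ)
      (ae_restrict_of_ae h0)]
    exact ENNReal.ofReal_le_ofReal (hQ.setIntegral_resD_le hh hm hB hμ)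
  have h3 : Integrable ((resD Q h l : Lp ℝ 2 μ) : X → ℝ) μ := by
    refine ⟨Lp.aestronglyMeasurable _, ?_⟩
    rw [HasFiniteIntegral]
    have h1 : ∫⁻ x, ‖resD Q h l x‖ₑ ∂μ = ∫⁻ x, ENNReal.ofReal (resD Q h l x) ∂μ := by
      refine lintegral_congr_ae ?_
      filter_upwards [h0] with x hx
      rw [Real.enorm_eq_ofReal hx]
    rw [h1]
    exact h2.trans_lt ENNReal.ofReal_lt_top
  refine ⟨h3, ?_⟩
  rw [integral_eq_lintegral_of_nonneg_ae h0 (Lp.aestronglyMeasurable _)]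
  exact ENNReal.toReal_le_of_le_ofReal hm0 h2

/-- **weak (1,1) for `sup_{h ≥ h0} R_h l`**, `l` a nonnegative functional of mass `≤ m`
(for instance a measure of finite energy): one exceptional set for all scales. -/
theorem weak11_resD [SigmaFinite μ] {h0 : ℝ} (hh0 : 0 < h0) {l : Fnl Q} {m : ℝ}
    (hl : ∀ w ∈ Q.dom, 0 ≤ᵐ[μ] (w : X → ℝ) → 0 ≤ l.f w)
    (hm : ∀ w ∈ Q.dom, 0 ≤ᵐ[μ] (w : X → ℝ) → (∀ᵐ x ∂μ, w x ≤ 1) → l.f w ≤ m)
    {t : ℝ} (ht : 0 < t) :
    ∃ B : Set X, MeasurableSet B ∧ μ B ≤ ENNReal.ofReal (m / t) ∧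
      ∀ h, h0 ≤ h → ∀ᵐ x ∂μ, x ∉ B → resD Q h l x ≤ t := by
  obtain ⟨hi, hle⟩ := hQ.integral_resD_le hh0 hl hm
  obtain ⟨B, hB, hμB, hall⟩ := family_weak11 (hQ.symMarkov_res hh0) (Q.opNorm_res_le h0)
    (hQ.resD_nonneg hh0 hl) hi ht
  refine ⟨B, hB, hμB.trans (ENNReal.ofReal_le_ofReal (by gcongr)), fun h hh => ?_⟩
  have hpos : 0 < h := lt_of_lt_of_le hh0 hh
  refine hall (h / h0) _ (by rw [le_div_iff₀ hh0]; linarith) ?_
  have := resD_resolvent hh0 hpos l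
  rw [one_div_div]
  exact this

omit hQ in
/-- a countable family of sets, increasing union form: weak (1,1) over all `h > 0`. -/
theorem weak11_resD_all [SigmaFinite μ] (hQ : Markov Q) {l : Fnl Q} {m : ℝ}
    (hl : ∀ w ∈ Q.dom, 0 ≤ᵐ[μ] (w : X → ℝ) → 0 ≤ l.f w)
    (hm : ∀ w ∈ Q.dom, 0 ≤ᵐ[μ] (w : X → ℝ) → (∀ᵐ x ∂μ, w x ≤ 1) → l.f w ≤ m)
    {t : ℝ} (ht : 0 < t) (h : ℕ → ℝ) (hh : ∀ i, 0 < h i) :
    μ {x | ∃ i, t < resD Q (h i) l x} ≤ ENNReal.ofReal (m / t) := by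
  set E : ℕ → Set X := fun N => {x | ∃ i, i ≤ N ∧ t < resD Q (h i) l x} with hE
  have h1 : {x | ∃ i, t < resD Q (h i) l x} = ⋃ N, E N := by
    ext x
    simp only [hE, mem_iUnion]
    constructor
    · rintro ⟨i, hi⟩; exact ⟨i, i, le_rfl, hi⟩
    · rintro ⟨N, i, -, hi⟩; exact ⟨i, hi⟩
  have hmono : Monotone E := by
    intro N M hNM x hx
    obtain ⟨i, h1, h2⟩ := hx
    exact ⟨i, h1.trans hNM, h2⟩
  rw [h1, hmono.measure_iUnion]
  refine iSup_le fun N => ?_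
  -- smallest scale among the first `N + 1`
  obtain ⟨i0, -, hi0⟩ := Finset.exists_min_image (Finset.range (N + 1)) h
    ⟨0, Finset.mem_range.2 (Nat.succ_pos N)⟩
  obtain ⟨B, -, hμB, hall⟩ := hQ.weak11_resD (hh i0) hl hm ht
  refine (measure_mono_ae ?_).trans hμB
  have h3 : ∀ᵐ x ∂μ, ∀ i, i ≤ N → x ∉ B → resD Q (h i) l x ≤ t := by
    refine ae_all_iff.2 fun i => ?_
    by_cases hi : i ≤ N
    · filter_upwards [hall (h i) (hi0 i (Finset.mem_range.2 (Nat.lt_succ_of_le hi)))] with x hx _ hxB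
      exact hx hxB
    · exact Filter.Eventually.of_forall fun x h => absurd h hi
  filter_upwards [h3] with x hx hxE
  obtain ⟨i, hi, hlt⟩ := hxE
  by_contra hxB
  exact absurd (hx i hi hxB) (not_le.2 hlt)

end Markov

end Markov

end Crest.Agent.R247.Dir593
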