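import Crest.Agent.R242.Form2
import Crest.Agent.R247.Dir2_593

/-!
R247, block (5) abstract half (helper593): the interface `GradS` (gradient of locally Lipschitz
functions in a measurable orthonormal frame), the space `V = W^{1,2}_0` as closure of the
compactly supported (locally) Lipschitz functions, gradient `D : V → L²(μ; F)`, the closed form.
-/

set_option autoImplicit false
set_option linter.unusedSectionVars false

open MeasureTheory Filter Topology Set
open scoped RealInnerProductSpace ENNReal NNReal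

noncomputable section

namespace Crest.Agent.R247.Dir593

open Crest.Agent.R242

/-- Gradient structure: `G f x` is the gradient of `f` at `x` in a measurable orthonormal frame. -/
structure GradS (X : Type*) [MetricSpace X] [MeasurableSpace X] (F : Type*)
    [NormedAddCommGroup F] [InnerProductSpace ℝ F] (μ : Measure X) where
  G : (X → ℝ) → X → F
  meas : ∀ {f : X → ℝ}, LocallyLipschitz f → AEStronglyMeasurable (G f) μ
  add : ∀ {f g : X → ℝ}, LocallyLipschitz f → LocallyLipschitz g →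
    ∀ᵐ x ∂μ, G (fun y => f y + g y) x = G f x + G g x
  smul : ∀ (c : ℝ) {f : X → ℝ}, LocallyLipschitz f → ∀ᵐ x ∂μ, G (fun y => c * f y) x = c • G f x
  mul : ∀ {f g : X → ℝ}, LocallyLipschitz f → LocallyLipschitz g →
    ∀ᵐ x ∂μ, G (fun y => f y * g y) x = f x • G g x + g x • G f x
  comp : ∀ {f : X → ℝ} {χ : ℝ → ℝ}, LocallyLipschitz f → ContDiff ℝ 1 χ →
    ∀ᵐ x ∂μ, G (fun y => χ (f y)) x = deriv χ (f x) • G f x
  norm_le : ∀ {f : X → ℝ} {K : ℝ≥0} {U : Set X}, LocallyLipschitz f → IsOpen U →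
    LipschitzOnWith K f U → ∀ᵐ x ∂μ, x ∈ U → ‖G f x‖ ≤ K
  closable : ∀ (f : ℕ → X → ℝ) (g : X → F),
    (∀ k, LocallyLipschitz (f k) ∧ HasCompactSupport (f k)) →
    Tendsto (fun k => eLpNorm (f k) 2 μ) atTop (𝓝 0) → MemLp g 2 μ →
    Tendsto (fun k => eLpNorm (fun x => G (f k) x - g x) 2 μ) atTop (𝓝 0) → g =ᵐ[μ] 0

namespace GradS

variable {X : Type*} [MetricSpace X] [MeasurableSpace X] {F : Type*}
  [NormedAddCommGroup F] [InnerProductSpace ℝ F] {μ : Measure X} (S : GradS X F μ)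

/-- test functions: locally Lipschitz with compact support -/
def IsT (f : X → ℝ) : Prop := LocallyLipschitz f ∧ HasCompactSupport f

/-- carré du champ -/
def Γ (f g : X → ℝ) (x : X) : ℝ := ⟪S.G f x, S.G g x⟫

theorem sub {f g : X → ℝ} (hf : LocallyLipschitz f) (hg : LocallyLipschitz g) :
    ∀ᵐ x ∂μ, S.G (fun y => f y - g y) x = S.G f x - S.G g x := by
  have h1 : LocallyLipschitz (fun y => (-1 : ℝ) * g y) := by
    simpa using (LocallyLipschitz.sub (LocallyLipschitz.const 0) hg)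
  have e : (fun y => f y - g y) = fun y => f y + (-1 : ℝ) * g y := by
    funext y; ring
  rw [e]
  filter_upwards [S.add hf h1, S.smul (-1) hg] with x e1 e2
  rw [e1, e2]
  module

theorem const (c : ℝ) : ∀ᵐ x ∂μ, S.G (fun _ => c) x = 0 := by
  have h1 := S.norm_le (K := 0) (U := univ) (LocallyLipschitz.const c) isOpen_univ
    ((LipschitzWith.const c).lipschitzOnWith)
  filter_upwards [h1] with x hx
  have := hx (mem_univ x)
  simpa using this

/-- locality on open sets -/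
theorem loc {f g : X → ℝ} {U : Set X} (hf : LocallyLipschitz f) (hg : LocallyLipschitz g)
    (hU : IsOpen U) (h : EqOn f g U) : ∀ᵐ x ∂μ, x ∈ U → S.G f x = S.G g x := by
  have h1 : LipschitzOnWith 0 (fun y => f y - g y) U := by
    intro x hx y hy
    simp [h hx, h hy]
  filter_upwards [S.norm_le (hf.sub hg) hU h1, S.sub hf hg] with x e1 e2 hx
  have e3 := e1 hx
  rw [e2] at e3
  have e4 : ‖S.G f x - S.G g x‖ = 0 := le_antisymm (by simpa using e3) (norm_nonneg _)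
  exact sub_eq_zero.1 (norm_eq_zero.1 e4)

theorem zero_of_open {f : X → ℝ} {U : Set X} (hf : LocallyLipschitz f)
    (hU : IsOpen U) (h : ∀ x ∈ U, f x = 0) : ∀ᵐ x ∂μ, x ∈ U → S.G f x = 0 := by
  filter_upwards [S.loc hf (LocallyLipschitz.const (0:ℝ)) hU (fun x hx => h x hx), S.const 0]
    with x e1 e2 hx
  rw [e1 hx, e2]

/-- local bound on compact sets -/
theorem bound_compact {f : X → ℝ} (hf : LocallyLipschitz f) {K : Set X} (hK : IsCompact K) :
    ∃ C : ℝ, 0 ≤ C ∧ ∀ᵐ x ∂μ, x ∈ K → ‖S.G f x‖ ≤ C := by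
  refine hK.induction_on (p := fun s => ∃ C : ℝ, 0 ≤ C ∧ ∀ᵐ x ∂μ, x ∈ s → ‖S.G f x‖ ≤ C) ?_ ?_ ?_ ?_
  · exact ⟨0, le_rfl, Filter.Eventually.of_forall fun x hx => absurd hx (notMem_empty x)⟩
  · rintro s t hst ⟨C, hC0, hC⟩
    exact ⟨C, hC0, hC.mono fun x hx h => hx (hst h)⟩
  · rintro s t ⟨C, hC0, hC⟩ ⟨C', hC0', hC'⟩
    refine ⟨max C C', le_max_of_le_left hC0, ?_⟩
    filter_upwards [hC, hC'] with x h1 h2 hx
    rcases hx with hx | hx
    · exact (h1 hx).trans (le_max_left _ _)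
    · exact (h2 hx).trans (le_max_right _ _)
  · intro x _
    obtain ⟨L, t, ht, hL⟩ := hf x
    refine ⟨interior t, mem_nhdsWithin_of_mem_nhds (interior_mem_nhds.2 ht), L, L.2, ?_⟩
    exact S.norm_le hf isOpen_interior (hL.mono interior_subset)

section Test

variable [BorelSpace X] [IsFiniteMeasureOnCompacts μ]

theorem IsT.memLp {f : X → ℝ} (hf : IsT f) : MemLp f 2 μ :=
  hf.1.continuous.memLp_of_hasCompactSupport hf.2

theorem IsT.memLpG {f : X → ℝ} (hf : IsT f) : MemLp (S.G f) 2 μ := by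
  obtain ⟨C, hC0, hC⟩ := S.bound_compact hf.1 hf.2.isCompact
  have h0 := S.zero_of_open hf.1 (isClosed_tsupport f).isOpen_compl
    (fun x hx => image_eq_zero_of_notMem_tsupport hx)
  have h1 : MemLp ((tsupport f).indicator fun _ => C) 2 μ :=
    memLp_indicator_const 2 (isClosed_tsupport f).measurableSet C
      (Or.inr hf.2.isCompact.measure_lt_top.ne)
  refine h1.mono (S.meas hf.1) ?_
  filter_upwards [hC, h0] with x e1 e2
  by_cases hx : x ∈ tsupport f
  · rw [indicator_of_mem hx, Real.norm_of_nonneg hC0]; exact e1 hx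
  · rw [indicator_of_notMem hx, e2 hx]; simp

end Test

theorem IsT.add {f g : X → ℝ} (hf : IsT f) (hg : IsT g) : IsT fun y => f y + g y :=
  ⟨hf.1.add hg.1, hf.2.add hg.2⟩

theorem locLip_mul {f g : X → ℝ} (hf : LocallyLipschitz f) (hg : LocallyLipschitz g) :
    LocallyLipschitz fun y => f y * g y := by
  have h : LocallyLipschitz (fun p : ℝ × ℝ => p.1 * p.2) :=
    (contDiff_fst.mul contDiff_snd : ContDiff ℝ 1 fun p : ℝ × ℝ => p.1 * p.2).locallyLipschitz
  exact h.comp (hf.prodMk hg)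

theorem IsT.smul {f : X → ℝ} (c : ℝ) (hf : IsT f) : IsT fun y => c * f y :=
  ⟨locLip_mul (LocallyLipschitz.const c) hf.1, hf.2.mul_left⟩

theorem IsT.mul {f g : X → ℝ} (hf : IsT f) (hg : LocallyLipschitz g) : IsT fun y => f y * g y :=
  ⟨locLip_mul hf.1 hg, hf.2.mul_right⟩

theorem IsT.mul' {f g : X → ℝ} (hf : LocallyLipschitz f) (hg : IsT g) : IsT fun y => f y * g y :=
  ⟨locLip_mul hf hg.1, hg.2.mul_left⟩

theorem IsT.zero : IsT (fun _ : X => (0:ℝ)) := ⟨LocallyLipschitz.const 0, HasCompactSupport.zero⟩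

theorem IsT.sub {f g : X → ℝ} (hf : IsT f) (hg : IsT g) : IsT fun y => f y - g y := by
  have := hf.add (hg.smul (-1))
  convert this using 2
  ring

theorem IsT.comp {f : X → ℝ} (hf : IsT f) {χ : ℝ → ℝ} (hχ : LocallyLipschitz χ) (h0 : χ 0 = 0) :
    IsT fun y => χ (f y) :=
  ⟨hχ.comp hf.1, hf.2.comp_left h0⟩

/-! ### the closed gradient -/

section Closed

variable [BorelSpace X] [IsFiniteMeasureOnCompacts μ]

/-- graph of the gradient on test functions -/
def graph : Submodule ℝ (Lp ℝ 2 μ × Lp F 2 μ) where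
  carrier := {p | ∃ f, IsT f ∧ (p.1 : X → ℝ) =ᵐ[μ] f ∧ (p.2 : X → F) =ᵐ[μ] S.G f}
  zero_mem' := by
    refine ⟨fun _ => 0, IsT.zero, Lp.coeFn_zero _ _ _, ?_⟩
    filter_upwards [Lp.coeFn_zero F 2 μ, S.const 0] with x h1 h2
    rw [h2]; exact h1
  add_mem' := by
    rintro ⟨u, U⟩ ⟨v, V⟩ ⟨f, hf, h1, h2⟩ ⟨g, hg, h3, h4⟩
    refine ⟨_, hf.add hg, ?_, ?_⟩
    · filter_upwards [Lp.coeFn_add u v, h1, h3] with x e1 e2 e3
      simp only [Prod.mk_add_mk, e1, Pi.add_apply, e2, e3]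
    · filter_upwards [Lp.coeFn_add U V, h2, h4, S.add hf.1 hg.1] with x e1 e2 e3 e4
      simp only [Prod.mk_add_mk, e1, Pi.add_apply, e2, e3, e4]
  smul_mem' := by
    rintro c ⟨u, U⟩ ⟨f, hf, h1, h2⟩
    refine ⟨_, hf.smul c, ?_, ?_⟩
    · filter_upwards [Lp.coeFn_smul c u, h1] with x e1 e2
      simp only [Prod.smul_mk, e1, Pi.smul_apply, e2, smul_eq_mul]
    · filter_upwards [Lp.coeFn_smul c U, h2, S.smul c hf.1] with x e1 e2 e3
      simp only [Prod.smul_mk, e1, Pi.smul_apply, e2, e3]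

/-- closure of the graph -/
def graphC : Submodule ℝ (Lp ℝ 2 μ × Lp F 2 μ) := S.graph.topologicalClosure

theorem isClosed_graphC : IsClosed (S.graphC : Set (Lp ℝ 2 μ × Lp F 2 μ)) :=
  Submodule.isClosed_topologicalClosure _

theorem mem_graph {f : X → ℝ} (hf : IsT f) :
    ((hf.memLp.toLp f, (hf.memLpG S).toLp (S.G f)) : Lp ℝ 2 μ × Lp F 2 μ) ∈ S.graph :=
  ⟨f, hf, MemLp.coeFn_toLp hf.memLp, MemLp.coeFn_toLp (hf.memLpG S)⟩

/-- sequences of test functions approximating an element of the closed graph -/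
theorem mem_graphC_iff {p : Lp ℝ 2 μ × Lp F 2 μ} : p ∈ S.graphC ↔
    ∃ (f : ℕ → X → ℝ) (hf : ∀ k, IsT (f k)),
      Tendsto (fun k => (hf k).memLp.toLp (f k)) atTop (𝓝 p.1) ∧
      Tendsto (fun k => ((hf k).memLpG S).toLp (S.G (f k))) atTop (𝓝 p.2) := by
  constructor
  · intro hp
    obtain ⟨q, hq, hqt⟩ := mem_closure_iff_seq_limit.1
      (show p ∈ closure (S.graph : Set (Lp ℝ 2 μ × Lp F 2 μ)) from hp)
    choose f hf h1 h2 using hq
    refine ⟨f, hf, ?_, ?_⟩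
    · have e : (fun k => (hf k).memLp.toLp (f k)) = fun k => (q k).1 := by
        funext k
        ext1
        exact (MemLp.coeFn_toLp (hf k).memLp).trans (h1 k).symm
      rw [e]
      exact (continuous_fst.tendsto _).comp hqt
    · have e : (fun k => ((hf k).memLpG S).toLp (S.G (f k))) = fun k => (q k).2 := by
        funext k
        ext1
        exact (MemLp.coeFn_toLp ((hf k).memLpG S)).trans (h2 k).symm
      rw [e]
      exact (continuous_snd.tendsto _).comp hqt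
  · rintro ⟨f, hf, h1, h2⟩
    refine mem_closure_of_tendsto (h1.prodMk_nhds h2) (Filter.Eventually.of_forall fun k => ?_)
    exact S.mem_graph (hf k)

theorem graphC_zero {g : Lp F 2 μ} (h : ((0 : Lp ℝ 2 μ), g) ∈ S.graphC) : g = 0 := by
  obtain ⟨f, hf, h1, h2⟩ := (S.mem_graphC_iff).1 h
  have h3 := S.closable f g hf ?_ (Lp.memLp g) ?_
  · ext1
    exact h3.trans (Lp.coeFn_zero _ _ _).symm
  · have := (tendsto_iff_norm_sub_tendsto_zero.1 h1)
    simp only [sub_zero] at this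
    have e : (fun k => eLpNorm (f k) 2 μ) = fun k => ENNReal.ofReal ‖((hf k).memLp.toLp (f k) : Lp ℝ 2 μ)‖ := by
      funext k
      rw [Lp.norm_toLp, ENNReal.ofReal_toReal (hf k).memLp.2.ne]
    rw [e]
    simpa using ENNReal.tendsto_ofReal this
  · have := (tendsto_iff_norm_sub_tendsto_zero.1 h2)
    have e : (fun k => eLpNorm (fun x => S.G (f k) x - g x) 2 μ) =
        fun k => ENNReal.ofReal ‖((hf k).memLpG S).toLp (S.G (f k)) - g‖ := by
      funext k
      rw [Lp.norm_def, ENNReal.ofReal_toReal (Lp.eLpNorm_lt_top _).ne]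
      refine eLpNorm_congr_ae ?_
      filter_upwards [Lp.coeFn_sub (((hf k).memLpG S).toLp (S.G (f k))) g,
        MemLp.coeFn_toLp ((hf k).memLpG S)] with x e1 e2
      rw [e1, Pi.sub_apply, e2]
    rw [e]
    simpa using ENNReal.tendsto_ofReal this

/-- the space `W^{1,2}_0` -/
def V : Submodule ℝ (Lp ℝ 2 μ) := S.graphC.map (LinearMap.fst ℝ (Lp ℝ 2 μ) (Lp F 2 μ))

theorem mem_V {u : Lp ℝ 2 μ} : u ∈ S.V ↔ ∃ g : Lp F 2 μ, (u, g) ∈ S.graphC := by
  constructor
  · rintro ⟨⟨u', g⟩, hp, rfl⟩; exact ⟨g, hp⟩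
  · rintro ⟨g, hg⟩; exact ⟨(u, g), hg, rfl⟩

/-- the closed gradient (zero off `V`) -/
def D (u : Lp ℝ 2 μ) : Lp F 2 μ :=
  open Classical in
  if h : ∃ g : Lp F 2 μ, (u, g) ∈ S.graphC then Classical.choose h else 0

theorem D_mem {u : Lp ℝ 2 μ} (hu : u ∈ S.V) : (u, S.D u) ∈ S.graphC := by
  have h := S.mem_V.1 hu
  unfold D
  rw [dif_pos h]
  exact Classical.choose_spec h

theorem D_eq {u : Lp ℝ 2 μ} {g : Lp F 2 μ} (h : (u, g) ∈ S.graphC) : S.D u = g := by
  have hu : u ∈ S.V := S.mem_V.2 ⟨g, h⟩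
  have h1 := S.graphC.sub_mem (S.D_mem hu) h
  rw [Prod.mk_sub_mk, sub_self] at h1
  exact sub_eq_zero.1 (S.graphC_zero h1)

theorem mem_graphC {u : Lp ℝ 2 μ} {g : Lp F 2 μ} : (u, g) ∈ S.graphC ↔ u ∈ S.V ∧ S.D u = g :=
  ⟨fun h => ⟨S.mem_V.2 ⟨g, h⟩, S.D_eq h⟩, fun h => h.2 ▸ S.D_mem h.1⟩

theorem D_add {u v : Lp ℝ 2 μ} (hu : u ∈ S.V) (hv : v ∈ S.V) : S.D (u + v) = S.D u + S.D v :=
  S.D_eq (by simpa using S.graphC.add_mem (S.D_mem hu) (S.D_mem hv))

theorem D_smul (c : ℝ) {u : Lp ℝ 2 μ} (hu : u ∈ S.V) : S.D (c • u) = c • S.D u :=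
  S.D_eq (by simpa using S.graphC.smul_mem c (S.D_mem hu))

theorem D_zero : S.D 0 = 0 := S.D_eq S.graphC.zero_mem

theorem D_neg {u : Lp ℝ 2 μ} (hu : u ∈ S.V) : S.D (-u) = -S.D u :=
  S.D_eq (by simpa using S.graphC.neg_mem (S.D_mem hu))

theorem D_sub {u v : Lp ℝ 2 μ} (hu : u ∈ S.V) (hv : v ∈ S.V) : S.D (u - v) = S.D u - S.D v :=
  S.D_eq (by simpa using S.graphC.sub_mem (S.D_mem hu) (S.D_mem hv))

/-- closedness of the gradient -/
theorem D_closed {u : ℕ → Lp ℝ 2 μ} {w : Lp ℝ 2 μ} {g : Lp F 2 μ} (hu : ∀ k, u k ∈ S.V)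
    (h1 : Tendsto u atTop (𝓝 w)) (h2 : Tendsto (fun k => S.D (u k)) atTop (𝓝 g)) :
    w ∈ S.V ∧ S.D w = g :=
  S.mem_graphC.1 (S.isClosed_graphC.mem_of_tendsto (h1.prodMk_nhds h2)
    (Filter.Eventually.of_forall fun k => S.D_mem (hu k)))

/-- the class of a test function -/
def tL {f : X → ℝ} (hf : IsT f) : Lp ℝ 2 μ := hf.memLp.toLp f

theorem coe_tL {f : X → ℝ} (hf : IsT f) : (tL hf : Lp ℝ 2 μ) =ᵐ[μ] f := MemLp.coeFn_toLp _

theorem tL_mem {f : X → ℝ} (hf : IsT f) : (tL hf : Lp ℝ 2 μ) ∈ S.V :=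
  S.mem_V.2 ⟨_, S.graph.le_topologicalClosure (S.mem_graph hf)⟩

theorem D_tL {f : X → ℝ} (hf : IsT f) : (S.D (tL hf) : X → F) =ᵐ[μ] S.G f := by
  have h : S.D (tL hf) = (hf.memLpG S).toLp (S.G f) :=
    S.D_eq (S.graph.le_topologicalClosure (S.mem_graph hf))
  rw [h]
  exact MemLp.coeFn_toLp _

/-- density of test functions in `V` -/
theorem exists_seq {u : Lp ℝ 2 μ} (hu : u ∈ S.V) : ∃ (f : ℕ → X → ℝ) (hf : ∀ k, IsT (f k)),
    Tendsto (fun k => (tL (hf k) : Lp ℝ 2 μ)) atTop (𝓝 u) ∧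
      Tendsto (fun k => S.D (tL (hf k))) atTop (𝓝 (S.D u)) := by
  obtain ⟨f, hf, h1, h2⟩ := S.mem_graphC_iff.1 (S.D_mem hu)
  refine ⟨f, hf, h1, ?_⟩
  have e : (fun k => S.D (tL (hf k))) = fun k => ((hf k).memLpG S).toLp (S.G (f k)) := by
    funext k
    exact S.D_eq (S.graph.le_topologicalClosure (S.mem_graph (hf k)))
  rw [e]
  exact h2

/-- weak closedness: bounded gradients -/
theorem weak_closed [CompleteSpace F] {u : ℕ → Lp ℝ 2 μ} {w : Lp ℝ 2 μ} {C : ℝ}
    (hu : ∀ k, u k ∈ S.V) (h1 : Tendsto u atTop (𝓝 w)) (h2 : ∀ k, ‖S.D (u k)‖ ≤ C) :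
    w ∈ S.V ∧ ‖S.D w‖ ≤ C ∧ ∀ g : Lp F 2 μ, ∀ a : ℝ, (∀ᶠ k in atTop, ⟪S.D (u k), g⟫ ≤ a) →
      ⟪S.D w, g⟫ ≤ a := by
  have hC0 : 0 ≤ C := (norm_nonneg _).trans (h2 0)
  let U : Ultrafilter ℕ := Filter.hyperfilter ℕ
  have hU : (U : Filter ℕ) ≤ atTop := Nat.hyperfilter_le_atTop
  -- the weak limit along the ultrafilter
  have hlim : ∀ g : Lp F 2 μ, ∃ a : ℝ, Tendsto (fun k => (⟪S.D (u k), g⟫ : ℝ)) U (𝓝 a) ∧
      |a| ≤ C * ‖g‖ := by
    intro g
    have hb : ∀ k, (⟪S.D (u k), g⟫ : ℝ) ∈ Icc (-(C * ‖g‖)) (C * ‖g‖) := fun k => by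
      have := abs_le.1 ((abs_real_inner_le_norm (S.D (u k)) g).trans
        (mul_le_mul_of_nonneg_right (h2 k) (norm_nonneg g)))
      exact ⟨this.1, this.2⟩
    obtain ⟨a, ha, hle⟩ := (isCompact_Icc (a := -(C * ‖g‖)) (b := C * ‖g‖)).ultrafilter_le_nhds
      (U.map fun k => (⟪S.D (u k), g⟫ : ℝ)) (by
        rw [Ultrafilter.coe_map]
        exact le_principal_iff.2 (Filter.mem_map.2 (Filter.univ_mem' hb)))
    exact ⟨a, by rwa [Ultrafilter.coe_map] at hle, abs_le.2 ha⟩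
  choose φ hφ hφb using hlim
  have hadd : ∀ g g', φ (g + g') = φ g + φ g' := fun g g' => by
    refine tendsto_nhds_unique (hφ (g + g')) ?_
    have := (hφ g).add (hφ g')
    refine this.congr fun k => ?_
    rw [inner_add_right]
  have hsm : ∀ (c : ℝ) g, φ (c • g) = c * φ g := fun c g => by
    refine tendsto_nhds_unique (hφ (c • g)) ?_
    have := (hφ g).const_mul c
    refine this.congr fun k => ?_
    rw [real_inner_smul_right]
  let L : Lp F 2 μ →L[ℝ] ℝ := LinearMap.mkContinuous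
    { toFun := φ, map_add' := hadd, map_smul' := fun c g => by simpa using hsm c g } C
    (fun g => by rw [Real.norm_eq_abs]; exact hφb g)
  set v : Lp F 2 μ := (InnerProductSpace.toDual ℝ (Lp F 2 μ)).symm L with hv
  have hvg : ∀ g, (⟪v, g⟫ : ℝ) = φ g := fun g => by
    rw [hv, InnerProductSpace.toDual_symm_apply]; rfl
  have hvn : ‖v‖ ≤ C := by
    rw [hv, LinearIsometryEquiv.norm_map]
    exact LinearMap.mkContinuous_norm_le _ hC0 _
  -- `(w, v)` is in the closed graph, by Hahn–Banach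
  have hmem : (w, v) ∈ S.graphC := by
    by_contra hcon
    obtain ⟨f, a, hf1, hf2⟩ :=
      geometric_hahn_banach_closed_point S.graphC.convex S.isClosed_graphC hcon
    have ha : 0 < a := by simpa using hf1 0 S.graphC.zero_mem
    have hf0 : ∀ p ∈ S.graphC, f p = 0 := by
      intro p hp
      by_contra h0
      have h3 := hf1 (((a + 1) / f p) • p) (S.graphC.smul_mem _ hp)
      rw [map_smul, smul_eq_mul, div_mul_cancel₀ _ h0] at h3
      linarith
    set b : Lp F 2 μ := (InnerProductSpace.toDual ℝ (Lp F 2 μ)).symm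
      (f.comp (ContinuousLinearMap.inr ℝ (Lp ℝ 2 μ) (Lp F 2 μ))) with hb
    have hbg : ∀ g, (⟪b, g⟫ : ℝ) = f (0, g) := fun g => by
      rw [hb, InnerProductSpace.toDual_symm_apply]; rfl
    have h3 : Tendsto (fun k => f (u k, S.D (u k))) U (𝓝 (f (w, v))) := by
      have e1 : ∀ (x : Lp ℝ 2 μ) (y : Lp F 2 μ), f (x, y) = f (x, 0) + ⟪y, b⟫ := by
        intro x y
        rw [real_inner_comm, hbg, ← map_add]
        simp
      have e2 : f (w, v) = f (w, 0) + φ b := by rw [e1, hvg]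
      rw [e2]
      have e3 : (fun k => f (u k, S.D (u k))) = fun k => f (u k, 0) + ⟪S.D (u k), b⟫ := by
        funext k; exact e1 _ _
      rw [e3]
      refine Tendsto.add ?_ (hφ b)
      exact ((f.continuous.tendsto _).comp ((h1.prodMk_nhds tendsto_const_nhds))).mono_left hU
    have h4 : Tendsto (fun k => f (u k, S.D (u k))) U (𝓝 0) := by
      have e3 : (fun k => f (u k, S.D (u k))) = fun _ => (0:ℝ) := by
        funext k; exact hf0 _ (S.D_mem (hu k))
      rw [e3]; exact tendsto_const_nhds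
    have h5 := tendsto_nhds_unique h3 h4
    rw [h5] at hf2
    linarith
  obtain ⟨hw, hD⟩ := S.mem_graphC.1 hmem
  refine ⟨hw, by rw [hD]; exact hvn, fun g a ha => ?_⟩
  rw [hD, hvg]
  exact le_of_tendsto (hφ g) (ha.filter_mono hU)

end Closed

end GradS

end Crest.Agent.R247.Dir593
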