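import Crest.Agent.R247.Dir0_593

/-!
R247, block (5) abstract half (helper593): calculus in `V`: chain rule, truncation, products,
bounded approximation, the Markov form.
-/

set_option autoImplicit false
set_option linter.unusedSectionVars false

open MeasureTheory Filter Topology Set
open scoped RealInnerProductSpace ENNReal NNReal

noncomputable section

namespace Crest.Agent.R247.Dir593

open Crest.Agent.R242

section L2

variable {X : Type*} [MeasurableSpace X] {μ : Measure X} {E : Type*} [NormedAddCommGroup E]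
  [InnerProductSpace ℝ E]

theorem normSq (f : Lp E 2 μ) : ‖f‖ ^ 2 = ∫ x, ‖f x‖ ^ 2 ∂μ := by
  rw [← real_inner_self_eq_norm_sq, L2.inner_def]
  refine integral_congr_ae (Filter.Eventually.of_forall fun x => ?_)
  simp only [real_inner_self_eq_norm_sq]

theorem integrable_normSq (f : Lp E 2 μ) : Integrable (fun x => ‖f x‖ ^ 2) μ :=
  (Lp.memLp f).integrable_norm_pow (by norm_num)

theorem tendsto_dom {H : ℕ → Lp E 2 μ} {H' : Lp E 2 μ} {b : X → ℝ} (hb : MemLp b 2 μ)
    (h1 : ∀ k, ∀ᵐ x ∂μ, ‖H k x - H' x‖ ≤ b x)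
    (h2 : ∀ᵐ x ∂μ, Tendsto (fun k => H k x) atTop (𝓝 (H' x))) : Tendsto H atTop (𝓝 H') := by
  rw [tendsto_iff_norm_sub_tendsto_zero]
  have h3 : Tendsto (fun k => ∫ x, ‖(H k - H' : Lp E 2 μ) x‖ ^ 2 ∂μ) atTop (𝓝 (∫ _, (0:ℝ) ∂μ)) := by
    refine tendsto_integral_of_dominated_convergence (fun x => b x ^ 2) (fun k => ?_) ?_
      (fun k => ?_) ?_
    · exact ((Lp.aestronglyMeasurable _).norm.pow 2)
    · exact hb.integrable_sq
    · filter_upwards [h1 k, Lp.coeFn_sub (H k) H'] with x e1 e2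
      rw [e2, Pi.sub_apply, Real.norm_of_nonneg (sq_nonneg _)]
      exact pow_le_pow_left₀ (norm_nonneg _) e1 2
    · have h4 : ∀ᵐ x ∂μ, ∀ k, (H k - H' : Lp E 2 μ) x = H k x - H' x :=
        ae_all_iff.2 fun k => Lp.coeFn_sub (H k) H'
      filter_upwards [h2, h4] with x e1 e2
      simp only [e2]
      have := ((tendsto_iff_norm_sub_tendsto_zero.1 e1).pow 2)
      simpa using this
  simp only [integral_zero] at h3
  have h5 : (fun k => ‖H k - H'‖) = fun k => Real.sqrt (∫ x, ‖(H k - H' : Lp E 2 μ) x‖ ^ 2 ∂μ) := by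
    funext k
    rw [← normSq, Real.sqrt_sq (norm_nonneg _)]
  rw [h5]
  simpa using h3.sqrt

/-- norm domination -/
theorem norm_le_of_ae {E' : Type*} [NormedAddCommGroup E'] {f : Lp E 2 μ} {g : Lp E' 2 μ} {C : ℝ}
    (hC : 0 ≤ C) (h : ∀ᵐ x ∂μ, ‖f x‖ ≤ C * ‖g x‖) : ‖f‖ ≤ C * ‖g‖ := by
  rw [Lp.norm_def, Lp.norm_def, ← ENNReal.toReal_ofReal hC, ← ENNReal.toReal_mul]
  refine ENNReal.toReal_mono (ENNReal.mul_ne_top ENNReal.ofReal_ne_top (Lp.eLpNorm_ne_top _)) ?_
  exact eLpNorm_le_mul_eLpNorm_of_ae_le_mul h 2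

/-- multiplication by a bounded function -/
theorem memLp_smul {a : X → ℝ} {C : ℝ} (ha : AEStronglyMeasurable a μ)
    (hb : ∀ᵐ x ∂μ, |a x| ≤ C) (g : Lp E 2 μ) : MemLp (fun x => a x • g x) 2 μ := by
  refine (Lp.memLp g).of_le_mul (c := C) (ha.smul (Lp.aestronglyMeasurable g)) ?_
  filter_upwards [hb] with x hx
  rw [norm_smul, Real.norm_eq_abs]
  exact mul_le_mul_of_nonneg_right hx (norm_nonneg _)

/-- product of a bounded a.e. convergent sequence and an `L²`-convergent one -/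
theorem smul_tendsto {a : ℕ → X → ℝ} {a' : X → ℝ} {C : ℝ} (hC0 : 0 ≤ C)
    (ham : ∀ k, AEStronglyMeasurable (a k) μ) (hb : ∀ k, ∀ᵐ x ∂μ, |a k x| ≤ C)
    {g : ℕ → Lp E 2 μ} {g' : Lp E 2 μ} (hg : Tendsto g atTop (𝓝 g'))
    (hlim : ∀ᵐ x ∂μ, g' x = 0 ∨ Tendsto (fun k => a k x) atTop (𝓝 (a' x)))
    {H : ℕ → Lp E 2 μ} {H' : Lp E 2 μ} (hH : ∀ k, (H k : X → E) =ᵐ[μ] fun x => a k x • g k x)
    (hH' : (H' : X → E) =ᵐ[μ] fun x => a' x • g' x) : Tendsto H atTop (𝓝 H') := by
  set J : ℕ → Lp E 2 μ := fun k => (memLp_smul (ham k) (hb k) g').toLp _ with hJ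
  have hJc : ∀ k, (J k : X → E) =ᵐ[μ] fun x => a k x • g' x := fun k => MemLp.coeFn_toLp _
  have h1 : Tendsto J atTop (𝓝 H') := by
    refine tendsto_dom (b := fun x => 2 * C * ‖g' x‖) ((Lp.memLp g').norm.const_mul (2 * C))
      (fun k => ?_) ?_
    · have hba : ∀ᵐ x ∂μ, ∀ k, |a k x| ≤ C := ae_all_iff.2 hb
      filter_upwards [hJc k, hH', hlim, hba] with x e1 e2 e3 e4
      rw [e1, e2, ← sub_smul, norm_smul]
      rcases e3 with e3 | e3
      · rw [e3]; simp
      · have h5 : |a' x| ≤ C := le_of_tendsto' e3.abs e4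
        refine mul_le_mul_of_nonneg_right ?_ (norm_nonneg _)
        rw [Real.norm_eq_abs]
        have := abs_sub (a k x) (a' x)
        linarith [e4 k]
    · have hJa : ∀ᵐ x ∂μ, ∀ k, J k x = a k x • g' x := ae_all_iff.2 hJc
      filter_upwards [hJa, hH', hlim] with x e1 e2 e3
      simp only [e1, e2]
      rcases e3 with e3 | e3
      · rw [e3]; simp
      · exact e3.smul_const _
  have h2 : Tendsto (fun k => ‖H k - J k‖) atTop (𝓝 0) := by
    have h3 : ∀ k, ‖H k - J k‖ ≤ C * ‖g k - g'‖ := fun k => by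
      refine norm_le_of_ae hC0 ?_
      filter_upwards [Lp.coeFn_sub (H k) (J k), Lp.coeFn_sub (g k) g', hH k, hJc k, hb k]
        with x e1 e2 e3 e4 e5
      rw [e1, e2, Pi.sub_apply, Pi.sub_apply, e3, e4, ← smul_sub, norm_smul, Real.norm_eq_abs]
      exact mul_le_mul_of_nonneg_right e5 (norm_nonneg _)
    refine squeeze_zero (fun _ => norm_nonneg _) h3 ?_
    simpa using (tendsto_iff_norm_sub_tendsto_zero.1 hg).const_mul C
  have h4 : Tendsto (fun k => H k - J k) atTop (𝓝 0) := tendsto_zero_iff_norm_tendsto_zero.2 h2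
  have := h4.add h1
  simpa using this

/-- a.e. convergent subsequence for two sequences -/
theorem exists_subseq_ae {E' : Type*} [NormedAddCommGroup E']
    {f : ℕ → Lp E 2 μ} {f' : Lp E 2 μ} (hf : Tendsto f atTop (𝓝 f'))
    {g : ℕ → Lp E' 2 μ} {g' : Lp E' 2 μ} (hg : Tendsto g atTop (𝓝 g')) :
    ∃ ns : ℕ → ℕ, StrictMono ns ∧ (∀ᵐ x ∂μ, Tendsto (fun k => f (ns k) x) atTop (𝓝 (f' x))) ∧
      ∀ᵐ x ∂μ, Tendsto (fun k => g (ns k) x) atTop (𝓝 (g' x)) := by
  obtain ⟨n1, hn1, h1⟩ := (tendstoInMeasure_of_tendsto_Lp hf).exists_seq_tendsto_ae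
  obtain ⟨n2, hn2, h2⟩ :=
    (tendstoInMeasure_of_tendsto_Lp (hg.comp hn1.tendsto_atTop)).exists_seq_tendsto_ae
  refine ⟨n1 ∘ n2, hn1.comp hn2, ?_, ?_⟩
  · filter_upwards [h1] with x hx
    exact hx.comp hn2.tendsto_atTop
  · filter_upwards [h2] with x hx
    exact hx

end L2

namespace GradS

variable {X : Type*} [MetricSpace X] [MeasurableSpace X] {F : Type*}
  [NormedAddCommGroup F] [InnerProductSpace ℝ F] {μ : Measure X} (S : GradS X F μ)
  [BorelSpace X] [IsFiniteMeasureOnCompacts μ]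

/-- density of test functions in `V`, with a.e. convergence -/
theorem exists_seq_ae {u : Lp ℝ 2 μ} (hu : u ∈ S.V) : ∃ (f : ℕ → X → ℝ) (hf : ∀ k, IsT (f k)),
    Tendsto (fun k => (tL (hf k) : Lp ℝ 2 μ)) atTop (𝓝 u) ∧
      Tendsto (fun k => S.D (tL (hf k))) atTop (𝓝 (S.D u)) ∧
      (∀ᵐ x ∂μ, Tendsto (fun k => f k x) atTop (𝓝 (u x))) ∧
      ∀ᵐ x ∂μ, Tendsto (fun k => S.G (f k) x) atTop (𝓝 (S.D u x)) := by
  obtain ⟨f, hf, h1, h2⟩ := S.exists_seq hu
  obtain ⟨ns, hns, h3, h4⟩ := exists_subseq_ae h1 h2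
  refine ⟨fun k => f (ns k), fun k => hf (ns k), h1.comp hns.tendsto_atTop,
    h2.comp hns.tendsto_atTop, ?_, ?_⟩
  · have h5 : ∀ᵐ x ∂μ, ∀ k, (tL (hf k) : Lp ℝ 2 μ) x = f k x :=
      ae_all_iff.2 fun k => coe_tL (hf k)
    filter_upwards [h3, h5] with x e1 e2
    simpa only [e2] using e1
  · have h5 : ∀ᵐ x ∂μ, ∀ k, S.D (tL (hf k)) x = S.G (f k) x :=
      ae_all_iff.2 fun k => S.D_tL (hf k)
    filter_upwards [h4, h5] with x e1 e2
    simpa only [e2] using e1

/-! ### chain rule -/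

/-- `(χ, φ)` is a chain rule pair: `D (χ ∘ u) = φ(u) D u` for every `u ∈ V`. -/
def Chain (χ φ : ℝ → ℝ) : Prop :=
  ∀ u ∈ S.V, ∀ w : Lp ℝ 2 μ, ((w : X → ℝ) =ᵐ[μ] fun x => χ (u x)) →
    w ∈ S.V ∧ (S.D w : X → F) =ᵐ[μ] fun x => φ (u x) • S.D u x

theorem lip_of_deriv {χ : ℝ → ℝ} (hχ : ContDiff ℝ 1 χ) {C : ℝ}
    (hb : ∀ s, |deriv χ s| ≤ C) (s t : ℝ) : |χ s - χ t| ≤ C * |s - t| := by
  have h := Convex.norm_image_sub_le_of_norm_deriv_le (f := χ) (s := univ) (C := C) (x := t) (y := s)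
    (fun x _ => (hχ.differentiable (by norm_num)).differentiableAt)
    (fun x _ => by rw [Real.norm_eq_abs]; exact hb x) convex_univ (mem_univ _) (mem_univ _)
  simpa [Real.norm_eq_abs] using h

theorem chain_C1 {χ : ℝ → ℝ} (hχ : ContDiff ℝ 1 χ) {C : ℝ} (hC : 0 ≤ C)
    (hb : ∀ s, |deriv χ s| ≤ C) (h0 : χ 0 = 0) : S.Chain χ (deriv χ) := by
  intro u hu w hw
  obtain ⟨f, hf, h1, h2, h3, h4⟩ := S.exists_seq_ae hu
  have hlip := lip_of_deriv hχ hb
  have hT : ∀ k, IsT (fun y => χ (f k y)) := fun k => (hf k).comp hχ.locallyLipschitz h0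
  have hdc : Continuous (deriv χ) := hχ.continuous_deriv le_rfl
  -- the candidate gradient
  have hm : ∀ v : Lp ℝ 2 μ, AEStronglyMeasurable (fun x => deriv χ (v x)) μ := fun v =>
    hdc.comp_aestronglyMeasurable (Lp.aestronglyMeasurable v)
  set g : Lp F 2 μ := (memLp_smul (hm u) (Filter.Eventually.of_forall fun x => hb (u x))
    (S.D u)).toLp _ with hg
  have hgc : (g : X → F) =ᵐ[μ] fun x => deriv χ (u x) • S.D u x := MemLp.coeFn_toLp _
  have e1 : Tendsto (fun k => (tL (hT k) : Lp ℝ 2 μ)) atTop (𝓝 w) := by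
    rw [tendsto_iff_norm_sub_tendsto_zero]
    refine squeeze_zero (fun _ => norm_nonneg _) (g := fun k => C * ‖(tL (hf k) : Lp ℝ 2 μ) - u‖)
      (fun k => ?_) ?_
    · refine norm_le_of_ae hC ?_
      filter_upwards [Lp.coeFn_sub (tL (hT k) : Lp ℝ 2 μ) w, Lp.coeFn_sub (tL (hf k) : Lp ℝ 2 μ) u,
        coe_tL (μ := μ) (hT k), coe_tL (μ := μ) (hf k), hw] with x a1 a2 a3 a4 a5
      rw [a1, a2, Pi.sub_apply, Pi.sub_apply, a3, a4, a5, Real.norm_eq_abs, Real.norm_eq_abs]
      exact hlip _ _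
    · simpa using (tendsto_iff_norm_sub_tendsto_zero.1 h1).const_mul C
  have e2 : Tendsto (fun k => S.D (tL (hT k))) atTop (𝓝 g) := by
    refine smul_tendsto (a := fun k x => deriv χ (f k x)) (a' := fun x => deriv χ (u x)) hC
      (fun k => ?_) (fun k => Filter.Eventually.of_forall fun x => hb _) h2 ?_ (fun k => ?_) hgc
    · exact (hdc.comp (hf k).1.continuous).aestronglyMeasurable
    · filter_upwards [h3] with x hx
      exact Or.inr ((hdc.tendsto _).comp hx)
    · filter_upwards [S.D_tL (hT k), S.D_tL (hf k), S.comp (hf k).1 hχ] with x a1 a2 a3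
      rw [a1, a2, a3]
  obtain ⟨hwV, hD⟩ := S.D_closed (fun k => S.tL_mem (hT k)) e1 e2
  exact ⟨hwV, by rw [hD]; exact hgc⟩

/-- bounded pointwise limits of chain rule pairs -/
theorem Chain.lim {χ φ : ℕ → ℝ → ℝ} {χ' φ' : ℝ → ℝ} {C : ℝ} (hC : 0 ≤ C)
    (h : ∀ k, S.Chain (χ k) (φ k)) (hφm : ∀ k, Measurable (φ k))
    (hχb : ∀ k s, |χ k s| ≤ C * |s|) (hφb : ∀ k s, |φ k s| ≤ C) (hχm : ∀ k, Measurable (χ k))
    (hχ : ∀ s, Tendsto (fun k => χ k s) atTop (𝓝 (χ' s)))
    (hφ : ∀ s, Tendsto (fun k => φ k s) atTop (𝓝 (φ' s))) : S.Chain χ' φ' := by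
  intro u hu w hw
  have hum : AEMeasurable u μ := (Lp.aestronglyMeasurable u).aemeasurable
  have hmem : ∀ k, MemLp (fun x => χ k (u x)) 2 μ := fun k => by
    refine (Lp.memLp u).of_le_mul (c := C) ((hχm k).comp_aemeasurable hum).aestronglyMeasurable
      (Filter.Eventually.of_forall fun x => ?_)
    rw [Real.norm_eq_abs, Real.norm_eq_abs]
    exact hχb k _
  set v : ℕ → Lp ℝ 2 μ := fun k => (hmem k).toLp _ with hv
  have hvc : ∀ k, (v k : X → ℝ) =ᵐ[μ] fun x => χ k (u x) := fun k => MemLp.coeFn_toLp _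
  have hva : ∀ᵐ x ∂μ, ∀ k, v k x = χ k (u x) := ae_all_iff.2 hvc
  have hφm' : Measurable φ' := measurable_of_tendsto_metrizable hφm (tendsto_pi_nhds.2 hφ)
  have hφb' : ∀ s, |φ' s| ≤ C := fun s => le_of_tendsto' (hφ s).abs fun k => hφb k s
  have hχb' : ∀ s, |χ' s| ≤ C * |s| := fun s => le_of_tendsto' (hχ s).abs fun k => hχb k s
  set g : Lp F 2 μ := (memLp_smul (a := fun x => φ' (u x))
    (hφm'.comp_aemeasurable hum).aestronglyMeasurable
    (Filter.Eventually.of_forall fun x => hφb' (u x)) (S.D u)).toLp _ with hg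
  have hgc : (g : X → F) =ᵐ[μ] fun x => φ' (u x) • S.D u x := MemLp.coeFn_toLp _
  have e1 : Tendsto v atTop (𝓝 w) := by
    refine tendsto_dom (b := fun x => 2 * C * ‖u x‖) ((Lp.memLp u).norm.const_mul (2 * C))
      (fun k => ?_) ?_
    · filter_upwards [hvc k, hw] with x a1 a2
      rw [a1, a2, Real.norm_eq_abs, Real.norm_eq_abs]
      have := abs_sub (χ k (u x)) (χ' (u x))
      linarith [hχb k (u x), hχb' (u x)]
    · filter_upwards [hva, hw] with x a1 a2
      simp only [a1, a2]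
      exact hχ _
  have e2 : Tendsto (fun k => S.D (v k)) atTop (𝓝 g) := by
    refine smul_tendsto (a := fun k x => φ k (u x)) (a' := fun x => φ' (u x)) (g := fun _ => S.D u)
      hC (fun k => ((hφm k).comp_aemeasurable hum).aestronglyMeasurable)
      (fun k => Filter.Eventually.of_forall fun x => hφb k _) tendsto_const_nhds
      (Filter.Eventually.of_forall fun x => Or.inr (hφ _)) (fun k => (h k u hu (v k) (hvc k)).2) hgc
  obtain ⟨hwV, hD⟩ := S.D_closed (fun k => (h k u hu (v k) (hvc k)).1) e1 e2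
  exact ⟨hwV, by rw [hD]; exact hgc⟩

theorem Chain.congr {χ φ χ' φ' : ℝ → ℝ} (h : S.Chain χ φ) (e1 : ∀ s, χ' s = χ s)
    (e2 : ∀ s, φ' s = φ s) : S.Chain χ' φ' := by
  rw [funext e1, funext e2]; exact h

theorem memLp_chain {χ : ℝ → ℝ} {C : ℝ} (hm : Measurable χ) (hb : ∀ s, |χ s| ≤ C * |s|)
    (u : Lp ℝ 2 μ) : MemLp (fun x => χ (u x)) 2 μ := by
  refine (Lp.memLp u).of_le_mul (c := C)
    (hm.comp_aemeasurable (Lp.aestronglyMeasurable u).aemeasurable).aestronglyMeasurable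
    (Filter.Eventually.of_forall fun x => ?_)
  rw [Real.norm_eq_abs, Real.norm_eq_abs]
  exact hb _

theorem Chain.add {χ φ χ' φ' : ℝ → ℝ} {C : ℝ} (h : S.Chain χ φ) (h' : S.Chain χ' φ')
    (hm : Measurable χ) (hb : ∀ s, |χ s| ≤ C * |s|) :
    S.Chain (fun s => χ s + χ' s) (fun s => φ s + φ' s) := by
  intro u hu w hw
  set w1 : Lp ℝ 2 μ := (memLp_chain hm hb u).toLp _ with hw1
  have hw1c : (w1 : X → ℝ) =ᵐ[μ] fun x => χ (u x) := MemLp.coeFn_toLp _
  have hw2c : ((w - w1 : Lp ℝ 2 μ) : X → ℝ) =ᵐ[μ] fun x => χ' (u x) := by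
    filter_upwards [Lp.coeFn_sub w w1, hw, hw1c] with x e1 e2 e3
    rw [e1, Pi.sub_apply, e2, e3]; ring
  obtain ⟨a1, a2⟩ := h u hu w1 hw1c
  obtain ⟨b1, b2⟩ := h' u hu (w - w1) hw2c
  have e : w = w1 + (w - w1) := by abel
  refine ⟨by rw [e]; exact S.V.add_mem a1 b1, ?_⟩
  rw [e, S.D_add a1 b1]
  filter_upwards [Lp.coeFn_add (S.D w1) (S.D (w - w1)), a2, b2] with x e1 e2 e3
  rw [e1, Pi.add_apply, e2, e3, add_smul]

theorem Chain.smul {χ φ : ℝ → ℝ} {C : ℝ} (c : ℝ) (h : S.Chain χ φ)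
    (hm : Measurable χ) (hb : ∀ s, |χ s| ≤ C * |s|) :
    S.Chain (fun s => c * χ s) (fun s => c * φ s) := by
  intro u hu w hw
  set w1 : Lp ℝ 2 μ := (memLp_chain hm hb u).toLp _ with hw1
  have hw1c : (w1 : X → ℝ) =ᵐ[μ] fun x => χ (u x) := MemLp.coeFn_toLp _
  have e : w = c • w1 := by
    ext1
    filter_upwards [Lp.coeFn_smul c w1, hw, hw1c] with x e1 e2 e3
    rw [e1, Pi.smul_apply, e2, e3, smul_eq_mul]
  obtain ⟨a1, a2⟩ := h u hu w1 hw1c
  refine ⟨by rw [e]; exact S.V.smul_mem c a1, ?_⟩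
  rw [e, S.D_smul c a1]
  filter_upwards [Lp.coeFn_smul c (S.D w1), a2] with x e1 e2
  rw [e1, Pi.smul_apply, e2, smul_smul]

/-! ### the ramps -/

theorem hasDerivAt_sq_max (r : ℝ) : HasDerivAt (fun r : ℝ => max r 0 ^ 2) (2 * max r 0) r := by
  rcases lt_trichotomy r 0 with h | h | h
  · rw [max_eq_right h.le, mul_zero]
    refine (hasDerivAt_const r (0:ℝ)).congr_of_eventuallyEq ?_
    filter_upwards [Iio_mem_nhds h] with y hy
    rw [max_eq_right (le_of_lt hy)]; simp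
  · subst h
    simp only [max_self, mul_zero]
    have h1 : (fun r : ℝ => max r 0 ^ 2) =O[𝓝 0] fun x => ‖x - 0‖ ^ 2 := by
      refine Asymptotics.IsBigO.of_bound 1 (Filter.Eventually.of_forall fun x => ?_)
      rw [sub_zero, Real.norm_eq_abs, Real.norm_eq_abs, Real.norm_eq_abs, one_mul, abs_pow, abs_pow,
        abs_abs]
      refine pow_le_pow_left₀ (abs_nonneg _) ?_ 2
      rcases le_total x 0 with h | h
      · rw [max_eq_right h, abs_zero]; exact abs_nonneg _
      · rw [max_eq_left h]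
    have h2 := (h1.hasFDerivAt (by norm_num)).hasDerivAt
    simpa using h2
  · rw [max_eq_left h.le]
    have h1 : HasDerivAt (fun r : ℝ => r ^ 2) (2 * r) r := by simpa using hasDerivAt_pow 2 r
    refine h1.congr_of_eventuallyEq ?_
    filter_upwards [Ioi_mem_nhds h] with y hy
    rw [max_eq_left (le_of_lt hy)]

/-- smoothed ramp -/
def rmp (a ε s : ℝ) : ℝ := (max (s - a) 0 ^ 2 - max (s - a - ε) 0 ^ 2) / (2 * ε)

/-- derivative of the smoothed ramp -/
def rmp' (a ε s : ℝ) : ℝ := (max (s - a) 0 - max (s - a - ε) 0) / ε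

theorem hasDerivAt_rmp {a ε : ℝ} (hε : 0 < ε) (s : ℝ) : HasDerivAt (rmp a ε) (rmp' a ε s) s := by
  have h1 : HasDerivAt (fun s : ℝ => max (s - a) 0 ^ 2) (2 * max (s - a) 0) s := by
    exact (hasDerivAt_sq_max (s - a)).comp_sub_const s a
  have h2 : HasDerivAt (fun s : ℝ => max (s - a - ε) 0 ^ 2) (2 * max (s - a - ε) 0) s := by
    exact ((hasDerivAt_sq_max (s - a - ε)).comp_sub_const (s - a) ε).comp_sub_const s a
  have h3 := (h1.sub h2).div_const (2 * ε)
  have e : rmp' a ε s = (2 * max (s - a) 0 - 2 * max (s - a - ε) 0) / (2 * ε) := by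
    rw [rmp']; field_simp
  rw [e]
  exact h3

theorem continuous_rmp' {a ε : ℝ} : Continuous (rmp' a ε) := by
  unfold rmp'
  fun_prop

theorem contDiff_rmp {a ε : ℝ} (hε : 0 < ε) : ContDiff ℝ 1 (rmp a ε) := by
  rw [contDiff_one_iff_deriv]
  refine ⟨fun s => (hasDerivAt_rmp hε s).differentiableAt, ?_⟩
  rw [show deriv (rmp a ε) = rmp' a ε from funext fun s => (hasDerivAt_rmp hε s).deriv]
  exact continuous_rmp'

theorem rmp'_mem {a ε : ℝ} (hε : 0 < ε) (s : ℝ) : 0 ≤ rmp' a ε s ∧ rmp' a ε s ≤ 1 := by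
  unfold rmp'
  constructor
  · refine div_nonneg ?_ hε.le
    have : max (s - a - ε) 0 ≤ max (s - a) 0 := max_le_max (by linarith) le_rfl
    linarith
  · rw [div_le_one hε]
    rcases le_total (s - a) 0 with h | h
    · rw [max_eq_right h, max_eq_right (by linarith)]; linarith
    · rw [max_eq_left h]
      have := le_max_left (s - a - ε) 0
      linarith

theorem abs_rmp'_le {a ε : ℝ} (hε : 0 < ε) (s : ℝ) : |rmp' a ε s| ≤ 1 := by
  rw [abs_of_nonneg (rmp'_mem hε s).1]; exact (rmp'_mem hε s).2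

/-- the ramp `(s - a)⁺ - (-a)⁺` -/
def ramp (a s : ℝ) : ℝ := max (s - a) 0 - max (-a) 0

theorem abs_ramp_le (a s : ℝ) : |ramp a s| ≤ 1 * |s| := by
  rw [one_mul, ramp]
  have := abs_max_sub_max_le_abs (s - a) (-a) 0
  simpa using this

theorem measurable_ramp (a : ℝ) : Measurable (ramp a) := by
  unfold ramp
  exact ((measurable_id.sub_const a).max measurable_const).sub_const _

theorem tendsto_rmp {a s : ℝ} {ε : ℕ → ℝ} (hε : ∀ k, 0 < ε k) (hε0 : Tendsto ε atTop (𝓝 0)) :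
    Tendsto (fun k => rmp a (ε k) s) atTop (𝓝 (max (s - a) 0)) := by
  rcases le_or_gt (s - a) 0 with h | h
  · have e : (fun k => rmp a (ε k) s) = fun _ => (0:ℝ) := by
      funext k
      rw [rmp, max_eq_right h, max_eq_right (by linarith [hε k])]; simp
    rw [e, max_eq_right h]; exact tendsto_const_nhds
  · rw [max_eq_left h.le]
    have h1 : Tendsto (fun k => s - a - ε k / 2) atTop (𝓝 (s - a - 0 / 2)) :=
      (hε0.div_const 2).const_sub _
    rw [zero_div, sub_zero] at h1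
    refine h1.congr' ?_
    filter_upwards [hε0.eventually_lt_const h] with k hk
    rw [rmp, max_eq_left h.le, max_eq_left (by linarith)]
    have := (hε k).ne'
    field_simp
    ring

theorem tendsto_rmp' {a s : ℝ} {ε : ℕ → ℝ} (hε : ∀ k, 0 < ε k) (hε0 : Tendsto ε atTop (𝓝 0)) :
    Tendsto (fun k => rmp' a (ε k) s) atTop (𝓝 ((Ioi a).indicator (fun _ => 1) s)) := by
  rcases le_or_gt (s - a) 0 with h | h
  · have e : (fun k => rmp' a (ε k) s) = fun _ => (0:ℝ) := by
      funext k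
      rw [rmp', max_eq_right h, max_eq_right (by linarith [hε k])]; simp
    rw [e, indicator_of_notMem (by simp only [mem_Ioi, not_lt]; linarith)]
    exact tendsto_const_nhds
  · rw [indicator_of_mem (show s ∈ Ioi a by simp only [mem_Ioi]; linarith)]
    refine tendsto_const_nhds.congr' ?_
    filter_upwards [hε0.eventually_lt_const h] with k hk
    rw [rmp', max_eq_left h.le, max_eq_left (by linarith)]
    have := (hε k).ne'
    field_simp
    ring

theorem chain_ramp (a : ℝ) : S.Chain (ramp a) ((Ioi a).indicator fun _ => 1) := by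
  set ε : ℕ → ℝ := fun k => 1 / ((k : ℝ) + 1) with hε
  have hε1 : ∀ k, 0 < ε k := fun k => by positivity
  have hε0 : Tendsto ε atTop (𝓝 0) := tendsto_one_div_add_atTop_nhds_zero_nat
  have hcd : ∀ k, ContDiff ℝ 1 (fun s => rmp a (ε k) s - rmp a (ε k) 0) := fun k =>
    (contDiff_rmp (hε1 k)).sub contDiff_const
  have hder : ∀ k, deriv (fun s => rmp a (ε k) s - rmp a (ε k) 0) = rmp' a (ε k) := fun k =>
    funext fun s => ((hasDerivAt_rmp (hε1 k) s).sub_const _).deriv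
  have hb : ∀ k s, |deriv (fun s => rmp a (ε k) s - rmp a (ε k) 0) s| ≤ 1 := fun k s => by
    rw [hder]; exact abs_rmp'_le (hε1 k) s
  refine Chain.lim S (χ := fun k s => rmp a (ε k) s - rmp a (ε k) 0) (φ := fun k => rmp' a (ε k))
    zero_le_one (fun k => ?_) (fun k => continuous_rmp'.measurable) (fun k s => ?_)
    (fun k s => abs_rmp'_le (hε1 k) s) (fun k => (hcd k).continuous.measurable) (fun s => ?_)
    (fun s => tendsto_rmp' hε1 hε0)
  · have := S.chain_C1 (hcd k) zero_le_one (hb k) (by simp)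
    rwa [hder] at this
  · have := lip_of_deriv (hcd k) (hb k) s 0
    simpa using this
  · have h1 := (tendsto_rmp (a := a) (s := s) hε1 hε0).sub (tendsto_rmp (a := a) (s := 0) hε1 hε0)
    simpa [ramp] using h1

theorem chain_id : S.Chain (fun s => s) (fun _ => 1) := by
  intro u hu w hw
  have e : w = u := by ext1; exact hw
  rw [e]
  exact ⟨hu, Filter.Eventually.of_forall fun x => by simp⟩

/-- `D u = 0` a.e. on level sets -/
theorem chain_point (a : ℝ) : S.Chain (fun _ => 0) (({a} : Set ℝ).indicator fun _ => 1) := by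
  set ε : ℕ → ℝ := fun k => 1 / ((k : ℝ) + 1) with hε
  have hε1 : ∀ k, 0 < ε k := fun k => by positivity
  have hε0 : Tendsto ε atTop (𝓝 0) := tendsto_one_div_add_atTop_nhds_zero_nat
  refine Chain.lim S (χ := fun k s => ramp (a - ε k) s + (-1) * ramp a s)
    (φ := fun k s => (Ioi (a - ε k)).indicator (fun _ => 1) s + (-1) * (Ioi a).indicator (fun _ => 1) s)
    (C := 2) (by norm_num) (fun k => ?_) (fun k => ?_) (fun k s => ?_) (fun k s => ?_) (fun k => ?_)
    (fun s => ?_) (fun s => ?_)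
  · exact Chain.add S (S.chain_ramp _) (Chain.smul S (-1) (S.chain_ramp a) (measurable_ramp a)
      (abs_ramp_le a)) (measurable_ramp _) (abs_ramp_le _)
  · exact (measurable_const.indicator measurableSet_Ioi).add
      ((measurable_const.indicator measurableSet_Ioi).const_mul _)
  · have h1 := abs_ramp_le (a - ε k) s
    have h2 := abs_ramp_le a s
    have h3 := abs_add_le (ramp (a - ε k) s) (-1 * ramp a s)
    rw [abs_mul, abs_neg, abs_one] at h3
    linarith
  · have h1 : |(Ioi (a - ε k)).indicator (fun _ => (1:ℝ)) s| ≤ 1 := by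
      by_cases h : s ∈ Ioi (a - ε k) <;> simp [h]
    have h2 : |(Ioi a).indicator (fun _ => (1:ℝ)) s| ≤ 1 := by
      by_cases h : s ∈ Ioi a <;> simp [h]
    have h3 := abs_add_le ((Ioi (a - ε k)).indicator (fun _ => (1:ℝ)) s)
      (-1 * (Ioi a).indicator (fun _ => (1:ℝ)) s)
    rw [abs_mul, abs_neg, abs_one] at h3
    linarith
  · exact (measurable_ramp _).add ((measurable_ramp _).const_mul _)
  · have h1 : Tendsto (fun k => ramp (a - ε k) s) atTop (𝓝 (ramp (a - 0) s)) := by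
      unfold ramp
      refine Tendsto.sub ?_ ?_
      · exact (((hε0.const_sub a).const_sub s).max tendsto_const_nhds)
      · exact ((hε0.const_sub a).neg.max tendsto_const_nhds)
    have h2 := h1.add_const (-1 * ramp a s)
    simpa using h2
  · have i1 : ∀ {b : ℝ}, b < s → (Ioi b).indicator (fun _ => (1:ℝ)) s = 1 := fun h =>
      indicator_of_mem (mem_Ioi.2 h) _
    have i0 : ∀ {b : ℝ}, s ≤ b → (Ioi b).indicator (fun _ => (1:ℝ)) s = 0 := fun h =>
      indicator_of_notMem (fun h' => absurd (mem_Ioi.1 h') (not_lt.2 h)) _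
    rcases lt_trichotomy s a with h | h | h
    · rw [indicator_of_notMem (fun h' => absurd (mem_singleton_iff.1 h') h.ne)]
      refine tendsto_const_nhds.congr' ?_
      filter_upwards [hε0.eventually_lt_const (sub_pos.2 h)] with k hk
      rw [i0 h.le, i0 (show s ≤ a - ε k by linarith)]
      simp
    · rw [indicator_of_mem (mem_singleton_iff.2 h)]
      refine tendsto_const_nhds.congr fun k => ?_
      rw [i1 (show a - ε k < s by linarith [hε1 k]), i0 h.le]
      simp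
    · rw [indicator_of_notMem (fun h' => absurd (mem_singleton_iff.1 h') h.ne')]
      refine tendsto_const_nhds.congr fun k => ?_
      rw [i1 (show a - ε k < s by linarith [hε1 k]), i1 h]
      simp

theorem D_level {u : Lp ℝ 2 μ} (hu : u ∈ S.V) (a : ℝ) : ∀ᵐ x ∂μ, u x = a → S.D u x = 0 := by
  obtain ⟨-, h⟩ := S.chain_point a u hu 0 (Lp.coeFn_zero _ _ _)
  rw [S.D_zero] at h
  filter_upwards [h, Lp.coeFn_zero F 2 μ] with x e1 e2 hx
  rw [e2, indicator_of_mem (show u x ∈ ({a} : Set ℝ) from hx), one_smul] at e1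
  exact e1.symm

/-- truncation above `a ≥ 0` -/
theorem D_cut {u w : Lp ℝ 2 μ} (hu : u ∈ S.V) {a : ℝ} (ha : 0 ≤ a)
    (hw : (w : X → ℝ) =ᵐ[μ] fun x => max (u x - a) 0) :
    w ∈ S.V ∧ (S.D w : X → F) =ᵐ[μ] fun x => (Ioi a).indicator (fun _ => (1:ℝ)) (u x) • S.D u x := by
  refine S.chain_ramp a u hu w (hw.trans (Filter.Eventually.of_forall fun x => ?_))
  simp only [ramp]
  rw [max_eq_right (by linarith : -a ≤ 0), sub_zero]

/-- truncation between `a ≤ 0 ≤ b` -/
theorem D_clamp {u w : Lp ℝ 2 μ} (hu : u ∈ S.V) {a b : ℝ} (ha : a ≤ 0) (hb : 0 ≤ b)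
    (hw : (w : X → ℝ) =ᵐ[μ] fun x => max a (min (u x) b)) :
    w ∈ S.V ∧ (S.D w : X → F) =ᵐ[μ] fun x => (Ioc a b).indicator (fun _ => (1:ℝ)) (u x) • S.D u x := by
  have h1 := Chain.add S (S.chain_ramp a) (Chain.smul S (-1) (S.chain_ramp b) (measurable_ramp b)
      (abs_ramp_le b)) (measurable_ramp a) (abs_ramp_le a)
  refine (Chain.congr S h1 (χ' := fun s => max a (min s b))
    (φ' := (Ioc a b).indicator fun _ => (1:ℝ)) (fun s => ?_) (fun s => ?_)) u hu w hw
  · simp only [ramp]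
    rw [max_eq_left (by linarith : (0:ℝ) ≤ -a), max_eq_right (by linarith : -b ≤ (0:ℝ))]
    rcases le_total s a with h | h
    · rw [min_eq_left (by linarith), max_eq_left h, max_eq_right (by linarith),
        max_eq_right (by linarith)]
      ring
    · rcases le_total s b with h' | h'
      · rw [min_eq_left h', max_eq_right h, max_eq_left (by linarith), max_eq_right (by linarith)]
        ring
      · rw [min_eq_right h', max_eq_right (by linarith), max_eq_left (by linarith),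
          max_eq_left (by linarith)]
        ring
  · have i1 : ∀ {b : ℝ}, b < s → (Ioi b).indicator (fun _ => (1:ℝ)) s = 1 := fun h =>
      indicator_of_mem (mem_Ioi.2 h) _
    have i0 : ∀ {b : ℝ}, s ≤ b → (Ioi b).indicator (fun _ => (1:ℝ)) s = 0 := fun h =>
      indicator_of_notMem (fun h' => absurd (mem_Ioi.1 h') (not_lt.2 h)) _
    by_cases h1 : a < s
    · by_cases h2 : b < s
      · rw [indicator_of_notMem (fun h => absurd h.2 (not_le.2 h2)), i1 h1, i1 h2]
        simp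
      · rw [indicator_of_mem (show s ∈ Ioc a b from ⟨h1, not_lt.1 h2⟩), i1 h1, i0 (not_lt.1 h2)]
        simp
    · rw [indicator_of_notMem (fun h => h1 h.1), i0 (not_lt.1 h1),
        i0 (show s ≤ b by linarith [not_lt.1 h1])]
      simp

end GradS

end Crest.Agent.R247.Dir593
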