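import Crest.Agent.R247.Dir3_593

/-!
R247, block (5) abstract half (helper593): bounded approximation, products, locally Lipschitz
functions in `V`, density, the Markov form and its resolvent.
-/

set_option autoImplicit false
set_option linter.unusedSectionVars false

open MeasureTheory Filter Topology Set
open scoped RealInnerProductSpace ENNReal NNReal

noncomputable section

namespace Crest.Agent.R247.Dir593

open Crest.Agent.R242

namespace GradS

variable {X : Type*} [MetricSpace X] [MeasurableSpace X] {F : Type*}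
  [NormedAddCommGroup F] [InnerProductSpace ℝ F] {μ : Measure X} (S : GradS X F μ)
  [BorelSpace X] [IsFiniteMeasureOnCompacts μ]

/-- `L²` convergence from pointwise a.e. contraction and limit -/
theorem tendsto_of_comp {u : Lp ℝ 2 μ} {f : ℕ → X → ℝ} (hf : ∀ k, IsT (f k))
    (h1 : Tendsto (fun k => (tL (hf k) : Lp ℝ 2 μ)) atTop (𝓝 u)) {χ : ℝ → ℝ} {C : ℝ} (hC : 0 ≤ C)
    (hχ : ∀ s t, |χ s - χ t| ≤ C * |s - t|) (hT : ∀ k, IsT fun y => χ (f k y)) {w : Lp ℝ 2 μ}
    (hw : (w : X → ℝ) =ᵐ[μ] fun x => χ (u x)) :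
    Tendsto (fun k => (tL (hT k) : Lp ℝ 2 μ)) atTop (𝓝 w) := by
  rw [tendsto_iff_norm_sub_tendsto_zero]
  refine squeeze_zero (fun _ => norm_nonneg _) (g := fun k => C * ‖(tL (hf k) : Lp ℝ 2 μ) - u‖)
    (fun k => ?_) ?_
  · refine norm_le_of_ae hC ?_
    filter_upwards [Lp.coeFn_sub (tL (hT k) : Lp ℝ 2 μ) w, Lp.coeFn_sub (tL (hf k) : Lp ℝ 2 μ) u,
      coe_tL (μ := μ) (hT k), coe_tL (μ := μ) (hf k), hw] with x a1 a2 a3 a4 a5
    rw [a1, a2, Pi.sub_apply, Pi.sub_apply, a3, a4, a5, Real.norm_eq_abs, Real.norm_eq_abs]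
    exact hχ _ _
  · simpa using (tendsto_iff_norm_sub_tendsto_zero.1 h1).const_mul C

/-- the clamp `max a (min s b)` -/
theorem abs_clamp_sub (a b s t : ℝ) : |max a (min s b) - max a (min t b)| ≤ 1 * |s - t| := by
  rw [one_mul, max_comm a, max_comm a]
  refine (abs_max_sub_max_le_abs _ _ _).trans ?_
  have := abs_min_sub_min_le_max s b t b
  simpa using this

theorem IsT.clamp {f : X → ℝ} (hf : IsT f) {a b : ℝ} (ha : a ≤ 0) (hb : 0 ≤ b) :
    IsT fun y => max a (min (f y) b) := by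
  refine hf.comp (χ := fun s => max a (min s b)) ?_ ?_
  · exact (LocallyLipschitz.id.min_const b).const_max a
  · show max a (min 0 b) = 0
    rw [min_eq_left hb, max_eq_right ha]

/-- **bounded approximation** : `a ≤ u ≤ b` a.e., `a ≤ 0 ≤ b`, gives test functions with values in
`[a, b]`. -/
theorem exists_seq_Icc {u : Lp ℝ 2 μ} (hu : u ∈ S.V) {a b : ℝ} (ha : a ≤ 0) (hb : 0 ≤ b)
    (h1 : ∀ᵐ x ∂μ, a ≤ u x) (h2 : ∀ᵐ x ∂μ, u x ≤ b) :
    ∃ (f : ℕ → X → ℝ) (hf : ∀ k, IsT (f k)), (∀ k x, a ≤ f k x ∧ f k x ≤ b) ∧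
      Tendsto (fun k => (tL (hf k) : Lp ℝ 2 μ)) atTop (𝓝 u) ∧
      Tendsto (fun k => S.D (tL (hf k))) atTop (𝓝 (S.D u)) ∧
      (∀ᵐ x ∂μ, Tendsto (fun k => f k x) atTop (𝓝 (u x))) := by
  obtain ⟨f, hf, e1, e2, e3, e4⟩ := S.exists_seq_ae hu
  have hT : ∀ k, IsT fun y => max a (min (f k y) b) := fun k => (hf k).clamp ha hb
  have hc : Continuous fun s : ℝ => max a (min s b) :=
    continuous_const.max (continuous_id.min continuous_const)
  have huc : ∀ᵐ x ∂μ, max a (min (u x) b) = u x := by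
    filter_upwards [h1, h2] with x a1 a2
    rw [min_eq_left a2, max_eq_right a1]
  refine ⟨fun k y => max a (min (f k y) b), hT, fun k x => ⟨le_max_left _ _, max_le (ha.trans hb)
    (min_le_right _ _)⟩, ?_, ?_, ?_⟩
  · refine tendsto_of_comp (χ := fun s => max a (min s b)) hf e1 zero_le_one (abs_clamp_sub a b) hT ?_
    filter_upwards [huc] with x hx
    exact hx.symm
  · refine smul_tendsto (a := fun k x => (Ioc a b).indicator (fun _ => (1:ℝ)) (f k x))
      (a' := fun _ => 1) zero_le_one (fun k => ?_) (fun k => Filter.Eventually.of_forall fun x => ?_)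
      e2 ?_ (fun k => ?_) (Filter.Eventually.of_forall fun x => by simp)
    · exact ((measurable_const.indicator measurableSet_Ioc).comp
        (hf k).1.continuous.measurable).aestronglyMeasurable
    · by_cases h : f k x ∈ Ioc a b <;> simp [h]
    · filter_upwards [S.D_level hu a, S.D_level hu b, h1, h2, e3] with x a1 a2 a3 a4 a5
      by_cases ha' : u x = a
      · exact Or.inl (a1 ha')
      by_cases hb' : u x = b
      · exact Or.inl (a2 hb')
      right
      have h5 : Ioo a b ∈ 𝓝 (u x) :=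
        Ioo_mem_nhds (lt_of_le_of_ne a3 (Ne.symm ha')) (lt_of_le_of_ne a4 hb')
      refine tendsto_const_nhds.congr' ?_
      filter_upwards [a5.eventually h5] with k hk
      rw [indicator_of_mem (Ioo_subset_Ioc_self hk)]
    · obtain ⟨-, h⟩ := S.D_clamp (S.tL_mem (hf k)) (w := tL (hT k)) ha hb (by
        filter_upwards [coe_tL (μ := μ) (hT k), coe_tL (μ := μ) (hf k)] with x a1 a2
        rw [a1, a2])
      filter_upwards [h, coe_tL (μ := μ) (hf k)] with x a1 a2
      rw [a1, a2]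
  · filter_upwards [e3, huc] with x a1 a2
    rw [← a2]
    exact (hc.tendsto _).comp a1

/-- nonnegative approximation -/
theorem exists_seq_nonneg {u : Lp ℝ 2 μ} (hu : u ∈ S.V) (h1 : ∀ᵐ x ∂μ, 0 ≤ u x) :
    ∃ (f : ℕ → X → ℝ) (hf : ∀ k, IsT (f k)), (∀ k x, 0 ≤ f k x) ∧
      Tendsto (fun k => (tL (hf k) : Lp ℝ 2 μ)) atTop (𝓝 u) ∧
      Tendsto (fun k => S.D (tL (hf k))) atTop (𝓝 (S.D u)) ∧
      (∀ᵐ x ∂μ, Tendsto (fun k => f k x) atTop (𝓝 (u x))) := by
  obtain ⟨f, hf, e1, e2, e3, e4⟩ := S.exists_seq_ae hu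
  have hT : ∀ k, IsT fun y => max (f k y - 0) 0 := fun k => by
    refine (hf k).comp (χ := fun s => max (s - 0) 0) ?_ (by simp)
    simpa using LocallyLipschitz.id.max_const (0:ℝ)
  have hc : Continuous fun s : ℝ => max (s - 0) 0 := by fun_prop
  have huc : ∀ᵐ x ∂μ, max (u x - 0) 0 = u x := by
    filter_upwards [h1] with x a1
    rw [sub_zero, max_eq_left a1]
  refine ⟨fun k y => max (f k y - 0) 0, hT, fun k x => le_max_right _ _, ?_, ?_, ?_⟩
  · refine tendsto_of_comp (χ := fun s => max (s - 0) 0) hf e1 zero_le_one (fun s t => ?_) hT ?_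
    · rw [one_mul]
      simpa using abs_max_sub_max_le_abs s t 0
    · filter_upwards [huc] with x hx
      exact hx.symm
  · refine smul_tendsto (a := fun k x => (Ioi 0).indicator (fun _ => (1:ℝ)) (f k x))
      (a' := fun _ => 1) zero_le_one (fun k => ?_) (fun k => Filter.Eventually.of_forall fun x => ?_)
      e2 ?_ (fun k => ?_) (Filter.Eventually.of_forall fun x => by simp)
    · exact ((measurable_const.indicator measurableSet_Ioi).comp
        (hf k).1.continuous.measurable).aestronglyMeasurable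
    · by_cases h : f k x ∈ Ioi 0 <;> simp [h]
    · filter_upwards [S.D_level hu 0, h1, e3] with x a1 a3 a5
      by_cases ha' : u x = 0
      · exact Or.inl (a1 ha')
      right
      have h5 : Ioi 0 ∈ 𝓝 (u x) := Ioi_mem_nhds (lt_of_le_of_ne a3 (Ne.symm ha'))
      refine tendsto_const_nhds.congr' ?_
      filter_upwards [a5.eventually h5] with k hk
      rw [indicator_of_mem (mem_Ioi.2 hk)]
    · obtain ⟨-, h⟩ := S.D_cut (S.tL_mem (hf k)) (w := tL (hT k)) le_rfl (by
        filter_upwards [coe_tL (μ := μ) (hT k), coe_tL (μ := μ) (hf k)] with x a1 a2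
        rw [a1, a2])
      filter_upwards [h, coe_tL (μ := μ) (hf k)] with x a1 a2
      rw [a1, a2]
  · filter_upwards [e3, huc] with x a1 a2
    rw [← a2]
    exact (hc.tendsto _).comp a1

/-! ### products -/

/-- product of bounded elements of `V` -/
theorem D_mul {u v w : Lp ℝ 2 μ} (hu : u ∈ S.V) (hv : v ∈ S.V) {C : ℝ} (hC : 0 ≤ C)
    (hub : ∀ᵐ x ∂μ, |u x| ≤ C) (hvb : ∀ᵐ x ∂μ, |v x| ≤ C)
    (hw : (w : X → ℝ) =ᵐ[μ] fun x => u x * v x) :
    w ∈ S.V ∧ (S.D w : X → F) =ᵐ[μ] fun x => u x • S.D v x + v x • S.D u x := by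
  obtain ⟨f, hf, f0, f1, f2, f3⟩ := S.exists_seq_Icc hu (a := -C) (b := C) (by linarith) hC
    (hub.mono fun x hx => (abs_le.1 hx).1) (hub.mono fun x hx => (abs_le.1 hx).2)
  obtain ⟨g, hg, g0, g1, g2, g3⟩ := S.exists_seq_Icc hv (a := -C) (b := C) (by linarith) hC
    (hvb.mono fun x hx => (abs_le.1 hx).1) (hvb.mono fun x hx => (abs_le.1 hx).2)
  have hT : ∀ k, IsT fun y => f k y * g k y := fun k => (hf k).mul (hg k).1
  have hfb : ∀ k x, |f k x| ≤ C := fun k x => abs_le.2 (f0 k x)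
  have hgb : ∀ k x, |g k x| ≤ C := fun k x => abs_le.2 (g0 k x)
  have hfm : ∀ k, AEStronglyMeasurable (f k) μ := fun k => (hf k).1.continuous.aestronglyMeasurable
  have hgm : ∀ k, AEStronglyMeasurable (g k) μ := fun k => (hg k).1.continuous.aestronglyMeasurable
  have hum := Lp.aestronglyMeasurable u
  have hvm := Lp.aestronglyMeasurable v
  set P : Lp F 2 μ := (memLp_smul hum hub (S.D v)).toLp _ with hP
  set Q : Lp F 2 μ := (memLp_smul hvm hvb (S.D u)).toLp _ with hQ
  have hPc : (P : X → F) =ᵐ[μ] fun x => u x • S.D v x := MemLp.coeFn_toLp _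
  have hQc : (Q : X → F) =ᵐ[μ] fun x => v x • S.D u x := MemLp.coeFn_toLp _
  have t1 : Tendsto (fun k => (tL (hT k) : Lp ℝ 2 μ)) atTop (𝓝 w) := by
    refine smul_tendsto (a := f) (a' := u) hC hfm
      (fun k => Filter.Eventually.of_forall (hfb k)) g1 ?_ (fun k => ?_) ?_
    · filter_upwards [f3] with x hx using Or.inr hx
    · filter_upwards [coe_tL (μ := μ) (hT k), coe_tL (μ := μ) (hg k)] with x a1 a2
      rw [a1, a2, smul_eq_mul]
    · filter_upwards [hw] with x hx
      rw [hx, smul_eq_mul]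
  set Pk : ℕ → Lp F 2 μ := fun k => (memLp_smul (hfm k)
    (Filter.Eventually.of_forall (hfb k)) (S.D (tL (hg k)))).toLp _ with hPk
  set Qk : ℕ → Lp F 2 μ := fun k => (memLp_smul (hgm k)
    (Filter.Eventually.of_forall (hgb k)) (S.D (tL (hf k)))).toLp _ with hQk
  have hPkc : ∀ k, (Pk k : X → F) =ᵐ[μ] fun x => f k x • S.D (tL (hg k)) x :=
    fun k => MemLp.coeFn_toLp _
  have hQkc : ∀ k, (Qk k : X → F) =ᵐ[μ] fun x => g k x • S.D (tL (hf k)) x :=
    fun k => MemLp.coeFn_toLp _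
  have t2 : Tendsto Pk atTop (𝓝 P) :=
    smul_tendsto (a := f) (a' := u) hC hfm (fun k => Filter.Eventually.of_forall (hfb k)) g2
      (by filter_upwards [f3] with x hx using Or.inr hx) hPkc hPc
  have t3 : Tendsto Qk atTop (𝓝 Q) :=
    smul_tendsto (a := g) (a' := v) hC hgm (fun k => Filter.Eventually.of_forall (hgb k)) f2
      (by filter_upwards [g3] with x hx using Or.inr hx) hQkc hQc
  have t4 : (fun k => S.D (tL (hT k))) = fun k => Pk k + Qk k := by
    funext k
    ext1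
    filter_upwards [S.D_tL (hT k), S.mul (hf k).1 (hg k).1, hPkc k, hQkc k,
      Lp.coeFn_add (Pk k) (Qk k), S.D_tL (hf k), S.D_tL (hg k)] with x a1 a2 a3 a4 a5 a6 a7
    rw [a1, a2, a5, Pi.add_apply, a3, a4, a6, a7]
  have t5 : Tendsto (fun k => S.D (tL (hT k))) atTop (𝓝 (P + Q)) := by
    rw [t4]; exact t2.add t3
  obtain ⟨hwV, hD⟩ := S.D_closed (fun k => S.tL_mem (hT k)) t1 t5
  refine ⟨hwV, ?_⟩
  rw [hD]
  filter_upwards [Lp.coeFn_add P Q, hPc, hQc] with x a1 a2 a3
  rw [a1, Pi.add_apply, a2, a3]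

/-- product of `u ∈ V` with a bounded locally Lipschitz function with bounded gradient -/
theorem D_mul_lip {u w : Lp ℝ 2 μ} (hu : u ∈ S.V) {p : X → ℝ} (hp : LocallyLipschitz p) {C : ℝ}
    (hC : 0 ≤ C) (hpb : ∀ᵐ x ∂μ, |p x| ≤ C) (hGb : ∀ᵐ x ∂μ, ‖S.G p x‖ ≤ C)
    (hw : (w : X → ℝ) =ᵐ[μ] fun x => p x * u x) :
    w ∈ S.V ∧ (S.D w : X → F) =ᵐ[μ] fun x => p x • S.D u x + u x • S.G p x := by
  obtain ⟨f, hf, f1, f2, f3, f4⟩ := S.exists_seq_ae hu
  have hT : ∀ k, IsT fun y => p y * f k y := fun k => IsT.mul' hp (hf k)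
  have hpm : AEStronglyMeasurable p μ := hp.continuous.aestronglyMeasurable
  have t1 : Tendsto (fun k => (tL (hT k) : Lp ℝ 2 μ)) atTop (𝓝 w) := by
    refine smul_tendsto (a := fun _ => p) (a' := p) hC (fun _ => hpm) (fun _ => hpb) f1
      (Filter.Eventually.of_forall fun x => Or.inr tendsto_const_nhds) (fun k => ?_) ?_
    · filter_upwards [coe_tL (μ := μ) (hT k), coe_tL (μ := μ) (hf k)] with x a1 a2
      rw [a1, a2, smul_eq_mul]
    · filter_upwards [hw] with x hx
      rw [hx, smul_eq_mul]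
  have hmq : ∀ v : Lp ℝ 2 μ, MemLp (fun x => v x • S.G p x) 2 μ := fun v => by
    refine (Lp.memLp v).of_le_mul (c := C) ((Lp.aestronglyMeasurable v).smul (S.meas hp)) ?_
    filter_upwards [hGb] with x hx
    rw [norm_smul, mul_comm]
    exact mul_le_mul_of_nonneg_right hx (norm_nonneg _)
  set P : Lp F 2 μ := (memLp_smul hpm hpb (S.D u)).toLp _ with hP
  set Q : Lp F 2 μ := (hmq u).toLp _ with hQ
  have hPc : (P : X → F) =ᵐ[μ] fun x => p x • S.D u x := MemLp.coeFn_toLp _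
  have hQc : (Q : X → F) =ᵐ[μ] fun x => u x • S.G p x := MemLp.coeFn_toLp _
  set Pk : ℕ → Lp F 2 μ := fun k => (memLp_smul hpm hpb (S.D (tL (hf k)))).toLp _ with hPk
  set Qk : ℕ → Lp F 2 μ := fun k => (hmq (tL (hf k))).toLp _ with hQk
  have hPkc : ∀ k, (Pk k : X → F) =ᵐ[μ] fun x => p x • S.D (tL (hf k)) x :=
    fun k => MemLp.coeFn_toLp _
  have hQkc : ∀ k, (Qk k : X → F) =ᵐ[μ] fun x => (tL (hf k) : Lp ℝ 2 μ) x • S.G p x :=
    fun k => MemLp.coeFn_toLp _
  have t2 : Tendsto Pk atTop (𝓝 P) :=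
    smul_tendsto (a := fun _ => p) (a' := p) hC (fun _ => hpm) (fun _ => hpb) f2
      (Filter.Eventually.of_forall fun x => Or.inr tendsto_const_nhds) hPkc hPc
  have t3 : Tendsto Qk atTop (𝓝 Q) := by
    rw [tendsto_iff_norm_sub_tendsto_zero]
    refine squeeze_zero (fun _ => norm_nonneg _) (g := fun k => C * ‖(tL (hf k) : Lp ℝ 2 μ) - u‖)
      (fun k => ?_) ?_
    · refine norm_le_of_ae hC ?_
      filter_upwards [Lp.coeFn_sub (Qk k) Q, Lp.coeFn_sub (tL (hf k) : Lp ℝ 2 μ) u, hQkc k, hQc, hGb]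
        with x a1 a2 a3 a4 a5
      rw [a1, a2, Pi.sub_apply, Pi.sub_apply, a3, a4, ← sub_smul, norm_smul, mul_comm]
      exact mul_le_mul_of_nonneg_right a5 (norm_nonneg _)
    · simpa using (tendsto_iff_norm_sub_tendsto_zero.1 f1).const_mul C
  have t4 : (fun k => S.D (tL (hT k))) = fun k => Pk k + Qk k := by
    funext k
    ext1
    filter_upwards [S.D_tL (hT k), S.mul hp (hf k).1, hPkc k, hQkc k,
      Lp.coeFn_add (Pk k) (Qk k), S.D_tL (hf k), coe_tL (μ := μ) (hf k)] with x a1 a2 a3 a4 a5 a6 a7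
    rw [a1, a2, a5, Pi.add_apply, a3, a4, a6, a7]
  have t5 : Tendsto (fun k => S.D (tL (hT k))) atTop (𝓝 (P + Q)) := by
    rw [t4]; exact t2.add t3
  obtain ⟨hwV, hD⟩ := S.D_closed (fun k => S.tL_mem (hT k)) t1 t5
  refine ⟨hwV, ?_⟩
  rw [hD]
  filter_upwards [Lp.coeFn_add P Q, hPc, hQc] with x a1 a2 a3
  rw [a1, Pi.add_apply, a2, a3]

/-- product of `u ∈ V` with a test function -/
theorem D_mul_test {u w : Lp ℝ 2 μ} (hu : u ∈ S.V) {p : X → ℝ} (hp : IsT p)
    (hw : (w : X → ℝ) =ᵐ[μ] fun x => p x * u x) :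
    w ∈ S.V ∧ (S.D w : X → F) =ᵐ[μ] fun x => p x • S.D u x + u x • S.G p x := by
  obtain ⟨C1, hC10, hC1⟩ := S.bound_compact hp.1 hp.2.isCompact
  obtain ⟨C2, hC2⟩ := hp.1.continuous.bounded_above_of_compact_support hp.2
  have h0 := S.zero_of_open hp.1 (isClosed_tsupport p).isOpen_compl
    (fun x hx => image_eq_zero_of_notMem_tsupport hx)
  refine S.D_mul_lip hu hp.1 (C := max C1 C2) (le_max_of_le_left hC10)
    (Filter.Eventually.of_forall fun x => ?_) ?_ hw
  · exact (hC2 x).trans (le_max_right _ _)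
  · filter_upwards [hC1, h0] with x a1 a2
    by_cases hx : x ∈ tsupport p
    · exact (a1 hx).trans (le_max_left _ _)
    · rw [a2 hx, norm_zero]; exact le_max_of_le_left hC10

/-! ### locally Lipschitz functions in `V` -/

theorem LL_mem [ProperSpace X] {p : X → ℝ} (hp : LocallyLipschitz p) (h2 : MemLp p 2 μ)
    (hG : MemLp (S.G p) 2 μ) :
    h2.toLp p ∈ S.V ∧ (S.D (h2.toLp p) : X → F) =ᵐ[μ] S.G p := by
  by_cases hX : Nonempty X
  swap
  · have hE : IsEmpty X := not_nonempty_iff.1 hX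
    have h0 : h2.toLp p = 0 := by
      ext1; exact Filter.Eventually.of_forall fun x => (hE.false x).elim
    rw [h0]
    exact ⟨S.V.zero_mem, Filter.Eventually.of_forall fun x => (hE.false x).elim⟩
  obtain ⟨x0⟩ := hX
  -- cut-offs
  set c : ℕ → X → ℝ := fun k x => max 0 (min (((k : ℝ) + 1) - dist x x0) 1) with hc
  have hcL : ∀ k, LipschitzWith 1 (c k) := by
    intro k
    refine LipschitzWith.of_dist_le_mul fun x y => ?_
    rw [NNReal.coe_one, one_mul, Real.dist_eq]
    have h1 := abs_clamp_sub 0 1 ((k : ℝ) + 1 - dist x x0) ((k : ℝ) + 1 - dist y x0)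
    rw [one_mul] at h1
    refine h1.trans ?_
    have e : (k : ℝ) + 1 - dist x x0 - ((k : ℝ) + 1 - dist y x0) = -(dist x x0 - dist y x0) := by ring
    rw [e, abs_neg]
    exact abs_dist_sub_le x y x0
  have hc01 : ∀ k x, 0 ≤ c k x ∧ c k x ≤ 1 := fun k x =>
    ⟨le_max_left _ _, max_le zero_le_one (min_le_right _ _)⟩
  have hcs : ∀ k, HasCompactSupport (c k) := fun k => by
    refine HasCompactSupport.intro (isCompact_closedBall x0 ((k : ℝ) + 1)) fun x hx => ?_
    rw [Metric.mem_closedBall, not_le] at hx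
    simp only [hc]
    rw [max_eq_left]
    exact (min_le_left _ _).trans (by linarith)
  have hcT : ∀ k, IsT (c k) := fun k => ⟨(hcL k).locallyLipschitz, hcs k⟩
  have hT : ∀ k, IsT fun y => c k y * p y := fun k => (hcT k).mul hp
  have hc1 : ∀ x, Tendsto (fun k => c k x) atTop (𝓝 1) := fun x => by
    refine tendsto_const_nhds.congr' ?_
    filter_upwards [eventually_ge_atTop ⌈dist x x0⌉₊] with k hk
    have h1 : dist x x0 ≤ k := (Nat.le_ceil _).trans (by exact_mod_cast hk)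
    simp only [hc]
    rw [min_eq_right (by linarith), max_eq_right zero_le_one]
  have hGc : ∀ k, ∀ᵐ x ∂μ, ‖S.G (c k) x‖ ≤ 1 := fun k => by
    filter_upwards [S.norm_le (hcT k).1 isOpen_univ (hcL k).lipschitzOnWith] with x hx
    simpa using hx (mem_univ x)
  have hGc0 : ∀ᵐ x ∂μ, Tendsto (fun k => ‖S.G (c k) x‖) atTop (𝓝 0) := by
    have h3 : ∀ᵐ x ∂μ, ∀ k : ℕ, x ∈ Metric.ball x0 (k : ℝ) → S.G (c k) x = 0 := by
      refine ae_all_iff.2 fun k => ?_
      have hEq : EqOn (c k) (fun _ => (1:ℝ)) (Metric.ball x0 (k : ℝ)) := fun x hx => by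
        have hx' := Metric.mem_ball.1 hx
        simp only [hc]
        rw [min_eq_right (by linarith), max_eq_right zero_le_one]
      filter_upwards [S.loc (hcT k).1 (LocallyLipschitz.const (1:ℝ)) Metric.isOpen_ball hEq,
        S.const 1] with x a1 a2 hx
      rw [a1 hx, a2]
    filter_upwards [h3] with x hx
    refine tendsto_const_nhds.congr' ?_
    filter_upwards [eventually_gt_atTop ⌈dist x x0⌉₊] with k hk
    have h1 : dist x x0 < k := (Nat.le_ceil _).trans_lt (by exact_mod_cast hk)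
    rw [hx k (Metric.mem_ball.2 h1), norm_zero]
  set g : Lp F 2 μ := hG.toLp _ with hg
  have hgc : (g : X → F) =ᵐ[μ] S.G p := MemLp.coeFn_toLp _
  have hpc : ((h2.toLp p : Lp ℝ 2 μ) : X → ℝ) =ᵐ[μ] p := MemLp.coeFn_toLp _
  have t1 : Tendsto (fun k => (tL (hT k) : Lp ℝ 2 μ)) atTop (𝓝 (h2.toLp p)) := by
    refine smul_tendsto (a := c) (a' := fun _ => 1) (g := fun _ => h2.toLp p) zero_le_one
      (fun k => (hcT k).1.continuous.aestronglyMeasurable)
      (fun k => Filter.Eventually.of_forall fun x => by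
        rw [abs_of_nonneg (hc01 k x).1]; exact (hc01 k x).2) tendsto_const_nhds
      (Filter.Eventually.of_forall fun x => Or.inr (hc1 x)) (fun k => ?_)
      (Filter.Eventually.of_forall fun x => by simp)
    filter_upwards [coe_tL (μ := μ) (hT k), hpc] with x a1 a2
    rw [a1, a2, smul_eq_mul]
  have t2 : Tendsto (fun k => S.D (tL (hT k))) atTop (𝓝 g) := by
    have hDc : ∀ k, ∀ᵐ x ∂μ, S.D (tL (hT k)) x = c k x • S.G p x + p x • S.G (c k) x := fun k => by
      filter_upwards [S.D_tL (hT k), S.mul (hcT k).1 hp] with x a1 a2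
      rw [a1, a2]
    have hDa : ∀ᵐ x ∂μ, ∀ k, S.D (tL (hT k)) x = c k x • S.G p x + p x • S.G (c k) x :=
      ae_all_iff.2 hDc
    refine tendsto_dom (b := fun x => ‖S.G p x‖ + ‖p x‖) (hG.norm.add h2.norm) (fun k => ?_) ?_
    · filter_upwards [hDc k, hgc, hGc k] with x a1 a2 a3
      rw [a1, a2]
      have e : c k x • S.G p x + p x • S.G (c k) x - S.G p x =
          (c k x - 1) • S.G p x + p x • S.G (c k) x := by module
      rw [e]
      refine (norm_add_le _ _).trans ?_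
      rw [norm_smul, norm_smul]
      have h4 : ‖c k x - 1‖ ≤ 1 := by
        rw [Real.norm_eq_abs, abs_le]
        constructor <;> linarith [(hc01 k x).1, (hc01 k x).2]
      have h5 := mul_le_mul_of_nonneg_right h4 (norm_nonneg (S.G p x))
      have h6 := mul_le_mul_of_nonneg_left a3 (norm_nonneg (p x))
      linarith
    · filter_upwards [hDa, hgc, hGc0] with x a1 a2 a3
      simp only [a1, a2]
      have h4 : Tendsto (fun k => c k x • S.G p x) atTop (𝓝 ((1:ℝ) • S.G p x)) :=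
        (hc1 x).smul_const _
      have h5 : Tendsto (fun k => p x • S.G (c k) x) atTop (𝓝 (p x • (0:F))) :=
        (tendsto_zero_iff_norm_tendsto_zero.2 a3).const_smul _
      have h6 := h4.add h5
      simpa using h6
  obtain ⟨hwV, hD⟩ := S.D_closed (fun k => S.tL_mem (hT k)) t1 t2
  exact ⟨hwV, by rw [hD]; exact hgc⟩

end GradS

end Crest.Agent.R247.Dir593
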