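import Crest.Agent.R247.Dir5_593

/-!
R247, block (5) abstract half (helper593): order properties of the resolvent family
(comparison principle, supersolutions, `R_{h/4} l ≤ 4 R_h l`, `R_{h/4} v ≤ (4/3) v`,
`R_h R_h l ≤ (16/3) R_{4h} l`).
-/

set_option autoImplicit false
set_option linter.unusedSectionVars false

open MeasureTheory Filter Topology Set
open scoped RealInnerProductSpace ENNReal NNReal

noncomputable section

namespace Crest.Agent.R247.Dir593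

open Crest.Agent.R242

section FnlOps

variable {H : Type*} [NormedAddCommGroup H] [InnerProductSpace ℝ H] {Q : CForm H}

/-- sum of functionals -/
def Fnl.add (l l' : Fnl Q) : Fnl Q where
  f := fun p => l.f p + l'.f p
  add' := fun hu hv => by rw [l.add' hu hv, l'.add' hu hv]; ring
  smul' := fun c _ hu => by rw [l.smul' c hu, l'.smul' c hu]; ring
  C := l.C + l'.C
  C0 := add_nonneg l.C0 l'.C0
  bound := by
    intro u hu
    rw [add_mul]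
    exact (abs_add_le _ _).trans (add_le_add (l.bound hu) (l'.bound hu))

/-- scalar multiple -/
def Fnl.smul (c : ℝ) (l : Fnl Q) : Fnl Q where
  f := fun p => c * l.f p
  add' := fun hu hv => by rw [l.add' hu hv]; ring
  smul' := fun c' _ hu => by rw [l.smul' c' hu]; ring
  C := |c| * l.C
  C0 := mul_nonneg (abs_nonneg _) l.C0
  bound := by
    intro u hu
    rw [abs_mul, mul_assoc]
    exact mul_le_mul_of_nonneg_left (l.bound hu) (abs_nonneg _)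

/-- the functional `p ↦ E(v, p)` -/
def Fnl.ofE (Q : CForm H) {v : H} (hv : v ∈ Q.dom) : Fnl Q where
  f := fun p => Q.E v p
  add' := fun hu hw => Q.add_right hv hu hw
  smul' := fun c _ hu => Q.smul_right c hv hu
  C := Real.sqrt (Q.E v v)
  C0 := Real.sqrt_nonneg _
  bound := by
    intro u hu
    refine (Q.abs_le_sqrt hv hu).trans ?_
    refine mul_le_mul_of_nonneg_left (Real.sqrt_le_sqrt ?_) (Real.sqrt_nonneg _)
    linarith [sq_nonneg ‖u‖]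

variable [CompleteSpace H]

theorem resD_add {h : ℝ} (hh : 0 < h) (l l' : Fnl Q) :
    resD Q h (l.add l') = resD Q h l + resD Q h l' := by
  symm
  refine eq_resD hh (Q.dom.add_mem (resD_mem hh l) (resD_mem hh l')) fun v hv => ?_
  rw [Q.add_left (resD_mem hh l) (resD_mem hh l') hv, inner_add_left]
  have h1 := resD_eq hh l hv
  have h2 := resD_eq hh l' hv
  show _ = l.f v + l'.f v
  rw [← h1, ← h2]; ring

theorem resD_smul {h : ℝ} (hh : 0 < h) (c : ℝ) (l : Fnl Q) :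
    resD Q h (l.smul c) = c • resD Q h l := by
  symm
  refine eq_resD hh (Q.dom.smul_mem c (resD_mem hh l)) fun v hv => ?_
  rw [Q.smul_left c (resD_mem hh l) hv, real_inner_smul_left]
  have h1 := resD_eq hh l hv
  show _ = c * l.f v
  rw [← h1]; ring

/-- `v` is the resolvent of its own functional -/
theorem resD_self {h : ℝ} (hh : 0 < h) {v : H} (hv : v ∈ Q.dom) :
    v = resD Q h (((Fnl.ofE Q hv).smul h).add (Fnl.ofInner Q v)) := by
  refine eq_resD hh hv fun p _ => ?_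
  rfl

/-- functionals that agree on the domain -/
theorem resD_congr {h : ℝ} (hh : 0 < h) {l l' : Fnl Q} (e : ∀ p ∈ Q.dom, l.f p = l'.f p) :
    resD Q h l = resD Q h l' :=
  eq_resD hh (resD_mem hh l) fun v hv => by rw [resD_eq hh l hv, e v hv]

end FnlOps

section Order

variable {X : Type*} [MeasurableSpace X] {μ : Measure X} {Q : CForm (Lp ℝ 2 μ)} (hQ : Markov Q)

include hQ

namespace Markov

/-- monotonicity of the resolvent on functionals -/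
theorem resD_mono {h : ℝ} (hh : 0 < h) {l l' : Fnl Q}
    (hl : ∀ w ∈ Q.dom, 0 ≤ᵐ[μ] (w : X → ℝ) → l.f w ≤ l'.f w) :
    ∀ᵐ x ∂μ, (resD Q h l : Lp ℝ 2 μ) x ≤ (resD Q h l' : Lp ℝ 2 μ) x := by
  have h1 : 0 ≤ᵐ[μ] ((resD Q h (l'.add (l.smul (-1))) : Lp ℝ 2 μ) : X → ℝ) := by
    refine hQ.resD_nonneg hh fun w hw hw0 => ?_
    show 0 ≤ l'.f w + -1 * l.f w
    linarith [hl w hw hw0]
  rw [resD_add hh, resD_smul hh] at h1
  filter_upwards [h1, Lp.coeFn_add (resD Q h l') ((-1 : ℝ) • resD Q h l),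
    Lp.coeFn_smul (-1 : ℝ) (resD Q h l)] with x e1 e2 e3
  rw [e2, Pi.add_apply, e3, Pi.smul_apply, smul_eq_mul] at e1
  have e4 : (0:ℝ) ≤ (resD Q h l' : Lp ℝ 2 μ) x + -1 * (resD Q h l : Lp ℝ 2 μ) x := e1
  linarith

theorem res_mono {h : ℝ} (hh : 0 < h) {f g : Lp ℝ 2 μ} (hfg : ∀ᵐ x ∂μ, f x ≤ g x) :
    ∀ᵐ x ∂μ, Q.res h f x ≤ Q.res h g x :=
  (hQ.symMarkov_res hh).mono hfg

/-- comparison: `v` a supersolution of `(1 + h L) v ≥ l` dominates the resolvent -/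
theorem resD_le_super {h : ℝ} (hh : 0 < h) {l : Fnl Q} {v : Lp ℝ 2 μ} (hv : v ∈ Q.dom)
    (hs : ∀ w ∈ Q.dom, 0 ≤ᵐ[μ] (w : X → ℝ) → l.f w ≤ h * Q.E v w + ⟪v, w⟫) :
    ∀ᵐ x ∂μ, (resD Q h l : Lp ℝ 2 μ) x ≤ v x := by
  have := hQ.resD_mono hh (l := l) (l' := ((Fnl.ofE Q hv).smul h).add (Fnl.ofInner Q v)) hs
  rwa [← resD_self hh hv] at this

/-- comparison: subsolutions are dominated by the resolvent -/
theorem le_resD_sub {h : ℝ} (hh : 0 < h) {l : Fnl Q} {v : Lp ℝ 2 μ} (hv : v ∈ Q.dom)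
    (hs : ∀ w ∈ Q.dom, 0 ≤ᵐ[μ] (w : X → ℝ) → h * Q.E v w + ⟪v, w⟫ ≤ l.f w) :
    ∀ᵐ x ∂μ, v x ≤ (resD Q h l : Lp ℝ 2 μ) x := by
  have := hQ.resD_mono hh (l := ((Fnl.ofE Q hv).smul h).add (Fnl.ofInner Q v)) (l' := l) hs
  rwa [← resD_self hh hv] at this

/-- `R_g l ≤ (h/g) R_h l` for `g ≤ h`, `l ≥ 0`. -/
theorem resD_le_scale {g h : ℝ} (hg : 0 < g) (hgh : g ≤ h) {l : Fnl Q}
    (hl : ∀ w ∈ Q.dom, 0 ≤ᵐ[μ] (w : X → ℝ) → 0 ≤ l.f w) :
    ∀ᵐ x ∂μ, (resD Q g l : Lp ℝ 2 μ) x ≤ (h / g) * (resD Q h l : Lp ℝ 2 μ) x := by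
  have hh : 0 < h := lt_of_lt_of_le hg hgh
  have h1 := resD_resolvent hg hh l
  have h2 := hQ.resD_nonneg hh hl
  have h3 := hQ.res_nonneg hg h2
  have hr : 0 ≤ 1 - g / h := by
    rw [sub_nonneg, div_le_one hh]; exact hgh
  have h4 : ((resD Q h l : Lp ℝ 2 μ) : X → ℝ) =ᵐ[μ] fun x =>
      (g / h) * (resD Q g l : Lp ℝ 2 μ) x + (1 - g / h) * Q.res g (resD Q h l) x := by
    conv_lhs => rw [h1]
    filter_upwards [Lp.coeFn_add ((g / h) • (resD Q g l : Lp ℝ 2 μ))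
      ((1 - g / h) • Q.res g (resD Q h l)), Lp.coeFn_smul (g / h) (resD Q g l),
      Lp.coeFn_smul (1 - g / h) (Q.res g (resD Q h l))] with x e1 e2 e3
    rw [e1, Pi.add_apply, e2, e3]; rfl
  filter_upwards [h4, h3] with x e1 e2
  have e3 : (0:ℝ) ≤ Q.res g (resD Q h l) x := e2
  rw [e1]
  have e4 : h / g * (g / h * (resD Q g l : Lp ℝ 2 μ) x +
      (1 - g / h) * Q.res g (resD Q h l) x) = (resD Q g l : Lp ℝ 2 μ) x +
      (h / g) * ((1 - g / h) * Q.res g (resD Q h l) x) := by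
    field_simp
  rw [e4]
  have : 0 ≤ (h / g) * ((1 - g / h) * Q.res g (resD Q h l) x) := by positivity
  linarith

/-- an `h`-supersolution `v` satisfies `(1 - g/h) R_g v ≤ v` for `g ≤ h`. -/
theorem res_le_super_scale {g h : ℝ} (hg : 0 < g) (hh : 0 < h) {v : Lp ℝ 2 μ} (hv : v ∈ Q.dom)
    (hs : ∀ w ∈ Q.dom, 0 ≤ᵐ[μ] (w : X → ℝ) → 0 ≤ h * Q.E v w + ⟪v, w⟫) :
    ∀ᵐ x ∂μ, (1 - g / h) * Q.res g v x ≤ v x := by
  have h1 := hQ.resD_le_super hg (l := (Fnl.ofInner Q v).smul (1 - g / h)) hv (fun w hw hw0 => by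
    show (1 - g / h) * ⟪v, w⟫ ≤ g * Q.E v w + ⟪v, w⟫
    have h2 := hs w hw hw0
    have h3 : 0 ≤ (g / h) * (h * Q.E v w + ⟪v, w⟫) := mul_nonneg (by positivity) h2
    have h4 : (g / h) * (h * Q.E v w + ⟪v, w⟫) = g * Q.E v w + (g / h) * ⟪v, w⟫ := by
      field_simp
    rw [h4] at h3
    linarith)
  rw [resD_smul hg, resD_ofInner hg] at h1
  filter_upwards [h1, Lp.coeFn_smul (1 - g / h) (Q.res g v)] with x e1 e2
  rw [e2, Pi.smul_apply, smul_eq_mul] at e1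
  exact e1

omit hQ in
/-- the resolvent of a positive functional is a supersolution -/
theorem resD_super {h : ℝ} (hh : 0 < h) {l : Fnl Q}
    (hl : ∀ w ∈ Q.dom, 0 ≤ᵐ[μ] (w : X → ℝ) → 0 ≤ l.f w) :
    ∀ w ∈ Q.dom, 0 ≤ᵐ[μ] (w : X → ℝ) →
      0 ≤ h * Q.E (resD Q h l) w + ⟪resD Q h l, w⟫ := fun w hw hw0 => by
  rw [resD_eq hh l hw]; exact hl w hw hw0

/-- supersolutions are nonnegative -/
theorem super_nonneg {h : ℝ} (hh : 0 < h) {v : Lp ℝ 2 μ} (hv : v ∈ Q.dom)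
    (hs : ∀ w ∈ Q.dom, 0 ≤ᵐ[μ] (w : X → ℝ) → 0 ≤ h * Q.E v w + ⟪v, w⟫) :
    ∀ᵐ x ∂μ, 0 ≤ v x := by
  have h1 := hQ.resD_nonneg hh (l := ((Fnl.ofE Q hv).smul h).add (Fnl.ofInner Q v)) hs
  rw [← resD_self hh hv] at h1
  exact h1

/-- (R4): `R_{h/4} l ≤ 4 R_h l` -/
theorem resD_quarter_le {h : ℝ} (hh : 0 < h) {l : Fnl Q}
    (hl : ∀ w ∈ Q.dom, 0 ≤ᵐ[μ] (w : X → ℝ) → 0 ≤ l.f w) :
    ∀ᵐ x ∂μ, (resD Q (h / 4) l : Lp ℝ 2 μ) x ≤ 4 * (resD Q h l : Lp ℝ 2 μ) x := by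
  filter_upwards [hQ.resD_le_scale (g := h / 4) (h := h) (by linarith) (by linarith) hl] with x hx
  have e : h / (h / 4) = 4 := by field_simp
  rwa [e] at hx

/-- (R4): an `h`-supersolution satisfies `R_{h/4} v ≤ (4/3) v` -/
theorem res_quarter_super {h : ℝ} (hh : 0 < h) {v : Lp ℝ 2 μ} (hv : v ∈ Q.dom)
    (hs : ∀ w ∈ Q.dom, 0 ≤ᵐ[μ] (w : X → ℝ) → 0 ≤ h * Q.E v w + ⟪v, w⟫) :
    ∀ᵐ x ∂μ, Q.res (h / 4) v x ≤ (4 / 3) * v x := by
  filter_upwards [hQ.res_le_super_scale (g := h / 4) (h := h) (by linarith) hh hv hs] with x hx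
  have e : h / 4 / h = 1 / 4 := by field_simp
  rw [e] at hx
  linarith

/-- (R4): `R_h R_h l ≤ (16/3) R_{4h} l` -/
theorem res_resD_le {h : ℝ} (hh : 0 < h) {l : Fnl Q}
    (hl : ∀ w ∈ Q.dom, 0 ≤ᵐ[μ] (w : X → ℝ) → 0 ≤ l.f w) :
    ∀ᵐ x ∂μ, Q.res h (resD Q h l) x ≤ (16 / 3) * (resD Q (4 * h) l : Lp ℝ 2 μ) x := by
  have h4 : 0 < 4 * h := by linarith
  have h1 : ∀ᵐ x ∂μ, (resD Q h l : Lp ℝ 2 μ) x ≤ ((4:ℝ) • (resD Q (4 * h) l : Lp ℝ 2 μ) : Lp ℝ 2 μ) x := by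
    have := hQ.resD_quarter_le h4 hl
    rw [show 4 * h / 4 = h by ring] at this
    filter_upwards [this, Lp.coeFn_smul (4:ℝ) (resD Q (4 * h) l : Lp ℝ 2 μ)] with x e1 e2
    rw [e2, Pi.smul_apply, smul_eq_mul]; exact e1
  have h2 := hQ.res_mono hh h1
  rw [map_smul] at h2
  have h3 := hQ.res_quarter_super h4 (resD_mem h4 l) (resD_super h4 hl)
  rw [show 4 * h / 4 = h by ring] at h3
  filter_upwards [h2, h3, Lp.coeFn_smul (4:ℝ) (Q.res h (resD Q (4 * h) l))] with x e1 e2 e3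
  rw [e3, Pi.smul_apply, smul_eq_mul] at e1
  linarith

end Markov

end Order

end Crest.Agent.R247.Dir593
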