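import Crest.Agent.R247.Mcp4_688

/-! # Calculus along the rays and the law of the rays -/

set_option autoImplicit false
set_option linter.unusedSectionVars false
open MeasureTheory Set Filter Topology
open scoped ENNReal NNReal

noncomputable section
namespace Crest.Agent.R247.Mcp688

variable {n : ℕ} {κ : ℝ} {X : Type*} [MetricSpace X] [MeasurableSpace X] [BorelSpace X]
  {μ : Measure X}

namespace Rad
variable (C : Rad n κ X μ)

include C in
/-- an a.e. property holds at almost every point of almost every ray -/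
lemma ae_ray [SFinite μ] (x : X) {p : X → Prop} (hp : ∀ᵐ z ∂μ, p z) :
    ∀ᵐ w ∂μ, ∀ᵐ t ∂(volume.restrict (Ioc (0 : ℝ) 1)), p (C.T x t w) := by
  obtain ⟨N, hN1, hN2, hN3⟩ := exists_measurable_superset_of_null (μ := μ) (s := {z | ¬ p z}) hp
  have hmeas : Measurable (fun q : X × ℝ => N.indicator (fun _ => (1 : ℝ≥0∞)) (C.T x q.2 q.1)) :=
    (measurable_const.indicator hN2).comp
      (C.measT.comp (measurable_const.prodMk (measurable_snd.prodMk measurable_fst)))
  have h0 : ∫⁻ w, ∫⁻ t in Ioc (0 : ℝ) 1, N.indicator (fun _ => (1 : ℝ≥0∞)) (C.T x t w) ∂volume ∂μ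
      = 0 := by
    rw [lintegral_lintegral_swap hmeas.aemeasurable]
    rw [lintegral_eq_zero_iff' ?_]
    · refine (ae_restrict_mem measurableSet_Ioc).mono fun t ht => ?_
      have h1 := C.lintegral_T_le x ht (g := N.indicator (fun _ => (1 : ℝ≥0∞)))
        (measurable_const.indicator hN2)
      have h2 : ∫⁻ z, N.indicator (fun _ => (1 : ℝ≥0∞)) z ∂(wm μ κ x) = 0 := by
        rw [lintegral_indicator_const hN2, one_mul, wm_eq_zero_iff]
        exact hN3
      rw [h2, mul_zero, nonpos_iff_eq_zero] at h1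
      have hm1 : Measurable fun z => N.indicator (fun _ => (1 : ℝ≥0∞)) (C.T x t z) :=
        (measurable_const.indicator hN2).comp (C.measT_xt x t)
      have h3 := (lintegral_eq_zero_iff hm1).1 h1
      show ∫⁻ w, N.indicator (fun _ => (1 : ℝ≥0∞)) (C.T x t w) ∂μ = 0
      rw [lintegral_eq_zero_iff hm1]
      exact (ae_wm_iff μ x κ).1 h3
    · exact (Measurable.lintegral_prod_left' (f := fun q : X × ℝ =>
        N.indicator (fun _ => (1 : ℝ≥0∞)) (C.T x q.2 q.1)) hmeas).aemeasurable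
  have h1 := (lintegral_eq_zero_iff (Measurable.lintegral_prod_right' hmeas)).1 h0
  filter_upwards [h1] with w hw
  have hm2 : Measurable fun t => N.indicator (fun _ => (1 : ℝ≥0∞)) (C.T x t w) :=
    hmeas.comp (measurable_const.prodMk measurable_id)
  have h2 := (lintegral_eq_zero_iff hm2).1 hw
  filter_upwards [h2] with t ht
  by_contra hcon
  have : C.T x t w ∈ N := hN1 hcon
  simp [this] at ht

/-- derivative along a ray in terms of the radial derivative at the point -/
lemma deriv_ray {x w : X} (hU : (x, w) ∈ C.U) {q : X → ℝ} {t d : ℝ} (ht : t ∈ Ioc (0 : ℝ) 1)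
    (hz : HasDerivWithinAt (fun s : ℝ => q (C.T x s (C.T x t w))) d (Iio 1) 1)
    (hd : DifferentiableAt ℝ (fun s : ℝ => q (C.T x s w)) t) :
    deriv (fun s : ℝ => q (C.T x s w)) t = d / t := by
  set h : ℝ → ℝ := fun s => q (C.T x s w) with hh
  have h1 : HasDerivAt (fun s : ℝ => s * t) t 1 := by
    simpa using (hasDerivAt_id (1 : ℝ)).mul_const t
  have h2 : HasDerivAt h (deriv h t) (1 * t) := by rw [one_mul]; exact hd.hasDerivAt
  have h3 : HasDerivWithinAt (fun s : ℝ => h (s * t)) (deriv h t * t) (Iio 1) 1 :=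
    (HasDerivAt.comp (1 : ℝ) (h := fun s : ℝ => s * t) (h₂ := h) h2 h1).hasDerivWithinAt
  have h4 : HasDerivWithinAt (fun s : ℝ => q (C.T x s (C.T x t w))) (deriv h t * t) (Iio 1) 1 := by
    refine h3.congr_of_eventuallyEq ?_ ?_
    · filter_upwards [Ioo_mem_nhdsLT (zero_lt_one' ℝ)] with s hs
      rw [C.comp x w hU s ⟨hs.1.le, hs.2.le⟩ t ht]
    · rw [C.comp x w hU 1 ⟨zero_le_one, le_refl _⟩ t ht]
  have h5 := (uniqueDiffWithinAt_Iio (1 : ℝ)).eq_deriv _ hz h4
  have := ht.1.ne'
  rw [h5]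
  field_simp

include C in
/-- **Fundamental theorem of calculus along almost every ray.** -/
theorem ray_ftc [SFinite μ] (x : X) {q D : X → ℝ} (hD : RD C x q D)
    (hL : ∀ R, ∃ L, ∀ y z, dist x y ≤ R → dist x z ≤ R → |q y - q z| ≤ L * dist y z) :
    ∀ᵐ w ∂μ, ∀ a b : ℝ, 0 < a → a ≤ b → b ≤ 1 →
      IntervalIntegrable (fun t => D (C.T x t w) / t) volume a b ∧
      ∫ t in a..b, D (C.T x t w) / t = q (C.T x b w) - q (C.T x a w) := by
  filter_upwards [C.ae_ray x hD, C.ae_U x] with w hw hU a b ha hab hb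
  obtain ⟨L, hL⟩ := hL (dist x w)
  set h : ℝ → ℝ := fun s => q (C.T x s w) with hh
  have hLip : LipschitzOnWith (Real.toNNReal (|L| * dist x w)) h (uIcc a b) := by
    rw [uIcc_of_le hab]
    apply LipschitzOnWith.of_dist_le_mul
    intro s hs t ht
    have hs' : s ∈ Icc (0 : ℝ) 1 := ⟨ha.le.trans hs.1, hs.2.trans hb⟩
    have ht' : t ∈ Icc (0 : ℝ) 1 := ⟨ha.le.trans ht.1, ht.2.trans hb⟩
    rw [Real.coe_toNNReal _ (by positivity), Real.dist_eq, Real.dist_eq]
    calc |h s - h t| ≤ L * dist (C.T x s w) (C.T x t w) := by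
          apply hL
          · rw [C.dist_left hU hs']
            calc s * dist x w ≤ 1 * dist x w := by gcongr; exact hs'.2
              _ = _ := one_mul _
          · rw [C.dist_left hU ht']
            calc t * dist x w ≤ 1 * dist x w := by gcongr; exact ht'.2
              _ = _ := one_mul _
      _ ≤ |L| * dist (C.T x s w) (C.T x t w) := by gcongr; exact le_abs_self L
      _ = _ := by rw [C.dist_T x w hU s hs' t ht']; ring
  have hac := hLip.absolutelyContinuousOnInterval
  have hderiv : ∀ᵐ t ∂volume, t ∈ uIoc a b → deriv h t = D (C.T x t w) / t := by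
    have h1 : ∀ᵐ t ∂(volume : Measure ℝ), t ∈ Ioc (0 : ℝ) 1 →
        HasDerivWithinAt (fun s : ℝ => q (C.T x s (C.T x t w))) (D (C.T x t w)) (Iio 1) 1 :=
      (ae_restrict_iff' measurableSet_Ioc).1 hw
    filter_upwards [h1, hac.ae_differentiableAt] with t ht1 ht2 ht3
    rw [uIoc_of_le hab] at ht3
    have ht4 : t ∈ Ioc (0 : ℝ) 1 := ⟨ha.trans ht3.1, ht3.2.trans hb⟩
    exact C.deriv_ray hU ht4 (ht1 ht4) (ht2 (by rw [uIcc_of_le hab]; exact ⟨ht3.1.le, ht3.2⟩))
  constructor
  · refine (hac.intervalIntegrable_deriv).congr_ae ?_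
    exact (ae_restrict_iff' measurableSet_uIoc).2 hderiv
  · rw [← hac.integral_deriv_eq_sub]
    exact (intervalIntegral.integral_congr_ae hderiv).symm

/-- the law of the rays has bounded density -/
theorem ray_lintegral_le [SFinite μ] (hκ : 0 ≤ κ) (x : X) {a b R : ℝ} (ha : 0 < a)
    (hb : b ≤ 1) {A W : Set X} (hA : MeasurableSet A) (hW : MeasurableSet W)
    (hR : ∀ z ∈ A, dist x z ≤ R)
    (hAW : ∀ z ∈ A, (x, z) ∈ C.U → ∀ t ∈ Icc a b, C.T x t z ∈ W) {g : X → ℝ≥0∞}
    (hg : Measurable g) :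
    ∫⁻ w in A, ∫⁻ t in Icc a b, g (C.T x t w) ∂volume ∂μ ≤
      ENNReal.ofReal (Real.exp (κ * R ^ 2 / 2) * (a⁻¹) ^ n * (b - a)) * ∫⁻ y in W, g y ∂μ := by
  rcases lt_or_ge b a with hab | hab
  · rw [Icc_eq_empty (not_le.2 hab)]
    simp
  have hmeas : Measurable (fun p : X × ℝ => g (C.T x p.2 p.1)) :=
    hg.comp (C.measT.comp (measurable_const.prodMk (measurable_snd.prodMk measurable_fst)))
  rw [lintegral_lintegral_swap hmeas.aemeasurable]
  calc ∫⁻ t in Icc a b, ∫⁻ w in A, g (C.T x t w) ∂μ ∂volume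
      ≤ ∫⁻ _ in Icc a b, ENNReal.ofReal (Real.exp (κ * R ^ 2 / 2) * (a⁻¹) ^ n) *
          ∫⁻ y in W, g y ∂μ ∂volume := by
        apply setLIntegral_mono measurable_const
        intro t ht
        have ht0 : 0 < t := ha.trans_le ht.1
        refine (C.setLIntegral_T_le hκ x ⟨ht0, ht.2.trans hb⟩ hA hW hR
          (fun z hz hU => hAW z hz hU t ht) hg).trans ?_
        refine mul_le_mul_left (ENNReal.ofReal_le_ofReal ?_) _
        have : t⁻¹ ≤ a⁻¹ := inv_anti₀ ha ht.1
        have : 0 ≤ t⁻¹ := (inv_pos.2 ht0).le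
        gcongr
    _ = _ := by
        rw [setLIntegral_const, Real.volume_Icc, mul_right_comm,
          ← ENNReal.ofReal_mul (by positivity)]

end Rad

/-- local Lipschitz bound for the radial derivative -/
lemma RD.abs_le_local {C : Rad n κ X μ} {x : X} {q D : X → ℝ} (h : RD C x q D) {L R : ℝ}
    (hL : ∀ y z, dist x y ≤ R → dist x z ≤ R → |q y - q z| ≤ L * dist y z) :
    ∀ᵐ z ∂μ, dist x z ≤ R → |D z| ≤ L * dist x z := by
  filter_upwards [h.tendsto, C.ae_U x] with z hz hU hR
  refine le_of_tendsto hz.abs (Eventually.of_forall fun k => ?_)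
  set t : ℝ := 1 - 1 / ((k : ℝ) + 2) with ht
  have h0 : (0 : ℝ) < 1 / ((k : ℝ) + 2) := by positivity
  have h1 : 1 / ((k : ℝ) + 2) ≤ 1 := by
    rw [div_le_one (by positivity)]
    have : (0 : ℝ) ≤ k := Nat.cast_nonneg k
    linarith
  have ht1 : t ∈ Icc (0 : ℝ) 1 := ⟨by linarith, by linarith⟩
  have h2 := hL (C.T x t z) z (by
    rw [C.dist_left hU ht1]
    calc t * dist x z ≤ 1 * dist x z := by gcongr; exact ht1.2
      _ ≤ R := by rw [one_mul]; exact hR) hR
  rw [C.dist_right hU ht1] at h2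
  rw [abs_div, abs_sub_comm t 1, abs_of_pos (by linarith : (0 : ℝ) < 1 - t),
    div_le_iff₀ (by linarith)]
  calc |q (C.T x t z) - q z| ≤ L * ((1 - t) * dist x z) := h2
    _ = _ := by ring

namespace Rad
variable (C : Rad n κ X μ)

include C in
/-- **Averaged fundamental theorem of calculus along the rays**: for every finite `ν ≪ μ`
carried by a bounded set. -/
theorem ray_avg [SFinite μ] (x : X) {q D : X → ℝ} (hDm : Measurable D)
    (hD : RD C x q D)
    (hL : ∀ R, ∃ L, ∀ y z, dist x y ≤ R → dist x z ≤ R → |q y - q z| ≤ L * dist y z)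
    {ν : Measure X} [IsFiniteMeasure ν] (hν : ν ≪ μ) {R : ℝ} (hR : ∀ᵐ w ∂ν, dist x w ≤ R)
    {a b : ℝ} (ha : 0 < a) (hab : a ≤ b) (hb : b ≤ 1) :
    ∫ w, (q (C.T x b w) - q (C.T x a w)) ∂ν =
      ∫ t in a..b, (t⁻¹ * ∫ w, D (C.T x t w) ∂ν) := by
  obtain ⟨L, hLR⟩ := hL R
  have hDb : ∀ᵐ w ∂ν, ∀ᵐ t ∂(volume.restrict (Ioc a b)), |D (C.T x t w) / t| ≤ |L| * |R| / a := by
    have h1 := C.ae_ray x (hD.abs_le_local hLR)
    filter_upwards [hν.ae_le h1, hν.ae_le (C.ae_U x), hR] with w hw hU hwR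
    have h2 : ∀ᵐ t ∂(volume.restrict (Ioc a b)), dist x (C.T x t w) ≤ R →
        |D (C.T x t w)| ≤ L * dist x (C.T x t w) :=
      ae_restrict_of_ae_restrict_of_subset (Ioc_subset_Ioc ha.le hb) hw
    filter_upwards [h2, ae_restrict_mem measurableSet_Ioc] with t ht htm
    have ht' : t ∈ Icc (0 : ℝ) 1 := ⟨ha.le.trans htm.1.le, htm.2.trans hb⟩
    have hdl := C.dist_left hU ht'
    have hd2 : t * dist x w ≤ dist x w := by
      have := mul_le_mul_of_nonneg_right ht'.2 (dist_nonneg (x := x) (y := w))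
      rwa [one_mul] at this
    have h3 := ht (by rw [hdl]; linarith)
    have ht0 : 0 < t := ha.trans htm.1
    rw [abs_div, abs_of_pos ht0]
    have h4 : |D (C.T x t w)| ≤ |L| * |R| := by
      refine h3.trans ?_
      rw [hdl]
      calc L * (t * dist x w) ≤ |L| * (t * dist x w) := by gcongr; exact le_abs_self L
        _ ≤ |L| * |R| := by gcongr; exact (hd2.trans hwR).trans (le_abs_self R)
    calc |D (C.T x t w)| / t ≤ |L| * |R| / t := by gcongr
      _ ≤ |L| * |R| / a := by gcongr; exact htm.1.le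
  have hm : Measurable (fun p : X × ℝ => D (C.T x p.2 p.1) / p.2) :=
    (hDm.comp (C.measT.comp (measurable_const.prodMk
      (measurable_snd.prodMk measurable_fst)))).div measurable_snd
  have hI : Integrable (fun p : X × ℝ => D (C.T x p.2 p.1) / p.2)
      (ν.prod (volume.restrict (Ioc a b))) := by
    refine Integrable.mono' (integrable_const (|L| * |R| / a)) hm.aestronglyMeasurable ?_
    have hset : MeasurableSet {p : X × ℝ | ‖D (C.T x p.2 p.1) / p.2‖ ≤ |L| * |R| / a} :=
      measurableSet_le hm.norm measurable_const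
    exact (Measure.ae_prod_iff_ae_ae
      (p := fun q : X × ℝ => ‖D (C.T x q.2 q.1) / q.2‖ ≤ |L| * |R| / a) hset).2 hDb
  have h1 : ∫ w, (q (C.T x b w) - q (C.T x a w)) ∂ν =
      ∫ w, ∫ t in Ioc a b, D (C.T x t w) / t ∂volume ∂ν := by
    apply integral_congr_ae
    filter_upwards [hν.ae_le (C.ray_ftc x hD hL)] with w hw
    rw [← (hw a b ha hab hb).2, intervalIntegral.integral_of_le hab]
  rw [h1, integral_integral_swap hI, intervalIntegral.integral_of_le hab]
  apply integral_congr_ae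
  refine Eventually.of_forall fun t => ?_
  show ∫ w, D (C.T x t w) / t ∂ν = t⁻¹ * ∫ w, D (C.T x t w) ∂ν
  rw [integral_div, div_eq_inv_mul]

end Rad

/-- the weight of the Dirichlet–Poincaré inequality -/
def hw (m : ℕ) (r s : ℝ) : ℝ := ((max s r)⁻¹) ^ m

/-- its left derivative -/
def hw' (m : ℕ) (r s : ℝ) : ℝ := if r < s then m * (s⁻¹) ^ (m - 1) * (-(s ^ 2)⁻¹) else 0

lemma hw_pos (m : ℕ) {r : ℝ} (hr : 0 < r) (s : ℝ) : 0 < hw m r s := by
  have : 0 < max s r := lt_max_of_lt_right hr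
  unfold hw; positivity

lemma hw_le (m : ℕ) {r : ℝ} (hr : 0 < r) (s : ℝ) : hw m r s ≤ (r⁻¹) ^ m := by
  have h1 : 0 < max s r := lt_max_of_lt_right hr
  have h2 : (max s r)⁻¹ ≤ r⁻¹ := inv_anti₀ hr (le_max_right _ _)
  unfold hw
  gcongr

lemma hw_lip (m : ℕ) {r : ℝ} (hr : 0 < r) (s t : ℝ) :
    |hw m r s - hw m r t| ≤ m * (r⁻¹) ^ (m - 1) * (r⁻¹ * r⁻¹) * |s - t| := by
  have hs : 0 < max s r := lt_max_of_lt_right hr
  have ht : 0 < max t r := lt_max_of_lt_right hr
  have h1 : |(max s r)⁻¹ - (max t r)⁻¹| ≤ r⁻¹ * r⁻¹ * |s - t| := by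
    have e : (max s r)⁻¹ - (max t r)⁻¹ = (max s r)⁻¹ * (max t r)⁻¹ * (max t r - max s r) := by
      field_simp
    rw [e, abs_mul, abs_mul, abs_of_pos (inv_pos.2 hs), abs_of_pos (inv_pos.2 ht)]
    have h2 : (max s r)⁻¹ ≤ r⁻¹ := inv_anti₀ hr (le_max_right _ _)
    have h3 : (max t r)⁻¹ ≤ r⁻¹ := inv_anti₀ hr (le_max_right _ _)
    have h4 : |max t r - max s r| ≤ |s - t| := by
      rw [abs_sub_comm s t]
      exact abs_max_sub_max_le_abs t s r
    have := (inv_pos.2 hr).le
    have := (inv_pos.2 hs).le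
    have := (inv_pos.2 ht).le
    gcongr
  have h2 : |hw m r s - hw m r t| ≤ |(max s r)⁻¹ - (max t r)⁻¹| * m * (r⁻¹) ^ (m - 1) := by
    have := abs_pow_sub_pow_le ((max s r)⁻¹) ((max t r)⁻¹) m
    refine this.trans ?_
    gcongr
    rw [abs_of_pos (inv_pos.2 hs), abs_of_pos (inv_pos.2 ht)]
    exact max_le (inv_anti₀ hr (le_max_right _ _)) (inv_anti₀ hr (le_max_right _ _))
  refine h2.trans ?_
  have h3 : 0 ≤ (m : ℝ) * (r⁻¹) ^ (m - 1) := by positivity
  nlinarith [mul_le_mul_of_nonneg_right h1 h3]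

lemma hasDerivWithinAt_hw (m : ℕ) {r s : ℝ} (hr : 0 < r) :
    HasDerivWithinAt (hw m r) (hw' m r s) (Iio s) s := by
  rcases le_or_gt s r with h | h
  · have e : hw' m r s = 0 := by rw [hw', if_neg (not_lt.2 h)]
    rw [e]
    refine (hasDerivWithinAt_const s (Iio s) ((r⁻¹) ^ m)).congr (fun t ht => ?_) ?_
    · have : t < s := ht
      rw [hw, max_eq_right (by linarith)]
    · rw [hw, max_eq_right h]
  · have e : hw' m r s = m * (s⁻¹) ^ (m - 1) * (-(s ^ 2)⁻¹) := by rw [hw', if_pos h]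
    rw [e]
    have hs : s ≠ 0 := (hr.trans h).ne'
    have h1 : HasDerivAt (fun t : ℝ => (t⁻¹) ^ m) (m * (s⁻¹) ^ (m - 1) * (-(s ^ 2)⁻¹)) s :=
      (hasDerivAt_inv hs).fun_pow m
    refine h1.hasDerivWithinAt.congr_of_eventuallyEq ?_ ?_
    · filter_upwards [mem_nhdsWithin_of_mem_nhds (lt_mem_nhds h)] with t ht
      rw [hw, max_eq_left ht.le]
    · rw [hw, max_eq_left h.le]

lemma hw'_mul {m : ℕ} (hm : 1 ≤ m) {r s : ℝ} (hr : 0 < r) (h : r < s) :
    hw' m r s * s = -(m * hw m r s) := by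
  have hs : s ≠ 0 := (hr.trans h).ne'
  rw [hw', if_pos h, hw, max_eq_left h.le]
  obtain ⟨k, rfl⟩ : ∃ k, m = k + 1 := ⟨m - 1, by omega⟩
  simp only [Nat.add_sub_cancel, pow_succ]
  field_simp

lemma continuous_hw (m : ℕ) {r : ℝ} (hr : 0 < r) : Continuous (hw m r) := by
  unfold hw
  refine (Continuous.inv₀ (by fun_prop) fun s => ?_).pow m
  exact (lt_max_of_lt_right hr).ne'

namespace Rad
variable (C : Rad n κ X μ)

/-- **Dirichlet–Poincaré inequality** in a ball `B_r(x)`, from a point `y` with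
`5r/2 ≤ d(x,y) ≤ 3r`.  `G` is any function with `|D_y p| ≤ d_y G` a.e. -/
theorem dirichlet_poincare (hκ : 0 ≤ κ) (x y : X) {r : ℝ} (hr : 0 < r)
    (hxy1 : 5 / 2 * r ≤ dist x y) (hxy2 : dist x y ≤ 3 * r) (hκr : κ * (4 * r) ^ 2 ≤ 1)
    (hfin : μ (Metric.closedBall x r) ≠ ∞) {p D G : X → ℝ} (hp : Measurable p) {L : ℝ}
    (hL : ∀ u z, |p u - p z| ≤ L * dist u z) (hsupp : ∀ z, r < dist x z → p z = 0)
    (hD : RD C y p D) (hG : ∀ᵐ z ∂μ, |D z| ≤ dist y z * G z)
    (hGI : IntegrableOn (fun z => G z ^ 2) (Metric.closedBall x r) μ) :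
    ∫ z, p z ^ 2 ∂μ ≤ 64 * 4 ^ (n + 2) * r ^ 2 * ∫ z in Metric.closedBall x r, G z ^ 2 ∂μ := by
  set m : ℕ := n + 2 with hmdef
  have hmb : MeasurableSet (Metric.closedBall x r) := Metric.isClosed_closedBall.measurableSet
  set P : ℝ := |p x| + |L| * r with hP
  have hP0 : 0 ≤ P := by positivity
  have hpb : ∀ z, |p z| ≤ P := by
    intro z
    by_cases hz : dist x z ≤ r
    · have h1 := hL z x
      have h2 : |p z| ≤ |p x| + |p z - p x| := by
        have := abs_add_le (p x) (p z - p x)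
        simpa using this
      have h3 : L * dist z x ≤ |L| * r := by
        rw [dist_comm]
        calc L * dist x z ≤ |L| * dist x z := by gcongr; exact le_abs_self L
          _ ≤ _ := by gcongr
      linarith
    · rw [hsupp z (not_le.1 hz), abs_zero]; exact hP0
  have hmd : Measurable fun z => dist y z := (continuous_const.dist continuous_id).measurable
  have hhm : Measurable fun z => hw m r (dist y z) := (continuous_hw m hr).measurable.comp hmd
  have hRDh : RD C y (fun z => hw m r (dist y z)) (fun z => hw' m r (dist y z) * dist y z) :=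
    RD.radial (Eventually.of_forall fun _ _ => hasDerivWithinAt_hw m hr)
  have hRD := (hD.mul hD).mul hRDh
  -- Lipschitz bound
  set K : ℝ := m * (r⁻¹) ^ (m - 1) * (r⁻¹ * r⁻¹) with hK
  have hK0 : 0 ≤ K := by positivity
  have hLip : ∀ u z, |p u * p u * hw m r (dist y u) - p z * p z * hw m r (dist y z)| ≤
      (2 * P * |L| * (r⁻¹) ^ m + P ^ 2 * K) * dist u z := by
    intro u z
    have e : p u * p u * hw m r (dist y u) - p z * p z * hw m r (dist y z) =
        (p u + p z) * (p u - p z) * hw m r (dist y u) +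
          p z * p z * (hw m r (dist y u) - hw m r (dist y z)) := by ring
    rw [e]
    have h1 : |p u + p z| ≤ 2 * P := by
      have := abs_add_le (p u) (p z); have := hpb u; have := hpb z; linarith
    have h2 : |p u - p z| ≤ |L| * dist u z := by
      calc |p u - p z| ≤ L * dist u z := hL u z
        _ ≤ _ := by gcongr; exact le_abs_self L
    have h3 : |hw m r (dist y u)| ≤ (r⁻¹) ^ m := by
      rw [abs_of_pos (hw_pos m hr _)]; exact hw_le m hr _
    have h4 : |p z * p z| ≤ P ^ 2 := by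
      rw [abs_mul, sq]; exact mul_le_mul (hpb z) (hpb z) (abs_nonneg _) hP0
    have h5 : |hw m r (dist y u) - hw m r (dist y z)| ≤ K * dist u z := by
      refine (hw_lip m hr _ _).trans ?_
      rw [← hK]
      apply mul_le_mul_of_nonneg_left _ hK0
      rw [abs_le]
      have h1 := dist_triangle y z u
      have h2 := dist_triangle y u z
      rw [dist_comm z u] at h1
      constructor <;> linarith
    calc |(p u + p z) * (p u - p z) * hw m r (dist y u) +
          p z * p z * (hw m r (dist y u) - hw m r (dist y z))|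
        ≤ |p u + p z| * |p u - p z| * |hw m r (dist y u)| +
          |p z * p z| * |hw m r (dist y u) - hw m r (dist y z)| := by
          refine (abs_add_le _ _).trans ?_
          rw [abs_mul, abs_mul, abs_mul (p z * p z)]
      _ ≤ 2 * P * (|L| * dist u z) * (r⁻¹) ^ m + P ^ 2 * (K * dist u z) := by
          have := dist_nonneg (x := u) (y := z)
          gcongr
      _ = _ := by ring
  have hsupp' : ∀ z, 4 * r < dist y z → p z * p z * hw m r (dist y z) = 0 := by
    intro z hz
    have h1 := dist_triangle y x z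
    rw [dist_comm y x] at h1
    rw [hsupp z (by linarith)]; ring
  have hfin' : μ (Metric.closedBall y (2 * (4 * r))) ≠ ∞ := by
    refine ne_top_of_le_ne_top (C.closedBall_ne_top hκ x hr (R := 11 * r) hfin)
      (measure_mono (Metric.closedBall_subset_closedBall' ?_))
    rw [dist_comm y x]; linarith
  obtain ⟨hI1, hI2, key⟩ := C.weak_lap' hκ y (φ := fun z => p z * p z * hw m r (dist y z))
    ((hp.mul hp).mul hhm) (fun z => mul_nonneg (mul_self_nonneg _) (hw_pos m hr _).le) hLip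
    (by positivity) hsupp' hfin' hRD
  -- integrability
  have hp2I : Integrable (fun z => p z ^ 2) μ := by
    have hb : Integrable ((Metric.closedBall x r).indicator fun _ => P ^ 2) μ :=
      (integrable_indicator_iff hmb).2 (integrableOn_const hfin)
    refine hb.mono' (hp.pow_const 2).aestronglyMeasurable (Eventually.of_forall fun z => ?_)
    by_cases hz : z ∈ Metric.closedBall x r
    · rw [indicator_of_mem hz, Real.norm_eq_abs, abs_pow]
      have := hpb z
      gcongr
    · rw [indicator_of_notMem hz]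
      rw [Metric.mem_closedBall, dist_comm, not_le] at hz
      rw [hsupp z hz]; simp
  have hGI' : Integrable ((Metric.closedBall x r).indicator fun z => G z ^ 2) μ :=
    (integrable_indicator_iff hmb).2 hGI
  have hpt : ∀ᵐ z ∂μ, (n + κ * dist y z ^ 2) * (p z * p z * hw m r (dist y z)) +
      ((D z * p z + p z * D z) * hw m r (dist y z) +
        p z * p z * (hw' m r (dist y z) * dist y z)) ≤
      -(1 / 2 * ((4 * r)⁻¹) ^ m) * p z ^ 2 +
        32 * r ^ 2 * (r⁻¹) ^ m * (Metric.closedBall x r).indicator (fun z => G z ^ 2) z := by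
    filter_upwards [hG] with z hz
    by_cases hzb : dist x z ≤ r
    · have hmem : z ∈ Metric.closedBall x r := by
        rw [Metric.mem_closedBall, dist_comm]; exact hzb
      rw [indicator_of_mem hmem]
      set d := dist y z with hd
      have hd1 : 3 / 2 * r ≤ d := by
        have h1 := dist_triangle x z y
        rw [dist_comm z y] at h1
        linarith
      have hd2 : d ≤ 4 * r := by
        have h1 := dist_triangle y x z
        rw [dist_comm y x] at h1
        linarith
      have hrd : r < d := by linarith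
      have hd0 : 0 < d := hr.trans hrd
      rw [hw'_mul (by omega) hr hrd]
      set H := hw m r d with hH
      have hH0 : 0 < H := hw_pos m hr _
      have hH1 : H ≤ (r⁻¹) ^ m := hw_le m hr _
      have hH2 : ((4 * r)⁻¹) ^ m ≤ H := by
        rw [hH, hw, max_eq_left hrd.le]
        have : (4 * r)⁻¹ ≤ d⁻¹ := inv_anti₀ hd0 hd2
        gcongr
      have hκd : κ * d ^ 2 ≤ 1 := by
        refine le_trans ?_ hκr
        gcongr
      have hmn : (m : ℝ) = n + 2 := by rw [hmdef]; push_cast; ring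
      rw [hmn]
      have h1 : 2 * (p z * D z) ≤ 1 / 2 * p z ^ 2 + 2 * (d * G z) ^ 2 := by
        have h2 : D z ^ 2 ≤ (d * G z) ^ 2 := by
          rw [← sq_abs (D z)]
          have := abs_nonneg (D z)
          gcongr
        nlinarith [sq_nonneg (p z - 2 * D z)]
      have h3 : (d * G z) ^ 2 ≤ 16 * r ^ 2 * G z ^ 2 := by
        rw [mul_pow]
        have : d ^ 2 ≤ 16 * r ^ 2 := by nlinarith
        have := sq_nonneg (G z)
        nlinarith
      have h4 : 0 ≤ p z ^ 2 := sq_nonneg _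
      have h5 : 0 ≤ G z ^ 2 := sq_nonneg _
      calc (n + κ * d ^ 2) * (p z * p z * H) +
          ((D z * p z + p z * D z) * H + p z * p z * -((n + 2) * H))
          = H * ((κ * d ^ 2 - 2) * p z ^ 2 + 2 * (p z * D z)) := by ring
        _ ≤ H * (-(1 / 2) * p z ^ 2 + 32 * r ^ 2 * G z ^ 2) := by
            apply mul_le_mul_of_nonneg_left _ hH0.le
            have h6 := mul_le_mul_of_nonneg_right hκd h4
            linarith
        _ = -(1 / 2 * H) * p z ^ 2 + 32 * r ^ 2 * H * G z ^ 2 := by ring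
        _ ≤ _ := by
            have h6 : 0 ≤ 32 * r ^ 2 * G z ^ 2 := by positivity
            have h7 := mul_le_mul_of_nonneg_right hH2 h4
            have h8 := mul_le_mul_of_nonneg_right hH1 h6
            have e1 : -(1 / 2 * H) * p z ^ 2 = -(1 / 2) * (H * p z ^ 2) := by ring
            have e2 : 32 * r ^ 2 * H * G z ^ 2 = H * (32 * r ^ 2 * G z ^ 2) := by ring
            have e3 : -(1 / 2 * ((4 * r)⁻¹) ^ m) * p z ^ 2 =
                -(1 / 2) * (((4 * r)⁻¹) ^ m * p z ^ 2) := by ring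
            have e4 : 32 * r ^ 2 * (r⁻¹) ^ m * G z ^ 2 = (r⁻¹) ^ m * (32 * r ^ 2 * G z ^ 2) := by
              ring
            rw [e1, e2, e3, e4]
            linarith
    · have hmem : z ∉ Metric.closedBall x r := by
        rw [Metric.mem_closedBall, dist_comm]; exact hzb
      rw [indicator_of_notMem hmem, hsupp z (not_le.1 hzb)]
      simp
  have hW : Integrable (fun z => (n + κ * dist y z ^ 2) * (p z * p z * hw m r (dist y z))) μ := by
    have hb : Integrable (fun z => (n + κ * (4 * r) ^ 2) *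
        |p z * p z * hw m r (dist y z)|) μ := hI1.abs.const_mul _
    refine hb.mono' ?_ (Eventually.of_forall fun z => ?_)
    · have : Measurable fun z => (n + κ * dist y z ^ 2 : ℝ) :=
        ((hmd.pow_const 2).const_mul κ).const_add _
      exact this.aestronglyMeasurable.mul hI1.1
    · rw [Real.norm_eq_abs, abs_mul, abs_of_nonneg (by positivity :
        (0 : ℝ) ≤ n + κ * dist y z ^ 2)]
      by_cases hz : dist y z ≤ 4 * r
      · gcongr
      · rw [hsupp' z (not_le.1 hz)]; simp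
  have hint : 0 ≤ -(1 / 2 * ((4 * r)⁻¹) ^ m) * ∫ z, p z ^ 2 ∂μ +
      32 * r ^ 2 * (r⁻¹) ^ m * ∫ z in Metric.closedBall x r, G z ^ 2 ∂μ := by
    refine key.trans ?_
    rw [← integral_indicator hmb, ← integral_const_mul, ← integral_const_mul, ← integral_add
      (hp2I.const_mul _) (hGI'.const_mul _)]
    exact integral_mono_ae (hW.add hI2) ((hp2I.const_mul _).add (hGI'.const_mul _)) hpt
  have h4 : ((4 * r)⁻¹) ^ m = (r⁻¹) ^ m * ((4 : ℝ) ^ m)⁻¹ := by
    rw [mul_inv, mul_pow, inv_pow 4]; ring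
  rw [h4] at hint
  have h5 : 0 < (r⁻¹) ^ m := by positivity
  have h6 : 0 < ((4 : ℝ) ^ m)⁻¹ := by positivity
  have h7 : 0 ≤ (r⁻¹) ^ m * (-(1 / 2 * ((4 : ℝ) ^ m)⁻¹) * ∫ z, p z ^ 2 ∂μ +
      32 * r ^ 2 * ∫ z in Metric.closedBall x r, G z ^ 2 ∂μ) := by
    refine hint.trans (le_of_eq ?_)
    ring
  have h8 := nonneg_of_mul_nonneg_right h7 h5
  have h9 : ((4 : ℝ) ^ m)⁻¹ * ∫ z, p z ^ 2 ∂μ ≤
      64 * r ^ 2 * ∫ z in Metric.closedBall x r, G z ^ 2 ∂μ := by linarith
  have h10 : (0 : ℝ) < 4 ^ m := by positivity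
  calc ∫ z, p z ^ 2 ∂μ = 4 ^ m * (((4 : ℝ) ^ m)⁻¹ * ∫ z, p z ^ 2 ∂μ) := by
        field_simp
    _ ≤ 4 ^ m * (64 * r ^ 2 * ∫ z in Metric.closedBall x r, G z ^ 2 ∂μ) := by gcongr
    _ = _ := by ring

end Rad

end Crest.Agent.R247.Mcp688
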