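import Crest.Agent.R247.Exc1_853
import Crest.Agent.R247.Mcp5_688

/-!
# R247, block (1), leaf (1-E), file 2: balls of positive measure from `Rad`, and the excess
inequalities along a minimiser `σ : [0,l] → X` from `z` to `w`.
-/

set_option autoImplicit false
set_option linter.unusedSectionVars false
open MeasureTheory Set Filter Topology Metric
open scoped ENNReal NNReal

noncomputable section
namespace Crest.Agent.R247.Exc853

open Crest.Agent.R247.Mcp688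

variable {n : ℕ} {κ : ℝ} {X : Type*} [MetricSpace X] [MeasurableSpace X] [BorelSpace X]
  {μ : Measure X}

/-- Bishop–Gromov: if one ball has positive measure, all balls have positive measure. -/
lemma bpf_of_rad [ProperSpace X] [IsFiniteMeasureOnCompacts μ] (C : Rad n κ X μ) (hκ : 0 ≤ κ)
    (x : X) (h : μ (ball x 1) ≠ 0) : Bpf μ := by
  intro b r hr
  refine ⟨fun h0 => h ?_, (measure_ball_lt_top).ne⟩
  have h1 := C.mu_ball_le' hκ x b (r := r) (R := 1) (S := max (1 + dist x b) r) hr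
    (le_max_left _ _) (le_max_right _ _)
  rw [h0, mul_zero] at h1
  exact le_antisymm h1 zero_le

/-- doubling in the form of (3c), from two-sided volume bounds -/
lemma doubling_of_vol {g b₁ : X} {ω δ r : ℝ} (hω : 0 < ω) (hδ : δ ≤ 1 / 2)
    (hr : 0 < r) (hge : ENNReal.ofReal ((1 - δ) * ω * r ^ n) ≤ μ (ball b₁ r))
    (hle : μ (ball g (2 * r)) ≤ ENNReal.ofReal ((1 + δ) * ω * (2 * r) ^ n))
    (hfin : μ (ball b₁ r) ≠ ∞) :
    μ.real (ball g (2 * r)) ≤ (3 * 2 ^ n) * μ.real (ball b₁ r) := by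
  have h1 : (1 - δ) * ω * r ^ n ≤ μ.real (ball b₁ r) := by
    have := ENNReal.toReal_mono hfin hge
    rwa [ENNReal.toReal_ofReal] at this
    have : 0 ≤ 1 - δ := by linarith
    positivity
  have h2 : μ.real (ball g (2 * r)) ≤ max ((1 + δ) * ω * (2 * r) ^ n) 0 := by
    have := ENNReal.toReal_mono ENNReal.ofReal_ne_top hle
    rwa [ENNReal.toReal_ofReal'] at this
  have h3 : 0 ≤ μ.real (ball b₁ r) := measureReal_nonneg
  refine h2.trans (max_le ?_ (by positivity))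
  have h4 : (1 + δ) ≤ 3 * (1 - δ) := by linarith
  calc (1 + δ) * ω * (2 * r) ^ n = (1 + δ) * (2 ^ n * (ω * r ^ n)) := by rw [mul_pow]; ring
    _ ≤ (3 * (1 - δ)) * (2 ^ n * (ω * r ^ n)) := by gcongr
    _ = 3 * 2 ^ n * ((1 - δ) * ω * r ^ n) := by ring
    _ ≤ _ := by gcongr

/-- `σ` is a minimiser from `z = σ 0` to `w = σ l` (arclength). -/
structure IsMin (z w : X) (l : ℝ) (σ : ℝ → X) : Prop where
  zero : σ 0 = z
  last : σ l = w
  dist : ∀ a ∈ Icc (0 : ℝ) l, ∀ b ∈ Icc (0 : ℝ) l, dist (σ a) (σ b) = |a - b|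

namespace IsMin
variable {z w : X} {l : ℝ} {σ : ℝ → X} (h : IsMin z w l σ)
include h

lemma dist_le {a b : ℝ} (ha : 0 ≤ a) (hab : a ≤ b) (hb : b ≤ l) :
    Dist.dist (σ a) (σ b) = b - a := by
  rw [h.dist a ⟨ha, hab.trans hb⟩ b ⟨ha.trans hab, hb⟩, abs_sub_comm, abs_of_nonneg (by linarith)]

lemma dist_w {a : ℝ} (ha : 0 ≤ a) (hb : a ≤ l) : Dist.dist (σ a) w = l - a := by
  rw [← h.last]; exact h.dist_le ha hb le_rfl

/-- the excess is nonincreasing along `σ` -/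
lemma exc_anti (x : X) {a b : ℝ} (ha : 0 ≤ a) (hab : a ≤ b) (hb : b ≤ l) :
    Exc x w (σ b) ≤ Exc x w (σ a) :=
  Exc_anti (by
    rw [h.dist_le ha hab hb, h.dist_w (ha.trans hab) hb, h.dist_w ha (hab.trans hb)]; ring)

lemma exc_last (x : X) : Exc x w (σ l) = 0 := by
  rw [h.last]; unfold Exc; simp

/-- bound of the excess at the start: `T ≤ 2 d(x,z)` -/
lemma exc_le {x : X} {a : ℝ} (ha : 0 ≤ a) (hb : a ≤ l) :
    Exc x w (σ a) ≤ 2 * Dist.dist x z := by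
  have h1 := h.exc_anti x le_rfl ha hb
  refine h1.trans ?_
  rw [h.zero]
  unfold Exc
  have := dist_triangle z x w
  rw [dist_comm z x] at this
  linarith

/-- **(3b)** along `σ`. -/
theorem xbar_le (hB : Bpf μ) {S : Set X} {R K A L : ℝ} (hK : 1 ≤ K) (hA : 0 ≤ A)
    (hMV : MVH μ S R K A) {x : X} {ρ a b c : ℝ} (hx : x ∈ S) (hw : w ∈ S)
    (hbS : ball (σ a) ρ ⊆ S) (hb' : σ b ∈ S) (hb'' : σ c ∈ S) (hρ : 0 < ρ) (hρR : ρ ≤ R)
    (h8 : 8 * ρ ≤ L) (ha : 0 ≤ a) (hab : L ≤ b - a) (hbc : L ≤ c - b) (hc : c ≤ l)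
    (hxb : L ≤ Dist.dist x (σ a)) :
    xbar μ x (σ a) (σ b) ρ ≤
      K ^ 2 * (Exc x w (σ a) - Exc x w (σ c)) + 7 * K ^ 2 * A * ρ ^ 2 / L := by
  have hL : 0 < L := by linarith
  refine Exc853.xbar_le hB hK hA hMV hx hw hbS hb' hb'' hρ hρR h8 hxb ?_ ?_ ?_ ?_ ?_
  · rw [h.dist_le ha (by linarith) (by linarith)]; exact hab
  · rw [h.dist_w (by linarith) (by linarith)]; linarith
  · rw [h.dist_le (by linarith) (by linarith) hc]; exact hbc
  · rw [h.dist_le ha (by linarith) (by linarith), h.dist_le (by linarith) (by linarith) hc,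
      h.dist_le ha (by linarith) hc]; ring
  · rw [h.dist_le ha (by linarith) hc, h.dist_w (by linarith) hc, h.dist_w ha (by linarith)]; ring

/-- **(3b')** along `σ`, last step, `w'` beyond `w`. -/
theorem xbar_last_le (hB : Bpf μ) {S : Set X} {R K A L : ℝ} (hK : 1 ≤ K) (hA : 0 ≤ A)
    (hMV : MVH μ S R K A) {x w' : X} {ρ a : ℝ} (hx : x ∈ S) (hw : w ∈ S) (hw'S : w' ∈ S)
    (hbS : ball (σ a) ρ ⊆ S) (hρ : 0 < ρ) (hρR : ρ ≤ R)
    (h8 : 8 * ρ ≤ L) (ha : 0 ≤ a) (hal : L ≤ l - a) (hxb : L ≤ Dist.dist x (σ a))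
    (hww : L ≤ Dist.dist w w')
    (hw' : Dist.dist x w + Dist.dist w w' = Dist.dist x w') :
    xbar μ x (σ a) w ρ ≤ K ^ 2 * Exc x w (σ a) + 5 * K ^ 2 * A * ρ ^ 2 / L := by
  have hL : 0 < L := by linarith
  refine Exc853.xbar_last_le hB hK hA hMV hx hw hw'S hbS hρ hρR h8 hxb ?_ hww hw'
  rw [h.dist_w ha (by linarith)]; exact hal

/-- **(3c)** along `σ`: `T(c) ≤ C_U D(b)²/L`. -/
theorem exc_le_sq (hB : Bpf μ) {S : Set X} {R K A Cd L : ℝ} (hK : 0 ≤ K)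
    (hA : 0 ≤ A) (hCd : 0 ≤ Cd) (hMV : MVH μ S R K A) {x g : X} {a b c : ℝ} (hx : x ∈ S)
    (hw : w ∈ S) (hS₀ : σ a ∈ S) (hS₁ : σ b ∈ S) (hS₂ : σ c ∈ S) (hSg : g ∈ S)
    (hL : 0 < L) (hLR : L ≤ R)
    (hdb : ∀ r, 0 < r → r ≤ L → μ.real (ball g (2 * r)) ≤ Cd * μ.real (ball (σ b) r))
    (ha : 0 ≤ a) (hab : L ≤ b - a) (hbc : L ≤ c - b) (hc : c ≤ l)
    (hxg : L ≤ Dist.dist x g) (hgw : L ≤ Dist.dist g w) (hg : Exc x w g = 0) :
    Exc x w (σ c) ≤ (8 * Cd * K * A + 2 * K * A + 16) * (Dist.dist (σ b) g ^ 2 / L) := by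
  refine exc_next_le_sq (b₀ := σ a) hB hK hA hCd hMV hx hw hS₀ hS₁ hS₂ hSg hL hLR hdb ?_ ?_ hxg hgw
    ?_ ?_ hg
  · rw [h.dist_le ha (by linarith) (by linarith)]; exact hab
  · rw [h.dist_le (by linarith) (by linarith) hc]; exact hbc
  · rw [h.dist_le ha (by linarith) (by linarith), h.dist_le (by linarith) (by linarith) hc,
      h.dist_le ha (by linarith) hc]; ring
  · rw [h.dist_le ha (by linarith) hc, h.dist_w (by linarith) hc, h.dist_w ha (by linarith)]; ring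

end IsMin

/-- the segment of a good pair of `Rad` is a minimiser -/
lemma isMin_of_rad (C : Rad n κ X μ) {z w : X} (hU : (z, w) ∈ C.U) (hzw : z ≠ w) :
    IsMin z w (dist z w) (fun τ => C.T z (τ / dist z w) w) := by
  have hd : 0 < dist z w := dist_pos.2 hzw
  refine ⟨?_, ?_, fun a ha b hb => ?_⟩
  · simp only [zero_div]; exact C.T_zero z w hU
  · simp only [div_self hd.ne']; exact C.T_one z w hU
  · have h1 : ∀ t ∈ Icc (0 : ℝ) (dist z w), t / dist z w ∈ Icc (0 : ℝ) 1 := fun t ht =>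
      ⟨div_nonneg ht.1 hd.le, (div_le_one hd).2 ht.2⟩
    rw [C.dist_T z w hU _ (h1 a ha) _ (h1 b hb), ← sub_div, abs_div, abs_of_pos hd,
      div_mul_cancel₀ _ hd.ne']

end Crest.Agent.R247.Exc853
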