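import Crest.Agent.R247.Law2_508

/-!
# Assembly of block (1), part 1: integrated bounds of the block quantities (helper196)
-/

set_option autoImplicit false
set_option linter.unusedSectionVars false
open MeasureTheory Set Filter Topology Metric
open scoped ENNReal NNReal

noncomputable section
namespace Crest.Agent.R247.FarAsm196

open Crest.Agent.R247.Mcp688 Crest.Agent.R247.Far553

section tintdef
variable {n : ℕ} {κ : ℝ} {X : Type*} [MetricSpace X] [MeasurableSpace X] {μ : Measure X}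

/-- time integral (with `dτ/τ`) of `f` along the minimiser from `z` to `w`, `τ ∈ [a,b]` -/
def tint (C : Rad n κ X μ) (a b : ℝ) (f : X → ℝ≥0∞) (z w : X) : ℝ≥0∞ :=
  ∫⁻ τ in Icc a b, f (ray C z w τ) * ENNReal.ofReal τ⁻¹

/-- 508's law of the arclength parametrised rays (literal form of `law_arc`) -/
def LawArc (C : Rad n κ X μ) : Prop :=
  ∀ (z : X) (W : Set X) (r0 R a b : ℝ) (g : X → ℝ≥0∞), MeasurableSet W →
    (∀ w ∈ W, r0 ≤ dist z w ∧ dist z w ≤ R) → 0 < a → a ≤ b → b ≤ r0 → Measurable g →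
    ∫⁻ w in W, (∫⁻ τ in Icc a b, g (C.T z (τ / dist z w) w) * ENNReal.ofReal τ⁻¹) ∂μ ≤
      ENNReal.ofReal (Real.exp (κ * R ^ 2 / 2) * (R / a) ^ (n + 1) * (b / r0)) *
        ∫⁻ y in {y | a ≤ dist z y ∧ dist z y ≤ b}, g y ∂μ

/-- 508's law of the first block (literal form of `law_first`) -/
def LawFirst (C : Rad n κ X μ) : Prop :=
  ∀ (x w : X) (t c r0 R : ℝ) (g : X → ℝ≥0∞), 0 < t → 0 < c → 0 < r0 →
    (∀ z ∈ ball x t, r0 ≤ dist z w ∧ dist z w ≤ R) → 2 * c * t ≤ r0 → Measurable g →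
    ∫⁻ z in ball x t, (∫⁻ τ in Icc 0 (c * t), g (C.T z (τ / dist z w) w)) ∂μ ≤
      ENNReal.ofReal (Real.exp (κ * R ^ 2 / 2) * 2 ^ n * (R / r0) * c * t) *
        ∫⁻ y in ball x ((1 + c) * t), g y ∂μ

end tintdef

variable {n : ℕ} {κ : ℝ} {X : Type*} [MetricSpace X] [MeasurableSpace X] [BorelSpace X]
  {μ : Measure X}

lemma lawArc [SFinite μ] (C : Rad n κ X μ) (hκ : 0 ≤ κ) : LawArc C := by
  intro z W r0 R a b g hW hr ha hab hb hg
  exact Law508.law_arc C hκ z hW ha hab hb (fun w hw => (hr w hw).1) (fun w hw => (hr w hw).2) hg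

lemma lawFirst [SFinite μ] (C : Rad n κ X μ) (hκ : 0 ≤ κ) : LawFirst C := by
  intro x w t c r0 R g ht hc hr0 hr hct hg
  have h := Law508.law_first C hκ w x (t := t) (c := c) (r₀ := r0) (R := R) ht hc
    (by linarith) (fun z hz => (hr z hz).1) (fun z hz => (hr z hz).2) hg
  refine h.trans (le_of_eq ?_)
  congr 2
  ring

lemma measurable_dist' [SecondCountableTopology X] :
    Measurable (fun p : X × X => dist p.1 p.2) := by
  exact measurable_dist

lemma measurable_ray [SecondCountableTopology X] (C : Rad n κ X μ) :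
    Measurable (fun p : (X × X) × ℝ => ray C p.1.1 p.1.2 p.2) := by
  unfold ray
  exact C.measT.comp ((measurable_fst.comp measurable_fst).prodMk
    ((measurable_snd.div (measurable_dist'.comp measurable_fst)).prodMk
      (measurable_snd.comp measurable_fst)))

lemma measurable_tint [SecondCountableTopology X] (C : Rad n κ X μ) (a b : ℝ) {f : X → ℝ≥0∞}
    (hf : Measurable f) : Measurable (fun p : X × X => tint C a b f p.1 p.2) := by
  unfold tint
  apply Measurable.lintegral_prod_right'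
    (f := fun p : (X × X) × ℝ => f (ray C p.1.1 p.1.2 p.2) * ENNReal.ofReal p.2⁻¹)
  exact (hf.comp (measurable_ray C)).mul
    (ENNReal.measurable_ofReal.comp measurable_snd.inv)

lemma tint_mono (C : Rad n κ X μ) (a b : ℝ) {f g : X → ℝ≥0∞} (h : ∀ y, f y ≤ g y) (z w : X) :
    tint C a b f z w ≤ tint C a b g z w := by
  unfold tint
  exact lintegral_mono fun τ => mul_le_mul_left (h _) _

/-- the total mass of `dτ/τ` on `[s/4, 3s]` is at most `11`. -/
lemma mass_le {s : ℝ} (hs : 0 < s) :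
    ∫⁻ τ in Icc (s / 4) (3 * s), ENNReal.ofReal τ⁻¹ ≤ 11 := by
  calc ∫⁻ τ in Icc (s / 4) (3 * s), ENNReal.ofReal τ⁻¹
      ≤ ∫⁻ _ in Icc (s / 4) (3 * s), ENNReal.ofReal (4 / s) := by
        apply setLIntegral_mono measurable_const
        intro τ hτ
        apply ENNReal.ofReal_le_ofReal
        rw [inv_le_comm₀ (by linarith [hτ.1]) (by positivity)]
        rw [inv_div]; exact hτ.1
    _ = ENNReal.ofReal (4 / s) * ENNReal.ofReal (3 * s - s / 4) := by
        rw [setLIntegral_const, Real.volume_Icc]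
    _ = 11 := by
        rw [← ENNReal.ofReal_mul (by positivity)]
        have : 4 / s * (3 * s - s / 4) = 11 := by field_simp; ring
        rw [this]; norm_num

/-- Cauchy–Schwarz for `tint`. -/
lemma tint_sq_le (C : Rad n κ X μ) {s : ℝ} (hs : 0 < s) {f : X → ℝ≥0∞} (hf : Measurable f)
    (z w : X) :
    tint C (s / 4) (3 * s) f z w ^ 2 ≤ 11 * tint C (s / 4) (3 * s) (fun y => f y ^ 2) z w := by
  have hray : Measurable (fun τ : ℝ => ray C z w τ) := by
    unfold ray
    exact C.measT.comp (measurable_const.prodMk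
      ((measurable_id.div_const _).prodMk measurable_const))
  have h1 : Measurable fun τ : ℝ => f (ray C z w τ) := hf.comp hray
  have h2 : Measurable fun τ : ℝ => ENNReal.ofReal τ⁻¹ :=
    ENNReal.measurable_ofReal.comp measurable_inv
  unfold tint
  set ν : Measure ℝ := volume.restrict (Icc (s / 4) (3 * s)) with hν
  have h3 := ENNReal.lintegral_mul_le_Lp_mul_Lq ν (p := 2) (q := 2)
    (f := fun τ => f (ray C z w τ) * ENNReal.ofReal τ⁻¹ ^ ((1:ℝ) / 2))
    (g := fun τ => ENNReal.ofReal τ⁻¹ ^ ((1:ℝ) / 2)) (by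
      constructor <;> norm_num) ((h1.mul (h2.pow_const _)).aemeasurable)
      (h2.pow_const _).aemeasurable
  have e1 : ∀ τ, ((fun τ => f (ray C z w τ) * ENNReal.ofReal τ⁻¹ ^ ((1:ℝ) / 2)) *
      fun τ => ENNReal.ofReal τ⁻¹ ^ ((1:ℝ) / 2)) τ = f (ray C z w τ) * ENNReal.ofReal τ⁻¹ := by
    intro τ
    simp only [Pi.mul_apply]
    rw [mul_assoc, ← ENNReal.rpow_add_of_nonneg _ _ (by norm_num) (by norm_num)]
    norm_num
  rw [lintegral_congr e1] at h3
  have e2 : ∀ τ, (f (ray C z w τ) * ENNReal.ofReal τ⁻¹ ^ ((1:ℝ) / 2)) ^ (2:ℝ) =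
      f (ray C z w τ) ^ 2 * ENNReal.ofReal τ⁻¹ := by
    intro τ
    rw [ENNReal.mul_rpow_of_nonneg _ _ (by norm_num), ← ENNReal.rpow_mul]
    norm_num
  have e3 : ∀ τ : ℝ, (ENNReal.ofReal τ⁻¹ ^ ((1:ℝ) / 2)) ^ (2:ℝ) = ENNReal.ofReal τ⁻¹ := by
    intro τ
    rw [← ENNReal.rpow_mul]
    norm_num
  rw [lintegral_congr e2, lintegral_congr e3] at h3
  calc (∫⁻ τ, f (ray C z w τ) * ENNReal.ofReal τ⁻¹ ∂ν) ^ 2
      ≤ ((∫⁻ τ, f (ray C z w τ) ^ 2 * ENNReal.ofReal τ⁻¹ ∂ν) ^ ((1:ℝ) / 2) *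
          (∫⁻ τ, ENNReal.ofReal τ⁻¹ ∂ν) ^ ((1:ℝ) / 2)) ^ 2 := by gcongr
    _ = (∫⁻ τ, f (ray C z w τ) ^ 2 * ENNReal.ofReal τ⁻¹ ∂ν) * (∫⁻ τ, ENNReal.ofReal τ⁻¹ ∂ν) := by
        rw [mul_pow, ← ENNReal.rpow_natCast, ← ENNReal.rpow_natCast, ← ENNReal.rpow_mul,
          ← ENNReal.rpow_mul]
        norm_num
    _ ≤ (∫⁻ τ, f (ray C z w τ) ^ 2 * ENNReal.ofReal τ⁻¹ ∂ν) * 11 := by
        gcongr
        exact mass_le hs
    _ = _ := by rw [mul_comm]

/-! ### the set `NN` is measurable -/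

lemma measurable_measure_ball [SecondCountableTopology X] (ν : Measure X) [SFinite ν] (r : ℝ) :
    Measurable (fun b : X => ν (ball b r)) := by
  have h : ∀ b : X, ν (ball b r) =
      ∫⁻ y, ({p : X × X | dist p.2 p.1 < r}.indicator (fun _ => (1 : ℝ≥0∞)) (b, y)) ∂ν := by
    intro b
    have : (fun y => ({p : X × X | dist p.2 p.1 < r}.indicator (fun _ => (1 : ℝ≥0∞)) (b, y))) =
        (ball b r).indicator (fun _ => (1 : ℝ≥0∞)) := by
      ext y
      by_cases hy : dist y b < r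
      · rw [indicator_of_mem (by exact hy), indicator_of_mem (by exact hy)]
      · rw [indicator_of_notMem (by exact hy), indicator_of_notMem (by exact hy)]
    rw [this, lintegral_indicator_const measurableSet_ball, one_mul]
  rw [funext h]
  apply Measurable.lintegral_prod_right'
  apply measurable_const.indicator
  exact measurableSet_lt (measurable_snd.dist measurable_fst) measurable_const

lemma measurableSet_NN [SecondCountableTopology X] [SFinite μ] (C : Rad n κ X μ) (x : X)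
    (s ρ K c : ℝ) : MeasurableSet (NN C x s ρ K c) := by
  unfold NN
  have : SFinite (Lam C x s) := by unfold Lam; infer_instance
  exact measurableSet_le measurable_const (measurable_measure_ball (Lam C x s) (K * ρ))

/-! ### integrated bounds -/

/-- the constant of the law of the arclength parametrised rays -/
def CL (n : ℕ) : ℝ := Real.exp 50 * 40 ^ (n + 1) * (3 / 2)

lemma CL_pos (n : ℕ) : 0 < CL n := by unfold CL; positivity

lemma measurableSet_ann (p : X) (a b : ℝ) : MeasurableSet (ann p a b) := by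
  unfold ann
  have h : Measurable (fun z : X => dist p z) := (continuous_const.dist continuous_id).measurable
  exact (measurableSet_le measurable_const h).inter (measurableSet_le h measurable_const)

lemma dist_bounds {p x z w : X} (hp : dist p x < 1) (hz : dist x z < 1) (hw : w ∈ ann p 4 8) :
    2 ≤ dist z w ∧ dist z w ≤ 10 := by
  obtain ⟨h1, h2⟩ := hw
  have h3 := dist_triangle p x z
  have h4 := dist_triangle p z w
  have h5 := dist_triangle z p w
  rw [dist_comm z p] at h5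
  constructor <;> linarith

lemma tint_avg (hκ1 : κ ≤ 1) {C : Rad n κ X μ} (hlaw : LawArc C) {p x z : X} (hp : dist p x < 1)
    (hz : dist x z < 1) {i : ℕ} (hi : 4 ≤ i) {g : X → ℝ≥0∞} (hg : Measurable g) :
    ∫⁻ w in ann p 4 8, tint C (dy i / 4) (3 * dy i) g z w ∂μ ≤
      ENNReal.ofReal (CL n * ((dy i)⁻¹) ^ n) * ∫⁻ y, g y ∂μ := by
  have hdy := dy_pos i
  have hdy4 : dy i ≤ 1 / 16 := by
    refine (dy_anti hi).trans ?_
    unfold dy; norm_num
  have h := hlaw z (ann p 4 8) 2 10 (dy i / 4) (3 * dy i) g (measurableSet_ann p 4 8)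
    (fun w hw => dist_bounds hp hz hw) (by positivity) (by linarith) (by linarith) hg
  unfold tint ray
  refine h.trans ?_
  refine mul_le_mul' (ENNReal.ofReal_le_ofReal ?_) (setLIntegral_le_lintegral _ _)
  unfold CL
  have e1 : (10 / (dy i / 4)) ^ (n + 1) * (3 * dy i / 2) =
      40 ^ (n + 1) * (3 / 2) * ((dy i)⁻¹) ^ n := by
    have : 10 / (dy i / 4) = 40 * (dy i)⁻¹ := by field_simp; norm_num
    rw [this, mul_pow, pow_succ ((dy i)⁻¹) n]
    field_simp
  calc Real.exp (κ * 10 ^ 2 / 2) * (10 / (dy i / 4)) ^ (n + 1) * (3 * dy i / 2)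
      = Real.exp (κ * 10 ^ 2 / 2) * ((10 / (dy i / 4)) ^ (n + 1) * (3 * dy i / 2)) := by ring
    _ = Real.exp (κ * 10 ^ 2 / 2) * (40 ^ (n + 1) * (3 / 2) * ((dy i)⁻¹) ^ n) := by rw [e1]
    _ ≤ Real.exp 50 * (40 ^ (n + 1) * (3 / 2) * ((dy i)⁻¹) ^ n) := by
        gcongr
        linarith
    _ = _ := by ring

/-- the block quantity `B_i(z,w)` at scale `dy i` and thickness `dy k` -/
def Blk {c : FarK} {C : Rad n κ X μ} {x : X} {δ : ℝ} {ph : ℕ → ℝ} (F : FarD c C x δ ph)
    (i k : ℕ) (K cN : ℝ) (z w : X) : ℝ≥0∞ :=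
  tint C (dy i / 4) (3 * dy i)
      ((NN C x (dy i) (dy k) K cN).indicator fun y => ENNReal.ofReal (F.H k y)) z w ^ 2
  + (ENNReal.ofReal (dy k)⁻¹ * tint C (dy i / 4) (3 * dy i)
      ((NN C x (dy i) (dy k) K cN ∩ {y | |F.kk k y| ≤ dy k ^ 2}).indicator
        fun y => ENNReal.ofReal (F.nk k y)) z w) ^ 2
  + ENNReal.ofReal (dy k)⁻¹ * tint C (dy i / 4) (3 * dy i)
      ((NN C x (dy i) (dy k) K cN ∩ {y | dy k ^ 2 < |F.kk k y|}).indicator
        fun y => ENNReal.ofReal (F.nk k y)) z w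
  + ENNReal.ofReal ((dy k ^ 2)⁻¹) * tint C (dy i / 4) (3 * dy i)
      ((NN C x (dy i) (dy k) K cN).indicator fun y => ENNReal.ofReal |F.kk k y|) z w
  + tint C (dy i / 4) (3 * dy i)
      ((NN C x (dy i) (dy k) K cN).indicator fun y => ENNReal.ofReal (F.q k y)) z w
  + tint C (dy i / 4) (3 * dy i)
      ((NN C x (dy i) (dy k) K cN).indicator fun y => ENNReal.ofReal (F.g k y ^ 2)) z w

section blk
variable [SecondCountableTopology X] [SFinite μ]
variable {c : FarK} {C : Rad n κ X μ} {x : X} {δ : ℝ} {ph : ℕ → ℝ} (F : FarD c C x δ ph)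

lemma meas_ofReal {f : X → ℝ} (hf : Measurable f) : Measurable fun y => ENNReal.ofReal (f y) :=
  ENNReal.measurable_ofReal.comp hf

lemma measSet_le (k : ℕ) : MeasurableSet {y | |F.kk k y| ≤ dy k ^ 2} :=
  measurableSet_le (F.kk_meas k).abs measurable_const

lemma measSet_lt (k : ℕ) : MeasurableSet {y | dy k ^ 2 < |F.kk k y|} :=
  measurableSet_lt measurable_const (F.kk_meas k).abs

lemma measurable_Blk (i k : ℕ) (K cN : ℝ) :
    Measurable (fun p : X × X => Blk F i k K cN p.1 p.2) := by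
  have hN := measurableSet_NN C x (dy i) (dy k) K cN
  unfold Blk
  refine (((((((measurable_tint C _ _ ?_).pow_const 2).add
    (((measurable_tint C _ _ ?_).const_mul _).pow_const 2)).add
    ((measurable_tint C _ _ ?_).const_mul _)).add
    ((measurable_tint C _ _ ?_).const_mul _)).add
    (measurable_tint C _ _ ?_)).add (measurable_tint C _ _ ?_))
  · exact (meas_ofReal (F.H_meas k)).indicator hN
  · exact (meas_ofReal (F.nk_meas k)).indicator (hN.inter (measSet_le F k))
  · exact (meas_ofReal (F.nk_meas k)).indicator (hN.inter (measSet_lt F k))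
  · exact (meas_ofReal (F.kk_meas k).abs).indicator hN
  · exact (meas_ofReal (F.q_meas k)).indicator hN
  · exact (meas_ofReal ((F.g_meas k).pow_const 2)).indicator hN

/-- one term: if `∫ g ≤ B (dy i)^n` then the averaged time integral is at most `CL B`. -/
lemma tint_avg' (hκ1 : κ ≤ 1) (hlaw : LawArc C) {p z : X} (hp : dist p x < 1)
    (hz : dist x z < 1) {i : ℕ} (hi : 4 ≤ i) {g : X → ℝ≥0∞} (hg : Measurable g) {B : ℝ}
    (hB : 0 ≤ B) (hgB : ∫⁻ y, g y ∂μ ≤ ENNReal.ofReal (B * dy i ^ n)) :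
    ∫⁻ w in ann p 4 8, tint C (dy i / 4) (3 * dy i) g z w ∂μ ≤ ENNReal.ofReal (CL n * B) := by
  have hdy := dy_pos i
  refine (tint_avg hκ1 hlaw hp hz hi hg).trans ((mul_le_mul_right hgB _).trans ?_)
  have := CL_pos n
  rw [← ENNReal.ofReal_mul (by positivity)]
  apply ENNReal.ofReal_le_ofReal
  apply le_of_eq
  rw [inv_pow]
  field_simp

lemma sq_term (hκ1 : κ ≤ 1) (hlaw : LawArc C) {p z : X} (hp : dist p x < 1)
    (hz : dist x z < 1) {i : ℕ} (hi : 4 ≤ i) {f : X → ℝ≥0∞} (hf : Measurable f) {B : ℝ}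
    (hB : 0 ≤ B) (hfB : ∫⁻ y, f y ^ 2 ∂μ ≤ ENNReal.ofReal (B * dy i ^ n)) :
    ∫⁻ w in ann p 4 8, tint C (dy i / 4) (3 * dy i) f z w ^ 2 ∂μ ≤
      ENNReal.ofReal (11 * (CL n * B)) := by
  calc ∫⁻ w in ann p 4 8, tint C (dy i / 4) (3 * dy i) f z w ^ 2 ∂μ
      ≤ ∫⁻ w in ann p 4 8, 11 * tint C (dy i / 4) (3 * dy i) (fun y => f y ^ 2) z w ∂μ :=
        lintegral_mono fun w => tint_sq_le C (dy_pos i) hf z w
    _ = 11 * ∫⁻ w in ann p 4 8, tint C (dy i / 4) (3 * dy i) (fun y => f y ^ 2) z w ∂μ := by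
        rw [lintegral_const_mul]
        exact (measurable_tint C _ _ (hf.pow_const 2)).comp (measurable_const.prodMk measurable_id)
    _ ≤ 11 * ENNReal.ofReal (CL n * B) := by
        gcongr
        exact tint_avg' hκ1 hlaw hp hz hi (hf.pow_const 2) hB hfB
    _ = _ := by
        rw [ENNReal.ofReal_mul (p := 11) (by norm_num)]
        norm_num

/-- integrated bound of the block quantity -/
theorem Blk_avg (hκ1 : κ ≤ 1) (hlaw : LawArc C) {p z : X} (hp : dist p x < 1)
    (hz : dist x z < 1) {i k : ℕ} (hi : 4 ≤ i) (hik : i ≤ k) {K cN : ℝ} (hK : 1 ≤ K)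
    (hcN : 0 < cN) :
    ∫⁻ w in ann p 4 8, Blk F i k K cN z w ∂μ ≤
      ENNReal.ofReal (26 * CL n * c.B3 K cN * (1 + (k - i : ℕ)) * ph i) := by
  have hN := measurableSet_NN C x (dy i) (dy k) K cN
  have hB3 := c.B3_pos K cN
  have hph := F.ph_nonneg i
  have hCL := CL_pos n
  have hdk := dy_pos k
  set B : ℝ := c.B3 K cN * ph i with hB
  have hB0 : 0 ≤ B := by positivity
  set m : ℝ := 1 + (k - i : ℕ) with hm
  have hm1 : 1 ≤ m := by rw [hm]; have : (0:ℝ) ≤ ((k - i : ℕ) : ℝ) := Nat.cast_nonneg _; linarith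
  have hm0 : 0 ≤ B * m := by positivity
  -- measurability of the slices
  have hsl : ∀ {f : X → ℝ≥0∞}, Measurable f →
      Measurable fun w => tint C (dy i / 4) (3 * dy i) f z w := fun hf =>
    (measurable_tint C _ _ hf).comp (measurable_const.prodMk measurable_id)
  have m1 := (meas_ofReal (F.H_meas k)).indicator hN
  have m2 := (meas_ofReal (F.nk_meas k)).indicator (hN.inter (measSet_le F k))
  have m3 := (meas_ofReal (F.nk_meas k)).indicator (hN.inter (measSet_lt F k))
  have m4 := (meas_ofReal (F.kk_meas k).abs).indicator hN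
  have m5 := (meas_ofReal (F.q_meas k)).indicator hN
  have m6 := (meas_ofReal ((F.g_meas k).pow_const 2)).indicator hN
  have sqi : ∀ (S : Set X) (f : X → ℝ), (fun y => (S.indicator (fun y => ENNReal.ofReal (f y)) y) ^ 2)
      = S.indicator fun y => ENNReal.ofReal (f y) ^ 2 := by
    intro S f; ext y
    by_cases hy : y ∈ S
    · rw [indicator_of_mem hy, indicator_of_mem hy]
    · rw [indicator_of_notMem hy, indicator_of_notMem hy]; simp
  -- term 1
  have t1 : ∫⁻ w in ann p 4 8, tint C (dy i / 4) (3 * dy i)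
      ((NN C x (dy i) (dy k) K cN).indicator fun y => ENNReal.ofReal (F.H k y)) z w ^ 2 ∂μ ≤
      ENNReal.ofReal (11 * (CL n * B)) := by
    apply sq_term hκ1 hlaw hp hz hi m1 hB0
    rw [sqi, lintegral_indicator hN]
    refine le_trans (le_of_eq (lintegral_congr fun y => ?_)) (F.d2_H K cN hK hcN i k hi hik)
    rw [ENNReal.ofReal_pow (F.H_nonneg k y)]
  -- term 2
  have t2 : ∫⁻ w in ann p 4 8, (ENNReal.ofReal (dy k)⁻¹ * tint C (dy i / 4) (3 * dy i)
      ((NN C x (dy i) (dy k) K cN ∩ {y | |F.kk k y| ≤ dy k ^ 2}).indicator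
        fun y => ENNReal.ofReal (F.nk k y)) z w) ^ 2 ∂μ ≤
      ENNReal.ofReal (11 * (CL n * (B * m))) := by
    simp_rw [mul_pow]
    rw [lintegral_const_mul _ ((hsl m2).pow_const 2)]
    have h := sq_term (p := p) (z := z) hκ1 hlaw hp hz hi m2 (B := dy k ^ 2 * (B * m)) (by positivity) (by
      rw [sqi, lintegral_indicator (hN.inter (measSet_le F k))]
      refine le_trans (le_of_eq (lintegral_congr fun y => ?_))
        ((F.d2_nk2 K cN hK hcN i k hi hik).trans (ENNReal.ofReal_le_ofReal (le_of_eq ?_)))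
      · rw [ENNReal.ofReal_pow (F.nk_nonneg k y)]
      · rw [hB, hm]; ring)
    refine (mul_le_mul_right h _).trans ?_
    rw [← ENNReal.ofReal_pow (by positivity), ← ENNReal.ofReal_mul (by positivity)]
    apply ENNReal.ofReal_le_ofReal
    apply le_of_eq
    field_simp
  -- term 3
  have t3 : ∫⁻ w in ann p 4 8, ENNReal.ofReal (dy k)⁻¹ * tint C (dy i / 4) (3 * dy i)
      ((NN C x (dy i) (dy k) K cN ∩ {y | dy k ^ 2 < |F.kk k y|}).indicator
        fun y => ENNReal.ofReal (F.nk k y)) z w ∂μ ≤ ENNReal.ofReal (CL n * (B * m)) := by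
    rw [lintegral_const_mul _ (hsl m3)]
    have h := tint_avg' (p := p) (z := z) hκ1 hlaw hp hz hi m3 (B := dy k * (B * m)) (by positivity) (by
      rw [lintegral_indicator (hN.inter (measSet_lt F k))]
      refine (F.d2_nk1 K cN hK hcN i k hi hik).trans (ENNReal.ofReal_le_ofReal (le_of_eq ?_))
      rw [hB, hm]; ring)
    refine (mul_le_mul_right h _).trans ?_
    rw [← ENNReal.ofReal_mul (by positivity)]
    apply ENNReal.ofReal_le_ofReal
    apply le_of_eq
    field_simp
  -- term 4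
  have t4 : ∫⁻ w in ann p 4 8, ENNReal.ofReal ((dy k ^ 2)⁻¹) * tint C (dy i / 4) (3 * dy i)
      ((NN C x (dy i) (dy k) K cN).indicator fun y => ENNReal.ofReal |F.kk k y|) z w ∂μ ≤
      ENNReal.ofReal (CL n * B) := by
    rw [lintegral_const_mul _ (hsl m4)]
    have h := tint_avg' (p := p) (z := z) hκ1 hlaw hp hz hi m4 (B := dy k ^ 2 * B) (by positivity) (by
      rw [lintegral_indicator hN]
      refine (F.d2_k K cN hK hcN i k hi hik).trans (ENNReal.ofReal_le_ofReal (le_of_eq ?_))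
      rw [hB]; ring)
    refine (mul_le_mul_right h _).trans ?_
    rw [← ENNReal.ofReal_mul (by positivity)]
    apply ENNReal.ofReal_le_ofReal
    apply le_of_eq
    field_simp
  -- term 5
  have t5 : ∫⁻ w in ann p 4 8, tint C (dy i / 4) (3 * dy i)
      ((NN C x (dy i) (dy k) K cN).indicator fun y => ENNReal.ofReal (F.q k y)) z w ∂μ ≤
      ENNReal.ofReal (CL n * B) := by
    apply tint_avg' hκ1 hlaw hp hz hi m5 hB0
    rw [lintegral_indicator hN]
    exact F.d2_q K cN hK hcN i k hi hik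
  -- term 6
  have t6 : ∫⁻ w in ann p 4 8, tint C (dy i / 4) (3 * dy i)
      ((NN C x (dy i) (dy k) K cN).indicator fun y => ENNReal.ofReal (F.g k y ^ 2)) z w ∂μ ≤
      ENNReal.ofReal (CL n * B) := by
    apply tint_avg' hκ1 hlaw hp hz hi m6 hB0
    rw [lintegral_indicator hN]
    exact F.d2_g K cN hK hcN i k hi hik
  unfold Blk
  rw [lintegral_add_right _ (hsl m6), lintegral_add_right _ (hsl m5),
    lintegral_add_right _ ((hsl m4).const_mul _), lintegral_add_right _ ((hsl m3).const_mul _),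
    lintegral_add_right _ (((hsl m2).const_mul _).pow_const 2)]
  refine (add_le_add (add_le_add (add_le_add (add_le_add (add_le_add t1 t2) t3) t4) t5) t6).trans ?_
  rw [← ENNReal.ofReal_add (by positivity) (by positivity),
    ← ENNReal.ofReal_add (by positivity) (by positivity),
    ← ENNReal.ofReal_add (by positivity) (by positivity),
    ← ENNReal.ofReal_add (by positivity) (by positivity),
    ← ENNReal.ofReal_add (by positivity) (by positivity)]
  apply ENNReal.ofReal_le_ofReal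
  have hBm : B ≤ B * m := by nlinarith
  have h1 : CL n * B ≤ CL n * (B * m) := by gcongr
  calc 11 * (CL n * B) + 11 * (CL n * (B * m)) + CL n * (B * m) + CL n * B + CL n * B + CL n * B
      ≤ 26 * (CL n * (B * m)) := by linarith
    _ = _ := by rw [hB]; ring

end blk

end Crest.Agent.R247.FarAsm196
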