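import Crest.Agent.R247.FarAsm1_196

/-!
# Assembly of block (1), part 2: the first block (helper196)
-/

set_option autoImplicit false
set_option linter.unusedSectionVars false
open MeasureTheory Set Filter Topology Metric
open scoped ENNReal NNReal

noncomputable section
namespace Crest.Agent.R247.FarAsm196

open Crest.Agent.R247.Mcp688 Crest.Agent.R247.Far553

variable {n : ℕ} {κ : ℝ} {X : Type*} [MetricSpace X] [MeasurableSpace X] [BorelSpace X]
  {μ : Measure X}

/-- the quantity of the first block `[0, dy m]` at thickness `dy m` -/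
def Fst {c : FarK} {C : Rad n κ X μ} {x : X} {δ : ℝ} {ph : ℕ → ℝ} (F : FarD c C x δ ph)
    (m : ℕ) (z w : X) : ℝ≥0∞ :=
  ENNReal.ofReal (dy m ^ 2) * ENNReal.ofReal (F.g m z ^ 2)
  + ENNReal.ofReal (dy m) *
      ∫⁻ τ in Icc 0 (dy m), ENNReal.ofReal (F.H m (ray C z w τ) ^ 2 + F.q m (ray C z w τ))

section
variable [SecondCountableTopology X] [SFinite μ]
variable {c : FarK} {C : Rad n κ X μ} {x : X} {δ : ℝ} {ph : ℕ → ℝ} (F : FarD c C x δ ph)

lemma measurable_Fst (m : ℕ) : Measurable (fun p : X × X => Fst F m p.1 p.2) := by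
  unfold Fst
  refine (((meas_ofReal ((F.g_meas m).pow_const 2)).comp measurable_fst).const_mul _).add
    (Measurable.const_mul ?_ _)
  apply Measurable.lintegral_prod_right' (f := fun p : (X × X) × ℝ =>
    ENNReal.ofReal (F.H m (ray C p.1.1 p.1.2 p.2) ^ 2 + F.q m (ray C p.1.1 p.1.2 p.2)))
  have h : Measurable fun y => ENNReal.ofReal (F.H m y ^ 2 + F.q m y) :=
    meas_ofReal (((F.H_meas m).pow_const 2).add (F.q_meas m))
  exact h.comp (measurable_ray C)

/-- upper bound for the mass of the far set -/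
def CW (n : ℕ) (c : FarK) : ℝ := 2 * c.ω * 10 ^ n

lemma CW_pos (n : ℕ) (c : FarK) : 0 < CW n c := by
  have := c.ω_pos
  unfold CW; positivity

lemma ann_le (F : FarD c C x δ ph) (hδ : δ ≤ 1) {p : X} (hp : dist p x < 1) :
    μ (ann p 4 8) ≤ ENNReal.ofReal (CW n c) := by
  have hω := c.ω_pos
  calc μ (ann p 4 8) ≤ μ (ball x 10) := by
        apply measure_mono
        intro w hw
        have := dist_triangle w p x
        rw [mem_ball]
        have h2 := hw.2
        rw [dist_comm] at h2
        linarith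
    _ ≤ ENNReal.ofReal ((1 + δ) * c.ω * 10 ^ n) :=
        F.vol_le x 10 (by simp) (by norm_num) (by norm_num)
    _ ≤ _ := by
        apply ENNReal.ofReal_le_ofReal
        unfold CW
        gcongr
        linarith

/-- constant of the first block -/
def CF (n : ℕ) (c : FarK) : ℝ := CW n c * c.B3 1 1 * (1 + Real.exp 50 * 2 ^ n * 5)

lemma CF_pos (n : ℕ) (c : FarK) : 0 < CF n c := by
  have := CW_pos n c
  have := c.B3_pos 1 1
  unfold CF; positivity

theorem Fst_avg (hκ1 : κ ≤ 1) (hδ : δ ≤ 1) (hlaw : LawFirst C) {p : X}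
    (hp : dist p x < 1) {m j : ℕ} (hm : 4 ≤ m) (hmj : m ≤ j) :
    ∫⁻ z in ball x (dy j), ∫⁻ w in ann p 4 8, Fst F m z w ∂μ ∂μ ≤
      ENNReal.ofReal (CF n c * ph m * dy m ^ 2 * dy m ^ n) := by
  have hdm := dy_pos m
  have hdj := dy_pos j
  have hjm := dy_anti hmj
  have hdm4 : dy m ≤ 1 / 16 := by
    refine (dy_anti hm).trans ?_
    unfold dy; norm_num
  have hB3 := c.B3_pos 1 1
  have hph := F.ph_nonneg m
  have hCW := CW_pos n c
  have hω := c.ω_pos
  have hann := ann_le F hδ hp
  have hball : ∫⁻ z in ball x (16 * dy m), ENNReal.ofReal (F.H m z ^ 2 + F.g m z ^ 2 + F.q m z) ∂μ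
      ≤ ENNReal.ofReal (c.B3 1 1 * ph m * dy m ^ n) := F.d2_ball m hm
  set g1 : X → ℝ≥0∞ := fun y => ENNReal.ofReal (F.H m y ^ 2 + F.q m y) with hg1
  have hg1m : Measurable g1 := meas_ofReal (((F.H_meas m).pow_const 2).add (F.q_meas m))
  have hgm : Measurable fun y => ENNReal.ofReal (F.g m y ^ 2) :=
    meas_ofReal ((F.g_meas m).pow_const 2)
  -- term 1
  have t1 : ∫⁻ z in ball x (dy j), ENNReal.ofReal (F.g m z ^ 2) ∂μ ≤
      ENNReal.ofReal (c.B3 1 1 * ph m * dy m ^ n) := by
    refine le_trans ?_ hball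
    refine (lintegral_mono_set (ball_subset_ball (by linarith))).trans (lintegral_mono fun z => ?_)
    apply ENNReal.ofReal_le_ofReal
    have h1 := sq_nonneg (F.H m z)
    have h2 := F.q_nonneg m z
    linarith
  -- term 2
  have hray : Measurable (fun q : (X × X) × ℝ => g1 (ray C q.1.1 q.1.2 q.2)) :=
    hg1m.comp (measurable_ray C)
  have hin : Measurable (fun q : X × X => ∫⁻ τ in Icc 0 (dy m), g1 (ray C q.1 q.2 τ)) :=
    Measurable.lintegral_prod_right' (f := fun q : (X × X) × ℝ => g1 (ray C q.1.1 q.1.2 q.2)) hray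
  have t2 : ∫⁻ z in ball x (dy j), ∫⁻ w in ann p 4 8, (∫⁻ τ in Icc 0 (dy m), g1 (ray C z w τ)) ∂μ ∂μ ≤
      ENNReal.ofReal (CW n c * (Real.exp 50 * 2 ^ n * 5 * dy m * (c.B3 1 1 * ph m * dy m ^ n))) := by
    rw [lintegral_lintegral_swap hin.aemeasurable]
    calc ∫⁻ w in ann p 4 8, ∫⁻ z in ball x (dy j), (∫⁻ τ in Icc 0 (dy m), g1 (ray C z w τ)) ∂μ ∂μ
        ≤ ∫⁻ w in ann p 4 8,
            ENNReal.ofReal (Real.exp 50 * 2 ^ n * 5 * dy m * (c.B3 1 1 * ph m * dy m ^ n)) ∂μ := by
          apply setLIntegral_mono' (measurableSet_ann p 4 8)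
          intro w hw
          have hc : 0 < dy m / dy j := by positivity
          have hb : ∀ z ∈ ball x (dy j), 2 ≤ dist z w ∧ dist z w ≤ 10 := by
            intro z hz
            apply dist_bounds hp _ hw
            rw [mem_ball, dist_comm] at hz
            linarith
          have h := hlaw x w (dy j) (dy m / dy j) 2 10 g1 hdj hc (by norm_num) hb (by
            have : 2 * (dy m / dy j) * dy j = 2 * dy m := by field_simp
            rw [this]; linarith) hg1m
          have e1 : dy m / dy j * dy j = dy m := by field_simp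
          rw [e1] at h
          unfold ray
          refine h.trans ?_
          have h2 : ∫⁻ y in ball x ((1 + dy m / dy j) * dy j), g1 y ∂μ ≤
              ENNReal.ofReal (c.B3 1 1 * ph m * dy m ^ n) := by
            refine le_trans ?_ hball
            refine (lintegral_mono_set (ball_subset_ball ?_)).trans (lintegral_mono fun z => ?_)
            · rw [add_mul, e1]; linarith
            · apply ENNReal.ofReal_le_ofReal
              have h1 := sq_nonneg (F.g m z)
              linarith
          refine (mul_le_mul_right h2 _).trans ?_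
          rw [← ENNReal.ofReal_mul (by positivity)]
          apply ENNReal.ofReal_le_ofReal
          have e2 : Real.exp (κ * 10 ^ 2 / 2) * 2 ^ n * (10 / 2) * (dy m / dy j) * dy j =
              Real.exp (κ * 10 ^ 2 / 2) * 2 ^ n * 5 * dy m := by
            rw [mul_assoc, e1]; norm_num
          rw [e2]
          have : κ * 10 ^ 2 / 2 ≤ 50 := by linarith
          gcongr
      _ = ENNReal.ofReal (Real.exp 50 * 2 ^ n * 5 * dy m * (c.B3 1 1 * ph m * dy m ^ n)) *
            μ (ann p 4 8) := by rw [setLIntegral_const]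
      _ ≤ ENNReal.ofReal (Real.exp 50 * 2 ^ n * 5 * dy m * (c.B3 1 1 * ph m * dy m ^ n)) *
            ENNReal.ofReal (CW n c) := by gcongr
      _ = _ := by
          rw [← ENNReal.ofReal_mul (by positivity)]
          congr 1; ring
  have hslice : ∀ z, Measurable fun w => ∫⁻ τ in Icc 0 (dy m), g1 (ray C z w τ) := fun z =>
    hin.comp (measurable_const.prodMk measurable_id)
  have hin2 : Measurable fun z => ∫⁻ w in ann p 4 8, (∫⁻ τ in Icc 0 (dy m), g1 (ray C z w τ)) ∂μ :=
    hin.lintegral_prod_right'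
  calc ∫⁻ z in ball x (dy j), ∫⁻ w in ann p 4 8, Fst F m z w ∂μ ∂μ
      = ∫⁻ z in ball x (dy j), (ENNReal.ofReal (dy m ^ 2) * ENNReal.ofReal (F.g m z ^ 2) *
          μ (ann p 4 8) + ENNReal.ofReal (dy m) *
          ∫⁻ w in ann p 4 8, (∫⁻ τ in Icc 0 (dy m), g1 (ray C z w τ)) ∂μ) ∂μ := by
        apply lintegral_congr
        intro z
        unfold Fst
        rw [lintegral_add_left measurable_const, setLIntegral_const,
          lintegral_const_mul _ (hslice z)]
    _ = (∫⁻ z in ball x (dy j), ENNReal.ofReal (dy m ^ 2) * ENNReal.ofReal (F.g m z ^ 2) *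
          μ (ann p 4 8) ∂μ) + ENNReal.ofReal (dy m) *
          ∫⁻ z in ball x (dy j), ∫⁻ w in ann p 4 8, (∫⁻ τ in Icc 0 (dy m), g1 (ray C z w τ)) ∂μ ∂μ := by
        rw [lintegral_add_right _ (hin2.const_mul _), lintegral_const_mul _ hin2]
    _ = ENNReal.ofReal (dy m ^ 2) * (∫⁻ z in ball x (dy j), ENNReal.ofReal (F.g m z ^ 2) ∂μ) *
          μ (ann p 4 8) + ENNReal.ofReal (dy m) *
          ∫⁻ z in ball x (dy j), ∫⁻ w in ann p 4 8, (∫⁻ τ in Icc 0 (dy m), g1 (ray C z w τ)) ∂μ ∂μ := by
        rw [lintegral_mul_const _ (hgm.const_mul _), lintegral_const_mul _ hgm]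
    _ ≤ ENNReal.ofReal (dy m ^ 2) * ENNReal.ofReal (c.B3 1 1 * ph m * dy m ^ n) *
          ENNReal.ofReal (CW n c) + ENNReal.ofReal (dy m) *
          ENNReal.ofReal (CW n c * (Real.exp 50 * 2 ^ n * 5 * dy m *
            (c.B3 1 1 * ph m * dy m ^ n))) := by
        gcongr
    _ = _ := by
        rw [← ENNReal.ofReal_mul (by positivity), ← ENNReal.ofReal_mul (by positivity),
          ← ENNReal.ofReal_mul (by positivity), ← ENNReal.ofReal_add (by positivity) (by positivity)]
        congr 1
        unfold CF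
        ring

end

end Crest.Agent.R247.FarAsm196
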