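import Crest.Agent.R247.FarAsm3_196

/-!
# Assembly of block (1), part 4: numerics of the scales (helper196)

`kf β i j` is the thickness used at scale `i` for the pair of scale `j`:
`dy (kf β i j)^2 ≈ dy i * dy j * (dy j / dy i)^(β/2)`.
-/

set_option autoImplicit false
set_option linter.unusedSectionVars false
open MeasureTheory Set Filter Topology Metric
open scoped ENNReal NNReal

noncomputable section
namespace Crest.Agent.R247.FarAsm196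

open Crest.Agent.R247.Mcp688 Crest.Agent.R247.Far553

lemma dy_rpow (j : ℕ) : dy j = (2 : ℝ) ^ (-(j : ℝ)) := by
  unfold dy
  rw [Real.rpow_neg (by norm_num), Real.rpow_natCast, one_div, inv_pow]

lemma two_rpow_pos (a : ℝ) : 0 < (2 : ℝ) ^ a := Real.rpow_pos_of_pos (by norm_num) _

lemma two_rpow_mono {a b : ℝ} (h : a ≤ b) : (2 : ℝ) ^ a ≤ (2 : ℝ) ^ b :=
  Real.rpow_le_rpow_of_exponent_le (by norm_num) h

lemma two_rpow_add (a b : ℝ) : (2 : ℝ) ^ (a + b) = (2 : ℝ) ^ a * (2 : ℝ) ^ b :=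
  Real.rpow_add (by norm_num) _ _

/-- thickness at scale `i` -/
def kf (β : ℝ) (i j : ℕ) : ℕ := i + ⌊(1 / 2 + β / 4) * ((j - i : ℕ) : ℝ)⌋₊

lemma le_kf (β : ℝ) (i j : ℕ) : i ≤ kf β i j := Nat.le_add_right _ _

lemma kf_le {β : ℝ} (h0 : 0 ≤ β) (h1 : β ≤ 1) {i j : ℕ} (hij : i ≤ j) : kf β i j ≤ j := by
  unfold kf
  have h2 : ⌊(1 / 2 + β / 4) * ((j - i : ℕ) : ℝ)⌋₊ ≤ j - i := by
    apply Nat.floor_le_of_le
    have : (0 : ℝ) ≤ ((j - i : ℕ) : ℝ) := Nat.cast_nonneg _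
    nlinarith
  omega

lemma kf_upper {β : ℝ} (h0 : 0 ≤ β) {i j : ℕ} (hij : i ≤ j) :
    (kf β i j : ℝ) ≤ i + (1 / 2 + β / 4) * ((j : ℝ) - i) := by
  unfold kf
  push_cast [Nat.cast_sub hij]
  have h3 : (0 : ℝ) ≤ (j : ℝ) - i := sub_nonneg.2 (by exact_mod_cast hij)
  have := Nat.floor_le (a := (1 / 2 + β / 4) * ((j : ℝ) - i)) (by positivity)
  linarith

lemma kf_lower {β : ℝ} {i j : ℕ} (hij : i ≤ j) :
    i + (1 / 2 + β / 4) * ((j : ℝ) - i) - 1 ≤ (kf β i j : ℝ) := by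
  unfold kf
  push_cast [Nat.cast_sub hij]
  have := Nat.lt_floor_add_one ((1 / 2 + β / 4) * ((j : ℝ) - i))
  linarith

/-- (A1) -/
lemma kf_sq_ge {β : ℝ} (h0 : 0 ≤ β) {i j : ℕ} (hij : i ≤ j) :
    dy i * dy j * (2 : ℝ) ^ (-(β / 2 * ((j : ℝ) - i))) ≤ dy (kf β i j) ^ 2 := by
  have h := kf_upper h0 hij
  rw [dy_rpow, dy_rpow, dy_rpow, ← two_rpow_add, ← two_rpow_add, sq, ← two_rpow_add]
  apply two_rpow_mono
  nlinarith

/-- (A2) -/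
lemma kf_sq_le {β : ℝ} {i j : ℕ} (hij : i ≤ j) :
    (dy (kf β i j) ^ 2 / dy i) ^ 2 ≤ 16 * (dy j ^ 2 * (2 : ℝ) ^ (-(β * ((j : ℝ) - i)))) := by
  have h := kf_lower (β := β) hij
  have h16 : (16 : ℝ) = (2 : ℝ) ^ (4 : ℝ) := by norm_num
  rw [h16, dy_rpow, dy_rpow, dy_rpow, div_eq_mul_inv, ← Real.rpow_neg (by norm_num), sq, sq, sq,
    ← two_rpow_add, ← two_rpow_add, ← two_rpow_add, ← two_rpow_add, ← two_rpow_add,
    ← two_rpow_add]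
  apply two_rpow_mono
  nlinarith

/-- (A3) -/
lemma kf_add {β : ℝ} (h0 : 0 ≤ β) {i j k0 : ℕ} (h : i + 2 * k0 ≤ j) : i + k0 ≤ kf β i j := by
  unfold kf
  have h2 : k0 ≤ ⌊(1 / 2 + β / 4) * ((j - i : ℕ) : ℝ)⌋₊ := by
    apply Nat.le_floor
    have h3 : 2 * (k0 : ℝ) ≤ ((j - i : ℕ) : ℝ) := by
      have : 2 * k0 ≤ j - i := by omega
      exact_mod_cast this
    nlinarith [Nat.cast_nonneg (α := ℝ) k0]
  omega

/-- (A4) -/
lemma sq_le_kf_sq {β : ℝ} (h0 : 0 ≤ β) (h1 : β ≤ 1) {i j : ℕ} (hij : i ≤ j) :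
    dy j ^ 2 ≤ dy (kf β i j) ^ 2 :=
  pow_le_pow_left₀ (dy_pos j).le (dy_anti (kf_le h0 h1 hij)) 2

/-- (B1) ratio at a time comparable to the scale -/
lemma ratio_pow {β : ℝ} (h0 : 0 ≤ β) (h1 : β ≤ 1) {i j : ℕ} {τ : ℝ}
    (hτ : dy i / 2 ≤ τ) : (dy j / τ) ^ β ≤ 2 * (2 : ℝ) ^ (-(β * ((j : ℝ) - i))) := by
  have hi := dy_pos i
  have hj := dy_pos j
  have hτ0 : 0 < τ := by linarith
  have h2 : dy j / τ ≤ 2 * (2 : ℝ) ^ (-((j : ℝ) - i)) := by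
    rw [div_le_iff₀ hτ0]
    have h3 : (2 : ℝ) ^ (-((j : ℝ) - i)) * dy i = dy j := by
      rw [dy_rpow, dy_rpow, ← two_rpow_add]
      congr 1
      ring
    have h4 := two_rpow_pos (-((j : ℝ) - i))
    calc dy j = 2 * (2 : ℝ) ^ (-((j : ℝ) - i)) * (dy i / 2) := by rw [← h3]; ring
      _ ≤ _ := by gcongr
  calc (dy j / τ) ^ β ≤ (2 * (2 : ℝ) ^ (-((j : ℝ) - i))) ^ β :=
        Real.rpow_le_rpow (by positivity) h2 h0
    _ = (2 : ℝ) ^ β * (2 : ℝ) ^ (-(β * ((j : ℝ) - i))) := by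
        rw [Real.mul_rpow (by norm_num) (two_rpow_pos _).le, ← Real.rpow_mul (by norm_num)]
        congr 2
        ring
    _ ≤ _ := by
        gcongr
        calc (2 : ℝ) ^ β ≤ (2 : ℝ) ^ (1 : ℝ) := two_rpow_mono h1
          _ = 2 := by norm_num

/-- (B2) the excess times the scale -/
lemma scale_excess {β : ℝ} (h0 : 0 ≤ β) (h1 : β ≤ 1) {i j : ℕ} (hij : i ≤ j) {C0 T : ℝ}
    (hC0 : 0 ≤ C0) (hT : T ≤ C0 * dy j * (dy j / (dy i / 2)) ^ β) :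
    dy i * T ≤ 2 * C0 * dy (kf β i j) ^ 2 := by
  have hi := dy_pos i
  have hj := dy_pos j
  have h2 := ratio_pow (j := j) h0 h1 (le_refl (dy i / 2))
  have h3 := kf_sq_ge h0 hij
  have h4 : (2 : ℝ) ^ (-(β * ((j : ℝ) - i))) ≤ (2 : ℝ) ^ (-(β / 2 * ((j : ℝ) - i))) := by
    apply two_rpow_mono
    have : (0 : ℝ) ≤ (j : ℝ) - i := sub_nonneg.2 (by exact_mod_cast hij)
    nlinarith
  calc dy i * T ≤ dy i * (C0 * dy j * (2 * (2 : ℝ) ^ (-(β / 2 * ((j : ℝ) - i))))) := by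
        gcongr
        refine hT.trans ?_
        gcongr
        exact h2.trans (by gcongr)
    _ = 2 * C0 * (dy i * dy j * (2 : ℝ) ^ (-(β / 2 * ((j : ℝ) - i)))) := by ring
    _ ≤ _ := by gcongr

/-- (B3) the distance to the ray -/
lemma scale_dist {β : ℝ} (h0 : 0 ≤ β) (h1 : β ≤ 1) {i j : ℕ} (hij : i ≤ j) {C0 D τ : ℝ}
    (hC0 : 0 ≤ C0) (hτ1 : dy i / 2 ≤ τ) (hτ2 : τ ≤ 2 * dy i)
    (hD : D ^ 2 ≤ C0 * dy j * τ * (dy j / τ) ^ (β / 2)) :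
    D ≤ Real.sqrt (4 * C0) * dy (kf β i j) := by
  have hi := dy_pos i
  have hj := dy_pos j
  have hk := dy_pos (kf β i j)
  have hτ0 : 0 < τ := by linarith
  have h2 := ratio_pow (β := β / 2) (j := j) (by linarith) (by linarith) hτ1
  have h3 := kf_sq_ge h0 hij
  have h4 : D ^ 2 ≤ 4 * C0 * dy (kf β i j) ^ 2 := by
    calc D ^ 2 ≤ C0 * dy j * τ * (dy j / τ) ^ (β / 2) := hD
      _ ≤ C0 * dy j * (2 * dy i) * (2 * (2 : ℝ) ^ (-(β / 2 * ((j : ℝ) - i)))) := by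
          gcongr
      _ = 4 * C0 * (dy i * dy j * (2 : ℝ) ^ (-(β / 2 * ((j : ℝ) - i)))) := by ring
      _ ≤ _ := by gcongr
  calc D ≤ |D| := le_abs_self _
    _ = Real.sqrt (D ^ 2) := (Real.sqrt_sq_eq_abs D).symm
    _ ≤ Real.sqrt (4 * C0 * dy (kf β i j) ^ 2) := Real.sqrt_le_sqrt h4
    _ = _ := by rw [Real.sqrt_mul (by positivity), Real.sqrt_sq hk.le]

/-- the top term -/
lemma top_pow {β : ℝ} (h0 : 0 ≤ β) {j : ℕ} {τ T C0 : ℝ} (hC0 : 0 ≤ C0)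
    (hτ : 0 < τ) (hτ1 : τ ≤ 1) (hT0 : 0 ≤ T) (hT : T ≤ C0 * dy j * (dy j / τ) ^ β) (h1 : β ≤ 1) :
    T ^ 2 ≤ (C0 / τ) ^ 2 * (dy j ^ 2 * dy j ^ (β / 2)) := by
  have hj := dy_pos j
  have hj1 := dy_le_one j
  have h2 : (dy j / τ) ^ β ≤ dy j ^ β / τ := by
    rw [Real.div_rpow hj.le hτ.le]
    apply div_le_div_of_nonneg_left (by positivity) hτ
    calc τ = τ ^ (1 : ℝ) := (Real.rpow_one τ).symm
      _ ≤ τ ^ β := Real.rpow_le_rpow_of_exponent_ge hτ hτ1 h1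
  have h3 : T ≤ C0 / τ * (dy j * dy j ^ β) := by
    calc T ≤ C0 * dy j * (dy j ^ β / τ) := hT.trans (by gcongr)
      _ = _ := by ring
  have h4 : (dy j ^ β) ^ 2 ≤ dy j ^ (β / 2) := by
    rw [← Real.rpow_natCast, ← Real.rpow_mul hj.le]
    apply Real.rpow_le_rpow_of_exponent_ge hj hj1
    push_cast
    linarith
  calc T ^ 2 ≤ (C0 / τ * (dy j * dy j ^ β)) ^ 2 := pow_le_pow_left₀ hT0 h3 2
    _ = (C0 / τ) ^ 2 * (dy j ^ 2 * (dy j ^ β) ^ 2) := by ring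
    _ ≤ _ := by gcongr

end Crest.Agent.R247.FarAsm196
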