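import Crest.Agent.R247.FarAsm4_196

/-!
# Assembly of block (1), part 5: summation over the blocks for one line (helper196)
-/

set_option autoImplicit false
set_option linter.unusedSectionVars false
open MeasureTheory Set Filter Topology Metric
open scoped ENNReal NNReal

noncomputable section
namespace Crest.Agent.R247.FarAsm196

open Crest.Agent.R247.Mcp688 Crest.Agent.R247.Far553

lemma sum_Ioc_reflect (f : ℕ → ℝ) {i1 m : ℕ} (h : i1 ≤ m) :
    ∑ i ∈ Finset.Ioc i1 m, f i = ∑ l ∈ Finset.range (m - i1), f (m - l) := by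
  refine Finset.sum_nbij' (fun i => m - i) (fun l => m - l) ?_ ?_ ?_ ?_ ?_
  · intro i hi
    rw [Finset.mem_Ioc] at hi
    rw [Finset.mem_range]
    omega
  · intro l hl
    rw [Finset.mem_range] at hl
    rw [Finset.mem_Ioc]
    omega
  · intro i hi
    rw [Finset.mem_Ioc] at hi
    omega
  · intro l hl
    rw [Finset.mem_range] at hl
    omega
  · intro i hi
    rw [Finset.mem_Ioc] at hi
    congr 1
    omega

/-- Cauchy–Schwarz for the blocks -/
lemma blk_cs {b : ℝ} (hb : 0 < b) {i1 m j : ℕ} (h1 : i1 ≤ m) (h2 : m ≤ j) (blk : ℕ → ℝ) :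
    (∑ i ∈ Finset.Ioc i1 m, blk i) ^ 2 ≤
      Num824.geoC b * ∑ i ∈ Finset.Ioc i1 m, (2 : ℝ) ^ (b * ((j : ℝ) - i)) * blk i ^ 2 := by
  have hg := Num824.geoC_pos hb
  rw [sum_Ioc_reflect blk h1, sum_Ioc_reflect _ h1]
  refine (Num824.geo_cs hb (fun l => blk (m - l)) (m - i1)).trans ?_
  refine mul_le_mul_of_nonneg_left (Finset.sum_le_sum fun l hl => ?_) hg.le
  rw [Finset.mem_range] at hl
  refine mul_le_mul_of_nonneg_right ?_ (sq_nonneg _)
  apply two_rpow_mono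
  have h3 : l ≤ m := by omega
  push_cast [Nat.cast_sub h3]
  have h4 : (m : ℝ) ≤ j := by exact_mod_cast h2
  nlinarith

/-- combination of the first block, the dyadic blocks and the top term -/
lemma comb {b : ℝ} (hb : 0 < b) {i1 m j : ℕ} (h1 : i1 ≤ m) (h2 : m ≤ j) (blk : ℕ → ℝ)
    (E0 J1 : ℝ) {A t : ℝ} (hA : 0 ≤ A) (B : ℕ → ℝ≥0∞)
    (hB : ∀ i ∈ Finset.Ioc i1 m, ENNReal.ofReal (blk i ^ 2) ≤
      ENNReal.ofReal (A * (t ^ 2 * (2 : ℝ) ^ (-(2 * b * ((j : ℝ) - i))))) * B i) :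
    ENNReal.ofReal ((E0 + ∑ i ∈ Finset.Ioc i1 m, blk i - J1) ^ 2) ≤
      3 * (ENNReal.ofReal (E0 ^ 2) + ENNReal.ofReal (Num824.geoC b * A) *
        ∑ i ∈ Finset.Ioc i1 m, ENNReal.ofReal (t ^ 2 * (2 : ℝ) ^ (-(b * ((j : ℝ) - i)))) * B i +
        ENNReal.ofReal (J1 ^ 2)) := by
  have hg := Num824.geoC_pos hb
  set S := ∑ i ∈ Finset.Ioc i1 m, blk i with hS
  have h3 : (E0 + S - J1) ^ 2 ≤ 3 * (E0 ^ 2 + S ^ 2 + J1 ^ 2) := by
    nlinarith [sq_nonneg (E0 - S), sq_nonneg (E0 + J1), sq_nonneg (S + J1)]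
  have h4 : ENNReal.ofReal (S ^ 2) ≤ ENNReal.ofReal (Num824.geoC b * A) *
        ∑ i ∈ Finset.Ioc i1 m,
          ENNReal.ofReal (t ^ 2 * (2 : ℝ) ^ (-(b * ((j : ℝ) - i)))) * B i := by
    calc ENNReal.ofReal (S ^ 2) ≤ ENNReal.ofReal (Num824.geoC b *
            ∑ i ∈ Finset.Ioc i1 m, (2 : ℝ) ^ (b * ((j : ℝ) - i)) * blk i ^ 2) :=
          ENNReal.ofReal_le_ofReal (blk_cs hb h1 h2 blk)
      _ = ENNReal.ofReal (Num824.geoC b) * ∑ i ∈ Finset.Ioc i1 m,
            ENNReal.ofReal ((2 : ℝ) ^ (b * ((j : ℝ) - i))) * ENNReal.ofReal (blk i ^ 2) := by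
          rw [ENNReal.ofReal_mul hg.le, ENNReal.ofReal_sum_of_nonneg]
          · congr 1
            refine Finset.sum_congr rfl fun i _ => ?_
            rw [ENNReal.ofReal_mul (two_rpow_pos _).le]
          · intro i _
            exact mul_nonneg (two_rpow_pos _).le (sq_nonneg _)
      _ ≤ ENNReal.ofReal (Num824.geoC b) * ∑ i ∈ Finset.Ioc i1 m,
            ENNReal.ofReal A *
              (ENNReal.ofReal (t ^ 2 * (2 : ℝ) ^ (-(b * ((j : ℝ) - i)))) * B i) := by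
          refine mul_le_mul_right (Finset.sum_le_sum fun i hi => ?_) _
          refine (mul_le_mul_right (hB i hi) _).trans (le_of_eq ?_)
          rw [← mul_assoc, ← mul_assoc (ENNReal.ofReal A), ← ENNReal.ofReal_mul (two_rpow_pos _).le,
            ← ENNReal.ofReal_mul hA]
          congr 2
          have : (2 : ℝ) ^ (-(b * ((j : ℝ) - i))) =
              (2 : ℝ) ^ (b * ((j : ℝ) - i)) * (2 : ℝ) ^ (-(2 * b * ((j : ℝ) - i))) := by
            rw [← two_rpow_add]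
            congr 1
            ring
          rw [this]
          ring
      _ = _ := by
          rw [← Finset.mul_sum, ← mul_assoc, ← ENNReal.ofReal_mul hg.le]
  calc ENNReal.ofReal ((E0 + S - J1) ^ 2) ≤ ENNReal.ofReal (3 * (E0 ^ 2 + S ^ 2 + J1 ^ 2)) :=
        ENNReal.ofReal_le_ofReal h3
    _ = 3 * (ENNReal.ofReal (E0 ^ 2) + ENNReal.ofReal (S ^ 2) + ENNReal.ofReal (J1 ^ 2)) := by
        rw [ENNReal.ofReal_mul (by norm_num), ENNReal.ofReal_add (by positivity) (by positivity),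
          ENNReal.ofReal_add (by positivity) (by positivity)]
        norm_num
    _ ≤ _ := by gcongr

/-- shifting the windows of bad scales -/
lemma bad_shift {b t : ℝ} (hb0 : 0 ≤ b) (hb1 : b ≤ 1) {i1 m j : ℕ} (h1 : 6 ≤ i1 + 1)
    (h2 : m + 4 ≤ j) (g : ℕ → ℝ≥0∞) :
    ∑ i ∈ Finset.Ioc i1 m, ENNReal.ofReal (t ^ 2 * (2 : ℝ) ^ (-(b * ((j : ℝ) - i)))) *
        (∑ e ∈ Finset.range 7, g (i - 2 + e)) ≤
      28 * ∑ i ∈ Finset.Ico 4 (j + 1),
        ENNReal.ofReal (t ^ 2 * (2 : ℝ) ^ (-(b * ((j : ℝ) - i)))) * g i := by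
  set G : ℕ → ℝ≥0∞ := fun i =>
    ENNReal.ofReal (t ^ 2 * (2 : ℝ) ^ (-(b * ((j : ℝ) - i)))) * g i with hG
  calc ∑ i ∈ Finset.Ioc i1 m, ENNReal.ofReal (t ^ 2 * (2 : ℝ) ^ (-(b * ((j : ℝ) - i)))) *
        (∑ e ∈ Finset.range 7, g (i - 2 + e))
      ≤ ∑ i ∈ Finset.Ioc i1 m, ∑ e ∈ Finset.range 7, 4 * G (i - 2 + e) := by
        refine Finset.sum_le_sum fun i hi => ?_
        rw [Finset.mem_Ioc] at hi
        rw [Finset.mul_sum]
        refine Finset.sum_le_sum fun e he => ?_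
        rw [Finset.mem_range] at he
        rw [hG]
        dsimp only
        rw [← mul_assoc]
        refine mul_le_mul_left ?_ _
        have h4 : (4 : ℝ≥0∞) = ENNReal.ofReal 4 := by norm_num
        rw [h4, ← ENNReal.ofReal_mul (by norm_num)]
        apply ENNReal.ofReal_le_ofReal
        have h5 : (2 : ℝ) ^ (-(b * ((j : ℝ) - i))) ≤
            4 * (2 : ℝ) ^ (-(b * ((j : ℝ) - (i - 2 + e : ℕ)))) := by
          have h6 : (4 : ℝ) = (2 : ℝ) ^ (2 : ℝ) := by norm_num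
          rw [h6, ← two_rpow_add]
          apply two_rpow_mono
          have h7 : ((i - 2 + e : ℕ) : ℝ) = i - 2 + e := by
            push_cast [Nat.cast_sub (show 2 ≤ i by omega)]
            ring
          rw [h7]
          have h8 : (0 : ℝ) ≤ e := Nat.cast_nonneg e
          nlinarith
        calc t ^ 2 * (2 : ℝ) ^ (-(b * ((j : ℝ) - i)))
            ≤ t ^ 2 * (4 * (2 : ℝ) ^ (-(b * ((j : ℝ) - (i - 2 + e : ℕ))))) := by gcongr
          _ = _ := by ring
    _ = 4 * ∑ e ∈ Finset.range 7, ∑ i ∈ Finset.Ioc i1 m, G (i - 2 + e) := by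
        rw [Finset.sum_comm, Finset.mul_sum]
        refine Finset.sum_congr rfl fun e _ => ?_
        rw [Finset.mul_sum]
    _ ≤ 4 * ∑ e ∈ Finset.range 7, ∑ i ∈ Finset.Ico 4 (j + 1), G i := by
        gcongr with e he
        rw [Finset.mem_range] at he
        rw [← Finset.sum_image (s := Finset.Ioc i1 m) (g := fun i => i - 2 + e) (f := G)]
        · apply Finset.sum_le_sum_of_subset
          intro i hi
          rw [Finset.mem_image] at hi
          obtain ⟨a, ha, rfl⟩ := hi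
          rw [Finset.mem_Ioc] at ha
          rw [Finset.mem_Ico]
          omega
        · intro a ha c hc hac
          simp only [Finset.coe_Ioc, Set.mem_Ioc] at ha hc hac
          omega
    _ = _ := by
        rw [Finset.sum_const, Finset.card_range, nsmul_eq_mul, ← mul_assoc]
        norm_num

section
variable {n : ℕ} {κ : ℝ} {X : Type*} [MetricSpace X] [MeasurableSpace X] [BorelSpace X]
  {μ : Measure X}

/-- an a.e. property holds at a.e. arclength time of a.e. ray -/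
lemma ae_arc [SFinite μ] (C : Rad n κ X μ) (z : X) {p : X → Prop} (hp : ∀ᵐ y ∂μ, p y) :
    ∀ᵐ w ∂μ, 0 < dist z w → ∀ᵐ τ ∂(volume.restrict (Ioc 0 (dist z w))), p (ray C z w τ) := by
  filter_upwards [C.ae_ray z hp] with w hw hd
  rw [ae_restrict_iff' measurableSet_Ioc] at hw ⊢
  rw [ae_iff] at hw ⊢
  set S : Set ℝ := {t | ¬ (t ∈ Ioc (0 : ℝ) 1 → p (C.T z t w))} with hS
  have h1 : {τ : ℝ | ¬ (τ ∈ Ioc 0 (dist z w) → p (ray C z w τ))} ⊆
      (fun τ => (dist z w)⁻¹ * τ) ⁻¹' S := by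
    intro τ hτ
    simp only [mem_ofPred_eq, Classical.not_imp] at hτ
    obtain ⟨h2, h3⟩ := hτ
    simp only [hS, mem_preimage, mem_ofPred_eq, Classical.not_imp]
    have h4 : (dist z w)⁻¹ * τ = τ / dist z w := by rw [div_eq_inv_mul]
    refine ⟨⟨?_, ?_⟩, ?_⟩
    · rw [h4]; exact div_pos h2.1 hd
    · rw [h4]; exact (div_le_one hd).2 h2.2
    · rw [h4]; exact h3
  refine measure_mono_null h1 ?_
  rw [Real.volume_preimage_mul_left (inv_ne_zero hd.ne'), hw, mul_zero]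

end

end Crest.Agent.R247.FarAsm196
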