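import Crest.Agent.R247.FarAsm5_196
import Crest.Agent.R247.Cur7_301

/-!
# Assembly of block (1), part 6: the bound for one line (helper196)
-/

set_option autoImplicit false
set_option linter.unusedSectionVars false
open MeasureTheory Set Filter Topology Metric
open scoped ENNReal NNReal

noncomputable section
namespace Crest.Agent.R247.FarAsm196

open Crest.Agent.R247.Mcp688 Crest.Agent.R247.Far553

variable {n : ℕ} {κ : ℝ} {X : Type*} [MetricSpace X] [MeasurableSpace X] [BorelSpace X]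
  {μ : Measure X} {c : FarK} {C : Rad n κ X μ} {x : X} {δ : ℝ} {ph : ℕ → ℝ}

/-- restriction of a time integral and insertion of the indicator -/
lemma lint_le_tint {i : ℕ} {N : Set X} {z w : X} (f : X → ℝ≥0∞) (g : ℝ → ℝ≥0∞)
    (hN : ∀ τ ∈ Icc (dy i / 2) (2 * dy i), g τ ≤ N.indicator f (ray C z w τ)) :
    ∫⁻ τ in Icc (dy i / 2) (2 * dy i), g τ * ENNReal.ofReal τ⁻¹ ≤
      tint C (dy i / 4) (3 * dy i) (N.indicator f) z w := by
  have hi := dy_pos i
  unfold tint
  calc ∫⁻ τ in Icc (dy i / 2) (2 * dy i), g τ * ENNReal.ofReal τ⁻¹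
      ≤ ∫⁻ τ in Icc (dy i / 2) (2 * dy i), N.indicator f (ray C z w τ) * ENNReal.ofReal τ⁻¹ := by
        refine setLIntegral_mono' measurableSet_Icc fun τ hτ => ?_
        exact mul_le_mul_left (hN τ hτ) _
    _ ≤ _ := lintegral_mono_set (Icc_subset_Icc (by linarith) (by linarith))

/-- 301's block quantity is dominated by `Blk` when the minimiser stays in `NN` -/
lemma Bq_le_Blk (F : FarD c C x δ ph) {i k : ℕ} {K cN : ℝ} {z w : X}
    (hN : ∀ τ ∈ Icc (dy i / 2) (2 * dy i), ray C z w τ ∈ NN C x (dy i) (dy k) K cN) :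
    Cur301.Bq (dy k) (dy i / 2) (2 * dy i) (fun τ => F.q k (ray C z w τ))
      (fun τ => F.kk k (ray C z w τ)) (fun τ => F.H k (ray C z w τ))
      (fun τ => F.g k (ray C z w τ)) (fun τ => F.nk k (ray C z w τ)) ≤
    Blk F i k K cN z w := by
  unfold Cur301.Bq Blk
  have e1 : ENNReal.ofReal ((dy k)⁻¹ ^ 2) = ENNReal.ofReal ((dy k ^ 2)⁻¹) := by rw [inv_pow]
  rw [e1]
  refine add_le_add (add_le_add (add_le_add (add_le_add (add_le_add ?_ ?_) ?_) ?_) ?_) ?_
  · refine pow_le_pow_left₀ bot_le (lint_le_tint _ _ fun τ hτ => ?_) 2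
    rw [indicator_of_mem (hN τ hτ)]
  · refine pow_le_pow_left₀ bot_le (mul_le_mul_right (lint_le_tint _ _ fun τ hτ => ?_) _) 2
    by_cases h : |F.kk k (ray C z w τ)| ≤ dy k ^ 2
    · have h' : ray C z w τ ∈ NN C x (dy i) (dy k) K cN ∩ {y | |F.kk k y| ≤ dy k ^ 2} :=
        ⟨hN τ hτ, h⟩
      rw [if_pos h, indicator_of_mem h']
    · rw [if_neg h, ENNReal.ofReal_zero]
      exact bot_le
  · refine mul_le_mul_right (lint_le_tint _ _ fun τ hτ => ?_) _
    by_cases h : |F.kk k (ray C z w τ)| ≤ dy k ^ 2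
    · rw [if_pos h, ENNReal.ofReal_zero]
      exact bot_le
    · have h' : ray C z w τ ∈ NN C x (dy i) (dy k) K cN ∩ {y | dy k ^ 2 < |F.kk k y|} :=
        ⟨hN τ hτ, not_le.1 h⟩
      rw [if_neg h, indicator_of_mem h']
  · refine mul_le_mul_right (lint_le_tint _ _ fun τ hτ => ?_) _
    rw [indicator_of_mem (hN τ hτ)]
  · refine lint_le_tint _ _ fun τ hτ => ?_
    rw [indicator_of_mem (hN τ hτ)]
  · refine lint_le_tint _ _ fun τ hτ => ?_
    rw [indicator_of_mem (hN τ hτ)]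

lemma ofReal_le_mul_one {a b : ℝ} (h : a ≤ b) {B : ℝ≥0∞} (hB : 1 ≤ B) :
    ENNReal.ofReal a ≤ ENNReal.ofReal b * B := by
  calc ENNReal.ofReal a ≤ ENNReal.ofReal b * 1 := by rw [mul_one]; exact ENNReal.ofReal_le_ofReal h
    _ ≤ _ := mul_le_mul_right hB _

/-- constants of the line bound -/
def A1c (C0 : ℝ) : ℝ := 16 * (20000 * Cur301.cX ^ 2 * (2 * C0) ^ 2)

def Cpc (β C0 Mq : ℝ) : ℝ :=
  3 * (3 * Cur301.cX ^ 2 * Mq + Num824.geoC (β / 2) * A1c C0 * 28
    + 4 * Cur301.cX ^ 2 * (C0 / (dy 6 / 2)) ^ 2)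

/-- **The bound for one line** -/
theorem line_bound (F : FarD c C x δ ph) {β C0 Mq K2 cN KN εN : ℝ} {k0 j0 j : ℕ}
    {L : List (ℝ × ℝ)} (hβ0 : 0 < β) (hβ1 : β ≤ 1) (hC0 : 1 ≤ C0) (hMq : 1 ≤ Mq)
    (hKN : (KN, εN) ∈ L) (hj : j0 + 2 * k0 + 10 ≤ j) {z w v : X} (hU : (z, w) ∈ C.U)
    (hzw : 2 ≤ dist z w) (hxz : dist x z < dy j) {Dw : ℝ}
    (hA : ∀ k, Nonempty (AlongD (dist z w) (dy k) (fun τ => dist x (ray C z w τ) ^ 2 / 2)
        (fun τ => F.q k (ray C z w τ)) (fun τ => F.kk k (ray C z w τ))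
        (fun τ => F.H k (ray C z w τ)) (fun τ => F.g k (ray C z w τ))
        (fun τ => F.nk k (ray C z w τ)) Dw (F.g k z)))
    (hT : ∀ τ ∈ Icc (2 ^ j0 * dy j) (1 / 8 : ℝ),
      dist x (ray C z w τ) - τ + (dist z w - dist x w) ≤ C0 * dy j * (dy j / τ) ^ β ∧
      dist (ray C z w τ) (ray C x v (dist x (ray C z w τ))) ^ 2 ≤
        C0 * dy j * τ * (dy j / τ) ^ (β / 2))
    (hv1 : 1 ≤ dist x v) (hv2 : dist x v < 12)
    (hNN : ∀ i, 6 ≤ i → (∀ i', i - 2 ≤ i' → i' ≤ i + 4 →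
        ¬ bad C x (fun k z => F.H k z + F.g k z) KN εN i' v) →
        ∀ k, i + k0 ≤ k → ∀ τ ∈ Icc (dy i / 4) (3 * dy i), ∀ K1 : ℝ, 0 ≤ K1 → ∀ b : X,
          dist b (ray C x v τ) ≤ K1 * dy k → b ∈ NN C x (dy i) (dy k) (K2 + K1) cN)
    (hq : ∀ᵐ τ, τ ∈ Icc 0 (dy (j - (j0 + 2 * k0 + 4))) →
      F.q (j - (j0 + 2 * k0 + 4)) (ray C z w τ) ≤ Mq) :
    ENNReal.ofReal (Rw x z w Dw ^ 2) ≤ ENNReal.ofReal (Cpc β C0 Mq) *
      (Fst F (j - (j0 + 2 * k0 + 4)) z w
        + ∑ i ∈ Finset.Ico 4 (j + 1),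
            ENNReal.ofReal (dy j ^ 2 * (2 : ℝ) ^ (-(β / 2 * ((j : ℝ) - i)))) *
              (Blk F i (kf β i j) (K2 + Real.sqrt (4 * C0)) cN z w
                + (BdS F L i).indicator (fun _ => 1) v)
        + ENNReal.ofReal (dy j ^ 2 * dy j ^ (β / 2))) := by
  classical
  have hcX := Cur301.one_le_cX
  have hg := Num824.geoC_pos (b := β / 2) (by positivity)
  have hzw0 : 0 < dist z w := by linarith
  have hj0 := dy_pos j
  set m : ℕ := j - (j0 + 2 * k0 + 4) with hm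
  have hm6 : 6 ≤ m := by omega
  have hmj : m + 4 ≤ j := by omega
  set r : ℝ → ℝ := fun τ => dist x (ray C z w τ) with hr
  set v' : ℝ := dist z w - dist x w with hv'
  have hcrv : Cur301.Crv r v' (dist x z) 0 (dist z w) := Cur301.crv_ray C hU hzw0
  -- measurability along the curve
  have hray := Cur301.measurable_ray C z w
  -- `dy` facts
  have hpow : ∀ i, i + j0 ≤ j → 2 ^ j0 * dy j ≤ dy i := by
    intro i hi
    have h1 : dy j ≤ dy (i + j0) := dy_anti hi
    have h2 : (2 : ℝ) ^ j0 * dy (i + j0) = dy i := by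
      unfold dy
      rw [pow_add, mul_left_comm, ← mul_pow]
      norm_num
    calc 2 ^ j0 * dy j ≤ 2 ^ j0 * dy (i + j0) := by gcongr
      _ = dy i := h2
  have hdy6 : dy 6 = 1 / 64 := by unfold dy; norm_num
  have hdi : ∀ i, 6 ≤ i → dy i ≤ 1 / 64 := fun i hi => (dy_anti hi).trans hdy6.le
  have h16 : ∀ i, i + 4 ≤ j → 16 * dy j ≤ dy i := by
    intro i hi
    have h1 : dy j ≤ dy (i + 4) := dy_anti hi
    have h2 : (16 : ℝ) * dy (i + 4) = dy i := by
      unfold dy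
      rw [pow_add]
      norm_num
      ring
    linarith
  -- the excess at `dy i / 2`
  have hTi : ∀ i, 6 ≤ i → i ≤ m → Cur301.Tf r v' (dy i / 2) ≤
      C0 * dy j * (dy j / (dy i / 2)) ^ β := by
    intro i hi him
    have hi2 : dy i / 2 = dy (i + 1) := (dy_succ i).symm
    have h := (hT (dy i / 2) ⟨by rw [hi2]; exact hpow (i + 1) (by omega), by
      have := hdi i hi
      linarith⟩).1
    exact h
  -- decomposition
  have hdec := Cur301.decomp (i₁ := 6) (m := m) hcrv hm6 (by have := dy_pos m; linarith)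
    (by linarith) Dw
  have hRw : Rw x z w Dw = Dw - v' := by rw [Rw, hv']
  rw [hRw, hdec]
  set B : ℕ → ℝ≥0∞ := fun i => Blk F i (kf β i j) (K2 + Real.sqrt (4 * C0)) cN z w +
    ∑ e ∈ Finset.range 7, (BdS F L (i - 2 + e)).indicator (fun _ => (1 : ℝ≥0∞)) v with hB
  have hA1 : 0 ≤ A1c C0 := by unfold A1c; positivity
  -- block bounds
  have hblk : ∀ i ∈ Finset.Ioc 6 m, ENNReal.ofReal (Cur301.blk r v' (dy i) ^ 2) ≤
      ENNReal.ofReal (A1c C0 * (dy j ^ 2 * (2 : ℝ) ^ (-(2 * (β / 2) * ((j : ℝ) - i))))) * B i := by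
    intro i hi
    rw [Finset.mem_Ioc] at hi
    have hij : i ≤ j := by omega
    have hi0 := dy_pos i
    have hi1 := hdi i (by omega)
    have h16i := h16 i (by omega)
    set k := kf β i j with hk
    have hk0 := dy_pos k
    have hcr : Cur301.Crv r v' (dist x z) (dy i / 2) (2 * dy i) :=
      hcrv.mono (by linarith) (by linarith)
    have h8 : 8 * dist x z ≤ dy i := by linarith
    have hTT : dy i * Cur301.Tf r v' (dy i / 2) ≤ 2 * C0 * dy k ^ 2 :=
      scale_excess hβ0.le hβ1 hij (by linarith) (hTi i (by omega) hi.2)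
    have hcoef : (dy k ^ 2 / dy i) ^ 2 ≤
        16 * (dy j ^ 2 * (2 : ℝ) ^ (-(2 * (β / 2) * ((j : ℝ) - i)))) := by
      have h := kf_sq_le (β := β) hij
      have : 2 * (β / 2) = β := by ring
      rw [this]
      exact h
    have hcoef' : 20000 * Cur301.cX ^ 2 * (2 * C0) ^ 2 * (dy k ^ 2 / dy i) ^ 2 ≤
        A1c C0 * (dy j ^ 2 * (2 : ℝ) ^ (-(2 * (β / 2) * ((j : ℝ) - i)))) := by
      unfold A1c
      calc 20000 * Cur301.cX ^ 2 * (2 * C0) ^ 2 * (dy k ^ 2 / dy i) ^ 2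
          ≤ 20000 * Cur301.cX ^ 2 * (2 * C0) ^ 2 *
            (16 * (dy j ^ 2 * (2 : ℝ) ^ (-(2 * (β / 2) * ((j : ℝ) - i))))) := by gcongr
        _ = _ := by ring
    by_cases hbad : ∃ e ∈ Finset.range 7, v ∈ BdS F L (i - 2 + e)
    · -- the cap
      obtain ⟨e, he, hve⟩ := hbad
      have hcap := Cur301.blk_cap (C1 := 2 * C0) (ρ := dy k) hcr hi0 h8 hTT
      have h1 : (1 : ℝ≥0∞) ≤ B i := by
        rw [hB]
        dsimp only
        refine le_trans ?_ le_add_self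
        refine le_trans ?_ (Finset.single_le_sum (f := fun e =>
          (BdS F L (i - 2 + e)).indicator (fun _ => (1 : ℝ≥0∞)) v) (fun _ _ => bot_le) he)
        rw [indicator_of_mem hve]
      refine ofReal_le_mul_one (hcap.trans (le_trans ?_ hcoef')) h1
      have : 0 ≤ Cur301.cX ^ 2 * (2 * C0) ^ 2 * (dy k ^ 2 / dy i) ^ 2 := by positivity
      nlinarith
    · -- the sharp bound
      push Not at hbad
      have hgood : ∀ i', i - 2 ≤ i' → i' ≤ i + 4 →
          ¬ bad C x (fun k z => F.H k z + F.g k z) KN εN i' v := by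
        intro i' h1 h2 hb
        refine hbad (i' - (i - 2)) (by rw [Finset.mem_range]; omega) ?_
        have h3 : i - 2 + (i' - (i - 2)) = i' := by omega
        rw [h3]
        exact ⟨by omega, hv1, hv2, (KN, εN), hKN, hb⟩
      have hmem : ∀ τ ∈ Icc (dy i / 2) (2 * dy i), ray C z w τ ∈
          NN C x (dy i) (dy k) (K2 + Real.sqrt (4 * C0)) cN := by
        intro τ hτ
        have hi2 : dy i / 2 = dy (i + 1) := (dy_succ i).symm
        have hτ1 : 2 ^ j0 * dy j ≤ τ := by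
          refine le_trans ?_ hτ.1
          rw [hi2]
          exact hpow (i + 1) (by omega)
        have hD := (hT τ ⟨hτ1, by linarith [hτ.2]⟩).2
        have hD' := scale_dist hβ0.le hβ1 hij (by linarith) hτ.1 hτ.2 hD
        have hx1 : |dist x (ray C z w τ) - τ| ≤ dist x z := by
          have hτl : τ ∈ Icc 0 (dist z w) := ⟨by linarith [hτ.1], by linarith [hτ.2]⟩
          have h3 : dist z (ray C z w τ) = τ := Law508.ray_mem_ann C hU hτl.1 hτl.2 hzw0
          have h4 := abs_dist_sub_le x z (ray C z w τ)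
          rwa [h3] at h4
        have hx2 := abs_le.1 hx1
        refine hNN i (by omega) hgood k (kf_add hβ0.le (by omega)) (dist x (ray C z w τ))
          ⟨by linarith [hτ.1], by linarith [hτ.2]⟩ _ (Real.sqrt_nonneg _) _ hD'
      obtain ⟨A⟩ := hA k
      have hb := Cur301.blk_le (C1 := 2 * C0) (r := r) (v := v') (t := dist x z) A hcr hi0 h8
        (by linarith) hk0 (by linarith) hTT (by
          have h1 : dist x z ^ 2 ≤ dy j ^ 2 := pow_le_pow_left₀ dist_nonneg hxz.le 2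
          have h2 := sq_le_kf_sq hβ0.le hβ1 hij
          have h3 : 0 ≤ dy k ^ 2 := by positivity
          nlinarith)
        ((F.H_meas k).comp hray) ((F.g_meas k).comp hray) ((F.nk_meas k).comp hray)
        ((F.q_meas k).comp hray) ((F.kk_meas k).comp hray) (fun τ => F.H_nonneg k _)
        (fun τ => F.g_nonneg k _) (fun τ => F.nk_nonneg k _) (fun τ => F.q_nonneg k _)
      refine hb.trans (mul_le_mul' (ENNReal.ofReal_le_ofReal hcoef') ?_)
      exact (Bq_le_Blk F hmem).trans le_self_add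
  -- combination
  have hcomb := comb (b := β / 2) (by positivity) hm6 (by omega : m ≤ j)
    (fun i => Cur301.blk r v' (dy i)) (Dw - v' + Cur301.jf r v' (dy m))
    (Cur301.jf r v' (dy 6)) hA1 B hblk
  refine hcomb.trans ?_
  -- first block
  have hfirst : ENNReal.ofReal ((Dw - v' + Cur301.jf r v' (dy m)) ^ 2) ≤
      ENNReal.ofReal (3 * Cur301.cX ^ 2 * Mq) * Fst F m z w := by
    obtain ⟨A⟩ := hA m
    have hm0 := dy_pos m
    have hm1 := dy_le_one m
    have h := Cur301.first_le (r := r) (v := v') (t := dist x z) A hcrv hm0 (by linarith) hMq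
      ((F.H_meas m).comp hray) ((F.q_meas m).comp hray) (fun τ => F.H_nonneg m _)
      (fun τ => F.q_nonneg m _) hq (F.g_nonneg m z)
    refine h.trans (mul_le_mul_right (le_of_eq ?_) _)
    unfold Fst
    rw [mul_pow, ENNReal.ofReal_mul (by positivity), add_assoc, ← mul_add]
    congr 2
    rw [← lintegral_add_left]
    · refine lintegral_congr fun τ => ?_
      rw [ENNReal.ofReal_add (sq_nonneg _) (F.q_nonneg m _)]
    · exact (((F.H_meas m).comp hray).pow_const 2).ennreal_ofReal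
  -- top term
  have htop : ENNReal.ofReal (Cur301.jf r v' (dy 6) ^ 2) ≤
      ENNReal.ofReal (4 * Cur301.cX ^ 2 * (C0 / (dy 6 / 2)) ^ 2) *
        ENNReal.ofReal (dy j ^ 2 * dy j ^ (β / 2)) := by
    have h60 := dy_pos 6
    have hcr : Cur301.Crv r v' (dist x z) (dy 6 / 2) (dy 6) :=
      hcrv.mono (by linarith) (by linarith)
    have h8 : 8 * dist x z ≤ dy 6 := by
      have := h16 6 (by omega)
      linarith
    have hjf := Cur301.jf_cap hcr h60 h8
    have hT0 := hcr.hT0 (dy 6 / 2) ⟨le_rfl, by linarith⟩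
    have hTp := top_pow hβ0.le (C0 := C0) (by linarith) (by positivity : 0 < dy 6 / 2)
      (by linarith) hT0 (hTi 6 le_rfl hm6) hβ1
    rw [← ENNReal.ofReal_mul (by positivity)]
    apply ENNReal.ofReal_le_ofReal
    rw [← sq_abs]
    calc |Cur301.jf r v' (dy 6)| ^ 2 ≤ (2 * Cur301.cX * Cur301.Tf r v' (dy 6 / 2)) ^ 2 :=
          pow_le_pow_left₀ (abs_nonneg _) hjf 2
      _ = 4 * Cur301.cX ^ 2 * Cur301.Tf r v' (dy 6 / 2) ^ 2 := by ring
      _ ≤ 4 * Cur301.cX ^ 2 * ((C0 / (dy 6 / 2)) ^ 2 * (dy j ^ 2 * dy j ^ (β / 2))) := by gcongr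
      _ = _ := by ring
  -- the blocks
  set Sg : ℝ≥0∞ := ∑ i ∈ Finset.Ico 4 (j + 1),
    ENNReal.ofReal (dy j ^ 2 * (2 : ℝ) ^ (-(β / 2 * ((j : ℝ) - i)))) *
      (Blk F i (kf β i j) (K2 + Real.sqrt (4 * C0)) cN z w
        + (BdS F L i).indicator (fun _ => 1) v) with hSg
  have hsum : ∑ i ∈ Finset.Ioc 6 m,
      ENNReal.ofReal (dy j ^ 2 * (2 : ℝ) ^ (-(β / 2 * ((j : ℝ) - i)))) * B i ≤ 28 * Sg := by
    rw [hB]
    simp only [mul_add, Finset.sum_add_distrib]
    have s1 : ∑ i ∈ Finset.Ioc 6 m,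
        ENNReal.ofReal (dy j ^ 2 * (2 : ℝ) ^ (-(β / 2 * ((j : ℝ) - i)))) *
          Blk F i (kf β i j) (K2 + Real.sqrt (4 * C0)) cN z w ≤
        ∑ i ∈ Finset.Ico 4 (j + 1),
        ENNReal.ofReal (dy j ^ 2 * (2 : ℝ) ^ (-(β / 2 * ((j : ℝ) - i)))) *
          Blk F i (kf β i j) (K2 + Real.sqrt (4 * C0)) cN z w := by
      apply Finset.sum_le_sum_of_subset
      intro i hi
      rw [Finset.mem_Ioc] at hi
      rw [Finset.mem_Ico]
      omega
    have s2 := bad_shift (b := β / 2) (t := dy j) (by positivity) (by linarith) (i1 := 6) (m := m)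
      (by norm_num) hmj (fun i => (BdS F L i).indicator (fun _ => (1 : ℝ≥0∞)) v)
    refine (add_le_add s1 s2).trans ?_
    rw [hSg]
    simp only [mul_add, Finset.sum_add_distrib]
    gcongr
    exact le_mul_of_one_le_left bot_le (by norm_num)
  -- end
  have hCp : ENNReal.ofReal (Cpc β C0 Mq) =
      3 * (ENNReal.ofReal (3 * Cur301.cX ^ 2 * Mq) +
        ENNReal.ofReal (Num824.geoC (β / 2) * A1c C0) * 28 +
        ENNReal.ofReal (4 * Cur301.cX ^ 2 * (C0 / (dy 6 / 2)) ^ 2)) := by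
    unfold Cpc
    rw [ENNReal.ofReal_mul (by norm_num), ENNReal.ofReal_add (by positivity) (by positivity),
      ENNReal.ofReal_add (by positivity) (by positivity),
      ENNReal.ofReal_mul (q := 28) (by positivity)]
    norm_num
  rw [hCp]
  set a1 := ENNReal.ofReal (3 * Cur301.cX ^ 2 * Mq)
  set a2 := ENNReal.ofReal (Num824.geoC (β / 2) * A1c C0)
  set a3 := ENNReal.ofReal (4 * Cur301.cX ^ 2 * (C0 / (dy 6 / 2)) ^ 2)
  set Tp := ENNReal.ofReal (dy j ^ 2 * dy j ^ (β / 2))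
  calc 3 * (ENNReal.ofReal ((Dw - v' + Cur301.jf r v' (dy m)) ^ 2) +
        a2 * ∑ i ∈ Finset.Ioc 6 m,
          ENNReal.ofReal (dy j ^ 2 * (2 : ℝ) ^ (-(β / 2 * ((j : ℝ) - i)))) * B i +
        ENNReal.ofReal (Cur301.jf r v' (dy 6) ^ 2))
      ≤ 3 * (a1 * Fst F m z w + a2 * (28 * Sg) + a3 * Tp) := by gcongr
    _ ≤ 3 * ((a1 + a2 * 28 + a3) * Fst F m z w + (a1 + a2 * 28 + a3) * Sg +
          (a1 + a2 * 28 + a3) * Tp) := by
        gcongr 3 * (?_ + ?_ + ?_)
        · exact mul_le_mul_left (le_add_right (le_add_right le_rfl)) _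
        · rw [← mul_assoc]
          exact mul_le_mul_left (le_add_right (le_add_left le_rfl)) _
        · exact mul_le_mul_left (le_add_left le_rfl) _
    _ = _ := by ring

end Crest.Agent.R247.FarAsm196
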