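import Mathlib

/-!
R247, block P6a (helper554), scalar part: the macroscopic cut-off in the variable
`s = f_x = d_x² / 2`: `eta = 1` for `s ≤ S0 = 32²/2`, `eta = 0` for `s ≥ S1 = 64²/2`,
`Phi s = ∫_0^s eta`, and `Nfun n κ s = (n + 2κs) eta s + 2 s eta' s`.
-/

set_option autoImplicit false

open MeasureTheory Filter Topology Set
open scoped ContDiff

noncomputable section

namespace Crest.Agent.R247.Obj554

/-- inner cut-off value `32² / 2` -/
def S0 : ℝ := 512
/-- outer cut-off value `64² / 2` -/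
def S1 : ℝ := 2048

/-- the cut-off function -/
def eta (s : ℝ) : ℝ := Real.smoothTransition ((S1 - s) / (S1 - S0))

lemma eta_one {s : ℝ} (h : s ≤ S0) : eta s = 1 := by
  unfold eta
  apply Real.smoothTransition.one_of_one_le
  rw [le_div_iff₀ (by norm_num [S0, S1])]
  linarith

lemma eta_zero {s : ℝ} (h : S1 ≤ s) : eta s = 0 := by
  unfold eta
  apply Real.smoothTransition.zero_of_nonpos
  exact div_nonpos_of_nonpos_of_nonneg (by linarith) (by norm_num [S0, S1])

lemma eta_nonneg (s : ℝ) : 0 ≤ eta s := Real.smoothTransition.nonneg _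

lemma eta_le_one (s : ℝ) : eta s ≤ 1 := Real.smoothTransition.le_one _

lemma contDiff_eta {m : ℕ∞} : ContDiff ℝ m eta := by
  unfold eta
  refine Real.smoothTransition.contDiff.comp ?_
  fun_prop

lemma continuous_eta : Continuous eta := (contDiff_eta (m := 0)).continuous

lemma hasDerivAt_eta (s : ℝ) : HasDerivAt eta (deriv eta s) s :=
  ((contDiff_eta (m := 1)).differentiable (by norm_num) s).hasDerivAt

lemma contDiff_deriv_eta {m : ℕ} : ContDiff ℝ m (deriv eta) := by
  have h0 : ContDiff ℝ ((m : WithTop ℕ∞) + 1) eta := by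
    exact_mod_cast contDiff_eta (m := ((m + 1 : ℕ) : ℕ∞))
  exact (contDiff_succ_iff_deriv.1 h0).2.2

lemma continuous_deriv_eta : Continuous (deriv eta) := (contDiff_deriv_eta (m := 0)).continuous

lemma deriv_eta_zero_left {s : ℝ} (h : s < S0) : deriv eta s = 0 := by
  have h1 : eta =ᶠ[𝓝 s] fun _ => (1 : ℝ) := by
    filter_upwards [Iio_mem_nhds h] with t ht
    exact eta_one (le_of_lt ht)
  rw [h1.deriv_eq]
  simp

lemma deriv_eta_zero_right {s : ℝ} (h : S1 < s) : deriv eta s = 0 := by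
  have h1 : eta =ᶠ[𝓝 s] fun _ => (0 : ℝ) := by
    filter_upwards [Ioi_mem_nhds h] with t ht
    exact eta_zero (le_of_lt ht)
  rw [h1.deriv_eq]
  simp

lemma deriv_eta_zero_left' {s : ℝ} (h : s ≤ S0) : deriv eta s = 0 := by
  have h1 : IsClosed {t | deriv eta t = 0} := isClosed_eq continuous_deriv_eta continuous_const
  have h2 : Iio S0 ⊆ {t | deriv eta t = 0} := fun t ht => deriv_eta_zero_left ht
  have h3 := h1.closure_subset_iff.2 h2
  rw [closure_Iio] at h3
  exact h3 h

lemma deriv_eta_zero_right' {s : ℝ} (h : S1 ≤ s) : deriv eta s = 0 := by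
  have h1 : IsClosed {t | deriv eta t = 0} := isClosed_eq continuous_deriv_eta continuous_const
  have h2 : Ioi S1 ⊆ {t | deriv eta t = 0} := fun t ht => deriv_eta_zero_right ht
  have h3 := h1.closure_subset_iff.2 h2
  rw [closure_Ioi] at h3
  exact h3 h

lemma exists_Ceta : ∃ C : ℝ, 0 ≤ C ∧ ∀ s, |deriv eta s| ≤ C := by
  obtain ⟨C, hC⟩ := (isCompact_Icc (a := S0) (b := S1)).exists_bound_of_continuousOn
    continuous_deriv_eta.continuousOn
  refine ⟨max C 0, le_max_right _ _, fun s => ?_⟩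
  by_cases h1 : s < S0
  · rw [deriv_eta_zero_left h1, abs_zero]; exact le_max_right _ _
  · by_cases h2 : S1 < s
    · rw [deriv_eta_zero_right h2, abs_zero]; exact le_max_right _ _
    · exact (hC s ⟨not_lt.1 h1, not_lt.1 h2⟩).trans (le_max_left _ _)

/-- a bound for `eta'` -/
def Ceta : ℝ := exists_Ceta.choose

lemma Ceta_nonneg : 0 ≤ Ceta := exists_Ceta.choose_spec.1

lemma abs_deriv_eta_le (s : ℝ) : |deriv eta s| ≤ Ceta := exists_Ceta.choose_spec.2 s

/-- the antiderivative of `eta` -/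
def Phi (s : ℝ) : ℝ := ∫ t in (0 : ℝ)..s, eta t

lemma hasDerivAt_Phi (s : ℝ) : HasDerivAt Phi (eta s) s :=
  intervalIntegral.integral_hasDerivAt_right (continuous_eta.intervalIntegrable _ _)
    (continuous_eta.stronglyMeasurableAtFilter _ _) continuous_eta.continuousAt

lemma deriv_Phi : deriv Phi = eta := funext fun s => (hasDerivAt_Phi s).deriv

lemma contDiff_Phi {m : ℕ} : ContDiff ℝ (m + 1 : ℕ) Phi := by
  have h : ContDiff ℝ ((m : WithTop ℕ∞) + 1) Phi := by
    rw [contDiff_succ_iff_deriv]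
    refine ⟨fun s => (hasDerivAt_Phi s).differentiableAt, by simp, ?_⟩
    rw [deriv_Phi]
    exact_mod_cast contDiff_eta (m := (m : ℕ∞))
  exact_mod_cast h

lemma continuous_Phi : Continuous Phi := (contDiff_Phi (m := 0)).continuous

lemma monotone_Phi : Monotone Phi :=
  monotone_of_deriv_nonneg (fun s => (hasDerivAt_Phi s).differentiableAt)
    fun s => by rw [deriv_Phi]; exact eta_nonneg s

lemma Phi_zero : Phi 0 = 0 := by simp [Phi]

lemma Phi_eq {s : ℝ} (h : s ≤ S0) : Phi s = s := by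
  unfold Phi
  have h1 : ∀ t ∈ uIcc 0 s, eta t = 1 := by
    intro t ht
    apply eta_one
    have h2 : t ≤ max 0 s := ht.2
    exact h2.trans (max_le (by norm_num [S0]) h)
  rw [intervalIntegral.integral_congr h1]
  simp

lemma Phi_const {s : ℝ} (h : S1 ≤ s) : Phi s = Phi S1 := by
  have h1 : Phi s - Phi S1 = ∫ t in S1..s, eta t := by
    unfold Phi
    rw [intervalIntegral.integral_interval_sub_left (continuous_eta.intervalIntegrable _ _)
      (continuous_eta.intervalIntegrable _ _)]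
  have h2 : ∫ t in S1..s, eta t = 0 := by
    rw [intervalIntegral.integral_congr (g := fun _ => (0 : ℝ))]
    · simp
    · intro t ht
      rw [uIcc_of_le h] at ht
      exact eta_zero ht.1
  linarith

lemma Phi_le {s : ℝ} (h : 0 ≤ s) : Phi s ≤ s := by
  have h1 : MonotoneOn (fun s => s - Phi s) univ := by
    refine (monotone_of_deriv_nonneg (f := fun s => s - Phi s) ?_ ?_).monotoneOn _
    · exact fun s => differentiableAt_id.sub (hasDerivAt_Phi s).differentiableAt
    · intro s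
      have h2 : HasDerivAt (fun s => s - Phi s) (1 - eta s) s := (hasDerivAt_id s).sub
        (hasDerivAt_Phi s)
      rw [h2.deriv]
      linarith [eta_le_one s]
  have h2 := h1 (mem_univ 0) (mem_univ s) h
  simp only [Phi_zero] at h2
  linarith

lemma Phi_nonneg {s : ℝ} (h : 0 ≤ s) : 0 ≤ Phi s := by
  have := monotone_Phi h
  rwa [Phi_zero] at this

/-- the value at infinity -/
def cinf : ℝ := Phi S1

lemma Phi_le_cinf (s : ℝ) : Phi s ≤ cinf := by
  unfold cinf
  by_cases h : s ≤ S1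
  · exact monotone_Phi h
  · rw [Phi_const (not_le.1 h).le]

lemma S0_le_cinf : S0 ≤ cinf := by
  have h := Phi_le_cinf S0
  rwa [Phi_eq le_rfl] at h

lemma cinf_pos : 0 < cinf := lt_of_lt_of_le (by norm_num [S0]) S0_le_cinf

lemma cinf_le : cinf ≤ S1 := Phi_le (by norm_num [S1])

/-- `S0 ≤ Phi s` for `s ≥ S0` -/
lemma S0_le_Phi {s : ℝ} (h : S0 ≤ s) : S0 ≤ Phi s := by
  have := monotone_Phi h
  rwa [Phi_eq le_rfl] at this

/-- the comparison Laplacian of `Phi(f_x)` as a function of `s = f_x` -/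
def Nfun (n : ℕ) (κ s : ℝ) : ℝ := (n + 2 * κ * s) * eta s + 2 * s * deriv eta s

lemma contDiff_Nfun (n : ℕ) (κ : ℝ) {m : ℕ} : ContDiff ℝ m (Nfun n κ) := by
  unfold Nfun
  have h1 : ContDiff ℝ (m : WithTop ℕ∞) eta := by exact_mod_cast contDiff_eta (m := (m : ℕ∞))
  have h2 : ContDiff ℝ (m : WithTop ℕ∞) (deriv eta) := contDiff_deriv_eta
  fun_prop

lemma Nfun_eq (n : ℕ) (κ : ℝ) {s : ℝ} (h : s ≤ S0) : Nfun n κ s = n + 2 * κ * s := by
  unfold Nfun
  rw [eta_one h, deriv_eta_zero_left' h]; ring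

lemma Nfun_zero (n : ℕ) (κ : ℝ) {s : ℝ} (h : S1 ≤ s) : Nfun n κ s = 0 := by
  unfold Nfun
  rw [eta_zero h, deriv_eta_zero_right' h]; ring

/-- bound of `|N|` -/
def CN (n : ℕ) (κ : ℝ) : ℝ := n + 2 * κ * S1 + 2 * S1 * Ceta

lemma CN_nonneg (n : ℕ) {κ : ℝ} (hκ : 0 ≤ κ) : 0 ≤ CN n κ := by
  unfold CN
  have h1 := Ceta_nonneg
  have h2 : (0 : ℝ) ≤ n := Nat.cast_nonneg n
  have h3 : (0 : ℝ) ≤ S1 := by norm_num [S1]
  positivity

lemma CN_mono (n : ℕ) {κ κ' : ℝ} (h : κ ≤ κ') : CN n κ ≤ CN n κ' := by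
  unfold CN
  have h3 : (0 : ℝ) ≤ S1 := by norm_num [S1]
  nlinarith

lemma abs_Nfun_le (n : ℕ) {κ : ℝ} (hκ : 0 ≤ κ) {s : ℝ} (hs : 0 ≤ s) : |Nfun n κ s| ≤ CN n κ := by
  by_cases h : S1 ≤ s
  · rw [Nfun_zero n κ h, abs_zero]; exact CN_nonneg n hκ
  · push Not at h
    unfold Nfun CN
    have h1 := Ceta_nonneg
    have h2 : (0 : ℝ) ≤ n := Nat.cast_nonneg n
    have h3 : (0 : ℝ) ≤ S1 := by norm_num [S1]
    refine (abs_add_le _ _).trans (add_le_add ?_ ?_)
    · rw [abs_mul, abs_of_nonneg (eta_nonneg s), abs_of_nonneg (by positivity)]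
      calc (n + 2 * κ * s) * eta s ≤ (n + 2 * κ * s) * 1 :=
            mul_le_mul_of_nonneg_left (eta_le_one s) (by positivity)
        _ ≤ n + 2 * κ * S1 := by nlinarith
    · rw [abs_mul, abs_of_nonneg (by positivity : (0:ℝ) ≤ 2 * s)]
      exact mul_le_mul (by linarith) (abs_deriv_eta_le s) (abs_nonneg _) (by positivity)

end Crest.Agent.R247.Obj554
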