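import Crest.Agent.R247.Dir6_593
import Crest.Agent.R247.Smv0_126
import Crest.Agent.R247.Obj0_554

/-!
R247, block P6a (helper554): the objects `f0 = h - c_∞`, `N`, the functional `l = N - Δ h`,
`q = R l`, `u = f0 - ρ² q = R (f0 - ρ² N)` over helper593's `GradS` and helper126's `WLap`.
-/

set_option autoImplicit false
set_option linter.unusedSectionVars false

open MeasureTheory Filter Topology Set
open scoped RealInnerProductSpace ENNReal NNReal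

noncomputable section

namespace Crest.Agent.R247.Obj554

open Crest.Agent.R242 Crest.Agent.R247.Dir593 Crest.Agent.R247.Dir593.GradS
open Crest.Agent.R247.Smv126

section Defs

variable {X : Type*} [MetricSpace X]

/-- `f0 x = h - c_∞`, `h = Phi (d_x²/2)` (`= d_x²/2` for `d_x ≤ 32`) -/
def f0 (x z : X) : ℝ := Phi (hf x z) - cinf

/-- `h x = Phi (d_x²/2)` -/
def hh (x z : X) : ℝ := Phi (hf x z)

/-- the comparison Laplacian `N` of `h` -/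
def Nf (n : ℕ) (κ : ℝ) (x z : X) : ℝ := Nfun n κ (hf x z)

/-- the cut-off `eta (d_x²/2)` -/
def et (x z : X) : ℝ := eta (hf x z)

lemma hf_nonneg (x z : X) : 0 ≤ hf x z := by unfold hf; positivity

lemma hf_le_S0 {x z : X} (h : dist x z ≤ 32) : hf x z ≤ S0 := by
  unfold hf S0
  nlinarith [dist_nonneg (x := x) (y := z)]

lemma S1_le_hf {x z : X} (h : 64 ≤ dist x z) : S1 ≤ hf x z := by
  unfold hf S1
  nlinarith [dist_nonneg (x := x) (y := z)]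

lemma hh_eq {x z : X} (h : dist x z ≤ 32) : hh x z = dist x z ^ 2 / 2 :=
  Phi_eq (hf_le_S0 h)

lemma f0_eq {x z : X} (h : dist x z ≤ 32) : f0 x z = dist x z ^ 2 / 2 - cinf := by
  unfold f0
  rw [Phi_eq (hf_le_S0 h)]; rfl

lemma hh_eq_f0 (x z : X) : hh x z = f0 x z + cinf := by unfold hh f0; ring

lemma Nf_eq (n : ℕ) (κ : ℝ) {x z : X} (h : dist x z ≤ 32) : Nf n κ x z = n + κ * dist x z ^ 2 := by
  unfold Nf
  rw [Nfun_eq n κ (hf_le_S0 h)]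
  unfold hf
  ring

lemma f0_nonpos (x z : X) : f0 x z ≤ 0 := by
  unfold f0
  linarith [Phi_le_cinf (hf x z)]

lemma neg_cinf_le_f0 (x z : X) : -cinf ≤ f0 x z := by
  unfold f0
  linarith [Phi_nonneg (hf_nonneg x z)]

lemma abs_Nf_le (n : ℕ) {κ : ℝ} (hκ : 0 ≤ κ) (x z : X) : |Nf n κ x z| ≤ CN n κ :=
  abs_Nfun_le n hκ (hf_nonneg x z)

lemma hh_nonneg (x z : X) : 0 ≤ hh x z := Phi_nonneg (hf_nonneg x z)

lemma hh_le (x z : X) : hh x z ≤ dist x z ^ 2 / 2 := Phi_le (hf_nonneg x z)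

variable [ProperSpace X] [MeasurableSpace X]

lemma isT_radial' (x : X) {χ : ℝ → ℝ} (hχ : ContDiff ℝ 1 χ) (h0 : ∀ s, S1 ≤ s → χ s = 0) :
    IsT fun z => χ (hf x z) := by
  refine ⟨hχ.locallyLipschitz.comp (locLip_hf x), ?_⟩
  refine HasCompactSupport.intro (isCompact_closedBall x 64) fun z hz => ?_
  rw [Metric.mem_closedBall, not_le, dist_comm] at hz
  exact h0 _ (S1_le_hf hz.le)

lemma contDiff_f0 : ContDiff ℝ 1 (fun s => Phi s - cinf) :=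
  (contDiff_Phi (m := 0)).sub contDiff_const

lemma isT_f0 (x : X) : IsT (f0 x) :=
  isT_radial' x contDiff_f0 fun s hs => by
    show Phi s - cinf = 0
    rw [Phi_const hs]; unfold cinf; ring

lemma isT_Nf (n : ℕ) (κ : ℝ) (x : X) : IsT (Nf n κ x) :=
  isT_radial' x (contDiff_Nfun n κ (m := 1)) fun _ hs => Nfun_zero n κ hs

lemma contDiff_eta1 : ContDiff ℝ 1 eta := contDiff_eta (m := 1)

lemma isT_et (x : X) : IsT (et x) :=
  isT_radial' x contDiff_eta1 fun _ hs => eta_zero hs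

end Defs

variable {X : Type*} [MetricSpace X] [ProperSpace X] [MeasurableSpace X] [BorelSpace X]
  {F : Type*} [NormedAddCommGroup F] [InnerProductSpace ℝ F] {μ : Measure X}
  [IsFiniteMeasureOnCompacts μ] (S : GradS X F μ)

section Grad

lemma G_f0 (x : X) : ∀ᵐ z ∂μ, S.G (f0 x) z = et x z • S.G (hf x) z := by
  filter_upwards [S.comp (locLip_hf x) contDiff_f0] with z hz
  have e : deriv (fun s => Phi s - cinf) (hf x z) = et x z := by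
    rw [deriv_sub_const, deriv_Phi]; rfl
  rw [e] at hz
  exact hz

lemma G_et (x : X) : ∀ᵐ z ∂μ, S.G (et x) z = deriv eta (hf x z) • S.G (hf x) z :=
  S.comp (locLip_hf x) contDiff_eta1

lemma G_Nf (n : ℕ) (κ : ℝ) (x : X) :
    ∀ᵐ z ∂μ, S.G (Nf n κ x) z = deriv (Nfun n κ) (hf x z) • S.G (hf x) z :=
  S.comp (locLip_hf x) (contDiff_Nfun n κ (m := 1))

variable {S}

lemma _root_.Crest.Agent.R247.Smv126.WLap.normSq_G_hf {n : ℕ} {κ : ℝ} (W : WLap S n κ) (x : X) :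
    ∀ᵐ z ∂μ, ‖S.G (hf x) z‖ ^ 2 = dist x z ^ 2 := by
  filter_upwards [G_hf S x, W.unit x] with z e1 e2
  rw [e1, norm_smul, e2, mul_one, Real.norm_of_nonneg dist_nonneg]

end Grad

variable [CompleteSpace F]

/-- the Dirichlet form of the space -/
abbrev QF : CForm (Lp ℝ 2 μ) := S.form S.dense_V

/-- the functional `l = N - Δ h` -/
def lx (n : ℕ) (κ : ℝ) (x : X) : Fnl (QF S) :=
  S.fnl S.dense_V (tL (isT_Nf n κ x)) (S.D (tL (isT_f0 x)))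

/-- `q = R_ρ l` -/
def qL (n : ℕ) (κ : ℝ) (x : X) (ρ : ℝ) : Lp ℝ 2 μ := resD (QF S) (ρ ^ 2) (lx S n κ x)

/-- `u = f0 - ρ² q` -/
def uL (n : ℕ) (κ : ℝ) (x : X) (ρ : ℝ) : Lp ℝ 2 μ := tL (isT_f0 x) - ρ ^ 2 • qL S n κ x ρ

variable {S}

/-- `l` on test functions: the comparison functional at `φ = eta(f_x) p`. -/
theorem lx_tL {n : ℕ} {κ : ℝ} (W : WLap S n κ) (x : X) {p : X → ℝ} (hp : IsT p) :
    (lx S n κ x).f (tL hp) =
      ∫ z, ((n + κ * dist x z ^ 2) * (et x z * p z) +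
        ⟪S.G (hf x) z, S.G (fun y => et x y * p y) z⟫) ∂μ := by
  unfold lx
  rw [fnl_apply]
  have i1 : Integrable (fun z => (tL (isT_Nf n κ x) : Lp ℝ 2 μ) z * (tL hp : Lp ℝ 2 μ) z) μ :=
    (Lp.memLp _).integrable_mul (Lp.memLp _)
  have i2 : Integrable (fun z => (⟪S.D (tL (isT_f0 x)) z, S.D (tL hp) z⟫ : ℝ)) μ :=
    L2.integrable_inner _ _
  rw [← integral_add i1 i2]
  refine integral_congr_ae ?_
  filter_upwards [coe_tL (μ := μ) (isT_Nf n κ x), coe_tL (μ := μ) hp, S.D_tL (isT_f0 x), S.D_tL hp,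
    G_f0 S x, G_et S x, S.mul (isT_et x).1 hp.1, W.normSq_G_hf x] with z a1 a2 a3 a4 a5 a6 a7 a8
  rw [a1, a2, a3, a4, a5, a7, a6, real_inner_smul_left, inner_add_right, real_inner_smul_right,
    real_inner_smul_right, real_inner_smul_right, real_inner_self_eq_norm_sq, a8]
  unfold Nf Nfun et hf
  ring

/-- positivity of `l` -/
theorem lx_nonneg {n : ℕ} {κ : ℝ} (W : WLap S n κ) (x : X) :
    ∀ w ∈ (QF S).dom, 0 ≤ᵐ[μ] (w : X → ℝ) → 0 ≤ (lx S n κ x).f w := by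
  intro w hw hw0
  refine Fnl.nonneg_of_test (l := lx S n κ x) (fun p hp hp0 => ?_) hw hw0
  rw [lx_tL W x hp]
  exact W.lap x ((isT_et x).mul hp.1) fun z => mul_nonneg (eta_nonneg _) (hp0 z)

section Q

variable {n : ℕ} {κ : ℝ} {ρ : ℝ}

theorem qL_mem (hρ : 0 < ρ) (x : X) : qL S n κ x ρ ∈ S.V :=
  resD_mem (Q := QF S) (h := ρ ^ 2) (by positivity) _

theorem uL_mem (hρ : 0 < ρ) (x : X) : uL S n κ x ρ ∈ S.V :=
  S.V.sub_mem (S.tL_mem _) (S.V.smul_mem _ (qL_mem hρ x))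

/-- weak equation of `q` -/
theorem qL_eq (hρ : 0 < ρ) (x : X) {p : Lp ℝ 2 μ} (hp : p ∈ S.V) :
    ρ ^ 2 * ⟪S.D (qL S n κ x ρ), S.D p⟫ + ⟪qL S n κ x ρ, p⟫ =
      ⟪(tL (isT_Nf n κ x) : Lp ℝ 2 μ), p⟫ + ⟪S.D (tL (isT_f0 x)), S.D p⟫ :=
  resD_eq (Q := QF S) (h := ρ ^ 2) (by positivity) (lx S n κ x) hp

theorem qL_nonneg (W : WLap S n κ) (hρ : 0 < ρ) (x : X) : ∀ᵐ z ∂μ, 0 ≤ qL S n κ x ρ z :=
  (S.markov S.dense_V).resD_nonneg (by positivity) (lx_nonneg W x)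

theorem D_uL (hρ : 0 < ρ) (x : X) :
    S.D (uL S n κ x ρ) = S.D (tL (isT_f0 x)) - ρ ^ 2 • S.D (qL S n κ x ρ) := by
  unfold uL
  rw [S.D_sub (S.tL_mem _) (S.V.smul_mem _ (qL_mem hρ x)), S.D_smul _ (qL_mem hρ x)]

/-- **weak equation `Δ u = N - q`** -/
theorem uL_weak (hρ : 0 < ρ) (x : X) {p : Lp ℝ 2 μ} (hp : p ∈ S.V) :
    (⟪S.D (uL S n κ x ρ), S.D p⟫ : ℝ) =
      -⟪(tL (isT_Nf n κ x) : Lp ℝ 2 μ) - qL S n κ x ρ, p⟫ := by
  rw [D_uL hρ x, inner_sub_left, real_inner_smul_left, inner_sub_left]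
  have := qL_eq (S := S) (n := n) (κ := κ) hρ x hp
  linarith

/-- `u = R_ρ (f0 - ρ² N)` -/
theorem uL_eq_res (hρ : 0 < ρ) (x : X) :
    uL S n κ x ρ = (QF S).res (ρ ^ 2)
      ((tL (isT_f0 x) : Lp ℝ 2 μ) - ρ ^ 2 • (tL (isT_Nf n κ x) : Lp ℝ 2 μ)) := by
  have h0 : (0:ℝ) < ρ ^ 2 := by positivity
  rw [← resD_ofInner h0]
  refine eq_resD h0 (uL_mem hρ x) fun p hp => ?_
  show ρ ^ 2 * ⟪S.D (uL S n κ x ρ), S.D p⟫ + ⟪uL S n κ x ρ, p⟫ = ⟪_, p⟫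
  rw [uL_weak hρ x hp]
  unfold uL
  rw [inner_sub_left, inner_sub_left, inner_sub_left, real_inner_smul_left, real_inner_smul_left]
  ring

/-! ### bounds -/

lemma coe_tL_le {p : X → ℝ} (hp : IsT p) {a : ℝ} (h : ∀ z, p z ≤ a) :
    ∀ᵐ z ∂μ, (tL hp : Lp ℝ 2 μ) z ≤ a := by
  filter_upwards [coe_tL (μ := μ) hp] with z hz
  rw [hz]; exact h z

lemma le_coe_tL {p : X → ℝ} (hp : IsT p) {a : ℝ} (h : ∀ z, a ≤ p z) :
    ∀ᵐ z ∂μ, a ≤ (tL hp : Lp ℝ 2 μ) z := by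
  filter_upwards [coe_tL (μ := μ) hp] with z hz
  rw [hz]; exact h z

variable (S) in
/-- two-sided maximum principle -/
lemma res_ge {h : ℝ} (hh : 0 < h) {a : ℝ} (ha : 0 ≤ a) {f : Lp ℝ 2 μ}
    (hf : ∀ᵐ x ∂μ, -a ≤ f x) : ∀ᵐ x ∂μ, -a ≤ (QF S).res h f x := by
  have h1 : ∀ᵐ x ∂μ, (-f : Lp ℝ 2 μ) x ≤ a := by
    filter_upwards [Lp.coeFn_neg f, hf] with x e1 e2
    rw [e1, Pi.neg_apply]
    linarith
  have h2 := (S.markov S.dense_V).res_le hh ha h1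
  rw [map_neg] at h2
  filter_upwards [Lp.coeFn_neg ((QF S).res h f), h2] with x e1 e2
  rw [e1, Pi.neg_apply] at e2
  linarith

/-- `ρ² q = f0 - R f0 + ρ² R N` -/
theorem qL_formula (hρ : 0 < ρ) (x : X) :
    ρ ^ 2 • qL S n κ x ρ = (tL (isT_f0 x) : Lp ℝ 2 μ) - (QF S).res (ρ ^ 2) (tL (isT_f0 x)) +
      ρ ^ 2 • (QF S).res (ρ ^ 2) (tL (isT_Nf n κ x)) := by
  have h1 : ρ ^ 2 • qL S n κ x ρ = (tL (isT_f0 x) : Lp ℝ 2 μ) - uL S n κ x ρ := by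
    unfold uL; abel
  rw [h1, uL_eq_res hρ x, map_sub, map_smul]
  abel

/-- **`ρ² q ≤ h + C ρ²`** -/
theorem qL_le (hκ : 0 ≤ κ) (hρ : 0 < ρ) (x : X) :
    ∀ᵐ z ∂μ, ρ ^ 2 * qL S n κ x ρ z ≤ hh x z + CN n κ * ρ ^ 2 := by
  have h0 : (0:ℝ) < ρ ^ 2 := by positivity
  have h1 := res_ge S h0 cinf_pos.le (le_coe_tL (μ := μ) (isT_f0 x) (neg_cinf_le_f0 x))
  have h2 := (S.markov S.dense_V).res_le h0 (CN_nonneg n hκ)
    (coe_tL_le (μ := μ) (isT_Nf n κ x) fun z => (le_abs_self _).trans (abs_Nf_le n hκ x z))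
  have h3 := qL_formula (S := S) (n := n) (κ := κ) hρ x
  filter_upwards [h1, h2, Lp.coeFn_smul (ρ ^ 2) (qL S n κ x ρ),
    Lp.coeFn_add ((tL (isT_f0 x) : Lp ℝ 2 μ) - (QF S).res (ρ ^ 2) (tL (isT_f0 x)))
      (ρ ^ 2 • (QF S).res (ρ ^ 2) (tL (isT_Nf n κ x))),
    Lp.coeFn_sub (tL (isT_f0 x) : Lp ℝ 2 μ) ((QF S).res (ρ ^ 2) (tL (isT_f0 x))),
    Lp.coeFn_smul (ρ ^ 2) ((QF S).res (ρ ^ 2) (tL (isT_Nf n κ x))),
    coe_tL (μ := μ) (isT_f0 x)] with z a1 a2 a3 a4 a5 a6 a7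
  rw [h3, a4, Pi.add_apply, a5, Pi.sub_apply, a6, Pi.smul_apply, Pi.smul_apply, smul_eq_mul,
    smul_eq_mul, a7] at a3
  rw [← a3, hh_eq_f0]
  nlinarith [mul_le_mul_of_nonneg_left a2 h0.le]

end Q

end Crest.Agent.R247.Obj554
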