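import Crest.Agent.R247.Hes3_124
import Crest.Agent.R247.Obj1_554
import Crest.Agent.R247.Far0_553

/-!
# R247, FD-ASM (1) (helper656): the literal functions of `FarD`

For a centre `x` and `ρ = dy k`: `q_k = qL`, `u_k = uL` (helper554), `A k` = Hessian of `u_k`
(helper124's `HD`).  The functions which fill the fields of `Far553.FarD` are

* `qf B x k z = max (q_k z) 0`,
* `hf656 = Hf O k z = ‖A k z - I‖`,
* `gf B x k z = dy k * ‖∇ q_k z‖`,
* `kf B x k z = ‖∇ u_k z‖² - 2 (u_k z + cinf)`,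
* `nf O k z = 2 ‖(A k z - I) ∇ u_k z‖`.
-/

set_option autoImplicit false
set_option linter.unusedSectionVars false

open MeasureTheory Filter Topology Set Metric
open scoped RealInnerProductSpace ENNReal NNReal

noncomputable section

namespace Crest.Agent.R247.Fd656

open Crest.Agent.R242 Crest.Agent.R247.Dir593 Crest.Agent.R247.Dir593.GradS
open Crest.Agent.R247.Smv126 Crest.Agent.R247.Obj554 Crest.Agent.R247.Hes124
open Crest.Agent.R247.Far553

variable {n : ℕ} {κ : ℝ} {X : Type*} [MetricSpace X] [ProperSpace X] [MeasurableSpace X]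
  [BorelSpace X] {μ : Measure X} [IsFiniteMeasureOnCompacts μ]

/-- `q_k` (class) -/
abbrev qk (B : BochS n κ X μ) (x : X) (k : ℕ) : Lp ℝ 2 μ := qL B.toGradS n κ x (dy k)

/-- `u_k` (class) -/
abbrev uk (B : BochS n κ X μ) (x : X) (k : ℕ) : Lp ℝ 2 μ := uL B.toGradS n κ x (dy k)

/-- the Hessians of the functions `u_k`, with smooth approximating sequences -/
structure HObj (B : BochS n κ X μ) (x : X) where
  A : ℕ → X → S n
  w : ℕ → ℕ → X → ℝ
  b : ℕ → ℝ
  A_meas : ∀ k, Measurable (A k)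
  hd : ∀ k, HD B (uk B x k) (b k) (w k) (A k)
  tr_A : ∀ k, ∀ᵐ z ∂μ, tr (A k z) = Nf n κ x z - qk B x k z
  tr_w : ∀ k, ∀ᵐ z ∂μ, Tendsto (fun i => tr (B.H (w k i) z)) atTop (𝓝 (Nf n κ x z - qk B x k z))

/-- representative of `q_k` -/
def qf (B : BochS n κ X μ) (x : X) (k : ℕ) (z : X) : ℝ := max (qk B x k z) 0

/-- `|Hess u_k - g|` -/
def Hf {B : BochS n κ X μ} {x : X} (O : HObj B x) (k : ℕ) (z : X) : ℝ := ‖O.A k z - idm n‖

/-- `ρ |∇ q_k|` -/
def gf (B : BochS n κ X μ) (x : X) (k : ℕ) (z : X) : ℝ := dy k * ‖B.D (qk B x k) z‖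

/-- `|∇ u_k|² - 2 u_k` (with the constant `cinf` restored) -/
def kf (B : BochS n κ X μ) (x : X) (k : ℕ) (z : X) : ℝ :=
  ‖B.D (uk B x k) z‖ ^ 2 - 2 * (uk B x k z + cinf)

/-- `|∇ (|∇ u_k|² - 2 u_k)|` -/
def nf {B : BochS n κ X μ} {x : X} (O : HObj B x) (k : ℕ) (z : X) : ℝ :=
  2 * ‖mv (O.A k z - idm n) (B.D (uk B x k) z)‖

section basic

variable (B : BochS n κ X μ) (x : X) (O : HObj B x) (k : ℕ)

lemma qf_meas : Measurable (qf B x k) :=
  ((Lp.stronglyMeasurable (qk B x k)).measurable).max measurable_const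

lemma Hf_meas : Measurable (Hf O k) := ((O.A_meas k).sub_const _).norm

lemma gf_meas : Measurable (gf B x k) :=
  ((Lp.stronglyMeasurable (B.D (qk B x k))).measurable.norm).const_mul _

lemma kf_meas : Measurable (kf B x k) :=
  (((Lp.stronglyMeasurable (B.D (uk B x k))).measurable.norm).pow_const 2).sub
    (((Lp.stronglyMeasurable (uk B x k)).measurable.add_const _).const_mul 2)

lemma nf_meas : Measurable (nf O k) := by
  have h1 : Measurable fun z => (O.A k z - idm n, B.D (uk B x k) z) :=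
    ((O.A_meas k).sub_const _).prodMk (Lp.stronglyMeasurable (B.D (uk B x k))).measurable
  exact ((continuous_mv.measurable.comp h1).norm).const_mul 2

lemma qf_nonneg (z : X) : 0 ≤ qf B x k z := le_max_right _ _

lemma Hf_nonneg (z : X) : 0 ≤ Hf O k z := norm_nonneg _

lemma gf_nonneg (z : X) : 0 ≤ gf B x k z := mul_nonneg (dy_pos k).le (norm_nonneg _)

lemma nf_nonneg (z : X) : 0 ≤ nf O k z := by unfold nf; positivity

variable {B}

lemma qf_ae (W : WLap B.toGradS n κ) : ∀ᵐ z ∂μ, qf B x k z = qk B x k z := by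
  filter_upwards [qL_nonneg W (dy_pos k) x] with z hz
  exact max_eq_left hz

/-- **field `q_le`** -/
theorem qf_le (W : WLap B.toGradS n κ) (hκ : 0 ≤ κ) {C : ℝ} (hC : 1 / 2 ≤ C)
    (hC' : CN n κ ≤ C) : ∀ᵐ z ∂μ, dist x z < 12 →
    dy k ^ 2 * qf B x k z ≤ C * (dist x z ^ 2 + dy k ^ 2) := by
  filter_upwards [qf_ae x k W, qL_le (S := B.toGradS) (n := n) hκ (dy_pos k) x] with z h1 h2 h3
  rw [h1]
  rw [hh_eq (by linarith : dist x z ≤ 32)] at h2
  have h4 : 0 ≤ dist x z ^ 2 := by positivity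
  have h5 : 0 ≤ dy k ^ 2 := by positivity
  nlinarith

/-- two-sided bound of `u_k` -/
theorem abs_uk_le (hκ : 0 ≤ κ) : ∀ᵐ z ∂μ, |uk B x k z| ≤ cinf + CN n κ := by
  have hρ := dy_pos k
  have h0 : (0:ℝ) < dy k ^ 2 := by positivity
  have h1' : dy k ^ 2 ≤ 1 := by
    have := dy_le_one k
    nlinarith
  have hN := CN_nonneg n hκ
  set f : Lp ℝ 2 μ := (tL (isT_f0 x) : Lp ℝ 2 μ) - dy k ^ 2 • (tL (isT_Nf n κ x) : Lp ℝ 2 μ) with hf
  have hfb : ∀ᵐ z ∂μ, |f z| ≤ cinf + CN n κ := by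
    filter_upwards [Lp.coeFn_sub (tL (isT_f0 x) : Lp ℝ 2 μ)
      (dy k ^ 2 • (tL (isT_Nf n κ x) : Lp ℝ 2 μ)),
      Lp.coeFn_smul (dy k ^ 2) (tL (isT_Nf n κ x) : Lp ℝ 2 μ), coe_tL (μ := μ) (isT_f0 x),
      coe_tL (μ := μ) (isT_Nf n κ x)] with z a1 a2 a3 a4
    rw [hf, a1, Pi.sub_apply, a2, Pi.smul_apply, smul_eq_mul, a3, a4]
    have b1 := f0_nonpos x z
    have b2 := neg_cinf_le_f0 x z
    have b3 := abs_le.1 (abs_Nf_le n hκ x z)
    rw [abs_le]
    constructor <;> nlinarith [b3.1, b3.2]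
  have hpos : 0 ≤ cinf + CN n κ := by have := cinf_pos; linarith
  have g1 := (B.markov B.dense_V).res_le h0 hpos
    (hfb.mono fun z hz => (abs_le.1 hz).2)
  have g2 := res_ge B.toGradS h0 hpos (hfb.mono fun z hz => (abs_le.1 hz).1)
  have e : uk B x k = (QF B.toGradS).res (dy k ^ 2) f := uL_eq_res hρ x
  rw [e]
  filter_upwards [g1, g2] with z a1 a2
  exact abs_le.2 ⟨a2, a1⟩

/-- existence of the Hessians -/
theorem exists_HObj (hA : Appr B) (hκ : 0 ≤ κ) : Nonempty (HObj B x) := by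
  have key : ∀ k : ℕ, ∃ (w : ℕ → X → ℝ) (A : X → S n), Measurable A ∧
      HD B (uk B x k) (cinf + CN n κ + 1) w A ∧
      (∀ᵐ z ∂μ, tr (A z) = Nf n κ x z - qk B x k z) ∧
      ∀ᵐ z ∂μ, Tendsto (fun i => tr (B.H (w i) z)) atTop (𝓝 (Nf n κ x z - qk B x k z)) := by
    intro k
    have hρ := dy_pos k
    have hmem : MemLp (fun z => Nf n κ x z - qk B x k z) 2 μ :=
      (isT_Nf n κ x).memLp.sub (Lp.memLp _)
    obtain ⟨w, A, h1, h2, h3⟩ := exists_HD x hA hκ (uL_mem (S := B.toGradS) hρ x)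
      (abs_uk_le (B := B) x k hκ) hmem (by
        intro p hp
        have e := uL_weak (S := B.toGradS) (n := n) (κ := κ) hρ x (B.tL_mem hp)
        rw [L2.inner_def, L2.inner_def] at e
        have e1 : ∫ z, (⟪B.D (uk B x k) z, B.G p z⟫ : ℝ) ∂μ =
            ∫ z, (⟪B.D (uk B x k) z, B.D (tL hp) z⟫ : ℝ) ∂μ := by
          refine integral_congr_ae ?_
          filter_upwards [B.D_tL hp] with z hz
          rw [hz]
        rw [e1, e]
        congr 1
        refine integral_congr_ae ?_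
        filter_upwards [coe_tL (μ := μ) hp, coe_tL (μ := μ) (isT_Nf n κ x),
          Lp.coeFn_sub (tL (isT_Nf n κ x) : Lp ℝ 2 μ) (qk B x k)] with z a1 a2 a3
        rw [a3, Pi.sub_apply, a1, a2]
        simp [mul_comm])
    refine ⟨w, h1.Am.mk A, h1.Am.stronglyMeasurable_mk.measurable, ?_, ?_, h3⟩
    · have hae : A =ᵐ[μ] h1.Am.mk A := h1.Am.ae_eq_mk
      refine ⟨h1.core, h1.bdd, h1.Am.congr hae, h1.toU, h1.toD, ?_, h1.aeU, h1.aeD, ?_⟩
      · intro K hK
        have h4 := h1.toA K hK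
        have h5 : A =ᵐ[μ.restrict K] h1.Am.mk A := ae_restrict_of_ae hae
        refine ⟨h4.mem, (memLp_congr_ae h5).1 h4.mem', ?_⟩
        refine h4.lim.congr fun i => integral_congr_ae ?_
        filter_upwards [h5] with z hz
        rw [hz]
      · filter_upwards [h1.aeA, hae] with z a1 a2
        rw [← a2]; exact a1
    · filter_upwards [h2, h1.Am.ae_eq_mk] with z a1 a2
      rw [← a2]; exact a1
  choose w A hm h1 h2 h3 using key
  exact ⟨⟨A, w, fun _ => cinf + CN n κ + 1, hm, h1, h2, h3⟩⟩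

end basic

end Crest.Agent.R247.Fd656
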