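import Crest.Agent.R247.Far0_553
import Crest.Agent.R247.Num5_824

/-!
# R247, block (1-N): `tail_D` in the literal form of `FarConcl`
-/

open MeasureTheory Finset
open scoped ENNReal

namespace Crest.Agent.R247.Num824

open Crest.Agent.R247.Far553

lemma tsum_tail_anti {p : ℕ → ℝ} (hp : ∀ j, 0 ≤ p j) (hs : Summable p) {a a' : ℕ} (h : a ≤ a') :
    ∑' j, p (a' + j) ≤ ∑' j, p (a + j) := by
  have h1 : ∀ a, Summable fun j => p (a + j) := fun a => by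
    simpa [add_comm] using (summable_nat_add_iff (f := p) a).2 hs
  obtain ⟨k, rfl⟩ := Nat.exists_eq_add_of_le h
  have h2 : ∑' j, p (a + j) = ∑ i ∈ range k, p (a + i) + ∑' j, p (a + (j + k)) :=
    ((h1 a).sum_add_tsum_nat_add k).symm
  rw [h2]
  have h3 : ∑' j, p (a + k + j) = ∑' j, p (a + (j + k)) := by
    congr 1
    funext j
    congr 1
    ring
  rw [h3]
  exact le_add_of_nonneg_left (sum_nonneg fun i _ => hp _)

/-- **Summation of the errors in the literal form of `FarConcl`.** `m`, `A` depend on `b`, `c`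
only; take `J₁ := m * j₁`. -/
theorem tail_D' {b c : ℝ} (hb : 0 < b) (hc : 0 < c) (hc1 : c ≤ 1) :
    ∃ m : ℕ, 2 ≤ m ∧ ∃ A > (0 : ℝ), ∀ (A1 K0 : ℝ), 0 ≤ A1 → 0 ≤ K0 →
      ∀ {Ω : Type*} [MeasurableSpace Ω] (P : Measure Ω) [IsFiniteMeasure P] (Bd : ℕ → Set Ω),
      (∀ j, MeasurableSet (Bd j)) → (∀ i < 4, Bd i = ∅) →
      ∀ ph : ℕ → ℝ, (∀ i, 0 ≤ ph i) → Summable ph →
      (∀ i, 4 ≤ i → P (Bd i) ≤ ENNReal.ofReal (K0 * ph i)) →
      ∀ D : ℕ → ℝ, (∀ j, 0 ≤ D j) →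
      (∀ j, 4 ≤ j → D j ≤ A1 * (∑ i ∈ Ico 4 (j + 1), (2 : ℝ) ^ (-(b * ((j : ℝ) - i))) * ph i +
        P.real {w | Hit c (fun i => w ∈ Bd i) j} + dy j ^ b)) →
      Summable D ∧ ∀ j₁, 4 ≤ j₁ → ∀ J, m * j₁ ≤ J → ∑' j, D (J + j) ≤
        A * A1 * (1 + K0) * (∑' j, ph (j₁ + j) +
          dy (J - j₁) ^ (b / 2) * (1 + ∑' j, ph (4 + j))) := by
  obtain ⟨m, hm, A, hA, H⟩ := tail_D hb hc hc1
  refine ⟨m, hm, A, hA, ?_⟩
  intro A1 K0 hA1 hK0 Ω _ P _ Bd hBd hB4 ph hph hs hK D hD0 hD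
  obtain ⟨h1, h2⟩ := H A1 K0 hA1 hK0 P Bd hBd hB4 ph hph hs hK D hD0 hD
  refine ⟨h1, fun j₁ hj₁ J hJ => ?_⟩
  have hJ4 : 4 * m ≤ J := by
    calc 4 * m = m * 4 := mul_comm _ _
      _ ≤ m * j₁ := Nat.mul_le_mul_left m hj₁
      _ ≤ J := hJ
  refine (h2 J hJ4).trans ?_
  have h3 : j₁ ≤ J / m := by
    rw [Nat.le_div_iff_mul_le (by omega)]
    rw [mul_comm]
    exact hJ
  have h4 := tsum_tail_anti hph hs h3
  have h5 : ((1 / 2 : ℝ) ^ J) ^ (b / 2) ≤ dy (J - j₁) ^ (b / 2) := by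
    apply Real.rpow_le_rpow (by positivity) _ (by positivity)
    exact dy_anti (Nat.sub_le _ _)
  have h6 : 0 ≤ ∑' j, ph (4 + j) := tsum_nonneg fun j => hph _
  gcongr

end Crest.Agent.R247.Num824
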