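import Crest.Agent.R247.FarAsm3_196
import Crest.Agent.R247.Num6_824

/-!
# Assembly of block (1), averaging, part 1 (helper508)

Measurability and measure of the bad rays, identification of the radial derivative.
-/

set_option autoImplicit false
set_option linter.unusedSectionVars false
open MeasureTheory Set Filter Topology Metric
open scoped ENNReal NNReal

noncomputable section
namespace Crest.Agent.R247.Fin508

open Crest.Agent.R247.Mcp688 Crest.Agent.R247.Far553 Crest.Agent.R247.FarAsm196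

variable {n : ℕ} {κ : ℝ} {X : Type*} [MetricSpace X] [MeasurableSpace X] [BorelSpace X]
  {μ : Measure X} {c : FarK} {C : Rad n κ X μ} {x : X} {δ : ℝ} {ph : ℕ → ℝ}

/-! ### the bad rays -/

lemma BdS_nil (F : FarD c C x δ ph) (i : ℕ) : BdS F [] i = ∅ := by
  ext v
  simp [BdS]

lemma BdS_cons (F : FarD c C x δ ph) (q : ℝ × ℝ) (L : List (ℝ × ℝ)) (i : ℕ) :
    BdS F (q :: L) i = ({v | 4 ≤ i ∧ 1 ≤ dist x v ∧ dist x v < 12} ∩
      {v | bad C x (fun k z => F.H k z + F.g k z) q.1 q.2 i v}) ∪ BdS F L i := by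
  ext v
  simp only [BdS, List.mem_cons, mem_ofPred_eq, mem_union, mem_inter_iff, exists_eq_or_imp]
  tauto

lemma BdS_lt (F : FarD c C x δ ph) (L : List (ℝ × ℝ)) {i : ℕ} (hi : i < 4) :
    BdS F L i = ∅ := by
  ext v
  simp only [BdS, mem_ofPred_eq, mem_empty_iff_false, iff_false, not_and]
  intro h
  omega

lemma BdS_subset (F : FarD c C x δ ph) (L : List (ℝ × ℝ)) (i : ℕ) :
    BdS F L i ⊆ ball x 12 := by
  intro v hv
  rw [mem_ball, dist_comm]
  exact hv.2.2.1

lemma measurableSet_BdS [SecondCountableTopology X] [SFinite μ] (F : FarD c C x δ ph)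
    (L : List (ℝ × ℝ)) (i : ℕ) : MeasurableSet (BdS F L i) := by
  induction L with
  | nil => rw [BdS_nil]; exact MeasurableSet.empty
  | cons q L ih =>
    rw [BdS_cons]
    refine MeasurableSet.union (MeasurableSet.inter ?_ ?_) ih
    · by_cases h : 4 ≤ i
      · simp only [h, true_and]
        have hd : Measurable (fun v : X => dist x v) :=
          (continuous_const.dist continuous_id).measurable
        exact (measurableSet_le measurable_const hd).inter (measurableSet_lt hd measurable_const)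
      · simp [h]
    · exact Law508.measurableSet_bad C x (fun k => (F.H_meas k).add (F.g_meas k)) q.1 q.2 i

/-- the constant of the measure of the bad rays -/
def K0 (c : FarK) (L : List (ℝ × ℝ)) : ℝ := (L.map fun q => c.B2 q.1 q.2).sum

lemma K0_nonneg (c : FarK) (L : List (ℝ × ℝ)) : 0 ≤ K0 c L := by
  unfold K0
  apply List.sum_nonneg
  intro r hr
  rw [List.mem_map] at hr
  obtain ⟨q, _, rfl⟩ := hr
  exact (c.B2_pos _ _).le

lemma measure_BdS_le (F : FarD c C x δ ph) {L : List (ℝ × ℝ)} (hL : Lev L) {i : ℕ} (hi : 4 ≤ i) :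
    μ (BdS F L i) ≤ ENNReal.ofReal (K0 c L * ph i) := by
  induction L with
  | nil => rw [BdS_nil]; simp
  | cons q L ih =>
    have hq := hL q (List.mem_cons_self ..)
    have hL' : Lev L := fun q hq => hL q (List.mem_cons_of_mem _ hq)
    have h1 := F.d1b q.1 q.2 hq.1 hq.2 i hi
    have hph := F.ph_nonneg i
    have hB := c.B2_pos q.1 q.2
    have hK := K0_nonneg c L
    rw [BdS_cons]
    calc μ ({v | 4 ≤ i ∧ 1 ≤ dist x v ∧ dist x v < 12} ∩
          {v | bad C x (fun k z => F.H k z + F.g k z) q.1 q.2 i v} ∪ BdS F L i)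
        ≤ μ {v | 1 ≤ dist x v ∧ dist x v < 12 ∧
            bad C x (fun k z => F.H k z + F.g k z) q.1 q.2 i v} + μ (BdS F L i) := by
          refine (measure_union_le _ _).trans (add_le_add_left (measure_mono ?_) _)
          rintro v ⟨⟨_, h2, h3⟩, h4⟩
          exact ⟨h2, h3, h4⟩
      _ ≤ ENNReal.ofReal (c.B2 q.1 q.2 * ph i) + ENNReal.ofReal (K0 c L * ph i) :=
          add_le_add h1 (ih hL')
      _ = _ := by
          rw [← ENNReal.ofReal_add (by positivity) (by positivity)]
          congr 1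
          unfold K0
          rw [List.map_cons, List.sum_cons]
          ring

open Classical in
lemma hit_subset (F : FarD c C x δ ph) (L : List (ℝ × ℝ)) {c1 : ℝ} (hc : 0 < c1) (j : ℕ) :
    {v | Num824.Hit c1 (fun i => v ∈ BdS F L i) j} ⊆ ball x 12 := by
  intro v hv
  obtain ⟨i, hi, h⟩ := hv
  have h1 : (0 : ℝ) < c1 * ((j : ℝ) + 1 - i) := by
    have : (i : ℝ) ≤ j := by exact_mod_cast hi
    apply mul_pos hc
    linarith
  have h2 : (0 : ℝ) < (((Finset.Ico i (j + 1)).filter fun l => v ∈ BdS F L l).card : ℝ) :=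
    h1.trans h
  have h3 : 0 < ((Finset.Ico i (j + 1)).filter fun l => v ∈ BdS F L l).card := by
    exact_mod_cast h2
  obtain ⟨l, hl⟩ := Finset.card_pos.1 h3
  exact BdS_subset F L l (Finset.mem_filter.1 hl).2

/-! ### the radial derivative -/

/-- the sequence `1 - 1/(k+1)` -/
lemma tendsto_seq : Tendsto (fun k : ℕ => 1 - 1 / ((k : ℝ) + 1)) atTop (𝓝[<] (1 : ℝ)) := by
  rw [tendsto_nhdsWithin_iff]
  constructor
  · have := tendsto_one_div_add_atTop_nhds_zero_nat (𝕜 := ℝ)
    have h2 := this.const_sub (1 : ℝ)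
    simpa using h2
  · refine Eventually.of_forall fun k => ?_
    have : (0 : ℝ) < 1 / ((k : ℝ) + 1) := by positivity
    simp only [mem_Iio]
    linarith

lemma tendsto_of_deriv {f : ℝ → ℝ} {A : ℝ} (h : HasDerivWithinAt f A (Iio 1) 1) :
    Tendsto (fun k : ℕ => slope f 1 (1 - 1 / ((k : ℝ) + 1))) atTop (𝓝 A) := by
  rw [hasDerivWithinAt_iff_tendsto_slope' (by simp)] at h
  exact h.comp tendsto_seq

lemma deriv_unique {f : ℝ → ℝ} {A B : ℝ} (h : HasDerivWithinAt f A (Iio 1) 1)
    (h' : HasDerivWithinAt f B (Iio 1) 1) : A = B :=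
  tendsto_nhds_unique (tendsto_of_deriv h) (tendsto_of_deriv h')

/-- the radial derivative is bounded by the length -/
lemma abs_deriv_le {z w : X} (hU : (x, z) ∈ C.U) {A : ℝ}
    (h : Tendsto (fun k : ℕ => slope (fun t : ℝ => dist (C.T x t z) w) 1 (1 - 1 / ((k : ℝ) + 1)))
      atTop (𝓝 A)) : |A| ≤ dist x z := by
  have h1 := h.abs
  refine le_of_tendsto h1 (Eventually.of_forall fun k => ?_)
  have hk : (0 : ℝ) < 1 / ((k : ℝ) + 1) := by positivity
  have hk1 : 1 / ((k : ℝ) + 1) ≤ 1 := by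
    rw [div_le_one (by positivity)]
    have : (0 : ℝ) ≤ k := Nat.cast_nonneg k
    linarith
  set t : ℝ := 1 - 1 / ((k : ℝ) + 1) with ht
  have ht1 : t - 1 ≠ 0 := by rw [ht]; linarith
  have hd := C.dist_T x z hU t ⟨by rw [ht]; linarith, by rw [ht]; linarith⟩ 1 (by simp)
  rw [slope_def_field, abs_div, div_le_iff₀ (abs_pos.2 ht1)]
  have h3 := abs_dist_sub_le (C.T x t z) (C.T x 1 z) w
  rw [hd] at h3
  linarith [h3]

lemma abs_Rw_le {z w : X} {A : ℝ} (h : |A| ≤ dist x z) : |Rw x z w A| ≤ 2 * dist x z := by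
  unfold Rw
  have h1 := abs_dist_sub_le z x w
  rw [dist_comm z x] at h1
  have h2 := abs_sub A (dist z w - dist x w)
  linarith

/-- the radial derivatives are given by `Dw` for almost all pairs -/
theorem der_ident [SecondCountableTopology X] [SFinite μ] (C : Rad n κ X μ) (x : X)
    {Dw : X → X → ℝ} (hm : Measurable (Function.uncurry Dw))
    (hD : ∀ w, RD C x (fun z => dist z w) (fun z => Dw z w)) :
    ∀ᵐ z ∂μ, ∀ᵐ w ∂μ, |Rw x z w (Dw z w)| ≤ 2 * dist x z ∧
      ∀ A, HasDerivWithinAt (fun t : ℝ => dist (C.T x t z) w) A (Iio 1) 1 → A = Dw z w := by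
  set f : ℕ → X × X → ℝ := fun k p =>
    slope (fun t : ℝ => dist (C.T x t p.1) p.2) 1 (1 - 1 / ((k : ℝ) + 1)) with hf
  have hfm : ∀ k, Measurable (f k) := by
    intro k
    simp only [hf, slope_def_field]
    exact ((((C.measT_xt x _).comp measurable_fst).dist measurable_snd).sub
      (((C.measT_xt x _).comp measurable_fst).dist measurable_snd)).div_const _
  have hS : MeasurableSet {p : X × X | Tendsto (fun k => f k p) atTop (𝓝 (Function.uncurry Dw p))} :=
    measurableSet_tendsto_fun hfm hm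
  have h1 : ∀ᵐ z ∂μ, ∀ᵐ w ∂μ, Tendsto (fun k => f k (z, w)) atTop (𝓝 (Dw z w)) := by
    rw [Measure.ae_ae_comm (p := fun z w => Tendsto (fun k => f k (z, w)) atTop (𝓝 (Dw z w))) hS]
    refine Eventually.of_forall fun w => ?_
    filter_upwards [hD w] with z hz
    exact tendsto_of_deriv hz
  filter_upwards [h1, C.ae_U x] with z hz hU
  filter_upwards [hz] with w hw
  exact ⟨abs_Rw_le (abs_deriv_le hU hw), fun A hA => tendsto_nhds_unique (tendsto_of_deriv hA) hw⟩

end Crest.Agent.R247.Fin508
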