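import Crest.Agent.R247.Fin1_508

/-!
# Assembly of block (1), averaging, part 2 (helper508)

The slice estimate: the integral over `w` for fixed `z`.
-/

set_option autoImplicit false
set_option linter.unusedSectionVars false
open MeasureTheory Set Filter Topology Metric
open scoped ENNReal NNReal

noncomputable section
namespace Crest.Agent.R247.Fin508

open Crest.Agent.R247.Mcp688 Crest.Agent.R247.Far553 Crest.Agent.R247.FarAsm196

/-- the exponentially weighted sum of the `ph i` -/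
def SJ (b : ℝ) (ph : ℕ → ℝ) (j : ℕ) : ℝ :=
  ∑ i ∈ Finset.Ico 4 (j + 1), (2 : ℝ) ^ (-(b * ((j : ℝ) - i))) * ph i

lemma SJ_nonneg (b : ℝ) {ph : ℕ → ℝ} (hph : ∀ i, 0 ≤ ph i) (j : ℕ) : 0 ≤ SJ b ph j := by
  unfold SJ
  exact Finset.sum_nonneg fun i _ => mul_nonneg (by positivity) (hph i)

lemma SJ_anti {b b' : ℝ} (h : b' ≤ b) {ph : ℕ → ℝ} (hph : ∀ i, 0 ≤ ph i) (j : ℕ) :
    SJ b ph j ≤ SJ b' ph j := by
  unfold SJ
  refine Finset.sum_le_sum fun i hi => ?_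
  have h1 : (i : ℝ) ≤ j := by exact_mod_cast Nat.lt_succ_iff.1 (Finset.mem_Ico.1 hi).2
  refine mul_le_mul_of_nonneg_right ?_ (hph i)
  apply Real.rpow_le_rpow_of_exponent_le (by norm_num)
  have : b' * ((j : ℝ) - i) ≤ b * ((j : ℝ) - i) := by
    apply mul_le_mul_of_nonneg_right h; linarith
  linarith

lemma term_le_SJ {b : ℝ} {ph : ℕ → ℝ} (hph : ∀ i, 0 ≤ ph i) {i j : ℕ} (h4 : 4 ≤ i)
    (hij : i ≤ j) : ph i ≤ (2 : ℝ) ^ (b * ((j : ℝ) - i)) * SJ b ph j := by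
  have h1 : (2 : ℝ) ^ (-(b * ((j : ℝ) - i))) * ph i ≤ SJ b ph j := by
    unfold SJ
    exact Finset.single_le_sum (f := fun i : ℕ => (2 : ℝ) ^ (-(b * ((j : ℝ) - i))) * ph i)
      (fun i _ => mul_nonneg (by positivity) (hph i)) (Finset.mem_Ico.2 ⟨h4, by omega⟩)
  calc ph i = (2 : ℝ) ^ (b * ((j : ℝ) - i)) * ((2 : ℝ) ^ (-(b * ((j : ℝ) - i))) * ph i) := by
        rw [← mul_assoc, ← Real.rpow_add (by norm_num)]
        simp
    _ ≤ _ := by gcongr

/-- summation of the block errors -/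
lemma sum_blocks {b B K0 : ℝ} (hb : 0 < b) (hB : 0 ≤ B) (hK : 0 ≤ K0) {ph : ℕ → ℝ}
    (hph : ∀ i, 0 ≤ ph i) {kf : ℕ → ℕ → ℕ} (hkf2 : ∀ i j, i ≤ j → kf i j ≤ j) (j : ℕ) (s : ℝ) :
    ∑ i ∈ Finset.Ico 4 (j + 1), (s ^ 2 * (2 : ℝ) ^ (-(b * ((j : ℝ) - i)))) *
      (B * (1 + (kf i j - i : ℕ)) * ph i + K0 * ph i) ≤
    s ^ 2 * ((B * Num824.logC b + K0) * SJ (b / 2) ph j) := by
  have hl := Num824.one_le_logC hb
  unfold SJ
  rw [Finset.mul_sum, Finset.mul_sum]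
  refine Finset.sum_le_sum fun i hi => ?_
  have hij : i ≤ j := Nat.lt_succ_iff.1 (Finset.mem_Ico.1 hi).2
  have h1 := Num824.logabs hb (j - i)
  rw [Nat.cast_sub hij] at h1
  have h2 : ((kf i j - i : ℕ) : ℝ) ≤ (j : ℝ) - i := by
    rw [← Nat.cast_sub hij]
    exact_mod_cast Nat.sub_le_sub_right (hkf2 i j hij) i
  have h3 : (2 : ℝ) ^ (-(b * ((j : ℝ) - i))) ≤ (2 : ℝ) ^ (-(b / 2 * ((j : ℝ) - i))) := by
    apply Real.rpow_le_rpow_of_exponent_le (by norm_num)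
    have : (0 : ℝ) ≤ (j : ℝ) - i := by
      have : (i : ℝ) ≤ j := by exact_mod_cast hij
      linarith
    nlinarith
  have h0 := hph i
  have hP : (0 : ℝ) < (2 : ℝ) ^ (-(b * ((j : ℝ) - i))) := by positivity
  calc (s ^ 2 * (2 : ℝ) ^ (-(b * ((j : ℝ) - i)))) *
        (B * (1 + (kf i j - i : ℕ)) * ph i + K0 * ph i)
      ≤ (s ^ 2 * (2 : ℝ) ^ (-(b * ((j : ℝ) - i)))) *
        (B * (1 + ((j : ℝ) - i)) * ph i + K0 * ph i) := by gcongr
    _ = s ^ 2 * (B * ((1 + ((j : ℝ) - i)) * (2 : ℝ) ^ (-(b * ((j : ℝ) - i)))) * ph i +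
        K0 * (2 : ℝ) ^ (-(b * ((j : ℝ) - i))) * ph i) := by ring
    _ ≤ s ^ 2 * (B * (Num824.logC b * (2 : ℝ) ^ (-(b / 2 * ((j : ℝ) - i)))) * ph i +
        K0 * (2 : ℝ) ^ (-(b / 2 * ((j : ℝ) - i))) * ph i) := by gcongr
    _ = _ := by ring

variable {n : ℕ} {κ : ℝ} {X : Type*} [MetricSpace X] [MeasurableSpace X] [BorelSpace X]
  {μ : Measure X} {c : FarK} {C : Rad n κ X μ} {x : X} {δ : ℝ} {ph : ℕ → ℝ}

/-- the hit set at scale `j` -/
def Ht (F : FarD c C x δ ph) (L : List (ℝ × ℝ)) (c1 : ℝ) (j : ℕ) : Set X :=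
  {v | Num824.Hit c1 (fun i => v ∈ BdS F L i) j}

variable [SecondCountableTopology X] [SFinite μ]

lemma meas_Blk_w (F : FarD c C x δ ph) (i k : ℕ) (K cN : ℝ) (z : X) :
    Measurable fun w => Blk F i k K cN z w := by
  have h := measurable_Blk F i k K cN
  generalize Blk F i k K cN = f at h ⊢
  exact h.comp (measurable_const.prodMk measurable_id)

lemma meas_Blk_T (F : FarD c C x δ ph) (i k : ℕ) (K cN : ℝ) (z : X) (lam : ℝ) :
    Measurable fun v => Blk F i k K cN z (C.T x lam v) := by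
  have h := meas_Blk_w F i k K cN z
  generalize Blk F i k K cN z = f at h ⊢
  exact h.comp (C.measT_xt x lam)

lemma meas_Fst_w (F : FarD c C x δ ph) (m : ℕ) (z : X) : Measurable fun w => Fst F m z w := by
  have h := measurable_Fst F m
  generalize Fst F m = f at h ⊢
  exact h.comp (measurable_const.prodMk measurable_id)

lemma meas_Fst_T (F : FarD c C x δ ph) (m : ℕ) (z : X) (lam : ℝ) :
    Measurable fun v => Fst F m z (C.T x lam v) := by
  have h := meas_Fst_w F m z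
  generalize Fst F m z = f at h ⊢
  exact h.comp (C.measT_xt x lam)

lemma meas_BdS_ind (F : FarD c C x δ ph) (L : List (ℝ × ℝ)) (i : ℕ)  :
    Measurable fun v => ((BdS F L i).indicator (fun _ => (1 : ℝ≥0∞)) v) :=
  measurable_const.indicator (measurableSet_BdS F L i)

/-- block plus indicator -/
def Bi (F : FarD c C x δ ph) (L : List (ℝ × ℝ)) (i k : ℕ) (K cN : ℝ) (z w v : X) : ℝ≥0∞ :=
  Blk F i k K cN z w + (BdS F L i).indicator (fun _ => 1) v

lemma meas_Bi (F : FarD c C x δ ph) (L : List (ℝ × ℝ)) (i k : ℕ) (K cN : ℝ) (z : X) (lam : ℝ) :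
    Measurable fun v => Bi F L i k K cN z (C.T x lam v) v := by
  unfold Bi
  exact (meas_Blk_T F i k K cN z lam).add (meas_BdS_ind F L i)

/-- one block -/
lemma blk_one (hκ : 0 ≤ κ) (hκ1 : κ ≤ 1) (F : FarD c C x δ ph)
    {L : List (ℝ × ℝ)} (hL : Lev L) {K cN : ℝ} (hK : 1 ≤ K) (hcN : 0 < cN) {i k : ℕ}
    (hi : 4 ≤ i) (hik : i ≤ k) {p z : X} (hp : dist p x < 1) (hz : dist x z < 1) {lam : ℝ}
    (hl : lam ∈ Ioc (0 : ℝ) 1) :
    ∫⁻ v, Bi F L i k K cN z (C.T x lam v) v ∂(Law508.Nu C x lam (ann p 4 8)) ≤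
      ENNReal.ofReal (26 * CL n * c.B3 K cN * (1 + (k - i : ℕ)) * ph i + K0 c L * ph i) := by
  have hWm : MeasurableSet (ann p 4 8) := FarAsm196.measurableSet_ann p 4 8
  have hph := F.ph_nonneg i
  have hCL := CL_pos n
  have hB3 := c.B3_pos K cN
  have hK0 := K0_nonneg c L
  have hB := Blk_avg F hκ1 (lawArc C hκ) hp hz hi hik hK hcN
  have hBw := meas_Blk_w F i k K cN z
  have hBT := meas_Blk_T F i k K cN z lam
  unfold Bi
  rw [lintegral_add_left hBT, lintegral_indicator (measurableSet_BdS F L i), setLIntegral_const,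
    one_mul, ENNReal.ofReal_add (by positivity) (by positivity)]
  refine add_le_add ?_ ?_
  · generalize Blk F i k K cN z = f at hB hBw ⊢
    exact (Law508.lintegral_Nu_le C hκ x hl hWm hBw).trans hB
  · exact (Law508.Nu_le C hκ x hl _ _).trans (measure_BdS_le F hL hi)

/-- the sum of the blocks -/
def BlkS (F : FarD c C x δ ph) (L : List (ℝ × ℝ)) (kf : ℕ → ℕ → ℕ) (b K cN : ℝ) (j : ℕ)
    (z w v : X) : ℝ≥0∞ :=
  ∑ i ∈ Finset.Ico 4 (j + 1), ENNReal.ofReal (dy j ^ 2 * (2 : ℝ) ^ (-(b * ((j : ℝ) - i)))) *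
    Bi F L i (kf i j) K cN z w v

lemma meas_BlkS (F : FarD c C x δ ph) (L : List (ℝ × ℝ)) (kf : ℕ → ℕ → ℕ) (b K cN : ℝ)
    (j : ℕ) (z : X) (lam : ℝ) :
    Measurable fun v => BlkS F L kf b K cN j z (C.T x lam v) v := by
  unfold BlkS
  exact Finset.measurable_sum _ fun i _ => (meas_Bi F L i (kf i j) K cN z lam).const_mul _

lemma BlkS_avg (hκ : 0 ≤ κ) (hκ1 : κ ≤ 1) (F : FarD c C x δ ph)
    {L : List (ℝ × ℝ)} (hL : Lev L) {kf : ℕ → ℕ → ℕ} (hkf1 : ∀ i j, i ≤ kf i j)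
    (hkf2 : ∀ i j, i ≤ j → kf i j ≤ j) {b K cN : ℝ} (hb : 0 < b) (hK : 1 ≤ K) (hcN : 0 < cN)
    (j : ℕ) {p z : X} (hp : dist p x < 1) (hz : dist x z < 1) {lam : ℝ}
    (hl : lam ∈ Ioc (0 : ℝ) 1) :
    ∫⁻ v, BlkS F L kf b K cN j z (C.T x lam v) v ∂(Law508.Nu C x lam (ann p 4 8)) ≤
      ENNReal.ofReal (dy j ^ 2 * ((26 * CL n * c.B3 K cN * Num824.logC b + K0 c L) *
        SJ (b / 2) ph j)) := by
  have hph := F.ph_nonneg
  have hCL := CL_pos n
  have hB3 := c.B3_pos K cN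
  have hK0 := K0_nonneg c L
  have hdj := dy_pos j
  refine le_trans ?_ (ENNReal.ofReal_le_ofReal (sum_blocks hb
    (by positivity : (0 : ℝ) ≤ 26 * CL n * c.B3 K cN) hK0 hph hkf2 j (dy j)))
  rw [ENNReal.ofReal_sum_of_nonneg (fun i _ => by
    have := hph i
    positivity)]
  unfold BlkS
  rw [lintegral_finsetSum _ (fun i _ => (meas_Bi F L i (kf i j) K cN z lam).const_mul _)]
  refine Finset.sum_le_sum fun i hi => ?_
  rw [lintegral_const_mul _ (meas_Bi F L i (kf i j) K cN z lam),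
    ENNReal.ofReal_mul (p := dy j ^ 2 * (2 : ℝ) ^ (-(b * ((j : ℝ) - i)))) (by positivity)]
  exact mul_le_mul_right (blk_one hκ hκ1 F hL hK hcN (Finset.mem_Ico.1 hi).1 (hkf1 i j) hp hz hl) _

/-- integration of the pathwise right-hand side against `Nu` -/
lemma Rhs_avg (hκ : 0 ≤ κ) (hκ1 : κ ≤ 1) (hδ : δ ≤ 1) (F : FarD c C x δ ph)
    {L : List (ℝ × ℝ)} (hL : Lev L) {kf : ℕ → ℕ → ℕ} (hkf1 : ∀ i j, i ≤ kf i j)
    (hkf2 : ∀ i j, i ≤ j → kf i j ≤ j) {b K cN : ℝ} (hb : 0 < b) (hK : 1 ≤ K) (hcN : 0 < cN)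
    (m j : ℕ) {p z : X} (hp : dist p x < 1) (hz : dist x z < 1) {lam : ℝ}
    (hl : lam ∈ Ioc (0 : ℝ) 1) :
    ∫⁻ v, (Fst F m z (C.T x lam v) + BlkS F L kf b K cN j z (C.T x lam v) v +
        ENNReal.ofReal (dy j ^ 2 * dy j ^ b)) ∂(Law508.Nu C x lam (ann p 4 8)) ≤
      ∫⁻ w in ann p 4 8, Fst F m z w ∂μ +
      ENNReal.ofReal (dy j ^ 2 * ((26 * CL n * c.B3 K cN * Num824.logC b + K0 c L) *
        SJ (b / 2) ph j) + dy j ^ 2 * dy j ^ b * CW n c) := by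
  have hWm : MeasurableSet (ann p 4 8) := FarAsm196.measurableSet_ann p 4 8
  have hFm := meas_Fst_T F m z lam
  have hFw := meas_Fst_w F m z
  have hph := F.ph_nonneg
  have hCL := CL_pos n
  have hB3 := c.B3_pos K cN
  have hK0 := K0_nonneg c L
  have hCW := CW_pos n c
  have hdj := dy_pos j
  have hlog := Num824.one_le_logC hb
  have hSJ := SJ_nonneg (b / 2) hph j
  have hS := BlkS_avg hκ hκ1 F hL hkf1 hkf2 hb hK hcN j hp hz hl
  have hU : Law508.Nu C x lam (ann p 4 8) univ ≤ ENNReal.ofReal (CW n c) :=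
    (Law508.Nu_univ_le C hκ x hl hWm).trans (ann_le F hδ hp)
  generalize Fst F m z = f at hFm hFw ⊢
  generalize BlkS F L kf b K cN j z = g at hS ⊢
  rw [lintegral_add_right _ measurable_const, lintegral_add_left hFm, lintegral_const]
  have hF : ∫⁻ v, f (C.T x lam v) ∂(Law508.Nu C x lam (ann p 4 8)) ≤
      ∫⁻ w in ann p 4 8, f w ∂μ := Law508.lintegral_Nu_le C hκ x hl hWm hFw
  refine (add_le_add (add_le_add hF hS) (mul_le_mul_right hU _)).trans ?_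
  rw [ENNReal.ofReal_add (by positivity) (by positivity), ENNReal.ofReal_mul
    (q := CW n c) (by positivity), add_assoc]

end Crest.Agent.R247.Fin508
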