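import Crest.Agent.R202.Ell4

/-!
R247, block (5), leaf (5-F): Friedrichs mollification, file 1:
`L²` convergence of mollifications, sup bound, supports, localised weak derivatives. (helper657)
-/

set_option autoImplicit false
open scoped ContDiff ENNReal Topology
open MeasureTheory Set Filter
open Crest.GeometryTopology.CoordMetric
open Crest.Agent.R202.Ell

namespace Crest.Agent.R247.Frd657

noncomputable section

variable {n : ℕ}

/-! ### `L²` convergence of the mollification -/

/-- test functions are dense in `L²` -/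
theorem exists_test_close {g : EE n → ℝ} (hg : MemLp g 2) {ε : ℝ} (hε : 0 < ε) :
    ∃ φ : EE n → ℝ, IsTest φ ∧ nm (fun x => g x - φ x) ≤ ε := by
  have hd := Lp.dense_hasCompactSupport_contDiff (F := ℝ) (E := EE n) (μ := volume) (p := 2)
    (by norm_num)
  obtain ⟨f, ⟨φ, hφ, hφc, hφs⟩, hf⟩ := Metric.mem_closure_iff.1 (hd (hg.toLp g)) ε hε
  have hT : IsTest φ := ⟨hφs, hφc⟩
  refine ⟨φ, hT, ?_⟩
  have hm := hT.memLp (2 : ℝ≥0∞)
  have h1 : f = hm.toLp φ := by
    apply Lp.ext
    exact hφ.trans hm.coeFn_toLp.symm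
  rw [h1, dist_eq_norm, ← MemLp.toLp_sub, Lp.norm_toLp] at hf
  exact hf.le

theorem memLp_sub' {f g : EE n → ℝ} (hf : MemLp f 2) (hg : MemLp g 2) :
    MemLp (fun x => f x - g x) 2 := hf.sub hg

/-- **`L²` convergence of mollifications** -/
theorem tendsto_nm_cv {g : EE n → ℝ} (hg : MemLp g 2) :
    Tendsto (fun k => nm (fun x => cv (rho n k) g x - g x)) atTop (𝓝 0) := by
  have hJ : ∀ k, MemLp (cv (rho n k) g) 2 := fun k => memLp_cv (rho_test k) hg
  have hJn : ∀ k, nm (cv (rho n k) g) ≤ nm g := fun k =>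
    ENNReal.toReal_mono hg.2.ne (eLpNorm_cv_rho_le k hg.1)
  -- pairing with `g`
  have hpair : Tendsto (fun k => ∫ x, cv (rho n k) g x * g x) atTop (𝓝 (nm g ^ 2)) := by
    rw [Metric.tendsto_atTop]
    intro ε hε
    set N : ℝ := nm g with hN
    have hN0 : 0 ≤ N := nm_nonneg g
    obtain ⟨φ, hφ, hφε⟩ := exists_test_close hg (ε := ε / (4 * (N + 1))) (by positivity)
    have hgφ : MemLp (fun x => g x - φ x) 2 := hg.sub (hφ.memLp 2)
    have h1 := tendsto_integral_cv_mul (MemLp.locInt hg) hφ
    rw [Metric.tendsto_atTop] at h1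
    obtain ⟨K, hK⟩ := h1 (ε / 4) (by positivity)
    refine ⟨K, fun k hk => ?_⟩
    have h2 := hK k hk
    rw [Real.dist_eq] at h2 ⊢
    have i1 : Integrable (fun x => cv (rho n k) g x * (g x - φ x)) := integrable_mul (hJ k) hgφ
    have i2 : Integrable (fun x => cv (rho n k) g x * φ x) := integrable_mul (hJ k) (hφ.memLp 2)
    have i3 : Integrable (fun x => g x * (g x - φ x)) := integrable_mul hg hgφ
    have i4 : Integrable (fun x => g x * φ x) := integrable_mul hg (hφ.memLp 2)
    have e1 : ∫ x, cv (rho n k) g x * g x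
        = (∫ x, cv (rho n k) g x * (g x - φ x)) + ∫ x, cv (rho n k) g x * φ x := by
      rw [← integral_add i1 i2]; congr 1; ext x; ring
    have e2 : nm g ^ 2 = (∫ x, g x * (g x - φ x)) + ∫ x, g x * φ x := by
      rw [← integral_sq hg, ← integral_add i3 i4]; congr 1; ext x; ring
    have b1 : |∫ x, cv (rho n k) g x * (g x - φ x)| ≤ ε / 4 := by
      refine (abs_integral_mul_le (hJ k) hgφ).trans ?_
      calc nm (cv (rho n k) g) * nm (fun x => g x - φ x)
          ≤ N * (ε / (4 * (N + 1))) := by
            apply mul_le_mul (hJn k) hφε (nm_nonneg _) hN0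
        _ ≤ (N + 1) * (ε / (4 * (N + 1))) := by
            apply mul_le_mul_of_nonneg_right (by linarith) (by positivity)
        _ = ε / 4 := by field_simp
    have b2 : |∫ x, g x * (g x - φ x)| ≤ ε / 4 := by
      refine (abs_integral_mul_le hg hgφ).trans ?_
      calc nm g * nm (fun x => g x - φ x)
          ≤ N * (ε / (4 * (N + 1))) := by
            apply mul_le_mul le_rfl hφε (nm_nonneg _) hN0
        _ ≤ (N + 1) * (ε / (4 * (N + 1))) := by
            apply mul_le_mul_of_nonneg_right (by linarith) (by positivity)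
        _ = ε / 4 := by field_simp
    rw [e1, e2]
    rw [abs_le] at b1 b2
    rw [abs_lt] at h2 ⊢
    constructor <;> linarith [b1.1, b1.2, b2.1, b2.2, h2.1, h2.2]
  -- norm squared of the difference
  have hsq : ∀ k, nm (fun x => cv (rho n k) g x - g x) ^ 2
      ≤ 2 * nm g ^ 2 - 2 * ∫ x, cv (rho n k) g x * g x := by
    intro k
    have hd : MemLp (fun x => cv (rho n k) g x - g x) 2 := (hJ k).sub hg
    have j1 : Integrable (fun x => cv (rho n k) g x * cv (rho n k) g x) :=
      integrable_mul (hJ k) (hJ k)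
    have j2 : Integrable (fun x => cv (rho n k) g x * g x) := integrable_mul (hJ k) hg
    have j3 : Integrable (fun x => g x * g x) := integrable_mul hg hg
    have j12 : Integrable (fun x => cv (rho n k) g x * cv (rho n k) g x
        - 2 * (cv (rho n k) g x * g x)) := j1.sub (j2.const_mul 2)
    have e : ∫ x, (cv (rho n k) g x - g x) ^ 2
        = (∫ x, cv (rho n k) g x * cv (rho n k) g x) - 2 * (∫ x, cv (rho n k) g x * g x)
          + ∫ x, g x * g x := by
      rw [← integral_const_mul, ← integral_sub j1 (j2.const_mul 2), ← integral_add j12 j3]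
      congr 1; ext x; ring
    rw [← integral_sq hd, e]
    have e1 : ∫ x, cv (rho n k) g x * cv (rho n k) g x = nm (cv (rho n k) g) ^ 2 := by
      rw [← integral_sq (hJ k)]; congr 1; ext x; ring
    have e2 : ∫ x, g x * g x = nm g ^ 2 := by
      rw [← integral_sq hg]; congr 1; ext x; ring
    rw [e1, e2]
    have h3 : nm (cv (rho n k) g) ^ 2 ≤ nm g ^ 2 := pow_le_pow_left₀ (nm_nonneg _) (hJn k) 2
    linarith
  have hlim : Tendsto (fun k => 2 * nm g ^ 2 - 2 * ∫ x, cv (rho n k) g x * g x) atTop (𝓝 0) := by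
    have := (hpair.const_mul 2).const_sub (2 * nm g ^ 2)
    simpa using this
  have hsq0 : Tendsto (fun k => nm (fun x => cv (rho n k) g x - g x) ^ 2) atTop (𝓝 0) :=
    squeeze_zero (fun k => sq_nonneg _) hsq hlim
  have := hsq0.sqrt
  rw [Real.sqrt_zero] at this
  refine this.congr fun k => ?_
  exact Real.sqrt_sq (nm_nonneg _)

/-- sup bound of the mollification -/
theorem abs_cv_le {g : EE n → ℝ} {S : ℝ} (hg : ∀ᵐ x, |g x| ≤ S) (k : ℕ) (x : EE n) :
    |cv (rho n k) g x| ≤ S := by
  rw [cv_apply]
  have h1 : ‖∫ t, g t * rho n k (x - t)‖ ≤ ∫ t, S * rho n k (x - t) := by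
    apply norm_integral_le_of_norm_le
    · exact ((rho_test k).comp_sub x).integrable.const_mul S
    · filter_upwards [hg] with t ht
      rw [norm_mul, Real.norm_of_nonneg (rho_nonneg k _), Real.norm_eq_abs]
      exact mul_le_mul_of_nonneg_right ht (rho_nonneg k _)
  rw [integral_const_mul, integral_sub_left_eq_self (rho n k) volume x, rho_integral, mul_one] at h1
  simpa [Real.norm_eq_abs] using h1

/-- one-sided sup bounds of the mollification -/
theorem cv_le {g : EE n → ℝ} (hgl : LocallyIntegrable g) {S : ℝ} (hg : ∀ᵐ x, g x ≤ S) (k : ℕ)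
    (x : EE n) : cv (rho n k) g x ≤ S := by
  rw [cv_apply]
  have h1 : ∫ t, g t * rho n k (x - t) ≤ ∫ t, S * rho n k (x - t) := by
    apply integral_mono_ae (cv_exists (rho_test k) hgl x)
      (((rho_test k).comp_sub x).integrable.const_mul S)
    filter_upwards [hg] with t ht
    exact mul_le_mul_of_nonneg_right ht (rho_nonneg k _)
  rwa [integral_const_mul, integral_sub_left_eq_self (rho n k) volume x, rho_integral,
    mul_one] at h1

theorem le_cv {g : EE n → ℝ} (hgl : LocallyIntegrable g) {S : ℝ} (hg : ∀ᵐ x, S ≤ g x) (k : ℕ)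
    (x : EE n) : S ≤ cv (rho n k) g x := by
  rw [cv_apply]
  have h1 : ∫ t, S * rho n k (x - t) ≤ ∫ t, g t * rho n k (x - t) := by
    apply integral_mono_ae (((rho_test k).comp_sub x).integrable.const_mul S)
      (cv_exists (rho_test k) hgl x)
    filter_upwards [hg] with t ht
    exact mul_le_mul_of_nonneg_right ht (rho_nonneg k _)
  rwa [integral_const_mul, integral_sub_left_eq_self (rho n k) volume x, rho_integral,
    mul_one] at h1

/-- the mollification vanishes away from the support -/
theorem cv_eq_zero {g : EE n → ℝ} {S : Set (EE n)} (hg : ∀ x, x ∉ S → g x = 0) (k : ℕ) (x : EE n)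
    (hx : ∀ y ∈ S, 1 / ((k : ℝ) + 1) ≤ dist x y) : cv (rho n k) g x = 0 := by
  rw [cv_apply]
  have : ∀ t, g t * rho n k (x - t) = 0 := by
    intro t
    by_cases ht : t ∈ S
    · have h1 : rho n k (x - t) = 0 := by
        have h2 : x - t ∉ Function.support (rho n k) := by
          rw [rho, ContDiffBump.support_normed_eq]
          simp only [bmp, Metric.mem_ball, dist_zero_right, not_lt]
          have := hx t ht
          rwa [dist_eq_norm] at this
        simpa using h2
      rw [h1, mul_zero]
    · rw [hg t ht, zero_mul]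
  simp [this]

/-- the support of the mollification -/
theorem tsupport_cv_subset {g : EE n → ℝ} {S : Set (EE n)} (hg : ∀ x, x ∉ S → g x = 0) (k : ℕ) :
    tsupport (cv (rho n k) g) ⊆ Metric.cthickening (1 / ((k : ℝ) + 1)) S := by
  apply closure_minimal _ Metric.isClosed_cthickening
  intro x hx
  by_contra hne
  apply hx
  apply cv_eq_zero hg k x
  intro y hy
  by_contra hlt
  push Not at hlt
  exact hne (Metric.mem_cthickening_of_dist_le x y _ S hy hlt.le)

end

end Crest.Agent.R247.Frd657
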