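import Crest.Agent.R247.Frd1_657

/-!
R247, block (5), leaf (5-F): Friedrichs mollification, file 2: local `L²` functions, local weak
derivatives, cut-off, products with cut-offs, the localised weak equation. (helper657)
-/

set_option autoImplicit false
open scoped ContDiff ENNReal Topology Manifold
open MeasureTheory Set Filter
open Crest.GeometryTopology.CoordMetric
open Crest.Agent.R202.Ell

namespace Crest.Agent.R247.Frd657

noncomputable section

variable {n : ℕ}

/-! ### cut-offs -/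

/-- cut-off: `= 1` near `K`, supported in `Ω`. -/
theorem exists_cutoff {K Ω : Set (EE n)} (hK : IsCompact K) (hΩ : IsOpen Ω) (hKΩ : K ⊆ Ω) :
    ∃ θ : EE n → ℝ, IsTest θ ∧ tsupport θ ⊆ Ω ∧ (∀ᶠ y in 𝓝ˢ K, θ y = 1) ∧ (∀ y ∈ K, θ y = 1) ∧
      ∀ y, θ y ∈ Icc (0 : ℝ) 1 := by
  obtain ⟨V, hVo, hKV, hVΩ, hVc⟩ := exists_open_between_and_isCompact_closure hK hΩ hKΩ
  obtain ⟨f, hf1, hf0, hf⟩ := exists_contMDiffMap_one_nhds_of_subset_interior
    (modelWithCornersSelf ℝ (EE n)) (n := (⊤ : ℕ∞)) hK.isClosed (t := V)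
    (hKV.trans (interior_eq_iff_isOpen.mpr hVo).ge)
  have hsm : ContDiff ℝ ∞ (f : EE n → ℝ) := f.contMDiff.contDiff
  have hts : tsupport (f : EE n → ℝ) ⊆ closure V := by
    apply closure_mono
    intro x hx
    by_contra h
    exact hx (hf0 x h)
  have hcs : HasCompactSupport (f : EE n → ℝ) := hVc.of_isClosed_subset isClosed_closure hts
  exact ⟨f, ⟨hsm, hcs⟩, hts.trans hVΩ, hf1, fun y hy => hf1.self_of_nhdsSet y hy, hf⟩

/-- a smooth function on an open set, cut off -/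
theorem test_mul_on {χ a : EE n → ℝ} {Ω : Set (EE n)} (hχ : IsTest χ) (hΩ : IsOpen Ω)
    (hs : tsupport χ ⊆ Ω) (ha : ContDiffOn ℝ ∞ a Ω) : IsTest (fun x => a x * χ x) := by
  refine ⟨contDiff_iff_contDiffAt.2 fun y => ?_, hχ.cpt.mul_left⟩
  by_cases hy : y ∈ tsupport χ
  · exact (ha.contDiffAt (hΩ.mem_nhds (hs hy))).mul hχ.smooth.contDiffAt
  · have h : (fun y => a y * χ y) =ᶠ[𝓝 y] fun _ => 0 := by
      filter_upwards [(isClosed_tsupport χ).isOpen_compl.mem_nhds hy] with z hz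
      rw [image_eq_zero_of_notMem_tsupport hz, mul_zero]
    exact contDiffAt_const.congr_of_eventuallyEq h

theorem tsupport_mul_on (χ a : EE n → ℝ) : tsupport (fun x => a x * χ x) ⊆ tsupport χ :=
  tsupport_mul_subset_right

theorem tsupport_mul_left' (χ a : EE n → ℝ) : tsupport (fun x => χ x * a x) ⊆ tsupport χ :=
  tsupport_mul_subset_left

theorem tsupport_pderiv (χ : EE n → ℝ) (i : Fin n) : tsupport (pderiv i χ) ⊆ tsupport χ :=
  tsupport_fderiv_apply_subset ℝ (EuclideanSpace.single i 1)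

/-! ### local `L²` functions -/

/-- `g ∈ L²_loc(Ω)` -/
def L2On (Ω : Set (EE n)) (g : EE n → ℝ) : Prop :=
  ∀ K, K ⊆ Ω → IsCompact K → MemLp g 2 (volume.restrict K)

theorem L2On.of_memLp {Ω : Set (EE n)} {g : EE n → ℝ} (hg : MemLp g 2) : L2On Ω g :=
  fun _ _ _ => hg.restrict _

theorem L2On.mono {Ω Ω' : Set (EE n)} {g : EE n → ℝ} (hg : L2On Ω g) (h : Ω' ⊆ Ω) : L2On Ω' g :=
  fun K hK hc => hg K (hK.trans h) hc

theorem L2On.of_continuousOn {Ω : Set (EE n)} {g : EE n → ℝ} (hg : ContinuousOn g Ω) :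
    L2On Ω g := by
  intro K hK hc
  obtain ⟨C, hC⟩ := hc.exists_bound_of_continuousOn (hg.mono hK)
  have : IsFiniteMeasure (volume.restrict K : Measure (EE n)) :=
    ⟨by rw [Measure.restrict_apply_univ]; exact hc.measure_lt_top⟩
  refine MemLp.of_bound ((hg.mono hK).aestronglyMeasurable hc.measurableSet) C ?_
  rw [ae_restrict_iff' hc.measurableSet]
  exact Eventually.of_forall hC

theorem L2On.mul_test {Ω : Set (EE n)} {g χ : EE n → ℝ} (hg : L2On Ω g) (hχ : Continuous χ)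
    (hc : HasCompactSupport χ) (hs : tsupport χ ⊆ Ω) : MemLp (fun x => χ x * g x) 2 := by
  have hK : IsCompact (tsupport χ) := hc
  have h0 := hg _ hs hK
  obtain ⟨C, hC⟩ := hc.exists_bound_of_continuous hχ
  have h1 : MemLp (fun x => χ x * g x) 2 (volume.restrict (tsupport χ)) := by
    refine MemLp.of_le_mul (c := C) h0 (hχ.aestronglyMeasurable.mul h0.1) ?_
    refine Eventually.of_forall fun x => ?_
    rw [norm_mul]
    exact mul_le_mul_of_nonneg_right (hC x) (norm_nonneg _)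
  have h2 : (fun x => χ x * g x) = (tsupport χ).indicator (fun x => χ x * g x) := by
    ext x
    by_cases hx : x ∈ tsupport χ
    · rw [indicator_of_mem hx]
    · rw [indicator_of_notMem hx, image_eq_zero_of_notMem_tsupport hx, zero_mul]
  rw [h2, memLp_indicator_iff_restrict hK.measurableSet]
  exact h1

/-- product of a local `L²` function with a test function is integrable -/
theorem L2On.int_test {Ω : Set (EE n)} {g χ : EE n → ℝ} (hg : L2On Ω g) (hχ : Continuous χ)
    (hc : HasCompactSupport χ) (hs : tsupport χ ⊆ Ω) : Integrable (fun x => g x * χ x) := by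
  obtain ⟨θ, hθ, hθΩ, -, hθ1, -⟩ := exists_cutoff (K := tsupport χ) hc isOpen_univ (subset_univ _)
  have h1 := hg.mul_test hχ hc hs
  have h2 := integrable_mul h1 (hθ.memLp 2)
  refine h2.congr (Eventually.of_forall fun x => ?_)
  by_cases hx : x ∈ tsupport χ
  · simp only [hθ1 x hx]; ring
  · simp only [image_eq_zero_of_notMem_tsupport hx]; ring

/-! ### local weak derivatives -/

/-- `g` is a weak derivative of `u` in direction `i` on `Ω` -/
def WDOn (Ω : Set (EE n)) (i : Fin n) (u g : EE n → ℝ) : Prop :=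
  ∀ φ : EE n → ℝ, IsTest φ → tsupport φ ⊆ Ω → ∫ x, u x * pderiv i φ x = - ∫ x, g x * φ x

theorem WDOn.mono {Ω Ω' : Set (EE n)} {i : Fin n} {u g : EE n → ℝ} (h : WDOn Ω i u g)
    (h' : Ω' ⊆ Ω) : WDOn Ω' i u g := fun φ hφ hs => h φ hφ (hs.trans h')

theorem WDOn.of_wd {Ω : Set (EE n)} {i : Fin n} {u g : EE n → ℝ} (h : WD i u g) :
    WDOn Ω i u g := fun φ hφ _ => h φ hφ

/-- Product with a test function: the product is globally weakly differentiable. -/
theorem WDOn.mul_test {Ω : Set (EE n)} {i : Fin n} {u g χ : EE n → ℝ} (hu : L2On Ω u)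
    (hg : L2On Ω g) (h : WDOn Ω i u g) (hχ : IsTest χ) (hs : tsupport χ ⊆ Ω) :
    WD i (fun x => χ x * u x) (fun x => pderiv i χ x * u x + χ x * g x) := by
  intro φ hφ
  have hT : IsTest (fun x => χ x * φ x) := hφ.mul_left hχ.smooth
  have hTs : tsupport (fun x => χ x * φ x) ⊆ Ω := (tsupport_mul_left' χ φ).trans hs
  have h1 := h _ hT hTs
  have hd : ∀ x, pderiv i (fun x => χ x * φ x) x = pderiv i χ x * φ x + χ x * pderiv i φ x :=
    fun x => pderiv_mul i x (hχ.smooth.differentiable (by simp) x)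
      (hφ.smooth.differentiable (by simp) x)
  have hT1 : IsTest (fun x => pderiv i χ x * φ x) := hφ.mul_left (hχ.pderiv i).smooth
  have hT2 : IsTest (fun x => χ x * pderiv i φ x) := (hφ.pderiv i).mul_left hχ.smooth
  have s1 : tsupport (fun x => pderiv i χ x * φ x) ⊆ Ω :=
    (tsupport_mul_left' _ φ).trans ((tsupport_pderiv χ i).trans hs)
  have s2 : tsupport (fun x => χ x * pderiv i φ x) ⊆ Ω := (tsupport_mul_left' χ _).trans hs
  have i1 : Integrable (fun x => u x * (pderiv i χ x * φ x)) := hu.int_test hT1.continuous hT1.cpt s1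
  have i2 : Integrable (fun x => u x * (χ x * pderiv i φ x)) := hu.int_test hT2.continuous hT2.cpt s2
  have i3 : Integrable (fun x => g x * (χ x * φ x)) := hg.int_test hT.continuous hT.cpt hTs
  simp only [hd, mul_add] at h1
  rw [integral_add i1 i2] at h1
  have e1 : ∫ x, χ x * u x * pderiv i φ x = ∫ x, u x * (χ x * pderiv i φ x) := by
    congr 1; ext x; ring
  have e2 : ∫ x, (pderiv i χ x * u x + χ x * g x) * φ x
      = (∫ x, u x * (pderiv i χ x * φ x)) + ∫ x, g x * (χ x * φ x) := by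
    rw [← integral_add i1 i3]
    congr 1; ext x; ring
  rw [e1, e2]; linarith

/-- integration by parts of `u` against `b · ∂φ`, `b` a test function in `Ω` -/
theorem WDOn.parts {Ω : Set (EE n)} {i : Fin n} {u g b : EE n → ℝ} (hu : L2On Ω u)
    (hg : L2On Ω g) (h : WDOn Ω i u g) (hb : IsTest b) (hs : tsupport b ⊆ Ω) {φ : EE n → ℝ}
    (hφ : IsTest φ) :
    ∫ x, b x * u x * pderiv i φ x = - ∫ x, (pderiv i b x * u x + b x * g x) * φ x :=
  h.mul_test hu hg hb hs φ hφ

/-! ### coefficients -/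

/-- smooth positive coefficients on an open set -/
structure CoefOn (Ω : Set (EE n)) (A : Fin n → Fin n → EE n → ℝ) : Prop where
  smooth : ∀ i j, ContDiffOn ℝ ∞ (A i j) Ω
  pos : ∀ x ∈ Ω, ∀ ξ : Fin n → ℝ, ξ ≠ 0 → 0 < ∑ i, ∑ j, A i j x * ξ j * ξ i

/-- uniform ellipticity on compact sets -/
theorem exists_lam {K : Set (EE n)} (hK : IsCompact K) {A : Fin n → Fin n → EE n → ℝ}
    (hA : ∀ i j, ContinuousOn (A i j) K)
    (hpos : ∀ x ∈ K, ∀ ξ : Fin n → ℝ, ξ ≠ 0 → 0 < ∑ i, ∑ j, A i j x * ξ j * ξ i) :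
    ∃ lam : ℝ, 0 < lam ∧ ∀ x ∈ K, ∀ ξ : Fin n → ℝ,
      lam * ∑ i, ξ i ^ 2 ≤ ∑ i, ∑ j, A i j x * ξ j * ξ i := by
  classical
  let S : Set (EE n) := Metric.sphere 0 1
  have hS : IsCompact S := isCompact_sphere _ _
  let F : EE n × EE n → ℝ := fun p => ∑ i, ∑ j, A i j p.1 * p.2 j * p.2 i
  have hF : ContinuousOn F (K ×ˢ S) := by
    apply continuousOn_finsetSum; intro i _
    apply continuousOn_finsetSum; intro j _
    have h1 : ContinuousOn (fun p : EE n × EE n => A i j p.1) (K ×ˢ S) :=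
      (hA i j).comp continuousOn_fst (fun p hp => hp.1)
    have h2 : ContinuousOn (fun p : EE n × EE n => p.2 j) (K ×ˢ S) := by fun_prop
    have h3 : ContinuousOn (fun p : EE n × EE n => p.2 i) (K ×ˢ S) := by fun_prop
    exact (h1.mul h2).mul h3
  have main : ∃ lam : ℝ, 0 < lam ∧ ∀ x ∈ K, ∀ ξ ∈ S, lam ≤ F (x, ξ) := by
    rcases (K ×ˢ S).eq_empty_or_nonempty with h0 | hne
    · refine ⟨1, one_pos, fun x hx ξ hξ => ?_⟩
      have : (x, ξ) ∈ K ×ˢ S := ⟨hx, hξ⟩
      rw [h0] at this; exact absurd this (notMem_empty _)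
    · obtain ⟨p, hp, hmin⟩ := (hK.prod hS).exists_isMinOn hne hF
      refine ⟨F p, ?_, fun x hx ξ hξ => hmin (show (x, ξ) ∈ K ×ˢ S from ⟨hx, hξ⟩)⟩
      apply hpos p.1 hp.1 (fun i => p.2 i)
      intro h
      have h1 : p.2 = 0 := by
        ext i; exact congrFun h i
      have h2 : ‖p.2‖ = 1 := by simpa [S] using hp.2
      rw [h1, norm_zero] at h2
      exact zero_ne_one h2
  obtain ⟨lam, hlam, hl⟩ := main
  refine ⟨lam, hlam, fun x hx ξ => ?_⟩
  let ζ : EE n := WithLp.toLp 2 ξ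
  have hζ : ∀ i, ζ i = ξ i := fun i => rfl
  have hn : ‖ζ‖ ^ 2 = ∑ i, ξ i ^ 2 := by
    rw [EuclideanSpace.real_norm_sq_eq]
  rcases eq_or_ne ζ 0 with h0 | h0
  · have h1 : ∀ i, ξ i = 0 := fun i => by rw [← hζ, h0]; rfl
    simp [h1]
  · have hpos' : 0 < ‖ζ‖ := norm_pos_iff.mpr h0
    have hz : ‖ζ‖⁻¹ • ζ ∈ S := by
      simp only [S, mem_sphere_iff_norm, sub_zero, norm_smul, norm_inv, norm_norm]
      exact inv_mul_cancel₀ hpos'.ne'
    have h1 := hl x hx _ hz
    have h2 : F (x, ‖ζ‖⁻¹ • ζ) = (‖ζ‖⁻¹) ^ 2 * ∑ i, ∑ j, A i j x * ξ j * ξ i := by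
      simp only [F, Finset.mul_sum]
      refine Finset.sum_congr rfl fun i _ => Finset.sum_congr rfl fun j _ => ?_
      simp only [PiLp.smul_apply, smul_eq_mul, hζ]
      ring
    rw [h2] at h1
    rw [← hn]
    have h3 := mul_le_mul_of_nonneg_right h1 (sq_nonneg ‖ζ‖)
    have h4 : (‖ζ‖⁻¹) ^ 2 * (∑ i, ∑ j, A i j x * ξ j * ξ i) * ‖ζ‖ ^ 2 =
        ∑ i, ∑ j, A i j x * ξ j * ξ i := by
      field_simp
    rw [h4] at h3
    exact h3

/-- a test function is bounded and Lipschitz -/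
theorem test_bdd_lip {φ : EE n → ℝ} (h : IsTest φ) :
    ∃ C : ℝ, 0 ≤ C ∧ (∀ x, |φ x| ≤ C) ∧ ∀ x y, |φ x - φ y| ≤ C * ‖x - y‖ := by
  obtain ⟨C1, hC1⟩ := h.cpt.exists_bound_of_continuous h.continuous
  obtain ⟨C2, hC2⟩ := (h.cpt.fderiv (𝕜 := ℝ)).exists_bound_of_continuous
    (h.smooth.continuous_fderiv (by simp))
  have h1 : 0 ≤ C1 := (norm_nonneg _).trans (hC1 0)
  have h2 : 0 ≤ C2 := (norm_nonneg _).trans (hC2 0)
  refine ⟨C1 + C2, by positivity, fun x => ?_, fun x y => ?_⟩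
  · have := hC1 x
    rw [Real.norm_eq_abs] at this
    linarith
  · have h3 := Convex.norm_image_sub_le_of_norm_fderiv_le (𝕜 := ℝ) (f := φ) (s := univ) (C := C2)
      (fun x _ => h.smooth.differentiable (by simp) x) (fun x _ => hC2 x) convex_univ
      (mem_univ y) (mem_univ x)
    rw [Real.norm_eq_abs] at h3
    refine h3.trans ?_
    apply mul_le_mul_of_nonneg_right (by linarith) (norm_nonneg _)

/-- global extension of local coefficients, unchanged on a compact set -/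
theorem exists_coef {Ω K : Set (EE n)} (hΩ : IsOpen Ω) (hK : IsCompact K) (hKΩ : K ⊆ Ω)
    {A : Fin n → Fin n → EE n → ℝ} (hA : CoefOn Ω A) :
    ∃ (B : Fin n → Fin n → EE n → ℝ) (lam M : ℝ), Coef n lam M B ∧ ∀ i j, ∀ x ∈ K,
      B i j x = A i j x := by
  classical
  obtain ⟨θ, hθ, hθΩ, -, hθ1, hθ01⟩ := exists_cutoff hK hΩ hKΩ
  obtain ⟨lam, hlam, hl⟩ := exists_lam (K := tsupport θ) hθ.cpt
    (fun i j => ((hA.smooth i j).continuousOn).mono hθΩ) (fun x hx => hA.pos x (hθΩ hx))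
  have hT : ∀ i j, IsTest (fun x => (A i j x - (if i = j then (1 : ℝ) else 0)) * θ x) := fun i j =>
    test_mul_on hθ hΩ hθΩ ((hA.smooth i j).sub contDiffOn_const)
  choose C hC0 hC1 hC2 using fun i j => test_bdd_lip (hT i j)
  set M0 : ℝ := ∑ i, ∑ j, C i j with hM0
  have hCM : ∀ i j, C i j ≤ M0 := by
    intro i j
    refine le_trans ?_ (Finset.single_le_sum (f := fun i => ∑ j, C i j)
      (fun i _ => Finset.sum_nonneg fun j _ => hC0 i j) (Finset.mem_univ i))
    exact Finset.single_le_sum (f := fun j => C i j) (fun j _ => hC0 i j) (Finset.mem_univ j)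
  have hid : ∀ i j x, θ x * A i j x + (1 - θ x) * (if i = j then (1 : ℝ) else 0)
      = (A i j x - (if i = j then (1 : ℝ) else 0)) * θ x + (if i = j then (1 : ℝ) else 0) := by
    intro i j x; ring
  refine ⟨fun i j x => θ x * A i j x + (1 - θ x) * (if i = j then 1 else 0), min lam 1, M0 + 1,
    ⟨by positivity, ?_, ?_, ?_, ?_⟩, ?_⟩
  · intro i j
    simp only [hid]
    exact (hT i j).continuous.add continuous_const
  · intro i j x
    rw [hid]
    refine (abs_add_le _ _).trans ?_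
    have h1 := (hC1 i j x).trans (hCM i j)
    have h2 : |(if i = j then (1 : ℝ) else 0)| ≤ 1 := by split_ifs <;> simp
    linarith
  · intro i j x y
    rw [hid, hid]
    have h1 := hC2 i j x y
    have h2 : (A i j x - (if i = j then (1 : ℝ) else 0)) * θ x + (if i = j then (1 : ℝ) else 0)
        - ((A i j y - (if i = j then (1 : ℝ) else 0)) * θ y + (if i = j then (1 : ℝ) else 0))
        = (A i j x - (if i = j then (1 : ℝ) else 0)) * θ x
          - (A i j y - (if i = j then (1 : ℝ) else 0)) * θ y := by ring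
    rw [h2]
    refine h1.trans (mul_le_mul_of_nonneg_right ?_ (norm_nonneg _))
    linarith [hCM i j]
  · intro x ξ
    have e1 : ∑ i, ∑ j, (θ x * A i j x + (1 - θ x) * (if i = j then 1 else 0)) * ξ j * ξ i =
        θ x * (∑ i, ∑ j, A i j x * ξ j * ξ i) + (1 - θ x) * ∑ i, ξ i ^ 2 := by
      rw [Finset.mul_sum, Finset.mul_sum, ← Finset.sum_add_distrib]
      refine Finset.sum_congr rfl fun i _ => ?_
      have : ∑ j, (θ x * A i j x + (1 - θ x) * (if i = j then 1 else 0)) * ξ j * ξ i =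
          ∑ j, (θ x * (A i j x * ξ j * ξ i)) +
          ∑ j, (if i = j then (1 - θ x) * ξ j * ξ i else 0) := by
        rw [← Finset.sum_add_distrib]
        refine Finset.sum_congr rfl fun j _ => ?_
        split_ifs <;> ring
      rw [this, Finset.sum_ite_eq, ← Finset.mul_sum]
      simp; ring
    rw [e1]
    have hs : 0 ≤ ∑ i, ξ i ^ 2 := Finset.sum_nonneg fun i _ => sq_nonneg _
    have h4 : min lam 1 * ∑ i, ξ i ^ 2 ≤ 1 * ∑ i, ξ i ^ 2 := by gcongr; exact min_le_right _ _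
    by_cases hx : x ∈ tsupport θ
    · have h2 := hl x hx ξ
      have h3 : min lam 1 * ∑ i, ξ i ^ 2 ≤ lam * ∑ i, ξ i ^ 2 := by gcongr; exact min_le_left _ _
      have h5 := (hθ01 x).1
      have h6 := (hθ01 x).2
      nlinarith [mul_le_mul_of_nonneg_left (h3.trans h2) h5,
        mul_le_mul_of_nonneg_left h4 (sub_nonneg.mpr h6)]
    · have : θ x = 0 := image_eq_zero_of_notMem_tsupport hx
      rw [this]
      linarith
  · intro i j x hx
    simp only [hθ1 x hx]; ring

end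

end Crest.Agent.R247.Frd657
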