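import Crest.Agent.R247.Frd2_657

/-!
R247, block (5), leaf (5-F): Friedrichs mollification, file 3: the localised weak equation,
local `H²` regularity of weak solutions, `H²` approximation of a localised weak solution by test
functions. (helper657)
-/

set_option autoImplicit false
open scoped ContDiff ENNReal Topology
open MeasureTheory Set Filter
open Crest.GeometryTopology.CoordMetric
open Crest.Agent.R202.Ell

namespace Crest.Agent.R247.Frd657

noncomputable section

variable {n : ℕ}

/-- gradient components of `χ u` -/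
def locG (χ u : EE n → ℝ) (G : Fin n → EE n → ℝ) (i : Fin n) (x : EE n) : ℝ :=
  pderiv i χ x * u x + χ x * G i x

/-- the flux of `χ` -/
def flx (A : Fin n → Fin n → EE n → ℝ) (χ : EE n → ℝ) (i : Fin n) (x : EE n) : ℝ :=
  ∑ j, A i j x * pderiv j χ x

/-- right hand side of the equation of `χ u` -/
def locF (A : Fin n → Fin n → EE n → ℝ) (χ u : EE n → ℝ) (G : Fin n → EE n → ℝ) (f : EE n → ℝ)
    (x : EE n) : ℝ :=
  χ x * f x + (∑ i, ∑ j, (A i j x * pderiv i χ x) * G j x)
    + ∑ i, (pderiv i (flx A χ i) x * u x + flx A χ i x * G i x)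

section
variable {Ω : Set (EE n)} {A : Fin n → Fin n → EE n → ℝ} {u f χ : EE n → ℝ}
  {G : Fin n → EE n → ℝ}

theorem test_Apd (hΩ : IsOpen Ω) (hA : CoefOn Ω A) (hχ : IsTest χ) (hs : tsupport χ ⊆ Ω)
    (i j l : Fin n) : IsTest (fun x => A i j x * pderiv l χ x) :=
  test_mul_on (hχ.pderiv l) hΩ ((tsupport_pderiv χ l).trans hs) (hA.smooth i j)

theorem supp_Apd (i j l : Fin n) :
    tsupport (fun x => A i j x * pderiv l χ x) ⊆ tsupport χ :=
  (tsupport_mul_on _ _).trans (tsupport_pderiv χ l)

theorem test_sum {ι : Type*} (s : Finset ι) {F : ι → EE n → ℝ} (h : ∀ i ∈ s, IsTest (F i)) :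
    IsTest (fun x => ∑ i ∈ s, F i x) := by
  classical
  induction s using Finset.induction_on with
  | empty =>
    simp only [Finset.sum_empty]
    exact ⟨contDiff_const, HasCompactSupport.zero⟩
  | insert a s ha ih =>
    simp only [Finset.sum_insert ha]
    exact (h a (by simp)).add (ih (fun i hi => h i (by simp [hi])))

theorem test_flx (hΩ : IsOpen Ω) (hA : CoefOn Ω A) (hχ : IsTest χ) (hs : tsupport χ ⊆ Ω)
    (i : Fin n) : IsTest (flx A χ i) :=
  test_sum _ fun j _ => test_Apd hΩ hA hχ hs i j j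

theorem supp_flx (i : Fin n) : tsupport (flx A χ i) ⊆ tsupport χ := by
  apply closure_minimal _ (isClosed_tsupport χ)
  intro x hx
  by_contra h
  apply hx
  unfold flx
  apply Finset.sum_eq_zero
  intro j _
  have : x ∉ tsupport (pderiv j χ) := fun h' => h (tsupport_pderiv χ j h')
  rw [image_eq_zero_of_notMem_tsupport this, mul_zero]

theorem pderiv_zero_off {x : EE n} (hx : x ∉ tsupport χ) (i : Fin n) : pderiv i χ x = 0 :=
  image_eq_zero_of_notMem_tsupport fun h => hx (tsupport_pderiv χ i h)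

theorem locG_zero_off {x : EE n} (hx : x ∉ tsupport χ) (i : Fin n) : locG χ u G i x = 0 := by
  rw [locG, pderiv_zero_off hx, image_eq_zero_of_notMem_tsupport hx]; ring

theorem locF_zero_off {x : EE n} (hx : x ∉ tsupport χ) : locF A χ u G f x = 0 := by
  have h1 : ∀ i, flx A χ i x = 0 := fun i =>
    image_eq_zero_of_notMem_tsupport fun h => hx (supp_flx i h)
  have h2 : ∀ i, pderiv i (flx A χ i) x = 0 := fun i =>
    image_eq_zero_of_notMem_tsupport fun h => hx (supp_flx i (tsupport_pderiv _ i h))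
  simp only [locF, image_eq_zero_of_notMem_tsupport hx, pderiv_zero_off hx, h1, h2]
  simp

theorem memLp_locU (hu : L2On Ω u) (hχ : IsTest χ) (hs : tsupport χ ⊆ Ω) :
    MemLp (fun x => χ x * u x) 2 := hu.mul_test hχ.continuous hχ.cpt hs

theorem memLp_locG (hu : L2On Ω u) (hG : ∀ i, L2On Ω (G i)) (hχ : IsTest χ)
    (hs : tsupport χ ⊆ Ω) (i : Fin n) : MemLp (locG χ u G i) 2 :=
  (hu.mul_test (hχ.pderiv i).continuous (hχ.pderiv i).cpt ((tsupport_pderiv χ i).trans hs)).add
    ((hG i).mul_test hχ.continuous hχ.cpt hs)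

theorem memLp_locF (hΩ : IsOpen Ω) (hA : CoefOn Ω A) (hu : L2On Ω u) (hG : ∀ i, L2On Ω (G i))
    (hf : L2On Ω f) (hχ : IsTest χ) (hs : tsupport χ ⊆ Ω) : MemLp (locF A χ u G f) 2 := by
  have h1 := hf.mul_test hχ.continuous hχ.cpt hs
  have h2 : MemLp (fun x => ∑ i, ∑ j, (A i j x * pderiv i χ x) * G j x) 2 (volume : Measure (EE n)) := by
    refine memLp_finsetSum _ fun i _ => memLp_finsetSum _ fun j _ => ?_
    exact (hG j).mul_test (test_Apd hΩ hA hχ hs i j i).continuous (test_Apd hΩ hA hχ hs i j i).cpt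
      ((supp_Apd i j i).trans hs)
  have h3 : MemLp (fun x => ∑ i, (pderiv i (flx A χ i) x * u x + flx A χ i x * G i x)) 2
      (volume : Measure (EE n)) := by
    refine memLp_finsetSum _ fun i _ => ?_
    have hT := test_flx hΩ hA hχ hs i
    exact (hu.mul_test (hT.pderiv i).continuous (hT.pderiv i).cpt
      ((tsupport_pderiv _ i).trans ((supp_flx i).trans hs))).add
      ((hG i).mul_test hT.continuous hT.cpt ((supp_flx i).trans hs))
  exact (h1.add h2).add h3

theorem wd_locG (hu : L2On Ω u) (hG : ∀ i, L2On Ω (G i)) (hW : ∀ i, WDOn Ω i u (G i))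
    (hχ : IsTest χ) (hs : tsupport χ ⊆ Ω) (i : Fin n) :
    WD i (fun x => χ x * u x) (locG χ u G i) := (hW i).mul_test hu (hG i) hχ hs

/-- **the localised weak equation** -/
theorem loc_eq (hΩ : IsOpen Ω) (hA : CoefOn Ω A) (hu : L2On Ω u) (hG : ∀ i, L2On Ω (G i))
    (hf : L2On Ω f) (hW : ∀ i, WDOn Ω i u (G i))
    (heq : ∀ φ, IsTest φ → tsupport φ ⊆ Ω →
      ∫ x, ∑ i, ∑ j, A i j x * G j x * pderiv i φ x = - ∫ x, f x * φ x)
    (hχ : IsTest χ) (hs : tsupport χ ⊆ Ω) {φ : EE n → ℝ} (hφ : IsTest φ) :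
    ∫ x, ∑ i, ∑ j, A i j x * locG χ u G j x * pderiv i φ x
      = - ∫ x, locF A χ u G f x * φ x := by
  have hT : IsTest (fun x => χ x * φ x) := hφ.mul_left hχ.smooth
  have hTs : tsupport (fun x => χ x * φ x) ⊆ Ω := (tsupport_mul_left' χ φ).trans hs
  have hd : ∀ i x, pderiv i (fun x => χ x * φ x) x = pderiv i χ x * φ x + χ x * pderiv i φ x :=
    fun i x => pderiv_mul i x (hχ.smooth.differentiable (by simp) x)
      (hφ.smooth.differentiable (by simp) x)
  have key := heq _ hT hTs
  -- integrability of the pieces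
  have a1 : ∀ i j, Integrable (fun x => A i j x * pderiv i χ x * G j x * φ x) := by
    intro i j
    have t := (test_Apd hΩ hA hχ hs i j i)
    have t2 : IsTest (fun x => (A i j x * pderiv i χ x) * φ x) := hφ.mul_left t.smooth
    have := (hG j).int_test t2.continuous t2.cpt
      ((tsupport_mul_left' _ φ).trans ((supp_Apd i j i).trans hs))
    refine this.congr (Eventually.of_forall fun x => ?_)
    simp only; ring
  have a2 : ∀ i j, Integrable (fun x => χ x * (A i j x * G j x * pderiv i φ x)) := by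
    intro i j
    have t : IsTest (fun x => A i j x * χ x) := test_mul_on hχ hΩ hs (hA.smooth i j)
    have t2 : IsTest (fun x => (A i j x * χ x) * pderiv i φ x) := (hφ.pderiv i).mul_left t.smooth
    have := (hG j).int_test t2.continuous t2.cpt
      ((tsupport_mul_left' _ _).trans ((tsupport_mul_on _ _).trans hs))
    refine this.congr (Eventually.of_forall fun x => ?_)
    simp only; ring
  have a3 : ∀ i, Integrable (fun x => flx A χ i x * u x * pderiv i φ x) := by
    intro i
    have t := test_flx hΩ hA hχ hs i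
    have t2 : IsTest (fun x => flx A χ i x * pderiv i φ x) := (hφ.pderiv i).mul_left t.smooth
    have := hu.int_test t2.continuous t2.cpt
      ((tsupport_mul_left' _ _).trans ((supp_flx i).trans hs))
    refine this.congr (Eventually.of_forall fun x => ?_)
    simp only; ring
  have a4 : ∀ i, Integrable (fun x => (pderiv i (flx A χ i) x * u x + flx A χ i x * G i x) * φ x) := by
    intro i
    have hT := test_flx hΩ hA hχ hs i
    have m1 : MemLp (fun x => pderiv i (flx A χ i) x * u x + flx A χ i x * G i x) 2 := (hu.mul_test (hT.pderiv i).continuous (hT.pderiv i).cpt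
      ((tsupport_pderiv _ i).trans ((supp_flx i).trans hs))).add
      ((hG i).mul_test hT.continuous hT.cpt ((supp_flx i).trans hs))
    exact integrable_mul m1 (hφ.memLp 2)
  have a5 : Integrable (fun x => χ x * f x * φ x) :=
    integrable_mul (hf.mul_test hχ.continuous hχ.cpt hs) (hφ.memLp 2)
  -- the key identity, split
  have k1 : ∫ x, ∑ i, ∑ j, A i j x * G j x * pderiv i (fun x => χ x * φ x) x
      = (∫ x, ∑ i, ∑ j, A i j x * pderiv i χ x * G j x * φ x)
        + ∫ x, ∑ i, ∑ j, χ x * (A i j x * G j x * pderiv i φ x) := by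
    rw [← integral_add (integrable_finsetSum _ fun i _ => integrable_finsetSum _ fun j _ => a1 i j)
      (integrable_finsetSum _ fun i _ => integrable_finsetSum _ fun j _ => a2 i j)]
    congr 1; ext x
    rw [← Finset.sum_add_distrib]
    refine Finset.sum_congr rfl fun i _ => ?_
    rw [← Finset.sum_add_distrib]
    refine Finset.sum_congr rfl fun j _ => ?_
    rw [hd]; ring
  have k2 : ∫ x, ∑ i, ∑ j, A i j x * locG χ u G j x * pderiv i φ x
      = (∫ x, ∑ i, flx A χ i x * u x * pderiv i φ x)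
        + ∫ x, ∑ i, ∑ j, χ x * (A i j x * G j x * pderiv i φ x) := by
    rw [← integral_add (integrable_finsetSum _ fun i _ => a3 i)
      (integrable_finsetSum _ fun i _ => integrable_finsetSum _ fun j _ => a2 i j)]
    congr 1; ext x
    rw [← Finset.sum_add_distrib]
    refine Finset.sum_congr rfl fun i _ => ?_
    rw [flx, Finset.sum_mul, Finset.sum_mul, ← Finset.sum_add_distrib]
    refine Finset.sum_congr rfl fun j _ => ?_
    rw [locG]; ring
  have k3 : ∫ x, ∑ i, flx A χ i x * u x * pderiv i φ x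
      = - ∫ x, ∑ i, (pderiv i (flx A χ i) x * u x + flx A χ i x * G i x) * φ x := by
    rw [integral_finsetSum _ fun i _ => a3 i, integral_finsetSum _ fun i _ => a4 i,
      ← Finset.sum_neg_distrib]
    refine Finset.sum_congr rfl fun i _ => ?_
    exact (hW i).parts hu (hG i) (test_flx hΩ hA hχ hs i) ((supp_flx i).trans hs) hφ
  have k4 : ∫ x, locF A χ u G f x * φ x = (∫ x, χ x * f x * φ x)
      + (∫ x, ∑ i, ∑ j, A i j x * pderiv i χ x * G j x * φ x)
      + ∫ x, ∑ i, (pderiv i (flx A χ i) x * u x + flx A χ i x * G i x) * φ x := by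
    have s1 : Integrable (fun x => ∑ i, ∑ j, A i j x * pderiv i χ x * G j x * φ x) :=
      integrable_finsetSum _ fun i _ => integrable_finsetSum _ fun j _ => a1 i j
    have s2 : Integrable (fun x => ∑ i, (pderiv i (flx A χ i) x * u x + flx A χ i x * G i x) * φ x) :=
      integrable_finsetSum _ fun i _ => a4 i
    have s3 : Integrable (fun x => χ x * f x * φ x
        + ∑ i, ∑ j, A i j x * pderiv i χ x * G j x * φ x) := a5.add s1
    rw [← integral_add a5 s1, ← integral_add s3 s2]
    congr 1; ext x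
    simp only [locF, add_mul, Finset.sum_mul]
  have k5 : ∫ x, f x * (χ x * φ x) = ∫ x, χ x * f x * φ x := by
    congr 1; ext x; ring
  rw [k1, k5] at key
  rw [k2, k3, k4]
  linarith

/-- a global weak derivative of a function vanishing off a closed set vanishes a.e. off it -/
theorem wd_zero_off {S : Set (EE n)} (hS : IsClosed S) {i : Fin n} {v g : EE n → ℝ}
    (hg : LocallyIntegrable g) (h : WD i v g) (hv : ∀ x, x ∉ S → v x = 0) :
    ∀ᵐ x, x ∉ S → g x = 0 := by
  refine IsOpen.ae_eq_zero_of_integral_contDiff_smul_eq_zero hS.isOpen_compl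
    (hg.locallyIntegrableOn _) ?_
  intro φ hφ hφc hφs
  have hT : IsTest φ := ⟨hφ, hφc⟩
  have h1 := h φ hT
  have h2 : ∀ x, v x * pderiv i φ x = 0 := by
    intro x
    by_cases hx : x ∈ S
    · have : x ∉ tsupport φ := fun h' => hφs h' hx
      rw [pderiv_zero_off this, mul_zero]
    · rw [hv x hx, zero_mul]
  simp only [h2, integral_zero] at h1
  have h3 : ∫ x, φ x • g x = ∫ x, g x * φ x := by
    congr 1; ext x; rw [smul_eq_mul, mul_comm]
  rw [h3]; linarith

/-- **Local `H²` regularity**: second weak derivatives of `χ u`, vanishing off the support of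
`χ`, symmetric. -/
theorem exists_h2 (hΩ : IsOpen Ω) (hA : CoefOn Ω A) (hu : L2On Ω u) (hG : ∀ i, L2On Ω (G i))
    (hf : L2On Ω f) (hW : ∀ i, WDOn Ω i u (G i))
    (heq : ∀ φ, IsTest φ → tsupport φ ⊆ Ω →
      ∫ x, ∑ i, ∑ j, A i j x * G j x * pderiv i φ x = - ∫ x, f x * φ x)
    (hχ : IsTest χ) (hs : tsupport χ ⊆ Ω) :
    ∃ H : Fin n → Fin n → EE n → ℝ, (∀ i j, MemLp (H i j) 2) ∧
      (∀ i j x, x ∉ tsupport χ → H i j x = 0) ∧
      (∀ i j, WD j (locG χ u G i) (H i j)) ∧ ∀ i j, H i j =ᵐ[volume] H j i := by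
  classical
  obtain ⟨B, lam, M, hB, hBA⟩ := exists_coef hΩ (K := tsupport χ) hχ.cpt hs hA
  have mG : ∀ i, MemLp (locG χ u G i) 2 := memLp_locG hu hG hχ hs
  have mF : MemLp (locF A χ u G f) 2 := memLp_locF hΩ hA hu hG hf hχ hs
  have mU := memLp_locU hu hχ hs
  set N : ℝ := (∑ i, nm (locG χ u G i)) + nm (locF A χ u G f) with hN
  have hN1 : ∀ i, nm (locG χ u G i) ≤ N := fun i => by
    have h1 := Finset.single_le_sum (f := fun i => nm (locG χ u G i)) (fun i _ => nm_nonneg _)
      (Finset.mem_univ i)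
    have h2 := nm_nonneg (locF A χ u G f)
    linarith
  have hN2 : nm (locF A χ u G f) ≤ N := by
    have h1 : 0 ≤ ∑ i, nm (locG χ u G i) := Finset.sum_nonneg fun i _ => nm_nonneg _
    linarith
  have hN0 : 0 ≤ N := (nm_nonneg _).trans hN2
  have key := fun i j => h2_est hB hN0 (v := fun x => χ x * u x) (f := locF A χ u G f)
    (G := locG χ u G) (MemLp.locInt mU) (fun i => N2.of_nm (mG i) (hN1 i)) (N2.of_nm mF hN2)
    (wd_locG hu hG hW hχ hs) (fun φ hφ => by
      rw [← loc_eq hΩ hA hu hG hf hW heq hχ hs hφ]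
      congr 1; ext x
      refine Finset.sum_congr rfl fun i _ => Finset.sum_congr rfl fun j _ => ?_
      by_cases hx : x ∈ tsupport χ
      · rw [hBA i j x hx]
      · rw [locG_zero_off hx]; ring) i j
  choose H0 hH1 hH2 using key
  have hz : ∀ i j, (tsupport χ).indicator (H0 i j) =ᵐ[volume] H0 i j := by
    intro i j
    have := wd_zero_off (isClosed_tsupport χ) (MemLp.locInt (hH1 i j).1) (hH2 i j)
      (fun x hx => locG_zero_off hx i)
    filter_upwards [this] with x hx
    by_cases hxs : x ∈ tsupport χ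
    · rw [indicator_of_mem hxs]
    · rw [indicator_of_notMem hxs, hx hxs]
  have hm : ∀ i j, MemLp ((tsupport χ).indicator (H0 i j)) 2 := fun i j =>
    (memLp_congr_ae (hz i j)).2 (hH1 i j).1
  have hw : ∀ i j, WD j (locG χ u G i) ((tsupport χ).indicator (H0 i j)) := fun i j =>
    (hH2 i j).congr (ae_eq_refl _) (hz i j)
  refine ⟨fun i j => (tsupport χ).indicator (H0 i j), hm, ?_, hw, ?_⟩
  · intro i j x hx
    exact indicator_of_notMem hx _
  · intro i j
    have h1 := WD.symm (wd_locG hu hG hW hχ hs i) (wd_locG hu hG hW hχ hs j) (hw j i)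
    exact (hw i j).unique (MemLp.locInt (hm i j)) (MemLp.locInt (hm j i)) h1

end

end

end Crest.Agent.R247.Frd657
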