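import Crest.Agent.R247.Frd3_657

/-!
R247, block (5), leaf (5-F): Friedrichs mollification, file 4: `H²` approximation of a localised
weak solution by test functions, convergence in the graph norm of `w⁻¹ div (A ∇ ·)` and of every
second order operator with continuous coefficients. (helper657)
-/

set_option autoImplicit false
open scoped ContDiff ENNReal Topology
open MeasureTheory Set Filter
open Crest.GeometryTopology.CoordMetric
open Crest.Agent.R202.Ell

namespace Crest.Agent.R247.Frd657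

noncomputable section

variable {n : ℕ}

/-- `v k → U` in `H²`, all `v k` test functions with support in the compact set `K`; `UG` the
weak gradient of `U`, `H` the second weak derivatives. -/
structure H2App (K : Set (EE n)) (U : EE n → ℝ) (UG : Fin n → EE n → ℝ)
    (H : Fin n → Fin n → EE n → ℝ) (v : ℕ → EE n → ℝ) : Prop where
  cpt : IsCompact K
  test : ∀ k, IsTest (v k)
  supp : ∀ k, tsupport (v k) ⊆ K
  off0 : ∀ x, x ∉ K → U x = 0
  off1 : ∀ i x, x ∉ K → UG i x = 0
  off2 : ∀ i j x, x ∉ K → H i j x = 0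
  m0 : MemLp U 2
  m1 : ∀ i, MemLp (UG i) 2
  m2 : ∀ i j, MemLp (H i j) 2
  h0 : Tendsto (fun k => eLpNorm (fun x => v k x - U x) 2 volume) atTop (𝓝 0)
  h1 : ∀ i, Tendsto (fun k => eLpNorm (fun x => pderiv i (v k) x - UG i x) 2 volume) atTop (𝓝 0)
  h2 : ∀ i j, Tendsto (fun k => eLpNorm (fun x => pderiv j (pderiv i (v k)) x - H i j x) 2 volume)
    atTop (𝓝 0)

theorem tendsto_eLpNorm_of_nm {f : ℕ → EE n → ℝ} (hm : ∀ k, MemLp (f k) 2)
    (h : Tendsto (fun k => nm (f k)) atTop (𝓝 0)) :
    Tendsto (fun k => eLpNorm (f k) 2 volume) atTop (𝓝 0) := by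
  have h1 : ∀ k, eLpNorm (f k) 2 volume = ENNReal.ofReal (nm (f k)) := fun k =>
    (ENNReal.ofReal_toReal (hm k).2.ne).symm
  simp only [h1]
  have := ENNReal.tendsto_ofReal h
  simpa using this

theorem tendsto_eLpNorm_cv {g : EE n → ℝ} (hg : MemLp g 2) (k0 : ℕ) :
    Tendsto (fun k => eLpNorm (fun x => cv (rho n (k + k0)) g x - g x) 2 volume) atTop (𝓝 0) := by
  refine tendsto_eLpNorm_of_nm (fun k => (memLp_cv (rho_test _) hg).sub hg) ?_
  exact (tendsto_nm_cv hg).comp (tendsto_add_atTop_nat k0)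

theorem norm_eLpNorm_mul_le {a g : EE n → ℝ} {C : ℝ} {K : Set (EE n)}
    (ha : ∀ x ∈ K, |a x| ≤ C) (hg : ∀ x, x ∉ K → g x = 0) :
    eLpNorm (fun x => a x * g x) 2 volume ≤ ENNReal.ofReal C * eLpNorm g 2 volume := by
  refine eLpNorm_le_mul_eLpNorm_of_ae_le_mul (Eventually.of_forall fun x => ?_) 2
  by_cases hx : x ∈ K
  · rw [norm_mul]
    exact mul_le_mul_of_nonneg_right (by simpa [Real.norm_eq_abs] using ha x hx) (norm_nonneg _)
  · simp [hg x hx]

/-- multiplication by a locally bounded function preserves convergence -/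
theorem tendsto_mul_loc {K Ω : Set (EE n)} (hK : IsCompact K) (hKΩ : K ⊆ Ω) {a : EE n → ℝ}
    (ha : ContinuousOn a Ω) {f : ℕ → EE n → ℝ} (hf : ∀ k x, x ∉ K → f k x = 0)
    (h : Tendsto (fun k => eLpNorm (f k) 2 volume) atTop (𝓝 0)) :
    Tendsto (fun k => eLpNorm (fun x => a x * f k x) 2 volume) atTop (𝓝 0) := by
  obtain ⟨C, hC⟩ := hK.exists_bound_of_continuousOn (ha.mono hKΩ)
  have h1 : Tendsto (fun k => ENNReal.ofReal C * eLpNorm (f k) 2 volume) atTop (𝓝 0) := by
    have := ENNReal.Tendsto.const_mul h (Or.inr (ENNReal.ofReal_ne_top (r := C)))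
    simpa using this
  exact tendsto_of_tendsto_of_tendsto_of_le_of_le tendsto_const_nhds h1 (fun _ => bot_le)
    (fun k => norm_eLpNorm_mul_le (fun x hx => by simpa [Real.norm_eq_abs] using hC x hx) (hf k))

theorem tendsto_eLpNorm_sum {ι : Type*} (s : Finset ι) {f : ι → ℕ → EE n → ℝ}
    (hm : ∀ i ∈ s, ∀ k, AEStronglyMeasurable (f i k))
    (h : ∀ i ∈ s, Tendsto (fun k => eLpNorm (f i k) 2 volume) atTop (𝓝 0)) :
    Tendsto (fun k => eLpNorm (fun x => ∑ i ∈ s, f i k x) 2 volume) atTop (𝓝 0) := by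
  have h1 : Tendsto (fun k => ∑ i ∈ s, eLpNorm (f i k) 2 volume) atTop (𝓝 0) := by
    have := tendsto_finsetSum s h
    simpa using this
  refine tendsto_of_tendsto_of_tendsto_of_le_of_le tendsto_const_nhds h1 (fun _ => bot_le)
    (fun k => ?_)
  have h2 := eLpNorm_sum_le (p := 2) (μ := (volume : Measure (EE n))) (s := s)
    (f := fun i => f i k) (fun i hi => hm i hi k) (by norm_num)
  refine le_trans (le_of_eq ?_) h2
  congr 1
  ext x
  rw [Finset.sum_apply]

section
variable {K Ω : Set (EE n)} {U : EE n → ℝ} {UG : Fin n → EE n → ℝ}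
    {H : Fin n → Fin n → EE n → ℝ} {v : ℕ → EE n → ℝ}

theorem H2App.v_off (h : H2App K U UG H v) {k : ℕ} {x : EE n} (hx : x ∉ K) : v k x = 0 :=
  image_eq_zero_of_notMem_tsupport fun h' => hx (h.supp k h')

theorem H2App.dv_off (h : H2App K U UG H v) {k : ℕ} {x : EE n} (hx : x ∉ K) (i : Fin n) :
    pderiv i (v k) x = 0 :=
  pderiv_zero_off (fun h' => hx (h.supp k h')) i

theorem H2App.ddv_off (h : H2App K U UG H v) {k : ℕ} {x : EE n} (hx : x ∉ K) (i j : Fin n) :
    pderiv j (pderiv i (v k)) x = 0 :=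
  pderiv_zero_off (fun h' => hx (h.supp k (tsupport_pderiv _ i h'))) j

/-- **every second order operator with continuous coefficients converges in `L²`** -/
theorem H2App.op2 (h : H2App K U UG H v) (hKΩ : K ⊆ Ω) {a : Fin n → Fin n → EE n → ℝ}
    {b : Fin n → EE n → ℝ} {c : EE n → ℝ} (ha : ∀ i j, ContinuousOn (a i j) Ω)
    (hb : ∀ i, ContinuousOn (b i) Ω) (hc : ContinuousOn c Ω) :
    Tendsto (fun k => eLpNorm (fun x =>
      ((∑ i, ∑ j, a i j x * pderiv j (pderiv i (v k)) x) + (∑ i, b i x * pderiv i (v k) x)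
        + c x * v k x)
      - ((∑ i, ∑ j, a i j x * H i j x) + (∑ i, b i x * UG i x) + c x * U x)) 2 volume)
      atTop (𝓝 0) := by
  have mzero : ∀ {c g : EE n → ℝ}, ContinuousOn c Ω → AEStronglyMeasurable g →
      (∀ x, x ∉ K → g x = 0) → AEStronglyMeasurable (fun x => c x * g x) := by
    intro c g hc hg h0
    have e : (fun x => c x * g x) = K.indicator (fun x => c x * g x) := by
      ext x
      by_cases hx : x ∈ K
      · rw [indicator_of_mem hx]
      · rw [indicator_of_notMem hx, h0 x hx, mul_zero]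
    rw [e, aestronglyMeasurable_indicator_iff h.cpt.measurableSet]
    exact ((hc.mono hKΩ).aestronglyMeasurable h.cpt.measurableSet).mul hg.restrict
  have md0 : ∀ k, AEStronglyMeasurable (fun x => v k x - U x) := fun k =>
    (h.test k).continuous.aestronglyMeasurable.sub h.m0.1
  have md1 : ∀ i k, AEStronglyMeasurable (fun x => pderiv i (v k) x - UG i x) := fun i k =>
    ((h.test k).pderiv i).continuous.aestronglyMeasurable.sub (h.m1 i).1
  have md2 : ∀ i j k, AEStronglyMeasurable (fun x => pderiv j (pderiv i (v k)) x - H i j x) :=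
    fun i j k => (((h.test k).pderiv i).pderiv j).continuous.aestronglyMeasurable.sub (h.m2 i j).1
  have o0 : ∀ k x, x ∉ K → v k x - U x = 0 := fun k x hx => by rw [h.v_off hx, h.off0 x hx, sub_zero]
  have o1 : ∀ i k x, x ∉ K → pderiv i (v k) x - UG i x = 0 := fun i k x hx => by
    rw [h.dv_off hx, h.off1 i x hx, sub_zero]
  have o2 : ∀ i j k x, x ∉ K → pderiv j (pderiv i (v k)) x - H i j x = 0 := fun i j k x hx => by
    rw [h.ddv_off hx, h.off2 i j x hx, sub_zero]
  have t0 := tendsto_mul_loc h.cpt hKΩ hc o0 h.h0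
  have t1 := tendsto_eLpNorm_sum Finset.univ (f := fun i k x => b i x * (pderiv i (v k) x - UG i x))
    (fun i _ k => mzero (hb i) (md1 i k) (o1 i k))
    (fun i _ => tendsto_mul_loc h.cpt hKΩ (hb i) (o1 i) (h.h1 i))
  have t2 := tendsto_eLpNorm_sum Finset.univ
    (f := fun i k x => ∑ j, a i j x * (pderiv j (pderiv i (v k)) x - H i j x))
    (fun i _ k => Finset.aestronglyMeasurable_fun_sum _ fun j _ => mzero (ha i j) (md2 i j k) (o2 i j k))
    (fun i _ => tendsto_eLpNorm_sum Finset.univ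
      (f := fun j k x => a i j x * (pderiv j (pderiv i (v k)) x - H i j x))
      (fun j _ k => mzero (ha i j) (md2 i j k) (o2 i j k))
      (fun j _ => tendsto_mul_loc h.cpt hKΩ (ha i j) (o2 i j) (h.h2 i j)))
  have t3 := (t2.add t1).add t0
  simp only [add_zero] at t3
  refine tendsto_of_tendsto_of_tendsto_of_le_of_le tendsto_const_nhds t3 (fun _ => bot_le)
    (fun k => ?_)
  have n2 : AEStronglyMeasurable
      (fun x => ∑ i, ∑ j, a i j x * (pderiv j (pderiv i (v k)) x - H i j x)) :=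
    Finset.aestronglyMeasurable_fun_sum _ fun i _ =>
      Finset.aestronglyMeasurable_fun_sum _ fun j _ => mzero (ha i j) (md2 i j k) (o2 i j k)
  have n1 : AEStronglyMeasurable (fun x => ∑ i, b i x * (pderiv i (v k) x - UG i x)) :=
    Finset.aestronglyMeasurable_fun_sum _ fun i _ => mzero (hb i) (md1 i k) (o1 i k)
  have n0 : AEStronglyMeasurable (fun x => c x * (v k x - U x)) := mzero hc (md0 k) (o0 k)
  have e : (fun x => ((∑ i, ∑ j, a i j x * pderiv j (pderiv i (v k)) x)
        + (∑ i, b i x * pderiv i (v k) x) + c x * v k x)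
      - ((∑ i, ∑ j, a i j x * H i j x) + (∑ i, b i x * UG i x) + c x * U x))
      = ((fun x => ∑ i, ∑ j, a i j x * (pderiv j (pderiv i (v k)) x - H i j x))
        + (fun x => ∑ i, b i x * (pderiv i (v k) x - UG i x)))
        + fun x => c x * (v k x - U x) := by
    ext x
    simp only [Pi.add_apply, mul_sub, Finset.sum_sub_distrib]
    ring
  rw [e]
  exact (eLpNorm_add_le (n2.add n1) n0 (by norm_num)).trans
    (add_le_add (eLpNorm_add_le n2 n1 (by norm_num)) le_rfl)

end

/-- `w⁻¹ div (A ∇ v)` -/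
def lapW (A : Fin n → Fin n → EE n → ℝ) (w : EE n → ℝ) (v : EE n → ℝ) (x : EE n) : ℝ :=
  (w x)⁻¹ * ∑ i, pderiv i (fun y => ∑ j, A i j y * pderiv j v y) x

theorem lapW_off (A : Fin n → Fin n → EE n → ℝ) (w : EE n → ℝ) {v : EE n → ℝ} {x : EE n}
    (hx : x ∉ tsupport v) : lapW A w v x = 0 := by
  have h1 : ∀ i, pderiv i (fun y => ∑ j, A i j y * pderiv j v y) x = 0 := by
    intro i
    have h2 : (fun y => ∑ j, A i j y * pderiv j v y) =ᶠ[𝓝 x] fun _ => 0 := by
      filter_upwards [(isClosed_tsupport v).isOpen_compl.mem_nhds hx] with y hy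
      apply Finset.sum_eq_zero
      intro j _
      rw [pderiv_zero_off hy, mul_zero]
    unfold Crest.GeometryTopology.CoordMetric.pderiv at h2 ⊢
    rw [h2.fderiv_eq]
    simp
  rw [lapW]
  simp [h1]

theorem lapW_expand {Ω : Set (EE n)} (hΩ : IsOpen Ω) {A : Fin n → Fin n → EE n → ℝ}
    (hA : CoefOn Ω A) (w : EE n → ℝ) {v : EE n → ℝ} (hv : IsTest v) {x : EE n} (hx : x ∈ Ω) :
    lapW A w v x = (∑ i, ∑ j, ((w x)⁻¹ * A j i x) * pderiv j (pderiv i v) x)
      + ∑ i, ((w x)⁻¹ * ∑ j, pderiv j (A j i) x) * pderiv i v x := by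
  have hd : ∀ i j, DifferentiableAt ℝ (A i j) x := fun i j =>
    ((hA.smooth i j).contDiffAt (hΩ.mem_nhds hx)).differentiableAt (by simp)
  have hv' : ∀ j, DifferentiableAt ℝ (pderiv j v) x := fun j =>
    (hv.pderiv j).smooth.differentiable (by simp) x
  have h1 : ∀ i, pderiv i (fun y => ∑ j, A i j y * pderiv j v y) x
      = ∑ j, (pderiv i (A i j) x * pderiv j v x + A i j x * pderiv i (pderiv j v) x) := by
    intro i
    rw [pderiv_sum (f := fun j y => A i j y * pderiv j v y) Finset.univ i x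
      (fun j _ => (hd i j).fun_mul (hv' j))]
    refine Finset.sum_congr rfl fun j _ => ?_
    rw [pderiv_mul i x (hd i j) (hv' j)]
  rw [lapW]
  simp only [h1, Finset.sum_add_distrib, mul_add]
  rw [add_comm]
  congr 1
  · rw [Finset.sum_comm, Finset.mul_sum]
    refine Finset.sum_congr rfl fun i _ => ?_
    rw [Finset.mul_sum]
    refine Finset.sum_congr rfl fun j _ => ?_
    ring
  · rw [Finset.sum_comm, Finset.mul_sum]
    refine Finset.sum_congr rfl fun i _ => ?_
    rw [Finset.mul_sum, Finset.mul_sum, Finset.sum_mul]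
    refine Finset.sum_congr rfl fun j _ => ?_
    ring

section
variable {Ω : Set (EE n)} {A : Fin n → Fin n → EE n → ℝ} {u f χ : EE n → ℝ}
  {G : Fin n → EE n → ℝ}

/-- **Friedrichs' theorem, `H²` form.** -/
theorem exists_approx (hΩ : IsOpen Ω) (hA : CoefOn Ω A) (hu : L2On Ω u) (hG : ∀ i, L2On Ω (G i))
    (hf : L2On Ω f) (hW : ∀ i, WDOn Ω i u (G i))
    (heq : ∀ φ, IsTest φ → tsupport φ ⊆ Ω →
      ∫ x, ∑ i, ∑ j, A i j x * G j x * pderiv i φ x = - ∫ x, f x * φ x)
    (hχ : IsTest χ) (hs : tsupport χ ⊆ Ω) :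
    ∃ (K : Set (EE n)) (H : Fin n → Fin n → EE n → ℝ) (v : ℕ → EE n → ℝ), K ⊆ Ω ∧
      tsupport χ ⊆ K ∧
      H2App K (fun x => χ x * u x) (locG χ u G) H v ∧
      (∀ i j, WD j (locG χ u G i) (H i j)) ∧ (∀ i j, H i j =ᵐ[volume] H j i) ∧
      ∃ k0 : ℕ, ∀ k, v k = cv (rho n (k + k0)) (fun x => χ x * u x) := by
  obtain ⟨H, hH1, hH2, hH3, hH4⟩ := exists_h2 hΩ hA hu hG hf hW heq hχ hs
  have hc : IsCompact (tsupport χ) := hχ.cpt
  obtain ⟨δ, hδ, hδΩ⟩ := hc.exists_cthickening_subset_open hΩ hs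
  obtain ⟨k0, hk0⟩ := exists_nat_one_div_lt hδ
  have mU := memLp_locU hu hχ hs
  have mG : ∀ i, MemLp (locG χ u G i) 2 := memLp_locG hu hG hχ hs
  have hW' := wd_locG hu hG hW hχ hs
  have hd1 : ∀ k i, pderiv i (cv (rho n (k + k0)) (fun x => χ x * u x))
      = cv (rho n (k + k0)) (locG χ u G i) := by
    intro k i; ext x
    exact pderiv_cv_wd (rho_test _) (MemLp.locInt mU) (hW' i) x
  have hd2 : ∀ k i j, pderiv j (cv (rho n (k + k0)) (locG χ u G i))
      = cv (rho n (k + k0)) (H i j) := by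
    intro k i j; ext x
    exact pderiv_cv_wd (rho_test _) (MemLp.locInt (mG i)) (hH3 i j) x
  have hoff : ∀ x, x ∉ tsupport χ → χ x * u x = 0 := fun x hx => by
    rw [image_eq_zero_of_notMem_tsupport hx, zero_mul]
  have hsub : tsupport χ ⊆ Metric.cthickening δ (tsupport χ) := Metric.self_subset_cthickening _
  have hcK : IsCompact (Metric.cthickening δ (tsupport χ)) := hc.cthickening
  have hsupp : ∀ k, tsupport (cv (rho n (k + k0)) (fun x => χ x * u x))
      ⊆ Metric.cthickening δ (tsupport χ) := by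
    intro k
    refine (tsupport_cv_subset hoff (k + k0)).trans (Metric.cthickening_mono ?_ _)
    have h1 : (1 : ℝ) / (((k + k0 : ℕ) : ℝ) + 1) ≤ 1 / ((k0 : ℝ) + 1) := by
      apply one_div_le_one_div_of_le (by positivity)
      push_cast
      have : (0 : ℝ) ≤ k := Nat.cast_nonneg k
      linarith
    exact h1.trans hk0.le
  refine ⟨Metric.cthickening δ (tsupport χ), H, fun k => cv (rho n (k + k0)) (fun x => χ x * u x),
    hδΩ, hsub, ?_, hH3, hH4, ?_⟩
  · refine ⟨hcK, fun k => ⟨cv_smooth (rho_test _) (MemLp.locInt mU),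
        hcK.of_isClosed_subset (isClosed_tsupport _) (hsupp k)⟩, hsupp,
      fun x hx => hoff x fun h => hx (hsub h),
      fun i x hx => locG_zero_off (fun h => hx (hsub h)) i,
      fun i j x hx => hH2 i j x fun h => hx (hsub h), mU, mG, hH1,
      tendsto_eLpNorm_cv mU k0, ?_, ?_⟩
    · intro i
      simp only [hd1]
      exact tendsto_eLpNorm_cv (mG i) k0
    · intro i j
      simp only [hd1, hd2]
      exact tendsto_eLpNorm_cv (hH1 i j) k0
  · exact ⟨k0, fun k => rfl⟩

/-- **Friedrichs' theorem, graph norm form**: `v k → χ u` in `L²`, gradients converge in `L²`,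
`w⁻¹ div (A ∇ v k) → w⁻¹ locF` in `L²`. -/
theorem exists_approx_graph (hΩ : IsOpen Ω) (hA : CoefOn Ω A) {w : EE n → ℝ}
    (hw : ContinuousOn w Ω) (hw0 : ∀ x ∈ Ω, w x ≠ 0) (hu : L2On Ω u) (hG : ∀ i, L2On Ω (G i))
    (hf : L2On Ω f) (hW : ∀ i, WDOn Ω i u (G i))
    (heq : ∀ φ, IsTest φ → tsupport φ ⊆ Ω →
      ∫ x, ∑ i, ∑ j, A i j x * G j x * pderiv i φ x = - ∫ x, f x * φ x)
    (hχ : IsTest χ) (hs : tsupport χ ⊆ Ω) :
    ∃ (K : Set (EE n)) (H : Fin n → Fin n → EE n → ℝ) (v : ℕ → EE n → ℝ), K ⊆ Ω ∧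
      tsupport χ ⊆ K ∧
      H2App K (fun x => χ x * u x) (locG χ u G) H v ∧
      (∀ i j, WD j (locG χ u G i) (H i j)) ∧ (∀ i j, H i j =ᵐ[volume] H j i) ∧
      (∃ k0 : ℕ, ∀ k, v k = cv (rho n (k + k0)) (fun x => χ x * u x)) ∧
      Tendsto (fun k => eLpNorm (fun x => lapW A w (v k) x
        - (w x)⁻¹ * locF A χ u G f x) 2 volume) atTop (𝓝 0) := by
  obtain ⟨K, H, v, hKΩ, hχK, hv, hH3, hH4, hS⟩ := exists_approx hΩ hA hu hG hf hW heq hχ hs
  refine ⟨K, H, v, hKΩ, hχK, hv, hH3, hH4, hS, ?_⟩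
  have hwi : ContinuousOn (fun x => (w x)⁻¹) Ω := hw.inv₀ hw0
  have hdA : ∀ i j l, ContinuousOn (pderiv l (A i j)) Ω := fun i j l => by
    have h1 := (hA.smooth i j).continuousOn_fderiv_of_isOpen hΩ (by simp)
    exact h1.clm_apply continuousOn_const
  have key := hv.op2 hKΩ (a := fun i j x => (w x)⁻¹ * A j i x)
    (b := fun i x => (w x)⁻¹ * ∑ j, pderiv j (A j i) x) (c := fun _ => 0)
    (fun i j => hwi.mul (hA.smooth j i).continuousOn)
    (fun i => hwi.mul (continuousOn_finsetSum _ fun j _ => hdA j i j)) continuousOn_const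
  -- identification of the limit
  have hlim : ∀ᵐ x, x ∈ Ω → (∑ i, ∑ j, A j i x * H i j x)
      + (∑ i, (∑ j, pderiv j (A j i) x) * locG χ u G i x) = locF A χ u G f x := by
    obtain ⟨θ, hθ, hθΩ, hθ1', hθ1, -⟩ := exists_cutoff (K := tsupport χ) hχ.cpt hΩ hs
    have mG : ∀ i, MemLp (locG χ u G i) 2 := memLp_locG hu hG hχ hs
    have mF : MemLp (locF A χ u G f) 2 := memLp_locF hΩ hA hu hG hf hχ hs
    -- products A_ij * θ are test functions
    have tA : ∀ i j, IsTest (fun x => A i j x * θ x) := fun i j => test_mul_on hθ hΩ hθΩ (hA.smooth i j)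
    -- weak derivative of the flux
    have hwd : ∀ i j, WD i (fun x => (A i j x * θ x) * locG χ u G j x)
        (fun x => pderiv i (fun x => A i j x * θ x) x * locG χ u G j x
          + (A i j x * θ x) * H j i x) := fun i j =>
      WD.mul (MemLp.locInt (mG j)) (MemLp.locInt (hv.m2 j i)) (tA i j).smooth (hH3 j i)
    -- on the support of χ the cut-off disappears
    have e1 : ∀ i j x, (A i j x * θ x) * locG χ u G j x = A i j x * locG χ u G j x := by
      intro i j x
      by_cases hx : x ∈ tsupport χ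
      · rw [hθ1 x hx, mul_one]
      · rw [locG_zero_off hx]; ring
    have e2 : ∀ i j, ∀ᵐ x, pderiv i (fun x => A i j x * θ x) x * locG χ u G j x
          + (A i j x * θ x) * H j i x = pderiv i (A i j) x * locG χ u G j x + A i j x * H j i x := by
      intro i j
      have hz := wd_zero_off (isClosed_tsupport χ) (MemLp.locInt (hv.m2 j i)) (hH3 j i)
        (fun x hx => locG_zero_off hx j)
      filter_upwards [hz] with x hx
      by_cases hxs : x ∈ tsupport χ
      · have h1 : (fun x => A i j x * θ x) =ᶠ[𝓝 x] A i j := by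
          have := (hθ1'.filter_mono (nhds_le_nhdsSet hxs))
          filter_upwards [this] with y hy
          rw [hy, mul_one]
        have h2 : pderiv i (fun x => A i j x * θ x) x = pderiv i (A i j) x := by
          unfold Crest.GeometryTopology.CoordMetric.pderiv
          rw [h1.fderiv_eq]
        rw [h2, hθ1 x hxs, mul_one]
      · rw [locG_zero_off hxs, hx hxs]; ring
    have mterm : ∀ i j, MemLp (fun x => pderiv i (fun x => A i j x * θ x) x * locG χ u G j x
          + (A i j x * θ x) * H j i x) 2 := by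
      intro i j
      obtain ⟨C1, -, hC1, -⟩ := test_bdd_lip ((tA i j).pderiv i)
      obtain ⟨C2, -, hC2, -⟩ := test_bdd_lip (tA i j)
      have h1 := (N2.mul_bdd (N2.of_nm (mG j) le_rfl) ((tA i j).pderiv i).continuous hC1).1
      have h2 := (N2.mul_bdd (N2.of_nm (hv.m2 j i) le_rfl) (tA i j).continuous hC2).1
      exact h1.add h2
    have mAG : ∀ i j, MemLp (fun x => (A i j x * θ x) * locG χ u G j x) 2 := by
      intro i j
      obtain ⟨C2, -, hC2, -⟩ := test_bdd_lip (tA i j)
      exact (N2.mul_bdd (N2.of_nm (mG j) le_rfl) (tA i j).continuous hC2).1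
    have hsumm : MemLp (fun x => ∑ i, ∑ j, (pderiv i (fun x => A i j x * θ x) x * locG χ u G j x
          + (A i j x * θ x) * H j i x)) 2 (volume : Measure (EE n)) :=
      memLp_finsetSum _ fun i _ => memLp_finsetSum _ fun j _ => mterm i j
    have hae : (fun x => ∑ i, ∑ j, (pderiv i (fun x => A i j x * θ x) x * locG χ u G j x
          + (A i j x * θ x) * H j i x)) =ᵐ[volume] locF A χ u G f := by
      apply ae_eq_of_integral_contDiff_smul_eq (MemLp.locInt hsumm) (MemLp.locInt mF)
      intro φ hφ hφc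
      have hT : IsTest φ := ⟨hφ, hφc⟩
      have k1 := loc_eq hΩ hA hu hG hf hW heq hχ hs hT
      have k2 : ∫ x, ∑ i, ∑ j, A i j x * locG χ u G j x * pderiv i φ x
          = ∑ i, ∑ j, ∫ x, (A i j x * θ x) * locG χ u G j x * pderiv i φ x := by
        have hi : ∀ i j, Integrable (fun x => (A i j x * θ x) * locG χ u G j x * pderiv i φ x) :=
          fun i j => integrable_mul (mAG i j) ((hT.pderiv i).memLp 2)
        simp_rw [← fun i => integral_finsetSum (Finset.univ : Finset (Fin n)) fun j _ => hi i j]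
        rw [← integral_finsetSum _ fun i _ => integrable_finsetSum _ fun j _ => hi i j]
        congr 1; ext x
        refine Finset.sum_congr rfl fun i _ => Finset.sum_congr rfl fun j _ => ?_
        rw [e1]
      have k3 : ∫ x, φ x • ∑ i, ∑ j, (pderiv i (fun x => A i j x * θ x) x * locG χ u G j x
          + (A i j x * θ x) * H j i x) = ∑ i, ∑ j, ∫ x, (pderiv i (fun x => A i j x * θ x) x
          * locG χ u G j x + (A i j x * θ x) * H j i x) * φ x := by
        have hi : ∀ i j, Integrable (fun x => (pderiv i (fun x => A i j x * θ x) x * locG χ u G j x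
          + (A i j x * θ x) * H j i x) * φ x) :=
          fun i j => integrable_mul (mterm i j) (hT.memLp 2)
        simp_rw [← fun i => integral_finsetSum (Finset.univ : Finset (Fin n)) fun j _ => hi i j]
        rw [← integral_finsetSum _ fun i _ => integrable_finsetSum _ fun j _ => hi i j]
        congr 1; ext x
        rw [smul_eq_mul, Finset.mul_sum]
        refine Finset.sum_congr rfl fun i _ => ?_
        rw [Finset.mul_sum]
        refine Finset.sum_congr rfl fun j _ => ?_
        rw [mul_comm]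
      have k4 : ∀ i j, ∫ x, (A i j x * θ x) * locG χ u G j x * pderiv i φ x
          = - ∫ x, (pderiv i (fun x => A i j x * θ x) x
          * locG χ u G j x + (A i j x * θ x) * H j i x) * φ x := fun i j => hwd i j φ hT
      have k5 : ∫ x, φ x • locF A χ u G f x = ∫ x, locF A χ u G f x * φ x := by
        congr 1; ext x; rw [smul_eq_mul, mul_comm]
      rw [k3, k5]
      rw [k2] at k1
      simp only [k4, Finset.sum_neg_distrib] at k1
      linarith
    have e2' : ∀ᵐ x, ∀ i j, pderiv i (fun x => A i j x * θ x) x * locG χ u G j x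
          + (A i j x * θ x) * H j i x = pderiv i (A i j) x * locG χ u G j x + A i j x * H j i x := by
      rw [ae_all_iff]; intro i
      rw [ae_all_iff]; intro j
      exact e2 i j
    filter_upwards [hae, e2'] with x hx hx2 _
    rw [← hx]
    simp only [hx2, Finset.sum_add_distrib]
    rw [add_comm]
    congr 1
    · rw [Finset.sum_comm]
      refine Finset.sum_congr rfl fun i _ => ?_
      rw [Finset.sum_mul]
    · rw [Finset.sum_comm]
  refine key.congr fun k => ?_
  apply eLpNorm_congr_ae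
  filter_upwards [hlim] with x hx
  by_cases hxK : x ∈ K
  · have hxΩ := hKΩ hxK
    rw [lapW_expand hΩ hA w (hv.test k) hxΩ, ← hx hxΩ]
    have s1 : ∑ i, ∑ j, (w x)⁻¹ * A j i x * H i j x = (w x)⁻¹ * ∑ i, ∑ j, A j i x * H i j x := by
      rw [Finset.mul_sum]
      refine Finset.sum_congr rfl fun i _ => ?_
      rw [Finset.mul_sum]
      refine Finset.sum_congr rfl fun j _ => ?_
      ring
    have s2 : ∑ i, (w x)⁻¹ * (∑ j, pderiv j (A j i) x) * locG χ u G i x
        = (w x)⁻¹ * ∑ i, (∑ j, pderiv j (A j i) x) * locG χ u G i x := by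
      rw [Finset.mul_sum]
      refine Finset.sum_congr rfl fun i _ => ?_
      ring
    rw [s1, s2]
    ring
  · have hxs : x ∉ tsupport χ := fun h => hxK (hχK h)
    rw [lapW_off A w (fun h => hxK (hv.supp k h)), locF_zero_off hxs]
    have z1 : ∀ i j, pderiv j (pderiv i (v k)) x = 0 := fun i j => hv.ddv_off hxK i j
    have z2 : ∀ i, pderiv i (v k) x = 0 := fun i => hv.dv_off hxK i
    have z3 : ∀ i, locG χ u G i x = 0 := fun i => locG_zero_off hxs i
    simp [z1, z2, z3, hv.off2 _ _ x hxK]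

end

end

end Crest.Agent.R247.Frd657
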