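import Crest.Agent.R247.Mcp5_688

/-!
R247, block (5-V) (helper510), part 1: limits along almost every curve of a family.

`(P, π)` is a measure space of curves `c p : [a,b] → X` whose occupation measure has density at
most `K` with respect to `m`.  If `Φₖ(p,·)` has derivative `Ψₖ(p,·)` and the errors
`|Φₖ - Φ|, |Ψₖ - Ψ|` at time `t` are at most `eₖ (c p t)` with `eₖ → 0` in `L¹(m)`, then for
almost every curve `Φ(p,·)` is a.e. equal to an absolutely continuous function with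
derivative `Ψ(p,·)`.
-/

set_option autoImplicit false
open MeasureTheory Set Filter Topology
open scoped ENNReal NNReal

noncomputable section
namespace Crest.Agent.R247.Fv510

/-- fast subsequence -/
lemma exists_fast {u : ℕ → ℝ≥0∞} (h : Tendsto u atTop (𝓝 0)) :
    ∃ φ : ℕ → ℕ, StrictMono φ ∧ ∑' k, u (φ k) ≤ 2 := by
  have hpos : ∀ k : ℕ, (0 : ℝ≥0∞) < (2⁻¹ : ℝ≥0∞) ^ k := fun k =>
    pos_iff_ne_zero.2 (pow_ne_zero _ (by simp))
  have h1 : ∀ k : ℕ, ∀ᶠ j in atTop, u j ≤ (2⁻¹ : ℝ≥0∞) ^ k := fun k =>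
    h.eventually_le_const (hpos k)
  obtain ⟨φ, hφ, hφ'⟩ := extraction_forall_of_eventually h1
  refine ⟨φ, hφ, ?_⟩
  calc ∑' k, u (φ k) ≤ ∑' k : ℕ, (2⁻¹ : ℝ≥0∞) ^ k := ENNReal.tsum_le_tsum hφ'
    _ = 2 := by rw [ENNReal.tsum_geometric, ENNReal.one_sub_inv_two, inv_inv]

section curve

variable {P X : Type*} [MeasurableSpace P] [MeasurableSpace X] {π : Measure P} {m : Measure X}

/-- The one-curve statement: pointwise limit of primitives. -/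
lemma limit_one {a b : ℝ} (hab : a ≤ b) {e : ℕ → ℝ → ℝ≥0∞}
    (he : ∀ k, AEMeasurable (e k) (volume.restrict (Icc a b)))
    (hsum : ∑' k, ∫⁻ t in Icc a b, e k t ≠ ∞) {Φk Ψk : ℕ → ℝ → ℝ} {Φ Ψ : ℝ → ℝ}
    (hΦ : ∀ k, ∀ᵐ t ∂(volume.restrict (Icc a b)), ENNReal.ofReal |Φk k t - Φ t| ≤ e k t)
    (hΨ : ∀ k, ∀ᵐ t ∂(volume.restrict (Icc a b)), ENNReal.ofReal |Ψk k t - Ψ t| ≤ e k t)
    (hI : ∀ k, IntervalIntegrable (Ψk k) volume a b)
    (hD : ∀ k, ∃ c₀, ∀ᵐ t ∂(volume.restrict (Icc a b)), Φk k t = c₀ + ∫ s in a..t, Ψk k s) :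
    IntervalIntegrable Ψ volume a b ∧
      ∃ c, ∀ᵐ t ∂(volume.restrict (Icc a b)), Φ t = c + ∫ s in a..t, Ψ s := by
  set ν : Measure ℝ := volume.restrict (Icc a b) with hν
  -- a.e. convergence of `e`
  have hsum' : ∫⁻ t, ∑' k, e k t ∂ν ≠ ∞ := by
    rw [lintegral_tsum he]; exact hsum
  have hae : ∀ᵐ t ∂ν, Tendsto (fun k => e k t) atTop (𝓝 0) := by
    have h1 : AEMeasurable (fun t => ∑' k, e k t) ν := AEMeasurable.tsum he
    filter_upwards [ae_lt_top' h1 hsum'] with t ht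
    exact ENNReal.tendsto_atTop_zero_of_tsum_ne_top ht.ne
  have hint0 : Tendsto (fun k => ∫⁻ t, e k t ∂ν) atTop (𝓝 0) :=
    ENNReal.tendsto_atTop_zero_of_tsum_ne_top hsum
  -- pointwise convergence
  have conv : ∀ {f : ℕ → ℝ → ℝ} {g : ℝ → ℝ},
      (∀ k, ∀ᵐ t ∂ν, ENNReal.ofReal |f k t - g t| ≤ e k t) →
      ∀ᵐ t ∂ν, Tendsto (fun k => f k t) atTop (𝓝 (g t)) := by
    intro f g h
    filter_upwards [hae, ae_all_iff.2 h] with t ht hk
    rw [tendsto_iff_norm_sub_tendsto_zero]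
    have h2 : Tendsto (fun k => ENNReal.ofReal |f k t - g t|) atTop (𝓝 0) :=
      tendsto_of_tendsto_of_tendsto_of_le_of_le tendsto_const_nhds ht (fun _ => bot_le) hk
    have h3 := (ENNReal.tendsto_toReal ENNReal.zero_ne_top).comp h2
    simp only [ENNReal.toReal_zero] at h3
    refine h3.congr fun k => ?_
    simp [Function.comp, Real.norm_eq_abs]
  have hΦ' := conv hΦ
  have hΨ' := conv hΨ
  have hIk : ∀ k, Integrable (Ψk k) ν := fun k => by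
    rw [hν, ← IntegrableOn, integrableOn_Icc_iff_integrableOn_Ioc]
    exact (intervalIntegrable_iff_integrableOn_Ioc_of_le hab).1 (hI k)
  have hmeas : AEStronglyMeasurable Ψ ν :=
    aestronglyMeasurable_of_tendsto_ae atTop (fun k => (hIk k).1) hΨ'
  -- L¹ distance
  have hL : ∀ k, ∫⁻ t, ENNReal.ofReal |Ψk k t - Ψ t| ∂ν ≤ ∫⁻ t, e k t ∂ν := fun k =>
    lintegral_mono_ae (hΨ k)
  have hfin : ∃ k, ∫⁻ t, e k t ∂ν < ∞ := by
    have := (hint0.eventually_lt_const (by simp : (0 : ℝ≥0∞) < 1)).exists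
    obtain ⟨k, hk⟩ := this
    exact ⟨k, hk.trans (by simp)⟩
  have hΨi : Integrable Ψ ν := by
    obtain ⟨k, hk⟩ := hfin
    have h1 : Integrable (fun t => Ψk k t - Ψ t) ν := by
      refine ⟨(hIk k).1.sub hmeas, ?_⟩
      rw [hasFiniteIntegral_iff_norm]
      exact lt_of_le_of_lt (hL k) hk
    have h2 : Ψ = fun t => Ψk k t - (Ψk k t - Ψ t) := by ext t; ring
    rw [h2]
    exact (hIk k).sub h1
  have hΨii : IntervalIntegrable Ψ volume a b := by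
    rw [intervalIntegrable_iff_integrableOn_Ioc_of_le hab, ← integrableOn_Icc_iff_integrableOn_Ioc]
    exact hΨi
  -- convergence of the primitives
  have hprim : ∀ t ∈ Icc a b, Tendsto (fun k => ∫ s in a..t, Ψk k s) atTop
      (𝓝 (∫ s in a..t, Ψ s)) := by
    intro t ht
    simp only [intervalIntegral.integral_of_le ht.1]
    have hsub : Ioc a t ⊆ Icc a b := fun s hs => ⟨hs.1.le, hs.2.trans ht.2⟩
    have hle : volume.restrict (Ioc a t) ≤ ν := Measure.restrict_mono hsub le_rfl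
    refine tendsto_integral_of_L1 Ψ (hΨi.mono_measure hle).1
      (Eventually.of_forall fun k => (hIk k).mono_measure hle) ?_
    refine tendsto_of_tendsto_of_tendsto_of_le_of_le tendsto_const_nhds hint0
      (fun _ => bot_le) fun k => ?_
    refine le_trans ?_ (hL k)
    calc ∫⁻ s in Ioc a t, ‖Ψk k s - Ψ s‖ₑ ≤ ∫⁻ s, ‖Ψk k s - Ψ s‖ₑ ∂ν :=
          lintegral_mono' hle le_rfl
      _ = ∫⁻ s, ENNReal.ofReal |Ψk k s - Ψ s| ∂ν := by
          apply lintegral_congr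
          intro s
          rw [← ofReal_norm, Real.norm_eq_abs]
  refine ⟨hΨii, ?_⟩
  by_cases hne : ν = 0
  · refine ⟨0, ?_⟩
    rw [hne]; simp
  · have : NeZero ν := ⟨hne⟩
    choose ck hck using hD
    have hall := ae_all_iff.2 hck
    obtain ⟨t₀, ⟨ht₀, hm₀⟩, hk₀⟩ :=
      ((hΦ'.and (ae_restrict_mem measurableSet_Icc)).and hall).exists
    refine ⟨Φ t₀ - ∫ s in a..t₀, Ψ s, ?_⟩
    have hc : Tendsto ck atTop (𝓝 (Φ t₀ - ∫ s in a..t₀, Ψ s)) := by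
      have h1 := ht₀.sub (hprim t₀ hm₀)
      refine h1.congr fun k => ?_
      rw [hk₀ k]; ring
    filter_upwards [hΦ', ae_restrict_mem measurableSet_Icc, hall] with t ht hm hk
    refine tendsto_nhds_unique ht ?_
    refine (hc.add (hprim t hm)).congr fun k => ?_
    rw [hk k]

/-- **Limit along almost every curve.** -/
theorem curve_limit [SFinite π] {c : P → ℝ → X} (hc : Measurable fun q : P × ℝ => c q.1 q.2)
    {a b : ℝ} (hab : a ≤ b) {K : ℝ≥0∞} (hK : K ≠ ∞)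
    (hle : ∀ g : X → ℝ≥0∞, Measurable g →
      ∫⁻ p, (∫⁻ t in Icc a b, g (c p t)) ∂π ≤ K * ∫⁻ y, g y ∂m)
    {e : ℕ → X → ℝ≥0∞} (he : ∀ k, Measurable (e k))
    (hlim : Tendsto (fun k => ∫⁻ y, e k y ∂m) atTop (𝓝 0))
    (wt : P → ℝ≥0) {Φk Ψk : ℕ → P → ℝ → ℝ} {Φ Ψ : P → ℝ → ℝ}
    (hΦ : ∀ k, ∀ᵐ p ∂π, ∀ᵐ t ∂(volume.restrict (Icc a b)),
      ENNReal.ofReal |Φk k p t - Φ p t| ≤ wt p * e k (c p t))
    (hΨ : ∀ k, ∀ᵐ p ∂π, ∀ᵐ t ∂(volume.restrict (Icc a b)),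
      ENNReal.ofReal |Ψk k p t - Ψ p t| ≤ wt p * e k (c p t))
    (hI : ∀ k, ∀ᵐ p ∂π, IntervalIntegrable (Ψk k p) volume a b)
    (hD : ∀ k, ∀ᵐ p ∂π, ∃ c₀, ∀ᵐ t ∂(volume.restrict (Icc a b)),
      Φk k p t = c₀ + ∫ s in a..t, Ψk k p s) :
    ∀ᵐ p ∂π, IntervalIntegrable (Ψ p) volume a b ∧
      ∃ c₀, ∀ᵐ t ∂(volume.restrict (Icc a b)), Φ p t = c₀ + ∫ s in a..t, Ψ p s := by
  obtain ⟨φ, hφ, hφs⟩ := exists_fast hlim
  have hm : ∀ k, Measurable fun q : P × ℝ => e (φ k) (c q.1 q.2) := fun k => (he _).comp hc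
  have hm1 : ∀ k, Measurable fun p => ∫⁻ t in Icc a b, e (φ k) (c p t) := fun k =>
    Measurable.lintegral_prod_right' (hm k)
  have htot : ∫⁻ p, (∑' k, ∫⁻ t in Icc a b, e (φ k) (c p t)) ∂π ≠ ∞ := by
    rw [lintegral_tsum fun k => (hm1 k).aemeasurable]
    refine ne_top_of_le_ne_top (ENNReal.mul_ne_top hK (by simp : (2 : ℝ≥0∞) ≠ ∞)) ?_
    calc ∑' k, ∫⁻ p, (∫⁻ t in Icc a b, e (φ k) (c p t)) ∂π
        ≤ ∑' k, K * ∫⁻ y, e (φ k) y ∂m := ENNReal.tsum_le_tsum fun k => hle _ (he _)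
      _ = K * ∑' k, ∫⁻ y, e (φ k) y ∂m := ENNReal.tsum_mul_left
      _ ≤ K * 2 := by gcongr
  have hfin := ae_lt_top' (AEMeasurable.tsum fun k => (hm1 k).aemeasurable) htot
  filter_upwards [hfin, ae_all_iff.2 hΦ, ae_all_iff.2 hΨ, ae_all_iff.2 hI, ae_all_iff.2 hD]
    with p hp h1 h2 h3 h4
  have hmk : ∀ k, Measurable fun t => e (φ k) (c p t) := fun k =>
    (hm k).comp measurable_prodMk_left
  refine limit_one hab (e := fun k t => wt p * e (φ k) (c p t))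
    (fun k => ((hmk k).const_mul _).aemeasurable) ?_
    (fun k => h1 (φ k)) (fun k => h2 (φ k)) (fun k => h3 (φ k)) (fun k => h4 (φ k))
  have h5 : ∀ k, ∫⁻ t in Icc a b, (wt p : ℝ≥0∞) * e (φ k) (c p t) =
      wt p * ∫⁻ t in Icc a b, e (φ k) (c p t) := fun k => lintegral_const_mul _ (hmk k)
  rw [tsum_congr h5, ENNReal.tsum_mul_left]
  exact ENNReal.mul_ne_top ENNReal.coe_ne_top hp.ne

/-- continuous representative: two a.e. equal functions on `[a,b]`, one continuous. -/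
lemma eq_of_ae_of_continuousOn {a b : ℝ} (hab : a < b) {f g : ℝ → ℝ}
    (hf : ContinuousOn f (Icc a b)) (hg : ContinuousOn g (Icc a b))
    (h : ∀ᵐ t ∂(volume.restrict (Icc a b)), f t = g t) : ∀ t ∈ Icc a b, f t = g t := by
  have := Measure.eqOn_Icc_of_ae_eq (μ := (volume : Measure ℝ)) hab.ne h hf hg
  exact this

/-- if `Φ` is continuous on `[a,b]`, the primitive formula holds everywhere. -/
lemma prim_everywhere {a b : ℝ} (hab : a < b) {Φ Ψ : ℝ → ℝ}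
    (hI : IntervalIntegrable Ψ volume a b) (hc : ContinuousOn Φ (Icc a b))
    (h : ∃ c₀, ∀ᵐ t ∂(volume.restrict (Icc a b)), Φ t = c₀ + ∫ s in a..t, Ψ s) :
    ∀ t ∈ Icc a b, Φ t = Φ a + ∫ s in a..t, Ψ s := by
  obtain ⟨c₀, h⟩ := h
  have hg : ContinuousOn (fun t => c₀ + ∫ s in a..t, Ψ s) (Icc a b) := by
    refine continuousOn_const.add ?_
    have := intervalIntegral.continuousOn_primitive_interval' (μ := volume) hI
      (left_mem_uIcc (a := a) (b := b))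
    rwa [uIcc_of_le hab.le] at this
  have h1 := eq_of_ae_of_continuousOn hab hc hg h
  intro t ht
  have h2 := h1 a ⟨le_refl _, hab.le⟩
  simp only [intervalIntegral.integral_same, add_zero] at h2
  rw [h1 t ht, h2]

end curve

section rad

open Crest.Agent.R247.Mcp688

variable {n : ℕ} {κ : ℝ} {X : Type*} [MetricSpace X] [MeasurableSpace X] [BorelSpace X]
  {μ : Measure X} (C : Rad n κ X μ)

include C in
/-- the occupation measure of the segments from `A` to `B` -/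
lemma seg_le [SFinite μ] (hκ : 0 ≤ κ) {A B W : Set X} (hA : MeasurableSet A)
    (hB : MeasurableSet B) (hW : MeasurableSet W) {D : ℝ}
    (hD : ∀ x ∈ A, ∀ z ∈ B, dist x z ≤ D)
    (hABW : ∀ x ∈ A, ∀ z ∈ B, (x, z) ∈ C.U → ∀ t ∈ Icc (0 : ℝ) 1, C.T x t z ∈ W)
    {g : X → ℝ≥0∞} (hg : Measurable g) :
    ∫⁻ p, (∫⁻ t in Icc (0 : ℝ) 1, g (C.T p.1 t p.2)) ∂((μ.restrict A).prod (μ.restrict B)) ≤
      ENNReal.ofReal (Real.exp (κ * D ^ 2 / 2) * 2 ^ n) * (μ A + μ B) * ∫⁻ y, g y ∂(μ.restrict W) := by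
  have hm : Measurable fun q : (X × X) × ℝ => g (C.T q.1.1 q.2 q.1.2) :=
    hg.comp (C.measT.comp ((measurable_fst.fst).prodMk (measurable_snd.prodMk measurable_fst.snd)))
  rw [lintegral_prod _ (Measurable.lintegral_prod_right' hm).aemeasurable]
  exact C.segment_le hκ hA hB hW hD hABW hg

/-- **Limit along almost every minimising segment.** -/
theorem seg_limit [SFinite μ] (hκ : 0 ≤ κ) {A B W : Set X} (hA : MeasurableSet A)
    (hB : MeasurableSet B) (hW : MeasurableSet W) {D : ℝ}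
    (hD : ∀ x ∈ A, ∀ z ∈ B, dist x z ≤ D)
    (hABW : ∀ x ∈ A, ∀ z ∈ B, (x, z) ∈ C.U → ∀ t ∈ Icc (0 : ℝ) 1, C.T x t z ∈ W)
    (hAf : μ A ≠ ∞) (hBf : μ B ≠ ∞)
    {e : ℕ → X → ℝ≥0∞} (he : ∀ k, Measurable (e k))
    (hlim : Tendsto (fun k => ∫⁻ y in W, e k y ∂μ) atTop (𝓝 0))
    (wt : X × X → ℝ≥0) {Φk Ψk : ℕ → X × X → ℝ → ℝ} {Φ Ψ : X × X → ℝ → ℝ}
    (hΦ : ∀ k, ∀ᵐ p ∂((μ.restrict A).prod (μ.restrict B)), ∀ᵐ t ∂(volume.restrict (Icc (0 : ℝ) 1)),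
      ENNReal.ofReal |Φk k p t - Φ p t| ≤ wt p * e k (C.T p.1 t p.2))
    (hΨ : ∀ k, ∀ᵐ p ∂((μ.restrict A).prod (μ.restrict B)), ∀ᵐ t ∂(volume.restrict (Icc (0 : ℝ) 1)),
      ENNReal.ofReal |Ψk k p t - Ψ p t| ≤ wt p * e k (C.T p.1 t p.2))
    (hI : ∀ k, ∀ᵐ p ∂((μ.restrict A).prod (μ.restrict B)), IntervalIntegrable (Ψk k p) volume 0 1)
    (hDr : ∀ k, ∀ᵐ p ∂((μ.restrict A).prod (μ.restrict B)), ∃ c₀,
      ∀ᵐ t ∂(volume.restrict (Icc (0 : ℝ) 1)), Φk k p t = c₀ + ∫ s in (0 : ℝ)..t, Ψk k p s) :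
    ∀ᵐ p ∂((μ.restrict A).prod (μ.restrict B)), IntervalIntegrable (Ψ p) volume 0 1 ∧
      ∃ c₀, ∀ᵐ t ∂(volume.restrict (Icc (0 : ℝ) 1)), Φ p t = c₀ + ∫ s in (0 : ℝ)..t, Ψ p s := by
  have hc : Measurable fun q : (X × X) × ℝ => C.T q.1.1 q.2 q.1.2 :=
    C.measT.comp ((measurable_fst.fst).prodMk (measurable_snd.prodMk measurable_fst.snd))
  have hK : ENNReal.ofReal (Real.exp (κ * D ^ 2 / 2) * 2 ^ n) * (μ A + μ B) ≠ ∞ :=
    ENNReal.mul_ne_top ENNReal.ofReal_ne_top (ENNReal.add_ne_top.2 ⟨hAf, hBf⟩)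
  have hle : ∀ g : X → ℝ≥0∞, Measurable g →
      ∫⁻ p, (∫⁻ t in Icc (0 : ℝ) 1, g (C.T p.1 t p.2)) ∂((μ.restrict A).prod (μ.restrict B)) ≤
      ENNReal.ofReal (Real.exp (κ * D ^ 2 / 2) * 2 ^ n) * (μ A + μ B) * ∫⁻ y, g y ∂(μ.restrict W) :=
    fun g hg => seg_le C hκ hA hB hW hD hABW hg
  exact curve_limit (P := X × X) (X := X) (π := (μ.restrict A).prod (μ.restrict B))
    (m := μ.restrict W) (c := fun p t => C.T p.1 t p.2) hc zero_le_one hK hle he hlim wt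
    (Φk := Φk) (Ψk := Ψk) (Φ := Φ) (Ψ := Ψ) hΦ hΨ hI hDr

include C in
/-- a.e. points on a.e. segment: an a.e. property holds at a.e. point of a.e. segment -/
lemma ae_seg [SFinite μ] (hκ : 0 ≤ κ) {A B : Set X} (hA : MeasurableSet A)
    (hB : MeasurableSet B) {D : ℝ} (hD : ∀ x ∈ A, ∀ z ∈ B, dist x z ≤ D)
    {q : X → Prop} (hq : ∀ᵐ y ∂μ, q y) :
    ∀ᵐ p ∂((μ.restrict A).prod (μ.restrict B)), ∀ᵐ t ∂(volume.restrict (Icc (0 : ℝ) 1)),
      q (C.T p.1 t p.2) := by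
  obtain ⟨N, hN1, hN2, hN3⟩ := exists_measurable_superset_of_null (μ := μ) (s := {z | ¬ q z}) hq
  have hm0 : Measurable (N.indicator (fun _ => (1 : ℝ≥0∞))) := measurable_const.indicator hN2
  have hm : Measurable fun r : (X × X) × ℝ =>
      N.indicator (fun _ => (1 : ℝ≥0∞)) (C.T r.1.1 r.2 r.1.2) :=
    hm0.comp (C.measT.comp ((measurable_fst.fst).prodMk
      (measurable_snd.prodMk measurable_fst.snd)))
  have h0 := seg_le C hκ hA hB MeasurableSet.univ hD (fun _ _ _ _ _ _ _ => mem_univ _) hm0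
  have h1 : ∫⁻ y, N.indicator (fun _ => (1 : ℝ≥0∞)) y ∂(μ.restrict univ) = 0 := by
    rw [Measure.restrict_univ, lintegral_indicator_const hN2, one_mul, hN3]
  rw [h1, mul_zero, nonpos_iff_eq_zero,
    lintegral_eq_zero_iff (Measurable.lintegral_prod_right' hm)] at h0
  filter_upwards [h0] with p hp
  have hm2 : Measurable fun t : ℝ => N.indicator (fun _ => (1 : ℝ≥0∞)) (C.T p.1 t p.2) :=
    hm.comp measurable_prodMk_left
  have h2 := (lintegral_eq_zero_iff hm2).1 hp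
  filter_upwards [h2] with t ht
  by_contra hcon
  have : C.T p.1 t p.2 ∈ N := hN1 hcon
  simp [this] at ht

/-- **Limit along almost every ray** (away from the centre). -/
theorem ray_limit [SFinite μ] (hκ : 0 ≤ κ) (x : X) {a R : ℝ} (ha : 0 < a) (ha1 : a ≤ 1)
    {A W : Set X} (hA : MeasurableSet A) (hW : MeasurableSet W) (hR : ∀ z ∈ A, dist x z ≤ R)
    (hAW : ∀ z ∈ A, (x, z) ∈ C.U → ∀ t ∈ Icc a 1, C.T x t z ∈ W)
    {e : ℕ → X → ℝ≥0∞} (he : ∀ k, Measurable (e k))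
    (hlim : Tendsto (fun k => ∫⁻ y in W, e k y ∂μ) atTop (𝓝 0))
    (wt : X → ℝ≥0) {Φk Ψk : ℕ → X → ℝ → ℝ} {Φ Ψ : X → ℝ → ℝ}
    (hΦ : ∀ k, ∀ᵐ w ∂(μ.restrict A), ∀ᵐ t ∂(volume.restrict (Icc a 1)),
      ENNReal.ofReal |Φk k w t - Φ w t| ≤ wt w * e k (C.T x t w))
    (hΨ : ∀ k, ∀ᵐ w ∂(μ.restrict A), ∀ᵐ t ∂(volume.restrict (Icc a 1)),
      ENNReal.ofReal |Ψk k w t - Ψ w t| ≤ wt w * e k (C.T x t w))
    (hI : ∀ k, ∀ᵐ w ∂(μ.restrict A), IntervalIntegrable (Ψk k w) volume a 1)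
    (hDr : ∀ k, ∀ᵐ w ∂(μ.restrict A), ∃ c₀, ∀ᵐ t ∂(volume.restrict (Icc a 1)),
      Φk k w t = c₀ + ∫ s in a..t, Ψk k w s) :
    ∀ᵐ w ∂(μ.restrict A), IntervalIntegrable (Ψ w) volume a 1 ∧
      ∃ c₀, ∀ᵐ t ∂(volume.restrict (Icc a 1)), Φ w t = c₀ + ∫ s in a..t, Ψ w s := by
  have hc : Measurable fun q : X × ℝ => C.T x q.2 q.1 :=
    C.measT.comp (measurable_const.prodMk (measurable_snd.prodMk measurable_fst))
  have hle : ∀ g : X → ℝ≥0∞, Measurable g →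
      ∫⁻ w, (∫⁻ t in Icc a 1, g (C.T x t w)) ∂(μ.restrict A) ≤
      ENNReal.ofReal (Real.exp (κ * R ^ 2 / 2) * (a⁻¹) ^ n * (1 - a)) *
        ∫⁻ y, g y ∂(μ.restrict W) :=
    fun g hg => C.ray_lintegral_le hκ x ha le_rfl hA hW hR hAW hg
  exact curve_limit (P := X) (X := X) (π := μ.restrict A) (c := fun w t => C.T x t w)
    (m := μ.restrict W) hc ha1 ENNReal.ofReal_ne_top hle he hlim wt
    (Φk := Φk) (Ψk := Ψk) (Φ := Φ) (Ψ := Ψ) hΦ hΨ hI hDr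

end rad

end Crest.Agent.R247.Fv510
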