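import Mathlib

/-!
R247, block (5-H) (helper124), part 1: Hilbert–Schmidt algebra of `n × n` matrices written as
`EuclideanSpace ℝ (Fin n × Fin n)`, and elementary `L²` lemmas in terms of real integrals.
-/

set_option autoImplicit false
set_option linter.unusedSectionVars false

open MeasureTheory Filter Topology Set
open scoped RealInnerProductSpace ENNReal NNReal

noncomputable section

namespace Crest.Agent.R247.Hes124

/-- vectors in the orthonormal frame -/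
abbrev F (n : ℕ) := EuclideanSpace ℝ (Fin n)
/-- matrices in the orthonormal frame, with the Hilbert–Schmidt norm -/
abbrev S (n : ℕ) := EuclideanSpace ℝ (Fin n × Fin n)

variable {n : ℕ}

/-- matrix times vector -/
def mv (A : S n) (v : F n) : F n := WithLp.toLp 2 (fun i => ∑ j, A (i, j) * v j)

/-- trace -/
def tr (A : S n) : ℝ := ∑ i, A (i, i)

/-- identity matrix -/
def idm (n : ℕ) : S n := WithLp.toLp 2 (fun p => if p.1 = p.2 then 1 else 0)

@[simp] lemma mv_apply (A : S n) (v : F n) (i : Fin n) : mv A v i = ∑ j, A (i, j) * v j := rfl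

lemma norm_sq_S (A : S n) : ‖A‖ ^ 2 = ∑ i, ∑ j, A (i, j) ^ 2 := by
  rw [EuclideanSpace.real_norm_sq_eq, Fintype.sum_prod_type]

lemma norm_mv_sq_le (A : S n) (v : F n) : ‖mv A v‖ ^ 2 ≤ ‖A‖ ^ 2 * ‖v‖ ^ 2 := by
  rw [EuclideanSpace.real_norm_sq_eq, norm_sq_S, EuclideanSpace.real_norm_sq_eq v, Finset.sum_mul]
  refine Finset.sum_le_sum fun i _ => ?_
  simpa using Finset.sum_mul_sq_le_sq_mul_sq Finset.univ (fun j => A (i, j)) (fun j => v j)

lemma norm_mv_le (A : S n) (v : F n) : ‖mv A v‖ ≤ ‖A‖ * ‖v‖ := by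
  have h := norm_mv_sq_le A v
  rw [← mul_pow] at h
  exact (pow_le_pow_iff_left₀ (norm_nonneg _) (by positivity) two_ne_zero).1 h

lemma mv_sub_left (A B : S n) (v : F n) : mv (A - B) v = mv A v - mv B v := by
  ext i
  simp [sub_mul]

lemma mv_add_right (A : S n) (v w : F n) : mv A (v + w) = mv A v + mv A w := by
  ext i
  simp [mul_add, Finset.sum_add_distrib]

lemma mv_sub_right (A : S n) (v w : F n) : mv A (v - w) = mv A v - mv A w := by
  ext i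
  simp [mul_sub]

lemma continuous_mv : Continuous (fun p : S n × F n => mv p.1 p.2) := by
  unfold mv
  fun_prop

lemma tr_sub (A B : S n) : tr (A - B) = tr A - tr B := by
  simp [tr]

lemma tr_idm : tr (idm n) = n := by
  simp [tr, idm]

lemma inner_idm (A : S n) : ⟪A, idm n⟫ = tr A := by
  simp only [PiLp.inner_apply, idm, Fintype.sum_prod_type, tr]
  refine Finset.sum_congr rfl fun i _ => ?_
  rw [Finset.sum_eq_single i]
  · simp
  · intro j _ hj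
    simp [Ne.symm hj]
  · intro h
    exact absurd (Finset.mem_univ i) h

lemma norm_idm_sq : ‖idm n‖ ^ 2 = n := by
  rw [← real_inner_self_eq_norm_sq, inner_idm, tr_idm]

lemma norm_sub_idm_sq (A : S n) : ‖A - idm n‖ ^ 2 = ‖A‖ ^ 2 - 2 * tr A + n := by
  rw [norm_sub_sq_real, inner_idm, norm_idm_sq]

lemma tr_sq_le (A : S n) : tr A ^ 2 ≤ n * ‖A‖ ^ 2 := by
  have h := real_inner_mul_inner_self_le A (idm n)
  rw [inner_idm, real_inner_self_eq_norm_sq, real_inner_self_eq_norm_sq, norm_idm_sq] at h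
  nlinarith

lemma abs_tr_le (A : S n) : |tr A| ≤ √n * ‖A‖ := by
  have h := abs_real_inner_le_norm A (idm n)
  rw [inner_idm] at h
  have h2 : ‖idm n‖ = √n := by
    rw [← norm_idm_sq, Real.sqrt_sq (norm_nonneg _)]
  rw [h2] at h
  linarith [mul_comm ‖A‖ √(n : ℝ)]

lemma continuous_tr : Continuous (tr : S n → ℝ) := by
  unfold tr
  fun_prop

/-! ### `L²` lemmas -/

section L2

variable {X : Type*} [MeasurableSpace X] {μ : Measure X}
variable {E : Type*} [NormedAddCommGroup E] [InnerProductSpace ℝ E]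

lemma int_sq {u : X → E} (hu : MemLp u 2 μ) : Integrable (fun x => ‖u x‖ ^ 2) μ :=
  (memLp_two_iff_integrable_sq_norm hu.1).1 hu

lemma int_norm_mul {E' : Type*} [NormedAddCommGroup E'] {u : X → E} {v : X → E'}
    (hu : MemLp u 2 μ) (hv : MemLp v 2 μ) :
    Integrable (fun x => ‖u x‖ * ‖v x‖) μ := by
  have h := MemLp.integrable_mul (p := 2) (q := 2) hu.norm hv.norm
  exact h

lemma int_inner {u v : X → E} (hu : MemLp u 2 μ) (hv : MemLp v 2 μ) :
    Integrable (fun x => ⟪u x, v x⟫) μ := by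
  refine (int_norm_mul hu hv).mono' (hu.1.inner hv.1) (Eventually.of_forall fun x => ?_)
  exact norm_inner_le_norm (𝕜 := ℝ) (u x) (v x)

lemma int_mul {u v : X → ℝ} (hu : MemLp u 2 μ) (hv : MemLp v 2 μ) :
    Integrable (fun x => u x * v x) μ := by
  have h := int_inner hv hu
  simpa using h

lemma int_sub_sq {u v : X → E} (hu : MemLp u 2 μ) (hv : MemLp v 2 μ) :
    Integrable (fun x => ‖u x - v x‖ ^ 2) μ := int_sq (hu.sub hv)

/-- Cauchy–Schwarz for the integral of the product of norms. -/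
lemma cs_norm {E' : Type*} [NormedAddCommGroup E'] [InnerProductSpace ℝ E'] {u : X → E}
    {v : X → E'} (hu : MemLp u 2 μ) (hv : MemLp v 2 μ) :
    ∫ x, ‖u x‖ * ‖v x‖ ∂μ ≤ √(∫ x, ‖u x‖ ^ 2 ∂μ) * √(∫ x, ‖v x‖ ^ 2 ∂μ) := by
  have h := integral_mul_le_Lp_mul_Lq_of_nonneg (μ := μ) (p := 2) (q := 2)
    (f := fun x => ‖u x‖) (g := fun x => ‖v x‖) Real.HolderConjugate.two_two
    (Eventually.of_forall fun x => norm_nonneg _) (Eventually.of_forall fun x => norm_nonneg _)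
    (by simpa using hu.norm) (by simpa using hv.norm)
  simpa [Real.sqrt_eq_rpow] using h

lemma cs_inner {u v : X → E} (hu : MemLp u 2 μ) (hv : MemLp v 2 μ) :
    |∫ x, ⟪u x, v x⟫ ∂μ| ≤ √(∫ x, ‖u x‖ ^ 2 ∂μ) * √(∫ x, ‖v x‖ ^ 2 ∂μ) := by
  refine le_trans ?_ (cs_norm hu hv)
  refine (abs_integral_le_integral_abs).trans ?_
  exact integral_mono (int_inner hu hv).abs (int_norm_mul hu hv)
    fun x => abs_real_inner_le_norm _ _

lemma cs_mul {u v : X → ℝ} (hu : MemLp u 2 μ) (hv : MemLp v 2 μ) :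
    |∫ x, u x * v x ∂μ| ≤ √(∫ x, u x ^ 2 ∂μ) * √(∫ x, v x ^ 2 ∂μ) := by
  have h := cs_inner (E := ℝ) hv hu
  simpa [mul_comm] using h

/-- `L²` convergence in terms of real integrals. -/
structure L2To (μ : Measure X) (u : ℕ → X → E) (v : X → E) : Prop where
  mem : ∀ k, MemLp (u k) 2 μ
  mem' : MemLp v 2 μ
  lim : Tendsto (fun k => ∫ x, ‖u k x - v x‖ ^ 2 ∂μ) atTop (𝓝 0)

lemma L2To.sub {u u' : ℕ → X → E} {v v' : X → E} (h : L2To μ u v) (h' : L2To μ u' v') :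
    L2To μ (fun k x => u k x - u' k x) (fun x => v x - v' x) := by
  refine ⟨fun k => (h.mem k).sub (h'.mem k), h.mem'.sub h'.mem', ?_⟩
  have h1 : Tendsto (fun k => 2 * ∫ x, ‖u k x - v x‖ ^ 2 ∂μ + 2 * ∫ x, ‖u' k x - v' x‖ ^ 2 ∂μ)
      atTop (𝓝 0) := by
    simpa using (h.lim.const_mul 2).add (h'.lim.const_mul 2)
  refine squeeze_zero (fun k => integral_nonneg fun x => by positivity) (fun k => ?_) h1
  have i1 := (int_sub_sq (h.mem k) h.mem').const_mul 2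
  have i2 := (int_sub_sq (h'.mem k) h'.mem').const_mul 2
  rw [← integral_const_mul, ← integral_const_mul, ← integral_add i1 i2]
  refine integral_mono (int_sub_sq ((h.mem k).sub (h'.mem k)) (h.mem'.sub h'.mem'))
    (i1.add i2) fun x => ?_
  have e : u k x - u' k x - (v x - v' x) = (u k x - v x) - (u' k x - v' x) := by abel
  show ‖u k x - u' k x - (v x - v' x)‖ ^ 2 ≤ 2 * ‖u k x - v x‖ ^ 2 + 2 * ‖u' k x - v' x‖ ^ 2
  rw [e]
  have := norm_sub_le (u k x - v x) (u' k x - v' x)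
  nlinarith [norm_nonneg ((u k x - v x) - (u' k x - v' x)), norm_nonneg (u k x - v x),
    norm_nonneg (u' k x - v' x), sq_nonneg (‖u k x - v x‖ - ‖u' k x - v' x‖)]

lemma L2To.inner_const {u : ℕ → X → E} {v w : X → E} (h : L2To μ u v) (hw : MemLp w 2 μ) :
    Tendsto (fun k => ∫ x, ⟪u k x, w x⟫ ∂μ) atTop (𝓝 (∫ x, ⟪v x, w x⟫ ∂μ)) := by
  rw [tendsto_iff_norm_sub_tendsto_zero]
  have h1 : Tendsto (fun k => √(∫ x, ‖u k x - v x‖ ^ 2 ∂μ) * √(∫ x, ‖w x‖ ^ 2 ∂μ)) atTop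
      (𝓝 0) := by
    have := (h.lim.sqrt).mul_const (√(∫ x, ‖w x‖ ^ 2 ∂μ))
    simpa using this
  refine squeeze_zero (fun k => norm_nonneg _) (fun k => ?_) h1
  rw [← integral_sub (int_inner (h.mem k) hw) (int_inner h.mem' hw)]
  have h2 := cs_inner ((h.mem k).sub h.mem') hw
  rw [Real.norm_eq_abs]
  simpa [inner_sub_left] using h2

lemma L2To.norm_sq {u : ℕ → X → E} {v : X → E} (h : L2To μ u v) :
    Tendsto (fun k => ∫ x, ‖u k x‖ ^ 2 ∂μ) atTop (𝓝 (∫ x, ‖v x‖ ^ 2 ∂μ)) := by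
  have e : ∀ k, ∫ x, ‖u k x‖ ^ 2 ∂μ = ∫ x, ‖u k x - v x‖ ^ 2 ∂μ + 2 * ∫ x, ⟪u k x, v x⟫ ∂μ
      - ∫ x, ‖v x‖ ^ 2 ∂μ := by
    intro k
    have i1 := int_sub_sq (h.mem k) h.mem'
    have i2 := (int_inner (h.mem k) h.mem').const_mul 2
    have i3 : Integrable (fun x => ‖u k x - v x‖ ^ 2 + 2 * ⟪u k x, v x⟫) μ := i1.add i2
    rw [← integral_const_mul, ← integral_add i1 i2, ← integral_sub i3 (int_sq h.mem')]
    refine integral_congr_ae (Eventually.of_forall fun x => ?_)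
    show ‖u k x‖ ^ 2 = ‖u k x - v x‖ ^ 2 + 2 * ⟪u k x, v x⟫ - ‖v x‖ ^ 2
    rw [norm_sub_sq_real]
    ring
  have h1 := (h.lim.add ((h.inner_const h.mem').const_mul 2)).sub_const (∫ x, ‖v x‖ ^ 2 ∂μ)
  have e2 : 0 + 2 * ∫ x, ⟪v x, v x⟫ ∂μ - ∫ x, ‖v x‖ ^ 2 ∂μ = ∫ x, ‖v x‖ ^ 2 ∂μ := by
    simp only [real_inner_self_eq_norm_sq]
    ring
  rw [e2] at h1
  exact h1.congr fun k => (e k).symm

lemma polar {u v : X → E} (hu : MemLp u 2 μ) (hv : MemLp v 2 μ) :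
    ∫ x, ⟪u x, v x⟫ ∂μ = (1 / 2) * (∫ x, ‖u x‖ ^ 2 ∂μ + ∫ x, ‖v x‖ ^ 2 ∂μ
      - ∫ x, ‖u x - v x‖ ^ 2 ∂μ) := by
  have i3 : Integrable (fun x => ‖u x‖ ^ 2 + ‖v x‖ ^ 2) μ := (int_sq hu).add (int_sq hv)
  rw [← integral_add (int_sq hu) (int_sq hv), ← integral_sub i3 (int_sub_sq hu hv),
    ← integral_const_mul]
  refine integral_congr_ae (Eventually.of_forall fun x => ?_)
  show ⟪u x, v x⟫ = 1 / 2 * (‖u x‖ ^ 2 + ‖v x‖ ^ 2 - ‖u x - v x‖ ^ 2)
  rw [norm_sub_sq_real]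
  ring

lemma L2To.inner {u u' : ℕ → X → E} {v v' : X → E} (h : L2To μ u v) (h' : L2To μ u' v') :
    Tendsto (fun k => ∫ x, ⟪u k x, u' k x⟫ ∂μ) atTop (𝓝 (∫ x, ⟪v x, v' x⟫ ∂μ)) := by
  have e : ∀ k, ∫ x, ⟪u k x, u' k x⟫ ∂μ = (1 / 2) * (∫ x, ‖u k x‖ ^ 2 ∂μ + ∫ x, ‖u' k x‖ ^ 2 ∂μ
      - ∫ x, ‖u k x - u' k x‖ ^ 2 ∂μ) := by
    intro k
    exact polar (h.mem k) (h'.mem k)
  rw [polar h.mem' h'.mem']
  exact (((h.norm_sq.add h'.norm_sq).sub (h.sub h').norm_sq).const_mul (1 / 2)).congr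
    fun k => (e k).symm

/-- multiplication by a bounded function -/
lemma memLp_bdd_smul {u : X → E} (hu : MemLp u 2 μ) {c : X → ℝ}
    (hc : AEStronglyMeasurable c μ) {C : ℝ} (hC : ∀ᵐ x ∂μ, |c x| ≤ C) :
    MemLp (fun x => c x • u x) 2 μ := by
  refine (hu.const_smul C).mono (hc.smul hu.1) ?_
  filter_upwards [hC] with x hx
  rw [norm_smul, Pi.smul_apply, norm_smul, Real.norm_eq_abs, Real.norm_eq_abs]
  have hC0 : 0 ≤ C := (abs_nonneg _).trans hx
  rw [abs_of_nonneg hC0]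
  gcongr

lemma L2To.bdd_smul {u : ℕ → X → E} {v : X → E} (h : L2To μ u v) {c : X → ℝ}
    (hc : AEStronglyMeasurable c μ) {C : ℝ} (hC : ∀ᵐ x ∂μ, |c x| ≤ C) :
    L2To μ (fun k x => c x • u k x) (fun x => c x • v x) := by
  refine ⟨fun k => memLp_bdd_smul (h.mem k) hc hC, memLp_bdd_smul h.mem' hc hC, ?_⟩
  have h1 : Tendsto (fun k => C ^ 2 * ∫ x, ‖u k x - v x‖ ^ 2 ∂μ) atTop (𝓝 0) := by
    simpa using h.lim.const_mul (C ^ 2)
  refine squeeze_zero (fun k => integral_nonneg fun x => by positivity) (fun k => ?_) h1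
  rw [← integral_const_mul]
  refine integral_mono_ae
    (int_sq ((memLp_bdd_smul (h.mem k) hc hC).sub (memLp_bdd_smul h.mem' hc hC)))
    ((int_sq ((h.mem k).sub h.mem')).const_mul _) ?_
  filter_upwards [hC] with x hx
  show ‖c x • u k x - c x • v x‖ ^ 2 ≤ C ^ 2 * ‖u k x - v x‖ ^ 2
  rw [← smul_sub, norm_smul, mul_pow, Real.norm_eq_abs]
  gcongr

end L2

end Crest.Agent.R247.Hes124
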