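import Crest.Agent.R247.Dir0_593
import Crest.Agent.R247.Hes1_124

/-!
R247, block (5-H) (helper124), part 2: the structure `BochS` = gradient structure of helper593
plus a core of smooth functions with Hessian (in the same frame), the Ricci endomorphism, the
integrated Bochner identity and `L²` graph-norm approximation by the core.
First consequences for core functions: Caccioppoli for the Hessian, interpolation for `|∇u|⁴`.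
-/

set_option autoImplicit false
set_option linter.unusedSectionVars false

open MeasureTheory Filter Topology Set
open scoped RealInnerProductSpace ENNReal NNReal

noncomputable section

namespace Crest.Agent.R247.Hes124

open Crest.Agent.R247.Dir593 Crest.Agent.R247.Dir593.GradS

/-- Gradient structure with a core of smooth functions, Hessian, Ricci and integrated Bochner. -/
structure BochS (n : ℕ) (κ : ℝ) (X : Type*) [MetricSpace X] [MeasurableSpace X]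
    (μ : Measure X) extends GradS X (F n) μ where
  /-- smooth functions with compact support -/
  core : Set (X → ℝ)
  core_test : ∀ {u : X → ℝ}, u ∈ core → IsT u
  core_sub : ∀ {u v : X → ℝ}, u ∈ core → v ∈ core → (fun x => u x - v x) ∈ core
  /-- Hessian in the frame -/
  H : (X → ℝ) → X → S n
  H_meas : ∀ {u : X → ℝ}, u ∈ core → AEStronglyMeasurable (H u) μ
  H_bdd : ∀ {u : X → ℝ}, u ∈ core → ∃ C : ℝ, ∀ᵐ x ∂μ, ‖H u x‖ ≤ C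
  H_supp : ∀ {u : X → ℝ}, u ∈ core → ∀ᵐ x ∂μ, x ∉ tsupport u → H u x = 0
  H_sub : ∀ {u v : X → ℝ}, u ∈ core → v ∈ core →
    ∀ᵐ x ∂μ, H (fun y => u y - v y) x = H u x - H v x
  half_sq : ∀ {u : X → ℝ}, u ∈ core → ∃ P : X → ℝ, IsT P ∧
    (∀ᵐ x ∂μ, P x = ‖G u x‖ ^ 2 / 2) ∧ ∀ᵐ x ∂μ, G P x = mv (H u x) (G u x)
  div : ∀ {u p : X → ℝ}, u ∈ core → IsT p →
    ∫ x, ⟪G u x, G p x⟫ ∂μ = - ∫ x, tr (H u x) * p x ∂μ
  /-- Ricci endomorphism in the frame -/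
  Ric : X → S n
  Ric_meas : AEStronglyMeasurable Ric μ
  Ric_bdd : ∀ K : Set X, IsCompact K → ∃ C : ℝ, ∀ᵐ x ∂μ, x ∈ K → ‖Ric x‖ ≤ C
  Ric_lb : ∀ᵐ x ∂μ, ∀ v : F n, -(κ * ‖v‖ ^ 2) ≤ ⟪mv (Ric x) v, v⟫
  bochner : ∀ {u p : X → ℝ}, u ∈ core → IsT p →
    ∫ x, p x * (‖H u x‖ ^ 2 + ⟪mv (Ric x) (G u x), G u x⟫) ∂μ =
      - ∫ x, ⟪G p x, mv (H u x) (G u x)⟫ ∂μ +
        ∫ x, tr (H u x) * (p x * tr (H u x) + ⟪G p x, G u x⟫) ∂μ

variable {n : ℕ} {κ : ℝ} {X : Type*} [MetricSpace X] [MeasurableSpace X] [BorelSpace X]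
  {μ : Measure X} [IsFiniteMeasureOnCompacts μ]

namespace BochS

variable (B : BochS n κ X μ)

/-! ### boundedness and integrability of test functions -/

lemma test_bdd (G : GradS X (F n) μ) {p : X → ℝ} (hp : IsT p) :
    ∃ C : ℝ, 0 ≤ C ∧ (∀ x, |p x| ≤ C) ∧ ∀ᵐ x ∂μ, ‖G.G p x‖ ≤ C := by
  obtain ⟨C1, hC1⟩ := hp.2.exists_bound_of_continuous hp.1.continuous
  obtain ⟨C2, hC20, hC2⟩ := G.bound_compact hp.1 hp.2.isCompact
  have h0 := G.zero_of_open hp.1 (isClosed_tsupport p).isOpen_compl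
    (fun x hx => image_eq_zero_of_notMem_tsupport hx)
  refine ⟨max C1 C2, le_max_of_le_right hC20, fun x => ?_, ?_⟩
  · exact (hC1 x).trans (le_max_left _ _)
  · filter_upwards [hC2, h0] with x e1 e2
    by_cases hx : x ∈ tsupport p
    · exact (e1 hx).trans (le_max_right _ _)
    · rw [e2 hx, norm_zero]
      exact le_max_of_le_right hC20

lemma G_supp (G : GradS X (F n) μ) {p : X → ℝ} (hp : IsT p) :
    ∀ᵐ x ∂μ, x ∉ tsupport p → G.G p x = 0 :=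
  G.zero_of_open hp.1 (isClosed_tsupport p).isOpen_compl
    (fun x hx => image_eq_zero_of_notMem_tsupport hx)

lemma H_memLp {u : X → ℝ} (hu : u ∈ B.core) : MemLp (B.H u) 2 μ := by
  obtain ⟨C, hC⟩ := B.H_bdd hu
  have hT := B.core_test hu
  have h1 : MemLp ((tsupport u).indicator fun _ => C) 2 μ :=
    memLp_indicator_const 2 (isClosed_tsupport u).measurableSet C
      (Or.inr hT.2.isCompact.measure_lt_top.ne)
  refine h1.mono (B.H_meas hu) ?_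
  filter_upwards [hC, B.H_supp hu] with x e1 e2
  by_cases hx : x ∈ tsupport u
  · rw [indicator_of_mem hx, Real.norm_of_nonneg ((norm_nonneg _).trans e1)]
    exact e1
  · rw [indicator_of_notMem hx, e2 hx]
    simp

lemma G_memLp {u : X → ℝ} (hu : u ∈ B.core) : MemLp (B.G u) 2 μ :=
  (B.core_test hu).memLpG B.toGradS

lemma aesm_tr {A : X → S n} (hA : AEStronglyMeasurable A μ) :
    AEStronglyMeasurable (fun x => tr (A x)) μ :=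
  continuous_tr.comp_aestronglyMeasurable hA

lemma aesm_mv {A : X → S n} {v : X → F n} (hA : AEStronglyMeasurable A μ)
    (hv : AEStronglyMeasurable v μ) : AEStronglyMeasurable (fun x => mv (A x) (v x)) μ :=
  continuous_mv.comp_aestronglyMeasurable (hA.prodMk hv)

lemma memLp_tr {A : X → S n} (hA : MemLp A 2 μ) : MemLp (fun x => tr (A x)) 2 μ := by
  refine (hA.const_smul (√n)).mono (aesm_tr hA.1) (Eventually.of_forall fun _ => ?_)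
  rw [Real.norm_eq_abs, Pi.smul_apply, norm_smul, Real.norm_of_nonneg (Real.sqrt_nonneg _)]
  exact abs_tr_le _

lemma memLp_mv {A : X → S n} {v : X → F n} (hA : MemLp A 2 μ) (hv : AEStronglyMeasurable v μ)
    {C : ℝ} (hC : ∀ᵐ x ∂μ, ‖v x‖ ≤ C) : MemLp (fun x => mv (A x) (v x)) 2 μ := by
  refine (hA.const_smul C).mono (aesm_mv hA.1 hv) ?_
  filter_upwards [hC] with x hx
  rw [Pi.smul_apply, norm_smul, Real.norm_of_nonneg ((norm_nonneg _).trans hx), mul_comm]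
  exact (norm_mv_le _ _).trans (mul_le_mul_of_nonneg_left hx (norm_nonneg _))

/-- `G (χ²) = 2 χ G χ` -/
lemma G_sq {χ : X → ℝ} (hχ : IsT χ) :
    ∀ᵐ x ∂μ, B.G (fun y => χ y * χ y) x = (2 * χ x) • B.G χ x := by
  filter_upwards [B.mul hχ.1 hχ.1] with x hx
  rw [hx]
  module

lemma int_bdd_mul {f p : X → ℝ} (hf : Integrable f μ) (hp : AEStronglyMeasurable p μ) {C : ℝ}
    (hC : ∀ᵐ x ∂μ, |p x| ≤ C) : Integrable (fun x => p x * f x) μ :=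
  hf.bdd_mul hp (c := C) (by simpa [Real.norm_eq_abs] using hC)

lemma Ric_bdd' (K : Set X) (hK : IsCompact K) :
    ∃ C : ℝ, 0 ≤ C ∧ ∀ᵐ x ∂μ, x ∈ K → ‖B.Ric x‖ ≤ C := by
  obtain ⟨C, hC⟩ := B.Ric_bdd K hK
  refine ⟨max C 0, le_max_right _ _, ?_⟩
  filter_upwards [hC] with x hx h
  exact (hx h).trans (le_max_left _ _)

lemma int_Ric {p : X → ℝ} (hp : IsT p) {v : X → F n} (hv : MemLp v 2 μ) :
    Integrable (fun x => p x * ⟪mv (B.Ric x) (v x), v x⟫) μ := by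
  obtain ⟨CR, hCR0, hCR⟩ := B.Ric_bdd' (tsupport p) hp.2.isCompact
  obtain ⟨Cp, hCp0, hCpu, _⟩ := test_bdd B.toGradS hp
  refine ((int_sq hv).const_mul (Cp * CR)).mono'
    (hp.1.continuous.aestronglyMeasurable.mul ((aesm_mv B.Ric_meas hv.1).inner hv.1)) ?_
  filter_upwards [hCR] with x hx
  by_cases hxK : x ∈ tsupport p
  · rw [norm_mul, Real.norm_eq_abs]
    have e2 : ‖⟪mv (B.Ric x) (v x), v x⟫‖ ≤ CR * ‖v x‖ ^ 2 := by
      calc ‖⟪mv (B.Ric x) (v x), v x⟫‖ ≤ ‖mv (B.Ric x) (v x)‖ * ‖v x‖ := norm_inner_le_norm _ _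
        _ ≤ (‖B.Ric x‖ * ‖v x‖) * ‖v x‖ := by gcongr; exact norm_mv_le _ _
        _ ≤ (CR * ‖v x‖) * ‖v x‖ := by gcongr; exact hx hxK
        _ = CR * ‖v x‖ ^ 2 := by ring
    calc |p x| * ‖⟪mv (B.Ric x) (v x), v x⟫‖ ≤ Cp * (CR * ‖v x‖ ^ 2) := by
          gcongr
          exact hCpu x
      _ = Cp * CR * ‖v x‖ ^ 2 := by ring
  · rw [image_eq_zero_of_notMem_tsupport hxK, zero_mul, norm_zero]
    positivity

lemma sq_le_of_inner {a b : F n} {A : S n} {c χ : ℝ} (hχ : 0 ≤ χ) (hc : ‖a‖ ≤ c) :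
    -(2 * χ * ⟪a, mv A b⟫) ≤ χ ^ 2 * ‖A‖ ^ 2 / 2 + 2 * c ^ 2 * ‖b‖ ^ 2 := by
  have h1 : |⟪a, mv A b⟫| ≤ c * (‖A‖ * ‖b‖) :=
    (abs_real_inner_le_norm _ _).trans (mul_le_mul hc (norm_mv_le _ _) (norm_nonneg _)
      ((norm_nonneg _).trans hc))
  have h2 := neg_abs_le ⟪a, mv A b⟫
  have h3 : -(2 * χ * ⟪a, mv A b⟫) ≤ 2 * χ * (c * (‖A‖ * ‖b‖)) := by
    nlinarith
  nlinarith [sq_nonneg (χ * ‖A‖ - 2 * (c * ‖b‖))]

lemma sq_le_of_inner' {a b : F n} {t c χ : ℝ} (hχ : 0 ≤ χ) (hc : ‖a‖ ≤ c) :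
    t * (2 * χ * ⟪a, b⟫) ≤ χ ^ 2 * t ^ 2 + c ^ 2 * ‖b‖ ^ 2 := by
  have h1 : |⟪a, b⟫| ≤ c * ‖b‖ :=
    (abs_real_inner_le_norm _ _).trans (mul_le_mul_of_nonneg_right hc (norm_nonneg _))
  have h3 : t * (2 * χ * ⟪a, b⟫) ≤ 2 * χ * (|t| * (c * ‖b‖)) := by
    have h4 : t * ⟪a, b⟫ ≤ |t| * (c * ‖b‖) := by
      calc t * ⟪a, b⟫ ≤ |t * ⟪a, b⟫| := le_abs_self _
        _ = |t| * |⟪a, b⟫| := abs_mul _ _
        _ ≤ |t| * (c * ‖b‖) := mul_le_mul_of_nonneg_left h1 (abs_nonneg _)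
    nlinarith
  have h5 : χ ^ 2 * t ^ 2 = χ ^ 2 * |t| ^ 2 := by rw [sq_abs]
  nlinarith [sq_nonneg (χ * |t| - c * ‖b‖)]

/-- integrability of the left-hand side of Bochner -/
lemma int_lhs {u p : X → ℝ} (hu : u ∈ B.core) (hp : IsT p) :
    Integrable (fun x => p x * (‖B.H u x‖ ^ 2 + ⟪mv (B.Ric x) (B.G u x), B.G u x⟫)) μ := by
  obtain ⟨Cp, hCp0, hCpu, _⟩ := test_bdd B.toGradS hp
  have i1 := int_bdd_mul (int_sq (B.H_memLp hu)) hp.1.continuous.aestronglyMeasurable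
    (Eventually.of_forall hCpu)
  have i2 := B.int_Ric hp (B.G_memLp hu)
  refine (i1.add i2).congr (Eventually.of_forall fun x => ?_)
  simp only [Pi.add_apply]
  ring

lemma int_rhs1 {u p : X → ℝ} (hu : u ∈ B.core) (hp : IsT p) :
    Integrable (fun x => ⟪B.G p x, mv (B.H u x) (B.G u x)⟫) μ := by
  obtain ⟨CG, _, _, hCG⟩ := test_bdd B.toGradS (B.core_test hu)
  exact int_inner (hp.memLpG B.toGradS) (memLp_mv (B.H_memLp hu) (B.G_memLp hu).1 hCG)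

lemma int_rhs2 {u p : X → ℝ} (hu : u ∈ B.core) (hp : IsT p) :
    Integrable (fun x => tr (B.H u x) * (p x * tr (B.H u x) + ⟪B.G p x, B.G u x⟫)) μ := by
  obtain ⟨Cp, hCp0, hCpu, hCpG⟩ := test_bdd B.toGradS hp
  have hTr := memLp_tr (B.H_memLp hu)
  have hG := B.G_memLp hu
  have h1 : MemLp (fun x => p x * tr (B.H u x)) 2 μ :=
    memLp_bdd_smul hTr hp.1.continuous.aestronglyMeasurable (Eventually.of_forall hCpu)
  have h2 : MemLp (fun x => ⟪B.G p x, B.G u x⟫) 2 μ := by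
    refine (hG.const_smul Cp).mono ((hp.memLpG B.toGradS).1.inner hG.1) ?_
    filter_upwards [hCpG] with x hx
    rw [Pi.smul_apply, norm_smul, Real.norm_of_nonneg hCp0]
    exact (norm_inner_le_norm _ _).trans (mul_le_mul_of_nonneg_right hx (norm_nonneg _))
  exact int_mul hTr (h1.add h2)

/-- **Caccioppoli inequality for the Hessian** of core functions. -/
theorem cacc (hκ : 0 ≤ κ) {u χ : X → ℝ} (hu : u ∈ B.core) (hχ : IsT χ) (h0 : ∀ x, 0 ≤ χ x)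
    (h1 : ∀ x, χ x ≤ 1) {c : ℝ} (hc : ∀ᵐ x ∂μ, ‖B.G χ x‖ ≤ c) :
    ∫ x, χ x ^ 2 * ‖B.H u x‖ ^ 2 ∂μ ≤
      4 * ∫ x in tsupport χ, tr (B.H u x) ^ 2 ∂μ +
        (2 * κ + 6 * c ^ 2) * ∫ x in tsupport χ, ‖B.G u x‖ ^ 2 ∂μ := by
  have hK : MeasurableSet (tsupport χ) := (isClosed_tsupport χ).measurableSet
  have hp : IsT (fun x => χ x * χ x) := hχ.mul hχ.1
  have hb := B.bochner hu hp
  have hH := B.H_memLp hu
  have hG := B.G_memLp hu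
  have hTr := memLp_tr hH
  have hχm : AEStronglyMeasurable χ μ := hχ.1.continuous.aestronglyMeasurable
  have hχ2 : ∀ᵐ x ∂μ, |χ x ^ 2| ≤ 1 := Eventually.of_forall fun x => by
    rw [abs_of_nonneg (sq_nonneg _)]
    exact pow_le_one₀ (h0 x) (h1 x)
  have i1 : Integrable (fun x => χ x ^ 2 * ‖B.H u x‖ ^ 2) μ :=
    int_bdd_mul (int_sq hH) (hχm.pow 2) hχ2
  have i2 : Integrable (fun x => χ x ^ 2 * ⟪mv (B.Ric x) (B.G u x), B.G u x⟫) μ := by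
    refine (B.int_Ric hp hG).congr (Eventually.of_forall fun x => ?_)
    simp only [pow_two]
  have i3 := B.int_rhs1 hu hp
  have i4 := B.int_rhs2 hu hp
  have iT : Integrable (fun x => tr (B.H u x) ^ 2) μ := by
    refine (int_sq hTr).congr (Eventually.of_forall fun x => ?_)
    simp only [Real.norm_eq_abs, sq_abs]
  have iG := int_sq hG
  -- rewrite Bochner
  have e1 : ∫ x, χ x ^ 2 * ‖B.H u x‖ ^ 2 ∂μ = ∫ x, (-(χ x ^ 2 * ⟪mv (B.Ric x) (B.G u x), B.G u x⟫)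
      - ⟪B.G (fun y => χ y * χ y) x, mv (B.H u x) (B.G u x)⟫
      + tr (B.H u x) * (χ x * χ x * tr (B.H u x) + ⟪B.G (fun y => χ y * χ y) x, B.G u x⟫)) ∂μ := by
    have e2 : ∫ x, χ x * χ x * (‖B.H u x‖ ^ 2 + ⟪mv (B.Ric x) (B.G u x), B.G u x⟫) ∂μ =
        ∫ x, χ x ^ 2 * ‖B.H u x‖ ^ 2 ∂μ +
          ∫ x, χ x ^ 2 * ⟪mv (B.Ric x) (B.G u x), B.G u x⟫ ∂μ := by
      rw [← integral_add i1 i2]
      refine integral_congr_ae (Eventually.of_forall fun x => ?_)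
      show χ x * χ x * (‖B.H u x‖ ^ 2 + ⟪mv (B.Ric x) (B.G u x), B.G u x⟫) =
        χ x ^ 2 * ‖B.H u x‖ ^ 2 + χ x ^ 2 * ⟪mv (B.Ric x) (B.G u x), B.G u x⟫
      ring
    have i2n : Integrable (fun x => -(χ x ^ 2 * ⟪mv (B.Ric x) (B.G u x), B.G u x⟫)) μ := i2.neg
    have i5 : Integrable (fun x => -(χ x ^ 2 * ⟪mv (B.Ric x) (B.G u x), B.G u x⟫)
      - ⟪B.G (fun y => χ y * χ y) x, mv (B.H u x) (B.G u x)⟫) μ := i2n.sub i3
    rw [integral_add i5 i4, integral_sub i2n i3, integral_neg]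
    linarith
  -- the pointwise bound
  have key : ∀ᵐ x ∂μ, (-(χ x ^ 2 * ⟪mv (B.Ric x) (B.G u x), B.G u x⟫)
      - ⟪B.G (fun y => χ y * χ y) x, mv (B.H u x) (B.G u x)⟫
      + tr (B.H u x) * (χ x * χ x * tr (B.H u x) + ⟪B.G (fun y => χ y * χ y) x, B.G u x⟫)) ≤
      (χ x ^ 2 * ‖B.H u x‖ ^ 2) / 2 + (tsupport χ).indicator (fun x => 2 * tr (B.H u x) ^ 2 +
        (κ + 3 * c ^ 2) * ‖B.G u x‖ ^ 2) x := by
    filter_upwards [B.G_sq hχ, hc, G_supp B.toGradS hχ, B.Ric_lb] with x e1 e2 e3 e4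
    have e5 : ⟪B.G (fun y => χ y * χ y) x, mv (B.H u x) (B.G u x)⟫ =
        2 * χ x * ⟪B.G χ x, mv (B.H u x) (B.G u x)⟫ := by rw [e1, real_inner_smul_left]
    have e6 : ⟪B.G (fun y => χ y * χ y) x, B.G u x⟫ = 2 * χ x * ⟪B.G χ x, B.G u x⟫ := by
      rw [e1, real_inner_smul_left]
    rw [e5, e6]
    by_cases hx : x ∈ tsupport χ
    · rw [indicator_of_mem hx]
      have f1 := sq_le_of_inner (A := B.H u x) (b := B.G u x) (h0 x) e2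
      have f2 := sq_le_of_inner' (t := tr (B.H u x)) (b := B.G u x) (h0 x) e2
      have f3 := e4 (B.G u x)
      have f4 : χ x ^ 2 ≤ 1 := pow_le_one₀ (h0 x) (h1 x)
      have f5 : -(χ x ^ 2 * ⟪mv (B.Ric x) (B.G u x), B.G u x⟫) ≤ κ * ‖B.G u x‖ ^ 2 := by
        have g1 : -(χ x ^ 2 * ⟪mv (B.Ric x) (B.G u x), B.G u x⟫) ≤
            χ x ^ 2 * (κ * ‖B.G u x‖ ^ 2) := by nlinarith [sq_nonneg (χ x)]
        have g2 : 0 ≤ κ * ‖B.G u x‖ ^ 2 := by positivity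
        nlinarith
      have f6 : χ x ^ 2 * tr (B.H u x) ^ 2 ≤ tr (B.H u x) ^ 2 := by
        nlinarith [sq_nonneg (tr (B.H u x))]
      nlinarith
    · rw [indicator_of_notMem hx, e3 hx, image_eq_zero_of_notMem_tsupport hx]
      simp
  have i6 : Integrable (fun x => 2 * tr (B.H u x) ^ 2 + (κ + 3 * c ^ 2) * ‖B.G u x‖ ^ 2) μ :=
    (iT.const_mul 2).add (iG.const_mul _)
  have i7 : Integrable (fun x => (-(χ x ^ 2 * ⟪mv (B.Ric x) (B.G u x), B.G u x⟫)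
      - ⟪B.G (fun y => χ y * χ y) x, mv (B.H u x) (B.G u x)⟫
      + tr (B.H u x) * (χ x * χ x * tr (B.H u x) + ⟪B.G (fun y => χ y * χ y) x, B.G u x⟫))) μ :=
    (i2.neg.sub i3).add i4
  have i8 : Integrable (fun x => χ x ^ 2 * ‖B.H u x‖ ^ 2 / 2) μ := i1.div_const 2
  have i9 := i6.indicator hK
  have i10 : Integrable (fun x => χ x ^ 2 * ‖B.H u x‖ ^ 2 / 2 + (tsupport χ).indicator
      (fun x => 2 * tr (B.H u x) ^ 2 + (κ + 3 * c ^ 2) * ‖B.G u x‖ ^ 2) x) μ := i8.add i9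
  have h2 := integral_mono_ae i7 i10 key
  rw [← e1, integral_add i8 i9, integral_div, integral_indicator hK,
      integral_add (iT.const_mul 2).integrableOn (iG.const_mul _).integrableOn,
      integral_const_mul, integral_const_mul] at h2
  linarith

lemma quart_pt {a b : F n} {A : S n} {u c ζ S0 : ℝ} (hζ : 0 ≤ ζ) (hu : |u| ≤ S0)
    (hc : ‖a‖ ≤ c) :
    -(tr A * (ζ ^ 2 * (u * (‖b‖ ^ 2 / 2)))) - (ζ ^ 2 * u * ⟪b, mv A b⟫ +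
      u * (‖b‖ ^ 2 / 2) * (2 * ζ * ⟪b, a⟫)) ≤ ζ ^ 2 * ‖b‖ ^ 4 / 4 +
      S0 ^ 2 * ((√n + 2) ^ 2 / 2 * (ζ ^ 2 * ‖A‖ ^ 2) + 2 * c ^ 2 * ‖b‖ ^ 2) := by
  have hS : 0 ≤ S0 := (abs_nonneg _).trans hu
  have hc0 : 0 ≤ c := (norm_nonneg _).trans hc
  have t1 : -(tr A * (ζ ^ 2 * (u * (‖b‖ ^ 2 / 2)))) ≤ (√n * ‖A‖) * (ζ ^ 2 * (S0 * (‖b‖ ^ 2 / 2))) := by
    calc -(tr A * (ζ ^ 2 * (u * (‖b‖ ^ 2 / 2)))) ≤ |tr A * (ζ ^ 2 * (u * (‖b‖ ^ 2 / 2)))| :=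
          neg_le_abs _
      _ = |tr A| * (ζ ^ 2 * (|u| * (‖b‖ ^ 2 / 2))) := by
          rw [abs_mul, abs_mul, abs_mul, abs_of_nonneg (sq_nonneg ζ),
            abs_of_nonneg (by positivity : (0:ℝ) ≤ ‖b‖ ^ 2 / 2)]
      _ ≤ (√n * ‖A‖) * (ζ ^ 2 * (S0 * (‖b‖ ^ 2 / 2))) := by
          gcongr
          exact abs_tr_le A
  have t2 : -(ζ ^ 2 * u * ⟪b, mv A b⟫) ≤ ζ ^ 2 * S0 * (‖b‖ * (‖A‖ * ‖b‖)) := by
    calc -(ζ ^ 2 * u * ⟪b, mv A b⟫) ≤ |ζ ^ 2 * u * ⟪b, mv A b⟫| := neg_le_abs _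
      _ = ζ ^ 2 * |u| * |⟪b, mv A b⟫| := by rw [abs_mul, abs_mul, abs_of_nonneg (sq_nonneg ζ)]
      _ ≤ ζ ^ 2 * S0 * (‖b‖ * (‖A‖ * ‖b‖)) := by
          gcongr
          exact (abs_real_inner_le_norm _ _).trans (by gcongr; exact norm_mv_le _ _)
  have t3 : -(u * (‖b‖ ^ 2 / 2) * (2 * ζ * ⟪b, a⟫)) ≤ S0 * ‖b‖ ^ 2 * (ζ * (‖b‖ * c)) := by
    calc -(u * (‖b‖ ^ 2 / 2) * (2 * ζ * ⟪b, a⟫)) ≤ |u * (‖b‖ ^ 2 / 2) * (2 * ζ * ⟪b, a⟫)| :=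
          neg_le_abs _
      _ = |u| * ‖b‖ ^ 2 * (ζ * |⟪b, a⟫|) := by
          rw [abs_mul, abs_mul, abs_mul, abs_mul, abs_of_nonneg hζ,
            abs_of_nonneg (by positivity : (0:ℝ) ≤ ‖b‖ ^ 2 / 2), abs_of_pos (by norm_num : (0:ℝ) < 2)]
          ring
      _ ≤ S0 * ‖b‖ ^ 2 * (ζ * (‖b‖ * c)) := by
          gcongr
          exact (abs_real_inner_le_norm _ _).trans (by gcongr)
  -- combine: a = ζ ‖b‖²
  set a' := ζ * ‖b‖ ^ 2 with ha'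
  have h1 : (√n * ‖A‖) * (ζ ^ 2 * (S0 * (‖b‖ ^ 2 / 2))) + ζ ^ 2 * S0 * (‖b‖ * (‖A‖ * ‖b‖)) +
      S0 * ‖b‖ ^ 2 * (ζ * (‖b‖ * c)) = a' * (S0 * ((√n / 2 + 1) * (ζ * ‖A‖)) + S0 * (c * ‖b‖)) := by
    rw [ha']; ring
  have h2 : a' * (S0 * ((√n / 2 + 1) * (ζ * ‖A‖)) + S0 * (c * ‖b‖)) ≤ a' ^ 2 / 4 +
      (S0 * ((√n / 2 + 1) * (ζ * ‖A‖)) + S0 * (c * ‖b‖)) ^ 2 := by
    nlinarith [sq_nonneg (a' / 2 - (S0 * ((√n / 2 + 1) * (ζ * ‖A‖)) + S0 * (c * ‖b‖)))]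
  have h3 : (S0 * ((√n / 2 + 1) * (ζ * ‖A‖)) + S0 * (c * ‖b‖)) ^ 2 ≤
      2 * (S0 * ((√n / 2 + 1) * (ζ * ‖A‖))) ^ 2 + 2 * (S0 * (c * ‖b‖)) ^ 2 := by
    nlinarith [sq_nonneg (S0 * ((√n / 2 + 1) * (ζ * ‖A‖)) - S0 * (c * ‖b‖))]
  have h4 : a' ^ 2 = ζ ^ 2 * ‖b‖ ^ 4 := by rw [ha']; ring
  have h5 : 2 * (S0 * ((√n / 2 + 1) * (ζ * ‖A‖))) ^ 2 + 2 * (S0 * (c * ‖b‖)) ^ 2 =
      S0 ^ 2 * ((√n + 2) ^ 2 / 2 * (ζ ^ 2 * ‖A‖ ^ 2) + 2 * c ^ 2 * ‖b‖ ^ 2) := by ring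
  rw [← h4]
  linarith

/-- **Interpolation**: `L⁴` bound of the gradient of a bounded core function. -/
theorem quart {u ζ : X → ℝ} (hu : u ∈ B.core) (hζ : IsT ζ) (h0 : ∀ x, 0 ≤ ζ x)
    (h1 : ∀ x, ζ x ≤ 1) {c : ℝ} (hc : ∀ᵐ x ∂μ, ‖B.G ζ x‖ ≤ c) {S0 : ℝ} (hS : ∀ x, |u x| ≤ S0) :
    ∫ x, ζ x ^ 2 * ‖B.G u x‖ ^ 4 ∂μ ≤
      S0 ^ 2 * (2 * (√n + 2) ^ 2 * ∫ x, ζ x ^ 2 * ‖B.H u x‖ ^ 2 ∂μ +
        8 * c ^ 2 * ∫ x in tsupport ζ, ‖B.G u x‖ ^ 2 ∂μ) := by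
  have hK : MeasurableSet (tsupport ζ) := (isClosed_tsupport ζ).measurableSet
  obtain ⟨P, hP, hPe, hPG⟩ := B.half_sq hu
  have hT := B.core_test hu
  have hz : IsT (fun x => ζ x * ζ x) := hζ.mul hζ.1
  have huP : IsT (fun x => u x * P x) := hT.mul hP.1
  have hp : IsT (fun x => (ζ x * ζ x) * (u x * P x)) := hz.mul huP.1
  have hb := B.div hu hp
  have hH := B.H_memLp hu
  have hG := B.G_memLp hu
  have hTr := memLp_tr hH
  have hζm : AEStronglyMeasurable ζ μ := hζ.1.continuous.aestronglyMeasurable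
  have hζ2 : ∀ᵐ x ∂μ, |ζ x ^ 2| ≤ 1 := Eventually.of_forall fun x => by
    rw [abs_of_nonneg (sq_nonneg _)]
    exact pow_le_one₀ (h0 x) (h1 x)
  have i1 : Integrable (fun x => ζ x ^ 2 * ‖B.H u x‖ ^ 2) μ :=
    int_bdd_mul (int_sq hH) (hζm.pow 2) hζ2
  have iG := int_sq hG
  have i4 : Integrable (fun x => ζ x ^ 2 * ‖B.G u x‖ ^ 4) μ := by
    have j1 : Integrable (fun x => P x * P x) μ := int_mul hP.memLp hP.memLp
    have j2 : Integrable (fun x => ζ x ^ 2 * (4 * (P x * P x))) μ :=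
      int_bdd_mul (j1.const_mul 4) (hζm.pow 2) hζ2
    refine j2.congr ?_
    filter_upwards [hPe] with x hx
    rw [hx]; ring
  have i5 : Integrable (fun x => ⟪B.G u x, B.G (fun x => (ζ x * ζ x) * (u x * P x)) x⟫) μ :=
    int_inner hG (hp.memLpG B.toGradS)
  have i6 : Integrable (fun x => tr (B.H u x) * ((ζ x * ζ x) * (u x * P x))) μ :=
    int_mul hTr hp.memLp
  have eG : ∀ᵐ x ∂μ, ⟪B.G u x, B.G (fun x => (ζ x * ζ x) * (u x * P x)) x⟫ =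
      ζ x ^ 2 * ‖B.G u x‖ ^ 4 / 2 + (ζ x ^ 2 * u x * ⟪B.G u x, mv (B.H u x) (B.G u x)⟫ +
        u x * (‖B.G u x‖ ^ 2 / 2) * (2 * ζ x * ⟪B.G u x, B.G ζ x⟫)) := by
    filter_upwards [B.mul hz.1 huP.1, B.mul hT.1 hP.1, B.G_sq hζ, hPe, hPG] with x e1 e2 e3 e4 e5
    rw [e1, e2, e3, e5, e4]
    simp only [inner_add_right, inner_smul_right, real_inner_self_eq_norm_sq]
    ring
  have e1 : (∫ x, ζ x ^ 2 * ‖B.G u x‖ ^ 4 ∂μ) / 2 =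
      ∫ x, (-(tr (B.H u x) * (ζ x ^ 2 * (u x * (‖B.G u x‖ ^ 2 / 2)))) -
        (ζ x ^ 2 * u x * ⟪B.G u x, mv (B.H u x) (B.G u x)⟫ +
        u x * (‖B.G u x‖ ^ 2 / 2) * (2 * ζ x * ⟪B.G u x, B.G ζ x⟫))) ∂μ := by
    have e2 : ∀ᵐ x ∂μ, (-(tr (B.H u x) * (ζ x ^ 2 * (u x * (‖B.G u x‖ ^ 2 / 2)))) -
        (ζ x ^ 2 * u x * ⟪B.G u x, mv (B.H u x) (B.G u x)⟫ +
        u x * (‖B.G u x‖ ^ 2 / 2) * (2 * ζ x * ⟪B.G u x, B.G ζ x⟫))) =
        ζ x ^ 2 * ‖B.G u x‖ ^ 4 / 2 - (⟪B.G u x, B.G (fun x => (ζ x * ζ x) * (u x * P x)) x⟫ +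
          tr (B.H u x) * ((ζ x * ζ x) * (u x * P x))) := by
      filter_upwards [eG, hPe] with x e3 e4
      rw [e3, e4]; ring
    have i7 : Integrable (fun x => ⟪B.G u x, B.G (fun x => (ζ x * ζ x) * (u x * P x)) x⟫ +
          tr (B.H u x) * ((ζ x * ζ x) * (u x * P x))) μ := i5.add i6
    rw [integral_congr_ae e2, integral_sub (i4.div_const 2) i7, integral_div,
      integral_add i5 i6, hb]
    ring
  have key : ∀ᵐ x ∂μ, (-(tr (B.H u x) * (ζ x ^ 2 * (u x * (‖B.G u x‖ ^ 2 / 2)))) -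
        (ζ x ^ 2 * u x * ⟪B.G u x, mv (B.H u x) (B.G u x)⟫ +
        u x * (‖B.G u x‖ ^ 2 / 2) * (2 * ζ x * ⟪B.G u x, B.G ζ x⟫))) ≤
      ζ x ^ 2 * ‖B.G u x‖ ^ 4 / 4 + (S0 ^ 2 * ((√n + 2) ^ 2 / 2 * (ζ x ^ 2 * ‖B.H u x‖ ^ 2)) +
        (tsupport ζ).indicator (fun x => S0 ^ 2 * (2 * c ^ 2 * ‖B.G u x‖ ^ 2)) x) := by
    filter_upwards [hc, G_supp B.toGradS hζ] with x e1 e2
    by_cases hx : x ∈ tsupport ζ
    · rw [indicator_of_mem hx]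
      have := quart_pt (A := B.H u x) (b := B.G u x) (h0 x) (hS x) e1
      linarith
    · rw [indicator_of_notMem hx, e2 hx, image_eq_zero_of_notMem_tsupport hx]
      simp
  have j1 : Integrable (fun x => ζ x ^ 2 * ‖B.G u x‖ ^ 4 / 4) μ := i4.div_const 4
  have j2 : Integrable (fun x => S0 ^ 2 * ((√n + 2) ^ 2 / 2 * (ζ x ^ 2 * ‖B.H u x‖ ^ 2))) μ :=
    (i1.const_mul _).const_mul _
  have j3' : Integrable (fun x => S0 ^ 2 * (2 * c ^ 2 * ‖B.G u x‖ ^ 2)) μ :=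
    (iG.const_mul _).const_mul _
  have j3 := j3'.indicator hK
  have j4 : Integrable (fun x => S0 ^ 2 * ((√n + 2) ^ 2 / 2 * (ζ x ^ 2 * ‖B.H u x‖ ^ 2)) +
        (tsupport ζ).indicator (fun x => S0 ^ 2 * (2 * c ^ 2 * ‖B.G u x‖ ^ 2)) x) μ := j2.add j3
  have j5 : Integrable (fun x => ζ x ^ 2 * ‖B.G u x‖ ^ 4 / 4 +
      (S0 ^ 2 * ((√n + 2) ^ 2 / 2 * (ζ x ^ 2 * ‖B.H u x‖ ^ 2)) +
        (tsupport ζ).indicator (fun x => S0 ^ 2 * (2 * c ^ 2 * ‖B.G u x‖ ^ 2)) x)) μ := j1.add j4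
  have j6 : Integrable (fun x => (-(tr (B.H u x) * (ζ x ^ 2 * (u x * (‖B.G u x‖ ^ 2 / 2)))) -
        (ζ x ^ 2 * u x * ⟪B.G u x, mv (B.H u x) (B.G u x)⟫ +
        u x * (‖B.G u x‖ ^ 2 / 2) * (2 * ζ x * ⟪B.G u x, B.G ζ x⟫)))) μ := by
    have i7 : Integrable (fun x => ⟪B.G u x, B.G (fun x => (ζ x * ζ x) * (u x * P x)) x⟫ +
          tr (B.H u x) * ((ζ x * ζ x) * (u x * P x))) μ := i5.add i6
    refine ((i4.div_const 2).sub i7).congr ?_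
    filter_upwards [eG, hPe] with x e3 e4
    simp only [Pi.sub_apply]
    rw [e3, e4]; ring
  have h2 := integral_mono_ae j6 j5 key
  rw [← e1, integral_add j1 j4, integral_add j2 j3, integral_div, integral_const_mul,
    integral_const_mul, integral_indicator hK, integral_const_mul, integral_const_mul] at h2
  linarith

end BochS

end Crest.Agent.R247.Hes124
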