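import Crest.Agent.R247.Fv1_510
import Crest.Agent.R247.Hes2_124
import Crest.Agent.R247.Smv0_126

/-!
R247, block (5-V) (helper510), part 2: `H²` functions along almost every minimising segment.

`SegS B C` : calculus of the core functions of a `BochS` along almost every segment of a `Rad`
(`s p t` = unit tangent in the frame).  `H2 B w u Du A` : `w k → u`, `G (w k) → Du`,
`H (w k) → A` in `L²_loc`.  Then for almost every pair `u`, `⟪Du, s⟫`, `⟪Du, Du'⟫` are absolutely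
continuous along the segment with the expected derivatives.
-/

set_option autoImplicit false
set_option linter.unusedSectionVars false
open MeasureTheory Set Filter Topology
open scoped ENNReal NNReal RealInnerProductSpace

noncomputable section
namespace Crest.Agent.R247.Fv510

open Crest.Agent.R247.Mcp688 Crest.Agent.R247.Hes124 Crest.Agent.R247.Dir593
  Crest.Agent.R247.Dir593.GradS
open Crest.Agent.R247.Smv126 (hf)

/-! ### one dimensional primitives -/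

/-- a function with bounded derivative on `(a,b)` is a primitive -/
lemma prim_of_deriv {a b : ℝ} (hab : a < b) {f f' : ℝ → ℝ}
    (hd : ∀ t ∈ Ioo a b, HasDerivAt f (f' t) t) {C : ℝ}
    (hC : ∀ᵐ t ∂(volume.restrict (Icc a b)), |f' t| ≤ C) :
    IntervalIntegrable f' volume a b ∧
      ∃ c₀, ∀ᵐ t ∂(volume.restrict (Icc a b)), f t = c₀ + ∫ s in a..t, f' s := by
  have hr : volume.restrict (Icc a b) = volume.restrict (Ioo a b) :=
    (Measure.restrict_congr_set Ioo_ae_eq_Icc).symm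
  have hmeas : AEStronglyMeasurable f' (volume.restrict (Ioo a b)) := by
    refine ((stronglyMeasurable_deriv f).aestronglyMeasurable).congr ?_
    filter_upwards [ae_restrict_mem measurableSet_Ioo] with t ht
    exact (hd t ht).deriv
  have hint : IntegrableOn f' (Ioo a b) := by
    refine (integrable_const C).mono' hmeas ?_
    rw [← hr]
    simpa [Real.norm_eq_abs] using hC
  have hI : IntervalIntegrable f' volume a b := by
    rw [intervalIntegrable_iff_integrableOn_Ioo_of_le hab.le]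
    exact hint
  refine ⟨hI, ?_⟩
  obtain ⟨m, hm⟩ := exists_between hab
  refine ⟨f m - ∫ s in a..m, f' s, ?_⟩
  rw [hr]
  filter_upwards [ae_restrict_mem measurableSet_Ioo] with t ht
  have hI1 : IntervalIntegrable f' volume a m :=
    hI.mono_set (by rw [uIcc_of_le hm.1.le, uIcc_of_le hab.le]; exact Icc_subset_Icc_right hm.2.le)
  have hI2 : IntervalIntegrable f' volume m t := by
    refine hI.mono_set ?_
    rw [uIcc_of_le hab.le]
    exact uIcc_subset_Icc ⟨hm.1.le, hm.2.le⟩ ⟨ht.1.le, ht.2.le⟩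
  have h1 : ∫ s in m..t, f' s = f t - f m := by
    refine intervalIntegral.integral_eq_sub_of_hasDerivAt (fun s hs => ?_) hI2
    refine hd s ?_
    have := hs
    rw [uIcc, mem_Icc] at this
    exact ⟨lt_of_lt_of_le (lt_min hm.1 ht.1) this.1, lt_of_le_of_lt this.2 (max_lt hm.2 ht.2)⟩
  have h2 : ∫ s in a..t, f' s = (∫ s in a..m, f' s) + ∫ s in m..t, f' s :=
    (intervalIntegral.integral_add_adjacent_intervals hI1 hI2).symm
  rw [h2, h1]
  ring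

/-! ### `L¹` errors from `L²` convergence -/

section L1

variable {X : Type*} [MeasurableSpace X] {ν : Measure X}
variable {E : Type*} [NormedAddCommGroup E] [InnerProductSpace ℝ E]
variable {E' : Type*} [NormedAddCommGroup E'] [InnerProductSpace ℝ E']

/-- product of an `L²`-null sequence with an `L²`-bounded one tends to zero in `L¹` -/
lemma tendsto_mul_L1 {f : ℕ → X → E} {g : ℕ → X → E'} (hf : ∀ k, MemLp (f k) 2 ν)
    (hg : ∀ k, MemLp (g k) 2 ν) (h0 : Tendsto (fun k => ∫ x, ‖f k x‖ ^ 2 ∂ν) atTop (𝓝 0))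
    {B : ℝ} (hB : Tendsto (fun k => ∫ x, ‖g k x‖ ^ 2 ∂ν) atTop (𝓝 B)) :
    Tendsto (fun k => ∫⁻ x, ENNReal.ofReal (‖f k x‖ * ‖g k x‖) ∂ν) atTop (𝓝 0) := by
  have e : ∀ k, ∫⁻ x, ENNReal.ofReal (‖f k x‖ * ‖g k x‖) ∂ν =
      ENNReal.ofReal (∫ x, ‖f k x‖ * ‖g k x‖ ∂ν) := fun k =>
    (ofReal_integral_eq_lintegral_ofReal (int_norm_mul (hf k) (hg k))
      (Eventually.of_forall fun x => by positivity)).symm
  simp only [e]
  rw [← ENNReal.ofReal_zero]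
  refine (ENNReal.continuous_ofReal.tendsto 0).comp ?_
  have h1 : Tendsto (fun k => √(∫ x, ‖f k x‖ ^ 2 ∂ν) * √(∫ x, ‖g k x‖ ^ 2 ∂ν)) atTop (𝓝 0) := by
    have := h0.sqrt.mul hB.sqrt
    simpa using this
  exact squeeze_zero (fun k => integral_nonneg fun x => by positivity)
    (fun k => cs_norm (hf k) (hg k)) h1

lemma L2To.tendsto_L1 [IsFiniteMeasure ν] {f : ℕ → X → E} {g : X → E} (h : L2To ν f g) :
    Tendsto (fun k => ∫⁻ x, ENNReal.ofReal ‖f k x - g x‖ ∂ν) atTop (𝓝 0) := by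
  have h1 := tendsto_mul_L1 (ν := ν) (f := fun k x => f k x - g x) (g := fun _ _ => (1 : ℝ))
    (fun k => (h.mem k).sub h.mem') (fun k => memLp_const 1) h.lim tendsto_const_nhds
  simpa using h1

/-- convergence of the error `‖f_k - g‖ ‖f'_k‖ + ‖g‖ ‖f'_k - g'‖` -/
lemma L2To.tendsto_prod {f : ℕ → X → E} {g : X → E} {f' : ℕ → X → E'} {g' : X → E'}
    (h : L2To ν f g) (h' : L2To ν f' g') :
    Tendsto (fun k => ∫⁻ x, ENNReal.ofReal (‖f k x - g x‖ * ‖f' k x‖ + ‖g x‖ * ‖f' k x - g' x‖) ∂ν)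
      atTop (𝓝 0) := by
  have h1 := tendsto_mul_L1 (ν := ν) (fun k => (h.mem k).sub h.mem') (fun k => h'.mem k) h.lim
    h'.norm_sq
  have h2 := tendsto_mul_L1 (ν := ν) (fun k => (h'.mem k).sub h'.mem') (fun _ => h.mem') h'.lim
    tendsto_const_nhds
  have h3 := h1.add h2
  rw [add_zero] at h3
  refine h3.congr fun k => ?_
  simp only [Pi.sub_apply]
  have hm1 : AEMeasurable (fun x => ENNReal.ofReal (‖f k x - g x‖ * ‖f' k x‖)) ν :=
    (int_norm_mul ((h.mem k).sub h.mem') (h'.mem k)).1.aemeasurable.ennreal_ofReal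
  rw [← lintegral_add_left' hm1]
  refine lintegral_congr fun x => ?_
  rw [← ENNReal.ofReal_add (by positivity) (by positivity), mul_comm ‖g x‖]

end L1

/-! ### from balls to almost every pair -/

section pairs

variable {n : ℕ} {κ : ℝ} {X : Type*} [MetricSpace X] [MeasurableSpace X] [BorelSpace X]
  {μ : Measure X} (C : Rad n κ X μ)

lemma ae_pair_of_balls [SFinite μ] (x₀ : X) {q : X × X → Prop}
    (h : ∀ m : ℕ, ∀ᵐ p ∂((μ.restrict (Metric.ball x₀ m)).prod (μ.restrict (Metric.ball x₀ m))),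
      q p) : ∀ᵐ p ∂(μ.prod μ), q p := by
  have h1 : ∀ m : ℕ, ∀ᵐ p ∂((μ.prod μ).restrict (Metric.ball x₀ m ×ˢ Metric.ball x₀ m)), q p :=
    fun m => by rw [← Measure.prod_restrict]; exact h m
  have h2 := (ae_restrict_iUnion_iff (μ := μ.prod μ)
    (fun m : ℕ => Metric.ball x₀ (m : ℝ) ×ˢ Metric.ball x₀ (m : ℝ)) q).2 h1
  have h3 : (⋃ m : ℕ, Metric.ball x₀ (m : ℝ) ×ˢ Metric.ball x₀ (m : ℝ)) = (univ : Set (X × X)) := by
    ext p
    simp only [mem_iUnion, mem_prod, Metric.mem_ball, mem_univ, iff_true]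
    obtain ⟨m, hm⟩ := exists_nat_gt (max (dist p.1 x₀) (dist p.2 x₀))
    exact ⟨m, (le_max_left _ _).trans_lt hm, (le_max_right _ _).trans_lt hm⟩
  rwa [h3, Measure.restrict_univ] at h2

include C in
lemma ae_seg_all [SFinite μ] (hκ : 0 ≤ κ) {q : X → Prop} (hq : ∀ᵐ y ∂μ, q y) :
    ∀ᵐ p ∂(μ.prod μ), ∀ᵐ t ∂(volume.restrict (Icc (0 : ℝ) 1)), q (C.T p.1 t p.2) := by
  by_cases hX : Nonempty X
  · obtain ⟨x₀⟩ := hX
    refine ae_pair_of_balls x₀ fun m => ?_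
    refine ae_seg C hκ Metric.isOpen_ball.measurableSet Metric.isOpen_ball.measurableSet
      (D := 2 * m) (fun x hx z hz => ?_) hq
    have := dist_triangle_right x z x₀
    rw [Metric.mem_ball] at hx hz
    linarith
  · exact Eventually.of_forall fun p => (hX ⟨p.1⟩).elim

/-- **Limit along almost every minimising segment**, `L¹_loc` errors. -/
theorem seg_limit_all [ProperSpace X] [IsFiniteMeasureOnCompacts μ] [SFinite μ] (hκ : 0 ≤ κ)
    {e : ℕ → X → ℝ≥0∞} (he : ∀ K, IsCompact K → ∀ k, AEMeasurable (e k) (μ.restrict K))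
    (hlim : ∀ K, IsCompact K → Tendsto (fun k => ∫⁻ y in K, e k y ∂μ) atTop (𝓝 0))
    (wt : X × X → ℝ≥0) {Φk Ψk : ℕ → X × X → ℝ → ℝ} {Φ Ψ : X × X → ℝ → ℝ}
    (hΦ : ∀ k, ∀ᵐ p ∂(μ.prod μ), ∀ᵐ t ∂(volume.restrict (Icc (0 : ℝ) 1)),
      ENNReal.ofReal |Φk k p t - Φ p t| ≤ wt p * e k (C.T p.1 t p.2))
    (hΨ : ∀ k, ∀ᵐ p ∂(μ.prod μ), ∀ᵐ t ∂(volume.restrict (Icc (0 : ℝ) 1)),
      ENNReal.ofReal |Ψk k p t - Ψ p t| ≤ wt p * e k (C.T p.1 t p.2))
    (hD : ∀ k, ∀ᵐ p ∂(μ.prod μ), IntervalIntegrable (Ψk k p) volume 0 1 ∧ ∃ c₀,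
      ∀ᵐ t ∂(volume.restrict (Icc (0 : ℝ) 1)), Φk k p t = c₀ + ∫ s in (0 : ℝ)..t, Ψk k p s) :
    ∀ᵐ p ∂(μ.prod μ), IntervalIntegrable (Ψ p) volume 0 1 ∧
      ∃ c₀, ∀ᵐ t ∂(volume.restrict (Icc (0 : ℝ) 1)), Φ p t = c₀ + ∫ s in (0 : ℝ)..t, Ψ p s := by
  by_cases hX : Nonempty X
  swap
  · exact Eventually.of_forall fun p => (hX ⟨p.1⟩).elim
  obtain ⟨x₀⟩ := hX
  refine ae_pair_of_balls x₀ fun m => ?_
  set B : Set X := Metric.ball x₀ m with hB
  set W : Set X := Metric.closedBall x₀ (3 * m) with hW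
  have hWc : IsCompact W := isCompact_closedBall _ _
  have hac : ∀ {q : X × X → Prop}, (∀ᵐ p ∂(μ.prod μ), q p) →
      ∀ᵐ p ∂((μ.restrict B).prod (μ.restrict B)), q p := by
    intro q hq
    rw [Measure.prod_restrict]
    exact ae_restrict_of_ae hq
  have hBm : MeasurableSet B := Metric.isOpen_ball.measurableSet
  have hdist : ∀ x ∈ B, ∀ z ∈ B, dist x z ≤ 2 * m := by
    intro x hx z hz
    have := dist_triangle_right x z x₀
    rw [hB, Metric.mem_ball] at hx hz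
    linarith
  have hABW : ∀ x ∈ B, ∀ z ∈ B, (x, z) ∈ C.U → ∀ t ∈ Icc (0 : ℝ) 1, C.T x t z ∈ W := by
    intro x hx z hz hU t ht
    rw [hW, Metric.mem_closedBall]
    have h1 := C.dist_left hU ht
    have h2 : t * dist x z ≤ 1 * dist x z := by gcongr; exact ht.2
    have h3 := hdist x hx z hz
    have h4 := dist_triangle (C.T x t z) x x₀
    rw [hB, Metric.mem_ball] at hx
    rw [dist_comm (C.T x t z) x] at h4
    linarith
  have hBf : μ B ≠ ∞ := (lt_of_le_of_lt (measure_mono Metric.ball_subset_closedBall)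
    (isCompact_closedBall x₀ (m : ℝ)).measure_lt_top).ne
  -- measurable versions of the errors
  set e' : ℕ → X → ℝ≥0∞ := fun k => (he W hWc k).mk (e k) with he'
  have hee : ∀ k, ∀ᵐ y ∂μ, y ∈ W → e k y = e' k y := fun k =>
    (ae_restrict_iff' hWc.measurableSet).1 (he W hWc k).ae_eq_mk
  have hlim' : Tendsto (fun k => ∫⁻ y in W, e' k y ∂μ) atTop (𝓝 0) := by
    refine (hlim W hWc).congr fun k => ?_
    exact lintegral_congr_ae (he W hWc k).ae_eq_mk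
  have hae : ∀ k, ∀ᵐ p ∂((μ.restrict B).prod (μ.restrict B)),
      ∀ᵐ t ∂(volume.restrict (Icc (0 : ℝ) 1)), e k (C.T p.1 t p.2) = e' k (C.T p.1 t p.2) := by
    intro k
    have hmem : ∀ᵐ p ∂((μ.restrict B).prod (μ.restrict B)), p ∈ B ×ˢ B ∧ p ∈ C.U := by
      rw [Measure.prod_restrict]
      refine (ae_restrict_mem (hBm.prod hBm)).and (ae_restrict_of_ae ?_)
      exact Measure.ae_prod_iff_ae_ae (p := fun p : X × X => p ∈ C.U) C.measU |>.2
        (Eventually.of_forall fun x => C.ae_U x)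
    filter_upwards [ae_seg C hκ hBm hBm hdist (hee k), hmem] with p hp hpm
    filter_upwards [hp, ae_restrict_mem measurableSet_Icc] with t ht htm
    exact ht (hABW p.1 hpm.1.1 p.2 hpm.1.2 hpm.2 t htm)
  refine seg_limit C hκ hBm hBm hWc.measurableSet hdist hABW hBf hBf
    (e := e') (fun k => (he W hWc k).measurable_mk) hlim' wt (Φk := Φk) (Ψk := Ψk) ?_ ?_ ?_ ?_
  · intro k
    filter_upwards [hac (hΦ k), hae k] with p h1 h2
    filter_upwards [h1, h2] with t h3 h4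
    rwa [← h4]
  · intro k
    filter_upwards [hac (hΨ k), hae k] with p h1 h2
    filter_upwards [h1, h2] with t h3 h4
    rwa [← h4]
  · exact fun k => (hac (hD k)).mono fun p hp => hp.1
  · exact fun k => (hac (hD k)).mono fun p hp => hp.2

end pairs

/-! ### the interface: calculus of core functions along almost every segment -/

section SegS

variable {n : ℕ} {κ κ' : ℝ} {X : Type*} [MetricSpace X] [MeasurableSpace X] [BorelSpace X]
  {μ : Measure X}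

/-- Calculus along almost every minimising segment `t ↦ T p.1 t p.2`; `s p t` = unit tangent at
`T p.1 t p.2` in the orthonormal frame. -/
structure SegS (B : BochS n κ' X μ) (C : Rad n κ X μ) where
  s : X × X → ℝ → F n
  norm_s : ∀ᵐ p ∂(μ.prod μ), ∀ t ∈ Ioo (0 : ℝ) 1, ‖s p t‖ = 1
  d1 : ∀ {v : X → ℝ}, v ∈ B.core → ∀ᵐ p ∂(μ.prod μ), ∀ t ∈ Ioo (0 : ℝ) 1,
    HasDerivAt (fun t => v (C.T p.1 t p.2)) (dist p.1 p.2 * ⟪B.G v (C.T p.1 t p.2), s p t⟫) t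
  d2 : ∀ {v : X → ℝ}, v ∈ B.core → ∀ᵐ p ∂(μ.prod μ), ∀ t ∈ Ioo (0 : ℝ) 1,
    HasDerivAt (fun t => ⟪B.G v (C.T p.1 t p.2), s p t⟫)
      (dist p.1 p.2 * ⟪mv (B.H v (C.T p.1 t p.2)) (s p t), s p t⟫) t
  d3 : ∀ {v v' : X → ℝ}, v ∈ B.core → v' ∈ B.core →
    ∀ᵐ p ∂(μ.prod μ), ∀ t ∈ Ioo (0 : ℝ) 1,
    HasDerivAt (fun t => ⟪B.G v (C.T p.1 t p.2), B.G v' (C.T p.1 t p.2)⟫)
      (dist p.1 p.2 * (⟪mv (B.H v (C.T p.1 t p.2)) (s p t), B.G v' (C.T p.1 t p.2)⟫ +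
        ⟪B.G v (C.T p.1 t p.2), mv (B.H v' (C.T p.1 t p.2)) (s p t)⟫)) t
  /-- locally Lipschitz functions, at almost every time -/
  dl : ∀ {f : X → ℝ}, LocallyLipschitz f → ∀ᵐ p ∂(μ.prod μ),
    ∀ᵐ t ∂(volume.restrict (Ioo (0 : ℝ) 1)),
      HasDerivAt (fun t => f (C.T p.1 t p.2)) (dist p.1 p.2 * ⟪B.G f (C.T p.1 t p.2), s p t⟫) t
  /-- locally Lipschitz functions, at the starting point -/
  dl0 : ∀ {f : X → ℝ}, LocallyLipschitz f → ∀ᵐ p ∂(μ.prod μ),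
    HasDerivWithinAt (fun t => f (C.T p.1 t p.2))
      (-(dist p.1 p.2 * ⟪B.G f p.1, B.G (dist p.2) p.1⟫)) (Ici 0) 0
  /-- distance to a second point along the rays of `x` -/
  rdw : ∀ x : X, ∀ᵐ p ∂(μ.prod μ),
    HasDerivWithinAt (fun t : ℝ => dist (C.T x t p.1) p.2) ⟪B.G (hf x) p.1, B.G (dist p.2) p.1⟫
      (Iio 1) 1
  /-- distance of two points moving along the rays of `x` -/
  pe0 : ∀ x : X, ∀ᵐ p ∂(μ.prod μ),
    HasDerivWithinAt (fun t : ℝ => dist (C.T x t p.1) (C.T x t p.2))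
      (⟪B.G (hf x) p.1, B.G (dist p.2) p.1⟫ + ⟪B.G (hf x) p.2, B.G (dist p.1) p.2⟫) (Iio 1) 1
  norm_hf : ∀ x : X, ∀ᵐ z ∂μ, ‖B.G (hf x) z‖ = dist x z
  norm_gd : ∀ᵐ p ∂(μ.prod μ), ‖B.G (dist p.2) p.1‖ ≤ 1

/-- `H²_loc` functions through core approximations -/
structure H2 (B : BochS n κ' X μ) (w : ℕ → X → ℝ) (u : X → ℝ) (Du : X → F n) (A : X → S n) :
    Prop where
  core : ∀ k, w k ∈ B.core
  toU : ∀ K, IsCompact K → L2To (μ.restrict K) w u
  toD : ∀ K, IsCompact K → L2To (μ.restrict K) (fun k => B.G (w k)) Du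
  toA : ∀ K, IsCompact K → L2To (μ.restrict K) (fun k => B.H (w k)) A

variable {B : BochS n κ' X μ} {C : Rad n κ X μ}

lemma abs_inner_sub_le (a b s : F n) (hs : ‖s‖ = 1) : |⟪a, s⟫ - ⟪b, s⟫| ≤ ‖a - b‖ := by
  rw [← inner_sub_left]
  have := abs_real_inner_le_norm (a - b) s
  rwa [hs, mul_one] at this

lemma abs_mv_sub_le (A A' : S n) (s : F n) (hs : ‖s‖ = 1) :
    |⟪mv A s, s⟫ - ⟪mv A' s, s⟫| ≤ ‖A - A'‖ := by
  refine (abs_inner_sub_le _ _ s hs).trans ?_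
  rw [← mv_sub_left]
  have := norm_mv_le (A - A') s
  rwa [hs, mul_one] at this

lemma norm_mv_one (A : S n) (s : F n) (hs : ‖s‖ = 1) : ‖mv A s‖ ≤ ‖A‖ := by
  have := norm_mv_le A s
  rwa [hs, mul_one] at this

/-- `|⟪a, b⟫ - ⟪a', b'⟫| ≤ ‖a - a'‖ ‖b‖ + ‖a'‖ ‖b - b'‖` -/
lemma abs_inner_sub_inner_le {E : Type*} [NormedAddCommGroup E] [InnerProductSpace ℝ E]
    (a a' b b' : E) : |⟪a, b⟫ - ⟪a', b'⟫| ≤ ‖a - a'‖ * ‖b‖ + ‖a'‖ * ‖b - b'‖ := by
  have e : ⟪a, b⟫ - ⟪a', b'⟫ = ⟪a - a', b⟫ + ⟪a', b - b'⟫ := by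
    rw [inner_sub_left, inner_sub_right]; ring
  rw [e]
  exact (abs_add_le _ _).trans (add_le_add (abs_real_inner_le_norm _ _)
    (abs_real_inner_le_norm _ _))

namespace SegS

variable [ProperSpace X] [IsFiniteMeasureOnCompacts μ] [SFinite μ]

lemma ae_Ioo_of_Icc {q : ℝ → Prop} (h : ∀ t ∈ Ioo (0 : ℝ) 1, q t) :
    ∀ᵐ t ∂(volume.restrict (Icc (0 : ℝ) 1)), q t := by
  rw [← Measure.restrict_congr_set (Ioo_ae_eq_Icc (μ := (volume : Measure ℝ)) (a := 0) (b := 1))]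
  filter_upwards [ae_restrict_mem measurableSet_Ioo] with t ht
  exact h t ht

lemma ae_norm_s (Q : SegS B C) : ∀ᵐ p ∂(μ.prod μ), ∀ᵐ t ∂(volume.restrict (Icc (0 : ℝ) 1)),
    ‖Q.s p t‖ = 1 := by
  filter_upwards [Q.norm_s] with p hp
  exact ae_Ioo_of_Icc hp

lemma core_bdd {v : X → ℝ} (hv : v ∈ B.core) :
    ∃ c : ℝ, 0 ≤ c ∧ ∀ᵐ y ∂μ, ‖B.G v y‖ ≤ c ∧ ‖B.H v y‖ ≤ c := by
  obtain ⟨C1, hC1, -, hC2⟩ := BochS.test_bdd B.toGradS (B.core_test hv)
  obtain ⟨C3, hC3⟩ := B.H_bdd hv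
  refine ⟨max C1 C3, le_max_of_le_left hC1, ?_⟩
  filter_upwards [hC2, hC3] with y h1 h2
  exact ⟨h1.trans (le_max_left _ _), h2.trans (le_max_right _ _)⟩

/-- primitives for core functions -/
lemma core_prim1 (Q : SegS B C) (hκ : 0 ≤ κ) {v : X → ℝ} (hv : v ∈ B.core) :
    ∀ᵐ p ∂(μ.prod μ),
      IntervalIntegrable (fun t => dist p.1 p.2 * ⟪B.G v (C.T p.1 t p.2), Q.s p t⟫) volume 0 1 ∧
      ∃ c₀, ∀ᵐ t ∂(volume.restrict (Icc (0 : ℝ) 1)), v (C.T p.1 t p.2) =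
        c₀ + ∫ r in (0 : ℝ)..t, dist p.1 p.2 * ⟪B.G v (C.T p.1 r p.2), Q.s p r⟫ := by
  obtain ⟨c, hc0, hc⟩ := core_bdd hv
  filter_upwards [Q.d1 hv, ae_seg_all C hκ hc, Q.ae_norm_s] with p h1 h2 h3
  refine prim_of_deriv zero_lt_one h1 (C := dist p.1 p.2 * c) ?_
  filter_upwards [h2, h3] with t h4 h5
  rw [abs_mul, abs_of_nonneg dist_nonneg]
  gcongr
  refine (abs_real_inner_le_norm _ _).trans ?_
  rw [h5, mul_one]
  exact h4.1

lemma core_prim2 (Q : SegS B C) (hκ : 0 ≤ κ) {v : X → ℝ} (hv : v ∈ B.core) :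
    ∀ᵐ p ∂(μ.prod μ),
      IntervalIntegrable (fun t => dist p.1 p.2 * ⟪mv (B.H v (C.T p.1 t p.2)) (Q.s p t), Q.s p t⟫)
        volume 0 1 ∧
      ∃ c₀, ∀ᵐ t ∂(volume.restrict (Icc (0 : ℝ) 1)), ⟪B.G v (C.T p.1 t p.2), Q.s p t⟫ =
        c₀ + ∫ r in (0 : ℝ)..t,
          dist p.1 p.2 * ⟪mv (B.H v (C.T p.1 r p.2)) (Q.s p r), Q.s p r⟫ := by
  obtain ⟨c, hc0, hc⟩ := core_bdd hv
  filter_upwards [Q.d2 hv, ae_seg_all C hκ hc, Q.ae_norm_s] with p h1 h2 h3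
  refine prim_of_deriv zero_lt_one h1 (C := dist p.1 p.2 * c) ?_
  filter_upwards [h2, h3] with t h4 h5
  rw [abs_mul, abs_of_nonneg dist_nonneg]
  gcongr
  refine (abs_real_inner_le_norm _ _).trans ?_
  rw [h5, mul_one]
  exact (norm_mv_one _ _ h5).trans h4.2

lemma core_prim3 (Q : SegS B C) (hκ : 0 ≤ κ) {v v' : X → ℝ} (hv : v ∈ B.core)
    (hv' : v' ∈ B.core) :
    ∀ᵐ p ∂(μ.prod μ),
      IntervalIntegrable (fun t => dist p.1 p.2 *
        (⟪mv (B.H v (C.T p.1 t p.2)) (Q.s p t), B.G v' (C.T p.1 t p.2)⟫ +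
          ⟪B.G v (C.T p.1 t p.2), mv (B.H v' (C.T p.1 t p.2)) (Q.s p t)⟫)) volume 0 1 ∧
      ∃ c₀, ∀ᵐ t ∂(volume.restrict (Icc (0 : ℝ) 1)),
        ⟪B.G v (C.T p.1 t p.2), B.G v' (C.T p.1 t p.2)⟫ =
        c₀ + ∫ r in (0 : ℝ)..t, dist p.1 p.2 *
        (⟪mv (B.H v (C.T p.1 r p.2)) (Q.s p r), B.G v' (C.T p.1 r p.2)⟫ +
          ⟪B.G v (C.T p.1 r p.2), mv (B.H v' (C.T p.1 r p.2)) (Q.s p r)⟫) := by
  obtain ⟨c, hc0, hc⟩ := core_bdd hv
  obtain ⟨c', hc0', hc'⟩ := core_bdd hv'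
  filter_upwards [Q.d3 hv hv', ae_seg_all C hκ hc, ae_seg_all C hκ hc', Q.ae_norm_s]
    with p h1 h2 h2' h3
  refine prim_of_deriv zero_lt_one h1 (C := dist p.1 p.2 * (c * c' + c * c')) ?_
  filter_upwards [h2, h2', h3] with t h4 h4' h5
  rw [abs_mul, abs_of_nonneg dist_nonneg]
  gcongr
  refine (abs_add_le _ _).trans (add_le_add ?_ ?_)
  · refine (abs_real_inner_le_norm _ _).trans ?_
    exact mul_le_mul ((norm_mv_one _ _ h5).trans h4.2) h4'.1 (norm_nonneg _) hc0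
  · refine (abs_real_inner_le_norm _ _).trans ?_
    exact mul_le_mul h4.1 ((norm_mv_one _ _ h5).trans h4'.2) (norm_nonneg _) hc0

end SegS

end SegS

end Crest.Agent.R247.Fv510
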