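import Crest.Agent.R247.Fv2_510

/-!
R247, block (5-V) (helper510), part 3: `H²_loc` functions along almost every minimising segment.
-/

set_option autoImplicit false
set_option linter.unusedSectionVars false
open MeasureTheory Set Filter Topology
open scoped ENNReal NNReal RealInnerProductSpace

noncomputable section
namespace Crest.Agent.R247.Fv510

open Crest.Agent.R247.Mcp688 Crest.Agent.R247.Hes124 Crest.Agent.R247.Dir593
  Crest.Agent.R247.Dir593.GradS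

variable {n : ℕ} {κ κ' : ℝ} {X : Type*} [MetricSpace X] [MeasurableSpace X] [BorelSpace X]
  {μ : Measure X} {B : BochS n κ' X μ} {C : Rad n κ X μ}

/-- the weight `1 + d(p.1,p.2)` -/
def wd (p : X × X) : ℝ≥0 := 1 + nndist p.1 p.2

lemma le_wd_mul (p : X × X) (a : ℝ≥0∞) : a ≤ wd p * a := by
  have h : (1 : ℝ≥0∞) ≤ wd p := by
    rw [← ENNReal.coe_one, ENNReal.coe_le_coe]
    exact le_add_of_nonneg_right bot_le
  calc a = 1 * a := (one_mul a).symm
    _ ≤ wd p * a := by gcongr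

lemma dist_mul_le_wd (p : X × X) (a : ℝ) :
    ENNReal.ofReal (dist p.1 p.2 * a) ≤ wd p * ENNReal.ofReal a := by
  rw [ENNReal.ofReal_mul dist_nonneg]
  gcongr
  rw [← ENNReal.ofReal_coe_nnreal]
  apply ENNReal.ofReal_le_ofReal
  rw [wd]
  push_cast
  linarith [coe_nndist p.1 p.2]

section conv

variable [ProperSpace X] [IsFiniteMeasureOnCompacts μ] [SFinite μ]
variable {w w' : ℕ → X → ℝ} {u u' : X → ℝ} {Du Du' : X → F n} {A A' : X → S n}

lemma fin_restrict {K : Set X} (hK : IsCompact K) : IsFiniteMeasure (μ.restrict K) :=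
  ⟨by rw [Measure.restrict_apply_univ]; exact hK.measure_lt_top⟩

/-- `u` is absolutely continuous along almost every segment with derivative `d ⟪Du, s⟫`. -/
theorem H2.seg1 (h : H2 B w u Du A) (Q : SegS B C) (hκ : 0 ≤ κ) :
    ∀ᵐ p ∂(μ.prod μ),
      IntervalIntegrable (fun t => dist p.1 p.2 * ⟪Du (C.T p.1 t p.2), Q.s p t⟫) volume 0 1 ∧
      ∃ c₀, ∀ᵐ t ∂(volume.restrict (Icc (0 : ℝ) 1)), u (C.T p.1 t p.2) =
        c₀ + ∫ r in (0 : ℝ)..t, dist p.1 p.2 * ⟪Du (C.T p.1 r p.2), Q.s p r⟫ := by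
  refine seg_limit_all C hκ
    (e := fun k y => ENNReal.ofReal ‖w k y - u y‖ + ENNReal.ofReal ‖B.G (w k) y - Du y‖)
    (fun K hK k => ?_) (fun K hK => ?_) wd
    (Φk := fun k p t => w k (C.T p.1 t p.2))
    (Ψk := fun k p t => dist p.1 p.2 * ⟪B.G (w k) (C.T p.1 t p.2), Q.s p t⟫)
    (Φ := fun p t => u (C.T p.1 t p.2))
    (Ψ := fun p t => dist p.1 p.2 * ⟪Du (C.T p.1 t p.2), Q.s p t⟫) (fun k => ?_) (fun k => ?_)
    (fun k => Q.core_prim1 hκ (h.core k))
  · exact ((((h.toU K hK).mem k).1.sub (h.toU K hK).mem'.1).norm.aemeasurable.ennreal_ofReal).add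
      ((((h.toD K hK).mem k).1.sub (h.toD K hK).mem'.1).norm.aemeasurable.ennreal_ofReal)
  · have := fin_restrict (μ := μ) hK
    have h1 := L2To.tendsto_L1 (h.toU K hK)
    have h2 := L2To.tendsto_L1 (h.toD K hK)
    have h3 := h1.add h2
    rw [add_zero] at h3
    refine h3.congr fun k => ?_
    rw [lintegral_add_left']
    exact (((h.toU K hK).mem k).1.sub (h.toU K hK).mem'.1).norm.aemeasurable.ennreal_ofReal
  · refine Eventually.of_forall fun p => Eventually.of_forall fun t => ?_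
    refine le_trans ?_ (le_wd_mul p _)
    rw [← Real.norm_eq_abs]
    exact le_self_add
  · filter_upwards [Q.ae_norm_s] with p hp
    filter_upwards [hp] with t ht
    rw [← mul_sub, abs_mul, abs_of_nonneg dist_nonneg]
    refine (dist_mul_le_wd p _).trans ?_
    gcongr
    exact (ENNReal.ofReal_le_ofReal (abs_inner_sub_le _ _ _ ht)).trans le_add_self

/-- `⟪Du, s⟫` is absolutely continuous with derivative `d ⟪A s, s⟫`. -/
theorem H2.seg2 (h : H2 B w u Du A) (Q : SegS B C) (hκ : 0 ≤ κ) :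
    ∀ᵐ p ∂(μ.prod μ),
      IntervalIntegrable (fun t => dist p.1 p.2 * ⟪mv (A (C.T p.1 t p.2)) (Q.s p t), Q.s p t⟫)
        volume 0 1 ∧
      ∃ c₀, ∀ᵐ t ∂(volume.restrict (Icc (0 : ℝ) 1)), ⟪Du (C.T p.1 t p.2), Q.s p t⟫ =
        c₀ + ∫ r in (0 : ℝ)..t,
          dist p.1 p.2 * ⟪mv (A (C.T p.1 r p.2)) (Q.s p r), Q.s p r⟫ := by
  refine seg_limit_all C hκ
    (e := fun k y => ENNReal.ofReal ‖B.G (w k) y - Du y‖ + ENNReal.ofReal ‖B.H (w k) y - A y‖)
    (fun K hK k => ?_) (fun K hK => ?_) wd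
    (Φk := fun k p t => ⟪B.G (w k) (C.T p.1 t p.2), Q.s p t⟫)
    (Ψk := fun k p t => dist p.1 p.2 * ⟪mv (B.H (w k) (C.T p.1 t p.2)) (Q.s p t), Q.s p t⟫)
    (Φ := fun p t => ⟪Du (C.T p.1 t p.2), Q.s p t⟫)
    (Ψ := fun p t => dist p.1 p.2 * ⟪mv (A (C.T p.1 t p.2)) (Q.s p t), Q.s p t⟫)
    (fun k => ?_) (fun k => ?_) (fun k => Q.core_prim2 hκ (h.core k))
  · exact ((((h.toD K hK).mem k).1.sub (h.toD K hK).mem'.1).norm.aemeasurable.ennreal_ofReal).add
      ((((h.toA K hK).mem k).1.sub (h.toA K hK).mem'.1).norm.aemeasurable.ennreal_ofReal)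
  · have := fin_restrict (μ := μ) hK
    have h1 := L2To.tendsto_L1 (h.toD K hK)
    have h2 := L2To.tendsto_L1 (h.toA K hK)
    have h3 := h1.add h2
    rw [add_zero] at h3
    refine h3.congr fun k => ?_
    rw [lintegral_add_left']
    exact (((h.toD K hK).mem k).1.sub (h.toD K hK).mem'.1).norm.aemeasurable.ennreal_ofReal
  · filter_upwards [Q.ae_norm_s] with p hp
    filter_upwards [hp] with t ht
    refine le_trans ?_ (le_wd_mul p _)
    exact (ENNReal.ofReal_le_ofReal (abs_inner_sub_le _ _ _ ht)).trans le_self_add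
  · filter_upwards [Q.ae_norm_s] with p hp
    filter_upwards [hp] with t ht
    rw [← mul_sub, abs_mul, abs_of_nonneg dist_nonneg]
    refine (dist_mul_le_wd p _).trans ?_
    gcongr
    exact (ENNReal.ofReal_le_ofReal (abs_mv_sub_le _ _ _ ht)).trans le_add_self

/-- `⟪Du, Du'⟫` is absolutely continuous with derivative `d (⟪A s, Du'⟫ + ⟪Du, A' s⟫)`. -/
theorem H2.seg3 (h : H2 B w u Du A) (h' : H2 B w' u' Du' A') (Q : SegS B C) (hκ : 0 ≤ κ) :
    ∀ᵐ p ∂(μ.prod μ),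
      IntervalIntegrable (fun t => dist p.1 p.2 *
        (⟪mv (A (C.T p.1 t p.2)) (Q.s p t), Du' (C.T p.1 t p.2)⟫ +
          ⟪Du (C.T p.1 t p.2), mv (A' (C.T p.1 t p.2)) (Q.s p t)⟫)) volume 0 1 ∧
      ∃ c₀, ∀ᵐ t ∂(volume.restrict (Icc (0 : ℝ) 1)),
        ⟪Du (C.T p.1 t p.2), Du' (C.T p.1 t p.2)⟫ =
        c₀ + ∫ r in (0 : ℝ)..t, dist p.1 p.2 *
        (⟪mv (A (C.T p.1 r p.2)) (Q.s p r), Du' (C.T p.1 r p.2)⟫ +
          ⟪Du (C.T p.1 r p.2), mv (A' (C.T p.1 r p.2)) (Q.s p r)⟫) := by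
  set e1 : ℕ → X → ℝ≥0∞ := fun k y => ENNReal.ofReal
    (‖B.G (w k) y - Du y‖ * ‖B.G (w' k) y‖ + ‖Du y‖ * ‖B.G (w' k) y - Du' y‖) with he1
  set e2 : ℕ → X → ℝ≥0∞ := fun k y => ENNReal.ofReal
    (‖B.H (w k) y - A y‖ * ‖B.G (w' k) y‖ + ‖A y‖ * ‖B.G (w' k) y - Du' y‖) with he2
  set e3 : ℕ → X → ℝ≥0∞ := fun k y => ENNReal.ofReal
    (‖B.G (w k) y - Du y‖ * ‖B.H (w' k) y‖ + ‖Du y‖ * ‖B.H (w' k) y - A' y‖) with he3
  have m1 : ∀ K, IsCompact K → ∀ k, AEMeasurable (e1 k) (μ.restrict K) := fun K hK k =>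
    (((((h.toD K hK).mem k).1.sub (h.toD K hK).mem'.1).norm.mul
      ((h'.toD K hK).mem k).1.norm).add (((h.toD K hK).mem').1.norm.mul
      (((h'.toD K hK).mem k).1.sub (h'.toD K hK).mem'.1).norm)).aemeasurable.ennreal_ofReal
  have m2 : ∀ K, IsCompact K → ∀ k, AEMeasurable (e2 k) (μ.restrict K) := fun K hK k =>
    (((((h.toA K hK).mem k).1.sub (h.toA K hK).mem'.1).norm.mul
      ((h'.toD K hK).mem k).1.norm).add (((h.toA K hK).mem').1.norm.mul
      (((h'.toD K hK).mem k).1.sub (h'.toD K hK).mem'.1).norm)).aemeasurable.ennreal_ofReal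
  have m3 : ∀ K, IsCompact K → ∀ k, AEMeasurable (e3 k) (μ.restrict K) := fun K hK k =>
    (((((h.toD K hK).mem k).1.sub (h.toD K hK).mem'.1).norm.mul
      ((h'.toA K hK).mem k).1.norm).add (((h.toD K hK).mem').1.norm.mul
      (((h'.toA K hK).mem k).1.sub (h'.toA K hK).mem'.1).norm)).aemeasurable.ennreal_ofReal
  refine seg_limit_all C hκ (e := fun k y => e1 k y + (e2 k y + e3 k y))
    (fun K hK k => (m1 K hK k).add ((m2 K hK k).add (m3 K hK k))) (fun K hK => ?_) wd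
    (Φk := fun k p t => ⟪B.G (w k) (C.T p.1 t p.2), B.G (w' k) (C.T p.1 t p.2)⟫)
    (Ψk := fun k p t => dist p.1 p.2 *
        (⟪mv (B.H (w k) (C.T p.1 t p.2)) (Q.s p t), B.G (w' k) (C.T p.1 t p.2)⟫ +
          ⟪B.G (w k) (C.T p.1 t p.2), mv (B.H (w' k) (C.T p.1 t p.2)) (Q.s p t)⟫))
    (Φ := fun p t => ⟪Du (C.T p.1 t p.2), Du' (C.T p.1 t p.2)⟫)
    (Ψ := fun p t => dist p.1 p.2 *
        (⟪mv (A (C.T p.1 t p.2)) (Q.s p t), Du' (C.T p.1 t p.2)⟫ +
          ⟪Du (C.T p.1 t p.2), mv (A' (C.T p.1 t p.2)) (Q.s p t)⟫))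
    (fun k => ?_) (fun k => ?_) (fun k => Q.core_prim3 hκ (h.core k) (h'.core k))
  · have h1 := L2To.tendsto_prod (h.toD K hK) (h'.toD K hK)
    have h2 := L2To.tendsto_prod (h.toA K hK) (h'.toD K hK)
    have h3 := L2To.tendsto_prod (h.toD K hK) (h'.toA K hK)
    have h4 := h1.add (h2.add h3)
    rw [add_zero, add_zero] at h4
    refine h4.congr fun k => ?_
    rw [lintegral_add_left' (m1 K hK k), lintegral_add_left' (m2 K hK k)]
  · refine Eventually.of_forall fun p => Eventually.of_forall fun t => ?_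
    refine le_trans ?_ (le_wd_mul p _)
    refine (ENNReal.ofReal_le_ofReal (abs_inner_sub_inner_le _ _ _ _)).trans ?_
    exact le_self_add
  · filter_upwards [Q.ae_norm_s] with p hp
    filter_upwards [hp] with t ht
    rw [← mul_sub, abs_mul, abs_of_nonneg dist_nonneg]
    refine (dist_mul_le_wd p _).trans ?_
    gcongr
    refine le_trans ?_ le_add_self
    set y := C.T p.1 t p.2
    set s := Q.s p t
    have e0 : ⟪mv (B.H (w k) y) s, B.G (w' k) y⟫ + ⟪B.G (w k) y, mv (B.H (w' k) y) s⟫ -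
        (⟪mv (A y) s, Du' y⟫ + ⟪Du y, mv (A' y) s⟫) =
        (⟪mv (B.H (w k) y) s, B.G (w' k) y⟫ - ⟪mv (A y) s, Du' y⟫) +
        (⟪B.G (w k) y, mv (B.H (w' k) y) s⟫ - ⟪Du y, mv (A' y) s⟫) := by ring
    rw [e0]
    refine (ENNReal.ofReal_le_ofReal (abs_add_le _ _)).trans ?_
    rw [ENNReal.ofReal_add (abs_nonneg _) (abs_nonneg _)]
    refine add_le_add (ENNReal.ofReal_le_ofReal ?_) (ENNReal.ofReal_le_ofReal ?_)
    · refine (abs_inner_sub_inner_le _ _ _ _).trans ?_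
      rw [← mv_sub_left]
      gcongr
      · exact norm_mv_one _ _ ht
      · exact norm_mv_one _ _ ht
    · refine (abs_inner_sub_inner_le _ _ _ _).trans ?_
      rw [← mv_sub_left]
      gcongr
      · exact norm_mv_one _ _ ht
      · exact norm_mv_one _ _ ht

end conv

end Crest.Agent.R247.Fv510
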