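import Crest.Agent.R247.Fv3_510

/-!
R247, block (5-V) (helper510), part 4: continuous `H²_loc` functions along one minimising segment:
`C¹` with absolutely continuous derivative, end point derivatives, integrability along segments,
change of variables to arclength.
-/

set_option autoImplicit false
set_option linter.unusedSectionVars false
open MeasureTheory Set Filter Topology
open scoped ENNReal NNReal RealInnerProductSpace

noncomputable section
namespace Crest.Agent.R247.Fv510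

open Crest.Agent.R247.Mcp688 Crest.Agent.R247.Hes124 Crest.Agent.R247.Dir593
  Crest.Agent.R247.Dir593.GradS
open Crest.Agent.R247.Smv126 (hf)

section misc

variable {X : Type*} [MeasurableSpace X] {ν : Measure X}
variable {E : Type*} [NormedAddCommGroup E] [InnerProductSpace ℝ E]

lemma L2To.congr_right {f : ℕ → X → E} {g g' : X → E} (h : L2To ν f g) (e : g =ᵐ[ν] g') :
    L2To ν f g' := by
  refine ⟨h.mem, (memLp_congr_ae e).1 h.mem', ?_⟩
  refine h.lim.congr fun k => integral_congr_ae ?_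
  filter_upwards [e] with x hx
  rw [hx]

end misc

/-! ### a.e. statements: change of the time variable -/

lemma ae_scale {q : ℝ → Prop} {l : ℝ} (hl : 0 < l)
    (h : ∀ᵐ t ∂(volume.restrict (Icc (0 : ℝ) 1)), q t) :
    ∀ᵐ τ ∂(volume.restrict (Ioo (0 : ℝ) l)), q (τ / l) := by
  have hl' : l⁻¹ ≠ 0 := inv_ne_zero hl.ne'
  have h1 : ∀ᵐ t ∂(volume : Measure ℝ), t ∈ Icc (0 : ℝ) 1 → q t :=
    (ae_restrict_iff' measurableSet_Icc).1 h
  have hq : Measure.QuasiMeasurePreserving (fun τ : ℝ => l⁻¹ * τ) volume volume := by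
    refine ⟨measurable_const_mul _, ?_⟩
    rw [Real.map_volume_mul_left hl']
    exact Measure.smul_absolutelyContinuous
  have h2 := hq.ae h1
  rw [ae_restrict_iff' measurableSet_Ioo]
  filter_upwards [h2] with τ h3 hτ
  have e : τ / l = l⁻¹ * τ := by rw [div_eq_mul_inv, mul_comm]
  rw [e]
  apply h3
  rw [← e]
  exact ⟨by have := hτ.1; positivity, (div_le_one hl).2 hτ.2.le⟩

lemma ae_Ioo_iff {q : ℝ → Prop} {a b : ℝ} :
    (∀ᵐ t ∂(volume.restrict (Ioo a b)), q t) ↔ ∀ᵐ t ∂(volume.restrict (Icc a b)), q t := by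
  rw [Measure.restrict_congr_set (Ioo_ae_eq_Icc (μ := (volume : Measure ℝ)) (a := a) (b := b))]

lemma ii_scale {f : ℝ → ℝ} {l : ℝ} (hl : 0 < l) (h : IntervalIntegrable f volume 0 1) :
    IntervalIntegrable (fun τ => f (τ / l)) volume 0 l := by
  have h1 := h.comp_mul_left (c := l⁻¹)
  simp only [zero_div, one_div, inv_inv] at h1
  refine h1.congr fun τ _ => ?_
  show f (l⁻¹ * τ) = f (τ / l)
  rw [div_eq_mul_inv, mul_comm]

lemma ii_sub {f : ℝ → ℝ} {a b : ℝ} (h : IntervalIntegrable f volume 0 1)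
    (ha : a ∈ Icc (0 : ℝ) 1) (hb : b ∈ Icc (0 : ℝ) 1) : IntervalIntegrable f volume a b :=
  h.mono_set (by rw [uIcc_of_le zero_le_one]; exact uIcc_subset_Icc ha hb)

/-- from `F t = F 0 + ∫₀ᵗ l f` on `[0,1]` to arclength -/
lemma ftc_scale {F f : ℝ → ℝ} {l : ℝ} (hl : 0 < l)
    (hI : IntervalIntegrable (fun t => l * f t) volume 0 1)
    (h : ∀ t ∈ Icc (0 : ℝ) 1, F t = F 0 + ∫ r in (0 : ℝ)..t, l * f r) :
    ∀ a ∈ Icc (0 : ℝ) l, ∀ b ∈ Icc (0 : ℝ) l,
      F (b / l) - F (a / l) = ∫ τ in a..b, f (τ / l) := by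
  intro a ha b hb
  have ha' : a / l ∈ Icc (0 : ℝ) 1 := ⟨by have := ha.1; positivity, (div_le_one hl).2 ha.2⟩
  have hb' : b / l ∈ Icc (0 : ℝ) 1 := ⟨by have := hb.1; positivity, (div_le_one hl).2 hb.2⟩
  have h0 : (0 : ℝ) ∈ Icc (0 : ℝ) 1 := ⟨le_refl _, zero_le_one⟩
  rw [intervalIntegral.integral_comp_div (fun t => f t) hl.ne', h _ ha', h _ hb', smul_eq_mul,
    ← intervalIntegral.integral_const_mul, ← intervalIntegral.integral_interval_sub_left
      (ii_sub hI h0 hb') (ii_sub hI h0 ha')]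
  ring

section seg

variable {n : ℕ} {κ κ' : ℝ} {X : Type*} [MetricSpace X] [MeasurableSpace X] [BorelSpace X]
  {μ : Measure X} {B : BochS n κ' X μ} {C : Rad n κ X μ}

/-- segments are continuous -/
lemma continuousOn_T {p : X × X} (hp : p ∈ C.U) :
    ContinuousOn (fun t : ℝ => C.T p.1 t p.2) (Icc (0 : ℝ) 1) := by
  have : LipschitzOnWith (nndist p.1 p.2) (fun t : ℝ => C.T p.1 t p.2) (Icc (0 : ℝ) 1) := by
    apply LipschitzOnWith.of_dist_le_mul
    intro s hs t ht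
    rw [C.dist_T p.1 p.2 hp s hs t ht, Real.dist_eq, coe_nndist, mul_comm]
  exact this.continuousOn

lemma ae_mem_U [SFinite μ] : ∀ᵐ p ∂(μ.prod μ), p ∈ C.U :=
  (Measure.ae_prod_iff_ae_ae (p := fun p : X × X => p ∈ C.U) C.measU).2
    (Eventually.of_forall fun x => C.ae_U x)

/-- outcome along one segment -/
structure SegU (Q : SegS B C) (p : X × X) (u : X → ℝ) (Du : X → F n) (A : X → S n)
    (U1 : ℝ → ℝ) : Prop where
  int2 : IntervalIntegrable
    (fun t => dist p.1 p.2 * ⟪mv (A (C.T p.1 t p.2)) (Q.s p t), Q.s p t⟫) volume 0 1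
  cont : ContinuousOn U1 (Icc 0 1)
  ae1 : ∀ᵐ t ∂(volume.restrict (Icc (0 : ℝ) 1)), ⟪Du (C.T p.1 t p.2), Q.s p t⟫ = U1 t
  ftc1 : ∀ t ∈ Icc (0 : ℝ) 1, U1 t = U1 0 + ∫ r in (0 : ℝ)..t,
    dist p.1 p.2 * ⟪mv (A (C.T p.1 r p.2)) (Q.s p r), Q.s p r⟫
  ftc0 : ∀ t ∈ Icc (0 : ℝ) 1, u (C.T p.1 t p.2) = u (C.T p.1 0 p.2) +
    ∫ r in (0 : ℝ)..t, dist p.1 p.2 * U1 r

variable {w : ℕ → X → ℝ} {u : X → ℝ} {Du : X → F n} {A : X → S n}

theorem H2.segU [ProperSpace X] [IsFiniteMeasureOnCompacts μ] [SFinite μ]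
    (h : H2 B w u Du A) (hu : Continuous u) (Q : SegS B C) (hκ : 0 ≤ κ) :
    ∀ᵐ p ∂(μ.prod μ), ∃ U1, SegU Q p u Du A U1 := by
  filter_upwards [h.seg1 Q hκ, h.seg2 Q hκ, ae_mem_U (C := C)] with p h1 h2 hU
  obtain ⟨hI1, hp1⟩ := h1
  obtain ⟨hI2, c₂, hp2⟩ := h2
  set U1 : ℝ → ℝ := fun t => c₂ + ∫ r in (0 : ℝ)..t,
    dist p.1 p.2 * ⟪mv (A (C.T p.1 r p.2)) (Q.s p r), Q.s p r⟫ with hU1
  have hcont : ContinuousOn U1 (Icc 0 1) := by
    refine continuousOn_const.add ?_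
    have := intervalIntegral.continuousOn_primitive_interval' (μ := volume) hI2
      (left_mem_uIcc (a := (0 : ℝ)) (b := 1))
    rwa [uIcc_of_le zero_le_one] at this
  have h0 : U1 0 = c₂ := by simp [hU1]
  refine ⟨U1, hI2, hcont, hp2, fun t _ => by rw [h0], ?_⟩
  have hI1' : IntervalIntegrable (fun t => dist p.1 p.2 * U1 t) volume 0 1 :=
    (hcont.intervalIntegrable_of_Icc zero_le_one).const_mul _
  obtain ⟨c₁, hc₁⟩ := hp1
  have hae : ∀ᵐ t ∂(volume.restrict (Icc (0 : ℝ) 1)),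
      dist p.1 p.2 * ⟪Du (C.T p.1 t p.2), Q.s p t⟫ = dist p.1 p.2 * U1 t := by
    filter_upwards [hp2] with t ht
    rw [ht]
  have hint : ∀ t ∈ Icc (0 : ℝ) 1, ∫ r in (0 : ℝ)..t, dist p.1 p.2 *
      ⟪Du (C.T p.1 r p.2), Q.s p r⟫ = ∫ r in (0 : ℝ)..t, dist p.1 p.2 * U1 r := by
    intro t ht
    refine intervalIntegral.integral_congr_ae ?_
    have := (ae_restrict_iff' measurableSet_Icc).1 hae
    filter_upwards [this] with r hr hm
    rw [uIoc_of_le ht.1] at hm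
    exact hr ⟨hm.1.le, hm.2.trans ht.2⟩
  have hfin := prim_everywhere (Φ := fun t => u (C.T p.1 t p.2)) zero_lt_one hI1'
    (hu.comp_continuousOn (continuousOn_T hU)) ⟨c₁, by
      filter_upwards [hc₁, ae_restrict_mem measurableSet_Icc] with t ht hm
      rw [ht, hint t hm]⟩
  exact hfin

/-- derivative at the starting point -/
lemma SegU.deriv0 {Q : SegS B C} {p : X × X} {U1 : ℝ → ℝ} (h : SegU Q p u Du A U1) :
    HasDerivWithinAt (fun t => u (C.T p.1 t p.2)) (dist p.1 p.2 * U1 0) (Ici 0) 0 := by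
  have hc : ContinuousOn (fun t => dist p.1 p.2 * U1 t) (Icc (0 : ℝ) 1) :=
    continuousOn_const.mul h.cont
  have hI := hc.intervalIntegrable_of_Icc (μ := volume) zero_le_one
  have hw : ContinuousWithinAt (fun t => dist p.1 p.2 * U1 t) (Icc (0 : ℝ) 1) 0 :=
    hc 0 ⟨le_refl _, zero_le_one⟩
  have hw' : ContinuousWithinAt (fun t => dist p.1 p.2 * U1 t) (Ici (0 : ℝ)) 0 := by
    refine hw.mono_of_mem_nhdsWithin ?_
    exact Icc_mem_nhdsGE zero_lt_one
  have hm : StronglyMeasurableAtFilter (fun t => dist p.1 p.2 * U1 t) (𝓝[≥] (0 : ℝ)) volume :=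
    ⟨Icc 0 1, Icc_mem_nhdsGE zero_lt_one, hc.aestronglyMeasurable measurableSet_Icc⟩
  have h1 := intervalIntegral.integral_hasDerivWithinAt_right (a := (0 : ℝ)) (b := 0)
    (s := Ici (0 : ℝ)) (t := Ioi (0 : ℝ)) (f := fun t => dist p.1 p.2 * U1 t) (by simp)
    (hm.filter_mono (nhdsWithin_mono _ Ioi_subset_Ici_self))
    (hw'.mono Ioi_subset_Ici_self)
  have h2 := h1.const_add (u (C.T p.1 0 p.2))
  refine h2.congr_of_eventuallyEq ?_ ?_
  · filter_upwards [Icc_mem_nhdsGE (zero_lt_one' ℝ)] with t ht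
    exact h.ftc0 t ht
  · simp

/-- derivative at the end point -/
lemma SegU.deriv1 {Q : SegS B C} {p : X × X} {U1 : ℝ → ℝ} (h : SegU Q p u Du A U1) :
    HasDerivWithinAt (fun t => u (C.T p.1 t p.2)) (dist p.1 p.2 * U1 1) (Iic 1) 1 := by
  have hc : ContinuousOn (fun t => dist p.1 p.2 * U1 t) (Icc (0 : ℝ) 1) :=
    continuousOn_const.mul h.cont
  have hI := hc.intervalIntegrable_of_Icc (μ := volume) zero_le_one
  have hw : ContinuousWithinAt (fun t => dist p.1 p.2 * U1 t) (Icc (0 : ℝ) 1) 1 :=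
    hc 1 ⟨zero_le_one, le_refl _⟩
  have hw' : ContinuousWithinAt (fun t => dist p.1 p.2 * U1 t) (Iic (1 : ℝ)) 1 := by
    refine hw.mono_of_mem_nhdsWithin ?_
    exact Icc_mem_nhdsLE zero_lt_one
  have hm : StronglyMeasurableAtFilter (fun t => dist p.1 p.2 * U1 t) (𝓝[≤] (1 : ℝ)) volume :=
    ⟨Icc 0 1, Icc_mem_nhdsLE zero_lt_one, hc.aestronglyMeasurable measurableSet_Icc⟩
  have h1 := intervalIntegral.integral_hasDerivWithinAt_right (a := (0 : ℝ)) (b := 1)
    (s := Iic (1 : ℝ)) (t := Iic (1 : ℝ)) (f := fun t => dist p.1 p.2 * U1 t) hI hm hw'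
  have h2 := h1.const_add (u (C.T p.1 0 p.2))
  refine h2.congr_of_eventuallyEq ?_ ?_
  · filter_upwards [Icc_mem_nhdsLE (zero_lt_one' ℝ)] with t ht
    exact h.ftc0 t ht
  · exact h.ftc0 1 ⟨zero_le_one, le_refl _⟩

/-- the value of `U1` at the starting point -/
theorem segU_start (Q : SegS B C) (hu : LocallyLipschitz u) :
    ∀ᵐ p ∂(μ.prod μ), p.1 ≠ p.2 → ∀ U1, SegU Q p u Du A U1 →
      U1 0 = -⟪B.G u p.1, B.G (dist p.2) p.1⟫ := by
  filter_upwards [Q.dl0 hu] with p hp hne U1 h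
  have h1 := (uniqueDiffWithinAt_Ici (0 : ℝ)).eq_deriv _ h.deriv0 hp
  have hd : dist p.1 p.2 ≠ 0 := (dist_pos.2 hne).ne'
  have : dist p.1 p.2 * U1 0 = dist p.1 p.2 * -⟪B.G u p.1, B.G (dist p.2) p.1⟫ := by
    rw [h1]; ring
  exact mul_left_cancel₀ hd this

lemma ae_swap [SFinite μ] {q : X × X → Prop} (h : ∀ᵐ p ∂(μ.prod μ), q p) :
    ∀ᵐ p ∂(μ.prod μ), q p.swap :=
  (Measure.measurePreserving_swap (μ := μ) (ν := μ)).quasiMeasurePreserving.ae h

/-- the value of `U1` at the end point -/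
theorem segU_end [SFinite μ] (Q : SegS B C) (hu : LocallyLipschitz u) :
    ∀ᵐ p ∂(μ.prod μ), p.1 ≠ p.2 → ∀ U1, SegU Q p u Du A U1 →
      U1 1 = ⟪B.G u p.2, B.G (dist p.1) p.2⟫ := by
  filter_upwards [ae_swap (Q.dl0 hu), ae_mem_U (C := C)] with p hp hU hne U1 h
  simp only [Prod.fst_swap, Prod.snd_swap] at hp
  have hd : dist p.1 p.2 ≠ 0 := (dist_pos.2 hne).ne'
  -- the reversed segment
  have h1 : HasDerivWithinAt (fun t => u (C.T p.2 t p.1)) (-(dist p.1 p.2 * U1 1)) (Ici 0) 0 := by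
    have h2 : HasDerivWithinAt (fun t : ℝ => 1 - t) (-1) (Ici 0) 0 := by
      simpa using ((hasDerivAt_id (0 : ℝ)).const_sub 1).hasDerivWithinAt (s := Ici (0 : ℝ))
    have h3 := h.deriv1
    have h4 : HasDerivWithinAt (fun t : ℝ => u (C.T p.1 (1 - t) p.2)) ((dist p.1 p.2 * U1 1) * -1)
        (Ici 0) 0 := by
      have h3' : HasDerivWithinAt (fun t => u (C.T p.1 t p.2)) (dist p.1 p.2 * U1 1) (Iic 1)
          ((fun t : ℝ => 1 - t) 0) := by simpa using h3
      refine HasDerivWithinAt.comp (h := fun t : ℝ => 1 - t) (0 : ℝ) h3' h2 ?_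
      intro t ht
      simp only [mem_Ici, mem_Iic] at ht ⊢
      linarith
    rw [mul_neg_one] at h4
    refine h4.congr_of_eventuallyEq ?_ ?_
    · filter_upwards [Icc_mem_nhdsGE (zero_lt_one' ℝ)] with t ht
      rw [C.T_symm p.1 p.2 hU t ht]
    · rw [C.T_symm p.1 p.2 hU 0 ⟨le_refl _, zero_le_one⟩]
  have h5 := (uniqueDiffWithinAt_Ici (0 : ℝ)).eq_deriv _ h1 hp
  rw [dist_comm p.2 p.1] at h5
  exact mul_left_cancel₀ hd (neg_injective h5)

/-! ### integrability along segments -/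

theorem seg_integrable [ProperSpace X] [IsFiniteMeasureOnCompacts μ] [SFinite μ] (hκ : 0 ≤ κ)
    {f : X → ℝ} (hf : Measurable f) (hi : ∀ K, IsCompact K → IntegrableOn f K μ) :
    ∀ᵐ p ∂(μ.prod μ), IntervalIntegrable (fun t => f (C.T p.1 t p.2)) volume 0 1 := by
  by_cases hX : Nonempty X
  swap
  · exact Eventually.of_forall fun p => (hX ⟨p.1⟩).elim
  obtain ⟨x₀⟩ := hX
  refine ae_pair_of_balls x₀ fun m => ?_
  set D : Set X := Metric.ball x₀ m with hD
  set W : Set X := Metric.closedBall x₀ (3 * m) with hW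
  have hWc : IsCompact W := isCompact_closedBall _ _
  have hDm : MeasurableSet D := Metric.isOpen_ball.measurableSet
  have hdist : ∀ x ∈ D, ∀ z ∈ D, dist x z ≤ 2 * m := by
    intro x hx z hz
    have := dist_triangle_right x z x₀
    rw [hD, Metric.mem_ball] at hx hz
    linarith
  have hABW : ∀ x ∈ D, ∀ z ∈ D, (x, z) ∈ C.U → ∀ t ∈ Icc (0 : ℝ) 1, C.T x t z ∈ W := by
    intro x hx z hz hU t ht
    rw [hW, Metric.mem_closedBall]
    have h1 := C.dist_left hU ht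
    have h2 : t * dist x z ≤ 1 * dist x z := by gcongr; exact ht.2
    have h3 := hdist x hx z hz
    have h4 := dist_triangle (C.T x t z) x x₀
    rw [hD, Metric.mem_ball] at hx
    rw [dist_comm (C.T x t z) x] at h4
    linarith
  have hDf : μ D ≠ ∞ := (lt_of_le_of_lt (measure_mono Metric.ball_subset_closedBall)
    (isCompact_closedBall x₀ (m : ℝ)).measure_lt_top).ne
  have hm : Measurable fun r : (X × X) × ℝ => ‖f (C.T r.1.1 r.2 r.1.2)‖ₑ :=
    (hf.comp (C.measT.comp ((measurable_fst.fst).prodMk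
      (measurable_snd.prodMk measurable_fst.snd)))).enorm
  have h0 := seg_le C hκ hDm hDm hWc.measurableSet hdist hABW (g := fun y => ‖f y‖ₑ) hf.enorm
  have hfin : ∫⁻ y, ‖f y‖ₑ ∂(μ.restrict W) ≠ ∞ := (hi W hWc).2.ne
  have h1 : ∫⁻ p, (∫⁻ t in Icc (0 : ℝ) 1, ‖f (C.T p.1 t p.2)‖ₑ)
      ∂((μ.restrict D).prod (μ.restrict D)) ≠ ∞ :=
    ne_top_of_le_ne_top (ENNReal.mul_ne_top (ENNReal.mul_ne_top ENNReal.ofReal_ne_top
      (ENNReal.add_ne_top.2 ⟨hDf, hDf⟩)) hfin) h0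
  filter_upwards [ae_lt_top' (Measurable.lintegral_prod_right' hm).aemeasurable h1] with p hp
  rw [intervalIntegrable_iff_integrableOn_Icc_of_le zero_le_one]
  refine ⟨?_, hp⟩
  exact (hf.comp (C.measT_x p.1 |>.comp (measurable_id.prodMk measurable_const))).aestronglyMeasurable

end seg

end Crest.Agent.R247.Fv510
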