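import Crest.Agent.R247.Fv4_510
import Crest.Agent.R247.Fd0_656

/-!
R247, block (5-V) (helper510), part 5: calculus along one minimising segment (`AlongD`) for the
functions of `Fd0_656`.
-/

set_option autoImplicit false
set_option linter.unusedSectionVars false
open MeasureTheory Set Filter Topology
open scoped ENNReal NNReal RealInnerProductSpace

noncomputable section
namespace Crest.Agent.R247.Fv510

open Crest.Agent.R247.Mcp688 Crest.Agent.R247.Hes124 Crest.Agent.R247.Dir593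
  Crest.Agent.R247.Dir593.GradS
open Crest.Agent.R247.Smv126 (hf WLap)
open Crest.Agent.R247.Far553 Crest.Agent.R247.Fd656 Crest.Agent.R247.Obj554

/-! ### algebra -/

section alg

variable {n : ℕ}

lemma mv_idm (v : F n) : mv (idm n) v = v := by
  ext i
  simp [mv, idm]

lemma mv_smul_right (A : S n) (c : ℝ) (v : F n) : mv A (c • v) = c • mv A v := by
  ext i
  simp only [mv, PiLp.smul_apply, smul_eq_mul, Finset.mul_sum]
  exact Finset.sum_congr rfl fun j _ => by ring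

lemma e_alg (A : S n) (s : F n) (hs : ‖s‖ = 1) : |⟪mv A s, s⟫ - 1| ≤ ‖A - idm n‖ := by
  have e : ⟪mv A s, s⟫ - 1 = ⟪mv (A - idm n) s, s⟫ := by
    rw [mv_sub_left, mv_idm, inner_sub_left, real_inner_self_eq_norm_sq, hs]; norm_num
  rw [e]
  refine (abs_real_inner_le_norm _ _).trans ?_
  rw [hs, mul_one]
  exact norm_mv_one _ _ hs

lemma N_alg (s D : F n) (hs : ‖s‖ = 1) (τ : ℝ) :
    ‖τ • s - D‖ ^ 2 = τ ^ 2 - 2 * τ * ⟪D, s⟫ + ‖D‖ ^ 2 := by
  rw [norm_sub_sq_real, norm_smul, hs, real_inner_smul_left, real_inner_comm, Real.norm_eq_abs,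
    mul_one, sq_abs]
  ring

lemma K1_alg (A : S n) (s D : F n) (hs : ‖s‖ = 1) {τ : ℝ} (hτ : 0 < τ) :
    |(⟪mv A s, D⟫ + ⟪D, mv A s⟫ - 2 * ⟪D, s⟫) - 2 * τ * (⟪mv A s, s⟫ - 1)| ≤
      (2 * ‖mv (A - idm n) D‖) * ‖τ • s - D‖ / τ +
        2 * ‖A - idm n‖ * ‖τ • s - D‖ ^ 2 / τ := by
  set T : F n := τ • s - D with hT
  set A' : S n := A - idm n with hA'
  have h1 : mv A s = mv A' s + s := by rw [hA', mv_sub_left, mv_idm]; abel
  have hss : ⟪s, s⟫ = (1 : ℝ) := by rw [real_inner_self_eq_norm_sq, hs]; norm_num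
  have e1 : (⟪mv A s, D⟫ + ⟪D, mv A s⟫ - 2 * ⟪D, s⟫) - 2 * τ * (⟪mv A s, s⟫ - 1) =
      -(2 * ⟪mv A' s, T⟫) := by
    rw [real_inner_comm (mv A s) D, h1, inner_add_left, inner_add_left, hss, hT, inner_sub_right,
      real_inner_smul_right, real_inner_comm s D]
    ring
  have e2 : τ • s = T + D := by rw [hT]; abel
  have e3 : τ * ⟪mv A' s, T⟫ = ⟪mv A' T, T⟫ + ⟪mv A' D, T⟫ := by
    rw [← real_inner_smul_left, ← mv_smul_right, e2, mv_add_right, inner_add_left]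
  have e4 : |τ * ⟪mv A' s, T⟫| ≤ ‖A'‖ * ‖T‖ ^ 2 + ‖mv A' D‖ * ‖T‖ := by
    rw [e3]
    refine (abs_add_le _ _).trans (add_le_add ?_ (abs_real_inner_le_norm _ _))
    refine (abs_real_inner_le_norm _ _).trans ?_
    have := norm_mv_le A' T
    nlinarith [norm_nonneg T]
  rw [e1, abs_neg, abs_mul, abs_two, ← add_div, le_div_iff₀ hτ]
  rw [abs_mul, abs_of_pos hτ] at e4
  nlinarith

end alg

lemma Icc_div_mem {l τ : ℝ} (hl : 0 < l) (h : τ ∈ Icc (0 : ℝ) l) : τ / l ∈ Icc (0 : ℝ) 1 :=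
  ⟨by have := h.1; positivity, (div_le_one hl).2 h.2⟩

section along

variable {n : ℕ} {κ κ' : ℝ} {X : Type*} [MetricSpace X] [ProperSpace X] [MeasurableSpace X]
  [BorelSpace X] {μ : Measure X} [IsFiniteMeasureOnCompacts μ]
  {B : BochS n κ' X μ} {C : Rad n κ X μ} {x : X}

/-- the locally Lipschitz representative of `u_k` -/
structure Rep (B : BochS n κ' X μ) (x : X) (k : ℕ) (v : X → ℝ) : Prop where
  lip : LocallyLipschitz v
  ae_u : ∀ᵐ y ∂μ, uk B x k y = v y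
  ae_D : ∀ᵐ y ∂μ, B.D (uk B x k) y = B.G v y

/-- pointwise facts at scale `k` -/
structure PtF (B : BochS n κ' X μ) (x : X) (k : ℕ) (v : X → ℝ) (y : X) : Prop where
  u_eq : uk B x k y = v y
  q_eq : v y = f0 x y - dy k ^ 2 * qf B x k y
  D_eq : dist x y < 32 → B.D (uk B x k) y = B.G (hf x) y - dy k ^ 2 • B.D (qk B x k) y
  G_eq : B.D (uk B x k) y = B.G v y
  n_hf : ‖B.G (hf x) y‖ = dist x y

lemma ae_ptF (W : WLap B.toGradS n κ') {k : ℕ} {v : X → ℝ} (hv : Rep B x k v) :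
    ∀ᵐ y ∂μ, PtF B x k v y := by
  have hD := D_uL (S := B.toGradS) (n := n) (κ := κ') (dy_pos k) x
  filter_upwards [hv.ae_u, hv.ae_D, qf_ae x k W, G_f0 B.toGradS x, W.normSq_G_hf x,
    Lp.coeFn_sub (B.D (tL (isT_f0 x))) (dy k ^ 2 • B.D (qk B x k)),
    Lp.coeFn_smul (dy k ^ 2) (B.D (qk B x k)), B.D_tL (isT_f0 x),
    Lp.coeFn_sub (tL (isT_f0 x) : Lp ℝ 2 μ) (dy k ^ 2 • qk B x k),
    Lp.coeFn_smul (dy k ^ 2) (qk B x k), coe_tL (μ := μ) (isT_f0 x)]
    with y h1 h2 h3 h4 h5 h6 h7 h8 h9 h10 h11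
  refine ⟨h1, ?_, fun hd => ?_, h2, ?_⟩
  · rw [← h1]
    show (uL B.toGradS n κ' x (dy k)) y = _
    unfold uL
    rw [h9, Pi.sub_apply, h10, Pi.smul_apply, smul_eq_mul, h11, h3]
  · show B.D (uL B.toGradS n κ' x (dy k)) y = _
    rw [hD, h6, Pi.sub_apply, h7, Pi.smul_apply, h8, h4]
    have : et x y = 1 := eta_one (hf_le_S0 hd.le)
    rw [this, one_smul]
  · exact (sq_eq_sq₀ (norm_nonneg _) dist_nonneg).1 h5

variable (Q : SegS B C) (O : HObj B x) (k : ℕ)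

theorem alongD_of {p : X × X} (hl : 0 < dist p.1 p.2) {v : X → ℝ} {U1 : ℝ → ℝ} {Dw : ℝ}
    (hU : SegU Q p v (B.D (uk B x k)) (O.A k) U1)
    (hv : ContinuousOn (fun t => v (C.T p.1 t p.2)) (Icc 0 1))
    (h3 : IntervalIntegrable (fun t => dist p.1 p.2 *
        (⟪mv (O.A k (C.T p.1 t p.2)) (Q.s p t), B.D (uk B x k) (C.T p.1 t p.2)⟫ +
          ⟪B.D (uk B x k) (C.T p.1 t p.2), mv (O.A k (C.T p.1 t p.2)) (Q.s p t)⟫)) volume 0 1)
    {c₃ : ℝ} (h3' : ∀ᵐ t ∂(volume.restrict (Icc (0 : ℝ) 1)),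
        ⟪B.D (uk B x k) (C.T p.1 t p.2), B.D (uk B x k) (C.T p.1 t p.2)⟫ =
        c₃ + ∫ r in (0 : ℝ)..t, dist p.1 p.2 *
        (⟪mv (O.A k (C.T p.1 r p.2)) (Q.s p r), B.D (uk B x k) (C.T p.1 r p.2)⟫ +
          ⟪B.D (uk B x k) (C.T p.1 r p.2), mv (O.A k (C.T p.1 r p.2)) (Q.s p r)⟫))
    (hs : ∀ᵐ t ∂(volume.restrict (Icc (0 : ℝ) 1)), ‖Q.s p t‖ = 1)
    (hp : ∀ᵐ t ∂(volume.restrict (Icc (0 : ℝ) 1)), PtF B x k v (C.T p.1 t p.2))
    (hd : ∀ t ∈ Icc (0 : ℝ) 1, dist x (C.T p.1 t p.2) < 32)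
    (hG : ∀ᵐ t ∂(volume.restrict (Ioo (0 : ℝ) 1)),
      HasDerivAt (fun t => hf x (C.T p.1 t p.2))
        (dist p.1 p.2 * ⟪B.G (hf x) (C.T p.1 t p.2), Q.s p t⟫) t)
    (hH : IntervalIntegrable (fun t => Hf O k (C.T p.1 t p.2)) volume 0 1)
    (hn : IntervalIntegrable (fun t => nf O k (C.T p.1 t p.2)) volume 0 1)
    (hfirst : |U1 0 + Dw| ≤ dy k * gf B x k p.1) :
    Nonempty (AlongD (dist p.1 p.2) (dy k) (fun τ => dist x (ray C p.1 p.2 τ) ^ 2 / 2)
        (fun τ => qf B x k (ray C p.1 p.2 τ)) (fun τ => kf B x k (ray C p.1 p.2 τ))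
        (fun τ => Hf O k (ray C p.1 p.2 τ)) (fun τ => gf B x k (ray C p.1 p.2 τ))
        (fun τ => nf O k (ray C p.1 p.2 τ)) Dw (gf B x k p.1)) := by
  set l : ℝ := dist p.1 p.2 with hldef
  set y : ℝ → X := fun t => C.T p.1 t p.2 with hy
  set D : ℝ → F n := fun t => B.D (uk B x k) (y t) with hD
  set A : ℝ → S n := fun t => O.A k (y t) with hA
  set s : ℝ → F n := fun t => Q.s p t with hsdef
  set J : ℝ → ℝ := fun t => ⟪mv (A t) (s t), D t⟫ + ⟪D t, mv (A t) (s t)⟫ with hJ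
  set V : ℝ → ℝ := fun t => v (y t) + cinf with hV
  set K3 : ℝ → ℝ := fun t => c₃ + ∫ r in (0 : ℝ)..t, l * J r with hK3
  have h01 : (0 : ℝ) ∈ Icc (0 : ℝ) 1 := ⟨le_refl _, zero_le_one⟩
  have h3i : IntervalIntegrable (fun t => l * J t) volume 0 1 := h3
  have hK30 : K3 0 = c₃ := by simp [hK3]
  -- the function `N` in the variable `t`
  have hNae : ∀ᵐ t ∂(volume.restrict (Icc (0 : ℝ) 1)),
      (l * t) ^ 2 - 2 * (l * t) * U1 t + (K3 t - 2 * V t) + 2 * V t =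
        ‖(l * t) • s t - D t‖ ^ 2 := by
    filter_upwards [hs, h3', hU.ae1] with t h1 h2 h4
    have h5 : ‖D t‖ ^ 2 = K3 t := by
      rw [← real_inner_self_eq_norm_sq]
      exact h2
    have h6 : ⟪D t, s t⟫ = U1 t := h4
    rw [N_alg (s t) (D t) h1, h5, h6]
    ring
  have hK3c : ContinuousOn K3 (Icc 0 1) := by
    refine continuousOn_const.add ?_
    have := intervalIntegral.continuousOn_primitive_interval' (μ := volume) h3i
      (left_mem_uIcc (a := (0 : ℝ)) (b := 1))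
    rwa [uIcc_of_le zero_le_one] at this
  have hVc : ContinuousOn V (Icc 0 1) := hv.add continuousOn_const
  have hN0 : ∀ t ∈ Icc (0 : ℝ) 1,
      0 ≤ (l * t) ^ 2 - 2 * (l * t) * U1 t + (K3 t - 2 * V t) + 2 * V t := by
    have hc : ContinuousOn
        (fun t => (l * t) ^ 2 - 2 * (l * t) * U1 t + (K3 t - 2 * V t) + 2 * V t) (Icc 0 1) := by
      refine ((ContinuousOn.sub ?_ ?_).add ?_).add ?_
      · fun_prop
      · exact (by fun_prop : ContinuousOn (fun t : ℝ => 2 * (l * t)) (Icc 0 1)).mul hU.cont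
      · exact hK3c.sub (continuousOn_const.mul hVc)
      · exact continuousOn_const.mul hVc
    have hmin : ContinuousOn (fun t => min
        ((l * t) ^ 2 - 2 * (l * t) * U1 t + (K3 t - 2 * V t) + 2 * V t) 0) (Icc 0 1) :=
      ContinuousOn.inf hc continuousOn_const
    have h5 := eq_of_ae_of_continuousOn (a := (0 : ℝ)) (b := 1) zero_lt_one hmin
      (continuousOn_const (c := (0 : ℝ))) (by
        filter_upwards [hNae] with t ht
        rw [ht]
        exact min_eq_right (by positivity))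
    intro t ht
    have := h5 t ht
    exact min_eq_right_iff.1 this
  -- the a.e. facts in the variable `τ`
  have hsc : ∀ τ : ℝ, l * (τ / l) = τ := fun τ => mul_div_cancel₀ τ hl.ne' |> fun h => by
    rw [mul_div_assoc'] ; exact (mul_div_cancel_left₀ τ hl.ne')
  have aeI : ∀ᵐ τ ∂(volume.restrict (Ioo (0 : ℝ) l)), τ ∈ Ioo (0 : ℝ) l :=
    ae_restrict_mem measurableSet_Ioo
  have aes := ae_scale hl hs
  have aep := ae_scale hl hp
  have aeN := ae_scale hl hNae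
  have ae1 := ae_scale hl hU.ae1
  have ae3 := ae_scale hl h3'
  have aeG := ae_scale hl (ae_Ioo_iff.1 hG)
  have hNsc : ∀ τ : ℝ, (l * (τ / l)) ^ 2 - 2 * (l * (τ / l)) * U1 (τ / l) +
      (K3 (τ / l) - 2 * V (τ / l)) + 2 * V (τ / l) =
      τ ^ 2 - 2 * τ * U1 (τ / l) + (K3 (τ / l) - 2 * V (τ / l)) + 2 * V (τ / l) := fun τ => by
    rw [hsc]
  have hsqrt : ∀ᵐ τ ∂(volume.restrict (Ioo (0 : ℝ) l)),
      Real.sqrt (τ ^ 2 - 2 * τ * U1 (τ / l) + (K3 (τ / l) - 2 * V (τ / l)) + 2 * V (τ / l)) =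
        ‖τ • s (τ / l) - D (τ / l)‖ := by
    filter_upwards [aeN] with τ h1
    rw [← hNsc, h1, hsc, Real.sqrt_sq (norm_nonneg _)]
  refine ⟨{
    U := fun τ => V (τ / l)
    U1 := fun τ => U1 (τ / l)
    K := fun τ => K3 (τ / l) - 2 * V (τ / l)
    e := fun τ => ⟪mv (A (τ / l)) (s (τ / l)), s (τ / l)⟫ - 1
    K1 := fun τ => J (τ / l) - 2 * U1 (τ / l)
    hU := ?_
    hK := ?_
    e_int := ?_
    K1_int := ?_
    Hs_int := ii_scale hl hH
    nks_int := ii_scale hl hn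
    U1_cont := ?_
    ftc_U := ?_
    ftc_U1 := ?_
    ftc_K := ?_
    N_nonneg := ?_
    e_le := ?_
    K1_le := ?_
    N_le := ?_
    first := ?_ }⟩
  · -- hU
    filter_upwards [aep, aeI] with τ h1 hτ
    have h2 := hd (τ / l) (Icc_div_mem hl (Ioo_subset_Icc_self hτ))
    have h4 := f0_eq (x := x) (z := y (τ / l)) h2.le
    show v (y (τ / l)) + cinf = dist x (y (τ / l)) ^ 2 / 2 - dy k ^ 2 * qf B x k (y (τ / l))
    rw [h1.q_eq, h4]
    ring
  · -- hK
    filter_upwards [aep, ae3] with τ h1 h2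
    show K3 (τ / l) - 2 * V (τ / l) = ‖D (τ / l)‖ ^ 2 - 2 * (uk B x k (y (τ / l)) + cinf)
    have h5 : ‖D (τ / l)‖ ^ 2 = K3 (τ / l) := by
      rw [← real_inner_self_eq_norm_sq]
      exact h2
    rw [h5, h1.u_eq]
  · -- e_int
    have h1 : IntervalIntegrable (fun t => ⟪mv (A t) (s t), s t⟫) volume 0 1 := by
      have h2 := hU.int2.const_mul l⁻¹
      refine h2.congr fun t _ => ?_
      show l⁻¹ * (l * ⟪mv (A t) (s t), s t⟫) = ⟪mv (A t) (s t), s t⟫
      rw [inv_mul_cancel_left₀ hl.ne']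
    exact (ii_scale hl h1).sub intervalIntegrable_const
  · -- K1_int
    have h1 : IntervalIntegrable J volume 0 1 := by
      have h2 := h3i.const_mul l⁻¹
      refine h2.congr fun t _ => ?_
      show l⁻¹ * (l * J t) = J t
      rw [inv_mul_cancel_left₀ hl.ne']
    have h2 : IntervalIntegrable U1 volume 0 1 :=
      hU.cont.intervalIntegrable_of_Icc zero_le_one
    exact (ii_scale hl h1).sub ((ii_scale hl h2).const_mul 2)
  · -- U1_cont
    refine hU.cont.comp (by fun_prop) ?_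
    intro τ hτ
    exact Icc_div_mem hl hτ
  · -- ftc_U
    intro a ha b hb
    have h1 := ftc_scale (F := fun t => v (y t)) (f := U1) hl
      ((hU.cont.intervalIntegrable_of_Icc zero_le_one).const_mul l) hU.ftc0 a ha b hb
    rw [← h1]
    show v (y (b / l)) + cinf - (v (y (a / l)) + cinf) = _
    ring
  · -- ftc_U1
    intro a ha b hb
    have h1 := ftc_scale (F := U1) (f := fun t => ⟪mv (A t) (s t), s t⟫) hl hU.int2 hU.ftc1
      a ha b hb
    rw [h1]
    refine intervalIntegral.integral_congr fun τ _ => ?_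
    show ⟪mv (A (τ / l)) (s (τ / l)), s (τ / l)⟫ = 1 + (⟪mv (A (τ / l)) (s (τ / l)), s (τ / l)⟫ - 1)
    ring
  · -- ftc_K
    intro a ha b hb
    have h1 := ftc_scale (F := fun t => v (y t)) (f := U1) hl
      ((hU.cont.intervalIntegrable_of_Icc zero_le_one).const_mul l) hU.ftc0 a ha b hb
    have h2 := ftc_scale (F := K3) (f := J) hl h3i (fun t _ => by rw [hK30]) a ha b hb
    have hJi : IntervalIntegrable J volume 0 1 := by
      have h2 := h3i.const_mul l⁻¹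
      refine h2.congr fun t _ => ?_
      show l⁻¹ * (l * J t) = J t
      rw [inv_mul_cancel_left₀ hl.ne']
    have hUi : IntervalIntegrable U1 volume 0 1 :=
      hU.cont.intervalIntegrable_of_Icc zero_le_one
    have hsub : uIcc a b ⊆ uIcc 0 l := by
      rw [uIcc_of_le hl.le]
      exact uIcc_subset_Icc ha hb
    have hJi' := (ii_scale hl hJi).mono_set hsub
    have hUi' := ((ii_scale hl hUi).const_mul 2).mono_set hsub
    rw [intervalIntegral.integral_sub hJi' hUi', intervalIntegral.integral_const_mul, ← h1, ← h2]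
    show K3 (b / l) - 2 * (v (y (b / l)) + cinf) - (K3 (a / l) - 2 * (v (y (a / l)) + cinf)) = _
    ring
  · -- N_nonneg
    intro τ hτ
    have := hN0 (τ / l) (Icc_div_mem hl hτ)
    rw [hNsc] at this
    exact this
  · -- e_le
    filter_upwards [aes] with τ h1
    exact e_alg (A (τ / l)) (s (τ / l)) h1
  · -- K1_le
    filter_upwards [aes, hsqrt, aeI, aeN, ae1] with τ h1 h2 h4 h5 h6
    have h7 := K1_alg (A (τ / l)) (s (τ / l)) (D (τ / l)) h1 h4.1
    have h8 : ⟪D (τ / l), s (τ / l)⟫ = U1 (τ / l) := h6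
    rw [h8] at h7
    rw [hNsc, hsc] at h5
    rw [h2, h5]
    exact h7
  · -- N_le
    filter_upwards [aes, hsqrt, aeI, aep, aeG] with τ h1 h2 h4 h5 h6
    have h7 := hd (τ / l) (Icc_div_mem hl (Ioo_subset_Icc_self h4))
    have h8 : HasDerivAt (fun τ => dist x (ray C p.1 p.2 τ) ^ 2 / 2)
        ⟪B.G (hf x) (y (τ / l)), s (τ / l)⟫ τ := by
      have h9 : HasDerivAt (fun τ : ℝ => τ / l) (1 / l) τ := (hasDerivAt_id τ).div_const l
      have h10 := HasDerivAt.comp τ h6 h9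
      have e : l * ⟪B.G (hf x) (C.T p.1 (τ / l) p.2), Q.s p (τ / l)⟫ * (1 / l) =
          ⟪B.G (hf x) (y (τ / l)), s (τ / l)⟫ := by
        rw [mul_comm l, mul_assoc, mul_one_div_cancel hl.ne', mul_one]
      rw [e] at h10
      exact h10
    rw [h2, h8.deriv]
    have e1 : τ ^ 2 - 2 * τ * ⟪B.G (hf x) (y (τ / l)), s (τ / l)⟫ +
        2 * (dist x (ray C p.1 p.2 τ) ^ 2 / 2) =
        ‖τ • s (τ / l) - B.G (hf x) (y (τ / l))‖ ^ 2 := by
      rw [N_alg _ _ h1, h5.n_hf]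
      show _ = τ ^ 2 - 2 * τ * ⟪B.G (hf x) (y (τ / l)), s (τ / l)⟫ + dist x (y (τ / l)) ^ 2
      show τ ^ 2 - 2 * τ * ⟪B.G (hf x) (y (τ / l)), s (τ / l)⟫ +
        2 * (dist x (y (τ / l)) ^ 2 / 2) = _
      ring
    rw [e1, Real.sqrt_sq (norm_nonneg _)]
    have e2 : τ • s (τ / l) - D (τ / l) = (τ • s (τ / l) - B.G (hf x) (y (τ / l))) +
        dy k ^ 2 • B.D (qk B x k) (y (τ / l)) := by
      have := h5.D_eq h7
      rw [show D (τ / l) = B.D (uk B x k) (y (τ / l)) from rfl, this]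
      abel
    rw [e2]
    refine (norm_add_le _ _).trans ?_
    gcongr
    rw [norm_smul, Real.norm_of_nonneg (by have := dy_pos k; positivity)]
    show _ ≤ dy k * (dy k * ‖B.D (qk B x k) (y (τ / l))‖)
    apply le_of_eq
    ring
  · -- first
    show |U1 (0 / l) + Dw| ≤ _
    rw [zero_div]
    exact hfirst

end along

end Crest.Agent.R247.Fv510
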