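import Crest.Agent.R247.Fv5_510

/-!
R247, block (5-V) (helper510), part 6: the literal fields `d3` and `pe` of `Far553.FarD` for the
functions of `Fd0_656`.
-/

set_option autoImplicit false
set_option linter.unusedSectionVars false
open MeasureTheory Set Filter Topology
open scoped ENNReal NNReal RealInnerProductSpace

noncomputable section
namespace Crest.Agent.R247.Fv510

open Crest.Agent.R247.Mcp688 Crest.Agent.R247.Hes124 Crest.Agent.R247.Dir593
  Crest.Agent.R247.Dir593.GradS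
open Crest.Agent.R247.Smv126 (hf WLap locLip_hf)
open Crest.Agent.R247.Far553 Crest.Agent.R247.Fd656 Crest.Agent.R247.Obj554

variable {n : ℕ} {κ κ' : ℝ} {X : Type*} [MetricSpace X] [ProperSpace X] [MeasurableSpace X]
  [BorelSpace X] {μ : Measure X} [IsFiniteMeasureOnCompacts μ]
  {B : BochS n κ' X μ} {C : Rad n κ X μ} {x : X}

lemma Rep.h2 {k : ℕ} {v : X → ℝ} (hv : Rep B x k v) (O : HObj B x) :
    H2 B (O.w k) v (B.D (uk B x k)) (O.A k) where
  core := (O.hd k).core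
  toU := fun K hK => L2To.congr_right ((O.hd k).toU K hK) (ae_restrict_of_ae hv.ae_u)
  toD := (O.hd k).toD
  toA := (O.hd k).toA

lemma Hf_integrableOn (O : HObj B x) (k : ℕ) {K : Set X} (hK : IsCompact K) :
    IntegrableOn (Hf O k) K μ := by
  have := fin_restrict (μ := μ) hK
  have h1 : MemLp (fun y => O.A k y - idm n) 2 (μ.restrict K) :=
    ((O.hd k).toA K hK).mem'.sub (memLp_const _)
  exact (h1.integrable (by norm_num)).norm

lemma nf_integrableOn (O : HObj B x) (k : ℕ) {K : Set X} (hK : IsCompact K) :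
    IntegrableOn (nf O k) K μ := by
  have := fin_restrict (μ := μ) hK
  have h1 : MemLp (fun y => O.A k y - idm n) 2 (μ.restrict K) :=
    ((O.hd k).toA K hK).mem'.sub (memLp_const _)
  have h2 : MemLp (fun y => B.D (uk B x k) y) 2 (μ.restrict K) := ((O.hd k).toD K hK).mem'
  have h3 := (int_norm_mul h1 h2).const_mul 2
  refine h3.mono' (nf_meas B x O k).aestronglyMeasurable ?_
  refine Eventually.of_forall fun y => ?_
  rw [Real.norm_of_nonneg (nf_nonneg B x O k y)]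
  unfold nf
  have := norm_mv_le (O.A k y - idm n) (B.D (uk B x k) y)
  linarith

/-- everything which is used along one segment -/
structure Pk (Q : SegS B C) (O : HObj B x) (k : ℕ) (v : X → ℝ) (p : X × X) : Prop where
  mem : p ∈ C.U
  seg : ∃ U1, SegU Q p v (B.D (uk B x k)) (O.A k) U1
  start : p.1 ≠ p.2 → ∀ U1, SegU Q p v (B.D (uk B x k)) (O.A k) U1 →
      U1 0 = -⟪B.G v p.1, B.G (dist p.2) p.1⟫
  end' : p.1 ≠ p.2 → ∀ U1, SegU Q p v (B.D (uk B x k)) (O.A k) U1 →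
      U1 1 = ⟪B.G v p.2, B.G (dist p.1) p.2⟫
  norm_s : ∀ᵐ t ∂(volume.restrict (Icc (0 : ℝ) 1)), ‖Q.s p t‖ = 1
  p1 : PtF B x k v p.1
  p2 : PtF B x k v p.2
  g1 : ‖B.G (dist p.2) p.1‖ ≤ 1
  g2 : ‖B.G (dist p.1) p.2‖ ≤ 1
  intH : IntervalIntegrable (fun t => Hf O k (C.T p.1 t p.2)) volume 0 1

lemma ae_Pk [SFinite μ] (Q : SegS B C) (hκ : 0 ≤ κ) (W : WLap B.toGradS n κ') (O : HObj B x)
    {k : ℕ} {v : X → ℝ} (hv : Rep B x k v) : ∀ᵐ p ∂(μ.prod μ), Pk Q O k v p := by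
  have hP := ae_ptF (x := x) W hv
  filter_upwards [ae_mem_U (C := C), (hv.h2 O).segU hv.lip.continuous Q hκ,
    segU_start (Du := B.D (uk B x k)) (A := O.A k) Q hv.lip,
    segU_end (Du := B.D (uk B x k)) (A := O.A k) Q hv.lip, Q.ae_norm_s,
    Measure.quasiMeasurePreserving_fst.ae hP, Measure.quasiMeasurePreserving_snd.ae hP,
    Q.norm_gd, ae_swap Q.norm_gd,
    seg_integrable (C := C) hκ (Hf_meas B x O k) (fun K hK => Hf_integrableOn O k hK)]
    with p h1 h2 h3 h4 h5 h6 h7 h8 h9 h10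
  exact ⟨h1, h2, h3, h4, h5, h6, h7, h8, h9, h10⟩

lemma dist_T_lt {p : X × X} (hp : p ∈ C.U) {a b : ℝ} (h1 : dist x p.1 < a) (h2 : dist x p.2 < b) :
    ∀ t ∈ Icc (0 : ℝ) 1, dist x (C.T p.1 t p.2) < 2 * a + b := by
  intro t ht
  have h3 := C.dist_left hp ht
  have h4 : t * dist p.1 p.2 ≤ 1 * dist p.1 p.2 := by gcongr; exact ht.2
  have h5 := dist_triangle_left p.1 p.2 x
  have h6 := dist_triangle x p.1 (C.T p.1 t p.2)
  linarith

variable {k : ℕ} {v : X → ℝ}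

/-- difference of the radial derivatives of `f_x` and `u_k` -/
lemma abs_inner_diff {y : X} (h : PtF B x k v y) (hd : dist x y < 32) {g : F n} (hg : ‖g‖ ≤ 1) :
    |⟪B.G (hf x) y, g⟫ - ⟪B.G v y, g⟫| ≤ dy k * gf B x k y := by
  rw [← h.G_eq, h.D_eq hd, inner_sub_left, sub_sub_cancel]
  refine (abs_real_inner_le_norm _ _).trans ?_
  have hρ := dy_pos k
  rw [norm_smul, Real.norm_of_nonneg (by positivity)]
  unfold gf
  calc dy k ^ 2 * ‖B.D (qk B x k) y‖ * ‖g‖ ≤ dy k ^ 2 * ‖B.D (qk B x k) y‖ * 1 := by gcongr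
    _ = _ := by ring

/-- **field `d3` of `FarD`** -/
theorem d3 [SFinite μ] (Q : SegS B C) (hκ : 0 ≤ κ) (W : WLap B.toGradS n κ') (O : HObj B x)
    (hR : ∀ k, ∃ v, Rep B x k v) :
    ∀ k, ∀ᵐ p ∂(μ.prod μ), dist x p.1 < 2 → dist x p.2 < 12 → p.1 ≠ p.2 →
    ∃ Dw : ℝ, HasDerivWithinAt (fun t : ℝ => dist (C.T x t p.1) p.2) Dw (Iio 1) 1 ∧
      HasDerivWithinAt (fun τ : ℝ => dist x (ray C p.1 p.2 τ) ^ 2 / 2) (-Dw) (Ici 0) 0 ∧
      Nonempty (AlongD (dist p.1 p.2) (dy k) (fun τ => dist x (ray C p.1 p.2 τ) ^ 2 / 2)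
        (fun τ => qf B x k (ray C p.1 p.2 τ)) (fun τ => kf B x k (ray C p.1 p.2 τ))
        (fun τ => Hf O k (ray C p.1 p.2 τ)) (fun τ => gf B x k (ray C p.1 p.2 τ))
        (fun τ => nf O k (ray C p.1 p.2 τ)) Dw (gf B x k p.1)) := by
  intro k
  obtain ⟨v, hv⟩ := hR k
  have hP := ae_ptF (x := x) W hv
  filter_upwards [ae_Pk Q hκ W O hv, H2.seg3 (hv.h2 O) (hv.h2 O) Q hκ, ae_seg_all C hκ hP,
    Q.dl (locLip_hf x), Q.dl0 (locLip_hf x), Q.rdw x,
    seg_integrable (C := C) hκ (nf_meas B x O k) (fun K hK => nf_integrableOn O k hK)]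
    with p hp h3 hpt hdl hdl0 hrdw hnf hx1 hx2 hne
  obtain ⟨U1, hU⟩ := hp.seg
  obtain ⟨h3i, c₃, h3'⟩ := h3
  have hl : 0 < dist p.1 p.2 := dist_pos.2 hne
  refine ⟨⟪B.G (hf x) p.1, B.G (dist p.2) p.1⟫, hrdw, ?_, ?_⟩
  · have h9 : HasDerivWithinAt (fun τ : ℝ => τ / dist p.1 p.2) (1 / dist p.1 p.2) (Ici 0) 0 :=
      ((hasDerivAt_id (0 : ℝ)).div_const (dist p.1 p.2)).hasDerivWithinAt
    have h8 : HasDerivWithinAt (fun t => hf x (C.T p.1 t p.2))
        (-(dist p.1 p.2 * ⟪B.G (hf x) p.1, B.G (dist p.2) p.1⟫)) (Ici 0)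
        ((fun τ : ℝ => τ / dist p.1 p.2) 0) := by
      simpa using hdl0
    have h10 := HasDerivWithinAt.comp (h := fun τ : ℝ => τ / dist p.1 p.2) (0 : ℝ) h8 h9
      (fun τ hτ => by
        simp only [mem_Ici] at hτ ⊢
        positivity)
    have e : -(dist p.1 p.2 * ⟪B.G (hf x) p.1, B.G (dist p.2) p.1⟫) * (1 / dist p.1 p.2) =
        -⟪B.G (hf x) p.1, B.G (dist p.2) p.1⟫ := by
      rw [neg_mul, mul_comm (dist p.1 p.2), mul_assoc, mul_one_div_cancel hl.ne', mul_one]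
    rw [e] at h10
    exact h10
  · refine alongD_of Q O k hl hU (hv.lip.continuous.comp_continuousOn (continuousOn_T hp.mem)) h3i
      h3' hp.norm_s hpt (fun t ht => ?_) hdl hp.intH hnf ?_
    · have := dist_T_lt hp.mem hx1 hx2 t ht
      linarith
    · rw [hp.start hne U1 hU, neg_add_eq_sub]
      exact abs_inner_diff hp.p1 (by linarith) hp.g1

/-- **field `pe` of `FarD`** -/
theorem pe [SFinite μ] (Q : SegS B C) (hκ : 0 ≤ κ) (W : WLap B.toGradS n κ') (O : HObj B x)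
    (hR : ∀ k, ∃ v, Rep B x k v) :
    ∀ k, ∀ᵐ p ∂(μ.prod μ), dist x p.1 < 12 → dist x p.2 < 12 →
    ∃ A : ℝ, HasDerivWithinAt (fun t : ℝ => dist (C.T x t p.1) (C.T x t p.2)) A (Iio 1) 1 ∧
      ENNReal.ofReal |A - dist p.1 p.2| ≤ err C (dy k) (Hf O k) (gf B x k) p.1 p.2 := by
  intro k
  obtain ⟨v, hv⟩ := hR k
  filter_upwards [ae_Pk Q hκ W O hv, Q.pe0 x] with p hp hpe hx1 hx2
  refine ⟨_, hpe, ?_⟩
  by_cases hne : p.1 = p.2
  · have h0 : HasDerivWithinAt (fun t : ℝ => dist (C.T x t p.1) (C.T x t p.2)) 0 (Iio 1) 1 := by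
      rw [hne]
      simpa using hasDerivWithinAt_const (1 : ℝ) (Iio 1) (0 : ℝ)
    have h1 := (uniqueDiffWithinAt_Iio (1 : ℝ)).eq_deriv _ hpe h0
    rw [h1, hne, dist_self, sub_zero, abs_zero, ENNReal.ofReal_zero]
    exact zero_le
  obtain ⟨U1, hU⟩ := hp.seg
  have hl : 0 < dist p.1 p.2 := dist_pos.2 hne
  have e0 := hp.start hne U1 hU
  have e1 := hp.end' hne U1 hU
  have e2 := hU.ftc1 1 ⟨zero_le_one, le_refl _⟩
  have a1 := abs_inner_diff hp.p1 (by linarith) hp.g1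
  have a2 := abs_inner_diff hp.p2 (by linarith) hp.g2
  -- the integral
  have hI : IntervalIntegrable (fun t => ⟪mv (O.A k (C.T p.1 t p.2)) (Q.s p t), Q.s p t⟫)
      volume 0 1 := by
    have h2 := hU.int2.const_mul (dist p.1 p.2)⁻¹
    refine h2.congr fun t _ => ?_
    show (dist p.1 p.2)⁻¹ * (dist p.1 p.2 * _) = _
    rw [inv_mul_cancel_left₀ hl.ne']
  have e3 : ∫ r in (0 : ℝ)..1,
      dist p.1 p.2 * ⟪mv (O.A k (C.T p.1 r p.2)) (Q.s p r), Q.s p r⟫ =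
      dist p.1 p.2 + dist p.1 p.2 *
        ∫ r in (0 : ℝ)..1, (⟪mv (O.A k (C.T p.1 r p.2)) (Q.s p r), Q.s p r⟫ - 1) := by
    rw [intervalIntegral.integral_sub hI intervalIntegrable_const,
      intervalIntegral.integral_const_mul, intervalIntegral.integral_const]
    simp only [sub_zero, smul_eq_mul, mul_one]
    ring
  have a3 : |∫ r in (0 : ℝ)..1, (⟪mv (O.A k (C.T p.1 r p.2)) (Q.s p r), Q.s p r⟫ - 1)| ≤
      ∫ r in (0 : ℝ)..1, Hf O k (C.T p.1 r p.2) := by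
    rw [← Real.norm_eq_abs]
    refine intervalIntegral.norm_integral_le_of_norm_le zero_le_one ?_ hp.intH
    have := (ae_restrict_iff' measurableSet_Icc).1 hp.norm_s
    filter_upwards [this] with t ht hm
    rw [Real.norm_eq_abs]
    exact e_alg _ _ (ht (Ioc_subset_Icc_self hm))
  have key : |⟪B.G (hf x) p.1, B.G (dist p.2) p.1⟫ + ⟪B.G (hf x) p.2, B.G (dist p.1) p.2⟫ -
      dist p.1 p.2| ≤ dist p.1 p.2 * (∫ r in (0 : ℝ)..1, Hf O k (C.T p.1 r p.2)) +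
        dy k * (gf B x k p.1 + gf B x k p.2) := by
    have e4 : ⟪B.G (hf x) p.1, B.G (dist p.2) p.1⟫ + ⟪B.G (hf x) p.2, B.G (dist p.1) p.2⟫ -
      dist p.1 p.2 = dist p.1 p.2 *
        (∫ r in (0 : ℝ)..1, (⟪mv (O.A k (C.T p.1 r p.2)) (Q.s p r), Q.s p r⟫ - 1)) +
        ((⟪B.G (hf x) p.1, B.G (dist p.2) p.1⟫ - ⟪B.G v p.1, B.G (dist p.2) p.1⟫) +
        (⟪B.G (hf x) p.2, B.G (dist p.1) p.2⟫ - ⟪B.G v p.2, B.G (dist p.1) p.2⟫)) := by
      rw [e3, e0, e1] at e2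
      linarith
    rw [e4]
    refine (abs_add_le _ _).trans (add_le_add ?_ ?_)
    · rw [abs_mul, abs_of_pos hl]
      gcongr
    · refine (abs_add_le _ _).trans ?_
      rw [mul_add]
      exact add_le_add a1 a2
  refine (ENNReal.ofReal_le_ofReal key).trans ?_
  have hρ := dy_pos k
  have hH0 : 0 ≤ ∫ r in (0 : ℝ)..1, Hf O k (C.T p.1 r p.2) :=
    intervalIntegral.integral_nonneg zero_le_one fun t _ => Hf_nonneg B x O k _
  rw [ENNReal.ofReal_add (by positivity) (mul_nonneg hρ.le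
    (add_nonneg (gf_nonneg B x k _) (gf_nonneg B x k _)))]
  unfold err
  gcongr
  rw [ENNReal.ofReal_mul hl.le]
  gcongr
  rw [intervalIntegral.integral_of_le zero_le_one, ← integral_Icc_eq_integral_Ioc]
  rw [ofReal_integral_eq_lintegral_ofReal]
  · exact (intervalIntegrable_iff_integrableOn_Icc_of_le zero_le_one).1 hp.intH
  · exact Eventually.of_forall fun t => Hf_nonneg B x O k _

end Crest.Agent.R247.Fv510
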