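import Crest.Agent.R247.Gb2_593

/-!
R247, block (5-GB) (helper593), part 3: the gradient bound (GB2), `|Du|²/2 ∈ V` (GB3).
-/

set_option autoImplicit false
set_option linter.unusedSectionVars false

open MeasureTheory Filter Topology Set
open scoped RealInnerProductSpace ENNReal NNReal

noncomputable section

namespace Crest.Agent.R247.Gb593

open Crest.Agent.R247.Dir593 Crest.Agent.R247.Dir593.GradS Crest.Agent.R247.Hes124
  Crest.Agent.R247.Hes124.BochS

/-- smooth step starting at `a` -/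
def st (a s : ℝ) : ℝ := rmp a 1 s - rmp (a + 1) 1 s

theorem st_eq_zero {a s : ℝ} (h : s ≤ a) : st a s = 0 := by
  unfold st rmp
  rw [max_eq_right (by linarith), max_eq_right (by linarith), max_eq_right (by linarith),
    max_eq_right (by linarith)]
  simp

theorem st_bounds (a s : ℝ) : 0 ≤ st a s ∧ st a s ≤ 1 := by
  rcases le_total s a with h | h
  · rw [st_eq_zero h]; exact ⟨le_rfl, zero_le_one⟩
  unfold st rmp
  rcases le_total s (a + 1) with h1 | h1
  · rw [max_eq_left (by linarith), max_eq_right (by linarith), max_eq_right (by linarith),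
      max_eq_right (by linarith)]
    constructor <;> nlinarith
  · rcases le_total s (a + 2) with h2 | h2
    · rw [max_eq_left (by linarith), max_eq_left (by linarith), max_eq_left (by linarith),
        max_eq_right (by linarith)]
      constructor <;> nlinarith
    · rw [max_eq_left (by linarith), max_eq_left (by linarith), max_eq_left (by linarith),
        max_eq_left (by linarith)]
      constructor <;> nlinarith

theorem st_pos {a s : ℝ} (h : a < s) : 0 < st a s := by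
  unfold st rmp
  rcases le_total s (a + 1) with h1 | h1
  · rw [max_eq_left (by linarith), max_eq_right (by linarith), max_eq_right (by linarith),
      max_eq_right (by linarith)]
    have : 0 < s - a := by linarith
    have : 0 < (s - a) ^ 2 := by positivity
    nlinarith
  · rcases le_total s (a + 2) with h2 | h2
    · rw [max_eq_left (by linarith), max_eq_left (by linarith), max_eq_left (by linarith),
        max_eq_right (by linarith)]
      nlinarith
    · rw [max_eq_left (by linarith), max_eq_left (by linarith), max_eq_left (by linarith),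
        max_eq_left (by linarith)]
      nlinarith

theorem hasDerivAt_st (a s : ℝ) : HasDerivAt (st a) (rmp' a 1 s - rmp' (a + 1) 1 s) s :=
  (hasDerivAt_rmp one_pos s).sub (hasDerivAt_rmp one_pos s)

theorem deriv_st (a s : ℝ) : deriv (st a) s = rmp' a 1 s - rmp' (a + 1) 1 s :=
  (hasDerivAt_st a s).deriv

theorem deriv_st_bounds (a s : ℝ) : 0 ≤ deriv (st a) s ∧ deriv (st a) s ≤ 1 := by
  rw [deriv_st]
  have h1 := rmp'_mem (a := a) one_pos s
  have h2 := rmp'_mem (a := a + 1) one_pos s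
  refine ⟨?_, by linarith⟩
  rcases le_total s (a + 1) with h | h
  · have e : rmp' (a + 1) 1 s = 0 := by
      unfold rmp'
      rw [max_eq_right (by linarith), max_eq_right (by linarith)]
      simp
    rw [e]; linarith
  · have e : rmp' a 1 s = 1 := by
      unfold rmp'
      rw [max_eq_left (by linarith), max_eq_left (by linarith)]
      ring
    rw [e]; linarith

theorem deriv_st_zero {a s : ℝ} (h : a + 2 ≤ s) : deriv (st a) s = 0 := by
  rw [deriv_st]
  unfold rmp'
  rw [max_eq_left (by linarith), max_eq_left (by linarith), max_eq_left (by linarith),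
    max_eq_left (by linarith)]
  ring

theorem contDiff_st (a : ℝ) : ContDiff ℝ 1 (st a) := by
  unfold st
  exact (contDiff_rmp one_pos).sub (contDiff_rmp one_pos)

theorem tr_st {a : ℝ} (ha : 0 ≤ a) : Tr (st a) 1 (a + 2) where
  cd := contDiff_st a
  Θ0 := zero_le_one
  M0 := by linarith
  b := fun s _ => by rw [abs_of_nonneg (st_bounds a s).1]; exact (st_bounds a s).2
  b' := fun s _ => by rw [abs_of_nonneg (deriv_st_bounds a s).1]; exact (deriv_st_bounds a s).2
  z := fun _ hs => deriv_st_zero hs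

/-- bounded identity: `idt b s = s` for `s ≤ b`, constant for `s ≥ b + 1` -/
def idt (b s : ℝ) : ℝ := s - rmp b 1 s

theorem hasDerivAt_idt (b s : ℝ) : HasDerivAt (idt b) (1 - rmp' b 1 s) s :=
  (hasDerivAt_id s).sub (hasDerivAt_rmp one_pos s)

theorem idt_eq {b s : ℝ} (h : s ≤ b) : idt b s = s := by
  unfold idt rmp
  rw [max_eq_right (by linarith), max_eq_right (by linarith)]
  simp

theorem deriv_idt_eq {b s : ℝ} (h : s ≤ b) : deriv (idt b) s = 1 := by
  rw [(hasDerivAt_idt b s).deriv]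
  unfold rmp'
  rw [max_eq_right (by linarith), max_eq_right (by linarith)]
  simp

theorem tr_idt {b : ℝ} (hb : 0 ≤ b) : Tr (idt b) (b + 1) (b + 1) where
  cd := by
    unfold idt
    exact contDiff_id.sub (contDiff_rmp one_pos)
  Θ0 := by linarith
  M0 := by linarith
  b := fun s hs => by
    unfold idt rmp
    rcases le_total s b with h | h
    · rw [max_eq_right (by linarith), max_eq_right (by linarith)]
      rw [abs_le]; constructor <;> nlinarith
    · rcases le_total s (b + 1) with h1 | h1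
      · rw [max_eq_left (by linarith), max_eq_right (by linarith)]
        rw [abs_le]; constructor <;> nlinarith
      · rw [max_eq_left (by linarith), max_eq_left (by linarith)]
        rw [abs_le]; constructor <;> nlinarith
  b' := fun s _ => by
    rw [(hasDerivAt_idt b s).deriv]
    have h1 := rmp'_mem (a := b) one_pos s
    rw [abs_of_nonneg (by linarith)]
    linarith
  z := fun s hs => by
    rw [(hasDerivAt_idt b s).deriv]
    unfold rmp'
    rw [max_eq_left (by linarith), max_eq_left (by linarith)]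
    ring

variable {n : ℕ} {κ : ℝ} {X : Type*} [MetricSpace X] [MeasurableSpace X] [BorelSpace X]
  {μ : Measure X} [IsFiniteMeasureOnCompacts μ]
variable {B : BochS n κ X μ} {u : Lp ℝ 2 μ} {S0 : ℝ} {w : ℕ → X → ℝ} {A : X → S n}
variable {θ : ℝ → ℝ} {Θ M : ℝ}

/-- hypotheses on `u`: weak Laplacian `f ∈ V` bounded -/
structure Eqn (B : BochS n κ X μ) (u f : Lp ℝ 2 μ) (C : ℝ) (A : X → S n) : Prop where
  fV : f ∈ B.V
  C0 : 0 ≤ C
  fb : ∀ᵐ x ∂μ, |f x| ≤ C
  wk : ∀ p, IsT p → ∫ x, ⟪B.D u x, B.G p x⟫ ∂μ = - ∫ x, f x * p x ∂μ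
  tr : ∀ᵐ x ∂μ, tr (A x) = f x

/-- combination of Bochner and the weak equation, truncated test function -/
theorem E2 (h : HD B u S0 w A) {f : Lp ℝ 2 μ} {C : ℝ} (hE : Eqn B u f C A) (hθ : Tr θ Θ M)
    {χ : X → ℝ} (hχ : IsT χ) :
    Integrable (fun x => χ x ^ 2 * θ (P B u x) * (‖A x‖ ^ 2 +
        ⟪mv (B.Ric x) (B.D u x), B.D u x⟫ + ⟪B.D f x, B.D u x⟫) +
        ⟪DP B u A θ χ x, mv (A x) (B.D u x)⟫) μ ∧
      ∫ x, (χ x ^ 2 * θ (P B u x) * (‖A x‖ ^ 2 +
        ⟪mv (B.Ric x) (B.D u x), B.D u x⟫ + ⟪B.D f x, B.D u x⟫) +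
        ⟪DP B u A θ χ x, mv (A x) (B.D u x)⟫) ∂μ = 0 := by
  obtain ⟨c, hc0, hc1, hc2, hc3⟩ := cut_const B hχ
  obtain ⟨i1, e1⟩ := boch_trunc h hθ hχ
  obtain ⟨hpV, hpD⟩ := trunc_mem h hθ hχ
  set p : Lp ℝ 2 μ := (memLp_p (B := B) (u := u) hθ hχ).toLp _ with hp
  have hpc : (p : X → ℝ) =ᵐ[μ] fun x => χ x ^ 2 * θ (P B u x) := MemLp.coeFn_toLp _
  have hΘ := hθ.Θ0
  have hpb : ∀ᵐ x ∂μ, |p x| ≤ max C (c ^ 2 * Θ) := by
    filter_upwards [hpc] with x hx
    rw [hx, abs_mul, abs_pow]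
    refine le_trans ?_ (le_max_right _ _)
    exact mul_le_mul (pow_le_pow_left₀ (abs_nonneg _) (hc1 x) 2)
      (hθ.b _ (by unfold P; positivity)) (abs_nonneg _) (by positivity)
  obtain ⟨i2, e2⟩ := weak_fp hE.fV (le_max_of_le_left hE.C0 : 0 ≤ max C (c ^ 2 * Θ))
    (hE.fb.mono fun x hx => hx.trans (le_max_left _ _)) hE.wk hpV hpb
  have e3 : ∀ᵐ x ∂μ, Tb B A (B.D u) (fun x => χ x ^ 2 * θ (P B u x)) (DP B u A θ χ) x +
      (f x * (p x * f x + ⟪B.D p x, B.D u x⟫) + p x * ⟪B.D f x, B.D u x⟫) =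
      χ x ^ 2 * θ (P B u x) * (‖A x‖ ^ 2 +
        ⟪mv (B.Ric x) (B.D u x), B.D u x⟫ + ⟪B.D f x, B.D u x⟫) +
        ⟪DP B u A θ χ x, mv (A x) (B.D u x)⟫ := by
    filter_upwards [hpc, hpD, hE.tr] with x a1 a2 a3
    rw [a1, a2]
    simp only [Tb]
    rw [a3]
    ring
  refine ⟨(i1.add i2).congr e3, ?_⟩
  rw [← integral_congr_ae e3, integral_add i1 i2, e1, e2, add_zero]

/-- `|D u|²` is integrable -/
theorem int_Du (u : Lp ℝ 2 μ) (B : BochS n κ X μ) : Integrable (fun x => ‖B.D u x‖ ^ 2) μ :=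
  integrable_normSq (B.D u)

/-- (GB2) **gradient bound**. -/
theorem grad_bound [ProperSpace X] (h : HD B u S0 w A) (hκ : 0 ≤ κ) {f : Lp ℝ 2 μ} {C : ℝ}
    (hE : Eqn B u f C A) {t : ℝ} (ht : 0 < t) (hκt : 2 * κ * t < 1) {A0 : ℝ}
    (hg : ∀ᵐ x ∂μ, ‖B.D u x - t • B.D f x‖ ≤ A0) :
    ∀ᵐ x ∂μ, ‖B.D u x‖ ^ 2 ≤ A0 ^ 2 / (1 - 2 * κ * t) := by
  have hδ : 0 < 1 - 2 * κ * t := by linarith
  set a : ℝ := A0 ^ 2 / (1 - 2 * κ * t) / 2 with ha
  have ha0 : 0 ≤ a := by positivity
  have hA : MemLp A 2 μ := memLp_A h hκ (Lp.memLp f) hE.tr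
  obtain ⟨c, hc⟩ := exists_cut B.toGradS
  set q0 : X → ℝ := fun x => ((1 - 2 * κ * t) * (2 * P B u x) - A0 ^ 2) / (2 * t) with hq0
  -- integrable majorants
  have iD := int_Du u B
  have iAD : Integrable (fun x => ‖A x‖ * ‖B.D u x‖) μ := int_norm_mul hA (Lp.memLp (B.D u))
  have hmP : AEStronglyMeasurable (fun x => st a (P B u x)) μ :=
    (contDiff_st a).continuous.comp_aestronglyMeasurable (aesm_P B u)
  have hmq : AEStronglyMeasurable q0 μ :=
    (by fun_prop : Continuous fun s : ℝ => ((1 - 2 * κ * t) * (2 * s) - A0 ^ 2) /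
      (2 * t)).comp_aestronglyMeasurable (aesm_P B u)
  -- nonnegativity and bound of `st a P * q0`
  have hnn : ∀ x, 0 ≤ st a (P B u x) * q0 x := fun x => by
    rcases le_or_gt (P B u x) a with h1 | h1
    · rw [st_eq_zero h1, zero_mul]
    · refine mul_nonneg (st_bounds _ _).1 (div_nonneg ?_ (by positivity))
      have : A0 ^ 2 = (1 - 2 * κ * t) * (2 * a) := by rw [ha]; field_simp
      rw [this]
      nlinarith
  have hle : ∀ x, st a (P B u x) * q0 x ≤ (1 / (2 * t)) * ‖B.D u x‖ ^ 2 := fun x => by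
    have h2 : q0 x ≤ (1 / (2 * t)) * ‖B.D u x‖ ^ 2 := by
      simp only [hq0, P]
      rw [div_le_iff₀ (by positivity)]
      have : 1 / (2 * t) * ‖B.D u x‖ ^ 2 * (2 * t) = ‖B.D u x‖ ^ 2 := by field_simp
      rw [this]
      have h3 : 0 ≤ 2 * κ * t * ‖B.D u x‖ ^ 2 := by positivity
      nlinarith [sq_nonneg A0]
    rcases le_or_gt 0 (q0 x) with h1 | h1
    · calc st a (P B u x) * q0 x ≤ 1 * q0 x := mul_le_mul_of_nonneg_right (st_bounds _ _).2 h1
        _ ≤ _ := by rw [one_mul]; exact h2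
    · exact (mul_nonpos_of_nonneg_of_nonpos (st_bounds _ _).1 h1.le).trans (by positivity)
  have iq : Integrable (fun x => st a (P B u x) * q0 x) μ :=
    (iD.const_mul (1 / (2 * t))).mono' (hmP.mul hmq) (Eventually.of_forall fun x => by
      rw [Real.norm_of_nonneg (hnn x)]; exact hle x)
  -- the key inequality for each cut-off
  have key : ∀ k, ∫ x, c k x ^ 2 * (st a (P B u x) * q0 x) ∂μ ≤
      ∫ x, -(2 * c k x * st a (P B u x) * ⟪B.G (c k) x, mv (A x) (B.D u x)⟫) ∂μ := by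
    intro k
    obtain ⟨i1, e1⟩ := E2 h hE (tr_st ha0) (hc.T k)
    have hcm : AEStronglyMeasurable (c k) μ := (hc.T k).1.continuous.aestronglyMeasurable
    have i2 : Integrable (fun x => c k x ^ 2 * (st a (P B u x) * q0 x)) μ := by
      refine iq.bdd_mul (hcm.pow 2) (c := 1) (Eventually.of_forall fun x => ?_)
      rw [Real.norm_of_nonneg (sq_nonneg _)]
      exact pow_le_one₀ (hc.nn k x) (hc.le1 k x)
    have i3 : Integrable (fun x => -(2 * c k x * st a (P B u x) *
        ⟪B.G (c k) x, mv (A x) (B.D u x)⟫)) μ := by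
      refine (iAD.const_mul 2).mono' (((hcm.const_mul 2).mul hmP).mul
        ((B.meas (hc.T k).1).inner (aesm_mv h.Am (Lp.aestronglyMeasurable _)))).neg ?_
      filter_upwards [hc.G1 k] with x hx
      rw [norm_neg, Real.norm_eq_abs, abs_mul, abs_mul, abs_mul,
        abs_of_pos (by norm_num : (0:ℝ) < 2), abs_of_nonneg (hc.nn k x),
        abs_of_nonneg (st_bounds a (P B u x)).1]
      have g1 : |⟪B.G (c k) x, mv (A x) (B.D u x)⟫| ≤ 1 * (‖A x‖ * ‖B.D u x‖) :=
        (abs_real_inner_le_norm _ _).trans (mul_le_mul hx (norm_mv_le _ _) (norm_nonneg _)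
          zero_le_one)
      have g2 : c k x * st a (P B u x) ≤ 1 :=
        mul_le_one₀ (hc.le1 k x) (st_bounds a (P B u x)).1 (st_bounds a (P B u x)).2
      have g3 : 0 ≤ c k x * st a (P B u x) := mul_nonneg (hc.nn k x) (st_bounds a (P B u x)).1
      have g4 : 0 ≤ ‖A x‖ * ‖B.D u x‖ := by positivity
      calc 2 * c k x * st a (P B u x) * |⟪B.G (c k) x, mv (A x) (B.D u x)⟫|
          = 2 * (c k x * st a (P B u x)) * |⟪B.G (c k) x, mv (A x) (B.D u x)⟫| := by ring
        _ ≤ 2 * 1 * (1 * (‖A x‖ * ‖B.D u x‖)) := by gcongr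
        _ = 2 * (‖A x‖ * ‖B.D u x‖) := by ring
    have e2 : ∫ x, c k x ^ 2 * (st a (P B u x) * q0 x) ∂μ =
        ∫ x, (c k x ^ 2 * (st a (P B u x) * q0 x) - (c k x ^ 2 * st a (P B u x) * (‖A x‖ ^ 2 +
        ⟪mv (B.Ric x) (B.D u x), B.D u x⟫ + ⟪B.D f x, B.D u x⟫) +
        ⟪DP B u A (st a) (c k) x, mv (A x) (B.D u x)⟫)) ∂μ := by
      rw [integral_sub i2 i1, e1, sub_zero]
    rw [e2]
    refine integral_mono_ae (i2.sub i1) i3 ?_
    filter_upwards [B.Ric_lb, hg] with x b1 b2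
    have b3 := b1 (B.D u x)
    have b4 : (‖B.D u x‖ ^ 2 - A0 ^ 2) / (2 * t) ≤ ⟪B.D f x, B.D u x⟫ := by
      rw [div_le_iff₀ (by positivity)]
      have c1 : ⟪B.D u x - t • B.D f x, B.D u x⟫ ≤ A0 * ‖B.D u x‖ :=
        (real_inner_le_norm _ _).trans (mul_le_mul_of_nonneg_right b2 (norm_nonneg _))
      rw [inner_sub_left, real_inner_self_eq_norm_sq, real_inner_smul_left] at c1
      nlinarith [sq_nonneg (A0 - ‖B.D u x‖)]
    have b5 : q0 x ≤ ‖A x‖ ^ 2 + ⟪mv (B.Ric x) (B.D u x), B.D u x⟫ + ⟪B.D f x, B.D u x⟫ := by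
      have c1 : q0 x = -(κ * ‖B.D u x‖ ^ 2) + (‖B.D u x‖ ^ 2 - A0 ^ 2) / (2 * t) := by
        simp only [hq0, P]; field_simp; ring
      rw [c1]
      linarith [sq_nonneg ‖A x‖]
    have b6 : ⟪DP B u A (st a) (c k) x, mv (A x) (B.D u x)⟫ =
        c k x ^ 2 * deriv (st a) (P B u x) * ‖mv (A x) (B.D u x)‖ ^ 2 +
          2 * c k x * st a (P B u x) * ⟪B.G (c k) x, mv (A x) (B.D u x)⟫ := by
      simp only [DP]
      rw [inner_add_left, real_inner_smul_left, real_inner_smul_left, real_inner_self_eq_norm_sq]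
    show c k x ^ 2 * (st a (P B u x) * q0 x) - (c k x ^ 2 * st a (P B u x) * (‖A x‖ ^ 2 +
        ⟪mv (B.Ric x) (B.D u x), B.D u x⟫ + ⟪B.D f x, B.D u x⟫) +
        ⟪DP B u A (st a) (c k) x, mv (A x) (B.D u x)⟫) ≤ _
    rw [b6]
    have b7 : 0 ≤ c k x ^ 2 * deriv (st a) (P B u x) * ‖mv (A x) (B.D u x)‖ ^ 2 :=
      mul_nonneg (mul_nonneg (sq_nonneg _) (deriv_st_bounds _ _).1) (sq_nonneg _)
    have b8 : c k x ^ 2 * (st a (P B u x) * q0 x) ≤ c k x ^ 2 * st a (P B u x) * (‖A x‖ ^ 2 +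
        ⟪mv (B.Ric x) (B.D u x), B.D u x⟫ + ⟪B.D f x, B.D u x⟫) := by
      rw [mul_assoc]
      exact mul_le_mul_of_nonneg_left (mul_le_mul_of_nonneg_left b5 (st_bounds _ _).1)
        (sq_nonneg _)
    linarith
  -- limits
  have l1 : Tendsto (fun k => ∫ x, c k x ^ 2 * (st a (P B u x) * q0 x) ∂μ) atTop
      (𝓝 (∫ x, st a (P B u x) * q0 x ∂μ)) := by
    refine tendsto_integral_of_dominated_convergence (fun x => st a (P B u x) * q0 x)
      (fun k => ?_) iq (fun k => Eventually.of_forall fun x => ?_)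
      (Eventually.of_forall fun x => ?_)
    · exact (((hc.T k).1.continuous.aestronglyMeasurable).pow 2).mul (hmP.mul hmq)
    · rw [Real.norm_of_nonneg (mul_nonneg (sq_nonneg _) (hnn x))]
      calc c k x ^ 2 * (st a (P B u x) * q0 x) ≤ 1 * (st a (P B u x) * q0 x) :=
            mul_le_mul_of_nonneg_right (pow_le_one₀ (hc.nn k x) (hc.le1 k x)) (hnn x)
        _ = _ := one_mul _
    · have := ((hc.tendsto1 x).pow 2).mul_const (st a (P B u x) * q0 x)
      simpa using this
  have l2 : Tendsto (fun k => ∫ x, -(2 * c k x * st a (P B u x) *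
      ⟪B.G (c k) x, mv (A x) (B.D u x)⟫) ∂μ) atTop (𝓝 (∫ _ : X, (0:ℝ) ∂μ)) := by
    refine tendsto_integral_of_dominated_convergence (fun x => 2 * (‖A x‖ * ‖B.D u x‖))
      (fun k => ?_) (iAD.const_mul 2) (fun k => ?_) ?_
    · exact (((((hc.T k).1.continuous.aestronglyMeasurable).const_mul 2).mul hmP).mul
        ((B.meas (hc.T k).1).inner (aesm_mv h.Am (Lp.aestronglyMeasurable _)))).neg
    · filter_upwards [hc.G1 k] with x hx
      rw [norm_neg, Real.norm_eq_abs, abs_mul, abs_mul, abs_mul,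
        abs_of_pos (by norm_num : (0:ℝ) < 2), abs_of_nonneg (hc.nn k x),
        abs_of_nonneg (st_bounds a (P B u x)).1]
      have g1 : |⟪B.G (c k) x, mv (A x) (B.D u x)⟫| ≤ 1 * (‖A x‖ * ‖B.D u x‖) :=
        (abs_real_inner_le_norm _ _).trans (mul_le_mul hx (norm_mv_le _ _) (norm_nonneg _)
          zero_le_one)
      have g2 : c k x * st a (P B u x) ≤ 1 :=
        mul_le_one₀ (hc.le1 k x) (st_bounds a (P B u x)).1 (st_bounds a (P B u x)).2
      have g3 : 0 ≤ c k x * st a (P B u x) := mul_nonneg (hc.nn k x) (st_bounds a (P B u x)).1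
      have g4 : 0 ≤ ‖A x‖ * ‖B.D u x‖ := by positivity
      calc 2 * c k x * st a (P B u x) * |⟪B.G (c k) x, mv (A x) (B.D u x)⟫|
          = 2 * (c k x * st a (P B u x)) * |⟪B.G (c k) x, mv (A x) (B.D u x)⟫| := by ring
        _ ≤ 2 * 1 * (1 * (‖A x‖ * ‖B.D u x‖)) := by gcongr
        _ = 2 * (‖A x‖ * ‖B.D u x‖) := by ring
    · filter_upwards [hc.tendsto0] with x hx
      have h1 : Tendsto (fun k => (⟪B.G (c k) x, mv (A x) (B.D u x)⟫ : ℝ)) atTop
          (𝓝 ⟪(0 : F n), mv (A x) (B.D u x)⟫) := hx.inner tendsto_const_nhds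
      have h2 := ((((hc.tendsto1 x).const_mul 2).mul_const (st a (P B u x))).mul h1).neg
      simpa using h2
  have h0 : ∫ x, st a (P B u x) * q0 x ∂μ ≤ 0 := by
    have := le_of_tendsto_of_tendsto' l1 l2 key
    simpa using this
  have h1 : ∫ x, st a (P B u x) * q0 x ∂μ = 0 :=
    le_antisymm h0 (integral_nonneg hnn)
  have h2 := (integral_eq_zero_iff_of_nonneg hnn iq).1 h1
  filter_upwards [h2] with x hx
  by_contra hcon
  rw [not_le] at hcon
  have h3 : a < P B u x := by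
    rw [ha]; unfold P
    linarith
  have h4 : 0 < q0 x := by
    simp only [hq0]
    refine div_pos ?_ (by positivity)
    have : A0 ^ 2 = (1 - 2 * κ * t) * (2 * a) := by rw [ha]; field_simp
    rw [this]
    nlinarith
  have h5 := mul_pos (st_pos h3) h4
  have h6 : st a (P B u x) * q0 x = 0 := hx
  linarith

end Crest.Agent.R247.Gb593
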