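import Crest.Agent.R247.Sli1_554
import Crest.Agent.R247.Gb3_593
import Crest.Agent.R247.Fd0_656

/-!
# R247 (helper554): gradient bound and Lipschitz representatives of `u_ρ` and `q_ρ`
-/

set_option autoImplicit false
set_option linter.unusedSectionVars false

open MeasureTheory Filter Topology Set
open scoped RealInnerProductSpace ENNReal NNReal

noncomputable section

namespace Crest.Agent.R247.Obj554

open Crest.Agent.R242 Crest.Agent.R247.Dir593 Crest.Agent.R247.Dir593.GradS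
open Crest.Agent.R247.Smv126 Crest.Agent.R247.Mcp688 Crest.Agent.R247.Hes124
open Crest.Agent.R247.Fd656 Crest.Agent.R247.Far553

/-! ### a bound of `N'` -/

lemma exists_Ceta2 : ∃ C : ℝ, 0 ≤ C ∧ ∀ s, s ≤ S1 → 0 ≤ s → |deriv (deriv eta) s| ≤ C := by
  have hc : Continuous (deriv (deriv eta)) := by
    have h : ContDiff ℝ 1 (deriv eta) := contDiff_deriv_eta (m := 1)
    exact h.continuous_deriv le_rfl
  obtain ⟨C, hC⟩ := (isCompact_Icc (a := (0:ℝ)) (b := S1)).exists_bound_of_continuousOn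
    hc.continuousOn
  exact ⟨max C 0, le_max_right _ _, fun s h1 h2 => (hC s ⟨h2, h1⟩).trans (le_max_left _ _)⟩

/-- a bound for `eta''` on `[0, S1]` -/
def Ceta2 : ℝ := exists_Ceta2.choose

lemma Ceta2_nonneg : 0 ≤ Ceta2 := exists_Ceta2.choose_spec.1

lemma abs_deriv2_eta_le {s : ℝ} (h : s ≤ S1) (h0 : 0 ≤ s) : |deriv (deriv eta) s| ≤ Ceta2 :=
  exists_Ceta2.choose_spec.2 s h h0

lemma hasDerivAt_Nfun (n : ℕ) (κ s : ℝ) : HasDerivAt (Nfun n κ)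
    (2 * κ * eta s + (n + 2 * κ * s) * deriv eta s + (2 * deriv eta s +
      2 * s * deriv (deriv eta) s)) s := by
  have h1 : HasDerivAt (fun s => (n : ℝ) + 2 * κ * s) (2 * κ) s := by
    simpa using ((hasDerivAt_id s).const_mul (2 * κ)).const_add (n : ℝ)
  have h2 := h1.mul (hasDerivAt_eta s)
  have h3 : HasDerivAt (fun s : ℝ => 2 * s) 2 s := by
    simpa using (hasDerivAt_id s).const_mul (2 : ℝ)
  have hd : DifferentiableAt ℝ (deriv eta) s :=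
    ((contDiff_deriv_eta (m := 1)).differentiable (by norm_num)) s
  have h4 := h3.mul hd.hasDerivAt
  exact h2.add h4

/-- bound of `|N'|` -/
def CN' (n : ℕ) (κ : ℝ) : ℝ := 2 * κ + (n + 2 * κ * S1) * Ceta + (2 * Ceta + 2 * S1 * Ceta2)

lemma CN'_nonneg (n : ℕ) {κ : ℝ} (hκ : 0 ≤ κ) : 0 ≤ CN' n κ := by
  unfold CN'
  have h1 := Ceta_nonneg
  have h1' := Ceta2_nonneg
  have h2 : (0 : ℝ) ≤ n := Nat.cast_nonneg n
  have h3 : (0 : ℝ) ≤ S1 := by norm_num [S1]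
  positivity

lemma CN'_mono (n : ℕ) {κ κ' : ℝ} (h : κ ≤ κ') : CN' n κ ≤ CN' n κ' := by
  unfold CN'
  have h3 : (0 : ℝ) ≤ S1 := by norm_num [S1]
  have h1 := Ceta_nonneg
  have h4 : (n + 2 * κ * S1) * Ceta ≤ (n + 2 * κ' * S1) * Ceta :=
    mul_le_mul_of_nonneg_right (by nlinarith) h1
  linarith

lemma abs_deriv_Nfun_le (n : ℕ) {κ : ℝ} (hκ : 0 ≤ κ) {s : ℝ} (hs : 0 ≤ s) (h : s ≤ S1) :
    |deriv (Nfun n κ) s| ≤ CN' n κ := by
  rw [(hasDerivAt_Nfun n κ s).deriv]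
  unfold CN'
  have h1 := Ceta_nonneg
  have h1' := Ceta2_nonneg
  have h2 : (0 : ℝ) ≤ n := Nat.cast_nonneg n
  have h3 : (0 : ℝ) ≤ S1 := by norm_num [S1]
  refine (abs_add_le _ _).trans (add_le_add ((abs_add_le _ _).trans (add_le_add ?_ ?_))
    ((abs_add_le _ _).trans (add_le_add ?_ ?_)))
  · rw [abs_mul, abs_of_nonneg (eta_nonneg s), abs_of_nonneg (by positivity)]
    calc 2 * κ * eta s ≤ 2 * κ * 1 := mul_le_mul_of_nonneg_left (eta_le_one s) (by positivity)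
      _ = 2 * κ := by ring
  · rw [abs_mul, abs_of_nonneg (by positivity : (0:ℝ) ≤ n + 2 * κ * s)]
    exact mul_le_mul (by nlinarith) (abs_deriv_eta_le s) (abs_nonneg _) (by positivity)
  · rw [abs_mul, abs_of_pos (by norm_num : (0:ℝ) < 2)]
    linarith [abs_deriv_eta_le s]
  · rw [abs_mul, abs_of_nonneg (by positivity : (0:ℝ) ≤ 2 * s)]
    exact mul_le_mul (by linarith) (abs_deriv2_eta_le h hs) (abs_nonneg _) (by positivity)

lemma deriv_Nfun_zero (n : ℕ) (κ : ℝ) {s : ℝ} (h : S1 < s) : deriv (Nfun n κ) s = 0 := by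
  have h1 : Nfun n κ =ᶠ[𝓝 s] fun _ => (0 : ℝ) := by
    filter_upwards [Ioi_mem_nhds h] with t ht
    exact Nfun_zero n κ (le_of_lt ht)
  rw [h1.deriv_eq, deriv_const]

section Grad

variable {X : Type*} [MetricSpace X] [MeasurableSpace X] [BorelSpace X] [ProperSpace X]
  {F : Type*} [NormedAddCommGroup F] [InnerProductSpace ℝ F] {μ : Measure X}
  {S : GradS X F μ} [IsFiniteMeasureOnCompacts μ] {n : ℕ} {κ : ℝ}

lemma norm_G_hf_le (W : WLap S n κ) (x : X) :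
    ∀ᵐ z ∂μ, hf x z ≤ S1 → ‖S.G (hf x) z‖ ≤ 64 := by
  filter_upwards [W.normSq_G_hf x] with z h1 h2
  unfold hf at h2
  have h3 : dist x z ^ 2 ≤ 64 ^ 2 := by norm_num [S1] at h2; nlinarith
  rw [← h1] at h3
  exact abs_le_of_sq_le_sq' h3 (by norm_num) |>.2

theorem norm_G_f0_le (W : WLap S n κ) (x : X) : ∀ᵐ z ∂μ, ‖S.G (f0 x) z‖ ≤ 64 := by
  filter_upwards [G_f0 S x, norm_G_hf_le W x] with z h1 h2
  rw [h1, norm_smul, Real.norm_eq_abs]
  unfold et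
  rw [abs_of_nonneg (eta_nonneg _)]
  rcases le_or_gt (hf x z) S1 with h | h
  · calc eta (hf x z) * ‖S.G (hf x) z‖ ≤ 1 * 64 :=
          mul_le_mul (eta_le_one _) (h2 h) (norm_nonneg _) zero_le_one
      _ = 64 := one_mul _
  · rw [eta_zero h.le]; norm_num

theorem norm_G_Nf_le (hκ : 0 ≤ κ) (W : WLap S n κ) (x : X) :
    ∀ᵐ z ∂μ, ‖S.G (Nf n κ x) z‖ ≤ 64 * CN' n κ := by
  filter_upwards [G_Nf S n κ x, norm_G_hf_le W x] with z h1 h2
  rw [h1, norm_smul, Real.norm_eq_abs]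
  rcases le_or_gt (hf x z) S1 with h | h
  · calc |deriv (Nfun n κ) (hf x z)| * ‖S.G (hf x) z‖ ≤ CN' n κ * 64 :=
          mul_le_mul (abs_deriv_Nfun_le n hκ (hf_nonneg x z) h) (h2 h) (norm_nonneg _)
            (CN'_nonneg n hκ)
      _ = 64 * CN' n κ := mul_comm _ _
  · rw [deriv_Nfun_zero n κ h, abs_zero, zero_mul]
    have := CN'_nonneg n hκ
    positivity

variable [CompleteSpace F]

/-- the right-hand side `N - q` of `Δ u = N - q` -/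
def gL (S : GradS X F μ) (n : ℕ) (κ : ℝ) (x : X) (ρ : ℝ) : Lp ℝ 2 μ :=
  (tL (isT_Nf n κ x) : Lp ℝ 2 μ) - qL S n κ x ρ

lemma gL_mem {ρ : ℝ} (hρ : 0 < ρ) (x : X) : gL S n κ x ρ ∈ S.V :=
  S.V.sub_mem (S.tL_mem _) (qL_mem hρ x)

/-- the gradient constant -/
def CA (n : ℕ) (κ : ℝ) : ℝ := 64 * (1 + CN' n κ)

lemma CA_pos (n : ℕ) {κ : ℝ} (hκ : 0 ≤ κ) : 0 < CA n κ := by
  have := CN'_nonneg n hκ
  unfold CA; positivity

lemma CA_mono (n : ℕ) {κ κ' : ℝ} (h : κ ≤ κ') : CA n κ ≤ CA n κ' := by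
  have := CN'_mono n h
  unfold CA; linarith

theorem norm_Du_sub_le (hκ : 0 ≤ κ) (W : WLap S n κ) {ρ : ℝ} (hρ : 0 < ρ) (hρ1 : ρ ≤ 1) (x : X) :
    ∀ᵐ z ∂μ, ‖S.D (uL S n κ x ρ) z - ρ ^ 2 • S.D (gL S n κ x ρ) z‖ ≤ CA n κ := by
  have e1 : S.D (gL S n κ x ρ) = S.D (tL (isT_Nf n κ x)) - S.D (qL S n κ x ρ) :=
    S.D_sub (S.tL_mem _) (qL_mem hρ x)
  have e2 := D_uL (S := S) (n := n) (κ := κ) hρ x
  filter_upwards [Lp.coeFn_sub (S.D (tL (isT_Nf n κ x))) (S.D (qL S n κ x ρ)),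
    Lp.coeFn_sub (S.D (tL (isT_f0 x))) (ρ ^ 2 • S.D (qL S n κ x ρ)),
    Lp.coeFn_smul (ρ ^ 2) (S.D (qL S n κ x ρ)), S.D_tL (isT_Nf n κ x), S.D_tL (isT_f0 x),
    norm_G_f0_le W x, norm_G_Nf_le hκ W x] with z a1 a2 a3 a4 a5 a6 a7
  rw [e1, e2, a1, a2, Pi.sub_apply, Pi.sub_apply, a3, Pi.smul_apply, a4, a5]
  have e3 : S.G (f0 x) z - ρ ^ 2 • S.D (qL S n κ x ρ) z -
      ρ ^ 2 • (S.G (Nf n κ x) z - S.D (qL S n κ x ρ) z) =
      S.G (f0 x) z - ρ ^ 2 • S.G (Nf n κ x) z := by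
    rw [smul_sub]; abel
  rw [e3]
  have h2 : ρ ^ 2 ≤ 1 := by nlinarith
  calc ‖S.G (f0 x) z - ρ ^ 2 • S.G (Nf n κ x) z‖ ≤ ‖S.G (f0 x) z‖ + ‖ρ ^ 2 • S.G (Nf n κ x) z‖ :=
        norm_sub_le _ _
    _ ≤ 64 + 1 * (64 * CN' n κ) := by
        refine add_le_add a6 ?_
        rw [norm_smul, Real.norm_of_nonneg (sq_nonneg _)]
        exact mul_le_mul h2 a7 (norm_nonneg _) zero_le_one
    _ = CA n κ := by unfold CA; ring

/-- the bound `|N - q| ≤ C` -/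
theorem abs_gL_le (hκ : 0 ≤ κ) (W : WLap S n κ) {ρ : ℝ} (hρ : 0 < ρ) (x : X) :
    ∀ᵐ z ∂μ, |gL S n κ x ρ z| ≤ 2 * CN n κ + (ρ ^ 2)⁻¹ * cinf := by
  filter_upwards [Lp.coeFn_sub (tL (isT_Nf n κ x) : Lp ℝ 2 μ) (qL S n κ x ρ),
    coe_tL (μ := μ) (isT_Nf n κ x), qL_nonneg W hρ x, qL_le (S := S) (n := n) hκ hρ x]
    with z a1 a2 a3 a4
  unfold gL
  rw [a1, Pi.sub_apply, a2]
  have b1 := abs_Nf_le n hκ x z
  have hρ2 : 0 < ρ ^ 2 := by positivity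
  have b2 : qL S n κ x ρ z ≤ CN n κ + (ρ ^ 2)⁻¹ * cinf := by
    have c1 : hh x z ≤ cinf := Phi_le_cinf _
    have c2 : qL S n κ x ρ z = (ρ ^ 2)⁻¹ * (ρ ^ 2 * qL S n κ x ρ z) := by
      field_simp
    rw [c2]
    calc (ρ ^ 2)⁻¹ * (ρ ^ 2 * qL S n κ x ρ z) ≤ (ρ ^ 2)⁻¹ * (cinf + CN n κ * ρ ^ 2) := by
          refine mul_le_mul_of_nonneg_left ?_ (by positivity)
          linarith
      _ = CN n κ + (ρ ^ 2)⁻¹ * cinf := by field_simp; ring
  calc |Nf n κ x z - qL S n κ x ρ z| ≤ |Nf n κ x z| + |qL S n κ x ρ z| := abs_sub _ _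
    _ ≤ CN n κ + (CN n κ + (ρ ^ 2)⁻¹ * cinf) := by
        refine add_le_add b1 ?_
        rw [abs_of_nonneg a3]; exact b2
    _ = _ := by ring

end Grad

section Boch

variable {n : ℕ} {κ : ℝ} {X : Type*} [MetricSpace X] [ProperSpace X] [MeasurableSpace X]
  [BorelSpace X] {μ : Measure X} [IsFiniteMeasureOnCompacts μ]
  {B : BochS n κ X μ} {x : X}

/-- 593's hypotheses for `u_k` -/
theorem eqn (hκ : 0 ≤ κ) (W : WLap B.toGradS n κ) (O : HObj B x) (k : ℕ) :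
    Gb593.Eqn B (uk B x k) (gL B.toGradS n κ x (dy k)) (2 * CN n κ + (dy k ^ 2)⁻¹ * cinf)
      (O.A k) where
  fV := gL_mem (dy_pos k) x
  C0 := by
    have := CN_nonneg n hκ
    have := cinf_pos
    have := dy_pos k
    positivity
  fb := abs_gL_le hκ W (dy_pos k) x
  wk := fun p hp => by
    have e := uL_weak (S := B.toGradS) (n := n) (κ := κ) (dy_pos k) x (B.tL_mem hp)
    rw [L2.inner_def, L2.inner_def] at e
    have e1 : ∫ z, (⟪B.D (uk B x k) z, B.G p z⟫ : ℝ) ∂μ =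
        ∫ z, (⟪B.D (uk B x k) z, B.D (tL hp) z⟫ : ℝ) ∂μ := by
      refine integral_congr_ae ?_
      filter_upwards [B.D_tL hp] with z hz
      rw [hz]
    rw [e1, e]
    congr 1
    refine integral_congr_ae ?_
    filter_upwards [coe_tL (μ := μ) hp] with z a1
    show (⟪gL B.toGradS n κ x (dy k) z, (tL hp : Lp ℝ 2 μ) z⟫ : ℝ) = _
    rw [a1]
    simp [mul_comm]
  tr := by
    filter_upwards [O.tr_A k, Lp.coeFn_sub (tL (isT_Nf n κ x) : Lp ℝ 2 μ)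
      (qL B.toGradS n κ x (dy k)), coe_tL (μ := μ) (isT_Nf n κ x)] with z a1 a2 a3
    rw [a1]
    unfold gL
    rw [a2, Pi.sub_apply, a3]

/-- **(P6b) gradient bound of `u_k`** -/
theorem normSq_Duk_le (hκ : 0 ≤ κ) (W : WLap B.toGradS n κ) (O : HObj B x) (k : ℕ)
    (hk : 2 * κ * dy k ^ 2 < 1) :
    ∀ᵐ z ∂μ, ‖B.D (uk B x k) z‖ ^ 2 ≤ CA n κ ^ 2 / (1 - 2 * κ * dy k ^ 2) :=
  Gb593.grad_bound (O.hd k) hκ (eqn hκ W O k) (by have := dy_pos k; positivity) hk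
    (norm_Du_sub_le hκ W (dy_pos k) (dy_le_one k) x)

/-- gradient bound with a constant depending on `n` only -/
theorem norm_Duk_le (hκ : 0 ≤ κ) (hκ1 : 4 * κ ≤ 1) (W : WLap B.toGradS n κ) (O : HObj B x)
    (k : ℕ) : ∀ᵐ z ∂μ, ‖B.D (uk B x k) z‖ ≤ 2 * CA n 1 := by
  have h0 := dy_pos k
  have h1 : dy k ^ 2 ≤ 1 := by have := dy_le_one k; nlinarith
  have h2 : 2 * κ * dy k ^ 2 ≤ 1 / 2 := by nlinarith [sq_nonneg (dy k)]
  have hC := CA_pos n hκ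
  have hC1 : CA n κ ≤ CA n 1 := CA_mono n (by linarith)
  filter_upwards [normSq_Duk_le hκ W O k (by linarith)] with z hz
  have h3 : CA n κ ^ 2 / (1 - 2 * κ * dy k ^ 2) ≤ (2 * CA n 1) ^ 2 := by
    rw [div_le_iff₀ (by linarith)]
    nlinarith [sq_nonneg (CA n 1)]
  exact abs_le_of_sq_le_sq' (hz.trans h3) (by linarith) |>.2

variable [SFinite μ] {C : Rad n κ X μ}

/-- Lipschitz representative of `u_k` -/
theorem exists_uc (hκ : 0 ≤ κ) (hκ1 : 4 * κ ≤ 1) (hL : LK B.toGradS C) (W : WLap B.toGradS n κ)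
    (hpos : ∀ (x : X) (r : ℝ), 0 < r → μ (Metric.ball x r) ≠ 0) (O : HObj B x) (k : ℕ) :
    ∃ uc : X → ℝ, LipschitzWith (2 * CA n 1).toNNReal uc ∧ (∀ᵐ z ∂μ, uk B x k z = uc z) ∧
      ∀ᵐ z ∂μ, B.D (uk B x k) z = B.G uc z := by
  have hC : 0 < CA n 1 := CA_pos n zero_le_one
  refine Sli554.sob_lip hκ hL W hpos (uL_mem (dy_pos k) x) ?_
  filter_upwards [norm_Duk_le hκ hκ1 W O k] with z hz
  rw [Real.coe_toNNReal _ (by positivity)]
  exact hz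

/-- **(P6c)**: the locally Lipschitz representative of `q_k` and its radial derivatives -/
theorem exists_qc (hκ : 0 ≤ κ) (hκ1 : 4 * κ ≤ 1) (hL : LK B.toGradS C) (W : WLap B.toGradS n κ)
    (hpos : ∀ (x : X) (r : ℝ), 0 < r → μ (Metric.ball x r) ≠ 0) (O : HObj B x) (k : ℕ) :
    ∃ qc : X → ℝ, LocallyLipschitz qc ∧ (∀ z, 0 ≤ qc z) ∧ (∀ᵐ z ∂μ, qk B x k z = qc z) ∧
      (∀ᵐ z ∂μ, B.D (qk B x k) z = B.G qc z) ∧
      ∀ y, RD C y qc (fun z => ⟪B.G (hf y) z, B.G qc z⟫) := by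
  obtain ⟨uc, hu1, hu2, hu3⟩ := exists_uc hκ hκ1 hL W hpos O k
  have hρ := dy_pos k
  have hρ2 : 0 < dy k ^ 2 := by positivity
  set qc : X → ℝ := fun z => (dy k ^ 2)⁻¹ * (f0 x z - uc z) with hqc
  have hl : LocallyLipschitz qc := by
    have h1 : LocallyLipschitz (f0 x) := (isT_f0 x).1
    exact locLip_mul (LocallyLipschitz.const _) (h1.sub hu1.locallyLipschitz)
  have hae : ∀ᵐ z ∂μ, qk B x k z = qc z := by
    filter_upwards [hu2, Lp.coeFn_sub (tL (isT_f0 x) : Lp ℝ 2 μ)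
      (dy k ^ 2 • qL B.toGradS n κ x (dy k)),
      Lp.coeFn_smul (dy k ^ 2) (qL B.toGradS n κ x (dy k)), coe_tL (μ := μ) (isT_f0 x)]
      with z a1 a2 a3 a4
    have e : uk B x k z = f0 x z - dy k ^ 2 * qk B x k z := by
      show (uL B.toGradS n κ x (dy k)) z = _
      unfold uL
      rw [a2, Pi.sub_apply, a3, Pi.smul_apply, a4, smul_eq_mul]
    rw [hqc]
    simp only
    rw [← a1, e]
    field_simp
    ring
  have hnn : ∀ z, 0 ≤ qc z := by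
    intro z
    by_contra hz
    push Not at hz
    have h1 : {y | qc y < 0} ∈ 𝓝 z := hl.continuous.continuousAt.eventually_lt continuousAt_const hz
    obtain ⟨r, hr, hrs⟩ := Metric.mem_nhds_iff.1 h1
    refine hpos z r hr (measure_mono_null hrs ?_)
    have h2 : ∀ᵐ y ∂μ, ¬ qc y < 0 := by
      filter_upwards [hae, qL_nonneg W hρ x] with y b1 b2
      rw [← b1]; exact not_lt.2 b2
    exact compl_mem_ae_iff.1 h2
  exact ⟨qc, hl, hnn, hae, Sli554.D_eq_G (qL_mem hρ x) hl hae, fun y => Sli554.LK.locLip hL y hl⟩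

end Boch

end Crest.Agent.R247.Obj554
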