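import Crest.Agent.R247.Fv6_510
import Crest.Agent.R247.Obj3_554

/-!
R247, block (5-V) (helper510), part 7: fields `d3`, `pe` with the Lipschitz representatives of
`u_k` taken from `Obj3_554`.
-/

set_option autoImplicit false
set_option linter.unusedSectionVars false
open MeasureTheory Set Filter Topology
open scoped ENNReal NNReal RealInnerProductSpace

noncomputable section
namespace Crest.Agent.R247.Fv510

open Crest.Agent.R247.Mcp688 Crest.Agent.R247.Hes124 Crest.Agent.R247.Dir593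
  Crest.Agent.R247.Dir593.GradS
open Crest.Agent.R247.Smv126 (hf WLap locLip_hf)
open Crest.Agent.R247.Far553 Crest.Agent.R247.Fd656 Crest.Agent.R247.Obj554

variable {n : ℕ} {κ : ℝ} {X : Type*} [MetricSpace X] [ProperSpace X] [MeasurableSpace X]
  [BorelSpace X] {μ : Measure X} [IsFiniteMeasureOnCompacts μ] [SFinite μ]
  {B : BochS n κ X μ} {C : Rad n κ X μ} {x : X}

theorem exists_rep (hκ : 0 ≤ κ) (hκ1 : 4 * κ ≤ 1) (hL : LK B.toGradS C) (W : WLap B.toGradS n κ)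
    (hpos : ∀ (x : X) (r : ℝ), 0 < r → μ (Metric.ball x r) ≠ 0) (O : HObj B x) (k : ℕ) :
    ∃ v, Rep B x k v := by
  obtain ⟨v, h1, h2, h3⟩ := exists_uc hκ hκ1 hL W hpos O k
  exact ⟨v, h1.locallyLipschitz, h2, h3⟩

/-- **field `d3` of `FarD`** -/
theorem d3' (Q : SegS B C) (hκ : 0 ≤ κ) (hκ1 : 4 * κ ≤ 1) (hL : LK B.toGradS C)
    (W : WLap B.toGradS n κ) (hpos : ∀ (x : X) (r : ℝ), 0 < r → μ (Metric.ball x r) ≠ 0)
    (O : HObj B x) :
    ∀ k, ∀ᵐ p ∂(μ.prod μ), dist x p.1 < 2 → dist x p.2 < 12 → p.1 ≠ p.2 →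
    ∃ Dw : ℝ, HasDerivWithinAt (fun t : ℝ => dist (C.T x t p.1) p.2) Dw (Iio 1) 1 ∧
      HasDerivWithinAt (fun τ : ℝ => dist x (ray C p.1 p.2 τ) ^ 2 / 2) (-Dw) (Ici 0) 0 ∧
      Nonempty (AlongD (dist p.1 p.2) (dy k) (fun τ => dist x (ray C p.1 p.2 τ) ^ 2 / 2)
        (fun τ => qf B x k (ray C p.1 p.2 τ)) (fun τ => kf B x k (ray C p.1 p.2 τ))
        (fun τ => Hf O k (ray C p.1 p.2 τ)) (fun τ => gf B x k (ray C p.1 p.2 τ))
        (fun τ => nf O k (ray C p.1 p.2 τ)) Dw (gf B x k p.1)) :=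
  d3 Q hκ W O (fun k => exists_rep hκ hκ1 hL W hpos O k)

/-- **field `pe` of `FarD`** -/
theorem pe' (Q : SegS B C) (hκ : 0 ≤ κ) (hκ1 : 4 * κ ≤ 1) (hL : LK B.toGradS C)
    (W : WLap B.toGradS n κ) (hpos : ∀ (x : X) (r : ℝ), 0 < r → μ (Metric.ball x r) ≠ 0)
    (O : HObj B x) :
    ∀ k, ∀ᵐ p ∂(μ.prod μ), dist x p.1 < 12 → dist x p.2 < 12 →
    ∃ A : ℝ, HasDerivWithinAt (fun t : ℝ => dist (C.T x t p.1) (C.T x t p.2)) A (Iio 1) 1 ∧
      ENNReal.ofReal |A - dist p.1 p.2| ≤ err C (dy k) (Hf O k) (gf B x k) p.1 p.2 :=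
  pe Q hκ W O (fun k => exists_rep hκ hκ1 hL W hpos O k)

end Crest.Agent.R247.Fv510
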