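import Mathlib

/-!
R247 block (2b), helper79: kernel level gap inequalities (g1), (g2) of BP (2b) sec. 4.

`f a b` = half squared distance (at unit scale), `G a b u` = `Γ(f_a, f_b)(u)`,
`P x v u = G x v u - f x u - f v u + f x v`, `K x z u = f x z + f x u - f z u`,
`φ` = cut off (`etatilde`), `η = -φ'`.

* `core`      : exact splitting of `∫ K_x(z,u) K_x(w,u) η(f_x(u)) du - Λ K_x(z,w)`;
* `err_le`    : pointwise (in `z, w`) bound of this error by `L¹` norms of `P`;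
* `gap`       : (g1), `∫∫ |error|² ≤ …`;
* `trace_le`, `hs_le` : the trace identity and (g2).
-/

set_option autoImplicit false
set_option linter.unusedSectionVars false

noncomputable section

namespace Crest.Agent.R247.Gap79

open MeasureTheory Set Filter Topology
open scoped ENNReal NNReal

variable {X : Type*} [MeasurableSpace X]

/-- the kernel `K_x(z,u)` -/
def K (f : X → X → ℝ) (x z u : X) : ℝ := f x z + f x u - f z u

/-- the defect `P_{x,v}(u)` -/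
def P (f : X → X → ℝ) (G : X → X → X → ℝ) (x v u : X) : ℝ := G x v u - f x u - f v u + f x v

/-- derivative of `ζ = K_x(w,·) φ(f_x)` in the direction `∇ f_a` (`η = -φ'`). -/
def Dz (f : X → X → ℝ) (G : X → X → X → ℝ) (φ η : ℝ → ℝ) (x w a u : X) : ℝ :=
  (G a x u - G a w u) * φ (f x u) - K f x w u * η (f x u) * G a x u

theorem K_symm {f : X → X → ℝ} (hf : ∀ a b, f a b = f b a) (x z u : X) :
    K f x z u = K f x u z := by
  unfold K; rw [hf z u]; ring

theorem K_self {f : X → X → ℝ} (hff : ∀ a, f a a = 0) (x z : X) : K f x z z = 2 * f x z := by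
  unfold K; rw [hff]; ring

theorem K_vertex {f : X → X → ℝ} (hff : ∀ a, f a a = 0) (hf : ∀ a b, f a b = f b a) (x z : X) :
    K f x z x = 0 := by
  unfold K; rw [hff, hf z x]; ring

/-- pointwise identity behind (g1). -/
theorem deriv_identity {f : X → X → ℝ} {G : X → X → X → ℝ} {φ η : ℝ → ℝ}
    {x z w u : X} (hG : G z x u = G x z u) (hGx : G x x u = 2 * f x u) :
    Dz f G φ η x w x u - Dz f G φ η x w z u
      = K f x z w * φ (f x u) + (P f G z w u - P f G x z u - P f G x w u) * φ (f x u)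
        - (K f x z u * K f x w u * η (f x u) - K f x w u * P f G x z u * η (f x u)) := by
  unfold Dz K P
  rw [hG, hGx]
  ring

/-- Hypotheses for the kernel calculus at the centre `x` on the set `B`. -/
structure Dat (μ : Measure X) (f : X → X → ℝ) (G : X → X → X → ℝ) (φ η : ℝ → ℝ)
    (B : Set X) (F cη : ℝ) (x : X) : Prop where
  symm : ∀ a b, f a b = f b a
  self : ∀ a, f a a = 0
  Gsymm : ∀ a b, ∀ᵐ u ∂μ, G a b u = G b a u
  Gself : ∀ a, ∀ᵐ u ∂μ, G a a u = 2 * f a u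
  mB : MeasurableSet B
  fin : μ B ≠ ∞
  xB : x ∈ B
  mf : ∀ a, AEStronglyMeasurable (f a) μ
  mG : ∀ a b, AEStronglyMeasurable (G a b) μ
  mφ : Measurable φ
  mη : Measurable η
  F0 : 0 ≤ F
  fF : ∀ a ∈ B, ∀ u ∈ B, |f a u| ≤ F
  GF : ∀ a ∈ B, ∀ b ∈ B, ∀ᵐ u ∂(μ.restrict B), |G a b u| ≤ F
  φ0 : ∀ u, u ∉ B → φ (f x u) = 0
  η0 : ∀ u, u ∉ B → η (f x u) = 0
  φ1 : ∀ s, |φ s| ≤ 1
  η1 : ∀ s, |η s| ≤ cη

namespace Dat

variable {μ : Measure X} {f : X → X → ℝ} {G : X → X → X → ℝ} {φ η : ℝ → ℝ}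
  {B : Set X} {F cη : ℝ} {x : X} (d : Dat μ f G φ η B F cη x)

include d

/-- integrability of bounded functions supported in `B`. -/
theorem integrable_of_bound {g : X → ℝ} (hg : AEStronglyMeasurable g μ) {C : ℝ}
    (hC : ∀ᵐ u ∂(μ.restrict B), |g u| ≤ C) (h0 : ∀ u, u ∉ B → g u = 0) : Integrable g μ := by
  have h1 : IntegrableOn g B μ := by
    refine Measure.integrableOn_of_bounded d.fin hg (M := C) ?_
    simpa [Real.norm_eq_abs] using hC
  have h2 : B.indicator g = g := by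
    funext u
    by_cases hu : u ∈ B
    · simp [hu]
    · simp [hu, h0 u hu]
  rw [← h2]
  exact (integrable_indicator_iff d.mB).2 h1

theorem measPhi : AEStronglyMeasurable (fun u => φ (f x u)) μ :=
  (d.mφ.comp_aemeasurable (d.mf x).aemeasurable).aestronglyMeasurable

theorem measEta : AEStronglyMeasurable (fun u => η (f x u)) μ :=
  (d.mη.comp_aemeasurable (d.mf x).aemeasurable).aestronglyMeasurable

theorem mK (z : X) : AEStronglyMeasurable (fun u => K f x z u) μ := by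
  unfold K
  exact ((aestronglyMeasurable_const).add (d.mf x)).sub (d.mf z)

theorem mP (a v : X) : AEStronglyMeasurable (fun u => P f G a v u) μ := by
  unfold P
  exact (((d.mG a v).sub (d.mf a)).sub (d.mf v)).add aestronglyMeasurable_const

theorem K_le {z u : X} (hz : z ∈ B) (hu : u ∈ B) : |K f x z u| ≤ 3 * F := by
  unfold K
  have h1 := d.fF x d.xB z hz
  have h2 := d.fF x d.xB u hu
  have h3 := d.fF z hz u hu
  rw [abs_le] at *
  constructor <;> linarith [h1.1, h1.2, h2.1, h2.2, h3.1, h3.2]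

theorem P_le {a v : X} (ha : a ∈ B) (hv : v ∈ B) :
    ∀ᵐ u ∂(μ.restrict B), |P f G a v u| ≤ 4 * F := by
  filter_upwards [d.GF a ha v hv, ae_restrict_mem d.mB] with u h0 hu
  unfold P
  have h1 := d.fF a ha u hu
  have h2 := d.fF v hv u hu
  have h3 := d.fF a ha v hv
  rw [abs_le] at *
  constructor <;> linarith [h0.1, h0.2, h1.1, h1.2, h2.1, h2.2, h3.1, h3.2]

theorem cη0 : 0 ≤ cη := (abs_nonneg _).trans (d.η1 0)

theorem int_phi : Integrable (fun u => φ (f x u)) μ :=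
  d.integrable_of_bound d.measPhi (Eventually.of_forall fun _ => d.φ1 _) d.φ0

theorem int_Pphi {a v : X} (ha : a ∈ B) (hv : v ∈ B) :
    Integrable (fun u => P f G a v u * φ (f x u)) μ := by
  refine d.integrable_of_bound ((d.mP a v).mul d.measPhi) (C := 4 * F) ?_ ?_
  · filter_upwards [d.P_le ha hv] with u hu
    rw [abs_mul]
    calc _ ≤ (4 * F) * 1 := mul_le_mul hu (d.φ1 _) (abs_nonneg _) (by have := d.F0; positivity)
      _ = _ := by ring
  · intro u hu; rw [d.φ0 u hu, mul_zero]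

theorem int_KK {z w : X} (hz : z ∈ B) (hw : w ∈ B) :
    Integrable (fun u => K f x z u * K f x w u * η (f x u)) μ := by
  refine d.integrable_of_bound (((d.mK z).mul (d.mK w)).mul d.measEta)
    (C := (3 * F) * (3 * F) * cη) ?_ ?_
  · filter_upwards [ae_restrict_mem d.mB] with u hu
    have := d.F0
    rw [abs_mul, abs_mul]
    refine mul_le_mul (mul_le_mul (d.K_le hz hu) (d.K_le hw hu) (abs_nonneg _) (by positivity))
      (d.η1 _) (abs_nonneg _) (by positivity)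
  · intro u hu; rw [d.η0 u hu, mul_zero]

theorem int_KP {z w a : X} (hz : z ∈ B) (hw : w ∈ B) (ha : a ∈ B) :
    Integrable (fun u => K f x w u * P f G a z u * η (f x u)) μ := by
  refine d.integrable_of_bound (((d.mK w).mul (d.mP a z)).mul d.measEta)
    (C := (3 * F) * (4 * F) * cη) ?_ ?_
  · filter_upwards [ae_restrict_mem d.mB, d.P_le ha hz] with u hu hP
    have := d.F0
    rw [abs_mul, abs_mul]
    refine mul_le_mul (mul_le_mul (d.K_le hw hu) hP (abs_nonneg _) (by positivity))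
      (d.η1 _) (abs_nonneg _) (by positivity)
  · intro u hu; rw [d.η0 u hu, mul_zero]

theorem int_Kphi {w : X} (hw : w ∈ B) :
    Integrable (fun u => K f x w u * φ (f x u)) μ := by
  refine d.integrable_of_bound ((d.mK w).mul d.measPhi) (C := 3 * F) ?_ ?_
  · filter_upwards [ae_restrict_mem d.mB] with u hu
    rw [abs_mul]
    calc _ ≤ (3 * F) * 1 :=
        mul_le_mul (d.K_le hw hu) (d.φ1 _) (abs_nonneg _) (by have := d.F0; positivity)
      _ = _ := by ring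
  · intro u hu; rw [d.φ0 u hu, mul_zero]

theorem int_Dz {w a : X} (hw : w ∈ B) (ha : a ∈ B) :
    Integrable (fun u => Dz f G φ η x w a u) μ := by
  unfold Dz
  refine d.integrable_of_bound ((((d.mG a x).sub (d.mG a w)).mul d.measPhi).sub
    (((d.mK w).mul d.measEta).mul (d.mG a x))) (C := 2 * F + (3 * F) * cη * F) ?_ ?_
  · filter_upwards [ae_restrict_mem d.mB, d.GF a ha x d.xB, d.GF a ha w hw] with u hu h1 h2
    have hF := d.F0
    have hc := d.cη0
    have h3 : |(G a x u - G a w u) * φ (f x u)| ≤ 2 * F := by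
      rw [abs_mul]
      calc _ ≤ (F + F) * 1 := mul_le_mul ((abs_sub _ _).trans (add_le_add h1 h2)) (d.φ1 _)
            (abs_nonneg _) (by positivity)
        _ = _ := by ring
    have h4 : |K f x w u * η (f x u) * G a x u| ≤ (3 * F) * cη * F := by
      rw [abs_mul, abs_mul]
      exact mul_le_mul (mul_le_mul (d.K_le hw hu) (d.η1 _) (abs_nonneg _) (by positivity))
        h1 (abs_nonneg _) (by positivity)
    exact (abs_sub _ _).trans (add_le_add h3 h4)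
  · intro u hu; rw [d.φ0 u hu, d.η0 u hu]; ring

/-- **Core identity.**  `M a = ∫ D_a ζ + n ∫ ζ`, `ζ = K_x(w,·) φ(f_x)`. -/
theorem core (n : ℝ) {z w : X} (hz : z ∈ B) (hw : w ∈ B) :
    (∫ u, K f x z u * K f x w u * η (f x u) ∂μ) - (∫ u, φ (f x u) ∂μ) * K f x z w
      = ((∫ u, Dz f G φ η x w z u ∂μ) + n * ∫ u, K f x w u * φ (f x u) ∂μ)
        - ((∫ u, Dz f G φ η x w x u ∂μ) + n * ∫ u, K f x w u * φ (f x u) ∂μ)
        + (∫ u, (P f G z w u - P f G x z u - P f G x w u) * φ (f x u) ∂μ)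
        + ∫ u, K f x w u * P f G x z u * η (f x u) ∂μ := by
  have h1 : ∫ u, (Dz f G φ η x w x u - Dz f G φ η x w z u) ∂μ
      = (∫ u, Dz f G φ η x w x u ∂μ) - ∫ u, Dz f G φ η x w z u ∂μ :=
    integral_sub (d.int_Dz hw d.xB) (d.int_Dz hw hz)
  have hP : Integrable (fun u => (P f G z w u - P f G x z u - P f G x w u) * φ (f x u)) μ := by
    have := ((d.int_Pphi hz hw).sub (d.int_Pphi d.xB hz)).sub (d.int_Pphi d.xB hw)
    refine this.congr (Eventually.of_forall fun u => ?_)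
    simp only [Pi.sub_apply]; ring
  have h2 : ∫ u, (Dz f G φ η x w x u - Dz f G φ η x w z u) ∂μ
      = K f x z w * (∫ u, φ (f x u) ∂μ)
        + (∫ u, (P f G z w u - P f G x z u - P f G x w u) * φ (f x u) ∂μ)
        - ((∫ u, K f x z u * K f x w u * η (f x u) ∂μ)
          - ∫ u, K f x w u * P f G x z u * η (f x u) ∂μ) := by
    have e0 : Integrable (fun u => K f x z w * φ (f x u)) μ := d.int_phi.const_mul _
    have e1 : Integrable (fun u => K f x z w * φ (f x u)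
        + (P f G z w u - P f G x z u - P f G x w u) * φ (f x u)) μ := e0.add hP
    have e2 : Integrable (fun u => K f x z u * K f x w u * η (f x u)
        - K f x w u * P f G x z u * η (f x u)) μ := (d.int_KK hz hw).sub (d.int_KP hz hw d.xB)
    rw [← integral_const_mul, ← integral_add e0 hP,
      ← integral_sub (d.int_KK hz hw) (d.int_KP hz hw d.xB), ← integral_sub e1 e2]
    refine integral_congr_ae ?_
    filter_upwards [d.Gsymm z x, d.Gself x] with u hu1 hu2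
    rw [deriv_identity hu1 hu2]
  rw [h1] at h2
  linarith

/-- the error kernel of (g1) -/
def _root_.Crest.Agent.R247.Gap79.E (μ : Measure X) (f : X → X → ℝ) (φ η : ℝ → ℝ) (x z w : X) :
    ℝ := (∫ u, K f x z u * K f x w u * η (f x u) ∂μ) - (∫ u, φ (f x u) ∂μ) * K f x z w

/-- pointwise bound of the error kernel (in `ℝ≥0∞`) -/
theorem enorm_err_le (n : ℝ) {z w : X} (hz : z ∈ B) (hw : w ∈ B) {βx βz : ℝ}
    (hmx : |(∫ u, Dz f G φ η x w x u ∂μ) + n * ∫ u, K f x w u * φ (f x u) ∂μ| ≤ βx)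
    (hmz : |(∫ u, Dz f G φ η x w z u ∂μ) + n * ∫ u, K f x w u * φ (f x u) ∂μ| ≤ βz) :
    ‖E μ f φ η x z w‖ₑ ≤ ENNReal.ofReal (βx + βz)
      + ENNReal.ofReal (1 + 3 * F * cη) * (∫⁻ u in B, ‖P f G x z u‖ₑ ∂μ)
      + (∫⁻ u in B, ‖P f G x w u‖ₑ ∂μ) + ∫⁻ u in B, ‖P f G z w u‖ₑ ∂μ := by
  have hF := d.F0
  have hc := d.cη0
  have a1 : ‖(∫ u, Dz f G φ η x w z u ∂μ) + n * ∫ u, K f x w u * φ (f x u) ∂μ‖ₑ
      ≤ ENNReal.ofReal βz := by
    rw [← ofReal_norm]; exact ENNReal.ofReal_le_ofReal hmz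
  have a2 : ‖(∫ u, Dz f G φ η x w x u ∂μ) + n * ∫ u, K f x w u * φ (f x u) ∂μ‖ₑ
      ≤ ENNReal.ofReal βx := by
    rw [← ofReal_norm]; exact ENNReal.ofReal_le_ofReal hmx
  have hsupp : ∀ g : X → ℝ≥0∞, (∀ u, u ∉ B → g u = 0) → ∫⁻ u, g u ∂μ = ∫⁻ u in B, g u ∂μ := by
    intro g hg
    rw [← lintegral_indicator d.mB]
    refine lintegral_congr fun u => ?_
    by_cases hu : u ∈ B
    · simp [hu]
    · simp [hu, hg u hu]
  have mPe : ∀ a v, AEMeasurable (fun u => ‖P f G a v u‖ₑ) (μ.restrict B) := fun a v =>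
    (d.mP a v).restrict.enorm
  have a3 : ‖∫ u, (P f G z w u - P f G x z u - P f G x w u) * φ (f x u) ∂μ‖ₑ
      ≤ (∫⁻ u in B, ‖P f G z w u‖ₑ ∂μ) + (∫⁻ u in B, ‖P f G x z u‖ₑ ∂μ)
        + ∫⁻ u in B, ‖P f G x w u‖ₑ ∂μ := by
    refine (enorm_integral_le_lintegral_enorm _).trans ?_
    rw [hsupp _ (fun u hu => by rw [d.φ0 u hu, mul_zero, enorm_zero])]
    have e1 : AEMeasurable (fun u => ‖P f G z w u‖ₑ + ‖P f G x z u‖ₑ) (μ.restrict B) :=
      (mPe z w).add (mPe x z)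
    rw [← lintegral_add_left' (mPe z w), ← lintegral_add_left' e1]
    refine lintegral_mono fun u => ?_
    rw [enorm_mul]
    have h1 : ‖φ (f x u)‖ₑ ≤ 1 := by
      rw [← ofReal_norm]
      exact ENNReal.ofReal_le_one.2 (d.φ1 _)
    calc ‖P f G z w u - P f G x z u - P f G x w u‖ₑ * ‖φ (f x u)‖ₑ
        ≤ (‖P f G z w u‖ₑ + ‖P f G x z u‖ₑ + ‖P f G x w u‖ₑ) * 1 := by
          refine mul_le_mul' ?_ h1
          exact (enorm_sub_le).trans (add_le_add_left enorm_sub_le _)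
      _ = _ := by rw [mul_one]
  have a4 : ‖∫ u, K f x w u * P f G x z u * η (f x u) ∂μ‖ₑ
      ≤ ENNReal.ofReal (3 * F * cη) * ∫⁻ u in B, ‖P f G x z u‖ₑ ∂μ := by
    refine (enorm_integral_le_lintegral_enorm _).trans ?_
    rw [hsupp _ (fun u hu => by rw [d.η0 u hu, mul_zero, enorm_zero]),
      ← lintegral_const_mul'' _ (mPe x z)]
    refine lintegral_mono_ae ?_
    filter_upwards [ae_restrict_mem d.mB] with u hu
    rw [enorm_mul, enorm_mul]
    have h1 : ‖η (f x u)‖ₑ ≤ ENNReal.ofReal cη := by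
      rw [← ofReal_norm]; exact ENNReal.ofReal_le_ofReal (d.η1 _)
    have h2 : ‖K f x w u‖ₑ ≤ ENNReal.ofReal (3 * F) := by
      rw [← ofReal_norm]; exact ENNReal.ofReal_le_ofReal (d.K_le hw hu)
    calc ‖K f x w u‖ₑ * ‖P f G x z u‖ₑ * ‖η (f x u)‖ₑ
        ≤ ENNReal.ofReal (3 * F) * ‖P f G x z u‖ₑ * ENNReal.ofReal cη :=
          mul_le_mul' (mul_le_mul' h2 le_rfl) h1
      _ = _ := by
          rw [ENNReal.ofReal_mul (p := 3 * F) (by positivity)]; ring
  unfold E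
  rw [d.core n hz hw]
  have hb : 0 ≤ βx := (abs_nonneg _).trans hmx
  have hb' : 0 ≤ βz := (abs_nonneg _).trans hmz
  refine (enorm_add_le _ _).trans ?_
  refine (add_le_add ((enorm_add_le _ _).trans (add_le_add enorm_sub_le le_rfl)) le_rfl).trans ?_
  refine (add_le_add (add_le_add (add_le_add a1 a2) a3) a4).trans (le_of_eq ?_)
  rw [ENNReal.ofReal_add hb hb', ENNReal.ofReal_add zero_le_one (by positivity),
    ENNReal.ofReal_one]
  ring

end Dat

/-- Cauchy–Schwarz for one function. -/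
theorem sq_lintegral_le {α : Type*} [MeasurableSpace α] (μ : Measure α) {g : α → ℝ≥0∞}
    (hg : AEMeasurable g μ) : (∫⁻ a, g a ∂μ) ^ 2 ≤ μ univ * ∫⁻ a, g a ^ 2 ∂μ := by
  have h := ENNReal.lintegral_mul_le_Lp_mul_Lq μ Real.HolderConjugate.two_two
    (aemeasurable_const (b := (1 : ℝ≥0∞))) hg
  simp only [Pi.mul_apply, one_mul, ENNReal.one_rpow, lintegral_const] at h
  calc (∫⁻ a, g a ∂μ) ^ 2
      ≤ ((μ univ) ^ (1 / (2 : ℝ)) * (∫⁻ a, g a ^ (2 : ℝ) ∂μ) ^ (1 / (2 : ℝ))) ^ 2 := by gcongr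
    _ = μ univ * ∫⁻ a, g a ^ 2 ∂μ := by
        rw [mul_pow, ← ENNReal.rpow_natCast, ← ENNReal.rpow_mul, ← ENNReal.rpow_natCast,
          ← ENNReal.rpow_mul]
        norm_num

theorem add_sq_le (a b : ℝ≥0∞) : (a + b) ^ 2 ≤ 2 * (a ^ 2 + b ^ 2) := by
  have h := ENNReal.rpow_add_le_mul_rpow_add_rpow a b (p := 2) (by norm_num)
  simpa [show (2 : ℝ) - 1 = 1 by norm_num] using h

theorem add4_sq_le (a b c d : ℝ≥0∞) :
    (a + b + c + d) ^ 2 ≤ 4 * (a ^ 2 + b ^ 2 + c ^ 2 + d ^ 2) := by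
  calc (a + b + c + d) ^ 2 = ((a + b) + (c + d)) ^ 2 := by ring
    _ ≤ 2 * ((a + b) ^ 2 + (c + d) ^ 2) := add_sq_le _ _
    _ ≤ 2 * (2 * (a ^ 2 + b ^ 2) + 2 * (c ^ 2 + d ^ 2)) := by
        gcongr <;> exact add_sq_le _ _
    _ = 4 * (a ^ 2 + b ^ 2 + c ^ 2 + d ^ 2) := by ring

namespace Dat

variable {μ : Measure X} {f : X → X → ℝ} {G : X → X → X → ℝ} {φ η : ℝ → ℝ}
  {B : Set X} {F cη : ℝ} {x : X} (d : Dat μ f G φ η B F cη x)

include d

/-- **(g1)** the error kernel is small in `L²(B × B)`. -/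
theorem gap [SFinite μ] (n : ℝ) {b : ℝ} {ε : ℝ≥0∞}
    (hm : ∀ z ∈ B, ∀ w ∈ B,
      |(∫ u, Dz f G φ η x w z u ∂μ) + n * ∫ u, K f x w u * φ (f x u) ∂μ| ≤ b)
    (hmP : ∀ a ∈ B, AEMeasurable (fun p : X × X => ‖P f G a p.1 p.2‖ₑ)
      ((μ.restrict B).prod (μ.restrict B)))
    (hL : ∀ a ∈ B, ∫⁻ v in B, ∫⁻ u in B, ‖P f G a v u‖ₑ ^ 2 ∂μ ∂μ ≤ ε) :
    ∫⁻ z in B, ∫⁻ w in B, ‖E μ f φ η x z w‖ₑ ^ 2 ∂μ ∂μ ≤
      4 * (μ B) ^ 2 * (ENNReal.ofReal (b + b) ^ 2
        + (ENNReal.ofReal (1 + 3 * F * cη) ^ 2 + 2) * ε) := by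
  set V := μ B with hV
  set b' := ENNReal.ofReal (b + b) with hb'
  set c1 := ENNReal.ofReal (1 + 3 * F * cη) with hc1
  have mPe : ∀ a v, AEMeasurable (fun u => ‖P f G a v u‖ₑ) (μ.restrict B) := fun a v =>
    (d.mP a v).restrict.enorm
  have hcs : ∀ a v, (∫⁻ u in B, ‖P f G a v u‖ₑ ∂μ) ^ 2
      ≤ V * ∫⁻ u in B, ‖P f G a v u‖ₑ ^ 2 ∂μ := by
    intro a v
    have := sq_lintegral_le (μ.restrict B) (mPe a v)
    rwa [Measure.restrict_apply_univ] at this
  have hmq : ∀ a ∈ B, AEMeasurable (fun v => ∫⁻ u in B, ‖P f G a v u‖ₑ ^ 2 ∂μ)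
      (μ.restrict B) := by
    intro a ha
    exact ((hmP a ha).pow_const 2).lintegral_prod_right'
  have hpt : ∀ z ∈ B, ∀ w ∈ B, ‖E μ f φ η x z w‖ₑ ^ 2 ≤
      (4 * b' ^ 2 + 4 * c1 ^ 2 * V * (∫⁻ u in B, ‖P f G x z u‖ₑ ^ 2 ∂μ))
        + (4 * V * (∫⁻ u in B, ‖P f G x w u‖ₑ ^ 2 ∂μ)
        + 4 * V * ∫⁻ u in B, ‖P f G z w u‖ₑ ^ 2 ∂μ) := by
    intro z hz w hw
    have h1 := d.enorm_err_le n hz hw (hm x d.xB w hw) (hm z hz w hw)
    calc ‖E μ f φ η x z w‖ₑ ^ 2 ≤ (b' + c1 * (∫⁻ u in B, ‖P f G x z u‖ₑ ∂μ)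
          + (∫⁻ u in B, ‖P f G x w u‖ₑ ∂μ) + ∫⁻ u in B, ‖P f G z w u‖ₑ ∂μ) ^ 2 := by gcongr
      _ ≤ 4 * (b' ^ 2 + (c1 * (∫⁻ u in B, ‖P f G x z u‖ₑ ∂μ)) ^ 2
          + (∫⁻ u in B, ‖P f G x w u‖ₑ ∂μ) ^ 2 + (∫⁻ u in B, ‖P f G z w u‖ₑ ∂μ) ^ 2) :=
          add4_sq_le _ _ _ _
      _ ≤ 4 * (b' ^ 2 + c1 ^ 2 * (V * ∫⁻ u in B, ‖P f G x z u‖ₑ ^ 2 ∂μ)
          + V * (∫⁻ u in B, ‖P f G x w u‖ₑ ^ 2 ∂μ)
          + V * ∫⁻ u in B, ‖P f G z w u‖ₑ ^ 2 ∂μ) := by
          rw [mul_pow]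
          gcongr
          · exact hcs x z
          · exact hcs x w
          · exact hcs z w
      _ = _ := by ring
  have hw : ∀ z ∈ B, ∫⁻ w in B, ‖E μ f φ η x z w‖ₑ ^ 2 ∂μ ≤
      (4 * b' ^ 2 * V + 8 * V * ε)
        + 4 * c1 ^ 2 * V ^ 2 * (∫⁻ u in B, ‖P f G x z u‖ₑ ^ 2 ∂μ) := by
    intro z hz
    calc ∫⁻ w in B, ‖E μ f φ η x z w‖ₑ ^ 2 ∂μ
        ≤ ∫⁻ w in B, ((4 * b' ^ 2 + 4 * c1 ^ 2 * V * (∫⁻ u in B, ‖P f G x z u‖ₑ ^ 2 ∂μ))
        + (4 * V * (∫⁻ u in B, ‖P f G x w u‖ₑ ^ 2 ∂μ)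
        + 4 * V * ∫⁻ u in B, ‖P f G z w u‖ₑ ^ 2 ∂μ)) ∂μ := by
          refine setLIntegral_mono' d.mB fun w hw => hpt z hz w hw
      _ = (4 * b' ^ 2 + 4 * c1 ^ 2 * V * (∫⁻ u in B, ‖P f G x z u‖ₑ ^ 2 ∂μ)) * V
        + (4 * V * (∫⁻ w in B, ∫⁻ u in B, ‖P f G x w u‖ₑ ^ 2 ∂μ ∂μ)
        + 4 * V * ∫⁻ w in B, ∫⁻ u in B, ‖P f G z w u‖ₑ ^ 2 ∂μ ∂μ) := by
          rw [lintegral_add_left measurable_const,
            lintegral_add_left' ((hmq x d.xB).const_mul _),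
            lintegral_const_mul'' _ (hmq x d.xB), lintegral_const_mul'' _ (hmq z hz),
            lintegral_const, Measure.restrict_apply_univ]
      _ ≤ (4 * b' ^ 2 + 4 * c1 ^ 2 * V * (∫⁻ u in B, ‖P f G x z u‖ₑ ^ 2 ∂μ)) * V
        + (4 * V * ε + 4 * V * ε) := by
          gcongr
          · exact hL x d.xB
          · exact hL z hz
      _ = _ := by ring
  calc ∫⁻ z in B, ∫⁻ w in B, ‖E μ f φ η x z w‖ₑ ^ 2 ∂μ ∂μ
      ≤ ∫⁻ z in B, ((4 * b' ^ 2 * V + 8 * V * ε)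
        + 4 * c1 ^ 2 * V ^ 2 * (∫⁻ u in B, ‖P f G x z u‖ₑ ^ 2 ∂μ)) ∂μ :=
        setLIntegral_mono' d.mB hw
    _ = (4 * b' ^ 2 * V + 8 * V * ε) * V
        + 4 * c1 ^ 2 * V ^ 2 * ∫⁻ z in B, ∫⁻ u in B, ‖P f G x z u‖ₑ ^ 2 ∂μ ∂μ := by
        rw [lintegral_add_left measurable_const, lintegral_const_mul'' _ (hmq x d.xB),
          lintegral_const, Measure.restrict_apply_univ]
    _ ≤ (4 * b' ^ 2 * V + 8 * V * ε) * V + 4 * c1 ^ 2 * V ^ 2 * ε := by
        gcongr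
        exact hL x d.xB
    _ = _ := by ring

theorem P_self (z : X) : ∀ᵐ u ∂μ, P f G z z u = 0 := by
  filter_upwards [d.Gself z] with u hu
  unfold P; rw [hu, d.self]; ring

/-- bound of the error on the diagonal -/
theorem enorm_diag_le (n : ℝ) {z : X} (hz : z ∈ B) {b : ℝ}
    (hmx : |(∫ u, Dz f G φ η x z x u ∂μ) + n * ∫ u, K f x z u * φ (f x u) ∂μ| ≤ b)
    (hmz : |(∫ u, Dz f G φ η x z z u ∂μ) + n * ∫ u, K f x z u * φ (f x u) ∂μ| ≤ b) :
    ‖E μ f φ η x z z‖ₑ ≤ ENNReal.ofReal (b + b)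
      + (ENNReal.ofReal (1 + 3 * F * cη) + 1) * (∫⁻ u in B, ‖P f G x z u‖ₑ ∂μ) := by
  have h := d.enorm_err_le n hz hz hmx hmz
  have h0 : ∫⁻ u in B, ‖P f G z z u‖ₑ ∂μ = 0 := by
    refine (lintegral_congr_ae (g := fun _ => 0) ?_).trans (by simp)
    filter_upwards [ae_restrict_of_ae (d.P_self z)] with u hu
    rw [hu, enorm_zero]
  rw [h0, add_zero] at h
  refine h.trans (le_of_eq ?_)
  ring

/-- **(g2)** the Hilbert–Schmidt norm of the kernel is `n Λ²` up to a small error. -/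
theorem hs [SFinite μ] (n : ℝ) {b : ℝ} {ε : ℝ≥0∞}
    (hfj : Measurable (fun p : X × X => f p.1 p.2))
    (hm : ∀ z ∈ B, ∀ w ∈ B,
      |(∫ u, Dz f G φ η x w z u ∂μ) + n * ∫ u, K f x w u * φ (f x u) ∂μ| ≤ b)
    (hm0 : |n * (∫ u, φ (f x u) ∂μ) - ∫ u, 2 * f x u * η (f x u) ∂μ| ≤ b)
    (hmP : AEMeasurable (fun p : X × X => ‖P f G x p.1 p.2‖ₑ)
      ((μ.restrict B).prod (μ.restrict B)))
    (hL : ∫⁻ v in B, ∫⁻ u in B, ‖P f G x v u‖ₑ ^ 2 ∂μ ∂μ ≤ ε) :
    ‖(∫ z, (∫ u, K f x z u * K f x z u * η (f x u) ∂μ) * η (f x z) ∂μ)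
        - n * (∫ u, φ (f x u) ∂μ) ^ 2‖ₑ ≤
      ENNReal.ofReal cη * (ENNReal.ofReal (b + b) * μ B
        + (ENNReal.ofReal (1 + 3 * F * cη) + 1) * (μ B * ε ^ (1 / 2 : ℝ)))
      + ‖∫ u, φ (f x u) ∂μ‖ₑ * ENNReal.ofReal b := by
  have hF := d.F0
  have hc := d.cη0
  set Λ := ∫ u, φ (f x u) ∂μ with hΛ
  set V := μ B with hV
  have mPe : ∀ a v, AEMeasurable (fun u => ‖P f G a v u‖ₑ) (μ.restrict B) := fun a v =>
    (d.mP a v).restrict.enorm
  -- measurability of the inner integral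
  have mfx : Measurable (f x) := hfj.comp (measurable_const.prodMk measurable_id)
  have mKj : Measurable (fun p : X × X => K f x p.1 p.2) := by
    unfold K
    exact ((mfx.comp measurable_fst).add (mfx.comp measurable_snd)).sub hfj
  have mI : StronglyMeasurable (fun z => ∫ u, K f x z u * K f x z u * η (f x u) ∂μ) := by
    have h1 : StronglyMeasurable (fun p : X × X => K f x p.1 p.2 * K f x p.1 p.2
        * η (f x p.2)) :=
      ((mKj.mul mKj).mul (d.mη.comp (mfx.comp measurable_snd))).stronglyMeasurable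
    exact h1.integral_prod_right'
  have mηx : AEStronglyMeasurable (fun z => η (f x z)) μ := d.measEta
  have hsupp : ∀ g : X → ℝ≥0∞, (∀ u, u ∉ B → g u = 0) → ∫⁻ u, g u ∂μ = ∫⁻ u in B, g u ∂μ := by
    intro g hg
    rw [← lintegral_indicator d.mB]
    refine lintegral_congr fun u => ?_
    by_cases hu : u ∈ B
    · simp [hu]
    · simp [hu, hg u hu]
  have hEq : ∀ z, E μ f φ η x z z
      = (∫ u, K f x z u * K f x z u * η (f x u) ∂μ) - Λ * (2 * f x z) := by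
    intro z
    unfold E
    rw [K_self d.self]
  have i2 : Integrable (fun z => 2 * f x z * η (f x z)) μ := by
    refine d.integrable_of_bound (((d.mf x).const_mul 2).mul mηx) (C := (2 * F) * cη) ?_ ?_
    · filter_upwards [ae_restrict_mem d.mB] with u hu
      rw [abs_mul, abs_mul, abs_two]
      exact mul_le_mul (mul_le_mul_of_nonneg_left (d.fF x d.xB u hu) (by norm_num)) (d.η1 _)
        (abs_nonneg _) (by positivity)
    · intro u hu; rw [d.η0 u hu, mul_zero]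
  have mE : AEStronglyMeasurable (fun z => E μ f φ η x z z * η (f x z)) μ := by
    refine AEStronglyMeasurable.mul ?_ mηx
    have : (fun z => E μ f φ η x z z)
        = fun z => (∫ u, K f x z u * K f x z u * η (f x u) ∂μ) - Λ * (2 * f x z) := funext hEq
    rw [this]
    exact mI.aestronglyMeasurable.sub (((d.mf x).const_mul 2).const_mul Λ)
  -- double integral of `P`
  have hPP : ∫⁻ z in B, ∫⁻ u in B, ‖P f G x z u‖ₑ ∂μ ∂μ ≤ V * ε ^ (1 / 2 : ℝ) := by
    have hmq : AEMeasurable (fun v => ∫⁻ u in B, ‖P f G x v u‖ₑ ∂μ) (μ.restrict B) :=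
      hmP.lintegral_prod_right'
    have hmq2 : AEMeasurable (fun v => ∫⁻ u in B, ‖P f G x v u‖ₑ ^ 2 ∂μ) (μ.restrict B) :=
      (hmP.pow_const 2).lintegral_prod_right'
    have h1 : (∫⁻ z in B, ∫⁻ u in B, ‖P f G x z u‖ₑ ∂μ ∂μ) ^ 2 ≤ V ^ 2 * ε := by
      refine (sq_lintegral_le _ hmq).trans ?_
      rw [Measure.restrict_apply_univ]
      calc V * ∫⁻ z in B, (∫⁻ u in B, ‖P f G x z u‖ₑ ∂μ) ^ 2 ∂μ
          ≤ V * ∫⁻ z in B, V * ∫⁻ u in B, ‖P f G x z u‖ₑ ^ 2 ∂μ ∂μ := by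
            gcongr with z
            have := sq_lintegral_le (μ.restrict B) (mPe x z)
            rwa [Measure.restrict_apply_univ] at this
        _ = V * (V * ∫⁻ z in B, ∫⁻ u in B, ‖P f G x z u‖ₑ ^ 2 ∂μ ∂μ) := by
            rw [lintegral_const_mul'' _ hmq2]
        _ ≤ V * (V * ε) := by gcongr
        _ = _ := by ring
    have h2 : ((∫⁻ z in B, ∫⁻ u in B, ‖P f G x z u‖ₑ ∂μ ∂μ) ^ 2) ^ (1 / 2 : ℝ)
        ≤ (V ^ 2 * ε) ^ (1 / 2 : ℝ) := ENNReal.rpow_le_rpow h1 (by norm_num)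
    rw [ENNReal.mul_rpow_of_nonneg _ _ (by norm_num), ← ENNReal.rpow_natCast,
      ← ENNReal.rpow_mul, ← ENNReal.rpow_natCast, ← ENNReal.rpow_mul] at h2
    norm_num at h2
    simpa using h2
  -- the diagonal error
  have hdiag : ∫⁻ z, ‖E μ f φ η x z z * η (f x z)‖ₑ ∂μ ≤
      ENNReal.ofReal cη * (ENNReal.ofReal (b + b) * V
        + (ENNReal.ofReal (1 + 3 * F * cη) + 1) * (V * ε ^ (1 / 2 : ℝ))) := by
    rw [hsupp _ (fun u hu => by rw [d.η0 u hu, mul_zero, enorm_zero])]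
    calc ∫⁻ z in B, ‖E μ f φ η x z z * η (f x z)‖ₑ ∂μ
        ≤ ∫⁻ z in B, ENNReal.ofReal cη * (ENNReal.ofReal (b + b)
          + (ENNReal.ofReal (1 + 3 * F * cη) + 1) * ∫⁻ u in B, ‖P f G x z u‖ₑ ∂μ) ∂μ := by
          refine setLIntegral_mono' d.mB fun z hz => ?_
          rw [enorm_mul, mul_comm]
          refine mul_le_mul' ?_ (d.enorm_diag_le n hz (hm x d.xB z hz) (hm z hz z hz))
          rw [← ofReal_norm]; exact ENNReal.ofReal_le_ofReal (d.η1 _)
      _ = ENNReal.ofReal cη * (ENNReal.ofReal (b + b) * V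
          + (ENNReal.ofReal (1 + 3 * F * cη) + 1)
            * ∫⁻ z in B, ∫⁻ u in B, ‖P f G x z u‖ₑ ∂μ ∂μ) := by
          have hmq : AEMeasurable (fun v => ∫⁻ u in B, ‖P f G x v u‖ₑ ∂μ) (μ.restrict B) :=
            hmP.lintegral_prod_right'
          have e1 : AEMeasurable (fun z => ENNReal.ofReal (b + b)
              + (ENNReal.ofReal (1 + 3 * F * cη) + 1) * ∫⁻ u in B, ‖P f G x z u‖ₑ ∂μ)
              (μ.restrict B) := aemeasurable_const.add (hmq.const_mul _)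
          rw [lintegral_const_mul'' _ e1,
            lintegral_add_left measurable_const, lintegral_const_mul'' _ hmq, lintegral_const,
            Measure.restrict_apply_univ]
      _ ≤ _ := by gcongr
  have hVtop : V ≠ ∞ := d.fin
  by_cases hε : ε = ∞
  · -- trivial case `ε = ∞` unless `V = 0`
    by_cases hV0 : V = 0
    · -- everything vanishes
      have hB0 : μ B = 0 := hV0
      have h1 : (∫ z, (∫ u, K f x z u * K f x z u * η (f x u) ∂μ) * η (f x z) ∂μ) = 0 := by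
        refine integral_eq_zero_of_ae ?_
        have : ∀ᵐ z ∂μ, z ∉ B := measure_eq_zero_iff_ae_notMem.1 hB0
        filter_upwards [this] with z hz
        simp [d.η0 z hz]
      have h2 : Λ = 0 := by
        refine integral_eq_zero_of_ae ?_
        have : ∀ᵐ z ∂μ, z ∉ B := measure_eq_zero_iff_ae_notMem.1 hB0
        filter_upwards [this] with z hz
        simp [d.φ0 z hz]
      rw [h1, h2]
      simp
    · by_cases hc0 : cη = 0
      · -- `η = 0`
        have hη : ∀ s, η s = 0 := fun s => by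
          have := d.η1 s
          rw [hc0] at this
          exact abs_nonpos_iff.1 this
        have h1 : (∫ z, (∫ u, K f x z u * K f x z u * η (f x u) ∂μ) * η (f x z) ∂μ) = 0 := by
          simp [hη]
        rw [h1]
        have h2 : |n * Λ| ≤ b := by simpa [hη] using hm0
        have h3 : ‖(0 : ℝ) - n * Λ ^ 2‖ₑ ≤ ‖Λ‖ₑ * ENNReal.ofReal b := by
          rw [zero_sub, enorm_neg, show n * Λ ^ 2 = Λ * (n * Λ) by ring, enorm_mul]
          gcongr
          rw [← ofReal_norm]; exact ENNReal.ofReal_le_ofReal h2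
        exact h3.trans (le_add_self)
      · have hcpos : 0 < cη := lt_of_le_of_ne hc (Ne.symm hc0)
        have : ENNReal.ofReal cη * (ENNReal.ofReal (b + b) * V
            + (ENNReal.ofReal (1 + 3 * F * cη) + 1) * (V * ε ^ (1 / 2 : ℝ))) = ∞ := by
          rw [hε, ENNReal.top_rpow_of_pos (by norm_num), ENNReal.mul_top hV0,
            ENNReal.mul_top (by positivity), add_top, ENNReal.mul_top]
          simpa using hcpos
        rw [this, top_add]
        exact le_top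
  · have hfin : ENNReal.ofReal cη * (ENNReal.ofReal (b + b) * V
          + (ENNReal.ofReal (1 + 3 * F * cη) + 1) * (V * ε ^ (1 / 2 : ℝ))) < ∞ := by
      refine ENNReal.mul_lt_top ENNReal.ofReal_lt_top (ENNReal.add_lt_top.2 ⟨?_, ?_⟩)
      · exact ENNReal.mul_lt_top ENNReal.ofReal_lt_top hVtop.lt_top
      · refine ENNReal.mul_lt_top (by simp) (ENNReal.mul_lt_top hVtop.lt_top ?_)
        exact ENNReal.rpow_lt_top_of_nonneg (by norm_num) hε
    have iE : Integrable (fun z => E μ f φ η x z z * η (f x z)) μ :=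
      ⟨mE, hdiag.trans_lt hfin⟩
    have key : (∫ z, (∫ u, K f x z u * K f x z u * η (f x u) ∂μ) * η (f x z) ∂μ) - n * Λ ^ 2
        = (∫ z, E μ f φ η x z z * η (f x z) ∂μ)
          - Λ * (n * Λ - ∫ u, 2 * f x u * η (f x u) ∂μ) := by
      have h1 : (∫ z, (∫ u, K f x z u * K f x z u * η (f x u) ∂μ) * η (f x z) ∂μ)
          = (∫ z, E μ f φ η x z z * η (f x z) ∂μ)
            + Λ * ∫ u, 2 * f x u * η (f x u) ∂μ := by
        rw [← integral_const_mul, ← integral_add iE (i2.const_mul _)]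
        refine integral_congr_ae (Eventually.of_forall fun z => ?_)
        simp only
        rw [hEq z]; ring
      rw [h1]; ring
    rw [key]
    refine enorm_sub_le.trans (add_le_add ?_ ?_)
    · exact (enorm_integral_le_lintegral_enorm _).trans hdiag
    · rw [enorm_mul]
      gcongr
      rw [← ofReal_norm]; exact ENNReal.ofReal_le_ofReal hm0

end Dat

end Crest.Agent.R247.Gap79
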