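import Mathlib

/-!
R247 block (2b), helper661: purification of an almost idempotent self-adjoint element
(McWeeny iteration `x ↦ 3x² - 2x³`).
-/

set_option autoImplicit false
set_option linter.unusedSectionVars false

noncomputable section

namespace Crest.Agent.R247.Pl1661

open Filter Topology

variable {A : Type*} [NormedRing A] [StarRing A] [CStarRing A] [NormedAlgebra ℝ A]
  [StarModule ℝ A]

/-- McWeeny step. -/
def mcw (x : A) : A := (3 : ℝ) • (x * x) - (2 : ℝ) • (x * x * x)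

/-- McWeeny iterates. -/
def mcs (a : A) : ℕ → A
  | 0 => a
  | k + 1 => mcw (mcs a k)

omit [StarRing A] [CStarRing A] [StarModule ℝ A] in
theorem mcw_sub (x : A) :
    mcw x - x = - ((x * x - x) * ((2 : ℝ) • x - 1)) := by
  have h3 : (3 : ℝ) • (x * x) = x * x + x * x + x * x := by
    rw [show (3 : ℝ) = 1 + 1 + 1 by norm_num, add_smul, add_smul, one_smul]
  have h2 : (2 : ℝ) • (x * x * x) = x * x * x + x * x * x := by
    rw [show (2 : ℝ) = 1 + 1 by norm_num, add_smul, one_smul]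
  have h1 : (2 : ℝ) • x = x + x := by
    rw [show (2 : ℝ) = 1 + 1 by norm_num, add_smul, one_smul]
  unfold mcw
  rw [h3, h2, h1]
  noncomm_ring

omit [StarRing A] [CStarRing A] [StarModule ℝ A] in
theorem mcw_sq_sub (x : A) :
    mcw x * mcw x - mcw x
      = - ((x * x - x) * (x * x - x) * ((3 : ℝ) • (1 : A) - (4 : ℝ) • (x * x - x))) := by
  have e (n : ℕ) (y : A) : ((n : ℕ) : ℝ) • y = n • y := by
    rw [Nat.cast_smul_eq_nsmul]
  have h3 (y : A) : (3 : ℝ) • y = 3 • y := by simpa using e 3 y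
  have h2 (y : A) : (2 : ℝ) • y = 2 • y := by simpa using e 2 y
  have h4 (y : A) : (4 : ℝ) • y = 4 • y := by simpa using e 4 y
  unfold mcw
  rw [h3, h2, h3, h4]
  noncomm_ring

theorem star_mcw {x : A} (hx : IsSelfAdjoint x) : IsSelfAdjoint (mcw x) := by
  unfold mcw
  have h1 : IsSelfAdjoint (x * x) := by
    have := hx.pow 2
    simpa [pow_two] using this
  have h2 : IsSelfAdjoint (x * x * x) := by
    have := hx.pow 3
    simpa [pow_succ, pow_zero, one_mul] using this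
  exact ((IsSelfAdjoint.all (3 : ℝ)).smul h1).sub ((IsSelfAdjoint.all (2 : ℝ)).smul h2)

theorem star_mcs {a : A} (ha : IsSelfAdjoint a) (k : ℕ) : IsSelfAdjoint (mcs a k) := by
  induction k with
  | zero => exact ha
  | succ k ih => exact star_mcw ih

omit [StarRing A] [CStarRing A] [StarModule ℝ A] in
theorem commute_mcs {a b : A} (h : Commute b a) (k : ℕ) : Commute b (mcs a k) := by
  induction k with
  | zero => exact h
  | succ k ih =>
    show Commute b (mcw (mcs a k))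
    unfold mcw
    exact ((ih.mul_right ih).smul_right (3 : ℝ)).sub_right
      (((ih.mul_right ih).mul_right ih).smul_right (2 : ℝ))

theorem norm_one_le' : ‖(1 : A)‖ ≤ 1 := by
  have h : ‖star (1 : A) * 1‖ = ‖(1 : A)‖ * ‖(1 : A)‖ := CStarRing.norm_star_mul_self
  simp only [star_one, mul_one] at h
  nlinarith [norm_nonneg (1 : A)]

/-- the norm of `2x - 1` for an almost idempotent self-adjoint `x`. -/
theorem norm_two_smul_sub_one {x : A} (hx : IsSelfAdjoint x) {q : ℝ}
    (hq : ‖x * x - x‖ ≤ q) (hq8 : q ≤ 1 / 8) : ‖(2 : ℝ) • x - 1‖ ≤ 5 / 4 := by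
  have hsa : IsSelfAdjoint ((2 : ℝ) • x - 1) :=
    ((IsSelfAdjoint.all (2 : ℝ)).smul hx).sub (IsSelfAdjoint.one A)
  have h1 : ((2 : ℝ) • x - 1) * ((2 : ℝ) • x - 1) = (4 : ℝ) • (x * x - x) + 1 := by
    have e (n : ℕ) (y : A) : ((n : ℕ) : ℝ) • y = n • y := by
      rw [Nat.cast_smul_eq_nsmul]
    have h2 (y : A) : (2 : ℝ) • y = 2 • y := by simpa using e 2 y
    have h4 (y : A) : (4 : ℝ) • y = 4 • y := by simpa using e 4 y
    rw [h2, h4]
    noncomm_ring
  have h2 : ‖(2 : ℝ) • x - 1‖ * ‖(2 : ℝ) • x - 1‖ ≤ 4 * q + 1 := by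
    have h := CStarRing.norm_star_mul_self (x := (2 : ℝ) • x - 1)
    rw [hsa.star_eq] at h
    rw [← h, h1]
    refine (norm_add_le _ _).trans ?_
    rw [norm_smul, Real.norm_of_nonneg (by norm_num : (0 : ℝ) ≤ 4)]
    have := norm_one_le' (A := A)
    linarith
  nlinarith [norm_nonneg ((2 : ℝ) • x - 1)]

/-- one step of the iteration -/
theorem step {x : A} (hx : IsSelfAdjoint x) {q : ℝ}
    (hq : ‖x * x - x‖ ≤ q) (hq8 : q ≤ 1 / 8) :
    ‖mcw x * mcw x - mcw x‖ ≤ q / 2 ∧ ‖mcw x - x‖ ≤ 5 / 4 * q := by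
  have hq0 : 0 ≤ q := (norm_nonneg _).trans hq
  constructor
  · rw [mcw_sq_sub, norm_neg]
    have h1 : ‖(3 : ℝ) • (1 : A) - (4 : ℝ) • (x * x - x)‖ ≤ 3 + 4 * q := by
      refine (norm_sub_le _ _).trans ?_
      rw [norm_smul, norm_smul, Real.norm_of_nonneg (by norm_num : (0 : ℝ) ≤ 4),
        Real.norm_of_nonneg (by norm_num : (0 : ℝ) ≤ 3)]
      have := norm_one_le' (A := A)
      linarith
    have h2 : ‖(x * x - x) * (x * x - x)‖ ≤ q * q :=
      (norm_mul_le _ _).trans (mul_le_mul hq hq (norm_nonneg _) hq0)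
    calc _ ≤ ‖(x * x - x) * (x * x - x)‖ * ‖(3 : ℝ) • (1 : A) - (4 : ℝ) • (x * x - x)‖ :=
          norm_mul_le _ _
      _ ≤ (q * q) * (3 + 4 * q) := mul_le_mul h2 h1 (norm_nonneg _) (by positivity)
      _ ≤ q / 2 := by
          have : q * (3 + 4 * q) ≤ 1 / 2 := by nlinarith
          nlinarith
  · rw [mcw_sub, norm_neg]
    calc _ ≤ ‖x * x - x‖ * ‖(2 : ℝ) • x - 1‖ := norm_mul_le _ _
      _ ≤ q * (5 / 4) := mul_le_mul hq (norm_two_smul_sub_one hx hq hq8) (norm_nonneg _) hq0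
      _ = 5 / 4 * q := by ring

theorem bound_mcs {a : A} (ha : IsSelfAdjoint a) {q : ℝ}
    (hq : ‖a * a - a‖ ≤ q) (hq8 : q ≤ 1 / 8) (k : ℕ) :
    ‖mcs a k * mcs a k - mcs a k‖ ≤ q / 2 ^ k := by
  have hq0 : 0 ≤ q := (norm_nonneg _).trans hq
  induction k with
  | zero => simpa [mcs] using hq
  | succ k ih =>
    have h8 : q / 2 ^ k ≤ 1 / 8 := by
      refine (div_le_self hq0 ?_).trans hq8
      exact one_le_pow₀ (by norm_num)
    have := (step (star_mcs ha k) ih h8).1
    show ‖mcw (mcs a k) * mcw (mcs a k) - mcw (mcs a k)‖ ≤ _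
    refine this.trans (le_of_eq ?_)
    rw [pow_succ]; field_simp

theorem dist_mcs {a : A} (ha : IsSelfAdjoint a) {q : ℝ}
    (hq : ‖a * a - a‖ ≤ q) (hq8 : q ≤ 1 / 8) (k : ℕ) :
    dist (mcs a k) (mcs a (k + 1)) ≤ (5 / 2 * q) / 2 / 2 ^ k := by
  have hq0 : 0 ≤ q := (norm_nonneg _).trans hq
  have h8 : q / 2 ^ k ≤ 1 / 8 := by
    refine (div_le_self hq0 ?_).trans hq8
    exact one_le_pow₀ (by norm_num)
  have := (step (star_mcs ha k) (bound_mcs ha hq hq8 k) h8).2
  rw [dist_comm, dist_eq_norm]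
  refine this.trans (le_of_eq ?_)
  ring

/-- **Purification.** -/
theorem purify [CompleteSpace A] {a : A} (ha : IsSelfAdjoint a) {q : ℝ}
    (hq : ‖a * a - a‖ ≤ q) (hq8 : q ≤ 1 / 8) :
    ∃ e : A, IsSelfAdjoint e ∧ e * e = e ∧ (∀ b : A, Commute b a → Commute b e) ∧
      ‖a - e‖ ≤ 5 / 2 * q := by
  have hq0 : 0 ≤ q := (norm_nonneg _).trans hq
  have hc : CauchySeq (mcs a) := cauchySeq_of_le_geometric_two (dist_mcs ha hq hq8)
  obtain ⟨e, he⟩ := cauchySeq_tendsto_of_complete hc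
  refine ⟨e, ?_, ?_, ?_, ?_⟩
  · have h1 : Tendsto (fun k => star (mcs a k)) atTop (𝓝 (star e)) :=
      (continuous_star.tendsto e).comp he
    have h2 : (fun k => star (mcs a k)) = mcs a := by
      funext k; exact (star_mcs ha k).star_eq
    rw [h2] at h1
    exact tendsto_nhds_unique h1 he
  · have h1 : Tendsto (fun k => mcs a k * mcs a k - mcs a k) atTop (𝓝 (e * e - e)) :=
      (he.mul he).sub he
    have h2 : Tendsto (fun k => mcs a k * mcs a k - mcs a k) atTop (𝓝 0) := by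
      rw [tendsto_zero_iff_norm_tendsto_zero]
      refine squeeze_zero (fun k => norm_nonneg _) (bound_mcs ha hq hq8) ?_
      have : Tendsto (fun k : ℕ => q * (1 / 2 : ℝ) ^ k) atTop (𝓝 (q * 0)) :=
        (tendsto_pow_atTop_nhds_zero_of_lt_one (by norm_num) (by norm_num)).const_mul q
      rw [mul_zero] at this
      refine this.congr (fun k => ?_)
      rw [one_div, inv_pow, div_eq_mul_inv]
    exact sub_eq_zero.1 (tendsto_nhds_unique h1 h2)
  · intro b hb
    have h1 : Tendsto (fun k => b * mcs a k) atTop (𝓝 (b * e)) := he.const_mul b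
    have h2 : Tendsto (fun k => mcs a k * b) atTop (𝓝 (e * b)) := he.mul_const b
    have h3 : (fun k => b * mcs a k) = fun k => mcs a k * b := by
      funext k; exact (commute_mcs hb k).eq
    rw [h3] at h1
    exact tendsto_nhds_unique h1 h2
  · have := dist_le_of_le_geometric_two_of_tendsto₀ (dist_mcs ha hq hq8) he
    rwa [dist_eq_norm] at this

end Crest.Agent.R247.Pl1661
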