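import Mathlib

/-!
R247 block (2b), helper661: Hilbert space block lemmas (Sylvester type estimates, comparison of
range projections).
-/

set_option autoImplicit false
set_option linter.unusedSectionVars false

noncomputable section

namespace Crest.Agent.R247.Pl2661

open scoped InnerProductSpace

variable {V V' H : Type*}
  [NormedAddCommGroup V] [InnerProductSpace ℝ V] [CompleteSpace V]
  [NormedAddCommGroup V'] [InnerProductSpace ℝ V'] [CompleteSpace V']
  [NormedAddCommGroup H] [InnerProductSpace ℝ H] [CompleteSpace H]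

/-- `E` is an orthogonal projection commuting with `A` and `e`-close to it. -/
structure Rnd (A E : V →L[ℝ] V) (e : ℝ) : Prop where
  sa : IsSelfAdjoint E
  idem : E * E = E
  comm : Commute A E
  near : ‖A - E‖ ≤ e

namespace Rnd

variable {A E : V →L[ℝ] V} {e : ℝ}

theorem e_nonneg (h : Rnd A E e) : 0 ≤ e := (norm_nonneg _).trans h.near

theorem EE (h : Rnd A E e) (v : V) : E (E v) = E v := by
  have := congrArg (fun T : V →L[ℝ] V => T v) h.idem
  simpa using this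

theorem AE (h : Rnd A E e) (v : V) : A (E v) = E (A v) := by
  have := congrArg (fun T : V →L[ℝ] V => T v) h.comm.eq
  simpa using this

theorem inner_E (h : Rnd A E e) (v w : V) : ⟪E v, w⟫_ℝ = ⟪v, E w⟫_ℝ := by
  have h1 : ContinuousLinearMap.adjoint E = E := by
    have := h.sa
    rwa [ContinuousLinearMap.isSelfAdjoint_iff'] at this
  conv_lhs => rw [← h1]
  exact ContinuousLinearMap.adjoint_inner_left E w v

theorem norm_E_le (h : Rnd A E e) (v : V) : ‖E v‖ ≤ ‖v‖ := by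
  have h1 : ‖E v‖ * ‖E v‖ ≤ ‖v‖ * ‖E v‖ := by
    rw [← real_inner_self_eq_norm_mul_norm, h.inner_E, h.EE]
    exact real_inner_le_norm _ _
  by_contra hc
  push Not at hc
  have : 0 < ‖E v‖ := (norm_nonneg _).trans_lt hc
  nlinarith

theorem norm_sub_E_le (h : Rnd A E e) (v : V) : ‖v - E v‖ ≤ ‖v‖ := by
  have h1 : ‖v - E v‖ * ‖v - E v‖ ≤ ‖v‖ * ‖v - E v‖ := by
    rw [← real_inner_self_eq_norm_mul_norm]
    have : ⟪v - E v, v - E v⟫_ℝ = ⟪v, v - E v⟫_ℝ := by
      rw [inner_sub_left, h.inner_E, map_sub, h.EE, sub_self, inner_zero_right, sub_zero]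
    rw [this]
    exact real_inner_le_norm _ _
  by_contra hc
  push Not at hc
  have : 0 < ‖v - E v‖ := (norm_nonneg _).trans_lt hc
  nlinarith

theorem norm_AE_sub (h : Rnd A E e) (v : V) : ‖A v - E v‖ ≤ e * ‖v‖ := by
  have := (A - E).le_opNorm v
  refine this.trans ?_
  exact mul_le_mul_of_nonneg_right h.near (norm_nonneg _)

/-- gap estimate: distance to the range of `E`. -/
theorem norm_compl_le (h : Rnd A E e) (he : e ≤ 1 / 2) (v : V) :
    ‖v - E v‖ ≤ 2 * ‖A v - v‖ := by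
  set w := v - E v with hw
  have hEw : E w = 0 := by rw [hw, map_sub, h.EE, sub_self]
  have h1 : A w - w = (A v - v) - E (A v - v) := by
    rw [hw, map_sub, h.AE, map_sub]; abel
  have h2 : ‖A w‖ ≤ e * ‖w‖ := by
    have := h.norm_AE_sub w
    rwa [hEw, sub_zero] at this
  have h3 : ‖A w - w‖ ≤ ‖A v - v‖ := by
    rw [h1]; exact h.norm_sub_E_le _
  have h4 : ‖w‖ ≤ ‖A w‖ + ‖A w - w‖ := by
    have : w = A w - (A w - w) := by abel
    calc ‖w‖ = ‖A w - (A w - w)‖ := by rw [← this]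
      _ ≤ _ := norm_sub_le _ _
  nlinarith [norm_nonneg w, h.e_nonneg]

/-- lower bound for the quadratic form of `A` on the range of `E`. -/
theorem inner_A_ge (h : Rnd A E e) {v : V} (hv : E v = v) :
    (1 - e) * ‖v‖ ^ 2 ≤ ⟪v, A v⟫_ℝ := by
  have h1 : ⟪v, A v⟫_ℝ = ‖v‖ ^ 2 + ⟪v, A v - E v⟫_ℝ := by
    rw [hv, inner_sub_right, real_inner_self_eq_norm_sq]; ring
  have h2 : |⟪v, A v - E v⟫_ℝ| ≤ e * ‖v‖ ^ 2 := by
    refine (abs_real_inner_le_norm _ _).trans ?_
    nlinarith [h.norm_AE_sub v, norm_nonneg v]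
  have := (abs_le.1 h2).1
  linarith

end Rnd

/-- The plane: orthogonal projection onto the closure of the range of `J ∘ E`. -/
def planeSub (J : V →L[ℝ] H) (E : V →L[ℝ] V) : Submodule ℝ H :=
  (LinearMap.range (J ∘L E : V →L[ℝ] H).toLinearMap).topologicalClosure

instance (J : V →L[ℝ] H) (E : V →L[ℝ] V) : CompleteSpace (planeSub J E) := by
  unfold planeSub
  infer_instance

/-- The projection onto the plane. -/
def plane (J : V →L[ℝ] H) (E : V →L[ℝ] V) : H →L[ℝ] H := (planeSub J E).starProjection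

theorem plane_apply_mem (J : V →L[ℝ] H) (E : V →L[ℝ] V) (h : H) :
    plane J E h ∈ planeSub J E := Submodule.starProjection_apply_mem _ _

theorem mem_planeSub (J : V →L[ℝ] H) (E : V →L[ℝ] V) (v : V) : J (E v) ∈ planeSub J E :=
  Submodule.le_topologicalClosure _ ⟨v, rfl⟩

theorem plane_JE (J : V →L[ℝ] H) (E : V →L[ℝ] V) (v : V) : plane J E (J (E v)) = J (E v) :=
  Submodule.starProjection_eq_self_iff.2 (mem_planeSub J E v)

theorem norm_sub_plane_le (J : V →L[ℝ] H) (E : V →L[ℝ] V) (h : H) :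
    ‖h - plane J E h‖ ≤ ‖h‖ := by
  have h1 : ‖h - plane J E h‖ ^ 2 + ‖plane J E h‖ ^ 2 = ‖h‖ ^ 2 := by
    have h2 : ⟪h - plane J E h, plane J E h⟫_ℝ = 0 :=
      Submodule.starProjection_inner_eq_zero _ _ (plane_apply_mem J E h)
    have h3 := norm_add_sq_real (h - plane J E h) (plane J E h)
    rw [sub_add_cancel, h2] at h3
    linarith
  have h0 : 0 ≤ ‖plane J E h‖ ^ 2 := by positivity
  exact le_of_sq_le_sq (by linarith) (norm_nonneg _)
where
  le_of_sq_le_sq {a b : ℝ} (h : a ^ 2 ≤ b ^ 2) (hb : 0 ≤ b) : a ≤ b := by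
    exact (abs_le_of_sq_le_sq h hb).trans' (le_abs_self a) |>.trans le_rfl

/-- **(A1), abstract.** -/
theorem norm_sub_plane_of_approx {A E : V →L[ℝ] V} {e : ℝ} (hR : Rnd A E e) (he : e ≤ 1 / 2)
    (J : V →L[ℝ] H) {cJ : ℝ} (hJ : ‖J‖ ≤ cJ) (v : H) (f : V) {lam ta tb : ℝ} (hlam : 0 < lam)
    (h1 : ‖lam • v - J f‖ ≤ ta) (h2 : ‖A f - f‖ ≤ tb) :
    ‖v - plane J E v‖ ≤ (ta + 2 * cJ * tb) / lam := by
  have hcJ : 0 ≤ cJ := (norm_nonneg _).trans hJ
  have h3 : ‖lam • v - J (E f)‖ ≤ ta + 2 * cJ * tb := by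
    have : lam • v - J (E f) = (lam • v - J f) + J (f - E f) := by rw [map_sub]; abel
    rw [this]
    refine (norm_add_le _ _).trans ?_
    have h4 : ‖J (f - E f)‖ ≤ cJ * (2 * tb) := by
      refine (J.le_opNorm _).trans ?_
      refine mul_le_mul hJ ?_ (norm_nonneg _) hcJ
      exact (hR.norm_compl_le he f).trans (by linarith)
    linarith
  have h5 : lam • (v - plane J E v) = (lam • v - J (E f)) - plane J E (lam • v - J (E f)) := by
    rw [map_sub, plane_JE, map_smul, smul_sub]; abel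
  have h6 : lam * ‖v - plane J E v‖ ≤ ta + 2 * cJ * tb := by
    have : ‖lam • (v - plane J E v)‖ = lam * ‖v - plane J E v‖ := by
      rw [norm_smul, Real.norm_of_nonneg hlam.le]
    rw [← this, h5]
    exact (norm_sub_plane_le J E _).trans h3
  rw [le_div_iff₀ hlam]
  linarith

/-- Sylvester type estimate. -/
theorem norm_offdiag_le {A E : V →L[ℝ] V} {A' E' : V' →L[ℝ] V'} {e : ℝ}
    (hR : Rnd A E e) (hR' : Rnd A' E' e) (U : V →L[ℝ] V') {lam lam' tau : ℝ}
    (hlam : 0 < lam) (hlam' : 0 ≤ lam') (hgap : e * (lam + lam') ≤ lam / 2)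
    (hU : ‖lam' • (A' ∘L U) - lam • (U ∘L A)‖ ≤ tau) :
    ‖U ∘L E - E' ∘L U ∘L E‖ ≤ 2 * tau / lam := by
  set X : V →L[ℝ] V' := U ∘L E - E' ∘L U ∘L E with hX
  have htau : 0 ≤ tau := (norm_nonneg _).trans hU
  have key : ∀ v, lam * ‖X v‖ ≤ (tau + e * (lam + lam') * ‖X‖) * ‖v‖ := by
    intro v
    -- X v = X (A v) - X ((A - E) v)
    have hXE : X (E v) = X v := by
      simp only [hX, sub_apply, ContinuousLinearMap.comp_apply, hR.EE]
    have hE'X : ∀ w, E' (X w) = 0 := by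
      intro w
      simp only [hX, sub_apply, ContinuousLinearMap.comp_apply, map_sub,
        hR'.EE, sub_self]
    have h1 : lam • X v = lam' • A' (X v) - ((lam' • A' (U (E v)) - lam • U (A (E v)))
        - E' (lam' • A' (U (E v)) - lam • U (A (E v)))) - lam • X (A v - E v) := by
      have hAX : A' (X v) = A' (U (E v)) - E' (A' (U (E v))) := by
        simp only [hX, sub_apply, ContinuousLinearMap.comp_apply, map_sub,
          hR'.AE]
      have hXA : X (A v) = U (A (E v)) - E' (U (A (E v))) := by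
        simp only [hX, sub_apply, ContinuousLinearMap.comp_apply, hR.AE]
      rw [hAX, map_sub X, hXE, hXA]
      simp only [map_sub, map_smul, smul_sub]
      abel
    have h2 : ‖lam' • A' (X v)‖ ≤ lam' * (e * ‖X v‖) := by
      rw [norm_smul, Real.norm_of_nonneg hlam']
      refine mul_le_mul_of_nonneg_left ?_ hlam'
      have := hR'.norm_AE_sub (X v)
      rwa [hE'X, sub_zero] at this
    have h3 : ‖(lam' • A' (U (E v)) - lam • U (A (E v)))
        - E' (lam' • A' (U (E v)) - lam • U (A (E v)))‖ ≤ tau * ‖v‖ := by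
      refine (hR'.norm_sub_E_le _).trans ?_
      have h4 := (lam' • (A' ∘L U) - lam • (U ∘L A)).le_opNorm (E v)
      simp only [sub_apply, ContinuousLinearMap.comp_apply,
        smul_apply] at h4
      refine h4.trans ?_
      exact mul_le_mul hU (hR.norm_E_le v) (norm_nonneg _) htau
    have h5 : ‖lam • X (A v - E v)‖ ≤ lam * (‖X‖ * (e * ‖v‖)) := by
      rw [norm_smul, Real.norm_of_nonneg hlam.le]
      refine mul_le_mul_of_nonneg_left ?_ hlam.le
      refine (X.le_opNorm _).trans ?_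
      exact mul_le_mul_of_nonneg_left (hR.norm_AE_sub v) (norm_nonneg _)
    have h6 : ‖X v‖ ≤ ‖X‖ * ‖v‖ := X.le_opNorm v
    have h7 : lam * ‖X v‖ ≤ ‖lam' • A' (X v)‖ + ‖(lam' • A' (U (E v)) - lam • U (A (E v)))
        - E' (lam' • A' (U (E v)) - lam • U (A (E v)))‖ + ‖lam • X (A v - E v)‖ := by
      have : ‖lam • X v‖ = lam * ‖X v‖ := by rw [norm_smul, Real.norm_of_nonneg hlam.le]
      rw [← this, h1]
      exact (norm_sub_le _ _).trans (add_le_add_left (norm_sub_le _ _) _)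
    have h8 : lam' * (e * ‖X v‖) ≤ lam' * (e * (‖X‖ * ‖v‖)) :=
      mul_le_mul_of_nonneg_left (mul_le_mul_of_nonneg_left h6 hR.e_nonneg) hlam'
    nlinarith
  have h9 : ‖X‖ ≤ (tau + e * (lam + lam') * ‖X‖) / lam := by
    refine X.opNorm_le_bound ?_ (fun v => ?_)
    · have := hR.e_nonneg
      have := norm_nonneg X
      positivity
    · rw [div_mul_eq_mul_div, le_div_iff₀ hlam]
      linarith [key v]
  rw [le_div_iff₀ hlam] at h9 ⊢
  nlinarith [norm_nonneg X]

/-- transfer of the range of `J ∘ E`. -/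
theorem norm_Z_le {A E : V →L[ℝ] V} {A' E' : V' →L[ℝ] V'} {e : ℝ}
    (hR : Rnd A E e) (he : e ≤ 1 / 2) (U : V →L[ℝ] V') (J : V →L[ℝ] H) (J' : V' →L[ℝ] H)
    {cJ tx t2 : ℝ} (hJ' : ‖J'‖ ≤ cJ)
    (hX : ‖U ∘L E - E' ∘L U ∘L E‖ ≤ tx) (h2 : ‖J' ∘L U - J ∘L A‖ ≤ t2) :
    ‖J ∘L E - plane J' E' ∘L J ∘L E‖ ≤ 2 * (cJ * tx + t2) := by
  set Z : V →L[ℝ] H := J ∘L E - plane J' E' ∘L J ∘L E with hZ
  have hcJ : 0 ≤ cJ := (norm_nonneg _).trans hJ'
  have ht2 : 0 ≤ t2 := (norm_nonneg _).trans h2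
  have htx : 0 ≤ tx := (norm_nonneg _).trans hX
  have key : ∀ v, ‖Z v‖ ≤ (cJ * tx + t2 + e * ‖Z‖) * ‖v‖ := by
    intro v
    have hZE : Z (E v) = Z v := by
      simp only [hZ, sub_apply, ContinuousLinearMap.comp_apply, hR.EE]
    have h3 : Z v = Z (A v) - Z (A v - E v) := by rw [map_sub, hZE]; abel
    set w : H := J' (U (E v) - E' (U (E v))) - (J' (U (E v)) - J (A (E v))) with hw
    have h4 : Z (A v) = w - plane J' E' w := by
      have h5 : w = J (A (E v)) - J' (E' (U (E v))) := by rw [hw, map_sub]; abel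
      have h6 : Z (A v) = J (A (E v)) - plane J' E' (J (A (E v))) := by
        simp only [hZ, sub_apply, ContinuousLinearMap.comp_apply, hR.AE]
      rw [h6, h5, map_sub, plane_JE]
      abel
    have h7 : ‖w‖ ≤ (cJ * tx + t2) * ‖v‖ := by
      have h8 : ‖J' (U (E v) - E' (U (E v)))‖ ≤ cJ * (tx * ‖v‖) := by
        refine (J'.le_opNorm _).trans ?_
        refine mul_le_mul hJ' ?_ (norm_nonneg _) hcJ
        have := (U ∘L E - E' ∘L U ∘L E).le_opNorm v
        simp only [sub_apply, ContinuousLinearMap.comp_apply] at this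
        exact this.trans (mul_le_mul_of_nonneg_right hX (norm_nonneg _))
      have h9 : ‖J' (U (E v)) - J (A (E v))‖ ≤ t2 * ‖v‖ := by
        have := (J' ∘L U - J ∘L A).le_opNorm (E v)
        simp only [sub_apply, ContinuousLinearMap.comp_apply] at this
        exact this.trans (mul_le_mul h2 (hR.norm_E_le v) (norm_nonneg _) ht2)
      rw [hw]
      refine (norm_sub_le _ _).trans ?_
      linarith
    have h10 : ‖Z (A v - E v)‖ ≤ ‖Z‖ * (e * ‖v‖) :=
      (Z.le_opNorm _).trans (mul_le_mul_of_nonneg_left (hR.norm_AE_sub v) (norm_nonneg _))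
    have h11 : ‖Z v‖ ≤ ‖Z (A v)‖ + ‖Z (A v - E v)‖ := by
      conv_lhs => rw [h3]
      exact norm_sub_le _ _
    have h12 : ‖Z (A v)‖ ≤ ‖w‖ := by rw [h4]; exact norm_sub_plane_le _ _ _
    nlinarith
  have h9 : ‖Z‖ ≤ cJ * tx + t2 + e * ‖Z‖ := by
    refine Z.opNorm_le_bound ?_ key
    have := hR.e_nonneg
    have := norm_nonneg Z
    positivity
  nlinarith [norm_nonneg Z]

/-- one-sided closeness of the planes. -/
theorem norm_compl_plane_le {E : V →L[ℝ] V} (hEE : ∀ v, E (E v) = E v)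
    (J : V →L[ℝ] H) (P' : H →L[ℝ] H) {c z : ℝ} (hc : 0 < c)
    (hlow : ∀ v, E v = v → c * ‖v‖ ≤ ‖J v‖)
    (hZ : ‖J ∘L E - P' ∘L J ∘L E‖ ≤ z) (h : H) :
    ‖plane J E h - P' (plane J E h)‖ ≤ z / c * ‖h‖ := by
  have hz : 0 ≤ z := (norm_nonneg _).trans hZ
  have key : ∀ g ∈ planeSub J E, ‖g - P' g‖ ≤ z / c * ‖g‖ := by
    intro g hg
    have hclosed : IsClosed {g : H | ‖g - P' g‖ ≤ z / c * ‖g‖} :=
      isClosed_le (by fun_prop) (by fun_prop)
    have hsub : (LinearMap.range (J ∘L E : V →L[ℝ] H).toLinearMap : Set H) ⊆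
        {g : H | ‖g - P' g‖ ≤ z / c * ‖g‖} := by
      rintro _ ⟨v, rfl⟩
      have h1 := hlow (E v) (hEE v)
      have h2 := (J ∘L E - P' ∘L J ∘L E).le_opNorm (E v)
      simp only [sub_apply, ContinuousLinearMap.comp_apply, hEE] at h2
      show ‖J (E v) - P' (J (E v))‖ ≤ z / c * ‖J (E v)‖
      refine h2.trans ?_
      have h3 : ‖E v‖ ≤ ‖J (E v)‖ / c := by
        rw [le_div_iff₀ hc]; linarith
      calc _ ≤ z * (‖J (E v)‖ / c) := mul_le_mul hZ h3 (norm_nonneg _) hz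
        _ = _ := by ring
    have := closure_minimal hsub hclosed
    exact this hg
  refine (key _ (plane_apply_mem J E h)).trans ?_
  refine mul_le_mul_of_nonneg_left ?_ (by positivity)
  have := (planeSub J E).starProjection_norm_le
  calc ‖plane J E h‖ ≤ ‖(planeSub J E).starProjection‖ * ‖h‖ := ContinuousLinearMap.le_opNorm _ _
    _ ≤ 1 * ‖h‖ := mul_le_mul_of_nonneg_right this (norm_nonneg _)
    _ = ‖h‖ := one_mul _

/-- two-sided closeness of two orthogonal projections. -/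
theorem norm_sub_le_of_compl {P P' : H →L[ℝ] H} (hP : IsSelfAdjoint P) (hP' : IsSelfAdjoint P')
    {a b : ℝ} (ha : 0 ≤ a) (hb : 0 ≤ b)
    (h1 : ∀ h, ‖P h - P' (P h)‖ ≤ a * ‖h‖) (h2 : ∀ h, ‖P' h - P (P' h)‖ ≤ b * ‖h‖) :
    ‖P - P'‖ ≤ a + b := by
  have e1 : ‖P - P' * P‖ ≤ a := ContinuousLinearMap.opNorm_le_bound _ ha (fun h => by
    simpa using h1 h)
  have e2 : ‖P' - P * P'‖ ≤ b := ContinuousLinearMap.opNorm_le_bound _ hb (fun h => by
    simpa using h2 h)
  have e3 : ‖P' - P' * P‖ ≤ b := by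
    have : P' - P' * P = star (P' - P * P') := by
      rw [star_sub, star_mul, hP.star_eq, hP'.star_eq]
    rw [this, ContinuousLinearMap.star_eq_adjoint, LinearIsometryEquiv.norm_map]; exact e2
  calc ‖P - P'‖ = ‖(P - P' * P) - (P' - P' * P)‖ := by congr 1; abel
    _ ≤ _ := (norm_sub_le _ _).trans (add_le_add e1 e3)

theorem plane_isSelfAdjoint (J : V →L[ℝ] H) (E : V →L[ℝ] V) : IsSelfAdjoint (plane J E) := by
  unfold plane
  exact isSelfAdjoint_starProjection _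

theorem plane_idem (J : V →L[ℝ] H) (E : V →L[ℝ] V) : plane J E * plane J E = plane J E := by
  ext h
  show plane J E (plane J E h) = plane J E h
  exact Submodule.starProjection_eq_self_iff.2 (plane_apply_mem J E h)

/-- **(A2)/(A3), abstract.** -/
theorem norm_plane_sub_le {A E : V →L[ℝ] V} {A' E' : V' →L[ℝ] V'} {e : ℝ}
    (hR : Rnd A E e) (hR' : Rnd A' E' e) (he : e ≤ 1 / 2)
    (J : V →L[ℝ] H) (J' : V' →L[ℝ] H) (U : V →L[ℝ] V') (U' : V' →L[ℝ] V)
    {cJ c lam1 lam1' lam2 lam2' tau t2 : ℝ} (hJ : ‖J‖ ≤ cJ) (hJ' : ‖J'‖ ≤ cJ) (hc : 0 < c)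
    (hlow : ∀ v, E v = v → c * ‖v‖ ≤ ‖J v‖) (hlow' : ∀ v, E' v = v → c * ‖v‖ ≤ ‖J' v‖)
    (p1 : 0 < lam1) (p1' : 0 ≤ lam1') (p2 : 0 < lam2) (p2' : 0 ≤ lam2')
    (g1 : e * (lam1 + lam1') ≤ lam1 / 2) (g2 : e * (lam2 + lam2') ≤ lam2 / 2)
    (hU : ‖lam1' • (A' ∘L U) - lam1 • (U ∘L A)‖ ≤ lam1 * tau)
    (hU' : ‖lam2' • (A ∘L U') - lam2 • (U' ∘L A')‖ ≤ lam2 * tau)
    (h2 : ‖J' ∘L U - J ∘L A‖ ≤ t2) (h2' : ‖J ∘L U' - J' ∘L A'‖ ≤ t2) :
    ‖plane J E - plane J' E'‖ ≤ 4 * (2 * cJ * tau + t2) / c := by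
  have hX : ‖U ∘L E - E' ∘L U ∘L E‖ ≤ 2 * tau := by
    refine (norm_offdiag_le hR hR' U p1 p1' g1 hU).trans (le_of_eq ?_)
    field_simp
  have hX' : ‖U' ∘L E' - E ∘L U' ∘L E'‖ ≤ 2 * tau := by
    refine (norm_offdiag_le hR' hR U' p2 p2' g2 hU').trans (le_of_eq ?_)
    field_simp
  have hZ := norm_Z_le hR he U J J' (E' := E') (A' := A') hJ' hX h2
  have hZ' := norm_Z_le hR' he U' J' J (E' := E) (A' := A) hJ hX' h2'
  have hpos : 0 ≤ 2 * (cJ * (2 * tau) + t2) := (norm_nonneg _).trans hZ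
  have := norm_sub_le_of_compl (plane_isSelfAdjoint J E) (plane_isSelfAdjoint J' E')
    (div_nonneg hpos hc.le) (div_nonneg hpos hc.le)
    (norm_compl_plane_le hR.EE J (plane J' E') hc hlow hZ)
    (norm_compl_plane_le hR'.EE J' (plane J E) hc hlow' hZ')
  refine this.trans (le_of_eq ?_)
  ring

end Crest.Agent.R247.Pl2661
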