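import Crest.Agent.R247.Ker2_585
import Crest.Agent.R247.Pl1_661
import Crest.Agent.R247.Pl2_661

/-!
R247 block (2b), helper585: Bessel inequality for kernel operators and the rank theorem
(4b) of doc 1338: an almost idempotent kernel operator with Hilbert-Schmidt norm `≈ √n` has
exactly rank `n`.
-/

set_option autoImplicit false
set_option linter.unusedSectionVars false

noncomputable section

namespace Crest.Agent.R247.Ker585

open MeasureTheory Filter Set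
open scoped ENNReal InnerProductSpace

variable {X Y Z : Type*} [MeasurableSpace X] [MeasurableSpace Y] [MeasurableSpace Z]
  {μ : Measure X} {ν : Measure Y} {lam : Measure Z}

open Classical in
/-- the section `k_y` as an element of `L²(μ)` (zero if it is not square integrable). -/
def kv (μ : Measure X) (k : Y → X → ℝ) (y : Y) : Lp ℝ 2 μ :=
  if h : MemLp (k y) 2 μ then h.toLp _ else 0

theorem kv_eq {k : Y → X → ℝ} {y : Y} (h : MemLp (k y) 2 μ) : kv μ k y = h.toLp _ := by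
  unfold kv; rw [dif_pos h]

theorem norm_toLp_sq {f : X → ℝ} (hf : MemLp f 2 μ) :
    ‖hf.toLp f‖ ^ 2 = (∫⁻ x, ‖f x‖ₑ ^ 2 ∂μ).toReal := by
  rw [Lp.norm_toLp, ← ENNReal.toReal_pow, eLpNorm_two_sq]

theorem norm_sq_eq (f : Lp ℝ 2 μ) : ‖f‖ ^ 2 = (∫⁻ x, ‖f x‖ₑ ^ 2 ∂μ).toReal := by
  rw [Lp.norm_def, ← ENNReal.toReal_pow, eLpNorm_two_sq]

theorem norm_sq_eq_integral (f : Lp ℝ 2 μ) : ‖f‖ ^ 2 = ∫ x, f x ^ 2 ∂μ := by
  rw [← real_inner_self_eq_norm_sq, L2.inner_def]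
  simp [pow_two]

theorem norm_toLp_sq_eq_integral {f : X → ℝ} (hf : MemLp f 2 μ) :
    ‖hf.toLp f‖ ^ 2 = ∫ x, f x ^ 2 ∂μ := by
  rw [norm_sq_eq_integral]
  apply integral_congr_ae
  filter_upwards [hf.coeFn_toLp] with x hx
  rw [hx]

namespace HK
variable [SFinite μ] {k : Y → X → ℝ} (h : HK ν μ k)
include h

theorem inner_kv (f : Lp ℝ 2 μ) : ∀ᵐ y ∂ν, ⟪kv μ k y, f⟫_ℝ = kop h f y := by
  filter_upwards [h.ae_memLp, kop_ae h f] with y hy e
  rw [kv_eq hy, e, L2.inner_def]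
  apply integral_congr_ae
  filter_upwards [hy.coeFn_toLp] with x hx
  rw [hx]
  exact mul_comm _ _

theorem norm_kv_sq : ∀ᵐ y ∂ν, ‖kv μ k y‖ ^ 2 = (∫⁻ x, ‖k y x‖ₑ ^ 2 ∂μ).toReal := by
  filter_upwards [h.ae_memLp] with y hy
  rw [kv_eq hy, norm_toLp_sq hy]

theorem measurable_sq : Measurable fun y => ∫⁻ x, ‖k y x‖ₑ ^ 2 ∂μ := by
  apply Measurable.lintegral_prod_right
  exact (h.meas.enorm.pow_const 2)

theorem integrable_norm_kv_sq : Integrable (fun y => ‖kv μ k y‖ ^ 2) ν := by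
  have : Integrable (fun y => (∫⁻ x, ‖k y x‖ₑ ^ 2 ∂μ).toReal) ν :=
    integrable_toReal_of_lintegral_ne_top h.measurable_sq.aemeasurable h.fin.ne
  exact this.congr (h.norm_kv_sq.mono fun y hy => hy.symm)

theorem integral_norm_kv_sq : ∫ y, ‖kv μ k y‖ ^ 2 ∂ν = (hs2 ν μ k).toReal := by
  rw [integral_congr_ae h.norm_kv_sq]
  rw [integral_toReal h.measurable_sq.aemeasurable (ae_lt_top h.measurable_sq h.fin.ne)]
  rfl

theorem norm_kop_sq (f : Lp ℝ 2 μ) : ‖kop h f‖ ^ 2 = ∫ y, ⟪kv μ k y, f⟫_ℝ ^ 2 ∂ν := by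
  rw [norm_sq_eq_integral]
  apply integral_congr_ae
  filter_upwards [h.inner_kv f] with y hy
  rw [hy]

theorem integrable_inner_sq (f : Lp ℝ 2 μ) : Integrable (fun y => ⟪kv μ k y, f⟫_ℝ ^ 2) ν := by
  have h1 : Integrable (fun y => kop h f y ^ 2) ν := (Lp.memLp (kop h f)).integrable_sq
  exact h1.congr ((h.inner_kv f).mono fun y hy => by simp only; rw [hy])

/-- Bessel inequality for kernel operators. -/
theorem sum_norm_kop_le {ι : Type*} (s : Finset ι) {e : ι → Lp ℝ 2 μ} (he : Orthonormal ℝ e) :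
    ∑ i ∈ s, ‖kop h (e i)‖ ^ 2 ≤ (hs2 ν μ k).toReal := by
  calc ∑ i ∈ s, ‖kop h (e i)‖ ^ 2 = ∫ y, ∑ i ∈ s, ⟪kv μ k y, e i⟫_ℝ ^ 2 ∂ν := by
        rw [integral_finsetSum _ (fun i _ => h.integrable_inner_sq (e i))]
        exact Finset.sum_congr rfl fun i _ => h.norm_kop_sq (e i)
    _ ≤ ∫ y, ‖kv μ k y‖ ^ 2 ∂ν := by
        apply integral_mono (integrable_finsetSum _ fun i _ => h.integrable_inner_sq (e i))
          h.integrable_norm_kv_sq
        intro y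
        have := he.sum_inner_products_le (kv μ k y) (s := s)
        simp only [Real.norm_eq_abs, sq_abs] at this
        refine le_trans (le_of_eq ?_) this
        exact Finset.sum_congr rfl fun i _ => by rw [real_inner_comm]
    _ = _ := h.integral_norm_kv_sq

end HK

/-! ### finite dimensionality from orthonormal families -/

theorem finrank_le_of_orthonormal {V : Type*} [NormedAddCommGroup V] [InnerProductSpace ℝ V]
    (S : Submodule ℝ V) (n : ℕ)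
    (h : ∀ (m : ℕ) (e : Fin m → V), Orthonormal ℝ e → (∀ i, e i ∈ S) → m ≤ n) :
    FiniteDimensional ℝ S ∧ Module.finrank ℝ S ≤ n := by
  have hr : Module.rank ℝ S ≤ n := by
    by_contra hc
    push Not at hc
    have h1 : ((n + 1 : ℕ) : Cardinal) ≤ Module.rank ℝ S := by
      have := Order.succ_le_of_lt hc
      rw [Cardinal.succ_natCast] at this
      exact_mod_cast this
    obtain ⟨f, hf⟩ := (Module.le_rank_iff (R := ℝ) (M := S)).1 h1
    have ho := InnerProductSpace.gramSchmidtNormed_orthonormal hf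
    have hc' : Orthonormal ℝ (S.subtypeₗᵢ ∘ (InnerProductSpace.gramSchmidtNormed ℝ f)) :=
      ho.comp_linearIsometry S.subtypeₗᵢ
    have := h (n + 1) _ hc' (fun i => Subtype.coe_prop _)
    omega
  have hf : FiniteDimensional ℝ S := by
    apply Module.rank_lt_aleph0_iff.1
    exact hr.trans_lt (Cardinal.natCast_lt_aleph0)
  refine ⟨hf, ?_⟩
  exact Module.finrank_le_of_rank_le hr

/-! ### the rank theorem -/

/-- kernel of `K² - Λ K`. -/
def gk (μ : Measure X) (K : X → X → ℝ) (Λ : ℝ) : X → X → ℝ :=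
  fun w z => kcomp μ K K w z - Λ * K w z

section rank
variable [SFinite μ] {K : X → X → ℝ} {Λ : ℝ}

theorem HK.gk (h : HK μ μ K) (Λ : ℝ) : HK μ μ (gk μ K Λ) :=
  (h.comp h).sub (h.const_mul Λ)

theorem kop_gk (h : HK μ μ K) (Λ : ℝ) : kop (h.gk Λ) = kop h ∘L kop h - Λ • kop h := by
  have e := kop_sub (h.comp h) (h.const_mul Λ)
  rw [kop_const_mul, ← kop_comp] at e
  exact e

theorem ae_defect (h : HK μ μ K) (hs : ∀ x y, K x y = K y x) (Λ : ℝ) :
    ∀ᵐ w ∂μ, kop h (kv μ K w) - Λ • kv μ K w = kv μ (Ker585.gk μ K Λ) w := by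
  filter_upwards [h.ae_memLp, (h.gk Λ).ae_memLp] with w h1 h2
  rw [kv_eq h1, kv_eq h2]
  apply Lp.ext
  refine (Lp.coeFn_sub _ _).trans (EventuallyEq.trans ?_ h2.coeFn_toLp.symm)
  filter_upwards [kop_toLp h h1, h1.coeFn_toLp, Lp.coeFn_smul Λ (h1.toLp (K w))] with z e1 e2 e3
  rw [Pi.sub_apply, e1, e3, Pi.smul_apply, e2, smul_eq_mul]
  unfold Ker585.gk kcomp
  congr 1
  apply integral_congr_ae
  refine Eventually.of_forall fun u => ?_
  simp only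
  rw [hs z u, mul_comm]

theorem integral_defect (h : HK μ μ K) (hs : ∀ x y, K x y = K y x) (Λ : ℝ) :
    Integrable (fun w => ‖kop h (kv μ K w) - Λ • kv μ K w‖ ^ 2) μ ∧
      ∫ w, ‖kop h (kv μ K w) - Λ • kv μ K w‖ ^ 2 ∂μ = (hs2 μ μ (Ker585.gk μ K Λ)).toReal := by
  have e : (fun w => ‖kop h (kv μ K w) - Λ • kv μ K w‖ ^ 2)
      =ᵐ[μ] fun w => ‖kv μ (Ker585.gk μ K Λ) w‖ ^ 2 := by
    filter_upwards [ae_defect h hs Λ] with w hw
    rw [hw]
  refine ⟨(h.gk Λ).integrable_norm_kv_sq.congr e.symm, ?_⟩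
  rw [integral_congr_ae e, (h.gk Λ).integral_norm_kv_sq]

end rank

section proj
open Crest.Agent.R247.Pl2661

variable {V : Type*} [NormedAddCommGroup V] [InnerProductSpace ℝ V] [CompleteSpace V]
  {A E : V →L[ℝ] V} {e : ℝ}

theorem pythag (h : Rnd A E e) (v : V) : ‖v‖ ^ 2 = ‖E v‖ ^ 2 + ‖v - E v‖ ^ 2 := by
  have h0 : ⟪E v, v - E v⟫_ℝ = 0 := by
    rw [h.inner_E, map_sub, h.EE, sub_self, inner_zero_right]
  have := norm_add_sq_real (E v) (v - E v)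
  rw [h0] at this
  simp only [add_sub_cancel] at this
  linarith

theorem norm_E_sq_eq (h : Rnd A E e) {m : ℕ}
    (b : OrthonormalBasis (Fin m) ℝ (LinearMap.range E.toLinearMap)) (v : V) :
    ‖E v‖ ^ 2 = ∑ i, ⟪v, (b i : V)⟫_ℝ ^ 2 := by
  have hm : E v ∈ LinearMap.range E.toLinearMap := ⟨v, rfl⟩
  have h1 := b.sum_sq_norm_inner_right ⟨E v, hm⟩
  have h2 : ‖(⟨E v, hm⟩ : LinearMap.range E.toLinearMap)‖ = ‖E v‖ := rfl
  rw [h2] at h1
  rw [← h1]
  apply Finset.sum_congr rfl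
  intro i _
  rw [Real.norm_eq_abs, sq_abs]
  congr 1
  have h3 : ⟪b i, (⟨E v, hm⟩ : LinearMap.range E.toLinearMap)⟫_ℝ = ⟪(b i : V), E v⟫_ℝ := rfl
  rw [h3]
  have h4 : E (b i : V) = b i := by
    obtain ⟨u, hu⟩ := (b i).2
    have hu' : E u = (b i : V) := hu
    rw [← hu', h.EE]
  rw [← h.inner_E, h4, real_inner_comm]

theorem orthonormal_range {m : ℕ}
    (b : OrthonormalBasis (Fin m) ℝ (LinearMap.range E.toLinearMap)) :
    Orthonormal ℝ (fun i => (b i : V)) :=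
  b.orthonormal.comp_linearIsometry (LinearMap.range E.toLinearMap).subtypeₗᵢ

theorem E_mem (h : Rnd A E e) {v : V} (hv : v ∈ LinearMap.range E.toLinearMap) : E v = v := by
  obtain ⟨u, hu⟩ := hv
  have hu' : E u = v := hu
  rw [← hu', h.EE]

theorem norm_A_mem (h : Rnd A E e) {v : V} (hv : E v = v) :
    (1 - e) * ‖v‖ ≤ ‖A v‖ ∧ ‖A v‖ ≤ (1 + e) * ‖v‖ := by
  have h1 := h.norm_AE_sub v
  rw [hv] at h1
  have h2 : ‖v‖ ≤ ‖A v‖ + ‖A v - v‖ := by
    calc ‖v‖ = ‖A v - (A v - v)‖ := by congr 1; abel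
      _ ≤ _ := norm_sub_le _ _
  have h3 : ‖A v‖ ≤ ‖v‖ + ‖A v - v‖ := by
    calc ‖A v‖ = ‖v + (A v - v)‖ := by congr 1; abel
      _ ≤ _ := norm_add_le _ _
  constructor <;> linarith

end proj

section main
open Crest.Agent.R247.Pl2661

variable [SFinite μ] {K : X → X → ℝ} {Λ : ℝ}

/-- **Rank theorem** (4b). -/
theorem rank_eq (h : HK μ μ K) (hs : ∀ x y, K x y = K y x) (hΛ : 0 < Λ)
    {E : Lp ℝ 2 μ →L[ℝ] Lp ℝ 2 μ} {e ε : ℝ} (hR : Rnd (Λ⁻¹ • kop h) E e) (n : ℕ)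
    (he : e ≤ 1 / (40 * (n + 1))) (hε0 : 0 ≤ ε) (hε : ε ≤ 1 / 8)
    (g1 : (hs2 μ μ (Ker585.gk μ K Λ)).toReal ≤ (ε * Λ ^ 2) ^ 2)
    (g2 : |(hs2 μ μ K).toReal - n * Λ ^ 2| ≤ 1 / 2 * Λ ^ 2) :
    FiniteDimensional ℝ (LinearMap.range E.toLinearMap) ∧
      Module.finrank ℝ (LinearMap.range E.toLinearMap) = n := by
  have he0 := hR.e_nonneg
  have hn0 : (0 : ℝ) ≤ n := Nat.cast_nonneg n
  have he1 : e * (40 * (n + 1)) ≤ 1 := by
    rwa [le_div_iff₀ (by positivity)] at he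
  have he2 : e ≤ 1 / 40 := by nlinarith
  obtain ⟨g2a, g2b⟩ := abs_le.1 g2
  have hA : ∀ v, kop h v = Λ • (Λ⁻¹ • kop h) v := by
    intro v
    rw [smul_apply, smul_smul, mul_inv_cancel₀ hΛ.ne', one_smul]
  have hnorm : ∀ v, ‖kop h v‖ = Λ * ‖(Λ⁻¹ • kop h) v‖ := by
    intro v
    rw [hA v, norm_smul, Real.norm_of_nonneg hΛ.le]
  have hub := finrank_le_of_orthonormal (LinearMap.range E.toLinearMap) n (by
    intro m v hv hmem
    by_contra hc
    push Not at hc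
    have h1 := h.sum_norm_kop_le Finset.univ hv
    have h2 : ∀ i, (Λ * (1 - e)) ^ 2 ≤ ‖kop h (v i)‖ ^ 2 := by
      intro i
      have h3 := (norm_A_mem hR (E_mem hR (hmem i))).1
      rw [hv.1 i, mul_one] at h3
      rw [hnorm]
      have h4 : 0 ≤ Λ * (1 - e) := mul_nonneg hΛ.le (by linarith)
      gcongr
    have h3 : (m : ℝ) * (Λ * (1 - e)) ^ 2 ≤ (hs2 μ μ K).toReal := by
      refine le_trans ?_ h1
      calc (m : ℝ) * (Λ * (1 - e)) ^ 2 = ∑ _i : Fin m, (Λ * (1 - e)) ^ 2 := by simp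
        _ ≤ _ := Finset.sum_le_sum fun i _ => h2 i
    have h4 : (n : ℝ) + 1 ≤ m := by exact_mod_cast hc
    have h5 : ((n : ℝ) + 1) * (1 - e) ^ 2 ≤ n + 1 / 2 := by
      have h6 : ((n : ℝ) + 1) * (Λ * (1 - e)) ^ 2 ≤ (n + 1 / 2) * Λ ^ 2 := by
        calc ((n : ℝ) + 1) * (Λ * (1 - e)) ^ 2 ≤ m * (Λ * (1 - e)) ^ 2 := by gcongr
          _ ≤ _ := h3
          _ ≤ (n + 1 / 2) * Λ ^ 2 := by linarith
      have h7 : ((n : ℝ) + 1) * (1 - e) ^ 2 * Λ ^ 2 ≤ (n + 1 / 2) * Λ ^ 2 := by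
        calc _ = ((n : ℝ) + 1) * (Λ * (1 - e)) ^ 2 := by ring
          _ ≤ _ := h6
      exact le_of_mul_le_mul_right h7 (by positivity)
    nlinarith)
  obtain ⟨hfin, hle⟩ := hub
  refine ⟨hfin, le_antisymm hle ?_⟩
  by_contra hc
  push Not at hc
  set m := Module.finrank ℝ (LinearMap.range E.toLinearMap) with hm
  let b := stdOrthonormalBasis ℝ (LinearMap.range E.toLinearMap)
  have hid := integral_defect h hs Λ
  have h1 : ∀ w, ‖kv μ K w‖ ^ 2 ≤ (∑ i, ⟪kv μ K w, (b i : Lp ℝ 2 μ)⟫_ℝ ^ 2)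
      + 4 * (Λ⁻¹ ^ 2 * ‖kop h (kv μ K w) - Λ • kv μ K w‖ ^ 2) := by
    intro w
    rw [pythag hR, norm_E_sq_eq hR b]
    have h2 := hR.norm_compl_le (by linarith) (kv μ K w)
    have h3 : (Λ⁻¹ • kop h) (kv μ K w) - kv μ K w
        = Λ⁻¹ • (kop h (kv μ K w) - Λ • kv μ K w) := by
      rw [smul_sub, smul_smul, inv_mul_cancel₀ hΛ.ne', one_smul, smul_apply]
    rw [h3, norm_smul, Real.norm_of_nonneg (by positivity)] at h2
    have h4 := pow_le_pow_left₀ (norm_nonneg _) h2 2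
    have h5 : (2 * (Λ⁻¹ * ‖kop h (kv μ K w) - Λ • kv μ K w‖)) ^ 2
        = 4 * (Λ⁻¹ ^ 2 * ‖kop h (kv μ K w) - Λ • kv μ K w‖ ^ 2) := by ring
    rw [h5] at h4
    linarith
  have h2 : (hs2 μ μ K).toReal ≤ m * (Λ * (1 + e)) ^ 2 + 4 * (Λ⁻¹ ^ 2 * (ε * Λ ^ 2) ^ 2) := by
    calc (hs2 μ μ K).toReal = ∫ w, ‖kv μ K w‖ ^ 2 ∂μ := h.integral_norm_kv_sq.symm
      _ ≤ ∫ w, ((∑ i, ⟪kv μ K w, (b i : Lp ℝ 2 μ)⟫_ℝ ^ 2)
          + 4 * (Λ⁻¹ ^ 2 * ‖kop h (kv μ K w) - Λ • kv μ K w‖ ^ 2)) ∂μ := by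
          apply integral_mono h.integrable_norm_kv_sq _ h1
          exact (integrable_finsetSum _ fun i _ => h.integrable_inner_sq _).add
            ((hid.1.const_mul _).const_mul _)
      _ = (∑ i, ‖kop h (b i : Lp ℝ 2 μ)‖ ^ 2)
          + 4 * (Λ⁻¹ ^ 2 * (hs2 μ μ (Ker585.gk μ K Λ)).toReal) := by
          rw [integral_add (integrable_finsetSum _ fun i _ => h.integrable_inner_sq _)
            ((hid.1.const_mul _).const_mul _),
            integral_finsetSum _ (fun i _ => h.integrable_inner_sq _),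
            integral_const_mul, integral_const_mul, hid.2]
          congr 1
          exact Finset.sum_congr rfl fun i _ => (h.norm_kop_sq _).symm
      _ ≤ _ := by
          apply add_le_add
          · calc ∑ i, ‖kop h (b i : Lp ℝ 2 μ)‖ ^ 2
                ≤ ∑ _i : Fin m, (Λ * (1 + e)) ^ 2 := by
                  apply Finset.sum_le_sum
                  intro i _
                  have h3 := (norm_A_mem hR (E_mem hR (b i).2)).2
                  have h4 : ‖(b i : Lp ℝ 2 μ)‖ = 1 := (orthonormal_range b).1 i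
                  rw [h4, mul_one] at h3
                  rw [hnorm]
                  gcongr
              _ = _ := by simp
          · gcongr
  have h3 : (m : ℝ) + 1 ≤ n := by exact_mod_cast hc
  have h4 : ((n : ℝ) - 1 / 2) * Λ ^ 2 ≤ (m * (1 + e) ^ 2 + 4 * ε ^ 2) * Λ ^ 2 := by
    calc ((n : ℝ) - 1 / 2) * Λ ^ 2 ≤ (hs2 μ μ K).toReal := by linarith
      _ ≤ _ := h2
      _ = _ := by field_simp
  have h5 : (n : ℝ) - 1 / 2 ≤ m * (1 + e) ^ 2 + 4 * ε ^ 2 :=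
    le_of_mul_le_mul_right h4 (by positivity)
  have h6 : ε ^ 2 ≤ 1 / 64 := by nlinarith
  have hm0 : (0 : ℝ) ≤ m := Nat.cast_nonneg m
  have h7 : (m : ℝ) * (1 + e) ^ 2 ≤ m + 1 / 4 := by
    have : (m : ℝ) * (2 * e + e ^ 2) ≤ 1 / 4 := by
      have h8 : 2 * e + e ^ 2 ≤ 3 * e := by nlinarith
      have h9 : (m : ℝ) * (3 * e) ≤ (n + 1) * (3 * e) := by
        apply mul_le_mul_of_nonneg_right _ (by positivity)
        linarith
      nlinarith
    nlinarith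
  linarith

/-- **Rounding + rank** (4a)+(4b). -/
theorem exists_round (h : HK μ μ K) (hs : ∀ x y, K x y = K y x) (hΛ : 0 < Λ) (n : ℕ) {ε : ℝ}
    (hε0 : 0 ≤ ε) (hε : ε ≤ 1 / (100 * (n + 1)))
    (g1 : hs2 μ μ (Ker585.gk μ K Λ) ≤ ENNReal.ofReal ((ε * Λ ^ 2) ^ 2))
    (g2 : |(hs2 μ μ K).toReal - n * Λ ^ 2| ≤ 1 / 2 * Λ ^ 2) :
    ∃ E : Lp ℝ 2 μ →L[ℝ] Lp ℝ 2 μ, Rnd (Λ⁻¹ • kop h) E (5 / 2 * ε) ∧
      FiniteDimensional ℝ (LinearMap.range E.toLinearMap) ∧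
      Module.finrank ℝ (LinearMap.range E.toLinearMap) = n := by
  have hn0 : (0 : ℝ) ≤ n := Nat.cast_nonneg n
  have hε1 : ε * (100 * (n + 1)) ≤ 1 := by
    rwa [le_div_iff₀ (by positivity)] at hε
  have hε2 : ε ≤ 1 / 100 := by nlinarith
  set A := Λ⁻¹ • kop h with hA
  have hsa : IsSelfAdjoint A :=
    (IsSelfAdjoint.all (Λ⁻¹ : ℝ)).smul (isSelfAdjoint_kop h hs)
  have hq : ‖A * A - A‖ ≤ ε := by
    have e1 : A * A - A = (Λ⁻¹ ^ 2 : ℝ) • kop (h.gk Λ) := by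
      rw [kop_gk, hA]
      ext1 v
      show Λ⁻¹ • kop h (Λ⁻¹ • kop h v) - Λ⁻¹ • kop h v
        = (Λ⁻¹ ^ 2 : ℝ) • (kop h (kop h v) - Λ • kop h v)
      rw [map_smul, smul_smul, smul_sub, smul_smul]
      congr 1
      · rw [pow_two]
      · congr 1
        field_simp
    rw [e1, norm_smul, Real.norm_of_nonneg (by positivity)]
    have := norm_kop_le' (h.gk Λ) (B := ε * Λ ^ 2) (by positivity) g1
    calc Λ⁻¹ ^ 2 * ‖kop (h.gk Λ)‖ ≤ Λ⁻¹ ^ 2 * (ε * Λ ^ 2) := by gcongr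
      _ = ε := by field_simp
  obtain ⟨E, hE1, hE2, hE3, hE4⟩ := Crest.Agent.R247.Pl1661.purify hsa hq (by linarith)
  have hR : Rnd A E (5 / 2 * ε) := ⟨hE1, hE2, hE3 A (Commute.refl A), hE4⟩
  refine ⟨E, hR, ?_⟩
  apply rank_eq h hs hΛ hR n _ hε0 (by linarith) _ g2
  · rw [le_div_iff₀ (by positivity)]
    nlinarith
  · exact ENNReal.toReal_le_of_le_ofReal (by positivity) g1

end main

end Crest.Agent.R247.Ker585
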