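import Crest.Agent.R247.Gap1_79
import Crest.Agent.R247.Cal_550
import Crest.Agent.R247.Ker3_585

/-!
R247 block (2b), helper79: kernel gap inequalities over 688's `Rad`, at scale `r`.

`fr r a u = dist a u ^ 2 / 2 / r ^ 2`, `Gr' Γ r a b u = Γ a b u / r ^ 2` where `Γ a b` is the radial
derivative of `dist b · ^ 2 / 2` with respect to the centre `a`.
-/

set_option autoImplicit false
set_option linter.unusedSectionVars false

noncomputable section

namespace Crest.Agent.R247.Gap79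

open MeasureTheory Set Filter Topology Metric
open scoped ENNReal NNReal
open Crest.Agent.R247.Mcp688 Crest.Agent.R247.Cal550 Crest.Agent.R247.Ker585

variable {n : ℕ} {κ : ℝ} {X : Type*} [MetricSpace X] [MeasurableSpace X] [BorelSpace X]
  {μ : Measure X}

/-- the cut off functions of BP (2b) -/
structure Cut (φ η : ℝ → ℝ) (cη : ℝ) : Prop where
  der : ∀ s, HasDerivAt φ (-η s) s
  φ0 : ∀ s, 2 ≤ s → φ s = 0
  η0 : ∀ s, 2 ≤ s → η s = 0
  φ1 : ∀ s, |φ s| ≤ 1
  ηn : ∀ s, 0 ≤ η s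
  η1 : ∀ s, η s ≤ cη
  mη : Measurable η

namespace Cut
variable {φ η : ℝ → ℝ} {cη : ℝ} (c : Cut φ η cη)
include c

theorem mφ : Measurable φ :=
  (continuous_iff_continuousAt.2 fun s => (c.der s).continuousAt).measurable

theorem c0 : 0 ≤ cη := (c.ηn 0).trans (c.η1 0)

theorem absη (s : ℝ) : |η s| ≤ cη := by rw [abs_of_nonneg (c.ηn s)]; exact c.η1 s

end Cut

section RDcalc
variable {C : Rad n κ X μ} {a : X}

theorem RD_const (c : ℝ) : RD C a (fun _ => c) (fun _ => 0) :=
  Eventually.of_forall fun _ => hasDerivWithinAt_const _ _ _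

/-- chain rule for radial derivatives -/
theorem RD_comp {q D : X → ℝ} {g g' : ℝ → ℝ} (h : RD C a q D)
    (hg : ∀ s, HasDerivAt g (g' s) s) : RD C a (fun z => g (q z)) (fun z => g' (q z) * D z) := by
  filter_upwards [h, C.ae_U a] with z hz hU
  have h1 : HasDerivAt g (g' (q z)) (q (C.T a 1 z)) := by
    rw [C.T_one a z hU]; exact hg _
  exact h1.comp_hasDerivWithinAt 1 hz

theorem RD_self : RD C a (fun z => dist a z ^ 2 / 2) (fun z => dist a z ^ 2) := by
  have h := RD.radial (C := C) (x := a) (η := fun s => s ^ 2 / 2) (η' := fun s => s)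
    (Eventually.of_forall fun z _ => by
      apply HasDerivAt.hasDerivWithinAt
      have := (hasDerivAt_pow 2 (dist a z)).div_const 2
      refine this.congr_deriv ?_
      push_cast; ring)
  refine h.congr (Eventually.of_forall fun z => ?_)
  simp only; ring

end RDcalc

/-- scaled half squared distance -/
def fr (r : ℝ) (a u : X) : ℝ := dist a u ^ 2 / 2 / r ^ 2

/-- a family of radial derivatives of half squared distances, symmetric a.e. -/
structure Gam (C : Rad n κ X μ) (Γ : X → X → X → ℝ) : Prop where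
  rd : ∀ a b, RD C a (fun u => dist b u ^ 2 / 2) (Γ a b)
  symm : ∀ a b, Γ a b =ᵐ[μ] Γ b a

/-- existence of such a family from the symmetry property -/
theorem exists_gam (C : Rad n κ X μ)
    (sym : ∀ a b : X, ∃ Γ : X → ℝ, Measurable Γ ∧
      RD C a (fun z => dist b z ^ 2 / 2) Γ ∧ RD C b (fun z => dist a z ^ 2 / 2) Γ) :
    ∃ Γ : X → X → X → ℝ, Gam C Γ ∧ ∀ a b, Measurable (Γ a b) := by
  choose Γ h1 h2 h3 using sym
  exact ⟨Γ, ⟨h2, fun a b => (h2 a b).unique (h3 b a)⟩, h1⟩

section inst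
variable {C : Rad n κ X μ} {Γ : X → X → X → ℝ} (g : Gam C Γ) {φ η : ℝ → ℝ} {cη : ℝ}
  (c : Cut φ η cη) {r : ℝ} (hr : 0 < r) (x : X)

/-- scaled derivatives -/
def Gs (Γ : X → X → X → ℝ) (r : ℝ) (a b u : X) : ℝ := Γ a b u / r ^ 2

theorem continuous_fr (r : ℝ) (a : X) : Continuous (fr r a) := by
  unfold fr; fun_prop

theorem fr_symm (r : ℝ) (a b : X) : fr r a b = fr r b a := by
  unfold fr; rw [dist_comm]

theorem fr_self (r : ℝ) (a : X) : fr r a a = 0 := by
  unfold fr; simp

theorem measurable_fr_pair [SecondCountableTopology X] (r : ℝ) :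
    Measurable (fun p : X × X => fr r p.1 p.2) := by
  have : Continuous (fun p : X × X => fr r p.1 p.2) := by unfold fr; fun_prop
  exact this.measurable

theorem fr_le {r : ℝ} (hr : 0 < r) {a u : X} {R : ℝ} (h : dist a u ≤ R * r) :
    fr r a u ≤ R ^ 2 / 2 := by
  unfold fr
  rw [div_le_iff₀ (by positivity)]
  have : dist a u ^ 2 ≤ (R * r) ^ 2 := by gcongr
  nlinarith

theorem fr_nonneg (r : ℝ) (a u : X) : 0 ≤ fr r a u := by unfold fr; positivity

theorem two_le_fr {r : ℝ} (hr : 0 < r) {u : X} (h : u ∉ closedBall x (2 * r)) :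
    2 ≤ fr r x u := by
  rw [mem_closedBall, not_le, dist_comm] at h
  unfold fr
  rw [le_div_iff₀ (by positivity), le_div_iff₀ (by norm_num)]
  have : (2 * r) ^ 2 ≤ dist x u ^ 2 := by gcongr
  nlinarith

/-- scaled radial derivative of `fr` -/
theorem Gam.rds (g : Gam C Γ) (r : ℝ) (a b : X) : RD C a (fr r b) (Gs Γ r a b) := by
  filter_upwards [g.rd a b] with z hz using hz.div_const _

theorem dist_le_of_mem {r : ℝ} {x a u : X} (ha : a ∈ closedBall x (2 * r))
    (hu : u ∈ closedBall x (2 * r)) : dist a u ≤ 4 * r := by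
  rw [mem_closedBall] at ha hu
  have := dist_triangle_right a u x
  linarith

include g c hr in
/-- the data of `Gap1` over `Rad` -/
theorem dat (hfin : μ (closedBall x (2 * r)) ≠ ∞) :
    Dat μ (fr r) (Gs Γ r) φ η (closedBall x (2 * r)) 32 cη x where
  symm := fr_symm r
  self := fr_self r
  Gsymm := fun a b => by
    filter_upwards [g.symm a b] with u hu
    unfold Gs; rw [hu]
  Gself := fun a => by
    filter_upwards [(g.rd a a).unique RD_self] with u hu
    unfold Gs fr; rw [hu]; ring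
  mB := isClosed_closedBall.measurableSet
  fin := hfin
  xB := mem_closedBall_self (by positivity)
  mf := fun a => (continuous_fr r a).measurable.aestronglyMeasurable
  mG := fun a b =>
    ((g.rds r a b).aemeasurable (continuous_fr r b).measurable).aestronglyMeasurable
  mφ := c.mφ
  mη := c.mη
  F0 := by norm_num
  fF := fun a ha u hu => by
    rw [abs_of_nonneg (fr_nonneg r a u)]
    have := fr_le (R := 4) hr (dist_le_of_mem ha hu)
    linarith
  GF := fun a ha b hb => by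
    have h1 : ∀ y z : X, dist a y ≤ 4 * r → dist a z ≤ 4 * r →
        |dist b y ^ 2 / 2 - dist b z ^ 2 / 2| ≤ (8 * r) * dist y z := by
      intro y z hy hz
      have hab : dist b a ≤ 4 * r := dist_le_of_mem hb ha
      have h2 : dist b y ≤ 8 * r := (dist_triangle b a y).trans (by linarith)
      have h3 : dist b z ≤ 8 * r := (dist_triangle b a z).trans (by linarith)
      have h4 : |dist b y - dist b z| ≤ dist y z := by
        rw [dist_comm b y, dist_comm b z]; exact abs_dist_sub_le y z b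
      have e : dist b y ^ 2 / 2 - dist b z ^ 2 / 2
          = ((dist b y + dist b z) / 2) * (dist b y - dist b z) := by ring
      rw [e, abs_mul, abs_of_nonneg (by positivity)]
      have h5 : (dist b y + dist b z) / 2 ≤ 8 * r := by linarith
      exact mul_le_mul h5 h4 (abs_nonneg _) (by positivity)
    have h2 := (g.rd a b).abs_le_local h1
    filter_upwards [ae_restrict_of_ae h2, ae_restrict_mem isClosed_closedBall.measurableSet]
      with u hu huB
    have h3 := hu (dist_le_of_mem ha huB)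
    have h4 := dist_le_of_mem ha huB
    unfold Gs
    rw [abs_div, abs_of_nonneg (by positivity : (0 : ℝ) ≤ r ^ 2), div_le_iff₀ (by positivity)]
    calc |Γ a b u| ≤ 8 * r * dist a u := h3
      _ ≤ 8 * r * (4 * r) := by gcongr
      _ = _ := by ring
  φ0 := fun u hu => c.φ0 _ (two_le_fr x hr hu)
  η0 := fun u hu => c.η0 _ (two_le_fr x hr hu)
  φ1 := c.φ1
  η1 := c.absη

include g in
/-- radial derivative of `φ(f_x)` in the direction of `a` -/
theorem rd_phi (c : Cut φ η cη) (a : X) :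
    RD C a (fun u => φ (fr r x u)) (fun u => -η (fr r x u) * Gs Γ r a x u) :=
  RD_comp (g.rds r a x) c.der

include g in
/-- radial derivative of `ζ = K_x(w,·) φ(f_x)` in the direction of `a` -/
theorem rd_zeta (c : Cut φ η cη) (w a : X) :
    RD C a (fun u => K (fr r) x w u * φ (fr r x u)) (Dz (fr r) (Gs Γ r) φ η x w a) := by
  have h1 : RD C a (fun u => K (fr r) x w u) (fun u => 0 + Gs Γ r a x u - Gs Γ r a w u) :=
    ((RD_const (fr r x w)).add (g.rds r a x)).sub (g.rds r a w)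
  refine (h1.mul (rd_phi g x c a)).congr (Eventually.of_forall fun u => ?_)
  unfold Dz
  ring

/-- `φ(f_x)` is Lipschitz -/
theorem lip_phi (c : Cut φ η cη) (hr : 0 < r) (y z : X) :
    |φ (fr r x y) - φ (fr r x z)| ≤ (2 * cη / r) * dist y z := by
  have h1 : ∀ s : ℝ, HasDerivAt (fun s => φ (s ^ 2 / 2 / r ^ 2))
      (-η (s ^ 2 / 2 / r ^ 2) * (s / r ^ 2)) s := by
    intro s
    have h2 : HasDerivAt (fun s : ℝ => s ^ 2 / 2 / r ^ 2) (s / r ^ 2) s := by
      have := ((hasDerivAt_pow 2 s).div_const 2).div_const (r ^ 2)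
      refine this.congr_deriv ?_
      push_cast; ring
    exact (c.der _).comp s h2
  have h3 : ∀ s : ℝ, ‖deriv (fun s => φ (s ^ 2 / 2 / r ^ 2)) s‖ ≤ 2 * cη / r := by
    intro s
    rw [(h1 s).deriv, Real.norm_eq_abs, abs_mul, abs_neg]
    by_cases hs : |s| ≤ 2 * r
    · rw [abs_div, abs_of_nonneg (by positivity : (0 : ℝ) ≤ r ^ 2)]
      calc |η (s ^ 2 / 2 / r ^ 2)| * (|s| / r ^ 2) ≤ cη * (2 * r / r ^ 2) := by
            have := c.c0
            have := c.absη (s ^ 2 / 2 / r ^ 2)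
            gcongr
        _ = _ := by field_simp
    · push Not at hs
      have : η (s ^ 2 / 2 / r ^ 2) = 0 := by
        apply c.η0
        rw [le_div_iff₀ (by positivity), le_div_iff₀ (by norm_num), ← sq_abs s]
        have : (2 * r) ^ 2 ≤ |s| ^ 2 := by gcongr
        nlinarith
      rw [this, abs_zero, zero_mul]
      have := c.c0
      positivity
  have h4 := Convex.norm_image_sub_le_of_norm_deriv_le (f := fun s => φ (s ^ 2 / 2 / r ^ 2))
    (s := univ) (x := dist x z) (y := dist x y) (fun s _ => (h1 s).differentiableAt)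
    (fun s _ => h3 s) convex_univ (mem_univ _) (mem_univ _)
  rw [Real.norm_eq_abs, Real.norm_eq_abs] at h4
  refine h4.trans ?_
  have := c.c0
  gcongr
  rw [dist_comm x y, dist_comm x z]
  exact abs_dist_sub_le y z x

theorem lip_fr {r : ℝ} (hr : 0 < r) {x a y z : X} (ha : a ∈ closedBall x (2 * r))
    (hy : y ∈ closedBall x (2 * r)) (hz : z ∈ closedBall x (2 * r)) :
    |fr r a y - fr r a z| ≤ 4 / r * dist y z := by
  have h2 := dist_le_of_mem ha hy
  have h3 := dist_le_of_mem ha hz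
  have h4 : |dist a y - dist a z| ≤ dist y z := by
    rw [dist_comm a y, dist_comm a z]; exact abs_dist_sub_le y z a
  have e : fr r a y - fr r a z
      = ((dist a y + dist a z) / 2 / r ^ 2) * (dist a y - dist a z) := by
    unfold fr; ring
  rw [e, abs_mul, abs_of_nonneg (by positivity)]
  have h5 : (dist a y + dist a z) / 2 / r ^ 2 ≤ 4 / r := by
    rw [div_le_iff₀ (by positivity)]
    have : 4 / r * r ^ 2 = 4 * r := by field_simp
    rw [this]; linarith
  exact mul_le_mul h5 h4 (abs_nonneg _) (by positivity)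

theorem lip_zeta (c : Cut φ η cη) {r : ℝ} (hr : 0 < r) {x w : X}
    (hw : w ∈ closedBall x (2 * r))
    (hK : ∀ u ∈ closedBall x (2 * r), |K (fr r) x w u| ≤ 96) (y z : X) :
    |K (fr r) x w y * φ (fr r x y) - K (fr r) x w z * φ (fr r x z)|
      ≤ (96 * (2 * cη / r) + 8 / r) * dist y z := by
  have hx : x ∈ closedBall x (2 * r) := mem_closedBall_self (by positivity)
  have hc := c.c0
  have hp := lip_phi x c hr y z
  have h8 : 0 ≤ 8 / r * dist y z := by positivity
  have h9 : 0 ≤ 96 * (2 * cη / r) * dist y z := by positivity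
  by_cases hy : y ∈ closedBall x (2 * r)
  · by_cases hz : z ∈ closedBall x (2 * r)
    · have hKK : |K (fr r) x w y - K (fr r) x w z| ≤ 8 / r * dist y z := by
        have e : K (fr r) x w y - K (fr r) x w z
            = (fr r x y - fr r x z) - (fr r w y - fr r w z) := by unfold K; ring
        rw [e]
        refine (abs_sub _ _).trans ((add_le_add (lip_fr hr hx hy hz) (lip_fr hr hw hy hz)).trans
          (le_of_eq ?_))
        ring
      have e : K (fr r) x w y * φ (fr r x y) - K (fr r) x w z * φ (fr r x z)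
          = K (fr r) x w y * (φ (fr r x y) - φ (fr r x z))
            + (K (fr r) x w y - K (fr r) x w z) * φ (fr r x z) := by ring
      rw [e]
      refine (abs_add_le _ _).trans ?_
      rw [abs_mul, abs_mul]
      have h1 : |K (fr r) x w y| * |φ (fr r x y) - φ (fr r x z)|
          ≤ 96 * ((2 * cη / r) * dist y z) :=
        mul_le_mul (hK y hy) hp (abs_nonneg _) (by norm_num)
      have h2 : |K (fr r) x w y - K (fr r) x w z| * |φ (fr r x z)|
          ≤ (8 / r * dist y z) * 1 :=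
        mul_le_mul hKK (c.φ1 _) (abs_nonneg _) (by positivity)
      linarith
    · have h0 : φ (fr r x z) = 0 := c.φ0 _ (two_le_fr x hr hz)
      rw [h0] at hp ⊢
      rw [mul_zero, sub_zero, abs_mul]
      rw [sub_zero] at hp
      have h1 : |K (fr r) x w y| * |φ (fr r x y)| ≤ 96 * ((2 * cη / r) * dist y z) :=
        mul_le_mul (hK y hy) hp (abs_nonneg _) (by norm_num)
      linarith
  · have h0 : φ (fr r x y) = 0 := c.φ0 _ (two_le_fr x hr hy)
    rw [h0] at hp ⊢
    rw [mul_zero, zero_sub, abs_neg, abs_mul]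
    rw [zero_sub, abs_neg] at hp
    by_cases hz : z ∈ closedBall x (2 * r)
    · have h1 : |K (fr r) x w z| * |φ (fr r x z)| ≤ 96 * ((2 * cη / r) * dist y z) :=
        mul_le_mul (hK z hz) hp (abs_nonneg _) (by norm_num)
      linarith
    · rw [c.φ0 _ (two_le_fr x hr hz), abs_zero, mul_zero]
      linarith

/-- the comparison error of (m) at the centre `a` -/
def bet (n : ℕ) (κ : ℝ) (μ : Measure X) (r : ℝ) (x a : X) : ℝ :=
  Rad.drop n κ μ a (4 * r) + 16 * κ * r ^ 2 * μ.real (closedBall x (2 * r))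

include g c hr in
/-- **(m)** for `ζ = K_x(w,·) φ(f_x)` -/
theorem hm_rad [SFinite μ] (hκ : 0 ≤ κ) (hfin : ∀ (a : X) (R : ℝ), μ (closedBall a R) ≠ ∞)
    {w a : X} (hw : w ∈ closedBall x (2 * r)) (ha : a ∈ closedBall x (2 * r)) :
    |(∫ u, Dz (fr r) (Gs Γ r) φ η x w a u ∂μ)
      + n * ∫ u, K (fr r) x w u * φ (fr r x u) ∂μ| ≤ 96 * bet n κ μ r x a := by
  have d := dat g c hr x (hfin x (2 * r))
  have hK : ∀ u ∈ closedBall x (2 * r), |K (fr r) x w u| ≤ 96 := fun u hu => by
    have := d.K_le hw hu; linarith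
  have hK1 : ∀ u, |K (fr r) x w u * φ (fr r x u)| ≤ 96 := by
    intro u
    by_cases hu : u ∈ closedBall x (2 * r)
    · rw [abs_mul]
      calc _ ≤ 96 * 1 := mul_le_mul (hK u hu) (c.φ1 _) (abs_nonneg _) (by norm_num)
        _ = _ := by ring
    · rw [c.φ0 _ (two_le_fr x hr hu), mul_zero, abs_zero]; norm_num
  have hfar : ∀ z, 4 * r < dist a z → z ∉ closedBall x (2 * r) := fun z hz h =>
    absurd (dist_le_of_mem ha h) (not_le.2 hz)
  have hmz : Measurable (fun u => K (fr r) x w u * φ (fr r x u)) := by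
    unfold K
    exact ((measurable_const.add (continuous_fr r x).measurable).sub
      (continuous_fr r w).measurable).mul (c.mφ.comp (continuous_fr r x).measurable)
  have hnu := C.nu_bound hκ a (r := 4 * r) (by positivity) (hfin a _) hmz
    (lip_zeta c hr hw hK) (fun z hz => by rw [c.φ0 _ (two_le_fr x hr (hfar z hz)), mul_zero])
    hK1 (rd_zeta g x c w a)
  have i1 := d.int_Dz hw ha
  have i2 := d.int_Kphi hw
  have hd2 : ∀ u ∈ closedBall x (2 * r), |dist a u ^ 2 * (K (fr r) x w u * φ (fr r x u))|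
      ≤ 16 * r ^ 2 * 96 := by
    intro u hu
    rw [abs_mul, abs_of_nonneg (by positivity)]
    have := dist_le_of_mem ha hu
    calc dist a u ^ 2 * |K (fr r) x w u * φ (fr r x u)| ≤ (4 * r) ^ 2 * 96 := by
          have := hK1 u
          gcongr
      _ = _ := by ring
  have hd0 : ∀ u, u ∉ closedBall x (2 * r) →
      dist a u ^ 2 * (K (fr r) x w u * φ (fr r x u)) = 0 := fun u hu => by
    rw [c.φ0 _ (two_le_fr x hr hu)]; ring
  have i3 : Integrable (fun u => dist a u ^ 2 * (K (fr r) x w u * φ (fr r x u))) μ := by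
    refine d.integrable_of_bound ?_ (C := 16 * r ^ 2 * 96) ?_ hd0
    · exact ((by fun_prop : Continuous fun u => dist a u ^ 2).measurable.mul
        hmz).aestronglyMeasurable
    · filter_upwards [ae_restrict_mem isClosed_closedBall.measurableSet] with u hu
      exact hd2 u hu
  have h3 : |∫ u, dist a u ^ 2 * (K (fr r) x w u * φ (fr r x u)) ∂μ|
      ≤ 16 * r ^ 2 * 96 * μ.real (closedBall x (2 * r)) := by
    rw [← setIntegral_eq_integral_of_forall_compl_eq_zero hd0]
    have h5 : ∀ u ∈ closedBall x (2 * r), ‖dist a u ^ 2 * (K (fr r) x w u * φ (fr r x u))‖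
        ≤ 16 * r ^ 2 * 96 := fun u hu => by rw [Real.norm_eq_abs]; exact hd2 u hu
    have h6 := norm_setIntegral_le_of_norm_le_const (hfin x (2 * r)).lt_top h5
    rwa [Real.norm_eq_abs] at h6
  have key : ∫ z, ((n + κ * dist a z ^ 2) * (K (fr r) x w z * φ (fr r x z))
        + Dz (fr r) (Gs Γ r) φ η x w a z) ∂μ
      = ((∫ u, Dz (fr r) (Gs Γ r) φ η x w a u ∂μ)
        + n * ∫ u, K (fr r) x w u * φ (fr r x u) ∂μ)
        + κ * ∫ u, dist a u ^ 2 * (K (fr r) x w u * φ (fr r x u)) ∂μ := by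
    have i4 : Integrable (fun u => Dz (fr r) (Gs Γ r) φ η x w a u
        + n * (K (fr r) x w u * φ (fr r x u))) μ := i1.add (i2.const_mul _)
    rw [← integral_const_mul, ← integral_const_mul, ← integral_add i1 (i2.const_mul _),
      ← integral_add i4 (i3.const_mul _)]
    refine integral_congr_ae (Eventually.of_forall fun u => ?_)
    simp only
    ring
  rw [key] at hnu
  have h4 : |κ * ∫ u, dist a u ^ 2 * (K (fr r) x w u * φ (fr r x u)) ∂μ|
      ≤ κ * (16 * r ^ 2 * 96 * μ.real (closedBall x (2 * r))) := by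
    rw [abs_mul, abs_of_nonneg hκ]
    gcongr
  unfold bet
  rw [abs_le] at hnu h4 ⊢
  constructor <;> nlinarith [hnu.1, hnu.2, h4.1, h4.2]

include g c hr in
/-- **(m)** for `φ(f_x)` (trace form) -/
theorem hm0_rad [SFinite μ] (hκ : 0 ≤ κ) (hfin : ∀ (a : X) (R : ℝ), μ (closedBall a R) ≠ ∞) :
    |n * (∫ u, φ (fr r x u) ∂μ) - ∫ u, 2 * fr r x u * η (fr r x u) ∂μ|
      ≤ bet n κ μ r x x := by
  have d := dat g c hr x (hfin x (2 * r))
  have hx : x ∈ closedBall x (2 * r) := mem_closedBall_self (by positivity)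
  have hfar : ∀ z, 4 * r < dist x z → z ∉ closedBall x (2 * r) := fun z hz h =>
    absurd (dist_le_of_mem hx h) (not_le.2 hz)
  have hmz : Measurable (fun u => φ (fr r x u)) := c.mφ.comp (continuous_fr r x).measurable
  have hrd : RD C x (fun u => φ (fr r x u)) (fun u => -(2 * fr r x u * η (fr r x u))) := by
    refine (rd_phi g x c x).congr ?_
    filter_upwards [d.Gself x] with u hu
    rw [hu]; ring
  have hnu := C.nu_bound hκ x (r := 4 * r) (by positivity) (hfin x _) hmz
    (lip_phi x c hr) (fun z hz => c.φ0 _ (two_le_fr x hr (hfar z hz))) (fun z => c.φ1 _) hrd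
  have i2 := d.int_phi
  have i1 : Integrable (fun u => 2 * fr r x u * η (fr r x u)) μ := by
    refine d.integrable_of_bound (((d.mf x).const_mul 2).mul d.measEta) (C := 64 * cη) ?_ ?_
    · filter_upwards [ae_restrict_mem isClosed_closedBall.measurableSet] with u hu
      have h1 := d.fF x hx u hu
      have h2 := c.absη (fr r x u)
      rw [abs_mul, abs_mul, abs_two]
      calc 2 * |fr r x u| * |η (fr r x u)| ≤ (2 * 32) * cη := by
            gcongr
        _ = _ := by ring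
    · intro u hu; rw [c.η0 _ (two_le_fr x hr hu), mul_zero]
  have hd2 : ∀ u ∈ closedBall x (2 * r), ‖dist x u ^ 2 * φ (fr r x u)‖ ≤ 16 * r ^ 2 := by
    intro u hu
    rw [Real.norm_eq_abs, abs_mul, abs_of_nonneg (by positivity)]
    have := dist_le_of_mem hx hu
    calc dist x u ^ 2 * |φ (fr r x u)| ≤ (4 * r) ^ 2 * 1 := by
          have := c.φ1 (fr r x u)
          gcongr
      _ = _ := by ring
  have hd0 : ∀ u, u ∉ closedBall x (2 * r) → dist x u ^ 2 * φ (fr r x u) = 0 := fun u hu => by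
    rw [c.φ0 _ (two_le_fr x hr hu)]; ring
  have i3 : Integrable (fun u => dist x u ^ 2 * φ (fr r x u)) μ := by
    refine d.integrable_of_bound ?_ (C := 16 * r ^ 2) ?_ hd0
    · exact ((by fun_prop : Continuous fun u => dist x u ^ 2).measurable.mul
        hmz).aestronglyMeasurable
    · filter_upwards [ae_restrict_mem isClosed_closedBall.measurableSet] with u hu
      have := hd2 u hu
      rwa [Real.norm_eq_abs] at this
  have h3 : |∫ u, dist x u ^ 2 * φ (fr r x u) ∂μ|
      ≤ 16 * r ^ 2 * μ.real (closedBall x (2 * r)) := by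
    rw [← setIntegral_eq_integral_of_forall_compl_eq_zero hd0]
    have h6 := norm_setIntegral_le_of_norm_le_const (hfin x (2 * r)).lt_top hd2
    rwa [Real.norm_eq_abs] at h6
  have key : ∫ z, ((n + κ * dist x z ^ 2) * φ (fr r x z)
        + -(2 * fr r x z * η (fr r x z))) ∂μ
      = (n * (∫ u, φ (fr r x u) ∂μ) - ∫ u, 2 * fr r x u * η (fr r x u) ∂μ)
        + κ * ∫ u, dist x u ^ 2 * φ (fr r x u) ∂μ := by
    have i4 : Integrable (fun u => n * φ (fr r x u) - 2 * fr r x u * η (fr r x u)) μ :=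
      (i2.const_mul _).sub i1
    rw [← integral_const_mul, ← integral_const_mul, ← integral_sub (i2.const_mul _) i1,
      ← integral_add i4 (i3.const_mul _)]
    refine integral_congr_ae (Eventually.of_forall fun u => ?_)
    simp only
    ring
  rw [key, one_mul] at hnu
  have h4 : |κ * ∫ u, dist x u ^ 2 * φ (fr r x u) ∂μ|
      ≤ κ * (16 * r ^ 2 * μ.real (closedBall x (2 * r))) := by
    rw [abs_mul, abs_of_nonneg hκ]
    gcongr
  unfold bet
  rw [abs_le] at hnu h4 ⊢
  constructor <;> nlinarith [hnu.1, hnu.2, h4.1, h4.2]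

end inst

/-- the family of 550's official calculus -/
theorem gam_of_rep {C : Rad n κ X μ} {G : X → X → X → ℝ} (hG : GRep C G) : Gam C G :=
  ⟨hG.rd, fun a b => Eventually.of_forall (hG.symm a b)⟩

theorem P_eq_PP (G : X → X → X → ℝ) (r : ℝ) (x v u : X) :
    P (fr r) (Gs G r) x v u = PP G x v u / r ^ 2 := by
  unfold P PP fr Gs ff
  ring

/-- the measure `η(f_x) μ` -/
def mx (μ : Measure X) (η : ℝ → ℝ) (r : ℝ) (x : X) : Measure X :=
  μ.withDensity (fun u => ENNReal.ofReal (η (fr r x u)))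

instance [SFinite μ] (η : ℝ → ℝ) (r : ℝ) (x : X) : SFinite (mx μ η r x) := by
  unfold mx; infer_instance

section meas
variable {φ η : ℝ → ℝ} {cη : ℝ} (c : Cut φ η cη) {r : ℝ} (hr : 0 < r) (x : X)

include c in
theorem meas_dens : Measurable (fun u => ENNReal.ofReal (η (fr r x u))) :=
  (c.mη.comp (continuous_fr r x).measurable).ennreal_ofReal

include c hr in
theorem lintegral_mx_le (g : X → ℝ≥0∞) :
    ∫⁻ u, g u ∂(mx μ η r x) ≤ ENNReal.ofReal cη * ∫⁻ u in closedBall x (2 * r), g u ∂μ := by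
  have h1 : ∫⁻ u, g u ∂(mx μ η r x) ≤ ∫⁻ u, ENNReal.ofReal (η (fr r x u)) * g u ∂μ := by
    unfold mx
    exact lintegral_withDensity_le_lintegral_mul μ (meas_dens c x) g
  refine h1.trans ?_
  rw [← lintegral_const_mul' _ _ ENNReal.ofReal_ne_top,
    ← lintegral_indicator isClosed_closedBall.measurableSet]
  refine lintegral_mono fun u => ?_
  by_cases hu : u ∈ closedBall x (2 * r)
  · simp only [indicator_of_mem hu]
    gcongr
    exact c.η1 _
  · simp only [indicator_of_notMem hu]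
    rw [c.η0 _ (two_le_fr x hr hu), ENNReal.ofReal_zero, zero_mul]

include c in
theorem integral_mx (g : X → ℝ) :
    ∫ u, g u ∂(mx μ η r x) = ∫ u, g u * η (fr r x u) ∂μ := by
  unfold mx
  rw [integral_withDensity_eq_integral_toReal_smul (meas_dens c x)
    (Eventually.of_forall fun u => ENNReal.ofReal_lt_top)]
  refine integral_congr_ae (Eventually.of_forall fun u => ?_)
  simp only [smul_eq_mul]
  rw [ENNReal.toReal_ofReal (c.ηn _), mul_comm]

include c hr in
theorem hs2_mx_le (k : X → X → ℝ) :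
    hs2 (mx μ η r x) (mx μ η r x) k ≤ ENNReal.ofReal cη ^ 2 *
      ∫⁻ z in closedBall x (2 * r), ∫⁻ u in closedBall x (2 * r), ‖k z u‖ₑ ^ 2 ∂μ ∂μ := by
  unfold hs2
  refine (lintegral_mx_le c hr x _).trans ?_
  rw [pow_two, mul_assoc]
  gcongr
  rw [← lintegral_const_mul' _ _ ENNReal.ofReal_ne_top]
  exact lintegral_mono fun z => lintegral_mx_le c hr x _

include c in
/-- the kernel of `K² - ΛK` with respect to `mx` is `Gap79.E` -/
theorem gk_eq (w z : X) :
    Ker585.gk (mx μ η r x) (K (fr r) x) (∫ u, φ (fr r x u) ∂μ) w z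
      = E μ (fr r) φ η x w z := by
  unfold Ker585.gk kcomp E
  rw [integral_mx c]
  congr 1
  refine integral_congr_ae (Eventually.of_forall fun u => ?_)
  simp only
  rw [K_symm (fr_symm r) x u z]

theorem measurable_K [SecondCountableTopology X] :
    Measurable (Function.uncurry (K (fr r) x)) := by
  have e : Function.uncurry (K (fr r) x)
      = fun p : X × X => fr r x p.1 + fr r x p.2 - fr r p.1 p.2 := by
    funext p; rfl
  rw [e]
  have := (continuous_fr r x)
  exact (((continuous_fr r x).measurable.comp measurable_fst).add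
    ((continuous_fr r x).measurable.comp measurable_snd)).sub (measurable_fr_pair r)

include c hr in
theorem hk [SecondCountableTopology X] (hfin : μ (closedBall x (2 * r)) ≠ ∞)
    (hK : ∀ w ∈ closedBall x (2 * r), ∀ u ∈ closedBall x (2 * r), |K (fr r) x w u| ≤ 96) :
    HK (mx μ η r x) (mx μ η r x) (K (fr r) x) := by
  refine ⟨measurable_K x, (hs2_mx_le c hr x _).trans_lt ?_⟩
  refine ENNReal.mul_lt_top (ENNReal.pow_lt_top ENNReal.ofReal_lt_top) ?_
  have h1 : ∫⁻ z in closedBall x (2 * r), ∫⁻ u in closedBall x (2 * r),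
      ‖K (fr r) x z u‖ₑ ^ 2 ∂μ ∂μ ≤ ∫⁻ _ in closedBall x (2 * r), ∫⁻ _ in closedBall x (2 * r),
      ENNReal.ofReal 96 ^ 2 ∂μ ∂μ := by
    refine setLIntegral_mono' isClosed_closedBall.measurableSet fun z hz => ?_
    refine setLIntegral_mono' isClosed_closedBall.measurableSet fun u hu => ?_
    gcongr
    rw [← ofReal_norm]
    exact ENNReal.ofReal_le_ofReal (hK z hz u hu)
  refine h1.trans_lt ?_
  rw [lintegral_const, lintegral_const, Measure.restrict_apply_univ]
  exact ENNReal.mul_lt_top (ENNReal.mul_lt_top (ENNReal.pow_lt_top ENNReal.ofReal_lt_top)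
    hfin.lt_top) hfin.lt_top

/-- the Hilbert–Schmidt norm as an iterated Bochner integral -/
theorem hs2_toReal {Y : Type*} [MeasurableSpace Y] {ν : Measure Y} [SFinite ν] {k : Y → Y → ℝ}
    (h : HK ν ν k) : (hs2 ν ν k).toReal = ∫ z, ∫ u, k z u * k z u ∂ν ∂ν := by
  have h1 : Measurable fun y => ∫⁻ x, ‖k y x‖ₑ ^ 2 ∂ν := by
    apply Measurable.lintegral_prod_right
    exact (h.meas.enorm.pow_const 2)
  unfold hs2
  rw [← integral_toReal h1.aemeasurable (ae_lt_top h1 h.fin.ne)]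
  refine integral_congr_ae (Eventually.of_forall fun z => ?_)
  simp only
  rw [← integral_toReal ((h.meas_left z).enorm.pow_const 2).aemeasurable
    (Eventually.of_forall fun u => ENNReal.pow_lt_top enorm_lt_top)]
  refine integral_congr_ae (Eventually.of_forall fun u => ?_)
  simp only
  rw [ENNReal.toReal_pow, toReal_enorm, Real.norm_eq_abs, sq_abs, pow_two]

include c in
theorem hs2_eq (h : HK (mx μ η r x) (mx μ η r x) (K (fr r) x)) [SFinite μ] :
    (hs2 (mx μ η r x) (mx μ η r x) (K (fr r) x)).toReal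
      = ∫ z, (∫ u, K (fr r) x z u * K (fr r) x z u * η (fr r x u) ∂μ) * η (fr r x z) ∂μ := by
  rw [hs2_toReal h, integral_mx c]
  refine integral_congr_ae (Eventually.of_forall fun z => ?_)
  simp only
  rw [integral_mx c]

end meas

theorem aux1 {c W s t q : ℝ} (hc : 0 ≤ c) (hW : 0 ≤ W) (hs : 0 ≤ s) (ht : 0 ≤ t) (hq : 0 ≤ q) :
    ENNReal.ofReal (c ^ 2 * (4 * W ^ 2 * (s ^ 2 + (t ^ 2 + 2) * q)))
      = ENNReal.ofReal c ^ 2 * (4 * ENNReal.ofReal W ^ 2 * (ENNReal.ofReal s ^ 2
        + (ENNReal.ofReal t ^ 2 + 2) * ENNReal.ofReal q)) := by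
  lift c to ℝ≥0 using hc
  lift W to ℝ≥0 using hW
  lift s to ℝ≥0 using hs
  lift t to ℝ≥0 using ht
  lift q to ℝ≥0 using hq
  have : ((c : ℝ) ^ 2 * (4 * (W : ℝ) ^ 2 * ((s : ℝ) ^ 2 + ((t : ℝ) ^ 2 + 2) * q)))
      = ((c ^ 2 * (4 * W ^ 2 * (s ^ 2 + (t ^ 2 + 2) * q)) : ℝ≥0) : ℝ) := by push_cast; ring
  rw [this]
  simp only [ENNReal.ofReal_coe_nnreal]
  push_cast
  ring

theorem aux2 {c s W t q L b : ℝ} (hc : 0 ≤ c) (hs : 0 ≤ s) (hW : 0 ≤ W) (ht : 0 ≤ t)
    (hq : 0 ≤ q) (hL : 0 ≤ L) (hb : 0 ≤ b) :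
    ENNReal.ofReal (c * (s * W + (t + 1) * (W * q)) + L * b)
      = ENNReal.ofReal c * (ENNReal.ofReal s * ENNReal.ofReal W
        + (ENNReal.ofReal t + 1) * (ENNReal.ofReal W * ENNReal.ofReal q))
        + ENNReal.ofReal L * ENNReal.ofReal b := by
  lift c to ℝ≥0 using hc
  lift W to ℝ≥0 using hW
  lift s to ℝ≥0 using hs
  lift t to ℝ≥0 using ht
  lift q to ℝ≥0 using hq
  lift L to ℝ≥0 using hL
  lift b to ℝ≥0 using hb
  have : (c : ℝ) * ((s : ℝ) * W + ((t : ℝ) + 1) * (W * q)) + (L : ℝ) * b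
      = ((c * (s * W + (t + 1) * (W * q)) + L * b : ℝ≥0) : ℝ) := by push_cast; ring
  rw [this]
  simp only [ENNReal.ofReal_coe_nnreal]
  push_cast
  ring

/-- **(4a)+(4b)** : the kernel operator of `K_x` on `L²(η(f_x)μ)` is close to an orthogonal
projection of rank `n`. -/
theorem round {C : Rad n κ X μ} {G : X → X → X → ℝ} (hG : GRep C G) {φ η : ℝ → ℝ} {cη : ℝ}
    (c : Cut φ η cη) {r : ℝ} (hr : 0 < r) (x : X) [SFinite μ] [SecondCountableTopology X]
    (hκ : 0 ≤ κ) (hfin : ∀ (a : X) (R : ℝ), μ (closedBall a R) ≠ ∞) {V v0 e : ℝ}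
    (hv0 : 0 < v0) (he : 0 ≤ e) (he1 : e ≤ 1)
    (hV : μ.real (closedBall x (2 * r)) ≤ V * r ^ n)
    (hLam : v0 * r ^ n ≤ ∫ u, φ (fr r x u) ∂μ)
    (hdrop : ∀ a ∈ closedBall x (2 * r), Rad.drop n κ μ a (4 * r) ≤ e * r ^ n)
    (hκr : κ * r ^ 2 ≤ e)
    (hL : ∀ a ∈ closedBall x (2 * r),
      ∫⁻ v in closedBall x (2 * r), ∫⁻ u in closedBall x (2 * r),
        ENNReal.ofReal (PP G a v u ^ 2) ∂μ ∂μ ≤ ENNReal.ofReal (e * r ^ (2 * n + 4)))
    {ε : ℝ} (hε : ε = Real.sqrt (4 * cη ^ 2 * V ^ 2 * ((192 * (1 + 16 * V)) ^ 2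
      + ((1 + 96 * cη) ^ 2 + 2)) * e) / v0 ^ 2)
    (hε1 : ε ≤ 1 / (100 * (n + 1)))
    (hε2 : (cη * (192 * (1 + 16 * V) * V + (2 + 96 * cη) * V) + 96 * (1 + 16 * V) * V)
      * Real.sqrt e ≤ 1 / 2 * v0 ^ 2) :
    ∃ h : HK (mx μ η r x) (mx μ η r x) (K (fr r) x),
    ∃ E : Lp ℝ 2 (mx μ η r x) →L[ℝ] Lp ℝ 2 (mx μ η r x),
      Pl2661.Rnd ((∫ u, φ (fr r x u) ∂μ)⁻¹ • kop h) E (5 / 2 * ε) ∧
      FiniteDimensional ℝ (LinearMap.range E.toLinearMap) ∧
      Module.finrank ℝ (LinearMap.range E.toLinearMap) = n := by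
  classical
  set B := closedBall x (2 * r) with hB
  set Λ := ∫ u, φ (fr r x u) ∂μ with hΛ
  have g := gam_of_rep hG
  have d := dat g c hr x (hfin x (2 * r))
  have hrn : 0 < r ^ n := by positivity
  have hV0 : 0 ≤ V := by
    have : 0 ≤ V * r ^ n := measureReal_nonneg.trans hV
    exact nonneg_of_mul_nonneg_left this hrn
  have hc := c.c0
  have hΛ0 : 0 < Λ := lt_of_lt_of_le (by positivity) hLam
  have hK : ∀ w ∈ B, ∀ u ∈ B, |K (fr r) x w u| ≤ 96 := fun w hw u hu => by
    have := d.K_le hw hu; linarith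
  have h := hk c hr x (hfin x (2 * r)) hK
  set b := 96 * (1 + 16 * V) * e * r ^ n with hb
  have hb0 : 0 ≤ b := by positivity
  have hbet : ∀ a ∈ B, bet n κ μ r x a ≤ (1 + 16 * V) * e * r ^ n := by
    intro a ha
    unfold bet
    have h1 := hdrop a ha
    have h2 : 16 * κ * r ^ 2 * μ.real B ≤ 16 * e * (V * r ^ n) := by
      have : 16 * κ * r ^ 2 = 16 * (κ * r ^ 2) := by ring
      rw [this]
      have h3 : 0 ≤ μ.real B := measureReal_nonneg
      have h4 : 0 ≤ κ * r ^ 2 := by positivity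
      gcongr
    calc _ ≤ e * r ^ n + 16 * e * (V * r ^ n) := add_le_add h1 h2
      _ = _ := by ring
  have hm : ∀ z ∈ B, ∀ w ∈ B,
      |(∫ u, Dz (fr r) (Gs G r) φ η x w z u ∂μ)
        + n * ∫ u, K (fr r) x w u * φ (fr r x u) ∂μ| ≤ b := by
    intro z hz w hw
    refine (hm_rad g c hr x hκ hfin hw hz).trans ?_
    rw [hb]
    have := hbet z hz
    linarith
  have hm0 : |n * (∫ u, φ (fr r x u) ∂μ) - ∫ u, 2 * fr r x u * η (fr r x u) ∂μ| ≤ b := by
    refine (hm0_rad g c hr x hκ hfin).trans ((hbet x d.xB).trans ?_)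
    rw [hb]
    have : 0 ≤ (1 + 16 * V) * e * r ^ n := by positivity
    linarith
  have hPe : ∀ a v u, ‖P (fr r) (Gs G r) a v u‖ₑ ^ 2
      = ENNReal.ofReal (PP G a v u ^ 2) * ENNReal.ofReal ((r ^ 4)⁻¹) := by
    intro a v u
    rw [P_eq_PP, ← ENNReal.ofReal_mul (by positivity), ← ofReal_norm, ← ENNReal.ofReal_pow
      (norm_nonneg _), Real.norm_eq_abs, sq_abs, div_pow, div_eq_mul_inv]
    congr 2
    ring
  have hLe : ∀ a ∈ B, ∫⁻ v in B, ∫⁻ u in B, ‖P (fr r) (Gs G r) a v u‖ₑ ^ 2 ∂μ ∂μ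
      ≤ ENNReal.ofReal (e * r ^ (2 * n)) := by
    intro a ha
    simp_rw [hPe]
    calc ∫⁻ v in B, ∫⁻ u in B, ENNReal.ofReal (PP G a v u ^ 2)
          * ENNReal.ofReal ((r ^ 4)⁻¹) ∂μ ∂μ
        = (∫⁻ v in B, ∫⁻ u in B, ENNReal.ofReal (PP G a v u ^ 2) ∂μ ∂μ)
          * ENNReal.ofReal ((r ^ 4)⁻¹) := by
          rw [← lintegral_mul_const' _ _ ENNReal.ofReal_ne_top]
          refine lintegral_congr fun v => ?_
          rw [lintegral_mul_const' _ _ ENNReal.ofReal_ne_top]
      _ ≤ ENNReal.ofReal (e * r ^ (2 * n + 4)) * ENNReal.ofReal ((r ^ 4)⁻¹) := by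
          gcongr
          exact hL a ha
      _ = _ := by
          rw [← ENNReal.ofReal_mul (by positivity)]
          congr 1
          rw [pow_add]
          field_simp
  have hmP : ∀ a ∈ B, AEMeasurable (fun p : X × X => ‖P (fr r) (Gs G r) a p.1 p.2‖ₑ)
      ((μ.restrict B).prod (μ.restrict B)) := by
    intro a _
    have h1 : Measurable (fun p : X × X => G a p.1 p.2) :=
      hG.meas.comp (measurable_const.prodMk measurable_id)
    have h2 : Measurable (fun p : X × X => P (fr r) (Gs G r) a p.1 p.2) := by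
      unfold P Gs
      exact (((h1.div_const _).sub ((continuous_fr r a).measurable.comp measurable_snd)).sub
        (measurable_fr_pair r)).add ((continuous_fr r a).measurable.comp measurable_fst)
    exact h2.enorm.aemeasurable
  have hμB : μ B ≤ ENNReal.ofReal (V * r ^ n) := by
    rw [← ENNReal.ofReal_toReal (hfin x (2 * r))]
    exact ENNReal.ofReal_le_ofReal hV
  have gE := d.gap n hm hmP hLe
  have hgk : hs2 (mx μ η r x) (mx μ η r x) (Ker585.gk (mx μ η r x) (K (fr r) x) Λ)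
      ≤ ENNReal.ofReal ((ε * Λ ^ 2) ^ 2) := by
    have e1 : Ker585.gk (mx μ η r x) (K (fr r) x) Λ = fun w z => E μ (fr r) φ η x w z := by
      funext w z
      exact gk_eq c x w z
    rw [e1]
    refine (hs2_mx_le c hr x _).trans ((mul_le_mul' le_rfl gE).trans ?_)
    have e2 : ENNReal.ofReal cη ^ 2 * (4 * μ B ^ 2 * (ENNReal.ofReal (b + b) ^ 2
        + (ENNReal.ofReal (1 + 3 * 32 * cη) ^ 2 + 2) * ENNReal.ofReal (e * r ^ (2 * n))))
        ≤ ENNReal.ofReal (cη ^ 2 * (4 * (V * r ^ n) ^ 2 * ((b + b) ^ 2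
          + ((1 + 3 * 32 * cη) ^ 2 + 2) * (e * r ^ (2 * n))))) := by
      rw [aux1 hc (by positivity) (by positivity) (by positivity) (by positivity)]
      gcongr
    refine e2.trans (ENNReal.ofReal_le_ofReal ?_)
    have e5 : (ε * Λ ^ 2) ^ 2 = (4 * cη ^ 2 * V ^ 2 * ((192 * (1 + 16 * V)) ^ 2
        + ((1 + 96 * cη) ^ 2 + 2)) * e) / v0 ^ 4 * Λ ^ 4 := by
      rw [hε, mul_pow, div_pow, Real.sq_sqrt (by positivity)]
      ring
    rw [e5]
    have e6 : v0 ^ 4 * (r ^ n) ^ 4 ≤ Λ ^ 4 := by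
      rw [← mul_pow]; gcongr
    have e7 : (r ^ n) ^ 4 ≤ Λ ^ 4 / v0 ^ 4 := by
      rw [le_div_iff₀ (by positivity)]; linarith
    have e8 : r ^ (2 * n) = (r ^ n) ^ 2 := by rw [← pow_mul, mul_comm]
    calc cη ^ 2 * (4 * (V * r ^ n) ^ 2 * ((b + b) ^ 2
          + ((1 + 3 * 32 * cη) ^ 2 + 2) * (e * r ^ (2 * n))))
        = 4 * cη ^ 2 * V ^ 2 * ((192 * (1 + 16 * V)) ^ 2 * (e * e)
          + ((1 + 96 * cη) ^ 2 + 2) * e) * (r ^ n) ^ 4 := by
          rw [hb, e8]; ring
      _ ≤ 4 * cη ^ 2 * V ^ 2 * ((192 * (1 + 16 * V)) ^ 2 * (e * 1)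
          + ((1 + 96 * cη) ^ 2 + 2) * e) * (r ^ n) ^ 4 := by gcongr
      _ ≤ 4 * cη ^ 2 * V ^ 2 * ((192 * (1 + 16 * V)) ^ 2 * (e * 1)
          + ((1 + 96 * cη) ^ 2 + 2) * e) * (Λ ^ 4 / v0 ^ 4) := by gcongr
      _ = _ := by ring
  have hg2 : |(hs2 (mx μ η r x) (mx μ η r x) (K (fr r) x)).toReal - n * Λ ^ 2|
      ≤ 1 / 2 * Λ ^ 2 := by
    have h1 := d.hs n (measurable_fr_pair r) hm hm0 (hmP x d.xB) (hLe x d.xB)
    rw [← hs2_eq c x h] at h1
    have hΛV : |Λ| ≤ V * r ^ n := by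
      have h2 : ∀ u ∈ B, ‖φ (fr r x u)‖ ≤ 1 := fun u _ => c.φ1 _
      have h3 := norm_setIntegral_le_of_norm_le_const (hfin x (2 * r)).lt_top h2
      rw [setIntegral_eq_integral_of_forall_compl_eq_zero (fun u hu => d.φ0 u hu),
        Real.norm_eq_abs, one_mul] at h3
      exact h3.trans hV
    have e8 : r ^ (2 * n) = (r ^ n) ^ 2 := by rw [← pow_mul, mul_comm]
    have hsq : ENNReal.ofReal (e * r ^ (2 * n)) ^ (1 / 2 : ℝ)
        = ENNReal.ofReal (Real.sqrt e * r ^ n) := by
      rw [ENNReal.ofReal_rpow_of_nonneg (by positivity) (by norm_num), ← Real.sqrt_eq_rpow,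
        Real.sqrt_mul he, e8, Real.sqrt_sq hrn.le]
    rw [hsq] at h1
    have hse : 0 ≤ Real.sqrt e := Real.sqrt_nonneg e
    have hee : e ≤ Real.sqrt e := by
      apply Real.le_sqrt_of_sq_le
      nlinarith
    have h2 : ENNReal.ofReal cη * (ENNReal.ofReal (b + b) * μ B
        + (ENNReal.ofReal (1 + 3 * 32 * cη) + 1) * (μ B * ENNReal.ofReal (Real.sqrt e * r ^ n)))
        + ‖Λ‖ₑ * ENNReal.ofReal b ≤ ENNReal.ofReal (cη * ((b + b) * (V * r ^ n)
          + ((1 + 3 * 32 * cη) + 1) * ((V * r ^ n) * (Real.sqrt e * r ^ n)))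
          + (V * r ^ n) * b) := by
      rw [aux2 hc (by positivity) (by positivity) (by positivity) (by positivity)
        (by positivity) hb0]
      have e9 : ‖Λ‖ₑ ≤ ENNReal.ofReal (V * r ^ n) := by
        rw [← ofReal_norm]; exact ENNReal.ofReal_le_ofReal hΛV
      gcongr
    have h3 := h1.trans h2
    rw [← ofReal_norm, ENNReal.ofReal_le_ofReal_iff (by positivity), Real.norm_eq_abs] at h3
    refine h3.trans ?_
    calc cη * ((b + b) * (V * r ^ n)
          + ((1 + 3 * 32 * cη) + 1) * ((V * r ^ n) * (Real.sqrt e * r ^ n)))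
          + (V * r ^ n) * b
        = (cη * (192 * (1 + 16 * V) * V * e + (2 + 96 * cη) * V * Real.sqrt e)
          + 96 * (1 + 16 * V) * V * e) * (r ^ n) ^ 2 := by rw [hb]; ring
      _ ≤ (cη * (192 * (1 + 16 * V) * V * Real.sqrt e + (2 + 96 * cη) * V * Real.sqrt e)
          + 96 * (1 + 16 * V) * V * Real.sqrt e) * (r ^ n) ^ 2 := by gcongr
      _ = ((cη * (192 * (1 + 16 * V) * V + (2 + 96 * cη) * V) + 96 * (1 + 16 * V) * V)
          * Real.sqrt e) * (r ^ n) ^ 2 := by ring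
      _ ≤ (1 / 2 * v0 ^ 2) * (r ^ n) ^ 2 := by gcongr
      _ = 1 / 2 * (v0 * r ^ n) ^ 2 := by ring
      _ ≤ 1 / 2 * Λ ^ 2 := by gcongr
  have hε0 : 0 ≤ ε := by rw [hε]; positivity
  obtain ⟨E, hE⟩ := exists_round h (K_symm (fr_symm r) x) hΛ0 n hε0 hε1 hgk hg2
  exact ⟨h, E, hE⟩

end Crest.Agent.R247.Gap79
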