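import Crest.Agent.R247.Hes3_124
import Crest.Agent.R247.Dir6_593

/-!
R247, block (5-GB) (helper593), part 1: cut-offs, global `L²` bound of the Hessian, the truncation
lemma `χ² θ(|Du|²/2) ∈ V`, Bochner tested with it, the gradient bound.
-/

set_option autoImplicit false
set_option linter.unusedSectionVars false

open MeasureTheory Filter Topology Set
open scoped RealInnerProductSpace ENNReal NNReal

noncomputable section

namespace Crest.Agent.R247.Gb593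

open Crest.Agent.R247.Dir593 Crest.Agent.R247.Dir593.GradS Crest.Agent.R247.Hes124
  Crest.Agent.R247.Hes124.BochS

section Cut

variable {X : Type*} [MetricSpace X] [MeasurableSpace X] {F : Type*}
  [NormedAddCommGroup F] [InnerProductSpace ℝ F] {μ : Measure X} (S : GradS X F μ)
  [BorelSpace X] [IsFiniteMeasureOnCompacts μ]

/-- exhausting sequence of cut-offs -/
structure Cut (c : ℕ → X → ℝ) : Prop where
  T : ∀ k, IsT (c k)
  nn : ∀ k x, 0 ≤ c k x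
  le1 : ∀ k x, c k x ≤ 1
  G1 : ∀ k, ∀ᵐ x ∂μ, ‖S.G (c k) x‖ ≤ 1
  ev1 : ∀ x, ∀ᶠ k in atTop, c k x = 1
  ev0 : ∀ᵐ x ∂μ, ∀ᶠ k in atTop, S.G (c k) x = 0

theorem exists_cut [ProperSpace X] : ∃ c : ℕ → X → ℝ, Cut S c := by
  by_cases hX : Nonempty X
  swap
  · have hE : IsEmpty X := not_nonempty_iff.1 hX
    exact ⟨fun _ _ => 0, ⟨fun _ => IsT.zero, fun _ _ => le_rfl, fun _ _ => zero_le_one,
      fun _ => Eventually.of_forall fun x => (hE.false x).elim, fun x => (hE.false x).elim,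
      Eventually.of_forall fun x => (hE.false x).elim⟩⟩
  obtain ⟨x0⟩ := hX
  set c : ℕ → X → ℝ := fun k x => max 0 (min (((k : ℝ) + 1) - dist x x0) 1) with hc
  have hcL : ∀ k, LipschitzWith 1 (c k) := by
    intro k
    refine LipschitzWith.of_dist_le_mul fun x y => ?_
    rw [NNReal.coe_one, one_mul, Real.dist_eq]
    have h1 := abs_clamp_sub 0 1 ((k : ℝ) + 1 - dist x x0) ((k : ℝ) + 1 - dist y x0)
    rw [one_mul] at h1
    refine h1.trans ?_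
    have e : (k : ℝ) + 1 - dist x x0 - ((k : ℝ) + 1 - dist y x0) = -(dist x x0 - dist y x0) := by
      ring
    rw [e, abs_neg]
    exact abs_dist_sub_le x y x0
  have hcs : ∀ k, HasCompactSupport (c k) := fun k => by
    refine HasCompactSupport.intro (isCompact_closedBall x0 ((k : ℝ) + 1)) fun x hx => ?_
    rw [Metric.mem_closedBall, not_le] at hx
    simp only [hc]
    rw [max_eq_left]
    exact (min_le_left _ _).trans (by linarith)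
  have hcT : ∀ k, IsT (c k) := fun k => ⟨(hcL k).locallyLipschitz, hcs k⟩
  refine ⟨c, hcT, fun k x => le_max_left _ _,
    fun k x => max_le zero_le_one (min_le_right _ _), fun k => ?_, fun x => ?_, ?_⟩
  · filter_upwards [S.norm_le (hcT k).1 isOpen_univ (hcL k).lipschitzOnWith] with x hx
    simpa using hx (mem_univ x)
  · filter_upwards [eventually_ge_atTop ⌈dist x x0⌉₊] with k hk
    have h1 : dist x x0 ≤ k := (Nat.le_ceil _).trans (by exact_mod_cast hk)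
    simp only [hc]
    rw [min_eq_right (by linarith), max_eq_right zero_le_one]
  · have h3 : ∀ᵐ x ∂μ, ∀ k : ℕ, x ∈ Metric.ball x0 (k : ℝ) → S.G (c k) x = 0 := by
      refine ae_all_iff.2 fun k => ?_
      have hEq : EqOn (c k) (fun _ => (1:ℝ)) (Metric.ball x0 (k : ℝ)) := fun x hx => by
        have hx' := Metric.mem_ball.1 hx
        simp only [hc]
        rw [min_eq_right (by linarith), max_eq_right zero_le_one]
      filter_upwards [S.loc (hcT k).1 (LocallyLipschitz.const (1:ℝ)) Metric.isOpen_ball hEq,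
        S.const 1] with x a1 a2 hx
      rw [a1 hx, a2]
    filter_upwards [h3] with x hx
    filter_upwards [eventually_gt_atTop ⌈dist x x0⌉₊] with k hk
    have h1 : dist x x0 < k := (Nat.le_ceil _).trans_lt (by exact_mod_cast hk)
    exact hx k (Metric.mem_ball.2 h1)

variable {S}

theorem Cut.tendsto1 {c : ℕ → X → ℝ} (hc : Cut S c) (x : X) :
    Tendsto (fun k => c k x) atTop (𝓝 1) :=
  tendsto_const_nhds.congr' ((hc.ev1 x).mono fun _ h => h.symm)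

theorem Cut.tendsto0 {c : ℕ → X → ℝ} (hc : Cut S c) :
    ∀ᵐ x ∂μ, Tendsto (fun k => S.G (c k) x) atTop (𝓝 0) := by
  filter_upwards [hc.ev0] with x hx
  exact tendsto_const_nhds.congr' (hx.mono fun _ h => h.symm)

end Cut

variable {n : ℕ} {κ : ℝ} {X : Type*} [MetricSpace X] [MeasurableSpace X] [BorelSpace X]
  {μ : Measure X} [IsFiniteMeasureOnCompacts μ]
variable {B : BochS n κ X μ} {u : Lp ℝ 2 μ} {S0 : ℝ} {w : ℕ → X → ℝ} {A : X → S n}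

/-- generalised dominated convergence (form used here) -/
theorem HDlim (h : HD B u S0 w A) {K : Set X} (hK : IsCompact K) {b : X → ℝ}
    (hb : Integrable b μ) {C : ℝ} {T : ℕ → X → ℝ} {T' : X → ℝ}
    (hT : ∀ k, AEStronglyMeasurable (T k) μ)
    (hbd : ∀ k, ∀ᵐ x ∂μ, |T k x| ≤ C * (‖B.H (w k) x‖ ^ 2 + ‖B.G (w k) x‖ ^ 2 + 1) + b x)
    (h0 : ∀ k, ∀ᵐ x ∂μ, x ∉ K → T k x = 0)
    (hl : ∀ᵐ x ∂μ, Tendsto (fun k => T k x) atTop (𝓝 (T' x))) :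
    Integrable T' μ ∧ Tendsto (fun k => ∫ x, T k x ∂μ) atTop (𝓝 (∫ x, T' x ∂μ)) := by
  refine h.lim hK (abs_nonneg C) hb hT (fun k => ?_) h0 hl
  filter_upwards [hbd k] with x hx
  refine hx.trans ?_
  have h1 : 0 ≤ ‖B.H (w k) x‖ ^ 2 + ‖B.G (w k) x‖ ^ 2 + 1 := by positivity
  have h2 := mul_le_mul_of_nonneg_right (le_abs_self C) h1
  linarith

/-- Caccioppoli (form used here) -/
theorem HDcacc (h : HD B u S0 w A) (hκ : 0 ≤ κ) {f : X → ℝ}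
    (htr : ∀ᵐ x ∂μ, tr (A x) = f x) {χ : X → ℝ} (hχ : IsT χ) (h0 : ∀ x, 0 ≤ χ x)
    (h1 : ∀ x, χ x ≤ 1) {c : ℝ} (hc : ∀ᵐ x ∂μ, ‖B.G χ x‖ ≤ c) :
    ∫ x, χ x ^ 2 * ‖A x‖ ^ 2 ∂μ ≤
      4 * ∫ x in tsupport χ, f x ^ 2 ∂μ +
        (2 * κ + 6 * c ^ 2) * ∫ x in tsupport χ, ‖B.D u x‖ ^ 2 ∂μ := by
  have h2 := (h.cacc hκ hχ h0 h1 hc).2
  have h3 : ∫ x in tsupport χ, tr (A x) ^ 2 ∂μ = ∫ x in tsupport χ, f x ^ 2 ∂μ :=
    integral_congr_ae (ae_restrict_of_ae (by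
      filter_upwards [htr] with x e1
      rw [e1]))
  rwa [h3] at h2

/-- (GB1): the Hessian is in `L²(M)`. -/
theorem memLp_A [ProperSpace X] (h : HD B u S0 w A) (hκ : 0 ≤ κ) {f : X → ℝ} (hf : MemLp f 2 μ)
    (htr : ∀ᵐ x ∂μ, tr (A x) = f x) : MemLp A 2 μ := by
  obtain ⟨c, hc⟩ := exists_cut B.toGradS
  have hfi : Integrable (fun x => f x ^ 2) μ := hf.integrable_sq
  have hDi : Integrable (fun x => ‖B.D u x‖ ^ 2) μ := integrable_normSq (B.D u)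
  set C : ℝ := 4 * ∫ x, f x ^ 2 ∂μ + (2 * κ + 6 * 1 ^ 2) * ∫ x, ‖B.D u x‖ ^ 2 ∂μ with hC
  have hAi : ∀ k, Integrable (fun x => c k x ^ 2 * ‖A x‖ ^ 2) μ := fun k => by
    have h1 : MemLp A 2 (μ.restrict (tsupport (c k))) := (h.toA _ (hc.T k).2.isCompact).mem'
    have h2 : IntegrableOn (fun x => c k x ^ 2 * ‖A x‖ ^ 2) (tsupport (c k)) μ := by
      refine (int_sq h1).bdd_mul
        (((hc.T k).1.continuous.pow 2).aestronglyMeasurable) (c := 1)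
        (Eventually.of_forall fun x => ?_)
      rw [Real.norm_of_nonneg (sq_nonneg _)]
      exact pow_le_one₀ (hc.nn k x) (hc.le1 k x)
    have h3 := (integrable_indicator_iff (isClosed_tsupport (c k)).measurableSet).2 h2
    refine h3.congr (Eventually.of_forall fun x => ?_)
    by_cases hx : x ∈ tsupport (c k)
    · rw [indicator_of_mem hx]
    · rw [indicator_of_notMem hx]
      show (0:ℝ) = c k x ^ 2 * ‖A x‖ ^ 2
      rw [image_eq_zero_of_notMem_tsupport hx]; simp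
  have h1 : ∀ k, ∫ x, c k x ^ 2 * ‖A x‖ ^ 2 ∂μ ≤ C := fun k => by
    refine (HDcacc h hκ htr (hc.T k) (hc.nn k) (hc.le1 k) (hc.G1 k)).trans ?_
    have h2 : ∫ x in tsupport (c k), f x ^ 2 ∂μ ≤ ∫ x, f x ^ 2 ∂μ :=
      setIntegral_le_integral hfi (Eventually.of_forall fun x => sq_nonneg _)
    have h3 : ∫ x in tsupport (c k), ‖B.D u x‖ ^ 2 ∂μ ≤ ∫ x, ‖B.D u x‖ ^ 2 ∂μ :=
      setIntegral_le_integral hDi (Eventually.of_forall fun x => sq_nonneg _)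
    have h4 := mul_le_mul_of_nonneg_left h3 (by positivity : 0 ≤ 2 * κ + 6 * (1:ℝ) ^ 2)
    linarith
  refine (memLp_two_iff_integrable_sq_norm h.Am).2 ⟨(h.Am.norm.pow 2), ?_⟩
  rw [HasFiniteIntegral]
  have h5 : ∫⁻ x, ‖‖A x‖ ^ 2‖ₑ ∂μ ≤ liminf (fun k => ∫⁻ x, ‖c k x ^ 2 * ‖A x‖ ^ 2‖ₑ ∂μ) atTop := by
    have e : ∀ x, ‖‖A x‖ ^ 2‖ₑ = liminf (fun k => ‖c k x ^ 2 * ‖A x‖ ^ 2‖ₑ) atTop := fun x => by
      refine (Tendsto.liminf_eq ?_).symm
      refine tendsto_const_nhds.congr' ?_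
      filter_upwards [hc.ev1 x] with k hk
      rw [hk]; simp
    simp only [e]
    refine lintegral_liminf_le' fun k => ?_
    exact (hAi k).aestronglyMeasurable.enorm
  refine lt_of_le_of_lt (h5.trans ?_) (ENNReal.ofReal_lt_top (r := C))
  refine liminf_le_of_le ⟨0, Eventually.of_forall fun _ => bot_le⟩ fun b hb => ?_
  obtain ⟨k, hk⟩ := hb.exists
  refine hk.trans ?_
  have h6 : ∫⁻ x, ‖c k x ^ 2 * ‖A x‖ ^ 2‖ₑ ∂μ = ENNReal.ofReal (∫ x, c k x ^ 2 * ‖A x‖ ^ 2 ∂μ) := by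
    rw [ofReal_integral_eq_lintegral_ofReal (hAi k)
      (Eventually.of_forall fun x => by positivity)]
    refine lintegral_congr fun x => ?_
    rw [Real.enorm_eq_ofReal (by positivity)]
  rw [h6]
  exact ENNReal.ofReal_le_ofReal (h1 k)

/-! ### truncations of `|Du|²/2` -/

/-- admissible truncation functions -/
structure Tr (θ : ℝ → ℝ) (Θ M : ℝ) : Prop where
  cd : ContDiff ℝ 1 θ
  Θ0 : 0 ≤ Θ
  M0 : 0 ≤ M
  b : ∀ s, 0 ≤ s → |θ s| ≤ Θ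
  b' : ∀ s, 0 ≤ s → |deriv θ s| ≤ Θ
  z : ∀ s, M ≤ s → deriv θ s = 0

variable {θ : ℝ → ℝ} {Θ M : ℝ}

theorem Tr.bsq (hθ : Tr θ Θ M) (g : F n) : |deriv θ (‖g‖ ^ 2 / 2)| * ‖g‖ ^ 2 ≤ Θ * (2 * M) := by
  rcases le_total M (‖g‖ ^ 2 / 2) with h | h
  · rw [hθ.z _ h, abs_zero, zero_mul]
    exact mul_nonneg hθ.Θ0 (mul_nonneg zero_le_two hθ.M0)
  · exact mul_le_mul (hθ.b' _ (by positivity)) (by linarith) (sq_nonneg _) hθ.Θ0

/-- the half square of the gradient -/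
def P (B : BochS n κ X μ) (u : Lp ℝ 2 μ) (x : X) : ℝ := ‖B.D u x‖ ^ 2 / 2

theorem aesm_P (B : BochS n κ X μ) (u : Lp ℝ 2 μ) : AEStronglyMeasurable (P B u) μ :=
  ((continuous_norm.pow 2).div_const 2).comp_aestronglyMeasurable (Lp.aestronglyMeasurable (B.D u))

/-- the candidate gradient of `χ² θ(P)` -/
def DP (B : BochS n κ X μ) (u : Lp ℝ 2 μ) (A : X → S n) (θ : ℝ → ℝ) (χ : X → ℝ) (x : X) : F n :=
  (χ x ^ 2 * deriv θ (P B u x)) • mv (A x) (B.D u x) + (2 * χ x * θ (P B u x)) • B.G χ x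

/-- data for the truncated test functions -/
structure Pk (B : BochS n κ X μ) (w : ℕ → X → ℝ) (Q : ℕ → X → ℝ) : Prop where
  T : ∀ k, IsT (Q k)
  eq : ∀ k, ∀ᵐ x ∂μ, Q k x = ‖B.G (w k) x‖ ^ 2 / 2
  G : ∀ k, ∀ᵐ x ∂μ, B.G (Q k) x = mv (B.H (w k) x) (B.G (w k) x)

theorem exists_Pk (h : HD B u S0 w A) : ∃ Q, Pk B w Q := by
  have := fun k => B.half_sq (h.core k)
  choose Q h1 h2 h3 using this
  exact ⟨Q, h1, h2, h3⟩

/-- the test function `χ² θ(P_k)` -/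
def pk (θ : ℝ → ℝ) (χ : X → ℝ) (Q : ℕ → X → ℝ) (k : ℕ) (x : X) : ℝ := χ x * χ x * θ (Q k x)

theorem isT_pk {Q : ℕ → X → ℝ} (hQ : Pk B w Q) (hθ : Tr θ Θ M) {χ : X → ℝ} (hχ : IsT χ) (k : ℕ) :
    IsT (pk θ χ Q k) :=
  (hχ.mul hχ.1).mul (hθ.cd.locallyLipschitz.comp (hQ.T k).1)

theorem G_pk {Q : ℕ → X → ℝ} (hQ : Pk B w Q) (hθ : Tr θ Θ M) {χ : X → ℝ} (hχ : IsT χ) (k : ℕ) :
    ∀ᵐ x ∂μ, B.G (pk θ χ Q k) x =
      (χ x ^ 2 * deriv θ (‖B.G (w k) x‖ ^ 2 / 2)) • mv (B.H (w k) x) (B.G (w k) x) +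
        (2 * χ x * θ (‖B.G (w k) x‖ ^ 2 / 2)) • B.G χ x := by
  have hcomp : LocallyLipschitz fun y => θ (Q k y) := hθ.cd.locallyLipschitz.comp (hQ.T k).1
  filter_upwards [B.mul (hχ.mul hχ.1).1 hcomp, B.comp (hQ.T k).1 hθ.cd, B.G_sq hχ, hQ.eq k,
    hQ.G k] with x e1 e2 e3 e4 e5
  have e6 : B.G (pk θ χ Q k) x = (χ x * χ x) • B.G (fun y => θ (Q k y)) x +
      θ (Q k x) • B.G (fun y => χ y * χ y) x := e1
  rw [e6, e2, e3, e4, e5]
  module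

/-- elementary bounds for the vector `α mv H G + β g` -/
theorem norm_vec_le {θ : ℝ → ℝ} {Θ M : ℝ} (hθ : Tr θ Θ M) {c t : ℝ} (ht : |t| ≤ c) (Hm : S n)
    (g gx : F n) (hg : ‖gx‖ ≤ c) :
    ‖(t ^ 2 * deriv θ (‖g‖ ^ 2 / 2)) • mv Hm g + (2 * t * θ (‖g‖ ^ 2 / 2)) • gx‖ ^ 2 ≤
      2 * (c ^ 4 * (Θ * (Θ * (2 * M)))) * ‖Hm‖ ^ 2 + 2 * (2 * c ^ 2 * Θ) ^ 2 := by
  have hc : 0 ≤ c := (abs_nonneg _).trans ht
  have hP : 0 ≤ ‖g‖ ^ 2 / 2 := by positivity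
  have h1 := hθ.bsq g
  have h2 := hθ.b' _ hP
  have h3 := hθ.b _ hP
  have hΘ := hθ.Θ0
  set d := deriv θ (‖g‖ ^ 2 / 2) with hd
  have ht2 : t ^ 2 ≤ c ^ 2 := by rw [← sq_abs]; exact pow_le_pow_left₀ (abs_nonneg _) ht 2
  have e1 : ‖(t ^ 2 * d) • mv Hm g‖ ^ 2 ≤ (c ^ 4 * (Θ * (Θ * (2 * M)))) * ‖Hm‖ ^ 2 := by
    rw [norm_smul, mul_pow, Real.norm_eq_abs, sq_abs]
    have f1 := norm_mv_sq_le Hm g
    have f2 : d ^ 2 * ‖g‖ ^ 2 ≤ Θ * (Θ * (2 * M)) := by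
      have : d ^ 2 * ‖g‖ ^ 2 = |d| * (|d| * ‖g‖ ^ 2) := by rw [← sq_abs]; ring
      rw [this]
      exact mul_le_mul h2 h1 (by positivity) hΘ
    have f3 : (t ^ 2) ^ 2 ≤ c ^ 4 := by
      calc (t ^ 2) ^ 2 ≤ (c ^ 2) ^ 2 := pow_le_pow_left₀ (sq_nonneg _) ht2 2
        _ = c ^ 4 := by ring
    calc (t ^ 2 * d) ^ 2 * ‖mv Hm g‖ ^ 2 ≤ (t ^ 2 * d) ^ 2 * (‖Hm‖ ^ 2 * ‖g‖ ^ 2) :=
          mul_le_mul_of_nonneg_left f1 (sq_nonneg _)
      _ = (t ^ 2) ^ 2 * (d ^ 2 * ‖g‖ ^ 2) * ‖Hm‖ ^ 2 := by ring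
      _ ≤ c ^ 4 * (Θ * (Θ * (2 * M))) * ‖Hm‖ ^ 2 := by
          refine mul_le_mul_of_nonneg_right ?_ (sq_nonneg _)
          exact mul_le_mul f3 f2 (by positivity) (by positivity)
  have e2 : ‖(2 * t * θ (‖g‖ ^ 2 / 2)) • gx‖ ^ 2 ≤ (2 * c ^ 2 * Θ) ^ 2 := by
    refine pow_le_pow_left₀ (norm_nonneg _) ?_ 2
    rw [norm_smul, Real.norm_eq_abs, abs_mul, abs_mul, abs_of_pos (by norm_num : (0:ℝ) < 2)]
    calc 2 * |t| * |θ (‖g‖ ^ 2 / 2)| * ‖gx‖ ≤ 2 * c * Θ * c := by gcongr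
      _ = 2 * c ^ 2 * Θ := by ring
  have e3 := norm_add_le ((t ^ 2 * d) • mv Hm g) ((2 * t * θ (‖g‖ ^ 2 / 2)) • gx)
  have e4 := pow_le_pow_left₀ (norm_nonneg _) e3 2
  nlinarith [sq_nonneg (‖(t ^ 2 * d) • mv Hm g‖ - ‖(2 * t * θ (‖g‖ ^ 2 / 2)) • gx‖)]

/-- the truncated function is in `L²` -/
theorem memLp_p (hθ : Tr θ Θ M) {χ : X → ℝ} (hχ : IsT χ) :
    MemLp (fun x => χ x ^ 2 * θ (P B u x)) 2 μ := by
  have h1 : MemLp (fun x => χ x * χ x) 2 μ := (hχ.mul hχ.1).memLp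
  have hm : AEStronglyMeasurable (fun x => θ (P B u x)) μ :=
    hθ.cd.continuous.comp_aestronglyMeasurable (aesm_P B u)
  have h2 := memLp_bdd_smul h1 hm (C := Θ) (Eventually.of_forall fun x => hθ.b _ (by
    unfold P; positivity))
  refine h2.ae_eq (Eventually.of_forall fun x => ?_)
  simp only [smul_eq_mul]
  ring

theorem aesm_DP (h : HD B u S0 w A) (hθ : Tr θ Θ M) {χ : X → ℝ} (hχ : IsT χ) :
    AEStronglyMeasurable (DP B u A θ χ) μ := by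
  have hP : AEStronglyMeasurable (P B u) μ := aesm_P B u
  have hc := hχ.1.continuous.aestronglyMeasurable (μ := μ)
  have h1 : AEStronglyMeasurable (fun x => deriv θ (P B u x)) μ :=
    (hθ.cd.continuous_deriv le_rfl).comp_aestronglyMeasurable hP
  have h2 : AEStronglyMeasurable (fun x => θ (P B u x)) μ :=
    hθ.cd.continuous.comp_aestronglyMeasurable hP
  exact (((hc.pow 2).mul h1).smul (aesm_mv h.Am (Lp.aestronglyMeasurable _))).add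
    (((hc.const_mul 2).mul h2).smul (B.meas hχ.1))

/-- constants for a cut-off -/
theorem cut_const (B : BochS n κ X μ) {χ : X → ℝ} (hχ : IsT χ) : ∃ c : ℝ, 0 ≤ c ∧ (∀ x, |χ x| ≤ c) ∧
    (∀ᵐ x ∂μ, ‖B.G χ x‖ ≤ c) ∧ ∀ᵐ x ∂μ, x ∉ tsupport χ → B.G χ x = 0 := by
  obtain ⟨c, h0, h1, h2⟩ := test_bdd B.toGradS hχ
  exact ⟨c, h0, h1, h2, G_supp B.toGradS hχ⟩

theorem memLp_DP (h : HD B u S0 w A) (hθ : Tr θ Θ M) {χ : X → ℝ} (hχ : IsT χ) :
    MemLp (DP B u A θ χ) 2 μ := by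
  obtain ⟨c, hc0, hc1, hc2, hc3⟩ := cut_const B hχ
  have hK := hχ.2.isCompact
  have hA : MemLp A 2 (μ.restrict (tsupport χ)) := (h.toA _ hK).mem'
  have hi : Integrable (fun x => (tsupport χ).indicator (fun x =>
      2 * (c ^ 4 * (Θ * (Θ * (2 * M)))) * ‖A x‖ ^ 2 + 2 * (2 * c ^ 2 * Θ) ^ 2) x) μ := by
    refine (integrable_indicator_iff (isClosed_tsupport χ).measurableSet).2 ?_
    exact ((int_sq hA).const_mul _).add (integrableOn_const hK.measure_lt_top.ne)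
  refine (memLp_two_iff_integrable_sq_norm (aesm_DP h hθ hχ)).2 (hi.mono'
    ((aesm_DP h hθ hχ).norm.pow 2) ?_)
  filter_upwards [hc2, hc3] with x e1 e2
  rw [Real.norm_of_nonneg (sq_nonneg _)]
  by_cases hx : x ∈ tsupport χ
  · rw [indicator_of_mem hx]
    exact norm_vec_le hθ (hc1 x) (A x) (B.D u x) (B.G χ x) e1
  · rw [indicator_of_notMem hx]
    simp only [DP]
    rw [e2 hx, image_eq_zero_of_notMem_tsupport hx]
    simp

/-- pointwise limit of the gradients of the truncated test functions -/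
theorem tendsto_G_pk (h : HD B u S0 w A) {Q : ℕ → X → ℝ} (hQ : Pk B w Q) (hθ : Tr θ Θ M)
    {χ : X → ℝ} (hχ : IsT χ) :
    ∀ᵐ x ∂μ, Tendsto (fun k => B.G (pk θ χ Q k) x) atTop (𝓝 (DP B u A θ χ x)) := by
  have h1 : ∀ᵐ x ∂μ, ∀ k, B.G (pk θ χ Q k) x =
      (χ x ^ 2 * deriv θ (‖B.G (w k) x‖ ^ 2 / 2)) • mv (B.H (w k) x) (B.G (w k) x) +
        (2 * χ x * θ (‖B.G (w k) x‖ ^ 2 / 2)) • B.G χ x := ae_all_iff.2 fun k => G_pk hQ hθ hχ k
  filter_upwards [h1, h.aeD, h.aeA] with x e1 e2 e3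
  simp only [e1]
  have hP : Tendsto (fun k => ‖B.G (w k) x‖ ^ 2 / 2) atTop (𝓝 (P B u x)) :=
    ((e2.norm).pow 2).div_const 2
  have hd : Tendsto (fun k => deriv θ (‖B.G (w k) x‖ ^ 2 / 2)) atTop (𝓝 (deriv θ (P B u x))) :=
    ((hθ.cd.continuous_deriv le_rfl).tendsto _).comp hP
  have ht : Tendsto (fun k => θ (‖B.G (w k) x‖ ^ 2 / 2)) atTop (𝓝 (θ (P B u x))) :=
    (hθ.cd.continuous.tendsto _).comp hP
  have hmv : Tendsto (fun k => mv (B.H (w k) x) (B.G (w k) x)) atTop (𝓝 (mv (A x) (B.D u x))) :=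
    (continuous_mv.tendsto _).comp (e3.prodMk_nhds e2)
  exact ((hd.const_mul _).smul hmv).add ((ht.const_mul _).smul_const _)

theorem tendsto_pk (h : HD B u S0 w A) {Q : ℕ → X → ℝ} (hQ : Pk B w Q) (hθ : Tr θ Θ M)
    {χ : X → ℝ} :
    ∀ᵐ x ∂μ, Tendsto (fun k => pk θ χ Q k x) atTop (𝓝 (χ x ^ 2 * θ (P B u x))) := by
  have h1 : ∀ᵐ x ∂μ, ∀ k, Q k x = ‖B.G (w k) x‖ ^ 2 / 2 := ae_all_iff.2 fun k => hQ.eq k
  filter_upwards [h1, h.aeD] with x e1 e2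
  have hP : Tendsto (fun k => ‖B.G (w k) x‖ ^ 2 / 2) atTop (𝓝 (P B u x)) :=
    ((e2.norm).pow 2).div_const 2
  have ht : Tendsto (fun k => θ (‖B.G (w k) x‖ ^ 2 / 2)) atTop (𝓝 (θ (P B u x))) :=
    (hθ.cd.continuous.tendsto _).comp hP
  have h3 := ht.const_mul (χ x ^ 2)
  refine h3.congr fun k => ?_
  simp only [pk, e1 k, pow_two]

theorem pk_bd {Q : ℕ → X → ℝ} (hQ : Pk B w Q) (hθ : Tr θ Θ M) {χ : X → ℝ} {c : ℝ}
    (hc : ∀ x, |χ x| ≤ c) (k : ℕ) : ∀ᵐ x ∂μ, |pk θ χ Q k x| ≤ c ^ 2 * Θ := by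
  filter_upwards [hQ.eq k] with x e1
  simp only [pk, e1, abs_mul]
  have h1 := hθ.b (‖B.G (w k) x‖ ^ 2 / 2) (by positivity)
  have h2 := hc x
  have h0 : 0 ≤ c := (abs_nonneg _).trans h2
  calc |χ x| * |χ x| * |θ (‖B.G (w k) x‖ ^ 2 / 2)| ≤ c * c * Θ := by gcongr
    _ = c ^ 2 * Θ := by ring

/-- **truncation lemma** -/
theorem trunc_mem (h : HD B u S0 w A) (hθ : Tr θ Θ M) {χ : X → ℝ} (hχ : IsT χ) :
    (memLp_p (B := B) (u := u) hθ hχ).toLp _ ∈ B.V ∧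
      (B.D ((memLp_p (B := B) (u := u) hθ hχ).toLp _) : X → F n) =ᵐ[μ] DP B u A θ χ := by
  obtain ⟨Q, hQ⟩ := exists_Pk h
  obtain ⟨c, hc0, hc1, hc2, hc3⟩ := cut_const B hχ
  have hK := hχ.2.isCompact
  have hT := isT_pk hQ hθ hχ
  set p : Lp ℝ 2 μ := (memLp_p (B := B) (u := u) hθ hχ).toLp _ with hp
  have hpc : (p : X → ℝ) =ᵐ[μ] fun x => χ x ^ 2 * θ (P B u x) := MemLp.coeFn_toLp _
  set g : Lp (F n) 2 μ := (memLp_DP h hθ hχ).toLp _ with hg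
  have hgc : (g : X → F n) =ᵐ[μ] DP B u A θ χ := MemLp.coeFn_toLp _
  have t1 : Tendsto (fun k => (tL (hT k) : Lp ℝ 2 μ)) atTop (𝓝 p) := by
    have hb : MemLp ((tsupport χ).indicator fun _ => c ^ 2 * Θ + c ^ 2 * Θ) 2 μ :=
      memLp_indicator_const 2 (isClosed_tsupport χ).measurableSet _
        (Or.inr hK.measure_lt_top.ne)
    refine tendsto_dom hb (fun k => ?_) ?_
    · filter_upwards [coe_tL (μ := μ) (hT k), hpc, pk_bd hQ hθ hc1 k] with x e1 e2 e3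
      rw [e1, e2]
      by_cases hx : x ∈ tsupport χ
      · rw [indicator_of_mem hx]
        refine (norm_sub_le _ _).trans (add_le_add e3 ?_)
        rw [Real.norm_eq_abs, abs_mul, abs_pow]
        have := hθ.b (P B u x) (by unfold P; positivity)
        exact mul_le_mul (pow_le_pow_left₀ (abs_nonneg _) (hc1 x) 2) this (abs_nonneg _)
          (by positivity)
      · rw [indicator_of_notMem hx]
        simp only [pk]
        rw [image_eq_zero_of_notMem_tsupport hx]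
        simp
    · have h5 : ∀ᵐ x ∂μ, ∀ k, (tL (hT k) : Lp ℝ 2 μ) x = pk θ χ Q k x :=
        ae_all_iff.2 fun k => coe_tL (hT k)
      filter_upwards [h5, hpc, tendsto_pk h hQ hθ (χ := χ)] with x e1 e2 e3
      simp only [e1, e2]
      exact e3
  have t2 : Tendsto (fun k => B.D (tL (hT k))) atTop (𝓝 g) := by
    rw [tendsto_iff_norm_sub_tendsto_zero]
    have h6 : Tendsto (fun k => ∫ x, ‖B.G (pk θ χ Q k) x - DP B u A θ χ x‖ ^ 2 ∂μ) atTop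
        (𝓝 (∫ _ : X, (0:ℝ) ∂μ)) := by
      have hDi := int_sq (memLp_DP h hθ hχ)
      refine (HDlim h hK (b := fun x => 2 * ‖DP B u A θ χ x‖ ^ 2) (hDi.const_mul 2)
        (C := 2 * (2 * (c ^ 4 * (Θ * (Θ * (2 * M)))) + 2 * (2 * c ^ 2 * Θ) ^ 2))
        (T := fun k x => ‖B.G (pk θ χ Q k) x - DP B u A θ χ x‖ ^ 2) (fun k => ?_) (fun k => ?_)
        (fun k => ?_) ?_).2
      · exact ((B.meas (hT k).1).sub (aesm_DP h hθ hχ)).norm.pow 2
      · filter_upwards [G_pk hQ hθ hχ k, hc2] with x e1 e2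
        rw [abs_of_nonneg (sq_nonneg _)]
        have e3 := norm_vec_le hθ (hc1 x) (B.H (w k) x) (B.G (w k) x) (B.G χ x) e2
        rw [← e1] at e3
        have e4 := norm_sub_le (B.G (pk θ χ Q k) x) (DP B u A θ χ x)
        have e5 := pow_le_pow_left₀ (norm_nonneg _) e4 2
        have e6 : 0 ≤ c ^ 4 * (Θ * (Θ * (2 * M))) := by
          have := hθ.Θ0
          have := hθ.M0
          positivity
        have e7 : 0 ≤ (2 * c ^ 2 * Θ) ^ 2 := sq_nonneg _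
        set a := ‖B.H (w k) x‖ ^ 2 with ha
        set b := ‖B.G (w k) x‖ ^ 2 with hb
        have ha0 : 0 ≤ a := sq_nonneg _
        have hb0 : 0 ≤ b := sq_nonneg _
        set K1 := c ^ 4 * (Θ * (Θ * (2 * M))) with hK1
        set K2 := (2 * c ^ 2 * Θ) ^ 2 with hK2
        have f1 : 2 * ‖B.G (pk θ χ Q k) x‖ ^ 2 ≤ 2 * (2 * K1 + 2 * K2) * (a + b + 1) := by
          nlinarith [mul_nonneg e6 hb0, mul_nonneg e7 hb0, mul_nonneg e6 ha0, mul_nonneg e7 ha0]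
        nlinarith [sq_nonneg (‖B.G (pk θ χ Q k) x‖ - ‖DP B u A θ χ x‖)]
      · filter_upwards [G_pk hQ hθ hχ k, hc3] with x e1 e2 hx
        rw [e1]
        simp only [DP]
        rw [e2 hx, image_eq_zero_of_notMem_tsupport hx]
        simp
      · filter_upwards [tendsto_G_pk h hQ hθ hχ] with x e1
        have := ((tendsto_iff_norm_sub_tendsto_zero.1 e1).pow 2)
        simpa using this
    rw [integral_zero] at h6
    have h7 : (fun k => ‖B.D (tL (hT k)) - g‖) =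
        fun k => Real.sqrt (∫ x, ‖B.G (pk θ χ Q k) x - DP B u A θ χ x‖ ^ 2 ∂μ) := by
      funext k
      rw [← Real.sqrt_sq (norm_nonneg (B.D (tL (hT k)) - g)), normSq]
      congr 1
      refine integral_congr_ae ?_
      filter_upwards [Lp.coeFn_sub (B.D (tL (hT k))) g, B.D_tL (hT k), hgc] with x e1 e2 e3
      rw [e1, Pi.sub_apply, e2, e3]
    rw [h7]
    simpa using h6.sqrt
  obtain ⟨hV, hD⟩ := B.D_closed (fun k => B.tL_mem (hT k)) t1 t2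
  exact ⟨hV, by rw [hD]; exact hgc⟩

end Crest.Agent.R247.Gb593
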