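import Crest.Agent.R247.Gb1_593

/-!
R247, block (5-GB) (helper593), part 2: Bochner tested with `χ² θ(|Du|²/2)`, weak equation tested
in `V`, the gradient bound (GB2).
-/

set_option autoImplicit false
set_option linter.unusedSectionVars false

open MeasureTheory Filter Topology Set
open scoped RealInnerProductSpace ENNReal NNReal

noncomputable section

namespace Crest.Agent.R247.Gb593

open Crest.Agent.R247.Dir593 Crest.Agent.R247.Dir593.GradS Crest.Agent.R247.Hes124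
  Crest.Agent.R247.Hes124.BochS

theorem abs_T_le {a g τ s1 s2 p r c1 c2 Cp CR nn : ℝ} (hp : |p| ≤ Cp)
    (hr : |r| ≤ CR * g ^ 2) (hs1 : |s1| ≤ c1 * (a ^ 2 + g ^ 2)) (hτ : τ ^ 2 ≤ nn * a ^ 2)
    (hs2 : s2 ^ 2 ≤ c2 * (a ^ 2 + g ^ 2)) (hCR : 0 ≤ CR) (hc1 : 0 ≤ c1) (hc2 : 0 ≤ c2)
    (hnn : 0 ≤ nn) :
    |p * (a ^ 2 + r) + s1 - τ * (p * τ + s2)| ≤
      (Cp + Cp * CR + c1 + Cp * nn + nn + c2) * (a ^ 2 + g ^ 2 + 1) := by
  have hCp : 0 ≤ Cp := (abs_nonneg _).trans hp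
  have h1 : |p * (a ^ 2 + r)| ≤ Cp * (a ^ 2 + CR * g ^ 2) := by
    rw [abs_mul]
    refine mul_le_mul hp ?_ (abs_nonneg _) hCp
    refine (abs_add_le _ _).trans ?_
    rw [abs_of_nonneg (sq_nonneg a)]
    linarith
  have h2 : |τ * (p * τ + s2)| ≤ Cp * (nn * a ^ 2) + (nn * a ^ 2 + c2 * (a ^ 2 + g ^ 2)) / 2 := by
    have e : τ * (p * τ + s2) = p * τ ^ 2 + τ * s2 := by ring
    rw [e]
    refine (abs_add_le _ _).trans (add_le_add ?_ ?_)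
    · rw [abs_mul, abs_of_nonneg (sq_nonneg τ)]
      exact mul_le_mul hp hτ (sq_nonneg _) hCp
    · rw [abs_mul]
      have := two_mul_le_add_sq |τ| |s2|
      rw [sq_abs, sq_abs] at this
      linarith
  have h3 : |p * (a ^ 2 + r) + s1 - τ * (p * τ + s2)| ≤
      |p * (a ^ 2 + r)| + |s1| + |τ * (p * τ + s2)| :=
    (abs_sub _ _).trans (by linarith [abs_add_le (p * (a ^ 2 + r)) s1])
  have ha := sq_nonneg a
  have hg := sq_nonneg g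
  have e1 : 0 ≤ Cp * a ^ 2 := by positivity
  have e2 : 0 ≤ Cp * g ^ 2 := by positivity
  have e3 : 0 ≤ Cp * CR * a ^ 2 := by positivity
  have e4 : 0 ≤ Cp * nn * g ^ 2 := by positivity
  have e5 : 0 ≤ nn * g ^ 2 := by positivity
  have e6 : 0 ≤ c2 * g ^ 2 := by positivity
  have e7 : 0 ≤ c2 * a ^ 2 := by positivity
  have e8 : 0 ≤ nn * a ^ 2 := by positivity
  have e9 : 0 ≤ Cp * CR := by positivity
  have e10 : 0 ≤ Cp * nn := by positivity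
  nlinarith

variable {n : ℕ} {κ : ℝ} {X : Type*} [MetricSpace X] [MeasurableSpace X] [BorelSpace X]
  {μ : Measure X} [IsFiniteMeasureOnCompacts μ]
variable {B : BochS n κ X μ} {u : Lp ℝ 2 μ} {S0 : ℝ} {w : ℕ → X → ℝ} {A : X → S n}
variable {θ : ℝ → ℝ} {Θ M : ℝ}

/-- scalar bounds for the pairings of `α mv H G + β g` -/
theorem pair_bounds (hθ : Tr θ Θ M) {c t : ℝ} (ht : |t| ≤ c) (Hm : S n) (g gx : F n)
    (hg : ‖gx‖ ≤ c) :
    |⟪(t ^ 2 * deriv θ (‖g‖ ^ 2 / 2)) • mv Hm g + (2 * t * θ (‖g‖ ^ 2 / 2)) • gx, mv Hm g⟫| ≤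
        (c ^ 2 * (Θ * (2 * M)) + c ^ 2 * Θ) * (‖Hm‖ ^ 2 + ‖g‖ ^ 2) ∧
      ⟪(t ^ 2 * deriv θ (‖g‖ ^ 2 / 2)) • mv Hm g + (2 * t * θ (‖g‖ ^ 2 / 2)) • gx, g⟫ ^ 2 ≤
        (2 * (c ^ 2 * (Θ * (2 * M))) ^ 2 + 2 * (2 * c ^ 2 * Θ) ^ 2) * (‖Hm‖ ^ 2 + ‖g‖ ^ 2) := by
  have hc : 0 ≤ c := (abs_nonneg _).trans ht
  have hP : 0 ≤ ‖g‖ ^ 2 / 2 := by positivity
  have h1 := hθ.bsq g
  have h3 := hθ.b _ hP
  have hΘ := hθ.Θ0
  have hM := hθ.M0
  set d := deriv θ (‖g‖ ^ 2 / 2) with hd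
  set b := θ (‖g‖ ^ 2 / 2) with hb
  have ht2 : t ^ 2 ≤ c ^ 2 := by rw [← sq_abs]; exact pow_le_pow_left₀ (abs_nonneg _) ht 2
  have hmv := norm_mv_le Hm g
  have hmv2 := norm_mv_sq_le Hm g
  constructor
  · rw [inner_add_left, real_inner_smul_left, real_inner_smul_left, real_inner_self_eq_norm_sq]
    refine (abs_add_le _ _).trans ?_
    have e1 : |t ^ 2 * d * ‖mv Hm g‖ ^ 2| ≤ c ^ 2 * (Θ * (2 * M)) * ‖Hm‖ ^ 2 := by
      rw [abs_mul, abs_mul, abs_of_nonneg (sq_nonneg t), abs_of_nonneg (sq_nonneg ‖mv Hm g‖)]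
      calc t ^ 2 * |d| * ‖mv Hm g‖ ^ 2 ≤ t ^ 2 * |d| * (‖Hm‖ ^ 2 * ‖g‖ ^ 2) := by gcongr
        _ = t ^ 2 * (|d| * ‖g‖ ^ 2) * ‖Hm‖ ^ 2 := by ring
        _ ≤ c ^ 2 * (Θ * (2 * M)) * ‖Hm‖ ^ 2 := by gcongr
    have e2 : |2 * t * b * ⟪gx, mv Hm g⟫| ≤ c ^ 2 * Θ * (‖Hm‖ ^ 2 + ‖g‖ ^ 2) := by
      rw [abs_mul, abs_mul, abs_mul, abs_of_pos (by norm_num : (0:ℝ) < 2)]
      calc 2 * |t| * |b| * |⟪gx, mv Hm g⟫| ≤ 2 * c * Θ * (c * (‖Hm‖ * ‖g‖)) := by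
            gcongr
            exact (abs_real_inner_le_norm _ _).trans (by gcongr)
        _ = c ^ 2 * Θ * (2 * ‖Hm‖ * ‖g‖) := by ring
        _ ≤ c ^ 2 * Θ * (‖Hm‖ ^ 2 + ‖g‖ ^ 2) := by
            gcongr
            exact two_mul_le_add_sq _ _
    have e3 : 0 ≤ c ^ 2 * (Θ * (2 * M)) * ‖g‖ ^ 2 := by positivity
    nlinarith
  · rw [inner_add_left, real_inner_smul_left, real_inner_smul_left]
    have e1 : (t ^ 2 * d * ⟪mv Hm g, g⟫) ^ 2 ≤ (c ^ 2 * (Θ * (2 * M))) ^ 2 * ‖Hm‖ ^ 2 := by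
      rw [← sq_abs, ← mul_pow]
      refine pow_le_pow_left₀ (abs_nonneg _) ?_ 2
      rw [abs_mul, abs_mul, abs_of_nonneg (sq_nonneg t)]
      calc t ^ 2 * |d| * |⟪mv Hm g, g⟫| ≤ t ^ 2 * |d| * ((‖Hm‖ * ‖g‖) * ‖g‖) := by
            gcongr
            exact (abs_real_inner_le_norm _ _).trans (by gcongr)
        _ = t ^ 2 * (|d| * ‖g‖ ^ 2) * ‖Hm‖ := by ring
        _ ≤ c ^ 2 * (Θ * (2 * M)) * ‖Hm‖ := by gcongr
    have e2 : (2 * t * b * ⟪gx, g⟫) ^ 2 ≤ (2 * c ^ 2 * Θ) ^ 2 * ‖g‖ ^ 2 := by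
      rw [← sq_abs, ← mul_pow]
      refine pow_le_pow_left₀ (abs_nonneg _) ?_ 2
      rw [abs_mul, abs_mul, abs_mul, abs_of_pos (by norm_num : (0:ℝ) < 2)]
      calc 2 * |t| * |b| * |⟪gx, g⟫| ≤ 2 * c * Θ * (c * ‖g‖) := by
            gcongr
            exact (abs_real_inner_le_norm _ _).trans (by gcongr)
        _ = 2 * c ^ 2 * Θ * ‖g‖ := by ring
    have e3 : 0 ≤ (c ^ 2 * (Θ * (2 * M))) ^ 2 * ‖g‖ ^ 2 := by positivity
    have e4 : 0 ≤ (2 * c ^ 2 * Θ) ^ 2 * ‖Hm‖ ^ 2 := by positivity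
    nlinarith [sq_nonneg (t ^ 2 * d * ⟪mv Hm g, g⟫ - 2 * t * b * ⟪gx, g⟫)]

/-- the integrand of Bochner with a general test function `p` and its gradient `v` -/
def Tb (B : BochS n κ X μ) (H : X → S n) (G : X → F n) (p : X → ℝ) (v : X → F n) (x : X) : ℝ :=
  p x * (‖H x‖ ^ 2 + ⟪mv (B.Ric x) (G x), G x⟫) + ⟪v x, mv (H x) (G x)⟫ -
    tr (H x) * (p x * tr (H x) + ⟪v x, G x⟫)

/-- **Bochner tested with the truncation** -/
theorem boch_trunc (h : HD B u S0 w A) (hθ : Tr θ Θ M) {χ : X → ℝ} (hχ : IsT χ) :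
    Integrable (Tb B A (B.D u) (fun x => χ x ^ 2 * θ (P B u x)) (DP B u A θ χ)) μ ∧
      ∫ x, Tb B A (B.D u) (fun x => χ x ^ 2 * θ (P B u x)) (DP B u A θ χ) x ∂μ = 0 := by
  obtain ⟨Q, hQ⟩ := exists_Pk h
  obtain ⟨c, hc0, hc1, hc2, hc3⟩ := cut_const B hχ
  have hK := hχ.2.isCompact
  have hT := isT_pk hQ hθ hχ
  obtain ⟨CR, hCR0, hCR⟩ := B.Ric_bdd' (tsupport χ) hK
  have hΘ := hθ.Θ0
  have hM := hθ.M0
  have hlim := HDlim h hK (b := fun _ => 0) (integrable_zero _ _ _)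
    (C := (c ^ 2 * Θ) + (c ^ 2 * Θ) * CR + (c ^ 2 * (Θ * (2 * M)) + c ^ 2 * Θ) +
      (c ^ 2 * Θ) * n + n + (2 * (c ^ 2 * (Θ * (2 * M))) ^ 2 + 2 * (2 * c ^ 2 * Θ) ^ 2))
    (T := fun k => Tb B (B.H (w k)) (B.G (w k)) (pk θ χ Q k) (B.G (pk θ χ Q k)))
    (T' := Tb B A (B.D u) (fun x => χ x ^ 2 * θ (P B u x)) (DP B u A θ χ)) ?_ ?_ ?_ ?_
  · refine ⟨hlim.1, ?_⟩
    have h0 : ∀ k, ∫ x, Tb B (B.H (w k)) (B.G (w k)) (pk θ χ Q k) (B.G (pk θ χ Q k)) x ∂μ = 0 := by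
      intro k
      have hb := B.bochner (h.core k) (hT k)
      have i1 := B.int_lhs (h.core k) (hT k)
      have i2 := B.int_rhs1 (h.core k) (hT k)
      have i3 := B.int_rhs2 (h.core k) (hT k)
      unfold Tb
      have i12 : Integrable (fun x => pk θ χ Q k x * (‖B.H (w k) x‖ ^ 2 +
        ⟪mv (B.Ric x) (B.G (w k) x), B.G (w k) x⟫) +
          ⟪B.G (pk θ χ Q k) x, mv (B.H (w k) x) (B.G (w k) x)⟫) μ := i1.add i2
      rw [integral_sub i12 i3, integral_add i1 i2, hb]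
      ring
    have := hlim.2
    simp only [h0] at this
    exact (tendsto_nhds_unique this tendsto_const_nhds)
  · intro k
    have m1 := B.H_meas (h.core k)
    have m2 : AEStronglyMeasurable (B.G (w k)) μ := (B.G_memLp (h.core k)).1
    have m3 : AEStronglyMeasurable (pk θ χ Q k) μ := (hT k).1.continuous.aestronglyMeasurable
    have m4 : AEStronglyMeasurable (B.G (pk θ χ Q k)) μ := B.meas (hT k).1
    exact ((m3.mul ((m1.norm.pow 2).add ((aesm_mv B.Ric_meas m2).inner m2))).add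
      (m4.inner (aesm_mv m1 m2))).sub ((aesm_tr m1).mul ((m3.mul (aesm_tr m1)).add (m4.inner m2)))
  · intro k
    filter_upwards [G_pk hQ hθ hχ k, hc2, pk_bd hQ hθ hc1 k, hCR] with x e1 e2 e3 e4
    rw [add_zero]
    obtain ⟨f1, f2⟩ := pair_bounds hθ (hc1 x) (B.H (w k) x) (B.G (w k) x) (B.G χ x) e2
    rw [← e1] at f1 f2
    by_cases hx : x ∈ tsupport χ
    · refine abs_T_le e3 ?_ f1 (tr_sq_le _) f2 hCR0 (by positivity) (by positivity) (by positivity)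
      calc |⟪mv (B.Ric x) (B.G (w k) x), B.G (w k) x⟫|
          ≤ ‖mv (B.Ric x) (B.G (w k) x)‖ * ‖B.G (w k) x‖ := abs_real_inner_le_norm _ _
        _ ≤ (‖B.Ric x‖ * ‖B.G (w k) x‖) * ‖B.G (w k) x‖ := by gcongr; exact norm_mv_le _ _
        _ ≤ (CR * ‖B.G (w k) x‖) * ‖B.G (w k) x‖ := by gcongr; exact e4 hx
        _ = CR * ‖B.G (w k) x‖ ^ 2 := by ring
    · have hχ0 : χ x = 0 := image_eq_zero_of_notMem_tsupport hx
      have hp0 : pk θ χ Q k x = 0 := by simp [pk, hχ0]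
      have hG0 : B.G (pk θ χ Q k) x = 0 := by rw [e1, hχ0]; simp
      have hT0 : Tb B (B.H (w k)) (B.G (w k)) (pk θ χ Q k) (B.G (pk θ χ Q k)) x = 0 := by
        simp [Tb, hp0, hG0]
      rw [hT0, abs_zero]
      positivity
  · intro k
    filter_upwards [G_pk hQ hθ hχ k] with x e1 hx
    have hχ0 : χ x = 0 := image_eq_zero_of_notMem_tsupport hx
    have hp0 : pk θ χ Q k x = 0 := by simp [pk, hχ0]
    have hG0 : B.G (pk θ χ Q k) x = 0 := by rw [e1, hχ0]; simp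
    simp [Tb, hp0, hG0]
  · filter_upwards [tendsto_pk h hQ hθ (χ := χ), tendsto_G_pk h hQ hθ hχ, h.aeD, h.aeA]
      with x e1 e2 e3 e4
    have e5 : Tendsto (fun k => tr (B.H (w k) x)) atTop (𝓝 (tr (A x))) :=
      (continuous_tr.tendsto _).comp e4
    have e6 : Tendsto (fun k => mv (B.H (w k) x) (B.G (w k) x)) atTop
        (𝓝 (mv (A x) (B.D u x))) := (continuous_mv.tendsto _).comp (e4.prodMk_nhds e3)
    have e7 : Tendsto (fun k => mv (B.Ric x) (B.G (w k) x)) atTop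
        (𝓝 (mv (B.Ric x) (B.D u x))) :=
      (continuous_mv.tendsto _).comp (tendsto_const_nhds.prodMk_nhds e3)
    unfold Tb
    exact ((e1.mul (((e4.norm).pow 2).add (e7.inner e3))).add (e2.inner e6)).sub
      (e5.mul ((e1.mul e5).add (e2.inner e3)))

/-! ### the weak equation tested in `V` -/

/-- the weak equation extends to `V` -/
theorem weak_V {u f : Lp ℝ 2 μ}
    (hw : ∀ p, IsT p → ∫ x, ⟪B.D u x, B.G p x⟫ ∂μ = - ∫ x, f x * p x ∂μ) {p : Lp ℝ 2 μ}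
    (hp : p ∈ B.V) : ∫ x, ⟪B.D u x, B.D p x⟫ ∂μ = - ∫ x, f x * p x ∂μ := by
  obtain ⟨q, hq, h1, h2⟩ := B.exists_seq hp
  have e1 : ∀ k, (⟪B.D u, B.D (tL (hq k))⟫ : ℝ) = -⟪f, (tL (hq k) : Lp ℝ 2 μ)⟫ := fun k => by
    rw [L2.inner_def, L2.inner_def]
    have a1 : ∫ x, ⟪B.D u x, B.D (tL (hq k)) x⟫ ∂μ = ∫ x, ⟪B.D u x, B.G (q k) x⟫ ∂μ := by
      refine integral_congr_ae ?_
      filter_upwards [B.D_tL (hq k)] with x hx
      rw [hx]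
    have a2 : ∫ x, (inner ℝ (f x) ((tL (hq k) : Lp ℝ 2 μ) x) : ℝ) ∂μ = ∫ x, f x * q k x ∂μ := by
      refine integral_congr_ae ?_
      filter_upwards [coe_tL (μ := μ) (hq k)] with x hx
      rw [hx]
      simp [mul_comm]
    rw [a1, a2]
    exact hw _ (hq k)
  have l1 : Tendsto (fun k => (⟪B.D u, B.D (tL (hq k))⟫ : ℝ)) atTop (𝓝 ⟪B.D u, B.D p⟫) :=
    tendsto_const_nhds.inner h2
  have l2 : Tendsto (fun k => -(⟪f, (tL (hq k) : Lp ℝ 2 μ)⟫ : ℝ)) atTop (𝓝 (-⟪f, p⟫)) :=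
    (tendsto_const_nhds.inner h1).neg
  have e2 := tendsto_nhds_unique (l1.congr e1) l2
  rw [L2.inner_def, L2.inner_def] at e2
  rw [e2]
  congr 1
  refine integral_congr_ae (Eventually.of_forall fun x => ?_)
  simp [mul_comm]

/-- the weak equation tested with `f p` -/
theorem weak_fp {u f : Lp ℝ 2 μ} (hf : f ∈ B.V) {C : ℝ} (hC : 0 ≤ C)
    (hfb : ∀ᵐ x ∂μ, |f x| ≤ C)
    (hw : ∀ p, IsT p → ∫ x, ⟪B.D u x, B.G p x⟫ ∂μ = - ∫ x, f x * p x ∂μ) {p : Lp ℝ 2 μ}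
    (hp : p ∈ B.V) (hpb : ∀ᵐ x ∂μ, |p x| ≤ C) :
    Integrable (fun x => f x * (p x * f x + ⟪B.D p x, B.D u x⟫) + p x * ⟪B.D f x, B.D u x⟫) μ ∧
      ∫ x, (f x * (p x * f x + ⟪B.D p x, B.D u x⟫) + p x * ⟪B.D f x, B.D u x⟫) ∂μ = 0 := by
  have hm : MemLp (fun x => f x * p x) 2 μ := by
    have := memLp_smul (Lp.aestronglyMeasurable f) hfb p
    exact this
  set v : Lp ℝ 2 μ := hm.toLp _ with hv
  have hvc : (v : X → ℝ) =ᵐ[μ] fun x => f x * p x := MemLp.coeFn_toLp _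
  obtain ⟨hvV, hD⟩ := B.D_mul hf hp hC hfb hpb hvc
  have h1 := weak_V hw hvV
  have e1 : ∀ᵐ x ∂μ, ⟪B.D u x, B.D v x⟫ = f x * ⟪B.D p x, B.D u x⟫ + p x * ⟪B.D f x, B.D u x⟫ := by
    filter_upwards [hD] with x hx
    rw [hx, inner_add_right, real_inner_smul_right, real_inner_smul_right,
      real_inner_comm (B.D p x), real_inner_comm (B.D f x)]
  have e2 : ∀ᵐ x ∂μ, f x * v x = f x * (p x * f x) := by
    filter_upwards [hvc] with x hx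
    rw [hx]; ring
  have i1 : Integrable (fun x => ⟪B.D u x, B.D v x⟫) μ := L2.integrable_inner (𝕜 := ℝ) _ _
  have i2 : Integrable (fun x => f x * v x) μ := by
    have := L2.integrable_inner (𝕜 := ℝ) v f
    refine this.congr (Eventually.of_forall fun x => ?_)
    simp
  have i3 : Integrable (fun x => ⟪B.D u x, B.D v x⟫ + f x * v x) μ := i1.add i2
  have e3 : ∀ᵐ x ∂μ, ⟪B.D u x, B.D v x⟫ + f x * v x =
      f x * (p x * f x + ⟪B.D p x, B.D u x⟫) + p x * ⟪B.D f x, B.D u x⟫ := by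
    filter_upwards [e1, e2] with x a1 a2
    rw [a1, a2]; ring
  refine ⟨i3.congr e3, ?_⟩
  rw [← integral_congr_ae e3, integral_add i1 i2, h1]
  ring

end Crest.Agent.R247.Gb593
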