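import Crest.Agent.R247.Gb3_593

/-!
R247, block (5-GB) (helper593), part 4: `P = |Du|²/2 ∈ V` with `DP = mv A (Du)` (GB3) and the weak
Bochner identity for all bounded `p ∈ V` (GB4).
-/

set_option autoImplicit false
set_option linter.unusedSectionVars false

open MeasureTheory Filter Topology Set
open scoped RealInnerProductSpace ENNReal NNReal

noncomputable section

namespace Crest.Agent.R247.Gb593

open Crest.Agent.R247.Dir593 Crest.Agent.R247.Dir593.GradS Crest.Agent.R247.Hes124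
  Crest.Agent.R247.Hes124.BochS

variable {n : ℕ} {κ : ℝ} {X : Type*} [MetricSpace X] [MeasurableSpace X] [BorelSpace X]
  {μ : Measure X} [IsFiniteMeasureOnCompacts μ]
variable {B : BochS n κ X μ} {u : Lp ℝ 2 μ} {S0 : ℝ} {w : ℕ → X → ℝ} {A : X → S n}
variable {θ : ℝ → ℝ} {Θ M R : ℝ}

/-! ### `P ∈ V` -/

theorem memLp_P (hR : ∀ᵐ x ∂μ, ‖B.D u x‖ ≤ R) : MemLp (P B u) 2 μ := by
  have h1 : MemLp (fun x => (R / 2) • ‖B.D u x‖) 2 μ := ((Lp.memLp (B.D u)).norm).const_smul (R / 2)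
  refine h1.mono (aesm_P B u) ?_
  filter_upwards [hR] with x hx
  have h0 : 0 ≤ R := (norm_nonneg _).trans hx
  rw [Real.norm_of_nonneg (by unfold P; positivity), Real.norm_of_nonneg (by
    rw [smul_eq_mul]; positivity)]
  unfold P
  rw [smul_eq_mul]
  nlinarith [norm_nonneg (B.D u x)]

theorem memLp_mvA (hA : MemLp A 2 μ) (hR : ∀ᵐ x ∂μ, ‖B.D u x‖ ≤ R) :
    MemLp (fun x => mv (A x) (B.D u x)) 2 μ :=
  memLp_mv hA (Lp.aestronglyMeasurable _) hR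

/-- (GB3) -/
theorem P_mem [ProperSpace X] (h : HD B u S0 w A) (hA : MemLp A 2 μ)
    (hR : ∀ᵐ x ∂μ, ‖B.D u x‖ ≤ R) :
    (memLp_P hR).toLp (P B u) ∈ B.V ∧
      (B.D ((memLp_P hR).toLp (P B u)) : X → F n) =ᵐ[μ] fun x => mv (A x) (B.D u x) := by
  obtain ⟨c, hc⟩ := exists_cut B.toGradS
  set a : ℝ := R ^ 2 / 2 with ha
  have ha0 : 0 ≤ a := by positivity
  have hPa : ∀ᵐ x ∂μ, P B u x ≤ a := by
    filter_upwards [hR] with x hx
    have := pow_le_pow_left₀ (norm_nonneg _) hx 2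
    unfold P; rw [ha]; linarith
  have hθ := tr_idt ha0
  set v : Lp ℝ 2 μ := (memLp_P hR).toLp (P B u) with hv
  have hvc : (v : X → ℝ) =ᵐ[μ] P B u := MemLp.coeFn_toLp _
  set g : Lp (F n) 2 μ := (memLp_mvA hA hR).toLp _ with hg
  have hgc : (g : X → F n) =ᵐ[μ] fun x => mv (A x) (B.D u x) := MemLp.coeFn_toLp _
  set p : ℕ → Lp ℝ 2 μ := fun k => (memLp_p (B := B) (u := u) hθ (hc.T k)).toLp _ with hp
  have hpc : ∀ᵐ x ∂μ, ∀ k, p k x = c k x ^ 2 * idt a (P B u x) :=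
    ae_all_iff.2 fun k => MemLp.coeFn_toLp _
  have hm : ∀ k, p k ∈ B.V := fun k => (trunc_mem h hθ (hc.T k)).1
  have hD : ∀ᵐ x ∂μ, ∀ k, B.D (p k) x = DP B u A (idt a) (c k) x :=
    ae_all_iff.2 fun k => (trunc_mem h hθ (hc.T k)).2
  have hG1 : ∀ᵐ x ∂μ, ∀ k, ‖B.G (c k) x‖ ≤ 1 := ae_all_iff.2 hc.G1
  have t1 : Tendsto p atTop (𝓝 v) := by
    refine tendsto_dom (b := fun x => ‖P B u x‖) (memLp_P hR).norm (fun k => ?_) ?_
    · filter_upwards [hpc, hvc, hPa] with x e1 e2 e3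
      rw [e1 k, e2, idt_eq e3]
      have e4 : c k x ^ 2 * P B u x - P B u x = (c k x ^ 2 - 1) * P B u x := by ring
      rw [e4, norm_mul]
      refine mul_le_of_le_one_left (norm_nonneg _) ?_
      rw [Real.norm_eq_abs, abs_le]
      have e5 := pow_le_one₀ (n := 2) (hc.nn k x) (hc.le1 k x)
      have e6 := sq_nonneg (c k x)
      constructor <;> linarith
    · filter_upwards [hpc, hvc, hPa] with x e1 e2 e3
      simp only [e1, e2, idt_eq e3]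
      have := ((hc.tendsto1 x).pow 2).mul_const (P B u x)
      simpa using this
  have t2 : Tendsto (fun k => B.D (p k)) atTop (𝓝 g) := by
    have hb : MemLp (fun x => ‖mv (A x) (B.D u x)‖ + 2 * ‖P B u x‖) 2 μ :=
      (memLp_mvA hA hR).norm.add ((memLp_P hR).norm.const_mul 2)
    refine tendsto_dom hb (fun k => ?_) ?_
    · filter_upwards [hD, hgc, hPa, hG1] with x e1 e2 e3 e4
      rw [e1 k, e2]
      simp only [DP]
      rw [idt_eq e3, deriv_idt_eq e3, mul_one]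
      have e5 : c k x ^ 2 • mv (A x) (B.D u x) + (2 * c k x * P B u x) • B.G (c k) x -
          mv (A x) (B.D u x) = (c k x ^ 2 - 1) • mv (A x) (B.D u x) +
            (2 * c k x * P B u x) • B.G (c k) x := by module
      rw [e5]
      refine (norm_add_le _ _).trans (add_le_add ?_ ?_)
      · rw [norm_smul]
        refine mul_le_of_le_one_left (norm_nonneg _) ?_
        rw [Real.norm_eq_abs, abs_le]
        have e5 := pow_le_one₀ (n := 2) (hc.nn k x) (hc.le1 k x)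
        have e6 := sq_nonneg (c k x)
        constructor <;> linarith
      · rw [norm_smul, norm_mul, norm_mul, Real.norm_of_nonneg (by norm_num : (0:ℝ) ≤ 2),
          Real.norm_of_nonneg (hc.nn k x)]
        have e6 := e4 k
        have e7 := hc.le1 k x
        have e8 := hc.nn k x
        calc 2 * c k x * ‖P B u x‖ * ‖B.G (c k) x‖ ≤ 2 * 1 * ‖P B u x‖ * 1 := by gcongr
          _ = 2 * ‖P B u x‖ := by ring
    · filter_upwards [hD, hgc, hPa, hc.tendsto0] with x e1 e2 e3 e4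
      simp only [e1, e2, DP, idt_eq e3, deriv_idt_eq e3, mul_one]
      have h1 := ((hc.tendsto1 x).pow 2).smul_const (mv (A x) (B.D u x))
      have h2 := (((hc.tendsto1 x).const_mul 2).mul_const (P B u x)).smul e4
      have h3 := h1.add h2
      simpa using h3
  obtain ⟨h1, h2⟩ := B.D_closed hm t1 t2
  exact ⟨h1, by rw [h2]; exact hgc⟩

/-! ### weak Bochner -/

/-- density of the Bochner measure -/
def bm (B : BochS n κ X μ) (u : Lp ℝ 2 μ) (A : X → S n) (x : X) : ℝ :=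
  ‖A x‖ ^ 2 + ⟪mv (B.Ric x) (B.D u x), B.D u x⟫

theorem aesm_bm (h : HD B u S0 w A) : AEStronglyMeasurable (bm B u A) μ :=
  (h.Am.norm.pow 2).add ((aesm_mv B.Ric_meas (Lp.aestronglyMeasurable _)).inner
    (Lp.aestronglyMeasurable _))

/-- the density is bounded below by `‖A‖² - κ |Du|²` -/
theorem bm_ge (B : BochS n κ X μ) (u : Lp ℝ 2 μ) (A : X → S n) :
    ∀ᵐ x ∂μ, ‖A x‖ ^ 2 - κ * ‖B.D u x‖ ^ 2 ≤ bm B u A x := by
  filter_upwards [B.Ric_lb] with x hx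
  have := hx (B.D u x)
  unfold bm
  linarith

theorem tr_one : Tr (fun _ => (1:ℝ)) 1 0 where
  cd := contDiff_const
  Θ0 := zero_le_one
  M0 := le_rfl
  b := fun _ _ => by simp
  b' := fun _ _ => by simp
  z := fun _ _ => by simp

/-- bounded exhausting integrals give integrability -/
theorem integrable_of_cut {S : GradS X (F n) μ} {c : ℕ → X → ℝ} (hc : Cut S c) {g : X → ℝ}
    (hg : AEStronglyMeasurable g μ) (h0 : ∀ᵐ x ∂μ, 0 ≤ g x)
    (hi : ∀ k, Integrable (fun x => c k x ^ 2 * g x) μ) {C : ℝ}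
    (hC : ∀ k, ∫ x, c k x ^ 2 * g x ∂μ ≤ C) : Integrable g μ := by
  refine ⟨hg, ?_⟩
  rw [HasFiniteIntegral]
  have h5 : ∫⁻ x, ‖g x‖ₑ ∂μ ≤ liminf (fun k => ∫⁻ x, ‖c k x ^ 2 * g x‖ₑ ∂μ) atTop := by
    have e : ∀ x, ‖g x‖ₑ = liminf (fun k => ‖c k x ^ 2 * g x‖ₑ) atTop := fun x => by
      refine (Tendsto.liminf_eq ?_).symm
      refine tendsto_const_nhds.congr' ?_
      filter_upwards [hc.ev1 x] with k hk
      rw [hk]; simp
    simp only [e]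
    refine lintegral_liminf_le' fun k => ?_
    exact (hi k).aestronglyMeasurable.enorm
  refine lt_of_le_of_lt (h5.trans ?_) (ENNReal.ofReal_lt_top (r := C))
  refine liminf_le_of_le ⟨0, Eventually.of_forall fun _ => bot_le⟩ fun b hb => ?_
  obtain ⟨k, hk⟩ := hb.exists
  refine hk.trans ?_
  have h7 : 0 ≤ᵐ[μ] fun x => c k x ^ 2 * g x := by
    filter_upwards [h0] with x hx
    exact mul_nonneg (sq_nonneg _) hx
  have h6 : ∫⁻ x, ‖c k x ^ 2 * g x‖ₑ ∂μ = ENNReal.ofReal (∫ x, c k x ^ 2 * g x ∂μ) := by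
    rw [ofReal_integral_eq_lintegral_ofReal (hi k) h7]
    refine lintegral_congr_ae ?_
    filter_upwards [h7] with x hx
    rw [Real.enorm_eq_ofReal hx]
  rw [h6]
  exact ENNReal.ofReal_le_ofReal (hC k)

/-- the Bochner density is integrable -/
theorem int_bm [ProperSpace X] (h : HD B u S0 w A) (hκ : 0 ≤ κ) {f : Lp ℝ 2 μ} {C : ℝ}
    (hE : Eqn B u f C A) (hA : MemLp A 2 μ) : Integrable (bm B u A) μ := by
  obtain ⟨c, hc⟩ := exists_cut B.toGradS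
  have iD := int_Du u B
  have iAD : Integrable (fun x => ‖A x‖ * ‖B.D u x‖) μ := int_norm_mul hA (Lp.memLp (B.D u))
  have iff : Integrable (fun x => (⟪B.D f x, B.D u x⟫ : ℝ)) μ := L2.integrable_inner (𝕜 := ℝ) _ _
  have iff' : Integrable (fun x => |(⟪B.D f x, B.D u x⟫ : ℝ)|) μ := iff.abs
  set g : X → ℝ := fun x => bm B u A x + κ * ‖B.D u x‖ ^ 2 with hg
  have hgm : AEStronglyMeasurable g μ := (aesm_bm h).add (iD.1.const_mul κ)
  have hg0 : ∀ᵐ x ∂μ, 0 ≤ g x := by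
    filter_upwards [bm_ge B u A] with x hx
    have := sq_nonneg ‖A x‖
    simp only [hg]
    linarith
  have hcm : ∀ k, AEStronglyMeasurable (c k) μ := fun k =>
    (hc.T k).1.continuous.aestronglyMeasurable
  have hcb : ∀ k x, ‖c k x ^ 2‖ ≤ 1 := fun k x => by
    rw [Real.norm_of_nonneg (sq_nonneg _)]
    exact pow_le_one₀ (hc.nn k x) (hc.le1 k x)
  have iX : ∀ k, Integrable (fun x => 2 * c k x * ⟪B.G (c k) x, mv (A x) (B.D u x)⟫) μ ∧
      ∫ x, |2 * c k x * ⟪B.G (c k) x, mv (A x) (B.D u x)⟫| ∂μ ≤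
        ∫ x, 2 * (‖A x‖ * ‖B.D u x‖) ∂μ := fun k => by
    have hb : ∀ᵐ x ∂μ, |2 * c k x * ⟪B.G (c k) x, mv (A x) (B.D u x)⟫| ≤
        2 * (‖A x‖ * ‖B.D u x‖) := by
      filter_upwards [hc.G1 k] with x hx
      rw [abs_mul, abs_mul, abs_of_pos (by norm_num : (0:ℝ) < 2), abs_of_nonneg (hc.nn k x)]
      have g1 : |⟪B.G (c k) x, mv (A x) (B.D u x)⟫| ≤ 1 * (‖A x‖ * ‖B.D u x‖) :=
        (abs_real_inner_le_norm _ _).trans (mul_le_mul hx (norm_mv_le _ _) (norm_nonneg _)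
          zero_le_one)
      have g2 := hc.le1 k x
      have g3 := hc.nn k x
      calc 2 * c k x * |⟪B.G (c k) x, mv (A x) (B.D u x)⟫|
          ≤ 2 * 1 * (1 * (‖A x‖ * ‖B.D u x‖)) := by gcongr
        _ = 2 * (‖A x‖ * ‖B.D u x‖) := by ring
    have hi : Integrable (fun x => 2 * c k x * ⟪B.G (c k) x, mv (A x) (B.D u x)⟫) μ :=
      (iAD.const_mul 2).mono' (((hcm k).const_mul 2).mul
        ((B.meas (hc.T k).1).inner (aesm_mv h.Am (Lp.aestronglyMeasurable _)))) hb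
    exact ⟨hi, integral_mono_ae hi.abs (iAD.const_mul 2) hb⟩
  -- `E2` with `θ = 1`
  have hE2 : ∀ k, Integrable (fun x => c k x ^ 2 * (bm B u A x + ⟪B.D f x, B.D u x⟫) +
      2 * c k x * ⟪B.G (c k) x, mv (A x) (B.D u x)⟫) μ ∧
      ∫ x, (c k x ^ 2 * (bm B u A x + ⟪B.D f x, B.D u x⟫) +
      2 * c k x * ⟪B.G (c k) x, mv (A x) (B.D u x)⟫) ∂μ = 0 := fun k => by
    obtain ⟨i1, e1⟩ := E2 h hE tr_one (hc.T k)
    have e : ∀ x, c k x ^ 2 * 1 * (‖A x‖ ^ 2 +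
        ⟪mv (B.Ric x) (B.D u x), B.D u x⟫ + ⟪B.D f x, B.D u x⟫) +
        ⟪DP B u A (fun _ => (1:ℝ)) (c k) x, mv (A x) (B.D u x)⟫ =
        c k x ^ 2 * (bm B u A x + ⟪B.D f x, B.D u x⟫) +
      2 * c k x * ⟪B.G (c k) x, mv (A x) (B.D u x)⟫ := fun x => by
      simp only [DP, bm]
      rw [deriv_const, mul_zero, zero_smul, zero_add, mul_one, real_inner_smul_left, mul_one]
    refine ⟨i1.congr (Eventually.of_forall e), ?_⟩
    rw [← e1]
    exact integral_congr_ae (Eventually.of_forall fun x => (e x).symm)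
  have i2 : ∀ k, Integrable (fun x => c k x ^ 2 * (⟪B.D f x, B.D u x⟫ : ℝ)) μ := fun k =>
    iff.bdd_mul ((hcm k).pow 2) (c := 1) (Eventually.of_forall (hcb k))
  have i3 : ∀ k, Integrable (fun x => c k x ^ 2 * (κ * ‖B.D u x‖ ^ 2)) μ := fun k =>
    (iD.const_mul κ).bdd_mul ((hcm k).pow 2) (c := 1) (Eventually.of_forall (hcb k))
  have e4 : ∀ k x, c k x ^ 2 * g x = (c k x ^ 2 * (bm B u A x + ⟪B.D f x, B.D u x⟫) +
      2 * c k x * ⟪B.G (c k) x, mv (A x) (B.D u x)⟫) + (c k x ^ 2 * (κ * ‖B.D u x‖ ^ 2) -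
        c k x ^ 2 * (⟪B.D f x, B.D u x⟫ : ℝ) - 2 * c k x * ⟪B.G (c k) x, mv (A x) (B.D u x)⟫) :=
    fun k x => by simp only [hg]; ring
  have i5 : ∀ k, Integrable (fun x => c k x ^ 2 * (κ * ‖B.D u x‖ ^ 2) -
        c k x ^ 2 * (⟪B.D f x, B.D u x⟫ : ℝ) -
          2 * c k x * ⟪B.G (c k) x, mv (A x) (B.D u x)⟫) μ := fun k =>
    ((i3 k).sub (i2 k)).sub (iX k).1
  have i4 : ∀ k, Integrable (fun x => c k x ^ 2 * g x) μ := fun k =>
    ((hE2 k).1.add (i5 k)).congr (Eventually.of_forall fun x => (e4 k x).symm)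
  have hgi : Integrable g μ := by
    refine integrable_of_cut hc hgm hg0 i4 (C := κ * ∫ x, ‖B.D u x‖ ^ 2 ∂μ +
      ∫ x, |(⟪B.D f x, B.D u x⟫ : ℝ)| ∂μ + ∫ x, 2 * (‖A x‖ * ‖B.D u x‖) ∂μ) fun k => ?_
    have e6 : ∫ x, c k x ^ 2 * g x ∂μ = ∫ x, (c k x ^ 2 * (κ * ‖B.D u x‖ ^ 2) -
        c k x ^ 2 * (⟪B.D f x, B.D u x⟫ : ℝ) -
          2 * c k x * ⟪B.G (c k) x, mv (A x) (B.D u x)⟫) ∂μ := by
      rw [integral_congr_ae (Eventually.of_forall (e4 k)), integral_add (hE2 k).1 (i5 k),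
        (hE2 k).2, zero_add]
    rw [e6]
    have e7 : ∫ x, (c k x ^ 2 * (κ * ‖B.D u x‖ ^ 2) -
        c k x ^ 2 * (⟪B.D f x, B.D u x⟫ : ℝ) -
          2 * c k x * ⟪B.G (c k) x, mv (A x) (B.D u x)⟫) ∂μ ≤
        ∫ x, (κ * ‖B.D u x‖ ^ 2 + |(⟪B.D f x, B.D u x⟫ : ℝ)| +
          |2 * c k x * ⟪B.G (c k) x, mv (A x) (B.D u x)⟫|) ∂μ := by
      refine integral_mono (i5 k) (((iD.const_mul κ).add iff').add (iX k).1.abs) fun x => ?_
      have f1 : c k x ^ 2 ≤ 1 := pow_le_one₀ (hc.nn k x) (hc.le1 k x)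
      have f2 : c k x ^ 2 * (κ * ‖B.D u x‖ ^ 2) ≤ κ * ‖B.D u x‖ ^ 2 :=
        mul_le_of_le_one_left (by positivity) f1
      have f3 : -(c k x ^ 2 * (⟪B.D f x, B.D u x⟫ : ℝ)) ≤ |(⟪B.D f x, B.D u x⟫ : ℝ)| := by
        refine (neg_le_abs _).trans ?_
        rw [abs_mul, abs_of_nonneg (sq_nonneg _)]
        exact mul_le_of_le_one_left (abs_nonneg _) f1
      have f4 := neg_le_abs (2 * c k x * (⟪B.G (c k) x, mv (A x) (B.D u x)⟫ : ℝ))
      show c k x ^ 2 * (κ * ‖B.D u x‖ ^ 2) - c k x ^ 2 * (⟪B.D f x, B.D u x⟫ : ℝ) -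
          2 * c k x * ⟪B.G (c k) x, mv (A x) (B.D u x)⟫ ≤ κ * ‖B.D u x‖ ^ 2 +
          |(⟪B.D f x, B.D u x⟫ : ℝ)| + |2 * c k x * ⟪B.G (c k) x, mv (A x) (B.D u x)⟫|
      linarith
    refine e7.trans ?_
    have e8 : ∫ x, (κ * ‖B.D u x‖ ^ 2 + |(⟪B.D f x, B.D u x⟫ : ℝ)| +
          |2 * c k x * ⟪B.G (c k) x, mv (A x) (B.D u x)⟫|) ∂μ =
        κ * ∫ x, ‖B.D u x‖ ^ 2 ∂μ + ∫ x, |(⟪B.D f x, B.D u x⟫ : ℝ)| ∂μ +
          ∫ x, |2 * c k x * ⟪B.G (c k) x, mv (A x) (B.D u x)⟫| ∂μ := by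
      have j1 : Integrable (fun x => κ * ‖B.D u x‖ ^ 2) μ := iD.const_mul κ
      have j2 : Integrable (fun x => κ * ‖B.D u x‖ ^ 2 + |(⟪B.D f x, B.D u x⟫ : ℝ)|) μ :=
        j1.add iff'
      rw [integral_add j2 (iX k).1.abs, integral_add j1 iff', integral_const_mul]
    rw [e8]
    have := (iX k).2
    linarith
  refine (hgi.sub (iD.const_mul κ)).congr (Eventually.of_forall fun x => ?_)
  simp only [hg, Pi.sub_apply]
  ring

/-- weak Bochner, test functions -/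
theorem boch_test (h : HD B u S0 w A) {f : Lp ℝ 2 μ} {C : ℝ} (hE : Eqn B u f C A) {p : X → ℝ}
    (hp : IsT p) :
    ∫ x, p x * bm B u A x ∂μ + ∫ x, ⟪B.G p x, mv (A x) (B.D u x)⟫ ∂μ =
      - ∫ x, p x * ⟪B.D f x, B.D u x⟫ ∂μ := by
  obtain ⟨i1, i2, i3, e1⟩ := h.boch hp
  obtain ⟨c, hc0, hc1, hc2, hc3⟩ := cut_const B hp
  have hpb : ∀ᵐ x ∂μ, |(tL hp : Lp ℝ 2 μ) x| ≤ max C c := by
    filter_upwards [coe_tL (μ := μ) hp] with x hx
    rw [hx]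
    exact (hc1 x).trans (le_max_right _ _)
  obtain ⟨i4, e4⟩ := weak_fp hE.fV (le_max_of_le_left hE.C0 : 0 ≤ max C c)
    (hE.fb.mono fun x hx => hx.trans (le_max_left _ _)) hE.wk (B.tL_mem hp) hpb
  have iff : Integrable (fun x => (⟪B.D f x, B.D u x⟫ : ℝ)) μ := L2.integrable_inner (𝕜 := ℝ) _ _
  have i5 : Integrable (fun x => p x * (⟪B.D f x, B.D u x⟫ : ℝ)) μ :=
    iff.bdd_mul hp.1.continuous.aestronglyMeasurable (c := c) (Eventually.of_forall hc1)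
  have e5 : ∫ x, tr (A x) * (p x * tr (A x) + ⟪B.G p x, B.D u x⟫) ∂μ =
      - ∫ x, p x * ⟪B.D f x, B.D u x⟫ ∂μ := by
    rw [eq_neg_iff_add_eq_zero, ← integral_add i3 i5, ← e4]
    refine integral_congr_ae ?_
    filter_upwards [hE.tr, coe_tL (μ := μ) hp, B.D_tL hp] with x a1 a2 a3
    rw [a1, a2, a3]
  rw [e5] at e1
  unfold bm
  rw [e1]
  ring

/-- (GB4) **weak Bochner for bounded `p ∈ V`**. -/
theorem boch_V (h : HD B u S0 w A) {f : Lp ℝ 2 μ} {C : ℝ} (hE : Eqn B u f C A)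
    (hA : MemLp A 2 μ) (hb : Integrable (bm B u A) μ) (hR : ∀ᵐ x ∂μ, ‖B.D u x‖ ≤ R)
    {p : Lp ℝ 2 μ} (hp : p ∈ B.V) {C1 : ℝ} (hpb : ∀ᵐ x ∂μ, |p x| ≤ C1) :
    Integrable (fun x => p x * bm B u A x) μ ∧
    Integrable (fun x => ⟪B.D p x, mv (A x) (B.D u x)⟫) μ ∧
    Integrable (fun x => p x * ⟪B.D f x, B.D u x⟫) μ ∧
    ∫ x, p x * bm B u A x ∂μ + ∫ x, ⟪B.D p x, mv (A x) (B.D u x)⟫ ∂μ =
      - ∫ x, p x * ⟪B.D f x, B.D u x⟫ ∂μ := by
  have hC1 : ∀ᵐ x ∂μ, |p x| ≤ |C1| := hpb.mono fun x hx => hx.trans (le_abs_self _)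
  obtain ⟨q, hq, q1, q2, q3, q4⟩ := B.exists_seq_Icc hp (a := -|C1|) (b := |C1|)
    (by simp) (abs_nonneg _) (hC1.mono fun x hx => (abs_le.1 hx).1)
    (hC1.mono fun x hx => (abs_le.1 hx).2)
  have hqb : ∀ k x, |q k x| ≤ |C1| := fun k x => abs_le.2 (q1 k x)
  have iff : Integrable (fun x => (⟪B.D f x, B.D u x⟫ : ℝ)) μ := L2.integrable_inner (𝕜 := ℝ) _ _
  set g : Lp (F n) 2 μ := (memLp_mvA hA hR).toLp _ with hg
  have hgc : (g : X → F n) =ᵐ[μ] fun x => mv (A x) (B.D u x) := MemLp.coeFn_toLp _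
  have hpm : AEStronglyMeasurable (p : X → ℝ) μ := Lp.aestronglyMeasurable p
  have I1 : Integrable (fun x => p x * bm B u A x) μ :=
    hb.bdd_mul hpm (c := |C1|) hC1
  have I2 : Integrable (fun x => (⟪B.D p x, mv (A x) (B.D u x)⟫ : ℝ)) μ := by
    have := L2.integrable_inner (𝕜 := ℝ) (B.D p) g
    refine this.congr ?_
    filter_upwards [hgc] with x hx
    rw [hx]
  have I3 : Integrable (fun x => p x * (⟪B.D f x, B.D u x⟫ : ℝ)) μ :=
    iff.bdd_mul hpm (c := |C1|) hC1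
  refine ⟨I1, I2, I3, ?_⟩
  have l1 : Tendsto (fun k => ∫ x, q k x * bm B u A x ∂μ) atTop
      (𝓝 (∫ x, p x * bm B u A x ∂μ)) := by
    refine tendsto_integral_of_dominated_convergence (fun x => |C1| * ‖bm B u A x‖)
      (fun k => ((hq k).1.continuous.aestronglyMeasurable).mul hb.1) (hb.norm.const_mul _)
      (fun k => Eventually.of_forall fun x => ?_) ?_
    · rw [norm_mul]
      exact mul_le_mul_of_nonneg_right (hqb k x) (norm_nonneg _)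
    · filter_upwards [q4] with x hx
      exact hx.mul_const _
  have l3 : Tendsto (fun k => ∫ x, q k x * ⟪B.D f x, B.D u x⟫ ∂μ) atTop
      (𝓝 (∫ x, p x * ⟪B.D f x, B.D u x⟫ ∂μ)) := by
    refine tendsto_integral_of_dominated_convergence (fun x => |C1| * ‖(⟪B.D f x, B.D u x⟫ : ℝ)‖)
      (fun k => ((hq k).1.continuous.aestronglyMeasurable).mul iff.1) (iff.norm.const_mul _)
      (fun k => Eventually.of_forall fun x => ?_) ?_
    · rw [norm_mul]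
      exact mul_le_mul_of_nonneg_right (hqb k x) (norm_nonneg _)
    · filter_upwards [q4] with x hx
      exact hx.mul_const _
  have l2 : Tendsto (fun k => ∫ x, ⟪B.G (q k) x, mv (A x) (B.D u x)⟫ ∂μ) atTop
      (𝓝 (∫ x, ⟪B.D p x, mv (A x) (B.D u x)⟫ ∂μ)) := by
    have e1 : ∀ k, (⟪B.D (tL (hq k)), g⟫ : ℝ) = ∫ x, ⟪B.G (q k) x, mv (A x) (B.D u x)⟫ ∂μ :=
      fun k => by
        rw [L2.inner_def]
        refine integral_congr_ae ?_
        filter_upwards [hgc, B.D_tL (hq k)] with x a1 a2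
        rw [a1, a2]
    have e2 : (⟪B.D p, g⟫ : ℝ) = ∫ x, ⟪B.D p x, mv (A x) (B.D u x)⟫ ∂μ := by
      rw [L2.inner_def]
      refine integral_congr_ae ?_
      filter_upwards [hgc] with x a1
      rw [a1]
    rw [← e2]
    have l : Tendsto (fun k => (⟪B.D (tL (hq k)), g⟫ : ℝ)) atTop (𝓝 ⟪B.D p, g⟫) :=
      q3.inner tendsto_const_nhds
    exact l.congr e1
  refine tendsto_nhds_unique (l1.add l2) ?_
  refine l3.neg.congr fun k => ?_
  exact (boch_test h hE (hq k)).symm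

/-- everything known about `u` with weak Laplacian `f` -/
structure Reg (B : BochS n κ X μ) (u f : Lp ℝ 2 μ) (R : ℝ) (A : X → S n) : Prop where
  uV : u ∈ B.V
  fV : f ∈ B.V
  wk : ∀ p : Lp ℝ 2 μ, p ∈ B.V → ∫ x, ⟪B.D u x, B.D p x⟫ ∂μ = - ∫ x, f x * p x ∂μ
  A2 : MemLp A 2 μ
  tr : ∀ᵐ x ∂μ, tr (A x) = f x
  R0 : 0 ≤ R
  Du : ∀ᵐ x ∂μ, ‖B.D u x‖ ≤ R
  P2 : MemLp (P B u) 2 μ
  PV : P2.toLp (P B u) ∈ B.V
  DPV : (B.D (P2.toLp (P B u)) : X → F n) =ᵐ[μ] fun x => mv (A x) (B.D u x)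
  bi : Integrable (bm B u A) μ
  boch : ∀ (p : Lp ℝ 2 μ) (C1 : ℝ), p ∈ B.V → (∀ᵐ x ∂μ, |p x| ≤ C1) →
    Integrable (fun x => p x * bm B u A x) μ ∧
    Integrable (fun x => ⟪B.D p x, mv (A x) (B.D u x)⟫) μ ∧
    Integrable (fun x => p x * ⟪B.D f x, B.D u x⟫) μ ∧
    ∫ x, p x * bm B u A x ∂μ + ∫ x, ⟪B.D p x, mv (A x) (B.D u x)⟫ ∂μ =
      - ∫ x, p x * ⟪B.D f x, B.D u x⟫ ∂μ

/-- **(5-GB), final form**. -/
theorem exists_reg [ProperSpace X] (x0 : X) (hAp : Appr B) (hκ : 0 ≤ κ) {u f : Lp ℝ 2 μ}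
    (hu : u ∈ B.V) (hub : ∀ᵐ x ∂μ, |u x| ≤ S0) (hf : f ∈ B.V) {C : ℝ} (hC : 0 ≤ C)
    (hfb : ∀ᵐ x ∂μ, |f x| ≤ C)
    (hw : ∀ p : X → ℝ, IsT p → ∫ x, ⟪B.D u x, B.G p x⟫ ∂μ = - ∫ x, f x * p x ∂μ)
    {t : ℝ} (ht : 0 < t) (hκt : 2 * κ * t < 1) {A0 : ℝ}
    (hg : ∀ᵐ x ∂μ, ‖B.D u x - t • B.D f x‖ ≤ A0) :
    ∃ (w : ℕ → X → ℝ) (A : X → S n), HD B u (S0 + 1) w A ∧
      (∀ᵐ x ∂μ, Tendsto (fun k => tr (B.H (w k) x)) atTop (𝓝 (f x))) ∧
      Reg B u f (√(A0 ^ 2 / (1 - 2 * κ * t))) A := by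
  obtain ⟨w, A, h, htr, htr'⟩ := exists_HD x0 hAp hκ hu hub (Lp.memLp f) hw
  have hE : Eqn B u f C A := ⟨hf, hC, hfb, hw, htr⟩
  have hA : MemLp A 2 μ := memLp_A h hκ (Lp.memLp f) htr
  have hR : ∀ᵐ x ∂μ, ‖B.D u x‖ ≤ √(A0 ^ 2 / (1 - 2 * κ * t)) := by
    filter_upwards [grad_bound h hκ hE ht hκt hg] with x hx
    exact Real.le_sqrt_of_sq_le hx
  have hb := int_bm h hκ hE hA
  obtain ⟨p1, p2⟩ := P_mem h hA hR
  exact ⟨w, A, h, htr', ⟨hu, hf, fun p hp => weak_V hw hp, hA, htr, Real.sqrt_nonneg _, hR,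
    memLp_P hR, p1, p2, hb, fun p C1 hp hpb => boch_V h hE hA hb hR hp hpb⟩⟩

end Crest.Agent.R247.Gb593
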