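import Crest.Agent.R247.Sv2_436

/-! # R247, fallback for NN: the pointwise barrier

`Q` satisfies `SurvIn`. At almost every `z`, for EVERY `w` with `d(x,z) < d(x,w) < R0`, writing
`a = d(x,z)`, `l = d(x,w)`, `E = a + d(w,z) - l` (the excess of `z` on the pair `x, w`):
`Q z ≤ A a (E + E²/(2(l-a))) + C0 (1 + a/(l-a))`. -/

set_option autoImplicit false
open MeasureTheory Set Filter Topology TopologicalSpace
open scoped ENNReal NNReal

noncomputable section
namespace Crest.Agent.R247.Gk723

open Crest.Agent.R247.Sv436

variable {X : Type*} [MetricSpace X] [MeasurableSpace X] [BorelSpace X] {μ : Measure X}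

/-- the barrier in terms of the excess; all `w` at once. -/
theorem barrier_ae [SeparableSpace X] {h : X → X → ℝ} {R0 : ℝ} (H : HalfSq h R0) {x : X}
    {Q : X → ℝ} {A C0 : ℝ} (hS : SurvIn μ h x Q A C0) :
    ∀ᵐ z ∂μ, 0 < dist x z → ∀ w, dist x z < dist x w → dist x w < R0 → dist w z ≤ R0 →
      Q z ≤ A * (dist x z * ((dist x z + dist w z - dist x w) +
        (dist x z + dist w z - dist x w) ^ 2 / (2 * (dist x w - dist x z)))) +
        C0 * (1 + dist x z / (dist x w - dist x z)) := by
  filter_upwards [surv_ae H hS] with z hz h0 w h1 h2 h3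
  have hl : 0 < dist x w - dist x z := by linarith
  have hw : 0 < dist x w := h0.trans h1
  have key := hz w h2 (dist x z / (dist x w - dist x z)) (by positivity)
  rw [H.near x z (h1.le.trans h2.le), H.near w z h3] at key
  refine key.trans (le_of_eq ?_)
  have e : dist x z ^ 2 / 2 + dist x z / (dist x w - dist x z) * (dist w z ^ 2 / 2) -
      dist x z / (dist x w - dist x z) / (1 + dist x z / (dist x w - dist x z)) *
        (dist x w ^ 2 / 2) =
      dist x z * ((dist x z + dist w z - dist x w) +
        (dist x z + dist w z - dist x w) ^ 2 / (2 * (dist x w - dist x z))) := by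
    have h4 : (1 : ℝ) + dist x z / (dist x w - dist x z) ≠ 0 := by positivity
    field_simp
    ring
  rw [e]

/-- pointwise version for continuous `Q`, every `z` (in the support) and every `w`. -/
theorem barrier [SeparableSpace X] [μ.IsOpenPosMeasure] {h : X → X → ℝ} {R0 : ℝ}
    (H : HalfSq h R0) {x : X} {Q : X → ℝ} {A C0 : ℝ} (hS : SurvIn μ h x Q A C0) {z w : X}
    (hQ : ContinuousAt Q z) (h0 : 0 < dist x z) (h1 : dist x z < dist x w)
    (h2 : dist x w < R0) (h3 : dist w z < R0) :
    Q z ≤ A * (dist x z * ((dist x z + dist w z - dist x w) +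
        (dist x z + dist w z - dist x w) ^ 2 / (2 * (dist x w - dist x z)))) +
        C0 * (1 + dist x z / (dist x w - dist x z)) := by
  have hae := barrier_ae (μ := μ) H hS
  have hd : Dense {z | 0 < dist x z → ∀ w, dist x z < dist x w → dist x w < R0 → dist w z ≤ R0 →
      Q z ≤ A * (dist x z * ((dist x z + dist w z - dist x w) +
        (dist x z + dist w z - dist x w) ^ 2 / (2 * (dist x w - dist x z)))) +
        C0 * (1 + dist x z / (dist x w - dist x z))} := Measure.dense_of_ae hae
  have hfr : ∃ᶠ z' in 𝓝 z, 0 < dist x z' → ∀ w, dist x z' < dist x w → dist x w < R0 →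
      dist w z' ≤ R0 →
      Q z' ≤ A * (dist x z' * ((dist x z' + dist w z' - dist x w) +
        (dist x z' + dist w z' - dist x w) ^ 2 / (2 * (dist x w - dist x z')))) +
        C0 * (1 + dist x z' / (dist x w - dist x z')) := by
    exact mem_closure_iff_frequently.1 (hd z)
  have hev : ∀ᶠ z' in 𝓝 z, 0 < dist x z' ∧ dist x z' < dist x w ∧ dist w z' < R0 := by
    have c1 : Continuous fun z' : X => dist x z' := by fun_prop
    have c2 : Continuous fun z' : X => dist w z' := by fun_prop
    exact (c1.continuousAt.eventually_const_lt h0).and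
      ((c1.continuousAt.eventually_lt_const h1).and (c2.continuousAt.eventually_lt_const h3))
  set G : X → ℝ := fun z' => A * (dist x z' * ((dist x z' + dist w z' - dist x w) +
        (dist x z' + dist w z' - dist x w) ^ 2 / (2 * (dist x w - dist x z')))) +
        C0 * (1 + dist x z' / (dist x w - dist x z')) with hG
  have hGc : ContinuousAt G z := by
    have hl : (dist x w - dist x z) ≠ 0 := by linarith
    have hl2 : 2 * (dist x w - dist x z) ≠ 0 := by simpa using hl
    rw [hG]
    fun_prop (disch := assumption)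
  have h5 : ∃ᶠ z' in 𝓝 z, Q z' ≤ G z' := by
    refine (hfr.and_eventually hev).mono ?_
    rintro z' ⟨p, q1, q2, q3⟩
    exact p q1 w q2 h2 q3.le
  have h6 : Tendsto (fun z' => G z' - Q z') (𝓝 z) (𝓝 (G z - Q z)) := hGc.tendsto.sub hQ.tendsto
  have h7 : 0 ≤ G z - Q z :=
    ge_of_tendsto_of_frequently h6 (h5.mono fun z' hz' => sub_nonneg.2 hz')
  simpa [hG] using sub_nonneg.1 h7

end Crest.Agent.R247.Gk723
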