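import Mathlib

/-!
# R247, block (4): algebra of products of almost projections

Everything here lives in a normed ring (later `H →L[ℝ] H`).
-/

set_option autoImplicit false

namespace Crest.Agent.R247.Glu923

section Ring

variable {A : Type*} [NormedRing A]

theorem mul_one_sub_le {T T₁ : A} {a ε : ℝ} (hT : ‖T‖ ≤ 1) (hR : ‖T - T * T‖ ≤ a)
    (hε : ‖T₁ - T‖ ≤ ε) : ‖T * (1 - T₁)‖ ≤ a + ε := by
  have h : T * (1 - T₁) = (T - T * T) - T * (T₁ - T) := by noncomm_ring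
  rw [h]
  refine (norm_sub_le _ _).trans (add_le_add hR ?_)
  refine (norm_mul_le _ _).trans ?_
  calc ‖T‖ * ‖T₁ - T‖ ≤ 1 * ε := by
        exact mul_le_mul hT hε (norm_nonneg _) zero_le_one
    _ = ε := one_mul _

theorem one_sub_mul_le {T T₁ : A} {a ε : ℝ} (hT : ‖T‖ ≤ 1) (hR : ‖T - T * T‖ ≤ a)
    (hε : ‖T₁ - T‖ ≤ ε) : ‖(1 - T₁) * T‖ ≤ a + ε := by
  have h : (1 - T₁) * T = (T - T * T) - (T₁ - T) * T := by noncomm_ring
  rw [h]
  refine (norm_sub_le _ _).trans (add_le_add hR ?_)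
  refine (norm_mul_le _ _).trans ?_
  calc ‖T₁ - T‖ * ‖T‖ ≤ ε * 1 := by
        exact mul_le_mul hε hT (norm_nonneg _) ((norm_nonneg _).trans hε)
    _ = ε := mul_one _

theorem mul_one_sub_mul_le {T T₁ : A} {a a₁ ε : ℝ} (hT : ‖T‖ ≤ 1) (hR : ‖T - T * T‖ ≤ a)
    (hR₁ : ‖T₁ - T₁ * T₁‖ ≤ a₁) (hε : ‖T₁ - T‖ ≤ ε) :
    ‖T * (1 - T₁) * T‖ ≤ (a + ε) ^ 2 + a₁ := by
  have h : T * (1 - T₁) * T = (T * (1 - T₁)) * ((1 - T₁) * T) + T * (T₁ - T₁ * T₁) * T := by
    noncomm_ring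
  have h1 := mul_one_sub_le hT hR hε
  have h2 := one_sub_mul_le hT hR hε
  have h0 : (0:ℝ) ≤ a + ε := (norm_nonneg _).trans h1
  rw [h]
  refine (norm_add_le _ _).trans (add_le_add ?_ ?_)
  · refine (norm_mul_le _ _).trans ?_
    rw [sq]
    exact mul_le_mul h1 h2 (norm_nonneg _) h0
  · refine (norm_mul_le _ _).trans ?_
    have h3 : ‖T * (T₁ - T₁ * T₁)‖ ≤ 1 * a₁ :=
      (norm_mul_le _ _).trans (mul_le_mul hT hR₁ (norm_nonneg _) zero_le_one)
    have h4 : (0:ℝ) ≤ a₁ := (norm_nonneg _).trans hR₁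
    calc ‖T * (T₁ - T₁ * T₁)‖ * ‖T‖ ≤ (1 * a₁) * 1 :=
          mul_le_mul h3 hT (norm_nonneg _) (by linarith)
      _ = a₁ := by ring

/-- The tangential part of the difference of two almost projections is of second order. -/
theorem mul_sub_mul_le {T T' : A} {a b c : ℝ} (hT : ‖T‖ ≤ 1) (hR : ‖T - T * T‖ ≤ a)
    (hE : ‖T - T'‖ ≤ b) (hRR : ‖(T - T * T) - (T' - T' * T')‖ ≤ c) :
    ‖T * (T - T') * T‖ ≤ 2 * (a * b) + b ^ 2 + c := by
  set E := T - T' with hEdef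
  set R := T - T * T with hRdef
  set R' := T' - T' * T' with hR'def
  have ha : (0:ℝ) ≤ a := (norm_nonneg _).trans hR
  have hb : (0:ℝ) ≤ b := (norm_nonneg _).trans hE
  have hc : (0:ℝ) ≤ c := (norm_nonneg _).trans hRR
  have hT' : T' = T - E := by rw [hEdef]; abel
  have key : T * E * T = (R * E) * T + T * (E * R) + T * (E * E) * T - T * (R - R') * T := by
    rw [hR'def, hT', hRdef]
    noncomm_ring
  rw [key]
  have e1 : ‖(R * E) * T‖ ≤ a * b := by
    refine (norm_mul_le _ _).trans ?_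
    have : ‖R * E‖ ≤ a * b := (norm_mul_le _ _).trans (mul_le_mul hR hE (norm_nonneg _) ha)
    calc ‖R * E‖ * ‖T‖ ≤ (a * b) * 1 :=
          mul_le_mul this hT (norm_nonneg _) (mul_nonneg ha hb)
      _ = a * b := mul_one _
  have e2 : ‖T * (E * R)‖ ≤ a * b := by
    refine (norm_mul_le _ _).trans ?_
    have : ‖E * R‖ ≤ b * a := (norm_mul_le _ _).trans (mul_le_mul hE hR (norm_nonneg _) hb)
    calc ‖T‖ * ‖E * R‖ ≤ 1 * (b * a) :=
          mul_le_mul hT this (norm_nonneg _) zero_le_one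
      _ = a * b := by ring
  have e3 : ‖T * (E * E) * T‖ ≤ b ^ 2 := by
    refine (norm_mul_le _ _).trans ?_
    have : ‖E * E‖ ≤ b * b := (norm_mul_le _ _).trans (mul_le_mul hE hE (norm_nonneg _) hb)
    have h2 : ‖T * (E * E)‖ ≤ 1 * (b * b) :=
      (norm_mul_le _ _).trans (mul_le_mul hT this (norm_nonneg _) zero_le_one)
    calc ‖T * (E * E)‖ * ‖T‖ ≤ (1 * (b * b)) * 1 :=
          mul_le_mul h2 hT (norm_nonneg _) (by positivity)
      _ = b ^ 2 := by ring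
  have e4 : ‖T * (R - R') * T‖ ≤ c := by
    refine (norm_mul_le _ _).trans ?_
    have h2 : ‖T * (R - R')‖ ≤ 1 * c :=
      (norm_mul_le _ _).trans (mul_le_mul hT hRR (norm_nonneg _) zero_le_one)
    calc ‖T * (R - R')‖ * ‖T‖ ≤ (1 * c) * 1 :=
          mul_le_mul h2 hT (norm_nonneg _) (by positivity)
      _ = c := by ring
  calc ‖(R * E) * T + T * (E * R) + T * (E * E) * T - T * (R - R') * T‖
      ≤ ‖(R * E) * T + T * (E * R) + T * (E * E) * T‖ + ‖T * (R - R') * T‖ := norm_sub_le _ _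
    _ ≤ (‖(R * E) * T + T * (E * R)‖ + ‖T * (E * E) * T‖) + ‖T * (R - R') * T‖ := by
        gcongr; exact norm_add_le _ _
    _ ≤ ((‖(R * E) * T‖ + ‖T * (E * R)‖) + ‖T * (E * E) * T‖) + ‖T * (R - R') * T‖ := by
        gcongr; exact norm_add_le _ _
    _ ≤ ((a * b + a * b) + b ^ 2) + c := by gcongr
    _ = 2 * (a * b) + b ^ 2 + c := by ring

/-- The ordered product `T 0 * T 1 * ⋯ * T k`. -/
def chain (T : ℕ → A) : ℕ → A
  | 0 => T 0
  | k + 1 => chain T k * T (k + 1)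

@[simp] theorem chain_zero (T : ℕ → A) : chain T 0 = T 0 := rfl

theorem chain_succ (T : ℕ → A) (k : ℕ) : chain T (k + 1) = chain T k * T (k + 1) := rfl

theorem norm_chain_le {T : ℕ → A} (hT : ∀ k, ‖T k‖ ≤ 1) (k : ℕ) : ‖chain T k‖ ≤ 1 := by
  induction k with
  | zero => exact hT 0
  | succ k ih =>
    rw [chain_succ]
    refine (norm_mul_le _ _).trans ?_
    exact mul_le_one₀ ih (norm_nonneg _) (hT _)

theorem norm_chain_mul_le {T : ℕ → A} (hT : ∀ k, ‖T k‖ ≤ 1) (k : ℕ) (Y : A) :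
    ‖chain T k * Y‖ ≤ ‖T k * Y‖ := by
  cases k with
  | zero => exact le_rfl
  | succ k =>
    rw [chain_succ, mul_assoc]
    refine (norm_mul_le _ _).trans ?_
    calc ‖chain T k‖ * ‖T (k + 1) * Y‖ ≤ 1 * ‖T (k + 1) * Y‖ := by
          gcongr; exact norm_chain_le hT k
      _ = _ := one_mul _

theorem chain_succ_sub (T : ℕ → A) (k : ℕ) :
    chain T (k + 1) - chain T k = -(chain T k * (1 - T (k + 1))) := by
  rw [chain_succ]; noncomm_ring

theorem dchain_succ (T T' : ℕ → A) (k : ℕ) :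
    chain T (k + 1) - chain T' (k + 1) =
      (chain T k - chain T' k) * T (k + 1) + chain T' k * (T (k + 1) - T' (k + 1)) := by
  rw [chain_succ, chain_succ]; noncomm_ring

end Ring

end Crest.Agent.R247.Glu923
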