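import Crest.Agent.R247.Glu1_923

/-!
# R247, block (4): two products of almost projections
-/

set_option autoImplicit false

namespace Crest.Agent.R247.Glu923

section Ring

variable {A : Type*} [NormedRing A]

/-- A sequence of almost projections `T k` with errors `e k`. -/
structure IsChain (T : ℕ → A) (e : ℕ → ℝ) : Prop where
  e_nonneg : ∀ k, 0 ≤ e k
  e_le : ∀ k, e k ≤ 1 / 10
  norm_le : ∀ k, ‖T k‖ ≤ 1
  norm_one_sub_le : ∀ k, ‖1 - T k‖ ≤ 1
  sq : ∀ k, ‖T k - T k * T k‖ ≤ e k ^ 2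
  step : ∀ k, ‖T (k + 1) - T k‖ ≤ e k + e (k + 1)

namespace IsChain

variable {T : ℕ → A} {e : ℕ → ℝ}

theorem mul_one_sub (h : IsChain T e) (k : ℕ) :
    ‖T k * (1 - T (k + 1))‖ ≤ 2 * (e k + e (k + 1)) := by
  have h1 := mul_one_sub_le (h.norm_le k) (h.sq k) (h.step k)
  have := h.e_nonneg k
  have := h.e_nonneg (k + 1)
  have := h.e_le k
  nlinarith

theorem one_sub_mul (h : IsChain T e) (k : ℕ) :
    ‖(1 - T (k + 1)) * T k‖ ≤ 2 * (e k + e (k + 1)) := by
  have h1 := one_sub_mul_le (h.norm_le k) (h.sq k) (h.step k)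
  have := h.e_nonneg k
  have := h.e_nonneg (k + 1)
  have := h.e_le k
  nlinarith

theorem one_sub_mul' (h : IsChain T e) (k : ℕ) :
    ‖(1 - T k) * T (k + 1)‖ ≤ 2 * (e k + e (k + 1)) := by
  have h0 : ‖T k - T (k + 1)‖ ≤ e k + e (k + 1) := by
    rw [norm_sub_rev]; exact h.step k
  have h1 := one_sub_mul_le (h.norm_le (k + 1)) (h.sq (k + 1)) h0
  have := h.e_nonneg k
  have := h.e_nonneg (k + 1)
  have := h.e_le (k + 1)
  nlinarith

theorem mul_one_sub_mul (h : IsChain T e) (k : ℕ) :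
    ‖T k * (1 - T (k + 1)) * T k‖ ≤ 5 * (e k + e (k + 1)) ^ 2 := by
  have h1 := mul_one_sub_mul_le (h.norm_le k) (h.sq k) (h.sq (k + 1)) (h.step k)
  have a := h.e_nonneg k
  have b := h.e_nonneg (k + 1)
  have c := h.e_le k
  have d : e k ^ 2 + (e k + e (k + 1)) ≤ 2 * (e k + e (k + 1)) := by nlinarith
  have d' : (e k ^ 2 + (e k + e (k + 1))) ^ 2 ≤ (2 * (e k + e (k + 1))) ^ 2 := by
    apply pow_le_pow_left₀ (by positivity) d
  nlinarith

theorem mul_one_sub_mul' (h : IsChain T e) (k : ℕ) :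
    ‖T (k + 1) * (1 - T k) * T (k + 1)‖ ≤ 5 * (e k + e (k + 1)) ^ 2 := by
  have h0 : ‖T k - T (k + 1)‖ ≤ e k + e (k + 1) := by
    rw [norm_sub_rev]; exact h.step k
  have h1 := mul_one_sub_mul_le (h.norm_le (k + 1)) (h.sq (k + 1)) (h.sq k) h0
  have a := h.e_nonneg k
  have b := h.e_nonneg (k + 1)
  have c := h.e_le (k + 1)
  have d : e (k + 1) ^ 2 + (e k + e (k + 1)) ≤ 2 * (e k + e (k + 1)) := by nlinarith
  have d' : (e (k + 1) ^ 2 + (e k + e (k + 1))) ^ 2 ≤ (2 * (e k + e (k + 1))) ^ 2 := by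
    apply pow_le_pow_left₀ (by positivity) d
  nlinarith

end IsChain

/-- The recursive bound for the tangential holonomy. -/
noncomputable def tau (e : ℕ → ℝ) : ℕ → ℝ
  | 0 => 0
  | k + 1 => tau e k / 2 + 10 * (e k ^ 2 + e (k + 1) ^ 2)

theorem tau_nonneg (e : ℕ → ℝ) (k : ℕ) : 0 ≤ tau e k := by
  induction k with
  | zero => exact le_rfl
  | succ k ih => simp only [tau]; positivity

theorem sum_tau_add_le (e : ℕ → ℝ) (n : ℕ) :
    (∑ k ∈ Finset.range (n + 1), tau e k) + tau e n ≤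
      20 * ∑ k ∈ Finset.range n, (e k ^ 2 + e (k + 1) ^ 2) := by
  induction n with
  | zero => simp [tau]
  | succ n ih =>
    rw [Finset.sum_range_succ, Finset.sum_range_succ (fun k => e k ^ 2 + e (k + 1) ^ 2)]
    have h1 : tau e (n + 1) = tau e n / 2 + 10 * (e n ^ 2 + e (n + 1) ^ 2) := rfl
    have : (∑ k ∈ Finset.range (n + 1), tau e k) + tau e (n + 1) + tau e (n + 1) =
      ((∑ k ∈ Finset.range (n + 1), tau e k) + tau e n) + 20 * (e n ^ 2 + e (n + 1) ^ 2) := by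
      rw [h1]; ring
    linarith

theorem sum_sq_pair_le {e : ℕ → ℝ} {δ : ℝ} (hδ : ∀ n, ∑ k ∈ Finset.range n, e k ^ 2 ≤ δ) (n : ℕ) :
    ∑ k ∈ Finset.range n, (e k ^ 2 + e (k + 1) ^ 2) ≤ 2 * δ := by
  rw [Finset.sum_add_distrib]
  have h1 := hδ n
  have h2 : ∑ k ∈ Finset.range n, e (k + 1) ^ 2 ≤ δ := by
    have h3 := hδ (n + 1)
    rw [Finset.sum_range_succ'] at h3
    have := sq_nonneg (e 0)
    linarith
  linarith

theorem sum_tau_le {e : ℕ → ℝ} {δ : ℝ} (hδ : ∀ n, ∑ k ∈ Finset.range n, e k ^ 2 ≤ δ) (n : ℕ) :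
    ∑ k ∈ Finset.range n, tau e k ≤ 40 * δ := by
  have hδ0 : 0 ≤ δ := by simpa using hδ 0
  cases n with
  | zero => simp; exact hδ0
  | succ n =>
    have h1 := sum_tau_add_le e n
    have h2 := sum_sq_pair_le hδ n
    have := tau_nonneg e n
    linarith

theorem tau_le {e : ℕ → ℝ} {δ : ℝ} (hδ : ∀ n, ∑ k ∈ Finset.range n, e k ^ 2 ≤ δ) (n : ℕ) :
    tau e n ≤ 20 * δ := by
  have hδ0 : 0 ≤ δ := by simpa using hδ 0
  cases n with
  | zero => simp [tau]; exact hδ0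
  | succ n =>
    have h1 := sum_tau_add_le e (n + 1)
    have h2 := sum_sq_pair_le hδ (n + 1)
    rw [Finset.sum_range_succ] at h1
    have h3 : 0 ≤ ∑ k ∈ Finset.range (n + 1), tau e k :=
      Finset.sum_nonneg fun k _ => tau_nonneg e k
    linarith

/-- Two chains at points whose distance is `s k` times the `k`-th scale. -/
structure IsPair (T T' : ℕ → A) (e s : ℕ → ℝ) (m : ℕ) : Prop where
  norm_le' : ∀ k, ‖T' k‖ ≤ 1
  s_nonneg : ∀ k, 0 ≤ s k
  s_le : ∀ k, k ≤ m → s k ≤ 1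
  s_succ : ∀ k, s (k + 1) = 2 * s k
  zero : T 0 = T' 0
  sub_le : ∀ k, k ≤ m → ‖T k - T' k‖ ≤ e k * s k
  sq_sub_le : ∀ k, k ≤ m →
    ‖(T k - T k * T k) - (T' k - T' k * T' k)‖ ≤ e k ^ 2 * s k

section pair

variable {T T' : ℕ → A} {e s : ℕ → ℝ} {m : ℕ}

theorem norm_dchain_le (T T' : ℕ → A) (k : ℕ) :
    ‖chain T k - chain T' k‖ ≤
      ‖(chain T k - chain T' k) * T k‖ + ‖(chain T k - chain T' k) * (1 - T k)‖ := by
  have : chain T k - chain T' k =
      (chain T k - chain T' k) * T k + (chain T k - chain T' k) * (1 - T k) := by noncomm_ring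
  calc ‖chain T k - chain T' k‖ = ‖(chain T k - chain T' k) * T k +
        (chain T k - chain T' k) * (1 - T k)‖ := by rw [← this]
    _ ≤ _ := norm_add_le _ _

theorem nstep (h : IsChain T e) (p : IsPair T T' e s m) {k : ℕ} (hk : k + 1 ≤ m) :
    ‖(chain T (k + 1) - chain T' (k + 1)) * (1 - T (k + 1))‖ ≤
      (‖(chain T k - chain T' k) * T k‖ + ‖(chain T k - chain T' k) * (1 - T k)‖) *
        e (k + 1) ^ 2 + e (k + 1) * s (k + 1) := by
  have key : (chain T (k + 1) - chain T' (k + 1)) * (1 - T (k + 1)) =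
      (chain T k - chain T' k) * (T (k + 1) - T (k + 1) * T (k + 1)) +
        chain T' k * ((T (k + 1) - T' (k + 1)) * (1 - T (k + 1))) := by
    rw [dchain_succ]; noncomm_ring
  rw [key]
  refine (norm_add_le _ _).trans (add_le_add ?_ ?_)
  · refine (norm_mul_le _ _).trans ?_
    exact mul_le_mul (norm_dchain_le T T' k) (h.sq (k + 1)) (norm_nonneg _) (by positivity)
  · refine (norm_mul_le _ _).trans ?_
    have h1 : ‖(T (k + 1) - T' (k + 1)) * (1 - T (k + 1))‖ ≤ (e (k + 1) * s (k + 1)) * 1 :=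
      (norm_mul_le _ _).trans (mul_le_mul (p.sub_le _ hk) (h.norm_one_sub_le _) (norm_nonneg _)
        (mul_nonneg (h.e_nonneg _) (p.s_nonneg _)))
    calc ‖chain T' k‖ * ‖(T (k + 1) - T' (k + 1)) * (1 - T (k + 1))‖
        ≤ 1 * ((e (k + 1) * s (k + 1)) * 1) :=
          mul_le_mul (norm_chain_le p.norm_le' k) h1 (norm_nonneg _) zero_le_one
      _ = _ := by ring

theorem tstep (h : IsChain T e) (p : IsPair T T' e s m) {k : ℕ} (hk : k + 1 ≤ m) :
    ‖(chain T (k + 1) - chain T' (k + 1)) * T (k + 1)‖ ≤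
      ‖(chain T k - chain T' k) * T k‖ +
      2 * (e k + e (k + 1)) * ‖(chain T k - chain T' k) * (1 - T k)‖ +
      e k ^ 2 * (‖(chain T k - chain T' k) * T k‖ + ‖(chain T k - chain T' k) * (1 - T k)‖) +
      (4 * e (k + 1) ^ 2 * s (k + 1) + 3 * (e k + e (k + 1)) * (e (k + 1) * s (k + 1))) := by
  set δ := chain T k - chain T' k with hδ
  have hk' : k ≤ m := by omega
  have a0 := h.e_nonneg k
  have a1 := h.e_nonneg (k + 1)
  have b0 := h.e_le k
  have b1 := h.e_le (k + 1)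
  have s0 := p.s_nonneg k
  have s1 := p.s_nonneg (k + 1)
  have sl0 := p.s_le k hk'
  have sl1 := p.s_le (k + 1) hk
  have key : (chain T (k + 1) - chain T' (k + 1)) * T (k + 1) =
      (((δ * T k) * T (k + 1) + (δ * (1 - T k)) * ((1 - T k) * T (k + 1)) +
        (δ * (T k - T k * T k)) * T (k + 1)) * T (k + 1)) +
      (chain T' k * (T (k + 1) * (T (k + 1) - T' (k + 1)) * T (k + 1)) +
        (chain T' k * (1 - T (k + 1))) * ((T (k + 1) - T' (k + 1)) * T (k + 1))) := by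
    rw [dchain_succ, ← hδ]; noncomm_ring
  have hT1 := h.norm_le (k + 1)
  have e1 : ‖(δ * T k) * T (k + 1)‖ ≤ ‖δ * T k‖ := by
    refine (norm_mul_le _ _).trans ?_
    calc ‖δ * T k‖ * ‖T (k + 1)‖ ≤ ‖δ * T k‖ * 1 := by gcongr
      _ = _ := mul_one _
  have e2 : ‖(δ * (1 - T k)) * ((1 - T k) * T (k + 1))‖ ≤
      2 * (e k + e (k + 1)) * ‖δ * (1 - T k)‖ := by
    refine (norm_mul_le _ _).trans ?_
    calc ‖δ * (1 - T k)‖ * ‖(1 - T k) * T (k + 1)‖
        ≤ ‖δ * (1 - T k)‖ * (2 * (e k + e (k + 1))) := by gcongr; exact h.one_sub_mul' k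
      _ = _ := by ring
  have e3 : ‖(δ * (T k - T k * T k)) * T (k + 1)‖ ≤
      e k ^ 2 * (‖δ * T k‖ + ‖δ * (1 - T k)‖) := by
    refine (norm_mul_le _ _).trans ?_
    have h1 : ‖δ * (T k - T k * T k)‖ ≤ (‖δ * T k‖ + ‖δ * (1 - T k)‖) * e k ^ 2 := by
      refine (norm_mul_le _ _).trans ?_
      exact mul_le_mul (norm_dchain_le T T' k) (h.sq k) (norm_nonneg _) (by positivity)
    calc ‖δ * (T k - T k * T k)‖ * ‖T (k + 1)‖
        ≤ ((‖δ * T k‖ + ‖δ * (1 - T k)‖) * e k ^ 2) * 1 :=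
          mul_le_mul h1 hT1 (norm_nonneg _) (by positivity)
      _ = _ := by ring
  have e4 : ‖chain T' k * (T (k + 1) * (T (k + 1) - T' (k + 1)) * T (k + 1))‖ ≤
      4 * e (k + 1) ^ 2 * s (k + 1) := by
    refine (norm_mul_le _ _).trans ?_
    have h1 := mul_sub_mul_le (h.norm_le (k + 1)) (h.sq (k + 1)) (p.sub_le (k + 1) hk)
      (p.sq_sub_le (k + 1) hk)
    have h2 : 2 * (e (k + 1) ^ 2 * (e (k + 1) * s (k + 1))) + (e (k + 1) * s (k + 1)) ^ 2 +
        e (k + 1) ^ 2 * s (k + 1) ≤ 4 * e (k + 1) ^ 2 * s (k + 1) := by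
      have c1 : e (k + 1) ^ 2 * (e (k + 1) * s (k + 1)) ≤ e (k + 1) ^ 2 * s (k + 1) := by
        have : e (k + 1) * s (k + 1) ≤ 1 * s (k + 1) := by
          apply mul_le_mul_of_nonneg_right _ s1; linarith
        have h3 := mul_le_mul_of_nonneg_left this (sq_nonneg (e (k + 1)))
        linarith
      have c2 : (e (k + 1) * s (k + 1)) ^ 2 ≤ e (k + 1) ^ 2 * s (k + 1) := by
        have : s (k + 1) ^ 2 ≤ s (k + 1) := by nlinarith
        have h3 := mul_le_mul_of_nonneg_left this (sq_nonneg (e (k + 1)))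
        calc (e (k + 1) * s (k + 1)) ^ 2 = e (k + 1) ^ 2 * s (k + 1) ^ 2 := by ring
          _ ≤ _ := h3
      linarith
    calc ‖chain T' k‖ * ‖T (k + 1) * (T (k + 1) - T' (k + 1)) * T (k + 1)‖
        ≤ 1 * (4 * e (k + 1) ^ 2 * s (k + 1)) :=
          mul_le_mul (norm_chain_le p.norm_le' k) (h1.trans h2) (norm_nonneg _) zero_le_one
      _ = _ := one_mul _
  have e5 : ‖(chain T' k * (1 - T (k + 1))) * ((T (k + 1) - T' (k + 1)) * T (k + 1))‖ ≤
      3 * (e k + e (k + 1)) * (e (k + 1) * s (k + 1)) := by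
    refine (norm_mul_le _ _).trans ?_
    have h1 : ‖chain T' k * (1 - T (k + 1))‖ ≤ 3 * (e k + e (k + 1)) := by
      refine (norm_chain_mul_le p.norm_le' k _).trans ?_
      have h2 : T' k * (1 - T (k + 1)) = T k * (1 - T (k + 1)) -
          (T k - T' k) * (1 - T (k + 1)) := by noncomm_ring
      rw [h2]
      refine (norm_sub_le _ _).trans ?_
      have h3 := h.mul_one_sub k
      have h4 : ‖(T k - T' k) * (1 - T (k + 1))‖ ≤ (e k * s k) * 1 :=
        (norm_mul_le _ _).trans (mul_le_mul (p.sub_le _ hk') (h.norm_one_sub_le _)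
          (norm_nonneg _) (mul_nonneg a0 s0))
      have h5 : e k * s k ≤ e k := by nlinarith
      linarith
    have h2 : ‖(T (k + 1) - T' (k + 1)) * T (k + 1)‖ ≤ e (k + 1) * s (k + 1) := by
      refine (norm_mul_le _ _).trans ?_
      calc ‖T (k + 1) - T' (k + 1)‖ * ‖T (k + 1)‖ ≤ (e (k + 1) * s (k + 1)) * 1 :=
            mul_le_mul (p.sub_le _ hk) hT1 (norm_nonneg _) (mul_nonneg a1 s1)
        _ = _ := mul_one _
    exact mul_le_mul h1 h2 (norm_nonneg _) (by positivity)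
  have e6 : ‖((δ * T k) * T (k + 1) + (δ * (1 - T k)) * ((1 - T k) * T (k + 1)) +
        (δ * (T k - T k * T k)) * T (k + 1)) * T (k + 1)‖ ≤
      ‖δ * T k‖ + 2 * (e k + e (k + 1)) * ‖δ * (1 - T k)‖ +
      e k ^ 2 * (‖δ * T k‖ + ‖δ * (1 - T k)‖) := by
    refine (norm_mul_le _ _).trans ?_
    have h1 : ‖(δ * T k) * T (k + 1) + (δ * (1 - T k)) * ((1 - T k) * T (k + 1)) +
        (δ * (T k - T k * T k)) * T (k + 1)‖ ≤
        ‖δ * T k‖ + 2 * (e k + e (k + 1)) * ‖δ * (1 - T k)‖ +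
          e k ^ 2 * (‖δ * T k‖ + ‖δ * (1 - T k)‖) :=
      (norm_add₃_le).trans (add_le_add (add_le_add e1 e2) e3)
    calc _ ≤ (‖δ * T k‖ + 2 * (e k + e (k + 1)) * ‖δ * (1 - T k)‖ +
          e k ^ 2 * (‖δ * T k‖ + ‖δ * (1 - T k)‖)) * 1 :=
          mul_le_mul h1 hT1 (norm_nonneg _) (by positivity)
      _ = _ := mul_one _
  rw [key]
  refine (norm_add_le _ _).trans (add_le_add e6 ?_)
  exact (norm_add_le _ _).trans (add_le_add e4 e5)

/-- Holonomy bounds. -/
theorem holonomy (h : IsChain T e) (p : IsPair T T' e s m) (hτ : ∀ k, tau e k ≤ 1) :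
    ∀ k, k ≤ m → ‖(chain T k - chain T' k) * T k‖ ≤ tau e k * s k ∧
      ‖(chain T k - chain T' k) * (1 - T k)‖ ≤ 2 * e k * s k := by
  intro k
  induction k with
  | zero =>
    intro _
    have h0 : chain T 0 - chain T' 0 = 0 := by simp [p.zero]
    rw [h0]
    simp only [zero_mul, norm_zero]
    exact ⟨mul_nonneg (tau_nonneg _ _) (p.s_nonneg _),
      mul_nonneg (mul_nonneg zero_le_two (h.e_nonneg _)) (p.s_nonneg _)⟩
  | succ k ih =>
    intro hk
    obtain ⟨ih1, ih2⟩ := ih (by omega)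
    have a0 := h.e_nonneg k
    have a1 := h.e_nonneg (k + 1)
    have b0 := h.e_le k
    have b1 := h.e_le (k + 1)
    have s0 := p.s_nonneg k
    have t0 := tau_nonneg e k
    have t1 := hτ k
    have hs := p.s_succ k
    have N := nstep h p hk
    have M := tstep h p hk
    set t := ‖(chain T k - chain T' k) * T k‖
    set n := ‖(chain T k - chain T' k) * (1 - T k)‖
    have htn : t + n ≤ (tau e k + 2 * e k) * s k := by linarith
    have h0t : 0 ≤ t := norm_nonneg _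
    have h0n : 0 ≤ n := norm_nonneg _
    constructor
    · refine M.trans ?_
      have c1 : 2 * (e k + e (k + 1)) * n ≤ 2 * (e k + e (k + 1)) * (2 * e k * s k) := by
        gcongr
      have c2 : e k ^ 2 * (t + n) ≤ e k ^ 2 * ((tau e k + 2 * e k) * s k) := by gcongr
      have c3 : e k ^ 2 * ((tau e k + 2 * e k) * s k) ≤ e k ^ 2 * (2 * s k) := by
        gcongr; linarith
      have hτs : tau e (k + 1) = tau e k / 2 + 10 * (e k ^ 2 + e (k + 1) ^ 2) := rfl
      rw [hτs, hs]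
      have c4 : t + 2 * (e k + e (k + 1)) * (2 * e k * s k) + e k ^ 2 * (2 * s k) +
          (4 * e (k + 1) ^ 2 * (2 * s k) + 3 * (e k + e (k + 1)) * (e (k + 1) * (2 * s k))) ≤
          (tau e k / 2 + 10 * (e k ^ 2 + e (k + 1) ^ 2)) * (2 * s k) := by
        have c5 : 2 * (e k + e (k + 1)) * (2 * e k) + e k ^ 2 * 2 +
          (4 * e (k + 1) ^ 2 * 2 + 3 * (e k + e (k + 1)) * (e (k + 1) * 2)) ≤
          20 * (e k ^ 2 + e (k + 1) ^ 2) := by nlinarith [sq_nonneg (e k - e (k + 1))]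
        have c6 := mul_le_mul_of_nonneg_right c5 s0
        nlinarith
      linarith
    · refine N.trans ?_
      rw [hs]
      have c1 : (t + n) * e (k + 1) ^ 2 ≤ ((tau e k + 2 * e k) * s k) * e (k + 1) ^ 2 := by
        gcongr
      have c2 : (tau e k + 2 * e k) * e (k + 1) ≤ 2 := by nlinarith
      have c3 : ((tau e k + 2 * e k) * s k) * e (k + 1) ^ 2 ≤ 2 * (s k * e (k + 1)) := by
        have := mul_le_mul_of_nonneg_right c2 (mul_nonneg s0 a1)
        nlinarith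
      nlinarith

end pair

end Ring

end Crest.Agent.R247.Glu923
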