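import Crest.Agent.R247.Glu2_923

/-!
# R247, block (4): the glued map and its differences
-/

set_option autoImplicit false

namespace Crest.Agent.R247.Glu923

open scoped RealInnerProductSpace

variable {H : Type*} [NormedAddCommGroup H] [InnerProductSpace ℝ H]

/-- `‖(A (k+1) - A k) v‖` is of second order. -/
theorem norm_chain_step_apply_le {T : ℕ → H →L[ℝ] H} {e : ℕ → ℝ} (h : IsChain T e) (k : ℕ)
    (v : H) :
    ‖(chain T (k + 1) - chain T k) v‖ ≤
      5 * (e k + e (k + 1)) ^ 2 * ‖v‖ + 2 * (e k + e (k + 1)) * ‖(1 - T k) v‖ := by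
  have h1 : ‖(chain T (k + 1) - chain T k) v‖ ≤ ‖(T k * (1 - T (k + 1))) v‖ := by
    rw [chain_succ_sub]
    have : (-(chain T k * (1 - T (k + 1)))) v = -((chain T k) ((1 - T (k + 1)) v)) := rfl
    rw [this, norm_neg]
    have h2 : ∀ w : H, ‖(chain T k) w‖ ≤ ‖T k w‖ := by
      intro w
      cases k with
      | zero => exact le_rfl
      | succ k =>
        rw [chain_succ]
        have : (chain T k * T (k + 1)) w = chain T k (T (k + 1) w) := rfl
        rw [this]
        calc ‖chain T k (T (k + 1) w)‖ ≤ ‖chain T k‖ * ‖T (k + 1) w‖ :=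
              ContinuousLinearMap.le_opNorm _ _
          _ ≤ 1 * ‖T (k + 1) w‖ := by gcongr; exact norm_chain_le h.norm_le k
          _ = _ := one_mul _
    exact h2 _
  have h2 : (T k * (1 - T (k + 1))) v =
      (T k * (1 - T (k + 1)) * T k) v + (T k * (1 - T (k + 1))) ((1 - T k) v) := by
    have : T k * (1 - T (k + 1)) = T k * (1 - T (k + 1)) * T k +
        (T k * (1 - T (k + 1))) * (1 - T k) := by noncomm_ring
    calc (T k * (1 - T (k + 1))) v = (T k * (1 - T (k + 1)) * T k +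
        (T k * (1 - T (k + 1))) * (1 - T k)) v := by rw [← this]
      _ = _ := rfl
  refine h1.trans ?_
  rw [h2]
  refine (norm_add_le _ _).trans (add_le_add ?_ ?_)
  · refine (ContinuousLinearMap.le_opNorm _ _).trans ?_
    gcongr
    exact h.mul_one_sub_mul k
  · refine (ContinuousLinearMap.le_opNorm _ _).trans ?_
    gcongr
    exact h.mul_one_sub k

theorem norm_dchain_apply_le {T T' : ℕ → H →L[ℝ] H} {e : ℕ → ℝ} (h : IsChain T e) (k : ℕ)
    {t n : ℝ} (ht : ‖(chain T k - chain T' k) * T k‖ ≤ t)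
    (hn : ‖(chain T k - chain T' k) * (1 - T k)‖ ≤ n) (w : H) :
    ‖(chain T k - chain T' k) w‖ ≤
      t * ‖w‖ + n * ‖(1 - T k) w‖ + (t + n) * e k ^ 2 * ‖w‖ := by
  set δ := chain T k - chain T' k
  have key : δ w = (δ * T k) w + (δ * (1 - T k)) ((1 - T k) w) +
      (δ * (T k - T k * T k)) w := by
    have : δ = δ * T k + (δ * (1 - T k)) * (1 - T k) + δ * (T k - T k * T k) := by
      noncomm_ring
    calc δ w = (δ * T k + (δ * (1 - T k)) * (1 - T k) + δ * (T k - T k * T k)) w := by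
          rw [← this]
      _ = _ := rfl
  rw [key]
  have hδ : ‖δ‖ ≤ t + n := (norm_dchain_le T T' k).trans (add_le_add ht hn)
  refine norm_add₃_le.trans (add_le_add (add_le_add ?_ ?_) ?_)
  · exact (ContinuousLinearMap.le_opNorm _ _).trans (by gcongr)
  · exact (ContinuousLinearMap.le_opNorm _ _).trans (by gcongr)
  · refine (ContinuousLinearMap.le_opNorm _ _).trans ?_
    have : ‖δ * (T k - T k * T k)‖ ≤ (t + n) * e k ^ 2 :=
      (norm_mul_le _ _).trans (mul_le_mul hδ (h.sq k) (norm_nonneg _)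
        ((norm_nonneg _).trans hδ))
    gcongr

/-- Lower bound for the norm of a product of almost projections. -/
theorem norm_sq_chain_apply_ge {T : ℕ → H →L[ℝ] H} {e : ℕ → ℝ} (h : IsChain T e)
    (hs : ∀ k u v, ⟪T k u, v⟫ = ⟪u, T k v⟫) (k : ℕ) (v : H) :
    ‖v‖ ^ 2 - 2 * ⟪(1 - T k) v, v⟫ -
      10 * (∑ j ∈ Finset.range k, (e j + e (j + 1)) ^ 2) * ‖v‖ ^ 2 ≤ ‖chain T k v‖ ^ 2 := by
  have base : ∀ (j : ℕ) (v : H), ‖v‖ ^ 2 - 2 * ⟪(1 - T j) v, v⟫ ≤ ‖T j v‖ ^ 2 := by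
    intro j v
    have h1 : T j v = v - (1 - T j) v := by
      simp
    calc ‖v‖ ^ 2 - 2 * ⟪(1 - T j) v, v⟫ ≤ ‖v‖ ^ 2 - 2 * ⟪(1 - T j) v, v⟫ +
          ‖(1 - T j) v‖ ^ 2 := by
          have := sq_nonneg ‖(1 - T j) v‖
          linarith
      _ = ‖v - (1 - T j) v‖ ^ 2 := by
          rw [@norm_sub_sq ℝ, real_inner_comm]; simp
      _ = ‖T j v‖ ^ 2 := by rw [← h1]
  induction k generalizing v with
  | zero => simpa using base 0 v
  | succ k ih =>
    have e1 : chain T (k + 1) v = chain T k (T (k + 1) v) := rfl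
    rw [e1, Finset.sum_range_succ]
    set w := T (k + 1) v with hw
    have h1 := ih w
    have h2 := base (k + 1) v
    rw [← hw] at h2
    have h3 : ‖w‖ ≤ ‖v‖ := by
      calc ‖w‖ ≤ ‖T (k + 1)‖ * ‖v‖ := ContinuousLinearMap.le_opNorm _ _
        _ ≤ 1 * ‖v‖ := by gcongr; exact h.norm_le _
        _ = _ := one_mul _
    have h3' : ‖w‖ ^ 2 ≤ ‖v‖ ^ 2 := by gcongr
    have h4 : ⟪(1 - T k) w, w⟫ ≤ 5 * (e k + e (k + 1)) ^ 2 * ‖v‖ ^ 2 := by
      have : ⟪(1 - T k) w, w⟫ = ⟪(T (k + 1) * (1 - T k) * T (k + 1)) v, v⟫ := by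
        have e2 : (T (k + 1) * (1 - T k) * T (k + 1)) v = T (k + 1) ((1 - T k) w) := rfl
        rw [e2, hs]
      rw [this]
      calc ⟪(T (k + 1) * (1 - T k) * T (k + 1)) v, v⟫
          ≤ ‖(T (k + 1) * (1 - T k) * T (k + 1)) v‖ * ‖v‖ := real_inner_le_norm _ _
        _ ≤ (‖T (k + 1) * (1 - T k) * T (k + 1)‖ * ‖v‖) * ‖v‖ := by
            gcongr; exact ContinuousLinearMap.le_opNorm _ _
        _ ≤ (5 * (e k + e (k + 1)) ^ 2 * ‖v‖) * ‖v‖ := by
            gcongr; exact h.mul_one_sub_mul' k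
        _ = _ := by ring
    have h5 : 10 * (∑ j ∈ Finset.range k, (e j + e (j + 1)) ^ 2) * ‖w‖ ^ 2 ≤
        10 * (∑ j ∈ Finset.range k, (e j + e (j + 1)) ^ 2) * ‖v‖ ^ 2 := by
      have : 0 ≤ ∑ j ∈ Finset.range k, (e j + e (j + 1)) ^ 2 :=
        Finset.sum_nonneg fun _ _ => sq_nonneg _
      gcongr
    have h6 : 10 * ((∑ j ∈ Finset.range k, (e j + e (j + 1)) ^ 2) + (e k + e (k + 1)) ^ 2) *
        ‖v‖ ^ 2 = 10 * (∑ j ∈ Finset.range k, (e j + e (j + 1)) ^ 2) * ‖v‖ ^ 2 +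
        2 * (5 * (e k + e (k + 1)) ^ 2 * ‖v‖ ^ 2) := by ring
    rw [h6]
    linarith

variable {X : Type*} [MetricSpace X]

/-- Input of the gluing construction. `T k x` are almost projections, `c k x` are the
interpolated centres at scale `R / 2 ^ k`. -/
structure IsGlue (Ψ : X → H) (T : ℕ → X → H →L[ℝ] H) (c : ℕ → X → H) (e : ℕ → X → ℝ)
    (R B δ : ℝ) : Prop where
  R_pos : 0 < R
  B_ge : 1 ≤ B
  δ_le : δ ≤ 1 / 100
  chain : ∀ x, IsChain (fun k => T k x) (fun k => e k x)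
  zero : ∀ x x', T 0 x = T 0 x'
  sum_le : ∀ x n, ∑ k ∈ Finset.range n, (e k x) ^ 2 ≤ δ
  sub_le : ∀ k x x', dist x x' ≤ R / 2 ^ k → ‖T k x - T k x'‖ ≤ e k x * (dist x x' / (R / 2 ^ k))
  sq_sub_le : ∀ k x x', dist x x' ≤ R / 2 ^ k →
    ‖(T k x - T k x * T k x) - (T k x' - T k x' * T k x')‖ ≤
      e k x ^ 2 * (dist x x' / (R / 2 ^ k))
  u_le : ∀ k x, ‖Ψ x - c k x‖ ≤ B * (R / 2 ^ k)
  un_le : ∀ k x, ‖(1 - T k x) (Ψ x - c k x)‖ ≤ e k x * (R / 2 ^ k)
  c_le : ∀ k x x', dist x x' ≤ R / 2 ^ k → ‖c k x - c k x'‖ ≤ B * dist x x'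
  cn_le : ∀ k x x', dist x x' ≤ R / 2 ^ k → ‖(1 - T k x) (c k x - c k x')‖ ≤ e k x * dist x x'
  Ψ_le : ∀ x x', ‖Ψ x - Ψ x'‖ ≤ dist x x'
  Ψn_le : ∀ k x x', dist x x' ≤ R / 2 ^ k →
    ‖(1 - T k x) (Ψ x - Ψ x')‖ ≤ (e k x + e k x') * (R / 2 ^ k)
  symm : ∀ k x u v, ⟪T k x u, v⟫ = ⟪u, T k x v⟫
  diam : ∀ x x' : X, dist x x' ≤ R

namespace IsGlue

variable {Ψ : X → H} {T : ℕ → X → H →L[ℝ] H} {c : ℕ → X → H} {e : ℕ → X → ℝ} {R B δ : ℝ}

/-- The `k`-th term of the series defining the glued map. -/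
noncomputable def term (Ψ : X → H) (T : ℕ → X → H →L[ℝ] H) (c : ℕ → X → H) (k : ℕ) (x : X) : H :=
  (Glu923.chain (fun k => T k x) (k + 1) - Glu923.chain (fun k => T k x) k) (Ψ x - c k x)

theorem norm_term_le (h : IsGlue Ψ T c e R B δ) (k : ℕ) (x : X) :
    ‖term Ψ T c k x‖ ≤ 7 * B * (e k x + e (k + 1) x) ^ 2 * (R / 2 ^ k) := by
  have hR := h.R_pos
  have hB := h.B_ge
  have h1 := norm_chain_step_apply_le (h.chain x) k (Ψ x - c k x)
  have h2 := h.u_le k x
  have h3 := h.un_le k x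
  have a0 := (h.chain x).e_nonneg k
  have a1 := (h.chain x).e_nonneg (k + 1)
  have hr : 0 < R / 2 ^ k := by positivity
  refine h1.trans ?_
  calc 5 * (e k x + e (k + 1) x) ^ 2 * ‖Ψ x - c k x‖ +
        2 * (e k x + e (k + 1) x) * ‖(1 - T k x) (Ψ x - c k x)‖
      ≤ 5 * (e k x + e (k + 1) x) ^ 2 * (B * (R / 2 ^ k)) +
        2 * (e k x + e (k + 1) x) * (e k x * (R / 2 ^ k)) := by gcongr
    _ ≤ 5 * (e k x + e (k + 1) x) ^ 2 * (B * (R / 2 ^ k)) +
        2 * (e k x + e (k + 1) x) ^ 2 * (B * (R / 2 ^ k)) := by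
        have : 2 * (e k x + e (k + 1) x) * (e k x * (R / 2 ^ k)) ≤
            2 * (e k x + e (k + 1) x) ^ 2 * (B * (R / 2 ^ k)) := by
          have e1 : e k x * (R / 2 ^ k) ≤ (e k x + e (k + 1) x) * (B * (R / 2 ^ k)) := by
            have : e k x * (R / 2 ^ k) ≤ (e k x + e (k + 1) x) * (1 * (R / 2 ^ k)) := by
              have := mul_nonneg a1 hr.le
              linarith
            refine this.trans ?_
            gcongr
          have e2 := mul_le_mul_of_nonneg_left e1 (show 0 ≤ 2 * (e k x + e (k + 1) x) by positivity)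
          calc _ ≤ _ := e2
            _ = _ := by ring
        linarith
    _ = _ := by ring

theorem tau_le_one (h : IsGlue Ψ T c e R B δ) (x : X) (k : ℕ) :
    tau (fun k => e k x) k ≤ 1 := by
  have h1 := tau_le (h.sum_le x) k
  have := h.δ_le
  linarith

theorem isPair (h : IsGlue Ψ T c e R B δ) (x x' : X) {m : ℕ} (hm : dist x x' ≤ R / 2 ^ m) :
    IsPair (fun k => T k x) (fun k => T k x') (fun k => e k x)
      (fun k => dist x x' / (R / 2 ^ k)) m := by
  have hR := h.R_pos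
  have hmono : ∀ k, k ≤ m → dist x x' ≤ R / 2 ^ k := by
    intro k hk
    refine hm.trans ?_
    apply div_le_div_of_nonneg_left hR.le (by positivity)
    exact pow_le_pow_right₀ (by norm_num) hk
  refine ⟨(h.chain x').norm_le, fun k => by positivity, ?_, ?_, h.zero x x', ?_, ?_⟩
  · intro k hk
    exact (div_le_one (by positivity)).2 (hmono k hk)
  · intro k
    field_simp
    ring
  · intro k hk
    exact h.sub_le k x x' (hmono k hk)
  · intro k hk
    exact h.sq_sub_le k x x' (hmono k hk)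

/-- The main difference estimate for one scale. -/
theorem norm_diff_le (h : IsGlue Ψ T c e R B δ) (x x' : X) {m : ℕ} (hm : dist x x' ≤ R / 2 ^ m)
    {k : ℕ} (hk : k + 1 ≤ m) :
    ‖term Ψ T c k x - term Ψ T c k x' -
        (Glu923.chain (fun k => T k x) (k + 1) - Glu923.chain (fun k => T k x) k) (Ψ x - Ψ x')‖ ≤
      dist x x' * B * (tau (fun k => e k x) k + 2 * tau (fun k => e k x) (k + 1) +
        28 * ((e k x) ^ 2 + (e (k + 1) x) ^ 2) + 3 * (e k x') ^ 2) := by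
  have hR := h.R_pos
  have hB := h.B_ge
  have p := h.isPair x x' hm
  obtain ⟨t0, n0⟩ := holonomy (h.chain x) p (h.tau_le_one x) k (by omega)
  obtain ⟨t1, n1⟩ := holonomy (h.chain x) p (h.tau_le_one x) (k + 1) hk
  have hdk : dist x x' ≤ R / 2 ^ k := by
    refine hm.trans ?_
    apply div_le_div_of_nonneg_left hR.le (by positivity)
    exact pow_le_pow_right₀ (by norm_num) (by omega)
  have a0 := (h.chain x).e_nonneg k
  have a1 := (h.chain x).e_nonneg (k + 1)
  have a0' := (h.chain x').e_nonneg k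
  have b0 := (h.chain x).e_le k
  have b1 := (h.chain x).e_le (k + 1)
  have τ0 := tau_nonneg (fun k => e k x) k
  have τ1 := tau_nonneg (fun k => e k x) (k + 1)
  have τ0' := h.tau_le_one x k
  have τ1' := h.tau_le_one x (k + 1)
  have hr : 0 < R / 2 ^ k := by positivity
  have hd : 0 ≤ dist x x' := dist_nonneg
  set r := R / 2 ^ k with hrdef
  set d := dist x x' with hddef
  have hr1 : R / 2 ^ (k + 1) = r / 2 := by rw [hrdef, pow_succ]; field_simp
  rw [hr1] at t1 n1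
  set τk := tau (fun k => e k x) k
  set τk1 := tau (fun k => e k x) (k + 1)
  set A := Glu923.chain (fun k => T k x)
  set A' := Glu923.chain (fun k => T k x')
  set u' := Ψ x' - c k x' with hu'
  have hu : ‖u'‖ ≤ B * r := h.u_le k x'
  have hsr : d / r * r = d := by field_simp
  -- the algebraic identity
  have key : term Ψ T c k x - term Ψ T c k x' - (A (k + 1) - A k) (Ψ x - Ψ x') =
      -((A (k + 1) - A k) (c k x - c k x')) + ((A (k + 1) - A' (k + 1)) u' - (A k - A' k) u') := by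
    have e1 : term Ψ T c k x = (A (k + 1) - A k) (Ψ x - c k x) := rfl
    have e2 : term Ψ T c k x' = (A' (k + 1) - A' k) (Ψ x' - c k x') := rfl
    rw [e1, e2, hu']
    simp only [sub_apply, map_sub]
    abel
  rw [key]
  -- first piece
  have f1 : ‖(A (k + 1) - A k) (c k x - c k x')‖ ≤ 7 * B * (e k x + e (k + 1) x) ^ 2 * d := by
    have h1 := norm_chain_step_apply_le (h.chain x) k (c k x - c k x')
    refine h1.trans ?_
    have h2 := h.c_le k x x' hdk
    have h3 := h.cn_le k x x' hdk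
    calc 5 * (e k x + e (k + 1) x) ^ 2 * ‖c k x - c k x'‖ +
          2 * (e k x + e (k + 1) x) * ‖(1 - T k x) (c k x - c k x')‖
        ≤ 5 * (e k x + e (k + 1) x) ^ 2 * (B * d) +
          2 * (e k x + e (k + 1) x) * (e k x * d) := by gcongr
      _ ≤ 5 * (e k x + e (k + 1) x) ^ 2 * (B * d) +
          2 * (e k x + e (k + 1) x) ^ 2 * (B * d) := by
          have e1 : e k x * d ≤ (e k x + e (k + 1) x) * (B * d) := by
            have : e k x * d ≤ (e k x + e (k + 1) x) * (1 * d) := by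
              have := mul_nonneg a1 hd
              linarith
            refine this.trans ?_
            gcongr
          have e2 := mul_le_mul_of_nonneg_left e1 (show 0 ≤ 2 * (e k x + e (k + 1) x) by positivity)
          have e3 : 2 * (e k x + e (k + 1) x) * ((e k x + e (k + 1) x) * (B * d)) =
            2 * (e k x + e (k + 1) x) ^ 2 * (B * d) := by ring
          linarith
      _ = _ := by ring
  -- normal component of `u'`
  have g0 : ‖(1 - T k x) u'‖ ≤ (e k x' + B * e k x) * r := by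
    have e1 : (1 - T k x) u' = (1 - T k x') u' - (T k x - T k x') u' := by
      simp only [sub_apply]; abel
    rw [e1]
    refine (norm_sub_le _ _).trans ?_
    have e2 : ‖(1 - T k x') u'‖ ≤ e k x' * r := h.un_le k x'
    have e3 : ‖(T k x - T k x') u'‖ ≤ (e k x * (d / r)) * (B * r) :=
      (ContinuousLinearMap.le_opNorm _ _).trans (by
        gcongr; exact h.sub_le k x x' hdk)
    have e4 : (e k x * (d / r)) * (B * r) ≤ B * e k x * r := by
      have : d / r ≤ 1 := (div_le_one hr).2 hdk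
      have e5 : e k x * (d / r) ≤ e k x * 1 := by gcongr
      calc (e k x * (d / r)) * (B * r) ≤ (e k x * 1) * (B * r) := by gcongr
        _ = _ := by ring
    linarith
  have g1 : ‖(1 - T (k + 1) x) u'‖ ≤ (e k x' + 2 * B * e k x + B * e (k + 1) x) * r := by
    have e1 : (1 - T (k + 1) x) u' = (1 - T k x) u' - (T (k + 1) x - T k x) u' := by
      simp only [sub_apply]; abel
    rw [e1]
    refine (norm_sub_le _ _).trans ?_
    have e3 : ‖(T (k + 1) x - T k x) u'‖ ≤ (e k x + e (k + 1) x) * (B * r) :=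
      (ContinuousLinearMap.le_opNorm _ _).trans (by
        gcongr; exact (h.chain x).step k)
    have e5 : (e k x' + 2 * B * e k x + B * e (k + 1) x) * r =
      (e k x' + B * e k x) * r + (e k x + e (k + 1) x) * (B * r) := by ring
    linarith
  have f2 : ‖(A k - A' k) u'‖ ≤ d * B * (τk + 5 * (e k x) ^ 2 + (e k x') ^ 2) := by
    have h1 := norm_dchain_apply_le (h.chain x) k t0 n0 u'
    refine h1.trans ?_
    have q1 : τk * (d / r) * ‖u'‖ ≤ τk * B * d := by
      calc τk * (d / r) * ‖u'‖ ≤ τk * (d / r) * (B * r) := by gcongr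
        _ = τk * B * (d / r * r) := by ring
        _ = _ := by rw [hsr]
    have q2 : 2 * e k x * (d / r) * ‖(1 - T k x) u'‖ ≤ 2 * e k x * (e k x' + B * e k x) * d := by
      calc 2 * e k x * (d / r) * ‖(1 - T k x) u'‖
          ≤ 2 * e k x * (d / r) * ((e k x' + B * e k x) * r) := by gcongr
        _ = 2 * e k x * (e k x' + B * e k x) * (d / r * r) := by ring
        _ = _ := by rw [hsr]
    have q3 : (τk * (d / r) + 2 * e k x * (d / r)) * e k x ^ 2 * ‖u'‖ ≤
        2 * e k x ^ 2 * B * d := by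
      calc (τk * (d / r) + 2 * e k x * (d / r)) * e k x ^ 2 * ‖u'‖
          ≤ (τk * (d / r) + 2 * e k x * (d / r)) * e k x ^ 2 * (B * r) := by gcongr
        _ = (τk + 2 * e k x) * (e k x ^ 2 * B * (d / r * r)) := by ring
        _ = (τk + 2 * e k x) * (e k x ^ 2 * B * d) := by rw [hsr]
        _ ≤ 2 * (e k x ^ 2 * B * d) := by gcongr; linarith
        _ = _ := by ring
    have q4 : 2 * e k x * (e k x' + B * e k x) ≤ B * (e k x ^ 2 + e k x' ^ 2 + 2 * e k x ^ 2) := by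
      nlinarith [sq_nonneg (e k x - e k x'), mul_nonneg (sub_nonneg.2 hB) (add_nonneg (sq_nonneg (e k x)) (sq_nonneg (e k x')))]
    have q5 := mul_le_mul_of_nonneg_right q4 hd
    have q6 : d * B * (τk + 5 * (e k x) ^ 2 + (e k x') ^ 2) = τk * B * d +
        B * (e k x ^ 2 + e k x' ^ 2 + 2 * e k x ^ 2) * d + 2 * e k x ^ 2 * B * d := by ring
    beta_reduce at q3 ⊢
    rw [q6]
    linarith
  have f3 : ‖(A (k + 1) - A' (k + 1)) u'‖ ≤
      2 * (d * B * (τk1 + 7 * (e (k + 1) x) ^ 2 + 2 * (e k x) ^ 2 + (e k x') ^ 2)) := by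
    have h1 := norm_dchain_apply_le (h.chain x) (k + 1) t1 n1 u'
    refine h1.trans ?_
    have hsr2 : d / (r / 2) * r = 2 * d := by field_simp
    have hs0 : 0 ≤ d / (r / 2) := by positivity
    have q1 : τk1 * (d / (r / 2)) * ‖u'‖ ≤ 2 * (τk1 * B * d) := by
      calc τk1 * (d / (r / 2)) * ‖u'‖ ≤ τk1 * (d / (r / 2)) * (B * r) := by gcongr
        _ = τk1 * B * (d / (r / 2) * r) := by ring
        _ = _ := by rw [hsr2]; ring
    have q2 : 2 * e (k + 1) x * (d / (r / 2)) * ‖(1 - T (k + 1) x) u'‖ ≤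
        2 * (2 * e (k + 1) x * (e k x' + 2 * B * e k x + B * e (k + 1) x) * d) := by
      calc 2 * e (k + 1) x * (d / (r / 2)) * ‖(1 - T (k + 1) x) u'‖
          ≤ 2 * e (k + 1) x * (d / (r / 2)) *
            ((e k x' + 2 * B * e k x + B * e (k + 1) x) * r) := by gcongr
        _ = 2 * e (k + 1) x * (e k x' + 2 * B * e k x + B * e (k + 1) x) *
            (d / (r / 2) * r) := by ring
        _ = _ := by rw [hsr2]; ring
    have q3 : (τk1 * (d / (r / 2)) + 2 * e (k + 1) x * (d / (r / 2))) * e (k + 1) x ^ 2 * ‖u'‖ ≤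
        2 * (2 * e (k + 1) x ^ 2 * B * d) := by
      calc (τk1 * (d / (r / 2)) + 2 * e (k + 1) x * (d / (r / 2))) * e (k + 1) x ^ 2 * ‖u'‖
          ≤ (τk1 * (d / (r / 2)) + 2 * e (k + 1) x * (d / (r / 2))) * e (k + 1) x ^ 2 *
            (B * r) := by gcongr
        _ = (τk1 + 2 * e (k + 1) x) * (e (k + 1) x ^ 2 * B * (d / (r / 2) * r)) := by ring
        _ = (τk1 + 2 * e (k + 1) x) * (e (k + 1) x ^ 2 * B * (2 * d)) := by rw [hsr2]
        _ ≤ 2 * (e (k + 1) x ^ 2 * B * (2 * d)) := by gcongr; linarith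
        _ = _ := by ring
    have q4 : 2 * e (k + 1) x * (e k x' + 2 * B * e k x + B * e (k + 1) x) ≤
        B * (5 * e (k + 1) x ^ 2 + e k x' ^ 2 + 2 * e k x ^ 2) := by
      have w1 : 2 * e (k + 1) x * e k x' ≤ B * (e (k + 1) x ^ 2 + e k x' ^ 2) := by
        nlinarith [sq_nonneg (e (k + 1) x - e k x'), mul_nonneg (sub_nonneg.2 hB)
          (add_nonneg (sq_nonneg (e (k + 1) x)) (sq_nonneg (e k x')))]
      have w2 : 2 * e (k + 1) x * (2 * B * e k x) ≤ B * (2 * e (k + 1) x ^ 2 + 2 * e k x ^ 2) := by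
        nlinarith [mul_nonneg (show (0:ℝ) ≤ B by linarith) (sq_nonneg (e (k + 1) x - e k x))]
      have w3 : 2 * e (k + 1) x * (B * e (k + 1) x) = B * (2 * e (k + 1) x ^ 2) := by ring
      nlinarith
    have q5 := mul_le_mul_of_nonneg_right q4 hd
    have q6 : 2 * (d * B * (τk1 + 7 * (e (k + 1) x) ^ 2 + 2 * (e k x) ^ 2 + (e k x') ^ 2)) =
        2 * (τk1 * B * d) + 2 * (B * (5 * e (k + 1) x ^ 2 + e k x' ^ 2 + 2 * e k x ^ 2) * d) +
        2 * (2 * e (k + 1) x ^ 2 * B * d) := by ring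
    beta_reduce at q3 ⊢
    rw [q6]
    linarith
  have f4 : ‖-((A (k + 1) - A k) (c k x - c k x')) +
      ((A (k + 1) - A' (k + 1)) u' - (A k - A' k) u')‖ ≤
      ‖(A (k + 1) - A k) (c k x - c k x')‖ +
        (‖(A (k + 1) - A' (k + 1)) u'‖ + ‖(A k - A' k) u'‖) := by
    refine (norm_add_le _ _).trans ?_
    rw [norm_neg]
    gcongr
    exact norm_sub_le _ _
  refine f4.trans ?_
  have f5 : 7 * B * (e k x + e (k + 1) x) ^ 2 * d ≤
      d * B * (14 * (e k x ^ 2 + e (k + 1) x ^ 2)) := by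
    have : (e k x + e (k + 1) x) ^ 2 ≤ 2 * (e k x ^ 2 + e (k + 1) x ^ 2) := by
      nlinarith [sq_nonneg (e k x - e (k + 1) x)]
    calc 7 * B * (e k x + e (k + 1) x) ^ 2 * d ≤
        7 * B * (2 * (e k x ^ 2 + e (k + 1) x ^ 2)) * d := by gcongr
      _ = _ := by ring
  have f6 : d * B * (14 * (e k x ^ 2 + e (k + 1) x ^ 2)) +
      (2 * (d * B * (τk1 + 7 * (e (k + 1) x) ^ 2 + 2 * (e k x) ^ 2 + (e k x') ^ 2)) +
        d * B * (τk + 5 * (e k x) ^ 2 + (e k x') ^ 2)) =
      d * B * (τk + 2 * τk1 + 23 * e k x ^ 2 + 28 * e (k + 1) x ^ 2 + 3 * e k x' ^ 2) := by ring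
  have f7 : d * B * (τk + 2 * τk1 + 23 * e k x ^ 2 + 28 * e (k + 1) x ^ 2 + 3 * e k x' ^ 2) ≤
      d * B * (τk + 2 * τk1 + 28 * (e k x ^ 2 + e (k + 1) x ^ 2) + 3 * e k x' ^ 2) := by
    have h5 : 0 ≤ e k x ^ 2 := sq_nonneg _
    exact mul_le_mul_of_nonneg_left (by linarith) (by positivity)
  linarith

end IsGlue

end Crest.Agent.R247.Glu923
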