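import Crest.Agent.R247.Glu3_923

/-!
# R247, block (4): the glued map is almost isometric to `Ψ`
-/

set_option autoImplicit false

namespace Crest.Agent.R247.Glu923

open scoped RealInnerProductSpace

variable {H : Type*} [NormedAddCommGroup H] [InnerProductSpace ℝ H]
variable {X : Type*} [MetricSpace X]

namespace IsGlue

variable {Ψ : X → H} {T : ℕ → X → H →L[ℝ] H} {c : ℕ → X → H} {e : ℕ → X → ℝ} {R B δ : ℝ}

theorem δ_nonneg (h : IsGlue Ψ T c e R B δ) (x : X) : 0 ≤ δ := by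
  simpa using h.sum_le x 0

theorem sum_pair_le (h : IsGlue Ψ T c e R B δ) (x : X) (n : ℕ) :
    ∑ k ∈ Finset.range n, (e k x + e (k + 1) x) ^ 2 ≤ 4 * δ := by
  have h1 := sum_sq_pair_le (h.sum_le x) n
  have h2 : ∑ k ∈ Finset.range n, (e k x + e (k + 1) x) ^ 2 ≤
      2 * ∑ k ∈ Finset.range n, ((e k x) ^ 2 + (e (k + 1) x) ^ 2) := by
    rw [Finset.mul_sum]
    apply Finset.sum_le_sum
    intro k _
    nlinarith [sq_nonneg (e k x - e (k + 1) x)]
  linarith

theorem summable_pair (h : IsGlue Ψ T c e R B δ) (x : X) :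
    Summable fun k => (e k x + e (k + 1) x) ^ 2 :=
  summable_of_sum_range_le (fun _ => sq_nonneg _) (h.sum_pair_le x)

theorem tsum_pair_tail_le (h : IsGlue Ψ T c e R B δ) (x : X) (m : ℕ) :
    ∑' k, (e (k + m) x + e (k + m + 1) x) ^ 2 ≤ 4 * δ := by
  have hs := h.summable_pair x
  have h1 : Summable fun k => (e (k + m) x + e (k + m + 1) x) ^ 2 :=
    (summable_nat_add_iff (f := fun k => (e k x + e (k + 1) x) ^ 2) m).2 hs
  apply Real.tsum_le_of_sum_range_le (fun _ => sq_nonneg _)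
  intro n
  have h2 := h.sum_pair_le x (n + m)
  rw [Finset.range_eq_Ico] at h2
  rw [← Finset.sum_Ico_consecutive _ (Nat.zero_le m) (Nat.le_add_left m n)] at h2
  have h3 : ∑ k ∈ Finset.range n, (e (k + m) x + e (k + m + 1) x) ^ 2 =
      ∑ k ∈ Finset.Ico m (n + m), (e k x + e (k + 1) x) ^ 2 := by
    rw [Finset.sum_Ico_eq_sum_range]
    simp only [Nat.add_sub_cancel]
    apply Finset.sum_congr rfl
    intro k _
    rw [add_comm k m]
  rw [h3]
  have h4 : 0 ≤ ∑ k ∈ Finset.Ico 0 m, (e k x + e (k + 1) x) ^ 2 :=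
    Finset.sum_nonneg fun _ _ => sq_nonneg _
  linarith

theorem norm_term_tail_le (h : IsGlue Ψ T c e R B δ) (x : X) (m k : ℕ) :
    ‖term Ψ T c (k + m) x‖ ≤
      7 * B * (R / 2 ^ m) * (e (k + m) x + e (k + m + 1) x) ^ 2 := by
  have hR := h.R_pos
  have hB := h.B_ge
  have h1 := h.norm_term_le (k + m) x
  have h2 : R / 2 ^ (k + m) ≤ R / 2 ^ m := by
    apply div_le_div_of_nonneg_left hR.le (by positivity)
    exact pow_le_pow_right₀ (by norm_num) (by omega)
  calc ‖term Ψ T c (k + m) x‖ ≤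
        7 * B * (e (k + m) x + e (k + m + 1) x) ^ 2 * (R / 2 ^ (k + m)) := h1
    _ ≤ 7 * B * (e (k + m) x + e (k + m + 1) x) ^ 2 * (R / 2 ^ m) := by gcongr
    _ = _ := by ring

theorem summable_norm_term_tail (h : IsGlue Ψ T c e R B δ) (x : X) (m : ℕ) :
    Summable fun k => ‖term Ψ T c (k + m) x‖ := by
  have h1 : Summable fun k => (e (k + m) x + e (k + m + 1) x) ^ 2 :=
    (summable_nat_add_iff (f := fun k => (e k x + e (k + 1) x) ^ 2) m).2 (h.summable_pair x)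
  exact Summable.of_nonneg_of_le (fun _ => norm_nonneg _) (h.norm_term_tail_le x m)
    (h1.mul_left _)

theorem norm_tail_le (h : IsGlue Ψ T c e R B δ) (x : X) (m : ℕ) :
    ‖∑' k, term Ψ T c (k + m) x‖ ≤ 28 * B * δ * (R / 2 ^ m) := by
  have hR := h.R_pos
  have hB := h.B_ge
  have h1 : Summable fun k => (e (k + m) x + e (k + m + 1) x) ^ 2 :=
    (summable_nat_add_iff (f := fun k => (e k x + e (k + 1) x) ^ 2) m).2 (h.summable_pair x)
  calc ‖∑' k, term Ψ T c (k + m) x‖ ≤ ∑' k, ‖term Ψ T c (k + m) x‖ :=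
        norm_tsum_le_tsum_norm (h.summable_norm_term_tail x m)
    _ ≤ ∑' k, 7 * B * (R / 2 ^ m) * (e (k + m) x + e (k + m + 1) x) ^ 2 :=
        (h.summable_norm_term_tail x m).tsum_le_tsum (h.norm_term_tail_le x m) (h1.mul_left _)
    _ = 7 * B * (R / 2 ^ m) * ∑' k, (e (k + m) x + e (k + m + 1) x) ^ 2 := tsum_mul_left
    _ ≤ 7 * B * (R / 2 ^ m) * (4 * δ) := by
        gcongr; exact h.tsum_pair_tail_le x m
    _ = _ := by ring

/-- The glued map, with values in `H`. -/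
noncomputable def map (Ψ : X → H) (T : ℕ → X → H →L[ℝ] H) (c : ℕ → X → H) (x : X) : H :=
  T 0 x (Ψ x) + ∑' k, term Ψ T c k x

theorem exists_scale {R d : ℝ} (hd : 0 < d) (hdR : d ≤ R) :
    ∃ m : ℕ, d ≤ R / 2 ^ m ∧ R / 2 ^ m ≤ 2 * d := by
  have hR : 0 < R := lt_of_lt_of_le hd hdR
  have h1 : ∃ n : ℕ, R / 2 ^ n < d := by
    obtain ⟨n, hn⟩ := exists_pow_lt_of_lt_one (show 0 < d / R by positivity)
      (show (1 / 2 : ℝ) < 1 by norm_num)
    refine ⟨n, ?_⟩
    rw [one_div, inv_pow] at hn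
    rw [div_eq_mul_inv]
    calc R * (2 ^ n)⁻¹ < R * (d / R) := by gcongr
      _ = d := by field_simp
  classical
  set n := Nat.find h1 with hn
  have hn1 : R / 2 ^ n < d := Nat.find_spec h1
  have hn0 : n ≠ 0 := by
    intro h0
    rw [h0] at hn1
    simp at hn1
    linarith
  obtain ⟨m, hm⟩ := Nat.exists_eq_succ_of_ne_zero hn0
  refine ⟨m, ?_, ?_⟩
  · by_contra hlt
    push Not at hlt
    have := Nat.find_min' h1 hlt
    omega
  · rw [hm, Nat.succ_eq_add_one, pow_succ] at hn1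
    have e1 : R / (2 ^ m * 2) = R / 2 ^ m / 2 := by field_simp
    rw [e1] at hn1
    linarith

/-- First order comparison of the glued map with the chain at the right scale. -/
theorem norm_map_sub_sub_le [CompleteSpace H] (h : IsGlue Ψ T c e R B δ) (x x' : X) {m : ℕ}
    (hm : dist x x' ≤ R / 2 ^ m) (hm2 : R / 2 ^ m ≤ 2 * dist x x') :
    ‖map Ψ T c x - map Ψ T c x' - Glu923.chain (fun k => T k x) m (Ψ x - Ψ x')‖ ≤
      300 * B * δ * dist x x' := by
  have hR := h.R_pos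
  have hB := h.B_ge
  have hδ := h.δ_nonneg x
  have hd : 0 ≤ dist x x' := dist_nonneg
  set d := dist x x' with hddef
  set A := Glu923.chain (fun k => T k x) with hA
  have sx : Summable fun k => term Ψ T c k x := by
    have := (h.summable_norm_term_tail x 0).of_norm
    simpa using this
  have sx' : Summable fun k => term Ψ T c k x' := by
    have := (h.summable_norm_term_tail x' 0).of_norm
    simpa using this
  have ex := sx.sum_add_tsum_nat_add m
  have ex' := sx'.sum_add_tsum_nat_add m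
  have tel : ∑ k ∈ Finset.range m, (A (k + 1) - A k) (Ψ x - Ψ x') = A m (Ψ x - Ψ x') -
      A 0 (Ψ x - Ψ x') := by
    have := Finset.sum_range_sub (fun k => A k (Ψ x - Ψ x')) m
    rw [← this]
    apply Finset.sum_congr rfl
    intro k _
    rfl
  have hA0 : A 0 = T 0 x := rfl
  have key : map Ψ T c x - map Ψ T c x' - A m (Ψ x - Ψ x') =
      (∑ k ∈ Finset.range m, (term Ψ T c k x - term Ψ T c k x' -
        (A (k + 1) - A k) (Ψ x - Ψ x'))) +
      ((∑' k, term Ψ T c (k + m) x) - (∑' k, term Ψ T c (k + m) x')) := by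
    unfold map
    rw [← ex, ← ex', Finset.sum_sub_distrib, Finset.sum_sub_distrib, tel, hA0, ← h.zero x x',
      map_sub (T 0 x)]
    abel
  rw [key]
  have b1 : ‖∑ k ∈ Finset.range m, (term Ψ T c k x - term Ψ T c k x' -
        (A (k + 1) - A k) (Ψ x - Ψ x'))‖ ≤ d * B * (179 * δ) := by
    calc ‖∑ k ∈ Finset.range m, (term Ψ T c k x - term Ψ T c k x' -
        (A (k + 1) - A k) (Ψ x - Ψ x'))‖
        ≤ ∑ k ∈ Finset.range m, ‖term Ψ T c k x - term Ψ T c k x' -
        (A (k + 1) - A k) (Ψ x - Ψ x')‖ := norm_sum_le _ _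
      _ ≤ ∑ k ∈ Finset.range m, d * B * (tau (fun k => e k x) k +
          2 * tau (fun k => e k x) (k + 1) +
          28 * ((e k x) ^ 2 + (e (k + 1) x) ^ 2) + 3 * (e k x') ^ 2) := by
          apply Finset.sum_le_sum
          intro k hk
          exact h.norm_diff_le x x' hm (by have := Finset.mem_range.1 hk; omega)
      _ = d * B * ((∑ k ∈ Finset.range m, tau (fun k => e k x) k) +
          2 * (∑ k ∈ Finset.range m, tau (fun k => e k x) (k + 1)) +
          28 * (∑ k ∈ Finset.range m, ((e k x) ^ 2 + (e (k + 1) x) ^ 2)) +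
          3 * (∑ k ∈ Finset.range m, (e k x') ^ 2)) := by
          rw [← Finset.mul_sum, Finset.sum_add_distrib, Finset.sum_add_distrib,
            Finset.sum_add_distrib, Finset.mul_sum, Finset.mul_sum, Finset.mul_sum]
      _ ≤ d * B * (40 * δ + 2 * (40 * δ) + 28 * (2 * δ) + 3 * δ) := by
          have t1 := sum_tau_le (h.sum_le x) m
          have t2 : ∑ k ∈ Finset.range m, tau (fun k => e k x) (k + 1) ≤ 40 * δ := by
            have t3 := sum_tau_le (h.sum_le x) (m + 1)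
            rw [Finset.sum_range_succ'] at t3
            have := tau_nonneg (fun k => e k x) 0
            linarith
          have t3 := sum_sq_pair_le (h.sum_le x) m
          have t4 := h.sum_le x' m
          gcongr
      _ = _ := by ring
  have b2 := h.norm_tail_le x m
  have b3 := h.norm_tail_le x' m
  have b4 : 28 * B * δ * (R / 2 ^ m) ≤ 28 * B * δ * (2 * d) := by gcongr
  calc _ ≤ ‖∑ k ∈ Finset.range m, (term Ψ T c k x - term Ψ T c k x' -
        (A (k + 1) - A k) (Ψ x - Ψ x'))‖ +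
        (‖∑' k, term Ψ T c (k + m) x‖ + ‖∑' k, term Ψ T c (k + m) x'‖) := by
        refine (norm_add_le _ _).trans ?_
        gcongr
        exact norm_sub_le _ _
    _ ≤ d * B * (179 * δ) + (28 * B * δ * (2 * d) + 28 * B * δ * (2 * d)) := by
        linarith
    _ ≤ 300 * B * δ * d := by
        have : 0 ≤ B * δ * d := by positivity
        nlinarith

/-- Zeroth order: the chain almost preserves the norm of `Ψ x - Ψ x'`. -/
theorem norm_sub_norm_chain_le (h : IsGlue Ψ T c e R B δ) (x x' : X) {m : ℕ}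
    (hm : dist x x' ≤ R / 2 ^ m) (hm2 : R / 2 ^ m ≤ 2 * dist x x') :
    ‖Ψ x - Ψ x'‖ - ‖Glu923.chain (fun k => T k x) m (Ψ x - Ψ x')‖ ≤
      9 * Real.sqrt δ * dist x x' := by
  have hR := h.R_pos
  have hδ := h.δ_nonneg x
  have hd : 0 ≤ dist x x' := dist_nonneg
  have hΔ := h.Ψ_le x x'
  set d := dist x x' with hddef
  set Δ := Ψ x - Ψ x' with hΔdef
  set A := Glu923.chain (fun k => T k x) with hA
  have h1 := norm_sq_chain_apply_ge (h.chain x) (fun k u v => h.symm k x u v) m Δ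
  have hr : 0 < R / 2 ^ m := by positivity
  have a0 := (h.chain x).e_nonneg m
  have a0' := (h.chain x').e_nonneg m
  have hem : (e m x) ^ 2 ≤ δ := by
    have h2 := h.sum_le x (m + 1)
    rw [Finset.sum_range_succ] at h2
    have h3 : 0 ≤ ∑ k ∈ Finset.range m, (e k x) ^ 2 := Finset.sum_nonneg fun _ _ => sq_nonneg _
    linarith
  have hem' : (e m x') ^ 2 ≤ δ := by
    have h2 := h.sum_le x' (m + 1)
    rw [Finset.sum_range_succ] at h2
    have h3 : 0 ≤ ∑ k ∈ Finset.range m, (e k x') ^ 2 := Finset.sum_nonneg fun _ _ => sq_nonneg _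
    linarith
  have hin : ⟪(1 - T m x) Δ, Δ⟫ ≤ 17 * δ * d ^ 2 := by
    have e1 : ⟪(1 - T m x) Δ, Δ⟫ = ‖(1 - T m x) Δ‖ ^ 2 + ⟪(T m x - T m x * T m x) Δ, Δ⟫ := by
      have s1 : ⟪T m x Δ, Δ⟫ = ⟪Δ, T m x Δ⟫ := h.symm m x Δ Δ
      have s2 : ⟪T m x (T m x Δ), Δ⟫ = ⟪T m x Δ, T m x Δ⟫ := h.symm m x (T m x Δ) Δ
      have s3 : (1 - T m x) Δ = Δ - T m x Δ := by simp
      have s4 : (T m x - T m x * T m x) Δ = T m x Δ - T m x (T m x Δ) := by simp
      rw [s3, s4, ← real_inner_self_eq_norm_sq]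
      simp only [inner_sub_left, inner_sub_right]
      rw [s2, ← s1]
      ring
    rw [e1]
    have e2 : ‖(1 - T m x) Δ‖ ≤ (e m x + e m x') * (2 * d) := by
      refine (h.Ψn_le m x x' hm).trans ?_
      gcongr
    have e3 : ‖(1 - T m x) Δ‖ ^ 2 ≤ ((e m x + e m x') * (2 * d)) ^ 2 := by gcongr
    have e4 : ((e m x + e m x') * (2 * d)) ^ 2 ≤ 16 * δ * d ^ 2 := by
      have : (e m x + e m x') ^ 2 ≤ 4 * δ := by nlinarith [sq_nonneg (e m x - e m x')]
      calc ((e m x + e m x') * (2 * d)) ^ 2 = (e m x + e m x') ^ 2 * (4 * d ^ 2) := by ring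
        _ ≤ (4 * δ) * (4 * d ^ 2) := by gcongr
        _ = _ := by ring
    have e5 : ⟪(T m x - T m x * T m x) Δ, Δ⟫ ≤ δ * d ^ 2 := by
      calc ⟪(T m x - T m x * T m x) Δ, Δ⟫ ≤ ‖(T m x - T m x * T m x) Δ‖ * ‖Δ‖ :=
            real_inner_le_norm _ _
        _ ≤ (‖T m x - T m x * T m x‖ * ‖Δ‖) * ‖Δ‖ := by
            gcongr; exact ContinuousLinearMap.le_opNorm _ _
        _ ≤ (δ * d) * d := by
            gcongr
            exact ((h.chain x).sq m).trans hem
        _ = _ := by ring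
    linarith
  have hsum := h.sum_pair_le x m
  have hΔ2 : ‖Δ‖ ^ 2 ≤ d ^ 2 := by gcongr
  have h2 : 10 * (∑ j ∈ Finset.range m, (e j x + e (j + 1) x) ^ 2) * ‖Δ‖ ^ 2 ≤
      10 * (4 * δ) * d ^ 2 := by
    have : 0 ≤ ∑ j ∈ Finset.range m, (e j x + e (j + 1) x) ^ 2 :=
      Finset.sum_nonneg fun _ _ => sq_nonneg _
    gcongr
  have h3 : ‖Δ‖ ^ 2 - ‖A m Δ‖ ^ 2 ≤ 74 * δ * d ^ 2 := by
    have h1' : ‖Δ‖ ^ 2 - 2 * ⟪(1 - T m x) Δ, Δ⟫ -
      10 * (∑ j ∈ Finset.range m, (e j x + e (j + 1) x) ^ 2) * ‖Δ‖ ^ 2 ≤ ‖A m Δ‖ ^ 2 := h1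
    nlinarith
  have hAle : ‖A m Δ‖ ≤ ‖Δ‖ := by
    calc ‖A m Δ‖ ≤ ‖A m‖ * ‖Δ‖ := ContinuousLinearMap.le_opNorm _ _
      _ ≤ 1 * ‖Δ‖ := by gcongr; exact norm_chain_le (h.chain x).norm_le m
      _ = _ := one_mul _
  have h4 : (‖Δ‖ - ‖A m Δ‖) ^ 2 ≤ (9 * Real.sqrt δ * d) ^ 2 := by
    have e1 : (9 * Real.sqrt δ * d) ^ 2 = 81 * δ * d ^ 2 := by
      have := Real.sq_sqrt hδ
      calc (9 * Real.sqrt δ * d) ^ 2 = 81 * (Real.sqrt δ) ^ 2 * d ^ 2 := by ring
        _ = _ := by rw [this]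
    rw [e1]
    have e2 : (‖Δ‖ - ‖A m Δ‖) ^ 2 ≤ ‖Δ‖ ^ 2 - ‖A m Δ‖ ^ 2 := by
      nlinarith [norm_nonneg (A m Δ)]
    have e3 : 0 ≤ δ * d ^ 2 := by positivity
    linarith
  exact le_of_sq_le_sq' h4 (by positivity)
where
  le_of_sq_le_sq' {a b : ℝ} (h : a ^ 2 ≤ b ^ 2) (hb : 0 ≤ b) : a ≤ b := by
    exact le_of_not_gt fun hlt => by nlinarith

/-- **Gluing, core form.** -/
theorem abs_norm_map_sub_le [CompleteSpace H] (h : IsGlue Ψ T c e R B δ) (x x' : X) :
    |‖map Ψ T c x - map Ψ T c x'‖ - ‖Ψ x - Ψ x'‖| ≤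
      (300 * B * δ + 9 * Real.sqrt δ) * dist x x' := by
  have hδ := h.δ_nonneg x
  have hB := h.B_ge
  rcases eq_or_ne x x' with rfl | hne
  · simp
  have hd : 0 < dist x x' := dist_pos.2 hne
  obtain ⟨m, hm, hm2⟩ := exists_scale hd (h.diam x x')
  have h1 := h.norm_map_sub_sub_le x x' hm hm2
  have h2 := h.norm_sub_norm_chain_le x x' hm hm2
  set A := Glu923.chain (fun k => T k x) with hA
  have hAle : ‖A m (Ψ x - Ψ x')‖ ≤ ‖Ψ x - Ψ x'‖ := by
    calc ‖A m (Ψ x - Ψ x')‖ ≤ ‖A m‖ * ‖Ψ x - Ψ x'‖ := ContinuousLinearMap.le_opNorm _ _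
      _ ≤ 1 * ‖Ψ x - Ψ x'‖ := by gcongr; exact norm_chain_le (h.chain x).norm_le m
      _ = _ := one_mul _
  have h3 : |‖map Ψ T c x - map Ψ T c x'‖ - ‖A m (Ψ x - Ψ x')‖| ≤
      300 * B * δ * dist x x' := (abs_norm_sub_norm_le _ _).trans h1
  have h4 := abs_le.1 h3
  have h5 : 0 ≤ 9 * Real.sqrt δ * dist x x' := by positivity
  have h6 : 0 ≤ 300 * B * δ * dist x x' := by positivity
  rw [abs_le]
  constructor <;> nlinarith [h4.1, h4.2]

/-- Values of the glued map are fixed by the base projection. -/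
theorem proj_map [CompleteSpace H] (h : IsGlue Ψ T c e R B δ) (x₀ : X)
    (h0 : T 0 x₀ * T 0 x₀ = T 0 x₀) (x : X) : T 0 x₀ (map Ψ T c x) = map Ψ T c x := by
  have sx : Summable fun k => term Ψ T c k x := by
    have := (h.summable_norm_term_tail x 0).of_norm
    simpa using this
  have hx : T 0 x = T 0 x₀ := h.zero x x₀
  have hc : ∀ k, T 0 x₀ * Glu923.chain (fun k => T k x) k = Glu923.chain (fun k => T k x) k := by
    intro k
    induction k with
    | zero => simp [hx, h0]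
    | succ k ih => rw [chain_succ, ← mul_assoc, ih]
  have ht : ∀ k, T 0 x₀ (term Ψ T c k x) = term Ψ T c k x := by
    intro k
    have : T 0 x₀ (term Ψ T c k x) = (T 0 x₀ * (Glu923.chain (fun k => T k x) (k + 1) -
      Glu923.chain (fun k => T k x) k)) (Ψ x - c k x) := rfl
    rw [this, mul_sub, hc, hc]
    rfl
  unfold map
  rw [map_add, hx, ContinuousLinearMap.map_tsum _ sx]
  congr 1
  · have : T 0 x₀ (T 0 x₀ (Ψ x)) = (T 0 x₀ * T 0 x₀) (Ψ x) := rfl
    rw [this, h0]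
  · exact tsum_congr ht

end IsGlue

end Crest.Agent.R247.Glu923
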