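import Crest.Agent.R247.Glu4_923

/-!
# R247, block (4): averages of projections, and the passage from planes to `IsGlue`
-/

set_option autoImplicit false

namespace Crest.Agent.R247.Glu923

open scoped RealInnerProductSpace

variable {H : Type*} [NormedAddCommGroup H] [InnerProductSpace ℝ H]

/-! ### Orthogonal projections given as symmetric idempotents -/

/-- A symmetric idempotent operator. -/
structure IsProj (P : H →L[ℝ] H) : Prop where
  idem : P * P = P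
  symm : ∀ u v, ⟪P u, v⟫ = ⟪u, P v⟫

namespace IsProj

variable {P : H →L[ℝ] H}

theorem one_sub (h : IsProj P) : IsProj (1 - P) := by
  refine ⟨?_, ?_⟩
  · have := h.idem
    calc (1 - P) * (1 - P) = 1 - P - P + P * P := by noncomm_ring
      _ = 1 - P := by rw [this]; abel
  · intro u v
    have := h.symm u v
    simp only [sub_apply, ContinuousLinearMap.one_apply, inner_sub_left, inner_sub_right, this]

theorem norm_apply_le (h : IsProj P) (v : H) : ‖P v‖ ≤ ‖v‖ := by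
  have h1 : ‖P v‖ ^ 2 = ⟪P v, v⟫ := by
    rw [← real_inner_self_eq_norm_sq, h.symm (P v) v |>.symm.trans ?_]
    have : P (P v) = (P * P) v := rfl
    rw [this, h.idem]
  rcases eq_or_ne (P v) 0 with h0 | h0
  · rw [h0, norm_zero]; exact norm_nonneg _
  have h2 : ‖P v‖ ^ 2 ≤ ‖P v‖ * ‖v‖ := by rw [h1]; exact real_inner_le_norm _ _
  have h3 : 0 < ‖P v‖ := norm_pos_iff.2 h0
  nlinarith

theorem norm_le (h : IsProj P) : ‖P‖ ≤ 1 :=
  ContinuousLinearMap.opNorm_le_bound _ zero_le_one fun v => by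
    rw [one_mul]; exact h.norm_apply_le v

end IsProj

/-! ### Averages -/

section avg

variable {ι : Type*} (s : Finset ι)

theorem sum_smul_sub_eq {V : Type*} [AddCommGroup V] [Module ℝ V] (θ : ι → ℝ) (f : ι → V) (a : V)
    (h1 : ∑ i ∈ s, θ i = 1) : ∑ i ∈ s, θ i • f i - a = ∑ i ∈ s, θ i • (f i - a) := by
  simp only [smul_sub, Finset.sum_sub_distrib, ← Finset.sum_smul, h1, one_smul]

theorem sum_smul_diff_eq {V : Type*} [AddCommGroup V] [Module ℝ V] (θ θ' : ι → ℝ) (f : ι → V)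
    (a : V) (h1 : ∑ i ∈ s, θ i = 1) (h2 : ∑ i ∈ s, θ' i = 1) :
    ∑ i ∈ s, θ i • f i - ∑ i ∈ s, θ' i • f i = ∑ i ∈ s, (θ i - θ' i) • (f i - a) := by
  have e1 : ∑ i ∈ s, (θ i - θ' i) • (f i - a) =
      ∑ i ∈ s, (θ i • f i - θ' i • f i - (θ i • a - θ' i • a)) := by
    apply Finset.sum_congr rfl
    intro i _
    rw [smul_sub, sub_smul, sub_smul]
  rw [e1, Finset.sum_sub_distrib, Finset.sum_sub_distrib, Finset.sum_sub_distrib,
    ← Finset.sum_smul, ← Finset.sum_smul, h1, h2]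
  simp

theorem norm_sum_smul_le {V : Type*} [SeminormedAddCommGroup V] [NormedSpace ℝ V] (w : ι → ℝ)
    (f : ι → V) {K : ℝ} (hf : ∀ i ∈ s, w i ≠ 0 → ‖f i‖ ≤ K) :
    ‖∑ i ∈ s, w i • f i‖ ≤ (∑ i ∈ s, |w i|) * K := by
  rw [Finset.sum_mul]
  refine (norm_sum_le _ _).trans (Finset.sum_le_sum fun i hi => ?_)
  rw [norm_smul, Real.norm_eq_abs]
  by_cases h0 : w i = 0
  · simp [h0]
  · gcongr
    exact hf i hi h0

/-- `∑ θ i • P i`. -/
noncomputable def avg (θ : ι → ℝ) (P : ι → H →L[ℝ] H) : H →L[ℝ] H := ∑ i ∈ s, θ i • P i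

theorem avg_symm {θ : ι → ℝ} {P : ι → H →L[ℝ] H} (hP : ∀ i ∈ s, IsProj (P i)) (u v : H) :
    ⟪avg s θ P u, v⟫ = ⟪u, avg s θ P v⟫ := by
  unfold avg
  simp only [ContinuousLinearMap.sum_apply, ContinuousLinearMap.smul_apply, sum_inner, inner_sum,
    real_inner_smul_left, real_inner_smul_right]
  apply Finset.sum_congr rfl
  intro i hi
  rw [(hP i hi).symm]

theorem avg_norm_le {θ : ι → ℝ} {P : ι → H →L[ℝ] H} (hθ : ∀ i ∈ s, 0 ≤ θ i)
    (h1 : ∑ i ∈ s, θ i = 1) (hP : ∀ i ∈ s, IsProj (P i)) : ‖avg s θ P‖ ≤ 1 := by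
  have h2 := norm_sum_smul_le s θ P (K := 1) (fun i hi _ => (hP i hi).norm_le)
  have h3 : ∑ i ∈ s, |θ i| = 1 := by
    rw [← h1]; exact Finset.sum_congr rfl fun i hi => abs_of_nonneg (hθ i hi)
  rw [h3, one_mul] at h2
  exact h2

theorem one_sub_avg {θ : ι → ℝ} {P : ι → H →L[ℝ] H} (h1 : ∑ i ∈ s, θ i = 1) :
    1 - avg s θ P = avg s θ (fun i => 1 - P i) := by
  unfold avg
  simp only [smul_sub, Finset.sum_sub_distrib, ← Finset.sum_smul, h1, one_smul]

theorem one_sub_avg_norm_le {θ : ι → ℝ} {P : ι → H →L[ℝ] H} (hθ : ∀ i ∈ s, 0 ≤ θ i)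
    (h1 : ∑ i ∈ s, θ i = 1) (hP : ∀ i ∈ s, IsProj (P i)) : ‖1 - avg s θ P‖ ≤ 1 := by
  rw [one_sub_avg s h1]
  exact avg_norm_le s hθ h1 fun i hi => (hP i hi).one_sub

theorem avg_sub_sq {θ : ι → ℝ} {P : ι → H →L[ℝ] H} (h1 : ∑ i ∈ s, θ i = 1)
    (hP : ∀ i ∈ s, IsProj (P i)) :
    avg s θ P - avg s θ P * avg s θ P =
      ∑ p ∈ s ×ˢ s, (θ p.1 * θ p.2) • ((1 / 2 : ℝ) • ((P p.1 - P p.2) * (P p.1 - P p.2))) := by
  have e0 : avg s θ P * avg s θ P = ∑ i ∈ s, ∑ j ∈ s, (θ i * θ j) • (P i * P j) := by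
    unfold avg
    rw [Finset.sum_mul_sum]
    refine Finset.sum_congr rfl fun i _ => Finset.sum_congr rfl fun j _ => ?_
    rw [smul_mul_smul_comm]
  have e0' : avg s θ P * avg s θ P = ∑ i ∈ s, ∑ j ∈ s, (θ i * θ j) • (P j * P i) := by
    rw [e0, Finset.sum_comm]
    refine Finset.sum_congr rfl fun i _ => Finset.sum_congr rfl fun j _ => ?_
    rw [mul_comm]
  have e1 : avg s θ P = ∑ i ∈ s, ∑ j ∈ s, (θ i * θ j) • P i := by
    unfold avg
    refine Finset.sum_congr rfl fun i _ => ?_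
    rw [← Finset.sum_smul, ← Finset.mul_sum, h1, mul_one]
  have e1' : avg s θ P = ∑ i ∈ s, ∑ j ∈ s, (θ i * θ j) • P j := by
    rw [e1, Finset.sum_comm]
    refine Finset.sum_congr rfl fun i _ => Finset.sum_congr rfl fun j _ => ?_
    rw [mul_comm]
  have e2 : ∑ p ∈ s ×ˢ s, (θ p.1 * θ p.2) • ((1 / 2 : ℝ) • ((P p.1 - P p.2) * (P p.1 - P p.2))) =
      (1 / 2 : ℝ) • (∑ i ∈ s, ∑ j ∈ s, (θ i * θ j) • P i + ∑ i ∈ s, ∑ j ∈ s, (θ i * θ j) • P j -
        ∑ i ∈ s, ∑ j ∈ s, (θ i * θ j) • (P i * P j) -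
        ∑ i ∈ s, ∑ j ∈ s, (θ i * θ j) • (P j * P i)) := by
    rw [Finset.sum_product]
    simp only [← Finset.sum_add_distrib, ← Finset.sum_sub_distrib, Finset.smul_sum]
    refine Finset.sum_congr rfl fun i hi => Finset.sum_congr rfl fun j hj => ?_
    have : (P i - P j) * (P i - P j) = P i + P j - P i * P j - P j * P i := by
      have a := (hP i hi).idem
      have b := (hP j hj).idem
      calc (P i - P j) * (P i - P j) = P i * P i + P j * P j - P i * P j - P j * P i := by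
            noncomm_ring
        _ = _ := by rw [a, b]
    rw [this, smul_comm]
    simp only [smul_sub, smul_add]
  rw [e2, ← e0, ← e0', ← e1, ← e1']
  have : avg s θ P + avg s θ P - avg s θ P * avg s θ P - avg s θ P * avg s θ P =
      (2 : ℝ) • (avg s θ P - avg s θ P * avg s θ P) := by
    rw [two_smul]; abel
  rw [this, smul_smul]
  norm_num

theorem norm_half_sq_le {P Q : H →L[ℝ] H} {a : ℝ} (h : ‖P - Q‖ ≤ 2 * a) :
    ‖(1 / 2 : ℝ) • ((P - Q) * (P - Q))‖ ≤ 2 * a ^ 2 := by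
  rw [norm_smul]
  have h0 : 0 ≤ 2 * a := (norm_nonneg _).trans h
  have h1 : ‖(P - Q) * (P - Q)‖ ≤ (2 * a) * (2 * a) :=
    (norm_mul_le _ _).trans (mul_le_mul h h (norm_nonneg _) h0)
  have h2 : ‖(1 / 2 : ℝ)‖ = 1 / 2 := by norm_num
  rw [h2]
  nlinarith

end avg

/-- The data of one scale. -/
structure IsPart {X ι : Type*} [MetricSpace X] (s : Finset ι) (θ : ι → X → ℝ) (y : ι → X)
    (D : X → ℝ) (Dt : X → ℝ) (r L : ℝ) : Prop where
  r_pos : 0 < r
  L_ge : 1 ≤ L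
  nonneg : ∀ i ∈ s, ∀ x, 0 ≤ θ i x
  sum_one : ∀ x, ∑ i ∈ s, θ i x = 1
  rel : ∀ i ∈ s, ∀ x x', dist x x' ≤ r → θ i x' ≠ 0 → D (y i) ≤ Dt x ∧ dist x (y i) ≤ 6 * r
  lip : ∀ x x', dist x x' ≤ r → ∑ i ∈ s, |θ i x - θ i x'| ≤ L * (dist x x' / r)

section scale

variable {X ι : Type*} [MetricSpace X] {s : Finset ι} {θ : ι → X → ℝ} {y : ι → X}
  {D Dt : X → ℝ} {r L C : ℝ} {P : X → H →L[ℝ] H} {Ψ : X → H}

/-- The planes at one scale. -/
structure IsPlane (P : X → H →L[ℝ] H) (Ψ : X → H) (D : X → ℝ) (r C : ℝ) : Prop where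
  C_ge : 1 ≤ C
  proj : ∀ x, IsProj (P x)
  D_nonneg : ∀ x, 0 ≤ D x
  Ψ_le : ∀ x x', ‖Ψ x - Ψ x'‖ ≤ dist x x'
  A1 : ∀ x x', dist x x' ≤ 8 * r →
    ‖(1 - P x) (Ψ x' - Ψ x)‖ ≤ C * (Real.sqrt (D x) + Real.sqrt (D x')) * r
  A2 : ∀ x x', dist x x' ≤ 8 * r → ‖P x - P x'‖ ≤ C * (Real.sqrt (D x) + Real.sqrt (D x'))

/-- the averaged operator -/
noncomputable def Tav (s : Finset ι) (θ : ι → X → ℝ) (y : ι → X) (P : X → H →L[ℝ] H) (x : X) :
    H →L[ℝ] H := avg s (fun i => θ i x) (fun i => P (y i))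

/-- the averaged centre -/
noncomputable def cav (s : Finset ι) (θ : ι → X → ℝ) (y : ι → X) (Ψ : X → H) (x : X) : H :=
  ∑ i ∈ s, θ i x • Ψ (y i)

variable (hpart : IsPart s θ y D Dt r L) (hpl : IsPlane P Ψ D r C) (hDt : ∀ x, D x ≤ Dt x)

include hpart hpl hDt in
theorem rel_P {x x' : X} (hxx : dist x x' ≤ r) {i : ι} (hi : i ∈ s) (h0 : θ i x' ≠ 0) :
    ‖P (y i) - P x‖ ≤ 2 * C * Real.sqrt (Dt x) := by
  obtain ⟨h1, h2⟩ := hpart.rel i hi x x' hxx h0
  have hr := hpart.r_pos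
  have hC := hpl.C_ge
  have h3 := hpl.A2 x (y i) (by linarith)
  rw [norm_sub_rev]
  refine h3.trans ?_
  have e1 := Real.sqrt_le_sqrt (hDt x)
  have e2 := Real.sqrt_le_sqrt h1
  nlinarith

include hpart hpl hDt in
theorem rel_P' {x x' : X} (hxx : dist x x' ≤ r) {i : ι} (hi : i ∈ s)
    (h0 : θ i x - θ i x' ≠ 0) : ‖P (y i) - P x‖ ≤ 2 * C * Real.sqrt (Dt x) := by
  by_cases h1 : θ i x = 0
  · exact rel_P hpart hpl hDt hxx hi (fun h2 => h0 (by rw [h1, h2, sub_zero]))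
  · exact rel_P hpart hpl hDt (x := x) (x' := x) (by simpa using hpart.r_pos.le) hi h1

include hpart hpl hDt in
theorem rel_PP {x x' x'' : X} (hxx : dist x x' ≤ r) (hxx' : dist x x'' ≤ r) {i j : ι}
    (hi : i ∈ s) (hj : j ∈ s) (h0 : θ i x' ≠ 0) (h1 : θ j x'' ≠ 0) :
    ‖P (y i) - P (y j)‖ ≤ 2 * (2 * C * Real.sqrt (Dt x)) := by
  have e1 := rel_P hpart hpl hDt hxx hi h0
  have e2 := rel_P hpart hpl hDt hxx' hj h1
  calc ‖P (y i) - P (y j)‖ = ‖(P (y i) - P x) - (P (y j) - P x)‖ := by congr 1; abel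
    _ ≤ ‖P (y i) - P x‖ + ‖P (y j) - P x‖ := norm_sub_le _ _
    _ ≤ _ := by linarith

include hpart hpl hDt in
theorem Tav_sub_P (x : X) : ‖Tav s θ y P x - P x‖ ≤ 2 * C * Real.sqrt (Dt x) := by
  unfold Tav avg
  rw [sum_smul_sub_eq s _ _ _ (hpart.sum_one x)]
  have h1 := norm_sum_smul_le s (fun i => θ i x) (fun i => P (y i) - P x)
    (K := 2 * C * Real.sqrt (Dt x)) (fun i hi h0 =>
      rel_P hpart hpl hDt (x := x) (x' := x) (by simpa using hpart.r_pos.le) hi h0)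
  have h3 : ∑ i ∈ s, |θ i x| = 1 := by
    rw [← hpart.sum_one x]
    exact Finset.sum_congr rfl fun i hi => abs_of_nonneg (hpart.nonneg i hi x)
  rw [h3, one_mul] at h1
  exact h1

include hpart hpl hDt in
theorem Tav_sub_sq (x : X) :
    ‖Tav s θ y P x - Tav s θ y P x * Tav s θ y P x‖ ≤ (4 * C * Real.sqrt (Dt x)) ^ 2 := by
  unfold Tav
  rw [avg_sub_sq s (hpart.sum_one x) (fun i _ => hpl.proj _)]
  have hxx : dist x x ≤ r := by simpa using hpart.r_pos.le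
  have h1 := norm_sum_smul_le (s ×ˢ s) (fun p : ι × ι => θ p.1 x * θ p.2 x)
    (fun p => (1 / 2 : ℝ) • ((P (y p.1) - P (y p.2)) * (P (y p.1) - P (y p.2))))
    (K := 2 * (2 * C * Real.sqrt (Dt x)) ^ 2) (by
      intro p hp h0
      rw [Finset.mem_product] at hp
      exact norm_half_sq_le (rel_PP hpart hpl hDt hxx hxx hp.1 hp.2 (left_ne_zero_of_mul h0)
        (right_ne_zero_of_mul h0)))
  have h3 : ∑ p ∈ s ×ˢ s, |θ p.1 x * θ p.2 x| = 1 := by
    rw [Finset.sum_product]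
    have : ∀ i ∈ s, ∑ j ∈ s, |θ i x * θ j x| = θ i x := by
      intro i hi
      have : ∑ j ∈ s, |θ i x * θ j x| = ∑ j ∈ s, θ i x * θ j x :=
        Finset.sum_congr rfl fun j hj =>
          abs_of_nonneg (mul_nonneg (hpart.nonneg i hi x) (hpart.nonneg j hj x))
      rw [this, ← Finset.mul_sum, hpart.sum_one x, mul_one]
    rw [Finset.sum_congr rfl this, hpart.sum_one x]
  rw [h3, one_mul] at h1
  refine h1.trans ?_
  have : 0 ≤ (C * Real.sqrt (Dt x)) ^ 2 := sq_nonneg _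
  nlinarith

include hpart hpl hDt in
theorem Tav_sub (x x' : X) (hxx : dist x x' ≤ r) :
    ‖Tav s θ y P x - Tav s θ y P x'‖ ≤ 2 * L * C * Real.sqrt (Dt x) * (dist x x' / r) := by
  unfold Tav avg
  rw [sum_smul_diff_eq s _ _ _ (P x) (hpart.sum_one x) (hpart.sum_one x')]
  have h1 := norm_sum_smul_le s (fun i => θ i x - θ i x') (fun i => P (y i) - P x)
    (K := 2 * C * Real.sqrt (Dt x)) (fun i hi h0 => rel_P' hpart hpl hDt hxx hi h0)
  have h2 := hpart.lip x x' hxx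
  have hC := hpl.C_ge
  calc _ ≤ (∑ i ∈ s, |θ i x - θ i x'|) * (2 * C * Real.sqrt (Dt x)) := h1
    _ ≤ (L * (dist x x' / r)) * (2 * C * Real.sqrt (Dt x)) := by gcongr
    _ = _ := by ring

include hpart hpl hDt in
theorem Tav_sq_sub (x x' : X) (hxx : dist x x' ≤ r) :
    ‖(Tav s θ y P x - Tav s θ y P x * Tav s θ y P x) -
      (Tav s θ y P x' - Tav s θ y P x' * Tav s θ y P x')‖ ≤
      (4 * L * C * Real.sqrt (Dt x)) ^ 2 * (dist x x' / r) := by
  unfold Tav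
  rw [avg_sub_sq s (hpart.sum_one x) (fun i _ => hpl.proj _),
    avg_sub_sq s (hpart.sum_one x') (fun i _ => hpl.proj _), ← Finset.sum_sub_distrib]
  have hx0 : dist x x ≤ r := by simpa using hpart.r_pos.le
  have e1 : ∑ p ∈ s ×ˢ s, ((θ p.1 x * θ p.2 x) • ((1 / 2 : ℝ) •
        ((P (y p.1) - P (y p.2)) * (P (y p.1) - P (y p.2)))) -
      (θ p.1 x' * θ p.2 x') • ((1 / 2 : ℝ) •
        ((P (y p.1) - P (y p.2)) * (P (y p.1) - P (y p.2))))) =
      ∑ p ∈ s ×ˢ s, (θ p.1 x * θ p.2 x - θ p.1 x' * θ p.2 x') • ((1 / 2 : ℝ) •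
        ((P (y p.1) - P (y p.2)) * (P (y p.1) - P (y p.2)))) :=
    Finset.sum_congr rfl fun p _ => by rw [sub_smul]
  rw [e1]
  have h1 := norm_sum_smul_le (s ×ˢ s)
    (fun p : ι × ι => θ p.1 x * θ p.2 x - θ p.1 x' * θ p.2 x')
    (fun p => (1 / 2 : ℝ) • ((P (y p.1) - P (y p.2)) * (P (y p.1) - P (y p.2))))
    (K := 2 * (2 * C * Real.sqrt (Dt x)) ^ 2) (by
      intro p hp h0
      rw [Finset.mem_product] at hp
      by_cases h2 : θ p.1 x * θ p.2 x = 0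
      · have h3 : θ p.1 x' * θ p.2 x' ≠ 0 := fun h4 => h0 (by rw [h2, h4, sub_zero])
        exact norm_half_sq_le (rel_PP hpart hpl hDt hxx hxx hp.1 hp.2 (left_ne_zero_of_mul h3)
          (right_ne_zero_of_mul h3))
      · exact norm_half_sq_le (rel_PP hpart hpl hDt hx0 hx0 hp.1 hp.2 (left_ne_zero_of_mul h2)
          (right_ne_zero_of_mul h2)))
  have h3 : ∑ p ∈ s ×ˢ s, |θ p.1 x * θ p.2 x - θ p.1 x' * θ p.2 x'| ≤
      2 * (L * (dist x x' / r)) := by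
    have e2 : ∑ p ∈ s ×ˢ s, |θ p.1 x * θ p.2 x - θ p.1 x' * θ p.2 x'| ≤
        ∑ p ∈ s ×ˢ s, (|θ p.1 x - θ p.1 x'| * θ p.2 x + θ p.1 x' * |θ p.2 x - θ p.2 x'|) := by
      apply Finset.sum_le_sum
      intro p hp
      rw [Finset.mem_product] at hp
      have a1 := hpart.nonneg _ hp.2 x
      have a2 := hpart.nonneg _ hp.1 x'
      have : θ p.1 x * θ p.2 x - θ p.1 x' * θ p.2 x' =
        (θ p.1 x - θ p.1 x') * θ p.2 x + θ p.1 x' * (θ p.2 x - θ p.2 x') := by ring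
      rw [this]
      refine (abs_add_le _ _).trans ?_
      rw [abs_mul, abs_mul, abs_of_nonneg a1, abs_of_nonneg a2]
    refine e2.trans ?_
    rw [Finset.sum_add_distrib, Finset.sum_product, Finset.sum_product]
    have e3 : ∑ i ∈ s, ∑ j ∈ s, |θ i x - θ i x'| * θ j x = ∑ i ∈ s, |θ i x - θ i x'| := by
      refine Finset.sum_congr rfl fun i _ => ?_
      rw [← Finset.mul_sum, hpart.sum_one x, mul_one]
    have e4 : ∑ i ∈ s, ∑ j ∈ s, θ i x' * |θ j x - θ j x'| = ∑ j ∈ s, |θ j x - θ j x'| := by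
      rw [Finset.sum_comm]
      refine Finset.sum_congr rfl fun i _ => ?_
      rw [← Finset.sum_mul, hpart.sum_one x', one_mul]
    simp only [] at e3 e4 ⊢
    rw [e3, e4]
    have := hpart.lip x x' hxx
    linarith
  have hL := hpart.L_ge
  have hC := hpl.C_ge
  have hr := hpart.r_pos
  have hq : 0 ≤ dist x x' / r := by positivity
  have h4 : (0:ℝ) ≤ 2 * (2 * C * Real.sqrt (Dt x)) ^ 2 := by positivity
  calc _ ≤ (∑ p ∈ s ×ˢ s, |θ p.1 x * θ p.2 x - θ p.1 x' * θ p.2 x'|) *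
        (2 * (2 * C * Real.sqrt (Dt x)) ^ 2) := h1
    _ ≤ (2 * (L * (dist x x' / r))) * (2 * (2 * C * Real.sqrt (Dt x)) ^ 2) := by gcongr
    _ = 16 * L * (C * Real.sqrt (Dt x)) ^ 2 * (dist x x' / r) := by ring
    _ ≤ 16 * L ^ 2 * (C * Real.sqrt (Dt x)) ^ 2 * (dist x x' / r) := by
        have : L ≤ L ^ 2 := by nlinarith
        gcongr
    _ = _ := by ring

include hpart hpl hDt in
theorem rel_normal {x x' : X} (hxx : dist x x' ≤ r) {i : ι} (hi : i ∈ s) (h0 : θ i x' ≠ 0) :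
    ‖(1 - Tav s θ y P x) (Ψ (y i) - Ψ x)‖ ≤ 14 * C * Real.sqrt (Dt x) * r := by
  obtain ⟨h1, h2⟩ := hpart.rel i hi x x' hxx h0
  have hr := hpart.r_pos
  have hC := hpl.C_ge
  have e0 : (1 - Tav s θ y P x) (Ψ (y i) - Ψ x) = (1 - P x) (Ψ (y i) - Ψ x) -
      (Tav s θ y P x - P x) (Ψ (y i) - Ψ x) := by
    simp only [sub_apply]; abel
  rw [e0]
  refine (norm_sub_le _ _).trans ?_
  have e1 := hpl.A1 x (y i) (by linarith)
  have e2 : ‖(Tav s θ y P x - P x) (Ψ (y i) - Ψ x)‖ ≤ (2 * C * Real.sqrt (Dt x)) * (6 * r) := by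
    refine (ContinuousLinearMap.le_opNorm _ _).trans ?_
    have := hpl.Ψ_le (y i) x
    rw [dist_comm] at this
    have h5 := Tav_sub_P hpart hpl hDt x
    exact mul_le_mul h5 (this.trans h2) (norm_nonneg _) (by positivity)
  have e3 := Real.sqrt_le_sqrt (hDt x)
  have e4 := Real.sqrt_le_sqrt h1
  have e5 : C * (Real.sqrt (D x) + Real.sqrt (D (y i))) * r ≤
      C * (Real.sqrt (Dt x) + Real.sqrt (Dt x)) * r := by gcongr
  linarith

include hpart hpl hDt in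
theorem cav_u_le (x : X) : ‖Ψ x - cav s θ y Ψ x‖ ≤ 6 * r := by
  unfold cav
  rw [norm_sub_rev, sum_smul_sub_eq s _ _ _ (hpart.sum_one x)]
  have h1 := norm_sum_smul_le s (fun i => θ i x) (fun i => Ψ (y i) - Ψ x)
    (K := 6 * r) (fun i hi h0 => by
      have := (hpart.rel i hi x x (by simpa using hpart.r_pos.le) h0).2
      have h2 := hpl.Ψ_le (y i) x
      rw [dist_comm] at h2
      exact h2.trans this)
  have h3 : ∑ i ∈ s, |θ i x| = 1 := by
    rw [← hpart.sum_one x]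
    exact Finset.sum_congr rfl fun i hi => abs_of_nonneg (hpart.nonneg i hi x)
  rw [h3, one_mul] at h1
  exact h1

include hpart hpl hDt in
theorem cav_un_le (x : X) :
    ‖(1 - Tav s θ y P x) (Ψ x - cav s θ y Ψ x)‖ ≤ 14 * C * Real.sqrt (Dt x) * r := by
  have e0 : (1 - Tav s θ y P x) (Ψ x - cav s θ y Ψ x) =
      -(∑ i ∈ s, θ i x • (1 - Tav s θ y P x) (Ψ (y i) - Ψ x)) := by
    have : Ψ x - cav s θ y Ψ x = -(∑ i ∈ s, θ i x • (Ψ (y i) - Ψ x)) := by
      unfold cav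
      rw [← sum_smul_sub_eq s _ _ _ (hpart.sum_one x)]; abel
    rw [this, map_neg, map_sum]
    simp only [map_smul]
  rw [e0, norm_neg]
  have h1 := norm_sum_smul_le s (fun i => θ i x)
    (fun i => (1 - Tav s θ y P x) (Ψ (y i) - Ψ x))
    (K := 14 * C * Real.sqrt (Dt x) * r) (fun i hi h0 =>
      rel_normal hpart hpl hDt (x' := x) (by simpa using hpart.r_pos.le) hi h0)
  have h3 : ∑ i ∈ s, |θ i x| = 1 := by
    rw [← hpart.sum_one x]
    exact Finset.sum_congr rfl fun i hi => abs_of_nonneg (hpart.nonneg i hi x)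
  rw [h3, one_mul] at h1
  exact h1

include hpart hpl hDt in
theorem cav_sub_le (x x' : X) (hxx : dist x x' ≤ r) :
    ‖cav s θ y Ψ x - cav s θ y Ψ x'‖ ≤ 6 * L * dist x x' := by
  unfold cav
  rw [sum_smul_diff_eq s _ _ _ (Ψ x) (hpart.sum_one x) (hpart.sum_one x')]
  have hr := hpart.r_pos
  have h1 := norm_sum_smul_le s (fun i => θ i x - θ i x') (fun i => Ψ (y i) - Ψ x)
    (K := 6 * r) (fun i hi h0 => by
      have h2 := hpl.Ψ_le (y i) x
      rw [dist_comm] at h2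
      refine h2.trans ?_
      by_cases h3 : θ i x = 0
      · exact (hpart.rel i hi x x' hxx (fun h4 => h0 (by simp only [h3, h4, sub_zero]))).2
      · exact (hpart.rel i hi x x (by simpa using hr.le) h3).2)
  have h2 := hpart.lip x x' hxx
  calc _ ≤ (∑ i ∈ s, |θ i x - θ i x'|) * (6 * r) := h1
    _ ≤ (L * (dist x x' / r)) * (6 * r) := by gcongr
    _ = _ := by field_simp

include hpart hpl hDt in
theorem cav_n_le (x x' : X) (hxx : dist x x' ≤ r) :
    ‖(1 - Tav s θ y P x) (cav s θ y Ψ x - cav s θ y Ψ x')‖ ≤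
      14 * L * C * Real.sqrt (Dt x) * dist x x' := by
  have hr := hpart.r_pos
  have hC := hpl.C_ge
  have e0 : (1 - Tav s θ y P x) (cav s θ y Ψ x - cav s θ y Ψ x') =
      ∑ i ∈ s, (θ i x - θ i x') • (1 - Tav s θ y P x) (Ψ (y i) - Ψ x) := by
    unfold cav
    rw [sum_smul_diff_eq s _ _ _ (Ψ x) (hpart.sum_one x) (hpart.sum_one x'), map_sum]
    simp only [map_smul]
  rw [e0]
  have h1 := norm_sum_smul_le s (fun i => θ i x - θ i x')
    (fun i => (1 - Tav s θ y P x) (Ψ (y i) - Ψ x))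
    (K := 14 * C * Real.sqrt (Dt x) * r) (fun i hi h0 => by
      by_cases h3 : θ i x = 0
      · exact rel_normal hpart hpl hDt hxx hi (fun h4 => h0 (by simp only [h3, h4, sub_zero]))
      · exact rel_normal hpart hpl hDt (x' := x) (by simpa using hr.le) hi h3)
  have h2 := hpart.lip x x' hxx
  calc _ ≤ (∑ i ∈ s, |θ i x - θ i x'|) * (14 * C * Real.sqrt (Dt x) * r) := h1
    _ ≤ (L * (dist x x' / r)) * (14 * C * Real.sqrt (Dt x) * r) := by gcongr
    _ = _ := by field_simp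

include hpart hpl hDt in
theorem Ψ_n_le (x x' : X) (hxx : dist x x' ≤ r) :
    ‖(1 - Tav s θ y P x) (Ψ x - Ψ x')‖ ≤
      (3 * C * Real.sqrt (Dt x) + C * Real.sqrt (Dt x')) * r := by
  have hr := hpart.r_pos
  have hC := hpl.C_ge
  have e0 : (1 - Tav s θ y P x) (Ψ x - Ψ x') = -((1 - P x) (Ψ x' - Ψ x)) -
      (Tav s θ y P x - P x) (Ψ x - Ψ x') := by
    simp only [sub_apply, map_sub]; abel
  rw [e0]
  refine (norm_sub_le _ _).trans ?_
  rw [norm_neg]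
  have e1 := hpl.A1 x x' (by linarith)
  have e2 : ‖(Tav s θ y P x - P x) (Ψ x - Ψ x')‖ ≤ (2 * C * Real.sqrt (Dt x)) * r := by
    refine (ContinuousLinearMap.le_opNorm _ _).trans ?_
    have h5 := Tav_sub_P hpart hpl hDt x
    exact mul_le_mul h5 ((hpl.Ψ_le x x').trans hxx) (norm_nonneg _) (by positivity)
  have e3 := Real.sqrt_le_sqrt (hDt x)
  have e4 := Real.sqrt_le_sqrt (hDt x')
  have e5 : C * (Real.sqrt (D x) + Real.sqrt (D x')) * r ≤
      C * (Real.sqrt (Dt x) + Real.sqrt (Dt x')) * r := by gcongr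
  linarith

end scale

end Crest.Agent.R247.Glu923
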