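import Crest.Agent.R247.Glu5_923

/-!
# R247, block (4): nets, best centres, partition of unity, and the gluing theorem
-/

set_option autoImplicit false

namespace Crest.Agent.R247.Glu923

open scoped RealInnerProductSpace

/-! ### Nets -/

/-- Maximal separated finite sets in a totally bounded metric space. -/
theorem exists_net {X : Type*} [MetricSpace X] (hX : TotallyBounded (Set.univ : Set X)) {r : ℝ}
    (hr : 0 < r) : ∃ t : Finset X, (∀ a ∈ t, ∀ b ∈ t, a ≠ b → r ≤ dist a b) ∧
      ∀ x, ∃ a ∈ t, dist x a ≤ r := by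
  classical
  obtain ⟨F, hF, hcov⟩ := Metric.totallyBounded_iff.1 hX (r / 2) (by positivity)
  set sep : Finset X → Prop := fun t => ∀ a ∈ t, ∀ b ∈ t, a ≠ b → r ≤ dist a b with hsep
  have hbd : ∀ t, sep t → t.card ≤ hF.toFinset.card := by
    intro t ht
    have hch : ∀ a : X, ∃ c ∈ F, dist a c < r / 2 := by
      intro a
      have := hcov (Set.mem_univ a)
      simpa using this
    choose f hf1 hf2 using hch
    apply Finset.card_le_card_of_injOn f
    · intro a _
      simpa using hf1 a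
    · intro a ha b hb hab
      by_contra hne
      have h1 := ht a ha b hb hne
      have h2 := hf2 a
      have h3 := hf2 b
      rw [← hab] at h3
      have := dist_triangle_right a b (f a)
      linarith
  have hne : (Set.Nonempty {m : ℕ | ∃ t, sep t ∧ t.card = m}) :=
    ⟨0, ∅, by simp [hsep], rfl⟩
  have hbdd : BddAbove {m : ℕ | ∃ t, sep t ∧ t.card = m} :=
    ⟨hF.toFinset.card, by rintro m ⟨t, ht, rfl⟩; exact hbd t ht⟩
  obtain ⟨t, ht, htc⟩ := Nat.sSup_mem hne hbdd
  refine ⟨t, ht, ?_⟩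
  intro x
  by_contra hcon
  push Not at hcon
  have hx : x ∉ t := fun hxt => by
    have := hcon x hxt
    rw [dist_self] at this
    linarith
  have hsep' : sep (insert x t) := by
    intro a ha b hb hab
    rcases Finset.mem_insert.1 ha with ha' | ha'
    · rcases Finset.mem_insert.1 hb with hb' | hb'
      · exact absurd (ha'.trans hb'.symm) hab
      · rw [ha']; exact (hcon b hb').le
    · rcases Finset.mem_insert.1 hb with hb' | hb'
      · rw [hb', dist_comm]; exact (hcon a ha').le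
      · exact ht a ha' b hb' hab
  have h1 : (insert x t).card ≤ sSup {m : ℕ | ∃ t, sep t ∧ t.card = m} :=
    le_csSup hbdd ⟨_, hsep', rfl⟩
  rw [Finset.card_insert_of_notMem hx, htc] at h1
  omega

/-! ### Best centres -/

theorem exists_best {X : Type*} [MetricSpace X] (D : X → ℝ) (hD : ∀ x, 0 ≤ D x) {η r : ℝ}
    (hη : 0 < η) (hr : 0 < r) (a : X) :
    ∃ y, dist y a ≤ 3 * r ∧ ∀ z, dist z a ≤ 3 * r → D y ≤ D z + η := by
  set S : Set ℝ := D '' {z | dist z a ≤ 3 * r} with hS
  have hne : S.Nonempty := ⟨D a, a, by simp; positivity, rfl⟩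
  have hbd : BddBelow S := ⟨0, by rintro _ ⟨z, _, rfl⟩; exact hD z⟩
  obtain ⟨_, ⟨y, hy, rfl⟩, hy2⟩ := exists_lt_of_csInf_lt hne (show sInf S < sInf S + η by linarith)
  refine ⟨y, hy, fun z hz => ?_⟩
  have : sInf S ≤ D z := csInf_le hbd ⟨z, hz, rfl⟩
  linarith

/-! ### Partition of unity -/

section pou

variable {X : Type*} [MetricSpace X]

/-- Unnormalised bump. -/
noncomputable def bump (r : ℝ) (a x : X) : ℝ := max 0 (2 - dist x a / r)

theorem bump_nonneg (r : ℝ) (a x : X) : 0 ≤ bump r a x := le_max_left _ _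

theorem bump_ne_zero {r : ℝ} (hr : 0 < r) {a x : X} (h : bump r a x ≠ 0) : dist x a < 2 * r := by
  by_contra hlt
  push Not at hlt
  apply h
  unfold bump
  apply max_eq_left
  have : 2 ≤ dist x a / r := by rw [le_div_iff₀ hr]; exact hlt
  linarith

theorem bump_ge_one {r : ℝ} (hr : 0 < r) {a x : X} (h : dist x a ≤ r) : 1 ≤ bump r a x := by
  unfold bump
  apply le_max_of_le_right
  have : dist x a / r ≤ 1 := by rw [div_le_one hr]; exact h
  linarith

theorem abs_bump_sub_le {r : ℝ} (hr : 0 < r) (a x x' : X) :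
    |bump r a x - bump r a x'| ≤ dist x x' / r := by
  unfold bump
  refine (abs_max_sub_max_le_max _ _ _ _).trans (max_le (by simp; positivity) ?_)
  have : 2 - dist x a / r - (2 - dist x' a / r) = (dist x' a - dist x a) / r := by ring
  rw [this, abs_div, abs_of_pos hr]
  gcongr
  rw [abs_sub_comm]
  exact abs_dist_sub_le x x' a

/-- The partition of unity subordinate to a finite net. -/
noncomputable def pou (t : Finset X) (r : ℝ) (a x : X) : ℝ := bump r a x / ∑ b ∈ t, bump r b x

theorem isPart_pou {t : Finset X} {r η : ℝ} {N : ℕ} (hr : 0 < r) (hN : 1 ≤ N)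
    (hcov : ∀ x, ∃ a ∈ t, dist x a ≤ r)
    (hcard : ∀ x, (t.filter fun a => dist x a ≤ 3 * r).card ≤ N) {D : X → ℝ} {y : X → X}
    (hy1 : ∀ a, dist (y a) a ≤ 3 * r) (hy2 : ∀ a z, dist z a ≤ 3 * r → D (y a) ≤ D z + η) :
    IsPart t (fun a x => pou t r a x) y D (fun x => D x + η) r (2 * N) := by
  have hZ : ∀ x, 1 ≤ ∑ b ∈ t, bump r b x := by
    intro x
    obtain ⟨a, ha, hxa⟩ := hcov x
    exact (bump_ge_one hr hxa).trans
      (Finset.single_le_sum (f := fun b => bump r b x) (fun b _ => bump_nonneg r b x) ha)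
  have hZ0 : ∀ x, 0 < ∑ b ∈ t, bump r b x := fun x => lt_of_lt_of_le one_pos (hZ x)
  have hN' : (1:ℝ) ≤ N := by exact_mod_cast hN
  refine ⟨hr, by linarith, ?_, ?_, ?_, ?_⟩
  · intro a _ x
    exact div_nonneg (bump_nonneg _ _ _) (hZ0 x).le
  · intro x
    unfold pou
    rw [← Finset.sum_div]
    exact div_self (hZ0 x).ne'
  · intro a _ x x' hxx h0
    have h1 : bump r a x' ≠ 0 := fun h => h0 (by simp [pou, h])
    have h2 := bump_ne_zero hr h1
    have h3 : dist x a ≤ 3 * r := by
      have := dist_triangle x x' a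
      linarith
    refine ⟨hy2 a x h3, ?_⟩
    have := dist_triangle_right x (y a) a
    have := hy1 a
    linarith
  · intro x x' hxx
    set Z := ∑ b ∈ t, bump r b x with hZdef
    set Z' := ∑ b ∈ t, bump r b x' with hZ'def
    have hZp : 0 < Z := hZ0 x
    have hZp' : 0 < Z' := hZ0 x'
    have hZ1 : 1 ≤ Z := hZ x
    have e1 : ∀ a ∈ t, |pou t r a x - pou t r a x'| ≤
        |bump r a x - bump r a x'| / Z + bump r a x' * (|Z' - Z| / (Z * Z')) := by
      intro a _
      have : pou t r a x - pou t r a x' = (bump r a x - bump r a x') / Z +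
          bump r a x' * ((Z' - Z) / (Z * Z')) := by
        unfold pou
        rw [← hZdef, ← hZ'def]
        field_simp
        ring
      rw [this]
      refine (abs_add_le _ _).trans ?_
      rw [abs_mul, abs_div, abs_div, abs_of_pos hZp, abs_of_nonneg (bump_nonneg _ _ _),
        abs_of_pos (mul_pos hZp hZp')]
    have e2 : |Z' - Z| ≤ ∑ a ∈ t, |bump r a x - bump r a x'| := by
      rw [hZdef, hZ'def, ← Finset.sum_sub_distrib]
      refine (Finset.abs_sum_le_sum_abs _ _).trans (le_of_eq ?_)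
      exact Finset.sum_congr rfl fun a _ => abs_sub_comm _ _
    have e3 : ∑ a ∈ t, |bump r a x - bump r a x'| ≤ N * (dist x x' / r) := by
      have f1 : ∑ a ∈ t, |bump r a x - bump r a x'| =
          ∑ a ∈ t.filter (fun a => dist x a ≤ 3 * r), |bump r a x - bump r a x'| := by
        symm
        apply Finset.sum_filter_of_ne
        intro a _ h0
        by_contra hlt
        push Not at hlt
        apply h0
        have g1 : bump r a x = 0 := by
          by_contra h; have := bump_ne_zero hr h; linarith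
        have g2 : bump r a x' = 0 := by
          by_contra h
          have := bump_ne_zero hr h
          have := dist_triangle x x' a
          linarith
        rw [g1, g2]; simp
      rw [f1]
      refine (Finset.sum_le_card_nsmul _ _ _ fun a _ => abs_bump_sub_le hr a x x').trans ?_
      rw [nsmul_eq_mul]
      have : ((t.filter fun a => dist x a ≤ 3 * r).card : ℝ) ≤ N := by exact_mod_cast hcard x
      gcongr
    calc ∑ a ∈ t, |pou t r a x - pou t r a x'|
        ≤ ∑ a ∈ t, (|bump r a x - bump r a x'| / Z + bump r a x' * (|Z' - Z| / (Z * Z'))) :=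
          Finset.sum_le_sum e1
      _ = (∑ a ∈ t, |bump r a x - bump r a x'|) / Z + |Z' - Z| / Z := by
          rw [Finset.sum_add_distrib, ← Finset.sum_div, ← Finset.sum_mul, ← hZ'def]
          congr 1
          field_simp
      _ ≤ (∑ a ∈ t, |bump r a x - bump r a x'|) / Z +
          (∑ a ∈ t, |bump r a x - bump r a x'|) / Z := by gcongr
      _ ≤ (∑ a ∈ t, |bump r a x - bump r a x'|) / 1 +
          (∑ a ∈ t, |bump r a x - bump r a x'|) / 1 := by
          have : 0 ≤ ∑ a ∈ t, |bump r a x - bump r a x'| :=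
            Finset.sum_nonneg fun _ _ => abs_nonneg _
          gcongr
      _ ≤ 2 * N * (dist x x' / r) := by rw [div_one]; linarith

end pou

/-! ### The gluing theorem -/

section final

variable {H : Type*} [NormedAddCommGroup H] [InnerProductSpace ℝ H] [CompleteSpace H]

/-- All the hypotheses of the gluing theorem, on a metric space. -/
structure GlueHyp {X : Type*} [MetricSpace X] (n : ℕ) (Ψ : X → H) (P : ℕ → X → H →L[ℝ] H)
    (D : ℕ → X → ℝ) (R C δ : ℝ) (N : ℕ) : Prop where
  R_pos : 0 < R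
  C_ge : 1 ≤ C
  N_ge : 1 ≤ N
  δ_pos : 0 < δ
  δ_le : 10 * (32 * N * C) ^ 2 * δ ≤ 1 / 100
  tb : TotallyBounded (Set.univ : Set X)
  diam : ∀ x x' : X, dist x x' ≤ R
  packing : ∀ k : ℕ, 1 ≤ k → ∀ (x : X) (t : Finset X), (∀ a ∈ t, dist x a ≤ 3 * (R / 2 ^ k)) →
    (∀ a ∈ t, ∀ b ∈ t, a ≠ b → R / 2 ^ k ≤ dist a b) → t.card ≤ N
  Ψ_le : ∀ x x', ‖Ψ x - Ψ x'‖ ≤ dist x x'
  D_nonneg : ∀ k x, 0 ≤ D k x
  D_sum : ∀ x m, ∑ k ∈ Finset.range m, D k x ≤ δ
  proj : ∀ k, 1 ≤ k → ∀ x, IsProj (P k x)
  rank : ∀ x, ∃ V : Submodule ℝ H, FiniteDimensional ℝ V ∧ Module.finrank ℝ V = n ∧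
    ∀ v, P 1 x v ∈ V
  A1 : ∀ k, 1 ≤ k → ∀ x x', dist x x' ≤ 8 * (R / 2 ^ k) →
    ‖(1 - P k x) (Ψ x' - Ψ x)‖ ≤ C * (Real.sqrt (D k x) + Real.sqrt (D k x')) * (R / 2 ^ k)
  A2 : ∀ k, 1 ≤ k → ∀ x x', dist x x' ≤ 8 * (R / 2 ^ k) →
    ‖P k x - P k x'‖ ≤ C * (Real.sqrt (D k x) + Real.sqrt (D k x'))
  A3 : ∀ k, 1 ≤ k → ∀ x,
    ‖P k x - P (k + 1) x‖ ≤ C * (Real.sqrt (D k x) + Real.sqrt (D (k + 1) x))


namespace GlueHyp

variable {X : Type*} [MetricSpace X] {n : ℕ} {Ψ : X → H} {P : ℕ → X → H →L[ℝ] H}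
  {D : ℕ → X → ℝ} {R C δ : ℝ} {N : ℕ}

theorem D_le (h : GlueHyp n Ψ P D R C δ N) (k : ℕ) (x : X) : D k x ≤ δ := by
  have h1 := h.D_sum x (k + 1)
  rw [Finset.sum_range_succ] at h1
  have : 0 ≤ ∑ j ∈ Finset.range k, D j x := Finset.sum_nonneg fun j _ => h.D_nonneg j x
  linarith

theorem isPlane (h : GlueHyp n Ψ P D R C δ N) {k : ℕ} (hk : 1 ≤ k) :
    IsPlane (P k) Ψ (D k) (R / 2 ^ k) C :=
  ⟨h.C_ge, h.proj k hk, h.D_nonneg k, h.Ψ_le, h.A1 k hk, h.A2 k hk⟩

theorem exists_part (h : GlueHyp n Ψ P D R C δ N) (k : ℕ) (hk : 1 ≤ k) :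
    ∃ (t : Finset X) (θ : X → X → ℝ) (y : X → X),
      IsPart t θ y (D k) (fun x => D k x + δ / 2 ^ k) (R / 2 ^ k) (2 * N) := by
  have hR := h.R_pos
  have hr : 0 < R / 2 ^ k := by positivity
  obtain ⟨t, ht1, ht2⟩ := exists_net h.tb hr
  have hη : 0 < δ / 2 ^ k := by have := h.δ_pos; positivity
  choose y hy1 hy2 using fun a => exists_best (D k) (h.D_nonneg k) hη hr a
  refine ⟨t, _, y, isPart_pou hr h.N_ge ht2 ?_ hy1 hy2⟩
  intro x
  apply h.packing k hk x
  · intro a ha
    exact (Finset.mem_filter.1 ha).2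
  · intro a ha b hb hab
    exact ht1 a (Finset.mem_filter.1 ha).1 b (Finset.mem_filter.1 hb).1 hab

theorem sqrt_Dt_sq (h : GlueHyp n Ψ P D R C δ N) (k : ℕ) (x : X) :
    Real.sqrt (D k x + δ / 2 ^ k) ^ 2 = D k x + δ / 2 ^ k := by
  apply Real.sq_sqrt
  have := h.D_nonneg k x
  have := h.δ_pos
  positivity

/-- **Gluing theorem**, type version. -/
theorem exists_map (h : GlueHyp n Ψ P D R C δ N) (x₀ : X) :
    ∃ F : X → EuclideanSpace ℝ (Fin n), ∀ x x',
      |dist (F x) (F x') - ‖Ψ x - Ψ x'‖| ≤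
        40000 * (32 * N * C) ^ 2 * N * Real.sqrt δ * dist x x' := by
  classical
  have hR := h.R_pos
  have hC := h.C_ge
  have hN : (1:ℝ) ≤ N := by exact_mod_cast h.N_ge
  have hδ := h.δ_pos
  have hδs := h.δ_le
  set K : ℝ := 32 * N * C with hK
  have hK1 : 32 ≤ K := by
    have : 1 ≤ N * C := one_le_mul_of_one_le_of_one_le hN hC
    rw [hK]; nlinarith
  have hKC : 32 * C ≤ K := by
    rw [hK]; nlinarith
  -- choose partitions for all scales `k + 1`
  choose t θ y hpart using fun k : ℕ => h.exists_part (k + 1) (by omega)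
  set Dt : ℕ → X → ℝ := fun k x => D k x + δ / 2 ^ k with hDt
  have hDDt : ∀ k x, D k x ≤ Dt k x := fun k x => by
    have : 0 ≤ δ / 2 ^ k := by positivity
    simp only [hDt]; linarith
  have hDt0 : ∀ k x, 0 ≤ Dt k x := fun k x => (h.D_nonneg k x).trans (hDDt k x)
  have hsq : ∀ k x, Real.sqrt (Dt k x) ^ 2 = Dt k x := fun k x => Real.sq_sqrt (hDt0 k x)
  have hs0 : ∀ k x, 0 ≤ Real.sqrt (Dt k x) := fun k x => Real.sqrt_nonneg _
  have hsD : ∀ k x, Real.sqrt (D k x) ≤ Real.sqrt (Dt k x) := fun k x =>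
    Real.sqrt_le_sqrt (hDDt k x)
  have hpl : ∀ k, IsPlane (P (k + 1)) Ψ (D (k + 1)) (R / 2 ^ (k + 1)) C := fun k =>
    h.isPlane (by omega)
  -- operators, centres and errors
  set T : ℕ → X → H →L[ℝ] H := fun k => Nat.casesOn k (fun _ => P 1 x₀)
    (fun j x => Tav (t j) (θ j) (y j) (P (j + 1)) x) with hT
  set c : ℕ → X → H := fun k => Nat.casesOn k (fun _ => Ψ x₀)
    (fun j x => cav (t j) (θ j) (y j) Ψ x) with hc
  set e : ℕ → X → ℝ := fun k => Nat.casesOn k
    (fun x => K * (Real.sqrt (Dt 1 x₀) + Real.sqrt (Dt 1 x)))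
    (fun j x => K * Real.sqrt (Dt (j + 1) x)) with he
  have T0 : ∀ x, T 0 x = P 1 x₀ := fun _ => rfl
  have TS : ∀ j x, T (j + 1) x = Tav (t j) (θ j) (y j) (P (j + 1)) x := fun _ _ => rfl
  have c0 : ∀ x, c 0 x = Ψ x₀ := fun _ => rfl
  have cS : ∀ j x, c (j + 1) x = cav (t j) (θ j) (y j) Ψ x := fun _ _ => rfl
  have e0 : ∀ x, e 0 x = K * (Real.sqrt (Dt 1 x₀) + Real.sqrt (Dt 1 x)) := fun _ => rfl
  have eS : ∀ j x, e (j + 1) x = K * Real.sqrt (Dt (j + 1) x) := fun _ _ => rfl
  have e1' : ∀ x, e 1 x = K * Real.sqrt (Dt 1 x) := fun _ => rfl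
  have hK0 : 0 ≤ K := by linarith
  have e_nonneg : ∀ k x, 0 ≤ e k x := by
    intro k x
    cases k with
    | zero => rw [e0]; have := hs0 1 x₀; have := hs0 1 x; positivity
    | succ j => rw [eS]; have := hs0 (j + 1) x; positivity
  -- sum of the squares of the errors
  set δ' : ℝ := 10 * K ^ 2 * δ with hδ'
  have hsum : ∀ x m, ∑ k ∈ Finset.range m, e k x ^ 2 ≤ δ' := by
    intro x m
    have hfull : ∀ m, ∑ k ∈ Finset.range (m + 1), e k x ^ 2 ≤ δ' := by
      intro m
      rw [Finset.sum_range_succ']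
      have a1 : ∑ k ∈ Finset.range m, e (k + 1) x ^ 2 ≤ K ^ 2 * (2 * δ) := by
        have : ∀ k ∈ Finset.range m, e (k + 1) x ^ 2 =
            K ^ 2 * (D (k + 1) x + δ / 2 ^ (k + 1)) := by
          intro k _
          rw [eS, mul_pow, hsq]
        rw [Finset.sum_congr rfl this, ← Finset.mul_sum, Finset.sum_add_distrib]
        have b1 : ∑ k ∈ Finset.range m, D (k + 1) x ≤ δ := by
          have := h.D_sum x (m + 1)
          rw [Finset.sum_range_succ'] at this
          have := h.D_nonneg 0 x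
          linarith
        have b2 : ∑ k ∈ Finset.range m, δ / 2 ^ (k + 1) ≤ δ := by
          have b3 : ∀ m : ℕ, ∑ k ∈ Finset.range m, δ / 2 ^ (k + 1) = δ - δ / 2 ^ m := by
            intro m
            induction m with
            | zero => simp
            | succ m ih => rw [Finset.sum_range_succ, ih, pow_succ]; field_simp; ring
          rw [b3]
          have : 0 ≤ δ / 2 ^ m := by positivity
          linarith
        have : 0 ≤ K ^ 2 := sq_nonneg _
        nlinarith
      have a2 : e 0 x ^ 2 ≤ K ^ 2 * (8 * δ) := by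
        rw [e0, mul_pow]
        have b1 : (Real.sqrt (Dt 1 x₀) + Real.sqrt (Dt 1 x)) ^ 2 ≤ 8 * δ := by
          have c1 : Dt 1 x₀ ≤ 2 * δ := by
            have := h.D_le 1 x₀; simp only [hDt]; linarith
          have c2 : Dt 1 x ≤ 2 * δ := by
            have := h.D_le 1 x; simp only [hDt]; linarith
          have d1 := hsq 1 x₀
          have d2 := hsq 1 x
          nlinarith [sq_nonneg (Real.sqrt (Dt 1 x₀) - Real.sqrt (Dt 1 x))]
        gcongr
      have : δ' = K ^ 2 * (2 * δ) + K ^ 2 * (8 * δ) := by rw [hδ']; ring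
      linarith
    cases m with
    | zero => simp; positivity
    | succ m => exact hfull m
  have hδ'le : δ' ≤ 1 / 100 := hδs
  have e_le : ∀ k x, e k x ≤ 1 / 10 := by
    intro k x
    have h1 := hsum x (k + 1)
    rw [Finset.sum_range_succ] at h1
    have h2 : 0 ≤ ∑ j ∈ Finset.range k, e j x ^ 2 := Finset.sum_nonneg fun _ _ => sq_nonneg _
    have h3 := e_nonneg k x
    nlinarith
  have hxx₀ : ∀ x, dist x x₀ ≤ 8 * (R / 2 ^ 1) := by
    intro x
    have := h.diam x x₀
    linarith
  have hP1 := h.proj 1 le_rfl x₀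
  have hbase : ∀ x, ‖(1 - P 1 x₀) (Ψ x - Ψ x₀)‖ ≤ e 0 x * R / 2 := by
    intro x
    have h1 := h.A1 1 le_rfl x₀ x (by rw [dist_comm]; exact hxx₀ x)
    refine h1.trans ?_
    rw [e0]
    have a1 := hsD 1 x₀
    have a2 := hsD 1 x
    have a3 := hs0 1 x₀
    have a4 := hs0 1 x
    have b1 : C * (Real.sqrt (D 1 x₀) + Real.sqrt (D 1 x)) ≤
        K * (Real.sqrt (Dt 1 x₀) + Real.sqrt (Dt 1 x)) := by
      apply mul_le_mul (by linarith) (by linarith) (by positivity) hK0
    have := mul_le_mul_of_nonneg_right b1 hR.le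
    linarith
  have hchain : ∀ x, IsChain (fun k => T k x) (fun k => e k x) := by
    intro x
    refine ⟨fun k => e_nonneg k x, fun k => e_le k x, ?_, ?_, ?_, ?_⟩
    · intro k
      cases k with
      | zero => exact hP1.norm_le
      | succ j =>
        exact avg_norm_le _ (fun i hi => (hpart j).nonneg i hi x) ((hpart j).sum_one x)
          (fun i _ => (hpl j).proj _)
    · intro k
      cases k with
      | zero => exact hP1.one_sub.norm_le
      | succ j =>
        exact one_sub_avg_norm_le _ (fun i hi => (hpart j).nonneg i hi x)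
          ((hpart j).sum_one x) (fun i _ => (hpl j).proj _)
    · intro k
      cases k with
      | zero =>
        have : T 0 x - T 0 x * T 0 x = 0 := by rw [T0, hP1.idem, sub_self]
        show ‖T 0 x - T 0 x * T 0 x‖ ≤ _
        rw [this, norm_zero]; exact sq_nonneg _
      | succ j =>
        refine (Tav_sub_sq (hpart j) (hpl j) (hDDt (j + 1)) x).trans ?_
        show _ ≤ e (j + 1) x ^ 2
        rw [eS]
        have := hs0 (j + 1) x
        apply pow_le_pow_left₀ (by positivity)
        gcongr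
        linarith
    · intro k
      cases k with
      | zero =>
        show ‖T 1 x - T 0 x‖ ≤ e 0 x + e 1 x
        have h1 := Tav_sub_P (hpart 0) (hpl 0) (hDDt 1) x
        have h2 := h.A2 1 le_rfl x x₀ (hxx₀ x)
        have h3 : T 1 x - T 0 x = (T 1 x - P 1 x) + (P 1 x - P 1 x₀) := by rw [T0]; abel
        rw [h3]
        refine (norm_add_le _ _).trans ?_
        have h1' : ‖T 1 x - P 1 x‖ ≤ 2 * C * Real.sqrt (Dt 1 x) := h1
        rw [e0, e1']
        have a1 := hsD 1 x₀
        have a2 := hsD 1 x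
        have a3 := hs0 1 x₀
        have a4 := hs0 1 x
        have b1 : C * (Real.sqrt (D 1 x) + Real.sqrt (D 1 x₀)) ≤
            C * (Real.sqrt (Dt 1 x) + Real.sqrt (Dt 1 x₀)) := by gcongr
        have b2 : C * Real.sqrt (Dt 1 x) ≤ K * Real.sqrt (Dt 1 x) := by gcongr; linarith
        have b3 : C * Real.sqrt (Dt 1 x₀) ≤ K * Real.sqrt (Dt 1 x₀) := by gcongr; linarith
        have b4 : 2 * C * Real.sqrt (Dt 1 x) ≤ K * Real.sqrt (Dt 1 x) := by gcongr; linarith
        nlinarith
      | succ j =>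
        show ‖T (j + 2) x - T (j + 1) x‖ ≤ e (j + 1) x + e (j + 2) x
        have h1 := Tav_sub_P (hpart j) (hpl j) (hDDt (j + 1)) x
        have h2 := Tav_sub_P (hpart (j + 1)) (hpl (j + 1)) (hDDt (j + 2)) x
        have h3 := h.A3 (j + 1) (by omega) x
        have h4 : T (j + 2) x - T (j + 1) x = (T (j + 2) x - P (j + 2) x) -
            (T (j + 1) x - P (j + 1) x) - (P (j + 1) x - P (j + 2) x) := by abel
        rw [h4]
        have h1' : ‖T (j + 1) x - P (j + 1) x‖ ≤ 2 * C * Real.sqrt (Dt (j + 1) x) := h1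
        have h2' : ‖T (j + 2) x - P (j + 2) x‖ ≤ 2 * C * Real.sqrt (Dt (j + 2) x) := h2
        have h5 := norm_sub_le ((T (j + 2) x - P (j + 2) x) - (T (j + 1) x - P (j + 1) x))
          (P (j + 1) x - P (j + 2) x)
        have h6 := norm_sub_le (T (j + 2) x - P (j + 2) x) (T (j + 1) x - P (j + 1) x)
        have eS2 : e (j + 2) x = K * Real.sqrt (Dt (j + 2) x) := rfl
        rw [eS, eS2]
        have a1 := hsD (j + 1) x
        have a2 := hsD (j + 2) x
        have a3 := hs0 (j + 1) x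
        have a4 := hs0 (j + 2) x
        have b1 : C * (Real.sqrt (D (j + 1) x) + Real.sqrt (D (j + 2) x)) ≤
            C * (Real.sqrt (Dt (j + 1) x) + Real.sqrt (Dt (j + 2) x)) := by gcongr
        have b2 : 3 * C * Real.sqrt (Dt (j + 1) x) ≤ K * Real.sqrt (Dt (j + 1) x) := by
          gcongr; linarith
        have b3 : 3 * C * Real.sqrt (Dt (j + 2) x) ≤ K * Real.sqrt (Dt (j + 2) x) := by
          gcongr; linarith
        have h3' : ‖P (j + 1) x - P (j + 2) x‖ ≤
          C * (Real.sqrt (D (j + 1) x) + Real.sqrt (D (j + 2) x)) := h3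
        nlinarith
  have hglue : IsGlue Ψ T c e R (12 * N) δ' := by
    refine ⟨hR, by linarith, hδ'le, hchain, fun _ _ => rfl, hsum, ?_, ?_, ?_, ?_, ?_, ?_,
      h.Ψ_le, ?_, ?_, h.diam⟩
    · -- sub_le
      intro k x x' hd
      cases k with
      | zero =>
        rw [T0, T0, sub_self, norm_zero]
        have := e_nonneg 0 x
        positivity
      | succ j =>
        refine (Tav_sub (hpart j) (hpl j) (hDDt (j + 1)) x x' hd).trans ?_
        rw [eS]
        have := hs0 (j + 1) x
        gcongr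
        rw [hK]
        nlinarith [mul_nonneg (show (0:ℝ) ≤ N by linarith) (show (0:ℝ) ≤ C by linarith)]
    · -- sq_sub_le
      intro k x x' hd
      cases k with
      | zero =>
        rw [T0, T0, sub_self, norm_zero]
        positivity
      | succ j =>
        refine (Tav_sq_sub (hpart j) (hpl j) (hDDt (j + 1)) x x' hd).trans ?_
        rw [eS]
        have := hs0 (j + 1) x
        have h1 : 4 * (2 * (N:ℝ)) * C ≤ K := by
          rw [hK]
          nlinarith [mul_nonneg (show (0:ℝ) ≤ N by linarith) (show (0:ℝ) ≤ C by linarith)]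
        gcongr
    · -- u_le
      intro k x
      cases k with
      | zero =>
        rw [c0]
        refine (h.Ψ_le x x₀).trans ((h.diam x x₀).trans ?_)
        rw [pow_zero, div_one]
        nlinarith
      | succ j =>
        refine (cav_u_le (hpart j) (hpl j) (hDDt (j + 1)) x).trans ?_
        gcongr
        linarith
    · -- un_le
      intro k x
      cases k with
      | zero =>
        rw [c0, T0]
        refine (hbase x).trans ?_
        rw [pow_zero, div_one]
        have := mul_nonneg (e_nonneg 0 x) hR.le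
        linarith
      | succ j =>
        refine (cav_un_le (hpart j) (hpl j) (hDDt (j + 1)) x).trans ?_
        rw [eS]
        have := hs0 (j + 1) x
        gcongr
        linarith
    · -- c_le
      intro k x x' hd
      cases k with
      | zero =>
        rw [c0, c0, sub_self, norm_zero]
        positivity
      | succ j =>
        refine (cav_sub_le (hpart j) (hpl j) (hDDt (j + 1)) x x' hd).trans ?_
        apply le_of_eq
        ring
    · -- cn_le
      intro k x x' hd
      cases k with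
      | zero =>
        rw [c0, c0, sub_self, map_zero, norm_zero]
        have := e_nonneg 0 x
        positivity
      | succ j =>
        refine (cav_n_le (hpart j) (hpl j) (hDDt (j + 1)) x x' hd).trans ?_
        rw [eS]
        have := hs0 (j + 1) x
        gcongr
        rw [hK]
        nlinarith [mul_nonneg (show (0:ℝ) ≤ N by linarith) (show (0:ℝ) ≤ C by linarith)]
    · -- Ψn_le
      intro k x x' hd
      cases k with
      | zero =>
        rw [T0]
        have h1 : (1 - P 1 x₀) (Ψ x - Ψ x') = (1 - P 1 x₀) (Ψ x - Ψ x₀) -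
            (1 - P 1 x₀) (Ψ x' - Ψ x₀) := by rw [← map_sub]; congr 1; abel
        rw [h1]
        refine (norm_sub_le _ _).trans ?_
        have h2 := hbase x
        have h3 := hbase x'
        have h4 := mul_nonneg (e_nonneg 0 x) hR.le
        have h5 := mul_nonneg (e_nonneg 0 x') hR.le
        rw [pow_zero, div_one]
        linarith
      | succ j =>
        refine (Ψ_n_le (hpart j) (hpl j) (hDDt (j + 1)) x x' hd).trans ?_
        rw [eS, eS]
        have := hs0 (j + 1) x
        have := hs0 (j + 1) x'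
        gcongr
        · linarith
        · linarith
    · -- symm
      intro k x u v
      cases k with
      | zero => exact hP1.symm u v
      | succ j => exact avg_symm _ (fun i _ => (hpl j).proj _) u v
  -- the target
  obtain ⟨V, hVf, hVn, hV⟩ := h.rank x₀
  have hmem : ∀ x, IsGlue.map Ψ T c x ∈ V := by
    intro x
    rw [← hglue.proj_map x₀ (by rw [T0]; exact hP1.idem) x, T0]
    exact hV _
  subst hVn
  refine ⟨fun x => (stdOrthonormalBasis ℝ V).repr ⟨IsGlue.map Ψ T c x, hmem x⟩, ?_⟩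
  intro x x'
  have h1 := hglue.abs_norm_map_sub_le x x'
  have h2 : dist ((stdOrthonormalBasis ℝ V).repr ⟨IsGlue.map Ψ T c x, hmem x⟩)
      ((stdOrthonormalBasis ℝ V).repr ⟨IsGlue.map Ψ T c x', hmem x'⟩) =
      ‖IsGlue.map Ψ T c x - IsGlue.map Ψ T c x'‖ := by
    rw [LinearIsometryEquiv.dist_map, Subtype.dist_eq, dist_eq_norm]
  rw [h2]
  refine h1.trans ?_
  have hsδ : 0 ≤ Real.sqrt δ := Real.sqrt_nonneg _
  have hδ1 : δ ≤ 1 := by
    have : (1:ℝ) ≤ 10 * K ^ 2 := by nlinarith
    nlinarith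
  have a1 : δ ≤ Real.sqrt δ := by
    have h3 := Real.sq_sqrt hδ.le
    have h4 : Real.sqrt δ ≤ 1 := by
      have := Real.sqrt_le_sqrt hδ1
      rwa [Real.sqrt_one] at this
    nlinarith
  have a2 : Real.sqrt δ' ≤ 4 * K * Real.sqrt δ := by
    rw [hδ']
    apply Real.sqrt_le_iff.2
    refine ⟨by positivity, ?_⟩
    have h3 := Real.sq_sqrt hδ.le
    calc 10 * K ^ 2 * δ ≤ 16 * K ^ 2 * δ := by
          have : 0 ≤ K ^ 2 * δ := by positivity
          nlinarith
      _ = 16 * K ^ 2 * Real.sqrt δ ^ 2 := by rw [h3]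
      _ = (4 * K * Real.sqrt δ) ^ 2 := by ring
  have hd : 0 ≤ dist x x' := dist_nonneg
  have key : 300 * (12 * (N:ℝ)) * δ' + 9 * Real.sqrt δ' ≤
      40000 * (32 * N * C) ^ 2 * N * Real.sqrt δ := by
    rw [← hK]
    have b1 : 300 * (12 * (N:ℝ)) * δ' = 36000 * K ^ 2 * N * δ := by rw [hδ']; ring
    have b2 : 36000 * K ^ 2 * N * δ ≤ 36000 * K ^ 2 * N * Real.sqrt δ := by gcongr
    have b3 : 9 * Real.sqrt δ' ≤ 36 * K * Real.sqrt δ := by linarith
    have b4 : 36 * K * Real.sqrt δ ≤ 4000 * K ^ 2 * N * Real.sqrt δ := by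
      have : 36 * K ≤ 4000 * K ^ 2 * N := by
        have c1 : K ≤ K ^ 2 := by nlinarith
        have c2 : K ^ 2 * 1 ≤ K ^ 2 * N := by gcongr
        nlinarith
      gcongr
    calc 300 * (12 * (N:ℝ)) * δ' + 9 * Real.sqrt δ' ≤
        36000 * K ^ 2 * N * Real.sqrt δ + 4000 * K ^ 2 * N * Real.sqrt δ := by linarith
      _ = _ := by ring
  exact mul_le_mul_of_nonneg_right key hd

end GlueHyp

end final

end Crest.Agent.R247.Glu923
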