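import Mathlib.Topology.MetricSpace.ProperSpace
import Mathlib.Topology.MetricSpace.Cauchy
import Mathlib.Topology.MetricSpace.Thickening
import Mathlib.Topology.MetricSpace.Pseudo.Defs
import Mathlib

/-!
R247 block (6a): metric Hopf–Rinow (helper216).

* `ApproxMid M`: approximate intermediate points (length space);
* `properSpace_of_approxMid`: complete + locally compact + length ⇒ proper;
* `exists_mid`: exact intermediate points;
* `exists_geodesic`: constant-speed minimising curve between any two points.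
-/

set_option autoImplicit false

open Set Filter Metric
open scoped Topology

namespace Crest.Agent.R247.HR216

variable {M : Type*} [MetricSpace M]

/-- approximate intermediate points -/
def ApproxMid (M : Type*) [MetricSpace M] : Prop :=
  ∀ (x y : M) (t : ℝ), 0 ≤ t → t ≤ 1 → ∀ ε : ℝ, 0 < ε →
    ∃ z, dist x z ≤ t * dist x y ∧ dist z y ≤ (1 - t) * dist x y + ε

/-- exact intermediate points -/
def ExactMid (M : Type*) [MetricSpace M] : Prop :=
  ∀ (x y : M) (t : ℝ), 0 ≤ t → t ≤ 1 →
    ∃ z, dist x z = t * dist x y ∧ dist z y = (1 - t) * dist x y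

/-- every point of a closed ball is close to a point of a smaller closed ball -/
theorem ApproxMid.near (h : ApproxMid M) {x y : M} {R r ε : ℝ} (hr : 0 ≤ r) (hrR : r ≤ R)
    (hy : dist x y ≤ R) (hε : 0 < ε) :
    ∃ z, dist x z ≤ r ∧ dist z y ≤ (R - r) + ε := by
  by_cases hd : dist x y ≤ r
  · exact ⟨y, hd, by rw [dist_self]; linarith⟩
  · push Not at hd
    have hpos : 0 < dist x y := lt_of_le_of_lt hr hd
    obtain ⟨z, hz1, hz2⟩ := h x y (r / dist x y) (by positivity)
      (by rw [div_le_one hpos]; exact hd.le) ε hε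
    refine ⟨z, ?_, ?_⟩
    · rwa [div_mul_cancel₀ _ hpos.ne'] at hz1
    · have : (1 - r / dist x y) * dist x y = dist x y - r := by field_simp
      rw [this] at hz2
      linarith

/-- if all smaller closed balls are compact, so is the closed ball -/
theorem ApproxMid.isCompact_closedBall_of_lt [CompleteSpace M] (h : ApproxMid M) {x : M} {R : ℝ}
    (hR : 0 < R) (hc : ∀ r, r < R → IsCompact (closedBall x r)) : IsCompact (closedBall x R) := by
  rw [isCompact_iff_totallyBounded_isComplete]
  refine ⟨?_, isClosed_closedBall.isComplete⟩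
  rw [Metric.totallyBounded_iff]
  intro ε hε
  set r := max 0 (R - ε / 4) with hr
  have hrR : r < R := max_lt hR (by linarith)
  have hr0 : 0 ≤ r := le_max_left _ _
  obtain ⟨t, ht, hcov⟩ := Metric.totallyBounded_iff.1 (hc r hrR).totallyBounded (ε / 4)
    (by positivity)
  refine ⟨t, ht, fun y hy => ?_⟩
  obtain ⟨z, hz1, hz2⟩ := h.near (x := x) (y := y) hr0 hrR.le
    (by rw [dist_comm]; exact hy) (ε := ε / 4) (by positivity)
  have hz : z ∈ closedBall x r := by rw [mem_closedBall, dist_comm]; exact hz1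
  obtain ⟨w, hw, hwz⟩ := mem_iUnion₂.1 (hcov hz)
  refine mem_iUnion₂.2 ⟨w, hw, ?_⟩
  rw [mem_ball] at hwz ⊢
  have h1 : R - r ≤ ε / 4 := by
    have := le_max_right 0 (R - ε / 4)
    rw [← hr] at this; linarith
  calc dist y w ≤ dist y z + dist z w := dist_triangle _ _ _
    _ < ε := by rw [dist_comm y z]; linarith

theorem ApproxMid.isCompact_closedBall [CompleteSpace M] [LocallyCompactSpace M]
    (h : ApproxMid M) (x : M) (r : ℝ) : IsCompact (closedBall x r) := by
  by_contra hcon
  -- set of radii with compact closed ball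
  set S : Set ℝ := {s | 0 < s ∧ ¬ IsCompact (closedBall x s)} with hS
  have hrS : ∃ s, s ∈ S := by
    refine ⟨max r 1, by positivity, fun hc => hcon ?_⟩
    exact hc.of_isClosed_subset isClosed_closedBall (closedBall_subset_closedBall (le_max_left _ _))
  obtain ⟨r0, hr0, hr0c⟩ : ∃ r0, 0 < r0 ∧ IsCompact (closedBall x r0) := by
    obtain ⟨K, hK, hKx⟩ := exists_compact_mem_nhds x
    obtain ⟨ε, hε, hsub⟩ := Metric.nhds_basis_closedBall.mem_iff.1 hKx
    exact ⟨ε, hε, hK.of_isClosed_subset isClosed_closedBall hsub⟩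
  set R := sInf S with hR
  have hbdd : BddBelow S := ⟨0, fun s hs => hs.1.le⟩
  have hmono : ∀ s, s ∈ S → ∀ s', s ≤ s' → s' ∈ S := by
    intro s hs s' hss'
    exact ⟨lt_of_lt_of_le hs.1 hss', fun hc => hs.2
      (hc.of_isClosed_subset isClosed_closedBall (closedBall_subset_closedBall hss'))⟩
  have hRr0 : r0 ≤ R := by
    refine le_csInf hrS fun s hs => ?_
    by_contra hlt
    push Not at hlt
    exact hs.2 (hr0c.of_isClosed_subset isClosed_closedBall (closedBall_subset_closedBall hlt.le))
  have hRpos : 0 < R := lt_of_lt_of_le hr0 hRr0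
  have hlt : ∀ s, s < R → IsCompact (closedBall x s) := by
    intro s hs
    by_contra hc
    by_cases hs0 : 0 < s
    · exact absurd (csInf_le hbdd (show s ∈ S from ⟨hs0, hc⟩)) (not_le.2 hs)
    · exact hc (hr0c.of_isClosed_subset isClosed_closedBall
        (closedBall_subset_closedBall (by linarith)))
  have hRc : IsCompact (closedBall x R) := h.isCompact_closedBall_of_lt hRpos hlt
  obtain ⟨K, hK, hKsub⟩ := exists_compact_superset hRc
  obtain ⟨δ, hδ, hδsub⟩ := hRc.exists_cthickening_subset_open isOpen_interior hKsub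
  have hbig : closedBall x (R + δ / 2) ⊆ K := by
    intro y hy
    obtain ⟨z, hz1, hz2⟩ := h.near (x := x) (y := y) (R := R + δ / 2) (r := R) hRpos.le
      (by linarith) (by rw [dist_comm]; exact hy) (ε := δ / 4) (by positivity)
    apply interior_subset
    apply hδsub
    refine mem_cthickening_of_dist_le y z δ _ (by rw [mem_closedBall, dist_comm]; exact hz1) ?_
    rw [dist_comm]; linarith
  have hbc : IsCompact (closedBall x (R + δ / 2)) := hK.of_isClosed_subset isClosed_closedBall hbig
  obtain ⟨s, hs, hsR⟩ := exists_lt_of_csInf_lt hrS (show sInf S < R + δ / 2 by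
    rw [← hR]; linarith)
  exact (hmono s hs _ hsR.le).2 hbc

theorem ApproxMid.properSpace [CompleteSpace M] [LocallyCompactSpace M]
    (h : ApproxMid M) : ProperSpace M := ⟨fun x r => h.isCompact_closedBall x r⟩

theorem ApproxMid.exactMid [ProperSpace M] (h : ApproxMid M) : ExactMid M := by
  intro x y t ht0 ht1
  choose z hz1 hz2 using fun k : ℕ => h x y t ht0 ht1 (1 / ((k : ℝ) + 1)) (by positivity)
  have hmem : ∀ k, z k ∈ closedBall x (t * dist x y) := fun k => by
    rw [mem_closedBall, dist_comm]; exact hz1 k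
  obtain ⟨w, -, φ, hφ, hw⟩ := (ProperSpace.isCompact_closedBall x (t * dist x y)).tendsto_subseq hmem
  have h1 : dist x w ≤ t * dist x y :=
    le_of_tendsto (tendsto_const_nhds.dist hw) (Eventually.of_forall fun k => hz1 (φ k))
  have h2 : dist w y ≤ (1 - t) * dist x y := by
    have hlim : Tendsto (fun k : ℕ => (1 - t) * dist x y + 1 / ((φ k : ℝ) + 1)) atTop
        (𝓝 ((1 - t) * dist x y + 0)) :=
      (tendsto_const_nhds).add
        ((tendsto_one_div_add_atTop_nhds_zero_nat (𝕜 := ℝ)).comp hφ.tendsto_atTop)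
    rw [add_zero] at hlim
    exact le_of_tendsto_of_tendsto' (hw.dist tendsto_const_nhds) hlim fun k => hz2 (φ k)
  have h3 := dist_triangle x w y
  exact ⟨w, by nlinarith, by nlinarith⟩

/-- finite chains of exact intermediate points -/
theorem ExactMid.exists_chain (h : ExactMid M) (x y : M) (N : ℕ) (hN : 0 < N) :
    ∃ z : ℕ → M, ∀ i, i ≤ N → dist x (z i) = (i / N : ℝ) * dist x y ∧
      dist (z i) y = (1 - i / N : ℝ) * dist x y ∧
      ∀ j, j ≤ i → dist (z j) (z i) = ((i - j : ℝ) / N) * dist x y := by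
  have hN' : (0 : ℝ) < N := by exact_mod_cast hN
  -- recursion: z (i+1) = point between z i and y at parameter 1/(N-i)
  choose! f hf1 hf2 using h
  let z : ℕ → M := fun i => Nat.rec x (fun i zi => f zi y (1 / ((N : ℝ) - i))) i
  have z0 : z 0 = x := rfl
  have zs : ∀ i, z (i + 1) = f (z i) y (1 / ((N : ℝ) - i)) := fun i => rfl
  have key : ∀ i, i ≤ N → dist (z i) y = (1 - i / N : ℝ) * dist x y := by
    intro i
    induction i with
    | zero => intro _; simp [z0]
    | succ i ih =>
      intro hi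
      have hi' : (i : ℝ) + 1 ≤ N := by exact_mod_cast hi
      have hNi : (1 : ℝ) ≤ (N : ℝ) - i := by linarith
      have e := hf2 (z i) y (1 / ((N : ℝ) - i)) (by positivity)
        (by rw [div_le_one (by linarith)]; exact hNi)
      rw [zs, e, ih (by omega)]
      push_cast
      have : (N : ℝ) - i ≠ 0 := by linarith
      field_simp
      ring
  have step : ∀ i, i + 1 ≤ N → dist (z i) (z (i + 1)) = (1 / N : ℝ) * dist x y := by
    intro i hi
    have hi' : (i : ℝ) + 1 ≤ N := by exact_mod_cast hi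
    have hNi : (1 : ℝ) ≤ (N : ℝ) - i := by linarith
    have e := hf1 (z i) y (1 / ((N : ℝ) - i)) (by positivity)
      (by rw [div_le_one (by linarith)]; exact hNi)
    rw [zs, e, key i (by omega)]
    have : (N : ℝ) - i ≠ 0 := by linarith
    field_simp
  have upper : ∀ j d, j + d ≤ N → dist (z j) (z (j + d)) ≤ (d / N : ℝ) * dist x y := by
    intro j d
    induction d with
    | zero => intro _; simp
    | succ d ih =>
      intro hd
      have h1 := ih (by omega)
      have h2 := step (j + d) (by omega)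
      have h3 := dist_triangle (z j) (z (j + d)) (z (j + d + 1))
      rw [← add_assoc]
      push_cast
      have : ((d + 1 : ℝ) / N) * dist x y = (d / N : ℝ) * dist x y + (1 / N : ℝ) * dist x y := by
        ring
      rw [this]; linarith
  refine ⟨z, fun i hi => ?_⟩
  have hup : ∀ j, j ≤ i → dist (z j) (z i) = ((i - j : ℝ) / N) * dist x y := by
    intro j hj
    obtain ⟨d, rfl⟩ := Nat.exists_eq_add_of_le hj
    have u1 := upper j d (by omega)
    have u2 := key (j + d) hi
    have u3 := upper 0 j (by omega)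
    rw [z0, zero_add] at u3
    have t1 := dist_triangle x (z j) (z (j + d))
    have t2 := dist_triangle x (z (j + d)) y
    push_cast at *
    have e1 : (1 - ((j : ℝ) + d) / N) * dist x y =
      dist x y - (j / N : ℝ) * dist x y - (d / N : ℝ) * dist x y := by ring
    have e2 : (((j : ℝ) + d - j) / N) * dist x y = (d / N : ℝ) * dist x y := by ring
    rw [e1] at u2
    rw [e2]
    linarith
  refine ⟨?_, key i hi, hup⟩
  have := hup 0 (Nat.zero_le _)
  rw [z0] at this
  simpa using this

/-- constant-speed minimising curve on `[0,1]` -/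
theorem ExactMid.exists_geodesic [ProperSpace M] (h : ExactMid M) (x y : M) :
    ∃ γ : ℝ → M, γ 0 = x ∧ γ 1 = y ∧
      ∀ s ∈ Icc (0 : ℝ) 1, ∀ t ∈ Icc (0 : ℝ) 1, dist (γ s) (γ t) = |s - t| * dist x y := by
  choose z hz using fun k : ℕ => h.exists_chain x y (k + 1) (Nat.succ_pos k)
  set D := dist x y with hD
  -- approximate curves
  let g : ℕ → ℝ → M := fun k t => z k (Nat.floor (t * (k + 1)))
  let 𝒰 : Ultrafilter ℕ := Ultrafilter.of atTop
  have h𝒰 : (𝒰 : Filter ℕ) ≤ atTop := Ultrafilter.of_le atTop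
  have hfl : ∀ (k : ℕ) (t : ℝ), t ∈ Icc (0 : ℝ) 1 → Nat.floor (t * (k + 1)) ≤ k + 1 := by
    intro k t ht
    apply Nat.floor_le_of_le
    push_cast
    nlinarith [ht.1, ht.2, (Nat.cast_nonneg k : (0 : ℝ) ≤ k)]
  have hmem : ∀ (k : ℕ) (t : ℝ), t ∈ Icc (0 : ℝ) 1 → g k t ∈ closedBall x D := by
    intro k t ht
    have := (hz k _ (hfl k t ht)).1
    rw [mem_closedBall, dist_comm]
    show dist x (z k _) ≤ D
    rw [this]
    have h1 : ((Nat.floor (t * (k + 1)) : ℕ) : ℝ) / ((k + 1 : ℕ) : ℝ) ≤ 1 := by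
      rw [div_le_one (by positivity)]
      exact_mod_cast hfl k t ht
    exact mul_le_of_le_one_left dist_nonneg h1
  have hlim : ∀ t : ℝ, t ∈ Icc (0 : ℝ) 1 → ∃ w, Tendsto (fun k => g k t) 𝒰 (𝓝 w) := by
    intro t ht
    obtain ⟨w, -, hw⟩ := (ProperSpace.isCompact_closedBall x D).ultrafilter_le_nhds
      (𝒰.map (fun k => g k t)) (by
        simp only [Ultrafilter.coe_map, le_principal_iff, mem_map]
        exact Eventually.of_forall fun k => hmem k t ht)
    exact ⟨w, hw⟩
  haveI : Nonempty M := ⟨x⟩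
  choose! γ hγ using hlim
  have hdist : ∀ s ∈ Icc (0 : ℝ) 1, ∀ t ∈ Icc (0 : ℝ) 1, s ≤ t →
      dist (γ s) (γ t) = (t - s) * D := by
    intro s hs t ht hst
    have l1 : Tendsto (fun k => dist (g k s) (g k t)) 𝒰 (𝓝 (dist (γ s) (γ t))) :=
      (hγ s hs).dist (hγ t ht)
    have e : ∀ k, dist (g k s) (g k t) =
        (((Nat.floor (t * (k + 1)) : ℕ) : ℝ) - ((Nat.floor (s * (k + 1)) : ℕ) : ℝ)) /
          ((k : ℝ) + 1) * D := by
      intro k
      have := (hz k _ (hfl k t ht)).2.2 (Nat.floor (s * (k + 1)))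
        (Nat.floor_le_floor (by gcongr))
      push_cast at this
      exact this
    have fl : ∀ u : ℝ, 0 ≤ u → Tendsto (fun k : ℕ => ((Nat.floor (u * (k + 1)) : ℕ) : ℝ) /
        ((k : ℝ) + 1)) atTop (𝓝 u) := by
      intro u hu
      have := (tendsto_nat_floor_mul_div_atTop (R := ℝ) hu).comp
        (tendsto_atTop_add_const_right atTop (1 : ℝ) (tendsto_natCast_atTop_atTop (R := ℝ)))
      exact this
    have l2 : Tendsto (fun k : ℕ => (((Nat.floor (t * (k + 1)) : ℕ) : ℝ) -
        ((Nat.floor (s * (k + 1)) : ℕ) : ℝ)) / ((k : ℝ) + 1) * D) 𝒰 (𝓝 ((t - s) * D)) := by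
      have h3 := (((fl t ht.1).sub (fl s hs.1)).mul_const D).mono_left h𝒰
      refine h3.congr fun k => ?_
      ring
    have l1' := l1.congr e
    exact tendsto_nhds_unique l1' l2
  have hd : ∀ s ∈ Icc (0 : ℝ) 1, ∀ t ∈ Icc (0 : ℝ) 1, dist (γ s) (γ t) = |s - t| * D := by
    intro s hs t ht
    rcases le_total s t with hst | hst
    · rw [hdist s hs t ht hst, abs_of_nonpos (by linarith)]; ring
    · rw [dist_comm, hdist t ht s hs hst, abs_of_nonneg (by linarith)]
  have hx0 : γ 0 = x := by
    have l : Tendsto (fun k => g k 0) 𝒰 (𝓝 (γ 0)) := hγ 0 ⟨le_rfl, zero_le_one⟩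
    have e : ∀ k, g k 0 = x := by
      intro k
      have := (hz k _ (hfl k 0 ⟨le_rfl, zero_le_one⟩)).1
      have hh : dist x (g k 0) = 0 := by
        show dist x (z k _) = 0
        rw [this]; simp
      exact (dist_eq_zero.1 hh).symm
    exact tendsto_nhds_unique (l.congr e) tendsto_const_nhds
  have hy1 : γ 1 = y := by
    have l : Tendsto (fun k => g k 1) 𝒰 (𝓝 (γ 1)) := hγ 1 ⟨zero_le_one, le_rfl⟩
    have e : ∀ k, g k 1 = y := by
      intro k
      have := (hz k _ (hfl k 1 ⟨zero_le_one, le_rfl⟩)).2.1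
      have hh : dist (g k 1) y = 0 := by
        show dist (z k _) y = 0
        rw [this]
        have hfl1 : Nat.floor ((1 : ℝ) * (k + 1)) = k + 1 := by
          rw [one_mul]
          have := Nat.floor_natCast (R := ℝ) (k + 1)
          push_cast at this
          exact this
        rw [hfl1, div_self (by positivity)]
        simp
      exact dist_eq_zero.1 hh
    exact tendsto_nhds_unique (l.congr e) tendsto_const_nhds
  exact ⟨γ, hx0, hy1, hd⟩

/-! ### Riemannian manifolds -/

section Manifold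

open Bundle Manifold
open scoped Manifold ContDiff Bundle ENNReal

variable {n : ℕ} {N : Type*} [MetricSpace N] [ChartedSpace (EuclideanSpace ℝ (Fin n)) N]
  [RiemannianBundle (fun p : N => TangentSpace 𝓘(ℝ, EuclideanSpace ℝ (Fin n)) p)]

variable (n) in
/-- approximate intermediate points of a Riemannian manifold, with equality on one side -/
theorem exists_approx_mid [IsRiemannianManifold 𝓘(ℝ, EuclideanSpace ℝ (Fin n)) N] (x y : N)
    (t : ℝ) (ht0 : 0 ≤ t) (ht1 : t ≤ 1) (ε : ℝ) (hε : 0 < ε) :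
    ∃ z, dist x z = t * dist x y ∧ dist z y ≤ (1 - t) * dist x y + ε := by
  have h0 : riemannianEDist 𝓘(ℝ, EuclideanSpace ℝ (Fin n)) x y < ENNReal.ofReal (dist x y + ε) := by
    rw [← IsRiemannianManifold.out (I := 𝓘(ℝ, EuclideanSpace ℝ (Fin n))) x y, edist_dist]
    exact (ENNReal.ofReal_lt_ofReal_iff (by positivity)).2 (by linarith)
  obtain ⟨γ, h0x, h1y, hC, hlen⟩ := exists_lt_of_riemannianEDist_lt h0
  have hcont : ContinuousOn (fun s => dist x (γ s)) (Icc 0 1) :=
    (continuous_const.dist continuous_id).comp_continuousOn hC.continuousOn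
  have hmem : t * dist x y ∈ Icc ((fun s => dist x (γ s)) 0) ((fun s => dist x (γ s)) 1) := by
    simp only [h0x, h1y, dist_self]
    exact ⟨mul_nonneg ht0 dist_nonneg, mul_le_of_le_one_left dist_nonneg ht1⟩
  obtain ⟨s, hs, hst⟩ := intermediate_value_Icc zero_le_one hcont hmem
  refine ⟨γ s, hst, ?_⟩
  have e1 : edist x (γ s) ≤ pathELength 𝓘(ℝ, EuclideanSpace ℝ (Fin n)) γ 0 s := by
    rw [IsRiemannianManifold.out (I := 𝓘(ℝ, EuclideanSpace ℝ (Fin n))) x (γ s)]
    exact riemannianEDist_le_pathELength (hC.mono (Icc_subset_Icc le_rfl hs.2)) h0x rfl hs.1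
  have e2 : edist (γ s) y ≤ pathELength 𝓘(ℝ, EuclideanSpace ℝ (Fin n)) γ s 1 := by
    rw [IsRiemannianManifold.out (I := 𝓘(ℝ, EuclideanSpace ℝ (Fin n))) (γ s) y]
    exact riemannianEDist_le_pathELength (hC.mono (Icc_subset_Icc hs.1 le_rfl)) rfl h1y hs.2
  have e3 : edist x (γ s) + edist (γ s) y < ENNReal.ofReal (dist x y + ε) := by
    calc edist x (γ s) + edist (γ s) y
        ≤ pathELength 𝓘(ℝ, EuclideanSpace ℝ (Fin n)) γ 0 s +
          pathELength 𝓘(ℝ, EuclideanSpace ℝ (Fin n)) γ s 1 := add_le_add e1 e2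
      _ = pathELength 𝓘(ℝ, EuclideanSpace ℝ (Fin n)) γ 0 1 := pathELength_add hs.1 hs.2
      _ < _ := hlen
  rw [edist_dist, edist_dist, ← ENNReal.ofReal_add dist_nonneg dist_nonneg,
    ENNReal.ofReal_lt_ofReal_iff (by positivity)] at e3
  have e4 : dist x (γ s) = t * dist x y := hst
  linarith

variable (n N) in
theorem approxMid_of_riemannian [IsRiemannianManifold 𝓘(ℝ, EuclideanSpace ℝ (Fin n)) N] :
    ApproxMid N := by
  intro x y t ht0 ht1 ε hε
  obtain ⟨z, hz1, hz2⟩ := exists_approx_mid n x y t ht0 ht1 ε hε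
  exact ⟨z, hz1.le, hz2⟩

theorem locallyCompactSpace_of_riemannian (n : ℕ) (N : Type*) [TopologicalSpace N]
    [ChartedSpace (EuclideanSpace ℝ (Fin n)) N] : LocallyCompactSpace N :=
  ChartedSpace.locallyCompactSpace (EuclideanSpace ℝ (Fin n)) N

variable (n N) in
/-- **Hopf–Rinow** (metric form): a complete Riemannian manifold is proper. -/
theorem properSpace_of_riemannian [IsRiemannianManifold 𝓘(ℝ, EuclideanSpace ℝ (Fin n)) N]
    [CompleteSpace N] : ProperSpace N :=
  haveI := locallyCompactSpace_of_riemannian n N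
  (approxMid_of_riemannian n N).properSpace

variable (n N) in
theorem secondCountable_of_riemannian [IsRiemannianManifold 𝓘(ℝ, EuclideanSpace ℝ (Fin n)) N]
    [CompleteSpace N] : SecondCountableTopology N :=
  haveI := properSpace_of_riemannian n N
  inferInstance

variable (n N) in
theorem exactMid_of_riemannian [IsRiemannianManifold 𝓘(ℝ, EuclideanSpace ℝ (Fin n)) N]
    [CompleteSpace N] : ExactMid N :=
  haveI := properSpace_of_riemannian n N
  (approxMid_of_riemannian n N).exactMid

variable (n) in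
theorem exists_geodesic_of_riemannian [IsRiemannianManifold 𝓘(ℝ, EuclideanSpace ℝ (Fin n)) N]
    [CompleteSpace N] (x y : N) :
    ∃ γ : ℝ → N, γ 0 = x ∧ γ 1 = y ∧
      ∀ s ∈ Icc (0 : ℝ) 1, ∀ t ∈ Icc (0 : ℝ) 1, dist (γ s) (γ t) = |s - t| * dist x y :=
  haveI := properSpace_of_riemannian n N
  (exactMid_of_riemannian n N).exists_geodesic x y

/-- limits of minimisers are minimisers (exact intermediate points pass to the limit) -/
theorem dist_mid_closed {X : Type*} [MetricSpace X] {ι : Type*} {l : Filter ι} [l.NeBot]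
    {x y z : ι → X} {a b c : X} {t : ι → ℝ} {τ : ℝ}
    (hx : Tendsto x l (𝓝 a)) (hy : Tendsto y l (𝓝 b)) (hz : Tendsto z l (𝓝 c))
    (ht : Tendsto t l (𝓝 τ)) (h : ∀ i, dist (x i) (z i) = t i * dist (x i) (y i) ∧
      dist (z i) (y i) = (1 - t i) * dist (x i) (y i)) :
    dist a c = τ * dist a b ∧ dist c b = (1 - τ) * dist a b :=
  ⟨tendsto_nhds_unique (hx.dist hz) ((ht.mul (hx.dist hy)).congr fun i => (h i).1.symm),
   tendsto_nhds_unique (hz.dist hy)
    (((tendsto_const_nhds.sub ht).mul (hx.dist hy)).congr fun i => (h i).2.symm)⟩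

end Manifold

end Crest.Agent.R247.HR216
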