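import Crest.Agent.R247.Hes2_124
import Crest.Agent.R247.Dir5_593

/-!
R247, block (5-H) (helper124), part 3: the Hessian of the limit.
`Appr` (smooth approximation in the graph norm of the Laplacian), `exists_HD` (existence of the
`L²_loc` Hessian together with an a.e. convergent sequence of core functions), generalised
dominated convergence `HD.lim`, Caccioppoli and the weak Bochner identity for the limit.
-/

set_option autoImplicit false
set_option linter.unusedSectionVars false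

open MeasureTheory Filter Topology Set
open scoped RealInnerProductSpace ENNReal NNReal

noncomputable section

namespace Crest.Agent.R247.Hes124

open Crest.Agent.R247.Dir593 Crest.Agent.R247.Dir593.GradS

/-! ### general measure theory -/

section Gen

variable {X : Type*} [MeasurableSpace X] {ν : Measure X}
variable {E : Type*} [NormedAddCommGroup E]

lemma eLpNorm_two_eq {h : X → E} (hm : MemLp h 2 ν) :
    eLpNorm h 2 ν = ENNReal.ofReal (√(∫ x, ‖h x‖ ^ 2 ∂ν)) := by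
  rw [hm.eLpNorm_eq_integral_rpow_norm (by norm_num) (by norm_num)]
  congr 1
  rw [Real.sqrt_eq_rpow]
  simp

/-- fast `L²` convergence implies a.e. convergence -/
lemma ae_of_rate {h : ℕ → X → E} {h' : X → E}
    (hi : ∀ k, Integrable (fun x => ‖h k x - h' x‖ ^ 2) ν) (k0 : ℕ)
    (hr : ∀ k, k0 ≤ k → ∫ x, ‖h k x - h' x‖ ^ 2 ∂ν ≤ (1 / 4 : ℝ) ^ k) :
    ∀ᵐ x ∂ν, Tendsto (fun k => h k x) atTop (𝓝 (h' x)) := by
  have hm : ∀ k, AEMeasurable (fun x => ENNReal.ofReal (‖h (k + k0) x - h' x‖ ^ 2)) ν := fun k =>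
    (hi (k + k0)).1.aemeasurable.ennreal_ofReal
  have h1 : ∫⁻ x, ∑' k, ENNReal.ofReal (‖h (k + k0) x - h' x‖ ^ 2) ∂ν ≠ ∞ := by
    rw [lintegral_tsum hm]
    have h2 : ∀ k, ∫⁻ x, ENNReal.ofReal (‖h (k + k0) x - h' x‖ ^ 2) ∂ν ≤
        ENNReal.ofReal ((1 / 4 : ℝ) ^ k) := fun k => by
      rw [← ofReal_integral_eq_lintegral_ofReal (hi (k + k0))
        (Eventually.of_forall fun x => sq_nonneg _)]
      refine ENNReal.ofReal_le_ofReal ((hr (k + k0) (Nat.le_add_left _ _)).trans ?_)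
      exact pow_le_pow_of_le_one (by norm_num) (by norm_num) (Nat.le_add_right _ _)
    refine ne_top_of_le_ne_top ?_ (ENNReal.tsum_le_tsum h2)
    rw [← ENNReal.ofReal_tsum_of_nonneg (fun k => by positivity)
      (summable_geometric_of_lt_one (by norm_num) (by norm_num))]
    exact ENNReal.ofReal_ne_top
  filter_upwards [ae_lt_top' (AEMeasurable.tsum hm) h1] with x hx
  have h3 := ENNReal.tendsto_atTop_zero_of_tsum_ne_top hx.ne
  have h4 := (ENNReal.tendsto_toReal ENNReal.zero_ne_top).comp h3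
  simp only [ENNReal.toReal_zero, Function.comp_def] at h4
  have h5 : Tendsto (fun k => √((ENNReal.ofReal (‖h (k + k0) x - h' x‖ ^ 2)).toReal)) atTop
      (𝓝 0) := by simpa using h4.sqrt
  have h6 : Tendsto (fun k => ‖h (k + k0) x - h' x‖) atTop (𝓝 0) := by
    refine h5.congr fun k => ?_
    rw [ENNReal.toReal_ofReal (sq_nonneg _), Real.sqrt_sq (norm_nonneg _)]
  have h7 := tendsto_iff_norm_sub_tendsto_zero.2 h6
  exact (tendsto_add_atTop_iff_nat k0).1 h7

/-- geometric Cauchy sequences in `L²` converge a.e. -/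
lemma exists_lim_of_rate [CompleteSpace E] {h : ℕ → X → E} (hm : ∀ k, MemLp (h k) 2 ν) (k0 : ℕ)
    {c : ℝ} (hc : 0 ≤ c) (hr : ∀ N k l, k0 ≤ N → N ≤ k → N ≤ l →
      ∫ x, ‖h k x - h l x‖ ^ 2 ∂ν ≤ c * (1 / 4 : ℝ) ^ N) :
    (∀ᵐ x ∂ν, ∃ l, Tendsto (fun k => h k x) atTop (𝓝 l)) ∧
    ∀ h' : X → E, AEStronglyMeasurable h' ν → (∀ᵐ x ∂ν, Tendsto (fun k => h k x) atTop (𝓝 (h' x))) →
      MemLp h' 2 ν ∧ Tendsto (fun k => ∫ x, ‖h k x - h' x‖ ^ 2 ∂ν) atTop (𝓝 0) := by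
  set Bd : ℕ → ℝ≥0∞ := fun N => ENNReal.ofReal ((√c + 1) * (1 / 2 : ℝ) ^ N) with hB
  have hBs : ∑' N, Bd N ≠ ∞ := by
    rw [hB, ← ENNReal.ofReal_tsum_of_nonneg (fun k => by positivity)
      ((summable_geometric_of_lt_one (by norm_num) (by norm_num)).mul_left _)]
    exact ENNReal.ofReal_ne_top
  have hcau : ∀ N k l : ℕ, N ≤ k → N ≤ l →
      eLpNorm (h (k + k0) - h (l + k0)) 2 ν < Bd N := by
    intro N k l hk hl
    rw [eLpNorm_two_eq ((hm _).sub (hm _))]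
    refine (ENNReal.ofReal_lt_ofReal_iff (by positivity)).2 ?_
    have h1 := hr (N + k0) (k + k0) (l + k0) (by omega) (by omega) (by omega)
    have h2 : ∫ x, ‖(h (k + k0) - h (l + k0)) x‖ ^ 2 ∂ν ≤ (√c * (1 / 2 : ℝ) ^ N) ^ 2 := by
      refine h1.trans ?_
      rw [mul_pow, Real.sq_sqrt hc, ← pow_mul, mul_comm N 2, pow_mul]
      refine mul_le_mul_of_nonneg_left ?_ hc
      have : ((1 / 2 : ℝ) ^ 2) = 1 / 4 := by norm_num
      rw [this]
      exact pow_le_pow_of_le_one (by norm_num) (by norm_num) (Nat.le_add_right _ _)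
    calc √(∫ x, ‖(h (k + k0) - h (l + k0)) x‖ ^ 2 ∂ν) ≤ √c * (1 / 2 : ℝ) ^ N :=
          (Real.sqrt_le_left (by positivity)).2 h2
      _ < (√c + 1) * (1 / 2 : ℝ) ^ N := by
          have : (0:ℝ) < (1 / 2 : ℝ) ^ N := by positivity
          nlinarith
  have hlim : ∀ x, ∀ l, Tendsto (fun k => h (k + k0) x) atTop (𝓝 l) →
      Tendsto (fun k => h k x) atTop (𝓝 l) := fun x l hl => (tendsto_add_atTop_iff_nat k0).1 hl
  refine ⟨?_, fun h' hm' hl' => ?_⟩
  · filter_upwards [Lp.ae_tendsto_of_cauchy_eLpNorm (fun k => (hm (k + k0)).1) (by norm_num) hBs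
      hcau] with x ⟨l, hl⟩
    exact ⟨l, hlim x l hl⟩
  · have hl2 : ∀ᵐ x ∂ν, Tendsto (fun k => h (k + k0) x) atTop (𝓝 (h' x)) := by
      filter_upwards [hl'] with x hx
      exact hx.comp (tendsto_add_atTop_nat k0)
    have h3 := Lp.cauchy_tendsto_of_tendsto (fun k => (hm (k + k0)).1) h' hBs hcau hl2
    have hmem : MemLp h' 2 ν := by
      refine Lp.memLp_of_cauchy_tendsto (by norm_num) (fun k => hm (k + k0)) h' hm' h3
    refine ⟨hmem, ?_⟩
    have h4 := (ENNReal.tendsto_toReal ENNReal.zero_ne_top).comp h3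
    simp only [ENNReal.toReal_zero, Function.comp_def] at h4
    have h5 := h4.pow 2
    rw [zero_pow two_ne_zero] at h5
    refine (tendsto_add_atTop_iff_nat k0).1 (h5.congr fun k => ?_)
    rw [eLpNorm_two_eq ((hm _).sub hmem), ENNReal.toReal_ofReal (Real.sqrt_nonneg _),
      Real.sq_sqrt (integral_nonneg fun x => sq_nonneg _)]
    rfl

/-- clamp form of generalised dominated convergence -/
lemma gen_dom {T : ℕ → X → ℝ} {T' : X → ℝ} {D : ℕ → X → ℝ} {D' : X → ℝ}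
    (hTm : ∀ k, AEStronglyMeasurable (T k) ν) (hD : ∀ k, Integrable (D k) ν)
    (hD' : Integrable D' ν) (hb : ∀ k, ∀ᵐ x ∂ν, |T k x| ≤ D k x)
    (hDD : Tendsto (fun k => ∫ x, |D k x - D' x| ∂ν) atTop (𝓝 0))
    (hDa : ∀ᵐ x ∂ν, Tendsto (fun k => D k x) atTop (𝓝 (D' x)))
    (hT : ∀ᵐ x ∂ν, Tendsto (fun k => T k x) atTop (𝓝 (T' x))) :
    Integrable T' ν ∧ Tendsto (fun k => ∫ x, T k x ∂ν) atTop (𝓝 (∫ x, T' x ∂ν)) := by
  have hT'm : AEStronglyMeasurable T' ν := aestronglyMeasurable_of_tendsto_ae atTop hTm hT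
  have hba : ∀ᵐ x ∂ν, ∀ k, |T k x| ≤ D k x := ae_all_iff.2 hb
  have hb' : ∀ᵐ x ∂ν, |T' x| ≤ D' x := by
    filter_upwards [hba, hDa, hT] with x h1 h2 h3
    exact le_of_tendsto_of_tendsto' h3.abs h2 h1
  have hT'i : Integrable T' ν := hD'.mono' hT'm (by simpa [Real.norm_eq_abs] using hb')
  refine ⟨hT'i, ?_⟩
  have hTi : ∀ k, Integrable (T k) ν := fun k =>
    (hD k).mono' (hTm k) (by simpa [Real.norm_eq_abs] using hb k)
  -- clamp
  set Tc : ℕ → X → ℝ := fun k x => max (-D' x) (min (T k x) (D' x)) with hTc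
  have hTcm : ∀ k, AEStronglyMeasurable (Tc k) ν := fun k =>
    hD'.1.neg.sup ((hTm k).inf hD'.1)
  have hD0 : ∀ᵐ x ∂ν, 0 ≤ D' x := hb'.mono fun x h => (abs_nonneg _).trans h
  have hTcb : ∀ k, ∀ᵐ x ∂ν, ‖Tc k x‖ ≤ D' x := fun k => by
    filter_upwards [hD0] with x h0
    rw [Real.norm_eq_abs, abs_le]
    exact ⟨le_max_left _ _, max_le (by linarith) (min_le_right _ _)⟩
  have hTci : ∀ k, Integrable (Tc k) ν := fun k => hD'.mono' (hTcm k) (hTcb k)
  have hTclim : ∀ᵐ x ∂ν, Tendsto (fun k => Tc k x) atTop (𝓝 (T' x)) := by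
    filter_upwards [hT, hb'] with x h1 h2
    have h3 : Tendsto (fun k => max (-D' x) (min (T k x) (D' x))) atTop
        (𝓝 (max (-D' x) (min (T' x) (D' x)))) := tendsto_const_nhds.max (h1.min tendsto_const_nhds)
    rw [min_eq_left (abs_le.1 h2).2, max_eq_right (abs_le.1 h2).1] at h3
    exact h3
  have h1 := tendsto_integral_of_dominated_convergence D' hTcm hD' hTcb hTclim
  have h2 : Tendsto (fun k => ∫ x, T k x ∂ν - ∫ x, Tc k x ∂ν) atTop (𝓝 0) := by
    refine squeeze_zero_norm (fun k => ?_) hDD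
    rw [← integral_sub (hTi k) (hTci k)]
    refine (norm_integral_le_integral_norm _).trans ?_
    refine integral_mono_ae ((hTi k).sub (hTci k)).norm ((hD k).sub hD').abs ?_
    filter_upwards [hb k, hD0] with x e1 e2
    show ‖T k x - max (-D' x) (min (T k x) (D' x))‖ ≤ |D k x - D' x|
    rw [Real.norm_eq_abs]
    rcases le_total (T k x) (D' x) with h | h
    · rw [min_eq_left h]
      rcases le_total (-D' x) (T k x) with h' | h'
      · rw [max_eq_right h', sub_self, abs_zero]; exact abs_nonneg _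
      · rw [max_eq_left h']
        have h3 : D' x ≤ D k x := by linarith [(abs_le.1 e1).1]
        rw [abs_of_nonneg (by linarith : 0 ≤ D k x - D' x), abs_le]
        constructor <;> linarith [(abs_le.1 e1).1]
    · rw [min_eq_right h, max_eq_right (by linarith)]
      have h3 : D' x ≤ D k x := by linarith [(abs_le.1 e1).2]
      rw [abs_of_nonneg (by linarith : 0 ≤ D k x - D' x), abs_of_nonneg (by linarith)]
      linarith [(abs_le.1 e1).2]
  have h3 := h2.add h1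
  simpa using h3

end Gen

/-! ### cut-off functions -/

section Cut

variable {X : Type*} [MetricSpace X]

/-- `1` on `closedBall x0 m`, `0` outside `ball x0 (m + 1)`, `1`-Lipschitz -/
def cutf (x0 : X) (m : ℕ) (x : X) : ℝ := max 0 (min (((m : ℝ) + 1) - dist x x0) 1)

variable (x0 : X) (m : ℕ)

lemma cutf_lip : LipschitzWith 1 (cutf x0 m) := by
  refine LipschitzWith.of_dist_le_mul fun x y => ?_
  rw [NNReal.coe_one, one_mul, Real.dist_eq]
  have h1 := abs_clamp_sub 0 1 ((m : ℝ) + 1 - dist x x0) ((m : ℝ) + 1 - dist y x0)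
  rw [one_mul] at h1
  refine h1.trans ?_
  have e : (m : ℝ) + 1 - dist x x0 - ((m : ℝ) + 1 - dist y x0) = -(dist x x0 - dist y x0) := by ring
  rw [e, abs_neg]
  exact abs_dist_sub_le x y x0

lemma cutf_nonneg (x : X) : 0 ≤ cutf x0 m x := le_max_left _ _

lemma cutf_le_one (x : X) : cutf x0 m x ≤ 1 := max_le zero_le_one (min_le_right _ _)

lemma cutf_one {x : X} (hx : dist x x0 ≤ m) : cutf x0 m x = 1 := by
  unfold cutf
  rw [min_eq_right (by linarith), max_eq_right zero_le_one]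

lemma cutf_zero {x : X} (hx : (m : ℝ) + 1 ≤ dist x x0) : cutf x0 m x = 0 := by
  unfold cutf
  rw [max_eq_left]
  exact (min_le_left _ _).trans (by linarith)

lemma abs_cutf_le (x : X) : |cutf x0 m x| ≤ 1 := by
  rw [abs_of_nonneg (cutf_nonneg x0 m x)]; exact cutf_le_one x0 m x

lemma tsupport_cutf : tsupport (cutf x0 m) ⊆ Metric.closedBall x0 ((m : ℝ) + 1) := by
  refine closure_minimal (fun x hx => ?_) Metric.isClosed_closedBall
  by_contra h
  rw [Metric.mem_closedBall, not_le] at h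
  exact hx (cutf_zero x0 m h.le)

lemma cutf_test [ProperSpace X] : IsT (cutf x0 m) :=
  ⟨(cutf_lip x0 m).locallyLipschitz,
    HasCompactSupport.of_support_subset_isCompact (isCompact_closedBall x0 ((m : ℝ) + 1))
      ((subset_tsupport _).trans (tsupport_cutf x0 m))⟩

lemma cutf_tendsto (x : X) : Tendsto (fun m : ℕ => cutf x0 m x) atTop (𝓝 1) := by
  refine tendsto_const_nhds.congr' ?_
  filter_upwards [eventually_ge_atTop ⌈dist x x0⌉₊] with k hk
  have h1 : dist x x0 ≤ k := (Nat.le_ceil _).trans (by exact_mod_cast hk)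
  rw [cutf_one x0 k h1]

variable [MeasurableSpace X] [BorelSpace X] {n : ℕ} {μ : Measure X}

lemma cutf_G [ProperSpace X] (G : GradS X (F n) μ) : ∀ᵐ x ∂μ, ‖G.G (cutf x0 m) x‖ ≤ 1 := by
  filter_upwards [G.norm_le (cutf_test x0 m).1 isOpen_univ (cutf_lip x0 m).lipschitzOnWith]
    with x hx
  simpa using hx (mem_univ x)

/-- the gradient of the cut-off vanishes on the ball of radius `m` -/
lemma cutf_G_zero [ProperSpace X] (G : GradS X (F n) μ) :
    ∀ᵐ x ∂μ, dist x x0 < m → G.G (cutf x0 m) x = 0 := by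
  have hEq : EqOn (cutf x0 m) (fun _ => (1:ℝ)) (Metric.ball x0 (m : ℝ)) := fun x hx =>
    cutf_one x0 m (Metric.mem_ball.1 hx).le
  filter_upwards [G.loc (cutf_test x0 m).1 (LocallyLipschitz.const (1:ℝ)) Metric.isOpen_ball hEq,
    G.const 1] with x a1 a2 hx
  rw [a1 (Metric.mem_ball.2 hx), a2]

lemma cutf_G_tendsto [ProperSpace X] (G : GradS X (F n) μ) :
    ∀ᵐ x ∂μ, Tendsto (fun m : ℕ => G.G (cutf x0 m) x) atTop (𝓝 0) := by
  have h3 : ∀ᵐ x ∂μ, ∀ k : ℕ, dist x x0 < k → G.G (cutf x0 k) x = 0 :=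
    ae_all_iff.2 fun k => cutf_G_zero x0 k G
  filter_upwards [h3] with x hx
  refine tendsto_const_nhds.congr' ?_
  filter_upwards [eventually_gt_atTop ⌈dist x x0⌉₊] with k hk
  have h1 : dist x x0 < k := (Nat.le_ceil _).trans_lt (by exact_mod_cast hk)
  rw [hx k h1]

end Cut

/-! ### the Hessian of the limit -/

variable {n : ℕ} {κ : ℝ} {X : Type*} [MetricSpace X] [MeasurableSpace X] [BorelSpace X]
  {μ : Measure X} [IsFiniteMeasureOnCompacts μ]

/-- smooth approximation in the graph norm of the Laplacian, on compact sets -/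
def Appr (B : BochS n κ X μ) : Prop :=
  ∀ (u : Lp ℝ 2 μ) (f : X → ℝ) (S0 : ℝ), u ∈ B.V → (∀ᵐ x ∂μ, |u x| ≤ S0) → MemLp f 2 μ →
    (∀ p : X → ℝ, IsT p → ∫ x, ⟪B.D u x, B.G p x⟫ ∂μ = - ∫ x, f x * p x ∂μ) →
    ∀ K : Set X, IsCompact K → ∀ ε : ℝ, 0 < ε → ∃ w ∈ B.core, (∀ x, |w x| ≤ S0 + 1) ∧
      ∫ x in K, ((w x - u x) ^ 2 + ‖B.G w x - B.D u x‖ ^ 2 + (tr (B.H w x) - f x) ^ 2) ∂μ ≤ ε

/-- `A` is the Hessian of `u`, with a smooth approximating sequence -/
structure HD (B : BochS n κ X μ) (u : Lp ℝ 2 μ) (S0 : ℝ) (w : ℕ → X → ℝ) (A : X → S n) :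
    Prop where
  core : ∀ k, w k ∈ B.core
  bdd : ∀ k x, |w k x| ≤ S0
  Am : AEStronglyMeasurable A μ
  toU : ∀ K : Set X, IsCompact K → L2To (μ.restrict K) w u
  toD : ∀ K : Set X, IsCompact K → L2To (μ.restrict K) (fun k => B.G (w k)) (B.D u)
  toA : ∀ K : Set X, IsCompact K → L2To (μ.restrict K) (fun k => B.H (w k)) A
  aeU : ∀ᵐ x ∂μ, Tendsto (fun k => w k x) atTop (𝓝 (u x))
  aeD : ∀ᵐ x ∂μ, Tendsto (fun k => B.G (w k) x) atTop (𝓝 (B.D u x))
  aeA : ∀ᵐ x ∂μ, Tendsto (fun k => B.H (w k) x) atTop (𝓝 (A x))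

/-- from compact balls to the whole space -/
lemma ae_of_balls (x0 : X) {P : X → Prop}
    (h : ∀ m : ℕ, ∀ᵐ x ∂(μ.restrict (Metric.closedBall x0 (m : ℝ))), P x) : ∀ᵐ x ∂μ, P x := by
  have h1 : ∀ᵐ x ∂μ, ∀ m : ℕ, x ∈ Metric.closedBall x0 (m : ℝ) → P x :=
    ae_all_iff.2 fun m => (ae_restrict_iff' Metric.isClosed_closedBall.measurableSet).1 (h m)
  filter_upwards [h1] with x hx
  refine hx ⌈dist x x0⌉₊ ?_
  rw [Metric.mem_closedBall]
  exact Nat.le_ceil _

lemma exists_ball (x0 : X) {K : Set X} (hK : IsCompact K) :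
    ∃ m : ℕ, K ⊆ Metric.closedBall x0 (m : ℝ) := by
  obtain ⟨r, hr⟩ := hK.isBounded.subset_closedBall x0
  exact ⟨⌈r⌉₊, hr.trans (Metric.closedBall_subset_closedBall (Nat.le_ceil r))⟩

lemma L2To.mono_set {E : Type*} [NormedAddCommGroup E] [InnerProductSpace ℝ E]
    {u : ℕ → X → E} {v : X → E} {K K' : Set X} (h : L2To (μ.restrict K') u v) (hK : K ⊆ K') :
    L2To (μ.restrict K) u v := by
  have hle : μ.restrict K ≤ μ.restrict K' := Measure.restrict_mono hK le_rfl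
  refine ⟨fun k => (h.mem k).mono_measure hle, h.mem'.mono_measure hle, ?_⟩
  refine squeeze_zero (fun k => integral_nonneg fun x => by positivity) (fun k => ?_) h.lim
  exact integral_mono_measure hle (Eventually.of_forall fun x => sq_nonneg _)
    (int_sub_sq (h.mem k) h.mem')

theorem exists_HD [ProperSpace X] (x0 : X) {B : BochS n κ X μ} (hA : Appr B) (hκ : 0 ≤ κ)
    {u : Lp ℝ 2 μ} {f : X → ℝ} {S0 : ℝ} (hu : u ∈ B.V) (hb : ∀ᵐ x ∂μ, |u x| ≤ S0)
    (hf : MemLp f 2 μ)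
    (hw : ∀ p : X → ℝ, IsT p → ∫ x, ⟪B.D u x, B.G p x⟫ ∂μ = - ∫ x, f x * p x ∂μ) :
    ∃ (w : ℕ → X → ℝ) (A : X → S n), HD B u (S0 + 1) w A ∧ (∀ᵐ x ∂μ, tr (A x) = f x) ∧
      ∀ᵐ x ∂μ, Tendsto (fun k => tr (B.H (w k) x)) atTop (𝓝 (f x)) := by
  have hex := fun k : ℕ => hA u f S0 hu hb hf hw (Metric.closedBall x0 (k : ℝ))
    (isCompact_closedBall _ _) ((1 / 4 : ℝ) ^ k) (by positivity)
  choose w hwc hwb hwi using hex
  have mU : ∀ k, MemLp (w k) 2 μ := fun k => (B.core_test (hwc k)).memLp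
  have mG : ∀ k, MemLp (B.G (w k)) 2 μ := fun k => B.G_memLp (hwc k)
  have mH : ∀ k, MemLp (B.H (w k)) 2 μ := fun k => B.H_memLp (hwc k)
  have mT : ∀ k, MemLp (fun x => tr (B.H (w k) x)) 2 μ := fun k => BochS.memLp_tr (mH k)
  have iU : ∀ k, Integrable (fun x => ‖w k x - u x‖ ^ 2) μ := fun k =>
    int_sub_sq (mU k) (Lp.memLp u)
  have iG : ∀ k, Integrable (fun x => ‖B.G (w k) x - B.D u x‖ ^ 2) μ := fun k =>
    int_sub_sq (mG k) (Lp.memLp (B.D u))
  have iT : ∀ k, Integrable (fun x => ‖tr (B.H (w k) x) - f x‖ ^ 2) μ := fun k =>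
    int_sub_sq (mT k) hf
  -- the three rates
  have hrate : ∀ m k : ℕ, m ≤ k →
      ∫ x in Metric.closedBall x0 (m : ℝ), ‖w k x - u x‖ ^ 2 ∂μ ≤ (1 / 4 : ℝ) ^ k ∧
      ∫ x in Metric.closedBall x0 (m : ℝ), ‖B.G (w k) x - B.D u x‖ ^ 2 ∂μ ≤ (1 / 4 : ℝ) ^ k ∧
      ∫ x in Metric.closedBall x0 (m : ℝ), ‖tr (B.H (w k) x) - f x‖ ^ 2 ∂μ ≤ (1 / 4 : ℝ) ^ k := by
    intro m k hmk
    have hsub : Metric.closedBall x0 (m : ℝ) ⊆ Metric.closedBall x0 (k : ℝ) :=
      Metric.closedBall_subset_closedBall (by exact_mod_cast hmk)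
    have hle : μ.restrict (Metric.closedBall x0 (m : ℝ)) ≤
      μ.restrict (Metric.closedBall x0 (k : ℝ)) := Measure.restrict_mono hsub le_rfl
    have hI : Integrable (fun x => (w k x - u x) ^ 2 + ‖B.G (w k) x - B.D u x‖ ^ 2 +
        (tr (B.H (w k) x) - f x) ^ 2) μ := by
      refine (((iU k).add (iG k)).add (iT k)).congr (Eventually.of_forall fun x => ?_)
      simp [Real.norm_eq_abs, sq_abs]
    have aux : ∀ g : X → ℝ, Integrable g μ → (∀ x, 0 ≤ g x) →
        (∀ x, g x ≤ (w k x - u x) ^ 2 + ‖B.G (w k) x - B.D u x‖ ^ 2 +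
          (tr (B.H (w k) x) - f x) ^ 2) →
        ∫ x in Metric.closedBall x0 (m : ℝ), g x ∂μ ≤ (1 / 4 : ℝ) ^ k := by
      intro g hg h0 hle'
      calc ∫ x in Metric.closedBall x0 (m : ℝ), g x ∂μ
          ≤ ∫ x in Metric.closedBall x0 (k : ℝ), g x ∂μ :=
            integral_mono_measure hle (Eventually.of_forall h0) hg.integrableOn
        _ ≤ _ := integral_mono hg.integrableOn hI.integrableOn hle'
        _ ≤ (1 / 4 : ℝ) ^ k := hwi k
    refine ⟨aux _ (iU k) (fun x => sq_nonneg _) fun x => ?_,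
      aux _ (iG k) (fun x => sq_nonneg _) fun x => ?_,
      aux _ (iT k) (fun x => sq_nonneg _) fun x => ?_⟩
    · rw [Real.norm_eq_abs, sq_abs]; nlinarith [sq_nonneg ‖B.G (w k) x - B.D u x‖,
        sq_nonneg (tr (B.H (w k) x) - f x)]
    · nlinarith [sq_nonneg (w k x - u x), sq_nonneg (tr (B.H (w k) x) - f x)]
    · rw [Real.norm_eq_abs, sq_abs]; nlinarith [sq_nonneg ‖B.G (w k) x - B.D u x‖,
        sq_nonneg (w k x - u x)]
  -- a.e. convergence
  have aeU : ∀ᵐ x ∂μ, Tendsto (fun k => w k x) atTop (𝓝 (u x)) :=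
    ae_of_balls x0 fun m => ae_of_rate (fun k => (iU k).integrableOn) m fun k hk =>
      (hrate m k hk).1
  have aeG : ∀ᵐ x ∂μ, Tendsto (fun k => B.G (w k) x) atTop (𝓝 (B.D u x)) :=
    ae_of_balls x0 fun m => ae_of_rate (fun k => (iG k).integrableOn) m fun k hk =>
      (hrate m k hk).2.1
  have aeT : ∀ᵐ x ∂μ, Tendsto (fun k => tr (B.H (w k) x)) atTop (𝓝 (f x)) :=
    ae_of_balls x0 fun m => ae_of_rate (fun k => (iT k).integrableOn) m fun k hk =>
      (hrate m k hk).2.2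
  -- Cauchy property of the Hessians
  have hcau : ∀ m N k l : ℕ, m + 1 ≤ N → N ≤ k → N ≤ l →
      ∫ x in Metric.closedBall x0 (m : ℝ), ‖B.H (w k) x - B.H (w l) x‖ ^ 2 ∂μ ≤
        (40 + 8 * κ) * (1 / 4 : ℝ) ^ N := by
    intro m N k l hmN hk hl
    have hcore := B.core_sub (hwc k) (hwc l)
    have hc := B.cacc hκ hcore (cutf_test x0 m) (cutf_nonneg x0 m) (cutf_le_one x0 m)
      (cutf_G x0 m B.toGradS)
    have hBm : MeasurableSet (Metric.closedBall x0 (m : ℝ)) :=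
      Metric.isClosed_closedBall.measurableSet
    have mHs := B.H_memLp hcore
    have mGs := B.G_memLp hcore
    have hχm : AEStronglyMeasurable (cutf x0 m) μ :=
      (cutf_test x0 m).1.continuous.aestronglyMeasurable
    have i1 : Integrable (fun x => cutf x0 m x ^ 2 * ‖B.H (fun y => w k y - w l y) x‖ ^ 2) μ :=
      BochS.int_bdd_mul (C := 1) (int_sq mHs) (hχm.pow 2) (Eventually.of_forall fun x => by
        rw [abs_of_nonneg (sq_nonneg _)]
        exact pow_le_one₀ (cutf_nonneg x0 m x) (cutf_le_one x0 m x))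
    have e1 : ∫ x in Metric.closedBall x0 (m : ℝ), ‖B.H (w k) x - B.H (w l) x‖ ^ 2 ∂μ ≤
        ∫ x, cutf x0 m x ^ 2 * ‖B.H (fun y => w k y - w l y) x‖ ^ 2 ∂μ := by
      rw [← integral_indicator hBm]
      refine integral_mono_ae ((int_sub_sq (mH k) (mH l)).indicator hBm) i1 ?_
      filter_upwards [B.H_sub (hwc k) (hwc l)] with x hx
      by_cases hxm : x ∈ Metric.closedBall x0 (m : ℝ)
      · rw [indicator_of_mem hxm, cutf_one x0 m (Metric.mem_closedBall.1 hxm), hx]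
        simp
      · rw [indicator_of_notMem hxm]; positivity
    have hsub : tsupport (cutf x0 m) ⊆ Metric.closedBall x0 ((m + 1 : ℕ) : ℝ) := by
      have := tsupport_cutf x0 m
      rwa [← Nat.cast_succ] at this
    have hle : μ.restrict (tsupport (cutf x0 m)) ≤
      μ.restrict (Metric.closedBall x0 ((m + 1 : ℕ) : ℝ)) := Measure.restrict_mono hsub le_rfl
    have two : ∀ {a b c : ℝ}, (a - b) ^ 2 ≤ 2 * (a - c) ^ 2 + 2 * (b - c) ^ 2 := fun {a b c} => by
      nlinarith [sq_nonneg (a - c + (b - c))]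
    have twoE : ∀ a b c : F n, ‖a - b‖ ^ 2 ≤ 2 * ‖a - c‖ ^ 2 + 2 * ‖b - c‖ ^ 2 := fun a b c => by
      have h1 : ‖a - b‖ ≤ ‖a - c‖ + ‖b - c‖ := by
        rw [show a - b = (a - c) - (b - c) by abel]; exact norm_sub_le _ _
      nlinarith [norm_nonneg (a - b), sq_nonneg (‖a - c‖ - ‖b - c‖)]
    have hk4 : (1 / 4 : ℝ) ^ k ≤ (1 / 4 : ℝ) ^ N :=
      pow_le_pow_of_le_one (by norm_num) (by norm_num) hk
    have hl4 : (1 / 4 : ℝ) ^ l ≤ (1 / 4 : ℝ) ^ N :=
      pow_le_pow_of_le_one (by norm_num) (by norm_num) hl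
    have e2 : ∫ x in tsupport (cutf x0 m), tr (B.H (fun y => w k y - w l y) x) ^ 2 ∂μ ≤
        4 * (1 / 4 : ℝ) ^ N := by
      have mTs : Integrable (fun x => tr (B.H (fun y => w k y - w l y) x) ^ 2) μ := by
        refine (int_sq (BochS.memLp_tr mHs)).congr (Eventually.of_forall fun x => ?_)
        simp only [Real.norm_eq_abs, sq_abs]
      have i2 : Integrable (fun x => 2 * ‖tr (B.H (w k) x) - f x‖ ^ 2 +
          2 * ‖tr (B.H (w l) x) - f x‖ ^ 2) μ := ((iT k).const_mul 2).add ((iT l).const_mul 2)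
      calc ∫ x in tsupport (cutf x0 m), tr (B.H (fun y => w k y - w l y) x) ^ 2 ∂μ
          ≤ ∫ x in Metric.closedBall x0 ((m + 1 : ℕ) : ℝ),
              tr (B.H (fun y => w k y - w l y) x) ^ 2 ∂μ :=
            integral_mono_measure hle (Eventually.of_forall fun x => sq_nonneg _) mTs.integrableOn
        _ ≤ ∫ x in Metric.closedBall x0 ((m + 1 : ℕ) : ℝ), (2 * ‖tr (B.H (w k) x) - f x‖ ^ 2 +
              2 * ‖tr (B.H (w l) x) - f x‖ ^ 2) ∂μ := by
            refine integral_mono_ae mTs.integrableOn i2.integrableOn (ae_restrict_of_ae ?_)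
            filter_upwards [B.H_sub (hwc k) (hwc l)] with x hx
            rw [hx, tr_sub, Real.norm_eq_abs, Real.norm_eq_abs, sq_abs, sq_abs]
            exact two
        _ = 2 * ∫ x in Metric.closedBall x0 ((m + 1 : ℕ) : ℝ), ‖tr (B.H (w k) x) - f x‖ ^ 2 ∂μ +
            2 * ∫ x in Metric.closedBall x0 ((m + 1 : ℕ) : ℝ), ‖tr (B.H (w l) x) - f x‖ ^ 2 ∂μ := by
            rw [integral_add ((iT k).const_mul 2).integrableOn ((iT l).const_mul 2).integrableOn,
              integral_const_mul, integral_const_mul]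
        _ ≤ 4 * (1 / 4 : ℝ) ^ N := by
            have h1 := (hrate (m + 1) k (by omega)).2.2
            have h2 := (hrate (m + 1) l (by omega)).2.2
            linarith
    have e3 : ∫ x in tsupport (cutf x0 m), ‖B.G (fun y => w k y - w l y) x‖ ^ 2 ∂μ ≤
        4 * (1 / 4 : ℝ) ^ N := by
      have i2 : Integrable (fun x => 2 * ‖B.G (w k) x - B.D u x‖ ^ 2 +
          2 * ‖B.G (w l) x - B.D u x‖ ^ 2) μ := ((iG k).const_mul 2).add ((iG l).const_mul 2)
      calc ∫ x in tsupport (cutf x0 m), ‖B.G (fun y => w k y - w l y) x‖ ^ 2 ∂μ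
          ≤ ∫ x in Metric.closedBall x0 ((m + 1 : ℕ) : ℝ),
              ‖B.G (fun y => w k y - w l y) x‖ ^ 2 ∂μ :=
            integral_mono_measure hle (Eventually.of_forall fun x => sq_nonneg _)
              (int_sq mGs).integrableOn
        _ ≤ ∫ x in Metric.closedBall x0 ((m + 1 : ℕ) : ℝ), (2 * ‖B.G (w k) x - B.D u x‖ ^ 2 +
              2 * ‖B.G (w l) x - B.D u x‖ ^ 2) ∂μ := by
            refine integral_mono_ae (int_sq mGs).integrableOn i2.integrableOn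
              (ae_restrict_of_ae ?_)
            filter_upwards [B.sub (B.core_test (hwc k)).1 (B.core_test (hwc l)).1] with x hx
            rw [hx]
            exact twoE _ _ _
        _ = 2 * ∫ x in Metric.closedBall x0 ((m + 1 : ℕ) : ℝ), ‖B.G (w k) x - B.D u x‖ ^ 2 ∂μ +
            2 * ∫ x in Metric.closedBall x0 ((m + 1 : ℕ) : ℝ), ‖B.G (w l) x - B.D u x‖ ^ 2 ∂μ := by
            rw [integral_add ((iG k).const_mul 2).integrableOn ((iG l).const_mul 2).integrableOn,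
              integral_const_mul, integral_const_mul]
        _ ≤ 4 * (1 / 4 : ℝ) ^ N := by
            have h1 := (hrate (m + 1) k (by omega)).2.1
            have h2 := (hrate (m + 1) l (by omega)).2.1
            linarith
    have h4 : (0:ℝ) < (1 / 4 : ℝ) ^ N := by positivity
    have e4 : (2 * κ + 6 * (1:ℝ) ^ 2) *
        ∫ x in tsupport (cutf x0 m), ‖B.G (fun y => w k y - w l y) x‖ ^ 2 ∂μ ≤
        (2 * κ + 6 * (1:ℝ) ^ 2) * (4 * (1 / 4 : ℝ) ^ N) :=
      mul_le_mul_of_nonneg_left e3 (by positivity)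
    nlinarith
  have hcc : (0:ℝ) ≤ 40 + 8 * κ := by positivity
  have hlim := fun m : ℕ => exists_lim_of_rate (ν := μ.restrict (Metric.closedBall x0 (m : ℝ)))
    (h := fun k => B.H (w k)) (fun k => (mH k).restrict _) (m + 1) hcc
    (fun N k l h1 h2 h3 => hcau m N k l h1 h2 h3)
  have hae : ∀ᵐ x ∂μ, ∃ l, Tendsto (fun k => B.H (w k) x) atTop (𝓝 l) :=
    ae_of_balls x0 fun m => (hlim m).1
  obtain ⟨A, hAm, hAl⟩ := exists_stronglyMeasurable_limit_of_tendsto_ae (fun k => (mH k).1) hae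
  refine ⟨w, A, ⟨hwc, hwb, hAm.aestronglyMeasurable, fun K hK => ?_, fun K hK => ?_,
    fun K hK => ?_, aeU, aeG, hAl⟩, ?_, aeT⟩
  · obtain ⟨m, hm⟩ := exists_ball x0 hK
    refine L2To.mono_set (K' := Metric.closedBall x0 (m : ℝ)) ⟨fun k => (mU k).restrict _,
      (Lp.memLp u).restrict _, ?_⟩ hm
    refine squeeze_zero' (Eventually.of_forall fun k => integral_nonneg fun x => by positivity)
      ?_ (tendsto_pow_atTop_nhds_zero_of_lt_one (r := (1 / 4 : ℝ)) (by norm_num) (by norm_num))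
    filter_upwards [eventually_ge_atTop m] with k hk using (hrate m k hk).1
  · obtain ⟨m, hm⟩ := exists_ball x0 hK
    refine L2To.mono_set (K' := Metric.closedBall x0 (m : ℝ)) ⟨fun k => (mG k).restrict _,
      (Lp.memLp (B.D u)).restrict _, ?_⟩ hm
    refine squeeze_zero' (Eventually.of_forall fun k => integral_nonneg fun x => by positivity)
      ?_ (tendsto_pow_atTop_nhds_zero_of_lt_one (r := (1 / 4 : ℝ)) (by norm_num) (by norm_num))
    filter_upwards [eventually_ge_atTop m] with k hk using (hrate m k hk).2.1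
  · obtain ⟨m, hm⟩ := exists_ball x0 hK
    obtain ⟨h1, h2⟩ := (hlim m).2 A hAm.aestronglyMeasurable.restrict (ae_restrict_of_ae hAl)
    exact L2To.mono_set (K' := Metric.closedBall x0 (m : ℝ)) ⟨fun k => (mH k).restrict _, h1, h2⟩ hm
  · filter_upwards [aeT, hAl] with x h1 h2
    exact tendsto_nhds_unique ((continuous_tr.tendsto _).comp h2) h1

/-! ### limits along the approximating sequence -/

lemma L2To.sq_L1 {E : Type*} [NormedAddCommGroup E] [InnerProductSpace ℝ E] {X : Type*}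
    [MeasurableSpace X] {ν : Measure X} {u : ℕ → X → E} {v : X → E} (h : L2To ν u v) :
    Tendsto (fun k => ∫ x, |‖u k x‖ ^ 2 - ‖v x‖ ^ 2| ∂ν) atTop (𝓝 0) := by
  have h1 : Tendsto (fun k => ∫ x, ‖u k x - v x‖ ^ 2 ∂ν +
      2 * (√(∫ x, ‖u k x - v x‖ ^ 2 ∂ν) * √(∫ x, ‖v x‖ ^ 2 ∂ν))) atTop (𝓝 0) := by
    have h2 := (h.lim.sqrt.mul_const (√(∫ x, ‖v x‖ ^ 2 ∂ν))).const_mul 2
    have h3 := h.lim.add h2
    simpa using h3
  refine squeeze_zero (fun k => integral_nonneg fun x => abs_nonneg _) (fun k => ?_) h1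
  have i1 := int_sub_sq (h.mem k) h.mem'
  have i2 := (int_norm_mul ((h.mem k).sub h.mem') h.mem').const_mul 2
  have i3 : Integrable (fun x => |‖u k x‖ ^ 2 - ‖v x‖ ^ 2|) ν :=
    ((int_sq (h.mem k)).sub (int_sq h.mem')).abs
  calc ∫ x, |‖u k x‖ ^ 2 - ‖v x‖ ^ 2| ∂ν
      ≤ ∫ x, (‖u k x - v x‖ ^ 2 + 2 * (‖(u k - v) x‖ * ‖v x‖)) ∂ν := by
        refine integral_mono i3 (i1.add i2) fun x => ?_
        show |‖u k x‖ ^ 2 - ‖v x‖ ^ 2| ≤ ‖u k x - v x‖ ^ 2 + 2 * (‖u k x - v x‖ * ‖v x‖)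
        have e1 : ‖u k x‖ ^ 2 - ‖v x‖ ^ 2 = (‖u k x‖ - ‖v x‖) * (‖u k x‖ + ‖v x‖) := by ring
        rw [e1, abs_mul, abs_of_nonneg (by positivity : 0 ≤ ‖u k x‖ + ‖v x‖)]
        have e2 := abs_norm_sub_norm_le (u k x) (v x)
        have e3 : ‖u k x‖ ≤ ‖u k x - v x‖ + ‖v x‖ := by
          have := norm_add_le (u k x - v x) (v x)
          simpa using this
        calc |‖u k x‖ - ‖v x‖| * (‖u k x‖ + ‖v x‖)
            ≤ ‖u k x - v x‖ * (‖u k x - v x‖ + ‖v x‖ + ‖v x‖) := by gcongr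
          _ = _ := by ring
    _ = ∫ x, ‖u k x - v x‖ ^ 2 ∂ν + 2 * ∫ x, ‖(u k - v) x‖ * ‖v x‖ ∂ν := by
        rw [integral_add i1 i2, integral_const_mul]
    _ ≤ _ := by
        have := cs_norm ((h.mem k).sub h.mem') h.mem'
        simp only [Pi.sub_apply] at this ⊢
        linarith

namespace HD

variable {B : BochS n κ X μ} {u : Lp ℝ 2 μ} {S0 : ℝ} {w : ℕ → X → ℝ} {A : X → S n}

/-- generalised dominated convergence along the approximating sequence -/
theorem lim (h : HD B u S0 w A) {K : Set X} (hK : IsCompact K) {T : ℕ → X → ℝ} {T' : X → ℝ}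
    {C : ℝ} {b : X → ℝ} (hC : 0 ≤ C) (hbi : Integrable b μ)
    (hTm : ∀ k, AEStronglyMeasurable (T k) μ)
    (hb : ∀ k, ∀ᵐ x ∂μ, |T k x| ≤ C * (‖B.H (w k) x‖ ^ 2 + ‖B.G (w k) x‖ ^ 2 + 1) + b x)
    (hz : ∀ k, ∀ᵐ x ∂μ, x ∉ K → T k x = 0)
    (ht : ∀ᵐ x ∂μ, Tendsto (fun k => T k x) atTop (𝓝 (T' x))) :
    Integrable T' μ ∧ Tendsto (fun k => ∫ x, T k x ∂μ) atTop (𝓝 (∫ x, T' x ∂μ)) := by
  have hKm : MeasurableSet K := hK.isClosed.measurableSet
  have hfin : IsFiniteMeasure (μ.restrict K) :=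
    ⟨by rw [Measure.restrict_apply_univ]; exact hK.measure_lt_top⟩
  have hH := h.toA K hK
  have hG := h.toD K hK
  have iH : ∀ k, Integrable (fun x => ‖B.H (w k) x‖ ^ 2) (μ.restrict K) := fun k =>
    int_sq (hH.mem k)
  have iG : ∀ k, Integrable (fun x => ‖B.G (w k) x‖ ^ 2) (μ.restrict K) := fun k =>
    int_sq (hG.mem k)
  have iA : Integrable (fun x => ‖A x‖ ^ 2) (μ.restrict K) := int_sq hH.mem'
  have iD : Integrable (fun x => ‖B.D u x‖ ^ 2) (μ.restrict K) := int_sq hG.mem'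
  have i1 : Integrable (fun _ : X => (1:ℝ)) (μ.restrict K) := integrable_const _
  have hD : ∀ k, Integrable (fun x => C * (‖B.H (w k) x‖ ^ 2 + ‖B.G (w k) x‖ ^ 2 + 1) + b x)
      (μ.restrict K) := fun k => ((((iH k).add (iG k)).add i1).const_mul C).add hbi.integrableOn
  have hD' : Integrable (fun x => C * (‖A x‖ ^ 2 + ‖B.D u x‖ ^ 2 + 1) + b x) (μ.restrict K) :=
    (((iA.add iD).add i1).const_mul C).add hbi.integrableOn
  have hz' : ∀ᵐ x ∂μ, x ∉ K → T' x = 0 := by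
    filter_upwards [ae_all_iff.2 hz, ht] with x e1 e2 hx
    have e3 : (fun k => T k x) = fun _ => (0:ℝ) := funext fun k => e1 k hx
    rw [e3] at e2
    exact tendsto_nhds_unique e2 tendsto_const_nhds
  obtain ⟨r1, r2⟩ := gen_dom (ν := μ.restrict K) (T := T) (T' := T')
    (D := fun k x => C * (‖B.H (w k) x‖ ^ 2 + ‖B.G (w k) x‖ ^ 2 + 1) + b x)
    (D' := fun x => C * (‖A x‖ ^ 2 + ‖B.D u x‖ ^ 2 + 1) + b x)
    (fun k => (hTm k).restrict) hD hD' (fun k => ae_restrict_of_ae (hb k)) (by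
      have h1 : Tendsto (fun k => C * (∫ x in K, |‖B.H (w k) x‖ ^ 2 - ‖A x‖ ^ 2| ∂μ +
          ∫ x in K, |‖B.G (w k) x‖ ^ 2 - ‖B.D u x‖ ^ 2| ∂μ)) atTop (𝓝 0) := by
        have := (hH.sq_L1.add hG.sq_L1).const_mul C
        simpa using this
      refine squeeze_zero (fun k => integral_nonneg fun x => abs_nonneg _) (fun k => ?_) h1
      have j1 : Integrable (fun x => |‖B.H (w k) x‖ ^ 2 - ‖A x‖ ^ 2|) (μ.restrict K) :=
        ((iH k).sub iA).abs
      have j2 : Integrable (fun x => |‖B.G (w k) x‖ ^ 2 - ‖B.D u x‖ ^ 2|) (μ.restrict K) :=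
        ((iG k).sub iD).abs
      rw [← integral_add j1 j2, ← integral_const_mul]
      refine integral_mono (((hD k).sub hD').abs) ((j1.add j2).const_mul C) fun x => ?_
      show |C * (‖B.H (w k) x‖ ^ 2 + ‖B.G (w k) x‖ ^ 2 + 1) + b x -
        (C * (‖A x‖ ^ 2 + ‖B.D u x‖ ^ 2 + 1) + b x)| ≤
        C * (|‖B.H (w k) x‖ ^ 2 - ‖A x‖ ^ 2| + |‖B.G (w k) x‖ ^ 2 - ‖B.D u x‖ ^ 2|)
      have e : C * (‖B.H (w k) x‖ ^ 2 + ‖B.G (w k) x‖ ^ 2 + 1) + b x -
        (C * (‖A x‖ ^ 2 + ‖B.D u x‖ ^ 2 + 1) + b x) =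
        C * ((‖B.H (w k) x‖ ^ 2 - ‖A x‖ ^ 2) + (‖B.G (w k) x‖ ^ 2 - ‖B.D u x‖ ^ 2)) := by ring
      rw [e, abs_mul, abs_of_nonneg hC]
      exact mul_le_mul_of_nonneg_left (abs_add_le _ _) hC)
    (by
      refine ae_restrict_of_ae ?_
      filter_upwards [h.aeA, h.aeD] with x e1 e2
      exact ((((e1.norm.pow 2).add (e2.norm.pow 2)).add_const 1).const_mul C).add_const _)
    (ae_restrict_of_ae ht)
  have e1 : ∀ k, ∫ x in K, T k x ∂μ = ∫ x, T k x ∂μ := fun k =>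
    setIntegral_eq_integral_of_ae_compl_eq_zero (hz k)
  have e2 : ∫ x in K, T' x ∂μ = ∫ x, T' x ∂μ := setIntegral_eq_integral_of_ae_compl_eq_zero hz'
  rw [e2] at r2
  refine ⟨?_, r2.congr e1⟩
  exact IntegrableOn.integrable_of_ae_notMem_eq_zero r1 hz'

lemma aeMv (h : HD B u S0 w A) : ∀ᵐ x ∂μ, Tendsto (fun k => mv (B.H (w k) x) (B.G (w k) x)) atTop
    (𝓝 (mv (A x) (B.D u x))) := by
  filter_upwards [h.aeA, h.aeD] with x e1 e2
  exact (continuous_mv.tendsto (A x, B.D u x)).comp (e1.prodMk_nhds e2)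

lemma aeTr (h : HD B u S0 w A) : ∀ᵐ x ∂μ, Tendsto (fun k => tr (B.H (w k) x)) atTop
    (𝓝 (tr (A x))) := by
  filter_upwards [h.aeA] with x e1
  exact (continuous_tr.tendsto (A x)).comp e1

lemma mH (h : HD B u S0 w A) (k : ℕ) : AEStronglyMeasurable (B.H (w k)) μ := (B.H_memLp (h.core k)).1
lemma mG (h : HD B u S0 w A) (k : ℕ) : AEStronglyMeasurable (B.G (w k)) μ := (B.G_memLp (h.core k)).1

/-- the weak Bochner identity for the limit -/
theorem boch (h : HD B u S0 w A) {p : X → ℝ} (hp : IsT p) :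
    Integrable (fun x => p x * (‖A x‖ ^ 2 + ⟪mv (B.Ric x) (B.D u x), B.D u x⟫)) μ ∧
    Integrable (fun x => ⟪B.G p x, mv (A x) (B.D u x)⟫) μ ∧
    Integrable (fun x => tr (A x) * (p x * tr (A x) + ⟪B.G p x, B.D u x⟫)) μ ∧
    ∫ x, p x * (‖A x‖ ^ 2 + ⟪mv (B.Ric x) (B.D u x), B.D u x⟫) ∂μ =
      - ∫ x, ⟪B.G p x, mv (A x) (B.D u x)⟫ ∂μ +
        ∫ x, tr (A x) * (p x * tr (A x) + ⟪B.G p x, B.D u x⟫) ∂μ := by
  obtain ⟨Cp, hCp0, hCpu, hCpG⟩ := BochS.test_bdd B.toGradS hp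
  obtain ⟨CR, hCR0, hCR⟩ := B.Ric_bdd' (tsupport p) hp.2.isCompact
  have hK : IsCompact (tsupport p) := hp.2.isCompact
  have hpz : ∀ x, x ∉ tsupport p → p x = 0 := fun x hx => image_eq_zero_of_notMem_tsupport hx
  have hGz := BochS.G_supp B.toGradS hp
  have hpm : AEStronglyMeasurable p μ := hp.1.continuous.aestronglyMeasurable
  have hGm : AEStronglyMeasurable (B.G p) μ := (hp.memLpG B.toGradS).1
  have h0 : Integrable (fun _ : X => (0:ℝ)) μ := integrable_zero _ _ _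
  obtain ⟨a1, a2⟩ := h.lim hK (T := fun k x => p x * (‖B.H (w k) x‖ ^ 2 +
      ⟪mv (B.Ric x) (B.G (w k) x), B.G (w k) x⟫))
    (T' := fun x => p x * (‖A x‖ ^ 2 + ⟪mv (B.Ric x) (B.D u x), B.D u x⟫))
    (C := Cp * (1 + CR)) (by positivity) h0
    (fun k => hpm.mul (((h.mH k).norm.pow 2).add
      ((BochS.aesm_mv B.Ric_meas (h.mG k)).inner (h.mG k))))
    (fun k => by
      filter_upwards [hCR] with x hx
      by_cases hxK : x ∈ tsupport p
      · have e2 : |⟪mv (B.Ric x) (B.G (w k) x), B.G (w k) x⟫| ≤ CR * ‖B.G (w k) x‖ ^ 2 := by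
          calc |⟪mv (B.Ric x) (B.G (w k) x), B.G (w k) x⟫|
              ≤ ‖mv (B.Ric x) (B.G (w k) x)‖ * ‖B.G (w k) x‖ := abs_real_inner_le_norm _ _
            _ ≤ (‖B.Ric x‖ * ‖B.G (w k) x‖) * ‖B.G (w k) x‖ := by gcongr; exact norm_mv_le _ _
            _ ≤ (CR * ‖B.G (w k) x‖) * ‖B.G (w k) x‖ := by gcongr; exact hx hxK
            _ = CR * ‖B.G (w k) x‖ ^ 2 := by ring
        have e3 : |‖B.H (w k) x‖ ^ 2 + ⟪mv (B.Ric x) (B.G (w k) x), B.G (w k) x⟫| ≤
            ‖B.H (w k) x‖ ^ 2 + CR * ‖B.G (w k) x‖ ^ 2 := by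
          refine (abs_add_le _ _).trans ?_
          rw [abs_of_nonneg (sq_nonneg ‖B.H (w k) x‖)]
          linarith
        rw [abs_mul, add_zero]
        calc |p x| * |‖B.H (w k) x‖ ^ 2 + ⟪mv (B.Ric x) (B.G (w k) x), B.G (w k) x⟫|
            ≤ Cp * (‖B.H (w k) x‖ ^ 2 + CR * ‖B.G (w k) x‖ ^ 2) :=
              mul_le_mul (hCpu x) e3 (abs_nonneg _) hCp0
          _ ≤ Cp * ((1 + CR) * (‖B.H (w k) x‖ ^ 2 + ‖B.G (w k) x‖ ^ 2 + 1)) := by
              refine mul_le_mul_of_nonneg_left ?_ hCp0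
              nlinarith [sq_nonneg ‖B.H (w k) x‖, sq_nonneg ‖B.G (w k) x‖,
                mul_nonneg hCR0 (sq_nonneg ‖B.H (w k) x‖)]
          _ = _ := by ring
      · rw [hpz x hxK, zero_mul, abs_zero]; positivity)
    (fun k => Eventually.of_forall fun x hx => by
      show p x * _ = 0
      rw [hpz x hx, zero_mul])
    (by
      filter_upwards [h.aeA, h.aeD] with x e1 e2
      have e3 : Tendsto (fun k => mv (B.Ric x) (B.G (w k) x)) atTop (𝓝 (mv (B.Ric x) (B.D u x))) :=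
        (continuous_mv.tendsto (B.Ric x, B.D u x)).comp (tendsto_const_nhds.prodMk_nhds e2)
      exact ((e1.norm.pow 2).add (e3.inner e2)).const_mul (p x))
  obtain ⟨b1, b2⟩ := h.lim hK (T := fun k x => ⟪B.G p x, mv (B.H (w k) x) (B.G (w k) x)⟫)
    (T' := fun x => ⟪B.G p x, mv (A x) (B.D u x)⟫) (C := Cp) hCp0 h0
    (fun k => hGm.inner (BochS.aesm_mv (h.mH k) (h.mG k)))
    (fun k => by
      filter_upwards [hCpG] with x hx
      rw [add_zero]
      calc |⟪B.G p x, mv (B.H (w k) x) (B.G (w k) x)⟫|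
          ≤ ‖B.G p x‖ * ‖mv (B.H (w k) x) (B.G (w k) x)‖ := abs_real_inner_le_norm _ _
        _ ≤ Cp * (‖B.H (w k) x‖ * ‖B.G (w k) x‖) :=
            mul_le_mul hx (norm_mv_le _ _) (norm_nonneg _) hCp0
        _ ≤ Cp * (‖B.H (w k) x‖ ^ 2 + ‖B.G (w k) x‖ ^ 2 + 1) := by
            refine mul_le_mul_of_nonneg_left ?_ hCp0
            nlinarith [sq_nonneg (‖B.H (w k) x‖ - ‖B.G (w k) x‖), sq_nonneg ‖B.H (w k) x‖,
              sq_nonneg ‖B.G (w k) x‖])
    (fun k => by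
      filter_upwards [hGz] with x hx hxK
      rw [hx hxK, inner_zero_left])
    (by
      filter_upwards [h.aeMv] with x e1
      exact tendsto_const_nhds.inner e1)
  obtain ⟨c1, c2⟩ := h.lim hK
    (T := fun k x => tr (B.H (w k) x) * (p x * tr (B.H (w k) x) + ⟪B.G p x, B.G (w k) x⟫))
    (T' := fun x => tr (A x) * (p x * tr (A x) + ⟪B.G p x, B.D u x⟫)) (C := Cp * (2 * n + 1))
    (by positivity) h0
    (fun k => (BochS.aesm_tr (h.mH k)).mul ((hpm.mul (BochS.aesm_tr (h.mH k))).add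
      (hGm.inner (h.mG k))))
    (fun k => by
      filter_upwards [hCpG] with x hx
      rw [add_zero, abs_mul]
      have e0 := tr_sq_le (B.H (w k) x)
      have e1 : |p x * tr (B.H (w k) x) + ⟪B.G p x, B.G (w k) x⟫| ≤
          Cp * |tr (B.H (w k) x)| + Cp * ‖B.G (w k) x‖ := by
        refine (abs_add_le _ _).trans (add_le_add ?_ ?_)
        · rw [abs_mul]; exact mul_le_mul_of_nonneg_right (hCpu x) (abs_nonneg _)
        · exact (abs_real_inner_le_norm _ _).trans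
            (mul_le_mul_of_nonneg_right hx (norm_nonneg _))
      calc |tr (B.H (w k) x)| * |p x * tr (B.H (w k) x) + ⟪B.G p x, B.G (w k) x⟫|
          ≤ |tr (B.H (w k) x)| * (Cp * |tr (B.H (w k) x)| + Cp * ‖B.G (w k) x‖) :=
            mul_le_mul_of_nonneg_left e1 (abs_nonneg _)
        _ = Cp * (|tr (B.H (w k) x)| ^ 2 + |tr (B.H (w k) x)| * ‖B.G (w k) x‖) := by ring
        _ ≤ Cp * (2 * |tr (B.H (w k) x)| ^ 2 + ‖B.G (w k) x‖ ^ 2) := by
            refine mul_le_mul_of_nonneg_left ?_ hCp0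
            nlinarith [sq_nonneg (|tr (B.H (w k) x)| - ‖B.G (w k) x‖)]
        _ ≤ Cp * ((2 * n + 1) * (‖B.H (w k) x‖ ^ 2 + ‖B.G (w k) x‖ ^ 2 + 1)) := by
            refine mul_le_mul_of_nonneg_left ?_ hCp0
            rw [sq_abs]
            have hn : (0:ℝ) ≤ n := Nat.cast_nonneg n
            nlinarith [sq_nonneg ‖B.H (w k) x‖, sq_nonneg ‖B.G (w k) x‖,
              mul_nonneg hn (sq_nonneg ‖B.G (w k) x‖)]
        _ = _ := by ring)
    (fun k => by
      filter_upwards [hGz] with x hx hxK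
      rw [hx hxK, hpz x hxK, inner_zero_left, zero_mul, add_zero, mul_zero])
    (by
      filter_upwards [h.aeTr, h.aeD] with x e1 e2
      exact e1.mul ((e1.const_mul (p x)).add (tendsto_const_nhds.inner e2)))
  refine ⟨a1, b1, c1, ?_⟩
  refine tendsto_nhds_unique a2 ?_
  refine (b2.neg.add c2).congr fun k => ?_
  exact (B.bochner (h.core k) hp).symm

/-- Caccioppoli for the limit -/
theorem cacc (h : HD B u S0 w A) (hκ : 0 ≤ κ) {χ : X → ℝ} (hχ : IsT χ) (h0 : ∀ x, 0 ≤ χ x)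
    (h1 : ∀ x, χ x ≤ 1) {c : ℝ} (hc : ∀ᵐ x ∂μ, ‖B.G χ x‖ ≤ c) :
    Integrable (fun x => χ x ^ 2 * ‖A x‖ ^ 2) μ ∧
    ∫ x, χ x ^ 2 * ‖A x‖ ^ 2 ∂μ ≤
      4 * ∫ x in tsupport χ, tr (A x) ^ 2 ∂μ +
        (2 * κ + 6 * c ^ 2) * ∫ x in tsupport χ, ‖B.D u x‖ ^ 2 ∂μ := by
  have hK : IsCompact (tsupport χ) := hχ.2.isCompact
  have hKm : MeasurableSet (tsupport χ) := (isClosed_tsupport χ).measurableSet
  have hz : ∀ x, x ∉ tsupport χ → χ x = 0 := fun x hx => image_eq_zero_of_notMem_tsupport hx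
  have hχm : AEStronglyMeasurable χ μ := hχ.1.continuous.aestronglyMeasurable
  have hi0 : Integrable (fun _ : X => (0:ℝ)) μ := integrable_zero _ _ _
  obtain ⟨a1, a2⟩ := h.lim hK (T := fun k x => χ x ^ 2 * ‖B.H (w k) x‖ ^ 2)
    (T' := fun x => χ x ^ 2 * ‖A x‖ ^ 2) (C := 1) zero_le_one hi0
    (fun k => (hχm.pow 2).mul ((h.mH k).norm.pow 2))
    (fun k => Eventually.of_forall fun x => by
      have e1 : χ x ^ 2 ≤ 1 := pow_le_one₀ (h0 x) (h1 x)
      rw [abs_of_nonneg (by positivity), add_zero, one_mul]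
      nlinarith [sq_nonneg ‖B.H (w k) x‖, sq_nonneg ‖B.G (w k) x‖])
    (fun k => Eventually.of_forall fun x hx => by
      show χ x ^ 2 * _ = 0
      rw [hz x hx]; ring)
    (by
      filter_upwards [h.aeA] with x e1
      exact (e1.norm.pow 2).const_mul _)
  obtain ⟨b1, b2⟩ := h.lim hK
    (T := fun k => (tsupport χ).indicator fun x => tr (B.H (w k) x) ^ 2)
    (T' := (tsupport χ).indicator fun x => tr (A x) ^ 2) (C := n) (Nat.cast_nonneg n) hi0
    (fun k => ((BochS.aesm_tr (h.mH k)).pow 2).indicator hKm)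
    (fun k => Eventually.of_forall fun x => by
      have e1 := tr_sq_le (B.H (w k) x)
      have hn : (0:ℝ) ≤ n := Nat.cast_nonneg n
      by_cases hx : x ∈ tsupport χ
      · rw [indicator_of_mem hx, abs_of_nonneg (sq_nonneg _), add_zero]
        nlinarith [mul_nonneg hn (sq_nonneg ‖B.G (w k) x‖)]
      · rw [indicator_of_notMem hx, abs_zero]; positivity)
    (fun k => Eventually.of_forall fun x hx => indicator_of_notMem hx _)
    (by
      filter_upwards [h.aeTr] with x e1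
      by_cases hx : x ∈ tsupport χ
      · simp only [indicator_of_mem hx]; exact e1.pow 2
      · simp only [indicator_of_notMem hx]; exact tendsto_const_nhds)
  have c2 := (h.toD _ hK).norm_sq
  simp only [integral_indicator hKm] at b2
  refine ⟨a1, le_of_tendsto_of_tendsto' a2 ((b2.const_mul 4).add
    (c2.const_mul (2 * κ + 6 * c ^ 2))) fun k => ?_⟩
  exact B.cacc hκ (h.core k) hχ h0 h1 hc

end HD

end Crest.Agent.R247.Hes124
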