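import Crest.Agent.R247.Hes3_124
import Crest.Agent.R247.Dir6_593

/-!
R247, block (5-H) (helper124), part 5: algebra of the weak Bochner identity.
`BW` = the complete analytic output (Hessian in `L²`, `|Du|²/2 ∈ V`, weak Bochner for bounded
test functions in `V`); `keq` = the exact equation of `k = |Du|² - 2u - θ0`; `S'` and its lower
bounds; `hf_ineq` = the integrated Hessian inequality for `φ = R Ψ`.
-/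

set_option autoImplicit false
set_option linter.unusedSectionVars false

open MeasureTheory Filter Topology Set
open scoped RealInnerProductSpace ENNReal NNReal

noncomputable section

namespace Crest.Agent.R247.Hes124

open Crest.Agent.R242 Crest.Agent.R247.Dir593 Crest.Agent.R247.Dir593.GradS

variable {n : ℕ} {κ : ℝ} {X : Type*} [MetricSpace X] [MeasurableSpace X] [BorelSpace X]
  {μ : Measure X} [IsFiniteMeasureOnCompacts μ]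

/-- linear combination of six integrals -/
lemma lin6 {Y : Type*} [MeasurableSpace Y] {ν : Measure Y} {a b c d e f : Y → ℝ}
    (ia : Integrable a ν) (ib : Integrable b ν) (ic : Integrable c ν) (id : Integrable d ν)
    (ie : Integrable e ν) (if' : Integrable f ν) {c1 c2 c3 c4 c5 c6 : ℝ}
    (h : ∀ᵐ x ∂ν, c1 * a x + c2 * b x + c3 * c x + c4 * d x + c5 * e x + c6 * f x = 0) :
    c1 * ∫ x, a x ∂ν + c2 * ∫ x, b x ∂ν + c3 * ∫ x, c x ∂ν + c4 * ∫ x, d x ∂ν +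
      c5 * ∫ x, e x ∂ν + c6 * ∫ x, f x ∂ν = 0 := by
  have h1 : ∫ x, (c1 * a x + c2 * b x + c3 * c x + c4 * d x + c5 * e x + c6 * f x) ∂ν = 0 := by
    rw [integral_congr_ae h, integral_zero]
  have j1 : Integrable (fun x => c1 * a x) ν := ia.const_mul _
  have j2 : Integrable (fun x => c2 * b x) ν := ib.const_mul _
  have j3 : Integrable (fun x => c3 * c x) ν := ic.const_mul _
  have j4 : Integrable (fun x => c4 * d x) ν := id.const_mul _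
  have j5 : Integrable (fun x => c5 * e x) ν := ie.const_mul _
  have j6 : Integrable (fun x => c6 * f x) ν := if'.const_mul _
  have k2 : Integrable (fun x => c1 * a x + c2 * b x) ν := j1.add j2
  have k3 : Integrable (fun x => c1 * a x + c2 * b x + c3 * c x) ν := k2.add j3
  have k4 : Integrable (fun x => c1 * a x + c2 * b x + c3 * c x + c4 * d x) ν := k3.add j4
  have k5 : Integrable (fun x => c1 * a x + c2 * b x + c3 * c x + c4 * d x + c5 * e x) ν :=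
    k4.add j5
  rw [integral_add k5 j6, integral_add k4 j5, integral_add k3 j4, integral_add k2 j3,
    integral_add j1 j2] at h1
  simpa only [integral_const_mul] using h1

/-- Hessian package: `Δ u = g`, `A` = Hessian, `P = |Du|²/2`, weak Bochner. -/
structure BW (B : BochS n κ X μ) (u g : Lp ℝ 2 μ) (A : X → S n) (P : Lp ℝ 2 μ) : Prop where
  u_mem : u ∈ B.V
  g_mem : g ∈ B.V
  weak : ∀ p ∈ B.V, (⟪B.D u, B.D p⟫ : ℝ) = -⟪g, p⟫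
  trA : ∀ᵐ x ∂μ, tr (A x) = g x
  A_memLp : MemLp A 2 μ
  P_mem : P ∈ B.V
  P_eq : ∀ᵐ x ∂μ, P x = ‖B.D u x‖ ^ 2 / 2
  DP : ∀ᵐ x ∂μ, B.D P x = mv (A x) (B.D u x)
  bdd : ∃ C : ℝ, ∀ᵐ x ∂μ, ‖B.D u x‖ ≤ C
  int : Integrable (fun x => ‖A x‖ ^ 2 + ⟪mv (B.Ric x) (B.D u x), B.D u x⟫) μ
  boch : ∀ p ∈ B.V, (∃ C : ℝ, ∀ᵐ x ∂μ, |p x| ≤ C) →
    ∫ x, p x * (‖A x‖ ^ 2 + ⟪mv (B.Ric x) (B.D u x), B.D u x⟫) ∂μ +
      ∫ x, ⟪B.D p x, mv (A x) (B.D u x)⟫ ∂μ = - ∫ x, p x * ⟪B.D g x, B.D u x⟫ ∂μ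

/-- the density `S' = 2|A - I|² + 2 Ric(Du,Du) + ρ²|Dq|² + 2⟨GN,Du⟩ + 2(N - n)` -/
def Sp (B : BochS n κ X μ) (u q : Lp ℝ 2 μ) (A : X → S n) (N : X → ℝ) (ρ : ℝ) (x : X) : ℝ :=
  2 * ‖A x - idm n‖ ^ 2 + 2 * ⟪mv (B.Ric x) (B.D u x), B.D u x⟫ + ρ ^ 2 * ‖B.D q x‖ ^ 2 +
    2 * ⟪B.G N x, B.D u x⟫ + 2 * (N x - n)

namespace BW

variable {B : BochS n κ X μ} {u g : Lp ℝ 2 μ} {A : X → S n} {P : Lp ℝ 2 μ}

/-- `4q - S' = -2β + 2N - ρ²|Dq|² - 2⟨GN,Du⟩` -/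
lemma four_q_sub (h : BW B u g A P) {q : Lp ℝ 2 μ} {N : X → ℝ} (hN : IsT N) {ρ : ℝ}
    (hg : g = tL hN - q) :
    ∀ᵐ x ∂μ, 4 * q x - Sp B u q A N ρ x =
      -2 * (‖A x‖ ^ 2 + ⟪mv (B.Ric x) (B.D u x), B.D u x⟫) + 2 * N x - ρ ^ 2 * ‖B.D q x‖ ^ 2 -
        2 * ⟪B.G N x, B.D u x⟫ := by
  filter_upwards [h.trA, Lp.coeFn_sub (tL hN : Lp ℝ 2 μ) q, coe_tL (μ := μ) hN] with x e1 e2 e3
  have e4 : tr (A x) = N x - q x := by rw [e1, hg, e2, Pi.sub_apply, e3]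
  unfold Sp
  rw [norm_sub_idm_sq, e4]
  ring

lemma int_four (h : BW B u g A P) {q : Lp ℝ 2 μ} {N : X → ℝ} (hN : IsT N) {ρ : ℝ}
    (hg : g = tL hN - q) : Integrable (fun x => 4 * q x - Sp B u q A N ρ x) μ := by
  have i1 := h.int.const_mul (-2)
  have iN : Integrable N μ := hN.1.continuous.integrable_of_hasCompactSupport hN.2
  have iq : Integrable (fun x => ‖B.D q x‖ ^ 2) μ := int_sq (Lp.memLp _)
  have iG : Integrable (fun x => ⟪B.G N x, B.D u x⟫) μ :=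
    int_inner (hN.memLpG B.toGradS) (Lp.memLp _)
  refine (((i1.add (iN.const_mul 2)).sub (iq.const_mul (ρ ^ 2))).sub (iG.const_mul 2)).congr ?_
  filter_upwards [h.four_q_sub hN (ρ := ρ) hg] with x e
  rw [e]
  simp only [Pi.add_apply, Pi.sub_apply]

lemma int_Sp (h : BW B u g A P) {q : Lp ℝ 2 μ} {N : X → ℝ} (hN : IsT N) {ρ : ℝ}
    (hg : g = tL hN - q) (hq : Integrable q μ) : Integrable (Sp B u q A N ρ) μ := by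
  refine ((hq.const_mul 4).sub (h.int_four hN (ρ := ρ) hg)).congr (Eventually.of_forall fun x => ?_)
  simp only [Pi.sub_apply]
  ring

/-- the function `k = |Du|² - 2u - θ0` -/
def kL (u P : Lp ℝ 2 μ) {θ0 : X → ℝ} (hθ : IsT θ0) : Lp ℝ 2 μ :=
  (2:ℝ) • P - (2:ℝ) • u - tL hθ

lemma kL_mem (h : BW B u g A P) {θ0 : X → ℝ} (hθ : IsT θ0) : kL u P hθ ∈ B.V :=
  B.V.sub_mem (B.V.sub_mem (B.V.smul_mem _ h.P_mem) (B.V.smul_mem _ h.u_mem)) (B.tL_mem hθ)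

lemma D_kL (h : BW B u g A P) {θ0 : X → ℝ} (hθ : IsT θ0) :
    B.D (kL u P hθ) = (2:ℝ) • B.D P - (2:ℝ) • B.D u - B.D (tL hθ) := by
  unfold kL
  rw [B.D_sub (B.V.sub_mem (B.V.smul_mem _ h.P_mem) (B.V.smul_mem _ h.u_mem)) (B.tL_mem hθ),
    B.D_sub (B.V.smul_mem _ h.P_mem) (B.V.smul_mem _ h.u_mem), B.D_smul _ h.P_mem,
    B.D_smul _ h.u_mem]

/-- `D k = 2 (A - I) Du - G θ0` -/
lemma D_kL_ae (h : BW B u g A P) {θ0 : X → ℝ} (hθ : IsT θ0) :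
    ∀ᵐ x ∂μ, B.D (kL u P hθ) x = (2:ℝ) • (mv (A x) (B.D u x) - B.D u x) - B.G θ0 x := by
  rw [h.D_kL hθ]
  filter_upwards [Lp.coeFn_sub ((2:ℝ) • B.D P - (2:ℝ) • B.D u) (B.D (tL hθ)),
    Lp.coeFn_sub ((2:ℝ) • B.D P) ((2:ℝ) • B.D u), Lp.coeFn_smul (2:ℝ) (B.D P),
    Lp.coeFn_smul (2:ℝ) (B.D u), h.DP, B.D_tL hθ] with x e1 e2 e3 e4 e5 e6
  rw [e1, Pi.sub_apply, e2, Pi.sub_apply, e3, e4, Pi.smul_apply, Pi.smul_apply, e5, e6]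
  module

/-- pointwise formula `k = 2ρ²q - 2ρ²⟨Gf0,Dq⟩ + ρ⁴|Dq|²` -/
lemma kL_ae (h : BW B u g A P) {f0 θ0 : X → ℝ} (hf0 : IsT f0) (hθ : IsT θ0) {q : Lp ℝ 2 μ}
    (hq : q ∈ B.V) {ρ : ℝ} (hu : u = tL hf0 - ρ ^ 2 • q)
    (hθe : ∀ᵐ x ∂μ, θ0 x = ‖B.G f0 x‖ ^ 2 - 2 * f0 x) :
    ∀ᵐ x ∂μ, kL u P hθ x = 2 * ρ ^ 2 * q x - 2 * ρ ^ 2 * ⟪B.G f0 x, B.D q x⟫ +
      ρ ^ 4 * ‖B.D q x‖ ^ 2 := by
  have hDu : B.D u = B.D (tL hf0) - ρ ^ 2 • B.D q := by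
    rw [hu, B.D_sub (B.tL_mem hf0) (B.V.smul_mem _ hq), B.D_smul _ hq]
  unfold kL
  filter_upwards [Lp.coeFn_sub ((2:ℝ) • P - (2:ℝ) • u) (tL hθ : Lp ℝ 2 μ),
    Lp.coeFn_sub ((2:ℝ) • P) ((2:ℝ) • u), Lp.coeFn_smul (2:ℝ) P,
    Lp.coeFn_smul (2:ℝ) u, h.P_eq, coe_tL (μ := μ) hθ, hθe, coe_tL (μ := μ) hf0,
    Lp.coeFn_sub (tL hf0 : Lp ℝ 2 μ) (ρ ^ 2 • q), Lp.coeFn_smul (ρ ^ 2) q,
    Lp.coeFn_sub (B.D (tL hf0)) (ρ ^ 2 • B.D q), Lp.coeFn_smul (ρ ^ 2) (B.D q), B.D_tL hf0]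
    with x e1 e2 e3 e4 e5 e6 e7 e8 e9 e10 e11 e12 e13
  have hux : u x = f0 x - ρ ^ 2 * q x := by
    rw [hu, e9, Pi.sub_apply, e8, e10, Pi.smul_apply, smul_eq_mul]
  have hDx : B.D u x = B.G f0 x - ρ ^ 2 • B.D q x := by
    rw [hDu, e11, Pi.sub_apply, e12, Pi.smul_apply, e13]
  rw [e1, Pi.sub_apply, e2, Pi.sub_apply, e3, e4, Pi.smul_apply, Pi.smul_apply, e5, e6, e7,
    smul_eq_mul, smul_eq_mul, hux, hDx, norm_sub_sq_real, real_inner_smul_right, norm_smul,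
    Real.norm_of_nonneg (sq_nonneg ρ)]
  ring

/-- **the exact `k`-equation** -/
theorem keq (h : BW B u g A P) {f0 N θ0 : X → ℝ} (hf0 : IsT f0) (hN : IsT N) (hθ : IsT θ0)
    {q : Lp ℝ 2 μ} (hq : q ∈ B.V) {ρ : ℝ} (hu : u = tL hf0 - ρ ^ 2 • q) (hg : g = tL hN - q)
    (hθe : ∀ᵐ x ∂μ, θ0 x = ‖B.G f0 x‖ ^ 2 - 2 * f0 x) {p : Lp ℝ 2 μ} (hp : p ∈ B.V)
    (hpb : ∃ C : ℝ, ∀ᵐ x ∂μ, |p x| ≤ C) :
    ρ ^ 2 * ⟪B.D (kL u P hθ), B.D p⟫ + ⟪kL u P hθ, p⟫ =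
      ρ ^ 2 * ∫ x, (4 * q x - Sp B u q A N ρ x) * p x ∂μ -
        ρ ^ 2 * ∫ x, ⟪B.G θ0 x, B.D p x⟫ ∂μ := by
  obtain ⟨C, hC⟩ := hpb
  have hb := h.boch p hp ⟨C, hC⟩
  have hw := h.weak p hp
  have hpm : AEStronglyMeasurable p μ := Lp.aestronglyMeasurable p
  have hDu : B.D u = B.D (tL hf0) - ρ ^ 2 • B.D q := by
    rw [hu, B.D_sub (B.tL_mem hf0) (B.V.smul_mem _ hq), B.D_smul _ hq]
  have hDg : B.D g = B.D (tL hN) - B.D q := by rw [hg, B.D_sub (B.tL_mem hN) hq]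
  -- integrability
  have iβ : Integrable (fun x => p x * (‖A x‖ ^ 2 + ⟪mv (B.Ric x) (B.D u x), B.D u x⟫)) μ :=
    BochS.int_bdd_mul h.int hpm hC
  have iDg : Integrable (fun x => p x * ⟪B.D g x, B.D u x⟫) μ :=
    BochS.int_bdd_mul (int_inner (Lp.memLp _) (Lp.memLp _)) hpm hC
  have iGN : Integrable (fun x => p x * ⟪B.G N x, B.D u x⟫) μ :=
    BochS.int_bdd_mul (int_inner (hN.memLpG B.toGradS) (Lp.memLp _)) hpm hC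
  have iDq2 : Integrable (fun x => p x * ‖B.D q x‖ ^ 2) μ :=
    BochS.int_bdd_mul (int_sq (Lp.memLp _)) hpm hC
  have iNp : Integrable (fun x => p x * N x) μ := int_mul (Lp.memLp p) hN.memLp
  -- expand the left side
  rw [h.D_kL hθ]
  have e1 : (⟪(2:ℝ) • B.D P - (2:ℝ) • B.D u - B.D (tL hθ), B.D p⟫ : ℝ) =
      2 * ⟪B.D P, B.D p⟫ - 2 * ⟪B.D u, B.D p⟫ - ⟪B.D (tL hθ), B.D p⟫ := by
    rw [inner_sub_left, inner_sub_left, real_inner_smul_left, real_inner_smul_left]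
  have e2 : (⟪kL u P hθ, p⟫ : ℝ) = 2 * ⟪P, p⟫ - 2 * ⟪u, p⟫ - ⟪(tL hθ : Lp ℝ 2 μ), p⟫ := by
    unfold kL
    rw [inner_sub_left, inner_sub_left, real_inner_smul_left, real_inner_smul_left]
  have e3 : (⟪B.D P, B.D p⟫ : ℝ) = ∫ x, ⟪B.D p x, mv (A x) (B.D u x)⟫ ∂μ := by
    rw [L2.inner_def]
    refine integral_congr_ae ?_
    filter_upwards [h.DP] with x hx
    rw [hx, real_inner_comm]
  have e4 : (⟪B.D (tL hθ), B.D p⟫ : ℝ) = ∫ x, ⟪B.G θ0 x, B.D p x⟫ ∂μ := by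
    rw [L2.inner_def]
    refine integral_congr_ae ?_
    filter_upwards [B.D_tL hθ] with x hx
    rw [hx]
  have e5 : (⟪g, p⟫ : ℝ) = ⟪(tL hN : Lp ℝ 2 μ), p⟫ - ⟪q, p⟫ := by rw [hg, inner_sub_left]
  have e6 : (⟪u, p⟫ : ℝ) = ⟪(tL hf0 : Lp ℝ 2 μ), p⟫ - ρ ^ 2 * ⟪q, p⟫ := by
    rw [hu, inner_sub_left, real_inner_smul_left]
  -- the combination `2ρ²⟨Dg,Du⟩` etc.
  have hsc : ∀ a b : Lp ℝ 2 μ, (⟪a, b⟫ : ℝ) = ∫ x, b x * a x ∂μ := fun a b => by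
    rw [L2.inner_def]
    refine integral_congr_ae (Eventually.of_forall fun x => ?_)
    simp
  have iP : Integrable (fun x => p x * P x) μ := int_mul (Lp.memLp p) (Lp.memLp P)
  have iθ : Integrable (fun x => p x * (tL hθ : Lp ℝ 2 μ) x) μ := int_mul (Lp.memLp p) (Lp.memLp _)
  have if0 : Integrable (fun x => p x * (tL hf0 : Lp ℝ 2 μ) x) μ :=
    int_mul (Lp.memLp p) (Lp.memLp _)
  have key : 2 * ρ ^ 2 * (- ∫ x, p x * ⟪B.D g x, B.D u x⟫ ∂μ) + 2 * ⟪P, p⟫ -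
      ⟪(tL hθ : Lp ℝ 2 μ), p⟫ - 2 * ⟪(tL hf0 : Lp ℝ 2 μ), p⟫ =
      - (ρ ^ 4 * ∫ x, p x * ‖B.D q x‖ ^ 2 ∂μ) -
        2 * ρ ^ 2 * ∫ x, p x * ⟪B.G N x, B.D u x⟫ ∂μ := by
    rw [hsc, hsc, hsc]
    have := lin6 (c1 := 2 * ρ ^ 2 * (-1)) (c2 := 2) (c3 := -1) (c4 := -2) (c5 := ρ ^ 4)
      (c6 := 2 * ρ ^ 2) iDg iP iθ if0 iDq2 iGN ?_
    · linarith
    filter_upwards [h.P_eq, coe_tL (μ := μ) hθ, hθe, coe_tL (μ := μ) hf0,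
      Lp.coeFn_sub (B.D (tL hf0)) (ρ ^ 2 • B.D q), Lp.coeFn_smul (ρ ^ 2) (B.D q), B.D_tL hf0,
      Lp.coeFn_sub (B.D (tL hN)) (B.D q), B.D_tL hN]
      with x a1 a2 a3 a4 a5 a6 a7 a8 a9
    have hDx : B.D u x = B.G f0 x - ρ ^ 2 • B.D q x := by
      rw [hDu, a5, Pi.sub_apply, a6, Pi.smul_apply, a7]
    have hDgx : B.D g x = B.G N x - B.D q x := by rw [hDg, a8, Pi.sub_apply, a9]
    rw [a1, a2, a3, a4, hDgx]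
    have b1 : ‖B.D u x‖ ^ 2 = ‖B.G f0 x‖ ^ 2 - 2 * (ρ ^ 2 * ⟪B.G f0 x, B.D q x⟫) +
        ρ ^ 4 * ‖B.D q x‖ ^ 2 := by
      rw [hDx, norm_sub_sq_real, real_inner_smul_right, norm_smul,
        Real.norm_of_nonneg (sq_nonneg ρ)]
      ring
    have b2 : (⟪B.D q x, B.D u x⟫ : ℝ) = ⟪B.G f0 x, B.D q x⟫ - ρ ^ 2 * ‖B.D q x‖ ^ 2 := by
      rw [hDx, inner_sub_right, real_inner_smul_right, real_inner_self_eq_norm_sq,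
        real_inner_comm]
    rw [inner_sub_left, b1, b2]
    ring
  have hR : ∫ x, (4 * q x - Sp B u q A N ρ x) * p x ∂μ =
      -2 * ∫ x, p x * (‖A x‖ ^ 2 + ⟪mv (B.Ric x) (B.D u x), B.D u x⟫) ∂μ +
      2 * ∫ x, p x * N x ∂μ - ρ ^ 2 * ∫ x, p x * ‖B.D q x‖ ^ 2 ∂μ -
      2 * ∫ x, p x * ⟪B.G N x, B.D u x⟫ ∂μ := by
    have i4 : Integrable (fun x => (4 * q x - Sp B u q A N ρ x) * p x) μ := by
      refine (BochS.int_bdd_mul (h.int_four hN (ρ := ρ) hg) hpm hC).congr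
        (Eventually.of_forall fun x => ?_)
      simp only
      ring
    have := lin6 (c1 := 1) (c2 := 2) (c3 := -2) (c4 := ρ ^ 2) (c5 := 2) (c6 := 0)
      i4 iβ iNp iDq2 iGN iGN ?_
    · linarith
    filter_upwards [h.four_q_sub hN (ρ := ρ) hg] with x e
    rw [e]
    ring
  have e7 : (⟪(tL hN : Lp ℝ 2 μ), p⟫ : ℝ) = ∫ x, p x * N x ∂μ := by
    rw [hsc]
    refine integral_congr_ae ?_
    filter_upwards [coe_tL (μ := μ) hN] with x e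
    rw [e]
  rw [e1, e2, e3, e4, hw, e5, e6, e7, hR]
  linear_combination 2 * ρ ^ 2 * hb + key

/-! ### lower bounds of `S'` -/

/-- inner region -/
lemma Sp_inner (_h : BW B u g A P) {f0 N : X → ℝ} (hf0 : IsT f0) {q : Lp ℝ 2 μ} (hq : q ∈ B.V)
    {ρ : ℝ} (hκ : 0 ≤ κ) (hu : u = tL hf0 - ρ ^ 2 • q) :
    ∀ᵐ x ∂μ, ∀ s : ℝ, 0 ≤ s → N x = n + 2 * κ * s → B.G N x = (2 * κ) • B.G f0 x →
      ‖B.G f0 x‖ ^ 2 = 2 * s →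
      2 * ‖A x - idm n‖ ^ 2 + (1 - 2 * κ * ρ ^ 2) * (ρ ^ 2 * ‖B.D q x‖ ^ 2) ≤
        Sp B u q A N ρ x := by
  have hDu : B.D u = B.D (tL hf0) - ρ ^ 2 • B.D q := by
    rw [hu, B.D_sub (B.tL_mem hf0) (B.V.smul_mem _ hq), B.D_smul _ hq]
  filter_upwards [B.Ric_lb, Lp.coeFn_sub (B.D (tL hf0)) (ρ ^ 2 • B.D q),
    Lp.coeFn_smul (ρ ^ 2) (B.D q), B.D_tL hf0] with x a1 a5 a6 a7 s hs hNx hGN hG
  have hDx : B.D u x = B.G f0 x - ρ ^ 2 • B.D q x := by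
    rw [hDu, a5, Pi.sub_apply, a6, Pi.smul_apply, a7]
  have b0 := a1 (B.D u x)
  have b1 : (⟪B.G f0 x, B.D u x⟫ : ℝ) = (‖B.G f0 x‖ ^ 2 + ‖B.D u x‖ ^ 2 -
      ρ ^ 4 * ‖B.D q x‖ ^ 2) / 2 := by
    have e : ρ ^ 2 • B.D q x = B.G f0 x - B.D u x := by rw [hDx]; abel
    have e2 : ‖ρ ^ 2 • B.D q x‖ ^ 2 = ρ ^ 4 * ‖B.D q x‖ ^ 2 := by
      rw [norm_smul, Real.norm_of_nonneg (sq_nonneg ρ)]; ring
    rw [← e2, e, norm_sub_sq_real]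
    ring
  unfold Sp
  rw [hGN, real_inner_smul_left, b1, hG, hNx]
  nlinarith [mul_nonneg hκ hs]

/-- real arithmetic of the outer region -/
lemma outer_arith {κ ρ Nx qx A2 R G a c du d ip : ℝ} (hκ : 0 ≤ κ) (hρ : 8 * κ * ρ ^ 2 ≤ 1)
    (hA : 0 ≤ A2) (hq : 0 ≤ qx) (hR : -(κ * du ^ 2) ≤ R) (_ha : 0 ≤ a) (hc : 0 ≤ c)
    (hdu0 : 0 ≤ du) (hdu : du ≤ a + ρ ^ 2 * d) (hip : |ip| ≤ c * du)
    (hG : 4 * qx - G = -2 * (A2 + R) + 2 * Nx - ρ ^ 2 * d ^ 2 - 2 * ip) :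
    -(2 * |Nx| + 4 * κ * a ^ 2 + 2 * c * a + 2 * ρ ^ 2 * c ^ 2) ≤ G := by
  have h1 := (abs_le.1 hip).1
  have h2 := le_abs_self Nx
  have h3 : c * du ≤ c * a + c * (ρ ^ 2 * d) := by nlinarith
  have h4 : 2 * (c * (ρ ^ 2 * d)) ≤ 2 * ρ ^ 2 * c ^ 2 + ρ ^ 2 * d ^ 2 / 2 := by
    have e : 2 * ρ ^ 2 * c ^ 2 + ρ ^ 2 * d ^ 2 / 2 - 2 * (c * (ρ ^ 2 * d)) =
        ρ ^ 2 * (2 * c - d) ^ 2 / 2 := by ring
    have : 0 ≤ ρ ^ 2 * (2 * c - d) ^ 2 / 2 := by positivity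
    linarith
  have h5 : du ^ 2 ≤ 2 * a ^ 2 + 2 * (ρ ^ 2 * d) ^ 2 := by
    nlinarith [sq_nonneg (a - ρ ^ 2 * d)]
  have h6 : 2 * κ * du ^ 2 ≤ 4 * κ * a ^ 2 + 4 * κ * (ρ ^ 2 * d) ^ 2 := by
    nlinarith [mul_le_mul_of_nonneg_left h5 hκ]
  have h7 : 4 * κ * (ρ ^ 2 * d) ^ 2 ≤ ρ ^ 2 * d ^ 2 / 2 := by
    have e : 4 * κ * (ρ ^ 2 * d) ^ 2 = (8 * κ * ρ ^ 2) * (ρ ^ 2 * d ^ 2 / 2) := by ring
    rw [e]
    have : 0 ≤ ρ ^ 2 * d ^ 2 / 2 := by positivity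
    nlinarith
  linarith

/-- outer region -/
lemma Sp_outer (h : BW B u g A P) {f0 N : X → ℝ} (hf0 : IsT f0) (hN : IsT N) {q : Lp ℝ 2 μ}
    (hq : q ∈ B.V) (hq0 : ∀ᵐ x ∂μ, 0 ≤ q x)
    {ρ : ℝ} (hκ : 0 ≤ κ) (hρ : 8 * κ * ρ ^ 2 ≤ 1) (hu : u = tL hf0 - ρ ^ 2 • q)
    (hg : g = tL hN - q) :
    ∀ᵐ x ∂μ, -(2 * |N x| + 4 * κ * ‖B.G f0 x‖ ^ 2 + 2 * ‖B.G N x‖ * ‖B.G f0 x‖ +
      2 * ρ ^ 2 * ‖B.G N x‖ ^ 2) ≤ Sp B u q A N ρ x := by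
  have hDu : B.D u = B.D (tL hf0) - ρ ^ 2 • B.D q := by
    rw [hu, B.D_sub (B.tL_mem hf0) (B.V.smul_mem _ hq), B.D_smul _ hq]
  filter_upwards [B.Ric_lb, Lp.coeFn_sub (B.D (tL hf0)) (ρ ^ 2 • B.D q),
    Lp.coeFn_smul (ρ ^ 2) (B.D q), B.D_tL hf0, h.four_q_sub hN (ρ := ρ) hg, hq0]
    with x a1 a5 a6 a7 a8 a9
  have hDx : B.D u x = B.G f0 x - ρ ^ 2 • B.D q x := by
    rw [hDu, a5, Pi.sub_apply, a6, Pi.smul_apply, a7]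
  have hn : ‖B.D u x‖ ≤ ‖B.G f0 x‖ + ρ ^ 2 * ‖B.D q x‖ := by
    rw [hDx]
    refine (norm_sub_le _ _).trans ?_
    rw [norm_smul, Real.norm_of_nonneg (sq_nonneg ρ)]
  exact outer_arith hκ hρ (sq_nonneg ‖A x‖) a9 (a1 (B.D u x)) (norm_nonneg _) (norm_nonneg _)
    (norm_nonneg _) hn (abs_real_inner_le_norm _ _) a8

/-! ### the integrated Hessian inequality -/

/-- **(HF)**: for `φ = R_ρ Ψ`, `Ψ ≥ 0` bounded integrable and supported where `θ0 = c`. -/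
theorem hf_ineq [ProperSpace X] (h : BW B u g A P) {f0 N θ0 : X → ℝ} (hf0 : IsT f0) (hN : IsT N)
    (hθ : IsT θ0) {q : Lp ℝ 2 μ} (hq : q ∈ B.V) {ρ : ℝ} (hρ : 0 < ρ)
    (hu : u = tL hf0 - ρ ^ 2 • q) (hg : g = tL hN - q)
    (hθe : ∀ᵐ x ∂μ, θ0 x = ‖B.G f0 x‖ ^ 2 - 2 * f0 x) {c : ℝ} (hc : 0 ≤ c)
    (hθc : ∀ x, θ0 x ≤ c) {Ψ : Lp ℝ 2 μ} (hΨ0 : 0 ≤ᵐ[μ] (Ψ : X → ℝ)) {CΨ : ℝ} (hC0 : 0 ≤ CΨ)
    (hΨC : ∀ᵐ x ∂μ, Ψ x ≤ CΨ) (hΨi : Integrable Ψ μ)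
    (hΨθ : ∀ᵐ x ∂μ, Ψ x = 0 ∨ θ0 x = c) :
    ∫ x, (Sp B u q A N ρ x - 4 * q x) *
        ((B.form B.dense_V).res (ρ ^ 2) Ψ : Lp ℝ 2 μ) x ∂μ +
      ρ ^ 2 * ∫ x, Ψ x * ‖B.D q x‖ ^ 2 ∂μ + 2 * ∫ x, Ψ x * q x ∂μ -
      2 * ∫ x, Ψ x * ⟪B.G f0 x, B.D q x⟫ ∂μ ≤ 0 := by
  have hlf : IsLocallyFiniteMeasure μ := isLocallyFiniteMeasure_of_isFiniteMeasureOnCompacts
  have hρ2 : (0:ℝ) < ρ ^ 2 := by positivity
  set Q := B.form B.dense_V with hQ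
  have hM : Markov Q := B.markov B.dense_V
  set φ : Lp ℝ 2 μ := Q.res (ρ ^ 2) Ψ with hφ
  have hφV : φ ∈ B.V := Q.res_mem hρ2 Ψ
  have hφ0 : 0 ≤ᵐ[μ] (φ : X → ℝ) := hM.res_nonneg hρ2 hΨ0
  have hφC : ∀ᵐ x ∂μ, φ x ≤ CΨ := hM.res_le hρ2 hC0 hΨC
  have hφi : Integrable φ μ := (hM.symMarkov_res hρ2).integrable hΨ0 hΨi
  have hφle : ∫ x, φ x ∂μ ≤ ∫ x, Ψ x ∂μ := (hM.symMarkov_res hρ2).integral_le hΨ0 hΨi
  have hφb : ∃ C : ℝ, ∀ᵐ x ∂μ, |φ x| ≤ C := ⟨CΨ, by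
    filter_upwards [hφ0, hφC] with x a1 a2
    rw [abs_of_nonneg (by simpa using a1)]; exact a2⟩
  have hk := h.keq hf0 hN hθ hq hu hg hθe hφV hφb
  have hkV := h.kL_mem hθ
  set k := kL u P hθ with hkdef
  have r1 := Q.res_eq hρ2 Ψ hkV
  have r2 := Q.res_eq hρ2 Ψ (B.tL_mem hθ)
  have E1 : Q.E φ k = ⟪B.D k, B.D φ⟫ := by rw [hQ, form_E_inner, real_inner_comm]
  have E2 : Q.E φ (tL hθ) = ∫ x, ⟪B.G θ0 x, B.D φ x⟫ ∂μ := by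
    rw [hQ, form_E]
    refine integral_congr_ae ?_
    filter_upwards [B.D_tL hθ] with x hx
    rw [hx, real_inner_comm]
  rw [← hφ, E1] at r1
  rw [← hφ, E2] at r2
  rw [real_inner_comm] at hk
  have r3 : (⟪φ, k⟫ : ℝ) = ⟪k, φ⟫ := real_inner_comm _ _
  have hsc : ∀ a b : Lp ℝ 2 μ, (⟪a, b⟫ : ℝ) = ∫ x, a x * b x ∂μ := fun a b => by
    rw [L2.inner_def]
    refine integral_congr_ae (Eventually.of_forall fun x => ?_)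
    simp [mul_comm]
  -- `∫ φ θ0 ≤ c ∫ φ ≤ c ∫ Ψ = ∫ Ψ θ0`
  have iφθ : Integrable (fun x => φ x * (tL hθ : Lp ℝ 2 μ) x) μ := int_mul (Lp.memLp _) (Lp.memLp _)
  have s1 : (⟪φ, (tL hθ : Lp ℝ 2 μ)⟫ : ℝ) ≤ c * ∫ x, φ x ∂μ := by
    rw [hsc, ← integral_const_mul]
    refine integral_mono_ae iφθ (hφi.const_mul c) ?_
    filter_upwards [hφ0, coe_tL (μ := μ) hθ] with x a1 a2
    rw [a2]
    have : (0:ℝ) ≤ φ x := a1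
    nlinarith [hθc x]
  have s2 : (⟪Ψ, (tL hθ : Lp ℝ 2 μ)⟫ : ℝ) = c * ∫ x, Ψ x ∂μ := by
    rw [hsc, ← integral_const_mul]
    refine integral_congr_ae ?_
    filter_upwards [hΨθ, coe_tL (μ := μ) hθ] with x a1 a2
    rw [a2]
    rcases a1 with a1 | a1
    · rw [a1]; ring
    · rw [a1]; ring
  have s3 := mul_le_mul_of_nonneg_left hφle hc
  -- conclusion in terms of `⟪Ψ, k⟫`
  have main : (⟪Ψ, k⟫ : ℝ) ≤ ρ ^ 2 * ∫ x, (4 * q x - Sp B u q A N ρ x) * φ x ∂μ := by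
    rw [real_inner_comm] at hk
    linarith
  -- expand `⟪Ψ, k⟫`
  have iq2 : Integrable (fun x => Ψ x * ‖B.D q x‖ ^ 2) μ :=
    BochS.int_bdd_mul (int_sq (Lp.memLp _)) (Lp.aestronglyMeasurable Ψ) (C := CΨ) (by
      filter_upwards [hΨ0, hΨC] with x a1 a2
      rw [abs_of_nonneg (by simpa using a1)]; exact a2)
  have iGq : Integrable (fun x => Ψ x * ⟪B.G f0 x, B.D q x⟫) μ :=
    BochS.int_bdd_mul (int_inner (hf0.memLpG B.toGradS) (Lp.memLp _)) (Lp.aestronglyMeasurable Ψ)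
      (C := CΨ) (by
      filter_upwards [hΨ0, hΨC] with x a1 a2
      rw [abs_of_nonneg (by simpa using a1)]; exact a2)
  have iq : Integrable (fun x => Ψ x * q x) μ := int_mul (Lp.memLp _) (Lp.memLp _)
  have iψk : Integrable (fun x => Ψ x * k x) μ := int_mul (Lp.memLp _) (Lp.memLp _)
  have e1 := lin6 (c1 := 1) (c2 := -(2 * ρ ^ 2)) (c3 := 2 * ρ ^ 2) (c4 := -(ρ ^ 4)) (c5 := 0)
      (c6 := 0) iψk iq iGq iq2 iq2 iq2 (by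
    filter_upwards [h.kL_ae hf0 hθ hq hu hθe] with x a1
    rw [← hkdef] at a1
    rw [a1]
    ring)
  have e2 : ∫ x, (Sp B u q A N ρ x - 4 * q x) * φ x ∂μ =
      - ∫ x, (4 * q x - Sp B u q A N ρ x) * φ x ∂μ := by
    rw [← integral_neg]
    refine integral_congr_ae (Eventually.of_forall fun x => ?_)
    simp only
    ring
  rw [e2]
  rw [hsc] at main
  have e3 : ρ ^ 2 * (- ∫ x, (4 * q x - Sp B u q A N ρ x) * φ x ∂μ +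
      ρ ^ 2 * ∫ x, Ψ x * ‖B.D q x‖ ^ 2 ∂μ + 2 * ∫ x, Ψ x * q x ∂μ -
      2 * ∫ x, Ψ x * ⟪B.G f0 x, B.D q x⟫ ∂μ) ≤ ρ ^ 2 * 0 := by
    nlinarith
  exact le_of_mul_le_mul_left e3 hρ2

end BW

end Crest.Agent.R247.Hes124
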