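import Crest.Agent.R247.Hes5_124
import Crest.Agent.R247.Obj3_554
import Crest.Agent.R247.Gb4_593

/-!
R247, block (5-H) (helper124), part 6: instantiation of the Hessian algebra for helper554's
objects `f0`, `N`, `q`, `u`: the function `θ0 = |G f0|² - 2 f0`, the pointwise bound
`(|A - I| + ρ|Dq|)² ≤ 5 (S' + CE 1_{d_x > 32})`.
-/

set_option autoImplicit false
set_option linter.unusedSectionVars false

open MeasureTheory Filter Topology Set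
open scoped RealInnerProductSpace ENNReal NNReal ContDiff

noncomputable section

namespace Crest.Agent.R247.Hes124

open Crest.Agent.R242 Crest.Agent.R247.Dir593 Crest.Agent.R247.Dir593.GradS
open Crest.Agent.R247.Smv126 Crest.Agent.R247.Obj554

/-! ### scalar part -/

section Scalar

lemma antitone_eta : Antitone eta := by
  intro s t hst
  unfold eta
  refine Real.smoothTransition.monotone ?_
  have : (0:ℝ) < S1 - S0 := by norm_num [S1, S0]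
  exact div_le_div_of_nonneg_right (by linarith) this.le

/-- `s η(s) ≤ Φ(s)` for `s ≥ 0` -/
lemma mul_eta_le_Phi {s : ℝ} (h : 0 ≤ s) : s * eta s ≤ Phi s := by
  have h1 : ∫ _ in (0:ℝ)..s, eta s ≤ ∫ t in (0:ℝ)..s, eta t := by
    refine intervalIntegral.integral_mono_on h (by simp) (continuous_eta.intervalIntegrable _ _) ?_
    intro t ht
    exact antitone_eta ht.2
  rw [intervalIntegral.integral_const, sub_zero, smul_eq_mul] at h1
  exact h1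

/-- `θ0` as a function of `s` -/
def thf (s : ℝ) : ℝ := 2 * s * eta s ^ 2 - 2 * (Phi s - cinf)

lemma contDiff_thf : ContDiff ℝ 1 thf := by
  unfold thf
  have h1 : ContDiff ℝ 1 eta := contDiff_eta (m := 1)
  have h2 : ContDiff ℝ 1 Phi := contDiff_Phi (m := 0)
  fun_prop

lemma thf_eq {s : ℝ} (h : s ≤ S0) : thf s = 2 * cinf := by
  unfold thf
  rw [eta_one h, Phi_eq h]; ring

lemma thf_zero {s : ℝ} (h : S1 ≤ s) : thf s = 0 := by
  unfold thf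
  rw [eta_zero h, Phi_const h]
  unfold cinf
  ring

lemma thf_le {s : ℝ} (h : 0 ≤ s) : thf s ≤ 2 * cinf := by
  unfold thf
  have h1 := mul_eta_le_Phi h
  have h2 : s * eta s ^ 2 ≤ s * eta s := by
    have := eta_nonneg s
    have h3 := eta_le_one s
    have h4 : eta s ^ 2 ≤ eta s := by nlinarith
    exact mul_le_mul_of_nonneg_left h4 h
  nlinarith

lemma deriv_eq_of_left {f g : ℝ → ℝ} (hf : ContDiff ℝ 1 f) (hg : ContDiff ℝ 1 g) {a : ℝ}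
    (h : ∀ s, s ≤ a → f s = g s) {s : ℝ} (hs : s ≤ a) : deriv f s = deriv g s := by
  have h1 : IsClosed {t | deriv f t = deriv g t} :=
    isClosed_eq (hf.continuous_deriv le_rfl) (hg.continuous_deriv le_rfl)
  have h2 : Iio a ⊆ {t | deriv f t = deriv g t} := fun t ht => by
    have h3 : f =ᶠ[𝓝 t] g := by
      filter_upwards [Iio_mem_nhds ht] with r hr
      exact h r (le_of_lt hr)
    exact h3.deriv_eq
  have h3 := h1.closure_subset_iff.2 h2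
  rw [closure_Iio] at h3
  exact h3 hs

lemma deriv_eq_of_right {f g : ℝ → ℝ} (hf : ContDiff ℝ 1 f) (hg : ContDiff ℝ 1 g) {a : ℝ}
    (h : ∀ s, a ≤ s → f s = g s) {s : ℝ} (hs : a ≤ s) : deriv f s = deriv g s := by
  have h1 : IsClosed {t | deriv f t = deriv g t} :=
    isClosed_eq (hf.continuous_deriv le_rfl) (hg.continuous_deriv le_rfl)
  have h2 : Ioi a ⊆ {t | deriv f t = deriv g t} := fun t ht => by
    have h3 : f =ᶠ[𝓝 t] g := by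
      filter_upwards [Ioi_mem_nhds ht] with r hr
      exact h r (le_of_lt hr)
    exact h3.deriv_eq
  have h3 := h1.closure_subset_iff.2 h2
  rw [closure_Ioi] at h3
  exact h3 hs

lemma deriv_thf_zero {s : ℝ} (h : s ≤ S0) : deriv thf s = 0 := by
  rw [deriv_eq_of_left contDiff_thf (contDiff_const (c := 2 * cinf)) (fun t ht => thf_eq ht) h]
  simp

lemma deriv_Nfun_left (n : ℕ) (κ : ℝ) {s : ℝ} (h : s ≤ S0) : deriv (Nfun n κ) s = 2 * κ := by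
  have hg : ContDiff ℝ 1 (fun s : ℝ => (n : ℝ) + 2 * κ * s) := by fun_prop
  rw [deriv_eq_of_left (contDiff_Nfun n κ (m := 1)) hg (fun t ht => Nfun_eq n κ ht) h]
  have : HasDerivAt (fun s : ℝ => (n : ℝ) + 2 * κ * s) (2 * κ * 1) s :=
    ((hasDerivAt_id s).const_mul (2 * κ)).const_add _
  rw [this.deriv]; ring

lemma deriv_Nfun_right (n : ℕ) (κ : ℝ) {s : ℝ} (h : S1 ≤ s) : deriv (Nfun n κ) s = 0 := by
  rw [deriv_eq_of_right (contDiff_Nfun n κ (m := 1)) (contDiff_const (c := (0:ℝ)))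
    (fun t ht => Nfun_zero n κ ht) h]
  simp

end Scalar

/-! ### radial functions -/

section Radial

variable {X : Type*} [MetricSpace X] [ProperSpace X] [MeasurableSpace X] [BorelSpace X]
  {F' : Type*} [NormedAddCommGroup F'] [InnerProductSpace ℝ F'] {μ : Measure X}
  [IsFiniteMeasureOnCompacts μ] {S : GradS X F' μ} {n : ℕ} {κ : ℝ}

/-- `θ0 = |G f0|² - 2 f0` -/
def th (x z : X) : ℝ := thf (hf x z)

lemma isT_th (x : X) : IsT (th x) := isT_radial' x contDiff_thf fun _ hs => thf_zero hs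

lemma th_le (x z : X) : th x z ≤ 2 * cinf := thf_le (hf_nonneg x z)

lemma th_eq_ball {x z : X} (h : dist x z ≤ 32) : th x z = 2 * cinf := thf_eq (hf_le_S0 h)

lemma et_nn (x z : X) : 0 ≤ et x z := eta_nonneg _

/-- `θ0 = |G f0|² - 2 f0` a.e. -/
lemma th_eq (W : WLap S n κ) (x : X) : ∀ᵐ z ∂μ, th x z = ‖S.G (f0 x) z‖ ^ 2 - 2 * f0 x z := by
  filter_upwards [G_f0 S x, W.normSq_G_hf x] with z e1 e2
  rw [e1, norm_smul, mul_pow, e2, Real.norm_of_nonneg (et_nn x z)]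
  unfold th thf f0 et hf
  ring

/-- `G θ0 = 0` on the ball of radius `32` -/
lemma G_th (x : X) : ∀ᵐ z ∂μ, dist x z ≤ 32 → S.G (th x) z = 0 := by
  filter_upwards [S.comp (locLip_hf x) contDiff_thf] with z hz hd
  have e : S.G (th x) z = deriv thf (hf x z) • S.G (hf x) z := hz
  rw [e, deriv_thf_zero (hf_le_S0 hd), zero_smul]

/-- `G N = 2κ G f0` on the ball of radius `32` -/
lemma G_Nf_ball (x : X) : ∀ᵐ z ∂μ, dist x z ≤ 32 →
    S.G (Nf n κ x) z = (2 * κ) • S.G (f0 x) z ∧ S.G (f0 x) z = S.G (hf x) z := by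
  filter_upwards [G_Nf S n κ x, G_f0 S x] with z e1 e2 hd
  have e3 : et x z = 1 := eta_one (hf_le_S0 hd)
  rw [e3, one_smul] at e2
  rw [deriv_Nfun_left n κ (hf_le_S0 hd)] at e1
  exact ⟨by rw [e1, e2], e2⟩

end Radial

/-! ### the pointwise bound -/

lemma outer_arith2 {κ ρ Nx R G a c du d ip H nn : ℝ} (hκ : 0 ≤ κ) (hρ : 8 * κ * ρ ^ 2 ≤ 1)
    (hR : -(κ * du ^ 2) ≤ R) (hc : 0 ≤ c) (hdu0 : 0 ≤ du) (hdu : du ≤ a + ρ ^ 2 * d)
    (hip : |ip| ≤ c * du)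
    (hG : G = 2 * H ^ 2 + 2 * R + ρ ^ 2 * d ^ 2 + 2 * ip + 2 * (Nx - nn)) :
    2 * H ^ 2 + (ρ * d) ^ 2 / 4 ≤
      G + (4 * κ * a ^ 2 + 2 * c * a + 4 * ρ ^ 2 * c ^ 2 + 2 * |Nx| + 2 * nn) := by
  have h1 := (abs_le.1 hip).1
  have h2 := neg_abs_le Nx
  have h3 : c * du ≤ c * a + c * (ρ ^ 2 * d) := by nlinarith
  have h4 : 2 * (c * (ρ ^ 2 * d)) ≤ 4 * ρ ^ 2 * c ^ 2 + ρ ^ 2 * d ^ 2 / 4 := by
    have e : 4 * ρ ^ 2 * c ^ 2 + ρ ^ 2 * d ^ 2 / 4 - 2 * (c * (ρ ^ 2 * d)) =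
        ρ ^ 2 * (2 * c - d / 2) ^ 2 := by ring
    have : 0 ≤ ρ ^ 2 * (2 * c - d / 2) ^ 2 := by positivity
    linarith
  have h5 : du ^ 2 ≤ 2 * a ^ 2 + 2 * (ρ ^ 2 * d) ^ 2 := by
    nlinarith [sq_nonneg (a - ρ ^ 2 * d)]
  have h6 : 2 * κ * du ^ 2 ≤ 4 * κ * a ^ 2 + 4 * κ * (ρ ^ 2 * d) ^ 2 := by
    nlinarith [mul_le_mul_of_nonneg_left h5 hκ]
  have h7 : 4 * κ * (ρ ^ 2 * d) ^ 2 ≤ ρ ^ 2 * d ^ 2 / 2 := by
    have e : 4 * κ * (ρ ^ 2 * d) ^ 2 = (8 * κ * ρ ^ 2) * (ρ ^ 2 * d ^ 2 / 2) := by ring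
    rw [e]
    have : 0 ≤ ρ ^ 2 * d ^ 2 / 2 := by positivity
    nlinarith
  have e8 : (ρ * d) ^ 2 / 4 = ρ ^ 2 * d ^ 2 / 4 := by ring
  rw [hG, e8]
  linarith

/-- the constant of the outer region -/
def CE (n : ℕ) : ℝ := 4 * 64 ^ 2 + 2 * (64 * CN' n 1) * 64 + 4 * (64 * CN' n 1) ^ 2 + 2 * CN n 1 + 2 * n

lemma CE_nonneg (n : ℕ) : 0 ≤ CE n := by
  unfold CE
  have h1 := CN'_nonneg n zero_le_one
  have h2 := CN_nonneg n zero_le_one
  positivity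

section Point

variable {n : ℕ} {κ : ℝ} {X : Type*} [MetricSpace X] [ProperSpace X] [MeasurableSpace X]
  [BorelSpace X] {μ : Measure X} [IsFiniteMeasureOnCompacts μ]
  {B : BochS n κ X μ} {x : X} {ρ : ℝ} {A : X → S n} {P : Lp ℝ 2 μ}

/-- `S'` for helper554's objects -/
abbrev Spx (B : BochS n κ X μ) (x : X) (ρ : ℝ) (A : X → S n) : X → ℝ :=
  Sp B (uL B.toGradS n κ x ρ) (qL B.toGradS n κ x ρ) A (Nf n κ x) ρ

/-- `F = |A - I| + ρ |Dq|` -/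
def Fx (B : BochS n κ X μ) (x : X) (ρ : ℝ) (A : X → S n) (z : X) : ℝ :=
  ‖A z - idm n‖ + ρ * ‖B.D (qL B.toGradS n κ x ρ) z‖

/-- **`F² ≤ 5 (S' + CE 1_{d_x > 32})`** -/
theorem Fx_sq_le (h : BW B (uL B.toGradS n κ x ρ) (gL B.toGradS n κ x ρ) A P) (W : WLap B.toGradS n κ)
    (hκ : 0 ≤ κ) (hκ1 : κ ≤ 1) (hρ : 0 < ρ) (hρ1 : ρ ≤ 1) (hκρ : 8 * κ * ρ ^ 2 ≤ 1) :
    ∀ᵐ z ∂μ, Fx B x ρ A z ^ 2 ≤
      5 * (Spx B x ρ A z + {z | 32 < dist x z}.indicator (fun _ => CE n) z) := by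
  have hq := qL_mem (S := B.toGradS) (n := n) (κ := κ) hρ x
  have hu : uL B.toGradS n κ x ρ = tL (isT_f0 x) - ρ ^ 2 • qL B.toGradS n κ x ρ := rfl
  have hDu := D_uL (S := B.toGradS) (n := n) (κ := κ) hρ x
  filter_upwards [h.Sp_inner (N := Nf n κ x) (isT_f0 x) hq hκ hu, G_Nf_ball (S := B.toGradS) (n := n) (κ := κ) x,
    W.normSq_G_hf x, norm_G_f0_le W x, norm_G_Nf_le hκ W x, B.Ric_lb,
    Lp.coeFn_sub (B.D (tL (isT_f0 x))) (ρ ^ 2 • B.D (qL B.toGradS n κ x ρ)),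
    Lp.coeFn_smul (ρ ^ 2) (B.D (qL B.toGradS n κ x ρ)), B.D_tL (isT_f0 x)]
    with z h1 h2 h3 h4 h5' a1 a5 a6 a7
  have h5 : ‖B.G (Nf n κ x) z‖ ≤ 64 * CN' n 1 :=
    h5'.trans (mul_le_mul_of_nonneg_left (CN'_mono n hκ1) (by norm_num))
  by_cases hd : dist x z ≤ 32
  · obtain ⟨h6, h7⟩ := h2 hd
    have h8 := h1 (hf x z) (hf_nonneg x z) (by rw [Nf_eq n κ hd]; unfold hf; ring) h6
      (by rw [h7, h3]; unfold hf; ring)
    rw [indicator_of_notMem (by simpa using hd), add_zero]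
    unfold Fx Spx
    set H := ‖A z - idm n‖
    set d := ‖B.D (qL B.toGradS n κ x ρ) z‖
    have h9 : (0:ℝ) ≤ ρ ^ 2 * d ^ 2 := by positivity
    have h10 : 3 / 4 * (ρ ^ 2 * d ^ 2) ≤ (1 - 2 * κ * ρ ^ 2) * (ρ ^ 2 * d ^ 2) :=
      mul_le_mul_of_nonneg_right (by linarith) h9
    have h11 : (H + ρ * d) ^ 2 ≤ 2 * H ^ 2 + 2 * (ρ ^ 2 * d ^ 2) := by
      nlinarith [sq_nonneg (H - ρ * d)]
    nlinarith [sq_nonneg H]
  · rw [indicator_of_mem (by simpa using hd)]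
    have hDx : B.D (uL B.toGradS n κ x ρ) z = B.G (f0 x) z -
        ρ ^ 2 • B.D (qL B.toGradS n κ x ρ) z := by
      have : B.D (uL B.toGradS n κ x ρ) = _ := hDu
      rw [this, a5, Pi.sub_apply, a6, Pi.smul_apply, a7]
    have hn : ‖B.D (uL B.toGradS n κ x ρ) z‖ ≤ ‖B.G (f0 x) z‖ +
        ρ ^ 2 * ‖B.D (qL B.toGradS n κ x ρ) z‖ := by
      rw [hDx]
      refine (norm_sub_le _ _).trans ?_
      rw [norm_smul, Real.norm_of_nonneg (sq_nonneg ρ)]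
    have h6 := outer_arith2 (κ := κ) (ρ := ρ) (Nx := Nf n κ x z)
      (R := ⟪mv (B.Ric z) (B.D (uL B.toGradS n κ x ρ) z), B.D (uL B.toGradS n κ x ρ) z⟫)
      (G := Spx B x ρ A z) (a := ‖B.G (f0 x) z‖) (c := ‖B.G (Nf n κ x) z‖)
      (du := ‖B.D (uL B.toGradS n κ x ρ) z‖) (d := ‖B.D (qL B.toGradS n κ x ρ) z‖)
      (ip := ⟪B.G (Nf n κ x) z, B.D (uL B.toGradS n κ x ρ) z⟫) (H := ‖A z - idm n‖) (nn := n)
      hκ hκρ (a1 _) (norm_nonneg _) (norm_nonneg _) hn (abs_real_inner_le_norm _ _) rfl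
    have hN := abs_Nf_le n hκ x z
    have hN1 := CN_mono n hκ1
    have e1 : 4 * κ * ‖B.G (f0 x) z‖ ^ 2 ≤ 4 * 64 ^ 2 := by
      have : ‖B.G (f0 x) z‖ ^ 2 ≤ 64 ^ 2 := pow_le_pow_left₀ (norm_nonneg _) h4 2
      nlinarith [sq_nonneg ‖B.G (f0 x) z‖]
    have e2 : 2 * ‖B.G (Nf n κ x) z‖ * ‖B.G (f0 x) z‖ ≤ 2 * (64 * CN' n 1) * 64 :=
      mul_le_mul (by linarith) h4 (norm_nonneg _) (by have := CN'_nonneg n zero_le_one; positivity)
    have e3 : 4 * ρ ^ 2 * ‖B.G (Nf n κ x) z‖ ^ 2 ≤ 4 * (64 * CN' n 1) ^ 2 := by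
      have : ‖B.G (Nf n κ x) z‖ ^ 2 ≤ (64 * CN' n 1) ^ 2 := pow_le_pow_left₀ (norm_nonneg _) h5 2
      have h8 : ρ ^ 2 ≤ 1 := pow_le_one₀ hρ.le hρ1
      nlinarith [sq_nonneg ‖B.G (Nf n κ x) z‖, sq_nonneg ρ]
    have e4 : 4 * κ * ‖B.G (f0 x) z‖ ^ 2 + 2 * ‖B.G (Nf n κ x) z‖ * ‖B.G (f0 x) z‖ +
        4 * ρ ^ 2 * ‖B.G (Nf n κ x) z‖ ^ 2 + 2 * |Nf n κ x z| + 2 * n ≤ CE n := by
      unfold CE
      linarith
    have e5 : 2 * ‖A z - idm n‖ ^ 2 + (ρ * ‖B.D (qL B.toGradS n κ x ρ) z‖) ^ 2 / 4 ≤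
        Spx B x ρ A z + CE n := h6.trans (by linarith)
    have e6 : Fx B x ρ A z ^ 2 ≤ 5 * (2 * ‖A z - idm n‖ ^ 2 +
        (ρ * ‖B.D (qL B.toGradS n κ x ρ) z‖) ^ 2 / 4) := by
      unfold Fx
      nlinarith [sq_nonneg (8 * ‖A z - idm n‖ - ρ * ‖B.D (qL B.toGradS n κ x ρ) z‖),
        sq_nonneg ‖A z - idm n‖, sq_nonneg (ρ * ‖B.D (qL B.toGradS n κ x ρ) z‖)]
    exact e6.trans (mul_le_mul_of_nonneg_left e5 (by norm_num))

end Point

/-! ### glue with helper593's `Reg` and helper656's `HObj` -/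

section Glue

variable {n : ℕ} {κ : ℝ} {X : Type*} [MetricSpace X] [MeasurableSpace X]
  [BorelSpace X] {μ : Measure X} [IsFiniteMeasureOnCompacts μ]
  {B : BochS n κ X μ}

/-- helper593's package gives `BW` -/
theorem BW.of_reg {u f : Lp ℝ 2 μ} {R : ℝ} {A : X → S n} (h : Gb593.Reg B u f R A) :
    BW B u f A (h.P2.toLp (Gb593.P B u)) where
  u_mem := h.uV
  g_mem := h.fV
  weak := fun p hp => by
    have e := h.wk p hp
    rw [L2.inner_def, L2.inner_def, e]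
    congr 1
    refine integral_congr_ae (Eventually.of_forall fun x => ?_)
    simp [mul_comm]
  trA := h.tr
  A_memLp := h.A2
  P_mem := h.PV
  P_eq := MemLp.coeFn_toLp h.P2
  DP := h.DPV
  bdd := ⟨R, h.Du⟩
  int := h.bi
  boch := fun p hp hpb => by
    obtain ⟨C, hC⟩ := hpb
    exact (h.boch p C hp hC).2.2.2

variable [ProperSpace X] {x : X}

/-- the function `P_k = |D u_k|²/2 ∈ V` -/
theorem exists_bw (hκ : 0 ≤ κ) (W : WLap B.toGradS n κ) (O : Fd656.HObj B x) (k : ℕ)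
    (hk : 2 * κ * Far553.dy k ^ 2 < 1) :
    ∃ P : Lp ℝ 2 μ, BW B (Fd656.uk B x k) (gL B.toGradS n κ x (Far553.dy k)) (O.A k) P := by
  have hρ := Far553.dy_pos k
  have h0 : 0 < 1 - 2 * κ * Far553.dy k ^ 2 := by linarith
  have hE := eqn hκ W O k
  have hA : MemLp (O.A k) 2 μ := Gb593.memLp_A (O.hd k) hκ (Lp.memLp _) hE.tr
  have hR : ∀ᵐ z ∂μ, ‖B.D (Fd656.uk B x k) z‖ ≤
      √(CA n κ ^ 2 / (1 - 2 * κ * Far553.dy k ^ 2)) := by
    filter_upwards [normSq_Duk_le hκ W O k hk] with z hz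
    exact Real.le_sqrt_of_sq_le hz
  have hb := Gb593.int_bm (O.hd k) hκ hE hA
  obtain ⟨p1, p2⟩ := Gb593.P_mem (O.hd k) hA hR
  have hreg : Gb593.Reg B (Fd656.uk B x k) (gL B.toGradS n κ x (Far553.dy k))
      (√(CA n κ ^ 2 / (1 - 2 * κ * Far553.dy k ^ 2))) (O.A k) :=
    ⟨uL_mem hρ x, hE.fV, fun p hp => Gb593.weak_V hE.wk hp, hA, hE.tr, Real.sqrt_nonneg _, hR,
      Gb593.memLp_P hR, p1, p2, hb, fun p C1 hp hpb => Gb593.boch_V (O.hd k) hE hA hb hR hp hpb⟩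
  exact ⟨_, BW.of_reg hreg⟩

end Glue

end Crest.Agent.R247.Hes124
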