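import Crest.Agent.R247.Hes6_124

/-!
R247, block (5-H) (helper124), part 7: the integrated Hessian inequality tested with
`φ = R_ρ 1_E`, `E ⊆ closedBall x 16`, for the global function `F = |A - I| + ρ|Dq|`.
-/

set_option autoImplicit false
set_option linter.unusedSectionVars false

open MeasureTheory Filter Topology Set
open scoped RealInnerProductSpace ENNReal NNReal

noncomputable section

namespace Crest.Agent.R247.Hes124

open Crest.Agent.R242 Crest.Agent.R247.Dir593 Crest.Agent.R247.Dir593.GradS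
open Crest.Agent.R247.Smv126 Crest.Agent.R247.Obj554

variable {n : ℕ} {κ : ℝ} {X : Type*} [MetricSpace X] [ProperSpace X] [MeasurableSpace X]
  [BorelSpace X] {μ : Measure X} [IsFiniteMeasureOnCompacts μ]

/-- the resolvent of helper593's form -/
abbrev Rs (B : BochS n κ X μ) (ρ : ℝ) : Lp ℝ 2 μ →L[ℝ] Lp ℝ 2 μ :=
  (QF B.toGradS).res (ρ ^ 2)

/-- decay into the ball (helper939's `(R3in)`), with the number `e` -/
def Din (B : BochS n κ X μ) (x : X) (ρ e : ℝ) : Prop :=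
  ∀ f : Lp ℝ 2 μ, (∀ᵐ y ∂μ, 0 ≤ f y) → (∀ᵐ y ∂μ, f y ≤ 1) →
    (∀ᵐ y ∂μ, dist x y < 32 → f y = 0) → ∀ᵐ y ∂μ, dist x y ≤ 16 → Rs B ρ f y ≤ e

section Tail

variable {B : BochS n κ X μ} {x : X} {ρ e : ℝ}

lemma inner_ind' (f : Lp ℝ 2 μ) {E : Set X} (hE : MeasurableSet E) (hμ : μ E ≠ ∞) :
    (⟪ind hE hμ, f⟫ : ℝ) = ∫ z in E, f z ∂μ := by
  rw [real_inner_comm, inner_ind]

lemma integrable_ind {E : Set X} (hE : MeasurableSet E) (hμ : μ E ≠ ∞) :
    Integrable (ind hE hμ : Lp ℝ 2 μ) μ :=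
  ((integrable_indicator_iff hE).2 (integrableOn_const (C := (1:ℝ)) hμ)).congr
    (coe_ind hE hμ).symm

lemma integral_ind_mul {E : Set X} (hE : MeasurableSet E) (hμ : μ E ≠ ∞) (f : X → ℝ) :
    ∫ z, (ind hE hμ : Lp ℝ 2 μ) z * f z ∂μ = ∫ z in E, f z ∂μ := by
  rw [← integral_indicator hE]
  refine integral_congr_ae ?_
  filter_upwards [coe_ind hE hμ] with z hz
  rw [hz]
  by_cases h : z ∈ E
  · simp [h]
  · simp [h]

/-- `∫_{d_x > 32} R 1_E ≤ e μ(E)` -/
theorem tail_le (hρ : 0 < ρ) (hD : Din B x ρ e) {E : Set X} (hE : MeasurableSet E)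
    (hsub : E ⊆ Metric.closedBall x 16) (hμ : μ E ≠ ∞) :
    ∫ z in {z | 32 < dist x z}, Rs B ρ (ind hE hμ) z ∂μ ≤ e * μ.real E := by
  have hlf : IsLocallyFiniteMeasure μ := isLocallyFiniteMeasure_of_isFiniteMeasureOnCompacts
  have hρ2 : (0:ℝ) < ρ ^ 2 := by positivity
  have hM : Markov (QF B.toGradS) := B.markov B.dense_V
  have hSM := hM.symMarkov_res hρ2
  have hEi := integrable_ind hE hμ
  have hφi : Integrable (Rs B ρ (ind hE hμ) : Lp ℝ 2 μ) μ :=
    hSM.integrable (ind_nonneg hE hμ) hEi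
  -- exhaustion
  set O : ℕ → Set X := fun m => {z | 32 < dist x z ∧ dist x z ≤ m} with hO
  have hOm : ∀ m, MeasurableSet (O m) := fun m =>
    (measurableSet_lt measurable_const (measurable_const.dist measurable_id)).inter
      (measurableSet_le (measurable_const.dist measurable_id) measurable_const)
  have hmono : Monotone O := fun m m' hmm z hz =>
    ⟨hz.1, hz.2.trans (by exact_mod_cast hmm)⟩
  have hU : ⋃ m, O m = {z | 32 < dist x z} := by
    ext z
    simp only [hO, mem_iUnion, mem_ofPred_eq]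
    constructor
    · rintro ⟨m, h1, -⟩; exact h1
    · intro h; exact ⟨⌈dist x z⌉₊, h, Nat.le_ceil _⟩
  have hlim := tendsto_setIntegral_of_monotone (μ := μ) (f := fun z => Rs B ρ (ind hE hμ) z)
    (fun m => hOm m) hmono (by rw [hU]; exact hφi.integrableOn)
  rw [hU] at hlim
  refine le_of_tendsto' hlim fun m => ?_
  have hfin : μ (O m) ≠ ∞ := by
    refine ((measure_mono ?_).trans_lt (isCompact_closedBall x (m : ℝ)).measure_lt_top).ne
    intro z hz
    rw [Metric.mem_closedBall, dist_comm]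
    exact hz.2
  rw [← inner_ind _ (hOm m) hfin, (QF B.toGradS).res_symm, real_inner_comm, inner_ind]
  have h1 := hD (ind (hOm m) hfin) (ind_nonneg (hOm m) hfin) (ind_le_one (hOm m) hfin) (by
    filter_upwards [coe_ind (hOm m) hfin] with z hz hd
    rw [hz, indicator_of_notMem (fun h => absurd h.1 (not_lt.2 hd.le))])
  calc ∫ z in E, Rs B ρ (ind (hOm m) hfin) z ∂μ ≤ ∫ _ in E, e ∂μ := by
        refine setIntegral_mono_on_ae (integrableOn_of_L2 _ hE hμ) (integrableOn_const hμ) hE ?_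
        filter_upwards [h1] with z hz hzE
        exact hz (by rw [dist_comm]; exact Metric.mem_closedBall.1 (hsub hzE))
    _ = e * μ.real E := by
        rw [setIntegral_const, smul_eq_mul, mul_comm]

end Tail

section Main

variable {B : BochS n κ X μ} {x : X} {ρ e : ℝ} {A : X → S n} {P : Lp ℝ 2 μ}

lemma aesm_Fx (h : BW B (uL B.toGradS n κ x ρ) (gL B.toGradS n κ x ρ) A P) :
    AEStronglyMeasurable (Fx B x ρ A) μ :=
  ((h.A_memLp.1.sub aestronglyMeasurable_const).norm).add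
    ((Lp.aestronglyMeasurable (B.D (qL B.toGradS n κ x ρ))).norm.const_mul ρ)

/-- **(HF) tested with `R 1_E`** -/
theorem hf_set (h : BW B (uL B.toGradS n κ x ρ) (gL B.toGradS n κ x ρ) A P)
    (W : WLap B.toGradS n κ) (hκ : 0 ≤ κ) (hκ1 : κ ≤ 1) (hρ : 0 < ρ) (hρ1 : ρ ≤ 1)
    (hκρ : 8 * κ * ρ ^ 2 ≤ 1) (hD : Din B x ρ e) {E : Set X} (hE : MeasurableSet E)
    (hsub : E ⊆ Metric.closedBall x 16) (hμ : μ E ≠ ∞) :
    Integrable (fun z => Fx B x ρ A z ^ 2 * Rs B ρ (ind hE hμ) z) μ ∧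
    ∫ z, Fx B x ρ A z ^ 2 * Rs B ρ (ind hE hμ) z ∂μ ≤
      10 * ∫ z in E, (⟪B.G (hf x) z, B.D (qL B.toGradS n κ x ρ) z⟫ - qL B.toGradS n κ x ρ z +
        (2 * Rs B ρ (qL B.toGradS n κ x ρ) z + CE n / 2 * e)) ∂μ := by
  have hlf : IsLocallyFiniteMeasure μ := isLocallyFiniteMeasure_of_isFiniteMeasureOnCompacts
  have hρ2 : (0:ℝ) < ρ ^ 2 := by positivity
  have hM : Markov (QF B.toGradS) := B.markov B.dense_V
  have hSM := hM.symMarkov_res hρ2
  have hEi := integrable_ind hE hμ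
  set q : Lp ℝ 2 μ := qL B.toGradS n κ x ρ with hqdef
  set Ψ : Lp ℝ 2 μ := ind hE hμ with hΨ
  set φ : Lp ℝ 2 μ := Rs B ρ Ψ with hφ
  have hφ0 : 0 ≤ᵐ[μ] (φ : X → ℝ) := hM.res_nonneg hρ2 (ind_nonneg hE hμ)
  have hφ1 : ∀ᵐ z ∂μ, φ z ≤ 1 := hM.res_le hρ2 zero_le_one (ind_le_one hE hμ)
  have hφi : Integrable φ μ := hSM.integrable (ind_nonneg hE hμ) hEi
  have hφb : ∀ᵐ z ∂μ, |φ z| ≤ 1 := by
    filter_upwards [hφ0, hφ1] with z a1 a2
    rw [abs_of_nonneg (by simpa using a1)]; exact a2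
  have hq : q ∈ B.V := qL_mem hρ x
  have hu : uL B.toGradS n κ x ρ = tL (isT_f0 x) - ρ ^ 2 • q := rfl
  have hg : gL B.toGradS n κ x ρ = tL (isT_Nf n κ x) - q := rfl
  have hθc : ∀ z, th x z ≤ 2 * cinf := th_le x
  have hmain := h.hf_ineq (isT_f0 x) (isT_Nf n κ x) (isT_th x) hq hρ hu hg (th_eq W x)
    (c := 2 * cinf) (by have := cinf_pos; positivity) hθc (Ψ := Ψ) (ind_nonneg hE hμ) (CΨ := 1)
    zero_le_one (ind_le_one hE hμ) hEi (by
      filter_upwards [coe_ind hE hμ] with z hz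
      by_cases hzE : z ∈ E
      · right
        refine th_eq_ball ?_
        have := Metric.mem_closedBall.1 (hsub hzE)
        rw [dist_comm] at this
        linarith
      · left
        rw [hΨ, hz, indicator_of_notMem hzE])
  -- rewrite the integrals against `Ψ`
  rw [integral_ind_mul hE hμ, integral_ind_mul hE hμ, integral_ind_mul hE hμ] at hmain
  have eGf : ∫ z in E, (⟪B.G (f0 x) z, B.D q z⟫ : ℝ) ∂μ =
      ∫ z in E, (⟪B.G (hf x) z, B.D q z⟫ : ℝ) ∂μ := by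
    refine setIntegral_congr_ae hE ?_
    filter_upwards [G_Nf_ball (S := B.toGradS) (n := n) (κ := κ) x] with z hz hzE
    have := Metric.mem_closedBall.1 (hsub hzE)
    rw [dist_comm] at this
    rw [(hz (by linarith)).2]
  have hsc : ∀ a b : Lp ℝ 2 μ, (⟪a, b⟫ : ℝ) = ∫ z, a z * b z ∂μ := fun a b => by
    rw [L2.inner_def]
    refine integral_congr_ae (Eventually.of_forall fun z => ?_)
    simp [mul_comm]
  have eRq : ∫ z, q z * φ z ∂μ = ∫ z in E, Rs B ρ q z ∂μ := by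
    rw [← hsc, real_inner_comm, hφ, (QF B.toGradS).res_symm, inner_ind']
  have htail := tail_le hρ hD hE hsub hμ
  -- integrability
  have iSq : Integrable (fun z => (Spx B x ρ A z - 4 * q z) * φ z) μ := by
    have := BochS.int_bdd_mul (h.int_four (isT_Nf n κ x) (ρ := ρ) hg) (Lp.aestronglyMeasurable φ)
      hφb
    refine this.neg.congr (Eventually.of_forall fun z => ?_)
    show -(φ z * (4 * q z - Spx B x ρ A z)) = _
    ring
  have iqφ : Integrable (fun z => q z * φ z) μ := int_mul (Lp.memLp _) (Lp.memLp _)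
  have hOm : MeasurableSet {z : X | 32 < dist x z} :=
    measurableSet_lt measurable_const (measurable_const.dist measurable_id)
  have iout : Integrable ({z : X | 32 < dist x z}.indicator fun z => φ z) μ := hφi.indicator hOm
  have iR : Integrable (fun z => 5 * ((Spx B x ρ A z - 4 * q z) * φ z + 4 * (q z * φ z) +
      CE n * {z : X | 32 < dist x z}.indicator (fun z => φ z) z)) μ :=
    ((iSq.add (iqφ.const_mul 4)).add (iout.const_mul (CE n))).const_mul 5
  have hle : ∀ᵐ z ∂μ, Fx B x ρ A z ^ 2 * φ z ≤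
      5 * ((Spx B x ρ A z - 4 * q z) * φ z + 4 * (q z * φ z) +
      CE n * {z : X | 32 < dist x z}.indicator (fun z => φ z) z) := by
    filter_upwards [Fx_sq_le h W hκ hκ1 hρ hρ1 hκρ, hφ0] with z a1 a2
    have a3 : (0:ℝ) ≤ φ z := a2
    refine (mul_le_mul_of_nonneg_right a1 a3).trans (le_of_eq ?_)
    by_cases hz : 32 < dist x z
    · rw [indicator_of_mem (show z ∈ {z : X | 32 < dist x z} from hz),
        indicator_of_mem (show z ∈ {z : X | 32 < dist x z} from hz)]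
      ring
    · rw [indicator_of_notMem (show z ∉ {z : X | 32 < dist x z} from hz),
        indicator_of_notMem (show z ∉ {z : X | 32 < dist x z} from hz)]
      ring
  have iF : Integrable (fun z => Fx B x ρ A z ^ 2 * φ z) μ := by
    refine iR.mono' (((aesm_Fx h).pow 2).mul (Lp.aestronglyMeasurable φ)) ?_
    filter_upwards [hle, hφ0] with z a1 a2
    have a3 : (0:ℝ) ≤ φ z := a2
    rw [Real.norm_of_nonneg (mul_nonneg (sq_nonneg _) a3)]
    exact a1
  refine ⟨iF, ?_⟩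
  have h1 := integral_mono_ae iF iR hle
  have i2 : Integrable (fun z => (Spx B x ρ A z - 4 * q z) * φ z + 4 * (q z * φ z)) μ :=
    iSq.add (iqφ.const_mul 4)
  rw [integral_const_mul, integral_add i2 (iout.const_mul (CE n)),
    integral_add iSq (iqφ.const_mul 4), integral_const_mul, integral_const_mul,
    integral_indicator hOm, eRq] at h1
  rw [eGf] at hmain
  -- the right-hand side
  have jG : IntegrableOn (fun z => (⟪B.G (hf x) z, B.D q z⟫ : ℝ)) E μ := by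
    have j0 : Integrable (fun z => (⟪B.G (f0 x) z, B.D q z⟫ : ℝ)) μ :=
      int_inner ((isT_f0 x).memLpG B.toGradS) (Lp.memLp _)
    refine (j0.integrableOn (s := E)).congr_fun_ae ?_
    filter_upwards [ae_restrict_of_ae (G_Nf_ball (S := B.toGradS) (n := n) (κ := κ) x),
      ae_restrict_mem hE] with z hz hzE
    have := Metric.mem_closedBall.1 (hsub hzE)
    rw [dist_comm] at this
    rw [(hz (by linarith)).2]
  have jq : IntegrableOn (fun z => q z) E μ := integrableOn_of_L2 q hE hμ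
  have jR : IntegrableOn (fun z => Rs B ρ q z) E μ := integrableOn_of_L2 _ hE hμ
  have jc : IntegrableOn (fun _ : X => CE n / 2 * e) E μ := integrableOn_const hμ
  have e1 : ∫ z in E, (⟪B.G (hf x) z, B.D q z⟫ - q z + (2 * Rs B ρ q z + CE n / 2 * e)) ∂μ =
      ∫ z in E, (⟪B.G (hf x) z, B.D q z⟫ : ℝ) ∂μ - ∫ z in E, q z ∂μ +
        (2 * ∫ z in E, Rs B ρ q z ∂μ + CE n / 2 * e * μ.real E) := by
    have k1 : IntegrableOn (fun z => (⟪B.G (hf x) z, B.D q z⟫ : ℝ) - q z) E μ := jG.sub jq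
    have k2 : IntegrableOn (fun z => 2 * Rs B ρ q z + CE n / 2 * e) E μ := (jR.const_mul 2).add jc
    rw [integral_add k1 k2, integral_sub jG jq, integral_add (jR.const_mul 2) jc,
      integral_const_mul, setIntegral_const, smul_eq_mul]
    ring
  rw [e1]
  have hq2 : 0 ≤ ρ ^ 2 * ∫ z in E, ‖B.D q z‖ ^ 2 ∂μ :=
    mul_nonneg hρ2.le (integral_nonneg fun z => sq_nonneg _)
  have htail' := mul_le_mul_of_nonneg_left htail (CE_nonneg n)
  have hm' : ∫ z, (Spx B x ρ A z - 4 * q z) * φ z ∂μ + ρ ^ 2 * ∫ z in E, ‖B.D q z‖ ^ 2 ∂μ +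
      2 * ∫ z in E, q z ∂μ - 2 * ∫ z in E, (⟪B.G (hf x) z, B.D q z⟫ : ℝ) ∂μ ≤ 0 := hmain
  have ht' : CE n * ∫ z in {z | 32 < dist x z}, φ z ∂μ ≤ CE n * (e * μ.real E) := htail'
  nlinarith

/-- **(HF)** in the form consumed by helper436 -/
theorem hHF (h : BW B (uL B.toGradS n κ x ρ) (gL B.toGradS n κ x ρ) A P)
    (W : WLap B.toGradS n κ) (hκ : 0 ≤ κ) (hκ1 : κ ≤ 1) (hρ : 0 < ρ) (hρ1 : ρ ≤ 1)
    (hκρ : 8 * κ * ρ ^ 2 ≤ 1) (hD : Din B x ρ e) {E : Set X} (hE : MeasurableSet E)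
    (hsub : E ⊆ Metric.closedBall x 16) (hμ : μ E ≠ ∞) :
    ∫⁻ z, ENNReal.ofReal (Fx B x ρ A z ^ 2) * ENNReal.ofReal (Rs B ρ (ind hE hμ) z) ∂μ ≤
      ENNReal.ofReal (10 * ∫ z in E, (⟪B.G (hf x) z, B.D (qL B.toGradS n κ x ρ) z⟫ -
        qL B.toGradS n κ x ρ z +
        (2 * Rs B ρ (qL B.toGradS n κ x ρ) z + CE n / 2 * e)) ∂μ) ∧
    0 ≤ ∫ z in E, (⟪B.G (hf x) z, B.D (qL B.toGradS n κ x ρ) z⟫ -
        qL B.toGradS n κ x ρ z +
        (2 * Rs B ρ (qL B.toGradS n κ x ρ) z + CE n / 2 * e)) ∂μ := by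
  obtain ⟨h1, h2⟩ := hf_set h W hκ hκ1 hρ hρ1 hκρ hD hE hsub hμ
  have hρ2 : (0:ℝ) < ρ ^ 2 := by positivity
  have hM : Markov (QF B.toGradS) := B.markov B.dense_V
  have hφ0 : 0 ≤ᵐ[μ] (Rs B ρ (ind hE hμ) : X → ℝ) := hM.res_nonneg hρ2 (ind_nonneg hE hμ)
  have h0 : 0 ≤ᵐ[μ] fun z => Fx B x ρ A z ^ 2 * Rs B ρ (ind hE hμ) z := by
    filter_upwards [hφ0] with z hz
    exact mul_nonneg (sq_nonneg _) hz
  have h3 : 0 ≤ ∫ z, Fx B x ρ A z ^ 2 * Rs B ρ (ind hE hμ) z ∂μ := integral_nonneg_of_ae h0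
  refine ⟨?_, by linarith⟩
  have e1 : ∫⁻ z, ENNReal.ofReal (Fx B x ρ A z ^ 2) *
      ENNReal.ofReal (Rs B ρ (ind hE hμ) z) ∂μ =
      ∫⁻ z, ENNReal.ofReal (Fx B x ρ A z ^ 2 * Rs B ρ (ind hE hμ) z) ∂μ := by
    refine lintegral_congr fun z => ?_
    rw [ENNReal.ofReal_mul (sq_nonneg _)]
  rw [e1, ← ofReal_integral_eq_lintegral_ofReal h1 h0]
  exact ENNReal.ofReal_le_ofReal h2

end Main

end Crest.Agent.R247.Hes124
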