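import Crest.Agent.R247.Mcp1_688

/-!
R247, block (2a) (helper311), part 1: ISOTROPY of the directions `grad d_w (z)` in an annulus, and
absolute Bishop, from the radial contraction and an asymptotically Euclidean chart at `z`.
Abstract form: `AC z` = asymptotically Euclidean chart at `z`.
-/

set_option autoImplicit false
set_option linter.unusedSectionVars false
open MeasureTheory Set Filter Topology Metric
open scoped ENNReal NNReal RealInnerProductSpace

noncomputable section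
namespace Crest.Agent.R247.Iso311

open Mcp688

variable {n : ℕ}

local notation "𝔼" => EuclideanSpace ℝ (Fin n)

/-- `<v,ξ>²/|v|²` -/
def G (ξ v : 𝔼) : ℝ := ⟪v, ξ⟫ ^ 2 / ‖v‖ ^ 2

theorem G_nonneg (ξ v : 𝔼) : 0 ≤ G ξ v := by unfold G; positivity

theorem measurable_G (ξ : 𝔼) : Measurable (G ξ) := by
  unfold G
  have h1 : Measurable fun v : 𝔼 => ⟪v, ξ⟫ ^ 2 := by
    apply Measurable.pow_const
    exact (continuous_id.inner continuous_const).measurable
  have h2 : Measurable fun v : 𝔼 => ‖v‖ ^ 2 := by fun_prop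
  exact h1.div h2

theorem continuousAt_G (ξ : 𝔼) {v : 𝔼} (hv : v ≠ 0) : ContinuousAt (G ξ) v := by
  unfold G
  apply ContinuousAt.div
  · exact ((continuous_id.inner continuous_const).pow 2).continuousAt
  · exact (continuous_norm.pow 2).continuousAt
  · positivity

theorem G_smul (ξ v : 𝔼) {c : ℝ} (hc : c ≠ 0) : G ξ (c • v) = G ξ v := by
  unfold G
  rw [real_inner_smul_left, norm_smul, mul_pow, mul_pow, Real.norm_eq_abs, sq_abs]
  have : c ^ 2 ≠ 0 := by positivity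
  rw [mul_div_mul_left _ _ this]

theorem G_unit (ξ : 𝔼) {e : 𝔼} (he : ‖e‖ = 1) : G ξ e = ⟪e, ξ⟫ ^ 2 := by
  unfold G; rw [he]; simp

theorem G_smul_left (ξ v : 𝔼) (c : ℝ) : G (c • ξ) v = c ^ 2 * G ξ v := by
  unfold G
  rw [real_inner_smul_right, mul_pow, mul_div_assoc]

theorem G_iso (L : 𝔼 ≃ₗᵢ[ℝ] 𝔼) (ξ v : 𝔼) : G (L ξ) (L v) = G ξ v := by
  unfold G
  rw [L.inner_map_map, L.norm_map]

theorem sum_G {v : 𝔼} (hv : v ≠ 0) : ∑ i, G (EuclideanSpace.single i (1 : ℝ)) v = 1 := by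
  unfold G
  rw [← Finset.sum_div]
  have : ∑ i, ⟪v, EuclideanSpace.single i (1 : ℝ)⟫ ^ 2 = ‖v‖ ^ 2 := by
    rw [EuclideanSpace.norm_sq_eq]
    refine Finset.sum_congr rfl fun i _ => ?_
    rw [EuclideanSpace.inner_single_right]
    simp
  rw [this]
  have : ‖v‖ ^ 2 ≠ 0 := by positivity
  exact div_self this

section Euclid

variable (S : Set ℝ)

/-- the radial integral -/
def J (S : Set ℝ) (ξ : 𝔼) : ℝ≥0∞ := ∫⁻ v in {v : 𝔼 | ‖v‖ ∈ S}, ENNReal.ofReal (G ξ v)

theorem measurableSet_radial {S : Set ℝ} (hS : MeasurableSet S) :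
    MeasurableSet {v : 𝔼 | ‖v‖ ∈ S} := measurable_norm hS

theorem J_iso {S : Set ℝ} (hS : MeasurableSet S) (L : 𝔼 ≃ₗᵢ[ℝ] 𝔼) (ξ : 𝔼) :
    J S (L ξ) = J S ξ := by
  unfold J
  have h1 := L.measurePreserving.setLIntegral_comp_preimage
    (measurableSet_radial (n := n) hS) (f := fun v => ENNReal.ofReal (G (L ξ) v))
    (measurable_G (L ξ)).ennreal_ofReal
  rw [← h1]
  have h2 : (L : 𝔼 → 𝔼) ⁻¹' {v : 𝔼 | ‖v‖ ∈ S} = {v : 𝔼 | ‖v‖ ∈ S} := by
    ext v; simp
  rw [h2]
  simp only [G_iso]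

theorem exists_iso {u u' : 𝔼} (h : ‖u‖ = ‖u'‖) : ∃ L : 𝔼 ≃ₗᵢ[ℝ] 𝔼, L u = u' :=
  ⟨_, Submodule.reflection_sub h⟩

theorem J_smul (c : ℝ) (ξ : 𝔼) : J S (c • ξ) = ENNReal.ofReal (c ^ 2) * J S ξ := by
  unfold J
  rw [← lintegral_const_mul' _ _ ENNReal.ofReal_ne_top]
  congr 1
  funext v
  rw [G_smul_left, ENNReal.ofReal_mul (sq_nonneg c)]

/-- **isotropy in the Euclidean space** -/
theorem J_eq {S : Set ℝ} (hS : MeasurableSet S) (h0 : (0 : ℝ) ∉ S) (ξ : 𝔼) :
    (n : ℝ≥0∞) * J S ξ = ENNReal.ofReal (‖ξ‖ ^ 2) * volume {v : 𝔼 | ‖v‖ ∈ S} := by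
  have h1 : ∀ i : Fin n, J S ξ =
      ENNReal.ofReal (‖ξ‖ ^ 2) * J S (EuclideanSpace.single i (1 : ℝ) : 𝔼) := by
    intro i
    obtain ⟨L, hL⟩ := exists_iso (n := n) (u := ‖ξ‖ • (EuclideanSpace.single i (1 : ℝ) : 𝔼)) (u' := ξ)
      (by rw [norm_smul]; simp)
    rw [← J_smul, ← J_iso hS L (‖ξ‖ • (EuclideanSpace.single i (1 : ℝ) : 𝔼)), hL]
  have h2 : (n : ℝ≥0∞) * J S ξ = ∑ _i : Fin n, J S ξ := by simp
  rw [h2]
  calc ∑ _i : Fin n, J S ξ
      = ∑ i : Fin n, ENNReal.ofReal (‖ξ‖ ^ 2) * J S (EuclideanSpace.single i (1 : ℝ) : 𝔼) :=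
        Finset.sum_congr rfl fun i _ => h1 i
    _ = ENNReal.ofReal (‖ξ‖ ^ 2) * ∑ i : Fin n, J S (EuclideanSpace.single i (1 : ℝ) : 𝔼) := by
        rw [Finset.mul_sum]
    _ = ENNReal.ofReal (‖ξ‖ ^ 2) * volume {v : 𝔼 | ‖v‖ ∈ S} := by
        congr 1
        unfold J
        rw [← lintegral_finsetSum _ (fun i _ => (measurable_G _).ennreal_ofReal),
          ← setLIntegral_one]
        refine setLIntegral_congr_fun (measurableSet_radial hS) fun v hv => ?_
        have hv0 : v ≠ 0 := by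
          rintro rfl
          exact h0 (by simpa using hv)
        rw [← ENNReal.ofReal_sum_of_nonneg (fun i _ => G_nonneg _ _), sum_G hv0,
          ENNReal.ofReal_one]

theorem volume_annulus_le {α β : ℝ} (hα : 0 ≤ α) (hαβ : α ≤ β) :
    volume {v : 𝔼 | ‖v‖ ∈ Ioo α β} ≤ ENNReal.ofReal (β ^ n - α ^ n) * volume (ball (0 : 𝔼) 1) := by
  rcases eq_or_lt_of_le hαβ with h | h
  · rw [h]
    simp
  have e : {v : 𝔼 | ‖v‖ ∈ Ioo α β} = ball (0 : 𝔼) β \ closedBall (0 : 𝔼) α := by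
    ext v
    simp [and_comm]
  have hβ : 0 ≤ β := hα.trans hαβ
  have hfr : Module.finrank ℝ 𝔼 = n := finrank_euclideanSpace_fin
  rw [e, measure_sdiff (closedBall_subset_ball h) measurableSet_closedBall.nullMeasurableSet
    measure_closedBall_lt_top.ne]
  have h1 : volume (ball (0 : 𝔼) β) = ENNReal.ofReal (β ^ n) * volume (ball (0 : 𝔼) 1) := by
    rw [Measure.addHaar_ball_of_pos volume (0 : 𝔼) (lt_of_le_of_lt hα h), hfr]
  have h2 : volume (closedBall (0 : 𝔼) α) = ENNReal.ofReal (α ^ n) * volume (ball (0 : 𝔼) 1) := by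
    rw [Measure.addHaar_closedBall volume (0 : 𝔼) hα, hfr]
  rw [h1, h2, ENNReal.ofReal_sub _ (by positivity), ENNReal.sub_mul]
  intro _ _
  exact measure_ball_lt_top.ne

end Euclid

/-- An asymptotically Euclidean chart at `z`. -/
structure AC (n : ℕ) {X : Type*} [MetricSpace X] [MeasurableSpace X] (μ : Measure X) (z : X) where
  φ : X → EuclideanSpace ℝ (Fin n)
  ψ : EuclideanSpace ℝ (Fin n) → X
  meas : Measurable φ
  ψ_zero : ψ 0 = z
  ψφ : ∀ᶠ y in 𝓝 z, ψ (φ y) = y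
  near : ∀ η : ℝ, 0 < η → ∀ᶠ y in 𝓝 z, |‖φ y‖ - dist z y| ≤ η * dist z y
  near' : ∀ η : ℝ, 0 < η → ∀ᶠ a in 𝓝 (0 : EuclideanSpace ℝ (Fin n)), dist z (ψ a) ≤ (1 + η) * ‖a‖
  vol : ∀ η : ℝ, 0 < η → ∃ r : ℝ, 0 < r ∧
    (μ.restrict (ball z r)).map φ ≤ ENNReal.ofReal (1 + η) • volume

variable {κ : ℝ} {X : Type*} [MetricSpace X] [MeasurableSpace X] [BorelSpace X] {μ : Measure X}

/-- the differential of `d_w` at `z` in the chart -/
def AC.L {z : X} (A : AC n μ z) (w : X) : 𝔼 →L[ℝ] ℝ := fderiv ℝ (fun a => dist w (A.ψ a)) 0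

/-- the unit direction from `z` to `w` in the chart -/
def AC.e {z : X} (A : AC n μ z) (w : X) : 𝔼 := -(InnerProductSpace.toDual ℝ 𝔼).symm (A.L w)

theorem AC.inner_e {z : X} (A : AC n μ z) (w : X) (v : 𝔼) : ⟪A.e w, v⟫ = -(A.L w v) := by
  unfold AC.e
  rw [inner_neg_left, InnerProductSpace.toDual_symm_apply]

theorem AC.norm_e {z : X} (A : AC n μ z) (w : X) : ‖A.e w‖ = ‖A.L w‖ := by
  unfold AC.e
  rw [norm_neg, LinearIsometryEquiv.norm_map]

theorem AC.norm_L_le {z : X} (A : AC n μ z) {w : X}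
    (hd : DifferentiableAt ℝ (fun a => dist w (A.ψ a)) 0) : ‖A.L w‖ ≤ 1 := by
  refine le_of_forall_pos_le_add fun η hη => ?_
  refine hd.hasFDerivAt.le_of_lip' (by positivity) ?_
  filter_upwards [A.near' η hη] with a ha
  rw [A.ψ_zero, Real.norm_eq_abs, sub_zero]
  refine le_trans ?_ ha
  have h1 := abs_dist_sub_le (A.ψ a) z w
  rw [dist_comm w (A.ψ a), dist_comm w z, dist_comm z (A.ψ a)]
  exact h1

/-- **first variation**: the ray from `z` to `w` leaves in the direction `e w`. -/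
theorem AC.direction {z : X} (A : AC n μ z) (C : Rad n κ X μ) {w : X} (hU : (z, w) ∈ C.U)
    (hzw : z ≠ w) (hd : DifferentiableAt ℝ (fun a => dist w (A.ψ a)) 0) :
    ‖A.e w‖ = 1 ∧
      Tendsto (fun t : ℝ => t⁻¹ • A.φ (C.T z t w)) (𝓝[>] 0) (𝓝 (dist z w • A.e w)) := by
  set D := dist z w with hD
  have hD0 : 0 < D := dist_pos.2 hzw
  have hI : ∀ᶠ t : ℝ in 𝓝[>] 0, t ∈ Ioo (0 : ℝ) 1 := Ioo_mem_nhdsGT one_pos
  have hdist : ∀ᶠ t : ℝ in 𝓝[>] 0, dist z (C.T z t w) = t * D := by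
    filter_upwards [hI] with t ht
    exact C.dist_left hU ⟨ht.1.le, ht.2.le⟩
  have htend : Tendsto (fun t : ℝ => C.T z t w) (𝓝[>] 0) (𝓝 z) := by
    rw [tendsto_iff_dist_tendsto_zero]
    have h1 : Tendsto (fun t : ℝ => t * D) (𝓝[>] 0) (𝓝 0) := by
      have : Tendsto (fun t : ℝ => t * D) (𝓝 0) (𝓝 (0 * D)) :=
        (continuous_id.mul continuous_const).tendsto 0
      rw [zero_mul] at this
      exact this.mono_left nhdsWithin_le_nhds
    refine h1.congr' ?_
    filter_upwards [hdist] with t ht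
    rw [dist_comm, ht]
  -- the norm of `v_t`
  set v : ℝ → 𝔼 := fun t => t⁻¹ • A.φ (C.T z t w) with hv
  have hnorm : Tendsto (fun t => ‖v t‖) (𝓝[>] 0) (𝓝 D) := by
    rw [Metric.tendsto_nhds]
    intro ε hε
    filter_upwards [hI, hdist, htend.eventually (A.near (ε / (2 * D)) (by positivity))] with t ht1 ht2 ht3
    rw [ht2] at ht3
    have h1 : ‖v t‖ = t⁻¹ * ‖A.φ (C.T z t w)‖ := by
      rw [hv]
      simp only
      rw [norm_smul, Real.norm_eq_abs, abs_of_pos (inv_pos.2 ht1.1)]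
    rw [h1, Real.dist_eq]
    have h2 : t⁻¹ * ‖A.φ (C.T z t w)‖ - D = t⁻¹ * (‖A.φ (C.T z t w)‖ - t * D) := by
      rw [mul_sub, ← mul_assoc, inv_mul_cancel₀ ht1.1.ne', one_mul]
    rw [h2, abs_mul, abs_of_pos (inv_pos.2 ht1.1)]
    calc t⁻¹ * |‖A.φ (C.T z t w)‖ - t * D| ≤ t⁻¹ * (ε / (2 * D) * (t * D)) := by
          have := ht1.1
          gcongr
      _ = ε / 2 := by
          have := ht1.1.ne'
          field_simp
      _ < ε := by linarith
  -- `L v_t → -D`
  have hphi0 : Tendsto (fun t : ℝ => A.φ (C.T z t w)) (𝓝[>] 0) (𝓝 0) := by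
    rw [tendsto_zero_iff_norm_tendsto_zero]
    have h1 : Tendsto (fun t : ℝ => t * ‖v t‖) (𝓝[>] 0) (𝓝 (0 * D)) :=
      (tendsto_id.mono_left nhdsWithin_le_nhds).mul hnorm
    rw [zero_mul] at h1
    refine h1.congr' ?_
    filter_upwards [hI] with t ht
    rw [hv]
    simp only
    rw [norm_smul, Real.norm_eq_abs, abs_of_pos (inv_pos.2 ht.1), ← mul_assoc,
      mul_inv_cancel₀ ht.1.ne', one_mul]
  have hlo := hd.hasFDerivAt.isLittleO
  have hLv : Tendsto (fun t => A.L w (v t)) (𝓝[>] 0) (𝓝 (-D)) := by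
    have h1 := hlo.comp_tendsto hphi0
    have h2 : (fun t : ℝ => A.φ (C.T z t w)) =O[𝓝[>] 0] (fun t : ℝ => t) := by
      refine Asymptotics.IsBigO.of_bound (D + 1) ?_
      filter_upwards [hI, hnorm.eventually (gt_mem_nhds (show D < D + 1 by linarith))] with t ht h3
      rw [hv] at h3
      simp only at h3
      rw [norm_smul, Real.norm_eq_abs, abs_of_pos (inv_pos.2 ht.1)] at h3
      rw [Real.norm_eq_abs, abs_of_pos ht.1]
      have := ht.1
      calc ‖A.φ (C.T z t w)‖ = t * (t⁻¹ * ‖A.φ (C.T z t w)‖) := by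
            rw [← mul_assoc, mul_inv_cancel₀ ht.1.ne', one_mul]
        _ ≤ t * (D + 1) := by gcongr
        _ = (D + 1) * t := mul_comm _ _
    have h2' : ((fun x' : 𝔼 => x' - 0) ∘ fun t : ℝ => A.φ (C.T z t w)) =O[𝓝[>] 0]
        (fun t : ℝ => t) := by
      simpa [Function.comp_def] using h2
    have h3 := h1.trans_isBigO h2'
    have h4 := h3.tendsto_div_nhds_zero
    have h5 : Tendsto (fun t : ℝ => A.L w (v t) + D) (𝓝[>] 0) (𝓝 0) := by
      have h6 := h4.neg
      rw [neg_zero] at h6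
      refine h6.congr' ?_
      filter_upwards [hI, htend.eventually A.ψφ] with t ht ht2
      simp only [Function.comp_apply]
      rw [ht2, A.ψ_zero, sub_zero, dist_comm w, C.dist_right hU ⟨ht.1.le, ht.2.le⟩, dist_comm w,
        ← hD]
      have h7 : A.L w (v t) = t⁻¹ * A.L w (A.φ (C.T z t w)) := by
        rw [hv]; simp
      rw [h7]
      have := ht.1.ne'
      change -(((1 - t) * D - D - (A.L w) (A.φ (C.T z t w))) / t) = _
      field_simp
      ring
    have h8 := h5.sub_const D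
    simpa using h8
  -- convexity
  have hsq : Tendsto (fun t => ‖v t - D • A.e w‖ ^ 2) (𝓝[>] 0)
      (𝓝 (D ^ 2 + 2 * D * (-D) + D ^ 2 * ‖A.e w‖ ^ 2)) := by
    have h1 : ∀ t, ‖v t - D • A.e w‖ ^ 2 =
        ‖v t‖ ^ 2 + 2 * D * (A.L w (v t)) + D ^ 2 * ‖A.e w‖ ^ 2 := by
      intro t
      have h2 : ‖D • A.e w‖ ^ 2 = D ^ 2 * ‖A.e w‖ ^ 2 := by
        rw [norm_smul, mul_pow, Real.norm_eq_abs, sq_abs]
      rw [norm_sub_sq_real, h2, real_inner_smul_right, real_inner_comm, A.inner_e]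
      ring
    simp only [h1]
    exact ((hnorm.pow 2).add (hLv.const_mul (2 * D))).add_const _
  have hle : ‖A.e w‖ ≤ 1 := by rw [A.norm_e]; exact A.norm_L_le hd
  have hge : 0 ≤ D ^ 2 + 2 * D * (-D) + D ^ 2 * ‖A.e w‖ ^ 2 :=
    ge_of_tendsto' hsq fun t => by positivity
  have he0 := norm_nonneg (A.e w)
  have h1le : 1 ≤ ‖A.e w‖ ^ 2 := by
    have : 0 ≤ D ^ 2 * (‖A.e w‖ ^ 2 - 1) := by linarith
    have h3 := nonneg_of_mul_nonneg_right this (by positivity)
    linarith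
  have he1 : ‖A.e w‖ = 1 := by nlinarith
  refine ⟨he1, ?_⟩
  rw [he1] at hsq
  have h0 : D ^ 2 + 2 * D * (-D) + D ^ 2 * 1 ^ 2 = 0 := by ring
  rw [h0] at hsq
  rw [tendsto_iff_norm_sub_tendsto_zero]
  have h3 := hsq.sqrt
  simpa using h3


/-- the shell estimate: `∫_{a < d_z < b} g(φ y) dμ ≤ (1+η) ∫_{(1-η)a < |v| < (1+η)b} g`. -/
theorem AC.shell {z : X} (A : AC n μ z) {η : ℝ} (hη : 0 < η) (hη1 : η < 1) :
    ∃ r : ℝ, 0 < r ∧ ∀ a b : ℝ, b ≤ r → ∀ g : 𝔼 → ℝ≥0∞, Measurable g →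
      ∫⁻ y in {y | dist z y ∈ Ioo a b}, g (A.φ y) ∂μ ≤
        ENNReal.ofReal (1 + η) * ∫⁻ v in {v : 𝔼 | ‖v‖ ∈ Ioo ((1 - η) * a) ((1 + η) * b)}, g v := by
  obtain ⟨r1, hr1, hv⟩ := A.vol η hη
  obtain ⟨r2, hr2, hn⟩ := Metric.eventually_nhds_iff.1 (A.near η hη)
  refine ⟨min r1 r2, lt_min hr1 hr2, ?_⟩
  intro a b hb g hg
  set S : Set 𝔼 := {v : 𝔼 | ‖v‖ ∈ Ioo ((1 - η) * a) ((1 + η) * b)} with hS
  have hSm : MeasurableSet S := measurableSet_radial measurableSet_Ioo
  have hm1 : MeasurableSet {y : X | dist z y ∈ Ioo a b} :=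
    (continuous_const.dist continuous_id).measurable measurableSet_Ioo
  have hsub : ∀ y, dist z y ∈ Ioo a b → A.φ y ∈ S ∧ y ∈ ball z r1 := by
    intro y hy
    have h1 : dist z y < r1 := hy.2.trans_le (hb.trans (min_le_left _ _))
    have h2 : dist y z < r2 := by
      rw [dist_comm]; exact hy.2.trans_le (hb.trans (min_le_right _ _))
    have h3 := abs_le.1 (hn h2)
    refine ⟨⟨?_, ?_⟩, by rw [mem_ball, dist_comm]; exact h1⟩
    · have : (1 - η) * a < (1 - η) * dist z y := by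
        have := hy.1
        have : 0 < 1 - η := by linarith
        gcongr
      nlinarith
    · have : (1 + η) * dist z y < (1 + η) * b := by
        have := hy.2
        gcongr
      linarith
  calc ∫⁻ y in {y | dist z y ∈ Ioo a b}, g (A.φ y) ∂μ
      ≤ ∫⁻ y in ball z r1, S.indicator g (A.φ y) ∂μ := by
        rw [← lintegral_indicator hm1, ← lintegral_indicator isOpen_ball.measurableSet]
        refine lintegral_mono fun y => ?_
        by_cases hy : dist z y ∈ Ioo a b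
        · have h1 := hsub y hy
          rw [indicator_of_mem (show y ∈ {y | dist z y ∈ Ioo a b} from hy),
            indicator_of_mem h1.2, indicator_of_mem h1.1]
        · rw [indicator_of_notMem (show y ∉ {y | dist z y ∈ Ioo a b} from hy)]
          exact bot_le
    _ = ∫⁻ v, S.indicator g v ∂((μ.restrict (ball z r1)).map A.φ) :=
        (lintegral_map (hg.indicator hSm) A.meas).symm
    _ ≤ ∫⁻ v, S.indicator g v ∂(ENNReal.ofReal (1 + η) • (volume : Measure 𝔼)) :=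
        lintegral_mono' hv le_rfl
    _ = ENNReal.ofReal (1 + η) * ∫⁻ v in S, g v := by
        rw [lintegral_smul_measure, lintegral_indicator hSm, smul_eq_mul]

/-- **absolute Bishop inequality** from the contraction property and an asymptotically Euclidean
chart at the centre. -/
theorem AC.bishop {z : X} (A : AC n μ z) (C : Rad n κ X μ) (hκ : 0 ≤ κ) (s : ℝ) :
    μ (ball z s) ≤ ENNReal.ofReal (Real.exp (κ * s ^ 2 / 2) * s ^ n) * volume (ball (0 : 𝔼) 1) := by
  rcases le_or_gt s 0 with hs | hs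
  · rw [ball_eq_empty.2 hs]; simp
  have key : ∀ η : ℝ, 0 < η → η < 1 → μ (ball z s) ≤
      ENNReal.ofReal (Real.exp (κ * s ^ 2 / 2) * s ^ n * (1 + η) ^ (n + 1)) *
        volume (ball (0 : 𝔼) 1) := by
    intro η hη hη1
    obtain ⟨r, hr, h⟩ := A.shell hη hη1
    set ρ := min r s with hρ
    have hρ0 : 0 < ρ := lt_min hr hs
    have h1 := h (-1) ρ (min_le_left _ _) (fun _ => 1) measurable_const
    have h2 := C.mu_ball_le hκ z hρ0 (min_le_right r s)
    have e1 : {y | dist z y ∈ Ioo (-1) ρ} = ball z ρ := by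
      ext y
      simp only [mem_ofPred_eq, mem_Ioo, mem_ball]
      rw [dist_comm]
      constructor
      · exact fun h => h.2
      · exact fun h => ⟨by linarith [dist_nonneg (x := y) (y := z)], h⟩
    have e2 : {v : 𝔼 | ‖v‖ ∈ Ioo ((1 - η) * -1) ((1 + η) * ρ)} ⊆ ball (0 : 𝔼) ((1 + η) * ρ) := by
      intro v hv
      simpa using hv.2
    have hfr : Module.finrank ℝ 𝔼 = n := finrank_euclideanSpace_fin
    have h3 : μ (ball z ρ) ≤ ENNReal.ofReal ((1 + η) ^ (n + 1) * ρ ^ n) *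
        volume (ball (0 : 𝔼) 1) := by
      rw [e1] at h1
      simp only [lintegral_one, Measure.restrict_apply_univ] at h1
      refine h1.trans ?_
      calc ENNReal.ofReal (1 + η) * volume {v : 𝔼 | ‖v‖ ∈ Ioo ((1 - η) * -1) ((1 + η) * ρ)}
          ≤ ENNReal.ofReal (1 + η) * volume (ball (0 : 𝔼) ((1 + η) * ρ)) := by gcongr
        _ = _ := by
            rw [Measure.addHaar_ball_of_pos volume (0 : 𝔼) (by positivity), hfr, ← mul_assoc,
              ← ENNReal.ofReal_mul (by positivity)]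
            congr 2
            rw [mul_pow]; ring
    calc μ (ball z s) ≤ ENNReal.ofReal (Real.exp (κ * s ^ 2 / 2) * (s / ρ) ^ n) * μ (ball z ρ) := h2
      _ ≤ ENNReal.ofReal (Real.exp (κ * s ^ 2 / 2) * (s / ρ) ^ n) *
          (ENNReal.ofReal ((1 + η) ^ (n + 1) * ρ ^ n) * volume (ball (0 : 𝔼) 1)) := by gcongr
      _ = _ := by
          rw [← mul_assoc, ← ENNReal.ofReal_mul (by positivity)]
          congr 2
          rw [div_pow]
          field_simp
  have hlim : Tendsto (fun η : ℝ => ENNReal.ofReal (Real.exp (κ * s ^ 2 / 2) * s ^ n *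
      (1 + η) ^ (n + 1)) * volume (ball (0 : 𝔼) 1)) (𝓝[>] 0)
      (𝓝 (ENNReal.ofReal (Real.exp (κ * s ^ 2 / 2) * s ^ n) * volume (ball (0 : 𝔼) 1))) := by
    refine ENNReal.Tendsto.mul_const (ENNReal.tendsto_ofReal ?_) (Or.inr measure_ball_lt_top.ne)
    have hc : Continuous fun η : ℝ => Real.exp (κ * s ^ 2 / 2) * s ^ n * (1 + η) ^ (n + 1) := by
      fun_prop
    have := (hc.tendsto 0).mono_left (nhdsWithin_le_nhds (s := Ioi (0 : ℝ)))
    simpa using this
  refine ge_of_tendsto hlim ?_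
  filter_upwards [Ioo_mem_nhdsGT (show (0 : ℝ) < 1 by norm_num)] with η hη
  exact key η hη.1 hη.2

/-- **isotropy**: the directions of the rays from `z` to the points of an annulus. -/
theorem AC.isotropy {z : X} (A : AC n μ z) (C : Rad n κ X μ) (hκ : 0 ≤ κ) {α β : ℝ} (hα : 0 ≤ α)
    (hαβ : α ≤ β) {W : Set X} (hW : ∀ w ∈ W, dist z w ∈ Ioo α β)
    (hd : ∀ᵐ w ∂μ, DifferentiableAt ℝ (fun a => dist w (A.ψ a)) 0) (ξ : 𝔼) :
    (n : ℝ≥0∞) * ∫⁻ w in W, ENNReal.ofReal ((A.L w ξ) ^ 2) ∂μ ≤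
      ENNReal.ofReal (Real.exp (κ * β ^ 2 / 2) * (β ^ n - α ^ n) * ‖ξ‖ ^ 2) *
        volume (ball (0 : 𝔼) 1) := by
  have hβ : 0 ≤ β := hα.trans hαβ
  set W' : Set X := {y | dist z y ∈ Ioo α β} with hW'
  have hWm : MeasurableSet W' := (continuous_const.dist continuous_id).measurable measurableSet_Ioo
  have hWW : W ⊆ W' := hW
  refine le_trans (by gcongr : (n : ℝ≥0∞) * ∫⁻ w in W, ENNReal.ofReal ((A.L w ξ) ^ 2) ∂μ ≤
    (n : ℝ≥0∞) * ∫⁻ w in W', ENNReal.ofReal ((A.L w ξ) ^ 2) ∂μ) ?_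
  -- the approximating functions
  set t : ℕ → ℝ := fun k => 1 / ((k : ℝ) + 2) with ht
  have ht0 : ∀ k, 0 < t k := fun k => by rw [ht]; positivity
  have ht1 : ∀ k, t k < 1 := fun k => by
    rw [ht]
    simp only
    rw [div_lt_one (by positivity)]
    have : (0 : ℝ) ≤ k := Nat.cast_nonneg k
    linarith
  have htI : ∀ k, t k ∈ Ioc (0 : ℝ) 1 := fun k => ⟨ht0 k, (ht1 k).le⟩
  have htl : Tendsto t atTop (𝓝 0) := by
    have h1 : Tendsto (fun k : ℕ => (k : ℝ) + 2) atTop atTop :=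
      tendsto_atTop_add_const_right _ _ tendsto_natCast_atTop_atTop
    exact h1.const_div_atTop 1
  have htl' : Tendsto t atTop (𝓝[>] 0) :=
    tendsto_nhdsWithin_iff.2 ⟨htl, Filter.Eventually.of_forall ht0⟩
  set F : ℕ → X → ℝ≥0∞ := fun k w => ENNReal.ofReal (G ξ (A.φ (C.T z (t k) w))) with hF
  have hFm : ∀ k, Measurable (F k) := fun k =>
    ((measurable_G ξ).comp (A.meas.comp (C.measT_xt z (t k)))).ennreal_ofReal
  have hlimF : ∀ᵐ w ∂(μ.restrict W'), Tendsto (fun k => F k w) atTop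
      (𝓝 (ENNReal.ofReal ((A.L w ξ) ^ 2))) := by
    rw [ae_restrict_iff' hWm]
    filter_upwards [hd, C.ae_U z] with w h1 h2 h3
    have hzw : z ≠ w := by
      rintro rfl
      have := h3.1
      rw [dist_self] at this
      linarith
    obtain ⟨he, hT⟩ := A.direction C h2 hzw h1
    have hD0 : 0 < dist z w := dist_pos.2 hzw
    have h4 := hT.comp htl'
    have hne : dist z w • A.e w ≠ 0 := by
      rw [smul_ne_zero_iff]
      refine ⟨hD0.ne', ?_⟩
      intro h0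
      rw [h0, norm_zero] at he
      exact zero_ne_one he
    have h5 := (continuousAt_G ξ hne).tendsto.comp h4
    rw [G_smul _ _ hD0.ne', G_unit _ he, A.inner_e, neg_sq] at h5
    refine (ENNReal.tendsto_ofReal h5).congr fun k => ?_
    simp only [Function.comp_apply, hF]
    rw [G_smul _ _ (inv_ne_zero (ht0 k).ne')]
  have hfatou : ∫⁻ w in W', ENNReal.ofReal ((A.L w ξ) ^ 2) ∂μ ≤
      liminf (fun k => ∫⁻ w in W', F k w ∂μ) atTop := by
    calc ∫⁻ w in W', ENNReal.ofReal ((A.L w ξ) ^ 2) ∂μ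
        = ∫⁻ w in W', liminf (fun k => F k w) atTop ∂μ := by
          refine lintegral_congr_ae ?_
          filter_upwards [hlimF] with w hw
          exact hw.liminf_eq.symm
      _ ≤ _ := lintegral_liminf_le hFm
  -- upper bound of the integrals
  have key : ∀ η : ℝ, 0 < η → η < 1 → (n : ℝ≥0∞) * ∫⁻ w in W', ENNReal.ofReal ((A.L w ξ) ^ 2) ∂μ ≤
      ENNReal.ofReal (Real.exp (κ * β ^ 2 / 2) * (1 + η) *
        (((1 + η) * β) ^ n - ((1 - η) * α) ^ n) * ‖ξ‖ ^ 2) * volume (ball (0 : 𝔼) 1) := by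
    intro η hη hη1
    obtain ⟨r, hr, h⟩ := A.shell hη hη1
    have hev : ∀ᶠ k in atTop, t k * β < r := by
      have : Tendsto (fun k => t k * β) atTop (𝓝 (0 * β)) := htl.mul_const β
      rw [zero_mul] at this
      exact this.eventually (gt_mem_nhds hr)
    have hbound : ∀ᶠ k in atTop, (n : ℝ≥0∞) * ∫⁻ w in W', F k w ∂μ ≤
        ENNReal.ofReal (Real.exp (κ * β ^ 2 / 2) * (1 + η) *
          (((1 + η) * β) ^ n - ((1 - η) * α) ^ n) * ‖ξ‖ ^ 2) * volume (ball (0 : 𝔼) 1) := by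
      filter_upwards [hev] with k hk
      have h0 := ht0 k
      set V : Set X := {y | dist z y ∈ Ioo (t k * α) (t k * β)} with hV
      have hVm : MeasurableSet V :=
        (continuous_const.dist continuous_id).measurable measurableSet_Ioo
      have h1 := C.setLIntegral_T_le hκ z (htI k) (D := β) hWm hVm (fun y hy => hy.2.le)
        (fun y hy hU => by
          rw [hV, mem_ofPred_eq, C.dist_left hU ⟨(ht0 k).le, (ht1 k).le⟩]
          exact ⟨by have := hy.1; gcongr, by have := hy.2; gcongr⟩)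
        (g := fun y => ENNReal.ofReal (G ξ (A.φ y)))
        ((measurable_G ξ).comp A.meas).ennreal_ofReal
      have h2 := h (t k * α) (t k * β) hk.le (fun v => ENNReal.ofReal (G ξ v))
        (measurable_G ξ).ennreal_ofReal
      have hle : (1 - η) * (t k * α) ≤ (1 + η) * (t k * β) := by
        have : t k * α ≤ t k * β := by gcongr
        have h3 : 0 ≤ t k * α := by positivity
        nlinarith
      have h0' : 0 ≤ (1 - η) * (t k * α) := by
        have : 0 < 1 - η := by linarith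
        positivity
      have h3 := J_eq (n := n) (S := Ioo ((1 - η) * (t k * α)) ((1 + η) * (t k * β)))
        measurableSet_Ioo (by
          intro h
          have := h.1
          linarith) ξ
      have h4 := volume_annulus_le (n := n) h0' hle
      calc (n : ℝ≥0∞) * ∫⁻ w in W', F k w ∂μ
          ≤ (n : ℝ≥0∞) * (ENNReal.ofReal (Real.exp (κ * β ^ 2 / 2) * ((t k)⁻¹) ^ n) *
            ∫⁻ y in V, ENNReal.ofReal (G ξ (A.φ y)) ∂μ) := by gcongr
        _ ≤ (n : ℝ≥0∞) * (ENNReal.ofReal (Real.exp (κ * β ^ 2 / 2) * ((t k)⁻¹) ^ n) *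
            (ENNReal.ofReal (1 + η) *
              J (Ioo ((1 - η) * (t k * α)) ((1 + η) * (t k * β))) ξ)) := by
            gcongr
            exact h2
        _ = ENNReal.ofReal (Real.exp (κ * β ^ 2 / 2) * ((t k)⁻¹) ^ n) * ENNReal.ofReal (1 + η) *
            ((n : ℝ≥0∞) * J (Ioo ((1 - η) * (t k * α)) ((1 + η) * (t k * β))) ξ) := by ring
        _ ≤ ENNReal.ofReal (Real.exp (κ * β ^ 2 / 2) * ((t k)⁻¹) ^ n) * ENNReal.ofReal (1 + η) *
            (ENNReal.ofReal (‖ξ‖ ^ 2) *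
              (ENNReal.ofReal (((1 + η) * (t k * β)) ^ n - ((1 - η) * (t k * α)) ^ n) *
                volume (ball (0 : 𝔼) 1))) := by
            rw [h3]
            gcongr
        _ = _ := by
            have hnn : 0 ≤ ((1 + η) * β) ^ n - ((1 - η) * α) ^ n := by
              have h5 : (1 - η) * α ≤ (1 + η) * β := by nlinarith
              have h6 : 0 ≤ (1 - η) * α := by
                have : 0 < 1 - η := by linarith
                positivity
              have := pow_le_pow_left₀ h6 h5 n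
              linarith
            rw [← mul_assoc (ENNReal.ofReal (‖ξ‖ ^ 2)), ← mul_assoc,
              ← ENNReal.ofReal_mul (by positivity), ← ENNReal.ofReal_mul (by positivity),
              ← ENNReal.ofReal_mul (by positivity)]
            congr 2
            have e1 : ((1 + η) * (t k * β)) ^ n - ((1 - η) * (t k * α)) ^ n =
                (t k) ^ n * (((1 + η) * β) ^ n - ((1 - η) * α) ^ n) := by
              rw [mul_sub, ← mul_pow, ← mul_pow]
              congr 1 <;> congr 1 <;> ring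
            rw [e1]
            have e2 : ((t k)⁻¹) ^ n * (t k) ^ n = 1 := by
              rw [← mul_pow, inv_mul_cancel₀ h0.ne', one_pow]
            calc Real.exp (κ * β ^ 2 / 2) * (t k)⁻¹ ^ n * (1 + η) *
                  (‖ξ‖ ^ 2 * ((t k) ^ n * (((1 + η) * β) ^ n - ((1 - η) * α) ^ n)))
                = Real.exp (κ * β ^ 2 / 2) * (1 + η) * (((1 + η) * β) ^ n - ((1 - η) * α) ^ n) *
                  ‖ξ‖ ^ 2 * ((t k)⁻¹ ^ n * (t k) ^ n) := by ring
              _ = _ := by rw [e2, mul_one]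
    have h6 : (n : ℝ≥0∞) * liminf (fun k => ∫⁻ w in W', F k w ∂μ) atTop ≤
        ENNReal.ofReal (Real.exp (κ * β ^ 2 / 2) * (1 + η) *
          (((1 + η) * β) ^ n - ((1 - η) * α) ^ n) * ‖ξ‖ ^ 2) * volume (ball (0 : 𝔼) 1) := by
      rcases Nat.eq_zero_or_pos n with hn | hn
      · subst hn; simp
      · have hn0 : (n : ℝ≥0∞) ≠ 0 := by exact_mod_cast hn.ne'
        have hnt : (n : ℝ≥0∞) ≠ ∞ := ENNReal.natCast_ne_top n
        rw [mul_comm, ← ENNReal.le_div_iff_mul_le (Or.inl hn0) (Or.inl hnt)]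
        refine liminf_le_of_frequently_le' (hbound.frequently.mono fun k hk => ?_)
        rw [ENNReal.le_div_iff_mul_le (Or.inl hn0) (Or.inl hnt), mul_comm]
        exact hk
    refine le_trans ?_ h6
    gcongr
  have hlim : Tendsto (fun η : ℝ => ENNReal.ofReal (Real.exp (κ * β ^ 2 / 2) * (1 + η) *
      (((1 + η) * β) ^ n - ((1 - η) * α) ^ n) * ‖ξ‖ ^ 2) * volume (ball (0 : 𝔼) 1)) (𝓝[>] 0)
      (𝓝 (ENNReal.ofReal (Real.exp (κ * β ^ 2 / 2) * (β ^ n - α ^ n) * ‖ξ‖ ^ 2) *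
        volume (ball (0 : 𝔼) 1))) := by
    refine ENNReal.Tendsto.mul_const (ENNReal.tendsto_ofReal ?_) (Or.inr measure_ball_lt_top.ne)
    have hc : Continuous fun η : ℝ => Real.exp (κ * β ^ 2 / 2) * (1 + η) *
      (((1 + η) * β) ^ n - ((1 - η) * α) ^ n) * ‖ξ‖ ^ 2 := by fun_prop
    have := (hc.tendsto 0).mono_left (nhdsWithin_le_nhds (s := Ioi (0 : ℝ)))
    simpa using this
  refine ge_of_tendsto hlim ?_
  filter_upwards [Ioo_mem_nhdsGT (show (0 : ℝ) < 1 by norm_num)] with η hη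
  exact key η hη.1 hη.2

/-- for a.e. `w` the differential of `d_w` at `z` has norm one (read in the chart) -/
theorem AC.ae_norm_L {z : X} (A : AC n μ z) (C : Rad n κ X μ) (hz : μ {z} = 0)
    (hd : ∀ᵐ w ∂μ, DifferentiableAt ℝ (fun a => dist w (A.ψ a)) 0) :
    ∀ᵐ w ∂μ, ‖A.L w‖ = 1 := by
  have h0 : ∀ᵐ w ∂μ, w ≠ z := by
    rw [ae_iff]; simpa using hz
  filter_upwards [hd, C.ae_U z, h0] with w h1 h2 h3
  rw [← A.norm_e]
  exact (A.direction C h2 h3.symm h1).1

/-- the trace identity -/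
theorem AC.sum_sq {z : X} (A : AC n μ z) {w : X} (h : ‖A.L w‖ = 1) :
    ∑ i, (A.L w (EuclideanSpace.single i (1 : ℝ))) ^ 2 = 1 := by
  have h1 : ‖A.e w‖ ^ 2 = 1 := by rw [A.norm_e, h]; norm_num
  refine Eq.trans ?_ h1
  rw [EuclideanSpace.norm_sq_eq]
  refine Finset.sum_congr rfl fun i _ => ?_
  have h2 := A.inner_e w (EuclideanSpace.single i (1 : ℝ))
  rw [EuclideanSpace.inner_single_right] at h2
  have h3 : (A.e w) i = -(A.L w (EuclideanSpace.single i (1 : ℝ))) := by simpa using h2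
  rw [h3, Real.norm_eq_abs, sq_abs, neg_sq]

end Crest.Agent.R247.Iso311
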