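import Crest.Agent.R247.Far0_553

/-!
# R247, block (1-K), conversion step (helper301)

From integrals against a weight `φ ≥ 0` with `φ ≥ c₀` on a set `N` to lower integrals over `N`.
-/

set_option autoImplicit false
set_option linter.unusedSectionVars false

open MeasureTheory Filter Topology Set Metric
open scoped ENNReal NNReal

noncomputable section

namespace Crest.Agent.R247.Kb301

variable {X : Type*} [MeasurableSpace X] {μ : Measure X}

/-- **conversion**: a real integral against `φ`, `φ ≥ c₀` on `N`, bounds the lower integral over `N` -/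
theorem lintegral_N_le {φ f w : X → ℝ} {N : Set X} {c₀ B : ℝ} (hN : MeasurableSet N)
    (hc : 0 < c₀) (hφ0 : ∀ᵐ z ∂μ, 0 ≤ φ z) (hφ : ∀ᵐ z ∂μ, z ∈ N → c₀ ≤ φ z)
    (hf0 : ∀ᵐ z ∂μ, 0 ≤ f z)
    (hwf : ∀ᵐ z ∂μ, z ∈ N → w z ≤ f z)
    (hI : Integrable (fun z => φ z * f z) μ) (hB : ∫ z, φ z * f z ∂μ ≤ B) :
    ∫⁻ z in N, ENNReal.ofReal (w z) ∂μ ≤ ENNReal.ofReal (c₀⁻¹ * B) := by
  have h1 : ∫⁻ z in N, ENNReal.ofReal (w z) ∂μ ≤
      ∫⁻ z in N, ENNReal.ofReal (c₀⁻¹ * (φ z * f z)) ∂μ := by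
    refine lintegral_mono_ae ((ae_restrict_iff' hN).2 ?_)
    filter_upwards [hφ, hwf, hf0] with z h2 h3 h4 hz
    refine ENNReal.ofReal_le_ofReal ((h3 hz).trans ?_)
    have h5 : c₀ * f z ≤ φ z * f z := mul_le_mul_of_nonneg_right (h2 hz) h4
    calc f z = c₀⁻¹ * (c₀ * f z) := by field_simp
      _ ≤ c₀⁻¹ * (φ z * f z) := by gcongr
  refine h1.trans ((setLIntegral_le_lintegral _ _).trans ?_)
  rw [← ofReal_integral_eq_lintegral_ofReal (hI.const_mul _)]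
  · rw [integral_const_mul]
    exact ENNReal.ofReal_le_ofReal (by gcongr)
  · filter_upwards [hφ0, hf0] with z h2 h3
    have : 0 ≤ c₀⁻¹ := (inv_pos.2 hc).le
    exact mul_nonneg this (mul_nonneg h2 h3)

/-- the two parts of `nk` -/
theorem nk_parts {φ k nk : X → ℝ} {N : Set X} {c₀ K a B1 B2 : ℝ} (hN : MeasurableSet N)
    (hkm : Measurable k) (hc : 0 < c₀) (hφ0 : ∀ᵐ z ∂μ, 0 ≤ φ z)
    (hφ : ∀ᵐ z ∂μ, z ∈ N → c₀ ≤ φ z) (hK : ∀ᵐ z ∂μ, z ∈ N → |k z| ≤ K)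
    (hn0 : ∀ z, 0 ≤ nk z)
    (hI1 : Integrable (fun z => φ z * (if |k z| ≤ a ∧ |k z| ≤ K then nk z else 0) ^ 2) μ)
    (hB1 : ∫ z, φ z * (if |k z| ≤ a ∧ |k z| ≤ K then nk z else 0) ^ 2 ∂μ ≤ B1)
    (hI2 : Integrable (fun z => φ z * (if a < |k z| ∧ |k z| ≤ K then nk z else 0)) μ)
    (hB2 : ∫ z, φ z * (if a < |k z| ∧ |k z| ≤ K then nk z else 0) ∂μ ≤ B2) :
    ∫⁻ z in N ∩ {z | |k z| ≤ a}, ENNReal.ofReal (nk z ^ 2) ∂μ ≤ ENNReal.ofReal (c₀⁻¹ * B1) ∧
    ∫⁻ z in N ∩ {z | a < |k z|}, ENNReal.ofReal (nk z) ∂μ ≤ ENNReal.ofReal (c₀⁻¹ * B2) := by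
  have hm1 : MeasurableSet {z | |k z| ≤ a} := measurableSet_le (by fun_prop) measurable_const
  have hm2 : MeasurableSet {z | a < |k z|} := measurableSet_lt measurable_const (by fun_prop)
  constructor
  · refine lintegral_N_le (hN.inter hm1) hc hφ0 (hφ.mono fun z h hz => h hz.1)
      (Eventually.of_forall fun z => sq_nonneg _) ?_ hI1 hB1
    filter_upwards [hK] with z h hz
    rw [if_pos ⟨hz.2, h hz.1⟩]
  · refine lintegral_N_le (hN.inter hm2) hc hφ0 (hφ.mono fun z h hz => h hz.1)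
      (Eventually.of_forall fun z => ?_) ?_ hI2 hB2
    · split_ifs
      · exact hn0 z
      · exact le_rfl
    · filter_upwards [hK] with z h hz
      rw [if_pos ⟨hz.2, h hz.1⟩]

/-- `1 + log (1 + 2 A (s/ρ)²) ≤ C (1 + (k - j))` for `s = dy j`, `ρ = dy k` -/
theorem log_le (A : ℝ) (hA : 1 ≤ A) {j k : ℕ} (h : j ≤ k) :
    Real.log (1 + 2 * (A * Far553.dy j ^ 2) / Far553.dy k ^ 2) ≤
      (2 * A + 2) * (1 + ((k - j : ℕ) : ℝ)) := by
  have hk := Far553.dy_pos k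
  have hj := Far553.dy_pos j
  have e : Far553.dy j = 2 ^ (k - j) * Far553.dy k := by
    have : (Far553.dy j : ℝ) = (1 / 2) ^ j := by simp [Far553.dy]
    have h2 : (Far553.dy k : ℝ) = (1 / 2) ^ k := by simp [Far553.dy]
    rw [this, h2]
    obtain ⟨m, rfl⟩ := Nat.exists_eq_add_of_le h
    rw [Nat.add_sub_cancel_left, pow_add, mul_comm, mul_assoc, ← mul_pow]
    norm_num
  have h1 : 2 * (A * Far553.dy j ^ 2) / Far553.dy k ^ 2 = 2 * A * 4 ^ (k - j) := by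
    rw [e, mul_pow, ← pow_mul, mul_comm (k - j) 2, pow_mul]
    field_simp
    norm_num
  rw [h1]
  have h4 : (1:ℝ) ≤ 4 ^ (k - j) := one_le_pow₀ (by norm_num)
  have h5 : 1 + 2 * A * (4:ℝ) ^ (k - j) ≤ (1 + 2 * A) * 4 ^ (k - j) := by nlinarith
  calc Real.log (1 + 2 * A * 4 ^ (k - j)) ≤ Real.log ((1 + 2 * A) * 4 ^ (k - j)) := by
        apply Real.log_le_log (by positivity) h5
    _ = Real.log (1 + 2 * A) + (k - j : ℕ) * Real.log 4 := by
        rw [Real.log_mul (by positivity) (by positivity), Real.log_pow]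
    _ ≤ 2 * A + (k - j : ℕ) * 2 := by
        gcongr
        · have := Real.log_le_sub_one_of_pos (show (0:ℝ) < 1 + 2 * A by positivity)
          linarith
        · have h6 : Real.log 4 = 2 * Real.log 2 := by
            rw [show (4:ℝ) = 2 ^ 2 by norm_num, Real.log_pow]; norm_num
          have := Real.log_two_lt_d9
          rw [h6]; linarith
    _ ≤ (2 * A + 2) * (1 + ((k - j : ℕ) : ℝ)) := by
        have : (0:ℝ) ≤ ((k - j : ℕ) : ℝ) := Nat.cast_nonneg _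
        nlinarith

end Crest.Agent.R247.Kb301
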