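import Mathlib

/-!
R247 block (2b), helper585: Hilbert-Schmidt kernel operators between `L²` spaces.

`HK ν μ k` : the kernel `k : Y → X → ℝ` is jointly measurable and square integrable for
`ν × μ`.  `kop h : L²(μ) →L L²(ν)` is the operator `f ↦ (y ↦ ∫ k y x f x dμ)`.
-/

set_option autoImplicit false
set_option linter.unusedSectionVars false

noncomputable section

namespace Crest.Agent.R247.Ker585

open MeasureTheory Filter Set
open scoped ENNReal InnerProductSpace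

variable {X Y Z : Type*} [MeasurableSpace X] [MeasurableSpace Y] [MeasurableSpace Z]
  {μ : Measure X} {ν : Measure Y} {lam : Measure Z}

/-- Cauchy-Schwarz for lower Lebesgue integrals. -/
theorem lintegral_mul_sq_le {f g : X → ℝ≥0∞} (hf : AEMeasurable f μ) (hg : AEMeasurable g μ) :
    (∫⁻ x, f x * g x ∂μ) ^ 2 ≤ (∫⁻ x, f x ^ 2 ∂μ) * ∫⁻ x, g x ^ 2 ∂μ := by
  have h := ENNReal.lintegral_mul_le_Lp_mul_Lq μ Real.HolderConjugate.two_two hf hg
  have e : ∀ F : X → ℝ≥0∞, ∫⁻ x, F x ^ (2 : ℝ) ∂μ = ∫⁻ x, F x ^ 2 ∂μ := fun F => by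
    simp
  rw [e, e] at h
  calc (∫⁻ x, f x * g x ∂μ) ^ 2
      ≤ ((∫⁻ x, f x ^ 2 ∂μ) ^ (1 / (2 : ℝ)) * (∫⁻ x, g x ^ 2 ∂μ) ^ (1 / (2 : ℝ))) ^ 2 := by
        gcongr
        exact h
    _ = (∫⁻ x, f x ^ 2 ∂μ) * ∫⁻ x, g x ^ 2 ∂μ := by
        rw [mul_pow, ← ENNReal.rpow_natCast, ← ENNReal.rpow_natCast, ← ENNReal.rpow_mul,
          ← ENNReal.rpow_mul]
        norm_num

/-- squared Hilbert-Schmidt norm of a kernel. -/
def hs2 (ν : Measure Y) (μ : Measure X) (k : Y → X → ℝ) : ℝ≥0∞ :=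
  ∫⁻ y, ∫⁻ x, ‖k y x‖ₑ ^ 2 ∂μ ∂ν

/-- Hilbert-Schmidt kernels. -/
structure HK (ν : Measure Y) (μ : Measure X) (k : Y → X → ℝ) : Prop where
  meas : Measurable (Function.uncurry k)
  fin : hs2 ν μ k < ∞

theorem enorm_integral_sq_le {k : X → ℝ} {f : X → ℝ} (hk : AEStronglyMeasurable k μ)
    (hf : AEStronglyMeasurable f μ) :
    ‖∫ x, k x * f x ∂μ‖ₑ ^ 2 ≤ (∫⁻ x, ‖k x‖ₑ ^ 2 ∂μ) * ∫⁻ x, ‖f x‖ₑ ^ 2 ∂μ := by
  calc ‖∫ x, k x * f x ∂μ‖ₑ ^ 2 ≤ (∫⁻ x, ‖k x * f x‖ₑ ∂μ) ^ 2 := by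
        gcongr
        exact enorm_integral_le_lintegral_enorm _
    _ = (∫⁻ x, ‖k x‖ₑ * ‖f x‖ₑ ∂μ) ^ 2 := by simp_rw [enorm_mul]
    _ ≤ _ := lintegral_mul_sq_le hk.enorm hf.enorm

theorem lintegral_enorm_sq_lt_top {f : X → ℝ} (hf : MemLp f 2 μ) :
    ∫⁻ x, ‖f x‖ₑ ^ 2 ∂μ < ∞ := by
  have := hf.2
  rw [eLpNorm_lt_top_iff_lintegral_rpow_enorm_lt_top (by norm_num) (by norm_num)] at this
  simpa using this

theorem eLpNorm_two_sq {f : X → ℝ} : eLpNorm f 2 μ ^ 2 = ∫⁻ x, ‖f x‖ₑ ^ 2 ∂μ := by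
  rw [eLpNorm_eq_lintegral_rpow_enorm_toReal (by norm_num) (by norm_num)]
  rw [← ENNReal.rpow_natCast, ← ENNReal.rpow_mul]
  norm_num

theorem memLp_two_iff {f : X → ℝ} (hf : AEStronglyMeasurable f μ) :
    MemLp f 2 μ ↔ ∫⁻ x, ‖f x‖ₑ ^ 2 ∂μ < ∞ := by
  refine ⟨lintegral_enorm_sq_lt_top, fun h => ⟨hf, ?_⟩⟩
  rw [eLpNorm_lt_top_iff_lintegral_rpow_enorm_lt_top (by norm_num) (by norm_num)]
  simpa using h

namespace HK

variable {k k' : Y → X → ℝ}

section
variable (h : HK ν μ k)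
include h

theorem meas_left (y : Y) : Measurable (k y) := h.meas.comp measurable_prodMk_left

theorem ae_memLp [SFinite μ] : ∀ᵐ y ∂ν, MemLp (k y) 2 μ := by
  have h1 : Measurable fun y => ∫⁻ x, ‖k y x‖ₑ ^ 2 ∂μ := by
    apply Measurable.lintegral_prod_right
    exact (h.meas.enorm.pow_const 2)
  have h2 := ae_lt_top h1 h.fin.ne
  filter_upwards [h2] with y hy
  exact (memLp_two_iff (h.meas_left y).aestronglyMeasurable).2 hy

theorem stronglyMeasurable_int [SFinite μ] {f : X → ℝ} (hf : StronglyMeasurable f) :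
    StronglyMeasurable fun y => ∫ x, k y x * f x ∂μ := by
  apply StronglyMeasurable.integral_prod_right
  exact (h.meas.stronglyMeasurable).mul (hf.comp_measurable measurable_snd)

theorem lintegral_int_le [SFinite μ] {f : X → ℝ} (hf : AEStronglyMeasurable f μ) :
    ∫⁻ y, ‖∫ x, k y x * f x ∂μ‖ₑ ^ 2 ∂ν ≤ hs2 ν μ k * ∫⁻ x, ‖f x‖ₑ ^ 2 ∂μ := by
  calc ∫⁻ y, ‖∫ x, k y x * f x ∂μ‖ₑ ^ 2 ∂ν
      ≤ ∫⁻ y, (∫⁻ x, ‖k y x‖ₑ ^ 2 ∂μ) * ∫⁻ x, ‖f x‖ₑ ^ 2 ∂μ ∂ν :=
        lintegral_mono fun y => enorm_integral_sq_le (h.meas_left y).aestronglyMeasurable hf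
    _ = _ := by
        rw [lintegral_mul_const]
        · rfl
        · apply Measurable.lintegral_prod_right
          exact (h.meas.enorm.pow_const 2)

theorem memLp_int [SFinite μ] (f : Lp ℝ 2 μ) :
    MemLp (fun y => ∫ x, k y x * f x ∂μ) 2 ν := by
  rw [memLp_two_iff (h.stronglyMeasurable_int (Lp.stronglyMeasurable f)).aestronglyMeasurable]
  refine (h.lintegral_int_le (Lp.aestronglyMeasurable f)).trans_lt ?_
  exact ENNReal.mul_lt_top h.fin (lintegral_enorm_sq_lt_top (Lp.memLp f))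

end

end HK

/-- the kernel operator. -/
def kop [SFinite μ] {k : Y → X → ℝ} (h : HK ν μ k) : Lp ℝ 2 μ →L[ℝ] Lp ℝ 2 ν :=
  LinearMap.mkContinuous
    { toFun := fun f => (h.memLp_int f).toLp _
      map_add' := by
        intro f g
        rw [← MemLp.toLp_add]
        apply MemLp.toLp_congr
        filter_upwards [h.ae_memLp] with y hy
        simp only [Pi.add_apply]
        have e := integral_add (hy.integrable_mul (Lp.memLp f)) (hy.integrable_mul (Lp.memLp g))
        simp only [Pi.mul_apply] at e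
        rw [← e]
        apply integral_congr_ae
        filter_upwards [Lp.coeFn_add f g] with x hx
        rw [hx]
        simp [mul_add]
      map_smul' := by
        intro c f
        rw [← MemLp.toLp_const_smul]
        apply MemLp.toLp_congr
        filter_upwards [] with y
        simp only [Pi.smul_apply, smul_eq_mul, RingHom.id_apply]
        rw [← integral_const_mul]
        apply integral_congr_ae
        filter_upwards [Lp.coeFn_smul c f] with x hx
        rw [hx]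
        simp only [Pi.smul_apply, smul_eq_mul]
        ring }
    (hs2 ν μ k).toReal.sqrt
    (by
      intro f
      simp only [LinearMap.coe_mk, AddHom.coe_mk]
      rw [Lp.norm_toLp, Lp.norm_def]
      have h1 := h.lintegral_int_le (Lp.aestronglyMeasurable f)
      rw [← eLpNorm_two_sq, ← eLpNorm_two_sq] at h1
      have h2 : (eLpNorm (fun y => ∫ x, k y x * f x ∂μ) 2 ν).toReal ^ 2
          ≤ (hs2 ν μ k).toReal * (eLpNorm f 2 μ).toReal ^ 2 := by
        rw [← ENNReal.toReal_pow, ← ENNReal.toReal_pow, ← ENNReal.toReal_mul]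
        apply ENNReal.toReal_mono _ h1
        exact ENNReal.mul_ne_top h.fin.ne (ENNReal.pow_ne_top (Lp.eLpNorm_ne_top f))
      rw [← Real.sqrt_sq (ENNReal.toReal_nonneg (a := eLpNorm f 2 μ)),
        ← Real.sqrt_mul ENNReal.toReal_nonneg]
      exact Real.le_sqrt_of_sq_le h2)

section kop
variable [SFinite μ] {k k' : Y → X → ℝ}

theorem kop_ae (h : HK ν μ k) (f : Lp ℝ 2 μ) :
    kop h f =ᵐ[ν] fun y => ∫ x, k y x * f x ∂μ :=
  MemLp.coeFn_toLp (h.memLp_int f)

theorem norm_kop_le (h : HK ν μ k) : ‖kop h‖ ≤ (hs2 ν μ k).toReal.sqrt :=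
  LinearMap.mkContinuous_norm_le _ (Real.sqrt_nonneg _) _

theorem norm_kop_le' (h : HK ν μ k) {B : ℝ} (hB : 0 ≤ B) (hk : hs2 ν μ k ≤ ENNReal.ofReal (B ^ 2)) :
    ‖kop h‖ ≤ B := by
  refine (norm_kop_le h).trans ?_
  rw [Real.sqrt_le_left hB]
  exact ENNReal.toReal_le_of_le_ofReal (by positivity) hk

theorem kop_toLp (h : HK ν μ k) {f : X → ℝ} (hf : MemLp f 2 μ) :
    kop h (hf.toLp f) =ᵐ[ν] fun y => ∫ x, k y x * f x ∂μ := by
  refine (kop_ae h _).trans (Eventually.of_forall fun y => ?_)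
  apply integral_congr_ae
  filter_upwards [hf.coeFn_toLp] with x hx
  rw [hx]

theorem kop_congr (h : HK ν μ k) (h' : HK ν μ k')
    (e : ∀ᵐ y ∂ν, ∀ᵐ x ∂μ, k y x = k' y x) : kop h = kop h' := by
  ext1 f
  apply Lp.ext
  refine (kop_ae h f).trans (EventuallyEq.trans ?_ (kop_ae h' f).symm)
  filter_upwards [e] with y hy
  apply integral_congr_ae
  filter_upwards [hy] with x hx
  rw [hx]

end kop

section algebra
variable {k k' : Y → X → ℝ}

theorem HK.of_le {B : ℝ≥0∞} (hm : Measurable (Function.uncurry k)) (hB : B < ∞)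
    (hle : hs2 ν μ k ≤ B) : HK ν μ k := ⟨hm, hle.trans_lt hB⟩

theorem hs2_add_le [SFinite μ] (hk : Measurable (Function.uncurry k))
    (hk' : Measurable (Function.uncurry k')) :
    hs2 ν μ (fun y x => k y x + k' y x) ≤ 2 * hs2 ν μ k + 2 * hs2 ν μ k' := by
  have m1 : Measurable fun y => ∫⁻ x, ‖k y x‖ₑ ^ 2 ∂μ := by
    apply Measurable.lintegral_prod_right
    exact (hk.enorm.pow_const 2)
  unfold hs2
  calc ∫⁻ y, ∫⁻ x, ‖k y x + k' y x‖ₑ ^ 2 ∂μ ∂ν
      ≤ ∫⁻ y, (2 * (∫⁻ x, ‖k y x‖ₑ ^ 2 ∂μ) + 2 * ∫⁻ x, ‖k' y x‖ₑ ^ 2 ∂μ) ∂ν := by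
        apply lintegral_mono
        intro y
        have my : Measurable (k y) := hk.comp measurable_prodMk_left
        calc ∫⁻ x, ‖k y x + k' y x‖ₑ ^ 2 ∂μ
            ≤ ∫⁻ x, (2 * ‖k y x‖ₑ ^ 2 + 2 * ‖k' y x‖ₑ ^ 2) ∂μ := by
              apply lintegral_mono
              intro x
              calc ‖k y x + k' y x‖ₑ ^ 2 ≤ (‖k y x‖ₑ + ‖k' y x‖ₑ) ^ 2 := by
                    gcongr
                    exact enorm_add_le _ _
                _ ≤ 2 * ‖k y x‖ₑ ^ 2 + 2 * ‖k' y x‖ₑ ^ 2 := by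
                    have := ENNReal.rpow_add_le_mul_rpow_add_rpow ‖k y x‖ₑ ‖k' y x‖ₑ
                      (p := 2) (by norm_num)
                    norm_num at this
                    rw [← mul_add]
                    exact this
          _ = _ := by
              rw [lintegral_add_left (by fun_prop), lintegral_const_mul _ (by fun_prop),
                lintegral_const_mul]
              exact ((hk'.comp measurable_prodMk_left).enorm.pow_const 2)
    _ = _ := by
        rw [lintegral_add_left (by fun_prop), lintegral_const_mul _ (by fun_prop),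
          lintegral_const_mul]
        apply Measurable.lintegral_prod_right
        exact (hk'.enorm.pow_const 2)

theorem HK.add [SFinite μ] (h : HK ν μ k) (h' : HK ν μ k') :
    HK ν μ (fun y x => k y x + k' y x) := by
  refine ⟨h.meas.add h'.meas, (hs2_add_le h.meas h'.meas).trans_lt ?_⟩
  have := h.fin
  have := h'.fin
  exact ENNReal.add_lt_top.2 ⟨ENNReal.mul_lt_top (by norm_num) h.fin,
    ENNReal.mul_lt_top (by norm_num) h'.fin⟩

theorem hs2_const_mul (c : ℝ) (hk : Measurable (Function.uncurry k)) [SFinite μ] :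
    hs2 ν μ (fun y x => c * k y x) = ‖c‖ₑ ^ 2 * hs2 ν μ k := by
  unfold hs2
  have m1 : Measurable fun y => ∫⁻ x, ‖k y x‖ₑ ^ 2 ∂μ := by
    apply Measurable.lintegral_prod_right
    exact (hk.enorm.pow_const 2)
  rw [← lintegral_const_mul _ m1]
  congr 1
  ext y
  have my : Measurable (k y) := hk.comp measurable_prodMk_left
  rw [← lintegral_const_mul _ (by fun_prop)]
  simp [enorm_mul, mul_pow]

theorem HK.const_mul [SFinite μ] (c : ℝ) (h : HK ν μ k) : HK ν μ (fun y x => c * k y x) := by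
  refine ⟨h.meas.const_mul c, ?_⟩
  rw [hs2_const_mul c h.meas]
  exact ENNReal.mul_lt_top (ENNReal.pow_lt_top enorm_lt_top) h.fin

theorem HK.sub [SFinite μ] (h : HK ν μ k) (h' : HK ν μ k') :
    HK ν μ (fun y x => k y x - k' y x) := by
  have := h.add (h'.const_mul (-1))
  refine ⟨h.meas.sub h'.meas, ?_⟩
  have e := this.fin
  simpa [sub_eq_add_neg] using e

theorem kop_add [SFinite μ] (h : HK ν μ k) (h' : HK ν μ k') :
    kop (h.add h') = kop h + kop h' := by
  ext1 f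
  apply Lp.ext
  refine (kop_ae _ f).trans ?_
  rw [add_apply]
  refine EventuallyEq.trans ?_ (Lp.coeFn_add _ _).symm
  filter_upwards [kop_ae h f, kop_ae h' f, h.ae_memLp, h'.ae_memLp] with y e1 e2 h1 h2
  rw [Pi.add_apply, e1, e2]
  have e := integral_add (h1.integrable_mul (Lp.memLp f)) (h2.integrable_mul (Lp.memLp f))
  simp only [Pi.mul_apply] at e
  rw [← e]
  simp [add_mul]

theorem kop_const_mul [SFinite μ] (c : ℝ) (h : HK ν μ k) :
    kop (h.const_mul c) = c • kop h := by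
  ext1 f
  apply Lp.ext
  refine (kop_ae _ f).trans ?_
  rw [smul_apply]
  refine EventuallyEq.trans ?_ (Lp.coeFn_smul _ _).symm
  filter_upwards [kop_ae h f] with y e1
  rw [Pi.smul_apply, e1, smul_eq_mul, ← integral_const_mul]
  simp [mul_assoc]

theorem kop_sub [SFinite μ] (h : HK ν μ k) (h' : HK ν μ k') :
    kop (h.sub h') = kop h - kop h' := by
  have e := kop_add h (h'.const_mul (-1))
  rw [kop_const_mul (-1) h'] at e
  rw [sub_eq_add_neg, ← neg_one_smul ℝ (kop h'), ← e]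
  apply kop_congr
  exact Eventually.of_forall fun y => Eventually.of_forall fun x => by ring

end algebra

end Crest.Agent.R247.Ker585
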