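import Crest.Agent.R247.Ker1_585

/-!
R247 block (2b), helper585: adjoint, composition, Bessel inequality for kernel operators.
-/

set_option autoImplicit false
set_option linter.unusedSectionVars false

noncomputable section

namespace Crest.Agent.R247.Ker585

open MeasureTheory Filter Set
open scoped ENNReal InnerProductSpace

variable {X Y Z : Type*} [MeasurableSpace X] [MeasurableSpace Y] [MeasurableSpace Z]
  {μ : Measure X} {ν : Measure Y} {lam : Measure Z}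

theorem hs2_eq_prod [SFinite μ] {k : Y → X → ℝ} (hk : Measurable (Function.uncurry k)) :
    hs2 ν μ k = ∫⁻ p, ‖k p.1 p.2‖ₑ ^ 2 ∂(ν.prod μ) := by
  unfold hs2
  rw [lintegral_prod]
  exact (hk.enorm.pow_const 2).aemeasurable

theorem hs2_swap [SFinite μ] [SFinite ν] {k : Y → X → ℝ}
    (hk : Measurable (Function.uncurry k)) :
    hs2 μ ν (fun x y => k y x) = hs2 ν μ k := by
  unfold hs2
  rw [lintegral_lintegral_swap]
  exact ((hk.comp measurable_swap).enorm.pow_const 2).aemeasurable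

theorem HK.memLp_prod [SFinite μ] {k : Y → X → ℝ} (h : HK ν μ k) :
    MemLp (fun p : Y × X => k p.1 p.2) 2 (ν.prod μ) := by
  rw [memLp_two_iff]
  · rw [← hs2_eq_prod h.meas]
    exact h.fin
  · exact h.meas.aestronglyMeasurable

theorem HK.swap [SFinite μ] [SFinite ν] {k : Y → X → ℝ} (h : HK ν μ k) :
    HK μ ν (fun x y => k y x) := by
  refine ⟨h.meas.comp measurable_swap, ?_⟩
  rw [hs2_swap h.meas]
  exact h.fin

theorem memLp_tensor [SFinite μ] [SFinite ν] {f : X → ℝ} {g : Y → ℝ} (hf : MemLp f 2 μ)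
    (hg : MemLp g 2 ν) : MemLp (fun p : Y × X => g p.1 * f p.2) 2 (ν.prod μ) := by
  have m : AEStronglyMeasurable (fun p : Y × X => g p.1 * f p.2) (ν.prod μ) :=
    hg.1.comp_fst.mul hf.1.comp_snd
  rw [memLp_two_iff m, lintegral_prod _ (m.enorm.pow_const 2)]
  have e : ∀ y, ∫⁻ x, ‖g y * f x‖ₑ ^ 2 ∂μ = ‖g y‖ₑ ^ 2 * ∫⁻ x, ‖f x‖ₑ ^ 2 ∂μ := by
    intro y
    rw [← lintegral_const_mul'' _ (hf.1.enorm.pow_const 2)]
    simp [enorm_mul, mul_pow]
  simp_rw [e]
  rw [lintegral_mul_const'' _ (hg.1.enorm.pow_const 2)]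
  exact ENNReal.mul_lt_top (lintegral_enorm_sq_lt_top hg) (lintegral_enorm_sq_lt_top hf)

theorem HK.integrable_tri [SFinite μ] [SFinite ν] {k : Y → X → ℝ} (h : HK ν μ k) {f : X → ℝ}
    {g : Y → ℝ} (hf : MemLp f 2 μ) (hg : MemLp g 2 ν) :
    Integrable (fun p : Y × X => g p.1 * (k p.1 p.2 * f p.2)) (ν.prod μ) := by
  have := h.memLp_prod.integrable_mul (memLp_tensor hf hg)
  refine this.congr (Eventually.of_forall fun p => ?_)
  simp only [Pi.mul_apply]
  ring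

/-- The bilinear form of a kernel operator. -/
theorem inner_kop_toLp [SFinite μ] [SFinite ν] {k : Y → X → ℝ} (h : HK ν μ k) {f : X → ℝ}
    {g : Y → ℝ} (hf : MemLp f 2 μ) (hg : MemLp g 2 ν) :
    ⟪hg.toLp g, kop h (hf.toLp f)⟫_ℝ = ∫ y, ∫ x, g y * (k y x * f x) ∂μ ∂ν := by
  rw [L2.inner_def]
  apply integral_congr_ae
  filter_upwards [hg.coeFn_toLp, kop_toLp h hf] with y e1 e2
  rw [e1, e2, integral_const_mul]
  exact mul_comm _ _

theorem inner_kop [SFinite μ] [SFinite ν] {k : Y → X → ℝ} (h : HK ν μ k) (f : Lp ℝ 2 μ)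
    (g : Lp ℝ 2 ν) : ⟪g, kop h f⟫_ℝ = ∫ y, ∫ x, g y * (k y x * f x) ∂μ ∂ν := by
  have := inner_kop_toLp h (Lp.memLp f) (Lp.memLp g)
  simpa using this

theorem inner_kop_swap [SFinite μ] [SFinite ν] {k : Y → X → ℝ} (h : HK ν μ k) (f : Lp ℝ 2 μ)
    (g : Lp ℝ 2 ν) : ⟪kop h.swap g, f⟫_ℝ = ⟪g, kop h f⟫_ℝ := by
  rw [real_inner_comm, inner_kop h f g, inner_kop h.swap g f]
  have hi := h.integrable_tri (Lp.memLp f) (Lp.memLp g)
  rw [integral_integral_swap]
  · apply integral_congr_ae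
    refine Eventually.of_forall fun y => ?_
    apply integral_congr_ae
    refine Eventually.of_forall fun x => ?_
    simp only
    ring
  · refine hi.swap.congr (Eventually.of_forall fun p => ?_)
    simp only [Function.comp_apply, Prod.swap, Function.uncurry]
    ring

theorem adjoint_kop [SFinite μ] [SFinite ν] {k : Y → X → ℝ} (h : HK ν μ k) :
    ContinuousLinearMap.adjoint (kop h) = kop h.swap := by
  symm
  rw [ContinuousLinearMap.eq_adjoint_iff]
  intro g f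
  rw [inner_kop_swap]

theorem isSelfAdjoint_kop [SFinite μ] {k : X → X → ℝ} (h : HK μ μ k)
    (hs : ∀ x y, k x y = k y x) : IsSelfAdjoint (kop h) := by
  rw [ContinuousLinearMap.isSelfAdjoint_iff', adjoint_kop]
  apply kop_congr
  exact Eventually.of_forall fun y => Eventually.of_forall fun x => hs x y

/-! ### composition -/

/-- composition kernel -/
def kcomp (ν : Measure Y) (k₁ : Z → Y → ℝ) (k₂ : Y → X → ℝ) : Z → X → ℝ :=
  fun z x => ∫ y, k₁ z y * k₂ y x ∂ν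

theorem measurable_kcomp [SFinite ν] {k₁ : Z → Y → ℝ} {k₂ : Y → X → ℝ}
    (h₁ : Measurable (Function.uncurry k₁)) (h₂ : Measurable (Function.uncurry k₂)) :
    Measurable (Function.uncurry (kcomp ν k₁ k₂)) := by
  have : StronglyMeasurable fun p : Z × X => ∫ y, k₁ p.1 y * k₂ y p.2 ∂ν := by
    apply StronglyMeasurable.integral_prod_right
    apply Measurable.stronglyMeasurable
    have e1 : Measurable fun q : (Z × X) × Y => k₁ q.1.1 q.2 :=
      h₁.comp ((measurable_fst.comp measurable_fst).prodMk measurable_snd)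
    have e2 : Measurable fun q : (Z × X) × Y => k₂ q.2 q.1.2 :=
      h₂.comp (measurable_snd.prodMk (measurable_snd.comp measurable_fst))
    exact e1.mul e2
  exact this.measurable

theorem hs2_kcomp_le [SFinite μ] [SFinite ν] {k₁ : Z → Y → ℝ} {k₂ : Y → X → ℝ}
    (h₁ : Measurable (Function.uncurry k₁)) (h₂ : Measurable (Function.uncurry k₂)) :
    hs2 lam μ (kcomp ν k₁ k₂) ≤ hs2 lam ν k₁ * hs2 ν μ k₂ := by
  have m1 : Measurable fun z => ∫⁻ y, ‖k₁ z y‖ₑ ^ 2 ∂ν := by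
    apply Measurable.lintegral_prod_right
    exact (h₁.enorm.pow_const 2)
  have m2 : Measurable fun x => ∫⁻ y, ‖k₂ y x‖ₑ ^ 2 ∂ν := by
    apply Measurable.lintegral_prod_right (f := fun (x : X) (y : Y) => ‖k₂ y x‖ₑ ^ 2)
    exact ((h₂.comp measurable_swap).enorm.pow_const 2)
  calc hs2 lam μ (kcomp ν k₁ k₂)
      ≤ ∫⁻ z, ∫⁻ x, (∫⁻ y, ‖k₁ z y‖ₑ ^ 2 ∂ν) * (∫⁻ y, ‖k₂ y x‖ₑ ^ 2 ∂ν) ∂μ ∂lam := by
        unfold hs2
        apply lintegral_mono
        intro z
        apply lintegral_mono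
        intro x
        exact enorm_integral_sq_le (h₁.comp measurable_prodMk_left).aestronglyMeasurable
          (h₂.comp measurable_prodMk_right).aestronglyMeasurable
    _ = ∫⁻ z, (∫⁻ y, ‖k₁ z y‖ₑ ^ 2 ∂ν) * (∫⁻ x, ∫⁻ y, ‖k₂ y x‖ₑ ^ 2 ∂ν ∂μ) ∂lam := by
        congr 1
        ext z
        rw [lintegral_const_mul _ m2]
    _ = hs2 lam ν k₁ * (∫⁻ x, ∫⁻ y, ‖k₂ y x‖ₑ ^ 2 ∂ν ∂μ) := by
        rw [lintegral_mul_const _ m1]
        rfl
    _ = hs2 lam ν k₁ * hs2 ν μ k₂ := by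
        rw [show (∫⁻ x, ∫⁻ y, ‖k₂ y x‖ₑ ^ 2 ∂ν ∂μ) = hs2 μ ν (fun x y => k₂ y x) from rfl,
          hs2_swap h₂]

theorem HK.comp [SFinite μ] [SFinite ν] {k₁ : Z → Y → ℝ} {k₂ : Y → X → ℝ}
    (h₁ : HK lam ν k₁) (h₂ : HK ν μ k₂) : HK lam μ (kcomp ν k₁ k₂) :=
  ⟨measurable_kcomp h₁.meas h₂.meas,
    (hs2_kcomp_le h₁.meas h₂.meas).trans_lt (ENNReal.mul_lt_top h₁.fin h₂.fin)⟩

theorem kop_comp [SFinite μ] [SFinite ν] {k₁ : Z → Y → ℝ} {k₂ : Y → X → ℝ}
    (h₁ : HK lam ν k₁) (h₂ : HK ν μ k₂) : kop h₁ ∘L kop h₂ = kop (h₁.comp h₂) := by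
  ext1 f
  apply Lp.ext
  rw [ContinuousLinearMap.comp_apply]
  refine (kop_ae h₁ _).trans (EventuallyEq.trans ?_ (kop_ae _ f).symm)
  filter_upwards [h₁.ae_memLp] with z hz
  have hi := h₂.integrable_tri (Lp.memLp f) hz
  calc ∫ y, k₁ z y * kop h₂ f y ∂ν = ∫ y, ∫ x, k₁ z y * (k₂ y x * f x) ∂μ ∂ν := by
        apply integral_congr_ae
        filter_upwards [kop_ae h₂ f] with y hy
        rw [hy, ← integral_const_mul]
    _ = ∫ x, ∫ y, k₁ z y * (k₂ y x * f x) ∂ν ∂μ := integral_integral_swap hi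
    _ = ∫ x, kcomp ν k₁ k₂ z x * f x ∂μ := by
        congr 1
        ext x
        unfold kcomp
        rw [← integral_mul_const]
        simp only [mul_assoc]

end Crest.Agent.R247.Ker585
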