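import Crest.Agent.R247.Ker2_585

/-!
R247 block (2b), helper585: bounded kernels on finite measures are Hilbert-Schmidt, with bounds.
-/

set_option autoImplicit false
set_option linter.unusedSectionVars false

noncomputable section

namespace Crest.Agent.R247.Ker585

open MeasureTheory Filter Set
open scoped ENNReal InnerProductSpace

variable {X Y Z : Type*} [MeasurableSpace X] [MeasurableSpace Y] [MeasurableSpace Z]
  {μ : Measure X} {ν : Measure Y} {lam : Measure Z}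

theorem enorm_sq_le_ofReal {a B : ℝ} (h : |a| ≤ B) : ‖a‖ₑ ^ 2 ≤ ENNReal.ofReal (B ^ 2) := by
  have hB : 0 ≤ B := (abs_nonneg a).trans h
  rw [← ofReal_norm, ← ENNReal.ofReal_pow (norm_nonneg _), Real.norm_eq_abs]
  exact ENNReal.ofReal_le_ofReal (by gcongr)

/-- Hilbert-Schmidt norm of an a.e. bounded kernel. -/
theorem hs2_le_of_bdd [IsFiniteMeasure μ] [IsFiniteMeasure ν] {k : Y → X → ℝ} {B : ℝ}
    (hB : ∀ᵐ y ∂ν, ∀ᵐ x ∂μ, |k y x| ≤ B) :
    hs2 ν μ k ≤ ENNReal.ofReal (B ^ 2 * (ν.real univ * μ.real univ)) := by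
  unfold hs2
  calc ∫⁻ y, ∫⁻ x, ‖k y x‖ₑ ^ 2 ∂μ ∂ν
      ≤ ∫⁻ y, ∫⁻ x, ENNReal.ofReal (B ^ 2) ∂μ ∂ν := by
        refine lintegral_mono_ae ?_
        filter_upwards [hB] with y hy
        refine lintegral_mono_ae ?_
        filter_upwards [hy] with x hx
        exact enorm_sq_le_ofReal hx
    _ = ENNReal.ofReal (B ^ 2 * (ν.real univ * μ.real univ)) := by
        rw [lintegral_const, lintegral_const, ENNReal.ofReal_mul (by positivity),
          ENNReal.ofReal_mul (by positivity), measureReal_def, measureReal_def,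
          ENNReal.ofReal_toReal (measure_ne_top _ _), ENNReal.ofReal_toReal (measure_ne_top _ _)]
        ring

theorem HK.of_bdd [IsFiniteMeasure μ] [IsFiniteMeasure ν] {k : Y → X → ℝ} {B : ℝ}
    (hm : Measurable (Function.uncurry k)) (hB : ∀ᵐ y ∂ν, ∀ᵐ x ∂μ, |k y x| ≤ B) :
    HK ν μ k := HK.of_le hm ENNReal.ofReal_lt_top (hs2_le_of_bdd hB)

/-- Norm of the operator of an a.e. bounded kernel. -/
theorem norm_kop_le_of_bdd [IsFiniteMeasure μ] [IsFiniteMeasure ν] {k : Y → X → ℝ} {B : ℝ}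
    (hB0 : 0 ≤ B) (h : HK ν μ k) (hB : ∀ᵐ y ∂ν, ∀ᵐ x ∂μ, |k y x| ≤ B) :
    ‖kop h‖ ≤ B * √(ν.real univ * μ.real univ) := by
  refine norm_kop_le' h (by positivity) ((hs2_le_of_bdd hB).trans (le_of_eq ?_))
  rw [mul_pow, Real.sq_sqrt (by positivity)]

/-- Norm of the difference of two kernel operators. -/
theorem norm_kop_sub_le [SFinite μ] {k k' : Y → X → ℝ} (h : HK ν μ k) (h' : HK ν μ k') {B : ℝ}
    (hB : 0 ≤ B) (hk : hs2 ν μ (fun y x => k y x - k' y x) ≤ ENNReal.ofReal (B ^ 2)) :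
    ‖kop h - kop h'‖ ≤ B := by
  rw [← kop_sub h h']
  exact norm_kop_le' _ hB hk

theorem norm_kop_sub_le_of_bdd [IsFiniteMeasure μ] [IsFiniteMeasure ν] {k k' : Y → X → ℝ}
    (h : HK ν μ k) (h' : HK ν μ k') {B : ℝ}
    (hB0 : 0 ≤ B) (hB : ∀ᵐ y ∂ν, ∀ᵐ x ∂μ, |k y x - k' y x| ≤ B) :
    ‖kop h - kop h'‖ ≤ B * √(ν.real univ * μ.real univ) := by
  rw [← kop_sub h h']
  exact norm_kop_le_of_bdd hB0 _ hB

/-- the Hilbert-Schmidt norm with a bound of the form `sup over the first variable`. -/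
theorem norm_kop_le_of_row [SFinite μ] [IsFiniteMeasure ν] {k : Y → X → ℝ} {B : ℝ}
    (hB0 : 0 ≤ B) (h : HK ν μ k) (hB : ∀ᵐ y ∂ν, ∫⁻ x, ‖k y x‖ₑ ^ 2 ∂μ ≤ ENNReal.ofReal (B ^ 2)) :
    ‖kop h‖ ≤ B * √(ν.real univ) := by
  refine norm_kop_le' h (by positivity) ?_
  unfold hs2
  calc ∫⁻ y, ∫⁻ x, ‖k y x‖ₑ ^ 2 ∂μ ∂ν ≤ ∫⁻ y, ENNReal.ofReal (B ^ 2) ∂ν := lintegral_mono_ae hB
    _ = ENNReal.ofReal ((B * √(ν.real univ)) ^ 2) := by
        rw [lintegral_const, mul_pow, Real.sq_sqrt (by positivity),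
          ENNReal.ofReal_mul (by positivity), measureReal_def,
          ENNReal.ofReal_toReal (measure_ne_top _ _)]

/-- `J* J` is the operator with the Gram kernel. -/
theorem norm_kop_sq [SFinite μ] [SFinite ν] {j : Y → X → ℝ} (hj : HK ν μ j) (ψ : Lp ℝ 2 μ) :
    ‖kop hj ψ‖ ^ 2 = ⟪ψ, kop (hj.swap.comp hj) ψ⟫_ℝ := by
  rw [← kop_comp hj.swap hj, ContinuousLinearMap.comp_apply, ← adjoint_kop hj,
    ContinuousLinearMap.adjoint_inner_right, real_inner_self_eq_norm_sq]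

end Crest.Agent.R247.Ker585
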