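import Crest.Agent.R247.Kt9_622

/-!
# R247, (1-K) (10) (helper622): pointwise bounds of `k`
-/

set_option autoImplicit false
set_option linter.unusedSectionVars false
set_option linter.unusedVariables false

open MeasureTheory Filter Topology Set Metric
open scoped RealInnerProductSpace ENNReal NNReal

noncomputable section

namespace Crest.Agent.R247.Kt622

universe u

open Crest.Agent.R242 Crest.Agent.R247.Dir593 Crest.Agent.R247.Dir593.GradS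
open Crest.Agent.R247.Smv126 Crest.Agent.R247.Obj554 Crest.Agent.R247.Hes124
open Crest.Agent.R247.Far553 Crest.Agent.R247.Mcp688 Crest.Agent.R247.Max193
open Crest.Agent.R247.Fd656

section Obj

variable {n : ℕ} {κ : ℝ} {X : Type u} [MetricSpace X] [ProperSpace X] [MeasurableSpace X]
  [BorelSpace X] {μ : Measure X} [IsFiniteMeasureOnCompacts μ] {B : BochS n κ X μ} {x : X}

lemma uk_ae (k : ℕ) : ∀ᵐ z ∂μ, uk B x k z = f0 x z - dy k ^ 2 * qk B x k z := by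
  have hu : uk B x k = (tL (isT_f0 x) : Lp ℝ 2 μ) - dy k ^ 2 • qk B x k := rfl
  rw [hu]
  filter_upwards [Lp.coeFn_sub (tL (isT_f0 x) : Lp ℝ 2 μ) (dy k ^ 2 • qk B x k),
    Lp.coeFn_smul (dy k ^ 2) (qk B x k), coe_tL (μ := μ) (isT_f0 x)] with z e1 e2 e3
  rw [e1, Pi.sub_apply, e2, Pi.smul_apply, e3, smul_eq_mul]

/-- lower bound -/
lemma kf_ge (W : WLap B.toGradS n κ) (k : ℕ) : ∀ᵐ z ∂μ, -(dist x z ^ 2) ≤ kf B x k z := by
  filter_upwards [uk_ae (B := B) (x := x) k, qL_nonneg W (dy_pos k) x] with z h1 h2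
  unfold kf
  have h3 := hh_le x z
  rw [hh_eq_f0] at h3
  have h4 : 0 ≤ dy k ^ 2 * qk B x k z := mul_nonneg (sq_nonneg _) h2
  rw [h1]
  nlinarith [sq_nonneg ‖B.D (uk B x k) z‖]

/-- `ρ² R q ≤ h + 2 C ρ²` -/
lemma res_qk_le (W : WLap B.toGradS n κ) (hκ : 0 ≤ κ) (k : ℕ) :
    ∀ᵐ z ∂μ, dy k ^ 2 * (QF B.toGradS).res (dy k ^ 2) (qk B x k) z ≤
      hh x z + 2 * CN n κ * dy k ^ 2 := by
  have hρ := dy_pos k
  have h0 : (0:ℝ) < dy k ^ 2 := by positivity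
  have hM : Markov (QF B.toGradS) := B.markov B.dense_V
  set ρ2 := dy k ^ 2 with hρ2
  set R := (QF B.toGradS).res ρ2 with hR
  set f : Lp ℝ 2 μ := tL (isT_f0 x) with hf
  set N : Lp ℝ 2 μ := tL (isT_Nf n κ x) with hN
  have hCN := CN_nonneg n hκ
  have a1 : ∀ᵐ z ∂μ, (ρ2 • qk B x k - f : Lp ℝ 2 μ) z ≤ cinf + CN n κ * ρ2 := by
    filter_upwards [Lp.coeFn_sub (ρ2 • qk B x k) f, Lp.coeFn_smul ρ2 (qk B x k),
      coe_tL (μ := μ) (isT_f0 x), qL_le (S := B.toGradS) (n := n) hκ hρ x] with z e1 e2 e3 e4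
    rw [e1, Pi.sub_apply, e2, Pi.smul_apply, smul_eq_mul, hf, e3]
    rw [hh_eq_f0] at e4
    have : ρ2 * (qk B x k) z ≤ f0 x z + cinf + CN n κ * ρ2 := e4
    linarith
  have a2 := hM.res_le (h := ρ2) h0 (a := cinf + CN n κ * ρ2)
    (by have := cinf_pos; positivity) a1
  have a3 := hM.res_le h0 hCN
    (coe_tL_le (μ := μ) (isT_Nf n κ x) fun z => (le_abs_self _).trans (abs_Nf_le n hκ x z))
  have a4 : R f = uk B x k + ρ2 • R N := by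
    have h1 := uL_eq_res (S := B.toGradS) (n := n) (κ := κ) hρ x
    rw [map_sub, map_smul] at h1
    show _ = uL B.toGradS n κ x (dy k) + _
    rw [h1]
    abel
  have a5 : ρ2 • R (qk B x k) = R (ρ2 • qk B x k - f) + (uk B x k + ρ2 • R N) := by
    rw [← a4, map_sub, map_smul]
    abel
  filter_upwards [a2, a3, uk_ae (B := B) (x := x) k, qL_nonneg W hρ x,
    Lp.coeFn_smul ρ2 (R (qk B x k)), Lp.coeFn_add (R (ρ2 • qk B x k - f)) (uk B x k + ρ2 • R N),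
    Lp.coeFn_add (uk B x k) (ρ2 • R N), Lp.coeFn_smul ρ2 (R N)] with z b1 b2 b3 b4 b5 b6 b7 b8
  rw [a5, b6, Pi.add_apply, b7, Pi.add_apply, b8, Pi.smul_apply, Pi.smul_apply, smul_eq_mul,
    smul_eq_mul, b3] at b5
  have b9 : 0 ≤ ρ2 * qk B x k z := mul_nonneg h0.le b4
  rw [hh_eq_f0, ← b5]
  have b10 : ρ2 * (R N) z ≤ ρ2 * CN n κ := mul_le_mul_of_nonneg_left b2 h0.le
  have b1' : (R (ρ2 • qk B x k - f)) z ≤ cinf + CN n κ * ρ2 := b1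
  linarith

section Kin

variable {A : X → S n} {P : Lp ℝ 2 μ} {k : ℕ}
  (h : BW B (uk B x k) (gL B.toGradS n κ x (dy k)) A P) (W : WLap B.toGradS n κ)
  (hκ : 0 ≤ κ) (hκ1 : κ ≤ 1) (hκρ : 8 * κ * dy k ^ 2 ≤ 1)

/-- `w = R θ0 - θ0` -/
lemma kin_w : (kin h W hκ hκ1 hκρ).w =
    (QF B.toGradS).res (dy k ^ 2) (tL (isT_th x)) - tL (isT_th x) := by
  have hρ := dy_pos k
  have h0 : (0:ℝ) < dy k ^ 2 := by positivity
  have m1 : (QF B.toGradS).res (dy k ^ 2) (tL (isT_th x)) ∈ B.V :=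
    (QF B.toGradS).res_mem h0 (tL (isT_th x))
  have m2 : (tL (isT_th x) : Lp ℝ 2 μ) ∈ B.V := B.tL_mem (isT_th x)
  refine (eq_resD (Q := QF B.toGradS) h0 (B.V.sub_mem m1 m2) fun p hp => ?_).symm
  have e1 := (QF B.toGradS).res_eq h0 (tL (isT_th x)) hp
  rw [form_E_inner] at e1
  show dy k ^ 2 * ⟪B.D ((QF B.toGradS).res (dy k ^ 2) (tL (isT_th x)) - tL (isT_th x)), B.D p⟫ +
    ⟪(QF B.toGradS).res (dy k ^ 2) (tL (isT_th x)) - tL (isT_th x), p⟫ =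
    ⟪(0 : Lp ℝ 2 μ), p⟫ + ⟪-(dy k ^ 2) • B.D (tL (isT_th x)), B.D p⟫
  rw [B.D_sub m1 m2, inner_sub_left, inner_sub_left, inner_zero_left, real_inner_smul_left]
  linarith

/-- `w ≤ 0` near `x` -/
lemma kin_w_le : ∀ᵐ z ∂μ, dist x z ≤ 32 → (kin h W hκ hκ1 hκρ).w z ≤ 0 := by
  have hρ := dy_pos k
  have h0 : (0:ℝ) < dy k ^ 2 := by positivity
  have hM : Markov (QF B.toGradS) := B.markov B.dense_V
  have a1 := hM.res_le h0 (a := 2 * cinf) (by have := cinf_pos; positivity)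
    (coe_tL_le (μ := μ) (isT_th x) (th_le x))
  rw [kin_w]
  filter_upwards [a1, Lp.coeFn_sub ((QF B.toGradS).res (dy k ^ 2) (tL (isT_th x)))
    (tL (isT_th x) : Lp ℝ 2 μ), coe_tL (μ := μ) (isT_th x)] with z b1 b2 b3 hz
  rw [b2, Pi.sub_apply, b3, th_eq_ball hz]
  linarith

include h W hκ hκ1 hκρ in
/-- upper bound -/
lemma kL_le : ∀ᵐ z ∂μ, dist x z ≤ 32 →
    BW.kL (uk B x k) P (isT_th x) z ≤ 2 * dist x z ^ 2 + (8 * CN n κ + bC n) * dy k ^ 2 := by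
  have hρ := dy_pos k
  have h0 : (0:ℝ) < dy k ^ 2 := by positivity
  have hM : Markov (QF B.toGradS) := B.markov B.dense_V
  set K := kin h W hκ hκ1 hκρ with hK
  have e : (K.B1 : X → ℝ) =ᵐ[μ] fun z => 4 * dy k ^ 2 * K.Rq z + K.w z - K.k z +
      dy k ^ 2 * K.Rb z := by
    show (((4 * dy k ^ 2) • K.Rq + K.w - K.k + dy k ^ 2 • K.Rb : Lp ℝ 2 μ) : X → ℝ) =ᵐ[μ] _
    filter_upwards [Lp.coeFn_add ((4 * dy k ^ 2) • K.Rq + K.w - K.k) (dy k ^ 2 • K.Rb),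
      Lp.coeFn_sub ((4 * dy k ^ 2) • K.Rq + K.w) K.k, Lp.coeFn_add ((4 * dy k ^ 2) • K.Rq) K.w,
      Lp.coeFn_smul (4 * dy k ^ 2) K.Rq, Lp.coeFn_smul (dy k ^ 2) K.Rb] with z a1 a2 a3 a4 a5
    rw [a1, Pi.add_apply, a2, Pi.sub_apply, a3, Pi.add_apply, a4, a5]
    rfl
  have hb := hM.res_le h0 (bC_nonneg n) (bL_le (μ := μ) n x)
  filter_upwards [e, K.B1_nonneg h0, kin_w_le h W hκ hκ1 hκρ, res_qk_le (x := x) W hκ k, hb]
    with z b1 b2 b3 b4 b5 hz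
  have c1 : K.w z ≤ 0 := b3 hz
  have c2 : dy k ^ 2 * K.Rq z ≤ hh x z + 2 * CN n κ * dy k ^ 2 := b4
  have c3 : K.Rb z ≤ bC n := b5
  have c4 := hh_le x z
  have c5 : dy k ^ 2 * K.Rb z ≤ dy k ^ 2 * bC n := mul_le_mul_of_nonneg_left c3 h0.le
  show K.k z ≤ _
  rw [b1] at b2
  linarith

end Kin

/-- **sup bound** -/
theorem abs_kf_le (hκ : 0 ≤ κ) (hκ1 : κ ≤ 1) (W : WLap B.toGradS n κ) {A : X → S n} {P : Lp ℝ 2 μ}
    {k : ℕ} (h : BW B (uk B x k) (gL B.toGradS n κ x (dy k)) A P)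
    (hκρ : 8 * κ * dy k ^ 2 ≤ 1) : ∀ᵐ z ∂μ, dist x z ≤ 32 →
    |kf B x k z| ≤ (2 + 8 * CN n 1 + bC n) * (dist x z ^ 2 + dy k ^ 2) := by
  have hCN := CN_nonneg n zero_le_one
  have hb := bC_nonneg n
  have hm := CN_mono n hκ1
  filter_upwards [kL_le h W hκ hκ1 hκρ, kL_eq_kf h, kf_ge (x := x) W k] with z h1 h2 h3 hz
  have h4 := h1 hz
  rw [h2 hz] at h4
  have h5 : (0:ℝ) ≤ dist x z ^ 2 := sq_nonneg _
  have h6 : (0:ℝ) ≤ dy k ^ 2 := sq_nonneg _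
  have h7 : (8 * CN n κ + bC n) * dy k ^ 2 ≤ (8 * CN n 1 + bC n) * dy k ^ 2 := by gcongr
  have h8 : 0 ≤ (8 * CN n 1 + bC n) * dist x z ^ 2 := by positivity
  have h9 : 0 ≤ (8 * CN n 1 + bC n) * dy k ^ 2 := by positivity
  rw [abs_le]
  constructor <;> nlinarith

/-- **global bounds** -/
theorem far_bounds (hκ : 0 ≤ κ) (hκ1 : 4 * κ ≤ 1) (W : WLap B.toGradS n κ) (O : HObj B x)
    (k : ℕ) : ∀ᵐ z ∂μ, |kf B x k z| ≤ (2 * CA n 1) ^ 2 + 2 * (2 * cinf + CN n 1) ∧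
      nf O k z ≤ 4 * CA n 1 * Hf O k z := by
  filter_upwards [norm_Duk_le hκ hκ1 W O k, abs_uk_le (B := B) x k hκ] with z h1 h2
  have hm := CN_mono n (show κ ≤ 1 by linarith)
  have hc := cinf_pos
  constructor
  · unfold kf
    have h3 : ‖B.D (uk B x k) z‖ ^ 2 ≤ (2 * CA n 1) ^ 2 := pow_le_pow_left₀ (norm_nonneg _) h1 2
    have h4 := sq_nonneg ‖B.D (uk B x k) z‖
    have h5 := abs_le.1 h2
    have h6 : 0 ≤ (2 * CA n 1) ^ 2 := sq_nonneg _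
    rw [abs_le]
    constructor <;> linarith [h5.1, h5.2]
  · unfold nf Hf
    have h3 := norm_mv_le (O.A k z - idm n) (B.D (uk B x k) z)
    have h4 := mul_le_mul_of_nonneg_left h1 (norm_nonneg (O.A k z - idm n))
    linarith

end Obj

end Crest.Agent.R247.Kt622
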