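import Crest.Agent.R247.Dir2_593

/-!
R247, leaf (1-M) (helper193), abstract part: splitting of a positive functional on the form
domain, local maximal inequality for `sup_h (1 + h L)⁻¹ l` on a set `B`.
-/

set_option autoImplicit false
set_option linter.unusedSectionVars false

open MeasureTheory Filter Topology Set
open scoped RealInnerProductSpace ENNReal

noncomputable section

namespace Crest.Agent.R247.Max193

open Crest.Agent.R242 Crest.Agent.R247.Dir593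

variable {X : Type*} [MeasurableSpace X] {μ : Measure X} {Q : CForm (Lp ℝ 2 μ)}

/-! ### order of functionals -/

/-- the functional is positive -/
def Pos (l : Fnl Q) : Prop := ∀ w ∈ Q.dom, 0 ≤ᵐ[μ] (w : X → ℝ) → 0 ≤ l.f w

/-- the functional only sees the set `U` -/
def SuppIn (l : Fnl Q) (U : Set X) : Prop :=
  ∀ w ∈ Q.dom, (∀ᵐ y ∂μ, y ∈ U → w y = 0) → l.f w = 0

/-- mass bound -/
def Mass (l : Fnl Q) (m : ℝ) : Prop :=
  ∀ w ∈ Q.dom, 0 ≤ᵐ[μ] (w : X → ℝ) → (∀ᵐ x ∂μ, w x ≤ 1) → l.f w ≤ m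

theorem Mass.nonneg {l : Fnl Q} {m : ℝ} (hm : Mass l m) : 0 ≤ m := by
  have := hm 0 Q.dom.zero_mem (by
    filter_upwards [Lp.coeFn_zero (E := ℝ) (p := 2) (μ := μ)] with x hx; rw [hx]) (by
    filter_upwards [Lp.coeFn_zero (E := ℝ) (p := 2) (μ := μ)] with x hx; rw [hx]; simp)
  rwa [l.zero] at this

theorem Pos.mono {l : Fnl Q} (hl : Pos l) {u v : Lp ℝ 2 μ} (hu : u ∈ Q.dom) (hv : v ∈ Q.dom)
    (h : ∀ᵐ y ∂μ, u y ≤ v y) : l.f u ≤ l.f v := by
  have h1 := hl (v - u) (Q.dom.sub_mem hv hu) (by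
    filter_upwards [Lp.coeFn_sub v u, h] with y e1 e2
    rw [e1, Pi.sub_apply]
    simpa using e2)
  rw [l.sub hv hu] at h1
  linarith

/-- monotonicity seen only on `U` -/
theorem Pos.mono_on (hQ : Markov Q) {l : Fnl Q} (hl : Pos l) {U : Set X} (hU : SuppIn l U)
    {u v : Lp ℝ 2 μ} (hu : u ∈ Q.dom) (hv : v ∈ Q.dom)
    (h : ∀ᵐ y ∂μ, y ∈ U → u y ≤ v y) : l.f u ≤ l.f v := by
  set w : Lp ℝ 2 μ := cutL (u - v) 0 le_rfl with hw
  have huv : u - v ∈ Q.dom := Q.dom.sub_mem hu hv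
  have hwd : w ∈ Q.dom := hQ.cut_mem huv le_rfl
  have hwc : ∀ᵐ y ∂μ, w y = max (u y - v y) 0 := by
    filter_upwards [coe_cutL (u - v) (le_refl (0:ℝ)), Lp.coeFn_sub u v] with y e1 e2
    rw [hw, e1, e2, Pi.sub_apply, sub_zero]
  have h0 : l.f w = 0 := hU w hwd (by
    filter_upwards [hwc, h] with y e1 e2 hy
    rw [e1, max_eq_right (by linarith [e2 hy])])
  have h1 : l.f u ≤ l.f (v + w) := by
    refine hl.mono hu (Q.dom.add_mem hv hwd) ?_
    filter_upwards [hwc, Lp.coeFn_add v w] with y e1 e2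
    rw [e2, Pi.add_apply, e1]
    linarith [le_max_left (u y - v y) 0]
  rw [l.add' hv hwd, h0, add_zero] at h1
  exact h1

/-! ### splitting -/

theorem resD_split {h : ℝ} (hh : 0 < h) {l l1 l2 : Fnl Q}
    (hl : ∀ w ∈ Q.dom, l.f w = l1.f w + l2.f w) :
    resD Q h l = resD Q h l1 + resD Q h l2 := by
  symm
  refine eq_resD hh (Q.dom.add_mem (resD_mem hh l1) (resD_mem hh l2)) fun v hv => ?_
  rw [Q.add_left (resD_mem hh l1) (resD_mem hh l2) hv, inner_add_left, hl v hv,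
    ← resD_eq hh l1 hv, ← resD_eq hh l2 hv]
  ring

/-- Markov's inequality on `B` for `R l`, `l` positive. -/
theorem markov_resD (hQ : Markov Q) {h : ℝ} (hh : 0 < h) {l : Fnl Q} (hl : Pos l) {B : Set X}
    (hB : MeasurableSet B) (hμ : μ B ≠ ∞) {o : ℝ} (ho : l.f (Q.res h (ind hB hμ)) ≤ o)
    {t : ℝ} (ht : 0 < t) :
    μ {x | x ∈ B ∧ t < resD Q h l x} ≤ ENNReal.ofReal (o / t) := by
  have h0 := hQ.resD_nonneg hh hl
  have h1 : ∫ x in B, resD Q h l x ∂μ ≤ o := by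
    rw [← inner_ind _ hB hμ, inner_resD hh]; exact ho
  have h2 : ∫⁻ x in B, ENNReal.ofReal (resD Q h l x) ∂μ ≤ ENNReal.ofReal o := by
    rw [← ofReal_integral_eq_lintegral_ofReal (integrableOn_of_L2 (resD Q h l) hB hμ)
      (ae_restrict_of_ae h0)]
    exact ENNReal.ofReal_le_ofReal h1
  have hm : AEMeasurable (fun x => ENNReal.ofReal (resD Q h l x)) (μ.restrict B) :=
    ((Lp.aestronglyMeasurable (resD Q h l)).aemeasurable.ennreal_ofReal).restrict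
  have h3 := mul_meas_ge_le_lintegral₀ hm (ENNReal.ofReal t)
  have h4 : μ {x | x ∈ B ∧ t < resD Q h l x} ≤
      μ.restrict B {x | ENNReal.ofReal t ≤ ENNReal.ofReal (resD Q h l x)} := by
    rw [Measure.restrict_apply' hB]
    refine measure_mono fun x hx => ⟨?_, hx.1⟩
    exact ENNReal.ofReal_le_ofReal hx.2.le
  have ht' : ENNReal.ofReal t ≠ 0 := by simpa using ht
  rw [ENNReal.ofReal_div_of_pos ht]
  refine h4.trans ?_
  rw [ENNReal.le_div_iff_mul_le (Or.inl ht') (Or.inl ENNReal.ofReal_ne_top), mul_comm]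
  exact h3.trans h2

/-- **local maximal inequality**: `l = lin + lout`, `lin` of small mass, `lout` far from `B`. -/
theorem weak11_local [SigmaFinite μ] (hQ : Markov Q) {l lin lout : Fnl Q}
    (hsplit : ∀ w ∈ Q.dom, l.f w = lin.f w + lout.f w) (hin : Pos lin) (hout : Pos lout)
    {B : Set X} (hB : MeasurableSet B) (hμ : μ B ≠ ∞) {h : ℕ → ℝ} (hh : ∀ i, 0 < h i)
    {m : ℝ} (hm : Mass lin m) {o : ℕ → ℝ} (ho0 : ∀ i, 0 ≤ o i) (hos : Summable o)
    (ho : ∀ i, lout.f (Q.res (h i) (ind hB hμ)) ≤ o i) {t : ℝ} (ht : 0 < t) :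
    μ {x | x ∈ B ∧ ∃ i, t < resD Q (h i) l x} ≤ ENNReal.ofReal (2 * (m + ∑' i, o i) / t) := by
  have ht2 : 0 < t / 2 := by positivity
  have h1 := Markov.weak11_resD_all hQ hin hm ht2 h hh
  have h2 : ∀ i, μ {x | x ∈ B ∧ t / 2 < resD Q (h i) lout x} ≤ ENNReal.ofReal (o i / (t / 2)) :=
    fun i => markov_resD hQ (hh i) hout hB hμ (ho i) ht2
  have hae : ∀ᵐ x ∂μ, ∀ i, resD Q (h i) l x = resD Q (h i) lin x + resD Q (h i) lout x := by
    refine ae_all_iff.2 fun i => ?_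
    rw [resD_split (hh i) hsplit]
    filter_upwards [Lp.coeFn_add (resD Q (h i) lin) (resD Q (h i) lout)] with x hx
    rw [hx, Pi.add_apply]
  have hsub : {x | x ∈ B ∧ ∃ i, t < resD Q (h i) l x} ≤ᵐ[μ]
      ({x | ∃ i, t / 2 < resD Q (h i) lin x} ∪ ⋃ i, {x | x ∈ B ∧ t / 2 < resD Q (h i) lout x} :
        Set X) := by
    filter_upwards [hae] with x hx hxm
    obtain ⟨hxB, i, hi⟩ := hxm
    rw [hx i] at hi
    by_cases hc : t / 2 < resD Q (h i) lin x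
    · exact Or.inl ⟨i, hc⟩
    · refine Or.inr (mem_iUnion.2 ⟨i, hxB, ?_⟩)
      rw [not_lt] at hc
      linarith
  refine (measure_mono_ae hsub).trans ((measure_union_le _ _).trans ?_)
  have h3 : ∑' i, μ {x | x ∈ B ∧ t / 2 < resD Q (h i) lout x} ≤
      ENNReal.ofReal ((∑' i, o i) / (t / 2)) := by
    refine (ENNReal.tsum_le_tsum h2).trans ?_
    rw [← ENNReal.ofReal_tsum_of_nonneg (fun i => div_nonneg (ho0 i) ht2.le) (hos.div_const _),
      tsum_div_const]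
  refine (add_le_add h1 ((measure_iUnion_le _).trans h3)).trans ?_
  have hm0 : 0 ≤ m := hm.nonneg
  have hs0 : 0 ≤ ∑' i, o i := tsum_nonneg ho0
  rw [← ENNReal.ofReal_add (div_nonneg hm0 ht2.le) (div_nonneg hs0 ht2.le)]
  refine ENNReal.ofReal_le_ofReal (le_of_eq ?_)
  field_simp

/-! ### multipliers -/

/-- `p` is a multiplier of the form domain, `0 ≤ p ≤ 1`. -/
structure Mult (Q : CForm (Lp ℝ 2 μ)) (p : X → ℝ) where
  meas : AEStronglyMeasurable p μ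
  nonneg : ∀ᵐ x ∂μ, 0 ≤ p x
  le_one : ∀ᵐ x ∂μ, p x ≤ 1
  C : ℝ
  C0 : 0 ≤ C
  mem : ∀ {u w : Lp ℝ 2 μ}, u ∈ Q.dom → ((w : X → ℝ) =ᵐ[μ] fun x => p x * u x) →
    w ∈ Q.dom ∧ ‖w‖ ^ 2 + Q.E w w ≤ C ^ 2 * (‖u‖ ^ 2 + Q.E u u)

theorem Mult.memLp {p : X → ℝ} (M : Mult Q p) (u : Lp ℝ 2 μ) : MemLp (fun x => p x * u x) 2 μ := by
  refine (Lp.memLp u).of_le_mul (c := 1) (M.meas.mul (Lp.aestronglyMeasurable u)) ?_
  filter_upwards [M.nonneg, M.le_one] with x h0 h1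
  rw [Real.norm_eq_abs, Real.norm_eq_abs, abs_mul, abs_of_nonneg h0]
  exact mul_le_mul_of_nonneg_right h1 (abs_nonneg _)

/-- multiplication by `p` on `L²` -/
def Mult.mul {p : X → ℝ} (M : Mult Q p) (u : Lp ℝ 2 μ) : Lp ℝ 2 μ := (M.memLp u).toLp _

theorem Mult.coe_mul {p : X → ℝ} (M : Mult Q p) (u : Lp ℝ 2 μ) :
    (M.mul u : X → ℝ) =ᵐ[μ] fun x => p x * u x := MemLp.coeFn_toLp _

theorem Mult.mul_mem {p : X → ℝ} (M : Mult Q p) {u : Lp ℝ 2 μ} (hu : u ∈ Q.dom) :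
    M.mul u ∈ Q.dom := (M.mem hu (M.coe_mul u)).1

theorem Mult.mul_add {p : X → ℝ} (M : Mult Q p) (u v : Lp ℝ 2 μ) :
    M.mul (u + v) = M.mul u + M.mul v := by
  ext1
  filter_upwards [M.coe_mul (u + v), M.coe_mul u, M.coe_mul v, Lp.coeFn_add u v,
    Lp.coeFn_add (M.mul u) (M.mul v)] with x e1 e2 e3 e4 e5
  rw [e1, e5, Pi.add_apply, e2, e3, e4, Pi.add_apply]
  ring

theorem Mult.mul_smul {p : X → ℝ} (M : Mult Q p) (c : ℝ) (u : Lp ℝ 2 μ) :
    M.mul (c • u) = c • M.mul u := by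
  ext1
  filter_upwards [M.coe_mul (c • u), M.coe_mul u, Lp.coeFn_smul c u,
    Lp.coeFn_smul c (M.mul u)] with x e1 e2 e3 e4
  rw [e1, e4, Pi.smul_apply, e2, e3, Pi.smul_apply, smul_eq_mul, smul_eq_mul]
  ring

/-- the functional `w ↦ l (p w)` -/
def Mult.fnl {p : X → ℝ} (M : Mult Q p) (l : Fnl Q) : Fnl Q where
  f := fun w => l.f (M.mul w)
  add' := fun {u v} hu hv => by rw [M.mul_add, l.add' (M.mul_mem hu) (M.mul_mem hv)]
  smul' := fun c {u} hu => by rw [M.mul_smul, l.smul' c (M.mul_mem hu)]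
  C := l.C * M.C
  C0 := mul_nonneg l.C0 M.C0
  bound := fun {u} hu => by
    refine (l.bound (M.mul_mem hu)).trans ?_
    rw [mul_assoc]
    refine mul_le_mul_of_nonneg_left ?_ l.C0
    have h1 := (M.mem hu (M.coe_mul u)).2
    have h2 := Q.nonneg hu
    calc Real.sqrt (‖M.mul u‖ ^ 2 + Q.E (M.mul u) (M.mul u))
        ≤ Real.sqrt (M.C ^ 2 * (‖u‖ ^ 2 + Q.E u u)) := Real.sqrt_le_sqrt h1
      _ = M.C * Real.sqrt (‖u‖ ^ 2 + Q.E u u) := by
          rw [Real.sqrt_mul (sq_nonneg _), Real.sqrt_sq M.C0]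

theorem Mult.fnl_pos {p : X → ℝ} (M : Mult Q p) {l : Fnl Q} (hl : Pos l) : Pos (M.fnl l) := by
  intro w hw h0
  refine hl _ (M.mul_mem hw) ?_
  filter_upwards [M.coe_mul w, M.nonneg, h0] with x e1 e2 e3
  rw [e1]
  exact mul_nonneg e2 e3

/-- the mass of `l (p ·)` is at most `l p'`, for `p ≤ p'` in the domain -/
theorem Mult.fnl_mass {p : X → ℝ} (M : Mult Q p) {l : Fnl Q} (hl : Pos l) {v : Lp ℝ 2 μ}
    (hv : v ∈ Q.dom) (hpv : ∀ᵐ x ∂μ, p x ≤ v x) : Mass (M.fnl l) (l.f v) := by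
  intro w hw h0 h1
  refine hl.mono (M.mul_mem hw) hv ?_
  filter_upwards [M.coe_mul w, M.nonneg, h0, h1, hpv] with x e1 e2 e3 e4 e5
  rw [e1]
  refine le_trans ?_ e5
  calc p x * w x ≤ p x * 1 := mul_le_mul_of_nonneg_left e4 e2
    _ = p x := mul_one _

/-- the complementary multiplier -/
def Mult.compl {p : X → ℝ} (M : Mult Q p) : Mult Q (fun x => 1 - p x) where
  meas := aestronglyMeasurable_const.sub M.meas
  nonneg := by filter_upwards [M.le_one] with x hx; linarith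
  le_one := by filter_upwards [M.nonneg] with x hx; linarith
  C := 2 * (1 + M.C)
  C0 := by have := M.C0; positivity
  mem := fun {u w} hu hw => by
    have e : w = u - M.mul u := by
      ext1
      filter_upwards [hw, M.coe_mul u, Lp.coeFn_sub u (M.mul u)] with x e1 e2 e3
      rw [e1, e3, Pi.sub_apply, e2]; ring
    have h1 := (M.mem hu (M.coe_mul u)).2
    have h2 := M.mul_mem hu
    have h0 := Q.nonneg hu
    have hd := Q.dom.sub_mem hu h2
    refine ⟨by rw [e]; exact hd, ?_⟩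
    have h3 : ‖w‖ ^ 2 + Q.E w w ≤ 2 * (‖u‖ ^ 2 + Q.E u u) +
        2 * (‖M.mul u‖ ^ 2 + Q.E (M.mul u) (M.mul u)) := by
      have h4 : 0 ≤ Q.E (u + M.mul u) (u + M.mul u) := Q.nonneg (Q.dom.add_mem hu h2)
      rw [Q.expand_add hu h2] at h4
      rw [e, Q.expand_sub hu h2]
      have h5 : ‖u - M.mul u‖ ^ 2 ≤ 2 * ‖u‖ ^ 2 + 2 * ‖M.mul u‖ ^ 2 := by
        have h6 := parallelogram_law_with_norm ℝ u (M.mul u)
        nlinarith [sq_nonneg ‖u + M.mul u‖, norm_nonneg (u + M.mul u)]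
      linarith
    have h7 : 0 ≤ ‖u‖ ^ 2 + Q.E u u := by positivity
    nlinarith [M.C0, mul_nonneg M.C0 h7, sq_nonneg M.C]

theorem Mult.split {p : X → ℝ} (M : Mult Q p) (l : Fnl Q) {w : Lp ℝ 2 μ} (hw : w ∈ Q.dom) :
    l.f w = (M.fnl l).f w + (M.compl.fnl l).f w := by
  show l.f w = l.f (M.mul w) + l.f (M.compl.mul w)
  rw [← l.add' (M.mul_mem hw) (M.compl.mul_mem hw)]
  congr 1
  ext1
  filter_upwards [M.coe_mul w, M.compl.coe_mul w, Lp.coeFn_add (M.mul w) (M.compl.mul w)]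
    with x e1 e2 e3
  rw [e3, Pi.add_apply, e1, e2]; ring

/-- the out part: bound through finitely many shells -/
theorem Mult.out_le (hQ : Markov Q) {p : X → ℝ} (M : Mult Q p) {l : Fnl Q} (hl : Pos l)
    {U : Set X} (hU : SuppIn l U) {u : Lp ℝ 2 μ} (hu : u ∈ Q.dom) {J : ℕ} {v : ℕ → Lp ℝ 2 μ}
    (hv : ∀ j, v j ∈ Q.dom) {c : ℕ → ℝ}
    (h : ∀ᵐ x ∂μ, x ∈ U → (1 - p x) * u x ≤ ∑ j ∈ Finset.range J, c j * v j x) :
    (M.compl.fnl l).f u ≤ ∑ j ∈ Finset.range J, c j * l.f (v j) := by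
  have hsum : ∀ K : ℕ, (∑ j ∈ Finset.range K, c j • v j) ∈ Q.dom ∧
      l.f (∑ j ∈ Finset.range K, c j • v j) = ∑ j ∈ Finset.range K, c j * l.f (v j) ∧
      ((∑ j ∈ Finset.range K, c j • v j : Lp ℝ 2 μ) : X → ℝ) =ᵐ[μ]
        fun x => ∑ j ∈ Finset.range K, c j * v j x := by
    intro K
    induction K with
    | zero =>
      simp only [Finset.range_zero, Finset.sum_empty]
      exact ⟨Q.dom.zero_mem, l.zero, Lp.coeFn_zero _ _ _⟩
    | succ K ih =>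
      obtain ⟨i1, i2, i3⟩ := ih
      have hs := Q.dom.smul_mem (c K) (hv K)
      refine ⟨by rw [Finset.sum_range_succ]; exact Q.dom.add_mem i1 hs, ?_, ?_⟩
      · rw [Finset.sum_range_succ, l.add' i1 hs, l.smul' _ (hv K), i2, Finset.sum_range_succ]
      · rw [Finset.sum_range_succ]
        filter_upwards [Lp.coeFn_add (∑ j ∈ Finset.range K, c j • v j) (c K • v K), i3,
          Lp.coeFn_smul (c K) (v K)] with x e1 e2 e3
        rw [e1, Pi.add_apply, e2, e3, Pi.smul_apply, smul_eq_mul, Finset.sum_range_succ]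
  obtain ⟨i1, i2, i3⟩ := hsum J
  rw [← i2]
  refine hl.mono_on hQ hU (M.compl.mul_mem hu) i1 ?_
  filter_upwards [M.compl.coe_mul u, i3, h] with x e1 e2 e3 hx
  rw [e1, e2]
  exact e3 hx

theorem summable_exp_two_pow {a : ℝ} (ha : 0 < a) :
    Summable (fun i : ℕ => Real.exp (-(a * 2 ^ i))) ∧
      ∑' i : ℕ, Real.exp (-(a * 2 ^ i)) ≤ Real.exp (-a) / (1 - Real.exp (-a)) := by
  have h1 : ∀ i : ℕ, Real.exp (-(a * 2 ^ i)) ≤ Real.exp (-a) * Real.exp (-a) ^ i := by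
    intro i
    rw [← Real.exp_nat_mul, ← Real.exp_add]
    refine Real.exp_le_exp.2 ?_
    have h2 : ((i : ℝ) + 1) ≤ 2 ^ i := by
      have : i + 1 ≤ 2 ^ i := Nat.lt_two_pow_self
      exact_mod_cast this
    nlinarith
  have h3 : Real.exp (-a) < 1 := by
    rw [Real.exp_lt_one_iff]; linarith
  have h4 := (summable_geometric_of_lt_one (Real.exp_pos _).le h3).mul_left (Real.exp (-a))
  have h5 : Summable (fun i : ℕ => Real.exp (-(a * 2 ^ i))) :=
    Summable.of_nonneg_of_le (fun i => (Real.exp_pos _).le) h1 h4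
  refine ⟨h5, ?_⟩
  refine (h5.tsum_le_tsum h1 h4).trans ?_
  rw [tsum_mul_left, tsum_geometric_of_lt_one (Real.exp_pos _).le h3, div_eq_mul_inv]

/-- **local maximal inequality with shells**: `R_i 1_B ≤ C exp (-a 2^(i+j))` on the `j`-th shell. -/
theorem weak11_shells [SigmaFinite μ] (hQ : Markov Q) {l : Fnl Q} (hl : Pos l)
    {U : Set X} (hU : SuppIn l U) {B : Set X} (hB : MeasurableSet B) (hμ : μ B ≠ ∞)
    {h : ℕ → ℝ} (hh : ∀ i, 0 < h i) {p : X → ℝ} (M : Mult Q p) {v0 : Lp ℝ 2 μ} (hv0 : v0 ∈ Q.dom)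
    (hpv : ∀ᵐ x ∂μ, p x ≤ v0 x) {J : ℕ} {v : ℕ → Lp ℝ 2 μ} (hv : ∀ j, v j ∈ Q.dom)
    (hvn : ∀ j, 0 ≤ᵐ[μ] (v j : X → ℝ)) {C a : ℝ} (hC : 0 ≤ C) (ha : 0 < a)
    (hdec : ∀ i, ∀ᵐ x ∂μ, x ∈ U → (1 - p x) * Q.res (h i) (ind hB hμ) x ≤
      ∑ j ∈ Finset.range J, (C * Real.exp (-(a * 2 ^ j * 2 ^ i))) * v j x)
    {t : ℝ} (ht : 0 < t) :
    μ {x | x ∈ B ∧ ∃ i, t < resD Q (h i) l x} ≤
      ENNReal.ofReal (2 * (l.f v0 + C / (1 - Real.exp (-a)) *
        ∑ j ∈ Finset.range J, Real.exp (-(a * 2 ^ j)) * l.f (v j)) / t) := by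
  have hlv : ∀ j, 0 ≤ l.f (v j) := fun j => hl _ (hv j) (hvn j)
  have haj : ∀ j : ℕ, 0 < a * 2 ^ j := fun j => by positivity
  have hterm : ∀ j : ℕ, Summable fun i : ℕ => (C * Real.exp (-(a * 2 ^ j * 2 ^ i))) * l.f (v j) :=
    fun j => ((summable_exp_two_pow (haj j)).1.mul_left C).mul_right _
  have hs : Summable fun i : ℕ => ∑ j ∈ Finset.range J,
      (C * Real.exp (-(a * 2 ^ j * 2 ^ i))) * l.f (v j) :=
    summable_sum fun j _ => hterm j
  have h1 := weak11_local hQ (l := l) (lin := M.fnl l) (lout := M.compl.fnl l)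
    (fun w hw => M.split l hw) (M.fnl_pos hl) (M.compl.fnl_pos hl) hB hμ hh
    (M.fnl_mass hl hv0 hpv)
    (o := fun i => ∑ j ∈ Finset.range J, (C * Real.exp (-(a * 2 ^ j * 2 ^ i))) * l.f (v j))
    (fun i => Finset.sum_nonneg fun j _ =>
      mul_nonneg (mul_nonneg hC (Real.exp_pos _).le) (hlv j)) hs
    (fun i => M.out_le hQ hl hU (Q.res_mem (hh i) _) hv (hdec i)) ht
  refine h1.trans (ENNReal.ofReal_le_ofReal ?_)
  have h2 : ∑' i : ℕ, ∑ j ∈ Finset.range J, (C * Real.exp (-(a * 2 ^ j * 2 ^ i))) * l.f (v j) ≤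
      C / (1 - Real.exp (-a)) * ∑ j ∈ Finset.range J, Real.exp (-(a * 2 ^ j)) * l.f (v j) := by
    rw [Summable.tsum_finsetSum fun j _ => hterm j, Finset.mul_sum]
    refine Finset.sum_le_sum fun j _ => ?_
    rw [tsum_mul_right, tsum_mul_left]
    have h3 := (summable_exp_two_pow (haj j)).2
    have h4 : Real.exp (-(a * 2 ^ j)) ≤ Real.exp (-a) := by
      refine Real.exp_le_exp.2 ?_
      have : (1:ℝ) ≤ 2 ^ j := one_le_pow₀ (by norm_num)
      nlinarith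
    have h5 : Real.exp (-a) < 1 := by rw [Real.exp_lt_one_iff]; linarith
    have h6 : Real.exp (-(a * 2 ^ j)) / (1 - Real.exp (-(a * 2 ^ j))) ≤
        Real.exp (-(a * 2 ^ j)) / (1 - Real.exp (-a)) :=
      div_le_div_of_nonneg_left (Real.exp_pos _).le (by linarith) (by linarith)
    calc C * (∑' i : ℕ, Real.exp (-(a * 2 ^ j * 2 ^ i))) * l.f (v j)
        ≤ C * (Real.exp (-(a * 2 ^ j)) / (1 - Real.exp (-a))) * l.f (v j) :=
          mul_le_mul_of_nonneg_right (mul_le_mul_of_nonneg_left (h3.trans h6) hC) (hlv j)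
      _ = C / (1 - Real.exp (-a)) * (Real.exp (-(a * 2 ^ j)) * l.f (v j)) := by ring
  gcongr

end Crest.Agent.R247.Max193
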