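import Crest.Agent.R247.Sv1_436

/-! # R247, leaf (1-S): survival bounds

`Q` (= `q_ρ` or `R q_ρ` for the centre `x`) satisfies, for all `v`, `β > 0`, `c`:
if `c ≤ h x z + β h v z` for all `z`, then a.e. `Q z ≤ A (h x z + β h v z - c) + C0 (1 + β)`.
Consequence: `Q z ≤ C0 (1 + τ/τ')` at (almost) every point `z` between `x` and `v`,
`τ = d(x,z)`, `τ' = d(z,v)`. -/

set_option autoImplicit false
set_option linter.unusedSectionVars false
open MeasureTheory Set Filter Topology TopologicalSpace
open scoped ENNReal NNReal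

noncomputable section
namespace Crest.Agent.R247.Sv436

open Crest.Agent.R247.Mcp688

variable {X : Type*} [MetricSpace X] [MeasurableSpace X] [BorelSpace X] {μ : Measure X}

/-- the functions `h y z = F (d(y,z))`, `F t = t²/2` for `t ≤ R0`, `F ≥ R0²/2` beyond. -/
structure HalfSq (h : X → X → ℝ) (R0 : ℝ) : Prop where
  near : ∀ y z, dist y z ≤ R0 → h y z = dist y z ^ 2 / 2
  far : ∀ y z, R0 ≤ dist y z → R0 ^ 2 / 2 ≤ h y z
  lip : ∃ L, ∀ y y' z, |h y z - h y' z| ≤ L * dist y y'

lemma HalfSq.nonneg {h : X → X → ℝ} {R0 : ℝ} (H : HalfSq h R0) (y z : X) : 0 ≤ h y z := by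
  rcases le_total (dist y z) R0 with h1 | h1
  · rw [H.near y z h1]; positivity
  · exact (by positivity : 0 ≤ R0 ^ 2 / 2).trans (H.far y z h1)

/-- elementary convexity: `β/(1+β) (a+b)² ≤ a² + β b²` -/
lemma conv_ineq {β a b : ℝ} (hβ : 0 < β) : β / (1 + β) * (a + b) ^ 2 ≤ a ^ 2 + β * b ^ 2 := by
  rw [div_mul_eq_mul_div, div_le_iff₀ (by linarith)]
  nlinarith [sq_nonneg (a - β * b)]

/-- lower bound for `h x z + β h v z` -/
lemma HalfSq.lower {h : X → X → ℝ} {R0 : ℝ} (H : HalfSq h R0) {x v : X} (hv : dist x v ≤ R0)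
    {β : ℝ} (hβ : 0 < β) (z : X) :
    β / (1 + β) * (dist x v ^ 2 / 2) ≤ h x z + β * h v z := by
  have hR0 : 0 ≤ R0 := dist_nonneg.trans hv
  have hd : dist x v ^ 2 ≤ R0 ^ 2 := by gcongr
  have hb1 : β / (1 + β) ≤ 1 := by rw [div_le_one (by linarith)]; linarith
  have hb2 : β / (1 + β) ≤ β := by
    rw [div_le_iff₀ (by linarith)]
    nlinarith
  have hb0 : 0 ≤ β / (1 + β) := by positivity
  rcases le_total (dist x z) R0 with h1 | h1
  · rcases le_total (dist v z) R0 with h2 | h2
    · rw [H.near x z h1, H.near v z h2]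
      have h3 : dist x v ^ 2 ≤ (dist x z + dist v z) ^ 2 := by
        have := dist_triangle_right x v z
        gcongr
      have h4 := conv_ineq (a := dist x z) (b := dist v z) hβ
      have h5 : β / (1 + β) * dist x v ^ 2 ≤ β / (1 + β) * (dist x z + dist v z) ^ 2 := by
        gcongr
      linarith
    · have h3 := H.far v z h2
      have h4 := H.nonneg x z
      have h5 : β / (1 + β) * (dist x v ^ 2 / 2) ≤ β * (R0 ^ 2 / 2) := by gcongr
      have h6 : β * (R0 ^ 2 / 2) ≤ β * h v z := by gcongr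
      linarith
  · have h3 := H.far x z h1
    have h4 := mul_nonneg hβ.le (H.nonneg v z)
    have h5 : β / (1 + β) * (dist x v ^ 2 / 2) ≤ 1 * (R0 ^ 2 / 2) := by gcongr
    linarith

/-- the positivity input for the centre `x` (see the header) -/
def SurvIn (μ : Measure X) (h : X → X → ℝ) (x : X) (Q : X → ℝ) (A C0 : ℝ) : Prop :=
  ∀ (v : X) (β c : ℝ), 0 < β → (∀ z, c ≤ h x z + β * h v z) →
    ∀ᵐ z ∂μ, Q z ≤ A * (h x z + β * h v z - c) + C0 * (1 + β)

/-- the inequality for all `v`, `β` at almost every point -/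
theorem surv_ae [SeparableSpace X] {h : X → X → ℝ} {R0 : ℝ} (H : HalfSq h R0) {x : X}
    {Q : X → ℝ} {A C0 : ℝ} (hS : SurvIn μ h x Q A C0) :
    ∀ᵐ z ∂μ, ∀ v, dist x v < R0 → ∀ β : ℝ, 0 < β →
      Q z ≤ A * (h x z + β * h v z - β / (1 + β) * (dist x v ^ 2 / 2)) + C0 * (1 + β) := by
  rcases isEmpty_or_nonempty X with hX | hX
  · exact Eventually.of_forall fun z => (hX.false z).elim
  have key : ∀ᵐ z ∂μ, ∀ (i : ℕ) (b : ℚ), dist x (denseSeq X i) < R0 → 0 < b →
      Q z ≤ A * (h x z + b * h (denseSeq X i) z -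
        (b : ℝ) / (1 + b) * (dist x (denseSeq X i) ^ 2 / 2)) + C0 * (1 + b) := by
    rw [ae_all_iff]
    intro i
    rw [ae_all_iff]
    intro b
    by_cases h1 : dist x (denseSeq X i) < R0
    · by_cases h2 : 0 < b
      · have hb : (0 : ℝ) < b := by exact_mod_cast h2
        filter_upwards [hS (denseSeq X i) b
          ((b : ℝ) / (1 + b) * (dist x (denseSeq X i) ^ 2 / 2)) hb
          (fun z => H.lower h1.le hb z)] with z hz _ _
        exact hz
      · exact Eventually.of_forall fun z _ h3 => absurd h3 h2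
    · exact Eventually.of_forall fun z h3 => absurd h3 h1
  filter_upwards [key] with z hz v hv β hβ
  obtain ⟨L, hL⟩ := H.lip
  -- density in `v`
  have step1 : ∀ b : ℚ, 0 < b → Q z ≤ A * (h x z + b * h v z -
      (b : ℝ) / (1 + b) * (dist x v ^ 2 / 2)) + C0 * (1 + b) := by
    intro b hb
    have hb' : (0 : ℝ) < b := by exact_mod_cast hb
    have hcont : Continuous fun w : X => A * (h x z + b * h w z -
        (b : ℝ) / (1 + b) * (dist x w ^ 2 / 2)) + C0 * (1 + b) := by
      have hc : Continuous fun w : X => h w z := by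
        have : LipschitzWith (Real.toNNReal |L|) fun w : X => h w z := by
          apply LipschitzWith.of_dist_le_mul
          intro y y'
          rw [Real.coe_toNNReal _ (abs_nonneg _), Real.dist_eq]
          exact (hL y y' z).trans (by gcongr; exact le_abs_self L)
        exact this.continuous
      have hd : Continuous fun w : X => dist x w := continuous_const.dist continuous_id
      exact (((continuous_const.add (continuous_const.mul hc)).sub
        (continuous_const.mul ((hd.pow 2).div_const 2))).const_mul A).add continuous_const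
    have hopen : IsOpen {w : X | dist x w < R0} :=
      isOpen_lt (continuous_const.dist continuous_id) continuous_const
    have hclosed : IsClosed {w : X | Q z ≤ A * (h x z + b * h w z -
        (b : ℝ) / (1 + b) * (dist x w ^ 2 / 2)) + C0 * (1 + b)} :=
      isClosed_le continuous_const hcont
    have hmem : v ∈ closure ({w : X | dist x w < R0} ∩ range (denseSeq X)) :=
      (denseRange_denseSeq X).open_subset_closure_inter hopen hv
    refine hclosed.closure_subset_iff.2 ?_ hmem
    rintro w ⟨hw1, i, rfl⟩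
    exact hz i b hw1 hb
  -- density in `β`
  have hcont : ContinuousOn (fun b : ℝ => A * (h x z + b * h v z -
      b / (1 + b) * (dist x v ^ 2 / 2)) + C0 * (1 + b)) (Ioi 0) := by
    have h1 : ContinuousOn (fun b : ℝ => b / (1 + b)) (Ioi 0) :=
      continuousOn_id.div (continuousOn_const.add continuousOn_id)
        (fun b hb => by have := mem_Ioi.1 hb; positivity)
    fun_prop
  have h2 : ContinuousAt (fun b : ℝ => A * (h x z + b * h v z -
      b / (1 + b) * (dist x v ^ 2 / 2)) + C0 * (1 + b)) β :=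
    hcont.continuousAt (Ioi_mem_nhds hβ)
  have h3 : β ∈ closure (Ioi (0 : ℝ) ∩ range ((↑) : ℚ → ℝ)) :=
    (Rat.denseRange_cast (𝕜 := ℝ)).open_subset_closure_inter isOpen_Ioi hβ
  rw [mem_closure_iff_seq_limit] at h3
  obtain ⟨u, hu, hul⟩ := h3
  refine ge_of_tendsto (h2.tendsto.comp hul) (Eventually.of_forall fun k => ?_)
  obtain ⟨h4, b, hb⟩ := hu k
  simp only [Function.comp]
  rw [← hb]
  refine step1 b ?_
  rw [← hb] at h4
  exact_mod_cast (mem_Ioi.1 h4)

/-- **Survival bound**, almost everywhere form -/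
theorem surv_bound [SeparableSpace X] {h : X → X → ℝ} {R0 : ℝ} (H : HalfSq h R0) {x : X}
    {Q : X → ℝ} {A C0 : ℝ} (hS : SurvIn μ h x Q A C0) :
    ∀ᵐ z ∂μ, ∀ v, dist x v < R0 → dist x z + dist z v = dist x v → 0 < dist x z → z ≠ v →
      Q z ≤ C0 * (1 + dist x z / dist z v) := by
  filter_upwards [surv_ae H hS] with z hz v hv hb hxz hne
  have hzv : 0 < dist z v := dist_pos.2 hne
  set τ := dist x z with hτ
  set τ' := dist z v with hτ'
  have hβ : 0 < τ / τ' := by positivity
  have h1 := hz v hv (τ / τ') hβ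
  have h2 : h x z = τ ^ 2 / 2 := H.near x z (by rw [← hτ]; linarith)
  have h3 : h v z = τ' ^ 2 / 2 := by
    rw [H.near v z (by rw [dist_comm, ← hτ']; linarith), dist_comm v z]
  have h4 : h x z + τ / τ' * h v z - τ / τ' / (1 + τ / τ') * (dist x v ^ 2 / 2) = 0 := by
    rw [h2, h3, ← hb]
    field_simp
    ring
  rw [h4, mul_zero, zero_add] at h1
  exact h1

/-- **Survival bound along the rays**, a.e. fraction -/
theorem surv_ray [SeparableSpace X] [SFinite μ] {n : ℕ} {κ : ℝ} (C : Rad n κ X μ)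
    {h : X → X → ℝ} {R0 : ℝ}
    (H : HalfSq h R0) {x : X} {Q : X → ℝ} {A C0 : ℝ} (hS : SurvIn μ h x Q A C0)
    :
    ∀ᵐ v ∂μ, 0 < dist x v → dist x v < R0 → ∀ᵐ t ∂(volume.restrict (Ioo (0 : ℝ) 1)),
      Q (C.T x t v) ≤ C0 / (1 - t) := by
  filter_upwards [C.ae_ray x (surv_bound H hS), C.ae_U x] with v hv hU h0' hR
  filter_upwards [ae_restrict_of_ae_restrict_of_subset Ioo_subset_Ioc_self hv,
    ae_restrict_mem measurableSet_Ioo] with t ht htm
  have ht1 : t ∈ Icc (0 : ℝ) 1 := ⟨htm.1.le, htm.2.le⟩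
  have hl := C.dist_left hU ht1
  have hr := C.dist_right hU ht1
  have h2 : 0 < 1 - t := by linarith [htm.2]
  have h1 := ht v hR (by rw [hl, hr]; ring) (by rw [hl]; exact mul_pos htm.1 h0')
      (by
        intro he
        rw [dist_eq_zero.2 he] at hr
        exact (mul_pos h2 h0').ne hr)
  rw [hl, hr] at h1
  have h3 : C0 * (1 + t * dist x v / ((1 - t) * dist x v)) = C0 / (1 - t) := by
    field_simp
    ring
  rw [h3] at h1
  exact h1

end Crest.Agent.R247.Sv436
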