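import Crest.Agent.R247.Obj1_554
import Crest.Agent.R247.Sv2_436
import Crest.Agent.R247.Max1_193
import Crest.Agent.R247.Mcp5_688

/-!
R247, block P6a (helper554), part 2: survival inputs (helper436's `SurvIn`) for `q` and `R q`,
support and mass of the functional `l` (helper193's inputs).
-/

set_option autoImplicit false
set_option linter.unusedSectionVars false

open MeasureTheory Filter Topology Set
open scoped RealInnerProductSpace ENNReal NNReal

noncomputable section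

namespace Crest.Agent.R247.Obj554

open Crest.Agent.R242 Crest.Agent.R247.Dir593 Crest.Agent.R247.Dir593.GradS
open Crest.Agent.R247.Smv126 Crest.Agent.R247.Sv436 Crest.Agent.R247.Mcp688

section Lip

lemma hasDerivAt_Phi_sq (t : ℝ) :
    HasDerivAt (fun t : ℝ => Phi (t ^ 2 / 2)) (eta (t ^ 2 / 2) * t) t := by
  have h1 : HasDerivAt (fun t : ℝ => t ^ 2 / 2) t t := by
    have := (hasDerivAt_pow 2 t).div_const 2
    exact this.congr_deriv (by norm_num)
  exact (hasDerivAt_Phi (t ^ 2 / 2)).comp t h1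

lemma abs_eta_mul_le (t : ℝ) : |eta (t ^ 2 / 2) * t| ≤ 64 := by
  by_cases h : S1 ≤ t ^ 2 / 2
  · rw [eta_zero h]; norm_num
  · push Not at h
    have h1 : |t| ≤ 64 := by
      apply abs_le_of_sq_le_sq _ (by norm_num)
      unfold S1 at h
      nlinarith
    rw [abs_mul, abs_of_nonneg (eta_nonneg _)]
    calc eta (t ^ 2 / 2) * |t| ≤ 1 * 64 :=
          mul_le_mul (eta_le_one _) h1 (abs_nonneg _) zero_le_one
      _ = 64 := by norm_num

lemma Phi_sq_lip (a b : ℝ) : |Phi (a ^ 2 / 2) - Phi (b ^ 2 / 2)| ≤ 64 * |a - b| := by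
  have h := Convex.norm_image_sub_le_of_norm_hasDerivWithin_le (s := univ)
    (f := fun t : ℝ => Phi (t ^ 2 / 2)) (f' := fun t => eta (t ^ 2 / 2) * t) (C := 64)
    (fun t _ => (hasDerivAt_Phi_sq t).hasDerivWithinAt)
    (fun t _ => by rw [Real.norm_eq_abs]; exact abs_eta_mul_le t) convex_univ (mem_univ b)
    (mem_univ a)
  simpa [Real.norm_eq_abs] using h

variable {X : Type*} [MetricSpace X]

lemma hh_lip (y y' z : X) : |hh y z - hh y' z| ≤ 64 * dist y y' := by
  unfold hh hf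
  refine (Phi_sq_lip _ _).trans ?_
  have := abs_dist_sub_le y y' z
  linarith

/-- the cut off half squared distance satisfies helper436's `HalfSq`, radius `32` -/
lemma halfSq_hh : HalfSq (hh : X → X → ℝ) 32 where
  near := fun y z h => hh_eq h
  far := fun y z h => by
    have h1 : S0 ≤ hf y z := by
      unfold hf S0
      nlinarith
    have h2 := S0_le_Phi h1
    unfold hh
    unfold S0 at h2
    norm_num
    exact h2
  lip := ⟨64, hh_lip⟩

end Lip

variable {X : Type*} [MetricSpace X] [ProperSpace X] [MeasurableSpace X] [BorelSpace X]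
  {F : Type*} [NormedAddCommGroup F] [InnerProductSpace ℝ F] {μ : Measure X}
  [IsFiniteMeasureOnCompacts μ] {S : GradS X F μ} [CompleteSpace F] {n : ℕ} {κ ρ : ℝ}

/-- the pair of functions of centres `x`, `v` with weight `β` -/
theorem qq_formula (hρ : 0 < ρ) (x v : X) (β : ℝ) :
    ρ ^ 2 • (qL S n κ x ρ + β • qL S n κ v ρ) =
      ((tL (isT_f0 x) : Lp ℝ 2 μ) + β • tL (isT_f0 v)) -
        (QF S).res (ρ ^ 2) ((tL (isT_f0 x) : Lp ℝ 2 μ) + β • tL (isT_f0 v)) +
      ρ ^ 2 • (QF S).res (ρ ^ 2) ((tL (isT_Nf n κ x) : Lp ℝ 2 μ) + β • tL (isT_Nf n κ v)) := by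
  have h1 := qL_formula (S := S) (n := n) (κ := κ) hρ x
  have h2 := qL_formula (S := S) (n := n) (κ := κ) hρ v
  rw [smul_add, smul_comm (ρ ^ 2) β, h1, h2, map_add, map_add, map_smul, map_smul]
  module

/-- everything about the pair `(x, v)`: pointwise bounds -/
theorem pair_bounds (W : WLap S n κ) (hκ : 0 ≤ κ) (hρ : 0 < ρ) (x v : X) {β c : ℝ} (hβ : 0 < β)
    (hc : ∀ z, c ≤ hh x z + β * hh v z) :
    (∀ᵐ z ∂μ, qL S n κ x ρ z ≤ (ρ ^ 2)⁻¹ * (hh x z + β * hh v z - c) + CN n κ * (1 + β)) ∧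
    (∀ᵐ z ∂μ, (QF S).res (ρ ^ 2) (qL S n κ x ρ) z ≤
      (ρ ^ 2)⁻¹ * (hh x z + β * hh v z - c) + 2 * CN n κ * (1 + β)) := by
  have h0 : (0:ℝ) < ρ ^ 2 := by positivity
  set Gf : Lp ℝ 2 μ := (tL (isT_f0 x) : Lp ℝ 2 μ) + β • tL (isT_f0 v) with hG
  set Nn : Lp ℝ 2 μ := (tL (isT_Nf n κ x) : Lp ℝ 2 μ) + β • tL (isT_Nf n κ v) with hN
  set qq : Lp ℝ 2 μ := qL S n κ x ρ + β • qL S n κ v ρ with hqq
  set a : ℝ := (1 + β) * cinf - c with ha
  have ha0 : 0 ≤ a := by
    have h1 := hc x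
    have h2 : hh x x ≤ cinf := Phi_le_cinf _
    have h3 : hh v x ≤ cinf := Phi_le_cinf _
    have h4 := mul_le_mul_of_nonneg_left h3 hβ.le
    rw [ha]; linarith
  have hCN := CN_nonneg n hκ
  -- pointwise value of `Gf`
  have eG : ∀ᵐ z ∂μ, Gf z = hh x z + β * hh v z - (1 + β) * cinf := by
    filter_upwards [Lp.coeFn_add (tL (isT_f0 x) : Lp ℝ 2 μ) (β • tL (isT_f0 v)),
      Lp.coeFn_smul β (tL (isT_f0 v) : Lp ℝ 2 μ), coe_tL (μ := μ) (isT_f0 x),
      coe_tL (μ := μ) (isT_f0 v)] with z a1 a2 a3 a4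
    rw [hG, a1, Pi.add_apply, a2, Pi.smul_apply, a3, a4, smul_eq_mul, hh_eq_f0, hh_eq_f0]
    ring
  have bG : ∀ᵐ z ∂μ, -a ≤ Gf z := by
    filter_upwards [eG] with z hz
    rw [hz, ha]
    linarith [hc z]
  have bN : ∀ᵐ z ∂μ, Nn z ≤ CN n κ * (1 + β) := by
    filter_upwards [Lp.coeFn_add (tL (isT_Nf n κ x) : Lp ℝ 2 μ) (β • tL (isT_Nf n κ v)),
      Lp.coeFn_smul β (tL (isT_Nf n κ v) : Lp ℝ 2 μ), coe_tL (μ := μ) (isT_Nf n κ x),
      coe_tL (μ := μ) (isT_Nf n κ v)] with z a1 a2 a3 a4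
    rw [hN, a1, Pi.add_apply, a2, Pi.smul_apply, a3, a4, smul_eq_mul]
    have h1 := (le_abs_self _).trans (abs_Nf_le n hκ x z)
    have h2 := (le_abs_self _).trans (abs_Nf_le n hκ v z)
    nlinarith [mul_le_mul_of_nonneg_left h2 hβ.le]
  have hC1 : 0 ≤ CN n κ * (1 + β) := by positivity
  have M := S.markov S.dense_V
  have r1 := res_ge S h0 ha0 bG
  have r2 := M.res_le h0 hC1 bN
  have r3 := M.res_le h0 hC1 r2
  have r4 := res_ge S h0 ha0 r1
  have q0 : ∀ᵐ z ∂μ, 0 ≤ qq z := by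
    filter_upwards [Lp.coeFn_add (qL S n κ x ρ) (β • qL S n κ v ρ),
      Lp.coeFn_smul β (qL S n κ v ρ), qL_nonneg W hρ x, qL_nonneg W hρ v] with z a1 a2 a3 a4
    rw [hqq, a1, Pi.add_apply, a2, Pi.smul_apply, smul_eq_mul]
    positivity
  have qle : ∀ᵐ z ∂μ, qL S n κ x ρ z ≤ qq z := by
    filter_upwards [Lp.coeFn_add (qL S n κ x ρ) (β • qL S n κ v ρ),
      Lp.coeFn_smul β (qL S n κ v ρ), qL_nonneg W hρ v] with z a1 a2 a4
    rw [hqq, a1, Pi.add_apply, a2, Pi.smul_apply, smul_eq_mul]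
    have := mul_nonneg hβ.le a4
    linarith
  have F := qq_formula (S := S) (n := n) (κ := κ) hρ x v β
  -- pointwise form of the formula
  have eF : ∀ᵐ z ∂μ, ρ ^ 2 * qq z =
      Gf z - (QF S).res (ρ ^ 2) Gf z + ρ ^ 2 * (QF S).res (ρ ^ 2) Nn z := by
    filter_upwards [Lp.coeFn_smul (ρ ^ 2) qq,
      Lp.coeFn_add (Gf - (QF S).res (ρ ^ 2) Gf) (ρ ^ 2 • (QF S).res (ρ ^ 2) Nn),
      Lp.coeFn_sub Gf ((QF S).res (ρ ^ 2) Gf),
      Lp.coeFn_smul (ρ ^ 2) ((QF S).res (ρ ^ 2) Nn)] with z a1 a2 a3 a4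
    rw [F, a2, Pi.add_apply, a3, Pi.sub_apply, a4, Pi.smul_apply, Pi.smul_apply, smul_eq_mul,
      smul_eq_mul] at a1
    exact a1.symm
  have rq := M.res_mono h0 qle
  have F2 : ρ ^ 2 • (QF S).res (ρ ^ 2) qq = (QF S).res (ρ ^ 2) Gf -
      (QF S).res (ρ ^ 2) ((QF S).res (ρ ^ 2) Gf) +
      ρ ^ 2 • (QF S).res (ρ ^ 2) ((QF S).res (ρ ^ 2) Nn) := by
    rw [← map_smul, F, map_add, map_sub, map_smul]
  have eF2 : ∀ᵐ z ∂μ, ρ ^ 2 * (QF S).res (ρ ^ 2) qq z =
      (QF S).res (ρ ^ 2) Gf z - (QF S).res (ρ ^ 2) ((QF S).res (ρ ^ 2) Gf) z +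
        ρ ^ 2 * (QF S).res (ρ ^ 2) ((QF S).res (ρ ^ 2) Nn) z := by
    filter_upwards [Lp.coeFn_smul (ρ ^ 2) ((QF S).res (ρ ^ 2) qq),
      Lp.coeFn_add ((QF S).res (ρ ^ 2) Gf - (QF S).res (ρ ^ 2) ((QF S).res (ρ ^ 2) Gf))
        (ρ ^ 2 • (QF S).res (ρ ^ 2) ((QF S).res (ρ ^ 2) Nn)),
      Lp.coeFn_sub ((QF S).res (ρ ^ 2) Gf) ((QF S).res (ρ ^ 2) ((QF S).res (ρ ^ 2) Gf)),
      Lp.coeFn_smul (ρ ^ 2) ((QF S).res (ρ ^ 2) ((QF S).res (ρ ^ 2) Nn))] with z a1 a2 a3 a4
    rw [F2, a2, Pi.add_apply, a3, Pi.sub_apply, a4, Pi.smul_apply, Pi.smul_apply, smul_eq_mul,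
      smul_eq_mul] at a1
    exact a1.symm
  constructor
  · filter_upwards [eF, eG, r1, r2, qle] with z b1 b2 b3 b4 b5
    have h1 : ρ ^ 2 * qL S n κ x ρ z ≤ (hh x z + β * hh v z - c) + ρ ^ 2 * (CN n κ * (1 + β)) := by
      have h2 := mul_le_mul_of_nonneg_left b5 h0.le
      have h3 := mul_le_mul_of_nonneg_left b4 h0.le
      rw [b1, b2] at h2
      rw [ha] at b3
      linarith
    have h4 : qL S n κ x ρ z = (ρ ^ 2)⁻¹ * (ρ ^ 2 * qL S n κ x ρ z) := by field_simp
    rw [h4]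
    refine (mul_le_mul_of_nonneg_left h1 (inv_pos.2 h0).le).trans (le_of_eq ?_)
    field_simp
  · filter_upwards [eF, eF2, eG, r2, r3, r4, rq, q0] with z b1 b2 b3 b4 b5 b6 b7 b8
    have h1 : ρ ^ 2 * (QF S).res (ρ ^ 2) (qL S n κ x ρ) z ≤
        (hh x z + β * hh v z - c) + ρ ^ 2 * (2 * CN n κ * (1 + β)) := by
      have h2 := mul_le_mul_of_nonneg_left b7 h0.le
      rw [b2] at h2
      have h3 := mul_le_mul_of_nonneg_left b5 h0.le
      have h4 := mul_le_mul_of_nonneg_left b4 h0.le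
      have h5 := mul_nonneg h0.le b8
      rw [b1, b3] at h5
      rw [ha] at b6
      linarith
    have h4 : (QF S).res (ρ ^ 2) (qL S n κ x ρ) z =
        (ρ ^ 2)⁻¹ * (ρ ^ 2 * (QF S).res (ρ ^ 2) (qL S n κ x ρ) z) := by field_simp
    rw [h4]
    refine (mul_le_mul_of_nonneg_left h1 (inv_pos.2 h0).le).trans (le_of_eq ?_)
    field_simp

/-- helper436's survival input for `q` -/
theorem survIn_q (W : WLap S n κ) (hκ : 0 ≤ κ) (hρ : 0 < ρ) (x : X) :
    SurvIn μ hh x (fun z => qL S n κ x ρ z) (ρ ^ 2)⁻¹ (CN n κ) :=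
  fun v _ _ hβ hc => (pair_bounds W hκ hρ x v hβ hc).1

/-- helper436's survival input for `R q` -/
theorem survIn_Rq (W : WLap S n κ) (hκ : 0 ≤ κ) (hρ : 0 < ρ) (x : X) :
    SurvIn μ hh x (fun z => (QF S).res (ρ ^ 2) (qL S n κ x ρ) z) (ρ ^ 2)⁻¹ (2 * CN n κ) :=
  fun v _ _ hβ hc => (pair_bounds W hκ hρ x v hβ hc).2

/-! ### support and mass of `l` -/

/-- the functional `l` only sees `ball x 64` -/
theorem suppIn_lx (x : X) : Max193.SuppIn (lx S n κ x) (Metric.ball x 64) := by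
  intro w hw hw0
  unfold lx
  rw [fnl_apply]
  have hout : ∀ z, z ∉ Metric.ball x 64 → S1 ≤ hf x z := fun z hz => by
    rw [Metric.mem_ball, not_lt, dist_comm] at hz
    exact S1_le_hf hz
  have h1 : ∫ z, (tL (isT_Nf n κ x) : Lp ℝ 2 μ) z * w z ∂μ = 0 := by
    rw [integral_eq_zero_of_ae]
    filter_upwards [coe_tL (μ := μ) (isT_Nf n κ x), hw0] with z a1 a2
    rw [a1]
    by_cases hz : z ∈ Metric.ball x 64
    · rw [a2 hz, mul_zero]; rfl
    · rw [show Nf n κ x z = 0 from Nfun_zero n κ (hout z hz), zero_mul]; rfl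
  have h2 : ∫ z, (⟪S.D (tL (isT_f0 x)) z, S.D w z⟫ : ℝ) ∂μ = 0 := by
    rw [integral_eq_zero_of_ae]
    filter_upwards [S.D_tL (isT_f0 x), G_f0 S x, hw0, S.D_level hw 0] with z a1 a2 a3 a4
    by_cases hz : z ∈ Metric.ball x 64
    · rw [a4 (a3 hz), inner_zero_right]; rfl
    · rw [a1, a2, show et x z = 0 from eta_zero (hout z hz), zero_smul, inner_zero_left]; rfl
  rw [h1, h2, add_zero]

/-- a plateau function: `1` on `closedBall x 64` -/
def plat (x z : X) : ℝ := max 0 (min 1 (65 - dist x z))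

lemma plat_nonneg (x z : X) : 0 ≤ plat x z := le_max_left _ _
lemma plat_le_one (x z : X) : plat x z ≤ 1 := max_le zero_le_one (min_le_left _ _)
lemma plat_one {x z : X} (h : dist x z ≤ 64) : plat x z = 1 := by
  unfold plat
  rw [min_eq_left (by linarith), max_eq_right zero_le_one]

lemma isT_plat (x : X) : IsT (plat x) := by
  have h1 : LipschitzWith 1 (plat x) := by
    have h2 : LipschitzWith 1 fun z : X => 65 - dist x z := by
      refine LipschitzWith.of_dist_le_mul fun y z => ?_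
      rw [Real.dist_eq, NNReal.coe_one, one_mul]
      have : 65 - dist x y - (65 - dist x z) = -(dist x y - dist x z) := by ring
      rw [this, abs_neg, dist_comm x y, dist_comm x z]
      exact abs_dist_sub_le y z x
    exact (h2.const_min 1).const_max 0
  refine ⟨h1.locallyLipschitz, HasCompactSupport.intro (isCompact_closedBall x 65) fun z hz => ?_⟩
  rw [Metric.mem_closedBall, not_le, dist_comm] at hz
  unfold plat
  rw [max_eq_left]
  exact (min_le_right _ _).trans (by linarith)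

/-- **macroscopic mass** of `l` -/
theorem lx_plat (hκ : 0 ≤ κ) (x : X) :
    (lx S n κ x).f (tL (isT_plat x)) ≤ CN n κ * μ.real (Metric.closedBall x 64) := by
  unfold lx
  rw [fnl_apply]
  have hS : ∀ z, z ∉ Metric.closedBall x 64 → Nf n κ x z = 0 := fun z hz => by
    rw [Metric.mem_closedBall, not_le, dist_comm] at hz
    exact Nfun_zero n κ (S1_le_hf hz.le)
  have h2 : ∫ z, (⟪S.D (tL (isT_f0 x)) z, S.D (tL (isT_plat x)) z⟫ : ℝ) ∂μ = 0 := by
    rw [integral_eq_zero_of_ae]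
    have hloc := S.loc (isT_plat x).1 (LocallyLipschitz.const (1:ℝ)) (Metric.isOpen_ball (x := x)
      (ε := 64)) (fun z hz => by
        rw [Metric.mem_ball, dist_comm] at hz
        exact plat_one hz.le)
    filter_upwards [S.D_tL (isT_f0 x), G_f0 S x, S.D_tL (isT_plat x), hloc, S.const 1]
      with z a1 a2 a3 a4 a5
    by_cases hz : z ∈ Metric.ball x 64
    · rw [a3, a4 hz, a5, inner_zero_right]; rfl
    · rw [Metric.mem_ball, not_lt, dist_comm] at hz
      rw [a1, a2, show et x z = 0 from eta_zero (S1_le_hf hz), zero_smul, inner_zero_left]; rfl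
  rw [h2, add_zero]
  have h3 : ∫ z, (tL (isT_Nf n κ x) : Lp ℝ 2 μ) z * (tL (isT_plat x) : Lp ℝ 2 μ) z ∂μ =
      ∫ z in Metric.closedBall x 64, Nf n κ x z ∂μ := by
    rw [← integral_indicator Metric.isClosed_closedBall.measurableSet]
    refine integral_congr_ae ?_
    filter_upwards [coe_tL (μ := μ) (isT_Nf n κ x), coe_tL (μ := μ) (isT_plat x)] with z a1 a2
    rw [a1, a2]
    by_cases hz : z ∈ Metric.closedBall x 64
    · rw [indicator_of_mem hz, plat_one (by rwa [Metric.mem_closedBall, dist_comm] at hz), mul_one]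
    · rw [indicator_of_notMem hz, hS z hz, zero_mul]
  rw [h3]
  have hfin : μ (Metric.closedBall x 64) ≠ ∞ := (isCompact_closedBall x 64).measure_lt_top.ne
  calc ∫ z in Metric.closedBall x 64, Nf n κ x z ∂μ ≤ ‖∫ z in Metric.closedBall x 64, Nf n κ x z ∂μ‖ :=
        Real.le_norm_self _
    _ ≤ CN n κ * μ.real (Metric.closedBall x 64) := by
        refine norm_setIntegral_le_of_norm_le_const (lt_top_iff_ne_top.2 hfin) fun z _ => ?_
        rw [Real.norm_eq_abs]
        exact abs_Nf_le n hκ x z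

omit [IsFiniteMeasureOnCompacts μ] [CompleteSpace F] in
/-- test functions are globally Lipschitz -/
lemma isT_lip {p : X → ℝ} (hp : IsT p) :
    ∃ K : ℝ, 0 ≤ K ∧ ∀ y z, |p y - p z| ≤ K * dist y z := by
  obtain ⟨M, hM⟩ := hp.1.continuous.bounded_above_of_compact_support hp.2
  have hc : IsCompact (Metric.cthickening 1 (tsupport p)) := hp.2.isCompact.cthickening
  obtain ⟨L, hL⟩ := (hp.1.locallyLipschitzOn (s := Metric.cthickening 1 (tsupport p))
    ).exists_lipschitzOnWith_of_compact hc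
  have hM0 : 0 ≤ max M 0 := le_max_right _ _
  refine ⟨max (2 * max M 0) L, le_max_of_le_right L.2, ?_⟩
  have key : ∀ y z, y ∈ tsupport p → dist y z < 1 → |p y - p z| ≤ L * dist y z := by
    intro y z hy hyz
    have h1 : y ∈ Metric.cthickening 1 (tsupport p) := Metric.self_subset_cthickening _ hy
    have h2 : z ∈ Metric.cthickening 1 (tsupport p) := by
      refine Metric.mem_cthickening_of_dist_le z y 1 _ hy ?_
      rw [dist_comm]; exact hyz.le
    have := hL.dist_le_mul y h1 z h2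
    rwa [Real.dist_eq] at this
  intro y z
  have hd := dist_nonneg (x := y) (y := z)
  rcases lt_or_ge (dist y z) 1 with h | h
  · have hgoal : (L : ℝ) * dist y z ≤ max (2 * max M 0) L * dist y z :=
      mul_le_mul_of_nonneg_right (le_max_right _ _) hd
    by_cases hy : y ∈ tsupport p
    · exact (key y z hy h).trans hgoal
    · by_cases hz : z ∈ tsupport p
      · have := key z y hz (by rwa [dist_comm])
        rw [abs_sub_comm, dist_comm z y] at this
        exact this.trans hgoal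
      · rw [image_eq_zero_of_notMem_tsupport hy, image_eq_zero_of_notMem_tsupport hz, sub_zero,
          abs_zero]
        positivity
  · have h1 : |p y| ≤ max M 0 := (hM y).trans (le_max_left _ _)
    have h2 : |p z| ≤ max M 0 := (hM z).trans (le_max_left _ _)
    calc |p y - p z| ≤ |p y| + |p z| := abs_sub _ _
      _ ≤ 2 * max M 0 := by linarith
      _ ≤ 2 * max M 0 * dist y z := le_mul_of_one_le_right (by positivity) h
      _ ≤ _ := mul_le_mul_of_nonneg_right (le_max_left _ _) hd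

/-- the link between `GradS` and the radial derivatives of `Rad` -/
def LK (S : GradS X F μ) (C : Rad n κ X μ) : Prop :=
  ∀ (y : X) {φ : X → ℝ}, IsT φ → RD C y φ (fun z => ⟪S.G (hf y) z, S.G φ z⟫)

lemma isT_cut (x : X) {r : ℝ} (hr : 0 < r) : IsT fun z => cut r (dist x z) := by
  have h1 : LipschitzWith (Real.toNNReal r⁻¹) fun z : X => cut r (dist x z) := by
    refine LipschitzWith.of_dist_le_mul fun y z => ?_
    rw [Real.dist_eq, Real.coe_toNNReal _ (inv_pos.2 hr).le]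
    refine (abs_cut_sub hr _ _).trans ?_
    refine mul_le_mul_of_nonneg_left ?_ (inv_pos.2 hr).le
    rw [dist_comm x y, dist_comm x z]
    exact abs_dist_sub_le y z x
  refine ⟨h1.locallyLipschitz, HasCompactSupport.intro (isCompact_closedBall x (2 * r))
    fun z hz => ?_⟩
  rw [Metric.mem_closedBall, not_le, dist_comm] at hz
  exact cut_eq_zero hr hz.le

/-- **(cut)**: `l` of the radial cut-off is at most the volume drop -/
theorem lx_cut [SFinite μ] {C : Rad n κ X μ} (hL : LK S C) (W : WLap S n κ) (hκ : 0 ≤ κ) (x : X)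
    {r : ℝ} (hr : 0 < r) (hr16 : r ≤ 16) :
    (lx S n κ x).f (tL (isT_cut x hr)) ≤ Rad.drop n κ μ x r := by
  rw [lx_tL W x (isT_cut x hr)]
  have e : (fun y => et x y * cut r (dist x y)) = fun y => cut r (dist x y) := by
    funext y
    by_cases h : dist x y ≤ 32
    · rw [show et x y = 1 from eta_one (hf_le_S0 h), one_mul]
    · rw [cut_eq_zero hr (by push Not at h; linarith), mul_zero]
  have h1 := (hL x (isT_cut x hr)).unique (C.RD_cut hr)
  have h2 := C.nu_cut hκ x hr (isCompact_closedBall x r).measure_lt_top.ne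
  refine (le_of_eq ?_).trans h2
  refine integral_congr_ae ?_
  filter_upwards [h1] with z hz
  have e2 : et x z * cut r (dist x z) = cut r (dist x z) := congrFun e z
  rw [e, hz, e2]

/-- **mass of `l` on `closedBall x r`**, `r ≤ 32`, for signed test functions -/
theorem abs_lx_le [SFinite μ] {C : Rad n κ X μ} (hL : LK S C) (W : WLap S n κ) (hκ : 0 ≤ κ) (x : X)
    {r : ℝ} (hr : 0 < r) (hr32 : r ≤ 32) {p : X → ℝ} (hp : IsT p)
    (hs : ∀ z, r < dist x z → p z = 0) {M : ℝ} (hM : ∀ z, |p z| ≤ M) :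
    |(lx S n κ x).f (tL hp)| ≤ M * Rad.drop n κ μ x r := by
  rw [lx_tL W x hp]
  have e : (fun y => et x y * p y) = p := by
    funext y
    by_cases h : dist x y ≤ 32
    · rw [show et x y = 1 from eta_one (hf_le_S0 h), one_mul]
    · rw [hs y (by push Not at h; linarith), mul_zero]
  obtain ⟨K, -, hK⟩ := isT_lip hp
  have h2 := C.nu_bound hκ x hr (isCompact_closedBall x r).measure_lt_top.ne
    hp.1.continuous.measurable hK hs hM (hL x hp)
  refine (le_of_eq ?_).trans h2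
  congr 1
  refine integral_congr_ae (Eventually.of_forall fun z => ?_)
  have e2 : et x z * p z = p z := congrFun e z
  simp only [e, e2]

end Crest.Agent.R247.Obj554
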