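import Crest.Agent.R247.Max4_193
import Crest.Agent.R247.Obj2_554
import Crest.Agent.R247.Dec3_386

/-!
R247, leaf (1-M) (helper193): the inputs `MaxIn` for helper554's functional `lx`.
-/

set_option autoImplicit false
set_option linter.unusedSectionVars false

open MeasureTheory Filter Topology Set
open scoped RealInnerProductSpace ENNReal

noncomputable section

namespace Crest.Agent.R247.Max193

open Crest.Agent.R242 Crest.Agent.R247.Dir593 Crest.Agent.R247.Dir593.GradS
open Crest.Agent.R247.Mcp688 Crest.Agent.R247.Far553 Crest.Agent.R247.Smv126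
open Crest.Agent.R247.Obj554

variable {X : Type*} [MetricSpace X] [ProperSpace X] [MeasurableSpace X] [BorelSpace X]
  {F : Type*} [NormedAddCommGroup F] [InnerProductSpace ℝ F] [CompleteSpace F] {μ : Measure X}
  [IsFiniteMeasureOnCompacts μ] {S : GradS X F μ} {n : ℕ} {κ : ℝ}

/-- the decay constant -/
def c3 (n : ℕ) : ℝ := 1 / (8 * n + 12)

lemma c3_pos (n : ℕ) : 0 < c3 n := by unfold c3; positivity

theorem maxIn_lx [SFinite μ] {C : Rad n κ X μ} (hL : LK S C) (W : WLap S n κ) (hκ : 0 ≤ κ)
    (hκ1 : 4 * κ ≤ 1) (x : X) {V : ℝ} (hV : μ.real (Metric.closedBall x 64) ≤ V) :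
    MaxIn n κ S S.dense_V x (lx S n κ x) (CN n κ * V) 2 (c3 n) where
  pos := lx_nonneg W x
  supp := suppIn_lx x
  cutb := fun r hr hr16 => lx_cut hL W hκ x hr hr16
  mac := by
    have h1 : (lx S n κ x).f (tL (Max193.isT_cut x (show (0:ℝ) < 64 by norm_num))) ≤
        (lx S n κ x).f (tL (isT_plat x)) := by
      refine Pos.mono_on (S.markov S.dense_V) (l := lx S n κ x) (lx_nonneg W x) (suppIn_lx x)
        (S.tL_mem _) (S.tL_mem _) ?_
      filter_upwards [coe_tL (μ := μ) (Max193.isT_cut x (show (0:ℝ) < 64 by norm_num)),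
        coe_tL (μ := μ) (isT_plat x)] with y h1 h2 hy
      rw [Metric.mem_ball, dist_comm] at hy
      rw [h1, h2, plat_one hy.le]
      exact cut_le_one _ _
    refine h1.trans ((lx_plat hκ x).trans ?_)
    exact mul_le_mul_of_nonneg_left hV (CN_nonneg n hκ)
  C3_nonneg := by norm_num
  c3_pos := c3_pos n
  dec := by
    intro r hr hr2 ρ hρ hρr hm hμ
    have hκρ : κ * ρ ^ 2 ≤ 1 := by
      have h1 : ρ ^ 2 ≤ 4 := by nlinarith
      nlinarith
    filter_upwards [Dec386.r3 W hκ hm hμ (hd := S.dense_V) Metric.ball_subset_closedBall hρ hκρ]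
      with y hy hd
    refine (hy hd).trans (le_of_eq ?_)
    congr 2
    unfold c3
    ring

end Crest.Agent.R247.Max193
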