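import Crest.Agent.R247.Kt10_622
import Crest.Agent.R247.Max5_193

/-!
# R247, (1-K) (11) (helper622): the smallness structure `Sm` for the density of `Lam`
-/

set_option autoImplicit false
set_option linter.unusedSectionVars false
set_option linter.unusedVariables false

open MeasureTheory Filter Topology Set Metric
open scoped RealInnerProductSpace ENNReal NNReal

noncomputable section

namespace Crest.Agent.R247.Kt622

universe u

open Crest.Agent.R242 Crest.Agent.R247.Dir593 Crest.Agent.R247.Dir593.GradS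
open Crest.Agent.R247.Smv126 Crest.Agent.R247.Obj554 Crest.Agent.R247.Hes124
open Crest.Agent.R247.Far553 Crest.Agent.R247.Mcp688 Crest.Agent.R247.Max193
open Crest.Agent.R247.Fd656 Crest.Agent.R247.LX149

section Obj

variable {n : ℕ} {κ : ℝ} {X : Type u} [MetricSpace X] [ProperSpace X] [MeasurableSpace X]
  [BorelSpace X] {μ : Measure X} [IsFiniteMeasureOnCompacts μ] {B : BochS n κ X μ} {x : X}

lemma dy_le_16 {j : ℕ} (hj : 4 ≤ j) : dy j ≤ 1 / 16 := by
  unfold dy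
  calc (1 / 2 : ℝ) ^ j ≤ (1 / 2) ^ 4 := pow_le_pow_of_le_one (by norm_num) (by norm_num) hj
    _ = 1 / 16 := by norm_num

lemma exp_small (hκ : 0 ≤ κ) (hκ1 : κ ≤ 1) {j : ℕ} (hj : 4 ≤ j) :
    Real.exp (κ * (8 * dy j) ^ 2 / 2) ≤ 3 := by
  have h1 := dy_le_16 hj
  have h0 := dy_pos j
  have h2 : (8 * dy j) ^ 2 ≤ 1 := by nlinarith
  have h3 : κ * (8 * dy j) ^ 2 / 2 ≤ 1 := by nlinarith [sq_nonneg (8 * dy j)]
  have h4 := Real.exp_one_lt_d9
  exact (Real.exp_le_exp.2 h3).trans (by linarith)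

lemma phat_mul (n : ℕ) (κ : ℝ) (μ : Measure X) (x : X) (a : ℝ) (j : ℕ) :
    phat n κ μ x a j * dy j ^ n = ∑ i ∈ Finset.range (j + 5), Real.exp (-(a * 2 ^ i)) *
      Rad.drop n κ μ x (2 ^ i * dy j) + Real.exp (-(a * 2 ^ j)) := by
  have h0 := dy_pos j
  unfold phat
  have : ((dy j)⁻¹) ^ n * dy j ^ n = 1 := by
    rw [← mul_pow, inv_mul_cancel₀ h0.ne', one_pow]
  rw [mul_comm, ← mul_assoc, mul_comm (dy j ^ n), this, one_mul]

/-- `exp (-1/ρ) ≤ φ̂_j s^n` -/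
lemma exp_le_phat {S : GradS X (Hes124.F n) μ} {hd : Dense (S.V : Set (Lp ℝ 2 μ))}
    {l : Fnl (S.form hd)} {C0 C3 c3' : ℝ} (hM : MaxIn n κ S hd x l C0 C3 c3') {a : ℝ} (ha : a ≤ 1)
    {j k : ℕ} (hjk : j ≤ k) :
    Real.exp (-(1 / dy k)) ≤ phat n κ μ x a j * dy j ^ n := by
  rw [phat_mul]
  have h1 : 0 ≤ ∑ i ∈ Finset.range (j + 5), Real.exp (-(a * 2 ^ i)) *
      Rad.drop n κ μ x (2 ^ i * dy j) := by
    refine Finset.sum_nonneg fun i hi => mul_nonneg (Real.exp_pos _).le ?_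
    have h0 := dy_pos j
    exact hM.drop_nonneg (by positivity) (MaxIn.two_pow_mul_dy (Finset.mem_range.1 hi))
  have h2 : Real.exp (-(1 / dy k)) ≤ Real.exp (-(a * 2 ^ j)) := by
    refine Real.exp_le_exp.2 (neg_le_neg ?_)
    have e : 1 / dy k = 2 ^ k := by
      unfold dy
      rw [one_div_pow, one_div_one_div]
    rw [e]
    have h3 : (2:ℝ) ^ j ≤ 2 ^ k := pow_le_pow_right₀ (by norm_num) hjk
    have h4 : (0:ℝ) < 2 ^ j := by positivity
    nlinarith
  linarith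

lemma cA_mono {a b C3 c : ℝ} (h : a ≤ b) (hC3 : 0 ≤ C3) (hc : 0 < c) :
    cA a C3 c ≤ cA b C3 c := by
  unfold cA
  have h1 : Real.exp (-(2 * c)) < 1 := by
    rw [Real.exp_lt_one_iff]; linarith
  have h2 : 0 < 1 - Real.exp (-(2 * c)) := by linarith
  gcongr

/-- bound of the density -/
def cP (n : ℕ) : ℝ := 3 * 64 ^ n

lemma cP_pos (n : ℕ) : 0 < cP n := by unfold cP; positivity

/-- the constant of the smallness number -/
def cM (n : ℕ) (V : ℝ) : ℝ := cA (CN n 1 * V) 2 (c3 n)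

lemma cM_pos (n : ℕ) {V : ℝ} (hV : 0 ≤ V) : 0 < cM n V := by
  unfold cM cA
  have hc := c3_pos n
  have h1 : Real.exp (-(2 * c3 n)) < 1 := by
    rw [Real.exp_lt_one_iff]; linarith
  have h2 : 0 < 1 - Real.exp (-(2 * c3 n)) := by linarith
  have h3 := CN_nonneg n zero_le_one
  have h4 : 0 ≤ CN n 1 * V := mul_nonneg h3 hV
  have h5 : 0 ≤ 2 / (1 - Real.exp (-(2 * c3 n))) * (1 + CN n 1 * V) := by positivity
  have := Real.exp_pos (c3 n)
  linarith

/-- the constant of the smallness number -/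
def cY (n : ℕ) (V : ℝ) : ℝ :=
  10 ^ 6 * (1 + bC n) * (bC n * Real.sqrt V * (cP n * Real.sqrt V)) + 6 * cP n * cM n V

lemma cY_pos (n : ℕ) {V : ℝ} (hV : 0 ≤ V) : 0 < cY n V := by
  have h1 := bC_nonneg n
  have h2 := cP_pos n
  have h3 := cM_pos n hV
  unfold cY
  positivity

/-- `L²` norm of the density -/
lemma norm_dens {ψ : Lp ℝ 2 μ} {c s V : ℝ} (hc : 0 ≤ c) (h0 : ∀ᵐ z ∂μ, 0 ≤ ψ z)
    (h1 : ∀ᵐ z ∂μ, ψ z ≤ c) (h2 : ∀ᵐ z ∂μ, 4 * s < dist x z → ψ z = 0) (hs : 4 * s ≤ 64)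
    (hV : μ.real (closedBall x 64) ≤ V) : ‖ψ‖ ≤ c * Real.sqrt V := by
  have hm : MeasurableSet (closedBall x 64) := measurableSet_closedBall
  have hfin : μ (closedBall x 64) ≠ ∞ := (isCompact_closedBall x 64).measure_lt_top.ne
  have e1 : ‖ψ‖ ^ 2 ≤ c ^ 2 * V := by
    rw [← real_inner_self_eq_norm_sq, inner_eq_integral]
    have e2 : ∫ z, ψ z * ψ z ∂μ = ∫ z in closedBall x 64, ψ z * ψ z ∂μ := by
      rw [← integral_indicator hm]
      refine integral_congr_ae ?_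
      filter_upwards [h2] with z hz
      by_cases h : z ∈ closedBall x 64
      · rw [indicator_of_mem h]
      · rw [indicator_of_notMem h, hz, mul_zero]
        rw [mem_closedBall, dist_comm, not_le] at h
        linarith
    rw [e2]
    have e3 : ∫ z in closedBall x 64, ψ z * ψ z ∂μ ≤ ∫ z in closedBall x 64, c ^ 2 ∂μ := by
      refine integral_mono_ae (integrable_mul_L2 ψ ψ).integrableOn
        (integrableOn_const (C := c ^ 2) hfin) ?_
      filter_upwards [ae_restrict_of_ae h0, ae_restrict_of_ae h1] with z a1 a2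
      show ψ z * ψ z ≤ c ^ 2
      nlinarith
    refine e3.trans ?_
    rw [setIntegral_const, smul_eq_mul, mul_comm]
    exact mul_le_mul_of_nonneg_left hV (sq_nonneg c)
  calc ‖ψ‖ = Real.sqrt (‖ψ‖ ^ 2) := by rw [Real.sqrt_sq (norm_nonneg _)]
    _ ≤ Real.sqrt (c ^ 2 * V) := Real.sqrt_le_sqrt e1
    _ = c * Real.sqrt V := by rw [Real.sqrt_mul (sq_nonneg c), Real.sqrt_sq hc]

/-- integral against the density -/
lemma inner_dens_le {q ψ : Lp ℝ 2 μ} {c r Y : ℝ} (hc : 0 ≤ c) (h0 : ∀ᵐ z ∂μ, 0 ≤ ψ z)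
    (h1 : ∀ᵐ z ∂μ, ψ z ≤ c) (h2 : ∀ᵐ z ∂μ, r ≤ dist x z → ψ z = 0) (hq : ∀ᵐ z ∂μ, 0 ≤ q z)
    (hY : ∫ z in ball x r, q z ∂μ ≤ Y) : ⟪q, ψ⟫ ≤ c * Y := by
  have hm : MeasurableSet (ball x r) := measurableSet_ball
  have hfin : μ (ball x r) ≠ ∞ :=
    ((measure_mono ball_subset_closedBall).trans_lt
      (isCompact_closedBall x r).measure_lt_top).ne
  rw [inner_eq_integral]
  have e2 : ∫ z, q z * ψ z ∂μ = ∫ z in ball x r, q z * ψ z ∂μ := by
    rw [← integral_indicator hm]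
    refine integral_congr_ae ?_
    filter_upwards [h2] with z hz
    by_cases h : z ∈ ball x r
    · rw [indicator_of_mem h]
    · rw [indicator_of_notMem h, hz, mul_zero]
      rw [mem_ball, dist_comm, not_lt] at h
      exact h
  rw [e2]
  have e3 : ∫ z in ball x r, q z * ψ z ∂μ ≤ ∫ z in ball x r, c * q z ∂μ := by
    refine integral_mono_ae (integrable_mul_L2 q ψ).integrableOn
      ((integrableOn_of_L2 q hm hfin).const_mul c) ?_
    filter_upwards [ae_restrict_of_ae h0, ae_restrict_of_ae h1, ae_restrict_of_ae hq]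
      with z a1 a2 a3
    show q z * ψ z ≤ c * q z
    nlinarith
  refine e3.trans ?_
  rw [integral_const_mul]
  exact mul_le_mul_of_nonneg_left hY hc

/-- **the smallness structure** -/
theorem exists_sm (C : Rad n κ X μ) (hκ : 0 ≤ κ) (hκ1 : 4 * κ ≤ 1) (hL : Obj554.LK B.toGradS C)
    (W : WLap B.toGradS n κ) {V : ℝ} (hV : μ.real (closedBall x 64) ≤ V) {j k : ℕ} (hj : 4 ≤ j)
    (hjk : j ≤ k) {A : X → S n} {P : Lp ℝ 2 μ}
    (h : BW B (uk B x k) (gL B.toGradS n κ x (dy k)) A P) (hκ1' : κ ≤ 1)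
    (hκρ : 8 * κ * dy k ^ 2 ≤ 1) :
    ∃ ψ : Lp ℝ 2 μ, (∀ᵐ z ∂μ, 0 ≤ ψ z) ∧
      Lam C x (dy j) = μ.withDensity (fun z => ENNReal.ofReal (ψ z)) ∧
      Sm (kin h W hκ hκ1' hκρ) ψ (fun z => ⟪B.G (hf x) z, B.D (qk B x k) z⟫)
        (cY n V * (phat n κ μ x (c3 n / 64) j * dy j ^ n)) := by
  have hlf : IsLocallyFiniteMeasure μ := isLocallyFiniteMeasure_of_isFiniteMeasureOnCompacts
  have hV0 : 0 ≤ V := measureReal_nonneg.trans hV
  have hs := dy_pos j
  have hs16 := dy_le_16 hj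
  have hρ := dy_pos k
  have hρ1 := dy_le_one k
  have h0 : (0:ℝ) < dy k ^ 2 := by positivity
  obtain ⟨Ψ, m1, m2, m3, m4, m5⟩ := exists_density C hκ x (dy j)
  have m3' : ∀ y, Ψ y ≤ cP n := fun y => (m3 y).trans (by
    unfold cP
    have := exp_small (j := j) hκ hκ1' hj
    gcongr)
  have hcP := cP_pos n
  have hfin4 : μ (closedBall x (4 * dy j)) ≠ ∞ :=
    (isCompact_closedBall x (4 * dy j)).measure_lt_top.ne
  have hmem : MemLp Ψ 2 μ := by
    refine Smv126.memLp_compact m1.aestronglyMeasurable (isCompact_closedBall x (4 * dy j))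
      (C := cP n) (Eventually.of_forall fun z _ => ?_) (Eventually.of_forall fun z hz => ?_) 2
    · rw [Real.norm_eq_abs, abs_of_nonneg (m2 z)]; exact m3' z
    · exact m4 z (by rw [mem_closedBall, dist_comm, not_le] at hz; exact hz)
  set ψ : Lp ℝ 2 μ := hmem.toLp Ψ with hψ
  have e0 : (ψ : X → ℝ) =ᵐ[μ] Ψ := hmem.coeFn_toLp
  have ψ0 : ∀ᵐ z ∂μ, 0 ≤ ψ z := e0.mono fun z hz => by rw [hz]; exact m2 z
  have ψ1 : ∀ᵐ z ∂μ, ψ z ≤ cP n := e0.mono fun z hz => by rw [hz]; exact m3' z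
  have ψ2 : ∀ᵐ z ∂μ, 4 * dy j < dist x z → ψ z = 0 := e0.mono fun z hz h' => by
    rw [hz]; exact m4 z h'
  have ψ3 : ∀ᵐ z ∂μ, 32 * dy j ≤ dist x z → ψ z = 0 := ψ2.mono fun z hz h' => hz (by linarith)
  have hq0 : ∀ᵐ z ∂μ, 0 ≤ qk B x k z := qL_nonneg W hρ x
  have hqV : qk B x k ∈ B.V := qL_mem hρ x
  have hMax := maxIn_lx (S := B.toGradS) hL W hκ hκ1 x hV
  have hcA : cA (CN n κ * V) 2 (c3 n) ≤ cM n V := by
    unfold cM
    exact cA_mono (mul_le_mul_of_nonneg_right (CN_mono n hκ1') hV0) (by norm_num) (c3_pos n)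
  have hcM := cM_pos n hV0
  set T := phat n κ μ x (c3 n / 64) j * dy j ^ n with hT
  have hc3 : c3 n / 64 ≤ 1 := by
    have h1 : c3 n ≤ 1 := by
      unfold c3
      rw [div_le_one (by positivity)]
      have : (0:ℝ) ≤ n := Nat.cast_nonneg n
      linarith
    have := c3_pos n
    linarith
  have hexp : Real.exp (-(1 / dy k)) ≤ T := exp_le_phat hMax hc3 hjk
  have hT0 : 0 ≤ T := (Real.exp_pos _).le.trans hexp
  obtain ⟨i1, i2⟩ := hMax.int_dy hj (k := k) (by omega)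
  obtain ⟨i3, i4⟩ := hMax.int_res_dy hj hjk
  have i2' : ∫ y in ball x (32 * dy j), qk B x k y ∂μ ≤ cM n V * T := by
    have h1 : ∫ y in ball x (32 * dy j), qk B x k y ∂μ ≤
      cA (CN n κ * V) 2 (c3 n) * phat n κ μ x (c3 n / 64) j * dy j ^ n := i2
    rw [mul_assoc] at h1
    exact h1.trans (mul_le_mul_of_nonneg_right hcA hT0)
  have i4' : ∫ y in ball x (32 * dy j), (QF B.toGradS).res (dy k ^ 2) (qk B x k) y ∂μ ≤
      16 / 3 * (cM n V * T) := by
    have h1 : ∫ y in ball x (32 * dy j), (QF B.toGradS).res (dy k ^ 2) (qk B x k) y ∂μ ≤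
      16 / 3 * (cA (CN n κ * V) 2 (c3 n) * phat n κ μ x (c3 n / 64) j * dy j ^ n) := i4
    rw [mul_assoc (cA _ _ _)] at h1
    refine h1.trans ?_
    have := mul_le_mul_of_nonneg_right hcA hT0
    linarith
  have hb := bC_nonneg n
  have hcMT : 0 ≤ cM n V * T := mul_nonneg hcM.le hT0
  have hY1 : 6 * cP n * (cM n V * T) ≤ cY n V * T := by
    unfold cY
    have : 0 ≤ 10 ^ 6 * (1 + bC n) * (bC n * Real.sqrt V * (cP n * Real.sqrt V)) * T := by
      positivity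
    nlinarith
  have hY2 : 10 ^ 6 * (1 + bC n) * (bC n * Real.sqrt V * (cP n * Real.sqrt V)) * T ≤
      cY n V * T := by
    unfold cY
    have : 0 ≤ 6 * cP n * cM n V * T := by positivity
    nlinarith
  have hcP6 : 0 ≤ cP n * (cM n V * T) := mul_nonneg hcP.le hcMT
  -- telescoping
  obtain ⟨t1, t2⟩ := tele_V (S := B.toGradS) C hκ hL hs m1 m2 m3' m4 m5 hqV hq0
  have t3 : ∫ z in closedBall x (4 * dy j), qk B x k z ∂μ ≤ cM n V * T := by
    refine le_trans ?_ i2'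
    refine setIntegral_mono_set i1 (ae_restrict_of_ae hq0) ?_
    exact (closedBall_subset_ball (by linarith)).eventuallyLE
  have hfun : (fun z => ψ z * (qk B x k z + ⟪B.G (hf x) z, B.D (qk B x k) z⟫)) =ᵐ[μ]
      fun z => Ψ z * (qk B x k z + ⟪B.G (hf x) z, B.D (qk B x k) z⟫) := by
    filter_upwards [e0] with z hz
    rw [hz]
  -- errors
  have hψn : ‖ψ‖ ≤ cP n * Real.sqrt V := norm_dens hcP.le ψ0 ψ1 ψ2 (by linarith) hV
  have hbn : ‖bL μ n x‖ ≤ bC n * Real.sqrt V := norm_bL n x hV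
  have hE := errs (kin h W hκ hκ1' hκρ) hρ hρ1 (x0 := x)
    ((bL_near (μ := μ) n x).mono fun z hz h' => hz h'.le) hb (bL_le n x) ψ0
    (ψ2.mono fun z hz h' => hz (by linarith)) (Y := cY n V * T) (by
      refine le_trans ?_ hY2
      have h1 : ‖bL μ n x‖ * ‖ψ‖ ≤ bC n * Real.sqrt V * (cP n * Real.sqrt V) :=
        mul_le_mul hbn hψn (norm_nonneg _) (by positivity)
      calc 10 ^ 6 * (1 + bC n) * (‖bL μ n x‖ * ‖ψ‖) * Real.exp (-(1 / dy k))
          ≤ 10 ^ 6 * (1 + bC n) * (bC n * Real.sqrt V * (cP n * Real.sqrt V)) *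
            Real.exp (-(1 / dy k)) := by gcongr
        _ ≤ _ := by gcongr)
  obtain ⟨r1, r2, r3, r4, r5⟩ := hE
  refine ⟨ψ, ψ0, ?_, ?_⟩
  · rw [m5]
    refine withDensity_congr_ae (e0.mono fun z hz => ?_)
    show ENNReal.ofReal (Ψ z) = ENNReal.ofReal (ψ z)
    rw [hz]
  · exact
    { h0 := h0
      h1 := pow_le_one₀ hρ.le hρ1
      Ψ0 := ψ0
      Ψb := ⟨cP n, ψ1⟩
      hk := by
        filter_upwards [h.kL_ae (isT_f0 x) (isT_th x) hqV rfl (th_eq W x),
          G_Nf_ball (S := B.toGradS) (n := n) (κ := κ) x, ψ2] with z a1 a2 a3 hz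
        have a4 : dist x z ≤ 32 := by
          by_contra h'
          exact hz (a3 (by linarith [not_le.1 h']))
        have a5 : B.G (f0 x) z = B.G (hf x) z := (a2 a4).2
        show 2 * dy k ^ 2 * qk B x k z - 2 * dy k ^ 2 * ⟪B.G (hf x) z, B.D (qk B x k) z⟫ ≤
          BW.kL (uk B x k) P (isT_th x) z
        rw [a1, a5]
        have : 0 ≤ dy k ^ 4 * ‖B.D (qk B x k) z‖ ^ 2 := by positivity
        linarith
      hTi := t1.congr hfun.symm
      hT := by
        have e : ∫ z, ψ z * (qk B x k z + ⟪B.G (hf x) z, B.D (qk B x k) z⟫) ∂μ =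
          ∫ z, Ψ z * (qk B x k z + ⟪B.G (hf x) z, B.D (qk B x k) z⟫) ∂μ := integral_congr_ae hfun
        show ∫ z, ψ z * (qk B x k z + ⟪B.G (hf x) z, B.D (qk B x k) z⟫) ∂μ ≤ _
        rw [e]
        refine t2.trans (le_trans ?_ hY1)
        have h1 : Real.exp (κ * (8 * dy j) ^ 2 / 2) * 2 ^ n ≤ cP n := by
          unfold cP
          have := exp_small (j := j) hκ hκ1' hj
          have h2 : (2:ℝ) ^ n ≤ 64 ^ n := pow_le_pow_left₀ (by norm_num) (by norm_num) n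
          gcongr
        have h2 : 0 ≤ Real.exp (κ * (8 * dy j) ^ 2 / 2) * 2 ^ n := by positivity
        calc Real.exp (κ * (8 * dy j) ^ 2 / 2) * 2 ^ n * ∫ z in closedBall x (4 * dy j),
              qk B x k z ∂μ ≤ Real.exp (κ * (8 * dy j) ^ 2 / 2) * 2 ^ n * (cM n V * T) := by
              gcongr
          _ ≤ cP n * (cM n V * T) := by gcongr
          _ ≤ _ := by linarith
      hA := by
        refine (inner_dens_le hcP.le ψ0 ψ1 ψ3 hq0 i2').trans (le_trans ?_ hY1)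
        linarith
      hB := by
        have h1 : (⟪qk B x k, (QF B.toGradS).res (dy k ^ 2) ψ⟫ : ℝ) =
            ⟪(QF B.toGradS).res (dy k ^ 2) (qk B x k), ψ⟫ := by
          rw [(QF B.toGradS).res_symm]
        show (⟪qk B x k, (QF B.toGradS).res (dy k ^ 2) ψ⟫ : ℝ) ≤ _
        rw [h1]
        have h2 : ∀ᵐ z ∂μ, 0 ≤ (QF B.toGradS).res (dy k ^ 2) (qk B x k) z :=
          (B.markov B.dense_V).res_nonneg h0 hq0
        refine (inner_dens_le hcP.le ψ0 ψ1 ψ3 h2 i4').trans (le_trans ?_ hY1)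
        linarith
      e1 := r1
      e2 := r2
      e3 := r3
      e4 := r4
      e5 := r5 }

end Obj

end Crest.Agent.R247.Kt622
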