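import Crest.Agent.R247.Dir0_593

/-!
R247, block (1-K) (helper622): test of the `k`-equation with `φ Θ(k)`; Θ is a bounded increasing
`C¹` function.  Pure functional analysis over 593's `GradS`.
-/

set_option autoImplicit false
set_option linter.unusedSectionVars false

open MeasureTheory Filter Topology Set
open scoped RealInnerProductSpace ENNReal NNReal

noncomputable section

namespace Crest.Agent.R247.Kt622

open Crest.Agent.R247.Dir593

/-! ### primitives of a nonnegative continuous function -/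

/-- primitive -/
def prim (θ : ℝ → ℝ) (t : ℝ) : ℝ := ∫ s in (0:ℝ)..t, θ s

lemma prim_zero (θ : ℝ → ℝ) : prim θ 0 = 0 := by simp [prim]

lemma hasDerivAt_prim {θ : ℝ → ℝ} (hθ : Continuous θ) (t : ℝ) : HasDerivAt (prim θ) (θ t) t :=
  intervalIntegral.integral_hasDerivAt_right (hθ.intervalIntegrable _ _)
    hθ.aestronglyMeasurable.stronglyMeasurableAtFilter hθ.continuousAt

lemma continuous_prim {θ : ℝ → ℝ} (hθ : Continuous θ) : Continuous (prim θ) :=
  continuous_iff_continuousAt.2 fun t => (hasDerivAt_prim hθ t).continuousAt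

lemma contDiff_prim {θ : ℝ → ℝ} (hθ : Continuous θ) : ContDiff ℝ 1 (prim θ) := by
  rw [contDiff_one_iff_deriv]
  refine ⟨fun t => (hasDerivAt_prim hθ t).differentiableAt, ?_⟩
  have : deriv (prim θ) = θ := funext fun t => (hasDerivAt_prim hθ t).deriv
  rw [this]; exact hθ

lemma deriv_prim {θ : ℝ → ℝ} (hθ : Continuous θ) : deriv (prim θ) = θ :=
  funext fun t => (hasDerivAt_prim hθ t).deriv

lemma monotone_prim {θ : ℝ → ℝ} (hθ : Continuous θ) (h0 : ∀ t, 0 ≤ θ t) : Monotone (prim θ) := by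
  refine monotone_of_deriv_nonneg (fun t => (hasDerivAt_prim hθ t).differentiableAt) fun t => ?_
  rw [deriv_prim hθ]; exact h0 t

lemma prim_nonneg {θ : ℝ → ℝ} (hθ : Continuous θ) (h0 : ∀ t, 0 ≤ θ t) {t : ℝ} (ht : 0 ≤ t) :
    0 ≤ prim θ t := by
  have := monotone_prim hθ h0 ht
  rwa [prim_zero] at this

lemma prim_nonpos {θ : ℝ → ℝ} (hθ : Continuous θ) (h0 : ∀ t, 0 ≤ θ t) {t : ℝ} (ht : t ≤ 0) :
    prim θ t ≤ 0 := by
  have := monotone_prim hθ h0 ht
  rwa [prim_zero] at this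

lemma mul_prim_nonneg {θ : ℝ → ℝ} (hθ : Continuous θ) (h0 : ∀ t, 0 ≤ θ t) (t : ℝ) :
    0 ≤ t * prim θ t := by
  rcases le_total 0 t with h | h
  · exact mul_nonneg h (prim_nonneg hθ h0 h)
  · exact mul_nonneg_of_nonpos_of_nonpos h (prim_nonpos hθ h0 h)

/-- second primitive: nonnegative -/
lemma prim2_nonneg {θ : ℝ → ℝ} (hθ : Continuous θ) (h0 : ∀ t, 0 ≤ θ t) (t : ℝ) :
    0 ≤ prim (prim θ) t := by
  rcases le_total 0 t with h | h
  · exact intervalIntegral.integral_nonneg h fun u hu => prim_nonneg hθ h0 hu.1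
  · rw [prim, intervalIntegral.integral_symm, neg_nonneg]
    have : ∀ u ∈ Icc t 0, prim θ u ≤ 0 := fun u hu => prim_nonpos hθ h0 hu.2
    have h2 := intervalIntegral.integral_mono_on (μ := volume) (f := prim θ) (g := fun _ => (0:ℝ)) h
      ((continuous_prim hθ).intervalIntegrable _ _)
      ((continuous_const (y := (0:ℝ))).intervalIntegrable _ _) this
    simpa using h2

lemma prim2_le {θ : ℝ → ℝ} {L : ℝ} (hL : ∀ t, |prim θ t| ≤ L) (t : ℝ) :
    |prim (prim θ) t| ≤ L * |t| := by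
  have := intervalIntegral.norm_integral_le_of_norm_le_const (a := (0:ℝ)) (b := t) (C := L)
    (f := prim θ) (fun u _ => by rw [Real.norm_eq_abs]; exact hL u)
  simpa [prim] using this

/-! ### the truncated logarithm -/

/-- the cut-off `1` on `[-K,K]`, `0` outside `[-2K,2K]` -/
def etaK (K t : ℝ) : ℝ := max 0 (min 1 (2 - |t| / K))

lemma etaK_nonneg (K t : ℝ) : 0 ≤ etaK K t := le_max_left _ _
lemma etaK_le_one (K t : ℝ) : etaK K t ≤ 1 := max_le zero_le_one (min_le_left _ _)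
lemma continuous_etaK (K : ℝ) : Continuous (etaK K) := by unfold etaK; fun_prop

lemma etaK_eq_one {K t : ℝ} (hK : 0 < K) (ht : |t| ≤ K) : etaK K t = 1 := by
  have : |t| / K ≤ 1 := (div_le_one hK).2 ht
  rw [etaK, min_eq_left (by linarith), max_eq_right zero_le_one]

lemma etaK_eq_zero {K t : ℝ} (hK : 0 < K) (ht : 2 * K ≤ |t|) : etaK K t = 0 := by
  have : 2 ≤ |t| / K := (le_div_iff₀ hK).2 ht
  rw [etaK, max_eq_left ((min_le_right _ _).trans (by linarith))]

/-- `θ(t) = η(t/K)/(1+|t|/a)` -/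
def thL (a K t : ℝ) : ℝ := etaK K t / (1 + |t| / a)

lemma thL_nonneg {a : ℝ} (ha : 0 < a) (K t : ℝ) : 0 ≤ thL a K t := by
  unfold thL
  have := etaK_nonneg K t
  positivity

lemma thL_le_one {a : ℝ} (ha : 0 < a) (K t : ℝ) : thL a K t ≤ 1 := by
  unfold thL
  have h1 : 0 ≤ |t| / a := by positivity
  rw [div_le_one (by linarith)]
  linarith [etaK_le_one K t]

lemma continuous_thL {a : ℝ} (ha : 0 < a) (K : ℝ) : Continuous (thL a K) := by
  unfold thL
  refine (continuous_etaK K).div (by fun_prop) fun t => ?_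
  have : 0 ≤ |t| / a := by positivity
  linarith

lemma thL_even (a K t : ℝ) : thL a K (-t) = thL a K t := by
  simp [thL, etaK]

/-- the bound `a log (1 + 2K/a)` -/
def LK (a K : ℝ) : ℝ := a * Real.log (1 + 2 * K / a)

lemma LK_nonneg {a K : ℝ} (ha : 0 < a) (hK : 0 < K) : 0 ≤ LK a K := by
  unfold LK
  refine mul_nonneg ha.le (Real.log_nonneg ?_)
  have : 0 ≤ 2 * K / a := by positivity
  linarith

lemma integral_inv_one_add {a T : ℝ} (ha : 0 < a) (hT : 0 ≤ T) :
    ∫ s in (0:ℝ)..T, 1 / (1 + |s| / a) = a * Real.log (1 + T / a) := by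
  have h1 : ∀ s ∈ uIcc (0:ℝ) T, HasDerivAt (fun s => a * Real.log (1 + s / a)) (1 / (1 + |s| / a)) s := by
    intro s hs
    rw [uIcc_of_le hT] at hs
    have h2 : (1:ℝ) + s / a ≠ 0 := by
      have : 0 ≤ s / a := div_nonneg hs.1 ha.le
      linarith
    have h3 : HasDerivAt (fun s : ℝ => 1 + s / a) (1 / a) s := by
      simpa using ((hasDerivAt_id s).div_const a).const_add 1
    have h4 := (h3.log h2).const_mul a
    refine h4.congr_deriv ?_
    rw [abs_of_nonneg hs.1]
    field_simp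
  rw [intervalIntegral.integral_eq_sub_of_hasDerivAt h1]
  · simp
  · refine (Continuous.intervalIntegrable ?_ _ _)
    refine continuous_const.div (by fun_prop) fun t => ?_
    have : 0 ≤ |t| / a := by positivity
    linarith

lemma prim_thL_le {a K : ℝ} (ha : 0 < a) (hK : 0 < K) {t : ℝ} (_ht : 0 ≤ t) :
    prim (thL a K) t ≤ LK a K := by
  have hc := continuous_thL ha K
  have hmono : prim (thL a K) t ≤ prim (thL a K) (2 * K) := by
    rcases le_total t (2 * K) with h | h
    · exact monotone_prim hc (thL_nonneg ha K) h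
    · have e : prim (thL a K) t = prim (thL a K) (2 * K) + ∫ s in (2 * K)..t, thL a K s := by
        unfold prim
        rw [intervalIntegral.integral_add_adjacent_intervals (hc.intervalIntegrable _ _)
          (hc.intervalIntegrable _ _)]
      have e2 : ∫ s in (2 * K)..t, thL a K s = ∫ s in (2 * K)..t, (0:ℝ) := by
        refine intervalIntegral.integral_congr fun s hs => ?_
        rw [uIcc_of_le h] at hs
        simp only [thL]
        rw [etaK_eq_zero hK (hs.1.trans (le_abs_self s)), zero_div]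
      rw [e, e2]; simp
  refine hmono.trans ?_
  have h2 : prim (thL a K) (2 * K) ≤ ∫ s in (0:ℝ)..(2 * K), 1 / (1 + |s| / a) := by
    refine intervalIntegral.integral_mono_on (by positivity) (hc.intervalIntegrable _ _) ?_ ?_
    · refine (Continuous.intervalIntegrable ?_ _ _)
      refine continuous_const.div (by fun_prop) fun t => ?_
      have : 0 ≤ |t| / a := by positivity
      linarith
    · intro s _
      unfold thL
      have : 0 ≤ |s| / a := by positivity
      gcongr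
      exact etaK_le_one K s
  rw [integral_inv_one_add ha (by positivity)] at h2
  exact h2

lemma prim_thL_odd (a K t : ℝ) : prim (thL a K) (-t) = -prim (thL a K) t := by
  unfold prim
  have h1 := intervalIntegral.integral_comp_neg (f := thL a K) (a := t) (b := 0)
  simp only [thL_even, neg_zero] at h1
  rw [← h1, intervalIntegral.integral_symm]

lemma abs_prim_thL {a K : ℝ} (ha : 0 < a) (hK : 0 < K) (t : ℝ) :
    |prim (thL a K) t| ≤ LK a K := by
  have hc := continuous_thL ha K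
  rcases le_total 0 t with h | h
  · rw [abs_of_nonneg (prim_nonneg hc (thL_nonneg ha K) h)]
    exact prim_thL_le ha hK h
  · rw [← neg_neg t, prim_thL_odd, abs_neg,
      abs_of_nonneg (prim_nonneg hc (thL_nonneg ha K) (neg_nonneg.2 h))]
    exact prim_thL_le ha hK (neg_nonneg.2 h)

/-! ### the test -/

section Test

variable {X : Type*} [MetricSpace X] [MeasurableSpace X] [BorelSpace X] {F : Type*}
  [NormedAddCommGroup F] [InnerProductSpace ℝ F] {μ : Measure X} [IsFiniteMeasureOnCompacts μ]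
  (S : GradS X F μ)

lemma inner_eq_integral (u v : Lp ℝ 2 μ) : (⟪u, v⟫ : ℝ) = ∫ x, u x * v x ∂μ := by
  rw [L2.inner_def]
  refine integral_congr_ae (Eventually.of_forall fun x => ?_)
  show (⟪u x, v x⟫ : ℝ) = _
  rw [real_inner_eq_re_inner]
  simp [mul_comm]

lemma integrable_mul_L2 (u v : Lp ℝ 2 μ) : Integrable (fun x => u x * v x) μ := by
  have := L2.integrable_inner (𝕜 := ℝ) u v
  refine this.congr (Eventually.of_forall fun x => ?_)
  show (⟪u x, v x⟫ : ℝ) = _
  rw [real_inner_eq_re_inner]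
  simp [mul_comm]

lemma integrable_abs_mul_L2 (u v : Lp ℝ 2 μ) : Integrable (fun x => |u x| * |v x|) μ := by
  have := (integrable_mul_L2 u v).abs
  refine this.congr (Eventually.of_forall fun x => ?_)
  simp [abs_mul]

lemma integrable_sq_norm (U : Lp F 2 μ) : Integrable (fun x => ‖U x‖ ^ 2) μ :=
  (memLp_two_iff_integrable_sq_norm (Lp.aestronglyMeasurable U)).1 (Lp.memLp U)

/-- **Test of the `k`-equation with `φ Θ(k)`.** -/
theorem kt1 {φ Ψ k p z : Lp ℝ 2 μ} {h a e L : ℝ} {th : ℝ → ℝ} {ff : X → ℝ}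
    (hh : 0 < h) (ha : 0 < a) (hth : Continuous th) (th0 : ∀ t, 0 ≤ th t) (th1 : ∀ t, th t ≤ 1)
    (hL : ∀ t, |prim th t| ≤ L)
    (hp : (p : X → ℝ) =ᵐ[μ] fun x => φ x * prim th (k x))
    (hDp : (S.D p : X → F) =ᵐ[μ] fun x =>
      prim th (k x) • (S.D φ : X → F) x + (φ x * th (k x)) • (S.D k : X → F) x)
    (hz : (z : X → ℝ) =ᵐ[μ] fun x => prim (prim th) (k x))
    (hDz : (S.D z : X → F) =ᵐ[μ] fun x => prim th (k x) • (S.D k : X → F) x)
    (eφ : h * ⟪S.D φ, S.D z⟫ + ⟪φ, z⟫ = ⟪Ψ, z⟫)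
    (ek : a * ⟪S.D k, S.D p⟫ + ⟪k, p⟫ = a * (∫ x, ff x * p x ∂μ) + e)
    (φ0 : ∀ᵐ x ∂μ, 0 ≤ φ x) (Cφ : ℝ) (hCφ : ∀ᵐ x ∂μ, φ x ≤ Cφ) (Ψ0 : ∀ᵐ x ∂μ, 0 ≤ Ψ x)
    (hf : Integrable (fun x => φ x * |ff x|) μ) (hfm : AEStronglyMeasurable ff μ) :
    Integrable (fun x => φ x * th (k x) * ‖(S.D k : X → F) x‖ ^ 2) μ ∧
    ∫ x, φ x * th (k x) * ‖(S.D k : X → F) x‖ ^ 2 ∂μ ≤
      L * ((∫ x, φ x * |ff x| ∂μ) + h⁻¹ * ∫ x, φ x * |k x| ∂μ) + |e| / a := by
  have hkm : AEStronglyMeasurable (fun x => k x) μ := Lp.aestronglyMeasurable k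
  have hφm : AEStronglyMeasurable (fun x => φ x) μ := Lp.aestronglyMeasurable φ
  -- integrability of the main term
  have hI1 : Integrable (fun x => φ x * th (k x) * ‖(S.D k : X → F) x‖ ^ 2) μ := by
    refine Integrable.bdd_mul (c := Cφ) (integrable_sq_norm (S.D k)) ?_ ?_
    · exact hφm.mul (hth.comp_aestronglyMeasurable hkm)
    · filter_upwards [φ0, hCφ] with x h1 h2
      rw [Real.norm_eq_abs, abs_of_nonneg (mul_nonneg h1 (th0 _))]
      calc φ x * th (k x) ≤ φ x * 1 := mul_le_mul_of_nonneg_left (th1 _) h1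
        _ ≤ Cφ := by rw [mul_one]; exact h2
  refine ⟨hI1, ?_⟩
  -- the two inner products
  have e1 : (⟪S.D k, S.D p⟫ : ℝ) = (∫ x, φ x * th (k x) * ‖(S.D k : X → F) x‖ ^ 2 ∂μ) +
      ⟪S.D φ, S.D z⟫ := by
    have hI2 : Integrable (fun x => (⟪(S.D φ : X → F) x, (S.D z : X → F) x⟫ : ℝ)) μ :=
      L2.integrable_inner (𝕜 := ℝ) (S.D φ) (S.D z)
    rw [L2.inner_def, L2.inner_def, ← integral_add hI1 hI2]
    refine integral_congr_ae ?_
    filter_upwards [hDp, hDz] with x h1 h2
    rw [h1, h2, inner_add_right, real_inner_smul_right, real_inner_smul_right,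
      real_inner_self_eq_norm_sq, real_inner_smul_right, real_inner_comm ((S.D φ : X → F) x)]
    ring
  have e2 : (⟪S.D φ, S.D z⟫ : ℝ) = (⟪Ψ, z⟫ - ⟪φ, z⟫) / h := by
    rw [eq_div_iff hh.ne']; linarith
  have e3 : (⟪S.D k, S.D p⟫ : ℝ) = (∫ x, ff x * p x ∂μ) + e / a - ⟪k, p⟫ / a := by
    field_simp
    linarith
  -- signs
  have s1 : 0 ≤ (⟪k, p⟫ : ℝ) := by
    rw [inner_eq_integral]
    refine integral_nonneg_of_ae ?_
    filter_upwards [hp, φ0] with x h1 h2
    have := mul_prim_nonneg hth th0 (k x)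
    show 0 ≤ k x * p x
    rw [h1]
    calc (0:ℝ) ≤ φ x * (k x * prim th (k x)) := mul_nonneg h2 this
      _ = _ := by ring
  have s2 : 0 ≤ (⟪Ψ, z⟫ : ℝ) := by
    rw [inner_eq_integral]
    refine integral_nonneg_of_ae ?_
    filter_upwards [hz, Ψ0] with x h1 h2
    show 0 ≤ Ψ x * z x
    rw [h1]
    exact mul_nonneg h2 (prim2_nonneg hth th0 _)
  have hL0 : 0 ≤ L := (abs_nonneg _).trans (hL 0)
  have hkI : Integrable (fun x => φ x * |k x|) μ := by
    refine (integrable_abs_mul_L2 φ k).congr ?_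
    filter_upwards [φ0] with x h1
    rw [abs_of_nonneg h1]
  have s3 : (⟪φ, z⟫ : ℝ) ≤ L * ∫ x, φ x * |k x| ∂μ := by
    rw [inner_eq_integral, ← integral_const_mul]
    refine integral_mono_ae (integrable_mul_L2 φ z) (hkI.const_mul L) ?_
    filter_upwards [hz, φ0] with x h1 h2
    show φ x * z x ≤ L * (φ x * |k x|)
    rw [h1]
    calc φ x * prim (prim th) (k x) ≤ φ x * (L * |k x|) :=
          mul_le_mul_of_nonneg_left ((le_abs_self _).trans (prim2_le hL _)) h2
      _ = _ := by ring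
  have s4 : (∫ x, ff x * p x ∂μ) ≤ L * ∫ x, φ x * |ff x| ∂μ := by
    rw [← integral_const_mul]
    have hb : ∀ᵐ x ∂μ, ‖ff x * p x‖ ≤ L * (φ x * |ff x|) := by
      filter_upwards [hp, φ0] with x h1 h2
      rw [h1, Real.norm_eq_abs, abs_mul, abs_mul, abs_of_nonneg h2]
      calc |ff x| * (φ x * |prim th (k x)|) ≤ |ff x| * (φ x * L) := by gcongr; exact hL _
        _ = _ := by ring
    have hI3 : Integrable (fun x => ff x * p x) μ :=
      (hf.const_mul L).mono' (hfm.mul (Lp.aestronglyMeasurable p)) hb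
    refine integral_mono_ae hI3 (hf.const_mul L) ?_
    filter_upwards [hb] with x h1
    exact (le_abs_self _).trans h1
  have key : (∫ x, φ x * th (k x) * ‖(S.D k : X → F) x‖ ^ 2 ∂μ) =
      (∫ x, ff x * p x ∂μ) + e / a - ⟪k, p⟫ / a - (⟪Ψ, z⟫ - ⟪φ, z⟫) / h := by
    rw [← e2, ← e3, e1]; ring
  rw [key]
  have t1 : e / a ≤ |e| / a := by gcongr; exact le_abs_self e
  have t2 : 0 ≤ (⟪k, p⟫ : ℝ) / a := div_nonneg s1 ha.le
  have t3 : -((⟪Ψ, z⟫ - ⟪φ, z⟫ : ℝ) / h) ≤ h⁻¹ * (L * ∫ x, φ x * |k x| ∂μ) := by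
    rw [← neg_div, div_eq_inv_mul]
    refine mul_le_mul_of_nonneg_left ?_ (inv_nonneg.2 hh.le)
    linarith
  have t4 : h⁻¹ * (L * ∫ x, φ x * |k x| ∂μ) = L * (h⁻¹ * ∫ x, φ x * |k x| ∂μ) := by ring
  rw [mul_add]
  linarith

/-- splitting of `|dk|`: the `L²` part on `{|k| ≤ a}` and the `L¹` part on `{a < |k| ≤ K}` -/
theorem kt2 {a K B N : ℝ} (ha : 0 < a) (hK : 0 < K) {φ k w : X → ℝ}
    (φ0 : ∀ᵐ x ∂μ, 0 ≤ φ x) (w0 : ∀ x, 0 ≤ w x)
    (hφm : AEStronglyMeasurable φ μ) (hkm : AEStronglyMeasurable k μ)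
    (hwm : AEStronglyMeasurable w μ)
    (hI : Integrable (fun x => φ x * thL a K (k x) * w x ^ 2) μ)
    (hB : ∫ x, φ x * thL a K (k x) * w x ^ 2 ∂μ ≤ B)
    (hk : Integrable (fun x => φ x * |k x|) μ) (hN : ∫ x, φ x * |k x| ∂μ ≤ a * N) :
    (Integrable (fun x => φ x * (if |k x| ≤ a ∧ |k x| ≤ K then w x else 0) ^ 2) μ ∧
      ∫ x, φ x * (if |k x| ≤ a ∧ |k x| ≤ K then w x else 0) ^ 2 ∂μ ≤ 2 * B) ∧
    (Integrable (fun x => φ x * (if a < |k x| ∧ |k x| ≤ K then w x else 0)) μ ∧
      ∫ x, φ x * (if a < |k x| ∧ |k x| ≤ K then w x else 0) ∂μ ≤ Real.sqrt (2 * B * N)) := by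
  have hm1 : NullMeasurableSet {x | |k x| ≤ a ∧ |k x| ≤ K} μ := by
    have h1 : AEMeasurable (fun x => |k x|) μ := hkm.aemeasurable.abs
    exact (nullMeasurableSet_le h1 aemeasurable_const).inter (nullMeasurableSet_le h1 aemeasurable_const)
  have hm2 : NullMeasurableSet {x | a < |k x| ∧ |k x| ≤ K} μ := by
    have h1 : AEMeasurable (fun x => |k x|) μ := hkm.aemeasurable.abs
    exact (nullMeasurableSet_lt aemeasurable_const h1).inter (nullMeasurableSet_le h1 aemeasurable_const)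
  have hw1 : AEStronglyMeasurable (fun x => if |k x| ≤ a ∧ |k x| ≤ K then w x else 0) μ := by
    have := (hwm.aemeasurable.indicator₀ hm1).aestronglyMeasurable
    refine this.congr (Eventually.of_forall fun x => ?_)
    simp only [indicator_apply, mem_ofPred_eq]
  have hw2 : AEStronglyMeasurable (fun x => if a < |k x| ∧ |k x| ≤ K then w x else 0) μ := by
    have := (hwm.aemeasurable.indicator₀ hm2).aestronglyMeasurable
    refine this.congr (Eventually.of_forall fun x => ?_)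
    simp only [indicator_apply, mem_ofPred_eq]
  have hth : ∀ x, |k x| ≤ K → thL a K (k x) = 1 / (1 + |k x| / a) := fun x hx => by
    rw [thL, etaK_eq_one hK hx]
  constructor
  · have hb : ∀ᵐ x ∂μ, φ x * (if |k x| ≤ a ∧ |k x| ≤ K then w x else 0) ^ 2 ≤
        2 * (φ x * thL a K (k x) * w x ^ 2) := by
      filter_upwards [φ0] with x h0
      split_ifs with h
      · rw [hth x h.2]
        have h1 : |k x| / a ≤ 1 := (div_le_one ha).2 h.1
        have h2 : 0 ≤ |k x| / a := by positivity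
        have h3 : (1:ℝ) / 2 ≤ 1 / (1 + |k x| / a) := by
          apply one_div_le_one_div_of_le <;> linarith
        have h4 : 0 ≤ φ x * w x ^ 2 := by positivity
        calc φ x * w x ^ 2 = 2 * (φ x * w x ^ 2 * (1 / 2)) := by ring
          _ ≤ 2 * (φ x * w x ^ 2 * (1 / (1 + |k x| / a))) := by gcongr
          _ = _ := by ring
      · have := thL_nonneg ha K (k x)
        simp only [ne_eq, OfNat.ofNat_ne_zero, not_false_eq_true, zero_pow, mul_zero]
        positivity
    have hI2 : Integrable (fun x => φ x * (if |k x| ≤ a ∧ |k x| ≤ K then w x else 0) ^ 2) μ := by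
      refine (hI.const_mul 2).mono' (hφm.mul (hw1.pow 2)) ?_
      filter_upwards [hb, φ0] with x h1 h2
      rw [Real.norm_eq_abs, abs_of_nonneg (mul_nonneg h2 (sq_nonneg _))]
      exact h1
    refine ⟨hI2, ?_⟩
    calc _ ≤ ∫ x, 2 * (φ x * thL a K (k x) * w x ^ 2) ∂μ :=
          integral_mono_ae hI2 (hI.const_mul 2) hb
      _ = 2 * ∫ x, φ x * thL a K (k x) * w x ^ 2 ∂μ := integral_const_mul _ _
      _ ≤ 2 * B := by gcongr
  · -- Cauchy–Schwarz in the form `2 xy ≤ x²/c + c y²`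
    set P : ℝ := ∫ x, φ x * thL a K (k x) * w x ^ 2 ∂μ with hP
    set M : ℝ := ∫ x, φ x * |k x| ∂μ with hM
    have hP0 : 0 ≤ P := integral_nonneg_of_ae (by
      filter_upwards [φ0] with x h0
      have := thL_nonneg ha K (k x)
      show 0 ≤ φ x * thL a K (k x) * w x ^ 2
      positivity)
    have hM0 : 0 ≤ M := integral_nonneg_of_ae (by
      filter_upwards [φ0] with x h0
      show 0 ≤ φ x * |k x|
      positivity)
    have hpt : ∀ c : ℝ, 0 < c → ∀ᵐ x ∂μ, φ x * (if a < |k x| ∧ |k x| ≤ K then w x else 0) ≤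
        c / 2 * (φ x * thL a K (k x) * w x ^ 2) + (c⁻¹ / a) * (φ x * |k x|) := by
      intro c hc
      filter_upwards [φ0] with x h0
      have hth0 := thL_nonneg ha K (k x)
      split_ifs with h
      · have h1 : 1 ≤ |k x| / a := (one_le_div ha).2 h.1.le
        have h2 : thL a K (k x) = 1 / (1 + |k x| / a) := hth x h.2
        have h3 : 0 < 1 + |k x| / a := by linarith
        have h4 : w x ≤ c / 2 * (thL a K (k x) * w x ^ 2) + (c⁻¹ / 2) * (1 + |k x| / a) := by
          rw [h2]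
          have h5 : c / 2 * (1 / (1 + |k x| / a) * w x ^ 2) + c⁻¹ / 2 * (1 + |k x| / a) - w x =
              (c * w x - (1 + |k x| / a)) ^ 2 / (2 * c * (1 + |k x| / a)) := by
            field_simp
            ring
          have h6 : 0 ≤ (c * w x - (1 + |k x| / a)) ^ 2 / (2 * c * (1 + |k x| / a)) := by positivity
          linarith
        have h7 : (c⁻¹ / 2) * (1 + |k x| / a) ≤ c⁻¹ / a * |k x| := by
          have h8 : 1 + |k x| / a ≤ 2 * (|k x| / a) := by linarith
          calc (c⁻¹ / 2) * (1 + |k x| / a) ≤ (c⁻¹ / 2) * (2 * (|k x| / a)) := by gcongr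
            _ = _ := by ring
        calc φ x * w x ≤ φ x * (c / 2 * (thL a K (k x) * w x ^ 2) + c⁻¹ / a * |k x|) := by
              gcongr; linarith
          _ = _ := by ring
      · rw [mul_zero]; positivity
    have hI2 : Integrable (fun x => φ x * (if a < |k x| ∧ |k x| ≤ K then w x else 0)) μ := by
      refine ((hI.const_mul (1 / 2)).add (hk.const_mul (1⁻¹ / a))).mono' (hφm.mul hw2) ?_
      filter_upwards [hpt 1 one_pos, φ0] with x h1 h2
      rw [Real.norm_eq_abs, abs_of_nonneg (mul_nonneg h2 (by split_ifs <;> simp [w0]))]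
      exact h1
    refine ⟨hI2, ?_⟩
    have hc : ∀ c : ℝ, 0 < c → ∫ x, φ x * (if a < |k x| ∧ |k x| ≤ K then w x else 0) ∂μ ≤
        c / 2 * P + c⁻¹ / a * M := by
      intro c hc
      calc _ ≤ ∫ x, (c / 2 * (φ x * thL a K (k x) * w x ^ 2) + (c⁻¹ / a) * (φ x * |k x|)) ∂μ :=
            integral_mono_ae hI2 ((hI.const_mul _).add (hk.const_mul _)) (hpt c hc)
        _ = _ := by
            rw [integral_add (hI.const_mul _) (hk.const_mul _), integral_const_mul,
              integral_const_mul]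
    have hMN : M / a ≤ N := by rw [div_le_iff₀ ha, mul_comm]; exact hN
    have hN0 : 0 ≤ N := (div_nonneg hM0 ha.le).trans hMN
    have hB0 : 0 ≤ B := hP0.trans hB
    have hfin : ∀ c : ℝ, 0 < c → ∫ x, φ x * (if a < |k x| ∧ |k x| ≤ K then w x else 0) ∂μ ≤
        c / 2 * B + c⁻¹ * N := by
      intro c hc0
      refine (hc c hc0).trans ?_
      have : c⁻¹ / a * M = c⁻¹ * (M / a) := by ring
      rw [this]
      gcongr
    set I := ∫ x, φ x * (if a < |k x| ∧ |k x| ≤ K then w x else 0) ∂μ with hIdef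
    -- optimise over `c`
    by_contra hcon
    rw [not_le] at hcon
    have hs0 := Real.sqrt_nonneg (2 * B * N)
    have hI0 : 0 < I := lt_of_le_of_lt hs0 hcon
    have hlt : 2 * B * N < I ^ 2 := by
      have := Real.lt_sqrt hs0 |>.1 (show Real.sqrt (2 * B * N) < Real.sqrt (I ^ 2) by
        rwa [Real.sqrt_sq hI0.le])
      rwa [Real.sq_sqrt (by positivity)] at this
    rcases hB0.eq_or_lt with hB1 | hB1
    · -- `B = 0`: let `c → ∞`
      have h1 := hfin ((N + 1) * 2 / I) (by positivity)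
      rw [← hB1, mul_zero, zero_add, inv_div, div_mul_eq_mul_div, le_div_iff₀ (by positivity)] at h1
      nlinarith
    · have h1 := hfin (I / B) (by positivity)
      have e1 : I / B / 2 * B = I / 2 := by field_simp
      rw [e1, inv_div] at h1
      have h2 : I / 2 ≤ B / I * N := by linarith
      rw [div_mul_eq_mul_div, le_div_iff₀ hI0] at h2
      nlinarith

end Test

end Crest.Agent.R247.Kt622
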