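import Crest.Agent.R247.Kt1_622
import Crest.Agent.R247.Dir6_593

/-!
R247, block (1-K) (helper622): exponential (Agmon) decay of solutions of the homogeneous
equation `ρ² E(v,p) + ⟪v,p⟫ = 0` for `p` vanishing off an open set, over 593's `GradS`.
-/

set_option autoImplicit false
set_option linter.unusedSectionVars false

open MeasureTheory Filter Topology Set
open scoped RealInnerProductSpace ENNReal NNReal

noncomputable section

namespace Crest.Agent.R247.Kt622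

open Crest.Agent.R247.Dir593 Crest.Agent.R247.Dir593.GradS

/-! ### the weight -/

/-- `sinh (t⁺ / c) / c` -/
def sh (c t : ℝ) : ℝ := Real.sinh (max t 0 / c) / c

/-- `cosh (t⁺ / c) - 1` -/
def ch (c t : ℝ) : ℝ := Real.cosh (max t 0 / c) - 1

lemma continuous_sh (c : ℝ) : Continuous (sh c) := by
  unfold sh
  exact (Real.continuous_sinh.comp ((continuous_id.max continuous_const).div_const c)).div_const c

lemma sh_nonneg {c : ℝ} (hc : 0 < c) (t : ℝ) : 0 ≤ sh c t := by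
  unfold sh
  exact div_nonneg (Real.sinh_nonneg_iff.2 (div_nonneg (le_max_right _ _) hc.le)) hc.le

lemma ch_nonneg (c t : ℝ) : 0 ≤ ch c t := by
  unfold ch
  linarith [Real.one_le_cosh (max t 0 / c)]

lemma prim_sh {c : ℝ} (hc : 0 < c) (t : ℝ) : prim (sh c) t = ch c t := by
  rcases le_total 0 t with h | h
  · have h1 : ∀ s ∈ uIcc (0:ℝ) t, HasDerivAt (fun s => Real.cosh (s / c)) (sh c s) s := by
      intro s hs
      rw [uIcc_of_le h] at hs
      have h2 := ((hasDerivAt_id s).div_const c).cosh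
      refine h2.congr_deriv ?_
      unfold sh
      rw [max_eq_left hs.1]
      simp only [id]
      ring
    unfold prim
    rw [intervalIntegral.integral_eq_sub_of_hasDerivAt h1
      ((continuous_sh c).intervalIntegrable _ _)]
    unfold ch
    rw [max_eq_left h, zero_div, Real.cosh_zero]
  · unfold prim ch
    rw [max_eq_right h, zero_div, Real.cosh_zero, sub_self]
    have e : ∫ s in (0:ℝ)..t, sh c s = ∫ s in (0:ℝ)..t, (0:ℝ) := by
      refine intervalIntegral.integral_congr fun s hs => ?_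
      rw [uIcc_of_ge h] at hs
      simp only [sh]
      rw [max_eq_right hs.2, zero_div, Real.sinh_zero, zero_div]
    rw [e]; simp

lemma ch_eq {c : ℝ} (hc : 0 < c) : ch c = prim (sh c) := funext fun t => (prim_sh hc t).symm

lemma hasDerivAt_ch {c : ℝ} (hc : 0 < c) (t : ℝ) : HasDerivAt (ch c) (sh c t) t := by
  rw [ch_eq hc]; exact hasDerivAt_prim (continuous_sh c) t

lemma contDiff_ch {c : ℝ} (hc : 0 < c) : ContDiff ℝ 1 (ch c) := by
  rw [ch_eq hc]; exact contDiff_prim (continuous_sh c)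

lemma deriv_ch {c : ℝ} (hc : 0 < c) : deriv (ch c) = sh c := funext fun t => (hasDerivAt_ch hc t).deriv

lemma ch_mono {c : ℝ} (hc : 0 < c) : Monotone (ch c) := by
  rw [ch_eq hc]; exact monotone_prim (continuous_sh c) (sh_nonneg hc)

lemma sh_mono {c : ℝ} (hc : 0 < c) : Monotone (sh c) := by
  intro s t hst
  unfold sh
  have : max s 0 / c ≤ max t 0 / c := by
    have := max_le_max hst (le_refl (0:ℝ))
    gcongr
  have h2 := Real.sinh_le_sinh.2 this
  gcongr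

lemma ch_of_nonpos {c t : ℝ} (ht : t ≤ 0) : ch c t = 0 := by
  unfold ch; rw [max_eq_right ht, zero_div, Real.cosh_zero, sub_self]

lemma sh_le {c : ℝ} (hc : 0 < c) (t : ℝ) : sh c t ≤ (ch c t + 1) / c := by
  unfold sh ch
  rw [sub_add_cancel]
  have := (Real.sinh_lt_cosh (max t 0 / c)).le
  gcongr

section Ag

variable {X : Type*} [MetricSpace X] [MeasurableSpace X] [BorelSpace X] {F : Type*}
  [NormedAddCommGroup F] [InnerProductSpace ℝ F] {μ : Measure X} [IsFiniteMeasureOnCompacts μ]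
  (S : GradS X F μ)

set_option maxHeartbeats 1000000 in
/-- **Exponential decay.**  If `v` solves the homogeneous equation on `{ζ > 0}` (`ζ` 1-Lipschitz)
then `v` and its gradient are exponentially small on `{ζ ≥ a}`. -/
theorem agmon {v : Lp ℝ 2 μ} (hv : v ∈ S.V) {ρ : ℝ} (hρ : 0 < ρ) {ζ : X → ℝ}
    (hζ : LipschitzWith 1 ζ)
    (heq : ∀ p ∈ S.V, (∀ᵐ x ∂μ, ζ x ≤ 0 → p x = 0) → ρ ^ 2 * ⟪S.D v, S.D p⟫ + ⟪v, p⟫ = 0)
    {a : ℝ} (ha : 0 < a) :
    ch (4 * ρ) a ^ 2 * ∫ x in {x | a ≤ ζ x}, v x ^ 2 ∂μ ≤ ‖v‖ ^ 2 ∧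
    ch (4 * ρ) a ^ 2 * (ρ ^ 2 * ∫ x in {x | a ≤ ζ x}, ‖S.D v x‖ ^ 2 ∂μ) ≤ ‖v‖ ^ 2 := by
  set c : ℝ := 4 * ρ with hc
  have hc0 : 0 < c := by positivity
  set z : X → ℝ := fun x => min (ζ x) a with hz
  have hzL : LipschitzWith 1 z := hζ.min_const a
  have hza : ∀ x, z x ≤ a := fun x => min_le_right _ _
  -- gradient of `z`
  have hGz : ∀ᵐ x ∂μ, ‖S.G z x‖ ≤ 1 := by
    filter_upwards [S.norm_le hzL.locallyLipschitz isOpen_univ hzL.lipschitzOnWith] with x hx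
    simpa using hx (mem_univ x)
  set M : ℝ := ch c a with hM
  have hM0 : 0 ≤ M := ch_nonneg _ _
  have hchM : ∀ x, ch c (z x) ≤ M := fun x => ch_mono hc0 (hza x)
  set M' : ℝ := sh c a with hM'
  have hM'0 : 0 ≤ M' := sh_nonneg hc0 _
  have hshM : ∀ x, sh c (z x) ≤ M' := fun x => sh_mono hc0 (hza x)
  -- the multiplier `P = ch² ∘ z`
  set P : X → ℝ := fun x => ch c (z x) ^ 2 with hP
  have hcd : ContDiff ℝ 1 (fun t => ch c t ^ 2) := (contDiff_ch hc0).pow 2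
  have hPd : ∀ t, deriv (fun t => ch c t ^ 2) t = 2 * ch c t * sh c t := fun t => by
    have h1 : HasDerivAt (fun t => ch c t ^ 2) (((2:ℕ):ℝ) * ch c t ^ (2 - 1) * sh c t) t :=
      (hasDerivAt_ch hc0 t).pow 2
    rw [h1.deriv]; norm_num
  have hGP : ∀ᵐ x ∂μ, S.G P x = (2 * ch c (z x) * sh c (z x)) • S.G z x := by
    filter_upwards [S.comp hzL.locallyLipschitz hcd] with x hx
    rw [hx, hPd]
  have hPll : LocallyLipschitz P := hcd.locallyLipschitz.comp hzL.locallyLipschitz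
  set CC : ℝ := max (M ^ 2) (2 * M * M') with hCC
  have hCC0 : 0 ≤ CC := le_max_of_le_left (sq_nonneg M)
  have hPb : ∀ᵐ x ∂μ, |P x| ≤ CC := Eventually.of_forall fun x => by
    rw [abs_of_nonneg (sq_nonneg _)]
    refine le_trans ?_ (le_max_left _ _)
    exact pow_le_pow_left₀ (ch_nonneg _ _) (hchM x) 2
  have hPG : ∀ᵐ x ∂μ, ‖S.G P x‖ ≤ CC := by
    filter_upwards [hGP, hGz] with x h1 h2
    rw [h1, norm_smul, Real.norm_eq_abs, abs_of_nonneg (by
      have := ch_nonneg c (z x)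
      have := sh_nonneg hc0 (z x)
      positivity)]
    refine le_trans ?_ (le_max_right _ _)
    have e1 := ch_nonneg c (z x)
    have e2 := sh_nonneg hc0 (z x)
    calc 2 * ch c (z x) * sh c (z x) * ‖S.G z x‖ ≤ 2 * M * M' * 1 := by
          gcongr
          · exact hchM x
          · exact hshM x
      _ = _ := by ring
  have hPm : AEStronglyMeasurable P μ := hPll.continuous.aestronglyMeasurable
  set p : Lp ℝ 2 μ := (memLp_smul hPm hPb v).toLp _ with hp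
  have hpc : (p : X → ℝ) =ᵐ[μ] fun x => P x * v x := MemLp.coeFn_toLp (memLp_smul hPm hPb v)
  obtain ⟨hpV, hDp⟩ := S.D_mul_lip hv hPll hCC0 hPb hPG hpc
  have h0 := heq p hpV (by
    filter_upwards [hpc] with x h1 h2
    rw [h1, hP]
    simp only
    rw [ch_of_nonpos ((min_le_left _ _).trans h2)]
    ring)
  -- the integrals
  have hv2 : Integrable (fun x => v x ^ 2) μ := by
    refine (integrable_normSq v).congr (Eventually.of_forall fun x => ?_)
    simp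
  have hD2 : Integrable (fun x => ‖S.D v x‖ ^ 2) μ := integrable_normSq (S.D v)
  have hIv : Integrable (fun x => P x * v x ^ 2) μ :=
    hv2.bdd_mul (c := CC) hPm (hPb.mono fun x hx => by rwa [Real.norm_eq_abs])
  have hID : Integrable (fun x => P x * ‖S.D v x‖ ^ 2) μ :=
    hD2.bdd_mul (c := CC) hPm (hPb.mono fun x hx => by rwa [Real.norm_eq_abs])
  have e1 : (⟪v, p⟫ : ℝ) = ∫ x, P x * v x ^ 2 ∂μ := by
    rw [inner_eq_integral]
    refine integral_congr_ae ?_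
    filter_upwards [hpc] with x h1
    rw [h1]; ring
  have hIX : Integrable (fun x => (⟪S.D v x, S.D p x⟫ : ℝ)) μ :=
    L2.integrable_inner (𝕜 := ℝ) (S.D v) (S.D p)
  have e2 : (⟪S.D v, S.D p⟫ : ℝ) = ∫ x, (⟪S.D v x, S.D p x⟫ : ℝ) ∂μ := L2.inner_def _ _
  -- pointwise bound
  have hpt : ∀ᵐ x ∂μ, (1/2 : ℝ) * (P x * ‖S.D v x‖ ^ 2) - 2 * (sh c (z x) ^ 2 * v x ^ 2) ≤
      ⟪S.D v x, S.D p x⟫ := by
    filter_upwards [hDp, hGP, hGz] with x h1 h2 h3
    rw [h1, inner_add_right, real_inner_smul_right, real_inner_self_eq_norm_sq,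
      real_inner_smul_right, h2, real_inner_smul_right]
    have h4 := abs_real_inner_le_norm (S.D v x) (S.G z x)
    have h5 : |(⟪S.D v x, S.G z x⟫ : ℝ)| ≤ ‖S.D v x‖ := h4.trans (by
      calc ‖S.D v x‖ * ‖S.G z x‖ ≤ ‖S.D v x‖ * 1 := by gcongr
        _ = _ := mul_one _)
    set A : ℝ := ch c (z x) with hA
    set B : ℝ := sh c (z x) with hB
    set d : ℝ := ‖S.D v x‖ with hd
    set i : ℝ := ⟪S.D v x, S.G z x⟫ with hi
    have hA0 : 0 ≤ A := ch_nonneg _ _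
    have hB0 : 0 ≤ B := sh_nonneg hc0 _
    have hPx : P x = A ^ 2 := rfl
    rw [hPx]
    have h6 : -(A * d * (2 * B * |v x|)) ≤ v x * (2 * A * B * i) := by
      have h7 : |v x * (2 * A * B * i)| ≤ A * d * (2 * B * |v x|) := by
        rw [abs_mul, abs_mul, abs_of_nonneg (by positivity : 0 ≤ 2 * A * B)]
        calc |v x| * (2 * A * B * |i|) ≤ |v x| * (2 * A * B * d) := by gcongr
          _ = _ := by ring
      exact (abs_le.1 h7).1
    have h8 : A * d * (2 * B * |v x|) ≤ 1 / 2 * (A * d) ^ 2 + 1 / 2 * (2 * B * |v x|) ^ 2 := by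
      nlinarith [sq_nonneg (A * d - 2 * B * |v x|)]
    have h9 : (2 * B * |v x|) ^ 2 = 4 * (B ^ 2 * v x ^ 2) := by
      rw [mul_pow, mul_pow, sq_abs]; ring
    rw [h9] at h8
    nlinarith
  have hsv : Integrable (fun x => sh c (z x) ^ 2 * v x ^ 2) μ := by
    refine hv2.bdd_mul (c := M' ^ 2) ?_ (Eventually.of_forall fun x => ?_)
    · exact ((continuous_sh c).comp hzL.continuous).pow 2 |>.aestronglyMeasurable
    · rw [Real.norm_eq_abs, abs_of_nonneg (sq_nonneg _)]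
      exact pow_le_pow_left₀ (sh_nonneg hc0 _) (hshM x) 2
  have h3 : (1/2 : ℝ) * ∫ x, P x * ‖S.D v x‖ ^ 2 ∂μ - 2 * ∫ x, sh c (z x) ^ 2 * v x ^ 2 ∂μ ≤
      ⟪S.D v, S.D p⟫ := by
    rw [e2, ← integral_const_mul, ← integral_const_mul, ← integral_sub (hID.const_mul _)
      (hsv.const_mul _)]
    exact integral_mono_ae ((hID.const_mul _).sub (hsv.const_mul _)) hIX hpt
  -- `ρ² sh² ≤ (ch² + 1)/8`
  have h4 : ρ ^ 2 * ∫ x, sh c (z x) ^ 2 * v x ^ 2 ∂μ ≤
      1 / 8 * ∫ x, P x * v x ^ 2 ∂μ + 1 / 8 * ∫ x, v x ^ 2 ∂μ := by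
    rw [← integral_const_mul, ← integral_const_mul, ← integral_const_mul,
      ← integral_add (hIv.const_mul _) (hv2.const_mul _)]
    refine integral_mono_ae (hsv.const_mul _) ((hIv.const_mul _).add (hv2.const_mul _))
      (Eventually.of_forall fun x => ?_)
    show ρ ^ 2 * (sh c (z x) ^ 2 * v x ^ 2) ≤ 1 / 8 * (P x * v x ^ 2) + 1 / 8 * v x ^ 2
    have h5 := sh_le hc0 (z x)
    have h6 : sh c (z x) ^ 2 ≤ ((ch c (z x) + 1) / c) ^ 2 :=
      pow_le_pow_left₀ (sh_nonneg hc0 _) h5 2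
    have h7 : ρ ^ 2 * sh c (z x) ^ 2 ≤ (ch c (z x) + 1) ^ 2 / 16 := by
      calc ρ ^ 2 * sh c (z x) ^ 2 ≤ ρ ^ 2 * ((ch c (z x) + 1) / c) ^ 2 := by gcongr
        _ = _ := by rw [hc]; field_simp; ring
    have h8 : (ch c (z x) + 1) ^ 2 ≤ 2 * (P x + 1) := by
      show (ch c (z x) + 1) ^ 2 ≤ 2 * (ch c (z x) ^ 2 + 1)
      nlinarith [sq_nonneg (ch c (z x) - 1)]
    have h9 : 0 ≤ v x ^ 2 := sq_nonneg _
    nlinarith
  -- conclusion
  set IV := ∫ x, P x * v x ^ 2 ∂μ with hIVd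
  set ID := ∫ x, P x * ‖S.D v x‖ ^ 2 ∂μ with hIDd
  have hn : ∫ x, v x ^ 2 ∂μ = ‖v‖ ^ 2 := by
    rw [normSq]
    refine integral_congr_ae (Eventually.of_forall fun x => ?_)
    simp
  rw [hn] at h4
  rw [e1] at h0
  have hID0 : 0 ≤ ID := integral_nonneg fun x => by
    show 0 ≤ P x * ‖S.D v x‖ ^ 2
    have : 0 ≤ P x := sq_nonneg _
    positivity
  have hIV0 : 0 ≤ IV := integral_nonneg fun x => by
    show 0 ≤ P x * v x ^ 2
    have : 0 ≤ P x := sq_nonneg _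
    positivity
  have h5 : ρ ^ 2 * (1 / 2 * ID - 2 * ∫ x, sh c (z x) ^ 2 * v x ^ 2 ∂μ) ≤
      ρ ^ 2 * ⟪S.D v, S.D p⟫ := by
    have : 0 ≤ ρ ^ 2 := sq_nonneg _
    gcongr
  have h6 : ρ ^ 2 * (1 / 2 * ID) + 3 / 4 * IV ≤ 1 / 4 * ‖v‖ ^ 2 := by
    rw [mul_sub] at h5
    have e9 : ρ ^ 2 * (2 * ∫ x, sh c (z x) ^ 2 * v x ^ 2 ∂μ) =
        2 * (ρ ^ 2 * ∫ x, sh c (z x) ^ 2 * v x ^ 2 ∂μ) := by ring
    rw [e9] at h5
    linarith
  -- lower bounds of the integrals
  have hms : MeasurableSet {x | a ≤ ζ x} := measurableSet_le measurable_const hζ.continuous.measurable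
  have hPM : ∀ x ∈ {x | a ≤ ζ x}, P x = M ^ 2 := by
    intro x hx
    show ch c (min (ζ x) a) ^ 2 = ch c a ^ 2
    rw [min_eq_right hx]
  have h7 : M ^ 2 * ∫ x in {x | a ≤ ζ x}, v x ^ 2 ∂μ ≤ IV := by
    rw [← integral_const_mul]
    calc ∫ x in {x | a ≤ ζ x}, M ^ 2 * v x ^ 2 ∂μ = ∫ x in {x | a ≤ ζ x}, P x * v x ^ 2 ∂μ := by
          refine setIntegral_congr_fun hms fun x hx => ?_
          show M ^ 2 * v x ^ 2 = P x * v x ^ 2
          rw [hPM x hx]
      _ ≤ IV := setIntegral_le_integral hIv (Eventually.of_forall fun x => by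
          show 0 ≤ P x * v x ^ 2
          have : 0 ≤ P x := sq_nonneg _
          positivity)
  have h8 : M ^ 2 * ∫ x in {x | a ≤ ζ x}, ‖S.D v x‖ ^ 2 ∂μ ≤ ID := by
    rw [← integral_const_mul]
    calc ∫ x in {x | a ≤ ζ x}, M ^ 2 * ‖S.D v x‖ ^ 2 ∂μ =
          ∫ x in {x | a ≤ ζ x}, P x * ‖S.D v x‖ ^ 2 ∂μ := by
          refine setIntegral_congr_fun hms fun x hx => ?_
          show M ^ 2 * ‖S.D v x‖ ^ 2 = P x * ‖S.D v x‖ ^ 2
          rw [hPM x hx]
      _ ≤ ID := setIntegral_le_integral hID (Eventually.of_forall fun x => by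
          show 0 ≤ P x * ‖S.D v x‖ ^ 2
          have : 0 ≤ P x := sq_nonneg _
          positivity)
  have hρ2 : 0 < ρ ^ 2 := by positivity
  have hnv : 0 ≤ ‖v‖ ^ 2 := sq_nonneg _
  constructor
  · have h9 : 0 ≤ ρ ^ 2 * (1 / 2 * ID) := by positivity
    linarith
  · calc M ^ 2 * (ρ ^ 2 * ∫ x in {x | a ≤ ζ x}, ‖S.D v x‖ ^ 2 ∂μ)
        = ρ ^ 2 * (M ^ 2 * ∫ x in {x | a ≤ ζ x}, ‖S.D v x‖ ^ 2 ∂μ) := by ring
      _ ≤ ρ ^ 2 * ID := by gcongr
      _ ≤ ‖v‖ ^ 2 := by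
          have e9 : ρ ^ 2 * (1 / 2 * ID) = 1 / 2 * (ρ ^ 2 * ID) := by ring
          rw [e9] at h6
          linarith

end Ag

end Crest.Agent.R247.Kt622
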