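import Crest.Agent.R247.Kt2_622

/-!
R247, block (1-K) (helper622): the chain of estimates for `q`, `S'`, `k`, `|dk|` weighted by
`φ' = R_{ρ/2} Ψ`, from the `k`-equation, over 593's `GradS` and resolvents.
-/

set_option autoImplicit false
set_option linter.unusedSectionVars false
set_option linter.unusedVariables false

open MeasureTheory Filter Topology Set
open scoped RealInnerProductSpace ENNReal NNReal

noncomputable section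

namespace Crest.Agent.R247.Kt622

open Crest.Agent.R247.Dir593 Crest.Agent.R247.Dir593.GradS Crest.Agent.R242

section Chain

variable {X : Type*} [MetricSpace X] [MeasurableSpace X] [BorelSpace X] {F : Type*}
  [NormedAddCommGroup F] [InnerProductSpace ℝ F] [CompleteSpace F] {μ : Measure X}
  [IsFiniteMeasureOnCompacts μ]

/-- inputs: the positive functional `l` (`q = R l`), the function `k`, the `k`-equation with source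
`SS` and far errors `e0`, `E1` dominated by `b`. -/
structure KIn (S : GradS X F μ) (hd : Dense (S.V : Set (Lp ℝ 2 μ))) (h : ℝ) where
  l : Fnl (S.form hd)
  l_nonneg : ∀ w ∈ S.V, 0 ≤ᵐ[μ] (w : X → ℝ) → 0 ≤ l.f w
  k : Lp ℝ 2 μ
  k_mem : k ∈ S.V
  k_bdd : ∃ C, ∀ᵐ z ∂μ, |k z| ≤ C
  SS : X → ℝ
  SS_int : Integrable SS μ
  b : Lp ℝ 2 μ
  e0 : Lp ℝ 2 μ
  E1 : Lp F 2 μ
  e0_le : ∀ᵐ z ∂μ, |e0 z| ≤ b z
  E1_le : ∀ᵐ z ∂μ, ‖E1 z‖ ≤ b z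
  b_bdd : ∃ C, ∀ᵐ z ∂μ, b z ≤ C
  SS_ge : ∀ᵐ z ∂μ, -(b z) ≤ SS z
  keq : ∀ p ∈ S.V, (∃ C, ∀ᵐ z ∂μ, |p z| ≤ C) →
    h * ⟪S.D k, S.D p⟫ + ⟪k, p⟫ = ⟪e0, p⟫ + ⟪E1, S.D p⟫ +
      h * ∫ z, (4 * (resD (S.form hd) h l : Lp ℝ 2 μ) z - SS z) * p z ∂μ

namespace KIn

variable {S : GradS X F μ} {hd : Dense (S.V : Set (Lp ℝ 2 μ))} {h : ℝ} (K : KIn S hd h)

/-- `q` -/
def q : Lp ℝ 2 μ := resD (S.form hd) h K.l

/-- `R q` -/
def Rq : Lp ℝ 2 μ := (S.form hd).res h K.q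

/-- the far error in `k` -/
def w : Lp ℝ 2 μ := resD (S.form hd) h (S.fnl hd K.e0 K.E1)

/-- `R b` -/
def Rb : Lp ℝ 2 μ := (S.form hd).res h K.b

/-- `4 h R q + w - k + h R b = h R (SS + b)` -/
def B1 : Lp ℝ 2 μ := (4 * h) • K.Rq + K.w - K.k + h • K.Rb

lemma b_nonneg : ∀ᵐ z ∂μ, 0 ≤ K.b z := by
  filter_upwards [K.e0_le] with z hz using (abs_nonneg _).trans hz

variable (hh : 0 < h)

include hh

lemma q_mem : K.q ∈ S.V := resD_mem (Q := S.form hd) hh K.l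

lemma Rq_mem : K.Rq ∈ S.V := (S.form hd).res_mem hh K.q

lemma w_mem : K.w ∈ S.V := resD_mem (Q := S.form hd) hh _

lemma Rb_mem : K.Rb ∈ S.V := (S.form hd).res_mem hh K.b

lemma B1_mem : K.B1 ∈ S.V :=
  S.V.add_mem (S.V.sub_mem (S.V.add_mem (S.V.smul_mem _ (K.Rq_mem hh)) (K.w_mem hh)) K.k_mem)
    (S.V.smul_mem _ (K.Rb_mem hh))

lemma q_nonneg : 0 ≤ᵐ[μ] (K.q : X → ℝ) := (S.markov hd).resD_nonneg hh K.l_nonneg

lemma Rq_nonneg : 0 ≤ᵐ[μ] (K.Rq : X → ℝ) := (S.markov hd).res_nonneg hh (K.q_nonneg hh)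

lemma Rb_nonneg : 0 ≤ᵐ[μ] (K.Rb : X → ℝ) := (S.markov hd).res_nonneg hh K.b_nonneg

omit hh in
lemma int_mul {f : X → ℝ} (hf : Integrable f μ) {p : Lp ℝ 2 μ} (hp : ∃ C, ∀ᵐ z ∂μ, |p z| ≤ C) :
    Integrable (fun z => f z * p z) μ := by
  obtain ⟨C, hC⟩ := hp
  refine (hf.bdd_mul (c := C) (Lp.aestronglyMeasurable p) ?_).congr
    (Eventually.of_forall fun z => mul_comm _ _)
  filter_upwards [hC] with z hz
  rwa [Real.norm_eq_abs]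

omit hh in
lemma SSb_int {p : Lp ℝ 2 μ} (hp : ∃ C, ∀ᵐ z ∂μ, |p z| ≤ C) :
    Integrable (fun z => (K.SS z + K.b z) * p z) μ := by
  refine ((int_mul K.SS_int hp).add (integrable_mul_L2 K.b p)).congr
    (Eventually.of_forall fun z => ?_)
  show K.SS z * p z + K.b z * p z = _
  ring

omit hh in
lemma SSb_eq {p : Lp ℝ 2 μ} (hp : ∃ C, ∀ᵐ z ∂μ, |p z| ≤ C) :
    ∫ z, (K.SS z + K.b z) * p z ∂μ = (∫ z, K.SS z * p z ∂μ) + ⟪K.b, p⟫ := by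
  rw [inner_eq_integral, ← integral_add (int_mul K.SS_int hp) (integrable_mul_L2 K.b p)]
  refine integral_congr_ae (Eventually.of_forall fun z => ?_)
  show _ = K.SS z * p z + K.b z * p z
  ring

omit hh in
lemma ff_eq {p : Lp ℝ 2 μ} (hp : ∃ C, ∀ᵐ z ∂μ, |p z| ≤ C) :
    ∫ z, (4 * K.q z - K.SS z) * p z ∂μ = 4 * ⟪K.q, p⟫ - ∫ z, K.SS z * p z ∂μ := by
  rw [inner_eq_integral, ← integral_const_mul,
    ← integral_sub ((integrable_mul_L2 K.q p).const_mul 4) (int_mul K.SS_int hp)]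
  refine integral_congr_ae (Eventually.of_forall fun z => ?_)
  show (4 * K.q z - K.SS z) * p z = 4 * (K.q z * p z) - K.SS z * p z
  ring

/-- the equation of `B1` -/
lemma B1_eq {p : Lp ℝ 2 μ} (hp : p ∈ S.V) (hpb : ∃ C, ∀ᵐ z ∂μ, |p z| ≤ C) :
    h * (S.form hd).E K.B1 p + ⟪K.B1, p⟫ = h * ∫ z, (K.SS z + K.b z) * p z ∂μ := by
  have a1 := (S.form hd).res_eq hh K.q hp
  have a2 := resD_eq (Q := S.form hd) hh (S.fnl hd K.e0 K.E1) hp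
  have a3 := K.keq p hp hpb
  have a4 := (S.form hd).res_eq hh K.b hp
  have m1 := S.V.smul_mem (4 * h) (K.Rq_mem hh)
  have m2 := K.w_mem hh
  have m3 := K.k_mem
  have m4 := S.V.smul_mem h (K.Rb_mem hh)
  have e1 : (S.form hd).E K.B1 p = 4 * h * (S.form hd).E K.Rq p + (S.form hd).E K.w p -
      (S.form hd).E K.k p + h * (S.form hd).E K.Rb p := by
    simp only [form_E_inner]
    show (⟪S.D ((4 * h) • K.Rq + K.w - K.k + h • K.Rb), S.D p⟫ : ℝ) = _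
    rw [S.D_add (S.V.sub_mem (S.V.add_mem m1 m2) m3) m4, S.D_sub (S.V.add_mem m1 m2) m3,
      S.D_add m1 m2, S.D_smul _ (K.Rq_mem hh), S.D_smul _ (K.Rb_mem hh), inner_add_left,
      inner_sub_left, inner_add_left, real_inner_smul_left, real_inner_smul_left]
  have e2 : (⟪K.B1, p⟫ : ℝ) = 4 * h * ⟪K.Rq, p⟫ + ⟪K.w, p⟫ - ⟪K.k, p⟫ + h * ⟪K.Rb, p⟫ := by
    show (⟪(4 * h) • K.Rq + K.w - K.k + h • K.Rb, p⟫ : ℝ) = _
    rw [inner_add_left, inner_sub_left, inner_add_left, real_inner_smul_left,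
      real_inner_smul_left]
  have a2' : h * (S.form hd).E K.w p + ⟪K.w, p⟫ = ⟪K.e0, p⟫ + ⟪K.E1, S.D p⟫ := a2
  have a1' : h * (S.form hd).E K.Rq p + ⟪K.Rq, p⟫ = ⟪K.q, p⟫ := a1
  have a4' : h * (S.form hd).E K.Rb p + ⟪K.Rb, p⟫ = ⟪K.b, p⟫ := a4
  have a3' : h * (S.form hd).E K.k p + ⟪K.k, p⟫ = ⟪K.e0, p⟫ + ⟪K.E1, S.D p⟫ +
      h * ∫ z, (4 * K.q z - K.SS z) * p z ∂μ := a3
  rw [K.ff_eq hpb] at a3'
  rw [K.SSb_eq hpb, e1, e2]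
  linear_combination (4 * h) * a1' + a2' - a3' + h * a4'

lemma SSb_nonneg {p : X → ℝ} (hp : ∀ᵐ z ∂μ, 0 ≤ p z) : 0 ≤ ∫ z, (K.SS z + K.b z) * p z ∂μ := by
  refine integral_nonneg_of_ae ?_
  filter_upwards [hp, K.SS_ge] with z h1 h2
  exact mul_nonneg (by linarith) h1

/-- `B1` is a supersolution -/
lemma B1_super : ∀ p ∈ (S.form hd).dom, 0 ≤ᵐ[μ] (p : X → ℝ) →
    0 ≤ h * (S.form hd).E K.B1 p + ⟪K.B1, p⟫ := by
  intro p hp hp0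
  have key : 0 ≤ (((Fnl.ofE (S.form hd) (K.B1_mem hh)).smul h).add
      (Fnl.ofInner (S.form hd) K.B1)).f p := by
    refine Fnl.nonneg_of_test (fun f hf hf0 => ?_) hp hp0
    show 0 ≤ h * (S.form hd).E K.B1 (tL hf) + ⟪K.B1, tL hf⟫
    obtain ⟨C, hC⟩ := hf.1.continuous.bounded_above_of_compact_support hf.2
    rw [K.B1_eq hh (S.tL_mem hf) ⟨C, by
      filter_upwards [coe_tL (μ := μ) hf] with z hz
      rw [hz]; exact hC z⟩]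
    refine mul_nonneg hh.le (K.SSb_nonneg hh ?_)
    filter_upwards [coe_tL (μ := μ) hf] with z hz
    rw [hz]; exact hf0 z
  exact key

lemma B1_nonneg : ∀ᵐ z ∂μ, 0 ≤ K.B1 z :=
  (S.markov hd).super_nonneg hh (K.B1_mem hh) (K.B1_super hh)

/-- pointwise bound of `|k|` -/
lemma abs_k_le : ∀ᵐ z ∂μ, |K.k z| ≤ 4 * h * K.Rq z + |K.w z| + K.B1 z + h * K.Rb z := by
  have e : (K.B1 : X → ℝ) =ᵐ[μ] fun z => 4 * h * K.Rq z + K.w z - K.k z + h * K.Rb z := by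
    show (((4 * h) • K.Rq + K.w - K.k + h • K.Rb : Lp ℝ 2 μ) : X → ℝ) =ᵐ[μ] _
    filter_upwards [Lp.coeFn_add ((4 * h) • K.Rq + K.w - K.k) (h • K.Rb),
      Lp.coeFn_sub ((4 * h) • K.Rq + K.w) K.k, Lp.coeFn_add ((4 * h) • K.Rq) K.w,
      Lp.coeFn_smul (4 * h) K.Rq, Lp.coeFn_smul h K.Rb] with z a1 a2 a3 a4 a5
    rw [a1, Pi.add_apply, a2, Pi.sub_apply, a3, Pi.add_apply, a4, a5]
    rfl
  filter_upwards [e, K.Rq_nonneg hh, K.Rb_nonneg hh, K.B1_nonneg hh] with z h1 h2 h3 h4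
  have h2' : 0 ≤ K.Rq z := h2
  have h3' : 0 ≤ K.Rb z := h3
  have e2 : K.k z = 4 * h * K.Rq z + K.w z - K.B1 z + h * K.Rb z := by rw [h1]; ring
  have h5 := mul_nonneg hh.le h2'
  have h6 := mul_nonneg hh.le h3'
  rw [e2, abs_le]
  constructor
  · have := neg_abs_le (K.w z)
    nlinarith
  · have := le_abs_self (K.w z)
    nlinarith

/-- upper bound of `k` -/
lemma k_le : ∀ᵐ z ∂μ, K.k z ≤ 4 * h * K.Rq z + |K.w z| + h * K.Rb z := by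
  have e : (K.B1 : X → ℝ) =ᵐ[μ] fun z => 4 * h * K.Rq z + K.w z - K.k z + h * K.Rb z := by
    show (((4 * h) • K.Rq + K.w - K.k + h • K.Rb : Lp ℝ 2 μ) : X → ℝ) =ᵐ[μ] _
    filter_upwards [Lp.coeFn_add ((4 * h) • K.Rq + K.w - K.k) (h • K.Rb),
      Lp.coeFn_sub ((4 * h) • K.Rq + K.w) K.k, Lp.coeFn_add ((4 * h) • K.Rq) K.w,
      Lp.coeFn_smul (4 * h) K.Rq, Lp.coeFn_smul h K.Rb] with z a1 a2 a3 a4 a5
    rw [a1, Pi.add_apply, a2, Pi.sub_apply, a3, Pi.add_apply, a4, a5]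
    rfl
  filter_upwards [e, K.B1_nonneg hh] with z h1 h4
  have e2 : K.k z = 4 * h * K.Rq z + K.w z - K.B1 z + h * K.Rb z := by rw [h1]; ring
  have := le_abs_self (K.w z)
  rw [e2]; linarith

omit hh in
/-- if `v` is an `h`-supersolution, then `⟪v, R_{h/4} Ψ⟫ ≤ (4/3) ⟪v, Ψ⟫` -/
lemma inner_super_le (hh : 0 < h) {v Ψ : Lp ℝ 2 μ} (hv : v ∈ S.V)
    (hs : ∀ w ∈ (S.form hd).dom, 0 ≤ᵐ[μ] (w : X → ℝ) → 0 ≤ h * (S.form hd).E v w + ⟪v, w⟫)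
    (hΨ : ∀ᵐ z ∂μ, 0 ≤ Ψ z) : ⟪v, (S.form hd).res (h / 4) Ψ⟫ ≤ 4 / 3 * ⟪v, Ψ⟫ := by
  rw [← (S.form hd).res_symm, inner_eq_integral, inner_eq_integral, ← integral_const_mul]
  refine integral_mono_ae (integrable_mul_L2 _ _) ((integrable_mul_L2 _ _).const_mul _) ?_
  filter_upwards [(S.markov hd).res_quarter_super hh hv hs, hΨ] with z h1 h2
  show ((S.form hd).res (h / 4) v : Lp ℝ 2 μ) z * Ψ z ≤ 4 / 3 * (v z * Ψ z)
  calc _ ≤ 4 / 3 * v z * Ψ z := by gcongr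
    _ = _ := by ring

lemma q_super : ∀ w ∈ (S.form hd).dom, 0 ≤ᵐ[μ] (w : X → ℝ) →
    0 ≤ h * (S.form hd).E K.q w + ⟪K.q, w⟫ := Markov.resD_super hh K.l_nonneg

omit hh in
lemma res_super (hh : 0 < h) {f : Lp ℝ 2 μ} (hf : 0 ≤ᵐ[μ] (f : X → ℝ)) :
    ∀ w ∈ (S.form hd).dom, 0 ≤ᵐ[μ] (w : X → ℝ) →
    0 ≤ h * (S.form hd).E ((S.form hd).res h f) w + ⟪(S.form hd).res h f, w⟫ := by
  intro w hw hw0
  rw [(S.form hd).res_eq hh f hw, inner_eq_integral]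
  refine integral_nonneg_of_ae ?_
  filter_upwards [hf, hw0] with z h1 h2
  exact mul_nonneg h1 h2

/-! ### the test functions -/

section Test

variable {Ψ : Lp ℝ 2 μ} (Ψ0 : ∀ᵐ z ∂μ, 0 ≤ Ψ z) (hΨ : ∃ C, ∀ᵐ z ∂μ, Ψ z ≤ C)

include Ψ0

omit hh in
lemma res_nonneg' {g : ℝ} (hg : 0 < g) : ∀ᵐ z ∂μ, 0 ≤ ((S.form hd).res g Ψ : Lp ℝ 2 μ) z :=
  (S.markov hd).res_nonneg hg Ψ0

include hΨ

omit hh in
lemma res_bdd {g : ℝ} (hg : 0 < g) : ∃ C, ∀ᵐ z ∂μ, |((S.form hd).res g Ψ : Lp ℝ 2 μ) z| ≤ C := by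
  obtain ⟨C, hC⟩ := hΨ
  have h1 := (S.markov hd).res_le (h := g) hg (a := max C 0) (le_max_right _ _)
    (hC.mono fun z hz => hz.trans (le_max_left _ _))
  refine ⟨max C 0, ?_⟩
  filter_upwards [h1, res_nonneg' (S := S) (hd := hd) Ψ0 hg] with z a1 a2
  rw [abs_of_nonneg a2]; exact a1

/-- `φ' ≤ 4 φ` -/
lemma quarter_le (hh : 0 < h) : ∀ᵐ z ∂μ, ((S.form hd).res (h / 4) Ψ : Lp ℝ 2 μ) z ≤
    4 * ((S.form hd).res h Ψ : Lp ℝ 2 μ) z := by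
  have h4 : 0 < h / 4 := by positivity
  have := (S.markov hd).resD_quarter_le hh (l := Fnl.ofInner (S.form hd) Ψ) (fun w _ hw0 => by
    show 0 ≤ (⟪Ψ, w⟫ : ℝ)
    rw [inner_eq_integral]
    refine integral_nonneg_of_ae ?_
    filter_upwards [Ψ0, hw0] with z h1 h2
    exact mul_nonneg h1 h2)
  rw [resD_ofInner hh, resD_ofInner h4] at this
  exact this

/-- `⟪B1, Ψ⟫ = h ∫ (SS + b) φ` -/
lemma B1_inner : ⟪K.B1, Ψ⟫ =
    h * ∫ z, (K.SS z + K.b z) * ((S.form hd).res h Ψ : Lp ℝ 2 μ) z ∂μ := by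
  rw [← K.B1_eq hh ((S.form hd).res_mem hh Ψ) (res_bdd Ψ0 hΨ hh)]
  have := (S.form hd).res_eq hh Ψ (K.B1_mem hh)
  rw [(S.form hd).symm (K.B1_mem hh) ((S.form hd).res_mem hh Ψ),
    real_inner_comm ((S.form hd).res h Ψ : Lp ℝ 2 μ) K.B1, this, real_inner_comm]

/-- **identity (HF)** as an inequality -/
lemma hf_le {gq : X → ℝ} {T0 : ℝ}
    (hk : ∀ᵐ z ∂μ, Ψ z ≠ 0 → 2 * h * K.q z - 2 * h * gq z ≤ K.k z)
    (hTi : Integrable (fun z => Ψ z * (K.q z + gq z)) μ)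
    (hT : ∫ z, Ψ z * (K.q z + gq z) ∂μ ≤ T0) :
    ∫ z, K.SS z * ((S.form hd).res h Ψ : Lp ℝ 2 μ) z ∂μ ≤
      4 * ⟪K.q, (S.form hd).res h Ψ⟫ - 4 * ⟪K.q, Ψ⟫ + 2 * T0 +
      h⁻¹ * (⟪K.e0, (S.form hd).res h Ψ⟫ + ⟪K.E1, S.D ((S.form hd).res h Ψ)⟫) := by
  set φ : Lp ℝ 2 μ := (S.form hd).res h Ψ with hφ
  have hφV : φ ∈ S.V := (S.form hd).res_mem hh Ψ
  have hφb := res_bdd (S := S) (hd := hd) Ψ0 hΨ hh
  have a1 := K.keq φ hφV hφb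
  have a2 : h * ⟪S.D φ, S.D K.k⟫ + ⟪φ, K.k⟫ = ⟪Ψ, K.k⟫ := (S.form hd).res_eq hh Ψ K.k_mem
  rw [real_inner_comm (S.D φ), real_inner_comm φ] at a1
  have a3 : h * ∫ z, (4 * K.q z - K.SS z) * φ z ∂μ =
      ⟪Ψ, K.k⟫ - (⟪K.e0, φ⟫ + ⟪K.E1, S.D φ⟫) := by
    have a4 : h * ⟪S.D φ, S.D K.k⟫ + ⟪φ, K.k⟫ = ⟪K.e0, φ⟫ + ⟪K.E1, S.D φ⟫ +
      h * ∫ z, (4 * K.q z - K.SS z) * φ z ∂μ := a1
    linarith
  rw [K.ff_eq hφb] at a3
  -- lower bound of `⟪Ψ, k⟫`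
  have a5 : 4 * h * ⟪K.q, Ψ⟫ - 2 * h * ∫ z, Ψ z * (K.q z + gq z) ∂μ ≤ ⟪Ψ, K.k⟫ := by
    have e1 : 4 * h * ⟪K.q, Ψ⟫ - 2 * h * ∫ z, Ψ z * (K.q z + gq z) ∂μ =
        ∫ z, (4 * h * (K.q z * Ψ z) - 2 * h * (Ψ z * (K.q z + gq z))) ∂μ := by
      rw [inner_eq_integral, integral_sub ((integrable_mul_L2 _ _).const_mul _) (hTi.const_mul _),
        integral_const_mul, integral_const_mul]
    rw [e1, inner_eq_integral]
    refine integral_mono_ae (((integrable_mul_L2 _ _).const_mul _).sub (hTi.const_mul _))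
      (integrable_mul_L2 _ _) ?_
    filter_upwards [hk, Ψ0] with z h1 h2
    show 4 * h * (K.q z * Ψ z) - 2 * h * (Ψ z * (K.q z + gq z)) ≤ Ψ z * K.k z
    by_cases hz : Ψ z = 0
    · rw [hz]; simp
    · have h3 := mul_le_mul_of_nonneg_left (h1 hz) h2
      calc _ = Ψ z * (2 * h * K.q z - 2 * h * gq z) := by ring
        _ ≤ _ := h3
  have a6 : 2 * h * ∫ z, Ψ z * (K.q z + gq z) ∂μ ≤ 2 * h * T0 := by gcongr
  have a7 : h * ∫ z, K.SS z * φ z ∂μ ≤ h * (4 * ⟪K.q, φ⟫ - 4 * ⟪K.q, Ψ⟫ + 2 * T0 +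
      h⁻¹ * (⟪K.e0, φ⟫ + ⟪K.E1, S.D φ⟫)) := by
    have e : h * (4 * ⟪K.q, φ⟫ - 4 * ⟪K.q, Ψ⟫ + 2 * T0 +
      h⁻¹ * (⟪K.e0, φ⟫ + ⟪K.E1, S.D φ⟫)) = h * (4 * ⟪K.q, φ⟫) - 4 * h * ⟪K.q, Ψ⟫ + 2 * h * T0 +
      (⟪K.e0, φ⟫ + ⟪K.E1, S.D φ⟫) := by
        field_simp
    rw [e]
    rw [mul_sub] at a3
    linarith
  exact le_of_mul_le_mul_left a7 hh

end Test

end KIn

end Chain

end Crest.Agent.R247.Kt622
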