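import Crest.Agent.R247.Kt3_622

/-!
R247, block (1-K) (helper622): the weighted estimates (all in terms of one number `Y`).
-/

set_option autoImplicit false
set_option linter.unusedSectionVars false
set_option linter.unusedVariables false

open MeasureTheory Filter Topology Set
open scoped RealInnerProductSpace ENNReal NNReal

noncomputable section

namespace Crest.Agent.R247.Kt622

open Crest.Agent.R247.Dir593 Crest.Agent.R247.Dir593.GradS Crest.Agent.R242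

section Chain

variable {X : Type*} [MetricSpace X] [MeasurableSpace X] [BorelSpace X] {F : Type*}
  [NormedAddCommGroup F] [InnerProductSpace ℝ F] [CompleteSpace F] {μ : Measure X}
  [IsFiniteMeasureOnCompacts μ]

/-- smallness hypotheses -/
structure Sm {S : GradS X F μ} {hd : Dense (S.V : Set (Lp ℝ 2 μ))} {h : ℝ} (K : KIn S hd h)
    (Ψ : Lp ℝ 2 μ) (gq : X → ℝ) (Y : ℝ) : Prop where
  h0 : 0 < h
  h1 : h ≤ 1
  Ψ0 : ∀ᵐ z ∂μ, 0 ≤ Ψ z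
  Ψb : ∃ C, ∀ᵐ z ∂μ, Ψ z ≤ C
  hk : ∀ᵐ z ∂μ, Ψ z ≠ 0 → 2 * h * K.q z - 2 * h * gq z ≤ K.k z
  hTi : Integrable (fun z => Ψ z * (K.q z + gq z)) μ
  hT : ∫ z, Ψ z * (K.q z + gq z) ∂μ ≤ Y
  hA : ⟪K.q, Ψ⟫ ≤ Y
  hB : ⟪K.q, (S.form hd).res h Ψ⟫ ≤ Y
  e1 : ⟪K.b, (S.form hd).res h Ψ⟫ ≤ h ^ 3 * Y
  e2 : ∫ z, K.b z * ‖S.D ((S.form hd).res h Ψ) z‖ ∂μ ≤ h ^ 3 * Y
  e3 : ∫ z, K.b z * ‖S.D ((S.form hd).res (h / 4) Ψ) z‖ ∂μ ≤ h ^ 3 * Y
  e4 : ∫ z, K.b z ^ 2 * ((S.form hd).res (h / 4) Ψ : Lp ℝ 2 μ) z ∂μ ≤ h ^ 3 * Y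
  e5 : ∫ z, |K.w z| * ((S.form hd).res (h / 4) Ψ : Lp ℝ 2 μ) z ∂μ ≤ h ^ 3 * Y

lemma integrable_mul_norm (u : Lp ℝ 2 μ) (v : Lp F 2 μ) : Integrable (fun z => u z * ‖v z‖) μ := by
  have h1 : MemLp (fun z => ‖v z‖) 2 μ := (Lp.memLp v).norm
  have h2 := integrable_mul_L2 u (h1.toLp _)
  refine h2.congr ?_
  filter_upwards [MemLp.coeFn_toLp h1] with z hz
  rw [hz]

/-- `|⟪E1, U⟫| ≤ ∫ b ‖U‖` -/
lemma abs_inner_le_int {b : Lp ℝ 2 μ} {E1 U : Lp F 2 μ} (hE : ∀ᵐ z ∂μ, ‖E1 z‖ ≤ b z) :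
    |(⟪E1, U⟫ : ℝ)| ≤ ∫ z, b z * ‖U z‖ ∂μ := by
  rw [L2.inner_def, ← Real.norm_eq_abs]
  refine (norm_integral_le_integral_norm _).trans ?_
  refine integral_mono_ae (L2.integrable_inner (𝕜 := ℝ) E1 U).norm (integrable_mul_norm b U) ?_
  filter_upwards [hE] with z hz
  calc ‖(⟪E1 z, U z⟫ : ℝ)‖ ≤ ‖E1 z‖ * ‖U z‖ := norm_inner_le_norm _ _
    _ ≤ b z * ‖U z‖ := by gcongr

lemma int_add3 {f g k : X → ℝ} (hf : Integrable f μ) (hg : Integrable g μ) (hk : Integrable k μ) :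
    Integrable (fun z => f z + g z + k z) μ ∧
    ∫ z, (f z + g z + k z) ∂μ = ∫ z, f z ∂μ + ∫ z, g z ∂μ + ∫ z, k z ∂μ := by
  refine ⟨(hf.add hg).add hk, ?_⟩
  have e1 : ∫ z, (f z + g z + k z) ∂μ = ∫ z, (f z + g z) ∂μ + ∫ z, k z ∂μ :=
    integral_add (f := fun z => f z + g z) (hf.add hg) hk
  rw [e1, integral_add hf hg]

lemma int_add4 {f g k l : X → ℝ} (hf : Integrable f μ) (hg : Integrable g μ)
    (hk : Integrable k μ) (hl : Integrable l μ) :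
    Integrable (fun z => f z + g z + k z + l z) μ ∧
    ∫ z, (f z + g z + k z + l z) ∂μ = ∫ z, f z ∂μ + ∫ z, g z ∂μ + ∫ z, k z ∂μ + ∫ z, l z ∂μ := by
  obtain ⟨h1, h2⟩ := int_add3 hf hg hk
  refine ⟨h1.add hl, ?_⟩
  have e1 : ∫ z, (f z + g z + k z + l z) ∂μ = ∫ z, (f z + g z + k z) ∂μ + ∫ z, l z ∂μ :=
    integral_add (f := fun z => f z + g z + k z) h1 hl
  rw [e1, h2]

lemma abs_inner_le_inner {b e u : Lp ℝ 2 μ} (he : ∀ᵐ z ∂μ, |e z| ≤ b z)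
    (hu : ∀ᵐ z ∂μ, 0 ≤ u z) : |(⟪e, u⟫ : ℝ)| ≤ ⟪b, u⟫ := by
  rw [inner_eq_integral, inner_eq_integral, ← Real.norm_eq_abs]
  refine (norm_integral_le_integral_norm _).trans ?_
  refine integral_mono_ae (integrable_mul_L2 e u).norm (integrable_mul_L2 b u) ?_
  filter_upwards [he, hu] with z h1 h2
  rw [norm_mul, Real.norm_eq_abs, Real.norm_eq_abs, abs_of_nonneg h2]
  exact mul_le_mul_of_nonneg_right h1 h2

namespace Sm

variable {S : GradS X F μ} {hd : Dense (S.V : Set (Lp ℝ 2 μ))} {h : ℝ} {K : KIn S hd h}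
  {Ψ : Lp ℝ 2 μ} {gq : X → ℝ} {Y : ℝ} (M : Sm K Ψ gq Y)

include M

lemma Y0 : 0 ≤ Y := by
  have h1 : 0 ≤ (⟪K.q, Ψ⟫ : ℝ) := by
    rw [inner_eq_integral]
    refine integral_nonneg_of_ae ?_
    filter_upwards [K.q_nonneg M.h0, M.Ψ0] with z a1 a2
    exact mul_nonneg a1 a2
  exact h1.trans M.hA

lemma h3 : h ^ 3 * Y ≤ h * Y := by
  have h0 := M.h0
  have h1 := M.h1
  have hY := M.Y0
  have : h ^ 3 ≤ h := by
    calc h ^ 3 = h * (h * h) := by ring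
      _ ≤ h * (1 * 1) := by gcongr
      _ = h := by ring
  gcongr

lemma h3' : h ^ 3 * Y ≤ Y := by
  have h0 := M.h0
  have h1 := M.h1
  have hY := M.Y0
  calc h ^ 3 * Y ≤ h * Y := M.h3
    _ ≤ 1 * Y := by gcongr
    _ = Y := one_mul Y

lemma φ0 : ∀ᵐ z ∂μ, 0 ≤ ((S.form hd).res h Ψ : Lp ℝ 2 μ) z := KIn.res_nonneg' M.Ψ0 M.h0

lemma φ'0 : ∀ᵐ z ∂μ, 0 ≤ ((S.form hd).res (h / 4) Ψ : Lp ℝ 2 μ) z :=
  KIn.res_nonneg' M.Ψ0 (by have := M.h0; positivity)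

lemma φb : ∃ C, ∀ᵐ z ∂μ, |((S.form hd).res h Ψ : Lp ℝ 2 μ) z| ≤ C := KIn.res_bdd M.Ψ0 M.Ψb M.h0

lemma φ'b : ∃ C, ∀ᵐ z ∂μ, |((S.form hd).res (h / 4) Ψ : Lp ℝ 2 μ) z| ≤ C :=
  KIn.res_bdd M.Ψ0 M.Ψb (by have := M.h0; positivity)

lemma A1 : ∫ z, (K.SS z + K.b z) * ((S.form hd).res h Ψ : Lp ℝ 2 μ) z ∂μ ≤ 9 * Y := by
  have h0 := M.h0
  have h1 := M.h1
  have hY := M.Y0
  rw [K.SSb_eq M.φb]
  have a1 := K.hf_le h0 M.Ψ0 M.Ψb M.hk M.hTi M.hT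
  have a2 : |(⟪K.e0, (S.form hd).res h Ψ⟫ : ℝ)| ≤ h ^ 3 * Y :=
    (abs_inner_le_inner K.e0_le M.φ0).trans M.e1
  have a3 : |(⟪K.E1, S.D ((S.form hd).res h Ψ)⟫ : ℝ)| ≤ h ^ 3 * Y :=
    (abs_inner_le_int K.E1_le).trans M.e2
  have a4 : 0 ≤ (⟪K.q, Ψ⟫ : ℝ) := by
    rw [inner_eq_integral]
    refine integral_nonneg_of_ae ?_
    filter_upwards [K.q_nonneg M.h0, M.Ψ0] with z a1 a2
    exact mul_nonneg a1 a2
  have a5 : h⁻¹ * (⟪K.e0, (S.form hd).res h Ψ⟫ + ⟪K.E1, S.D ((S.form hd).res h Ψ)⟫) ≤ 2 * Y := by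
    have h5 : (⟪K.e0, (S.form hd).res h Ψ⟫ + ⟪K.E1, S.D ((S.form hd).res h Ψ)⟫ : ℝ) ≤
        2 * (h * Y) := by
      have := M.h3
      have := (abs_le.1 a2).2
      have := (abs_le.1 a3).2
      linarith
    calc _ ≤ h⁻¹ * (2 * (h * Y)) := by gcongr
      _ = 2 * Y := by field_simp
  have a6 := M.hB
  have a7 := M.e1
  have a8 := M.h3'
  linarith

lemma A2 : ∫ z, (K.SS z + K.b z) * ((S.form hd).res (h / 4) Ψ : Lp ℝ 2 μ) z ∂μ ≤ 36 * Y := by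
  have h1 : ∫ z, (K.SS z + K.b z) * ((S.form hd).res (h / 4) Ψ : Lp ℝ 2 μ) z ∂μ ≤
      ∫ z, 4 * ((K.SS z + K.b z) * ((S.form hd).res h Ψ : Lp ℝ 2 μ) z) ∂μ := by
    refine integral_mono_ae (K.SSb_int M.φ'b) ((K.SSb_int M.φb).const_mul 4) ?_
    filter_upwards [KIn.quarter_le (S := S) (hd := hd) M.h0 M.Ψ0 M.Ψb M.h0, K.SS_ge] with z a1 a2
    have a3 : 0 ≤ K.SS z + K.b z := by linarith
    calc _ ≤ (K.SS z + K.b z) * (4 * ((S.form hd).res h Ψ : Lp ℝ 2 μ) z) := by gcongr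
      _ = _ := by ring
  rw [integral_const_mul] at h1
  linarith [M.A1]

lemma A3 : ⟪K.q, (S.form hd).res (h / 4) Ψ⟫ ≤ 2 * Y := by
  have := KIn.inner_super_le M.h0 (K.q_mem M.h0) (K.q_super M.h0) M.Ψ0
  have h2 := M.hA
  have h3 := M.Y0
  linarith

lemma bφ' : ⟪K.b, (S.form hd).res (h / 4) Ψ⟫ ≤ 4 * (h ^ 3 * Y) := by
  have h1 : (⟪K.b, (S.form hd).res (h / 4) Ψ⟫ : ℝ) ≤ 4 * ⟪K.b, (S.form hd).res h Ψ⟫ := by
    rw [inner_eq_integral, inner_eq_integral, ← integral_const_mul]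
    refine integral_mono_ae (integrable_mul_L2 _ _) ((integrable_mul_L2 _ _).const_mul 4) ?_
    filter_upwards [KIn.quarter_le (S := S) (hd := hd) M.h0 M.Ψ0 M.Ψb M.h0, K.b_nonneg] with z a1 a2
    calc _ ≤ K.b z * (4 * ((S.form hd).res h Ψ : Lp ℝ 2 μ) z) := by gcongr
      _ = _ := by ring
  linarith [M.e1]

lemma wφ'_int : Integrable (fun z => |K.w z| * ((S.form hd).res (h / 4) Ψ : Lp ℝ 2 μ) z) μ := by
  refine (integrable_abs_mul_L2 K.w ((S.form hd).res (h / 4) Ψ)).congr ?_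
  filter_upwards [M.φ'0] with z hz
  rw [abs_of_nonneg hz]

lemma kφ'_int : Integrable (fun z => ((S.form hd).res (h / 4) Ψ : Lp ℝ 2 μ) z * |K.k z|) μ := by
  refine (integrable_abs_mul_L2 ((S.form hd).res (h / 4) Ψ) K.k).congr ?_
  filter_upwards [M.φ'0] with z hz
  rw [abs_of_nonneg hz]

lemma A4 : ∫ z, ((S.form hd).res (h / 4) Ψ : Lp ℝ 2 μ) z * |K.k z| ∂μ ≤ h * (20 * Y) := by
  have h0 := M.h0
  have hY := M.Y0
  set φ' : Lp ℝ 2 μ := (S.form hd).res (h / 4) Ψ with hφ'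
  have i1 := integrable_mul_L2 K.Rq φ'
  have i2 := M.wφ'_int
  have i3 := integrable_mul_L2 K.B1 φ'
  have i4 := integrable_mul_L2 K.Rb φ'
  have b1 : ∫ z, φ' z * |K.k z| ∂μ ≤
      4 * h * ⟪K.Rq, φ'⟫ + (∫ z, |K.w z| * φ' z ∂μ) + ⟪K.B1, φ'⟫ + h * ⟪K.Rb, φ'⟫ := by
    obtain ⟨j1, j2⟩ := int_add4 (i1.const_mul (4 * h)) i2 i3 (i4.const_mul h)
    rw [inner_eq_integral, inner_eq_integral, inner_eq_integral, ← integral_const_mul,
      ← integral_const_mul, ← j2]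
    refine integral_mono_ae M.kφ'_int j1 ?_
    filter_upwards [K.abs_k_le h0, M.φ'0] with z a1 a2
    show φ' z * |K.k z| ≤ 4 * h * (K.Rq z * φ' z) + |K.w z| * φ' z + K.B1 z * φ' z +
      h * (K.Rb z * φ' z)
    calc φ' z * |K.k z| ≤ φ' z * (4 * h * K.Rq z + |K.w z| + K.B1 z + h * K.Rb z) := by gcongr
      _ = _ := by ring
  have b2 : (⟪K.Rq, φ'⟫ : ℝ) ≤ 4 / 3 * Y := by
    have c1 := KIn.inner_super_le h0 (K.Rq_mem h0) (KIn.res_super h0 (K.q_nonneg h0)) M.Ψ0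
    have c2 : (⟪K.Rq, Ψ⟫ : ℝ) = ⟪K.q, (S.form hd).res h Ψ⟫ := (S.form hd).res_symm h K.q Ψ
    rw [c2] at c1
    have := M.hB
    linarith
  have b3 : (⟪K.Rb, φ'⟫ : ℝ) ≤ 4 / 3 * Y := by
    have c1 := KIn.inner_super_le h0 (K.Rb_mem h0) (KIn.res_super h0 K.b_nonneg) M.Ψ0
    have c2 : (⟪K.Rb, Ψ⟫ : ℝ) = ⟪K.b, (S.form hd).res h Ψ⟫ := (S.form hd).res_symm h K.b Ψ
    rw [c2] at c1
    have := M.e1
    have := M.h3'
    linarith
  have b4 : (⟪K.B1, φ'⟫ : ℝ) ≤ h * (12 * Y) := by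
    have c1 := KIn.inner_super_le h0 (K.B1_mem h0) (K.B1_super h0) M.Ψ0
    rw [K.B1_inner h0 M.Ψ0 M.Ψb] at c1
    have c2 := mul_le_mul_of_nonneg_left M.A1 h0.le
    have c3 : 4 / 3 * (h * (9 * Y)) = h * (12 * Y) := by ring
    linarith
  have b5 : ∫ z, |K.w z| * φ' z ∂μ ≤ h * Y := M.e5.trans M.h3
  have b6 := mul_le_mul_of_nonneg_left b2 (by positivity : 0 ≤ 4 * h)
  have b7 := mul_le_mul_of_nonneg_left b3 h0.le
  have b8 : 0 ≤ h * Y := by positivity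
  nlinarith

lemma ff_int : Integrable (fun z => ((S.form hd).res (h / 4) Ψ : Lp ℝ 2 μ) z *
    |4 * K.q z - K.SS z|) μ := by
  have h1 : Integrable (fun z => (4 * K.q z - K.SS z) *
      ((S.form hd).res (h / 4) Ψ : Lp ℝ 2 μ) z) μ := by
    refine (((integrable_mul_L2 K.q ((S.form hd).res (h / 4) Ψ)).const_mul 4).sub
      (KIn.int_mul K.SS_int M.φ'b)).congr (Eventually.of_forall fun z => ?_)
    show 4 * (K.q z * ((S.form hd).res (h / 4) Ψ : Lp ℝ 2 μ) z) -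
      K.SS z * ((S.form hd).res (h / 4) Ψ : Lp ℝ 2 μ) z = _
    ring
  refine h1.abs.congr ?_
  filter_upwards [M.φ'0] with z hz
  show |(4 * K.q z - K.SS z) * ((S.form hd).res (h / 4) Ψ : Lp ℝ 2 μ) z| = _
  rw [abs_mul, abs_of_nonneg hz, mul_comm]

lemma A5 : ∫ z, ((S.form hd).res (h / 4) Ψ : Lp ℝ 2 μ) z * |4 * K.q z - K.SS z| ∂μ ≤ 48 * Y := by
  set φ' : Lp ℝ 2 μ := (S.form hd).res (h / 4) Ψ with hφ'
  have i1 := integrable_mul_L2 K.q φ'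
  have i2 := K.SSb_int M.φ'b
  have i3 := integrable_mul_L2 K.b φ'
  have b1 : ∫ z, φ' z * |4 * K.q z - K.SS z| ∂μ ≤
      4 * ⟪K.q, φ'⟫ + (∫ z, (K.SS z + K.b z) * φ' z ∂μ) + ⟪K.b, φ'⟫ := by
    obtain ⟨j1, j2⟩ := int_add3 (i1.const_mul 4) i2 i3
    rw [inner_eq_integral, inner_eq_integral, ← integral_const_mul, ← j2]
    refine integral_mono_ae M.ff_int j1 ?_
    filter_upwards [M.φ'0, K.SS_ge, K.q_nonneg M.h0, K.b_nonneg] with z a1 a2 a3 a4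
    show φ' z * |4 * K.q z - K.SS z| ≤ 4 * (K.q z * φ' z) + (K.SS z + K.b z) * φ' z + K.b z * φ' z
    have a3' : 0 ≤ K.q z := a3
    have c1 : |4 * K.q z - K.SS z| ≤ 4 * K.q z + (K.SS z + K.b z) + K.b z := by
      rw [abs_le]; constructor <;> linarith
    calc φ' z * |4 * K.q z - K.SS z| ≤ φ' z * (4 * K.q z + (K.SS z + K.b z) + K.b z) := by gcongr
      _ = _ := by ring
  have := M.A3
  have := M.A2
  have := M.bφ'
  have := M.h3'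
  linarith

end Sm

lemma abs_prim_le {θ : ℝ → ℝ} (h1 : ∀ t, |θ t| ≤ 1) (t : ℝ) : |prim θ t| ≤ 1 * |t| := by
  have := intervalIntegral.norm_integral_le_of_norm_le_const (a := (0:ℝ)) (b := t) (C := 1)
    (f := θ) (fun u _ => by rw [Real.norm_eq_abs]; exact h1 u)
  simpa [prim] using this

lemma le_LK {h K0 : ℝ} (h0 : 0 < h) (hK : h ≤ K0) : h ≤ LK h K0 := by
  unfold LK
  have hK0 : 0 < K0 := h0.trans_le hK
  have h1 : 1 ≤ Real.log (1 + 2 * K0 / h) := by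
    rw [Real.le_log_iff_exp_le (by positivity)]
    have h2 : 2 ≤ 2 * K0 / h := by rw [le_div_iff₀ h0]; linarith
    have := Real.exp_one_lt_d9
    linarith
  calc h = h * 1 := (mul_one h).symm
    _ ≤ _ := by gcongr

namespace Sm

variable {S : GradS X F μ} {hd : Dense (S.V : Set (Lp ℝ 2 μ))} {h : ℝ} {K : KIn S hd h}
  {Ψ : Lp ℝ 2 μ} {gq : X → ℝ} {Y : ℝ} (M : Sm K Ψ gq Y)

include M

set_option maxHeartbeats 1000000 in
/-- the weighted `L²` bound of `dk` -/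
theorem A6 {K0 : ℝ} (hK : h ≤ K0) :
    Integrable (fun z => ((S.form hd).res (h / 4) Ψ : Lp ℝ 2 μ) z * thL h K0 (K.k z) *
      ‖S.D K.k z‖ ^ 2) μ ∧
    ∫ z, ((S.form hd).res (h / 4) Ψ : Lp ℝ 2 μ) z * thL h K0 (K.k z) * ‖S.D K.k z‖ ^ 2 ∂μ ≤
      300 * LK h K0 * Y := by
  have h0 := M.h0
  have hh1 := M.h1
  have hY := M.Y0
  have hK0 : 0 < K0 := h0.trans_le hK
  have h4 : 0 < h / 4 := by positivity
  set φ' : Lp ℝ 2 μ := (S.form hd).res (h / 4) Ψ with hφ'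
  set L : ℝ := LK h K0 with hLdef
  set th : ℝ → ℝ := thL h K0 with hth
  have thc : Continuous th := continuous_thL h0 K0
  have th0 : ∀ t, 0 ≤ th t := thL_nonneg h0 K0
  have th1 : ∀ t, th t ≤ 1 := thL_le_one h0 K0
  have thab : ∀ t, |th t| ≤ 1 := fun t => by rw [abs_of_nonneg (th0 t)]; exact th1 t
  have hL : ∀ t, |prim th t| ≤ L := abs_prim_thL h0 hK0
  have hL0 : 0 ≤ L := (abs_nonneg _).trans (hL 0)
  have hLh : h ≤ L := le_LK h0 hK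
  have hφV : φ' ∈ S.V := (S.form hd).res_mem h4 Ψ
  obtain ⟨Cφ, hCφ⟩ := M.φ'b
  have hφ0 := M.φ'0
  -- `Θ(k)`
  have m1 : MemLp (fun x => prim th (K.k x)) 2 μ :=
    memLp_chain (continuous_prim thc).measurable (abs_prim_le thab) K.k
  set Tk : Lp ℝ 2 μ := m1.toLp _ with hTk
  have cTk : (Tk : X → ℝ) =ᵐ[μ] fun x => prim th (K.k x) := MemLp.coeFn_toLp m1
  have dth : deriv (prim th) = th := deriv_prim thc
  obtain ⟨TkV, DTk⟩ := S.chain_C1 (contDiff_prim thc) (C := 1) zero_le_one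
    (fun s => by rw [dth]; exact thab s) (prim_zero _) K.k K.k_mem Tk cTk
  rw [dth] at DTk
  -- `p`
  set CC : ℝ := max Cφ L with hCC
  have hCC0 : 0 ≤ CC := hL0.trans (le_max_right _ _)
  have b1 : ∀ᵐ x ∂μ, |φ' x| ≤ CC := hCφ.mono fun x hx => hx.trans (le_max_left _ _)
  have b2 : ∀ᵐ x ∂μ, |Tk x| ≤ CC := by
    filter_upwards [cTk] with x hx
    rw [hx]; exact (hL _).trans (le_max_right _ _)
  have mp : MemLp (fun x => φ' x * Tk x) 2 μ := memLp_smul (Lp.aestronglyMeasurable φ') b1 Tk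
  set p : Lp ℝ 2 μ := mp.toLp _ with hpdef
  have cp : (p : X → ℝ) =ᵐ[μ] fun x => φ' x * Tk x := MemLp.coeFn_toLp mp
  obtain ⟨pV, Dp⟩ := S.D_mul hφV TkV hCC0 b1 b2 cp
  have cp' : (p : X → ℝ) =ᵐ[μ] fun x => φ' x * prim th (K.k x) := by
    filter_upwards [cp, cTk] with x a1 a2
    rw [a1, a2]
  have Dp' : (S.D p : X → F) =ᵐ[μ] fun x =>
      prim th (K.k x) • (S.D φ' : X → F) x + (φ' x * th (K.k x)) • (S.D K.k : X → F) x := by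
    filter_upwards [Dp, DTk, cTk] with x a1 a2 a3
    rw [a1, a2, a3, smul_smul, add_comm]
  -- `z`
  have m2 : MemLp (fun x => prim (prim th) (K.k x)) 2 μ :=
    memLp_chain (continuous_prim (continuous_prim thc)).measurable (prim2_le hL) K.k
  set zz : Lp ℝ 2 μ := m2.toLp _ with hzz
  have cz : (zz : X → ℝ) =ᵐ[μ] fun x => prim (prim th) (K.k x) := MemLp.coeFn_toLp m2
  have dth2 : deriv (prim (prim th)) = prim th := deriv_prim (continuous_prim thc)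
  obtain ⟨zV, Dz⟩ := S.chain_C1 (contDiff_prim (continuous_prim thc)) (C := L) hL0
    (fun s => by rw [dth2]; exact hL s) (prim_zero _) K.k K.k_mem zz cz
  rw [dth2] at Dz
  -- the equations
  have eφ : h / 4 * ⟪S.D φ', S.D zz⟫ + ⟪φ', zz⟫ = ⟪Ψ, zz⟫ := (S.form hd).res_eq h4 Ψ zV
  have pb : ∃ C, ∀ᵐ z ∂μ, |p z| ≤ C := by
    refine ⟨CC * CC, ?_⟩
    filter_upwards [cp, b1, b2] with x a1 a2 a3
    rw [a1, abs_mul]
    exact mul_le_mul a2 a3 (abs_nonneg _) hCC0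
  set e : ℝ := ⟪K.e0, p⟫ + ⟪K.E1, S.D p⟫ with he
  have ek : h * ⟪S.D K.k, S.D p⟫ + ⟪K.k, p⟫ =
      h * (∫ x, (4 * K.q x - K.SS x) * p x ∂μ) + e := by
    have := K.keq p pV pb
    rw [this, he]
    show _ + h * ∫ z, (4 * K.q z - K.SS z) * p z ∂μ = _
    ring
  have hffm : AEStronglyMeasurable (fun x => 4 * K.q x - K.SS x) μ :=
    ((Lp.aestronglyMeasurable K.q).const_mul 4).sub K.SS_int.aestronglyMeasurable
  obtain ⟨hI, hle⟩ := kt1 S h4 h0 thc th0 th1 hL cp' Dp' cz Dz eφ ek hφ0 Cφ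
    (hCφ.mono fun x hx => (le_abs_self _).trans hx) M.Ψ0 M.ff_int hffm
  refine ⟨hI, ?_⟩
  set I : ℝ := ∫ x, φ' x * th (K.k x) * ‖(S.D K.k : X → F) x‖ ^ 2 ∂μ with hIdef
  -- the error
  have hb2 : Integrable (fun z => K.b z ^ 2 * φ' z) μ := by
    have hb2' : Integrable (fun z => K.b z ^ 2) μ := by
      refine (integrable_normSq K.b).congr (Eventually.of_forall fun z => ?_)
      simp
    exact KIn.int_mul hb2' M.φ'b
  have er0 : |(⟪K.e0, p⟫ : ℝ)| ≤ L * ⟪K.b, φ'⟫ := by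
    rw [inner_eq_integral, inner_eq_integral, ← integral_const_mul, ← Real.norm_eq_abs]
    refine (norm_integral_le_integral_norm _).trans ?_
    refine integral_mono_ae (integrable_mul_L2 _ _).norm ((integrable_mul_L2 _ _).const_mul _) ?_
    filter_upwards [cp', K.e0_le, hφ0] with x a1 a2 a3
    show ‖K.e0 x * p x‖ ≤ L * (K.b x * φ' x)
    have a4 : 0 ≤ K.b x := (abs_nonneg _).trans a2
    rw [a1, norm_mul, norm_mul, Real.norm_eq_abs, Real.norm_eq_abs, Real.norm_eq_abs,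
      abs_of_nonneg a3]
    calc |K.e0 x| * (φ' x * |prim th (K.k x)|) ≤ K.b x * (φ' x * L) := by
          gcongr
          exact hL _
      _ = _ := by ring
  have er1 : |(⟪K.E1, S.D p⟫ : ℝ)| ≤ L * (∫ z, K.b z * ‖S.D φ' z‖ ∂μ) + h / 2 * I +
      (2 * h)⁻¹ * ∫ z, K.b z ^ 2 * φ' z ∂μ := by
    have i1 := (integrable_mul_norm K.b (S.D φ')).const_mul L
    have i2 := hI.const_mul (h / 2)
    have i3 := hb2.const_mul ((2 * h)⁻¹)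
    obtain ⟨j1, j2⟩ := int_add3 i1 i2 i3
    rw [hIdef, L2.inner_def, ← integral_const_mul, ← integral_const_mul, ← integral_const_mul,
      ← j2, ← Real.norm_eq_abs]
    refine (norm_integral_le_integral_norm _).trans ?_
    refine integral_mono_ae (L2.integrable_inner (𝕜 := ℝ) K.E1 (S.D p)).norm j1 ?_
    filter_upwards [Dp', K.E1_le, hφ0] with x a1 a2 a3
    show ‖(⟪K.E1 x, S.D p x⟫ : ℝ)‖ ≤ L * (K.b x * ‖S.D φ' x‖) +
      h / 2 * (φ' x * th (K.k x) * ‖S.D K.k x‖ ^ 2) + (2 * h)⁻¹ * (K.b x ^ 2 * φ' x)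
    have a4 : 0 ≤ K.b x := (norm_nonneg _).trans a2
    have a5 : 0 ≤ th (K.k x) := th0 _
    have a6 : th (K.k x) ≤ 1 := th1 _
    have a7 : ‖S.D p x‖ ≤ L * ‖S.D φ' x‖ + (φ' x * th (K.k x)) * ‖S.D K.k x‖ := by
      rw [a1]
      refine (norm_add_le _ _).trans ?_
      rw [norm_smul, norm_smul, Real.norm_eq_abs, Real.norm_eq_abs,
        abs_of_nonneg (mul_nonneg a3 a5)]
      gcongr
      exact hL _
    have a8 : ‖(⟪K.E1 x, S.D p x⟫ : ℝ)‖ ≤ K.b x * (L * ‖S.D φ' x‖ +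
        (φ' x * th (K.k x)) * ‖S.D K.k x‖) := by
      refine (norm_inner_le_norm _ _).trans ?_
      exact mul_le_mul a2 a7 (norm_nonneg _) a4
    have a9 : K.b x * ((φ' x * th (K.k x)) * ‖S.D K.k x‖) ≤
        h / 2 * (φ' x * th (K.k x) * ‖S.D K.k x‖ ^ 2) + (2 * h)⁻¹ * (K.b x ^ 2 * φ' x) := by
      have c1 : K.b x * ‖S.D K.k x‖ ≤ h / 2 * ‖S.D K.k x‖ ^ 2 + (2 * h)⁻¹ * K.b x ^ 2 := by
        have c2 : h / 2 * ‖S.D K.k x‖ ^ 2 + (2 * h)⁻¹ * K.b x ^ 2 - K.b x * ‖S.D K.k x‖ =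
            (2 * h)⁻¹ * (h * ‖S.D K.k x‖ - K.b x) ^ 2 := by
          field_simp
          ring
        have c3 : 0 ≤ (2 * h)⁻¹ * (h * ‖S.D K.k x‖ - K.b x) ^ 2 := by positivity
        linarith
      have c4 : 0 ≤ φ' x * th (K.k x) := mul_nonneg a3 a5
      have c5 := mul_le_mul_of_nonneg_left c1 c4
      have c6 : φ' x * th (K.k x) * ((2 * h)⁻¹ * K.b x ^ 2) ≤ (2 * h)⁻¹ * (K.b x ^ 2 * φ' x) := by
        calc φ' x * th (K.k x) * ((2 * h)⁻¹ * K.b x ^ 2) ≤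
              φ' x * 1 * ((2 * h)⁻¹ * K.b x ^ 2) := by gcongr
          _ = _ := by ring
      calc K.b x * ((φ' x * th (K.k x)) * ‖S.D K.k x‖) =
            φ' x * th (K.k x) * (K.b x * ‖S.D K.k x‖) := by ring
        _ ≤ φ' x * th (K.k x) * (h / 2 * ‖S.D K.k x‖ ^ 2 + (2 * h)⁻¹ * K.b x ^ 2) := c5
        _ = h / 2 * (φ' x * th (K.k x) * ‖S.D K.k x‖ ^ 2) +
            φ' x * th (K.k x) * ((2 * h)⁻¹ * K.b x ^ 2) := by ring
        _ ≤ _ := by gcongr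
    calc ‖(⟪K.E1 x, S.D p x⟫ : ℝ)‖ ≤ K.b x * (L * ‖S.D φ' x‖ +
        (φ' x * th (K.k x)) * ‖S.D K.k x‖) := a8
      _ = L * (K.b x * ‖S.D φ' x‖) + K.b x * ((φ' x * th (K.k x)) * ‖S.D K.k x‖) := by ring
      _ ≤ _ := by rw [add_assoc]; gcongr
  have er2 : |e| / h ≤ 5 * L * Y + I / 2 + h * Y / 2 := by
    have c1 : |e| ≤ L * (4 * (h ^ 3 * Y)) + (L * (h ^ 3 * Y) + h / 2 * I +
        (2 * h)⁻¹ * (h ^ 3 * Y)) := by
      refine (abs_add_le _ _).trans (add_le_add (er0.trans ?_) (er1.trans ?_))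
      · exact mul_le_mul_of_nonneg_left M.bφ' hL0
      · have c2 := mul_le_mul_of_nonneg_left M.e3 hL0
        have c3 := mul_le_mul_of_nonneg_left M.e4 (by positivity : 0 ≤ (2 * h)⁻¹)
        linarith
    have c4 : h ^ 3 * Y ≤ h * Y := M.h3
    have c5 : (2 * h)⁻¹ * (h ^ 3 * Y) = h ^ 2 * Y / 2 := by field_simp
    have c6 : h ^ 2 * Y ≤ h * (h * Y) := le_of_eq (by ring)
    rw [div_le_iff₀ h0]
    have c7 : L * (4 * (h ^ 3 * Y)) ≤ L * (4 * (h * Y)) := by gcongr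
    have c8 : L * (h ^ 3 * Y) ≤ L * (h * Y) := by gcongr
    rw [c5] at c1
    nlinarith
  have t1 := M.A5
  have t2 := M.A4
  have t3 : (h / 4)⁻¹ * ∫ x, φ' x * |K.k x| ∂μ ≤ 80 * Y := by
    calc (h / 4)⁻¹ * ∫ x, φ' x * |K.k x| ∂μ ≤ (h / 4)⁻¹ * (h * (20 * Y)) := by gcongr
      _ = 80 * Y := by field_simp; ring
  have t4 : L * ((∫ x, φ' x * |4 * K.q x - K.SS x| ∂μ) + (h / 4)⁻¹ * ∫ x, φ' x * |K.k x| ∂μ) ≤
      L * (48 * Y + 80 * Y) := by gcongr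
  have t5 : h * Y ≤ L * Y := by gcongr
  have t6 : I ≤ L * (48 * Y + 80 * Y) + (5 * L * Y + I / 2 + h * Y / 2) :=
    hle.trans (add_le_add t4 er2)
  have t7 : 0 ≤ L * Y := by positivity
  nlinarith

/-- the two parts of `|dk|` -/
theorem A7 {K0 : ℝ} (hK : h ≤ K0) :
    (Integrable (fun z => ((S.form hd).res (h / 4) Ψ : Lp ℝ 2 μ) z *
        (if |K.k z| ≤ h ∧ |K.k z| ≤ K0 then ‖S.D K.k z‖ else 0) ^ 2) μ ∧
      ∫ z, ((S.form hd).res (h / 4) Ψ : Lp ℝ 2 μ) z *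
        (if |K.k z| ≤ h ∧ |K.k z| ≤ K0 then ‖S.D K.k z‖ else 0) ^ 2 ∂μ ≤ 600 * LK h K0 * Y) ∧
    (Integrable (fun z => ((S.form hd).res (h / 4) Ψ : Lp ℝ 2 μ) z *
        (if h < |K.k z| ∧ |K.k z| ≤ K0 then ‖S.D K.k z‖ else 0)) μ ∧
      ∫ z, ((S.form hd).res (h / 4) Ψ : Lp ℝ 2 μ) z *
        (if h < |K.k z| ∧ |K.k z| ≤ K0 then ‖S.D K.k z‖ else 0) ∂μ ≤
        110 * Real.sqrt (LK h K0) * Y) := by
  have h0 := M.h0
  have hY := M.Y0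
  have hK0 : 0 < K0 := h0.trans_le hK
  obtain ⟨a1, a2⟩ := M.A6 hK
  have hL0 : 0 ≤ LK h K0 := LK_nonneg h0 hK0
  obtain ⟨⟨b1, b2⟩, ⟨b3, b4⟩⟩ := kt2 (a := h) (K := K0) (N := 20 * Y) h0 hK0 M.φ'0
    (fun x => norm_nonneg (S.D K.k x))
    (Lp.aestronglyMeasurable _) (Lp.aestronglyMeasurable _) (Lp.aestronglyMeasurable _).norm
    a1 a2 M.kφ'_int M.A4
  refine ⟨⟨b1, b2.trans (le_of_eq (by ring))⟩, ⟨b3, b4.trans ?_⟩⟩
  rw [show 2 * (300 * LK h K0 * Y) * (20 * Y) = LK h K0 * (12000 * Y ^ 2) by ring,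
    Real.sqrt_mul hL0]
  have : Real.sqrt (12000 * Y ^ 2) ≤ 110 * Y := by
    rw [Real.sqrt_le_left (by positivity)]
    nlinarith [sq_nonneg Y]
  calc Real.sqrt (LK h K0) * Real.sqrt (12000 * Y ^ 2) ≤ Real.sqrt (LK h K0) * (110 * Y) := by
        gcongr
    _ = _ := by ring

end Sm

end Chain

end Crest.Agent.R247.Kt622
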