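import Crest.Agent.R247.Kt4_622

/-!
R247, block (1-K) (helper622): the error terms of the chain are `≤ (ρ²)³ · C ‖b‖ ‖Ψ‖ e^{-2/ρ}`
(L² decay `agmon`).
-/

set_option autoImplicit false
set_option linter.unusedSectionVars false
set_option linter.unusedVariables false

open MeasureTheory Filter Topology Set
open scoped RealInnerProductSpace ENNReal NNReal

noncomputable section

namespace Crest.Agent.R247.Kt622

open Crest.Agent.R247.Dir593 Crest.Agent.R247.Dir593.GradS Crest.Agent.R242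

section Er

variable {X : Type*} [MetricSpace X] [MeasurableSpace X] [BorelSpace X] {F : Type*}
  [NormedAddCommGroup F] [InnerProductSpace ℝ F] [CompleteSpace F] {μ : Measure X}
  [IsFiniteMeasureOnCompacts μ]

/-- Cauchy–Schwarz with a support condition -/
lemma cs_supp {f : Lp ℝ 2 μ} {g : X → ℝ} (hg : MemLp g 2 μ) (g0 : ∀ x, 0 ≤ g x) {A : Set X}
    (hA : MeasurableSet A) (hf : ∀ᵐ x ∂μ, x ∉ A → f x = 0) {m : ℝ} (hm : 0 ≤ m)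
    (h : ∫ x in A, g x ^ 2 ∂μ ≤ m ^ 2) :
    Integrable (fun x => |f x| * g x) μ ∧ ∫ x, |f x| * g x ∂μ ≤ ‖f‖ * m := by
  have hgA : MemLp (A.indicator g) 2 μ := hg.indicator hA
  set G : Lp ℝ 2 μ := hgA.toLp _ with hG
  have cG : (G : X → ℝ) =ᵐ[μ] A.indicator g := MemLp.coeFn_toLp hgA
  have hn : ‖G‖ ^ 2 ≤ m ^ 2 := by
    rw [normSq]
    refine le_trans (le_of_eq ?_) h
    rw [← integral_indicator hA]
    refine integral_congr_ae ?_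
    filter_upwards [cG] with x hx
    rw [hx]
    by_cases hxA : x ∈ A
    · rw [indicator_of_mem hxA, indicator_of_mem hxA, Real.norm_eq_abs, sq_abs]
    · rw [indicator_of_notMem hxA, indicator_of_notMem hxA]; simp
  have hn' : ‖G‖ ≤ m := le_of_sq_le_sq hn hm
  have e : (fun x => |f x| * g x) =ᵐ[μ] fun x => |f x| * |G x| := by
    filter_upwards [cG, hf] with x h1 h2
    rw [h1]
    by_cases hxA : x ∈ A
    · rw [indicator_of_mem hxA, abs_of_nonneg (g0 x)]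
    · rw [h2 hxA]; simp
  refine ⟨(integrable_abs_mul_L2 f G).congr e.symm, ?_⟩
  rw [integral_congr_ae e]
  have h1 : MemLp (fun x => |f x|) 2 μ := by
    have := (Lp.memLp f).norm
    simpa [Real.norm_eq_abs] using this
  have h2 : MemLp (fun x => |G x|) 2 μ := by
    have := (Lp.memLp G).norm
    simpa [Real.norm_eq_abs] using this
  set f' : Lp ℝ 2 μ := h1.toLp _ with hf'
  set G' : Lp ℝ 2 μ := h2.toLp _ with hG'
  have c1 : (f' : X → ℝ) =ᵐ[μ] fun x => |f x| := MemLp.coeFn_toLp h1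
  have c2 : (G' : X → ℝ) =ᵐ[μ] fun x => |G x| := MemLp.coeFn_toLp h2
  have e1 : ∫ x, |f x| * |G x| ∂μ = ⟪f', G'⟫ := by
    rw [inner_eq_integral]
    refine integral_congr_ae ?_
    filter_upwards [c1, c2] with x a1 a2
    rw [a1, a2]
  have n1 : ‖f'‖ ≤ 1 * ‖f‖ := norm_le_of_ae zero_le_one (by
    filter_upwards [c1] with x a1
    rw [a1]; simp)
  have n2 : ‖G'‖ ≤ 1 * ‖G‖ := norm_le_of_ae zero_le_one (by
    filter_upwards [c2] with x a1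
    rw [a1]; simp)
  rw [e1]
  calc (⟪f', G'⟫ : ℝ) ≤ ‖f'‖ * ‖G'‖ := real_inner_le_norm _ _
    _ ≤ ‖f‖ * m := by
        gcongr
        · linarith
        · linarith

variable {S : GradS X F μ} {hd : Dense (S.V : Set (Lp ℝ 2 μ))}

/-- consequences of `agmon` in the form used below -/
lemma agmon_cs {v : Lp ℝ 2 μ} (hv : v ∈ S.V) {ρ : ℝ} (hρ : 0 < ρ) {ζ : X → ℝ}
    (hζ : LipschitzWith 1 ζ)
    (heq : ∀ p ∈ S.V, (∀ᵐ x ∂μ, ζ x ≤ 0 → p x = 0) → ρ ^ 2 * ⟪S.D v, S.D p⟫ + ⟪v, p⟫ = 0)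
    {a : ℝ} (ha : 0 < a) (hch : 0 < ch (4 * ρ) a) {f : Lp ℝ 2 μ}
    (hf : ∀ᵐ x ∂μ, ζ x < a → f x = 0) :
    ∫ x, |f x| * |v x| ∂μ ≤ ‖f‖ * (‖v‖ / ch (4 * ρ) a) ∧
    ∫ x, |f x| * ‖S.D v x‖ ∂μ ≤ ‖f‖ * (‖v‖ / (ρ * ch (4 * ρ) a)) := by
  obtain ⟨h1, h2⟩ := agmon S hv hρ hζ heq ha
  have hA : MeasurableSet {x | a ≤ ζ x} := measurableSet_le measurable_const hζ.continuous.measurable
  have hf' : ∀ᵐ x ∂μ, x ∉ {x | a ≤ ζ x} → f x = 0 := hf.mono fun x hx hxA => hx (not_le.1 hxA)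
  have m1 : MemLp (fun x => |v x|) 2 μ := by
    have := (Lp.memLp v).norm
    simpa [Real.norm_eq_abs] using this
  have m2 : MemLp (fun x => ‖S.D v x‖) 2 μ := (Lp.memLp (S.D v)).norm
  constructor
  · refine (cs_supp m1 (fun x => abs_nonneg _) hA hf' (by positivity) ?_).2
    rw [div_pow, le_div_iff₀ (by positivity), mul_comm]
    refine le_trans (le_of_eq ?_) h1
    congr 1
    refine integral_congr_ae (Eventually.of_forall fun x => ?_)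
    show |v x| ^ 2 = v x ^ 2
    rw [sq_abs]
  · refine (cs_supp m2 (fun x => norm_nonneg _) hA hf' (by positivity) ?_).2
    rw [div_pow, le_div_iff₀ (by positivity), mul_comm]
    refine le_trans (le_of_eq ?_) h2
    ring

lemma norm_res_le {h : ℝ} (hh : 0 < h) (f : Lp ℝ 2 μ) : ‖(S.form hd).res h f‖ ≤ ‖f‖ := by
  have := (S.form hd).opNorm_res_le h
  calc ‖(S.form hd).res h f‖ ≤ ‖(S.form hd).res h‖ * ‖f‖ := ContinuousLinearMap.le_opNorm _ _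
    _ ≤ 1 * ‖f‖ := by gcongr
    _ = ‖f‖ := one_mul _

/-- decay of `R Ψ` -/
lemma agmon_res {Ψ : Lp ℝ 2 μ} {x0 : X} (hΨ : ∀ᵐ z ∂μ, 1 < dist x0 z → Ψ z = 0) {ρ : ℝ}
    (hρ : 0 < ρ) {a : ℝ} (ha : 0 < a) (hch : 0 < ch (4 * ρ) a) {f : Lp ℝ 2 μ}
    (hf : ∀ᵐ x ∂μ, dist x0 x < 1 + a → f x = 0) :
    ∫ x, |f x| * |((S.form hd).res (ρ ^ 2) Ψ : Lp ℝ 2 μ) x| ∂μ ≤
      ‖f‖ * ‖Ψ‖ / ch (4 * ρ) a ∧
    ∫ x, |f x| * ‖S.D ((S.form hd).res (ρ ^ 2) Ψ) x‖ ∂μ ≤ ‖f‖ * ‖Ψ‖ / (ρ * ch (4 * ρ) a) := by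
  have hρ2 : 0 < ρ ^ 2 := by positivity
  set v : Lp ℝ 2 μ := (S.form hd).res (ρ ^ 2) Ψ with hv
  have hvV : v ∈ S.V := (S.form hd).res_mem hρ2 Ψ
  have hζ : LipschitzWith 1 (fun z => dist x0 z - 1) := by
    have := (LipschitzWith.dist_right x0).sub (LipschitzWith.const (1:ℝ))
    simpa using this
  have heq : ∀ p ∈ S.V, (∀ᵐ x ∂μ, dist x0 x - 1 ≤ 0 → p x = 0) →
      ρ ^ 2 * ⟪S.D v, S.D p⟫ + ⟪v, p⟫ = 0 := by
    intro p hp hp0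
    have h1 : ρ ^ 2 * ⟪S.D v, S.D p⟫ + ⟪v, p⟫ = ⟪Ψ, p⟫ := (S.form hd).res_eq hρ2 Ψ hp
    rw [h1, inner_eq_integral, integral_eq_zero_of_ae]
    filter_upwards [hΨ, hp0] with x a1 a2
    rcases le_or_gt (dist x0 x) 1 with h | h
    · rw [a2 (by linarith)]; simp
    · rw [a1 h]; simp
  obtain ⟨h1, h2⟩ := agmon_cs hvV hρ hζ heq ha hch (f := f)
    (hf.mono fun x hx h => hx (by linarith))
  have hn := norm_res_le (S := S) (hd := hd) hρ2 Ψ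
  have hf0 := norm_nonneg f
  constructor
  · refine h1.trans ?_
    rw [mul_div_assoc]
    gcongr
  · refine h2.trans ?_
    rw [mul_div_assoc]
    gcongr

/-- norm of the far error -/
lemma norm_w_le {ρ : ℝ} (K : KIn S hd (ρ ^ 2)) (hρ : 0 < ρ) (hρ1 : ρ ≤ 1) :
    ‖K.w‖ ≤ 2 * ‖K.b‖ / ρ := by
  have hρ2 : 0 < ρ ^ 2 := by positivity
  have e := resD_energy (Q := S.form hd) hρ2 (S.fnl hd K.e0 K.E1)
  have e' : ρ ^ 2 * ‖S.D K.w‖ ^ 2 + ‖K.w‖ ^ 2 = ⟪K.e0, K.w⟫ + ⟪K.E1, S.D K.w⟫ := by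
    rw [← real_inner_self_eq_norm_sq (S.D K.w)]
    exact e
  have n1 : ‖K.e0‖ ≤ 1 * ‖K.b‖ := norm_le_of_ae zero_le_one (by
    filter_upwards [K.e0_le, K.b_nonneg] with x a1 a2
    rw [Real.norm_eq_abs, Real.norm_eq_abs, abs_of_nonneg a2, one_mul]
    exact a1)
  have n2 : ‖K.E1‖ ≤ 1 * ‖K.b‖ := norm_le_of_ae zero_le_one (by
    filter_upwards [K.E1_le, K.b_nonneg] with x a1 a2
    rw [Real.norm_eq_abs, abs_of_nonneg a2, one_mul]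
    exact a1)
  rw [one_mul] at n1 n2
  have i1 := (real_inner_le_norm K.e0 K.w).trans (mul_le_mul_of_nonneg_right n1 (norm_nonneg _))
  have i2 := (real_inner_le_norm K.E1 (S.D K.w)).trans
    (mul_le_mul_of_nonneg_right n2 (norm_nonneg _))
  set β := ‖K.b‖ with hβ
  set W := ‖K.w‖ with hW
  set D := ‖S.D K.w‖ with hD
  have hβ0 : 0 ≤ β := norm_nonneg _
  have hW0 : 0 ≤ W := norm_nonneg _
  have hD0 : 0 ≤ D := norm_nonneg _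
  -- `β D ≤ ρ² D² + β²/(4ρ²)`
  have j1 : β * D ≤ ρ ^ 2 * D ^ 2 + (β / ρ) ^ 2 / 4 := by
    have : β * D = (β / ρ) * (ρ * D) := by field_simp
    rw [this]
    nlinarith [sq_nonneg (β / ρ / 2 - ρ * D)]
  have j2 : β * W ≤ W ^ 2 / 2 + β ^ 2 / 2 := by nlinarith [sq_nonneg (β - W)]
  have j3 : β ^ 2 ≤ (β / ρ) ^ 2 := by
    apply pow_le_pow_left₀ hβ0
    rw [le_div_iff₀ hρ]; nlinarith
  have j4 : W ^ 2 ≤ (2 * β / ρ) ^ 2 := by
    have : (2 * β / ρ) ^ 2 = 4 * (β / ρ) ^ 2 := by ring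
    rw [this]; nlinarith [sq_nonneg (β / ρ)]
  exact le_of_sq_le_sq j4 (by positivity)

/-- decay of the far error -/
lemma agmon_w {ρ : ℝ} (K : KIn S hd (ρ ^ 2)) (hρ : 0 < ρ) {x0 : X}
    (hb : ∀ᵐ z ∂μ, dist x0 z < 32 → K.b z = 0) {a : ℝ} (ha : 0 < a)
    (hch : 0 < ch (4 * ρ) a) {f : Lp ℝ 2 μ} (hf : ∀ᵐ x ∂μ, 32 - a < dist x0 x → f x = 0) :
    ∫ x, |f x| * |K.w x| ∂μ ≤ ‖f‖ * (‖K.w‖ / ch (4 * ρ) a) := by
  have hρ2 : 0 < ρ ^ 2 := by positivity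
  have hζ : LipschitzWith 1 (fun z => 32 - dist x0 z) := by
    have := (LipschitzWith.const (32:ℝ)).sub (LipschitzWith.dist_right x0)
    simpa using this
  have heq : ∀ p ∈ S.V, (∀ᵐ x ∂μ, 32 - dist x0 x ≤ 0 → p x = 0) →
      ρ ^ 2 * ⟪S.D K.w, S.D p⟫ + ⟪K.w, p⟫ = 0 := by
    intro p hp hp0
    have h1 : ρ ^ 2 * ⟪S.D K.w, S.D p⟫ + ⟪K.w, p⟫ = ⟪K.e0, p⟫ + ⟪K.E1, S.D p⟫ :=
      resD_eq (Q := S.form hd) hρ2 (S.fnl hd K.e0 K.E1) hp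
    have z1 : (⟪K.e0, p⟫ : ℝ) = 0 := by
      rw [inner_eq_integral, integral_eq_zero_of_ae]
      filter_upwards [hb, hp0, K.e0_le] with x a1 a2 a3
      rcases lt_or_ge (dist x0 x) 32 with h | h
      · rw [a1 h] at a3
        rw [abs_nonpos_iff.1 a3]; simp
      · rw [a2 (by linarith)]; simp
    have z2 : (⟪K.E1, S.D p⟫ : ℝ) = 0 := by
      rw [L2.inner_def, integral_eq_zero_of_ae]
      filter_upwards [hb, hp0, K.E1_le, S.D_level hp 0] with x a1 a2 a3 a4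
      rcases lt_or_ge (dist x0 x) 32 with h | h
      · rw [a1 h] at a3
        rw [norm_le_zero_iff.1 a3]; simp
      · rw [a4 (a2 (by linarith))]; simp
    rw [h1, z1, z2, add_zero]
  exact (agmon_cs (K.w_mem hρ2) hρ hζ heq ha hch (f := f)
    (hf.mono fun x hx h => hx (by linarith))).1

/-! ### numerics -/

lemma ch_lower {ρ : ℝ} (hρ : 0 < ρ) (hρ1 : ρ ≤ 1) :
    0 < ch (4 * ρ) 15 ∧ (ch (4 * ρ) 15)⁻¹ ≤ 161280 * ρ ^ 8 * Real.exp (-(1 / ρ)) := by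
  have h1 : (15:ℝ) / (4 * ρ) = 15 / 4 * (1 / ρ) := by field_simp
  have hinv : 1 ≤ 1 / ρ := by rw [le_div_iff₀ hρ]; linarith
  have e1 : ch (4 * ρ) 15 = Real.cosh (15 / 4 * (1 / ρ)) - 1 := by
    unfold ch
    rw [max_eq_left (by norm_num : (0:ℝ) ≤ 15), h1]
  set t : ℝ := 1 / ρ with ht
  have e2 : Real.exp (15 / 4 * t) / 2 ≤ Real.cosh (15 / 4 * t) := by
    rw [Real.cosh_eq]
    have := Real.exp_pos (-(15 / 4 * t))
    linarith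
  have e3 : 4 ≤ Real.exp (15 / 4 * t) := by
    have h2 : Real.exp 1 ^ 2 ≤ Real.exp (15 / 4 * t) := by
      rw [← Real.exp_nat_mul]
      apply Real.exp_le_exp.2
      push_cast; linarith
    have h3 := Real.exp_one_gt_d9
    nlinarith
  have e4 : Real.exp (15 / 4 * t) / 4 ≤ ch (4 * ρ) 15 := by rw [e1]; linarith
  have hpos : 0 < ch (4 * ρ) 15 := lt_of_lt_of_le (by positivity) e4
  refine ⟨hpos, ?_⟩
  have e5 : t ^ 8 / 40320 ≤ Real.exp t := by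
    have := Real.pow_div_factorial_le_exp t (by positivity) 8
    have e : ((Nat.factorial 8 : ℕ) : ℝ) = 40320 := by norm_num [Nat.factorial]
    rw [e] at this
    exact this
  have e6 : 1 ≤ ρ ^ 8 * 40320 * Real.exp t := by
    have h2 : ρ ^ 8 * t ^ 8 = 1 := by rw [ht]; field_simp
    have h3 : ρ ^ 8 * (t ^ 8 / 40320) ≤ ρ ^ 8 * Real.exp t := by gcongr
    have h4 : ρ ^ 8 * (t ^ 8 / 40320) = 1 / 40320 := by rw [← mul_div_assoc, h2]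
    rw [h4] at h3
    linarith
  have e7 : Real.exp t * Real.exp t ≤ Real.exp (15 / 4 * t) := by
    rw [← Real.exp_add]
    apply Real.exp_le_exp.2
    linarith
  rw [inv_le_iff_one_le_mul₀ hpos]
  have e8 : Real.exp (-t) * Real.exp t = 1 := by rw [← Real.exp_add]; simp
  have e9 : 0 ≤ 161280 * ρ ^ 8 * Real.exp (-t) := by positivity
  calc (1:ℝ) ≤ ρ ^ 8 * 40320 * Real.exp t := e6
    _ = 161280 * ρ ^ 8 * Real.exp (-t) * ((Real.exp t * Real.exp t) / 4) := by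
        have : 161280 * ρ ^ 8 * Real.exp (-t) * ((Real.exp t * Real.exp t) / 4) =
          ρ ^ 8 * 40320 * Real.exp t * (Real.exp (-t) * Real.exp t) := by ring
        rw [this, e8, mul_one]
    _ ≤ 161280 * ρ ^ 8 * Real.exp (-t) * (Real.exp (15 / 4 * t) / 4) := by gcongr
    _ ≤ 161280 * ρ ^ 8 * Real.exp (-t) * ch (4 * ρ) 15 := by gcongr

lemma ch_anti {ρ ρ' a : ℝ} (hρ' : 0 < ρ') (h : ρ' ≤ ρ) (ha : 15 ≤ a) :
    ch (4 * ρ) 15 ≤ ch (4 * ρ') a := by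
  have hρ : 0 < ρ := hρ'.trans_le h
  unfold ch
  rw [max_eq_left (by norm_num : (0:ℝ) ≤ 15), max_eq_left (by linarith : (0:ℝ) ≤ a)]
  have : Real.cosh (15 / (4 * ρ)) ≤ Real.cosh (a / (4 * ρ')) := by
    rw [Real.cosh_le_cosh, abs_of_nonneg (by positivity), abs_of_nonneg (by positivity)]
    gcongr
  linarith

/-- the basic far estimate for `φ = R_{ρ'} Ψ`, `ρ' ≤ ρ` -/
lemma far_res {Ψ : Lp ℝ 2 μ} {x0 : X} (hΨ : ∀ᵐ z ∂μ, 1 < dist x0 z → Ψ z = 0) {ρ ρ' : ℝ}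
    (hρ' : 0 < ρ') (h : ρ' ≤ ρ) (hρ1 : ρ ≤ 1) {f : Lp ℝ 2 μ}
    (hf : ∀ᵐ x ∂μ, dist x0 x < 16 → f x = 0) :
    ∫ x, |f x| * |((S.form hd).res (ρ' ^ 2) Ψ : Lp ℝ 2 μ) x| ∂μ ≤
      161280 * (‖f‖ * ‖Ψ‖) * ρ ^ 8 * Real.exp (-(1 / ρ)) ∧
    ρ' * ∫ x, |f x| * ‖S.D ((S.form hd).res (ρ' ^ 2) Ψ) x‖ ∂μ ≤
      161280 * (‖f‖ * ‖Ψ‖) * ρ ^ 8 * Real.exp (-(1 / ρ)) := by
  have hρ : 0 < ρ := hρ'.trans_le h
  obtain ⟨c1, c2⟩ := ch_lower hρ hρ1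
  have c3 := ch_anti hρ' h (le_refl (15:ℝ))
  have c4 : 0 < ch (4 * ρ') 15 := c1.trans_le c3
  obtain ⟨a1, a2⟩ := agmon_res (S := S) (hd := hd) hΨ hρ' (a := 15) (by norm_num) c4 (f := f)
    (hf.mono fun x hx h => hx (by linarith))
  have c5 : (ch (4 * ρ') 15)⁻¹ ≤ 161280 * ρ ^ 8 * Real.exp (-(1 / ρ)) :=
    (inv_anti₀ c1 c3).trans c2
  constructor
  · refine a1.trans ?_
    rw [div_eq_mul_inv]
    calc ‖f‖ * ‖Ψ‖ * (ch (4 * ρ') 15)⁻¹ ≤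
          ‖f‖ * ‖Ψ‖ * (161280 * ρ ^ 8 * Real.exp (-(1 / ρ))) := by gcongr
      _ = _ := by ring
  · have a3 := mul_le_mul_of_nonneg_left a2 hρ'.le
    refine a3.trans ?_
    have : ρ' * (‖f‖ * ‖Ψ‖ / (ρ' * ch (4 * ρ') 15)) = ‖f‖ * ‖Ψ‖ * (ch (4 * ρ') 15)⁻¹ := by
      field_simp
    rw [this]
    calc ‖f‖ * ‖Ψ‖ * (ch (4 * ρ') 15)⁻¹ ≤
          ‖f‖ * ‖Ψ‖ * (161280 * ρ ^ 8 * Real.exp (-(1 / ρ))) := by gcongr
      _ = _ := by ring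

/-- **all error terms** -/
theorem errs {ρ : ℝ} (K : KIn S hd (ρ ^ 2)) (hρ : 0 < ρ) (hρ1 : ρ ≤ 1) {x0 : X}
    (hb : ∀ᵐ z ∂μ, dist x0 z < 32 → K.b z = 0) {CE : ℝ} (hCE : 0 ≤ CE)
    (hbC : ∀ᵐ z ∂μ, K.b z ≤ CE) {Ψ : Lp ℝ 2 μ} (Ψ0 : ∀ᵐ z ∂μ, 0 ≤ Ψ z)
    (hΨ : ∀ᵐ z ∂μ, 1 < dist x0 z → Ψ z = 0) {Y : ℝ}
    (hY : 10 ^ 6 * (1 + CE) * (‖K.b‖ * ‖Ψ‖) * Real.exp (-(1 / ρ)) ≤ Y) :
    ⟪K.b, (S.form hd).res (ρ ^ 2) Ψ⟫ ≤ (ρ ^ 2) ^ 3 * Y ∧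
    ∫ z, K.b z * ‖S.D ((S.form hd).res (ρ ^ 2) Ψ) z‖ ∂μ ≤ (ρ ^ 2) ^ 3 * Y ∧
    ∫ z, K.b z * ‖S.D ((S.form hd).res (ρ ^ 2 / 4) Ψ) z‖ ∂μ ≤ (ρ ^ 2) ^ 3 * Y ∧
    ∫ z, K.b z ^ 2 * ((S.form hd).res (ρ ^ 2 / 4) Ψ : Lp ℝ 2 μ) z ∂μ ≤ (ρ ^ 2) ^ 3 * Y ∧
    ∫ z, |K.w z| * ((S.form hd).res (ρ ^ 2 / 4) Ψ : Lp ℝ 2 μ) z ∂μ ≤ (ρ ^ 2) ^ 3 * Y := by
  have hρ2 : 0 < ρ ^ 2 := by positivity
  have hq : ρ ^ 2 / 4 = (ρ / 2) ^ 2 := by ring
  have hρh : 0 < ρ / 2 := by positivity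
  have hρh2 : ρ / 2 ≤ ρ := by linarith
  have hb16 : ∀ᵐ x ∂μ, dist x0 x < 16 → K.b x = 0 := hb.mono fun x hx h => hx (by linarith)
  obtain ⟨a1, a2⟩ := far_res (S := S) (hd := hd) hΨ hρ le_rfl hρ1 (f := K.b) hb16
  obtain ⟨a3, a4⟩ := far_res (S := S) (hd := hd) hΨ hρh hρh2 hρ1 (f := K.b) hb16
  rw [hq]
  set β := ‖K.b‖ * ‖Ψ‖ with hβ
  have hβ0 : 0 ≤ β := by positivity
  set ex := Real.exp (-(1 / ρ)) with hex
  have hex0 : 0 < ex := Real.exp_pos _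
  set φ : Lp ℝ 2 μ := (S.form hd).res (ρ ^ 2) Ψ with hφ
  set φ' : Lp ℝ 2 μ := (S.form hd).res ((ρ / 2) ^ 2) Ψ with hφ'
  have hφ0 : ∀ᵐ z ∂μ, 0 ≤ φ z := KIn.res_nonneg' Ψ0 hρ2
  have hφ'0 : ∀ᵐ z ∂μ, 0 ≤ φ' z := KIn.res_nonneg' Ψ0 (by positivity)
  have hP8 : ρ ^ 8 ≤ (ρ ^ 2) ^ 3 := by
    calc ρ ^ 8 = (ρ ^ 2) ^ 3 * (ρ * ρ) := by ring
      _ ≤ (ρ ^ 2) ^ 3 * (1 * 1) := by gcongr
      _ = _ := by ring
  have hP7 : ρ ^ 7 ≤ (ρ ^ 2) ^ 3 := by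
    calc ρ ^ 7 = (ρ ^ 2) ^ 3 * ρ := by ring
      _ ≤ (ρ ^ 2) ^ 3 * 1 := by gcongr
      _ = _ := by ring
  have hP : 0 ≤ (ρ ^ 2) ^ 3 := by positivity
  have key : ∀ c : ℝ, 0 ≤ c → c ≤ 10 ^ 6 * (1 + CE) → ∀ P : ℝ, 0 ≤ P → P ≤ (ρ ^ 2) ^ 3 →
      c * β * P * ex ≤ (ρ ^ 2) ^ 3 * Y := by
    intro c hc0 hc P hP0 hP1
    calc c * β * P * ex ≤ (10 ^ 6 * (1 + CE)) * β * (ρ ^ 2) ^ 3 * ex := by gcongr
      _ = (ρ ^ 2) ^ 3 * (10 ^ 6 * (1 + CE) * β * ex) := by ring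
      _ ≤ _ := by gcongr
  refine ⟨?_, ?_, ?_, ?_, ?_⟩
  · refine le_trans (le_of_eq ?_) (a1.trans (key 161280 (by norm_num) (by nlinarith) _
      (by positivity) hP8))
    rw [inner_eq_integral]
    refine integral_congr_ae ?_
    filter_upwards [hφ0, K.b_nonneg] with x b1 b2
    rw [abs_of_nonneg b1, abs_of_nonneg b2]
  · have e1 : ∫ z, K.b z * ‖S.D φ z‖ ∂μ = ∫ x, |K.b x| * ‖S.D φ x‖ ∂μ := by
      refine integral_congr_ae ?_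
      filter_upwards [K.b_nonneg] with x b2
      rw [abs_of_nonneg b2]
    rw [e1]
    refine le_trans ?_ (key 161280 (by norm_num) (by nlinarith) _ (by positivity) hP7)
    have e2 : 161280 * β * ρ ^ 8 * ex = ρ * (161280 * β * ρ ^ 7 * ex) := by ring
    rw [e2] at a2
    exact le_of_mul_le_mul_left a2 hρ
  · have e1 : ∫ z, K.b z * ‖S.D φ' z‖ ∂μ = ∫ x, |K.b x| * ‖S.D φ' x‖ ∂μ := by
      refine integral_congr_ae ?_
      filter_upwards [K.b_nonneg] with x b2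
      rw [abs_of_nonneg b2]
    rw [e1]
    refine le_trans ?_ (key 322560 (by norm_num) (by nlinarith) _ (by positivity) hP7)
    have e2 : 161280 * β * ρ ^ 8 * ex = ρ / 2 * (322560 * β * ρ ^ 7 * ex) := by ring
    rw [e2] at a4
    exact le_of_mul_le_mul_left a4 hρh
  · have e1 : ∫ z, K.b z ^ 2 * φ' z ∂μ ≤ CE * ∫ x, |K.b x| * |φ' x| ∂μ := by
      rw [← integral_const_mul]
      have i1 := (integrable_abs_mul_L2 K.b φ').const_mul CE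
      have hb2 : ∀ᵐ z ∂μ, K.b z ^ 2 * φ' z ≤ CE * (|K.b z| * |φ' z|) := by
        filter_upwards [hφ'0, K.b_nonneg, hbC] with x b1 b2 b3
        rw [abs_of_nonneg b1, abs_of_nonneg b2]
        calc K.b x ^ 2 * φ' x = K.b x * (K.b x * φ' x) := by ring
          _ ≤ CE * (K.b x * φ' x) := by gcongr
      refine integral_mono_of_nonneg ?_ i1 hb2
      filter_upwards [hφ'0] with x b1
      show 0 ≤ K.b x ^ 2 * φ' x
      positivity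
    refine e1.trans ((mul_le_mul_of_nonneg_left a3 hCE).trans ?_)
    have e2 : CE * (161280 * β * ρ ^ 8 * ex) = (161280 * CE) * β * ρ ^ 8 * ex := by ring
    rw [e2]
    exact key _ (by positivity) (by nlinarith) _ (by positivity) hP8
  · -- split
    have hms : MeasurableSet {x : X | dist x0 x ≤ 16} :=
      measurableSet_le (by fun_prop) measurable_const
    have hA : MemLp ({x : X | dist x0 x ≤ 16}.indicator φ') 2 μ := (Lp.memLp φ').indicator hms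
    have hB : MemLp ({x : X | dist x0 x ≤ 16}ᶜ.indicator K.w) 2 μ :=
      (Lp.memLp K.w).indicator hms.compl
    set f1 : Lp ℝ 2 μ := hA.toLp _ with hf1
    set f2 : Lp ℝ 2 μ := hB.toLp _ with hf2
    have c1 : (f1 : X → ℝ) =ᵐ[μ] _ := MemLp.coeFn_toLp hA
    have c2 : (f2 : X → ℝ) =ᵐ[μ] _ := MemLp.coeFn_toLp hB
    have s1 : ∀ᵐ x ∂μ, 32 - 16 < dist x0 x → f1 x = 0 := by
      filter_upwards [c1] with x hx h
      rw [hx, indicator_of_notMem]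
      intro h2
      have : dist x0 x ≤ 16 := h2
      linarith
    have s2 : ∀ᵐ x ∂μ, dist x0 x < 16 → f2 x = 0 := by
      filter_upwards [c2] with x hx h
      rw [hx, indicator_of_notMem]
      intro h2
      exact h2 (le_of_lt h)
    have n1 : ‖f1‖ ≤ 1 * ‖φ'‖ := norm_le_of_ae zero_le_one (by
      filter_upwards [c1] with x hx
      rw [hx, one_mul]
      exact norm_indicator_le_norm_self _ _)
    have n2 : ‖f2‖ ≤ 1 * ‖K.w‖ := norm_le_of_ae zero_le_one (by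
      filter_upwards [c2] with x hx
      rw [hx, one_mul]
      exact norm_indicator_le_norm_self _ _)
    rw [one_mul] at n1 n2
    have n3 : ‖φ'‖ ≤ ‖Ψ‖ := norm_res_le (by positivity) Ψ
    have n4 := norm_w_le K hρ hρ1
    have ch16 := ch_anti hρ (le_refl ρ) (a := 16) (by norm_num)
    obtain ⟨c1', c2'⟩ := ch_lower hρ hρ1
    have b1 := agmon_w K hρ hb (a := 16) (by norm_num) (c1'.trans_le ch16) s1
    obtain ⟨b2, -⟩ := far_res (S := S) (hd := hd) hΨ hρh hρh2 hρ1 (f := f2) s2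
    have b3 : ‖f1‖ * (‖K.w‖ / ch (4 * ρ) 16) ≤ 322560 * β * ρ ^ 7 * ex := by
      have c5 : (ch (4 * ρ) 16)⁻¹ ≤ 161280 * ρ ^ 8 * ex := (inv_anti₀ c1' ch16).trans c2'
      rw [div_eq_mul_inv]
      calc ‖f1‖ * (‖K.w‖ * (ch (4 * ρ) 16)⁻¹) ≤
            ‖Ψ‖ * ((2 * ‖K.b‖ / ρ) * (161280 * ρ ^ 8 * ex)) := by
            have : 0 ≤ (ch (4 * ρ) 16)⁻¹ := inv_nonneg.2 (ch_nonneg _ _)
            gcongr
            exact n1.trans n3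
        _ = _ := by rw [hβ]; field_simp; ring
    have b4 : 161280 * (‖f2‖ * ‖Ψ‖) * ρ ^ 8 * ex ≤ 322560 * β * ρ ^ 7 * ex := by
      calc 161280 * (‖f2‖ * ‖Ψ‖) * ρ ^ 8 * ex ≤
            161280 * ((2 * ‖K.b‖ / ρ) * ‖Ψ‖) * ρ ^ 8 * ex := by
            gcongr
            exact n2.trans n4
        _ = _ := by rw [hβ]; field_simp; ring
    have hsum : ∫ z, |K.w z| * φ' z ∂μ =
        ∫ x, |f1 x| * |K.w x| ∂μ + ∫ x, |f2 x| * |φ' x| ∂μ := by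
      rw [← integral_add (integrable_abs_mul_L2 f1 K.w) (integrable_abs_mul_L2 f2 φ')]
      refine integral_congr_ae ?_
      filter_upwards [c1, c2, hφ'0] with x d1 d2 d3
      rw [d1, d2]
      by_cases hx : x ∈ {x : X | dist x0 x ≤ 16}
      · rw [indicator_of_mem hx, indicator_of_notMem
          (show x ∉ {x : X | dist x0 x ≤ 16}ᶜ from fun h => h hx), abs_of_nonneg d3]
        simp [mul_comm]
      · rw [indicator_of_notMem hx, indicator_of_mem (show x ∈ {x : X | dist x0 x ≤ 16}ᶜ from hx),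
          abs_of_nonneg d3]
        simp
    rw [hsum]
    have k1 := key 645120 (by norm_num) (by nlinarith) _ (by positivity) hP7
    refine le_trans ?_ k1
    have e9 : 645120 * β * ρ ^ 7 * ex = 322560 * β * ρ ^ 7 * ex + 322560 * β * ρ ^ 7 * ex := by ring
    rw [e9]
    exact add_le_add (b1.trans b3) (b2.trans b4)

end Er

end Crest.Agent.R247.Kt622
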