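import Crest.Agent.R247.Lx1_149

/-!
# The law `Lam C x s`: upper bound, support, bounded density (R247, (X2))
-/

set_option autoImplicit false
set_option linter.unusedSectionVars false
open MeasureTheory Set Filter Topology Metric
open scoped ENNReal NNReal

noncomputable section
namespace Crest.Agent.R247.LX149

open Crest.Agent.R247.Mcp688 Crest.Agent.R247.Far553

variable {n : ℕ} {κ : ℝ} {X : Type*} [MetricSpace X] [MeasurableSpace X] [BorelSpace X]
  {μ : Measure X}

lemma lintegral_Lam [SFinite μ] (C : Rad n κ X μ) (x : X) (s : ℝ) {g : X → ℝ≥0∞}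
    (hg : Measurable g) :
    ∫⁻ y, g y ∂(Lam C x s) =
      ∫⁻ v in ann x (4 * s) (8 * s), (∫⁻ t in Icc (1/64 : ℝ) (1/2), g (C.T x t v)) ∂μ := by
  unfold Lam
  rw [lintegral_map hg (measT_swap C x)]
  exact lintegral_prod _ (hg.comp (measT_swap C x)).aemeasurable

lemma lintegral_Lam' [SFinite μ] (C : Rad n κ X μ) (x : X) (s : ℝ) {g : X → ℝ≥0∞}
    (hg : Measurable g) :
    ∫⁻ y, g y ∂(Lam C x s) =
      ∫⁻ t in Icc (1/64 : ℝ) (1/2), ∫⁻ v in ann x (4 * s) (8 * s), g (C.T x t v) ∂μ := by
  unfold Lam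
  rw [lintegral_map hg (measT_swap C x)]
  exact lintegral_prod_symm _ (hg.comp (measT_swap C x)).aemeasurable

/-- **(X2)** upper bound of the law. -/
theorem Lam_le [SFinite μ] (C : Rad n κ X μ) (hκ : 0 ≤ κ) (x : X) (s : ℝ) :
    Lam C x s ≤ ENNReal.ofReal (Real.exp (κ * (8 * s) ^ 2 / 2) * 64 ^ n) • μ := by
  refine Measure.le_iff.2 fun B hB => ?_
  rw [Measure.smul_apply, smul_eq_mul, ← lintegral_indicator_one hB, lintegral_Lam' C x s
    (measurable_one.indicator hB)]
  have hA := measurableSet_ann x (4 * s) (8 * s)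
  calc ∫⁻ t in Icc (1/64 : ℝ) (1/2), ∫⁻ v in ann x (4 * s) (8 * s),
        B.indicator 1 (C.T x t v) ∂μ
      ≤ ∫⁻ _ in Icc (1/64 : ℝ) (1/2),
          ENNReal.ofReal (Real.exp (κ * (8 * s) ^ 2 / 2) * 64 ^ n) * μ B := by
        apply setLIntegral_mono' measurableSet_Icc
        intro t ht
        have ht0 : 0 < t := by have := ht.1; linarith
        have ht1 : t ∈ Ioc (0:ℝ) 1 := ⟨ht0, by have := ht.2; linarith⟩
        have h1 := C.setLIntegral_T_le hκ x ht1 hA (W := univ) MeasurableSet.univ
          (D := 8 * s) (fun z hz => hz.2) (fun z _ _ => mem_univ _)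
          (measurable_one.indicator hB : Measurable (B.indicator (1 : X → ℝ≥0∞)))
        refine h1.trans ?_
        rw [setLIntegral_univ, lintegral_indicator_one hB]
        gcongr
        rw [inv_le_comm₀ ht0 (by norm_num)]
        have := ht.1
        norm_num at this ⊢
        exact this
    _ ≤ ENNReal.ofReal (Real.exp (κ * (8 * s) ^ 2 / 2) * 64 ^ n) * μ B := by
        rw [setLIntegral_const, Real.volume_Icc]
        calc _ ≤ ENNReal.ofReal (Real.exp (κ * (8 * s) ^ 2 / 2) * 64 ^ n) * μ B * 1 := by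
              gcongr
              rw [ENNReal.ofReal_le_one]
              norm_num
          _ = _ := mul_one _

/-- the law is carried by the ball of radius `4s` -/
theorem Lam_compl [SFinite μ] (C : Rad n κ X μ) (x : X) (s : ℝ) :
    Lam C x s (closedBall x (4 * s))ᶜ = 0 := by
  have hm : MeasurableSet (closedBall x (4 * s))ᶜ := measurableSet_closedBall.compl
  rw [← lintegral_indicator_one hm, lintegral_Lam C x s (measurable_one.indicator hm)]
  rw [lintegral_eq_zero_iff' ?_]
  · refine (ae_restrict_iff' (measurableSet_ann x _ _)).2 ?_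
    filter_upwards [C.ae_U x] with v hv hva
    rw [Pi.zero_apply]
    apply setLIntegral_eq_zero measurableSet_Icc
    intro t ht
    have ht0 : t ∈ Icc (0:ℝ) 1 := ⟨by have := ht.1; linarith, by have := ht.2; linarith⟩
    have h1 : dist x (C.T x t v) = t * dist x v := C.dist_left hv ht0
    simp only [indicator, Pi.zero_apply, mem_compl_iff, mem_closedBall, not_le, Pi.one_apply]
    rw [if_neg]
    rw [dist_comm, h1, not_lt]
    have h2 := hva.2
    have h3 : 0 ≤ dist x v := dist_nonneg
    have h4 := ht.2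
    nlinarith
  · apply AEMeasurable.restrict
    apply Measurable.aemeasurable
    exact Measurable.lintegral_prod_right' (ν := volume.restrict (Icc (1/64 : ℝ) (1/2)))
      (f := fun p : X × ℝ => (closedBall x (4 * s))ᶜ.indicator 1 (C.T x p.2 p.1))
      ((measurable_one.indicator hm).comp (measT_swap C x))

/-- **bounded density of the law** -/
theorem exists_density [SigmaFinite μ] (C : Rad n κ X μ) (hκ : 0 ≤ κ) (x : X) (s : ℝ) :
    ∃ Ψ : X → ℝ, Measurable Ψ ∧ (∀ y, 0 ≤ Ψ y) ∧
      (∀ y, Ψ y ≤ Real.exp (κ * (8 * s) ^ 2 / 2) * 64 ^ n) ∧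
      (∀ y, 4 * s < dist x y → Ψ y = 0) ∧
      Lam C x s = μ.withDensity (fun y => ENNReal.ofReal (Ψ y)) := by
  set c : ℝ := Real.exp (κ * (8 * s) ^ 2 / 2) * 64 ^ n with hc
  have hc0 : 0 < c := by positivity
  have hle := Lam_le C hκ x s
  rw [← hc] at hle
  have hsf : SFinite (Lam C x s) := by unfold Lam; infer_instance
  have hac : Lam C x s ≪ μ := by
    refine Measure.absolutelyContinuous_of_le_smul hle
  have h1 : μ.withDensity ((Lam C x s).rnDeriv μ) = Lam C x s :=
    Measure.withDensity_rnDeriv_eq _ _ hac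
  set f := (Lam C x s).rnDeriv μ with hf
  have hfm : Measurable f := Measure.measurable_rnDeriv _ _
  have h2 : f ≤ᵐ[μ] fun _ => ENNReal.ofReal c := by
    apply ae_le_of_forall_setLIntegral_le_of_sigmaFinite hfm
    intro B hB _
    rw [← withDensity_apply _ hB, h1, setLIntegral_const]
    exact hle B
  have h3 : ∀ᵐ y ∂μ, y ∈ (closedBall x (4 * s))ᶜ → f y = 0 := by
    have h4 : ∫⁻ y in (closedBall x (4 * s))ᶜ, f y ∂μ = 0 := by
      rw [← withDensity_apply _ measurableSet_closedBall.compl, h1, Lam_compl C x s]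
    rw [lintegral_eq_zero_iff hfm] at h4
    exact (ae_restrict_iff' measurableSet_closedBall.compl).1 h4
  set Ψ : X → ℝ := (closedBall x (4 * s)).indicator
    (fun y => (min (f y) (ENNReal.ofReal c)).toReal) with hΨ
  have hΨf : (fun y => ENNReal.ofReal (Ψ y)) =ᵐ[μ] f := by
    filter_upwards [h2, h3] with y hy2 hy3
    by_cases hy : y ∈ closedBall x (4 * s)
    · simp only [hΨ, indicator_of_mem hy, min_eq_left hy2]
      exact ENNReal.ofReal_toReal (ne_top_of_le_ne_top ENNReal.ofReal_ne_top hy2)
    · simp only [hΨ, indicator_of_notMem hy, ENNReal.ofReal_zero]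
      exact (hy3 hy).symm
  refine ⟨Ψ, ?_, ?_, ?_, ?_, ?_⟩
  · exact ((hfm.min measurable_const).ennreal_toReal).indicator measurableSet_closedBall
  · intro y
    exact indicator_nonneg (fun _ _ => ENNReal.toReal_nonneg) y
  · intro y
    by_cases hy : y ∈ closedBall x (4 * s)
    · simp only [hΨ, indicator_of_mem hy]
      calc (min (f y) (ENNReal.ofReal c)).toReal ≤ (ENNReal.ofReal c).toReal :=
            ENNReal.toReal_mono ENNReal.ofReal_ne_top (min_le_right _ _)
        _ = c := ENNReal.toReal_ofReal hc0.le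
    · simp only [hΨ, indicator_of_notMem hy]
      exact hc0.le
  · intro y hy
    have : y ∉ closedBall x (4 * s) := by
      rw [mem_closedBall, dist_comm, not_le]; exact hy
    simp only [hΨ, indicator_of_notMem this]
  · rw [withDensity_congr_ae hΨf, h1]

end Crest.Agent.R247.LX149
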