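import Crest.Agent.R247.Kt1_622
import Crest.Agent.R247.Lx3_149
import Crest.Agent.R247.Obj2_554

/-!
R247, block (1-K) (helper622): telescoping along the rays,
`∫ Ψ (q + ⟪∇f_x, ∇q⟫) ≤ C ∫_{B(x,4s)} q` for the density `Ψ` of `Lam C x s`.
-/

set_option autoImplicit false
set_option linter.unusedSectionVars false
set_option linter.unusedVariables false

open MeasureTheory Filter Topology Set Metric
open scoped RealInnerProductSpace ENNReal NNReal

noncomputable section

namespace Crest.Agent.R247.Kt622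

open Crest.Agent.R247.Dir593 Crest.Agent.R247.Dir593.GradS Crest.Agent.R247.Mcp688
open Crest.Agent.R247.Far553 Crest.Agent.R247.LX149

section Tele

variable {n : ℕ} {κ : ℝ} {X : Type*} [MetricSpace X] [MeasurableSpace X] [BorelSpace X]
  {μ : Measure X}

/-- one ray -/
lemma ray_tele [SFinite μ] (C : Rad n κ X μ) (x : X) {f D : X → ℝ} (hD : RD C x f D) {K M : ℝ}
    (hK0 : 0 ≤ K) (hK : ∀ y z, |f y - f z| ≤ K * dist y z) (hM : ∀ z, |f z| ≤ M) :
    ∀ᵐ v ∂μ, 0 < dist x v → ∀ a b : ℝ, 0 < a → a ≤ b → b ≤ 1 →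
      ∫ t in Icc a b, (f (C.T x t v) + D (C.T x t v)) = b * f (C.T x b v) - a * f (C.T x a v) := by
  have hM0 : 0 ≤ M := (abs_nonneg _).trans (hM x)
  have hd : RD C x (fun z => dist x z) (fun z => 1 * dist x z) :=
    RD.radial (η := fun s => s) (η' := fun _ => 1) (Eventually.of_forall fun z _ =>
      (hasDerivAt_id _).hasDerivWithinAt)
  have hm := RD.mul hd hD
  have hLip : ∀ R, ∃ L, ∀ y z, dist x y ≤ R → dist x z ≤ R →
      |dist x y * f y - dist x z * f z| ≤ L * dist y z := by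
    intro R
    refine ⟨M + |R| * K, fun y z hy hz => ?_⟩
    have e : dist x y * f y - dist x z * f z = (dist x y - dist x z) * f y +
        dist x z * (f y - f z) := by ring
    rw [e]
    refine (abs_add_le _ _).trans ?_
    rw [abs_mul, abs_mul, add_mul]
    have h1 : |dist x y - dist x z| ≤ dist y z := by
      have := abs_dist_sub_le y z x
      rwa [dist_comm y x, dist_comm z x] at this
    have h2 : |dist x z| ≤ |R| := by
      rw [abs_of_nonneg dist_nonneg]; exact hz.trans (le_abs_self R)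
    have h3 := hK y z
    have h4 := hM y
    calc |dist x y - dist x z| * |f y| + |dist x z| * |f y - f z| ≤
          dist y z * M + |R| * (K * dist y z) := by gcongr
      _ = _ := by ring
  filter_upwards [C.ray_ftc x hm hLip, C.ae_U x] with v hv hU hv0 a b ha hab hb
  obtain ⟨-, h2⟩ := hv a b ha hab hb
  rw [intervalIntegral.integral_of_le hab, ← integral_Icc_eq_integral_Ioc] at h2
  have hdist : ∀ t ∈ Icc a b, dist x (C.T x t v) = t * dist x v := fun t ht =>
    C.dist_left hU ⟨ha.le.trans ht.1, ht.2.trans hb⟩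
  have e1 : ∫ t in Icc a b, (1 * dist x (C.T x t v) * f (C.T x t v) +
      dist x (C.T x t v) * D (C.T x t v)) / t =
      dist x v * ∫ t in Icc a b, (f (C.T x t v) + D (C.T x t v)) := by
    rw [← integral_const_mul]
    refine setIntegral_congr_fun measurableSet_Icc fun t ht => ?_
    have ht0 : 0 < t := ha.trans_le ht.1
    show (1 * dist x (C.T x t v) * f (C.T x t v) + dist x (C.T x t v) * D (C.T x t v)) / t =
      dist x v * (f (C.T x t v) + D (C.T x t v))
    rw [hdist t ht]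
    field_simp
  rw [e1, hdist b ⟨hab, le_rfl⟩, hdist a ⟨le_rfl, hab⟩] at h2
  have h3 : dist x v * ∫ t in Icc a b, (f (C.T x t v) + D (C.T x t v)) =
      dist x v * (b * f (C.T x b v) - a * f (C.T x a v)) := by rw [h2]; ring
  exact mul_left_cancel₀ hv0.ne' h3

/-- the telescoping estimate for nonnegative Lipschitz functions -/
theorem tele_test [SigmaFinite μ] (C : Rad n κ X μ) (hκ : 0 ≤ κ) {x : X} {s : ℝ} (hs : 0 < s)
    {Ψ : X → ℝ} (hΨm : Measurable Ψ) (hΨ0 : ∀ y, 0 ≤ Ψ y) {cΨ : ℝ} (hΨb : ∀ y, Ψ y ≤ cΨ)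
    (hΨs : ∀ y, 4 * s < dist x y → Ψ y = 0)
    (hΨL : Lam C x s = μ.withDensity (fun y => ENNReal.ofReal (Ψ y)))
    (hfin : μ (closedBall x (8 * s)) ≠ ∞)
    {f D : X → ℝ} (hfm : Measurable f) (f0 : ∀ z, 0 ≤ f z) {K M : ℝ}
    (hK0 : 0 ≤ K) (hK : ∀ y z, |f y - f z| ≤ K * dist y z) (hM : ∀ z, |f z| ≤ M)
    (hDm : Measurable D) (hD : RD C x f D) :
    ∫ z, Ψ z * (f z + D z) ∂μ ≤
      Real.exp (κ * (8 * s) ^ 2 / 2) * 2 ^ n * ∫ z in closedBall x (4 * s), f z ∂μ := by
  have hM0 : 0 ≤ M := (abs_nonneg _).trans (hM x)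
  set ν : Measure X := μ.restrict (ann x (4 * s) (8 * s)) with hν
  have hAm := measurableSet_ann x (4 * s) (8 * s)
  have hAfin : μ (ann x (4 * s) (8 * s)) ≠ ∞ := by
    refine ne_top_of_le_ne_top hfin (measure_mono fun z hz => ?_)
    rw [mem_closedBall, dist_comm]; exact hz.2
  have hνf : IsFiniteMeasure ν := ⟨by rw [hν, Measure.restrict_apply_univ]; exact hAfin.lt_top⟩
  set τ : Measure ℝ := volume.restrict (Icc (1 / 64 : ℝ) (1 / 2)) with hτ
  have hτf : IsFiniteMeasure τ := ⟨by rw [hτ, Measure.restrict_apply_univ]; simp⟩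
  set g : X → ℝ := fun z => f z + D z with hg
  have hgm : Measurable g := hfm.add hDm
  have hTm : Measurable (fun p : X × ℝ => C.T x p.2 p.1) := measT_swap C x
  have hLdef : Lam C x s = (ν.prod τ).map (fun p : X × ℝ => C.T x p.2 p.1) := rfl
  -- integrability with respect to the law
  have hfin4 : μ (closedBall x (4 * s)) ≠ ∞ :=
    ne_top_of_le_ne_top hfin (measure_mono (closedBall_subset_closedBall (by linarith)))
  have hDb := hD.abs_le hK
  have hΨg : Integrable (fun z => Ψ z * g z) μ := by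
    have hb : Integrable ((closedBall x (4 * s)).indicator
        fun _ => cΨ * (M + K * (4 * s))) μ :=
      (integrable_indicator_iff isClosed_closedBall.measurableSet).2 (integrableOn_const hfin4)
    refine hb.mono' (hΨm.mul hgm).aestronglyMeasurable ?_
    filter_upwards [hDb] with z hz
    by_cases h : z ∈ closedBall x (4 * s)
    · rw [indicator_of_mem h, Real.norm_eq_abs, abs_mul, abs_of_nonneg (hΨ0 z)]
      rw [mem_closedBall, dist_comm] at h
      have h1 : |g z| ≤ M + K * (4 * s) := by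
        refine (abs_add_le _ _).trans (add_le_add (hM z) (hz.trans ?_))
        gcongr
      have h2 : 0 ≤ cΨ := (hΨ0 z).trans (hΨb z)
      exact mul_le_mul (hΨb z) h1 (abs_nonneg _) h2
    · rw [indicator_of_notMem h, hΨs z (by
        rw [mem_closedBall, dist_comm, not_le] at h; exact h)]
      simp
  have hint : Integrable g (Lam C x s) := by
    rw [hΨL, integrable_withDensity_iff_integrable_smul' (by fun_prop)
      (Eventually.of_forall fun z => ENNReal.ofReal_lt_top)]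
    refine hΨg.congr (Eventually.of_forall fun z => ?_)
    simp only [ENNReal.toReal_ofReal (hΨ0 z), smul_eq_mul]
  have e1 : ∫ z, Ψ z * (f z + D z) ∂μ = ∫ z, g z ∂(Lam C x s) := by
    rw [hΨL, integral_withDensity_eq_integral_toReal_smul (by fun_prop)
      (Eventually.of_forall fun z => ENNReal.ofReal_lt_top)]
    refine integral_congr_ae (Eventually.of_forall fun z => ?_)
    simp only [ENNReal.toReal_ofReal (hΨ0 z), smul_eq_mul, hg]
  rw [hLdef] at hint e1
  have hint2 : Integrable (fun p : X × ℝ => g (C.T x p.2 p.1)) (ν.prod τ) :=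
    (integrable_map_measure hgm.aestronglyMeasurable hTm.aemeasurable).1 hint
  rw [e1, integral_map hTm.aemeasurable hgm.aestronglyMeasurable, integral_prod _ hint2]
  -- the inner integral
  have hray : ∀ᵐ v ∂ν, ∫ t, g (C.T x t v) ∂τ =
      1 / 2 * f (C.T x (1 / 2) v) - 1 / 64 * f (C.T x (1 / 64) v) := by
    rw [hν, ae_restrict_iff' hAm]
    filter_upwards [ray_tele C x hD hK0 hK hM] with v hv hvA
    exact hv (by have := hvA.1; linarith) _ _ (by norm_num) (by norm_num) (by norm_num)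
  rw [integral_congr_ae hray]
  have hTi : ∀ t : ℝ, Integrable (fun v => f (C.T x t v)) ν := fun t => by
    refine Integrable.of_bound (hfm.comp (C.measT_xt x t)).aestronglyMeasurable M
      (Eventually.of_forall fun v => ?_)
    rw [Real.norm_eq_abs]; exact hM _
  have s1 : ∫ v, (1 / 2 * f (C.T x (1 / 2) v) - 1 / 64 * f (C.T x (1 / 64) v)) ∂ν ≤
      ∫ v, f (C.T x (1 / 2) v) ∂ν := by
    refine integral_mono (((hTi _).const_mul _).sub ((hTi _).const_mul _)) (hTi _) fun v => ?_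
    have h1 := f0 (C.T x (1 / 2) v)
    have h2 := f0 (C.T x (1 / 64) v)
    show 1 / 2 * f (C.T x (1 / 2) v) - 1 / 64 * f (C.T x (1 / 64) v) ≤ f (C.T x (1 / 2) v)
    linarith
  refine s1.trans ?_
  -- the contraction at `1/2`
  have hfi : IntegrableOn f (closedBall x (4 * s)) μ :=
    Measure.integrableOn_of_bounded (M := M) hfin4 hfm.aestronglyMeasurable
      (Eventually.of_forall fun z => by rw [Real.norm_eq_abs]; exact hM z)
  have h2 := C.setLIntegral_T_le hκ x (t := 1 / 2) ⟨by norm_num, by norm_num⟩ hAm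
    (W := closedBall x (4 * s)) measurableSet_closedBall (D := 8 * s) (fun z hz => hz.2)
    (fun z hz hU => by
      rw [mem_closedBall, dist_comm, C.dist_left hU ⟨by norm_num, by norm_num⟩]
      have := hz.2
      linarith) (g := fun z => ENNReal.ofReal (f z)) (by fun_prop)
  have hc0 : 0 ≤ Real.exp (κ * (8 * s) ^ 2 / 2) * 2 ^ n := by positivity
  have h3 : ENNReal.ofReal (∫ v, f (C.T x (1 / 2) v) ∂ν) ≤
      ENNReal.ofReal (Real.exp (κ * (8 * s) ^ 2 / 2) * 2 ^ n *
        ∫ z in closedBall x (4 * s), f z ∂μ) := by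
    rw [ofReal_integral_eq_lintegral_ofReal (hTi _) (Eventually.of_forall fun v => f0 _),
      ENNReal.ofReal_mul hc0, ofReal_integral_eq_lintegral_ofReal hfi
      (Eventually.of_forall fun v => f0 _)]
    have e : ((1 / 2 : ℝ)⁻¹) ^ n = 2 ^ n := by norm_num
    rw [e] at h2
    exact h2
  exact (ENNReal.ofReal_le_ofReal_iff (mul_nonneg hc0
    (integral_nonneg fun z => f0 z))).1 h3

end Tele

section TeleV

variable {n : ℕ} {κ : ℝ} {X : Type*} [MetricSpace X] [ProperSpace X] [MeasurableSpace X]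
  [BorelSpace X] {F : Type*} [NormedAddCommGroup F] [InnerProductSpace ℝ F] {μ : Measure X}
  [IsFiniteMeasureOnCompacts μ] {S : GradS X F μ}

/-- **telescoping for `q ∈ V`, `q ≥ 0`** -/
theorem tele_V [SigmaFinite μ] (C : Rad n κ X μ) (hκ : 0 ≤ κ) (hLK : Obj554.LK S C) {x : X}
    {s : ℝ} (hs : 0 < s) {Ψ : X → ℝ} (hΨm : Measurable Ψ) (hΨ0 : ∀ y, 0 ≤ Ψ y) {cΨ : ℝ}
    (hΨb : ∀ y, Ψ y ≤ cΨ) (hΨs : ∀ y, 4 * s < dist x y → Ψ y = 0)
    (hΨL : Lam C x s = μ.withDensity (fun y => ENNReal.ofReal (Ψ y)))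
    {q : Lp ℝ 2 μ} (hq : q ∈ S.V) (q0 : ∀ᵐ z ∂μ, 0 ≤ q z) :
    Integrable (fun z => Ψ z * (q z + ⟪S.G (Smv126.hf x) z, S.D q z⟫)) μ ∧
    ∫ z, Ψ z * (q z + ⟪S.G (Smv126.hf x) z, S.D q z⟫) ∂μ ≤
      Real.exp (κ * (8 * s) ^ 2 / 2) * 2 ^ n * ∫ z in closedBall x (4 * s), q z ∂μ := by
  have hfin : μ (closedBall x (8 * s)) ≠ ∞ := (isCompact_closedBall x (8 * s)).measure_lt_top.ne
  have hms : MeasurableSet (closedBall x (4 * s)) := measurableSet_closedBall
  have hfin4 : μ (closedBall x (4 * s)) ≠ ∞ := (isCompact_closedBall x (4 * s)).measure_lt_top.ne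
  have hcΨ : 0 ≤ cΨ := (hΨ0 x).trans (hΨb x)
  -- the two `L²` classes
  have m1 : MemLp Ψ 2 μ := by
    refine Smv126.memLp_compact hΨm.aestronglyMeasurable (isCompact_closedBall x (4 * s))
      (C := cΨ) (Eventually.of_forall fun z _ => ?_) (Eventually.of_forall fun z hz => ?_) 2
    · rw [Real.norm_eq_abs, abs_of_nonneg (hΨ0 z)]; exact hΨb z
    · exact hΨs z (by rw [mem_closedBall, dist_comm, not_le] at hz; exact hz)
  obtain ⟨CG, hCG0, hCG⟩ := S.bound_compact (Smv126.locLip_hf x) (isCompact_closedBall x (4 * s))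
  have m2 : MemLp (fun z => Ψ z • S.G (Smv126.hf x) z) 2 μ := by
    refine Smv126.memLp_compact (hΨm.aestronglyMeasurable.smul (S.meas (Smv126.locLip_hf x)))
      (isCompact_closedBall x (4 * s)) (C := cΨ * CG) ?_ (Eventually.of_forall fun z hz => ?_) 2
    · filter_upwards [hCG] with z hz hzB
      show ‖Ψ z • S.G (Smv126.hf x) z‖ ≤ cΨ * CG
      rw [norm_smul, Real.norm_eq_abs, abs_of_nonneg (hΨ0 z)]
      exact mul_le_mul (hΨb z) (hz hzB) (norm_nonneg _) hcΨ
    · show Ψ z • S.G (Smv126.hf x) z = 0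
      rw [hΨs z (by rw [mem_closedBall, dist_comm, not_le] at hz; exact hz), zero_smul]
  set P : Lp ℝ 2 μ := m1.toLp _ with hP
  set W : Lp F 2 μ := m2.toLp _ with hW
  have cP : (P : X → ℝ) =ᵐ[μ] Ψ := MemLp.coeFn_toLp m1
  have cW : (W : X → F) =ᵐ[μ] fun z => Ψ z • S.G (Smv126.hf x) z := MemLp.coeFn_toLp m2
  have key : ∀ (u : Lp ℝ 2 μ) (U : Lp F 2 μ),
      Integrable (fun z => Ψ z * (u z + ⟪S.G (Smv126.hf x) z, U z⟫)) μ ∧
      ∫ z, Ψ z * (u z + ⟪S.G (Smv126.hf x) z, U z⟫) ∂μ = ⟪P, u⟫ + ⟪W, U⟫ := by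
    intro u U
    have i1 := integrable_mul_L2 P u
    have i2 : Integrable (fun z => (⟪W z, U z⟫ : ℝ)) μ := L2.integrable_inner (𝕜 := ℝ) W U
    have e : (fun z => P z * u z + (⟪W z, U z⟫ : ℝ)) =ᵐ[μ]
        fun z => Ψ z * (u z + ⟪S.G (Smv126.hf x) z, U z⟫) := by
      filter_upwards [cP, cW] with z a1 a2
      rw [a1, a2, real_inner_smul_left]; ring
    refine ⟨(i1.add i2).congr e, ?_⟩
    rw [← integral_congr_ae e, integral_add i1 i2, inner_eq_integral, L2.inner_def]
  refine ⟨(key q (S.D q)).1, ?_⟩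
  rw [(key q (S.D q)).2]
  set cc : ℝ := Real.exp (κ * (8 * s) ^ 2 / 2) * 2 ^ n with hcc
  obtain ⟨f, hf, f0, h1, h2, -⟩ := S.exists_seq_nonneg hq q0
  -- the inequality for test functions
  have hineq : ∀ k, (⟪P, (tL (hf k) : Lp ℝ 2 μ)⟫ : ℝ) + ⟪W, S.D (tL (hf k))⟫ ≤
      cc * ⟪ind hms hfin4, (tL (hf k) : Lp ℝ 2 μ)⟫ := by
    intro k
    rw [← (key (tL (hf k)) (S.D (tL (hf k)))).2]
    obtain ⟨K, hK0, hK⟩ := Obj554.isT_lip (hf k)
    obtain ⟨M, hM⟩ := (hf k).1.continuous.bounded_above_of_compact_support (hf k).2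
    have hDmeas : AEStronglyMeasurable (fun z => (⟪S.G (Smv126.hf x) z, S.G (f k) z⟫ : ℝ)) μ :=
      (S.meas (Smv126.locLip_hf x)).inner (S.meas (hf k).1)
    set D : X → ℝ := hDmeas.mk _ with hDdef
    have hDae := hDmeas.ae_eq_mk
    have hRD : RD C x (f k) D := (hLK x (hf k)).congr hDae
    have := tele_test C hκ hs hΨm hΨ0 hΨb hΨs hΨL hfin (hf k).1.continuous.measurable (f0 k)
      hK0 hK (fun z => by rw [← Real.norm_eq_abs]; exact hM z)
      hDmeas.stronglyMeasurable_mk.measurable hRD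
    have e1 : ∫ z, Ψ z * ((tL (hf k) : Lp ℝ 2 μ) z +
        ⟪S.G (Smv126.hf x) z, S.D (tL (hf k)) z⟫) ∂μ = ∫ z, Ψ z * (f k z + D z) ∂μ := by
      refine integral_congr_ae ?_
      filter_upwards [coe_tL (μ := μ) (hf k), S.D_tL (hf k), hDae] with z a1 a2 a3
      rw [a1, a2, ← hDdef] at *
      rw [← a3]
    have e2 : (⟪ind hms hfin4, (tL (hf k) : Lp ℝ 2 μ)⟫ : ℝ) =
        ∫ z in closedBall x (4 * s), f k z ∂μ := by
      rw [real_inner_comm, inner_ind _ hms hfin4]
      refine integral_congr_ae (ae_restrict_of_ae ?_)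
      filter_upwards [coe_tL (μ := μ) (hf k)] with z a1
      rw [a1]
    rw [e1, e2]
    exact this
  have l1 : Tendsto (fun k => (⟪P, (tL (hf k) : Lp ℝ 2 μ)⟫ : ℝ) + ⟪W, S.D (tL (hf k))⟫) atTop
      (𝓝 (⟪P, q⟫ + ⟪W, S.D q⟫)) :=
    (tendsto_const_nhds.inner h1).add (tendsto_const_nhds.inner h2)
  have l2 : Tendsto (fun k => cc * (⟪ind hms hfin4, (tL (hf k) : Lp ℝ 2 μ)⟫ : ℝ)) atTop
      (𝓝 (cc * ⟪ind hms hfin4, q⟫)) := (tendsto_const_nhds.inner h1).const_mul cc
  have := le_of_tendsto_of_tendsto' l1 l2 hineq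
  rw [real_inner_comm q (ind hms hfin4), inner_ind _ hms hfin4] at this
  exact this

end TeleV

end Crest.Agent.R247.Kt622
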