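import Crest.Agent.R247.Kt5_622
import Crest.Agent.R247.Kt6_622

import Crest.Agent.R247.Hes6_124

/-!
# R247, (1-K) (9) (helper622): the input structure `KIn` for helper554's objects
-/

set_option autoImplicit false
set_option linter.unusedSectionVars false
set_option linter.unusedVariables false

open MeasureTheory Filter Topology Set Metric
open scoped RealInnerProductSpace ENNReal NNReal

noncomputable section

namespace Crest.Agent.R247.Kt622

universe u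

open Crest.Agent.R242 Crest.Agent.R247.Dir593 Crest.Agent.R247.Dir593.GradS
open Crest.Agent.R247.Smv126 Crest.Agent.R247.Obj554 Crest.Agent.R247.Hes124
open Crest.Agent.R247.Far553 Crest.Agent.R247.Mcp688 Crest.Agent.R247.Max193
open Crest.Agent.R247.Fd656

/-! ### scalar constants -/

lemma exists_Cth : ∃ c : ℝ, 0 ≤ c ∧ ∀ s : ℝ, |deriv thf s| ≤ c := by
  have hc : Continuous (deriv thf) := contDiff_thf.continuous_deriv le_rfl
  have h0 : ∀ s, S1 ≤ s → deriv thf s = 0 := by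
    intro s hs
    rw [deriv_eq_of_right contDiff_thf (contDiff_const (c := (0:ℝ))) (fun t ht => thf_zero ht) hs]
    simp
  obtain ⟨c, hc'⟩ := (isCompact_Icc (a := S0) (b := S1)).exists_bound_of_continuousOn hc.continuousOn
  refine ⟨max c 0, le_max_right _ _, fun s => ?_⟩
  rcases le_total s S0 with h | h
  · rw [deriv_thf_zero h]; simp
  rcases le_total s S1 with h' | h'
  · exact (hc' s ⟨h, h'⟩).trans (le_max_left _ _)
  · rw [h0 s h']; simp

/-- bound of `|θ0'|` -/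
def Cth : ℝ := Classical.choose exists_Cth

lemma Cth_nonneg : 0 ≤ Cth := (Classical.choose_spec exists_Cth).1

lemma abs_deriv_thf_le (s : ℝ) : |deriv thf s| ≤ Cth := (Classical.choose_spec exists_Cth).2 s

lemma deriv_thf_right {s : ℝ} (hs : S1 ≤ s) : deriv thf s = 0 := by
  rw [deriv_eq_of_right contDiff_thf (contDiff_const (c := (0:ℝ))) (fun t ht => thf_zero ht) hs]
  simp

/-- the size of the far errors -/
def bC (n : ℕ) : ℝ := CE n + 64 * Cth

lemma bC_nonneg (n : ℕ) : 0 ≤ bC n := by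
  have := CE_nonneg n
  have := Cth_nonneg
  unfold bC; positivity

lemma CE_le_bC (n : ℕ) : CE n ≤ bC n := by
  have := Cth_nonneg
  unfold bC; linarith

lemma Cth_le_bC (n : ℕ) : 64 * Cth ≤ bC n := by
  have := CE_nonneg n
  unfold bC; linarith

lemma mv_idm' {n : ℕ} (v : Hes124.F n) : mv (idm n) v = v := by
  ext i
  rw [mv_apply]
  simp [idm]

section Obj

variable {n : ℕ} {κ : ℝ} {X : Type u} [MetricSpace X] [ProperSpace X] [MeasurableSpace X]
  [BorelSpace X] {μ : Measure X} [IsFiniteMeasureOnCompacts μ] {B : BochS n κ X μ} {x : X}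

/-- `q_k ∈ L¹` -/
lemma integrable_qk (W : WLap B.toGradS n κ) (hκ : 0 ≤ κ) (k : ℕ) : Integrable (qk B x k) μ := by
  have hρ := dy_pos k
  have hM : Markov (QF B.toGradS) := B.markov B.dense_V
  refine (hM.integral_resD_le (h := dy k ^ 2) (by positivity) (l := lx B.toGradS n κ x)
    (m := CN n κ * μ.real (closedBall x 64)) (lx_nonneg W x) (fun w hw h0 h1 => ?_)).1
  have h2 : (lx B.toGradS n κ x).f w ≤ (lx B.toGradS n κ x).f (tL (isT_plat x)) := by
    refine Pos.mono_on hM (l := lx B.toGradS n κ x) (lx_nonneg W x) (suppIn_lx x) hw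
      (B.toGradS.tL_mem _) ?_
    filter_upwards [h1, coe_tL (μ := μ) (isT_plat x)] with y h1 h2 hy
    rw [Metric.mem_ball, dist_comm] at hy
    rw [h2, plat_one hy.le]
    exact h1
  exact h2.trans (lx_plat hκ x)

/-! ### the far set -/

lemma meas_far (x : X) : MeasurableSet (closedBall x 64 \ closedBall x 32) :=
  measurableSet_closedBall.diff measurableSet_closedBall

lemma fin_far (μ : Measure X) [IsFiniteMeasureOnCompacts μ] (x : X) :
    μ (closedBall x 64 \ closedBall x 32) ≠ ∞ :=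
  ((measure_mono sdiff_subset).trans_lt (isCompact_closedBall x 64).measure_lt_top).ne

/-- the far bound `b = bC 1_{32 < d ≤ 64}` -/
def bL (μ : Measure X) [IsFiniteMeasureOnCompacts μ] (n : ℕ) (x : X) : Lp ℝ 2 μ :=
  bC n • ind (meas_far x) (fin_far μ x)

lemma bL_ae (n : ℕ) (x : X) : ∀ᵐ z ∂μ, bL μ n x z =
    if 32 < dist x z ∧ dist x z ≤ 64 then bC n else 0 := by
  unfold bL
  filter_upwards [Lp.coeFn_smul (bC n) (ind (meas_far x) (fin_far μ x)),
    coe_ind (meas_far x) (fin_far μ x)] with z h1 h2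
  rw [h1, Pi.smul_apply, h2, smul_eq_mul]
  by_cases h : z ∈ closedBall x 64 \ closedBall x 32
  · rw [indicator_of_mem h]
    rw [Set.mem_sdiff, mem_closedBall, mem_closedBall, dist_comm z x] at h
    rw [if_pos ⟨not_le.1 h.2, h.1⟩]
    simp
  · rw [indicator_of_notMem h]
    rw [Set.mem_sdiff, mem_closedBall, mem_closedBall, dist_comm z x] at h
    rw [if_neg (fun h' => h ⟨h'.2, not_le.2 h'.1⟩)]
    simp

lemma bL_nonneg (n : ℕ) (x : X) : ∀ᵐ z ∂μ, 0 ≤ bL μ n x z := by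
  filter_upwards [bL_ae (μ := μ) n x] with z h
  rw [h]
  split_ifs
  · exact bC_nonneg n
  · exact le_rfl

lemma bL_le (n : ℕ) (x : X) : ∀ᵐ z ∂μ, bL μ n x z ≤ bC n := by
  filter_upwards [bL_ae (μ := μ) n x] with z h
  rw [h]
  split_ifs
  · exact le_rfl
  · exact bC_nonneg n

lemma bL_near (n : ℕ) (x : X) : ∀ᵐ z ∂μ, dist x z ≤ 32 → bL μ n x z = 0 := by
  filter_upwards [bL_ae (μ := μ) n x] with z h hz
  rw [h, if_neg (fun h' => absurd h'.1 (not_lt.2 hz))]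

lemma norm_bL (n : ℕ) (x : X) {V : ℝ} (hV : μ.real (closedBall x 64) ≤ V) :
    ‖bL μ n x‖ ≤ bC n * Real.sqrt V := by
  unfold bL
  rw [norm_smul, Real.norm_of_nonneg (bC_nonneg n)]
  refine mul_le_mul_of_nonneg_left ?_ (bC_nonneg n)
  have h1 : ‖ind (meas_far x) (fin_far μ x)‖ ^ 2 ≤ V := by
    rw [← real_inner_self_eq_norm_sq, inner_ind]
    have h2 : ∫ z in closedBall x 64 \ closedBall x 32, ind (meas_far x) (fin_far μ x) z ∂μ ≤
        μ.real (closedBall x 64 \ closedBall x 32) := by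
      have h3 : ∫ z in closedBall x 64 \ closedBall x 32, ind (meas_far x) (fin_far μ x) z ∂μ =
          ∫ z in closedBall x 64 \ closedBall x 32, (1:ℝ) ∂μ := by
        refine setIntegral_congr_ae (meas_far x) ?_
        filter_upwards [coe_ind (meas_far x) (fin_far μ x)] with z hz hm
        rw [hz, indicator_of_mem hm]
      rw [h3]
      simp
    refine h2.trans ((measureReal_mono sdiff_subset ?_).trans hV)
    exact (isCompact_closedBall x 64).measure_lt_top.ne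
  calc ‖ind (meas_far x) (fin_far μ x)‖ = Real.sqrt (‖ind (meas_far x) (fin_far μ x)‖ ^ 2) := by
        rw [Real.sqrt_sq (norm_nonneg _)]
    _ ≤ Real.sqrt V := Real.sqrt_le_sqrt h1

/-- `G θ0` -/
lemma norm_G_th_le (W : WLap B.toGradS n κ) (x : X) : ∀ᵐ z ∂μ, ‖B.G (th x) z‖ ≤ bL μ n x z := by
  filter_upwards [B.toGradS.comp (locLip_hf x) contDiff_thf, W.normSq_G_hf x,
    bL_ae (μ := μ) n x] with z hz h2 h3
  have e : B.G (th x) z = deriv thf (hf x z) • B.G (hf x) z := hz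
  rw [e, norm_smul, h3, Real.norm_eq_abs]
  have h4 : ‖B.G (hf x) z‖ = dist x z := by
    have h5 : ‖B.G (hf x) z‖ ^ 2 = dist x z ^ 2 := h2
    exact (pow_left_inj₀ (norm_nonneg _) dist_nonneg two_ne_zero).1 h5
  rw [h4]
  by_cases h : dist x z ≤ 32
  · rw [deriv_thf_zero (hf_le_S0 h), if_neg (fun h' => absurd h'.1 (not_lt.2 h))]
    simp
  by_cases h' : dist x z ≤ 64
  · rw [if_pos ⟨not_le.1 h, h'⟩]
    refine le_trans ?_ (Cth_le_bC n)
    have := mul_le_mul (abs_deriv_thf_le (hf x z)) h' dist_nonneg Cth_nonneg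
    linarith
  · have h6 : S1 ≤ hf x z := S1_le_hf (not_le.1 h').le
    rw [deriv_thf_right h6, if_neg (fun h' => absurd h'.2 (by assumption))]
    simp

/-! ### the source -/

lemma Spx_ge {A : X → S n} {P : Lp ℝ 2 μ} {ρ : ℝ}
    (h : BW B (uL B.toGradS n κ x ρ) (gL B.toGradS n κ x ρ) A P) (W : WLap B.toGradS n κ)
    (hκ : 0 ≤ κ) (hκ1 : κ ≤ 1) (hρ : 0 < ρ) (hρ1 : ρ ≤ 1) (hκρ : 8 * κ * ρ ^ 2 ≤ 1) :
    ∀ᵐ z ∂μ, -(bL μ n x z) ≤ Spx B x ρ A z := by
  have hq := qL_mem (S := B.toGradS) (n := n) (κ := κ) hρ x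
  have hu : uL B.toGradS n κ x ρ = tL (isT_f0 x) - ρ ^ 2 • qL B.toGradS n κ x ρ := rfl
  filter_upwards [Fx_sq_le h W hκ hκ1 hρ hρ1 hκρ, bL_ae (μ := μ) n x,
    h.Sp_outer (N := Nf n κ x) (isT_f0 x) (isT_Nf n κ x) hq (qL_nonneg W hρ x) hκ hκρ hu rfl,
    G_f0 B.toGradS x, G_Nf B.toGradS n κ x] with z h1 h2 h3 h4 h5
  rw [h2]
  by_cases hd : dist x z ≤ 32
  · rw [if_neg (fun h' => absurd h'.1 (not_lt.2 hd))]
    rw [indicator_of_notMem (by simpa using hd), add_zero] at h1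
    nlinarith [sq_nonneg (Fx B x ρ A z)]
  by_cases hd' : dist x z ≤ 64
  · rw [if_pos ⟨not_le.1 hd, hd'⟩]
    rw [indicator_of_mem (by simpa using hd)] at h1
    have := CE_le_bC n
    nlinarith [sq_nonneg (Fx B x ρ A z)]
  · rw [if_neg (fun h' => hd' h'.2)]
    have hs : S1 ≤ hf x z := S1_le_hf (not_le.1 hd').le
    have e1 : B.G (f0 x) z = 0 := by
      have h4' : B.G (f0 x) z = et x z • B.G (hf x) z := h4
      have e : et x z = 0 := eta_zero hs
      rw [h4', e, zero_smul]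
    have e2 : B.G (Nf n κ x) z = 0 := by
      have h5' : B.G (Nf n κ x) z = deriv (Nfun n κ) (hf x z) • B.G (hf x) z := h5
      rw [h5', deriv_Nfun_right n κ hs, zero_smul]
    have e3 : Nf n κ x z = 0 := Nfun_zero n κ hs
    rw [e1, e2, e3] at h3
    simpa using h3

lemma D_th_ae (x : X) : ∀ᵐ z ∂μ, B.D (tL (isT_th x)) z = B.G (th x) z := B.D_tL (isT_th x)

/-- the input structure -/
def kin {A : X → S n} {P : Lp ℝ 2 μ} {k : ℕ}
    (h : BW B (uk B x k) (gL B.toGradS n κ x (dy k)) A P) (W : WLap B.toGradS n κ)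
    (hκ : 0 ≤ κ) (hκ1 : κ ≤ 1) (hκρ : 8 * κ * dy k ^ 2 ≤ 1) :
    KIn B.toGradS B.dense_V (dy k ^ 2) where
  l := lx B.toGradS n κ x
  l_nonneg := lx_nonneg W x
  k := BW.kL (uk B x k) P (isT_th x)
  k_mem := h.kL_mem (isT_th x)
  k_bdd := by
    obtain ⟨c1, hc1⟩ := h.bdd
    obtain ⟨c2, hc2⟩ := (isT_th x).1.continuous.bounded_above_of_compact_support (isT_th x).2
    refine ⟨c1 ^ 2 + 2 * (cinf + CN n κ) + c2, ?_⟩
    unfold BW.kL
    filter_upwards [Lp.coeFn_sub ((2:ℝ) • P - (2:ℝ) • (uk B x k)) (tL (isT_th x) : Lp ℝ 2 μ),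
      Lp.coeFn_sub ((2:ℝ) • P) ((2:ℝ) • (uk B x k)), Lp.coeFn_smul (2:ℝ) P,
      Lp.coeFn_smul (2:ℝ) (uk B x k), h.P_eq, coe_tL (μ := μ) (isT_th x), hc1,
      abs_uk_le (B := B) x k hκ] with z e1 e2 e3 e4 e5 e6 e7 e8
    rw [e1, Pi.sub_apply, e2, Pi.sub_apply, e3, e4, Pi.smul_apply, Pi.smul_apply, e5, e6,
      smul_eq_mul, smul_eq_mul]
    have h2 := hc2 z
    rw [Real.norm_eq_abs] at h2
    have h3 : ‖B.D (uk B x k) z‖ ^ 2 ≤ c1 ^ 2 := pow_le_pow_left₀ (norm_nonneg _) e7 2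
    have h4 := sq_nonneg ‖B.D (uk B x k) z‖
    have h5 := abs_le.1 e8
    have h6 := abs_le.1 h2
    rw [abs_le]
    constructor <;> linarith [h5.1, h5.2, h6.1, h6.2]
  SS := Spx B x (dy k) A
  SS_int := h.int_Sp (isT_Nf n κ x) rfl (integrable_qk W hκ k)
  b := bL μ n x
  e0 := 0
  E1 := -(dy k ^ 2) • B.D (tL (isT_th x))
  e0_le := by
    filter_upwards [Lp.coeFn_zero ℝ 2 μ, bL_nonneg (μ := μ) n x] with z h1 h2
    rw [h1]
    simpa using h2
  E1_le := by
    have hρ := dy_pos k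
    have hρ1 := dy_le_one k
    filter_upwards [Lp.coeFn_smul (-(dy k ^ 2)) (B.D (tL (isT_th x))), norm_G_th_le W x,
      D_th_ae (B := B) x] with z h1 h2 h3
    rw [h1, Pi.smul_apply, norm_smul, h3, norm_neg, Real.norm_of_nonneg (by positivity)]
    have h4 : dy k ^ 2 ≤ 1 := pow_le_one₀ hρ.le hρ1
    calc dy k ^ 2 * ‖B.G (th x) z‖ ≤ 1 * ‖B.G (th x) z‖ := by gcongr
      _ ≤ bL μ n x z := by rw [one_mul]; exact h2
  b_bdd := ⟨bC n, bL_le n x⟩
  SS_ge := Spx_ge h W hκ hκ1 (dy_pos k) (dy_le_one k) hκρ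
  keq := by
    intro p hp hpb
    have h1 := h.keq (isT_f0 x) (isT_Nf n κ x) (isT_th x) (qL_mem (dy_pos k) x) rfl rfl
      (th_eq W x) hp hpb
    have h2 : (⟪B.D (tL (isT_th x)), B.D p⟫ : ℝ) = ∫ z, ⟪B.G (th x) z, B.D p z⟫ ∂μ := by
      rw [L2.inner_def]
      refine integral_congr_ae ?_
      filter_upwards [D_th_ae (B := B) x] with z hz
      rw [hz]
    rw [inner_zero_left, zero_add, real_inner_smul_left, h2, neg_mul]
    refine h1.trans ?_
    show _ = -(dy k ^ 2 * ∫ z, ⟪B.G (th x) z, B.D p z⟫ ∂μ) + dy k ^ 2 *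
      ∫ z, (4 * (qk B x k) z - Spx B x (dy k) A z) * p z ∂μ
    ring

section Kin

variable {A : X → S n} {P : Lp ℝ 2 μ} {k : ℕ}
  (h : BW B (uk B x k) (gL B.toGradS n κ x (dy k)) A P) (W : WLap B.toGradS n κ)
  (hκ : 0 ≤ κ) (hκ1 : κ ≤ 1) (hκρ : 8 * κ * dy k ^ 2 ≤ 1)

lemma kin_q : (kin h W hκ hκ1 hκρ).q = qk B x k := rfl

lemma kin_k : (kin h W hκ hκ1 hκρ).k = BW.kL (uk B x k) P (isT_th x) := rfl

lemma kin_b : (kin h W hκ hκ1 hκρ).b = bL μ n x := rfl

lemma kin_SS : (kin h W hκ hκ1 hκρ).SS = Spx B x (dy k) A := rfl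

include h

/-- `k = kf` near `x` -/
lemma kL_eq_kf : ∀ᵐ z ∂μ, dist x z ≤ 32 → BW.kL (uk B x k) P (isT_th x) z = kf B x k z := by
  unfold BW.kL
  filter_upwards [Lp.coeFn_sub ((2:ℝ) • P - (2:ℝ) • (uk B x k)) (tL (isT_th x) : Lp ℝ 2 μ),
    Lp.coeFn_sub ((2:ℝ) • P) ((2:ℝ) • (uk B x k)), Lp.coeFn_smul (2:ℝ) P,
    Lp.coeFn_smul (2:ℝ) (uk B x k), h.P_eq, coe_tL (μ := μ) (isT_th x)]
    with z e1 e2 e3 e4 e5 e6 hz
  rw [e1, Pi.sub_apply, e2, Pi.sub_apply, e3, e4, Pi.smul_apply, Pi.smul_apply, e5, e6,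
    smul_eq_mul, smul_eq_mul, th_eq_ball hz]
  unfold kf
  ring

/-- `|D k| = nf` near `x` -/
lemma norm_D_kL : ∀ᵐ z ∂μ, dist x z ≤ 32 →
    ‖B.D (BW.kL (uk B x k) P (isT_th x)) z‖ = 2 * ‖mv (A z - idm n) (B.D (uk B x k) z)‖ := by
  filter_upwards [h.D_kL_ae (isT_th x), G_th (S := B.toGradS) x] with z h1 h2 hz
  have h3 : B.G (th x) z = 0 := h2 hz
  have h4 : mv (A z - idm n) (B.D (uk B x k) z) = mv (A z) (B.D (uk B x k) z) -
      B.D (uk B x k) z := by
    rw [mv_sub_left, mv_idm']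
  rw [h1, h3, sub_zero, norm_smul, Real.norm_of_nonneg (by norm_num), h4]

end Kin

end Obj

end Crest.Agent.R247.Kt622
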