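import Crest.Agent.R247.Far0_553

/-!
# (1-L), part 1: the law of `w` through the end point `v` of the prolonged ray (r4 of docs 1392)

`Nu C x lam W` is the (unnormalised) law of `v`, where `w = T x lam v ∈ W`, `lam = 1/(1+θ)`.
Averages over `W` are replaced by averages over `Nu`, so that the ray from `x` to `w` always
survives up to `v` and only preimages of null sets occur.
-/

set_option autoImplicit false
set_option linter.unusedSectionVars false
open MeasureTheory Set Filter Topology Metric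
open scoped ENNReal NNReal

noncomputable section
namespace Crest.Agent.R247.Law508

open Crest.Agent.R247.Mcp688 Crest.Agent.R247.Far553

variable {n : ℕ} {κ : ℝ} {X : Type*} [MetricSpace X] [MeasurableSpace X] [BorelSpace X]
  {μ : Measure X}

lemma measurableSet_ann (x : X) (a b : ℝ) : MeasurableSet (ann x a b) := by
  have hd : Measurable (fun z : X => dist x z) := (continuous_const.dist continuous_id).measurable
  exact (measurableSet_le measurable_const hd).inter (measurableSet_le hd measurable_const)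

/-- (unnormalised) law of the end point `v` of the prolonged ray, `w = T x lam v ∈ W` -/
def Nu (C : Rad n κ X μ) (x : X) (lam : ℝ) (W : Set X) : Measure X :=
  ENNReal.ofReal (lam ^ n) • (wm μ κ x).restrict (C.T x lam ⁻¹' W)

variable (C : Rad n κ X μ)

lemma Nu_le_wm (x : X) {lam : ℝ} (hl : lam ∈ Ioc (0 : ℝ) 1) (W : Set X) :
    Nu C x lam W ≤ wm μ κ x := by
  refine Measure.le_iff.2 fun s _ => ?_
  rw [Nu, Measure.smul_apply, smul_eq_mul]
  calc ENNReal.ofReal (lam ^ n) * (wm μ κ x).restrict (C.T x lam ⁻¹' W) s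
      ≤ 1 * wm μ κ x s := by
        gcongr
        · exact ENNReal.ofReal_le_one.2 (pow_le_one₀ hl.1.le hl.2)
        · exact Measure.restrict_le_self
    _ = _ := one_mul _

lemma Nu_le (hκ : 0 ≤ κ) (x : X) {lam : ℝ} (hl : lam ∈ Ioc (0 : ℝ) 1) (W : Set X) :
    Nu C x lam W ≤ μ := (Nu_le_wm C x hl W).trans (wm_le μ x hκ)

lemma Nu_ac (x : X) (lam : ℝ) (W : Set X) : Nu C x lam W ≪ μ := by
  refine (Measure.smul_absolutelyContinuous).trans ?_
  exact Measure.absolutelyContinuous_of_le Measure.restrict_le_self |>.trans (wm_ac μ x κ)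

/-- `Nu`-a.e. properties -/
lemma Nu_ae (x : X) {lam : ℝ} (hl : lam ∈ Ioc (0 : ℝ) 1) {W : Set X} (hW : MeasurableSet W) :
    ∀ᵐ v ∂(Nu C x lam W), (x, v) ∈ C.U ∧ (x, C.T x lam v) ∈ C.U ∧ C.T x lam v ∈ W := by
  have h1 : ∀ᵐ v ∂(Nu C x lam W), (x, v) ∈ C.U := (Nu_ac C x lam W).ae_le (C.ae_U x)
  have h2 : ∀ᵐ v ∂(Nu C x lam W), C.T x lam v ∈ W := by
    apply Measure.ae_smul_measure
    exact ae_restrict_mem (hW.preimage (C.measT_xt x lam))
  filter_upwards [h1, h2] with v h1 h2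
  exact ⟨h1, C.sub x v h1 lam hl, h2⟩

lemma Nu_map_le_wm (x : X) {lam : ℝ} (hl : lam ∈ Ioc (0 : ℝ) 1) {W : Set X}
    (hW : MeasurableSet W) :
    (Nu C x lam W).map (C.T x lam) ≤ (wm μ κ x).restrict W := by
  refine Measure.le_iff.2 fun s hs => ?_
  have hm := C.measT_xt x lam
  rw [Measure.map_apply hm hs, Nu, Measure.smul_apply, smul_eq_mul,
    Measure.restrict_apply (hm hs), Measure.restrict_apply hs, ← preimage_inter]
  exact Rad.ofReal_pow_mul n lam hl.1 _ _ (C.measure_preimage_le x hl (hs.inter hW))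

/-- **law of `w`**: the push-forward of `Nu` is dominated by `μ` on `W` -/
lemma Nu_map_le (hκ : 0 ≤ κ) (x : X) {lam : ℝ} (hl : lam ∈ Ioc (0 : ℝ) 1) {W : Set X}
    (hW : MeasurableSet W) :
    (Nu C x lam W).map (C.T x lam) ≤ μ.restrict W :=
  (Nu_map_le_wm C x hl hW).trans (Measure.restrict_mono le_rfl (wm_le μ x hκ))

/-- transfer of integrals from `w` to `v` -/
lemma lintegral_Nu_le (hκ : 0 ≤ κ) (x : X) {lam : ℝ} (hl : lam ∈ Ioc (0 : ℝ) 1) {W : Set X}
    (hW : MeasurableSet W) {g : X → ℝ≥0∞} (hg : Measurable g) :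
    ∫⁻ v, g (C.T x lam v) ∂(Nu C x lam W) ≤ ∫⁻ w in W, g w ∂μ := by
  rw [← lintegral_map hg (C.measT_xt x lam)]
  exact lintegral_mono' (Nu_map_le C hκ x hl hW) le_rfl

/-- transfer of events from `w` to `v` (no measurability of the event) -/
lemma Nu_preimage_le (hκ : 0 ≤ κ) (x : X) {lam : ℝ} (hl : lam ∈ Ioc (0 : ℝ) 1) {W : Set X}
    (hW : MeasurableSet W) (S : Set X) :
    Nu C x lam W {v | C.T x lam v ∈ S} ≤ μ (S ∩ W) := by
  refine (Measure.le_map_apply (C.measT_xt x lam).aemeasurable S).trans ?_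
  refine (Nu_map_le C hκ x hl hW S).trans ?_
  rw [Measure.restrict_apply' hW]

lemma Nu_univ_le (hκ : 0 ≤ κ) (x : X) {lam : ℝ} (hl : lam ∈ Ioc (0 : ℝ) 1) {W : Set X}
    (hW : MeasurableSet W) : Nu C x lam W univ ≤ μ W := by
  have := Nu_preimage_le C hκ x hl hW univ
  simpa using this

lemma Nu_univ_le_wm (x : X) {lam : ℝ} (hl : lam ∈ Ioc (0 : ℝ) 1) {W : Set X}
    (hW : MeasurableSet W) : Nu C x lam W univ ≤ wm μ κ x W := by
  have h := Nu_map_le_wm C x hl hW univ
  rwa [Measure.map_apply (C.measT_xt x lam) MeasurableSet.univ, preimage_univ,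
    Measure.restrict_apply_univ] at h

/-- transfer from `v` back to `w` for bounded functions: the price is the mass deficit -/
theorem le_lintegral_Nu_wm (hκ : 0 ≤ κ) (x : X) {lam : ℝ} (hl : lam ∈ Ioc (0 : ℝ) 1) {W : Set X}
    (hW : MeasurableSet W) (hWf : μ W ≠ ∞) {f : X → ℝ≥0∞} (hf : Measurable f) {M : ℝ≥0∞}
    (hM : ∀ w ∈ W, f w ≤ M) :
    ∫⁻ w in W, f w ∂(wm μ κ x) ≤
      ∫⁻ v, f (C.T x lam v) ∂(Nu C x lam W) + M * (wm μ κ x W - Nu C x lam W univ) := by
  set σ : Measure X := (wm μ κ x).restrict W with hσ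
  set ν : Measure X := (Nu C x lam W).map (C.T x lam) with hν
  have hle : ν ≤ σ := Nu_map_le_wm C x hl hW
  have hm := C.measT_xt x lam
  have hνu : ν univ = Nu C x lam W univ := by
    rw [hν, Measure.map_apply hm MeasurableSet.univ, preimage_univ]
  have hfin : IsFiniteMeasure ν := by
    constructor
    rw [hνu]
    exact lt_of_le_of_lt (Nu_univ_le C hκ x hl hW) (lt_top_iff_ne_top.2 hWf)
  have hdec : σ - ν + ν = σ := Measure.sub_add_cancel_of_le hle
  have h1 : ∫⁻ w, f w ∂σ = ∫⁻ w, f w ∂(σ - ν) + ∫⁻ w, f w ∂ν := by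
    conv_lhs => rw [← hdec]
    exact lintegral_add_measure _ _ _
  have h2 : ∫⁻ w, f w ∂ν = ∫⁻ v, f (C.T x lam v) ∂(Nu C x lam W) := by
    rw [hν, lintegral_map hf hm]
  have h3 : ∫⁻ w, f w ∂(σ - ν) ≤ M * (wm μ κ x W - Nu C x lam W univ) := by
    have hae : ∀ᵐ w ∂(σ - ν), f w ≤ M := by
      have : ∀ᵐ w ∂σ, f w ≤ M := by
        rw [hσ, ae_restrict_iff' hW]
        exact Eventually.of_forall hM
      exact (Measure.absolutelyContinuous_of_le Measure.sub_le).ae_le this
    calc ∫⁻ w, f w ∂(σ - ν) ≤ ∫⁻ _, M ∂(σ - ν) := lintegral_mono_ae hae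
      _ = M * (σ - ν) univ := by rw [lintegral_const]
      _ = _ := by
          rw [Measure.sub_apply MeasurableSet.univ hle, hνu, hσ, Measure.restrict_apply_univ]
  calc ∫⁻ w in W, f w ∂(wm μ κ x) = ∫⁻ w, f w ∂(σ - ν) + ∫⁻ w, f w ∂ν := h1
    _ ≤ _ := by rw [h2, add_comm]; gcongr

/-- the weighted and the unweighted measure on bounded sets -/
lemma lintegral_le_wm (hκ : 0 ≤ κ) (x : X) {R : ℝ} {W : Set X}
    (hW : MeasurableSet W) (hR : ∀ w ∈ W, dist x w ≤ R) {f : X → ℝ≥0∞} (hf : Measurable f) :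
    ∫⁻ w in W, f w ∂μ ≤ ENNReal.ofReal (Real.exp (κ * R ^ 2 / 2)) *
      ∫⁻ w in W, f w ∂(wm μ κ x) := by
  rw [← lintegral_indicator hW, ← lintegral_indicator hW, lintegral_wm μ x (hf.indicator hW),
    ← lintegral_const_mul' _ _ ENNReal.ofReal_ne_top]
  refine lintegral_mono fun w => ?_
  by_cases hw : w ∈ W
  · rw [indicator_of_mem hw, ← mul_assoc, ← ENNReal.ofReal_mul (Real.exp_pos _).le]
    have h1 : 1 ≤ Real.exp (κ * R ^ 2 / 2) * wt κ (dist x w) := by
      have h2 := wt_anti hκ dist_nonneg (hR w hw)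
      calc (1 : ℝ) = Real.exp (κ * R ^ 2 / 2) * wt κ R := by
            rw [wt, ← Real.exp_add, add_neg_cancel, Real.exp_zero]
        _ ≤ _ := by gcongr
    calc f w = 1 * f w := (one_mul _).symm
      _ ≤ _ := by
          gcongr
          rw [← ENNReal.ofReal_one]
          exact ENNReal.ofReal_le_ofReal h1
  · rw [indicator_of_notMem hw]; exact bot_le

/-- transfer from `v` back to `w`, unweighted -/
theorem le_lintegral_Nu (hκ : 0 ≤ κ) (x : X) {lam : ℝ} (hl : lam ∈ Ioc (0 : ℝ) 1) {W : Set X}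
    (hW : MeasurableSet W) (hWf : μ W ≠ ∞) {R : ℝ} (hR : ∀ w ∈ W, dist x w ≤ R)
    {f : X → ℝ≥0∞} (hf : Measurable f) {M : ℝ≥0∞} (hM : ∀ w ∈ W, f w ≤ M) :
    ∫⁻ w in W, f w ∂μ ≤ ENNReal.ofReal (Real.exp (κ * R ^ 2 / 2)) *
      (∫⁻ v, f (C.T x lam v) ∂(Nu C x lam W) + M * (wm μ κ x W - Nu C x lam W univ)) := by
  refine (lintegral_le_wm hκ x hW hR hf).trans ?_
  gcongr
  exact le_lintegral_Nu_wm C hκ x hl hW hWf hf hM

/-! ### thin annuli -/

include C in
/-- thin half-open annuli -/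
theorem thin_wm (p : X) {a ε : ℝ} (hε : 0 < ε) (ha : 0 < a) :
    wm μ κ p {z | dist p z ∈ Ico a (a + ε)} ≤
      ENNReal.ofReal (2 ^ (n + 1) * (ε / a)) * wm μ κ p (ball p (a + ε)) := by
  have hae : 0 < a + ε := by linarith
  set r : ℝ := a / (a + ε) with hr
  have hr0 : 0 < r := by positivity
  have hr1 : r ≤ 1 := by rw [hr, div_le_one hae]; linarith
  -- the scaled annuli
  set u : ℕ → ℝ := fun k => r ^ k * (a + ε) with hu
  have hanti : Antitone u := by
    intro i j hij
    simp only [hu]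
    have := pow_le_pow_of_le_one hr0.le hr1 hij
    gcongr
  set B : ℕ → Set X := fun k => {z | dist p z ∈ Ico (u (k + 1)) (u k)} with hB
  have hBm : ∀ k, MeasurableSet (B k) := fun k =>
    (continuous_const.dist continuous_id).measurable measurableSet_Ico
  have hdisj : Pairwise (Function.onFun Disjoint B) := by
    intro i j hij
    have h1 := hanti.pairwise_disjoint_on_Ico_succ hij
    simp only [Function.onFun, Order.succ_eq_add_one] at h1 ⊢
    rw [Set.disjoint_left] at h1 ⊢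
    exact fun z hz hz' => h1 hz hz'
  -- the number of annuli
  set N : ℕ := ⌊a / (2 * ε)⌋₊ + 1 with hN
  have hNge : a / (2 * ε) ≤ N := by
    rw [hN]; push_cast; exact (Nat.lt_floor_add_one _).le
  have hrk : ∀ k < N, 1 / 2 ≤ r ^ k := by
    intro k hk
    have hk' : (k : ℝ) ≤ a / (2 * ε) := by
      have : k ≤ ⌊a / (2 * ε)⌋₊ := by omega
      exact (Nat.le_floor_iff (by positivity)).1 this
    have h1 : 1 + (k : ℝ) * (r - 1) ≤ r ^ k := by
      have := one_add_mul_le_pow (a := r - 1) (by linarith) k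
      simpa using this
    have h2 : (1 : ℝ) - r = ε / (a + ε) := by rw [hr]; field_simp; ring
    have h3 : (k : ℝ) * (1 - r) ≤ 1 / 2 := by
      rw [h2]
      calc (k : ℝ) * (ε / (a + ε)) ≤ a / (2 * ε) * (ε / (a + ε)) := by gcongr
        _ = a / (2 * (a + ε)) := by field_simp
        _ ≤ 1 / 2 := by rw [div_le_div_iff₀ (by positivity) (by norm_num)]; linarith
    nlinarith
  have hstep : ∀ k < N, wm μ κ p {z | dist p z ∈ Ico a (a + ε)} ≤
      ENNReal.ofReal (2 ^ n) * wm μ κ p (B k) := by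
    intro k hk
    have hk1 := hrk k hk
    have hpos : 0 < r ^ k := by positivity
    have h1 := C.annulus_le p (t := r ^ k) (a := a) (b := a + ε)
      ⟨hpos, pow_le_one₀ hr0.le hr1⟩
    have h2 : r ^ k * a = u (k + 1) := by
      simp only [hu, hr]; rw [pow_succ]; field_simp
    rw [h2] at h1
    refine h1.trans (mul_le_mul_left (ENNReal.ofReal_le_ofReal ?_) _)
    have : (r ^ k)⁻¹ ≤ 2 := by
      rw [inv_le_comm₀ hpos (by norm_num)]; linarith
    gcongr
  have hsum : (N : ℝ≥0∞) * wm μ κ p {z | dist p z ∈ Ico a (a + ε)} ≤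
      ENNReal.ofReal (2 ^ n) * wm μ κ p (ball p (a + ε)) := by
    calc (N : ℝ≥0∞) * wm μ κ p {z | dist p z ∈ Ico a (a + ε)}
        = ∑ _k ∈ Finset.range N, wm μ κ p {z | dist p z ∈ Ico a (a + ε)} := by simp
      _ ≤ ∑ k ∈ Finset.range N, ENNReal.ofReal (2 ^ n) * wm μ κ p (B k) :=
          Finset.sum_le_sum fun k hk => hstep k (Finset.mem_range.1 hk)
      _ = ENNReal.ofReal (2 ^ n) * wm μ κ p (⋃ k ∈ Finset.range N, B k) := by
          rw [← Finset.mul_sum, measure_biUnion_finset (fun i _ j _ hij => hdisj hij)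
            (fun k _ => hBm k)]
      _ ≤ _ := by
          gcongr
          intro z hz
          simp only [mem_iUnion, Finset.mem_range, exists_prop] at hz
          obtain ⟨k, hk, hz⟩ := hz
          rw [mem_ball, dist_comm]
          refine lt_of_lt_of_le hz.2 ?_
          simp only [hu]
          calc r ^ k * (a + ε) ≤ 1 * (a + ε) := by
                gcongr; exact pow_le_one₀ hr0.le hr1
            _ = _ := one_mul _
  have hNpos : (0 : ℝ) < N := by rw [hN]; positivity
  have hkey : wm μ κ p {z | dist p z ∈ Ico a (a + ε)} ≤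
      ENNReal.ofReal ((N : ℝ)⁻¹) * (ENNReal.ofReal (2 ^ n) * wm μ κ p (ball p (a + ε))) := by
    calc wm μ κ p {z | dist p z ∈ Ico a (a + ε)}
        = ENNReal.ofReal ((N : ℝ)⁻¹) * ((N : ℝ≥0∞) * wm μ κ p {z | dist p z ∈ Ico a (a + ε)}) := by
          rw [← mul_assoc, ← ENNReal.ofReal_natCast N, ← ENNReal.ofReal_mul (by positivity),
            inv_mul_cancel₀ hNpos.ne', ENNReal.ofReal_one, one_mul]
      _ ≤ _ := by gcongr
  refine hkey.trans ?_
  rw [← mul_assoc, ← ENNReal.ofReal_mul (by positivity)]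
  refine mul_le_mul_left (ENNReal.ofReal_le_ofReal ?_) _
  have h5 : (N : ℝ)⁻¹ ≤ 2 * (ε / a) := by
    rw [inv_le_comm₀ hNpos (by positivity)]
    calc (2 * (ε / a))⁻¹ = a / (2 * ε) := by field_simp
      _ ≤ N := hNge
  calc (N : ℝ)⁻¹ * 2 ^ n ≤ 2 * (ε / a) * 2 ^ n := by gcongr
    _ = _ := by ring

include C in
/-- thin half-open annuli, unweighted -/
theorem thin (hκ : 0 ≤ κ) (p : X) {a ε : ℝ} (hε : 0 < ε) (ha : 0 < a) :
    μ {z | dist p z ∈ Ico a (a + ε)} ≤
      ENNReal.ofReal (Real.exp (κ * (a + ε) ^ 2 / 2) * (2 ^ (n + 1) * (ε / a))) *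
        μ (ball p (a + ε)) := by
  have hms : MeasurableSet {z : X | dist p z ∈ Ico a (a + ε)} :=
    (continuous_const.dist continuous_id).measurable measurableSet_Ico
  have h1 := le_wm μ p hκ hms (R := a + ε) (fun z hz => hz.2.le)
  have h2 := thin_wm C p hε ha
  have h3 : wm μ κ p (ball p (a + ε)) ≤ μ (ball p (a + ε)) := wm_le μ p hκ _
  calc μ {z | dist p z ∈ Ico a (a + ε)}
      = ENNReal.ofReal (Real.exp (κ * (a + ε) ^ 2 / 2)) *
          (ENNReal.ofReal (wt κ (a + ε)) * μ {z | dist p z ∈ Ico a (a + ε)}) := by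
        rw [← mul_assoc, ← ENNReal.ofReal_mul (Real.exp_pos _).le, wt, ← Real.exp_add,
          add_neg_cancel, Real.exp_zero, ENNReal.ofReal_one, one_mul]
    _ ≤ ENNReal.ofReal (Real.exp (κ * (a + ε) ^ 2 / 2)) *
          (ENNReal.ofReal (2 ^ (n + 1) * (ε / a)) * μ (ball p (a + ε))) := by
        refine mul_le_mul_right (h1.trans (h2.trans ?_)) _
        exact mul_le_mul_right h3 _
    _ = _ := by rw [← mul_assoc, ← ENNReal.ofReal_mul (Real.exp_pos _).le]

/-! ### the mass deficit for `W = {4 ≤ d_p ≤ 8}` -/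

/-- the constant of `deficit` -/
def Cdef (n : ℕ) (κ : ℝ) : ℝ := n + 2 ^ (n + 5) * Real.exp (κ * 81 / 2)

lemma Cdef_pos (n : ℕ) (κ : ℝ) : 0 < Cdef n κ := by
  unfold Cdef
  have := Real.exp_pos (κ * 81 / 2)
  positivity

/-- the closed annulus about `p` loses only `O(θ)` of its mass when the rays from `x` to its points
are asked to survive up to `(1+θ)` times their length -/
theorem deficit (hκ : 0 ≤ κ) (x p : X) (hpx : dist p x ≤ 1) {θ : ℝ} (h0 : 0 < θ)
    (h1 : θ ≤ 1 / 20) :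
    wm μ κ x (ann p 4 8) ≤ Nu C x (1 / (1 + θ)) (ann p 4 8) univ +
      ENNReal.ofReal (Cdef n κ * θ) * μ (ball p 9) := by
  set lam : ℝ := 1 / (1 + θ) with hlam
  have hl0 : 0 < lam := by positivity
  have hl1 : lam ≤ 1 := by rw [hlam, div_le_one (by positivity)]; linarith
  have hl2 : 1 - lam ≤ θ := by
    rw [hlam]
    have : 1 - 1 / (1 + θ) = θ / (1 + θ) := by field_simp; ring
    rw [this, div_le_iff₀ (by positivity)]
    nlinarith
  have hWm := measurableSet_ann p 4 8
  set W' : Set X := ann p (4 + 9 * θ) (8 - 9 * θ) with hW'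
  -- `W'` is mapped into `W`
  have hmap : wm μ κ x W' ≤ wm μ κ x (C.T x lam ⁻¹' (ann p 4 8)) := by
    apply measure_mono_ae
    filter_upwards [C.ae_U' x] with v hv hvW
    have hvx : dist x v ≤ 9 := by
      have h3 := dist_triangle x p v
      have h4 := hvW.2
      rw [dist_comm x p] at h3
      linarith
    have hd : dist (C.T x lam v) v ≤ 9 * θ := by
      rw [C.dist_right hv ⟨hl0.le, hl1⟩]
      calc (1 - lam) * dist x v ≤ θ * 9 := by
            apply mul_le_mul hl2 hvx dist_nonneg h0.le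
        _ = _ := by ring
    have ht1 := dist_triangle p (C.T x lam v) v
    have ht2 := dist_triangle_right p (C.T x lam v) v
    have hv1 := hvW.1
    have hv2 := hvW.2
    exact ⟨by linarith, by linarith⟩
  have hpow : 1 - lam ^ n ≤ n * θ := by
    have h3 := one_add_mul_le_pow (a := lam - 1) (by linarith) n
    have h4 : 1 + (lam - 1) = lam := by ring
    rw [h4] at h3
    have : (n : ℝ) * (1 - lam) ≤ n * θ := by gcongr
    linarith
  have hlp : lam ^ n ≤ 1 := pow_le_one₀ hl0.le hl1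
  have hsub9 : W' ⊆ ball p 9 := by
    intro z hz
    rw [mem_ball, dist_comm]
    have := hz.2
    linarith
  -- mass of `W'`
  have hA : wm μ κ x W' ≤ Nu C x lam (ann p 4 8) univ +
      ENNReal.ofReal (n * θ) * μ (ball p 9) := by
    calc wm μ κ x W' = ENNReal.ofReal (lam ^ n + (1 - lam ^ n)) * wm μ κ x W' := by
          rw [add_sub_cancel, ENNReal.ofReal_one, one_mul]
      _ = ENNReal.ofReal (lam ^ n) * wm μ κ x W' +
            ENNReal.ofReal (1 - lam ^ n) * wm μ κ x W' := by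
          rw [ENNReal.ofReal_add (by positivity) (by linarith), add_mul]
      _ ≤ ENNReal.ofReal (lam ^ n) * wm μ κ x (C.T x lam ⁻¹' (ann p 4 8)) +
            ENNReal.ofReal (n * θ) * μ (ball p 9) := by
          refine add_le_add (mul_le_mul_right hmap _) ?_
          exact mul_le_mul' (ENNReal.ofReal_le_ofReal hpow)
            ((wm_le μ x hκ _).trans (measure_mono hsub9))
      _ = _ := by
          rw [Nu, Measure.smul_apply, smul_eq_mul, Measure.restrict_apply_univ]
  -- thin annuli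
  have hcov : ann p 4 8 ⊆ W' ∪ ({z | dist p z ∈ Ico (4 : ℝ) (4 + 18 * θ)} ∪
      {z | dist p z ∈ Ico (8 - 9 * θ) (8 - 9 * θ + 18 * θ)}) := by
    intro z hz
    have hz1 := hz.1
    have hz2 := hz.2
    rcases lt_or_ge (dist p z) (4 + 9 * θ) with h | h
    · right; left
      exact ⟨hz1, by linarith⟩
    · rcases le_or_gt (dist p z) (8 - 9 * θ) with h' | h'
      · left; exact ⟨h, h'⟩
      · right; right
        exact ⟨h'.le, by linarith⟩
  have hexp : ∀ s : ℝ, 0 ≤ s → s ≤ 9 → Real.exp (κ * s ^ 2 / 2) ≤ Real.exp (κ * 81 / 2) := by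
    intro s hs hs9
    apply Real.exp_le_exp.2
    have : s ^ 2 ≤ 81 := by nlinarith
    nlinarith
  have hT : ∀ a : ℝ, 4 ≤ a → a + 18 * θ ≤ 9 → μ {z | dist p z ∈ Ico a (a + 18 * θ)} ≤
      ENNReal.ofReal (2 ^ (n + 4) * Real.exp (κ * 81 / 2) * θ) * μ (ball p 9) := by
    intro a ha ha9
    refine (thin C hκ p (a := a) (ε := 18 * θ) (by linarith) (by linarith)).trans ?_
    refine mul_le_mul' (ENNReal.ofReal_le_ofReal ?_) (measure_mono (ball_subset_ball ha9))
    have h5 := hexp (a + 18 * θ) (by linarith) ha9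
    have h6 : 18 * θ / a ≤ 18 * θ / 4 := by gcongr
    have h7 := Real.exp_pos (κ * 81 / 2)
    calc Real.exp (κ * (a + 18 * θ) ^ 2 / 2) * (2 ^ (n + 1) * (18 * θ / a))
        ≤ Real.exp (κ * 81 / 2) * (2 ^ (n + 1) * (18 * θ / 4)) := by gcongr
      _ = (18 / 4) * (2 ^ (n + 1) * Real.exp (κ * 81 / 2) * θ) := by ring
      _ ≤ 8 * (2 ^ (n + 1) * Real.exp (κ * 81 / 2) * θ) := by
          gcongr; norm_num
      _ = _ := by ring
  calc wm μ κ x (ann p 4 8)
      ≤ wm μ κ x W' + (μ {z | dist p z ∈ Ico (4 : ℝ) (4 + 18 * θ)} +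
          μ {z | dist p z ∈ Ico (8 - 9 * θ) (8 - 9 * θ + 18 * θ)}) := by
        refine (measure_mono hcov).trans ((measure_union_le _ _).trans ?_)
        gcongr
        exact (wm_le μ x hκ _).trans (measure_union_le _ _)
    _ ≤ (Nu C x lam (ann p 4 8) univ + ENNReal.ofReal (n * θ) * μ (ball p 9)) +
          (ENNReal.ofReal (2 ^ (n + 4) * Real.exp (κ * 81 / 2) * θ) * μ (ball p 9) +
            ENNReal.ofReal (2 ^ (n + 4) * Real.exp (κ * 81 / 2) * θ) * μ (ball p 9)) := by
        gcongr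
        · exact hT 4 le_rfl (by linarith)
        · exact hT (8 - 9 * θ) (by linarith) (by linarith)
    _ = _ := by
        rw [add_assoc, ← add_mul, ← ENNReal.ofReal_add (by positivity) (by positivity),
          ← add_mul, ← ENNReal.ofReal_add (by positivity) (by positivity)]
        congr 3
        unfold Cdef
        ring

/-- **(r4)** the average over `W = {4 ≤ d_p ≤ 8}` of a bounded function is controlled by the
average over the end points `v` of the prolonged rays, up to an error `O(θ)`. -/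
theorem avg_le (hκ : 0 ≤ κ) (x p : X) (hpx : dist p x ≤ 1) {θ : ℝ} (h0 : 0 < θ)
    (h1 : θ ≤ 1 / 20) (hfin : μ (ball p 9) ≠ ∞) {f : X → ℝ≥0∞} (hf : Measurable f) {M : ℝ≥0∞}
    (hM : ∀ w ∈ ann p 4 8, f w ≤ M) :
    ∫⁻ w in ann p 4 8, f w ∂μ ≤ ENNReal.ofReal (Real.exp (κ * 81 / 2)) *
      (∫⁻ v, f (C.T x (1 / (1 + θ)) v) ∂(Nu C x (1 / (1 + θ)) (ann p 4 8)) +
        M * (ENNReal.ofReal (Cdef n κ * θ) * μ (ball p 9))) := by
  have hl : 1 / (1 + θ) ∈ Ioc (0 : ℝ) 1 :=
    ⟨by positivity, by rw [div_le_one (by positivity)]; linarith⟩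
  have hsub : ann p 4 8 ⊆ ball p 9 := by
    intro z hz
    rw [mem_ball, dist_comm]
    have := hz.2
    linarith
  have hWf : μ (ann p 4 8) ≠ ∞ := ne_top_of_le_ne_top hfin (measure_mono hsub)
  have h := le_lintegral_Nu C hκ x hl (measurableSet_ann p 4 8) hWf (R := 9) (fun w hw => by
    have h3 := dist_triangle x p w
    have h4 := hw.2
    rw [dist_comm x p] at h3
    linarith) hf hM
  refine h.trans ?_
  have h81 : κ * 9 ^ 2 / 2 = κ * 81 / 2 := by norm_num
  rw [h81]
  gcongr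
  rw [tsub_le_iff_left]
  exact deficit C hκ x p hpx h0 h1

end Crest.Agent.R247.Law508
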