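import Crest.Agent.R247.Law1_508

/-!
# (1-L), part 2: laws of the points of the rays (arclength parameter), first block, measurability
-/

set_option autoImplicit false
set_option linter.unusedSectionVars false
open MeasureTheory Set Filter Topology Metric
open scoped ENNReal NNReal

noncomputable section
namespace Crest.Agent.R247.Law508

open Crest.Agent.R247.Mcp688 Crest.Agent.R247.Far553

/-! ### change of variables on one ray -/

/-- arclength versus fraction -/
lemma arc_frac {f : ℝ → ℝ≥0∞} (hf : Measurable f) {d : ℝ} (hd : 0 < d) (a b : ℝ) :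
    ∫⁻ τ in Icc a b, f (τ / d) = ENNReal.ofReal d * ∫⁻ s in Icc (a / d) (b / d), f s := by
  have hG : Measurable ((Icc (a / d) (b / d)).indicator f) := hf.indicator measurableSet_Icc
  have h1 : ∫⁻ τ in Icc a b, f (τ / d) = ∫⁻ τ, (Icc (a / d) (b / d)).indicator f (d⁻¹ * τ) := by
    rw [← lintegral_indicator measurableSet_Icc]
    refine lintegral_congr fun τ => ?_
    have hiff : τ ∈ Icc a b ↔ d⁻¹ * τ ∈ Icc (a / d) (b / d) := by
      rw [mem_Icc, mem_Icc, ← div_eq_inv_mul, div_le_div_iff_of_pos_right hd,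
        div_le_div_iff_of_pos_right hd]
    by_cases hτ : τ ∈ Icc a b
    · rw [indicator_of_mem hτ, indicator_of_mem (hiff.1 hτ), div_eq_inv_mul]
    · rw [indicator_of_notMem hτ, indicator_of_notMem (fun h => hτ (hiff.2 h))]
  rw [h1, ← lintegral_map hG (measurable_const_mul _),
    Real.map_volume_mul_left (inv_ne_zero hd.ne'), lintegral_smul_measure, inv_inv,
    abs_of_pos hd, lintegral_indicator measurableSet_Icc, smul_eq_mul]

/-- arclength versus fraction, `dτ/τ` -/
lemma arc_frac_inv {f : ℝ → ℝ≥0∞} (hf : Measurable f) {d : ℝ} (hd : 0 < d) (a b : ℝ) :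
    ∫⁻ τ in Icc a b, f (τ / d) * ENNReal.ofReal τ⁻¹ =
      ∫⁻ s in Icc (a / d) (b / d), f s * ENNReal.ofReal s⁻¹ := by
  have hg : Measurable fun s : ℝ => f s * ENNReal.ofReal (s * d)⁻¹ :=
    hf.mul (by fun_prop)
  have h1 := arc_frac hg hd a b
  have h2 : ∀ τ : ℝ, τ / d * d = τ := fun τ => by field_simp
  simp only [h2] at h1
  rw [h1, ← lintegral_const_mul' _ _ ENNReal.ofReal_ne_top]
  refine lintegral_congr fun s => ?_
  have h3 : ENNReal.ofReal s⁻¹ = ENNReal.ofReal d * ENNReal.ofReal (s * d)⁻¹ := by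
    rw [← ENNReal.ofReal_mul hd.le]
    congr 1
    rw [mul_inv]
    field_simp
  rw [h3]
  ring

variable {n : ℕ} {κ : ℝ} {X : Type*} [MetricSpace X] [MeasurableSpace X] [BorelSpace X]
  {μ : Measure X} (C : Rad n κ X μ)

lemma measurable_ray_r (x v : X) : Measurable (fun r : ℝ => ray C x v r) := by
  unfold ray
  exact (C.measT_x x).comp ((measurable_id.div_const _).prodMk measurable_const)

lemma measurable_ray (x : X) : Measurable (fun p : X × ℝ => ray C x p.1 p.2) := by
  unfold ray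
  have hd : Measurable (fun p : X × ℝ => dist x p.1) :=
    (continuous_const.dist continuous_fst).measurable
  exact (C.measT_x x).comp ((measurable_snd.div hd).prodMk measurable_fst)

lemma ray_mem_ann {z w : X} (hU : (z, w) ∈ C.U) {r : ℝ} (h0 : 0 ≤ r) (hr : r ≤ dist z w)
    (hd : 0 < dist z w) : dist z (ray C z w r) = r := by
  rw [ray, C.dist_left hU ⟨by positivity, (div_le_one hd).2 hr⟩]
  field_simp

/-- **law of `σ_{zw}(τ)`**, `w ∈ W`, `τ` in `[a,b]` (measure `dτ`) -/
theorem law_arc' [SFinite μ] (hκ : 0 ≤ κ) (z : X) {W : Set X} (hW : MeasurableSet W)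
    {a b r₀ R : ℝ} (ha : 0 < a) (hab : a ≤ b) (hb : b ≤ r₀)
    (hr : ∀ w ∈ W, r₀ ≤ dist z w) (hR : ∀ w ∈ W, dist z w ≤ R)
    {g : X → ℝ≥0∞} (hg : Measurable g) :
    ∫⁻ w in W, ∫⁻ τ in Icc a b, g (ray C z w τ) ∂volume ∂μ ≤
      ENNReal.ofReal (Real.exp (κ * R ^ 2 / 2) * (R / a) ^ n * (R * (b / r₀))) *
        ∫⁻ y in ann z a b, g y ∂μ := by
  rcases W.eq_empty_or_nonempty with rfl | ⟨w₀, hw₀⟩
  · simp
  have hr0 : 0 < r₀ := by linarith
  have hR0 : r₀ ≤ R := (hr w₀ hw₀).trans (hR w₀ hw₀)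
  have hRp : 0 < R := by linarith
  set G : X → ℝ≥0∞ := (ann z a b).indicator g with hG
  have hGm : Measurable G := hg.indicator (measurableSet_ann z a b)
  have hbr : b / r₀ ≤ 1 := (div_le_one hr0).2 hb
  have h1 : ∀ᵐ w ∂(μ.restrict W), ∫⁻ τ in Icc a b, g (ray C z w τ) ≤
      ENNReal.ofReal R * ∫⁻ s in Icc (a / R) (b / r₀), G (C.T z s w) := by
    rw [ae_restrict_iff' hW]
    filter_upwards [C.ae_U z] with w hU hw
    have hd : 0 < dist z w := by have := hr w hw; linarith
    have hmf : Measurable (fun s : ℝ => g (C.T z s w)) :=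
      hg.comp ((C.measT_x z).comp (measurable_id.prodMk measurable_const))
    calc ∫⁻ τ in Icc a b, g (ray C z w τ)
        = ENNReal.ofReal (dist z w) * ∫⁻ s in Icc (a / dist z w) (b / dist z w),
            g (C.T z s w) := arc_frac hmf hd a b
      _ = ENNReal.ofReal (dist z w) * ∫⁻ s in Icc (a / dist z w) (b / dist z w),
            G (C.T z s w) := by
          congr 1
          refine setLIntegral_congr_fun measurableSet_Icc fun s hs => ?_
          have hs0 : 0 ≤ s := le_trans (by positivity) hs.1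
          have hs1 : s ≤ 1 := hs.2.trans ((div_le_one hd).2 (hb.trans (hr w hw)))
          have hmem : C.T z s w ∈ ann z a b := by
            have h3 := C.dist_left hU ⟨hs0, hs1⟩
            rw [ann, mem_ofPred_eq, h3]
            exact ⟨(div_le_iff₀ hd).1 hs.1, (le_div_iff₀ hd).1 hs.2⟩
          simp only [hG, indicator_of_mem hmem]
      _ ≤ _ := by
          refine mul_le_mul' (ENNReal.ofReal_le_ofReal (hR w hw)) (lintegral_mono_set ?_)
          refine Icc_subset_Icc ?_ ?_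
          · exact div_le_div_of_nonneg_left ha.le hd (hR w hw)
          · exact div_le_div_of_nonneg_left (by linarith) hr0 (hr w hw)
  have h2 := C.ray_lintegral_le hκ z (a := a / R) (b := b / r₀) (R := R) (by positivity) hbr
    hW (W := univ) MeasurableSet.univ (fun w hw => hR w hw) (fun _ _ _ _ _ => mem_univ _) hGm
  have hne : ENNReal.ofReal R ≠ ∞ := ENNReal.ofReal_ne_top
  calc ∫⁻ w in W, ∫⁻ τ in Icc a b, g (ray C z w τ) ∂volume ∂μ
      ≤ ∫⁻ w in W, ENNReal.ofReal R * ∫⁻ s in Icc (a / R) (b / r₀), G (C.T z s w) ∂volume ∂μ :=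
        lintegral_mono_ae h1
    _ = ENNReal.ofReal R * ∫⁻ w in W, ∫⁻ s in Icc (a / R) (b / r₀), G (C.T z s w) ∂volume ∂μ :=
        lintegral_const_mul' _ _ hne
    _ ≤ ENNReal.ofReal R * (ENNReal.ofReal (Real.exp (κ * R ^ 2 / 2) * ((a / R)⁻¹) ^ n *
          (b / r₀ - a / R)) * ∫⁻ y in univ, G y ∂μ) := mul_le_mul_right h2 _
    _ ≤ ENNReal.ofReal (Real.exp (κ * R ^ 2 / 2) * (R / a) ^ n * (R * (b / r₀))) *
        ∫⁻ y in univ, G y ∂μ := by
        rw [← mul_assoc, ← ENNReal.ofReal_mul hRp.le]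
        refine mul_le_mul_left (ENNReal.ofReal_le_ofReal ?_) _
        rw [inv_div]
        have h5 : b / r₀ - a / R ≤ b / r₀ := by
          have : 0 ≤ a / R := by positivity
          linarith
        have h6 : 0 < Real.exp (κ * R ^ 2 / 2) := Real.exp_pos _
        calc R * (Real.exp (κ * R ^ 2 / 2) * (R / a) ^ n * (b / r₀ - a / R))
            ≤ R * (Real.exp (κ * R ^ 2 / 2) * (R / a) ^ n * (b / r₀)) := by gcongr
          _ = _ := by ring
    _ = _ := by rw [Measure.restrict_univ, hG, lintegral_indicator (measurableSet_ann z a b)]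

/-- **law of `σ_{zw}(τ)`**, `w ∈ W`, `τ` in `[a,b]` (measure `dτ/τ`) -/
theorem law_arc [SFinite μ] (hκ : 0 ≤ κ) (z : X) {W : Set X} (hW : MeasurableSet W)
    {a b r₀ R : ℝ} (ha : 0 < a) (hab : a ≤ b) (hb : b ≤ r₀)
    (hr : ∀ w ∈ W, r₀ ≤ dist z w) (hR : ∀ w ∈ W, dist z w ≤ R)
    {g : X → ℝ≥0∞} (hg : Measurable g) :
    ∫⁻ w in W, ∫⁻ τ in Icc a b, g (C.T z (τ / dist z w) w) * ENNReal.ofReal τ⁻¹ ∂volume ∂μ ≤
      ENNReal.ofReal (Real.exp (κ * R ^ 2 / 2) * (R / a) ^ (n + 1) * (b / r₀)) *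
        ∫⁻ y in ann z a b, g y ∂μ := by
  have h1 : ∀ w : X, ∫⁻ τ in Icc a b, g (C.T z (τ / dist z w) w) * ENNReal.ofReal τ⁻¹ ≤
      ENNReal.ofReal a⁻¹ * ∫⁻ τ in Icc a b, g (ray C z w τ) := by
    intro w
    rw [← lintegral_const_mul' _ _ ENNReal.ofReal_ne_top]
    refine setLIntegral_mono' measurableSet_Icc fun τ hτ => ?_
    rw [mul_comm]
    exact mul_le_mul' (ENNReal.ofReal_le_ofReal (inv_anti₀ ha hτ.1)) le_rfl
  calc ∫⁻ w in W, ∫⁻ τ in Icc a b, g (C.T z (τ / dist z w) w) * ENNReal.ofReal τ⁻¹ ∂volume ∂μ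
      ≤ ∫⁻ w in W, ENNReal.ofReal a⁻¹ * ∫⁻ τ in Icc a b, g (ray C z w τ) ∂volume ∂μ :=
        lintegral_mono fun w => h1 w
    _ = ENNReal.ofReal a⁻¹ * ∫⁻ w in W, ∫⁻ τ in Icc a b, g (ray C z w τ) ∂volume ∂μ :=
        lintegral_const_mul' _ _ ENNReal.ofReal_ne_top
    _ ≤ ENNReal.ofReal a⁻¹ * (ENNReal.ofReal (Real.exp (κ * R ^ 2 / 2) * (R / a) ^ n *
          (R * (b / r₀))) * ∫⁻ y in ann z a b, g y ∂μ) :=
        mul_le_mul_right (law_arc' C hκ z hW ha hab hb hr hR hg) _
    _ = _ := by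
        rw [← mul_assoc, ← ENNReal.ofReal_mul (by positivity)]
        congr 2
        rw [pow_succ, div_eq_mul_inv R a, div_eq_mul_inv b r₀]
        ring

/-- **first block**: `w` fixed, `z` uniform in `B(x,t)`, `τ ∈ [0, c t]` -/
theorem law_first [SFinite μ] (hκ : 0 ≤ κ) (w x : X) {t c r₀ R : ℝ} (ht : 0 < t) (hc : 0 < c)
    (hct : 2 * (c * t) ≤ r₀) (hr : ∀ z ∈ ball x t, r₀ ≤ dist z w)
    (hR : ∀ z ∈ ball x t, dist z w ≤ R) {g : X → ℝ≥0∞} (hg : Measurable g) :
    ∫⁻ z in ball x t, ∫⁻ τ in Icc 0 (c * t), g (ray C z w τ) ∂volume ∂μ ≤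
      ENNReal.ofReal (Real.exp (κ * R ^ 2 / 2) * 2 ^ n * (R / r₀) * (c * t)) *
        ∫⁻ y in ball x ((1 + c) * t), g y ∂μ := by
  have hx : x ∈ ball x t := mem_ball_self ht
  have hr0 : 0 < r₀ := by have : 0 < c * t := by positivity
                          linarith
  have hR0 : r₀ ≤ R := (hr x hx).trans (hR x hx)
  have hRp : 0 < R := by linarith
  have hctr : c * t / r₀ ≤ 1 / 2 := by
    rw [div_le_div_iff₀ hr0 (by norm_num)]; linarith
  set W : Set X := ball x ((1 + c) * t) with hW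
  have hWm : MeasurableSet W := isOpen_ball.measurableSet
  set G : X → ℝ≥0∞ := W.indicator g with hG
  have hGm : Measurable G := hg.indicator hWm
  have h1 : ∀ᵐ z ∂(μ.restrict (ball x t)), ∫⁻ τ in Icc 0 (c * t), g (ray C z w τ) ≤
      ENNReal.ofReal R * ∫⁻ s in Icc 0 (c * t / r₀), G (C.T w (1 - s) z) := by
    rw [ae_restrict_iff' isOpen_ball.measurableSet]
    filter_upwards [C.ae_U w] with z hU hz
    have hU' := C.symm _ _ hU
    have hd : 0 < dist z w := by have := hr z hz; linarith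
    have hmf : Measurable (fun s : ℝ => g (C.T z s w)) :=
      hg.comp ((C.measT_x z).comp (measurable_id.prodMk measurable_const))
    calc ∫⁻ τ in Icc 0 (c * t), g (ray C z w τ)
        = ENNReal.ofReal (dist z w) * ∫⁻ s in Icc (0 / dist z w) (c * t / dist z w),
            g (C.T z s w) := arc_frac hmf hd 0 (c * t)
      _ = ENNReal.ofReal (dist z w) * ∫⁻ s in Icc (0 / dist z w) (c * t / dist z w),
            G (C.T w (1 - s) z) := by
          congr 1
          refine setLIntegral_congr_fun measurableSet_Icc fun s hs => ?_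
          have hs0 : 0 ≤ s := by simpa using hs.1
          have hs1 : s * dist z w ≤ c * t := (le_div_iff₀ hd).1 hs.2
          have hs2 : s ≤ 1 / 2 := hs.2.trans
            ((div_le_div_of_nonneg_left (by positivity) hr0 (hr z hz)).trans hctr)
          have heq : C.T w (1 - s) z = C.T z s w := by
            have := C.T_symm z w hU' (1 - s) ⟨by linarith, by linarith⟩
            rw [this, sub_sub_cancel]
          have hmem : C.T z s w ∈ W := by
            have h3 := C.dist_left hU' (t := s) ⟨hs0, by linarith⟩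
            rw [hW, mem_ball]
            have h4 := dist_triangle (C.T z s w) z x
            rw [dist_comm (C.T z s w) z] at h4
            have h5 := mem_ball.1 hz
            nlinarith
          simp only [heq, hG, indicator_of_mem hmem]
      _ ≤ _ := by
          refine mul_le_mul' (ENNReal.ofReal_le_ofReal (hR z hz)) (lintegral_mono_set ?_)
          refine Icc_subset_Icc ?_ ?_
          · simp
          · exact div_le_div_of_nonneg_left (by positivity) hr0 (hr z hz)
  have hmeas : Measurable (fun p : X × ℝ => G (C.T w (1 - p.2) p.1)) :=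
    hGm.comp ((C.measT_x w).comp ((measurable_const.sub measurable_snd).prodMk measurable_fst))
  have h2 : ∫⁻ z in ball x t, ∫⁻ s in Icc 0 (c * t / r₀), G (C.T w (1 - s) z) ∂volume ∂μ ≤
      ENNReal.ofReal (Real.exp (κ * R ^ 2 / 2) * 2 ^ n * (c * t / r₀)) * ∫⁻ y, G y ∂μ := by
    rw [lintegral_lintegral_swap hmeas.aemeasurable]
    calc ∫⁻ s in Icc 0 (c * t / r₀), ∫⁻ z in ball x t, G (C.T w (1 - s) z) ∂μ ∂volume
        ≤ ∫⁻ _s in Icc 0 (c * t / r₀), ENNReal.ofReal (Real.exp (κ * R ^ 2 / 2) * 2 ^ n) *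
            ∫⁻ y, G y ∂μ ∂volume := by
          apply setLIntegral_mono measurable_const
          intro s hs
          have hs1 : s ≤ 1 / 2 := hs.2.trans hctr
          refine (C.setLIntegral_T_le hκ w (t := 1 - s) (D := R)
            ⟨by linarith, by linarith [hs.1]⟩ isOpen_ball.measurableSet MeasurableSet.univ
            (fun z hz => by rw [dist_comm]; exact hR z hz) (fun _ _ _ => mem_univ _) hGm).trans ?_
          rw [Measure.restrict_univ]
          refine mul_le_mul_left (ENNReal.ofReal_le_ofReal ?_) _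
          have h7 : (1 - s)⁻¹ ≤ 2 := by
            rw [inv_le_comm₀ (by linarith) (by norm_num)]; linarith
          have h8 : 0 ≤ (1 - s)⁻¹ := inv_nonneg.2 (by linarith)
          gcongr
      _ = _ := by
          rw [setLIntegral_const, Real.volume_Icc, sub_zero, mul_right_comm,
            ← ENNReal.ofReal_mul (by positivity)]
  calc ∫⁻ z in ball x t, ∫⁻ τ in Icc 0 (c * t), g (ray C z w τ) ∂volume ∂μ
      ≤ ∫⁻ z in ball x t, ENNReal.ofReal R *
          ∫⁻ s in Icc 0 (c * t / r₀), G (C.T w (1 - s) z) ∂volume ∂μ := lintegral_mono_ae h1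
    _ = ENNReal.ofReal R * ∫⁻ z in ball x t, ∫⁻ s in Icc 0 (c * t / r₀),
          G (C.T w (1 - s) z) ∂volume ∂μ := lintegral_const_mul' _ _ ENNReal.ofReal_ne_top
    _ ≤ ENNReal.ofReal R * (ENNReal.ofReal (Real.exp (κ * R ^ 2 / 2) * 2 ^ n * (c * t / r₀)) *
          ∫⁻ y, G y ∂μ) := mul_le_mul_right h2 _
    _ = _ := by
        rw [← mul_assoc, ← ENNReal.ofReal_mul hRp.le, hG, lintegral_indicator hWm]
        congr 2
        field_simp

/-! ### rays prolonged up to `v` -/

/-- the ray to `w = T x lam v` is the ray to `v` -/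
lemma ray_T {x v : X} (hU : (x, v) ∈ C.U) {lam : ℝ} (hl : lam ∈ Ioc (0 : ℝ) 1)
    (hv : 0 < dist x v) {r : ℝ} (h0 : 0 ≤ r) (hr : r ≤ lam * dist x v) :
    ray C x (C.T x lam v) r = ray C x v r := by
  have hd : dist x (C.T x lam v) = lam * dist x v := C.dist_left hU ⟨hl.1.le, hl.2⟩
  have hld : 0 < lam * dist x v := mul_pos hl.1 hv
  rw [ray, ray, hd, C.comp x v hU _ ⟨by positivity, (div_le_one hld).2 hr⟩ lam hl]
  congr 1
  have := hl.1.ne'
  field_simp

/-- a.e. properties of `w` hold for `w = T x lam v`, `Nu`-a.e. `v` -/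
lemma Nu_ae_of_ae (hκ : 0 ≤ κ) (x : X) {lam : ℝ} (hl : lam ∈ Ioc (0 : ℝ) 1) {W : Set X}
    (hW : MeasurableSet W) {p : X → Prop} (hp : ∀ᵐ w ∂μ, p w) :
    ∀ᵐ v ∂(Nu C x lam W), p (C.T x lam v) := by
  have h1 : ∀ᵐ w ∂((Nu C x lam W).map (C.T x lam)), p w :=
    (Measure.absolutelyContinuous_of_le ((Nu_map_le C hκ x hl hW).trans
      Measure.restrict_le_self)).ae_le hp
  exact ae_of_ae_map (C.measT_xt x lam).aemeasurable h1

/-- the same for a.e. properties of pairs `(z,w)` -/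
lemma Nu_ae_of_ae_prod [SFinite μ] (hκ : 0 ≤ κ) (x : X) {lam : ℝ} (hl : lam ∈ Ioc (0 : ℝ) 1)
    {W : Set X} (hW : MeasurableSet W) {p : X × X → Prop} (hp : ∀ᵐ q ∂(μ.prod μ), p q) :
    ∀ᵐ z ∂μ, ∀ᵐ v ∂(Nu C x lam W), p (z, C.T x lam v) := by
  have h1 := Measure.ae_ae_of_ae_prod hp
  filter_upwards [h1] with z hz
  exact Nu_ae_of_ae C hκ x hl hW hz

/-- law of `σ_{zw}(τ)` for `w = T x lam v` (measure `dτ/τ`) -/
theorem law_arc_Nu [SFinite μ] (hκ : 0 ≤ κ) (z x : X) {lam : ℝ} (hl : lam ∈ Ioc (0 : ℝ) 1)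
    {W : Set X} (hW : MeasurableSet W) {a b r₀ R : ℝ} (ha : 0 < a) (hab : a ≤ b) (hb : b ≤ r₀)
    (hr : ∀ w ∈ W, r₀ ≤ dist z w) (hR : ∀ w ∈ W, dist z w ≤ R)
    {g : X → ℝ≥0∞} (hg : Measurable g) :
    ∫⁻ v, (∫⁻ τ in Icc a b, g (C.T z (τ / dist z (C.T x lam v)) (C.T x lam v)) *
        ENNReal.ofReal τ⁻¹) ∂(Nu C x lam W) ≤
      ENNReal.ofReal (Real.exp (κ * R ^ 2 / 2) * (R / a) ^ (n + 1) * (b / r₀)) *
        ∫⁻ y in ann z a b, g y ∂μ := by
  have hm : Measurable (fun w : X => ∫⁻ τ in Icc a b, g (C.T z (τ / dist z w) w) *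
      ENNReal.ofReal τ⁻¹) := by
    apply Measurable.lintegral_prod_right'
      (f := fun p : X × ℝ => g (C.T z (p.2 / dist z p.1) p.1) * ENNReal.ofReal p.2⁻¹)
    exact (hg.comp (measurable_ray C z)).mul (by fun_prop)
  exact (lintegral_Nu_le C hκ x hl hW hm).trans (law_arc C hκ z hW ha hab hb hr hR hg)

/-! ### measurability of the local means and of the bad rays -/

lemma measurable_loc [SecondCountableTopology X] [SFinite μ] (m : ℕ) (K ρ : ℝ) {F : X → ℝ}
    (hF : Measurable F) : Measurable (loc μ m K ρ F) := by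
  unfold loc
  apply Measurable.const_mul
  have h1 : ∀ y : X, ∫⁻ z in ball y (K * ρ), ENNReal.ofReal (F z) ∂μ =
      ∫⁻ z, ({p : X × X | dist p.2 p.1 < K * ρ}.indicator
        (fun p => ENNReal.ofReal (F p.2))) (y, z) ∂μ := by
    intro y
    rw [← lintegral_indicator isOpen_ball.measurableSet]
    refine lintegral_congr fun z => ?_
    by_cases hz : z ∈ ball y (K * ρ)
    · rw [indicator_of_mem hz, indicator_of_mem (show (y, z) ∈ {p : X × X | dist p.2 p.1 < K * ρ}
        from mem_ball.1 hz)]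
    · have hz' : (y, z) ∉ {p : X × X | dist p.2 p.1 < K * ρ} := fun h => hz (mem_ball.2 h)
      rw [indicator_of_notMem hz, indicator_of_notMem hz']
  simp_rw [h1]
  apply Measurable.lintegral_prod_right'
  refine Measurable.indicator (hF.comp measurable_snd).ennreal_ofReal ?_
  exact measurableSet_lt (measurable_snd.dist measurable_fst) measurable_const

lemma measurable_ray_lintegral (x : X) {G : X → ℝ≥0∞} (hG : Measurable G) (a b : ℝ) :
    Measurable (fun v : X => ∫⁻ r in Icc a b, G (ray C x v r)) := by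
  apply Measurable.lintegral_prod_right' (f := fun p : X × ℝ => G (ray C x p.1 p.2))
  exact hG.comp (measurable_ray C x)

lemma measurableSet_bad [SecondCountableTopology X] [SFinite μ] (x : X) {F : ℕ → X → ℝ}
    (hF : ∀ k, Measurable (F k)) (K ε : ℝ) (j : ℕ) :
    MeasurableSet {v | bad C x F K ε j v} := by
  have h1 : {v | bad C x F K ε j v} = ⋃ k, {v | j ≤ k ∧ ENNReal.ofReal (ε * dy j) <
      ∫⁻ r in Icc (dy j) (2 * dy j), loc μ n K (dy k) (F k) (ray C x v r)} := by
    ext v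
    simp only [bad, mem_ofPred_eq, mem_iUnion]
  rw [h1]
  refine MeasurableSet.iUnion fun k => ?_
  by_cases hjk : j ≤ k
  · simp only [hjk, true_and]
    exact measurableSet_lt measurable_const
      (measurable_ray_lintegral C x (measurable_loc n K (dy k) (hF k)) _ _)
  · simp [hjk]

/-- badness only depends on the ray -/
lemma bad_T {x v : X} (hU : (x, v) ∈ C.U) {lam : ℝ} (hl : lam ∈ Ioc (0 : ℝ) 1)
    {F : ℕ → X → ℝ} {K ε : ℝ} {j : ℕ} (hv : 2 * dy j ≤ lam * dist x v) :
    bad C x F K ε j (C.T x lam v) ↔ bad C x F K ε j v := by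
  have hd : 0 < dist x v := by
    have := dy_pos j
    have h2 : 0 < lam * dist x v := by linarith
    exact pos_of_mul_pos_right h2 hl.1.le
  have h1 : ∀ k, ∫⁻ r in Icc (dy j) (2 * dy j), loc μ n K (dy k) (F k) (ray C x (C.T x lam v) r) =
      ∫⁻ r in Icc (dy j) (2 * dy j), loc μ n K (dy k) (F k) (ray C x v r) := by
    intro k
    refine setLIntegral_congr_fun measurableSet_Icc fun r hr => ?_
    have h0 : 0 ≤ r := (dy_pos j).le.trans hr.1
    rw [ray_T C hU hl hd h0 (hr.2.trans hv)]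
  unfold bad
  constructor
  · rintro ⟨k, hk, h⟩
    exact ⟨k, hk, by rwa [← h1 k]⟩
  · rintro ⟨k, hk, h⟩
    exact ⟨k, hk, by rwa [h1 k]⟩

/-- the radial points at a fixed fraction of the rays have bounded density -/
theorem law_frac (hκ : 0 ≤ κ) (z : X) {W : Set X} (hW : MeasurableSet W) {s R : ℝ}
    (hs : s ∈ Ioc (0 : ℝ) 1) (hR : ∀ w ∈ W, dist z w ≤ R) {g : X → ℝ≥0∞} (hg : Measurable g) :
    ∫⁻ w in W, g (C.T z s w) ∂μ ≤
      ENNReal.ofReal (Real.exp (κ * R ^ 2 / 2) * (s⁻¹) ^ n) * ∫⁻ y, g y ∂μ := by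
  have h := C.setLIntegral_T_le hκ z hs hW MeasurableSet.univ hR (fun _ _ _ => mem_univ _) hg
  rwa [Measure.restrict_univ] at h

end Crest.Agent.R247.Law508
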