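/-
R247 (helper582), leaf (c'): the linear ODE behind the pointwise Laplacian comparison.
Along a minimiser `γ` from `p`, `w(s) = n - Δ(d_p²/2)(γ s)` satisfies `(s w)' = q` with
`q = |Hess f - g|² + Ric(∇f, ∇f) ≥ -κ s²`; only boundedness of `w` near `0` is used.
-/
import Mathlib

set_option autoImplicit false

open Set Filter MeasureTheory
open scoped Topology

namespace Crest.Agent.R247.Lc582

/-- `s ↦ s * w s` is continuous at `0` from the right if `w` is bounded near `0`. -/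
theorem tendsto_mul_zero {w : ℝ → ℝ} {δ B : ℝ} (hδ : 0 < δ) (hB : ∀ s ∈ Ioo 0 δ, |w s| ≤ B) :
    Tendsto (fun s => s * w s) (𝓝[>] (0 : ℝ)) (𝓝 0) := by
  have h1 : Tendsto (fun s : ℝ => |s| * B) (𝓝[>] (0 : ℝ)) (𝓝 0) := by
    have h2 : Tendsto (fun s : ℝ => |s| * B) (𝓝 (0 : ℝ)) (𝓝 (|(0 : ℝ)| * B)) :=
      (continuous_abs.mul continuous_const).tendsto 0
    simp only [abs_zero, zero_mul] at h2
    exact h2.mono_left nhdsWithin_le_nhds
  refine squeeze_zero_norm' ?_ h1
  have h3 : ∀ᶠ s : ℝ in 𝓝[>] (0 : ℝ), s ∈ Ioo 0 δ := Ioo_mem_nhdsGT hδ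
  filter_upwards [h3] with s hs
  rw [Real.norm_eq_abs, abs_mul]
  exact mul_le_mul_of_nonneg_left (hB s hs) (abs_nonneg _)

section
variable {w q : ℝ → ℝ} {L κ δ B : ℝ}

theorem continuousOn_aux (hδ : 0 < δ) (hB : ∀ s ∈ Ioo 0 δ, |w s| ≤ B)
    (hc : ContinuousOn w (Ioc 0 L)) : ContinuousOn (fun s => s * w s) (Icc 0 L) := by
  intro s hs
  rcases eq_or_lt_of_le hs.1 with h0 | h0
  · subst h0
    have h1 := tendsto_mul_zero hδ hB
    have h2 : ContinuousWithinAt (fun s => s * w s) (Ioi 0) 0 := by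
      rw [ContinuousWithinAt, zero_mul]; exact h1
    have h3 : ContinuousWithinAt (fun s => s * w s) (insert 0 (Ioi 0)) 0 := by
      rw [continuousWithinAt_insert_self]; exact h2
    refine h3.mono ?_
    intro t ht
    rcases eq_or_lt_of_le ht.1 with h | h
    · exact Or.inl h.symm
    · exact Or.inr h
  · have h1 : ContinuousWithinAt w (Ioc 0 L) s := hc s ⟨h0, hs.2⟩
    have h2 : ContinuousWithinAt w (Icc 0 L) s := by
      refine h1.mono_of_mem_nhdsWithin ?_
      have : Ioi (0 : ℝ) ∩ Icc 0 L ∈ 𝓝[Icc 0 L] s :=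
        inter_mem (mem_nhdsWithin_of_mem_nhds (Ioi_mem_nhds h0)) self_mem_nhdsWithin
      exact mem_of_superset this (fun t ht => ⟨ht.1, ht.2.2⟩)
    exact continuousWithinAt_id.mul h2

/-- the comparison inequality -/
theorem ode_lower (hL : 0 < L) (hδ : 0 < δ) (hB : ∀ s ∈ Ioo 0 δ, |w s| ≤ B)
    (hc : ContinuousOn w (Ioc 0 L))
    (hd : ∀ s ∈ Ioo 0 L, HasDerivAt (fun s => s * w s) (q s) s)
    (hq : ∀ s ∈ Ioo 0 L, -κ * s ^ 2 ≤ q s) : -κ * L ^ 2 / 3 ≤ w L := by
  have hcon := continuousOn_aux (L := L) hδ hB hc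
  have hG : ∀ s ∈ Ioo 0 L, HasDerivAt (fun s => s * w s + κ * s ^ 3 / 3) (q s + κ * s ^ 2) s := by
    intro s hs
    have h1 : HasDerivAt (fun s : ℝ => κ * s ^ 3 / 3) (κ * s ^ 2) s := by
      refine (((hasDerivAt_pow 3 s).const_mul κ).div_const 3).congr_deriv ?_
      push_cast
      ring
    exact (hd s hs).add h1
  have hcG : ContinuousOn (fun s => s * w s + κ * s ^ 3 / 3) (Icc 0 L) := by
    refine hcon.add (Continuous.continuousOn ?_)
    fun_prop
  have hmono : MonotoneOn (fun s => s * w s + κ * s ^ 3 / 3) (Icc 0 L) := by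
    refine monotoneOn_of_deriv_nonneg (convex_Icc 0 L) hcG ?_ ?_
    · intro s hs
      rw [interior_Icc] at hs
      exact (hG s hs).differentiableAt.differentiableWithinAt
    · intro s hs
      rw [interior_Icc] at hs
      rw [(hG s hs).deriv]
      have := hq s hs
      linarith
  have h := hmono (left_mem_Icc.2 hL.le) (right_mem_Icc.2 hL.le) hL.le
  simp only [zero_mul, ne_eq, OfNat.ofNat_ne_zero, not_false_eq_true, zero_pow, mul_zero, zero_div,
    add_zero] at h
  have h2 : 0 ≤ L * (w L + κ * L ^ 2 / 3) := by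
    have : L * (w L + κ * L ^ 2 / 3) = L * w L + κ * L ^ 3 / 3 := by ring
    rw [this]; exact h
  have h3 : 0 ≤ w L + κ * L ^ 2 / 3 := nonneg_of_mul_nonneg_right h2 hL
  linarith

/-- the exact integrated form -/
theorem ode_integral (hL : 0 < L) (hδ : 0 < δ) (hB : ∀ s ∈ Ioo 0 δ, |w s| ≤ B)
    (hc : ContinuousOn w (Ioc 0 L))
    (hd : ∀ s ∈ Ioo 0 L, HasDerivAt (fun s => s * w s) (q s) s)
    (hq : ∀ s ∈ Ioo 0 L, -κ * s ^ 2 ≤ q s) :
    IntervalIntegrable q volume 0 L ∧ ∫ s in (0 : ℝ)..L, q s = L * w L := by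
  have hcon := continuousOn_aux (L := L) hδ hB hc
  have hcG : ContinuousOn (fun s => s * w s + κ * s ^ 3 / 3) (Icc 0 L) := by
    refine hcon.add (Continuous.continuousOn ?_)
    fun_prop
  have hG : ∀ s ∈ Ioo 0 L, HasDerivAt (fun s => s * w s + κ * s ^ 3 / 3) (q s + κ * s ^ 2) s := by
    intro s hs
    have h1 : HasDerivAt (fun s : ℝ => κ * s ^ 3 / 3) (κ * s ^ 2) s := by
      refine (((hasDerivAt_pow 3 s).const_mul κ).div_const 3).congr_deriv ?_
      push_cast
      ring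
    exact (hd s hs).add h1
  have h1 : IntegrableOn (fun s => q s + κ * s ^ 2) (Ioc 0 L) :=
    intervalIntegral.integrableOn_deriv_of_nonneg hcG hG
      (fun s hs => by have := hq s hs; linarith)
  have h2 : IntegrableOn (fun s : ℝ => κ * s ^ 2) (Ioc 0 L) := by
    have : IntervalIntegrable (fun s : ℝ => κ * s ^ 2) volume 0 L :=
      (Continuous.intervalIntegrable (by fun_prop) _ _)
    exact (intervalIntegrable_iff_integrableOn_Ioc_of_le hL.le).1 this
  have h3 : IntegrableOn q (Ioc 0 L) := by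
    have := h1.sub h2
    refine this.congr_fun (fun s _ => ?_) measurableSet_Ioc
    simp
  have h4 : IntervalIntegrable q volume 0 L :=
    (intervalIntegrable_iff_integrableOn_Ioc_of_le hL.le).2 h3
  refine ⟨h4, ?_⟩
  have h5 := intervalIntegral.integral_eq_sub_of_hasDerivAt_of_le hL.le hcon hd h4
  rw [h5]; simp

end

end Crest.Agent.R247.Lc582
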