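import Crest.Agent.R247.Bo2_84
import Crest.Agent.R247.Lc1_582

/-!
Row 247, leaf (c-prime), file 2 (helper582): the coordinate form of the Laplacian comparison.

For `f` smooth near `x` with `|∇f|² = 2 f` near `x` and `w = n - Δf`:
`⟨∇f, ∇w⟩ = - w + |Hess f - g|² + Ric(∇f, ∇f)`;
along a curve `c` with `c' = s⁻¹ ∇f` this is
`d/ds (s w(c s)) = |Hess f - g|² + Ric(∇f, ∇f)`.
-/

set_option autoImplicit false

open scoped ContDiff Topology
open Filter Set
open Crest.GeometryTopology.CoordMetric Crest.GeometryTopology.ChartCurvature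
open Crest.Agent.R202.Tens
open Crest.Agent.R247.Bo84

noncomputable section

namespace Crest.Agent.R247.Lc582

variable {n : ℕ}

local notation "𝔼" => EuclideanSpace ℝ (Fin n)

/-- `|Hess f - g|²`. -/
def hessDev (g : MetricField n) (f : EuclideanSpace ℝ (Fin n) → ℝ)
    (x : EuclideanSpace ℝ (Fin n)) : ℝ :=
  hessSq g f x - 2 * laplaceBeltrami g f x + n

/-- `Ric(∇f, ∇f)`. -/
def ricQ (g : MetricField n) (f : EuclideanSpace ℝ (Fin n) → ℝ)
    (x : EuclideanSpace ℝ (Fin n)) : ℝ :=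
  ∑ i, ∑ j, ricci g x i j * grad g f x i * grad g f x j

/-- `n - Δ f`. -/
def defect (g : MetricField n) (f : EuclideanSpace ℝ (Fin n) → ℝ)
    (x : EuclideanSpace ℝ (Fin n)) : ℝ :=
  n - laplaceBeltrami g f x

variable {g : MetricField n} {U : Set (EuclideanSpace ℝ (Fin n))} {x : EuclideanSpace ℝ (Fin n)}

/-- `hessDev` in a frame. -/
theorem hessDev_frame (hg : IsRiemannianOn g U) (hx : x ∈ U) {f : 𝔼 → ℝ}
    (hf : ContDiffAt ℝ 2 f x) {ξ : Fin n → 𝔼} (h : IsFrame (g x) ξ) :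
    hessDev g f x = ∑ a, ∑ b, (hess g f x (ξ a) (ξ b) - if a = b then 1 else 0) ^ 2 := by
  have e1 : ∀ a b : Fin n, (hess g f x (ξ a) (ξ b) - if a = b then (1:ℝ) else 0) ^ 2 =
      hess g f x (ξ a) (ξ b) ^ 2 + if a = b then (1 - 2 * hess g f x (ξ a) (ξ b)) else 0 := by
    intro a b
    split_ifs <;> ring
  simp only [e1, Finset.sum_add_distrib, Finset.sum_ite_eq, Finset.mem_univ, if_true,
    Finset.sum_sub_distrib, ← Finset.mul_sum]
  rw [hessDev, hessSq_frame hg hx hf h, lap_frame hg hx hf h]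
  simp
  ring

theorem hessDev_nonneg (hg : IsRiemannianOn g U) (hx : x ∈ U) {f : 𝔼 → ℝ}
    (hf : ContDiffAt ℝ 2 f x) : 0 ≤ hessDev g f x := by
  obtain ⟨ξ, hξ⟩ := exists_frame hg hx
  rw [hessDev_frame hg hx hf hξ]
  positivity

theorem ricQ_eq_quad (f : 𝔼 → ℝ) {K : ℝ}
    (hK : ∀ v : 𝔼, K * quadForm g x v ≤ ∑ i, ∑ j, ricci g x i j * v i * v j) :
    K * quadForm g x (grad g f x) ≤ ricQ g f x := hK _

theorem ricQ_lower (hg : IsRiemannianOn g U) (hx : x ∈ U) (f : 𝔼 → ℝ) {K : ℝ}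
    (hK : ∀ v : 𝔼, K * quadForm g x v ≤ ∑ i, ∑ j, ricci g x i j * v i * v j) :
    K * gam g f f x ≤ ricQ g f x := by
  rw [gam_eq_bil hg hx f f, ← quadForm_eq]
  exact hK _

/-! ### linearity and locality of the Laplacian -/

theorem pderiv_congr {u v : 𝔼 → ℝ} (h : u =ᶠ[𝓝 x] v) (i : Fin n) : pderiv i u x = pderiv i v x := by
  unfold pderiv
  rw [h.fderiv_eq]

theorem lap_congr {u v : 𝔼 → ℝ} (h : u =ᶠ[𝓝 x] v) :
    laplaceBeltrami g u x = laplaceBeltrami g v x := by
  unfold laplaceBeltrami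
  congr 1
  refine Finset.sum_congr rfl fun i _ => pderiv_congr ?_ i
  filter_upwards [h.eventuallyEq_nhds] with y hy
  congr 1
  refine Finset.sum_congr rfl fun j _ => ?_
  rw [pderiv_congr hy]

theorem pderiv_const_mul (c : ℝ) (u : 𝔼 → ℝ) (i : Fin n) :
    pderiv i (fun y => c * u y) x = c * pderiv i u x := by
  unfold pderiv
  have h1 : (fun y => c * u y) = c • u := rfl
  rw [h1, fderiv_const_smul_field]
  simp

theorem lap_const_mul (c : ℝ) (u : 𝔼 → ℝ) :
    laplaceBeltrami g (fun y => c * u y) x = c * laplaceBeltrami g u x := by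
  unfold laplaceBeltrami
  have h1 : ∀ i, (fun y => Real.sqrt (g y).det * ∑ j, inverseField g y i j *
      pderiv j (fun y => c * u y) y) = fun y => c * (Real.sqrt (g y).det *
        ∑ j, inverseField g y i j * pderiv j u y) := by
    intro i
    funext y
    rw [mul_left_comm c, Finset.mul_sum (a := c)]
    congr 1
    refine Finset.sum_congr rfl fun j _ => ?_
    rw [pderiv_const_mul]
    ring
  have h2 : ∑ i, pderiv i (fun y => Real.sqrt (g y).det * ∑ j, inverseField g y i j *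
      pderiv j (fun y => c * u y) y) x = c * ∑ i, pderiv i (fun y => Real.sqrt (g y).det *
        ∑ j, inverseField g y i j * pderiv j u y) x := by
    rw [Finset.mul_sum]
    refine Finset.sum_congr rfl fun i _ => ?_
    rw [h1 i, pderiv_const_mul]
  rw [h2]
  ring

/-! ### smoothness of the Laplacian -/

theorem contDiffAt_lap (hg : IsRiemannianOn g U) (hx : x ∈ U) {f : 𝔼 → ℝ}
    (hf : ContDiffAt ℝ ∞ f x) : ContDiffAt ℝ ∞ (laplaceBeltrami g f) x := by
  have hd : (g x).det ≠ 0 := (det_pos hg hx).ne'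
  have h0 : ContDiffAt ℝ ∞ (fun y => Real.sqrt (g y).det) x := contDiffAt_sqrt_det hg hx
  have h0' : Real.sqrt (g x).det ≠ 0 := (Real.sqrt_pos.2 (det_pos hg hx)).ne'
  unfold laplaceBeltrami
  refine (contDiffAt_const.div h0 h0').mul (ContDiffAt.sum fun i _ => ?_)
  refine contDiffAt_pderiv (k := ∞) ?_ (by simp) i
  refine h0.mul (ContDiffAt.sum fun j _ => ?_)
  exact (contDiffAt_inv hg hx i j).mul (contDiffAt_pderiv hf (by simp) j)

/-! ### the identity -/

theorem gam_defect (hg : IsRiemannianOn g U) (hx : x ∈ U) {f : 𝔼 → ℝ}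
    (hf : ContDiffAt ℝ ∞ f x) (he : ∀ᶠ y in 𝓝 x, gam g f f y = 2 * f y) :
    gam g f (defect g f) x = - defect g f x + (hessDev g f x + ricQ g f x) := by
  have hf3 : ContDiffAt ℝ 3 f x := hf.of_le (by norm_cast)
  have h1 := bochner' hg hx hf3
  have h2 : laplaceBeltrami g (gam g f f) x = 2 * laplaceBeltrami g f x := by
    rw [lap_congr (v := fun y => 2 * f y) he, lap_const_mul]
  have h3 : gam g f (defect g f) x = - gam g f (laplaceBeltrami g f) x := by
    rw [gam_eq_fderiv_grad' hg hx, gam_eq_fderiv_grad' hg hx]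
    have e1 : (defect g f) = fun y => (n:ℝ) - laplaceBeltrami g f y := rfl
    rw [e1, fderiv_const_sub]
    simp
  rw [h2] at h1
  rw [h3, defect, hessDev, ricQ]
  linarith

/-- the derivative along `c' = s⁻¹ ∇f`. -/
theorem hasDerivAt_along (hg : IsRiemannianOn g U) {f : 𝔼 → ℝ} {c : ℝ → 𝔼} {s : ℝ} (hs : s ≠ 0)
    (hx : c s ∈ U) (hf : ContDiffAt ℝ ∞ f (c s))
    (he : ∀ᶠ y in 𝓝 (c s), gam g f f y = 2 * f y)
    (hc : HasDerivAt c (s⁻¹ • grad g f (c s)) s) :
    HasDerivAt (fun t => t * defect g f (c t)) (hessDev g f (c s) + ricQ g f (c s)) s := by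
  have h1 : DifferentiableAt ℝ (defect g f) (c s) :=
    (contDiffAt_const.sub (contDiffAt_lap hg hx hf)).differentiableAt (by simp)
  have h2 := h1.hasFDerivAt.comp_hasDerivAt s hc
  have h3 := (hasDerivAt_id s).mul h2
  refine h3.congr_deriv ?_
  rw [map_smul, ← gam_eq_fderiv_grad' hg hx, gam_defect hg hx hf he]
  simp only [id, smul_eq_mul, Function.comp]
  field_simp
  ring

end Crest.Agent.R247.Lc582
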