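import Crest.Prelude.Def_PointedLimit
import Mathlib.Topology.MetricSpace.Antilipschitz
import Mathlib.Topology.Ultrafilter

/-!
# R247, limit step (1): the abstract limit theorem

`limit_chart` : if `(M k, q k) → (X, p)` in the pointed Gromov–Hausdorff sense, `X` is complete and
for all large `k` there is an `L`-bi-Lipschitz map on `ball (q k) (2ρ)` into `ℝⁿ` which is
quantitatively open on `ball (q k) ρ`, then `p` has an open neighbourhood with an `L`-bi-Lipschitz
map onto an open set of `ℝⁿ`.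
-/

set_option autoImplicit false
noncomputable section
open Set Filter Topology Metric
open Crest.GeometryTopology.PointedLimit

namespace Crest.Agent.R247.Lim386

universe u

variable {n : ℕ}

/-- A sequence of approximations with errors tending to `0`. -/
theorem exists_approx {M : ℕ → Type u} [∀ k, MetricSpace (M k)] {q : ∀ k, M k} {X : Type u}
    [MetricSpace X] {p : X} (h : SeqPointedTendsto q p) {R : ℝ} (hR : 0 < R) :
    ∃ (f : ∀ k, M k → X) (ε : ℕ → ℝ), Tendsto ε atTop (𝓝 0) ∧
      ∀ᶠ k in atTop, 0 ≤ ε k ∧ f k (q k) = p ∧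
        (∀ x x' : M k, dist (q k) x < R → dist (q k) x' < R →
          |dist (f k x) (f k x') - dist x x'| ≤ ε k) ∧
        (∀ y : X, dist p y < R - ε k → ∃ x : M k, dist (q k) x < R ∧ dist (f k x) y ≤ ε k) := by
  classical
  set P : ℕ → ℕ → Prop := fun k m => IsScaledApprox 1 (q k) p R (1 / ((m : ℝ) + 1)) with hP
  have h1 : ∀ m : ℕ, ∃ k₀, ∀ k, k₀ ≤ k → P k m := fun m => h R hR _ (by positivity)
  set N : ℕ → ℕ := fun k => Nat.findGreatest (P k) k with hN
  have h2 : ∀ m : ℕ, ∀ᶠ k in atTop, m ≤ N k := by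
    intro m
    obtain ⟨k₀, hk₀⟩ := h1 m
    filter_upwards [eventually_ge_atTop k₀, eventually_ge_atTop m] with k hk hkm
    exact Nat.le_findGreatest hkm (hk₀ k hk)
  have h3 : ∀ᶠ k in atTop, P k (N k) := by
    obtain ⟨k₀, hk₀⟩ := h1 0
    filter_upwards [eventually_ge_atTop k₀] with k hk
    exact Nat.findGreatest_spec (Nat.zero_le k) (hk₀ k hk)
  have hNt : Tendsto N atTop atTop := tendsto_atTop.2 h2
  have h4 : ∀ k, ∃ f : M k → X, P k (N k) → (f (q k) = p ∧
      (∀ x x' : M k, dist (q k) x < R → dist (q k) x' < R →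
          |dist (f x) (f x') - dist x x'| ≤ 1 / ((N k : ℝ) + 1)) ∧
      (∀ y : X, dist p y < R - 1 / ((N k : ℝ) + 1) →
        ∃ x : M k, dist (q k) x < R ∧ dist (f x) y ≤ 1 / ((N k : ℝ) + 1))) := by
    intro k
    by_cases hk : P k (N k)
    · obtain ⟨f, hf1, hf2, hf3⟩ := hk
      refine ⟨f, fun _ => ⟨hf1, ?_, ?_⟩⟩
      · simpa using hf2
      · simpa using hf3
    · exact ⟨fun _ => p, fun h => absurd h hk⟩
  choose f hf using h4
  refine ⟨f, fun k => 1 / ((N k : ℝ) + 1), ?_, ?_⟩
  · exact tendsto_one_div_add_atTop_nhds_zero_nat.comp hNt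
  · filter_upwards [h3] with k hk
    exact ⟨by positivity, hf k hk⟩

/-- ultralimit of a bounded family in a proper space -/
theorem exists_ulim {Y : Type*} [MetricSpace Y] [ProperSpace Y] (U : Ultrafilter ℕ) (u : ℕ → Y)
    {c : Y} {C : ℝ} (h : ∀ᶠ k in (U : Filter ℕ), dist (u k) c ≤ C) :
    ∃ y, Tendsto u U (𝓝 y) := by
  have h1 : closedBall c C ∈ U.map u := h
  obtain ⟨y, -, hy⟩ := (isCompact_closedBall c C).ultrafilter_le_nhds' (U.map u) h1
  exact ⟨y, hy⟩

/-- **Abstract limit theorem.** -/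
theorem limit_chart {M : ℕ → Type u} [∀ k, MetricSpace (M k)] {q : ∀ k, M k} {X : Type u}
    [MetricSpace X] [CompleteSpace X] {p : X} (h : SeqPointedTendsto q p)
    {L ρ : ℝ} (hL : 1 ≤ L) (hρ : 0 < ρ) (F : ∀ k, M k → EuclideanSpace ℝ (Fin n))
    (hbi : ∀ᶠ k in atTop, ∀ x z : M k, dist (q k) x < 2 * ρ → dist (q k) z < 2 * ρ →
      L⁻¹ * dist x z ≤ dist (F k x) (F k z) ∧ dist (F k x) (F k z) ≤ L * dist x z)
    (hop : ∀ᶠ k in atTop, ∀ x : M k, dist (q k) x < ρ → ∀ s : ℝ, 0 < s → s ≤ ρ →
      ∀ y, dist (F k x) y < s / L → ∃ z, dist x z < s ∧ F k z = y) :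
    ∃ U : Set X, IsOpen U ∧ p ∈ U ∧ ∃ F : X → EuclideanSpace ℝ (Fin n), IsOpen (F '' U) ∧
      ∀ x ∈ U, ∀ z ∈ U, L⁻¹ * dist x z ≤ dist (F x) (F z) ∧ dist (F x) (F z) ≤ L * dist x z := by
  have hL0 : 0 < L := by linarith
  obtain ⟨f, ε, hε, hf⟩ := exists_approx h (R := 4 * ρ) (by linarith)
  set W : Ultrafilter ℕ := hyperfilter ℕ with hW
  have hWle : (W : Filter ℕ) ≤ atTop := by
    rw [hW, ← Nat.cofinite_eq_atTop]; exact hyperfilter_le_cofinite
  -- choice of preimages
  have hψ : ∀ k, ∀ y : X, ∃ x : M k, (0 ≤ ε k ∧ f k (q k) = p ∧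
        (∀ x x' : M k, dist (q k) x < 4 * ρ → dist (q k) x' < 4 * ρ →
          |dist (f k x) (f k x') - dist x x'| ≤ ε k) ∧
        (∀ y : X, dist p y < 4 * ρ - ε k →
          ∃ x : M k, dist (q k) x < 4 * ρ ∧ dist (f k x) y ≤ ε k)) →
        dist p y < 4 * ρ - ε k → dist (q k) x < 4 * ρ ∧ dist (f k x) y ≤ ε k := by
    intro k y
    by_cases hk : (0 ≤ ε k ∧ f k (q k) = p ∧
        (∀ x x' : M k, dist (q k) x < 4 * ρ → dist (q k) x' < 4 * ρ →
          |dist (f k x) (f k x') - dist x x'| ≤ ε k) ∧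
        (∀ y : X, dist p y < 4 * ρ - ε k →
          ∃ x : M k, dist (q k) x < 4 * ρ ∧ dist (f k x) y ≤ ε k)) ∧ dist p y < 4 * ρ - ε k
    · obtain ⟨x, hx⟩ := hk.1.2.2.2 y hk.2
      exact ⟨x, fun _ _ => hx⟩
    · exact ⟨q k, fun h1 h2 => absurd ⟨h1, h2⟩ hk⟩
  choose ψ hψ using hψ
  have hε1 : ∀ᶠ k in atTop, ε k < ρ / 4 := hε.eventually (gt_mem_nhds (by positivity))
  -- basic facts
  have fact1 : ∀ᶠ k in atTop, ∀ x : X, dist p x < 2 * ρ →
      dist (q k) (ψ k x) < 4 * ρ ∧ dist (f k (ψ k x)) x ≤ ε k := by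
    filter_upwards [hf, hε1] with k hk hk1 x hx
    exact hψ k x hk (by linarith)
  have fact2 : ∀ᶠ k in atTop, ∀ x z : X, dist p x < 2 * ρ → dist p z < 2 * ρ →
      |dist (ψ k x) (ψ k z) - dist x z| ≤ 3 * ε k := by
    filter_upwards [hf, fact1] with k hk h1 x z hx hz
    obtain ⟨a1, a2⟩ := h1 x hx
    obtain ⟨b1, b2⟩ := h1 z hz
    have c1 := hk.2.2.1 _ _ a1 b1
    have c2 : |dist (f k (ψ k x)) (f k (ψ k z)) - dist x z| ≤ ε k + ε k := by
      have := dist_dist_dist_le (f k (ψ k x)) (f k (ψ k z)) x z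
      rw [Real.dist_eq] at this
      exact this.trans (add_le_add a2 b2)
    rw [abs_le] at c1 c2 ⊢
    constructor <;> linarith [c1.1, c1.2, c2.1, c2.2]
  have fact3 : ∀ᶠ k in atTop, ∀ x : X, dist p x < 2 * ρ →
      |dist (q k) (ψ k x) - dist p x| ≤ 2 * ε k := by
    filter_upwards [hf, fact1] with k hk h1 x hx
    obtain ⟨a1, a2⟩ := h1 x hx
    have c1 := hk.2.2.1 (q k) _ (by rw [dist_self]; linarith) a1
    rw [hk.2.1] at c1
    have c2 : |dist p (f k (ψ k x)) - dist p x| ≤ ε k := by
      rw [dist_comm p (f k (ψ k x)), dist_comm p x]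
      exact (abs_dist_sub_le _ _ _).trans a2
    rw [abs_le] at c1 c2 ⊢
    constructor <;> linarith [c1.1, c1.2, c2.1, c2.2]
  have fact4 : ∀ x : X, ∀ t : ℝ, t ≤ 2 * ρ → dist p x < t →
      ∀ᶠ k in atTop, dist (q k) (ψ k x) < t := by
    intro x t ht hx
    have h5 : ∀ᶠ k in atTop, ε k < (t - dist p x) / 2 :=
      hε.eventually (gt_mem_nhds (by linarith))
    filter_upwards [fact3, h5] with k h6 h7
    have := (abs_le.1 (h6 x (by linarith))).2
    linarith
  -- the limit map
  have hlim : ∀ x : X, ∃ y, dist p x < 2 * ρ →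
      Tendsto (fun k => F k (ψ k x) - F k (q k)) W (𝓝 y) := by
    intro x
    by_cases hx : dist p x < 2 * ρ
    · have : ∀ᶠ k in (W : Filter ℕ), dist (F k (ψ k x) - F k (q k)) 0 ≤ L * (2 * ρ) := by
        apply hWle
        filter_upwards [hbi, fact4 x _ le_rfl hx] with k h5 h6
        rw [dist_zero_right, ← dist_eq_norm]
        refine (h5 _ _ h6 (by rw [dist_self]; linarith)).2.trans ?_
        rw [dist_comm]
        exact mul_le_mul_of_nonneg_left h6.le hL0.le
      obtain ⟨y, hy⟩ := exists_ulim W _ this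
      exact ⟨y, fun _ => hy⟩
    · exact ⟨0, fun h => absurd h hx⟩
  choose G hG using hlim
  have hψt : ∀ x z : X, dist p x < 2 * ρ → dist p z < 2 * ρ →
      Tendsto (fun k => dist (ψ k x) (ψ k z)) atTop (𝓝 (dist x z)) := by
    intro x z hx hz
    rw [tendsto_iff_dist_tendsto_zero]
    refine squeeze_zero' (Eventually.of_forall fun k => dist_nonneg) ?_
      (by simpa using hε.const_mul 3)
    filter_upwards [fact2] with k h5
    exact h5 x z hx hz
  have hGd : ∀ x z : X, dist p x < 2 * ρ → dist p z < 2 * ρ →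
      Tendsto (fun k => dist (F k (ψ k x)) (F k (ψ k z))) W (𝓝 (dist (G x) (G z))) := by
    intro x z hx hz
    have := (hG x hx).dist (hG z hz)
    simpa using this
  have hGbi : ∀ x z : X, dist p x < 2 * ρ → dist p z < 2 * ρ →
      L⁻¹ * dist x z ≤ dist (G x) (G z) ∧ dist (G x) (G z) ≤ L * dist x z := by
    intro x z hx hz
    have t1 := (hψt x z hx hz).mono_left hWle
    have t2 := hGd x z hx hz
    have ev : ∀ᶠ k in (W : Filter ℕ), L⁻¹ * dist (ψ k x) (ψ k z)
        ≤ dist (F k (ψ k x)) (F k (ψ k z)) ∧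
        dist (F k (ψ k x)) (F k (ψ k z)) ≤ L * dist (ψ k x) (ψ k z) := by
      apply hWle
      filter_upwards [hbi, fact4 x _ le_rfl hx, fact4 z _ le_rfl hz] with k h5 h6 h7
      exact h5 _ _ h6 h7
    exact ⟨le_of_tendsto_of_tendsto (t1.const_mul _) t2 (ev.mono fun k hk => hk.1),
      le_of_tendsto_of_tendsto t2 (t1.const_mul _) (ev.mono fun k hk => hk.2)⟩
  -- compactness of closed balls of radius `< 2ρ`
  have hcpt : ∀ t : ℝ, t < 2 * ρ → IsCompact (closedBall p t) := by
    intro t ht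
    rw [isCompact_iff_compactSpace]
    have hY : ∀ y : closedBall p t, dist p (y : X) < 2 * ρ := by
      intro y
      have := mem_closedBall.1 y.2
      rw [dist_comm]; linarith
    have ha : AntilipschitzWith L.toNNReal (fun y : closedBall p t => G y) := by
      apply AntilipschitzWith.of_le_mul_dist
      intro y z
      rw [Real.coe_toNNReal _ hL0.le]
      have := (hGbi y z (hY y) (hY z)).1
      rw [inv_mul_le_iff₀ hL0] at this
      exact this
    have hl : LipschitzWith L.toNNReal (fun y : closedBall p t => G y) := by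
      apply LipschitzWith.of_dist_le_mul
      intro y z
      rw [Real.coe_toNNReal _ hL0.le]
      exact (hGbi y z (hY y) (hY z)).2
    have hui := ha.isUniformInducing hl.uniformContinuous
    have hb : Bornology.IsBounded (range fun y : closedBall p t => G y) := by
      rw [← image_univ]
      refine (hl.isBounded_image (s := univ) ?_)
      rw [Metric.isBounded_iff]
      refine ⟨t + t, fun y _ z _ => ?_⟩
      refine (dist_triangle_right (y : X) z p).trans ?_
      exact add_le_add (mem_closedBall.1 y.2) (mem_closedBall.1 z.2)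
    have htb : TotallyBounded (univ : Set (closedBall p t)) := by
      obtain ⟨c, hc⟩ := hb.subset_closedBall 0
      have := totallyBounded_preimage hui
        (isCompact_closedBall (0 : EuclideanSpace ℝ (Fin n)) c).totallyBounded
      refine this.subset fun y _ => hc (mem_range_self y)
    have hcs : CompleteSpace (closedBall p t) := isClosed_closedBall.completeSpace_coe
    exact ⟨isCompact_iff_totallyBounded_isComplete.2 ⟨htb, isClosed_univ.isComplete⟩⟩
  refine ⟨ball p ρ, isOpen_ball, mem_ball_self hρ, G, ?_, ?_⟩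
  · -- openness of the image
    rw [Metric.isOpen_iff]
    rintro _ ⟨x, hx, rfl⟩
    rw [mem_ball, dist_comm] at hx
    set s : ℝ := (ρ - dist p x) / 2 with hs
    have hs0 : 0 < s := by rw [hs]; linarith
    have hsρ : s ≤ ρ := by
      rw [hs]; linarith [dist_nonneg (x := p) (y := x)]
    refine ⟨s / L, by positivity, ?_⟩
    intro y hy
    rw [mem_ball, dist_comm] at hy
    -- preimages of `y + F k (q k)`
    have ev : ∀ᶠ k in (W : Filter ℕ), ∃ z : M k, dist (ψ k x) z < s ∧ F k z = y + F k (q k) := by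
      have t1 : Tendsto (fun k => dist (F k (ψ k x) - F k (q k)) y) W (𝓝 (dist (G x) y)) :=
        (hG x (by linarith)).dist tendsto_const_nhds
      have e1 : ∀ᶠ k in (W : Filter ℕ), dist (F k (ψ k x) - F k (q k)) y < s / L :=
        t1.eventually (gt_mem_nhds hy)
      filter_upwards [e1, hWle hop, hWle (fact4 x ρ (by linarith) hx)] with k h5 h6 h7
      refine h6 _ h7 s hs0 hsρ _ ?_
      rw [dist_eq_norm] at h5 ⊢
      convert h5 using 2
      abel
    have hz : ∀ k, ∃ z : M k, (∃ z : M k, dist (ψ k x) z < s ∧ F k z = y + F k (q k)) →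
        (dist (ψ k x) z < s ∧ F k z = y + F k (q k)) := by
      intro k
      by_cases hk : ∃ z : M k, dist (ψ k x) z < s ∧ F k z = y + F k (q k)
      · obtain ⟨z, hz⟩ := hk
        exact ⟨z, fun _ => hz⟩
      · exact ⟨q k, fun h => absurd h hk⟩
    choose z hz using hz
    have ev2 : ∀ᶠ k in (W : Filter ℕ), dist (ψ k x) (z k) < s ∧ F k (z k) = y + F k (q k) :=
      ev.mono fun k hk => hz k hk
    have ev3 : ∀ᶠ k in (W : Filter ℕ), dist (q k) (z k) < ρ := by
      have h5 : ∀ᶠ k in atTop, ε k < s / 4 := hε.eventually (gt_mem_nhds (by positivity))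
      filter_upwards [ev2, hWle fact3, hWle h5] with k h6 h7 h8
      have h9 := (abs_le.1 (h7 x (by linarith))).2
      have h10 := dist_triangle (q k) (ψ k x) (z k)
      linarith [h6.1]
    -- the points `f k (z k)` stay in a compact set
    have ev4 : ∀ᶠ k in (W : Filter ℕ), f k (z k) ∈ closedBall p (3 / 2 * ρ) := by
      filter_upwards [ev3, hWle hf, hWle hε1] with k h5 h6 h7
      have h8 := h6.2.2.1 (q k) (z k) (by rw [dist_self]; linarith) (by linarith)
      rw [h6.2.1] at h8
      have := (abs_le.1 h8).2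
      rw [mem_closedBall, dist_comm]
      linarith
    obtain ⟨w, -, hw⟩ := (hcpt (3 / 2 * ρ) (by linarith)).ultrafilter_le_nhds'
      (W.map fun k => f k (z k)) ev4
    have hw' : Tendsto (fun k => f k (z k)) W (𝓝 w) := hw
    -- distance from `x` to `w`
    have hxw : dist x w ≤ s := by
      have t1 : Tendsto (fun k => dist x (f k (z k))) W (𝓝 (dist x w)) :=
        tendsto_const_nhds.dist hw'
      have t2 : Tendsto (fun k => s + 2 * ε k) W (𝓝 s) := by
        have := ((hε.mono_left hWle).const_mul 2).const_add s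
        simpa using this
      refine le_of_tendsto_of_tendsto t1 t2 ?_
      filter_upwards [ev2, ev3, hWle hf, hWle fact1] with k h5 h6 h7 h8
      obtain ⟨a1, a2⟩ := h8 x (by linarith)
      have h9 := (abs_le.1 (h7.2.2.1 _ _ a1 (by linarith : dist (q k) (z k) < 4 * ρ))).2
      have h10 := dist_triangle_left x (f k (z k)) (f k (ψ k x))
      linarith [h5.1]
    have hwp : dist p w < ρ := by
      have := dist_triangle p x w
      rw [hs] at hxw
      linarith
    refine ⟨w, by rwa [mem_ball, dist_comm], ?_⟩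
    -- `G w = y`
    have t3 : Tendsto (fun k => F k (ψ k w) - F k (q k)) W (𝓝 (G w)) := hG w (by linarith)
    have t4 : Tendsto (fun k => F k (ψ k w) - F k (q k)) W (𝓝 y) := by
      rw [tendsto_iff_dist_tendsto_zero]
      have t5 : Tendsto (fun k => L * (dist w (f k (z k)) + 2 * ε k)) W (𝓝 0) := by
        have a1 : Tendsto (fun k => dist w (f k (z k))) W (𝓝 0) := by
          have := (tendsto_const_nhds (x := w)).dist hw'
          rwa [dist_self] at this
        have := (a1.add ((hε.mono_left hWle).const_mul 2)).const_mul L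
        simpa using this
      refine squeeze_zero' (Eventually.of_forall fun k => dist_nonneg) ?_ t5
      filter_upwards [ev2, ev3, hWle hf, hWle fact1, hWle hbi,
        hWle (fact4 w _ le_rfl (by linarith : dist p w < 2 * ρ))] with k h5 h6 h7 h8 h9 h10
      obtain ⟨a1, a2⟩ := h8 w (by linarith)
      have b1 := (abs_le.1 (h7.2.2.1 _ _ a1 (by linarith : dist (q k) (z k) < 4 * ρ))).1
      have b2 : dist (f k (ψ k w)) (f k (z k)) ≤ ε k + dist w (f k (z k)) :=
        (dist_triangle _ w _).trans (add_le_add a2 le_rfl)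
      have b3 : dist (ψ k w) (z k) ≤ dist w (f k (z k)) + 2 * ε k := by linarith
      have b4 := (h9 (ψ k w) (z k) h10 (by linarith)).2
      have b5 : dist (F k (ψ k w) - F k (q k)) y = dist (F k (ψ k w)) (F k (z k)) := by
        rw [h5.2, dist_eq_norm, dist_eq_norm]
        congr 1
        abel
      rw [b5]
      exact b4.trans (mul_le_mul_of_nonneg_left b3 hL0.le)
    exact tendsto_nhds_unique t3 t4
  · intro x hx z hz
    rw [mem_ball, dist_comm] at hx hz
    exact hGbi x z (by linarith) (by linarith)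

end Crest.Agent.R247.Lim386
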