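import Crest.Prelude.Def_PointedLimit

/-!
# R247, limit step (2): composing the approximations

`comp_approx` : `SeqPointedTendsto q p` and `RescalingsTendstoEuclidean p n` give, for every
`R, ε > 0` and every small scale `r`, for all large `k` an approximation from
`(M k, r⁻¹ dist, q k)` to `(ℝⁿ, 0)`.
-/

set_option autoImplicit false
noncomputable section
open Set Filter Topology
open Crest.GeometryTopology.PointedLimit

namespace Crest.Agent.R247.Lim386

universe u

variable {n : ℕ}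

/-- monotonicity of the notion of approximation in the error, at fixed radius. -/
theorem approx_comp {A X Y : Type*} [MetricSpace A] [MetricSpace X] [MetricSpace Y] {a : A} {p : X}
    {c : Y} {r R ε ε₁ : ℝ} (hr : 0 < r) (hε : 0 < ε) (hε₁ : 0 < ε₁) (hR : 0 < R)
    (h1 : ε₁ ≤ r) (h2 : 2 * ε + 2 * ε₁ / r ≤ 1)
    (hX : IsScaledApprox r⁻¹ p c (R + 1) ε) (hA : IsScaledApprox 1 a p ((R + 1) * r + r) ε₁) :
    IsScaledApprox r⁻¹ a c R (2 * ε + 2 * ε₁ / r) := by
  obtain ⟨g, hg0, hg1, hg2⟩ := hX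
  obtain ⟨f, hf0, hf1, hf2⟩ := hA
  simp only [one_mul] at hf1 hf2
  have hdom : ∀ x : A, r⁻¹ * dist a x < R → dist a x < (R + 1) * r + r := by
    intro x hx
    rw [inv_mul_lt_iff₀ hr] at hx
    nlinarith
  have ha : dist a a < (R + 1) * r + r := by rw [dist_self]; positivity
  have hfx : ∀ x : A, r⁻¹ * dist a x < R → r⁻¹ * dist p (f x) < R + 1 := by
    intro x hx
    have h3 := (abs_le.1 (hf1 a x ha (hdom x hx))).2
    rw [hf0] at h3
    rw [inv_mul_lt_iff₀ hr] at hx ⊢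
    nlinarith
  have hrr : ε₁ / r = r⁻¹ * ε₁ := by rw [div_eq_inv_mul]
  refine ⟨fun x => g (f x), by simp only [hf0, hg0], ?_, ?_⟩
  · intro x x' hx hx'
    have h3 := abs_le.1 (hf1 x x' (hdom x hx) (hdom x' hx'))
    have h4 := abs_le.1 (hg1 _ _ (hfx x hx) (hfx x' hx'))
    have h5 : r⁻¹ * dist (f x) (f x') ≤ r⁻¹ * dist x x' + r⁻¹ * ε₁ := by
      rw [← mul_add]
      exact mul_le_mul_of_nonneg_left (by linarith [h3.2]) (by positivity)
    have h6 : r⁻¹ * dist x x' - r⁻¹ * ε₁ ≤ r⁻¹ * dist (f x) (f x') := by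
      rw [← mul_sub]
      exact mul_le_mul_of_nonneg_left (by linarith [h3.1]) (by positivity)
    have h7 : 0 ≤ r⁻¹ * ε₁ := by positivity
    have h8 : 2 * ε₁ / r = 2 * (r⁻¹ * ε₁) := by rw [mul_div_assoc, hrr]
    rw [h8]
    rw [abs_le]
    constructor <;> linarith [h4.1, h4.2]
  · intro y hy
    have h7 : 0 ≤ r⁻¹ * ε₁ := by positivity
    have h8 : 2 * ε₁ / r = 2 * (r⁻¹ * ε₁) := by rw [mul_div_assoc, hrr]
    rw [h8] at hy h2 ⊢
    obtain ⟨x₁, hx₁, hx₁y⟩ := hg2 y (by linarith)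
    have h9 : r⁻¹ * dist p x₁ ≤ dist c y + 2 * ε := by
      have := (abs_le.1 (hg1 p x₁ (by rw [dist_self, mul_zero]; linarith) hx₁)).1
      rw [hg0] at this
      have h10 := dist_triangle c y (g x₁)
      rw [dist_comm y] at h10
      linarith
    have h11 : dist p x₁ < R * r := by
      have h12 : r⁻¹ * dist p x₁ < R := by linarith
      rwa [inv_mul_lt_iff₀ hr, mul_comm] at h12
    obtain ⟨x, hx, hxx⟩ := hf2 x₁ (by nlinarith)
    have h13 : dist a x ≤ dist p x₁ + 2 * ε₁ := by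
      have h14 := (abs_le.1 (hf1 a x ha hx)).1
      rw [hf0] at h14
      have h15 := dist_triangle p x₁ (f x)
      rw [dist_comm x₁] at h15
      linarith
    have h16 : r⁻¹ * dist a x ≤ r⁻¹ * dist p x₁ + 2 * (r⁻¹ * ε₁) := by
      have := mul_le_mul_of_nonneg_left h13 (by positivity : (0 : ℝ) ≤ r⁻¹)
      linarith
    have h17 : r⁻¹ * dist a x < R := by linarith
    refine ⟨x, h17, ?_⟩
    have h18 := (abs_le.1 (hg1 _ _ (hfx x h17) hx₁)).2
    have h19 : r⁻¹ * dist (f x) x₁ ≤ r⁻¹ * ε₁ :=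
      mul_le_mul_of_nonneg_left hxx (by positivity)
    have h20 := dist_triangle (g (f x)) (g x₁) y
    linarith

/-- an approximation with a smaller error is an approximation (same radius). -/
theorem approx_mono_err {X Y : Type*} [MetricSpace X] [MetricSpace Y] {s : ℝ} {p : X} {q : Y}
    {R ε ε' : ℝ} (h : IsScaledApprox s p q R ε) (hε : ε ≤ ε') : IsScaledApprox s p q R ε' := by
  obtain ⟨f, h0, h1, h2⟩ := h
  refine ⟨f, h0, fun x x' hx hx' => (h1 x x' hx hx').trans hε, fun y hy => ?_⟩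
  obtain ⟨x, hx, hxy⟩ := h2 y (by linarith)
  exact ⟨x, hx, hxy.trans hε⟩

/-- **(LS2)** -/
theorem comp_approx {M : ℕ → Type u} [∀ k, MetricSpace (M k)] {q : ∀ k, M k} {X : Type u}
    [MetricSpace X] {p : X} (h : SeqPointedTendsto q p) (hE : RescalingsTendstoEuclidean p n)
    {R ε : ℝ} (hR : 0 < R) (hε : 0 < ε) :
    ∃ r₀ : ℝ, 0 < r₀ ∧ ∀ r : ℝ, 0 < r → r < r₀ → ∀ᶠ k in atTop,
      IsScaledApprox r⁻¹ (q k) (0 : EuclideanSpace ℝ (Fin n)) R ε := by
  set e : ℝ := min ε 1 / 4 with he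
  have he0 : 0 < e := by rw [he]; positivity
  obtain ⟨r₀, hr₀, H⟩ := hE (R + 1) (by linarith) e he0
  refine ⟨r₀, hr₀, fun r hr hrr => ?_⟩
  have hm1 : min ε 1 ≤ ε := min_le_left _ _
  have hm2 : min ε 1 ≤ 1 := min_le_right _ _
  have he1 : e * r ≤ r := by
    have : e ≤ 1 := by rw [he]; linarith
    nlinarith
  obtain ⟨k₀, hk₀⟩ := h ((R + 1) * r + r) (by positivity) (e * r) (by positivity)
  filter_upwards [eventually_ge_atTop k₀] with k hk
  have h8 : 2 * (e * r) / r = 2 * e := by field_simp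
  have := approx_comp hr he0 (by positivity : 0 < e * r) hR he1
    (by rw [h8, he]; linarith) (H r hr hrr) (hk₀ k hk)
  refine approx_mono_err this ?_
  rw [h8, he]
  linarith

end Crest.Agent.R247.Lim386
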