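import Crest.Agent.R247.Scal3_386

/-!
# R247: rescaling of a Riemannian manifold (4): Ricci curvature and volume
-/

set_option autoImplicit false
noncomputable section
open Set Filter Topology Bundle MeasureTheory Manifold
open scoped ContDiff ENNReal NNReal
open Crest.GeometryTopology.CoordMetric Crest.GeometryTopology.ChartCurvature
open Crest.GeometryTopology.PointedLimit

namespace Crest.Agent.R247.Scal386

universe u

section coord
variable {n : ℕ}

theorem pderiv_mul (c : ℝ) (f : EuclideanSpace ℝ (Fin n) → ℝ) (i : Fin n)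
    (x : EuclideanSpace ℝ (Fin n)) : pderiv i (fun y => c * f y) x = c * pderiv i f x := by
  unfold pderiv
  have h := fderiv_const_smul_field (𝕜 := ℝ) (f := f) c
  have h2 : (fun y => c * f y) = c • f := rfl
  rw [h2, h]
  rfl

theorem matrix_inv_smul {c : ℝ} (hc : c ≠ 0) (A : Matrix (Fin n) (Fin n) ℝ) :
    (c • A)⁻¹ = c⁻¹ • A⁻¹ := by
  by_cases h : IsUnit A.det
  · exact Matrix.inv_smul' A (Units.mk0 c hc) h
  · have h2 : ¬ IsUnit (c • A).det := by
      rw [Matrix.det_smul]
      intro h3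
      apply h
      rw [isUnit_iff_ne_zero] at h3 ⊢
      exact right_ne_zero_of_mul h3
    rw [Matrix.nonsing_inv_apply_not_isUnit _ h, Matrix.nonsing_inv_apply_not_isUnit _ h2,
      smul_zero]

theorem christoffel_smul {c : ℝ} (hc : c ≠ 0) (g : MetricField n)
    (x : EuclideanSpace ℝ (Fin n)) (k i j : Fin n) :
    christoffel (fun y => c • g y) x k i j = christoffel g x k i j := by
  unfold christoffel inverseField
  congr 1
  refine Finset.sum_congr rfl fun l _ => ?_
  rw [matrix_inv_smul hc]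
  simp only [Matrix.smul_apply, smul_eq_mul]
  rw [pderiv_mul, pderiv_mul, pderiv_mul]
  field_simp

theorem ricci_smul {c : ℝ} (hc : c ≠ 0) (g : MetricField n)
    (x : EuclideanSpace ℝ (Fin n)) (i j : Fin n) :
    ricci (fun y => c • g y) x i j = ricci g x i j := by
  unfold ricci
  simp only [christoffel_smul hc]

theorem quadForm_smul (c : ℝ) (g : MetricField n) (x v : EuclideanSpace ℝ (Fin n)) :
    quadForm (fun y => c • g y) x v = c * quadForm g x v := by
  unfold quadForm
  simp only [Matrix.smul_apply, smul_eq_mul, Finset.mul_sum]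
  refine Finset.sum_congr rfl fun i _ => Finset.sum_congr rfl fun j _ => ?_
  ring

end coord

section mono
variable {X : Type u} {n : ℕ} [TopologicalSpace X] [ChartedSpace (EuclideanSpace ℝ (Fin n)) X]
  [RiemannianBundle (fun x : X => TangentSpace 𝓘(ℝ, EuclideanSpace ℝ (Fin n)) x)]

theorem quadForm_chartMetric_nonneg (x : X) (y v : EuclideanSpace ℝ (Fin n)) :
    0 ≤ quadForm (chartMetric n X x) y v := by
  set e : Fin n → TangentSpace 𝓘(ℝ, EuclideanSpace ℝ (Fin n))
      ((chartAt (EuclideanSpace ℝ (Fin n)) x).symm y) := fun i =>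
    (mfderiv 𝓘(ℝ, EuclideanSpace ℝ (Fin n)) 𝓘(ℝ, EuclideanSpace ℝ (Fin n))
        (chartAt (EuclideanSpace ℝ (Fin n)) x).symm y (EuclideanSpace.single i 1)) with he
  have h1 : quadForm (chartMetric n X x) y v = inner ℝ (∑ i, v i • e i) (∑ j, v j • e j) := by
    unfold quadForm chartMetric
    simp only [Matrix.of_apply, sum_inner, inner_sum, inner_smul_left, inner_smul_right,
      RCLike.conj_to_real]
    refine Finset.sum_congr rfl fun i _ => ?_
    rw [Finset.mul_sum]
    refine Finset.sum_congr rfl fun j _ => ?_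
    rw [real_inner_comm (e i) (e j)]
    simp only [he]
    ring
  rw [h1]
  exact real_inner_self_nonneg

theorem ricciLB_mono [IsManifold 𝓘(ℝ, EuclideanSpace ℝ (Fin n)) ∞ X]
    [IsContMDiffRiemannianBundle 𝓘(ℝ, EuclideanSpace ℝ (Fin n)) ∞ (EuclideanSpace ℝ (Fin n))
      (fun x : X => TangentSpace 𝓘(ℝ, EuclideanSpace ℝ (Fin n)) x)] {K K' : ℝ}
    (h : HasRicciLowerBound n X K) (hK : K' ≤ K) : HasRicciLowerBound n X K' := by
  intro x v
  refine le_trans ?_ (h x v)
  exact mul_le_mul_of_nonneg_right hK (quadForm_chartMetric_nonneg _ _ _)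

end mono

section sc
variable {M : Type u} {n : ℕ} (r : {r : ℝ // 0 < r}) [MetricSpace M]
  [ChartedSpace (EuclideanSpace ℝ (Fin n)) M]
  [RiemannianBundle (fun x : M => TangentSpace 𝓘(ℝ, EuclideanSpace ℝ (Fin n)) x)]

theorem chartMetric_sc (x : M) :
    chartMetric n (Sc r M) (toSc r x) = fun y => (r.1 ^ 2)⁻¹ • chartMetric n M x y := by
  funext y
  ext i j
  rfl

variable [IsManifold 𝓘(ℝ, EuclideanSpace ℝ (Fin n)) ∞ M]
    [IsContMDiffRiemannianBundle 𝓘(ℝ, EuclideanSpace ℝ (Fin n)) ∞ (EuclideanSpace ℝ (Fin n))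
      (fun x : M => TangentSpace 𝓘(ℝ, EuclideanSpace ℝ (Fin n)) x)]

theorem ricciLB_sc {K : ℝ} (h : HasRicciLowerBound n M K) :
    HasRicciLowerBound n (Sc r M) (K * r.1 ^ 2) := by
  have hr := r.2
  intro x v
  have hc : (r.1 ^ 2)⁻¹ ≠ 0 := by positivity
  have h1 := h (ofSc r x) v
  have h2 := chartMetric_sc (n := n) r (ofSc r x)
  have h3 : chartCentre n (Sc r M) x = chartCentre n M (ofSc r x) := rfl
  have h4 : toSc r (ofSc r x) = x := rfl
  rw [h4] at h2
  rw [h2, h3, quadForm_smul]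
  simp only [ricci_smul hc]
  have h5 : K * r.1 ^ 2 * ((r.1 ^ 2)⁻¹ *
      quadForm (chartMetric n M (ofSc r x)) (chartCentre n M (ofSc r x)) v)
      = K * quadForm (chartMetric n M (ofSc r x)) (chartCentre n M (ofSc r x)) v := by
    field_simp
  rw [h5]
  exact h1

end sc

section measure
variable {M : Type u} (r : {r : ℝ // 0 < r}) [MetricSpace M]

theorem lip_ofSc : LipschitzWith r.1.toNNReal (ofSc r : Sc r M → M) := by
  have hr := r.2
  refine LipschitzWith.of_dist_le_mul fun x y => ?_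
  rw [Real.coe_toNNReal _ hr.le, dist_sc, ← mul_assoc, mul_inv_cancel₀ hr.ne', one_mul]

variable [MeasurableSpace M] [BorelSpace M]

theorem muHE_sc (n : ℕ) (A : Set M) :
    Measure.euclideanHausdorffMeasure n A ≤ ENNReal.ofReal (r.1 ^ n) *
      Measure.euclideanHausdorffMeasure n (ofSc r ⁻¹' A : Set (Sc r M)) := by
  have h1 := (lip_ofSc (M := M) r).hausdorffMeasure_image_le (d := n) (Nat.cast_nonneg n)
    (ofSc r ⁻¹' A)
  have h2 : ofSc r '' (ofSc r ⁻¹' A : Set (Sc r M)) = A :=
    image_preimage_eq A (fun x => ⟨toSc r x, rfl⟩)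
  rw [h2] at h1
  rw [Measure.euclideanHausdorffMeasure_def, Measure.euclideanHausdorffMeasure_def,
    Measure.smul_apply, Measure.smul_apply]
  have h3 : ((r.1.toNNReal : ℝ≥0∞)) ^ (n : ℝ) = ENNReal.ofReal (r.1 ^ n) := by
    rw [ENNReal.rpow_natCast, ENNReal.ofReal_pow r.2.le]
    rfl
  rw [h3] at h1
  rw [ENNReal.smul_def, ENNReal.smul_def, smul_eq_mul, smul_eq_mul, mul_left_comm]
  exact mul_le_mul_right h1 _

omit [MeasurableSpace M] [BorelSpace M] in
theorem ball_sc (q : M) (s : ℝ) :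
    (ofSc r ⁻¹' Metric.ball q (r.1 * s) : Set (Sc r M)) = Metric.ball (toSc r q) s := by
  have hr := r.2
  ext x
  rw [mem_preimage, Metric.mem_ball, Metric.mem_ball, dist_sc, inv_mul_lt_iff₀ hr]
  rfl

/-- lower volume bound of the rescaled unit ball. -/
theorem vol_sc (n : ℕ) (q : M) {v : ℝ}
    (h : ENNReal.ofReal (v * r.1 ^ n) ≤
      Measure.euclideanHausdorffMeasure n (Metric.ball q r.1)) :
    ENNReal.ofReal v ≤ Measure.euclideanHausdorffMeasure n (Metric.ball (toSc r q) 1) := by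
  have hr := r.2
  have h1 := h.trans (muHE_sc r n (Metric.ball q r.1))
  have h2 := ball_sc r q 1
  rw [mul_one] at h2
  rw [h2, mul_comm v, ENNReal.ofReal_mul (by positivity)] at h1
  have h3 : ENNReal.ofReal (r.1 ^ n) ≠ 0 := by
    rw [Ne, ENNReal.ofReal_eq_zero, not_le]; positivity
  exact (ENNReal.mul_le_mul_iff_right h3 ENNReal.ofReal_ne_top).1 h1

end measure

end Crest.Agent.R247.Scal386
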