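import Crest.Agent.R247.Lim1_386
import Crest.Agent.R247.Lim2_386
import Crest.Agent.R247.Scal4_386

/-!
# R247, limit step (3): S0381 from the unit-scale effective theorem and Bishop–Gromov

* `BG n` : lower volume bound at small scales from a lower bound at scale one;
* `EFF1 n` : the effective chart theorem at scale one (`Ric ≥ -ε`, unit ball `ε`-close to the
  Euclidean one, noncollapsed);
* `result_of` : the literal statement of S0381 from `BG n` and `EFF1 n`.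
-/

set_option autoImplicit false
noncomputable section
open Set Filter Topology Bundle MeasureTheory
open scoped ContDiff Manifold
open Crest.GeometryTopology.CoordMetric Crest.GeometryTopology.ChartCurvature
open Crest.GeometryTopology.PointedLimit

namespace Crest.Agent.R247.Lim386

universe u

/-- Volume lower bound at all scales `≤ 1` from the one at scale `1`. -/
def BG (n : ℕ) : Prop :=
  ∀ K v : ℝ, 0 < v → ∃ v₁ : ℝ, 0 < v₁ ∧ ∀ (M : Type u) [MetricSpace M] [CompleteSpace M]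
    [ConnectedSpace M] [ChartedSpace (EuclideanSpace ℝ (Fin n)) M]
    [IsManifold 𝓘(ℝ, EuclideanSpace ℝ (Fin n)) ∞ M]
    [RiemannianBundle (fun x : M => TangentSpace 𝓘(ℝ, EuclideanSpace ℝ (Fin n)) x)]
    [IsContMDiffRiemannianBundle 𝓘(ℝ, EuclideanSpace ℝ (Fin n)) ∞ (EuclideanSpace ℝ (Fin n))
      (fun x : M => TangentSpace 𝓘(ℝ, EuclideanSpace ℝ (Fin n)) x)]
    [IsRiemannianManifold 𝓘(ℝ, EuclideanSpace ℝ (Fin n)) M]
    [MeasurableSpace M] [BorelSpace M] (q : M),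
    HasRicciLowerBound n M K →
    ENNReal.ofReal v ≤ Measure.euclideanHausdorffMeasure n (Metric.ball q 1) →
    ∀ r : ℝ, 0 < r → r ≤ 1 →
      ENNReal.ofReal (v₁ * r ^ n) ≤ Measure.euclideanHausdorffMeasure n (Metric.ball q r)

/-- The chart conclusion at `(q, ρ)` with constant `L`. -/
def Chart (n : ℕ) {M : Type u} [MetricSpace M] (q : M) (L ρ : ℝ) : Prop :=
  ∃ F : M → EuclideanSpace ℝ (Fin n),
    (∀ x z : M, dist q x < 2 * ρ → dist q z < 2 * ρ →
      L⁻¹ * dist x z ≤ dist (F x) (F z) ∧ dist (F x) (F z) ≤ L * dist x z) ∧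
    (∀ x : M, dist q x < ρ → ∀ s : ℝ, 0 < s → s ≤ ρ →
      ∀ y, dist (F x) y < s / L → ∃ z, dist x z < s ∧ F z = y)

/-- The effective chart theorem at scale one. -/
def EFF1 (n : ℕ) : Prop :=
  ∃ L ρ : ℝ, 1 ≤ L ∧ 0 < ρ ∧ ∀ v : ℝ, 0 < v → ∃ ε : ℝ, 0 < ε ∧
    ∀ (M : Type u) [MetricSpace M] [CompleteSpace M]
    [ConnectedSpace M] [ChartedSpace (EuclideanSpace ℝ (Fin n)) M]
    [IsManifold 𝓘(ℝ, EuclideanSpace ℝ (Fin n)) ∞ M]
    [RiemannianBundle (fun x : M => TangentSpace 𝓘(ℝ, EuclideanSpace ℝ (Fin n)) x)]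
    [IsContMDiffRiemannianBundle 𝓘(ℝ, EuclideanSpace ℝ (Fin n)) ∞ (EuclideanSpace ℝ (Fin n))
      (fun x : M => TangentSpace 𝓘(ℝ, EuclideanSpace ℝ (Fin n)) x)]
    [IsRiemannianManifold 𝓘(ℝ, EuclideanSpace ℝ (Fin n)) M]
    [MeasurableSpace M] [BorelSpace M] (q : M),
    HasRicciLowerBound n M (-ε) →
    IsScaledApprox 1 q (0 : EuclideanSpace ℝ (Fin n)) ε⁻¹ ε →
    ENNReal.ofReal v ≤ Measure.euclideanHausdorffMeasure n (Metric.ball q 1) →
    Chart n q L ρ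

/-- Scaling of charts. -/
theorem chart_of_sc {n : ℕ} {M : Type u} [MetricSpace M] (r : {r : ℝ // 0 < r}) {q : M}
    {L ρ : ℝ} (hL : 1 ≤ L) (h : Chart n (Scal386.toSc r q) L ρ) : Chart n q L (r.1 * ρ) := by
  obtain ⟨F, hF1, hF2⟩ := h
  have hr := r.2
  have hL0 : 0 < L := by linarith
  have hd : ∀ x z : M, dist (Scal386.toSc r x) (Scal386.toSc r z) = r.1⁻¹ * dist x z :=
    fun x z => rfl
  refine ⟨fun x => r.1 • F (Scal386.toSc r x), ?_, ?_⟩
  · intro x z hx hz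
    have h1 := hF1 (Scal386.toSc r x) (Scal386.toSc r z)
      (by rw [hd, inv_mul_lt_iff₀ hr]; linarith) (by rw [hd, inv_mul_lt_iff₀ hr]; linarith)
    rw [hd] at h1
    have h2 : dist (r.1 • F (Scal386.toSc r x)) (r.1 • F (Scal386.toSc r z))
        = r.1 * dist (F (Scal386.toSc r x)) (F (Scal386.toSc r z)) := by
      rw [dist_smul₀, Real.norm_of_nonneg hr.le]
    simp only [h2]
    have h3 := mul_le_mul_of_nonneg_left h1.1 hr.le
    have h4 := mul_le_mul_of_nonneg_left h1.2 hr.le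
    have h5 : r.1 * (L⁻¹ * (r.1⁻¹ * dist x z)) = L⁻¹ * dist x z := by
      field_simp
    have h6 : r.1 * (L * (r.1⁻¹ * dist x z)) = L * dist x z := by
      field_simp
    rw [h5] at h3
    rw [h6] at h4
    exact ⟨h3, h4⟩
  · intro x hx s hs hsρ y hy
    have h1 : dist (F (Scal386.toSc r x)) (r.1⁻¹ • y) < (r.1⁻¹ * s) / L := by
      have h2 : dist (r.1 • F (Scal386.toSc r x)) y
          = r.1 * dist (F (Scal386.toSc r x)) (r.1⁻¹ • y) := by
        conv_lhs => rw [← one_smul ℝ y, ← mul_inv_cancel₀ hr.ne', mul_smul]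
        rw [dist_smul₀, Real.norm_of_nonneg hr.le]
      simp only [h2] at hy
      rw [mul_div_assoc, ← div_eq_inv_mul, lt_div_iff₀ hr, mul_comm]
      exact hy
    obtain ⟨z, hz1, hz2⟩ := hF2 (Scal386.toSc r x) (by
        rw [hd, inv_mul_lt_iff₀ hr]; linarith) (r.1⁻¹ * s) (by positivity)
      (by rw [inv_mul_le_iff₀ hr]; exact hsρ) _ h1
    refine ⟨Scal386.ofSc r z, ?_, ?_⟩
    · have h3 : dist (Scal386.toSc r x) z = r.1⁻¹ * dist x (Scal386.ofSc r z) := rfl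
      rw [h3] at hz1
      exact lt_of_mul_lt_mul_left hz1 (by positivity)
    · have h4 : Scal386.toSc r (Scal386.ofSc r z) = z := rfl
      simp only [h4, hz2]
      rw [smul_smul, mul_inv_cancel₀ hr.ne', one_smul]

/-- **S0381 from the effective theorem.** -/
theorem result_of (n : ℕ) (hBG : BG.{u} n) (hE : EFF1.{u} n) :
    ∃ L : ℝ, 1 ≤ L ∧
      ∀ (K : ℝ) (M : ℕ → Type u) [∀ k, MetricSpace (M k)] [∀ k, CompleteSpace (M k)]
        [∀ k, ConnectedSpace (M k)] [∀ k, ChartedSpace (EuclideanSpace ℝ (Fin n)) (M k)]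
        [∀ k, IsManifold 𝓘(ℝ, EuclideanSpace ℝ (Fin n)) ∞ (M k)]
        [∀ k, RiemannianBundle (fun x : M k => TangentSpace 𝓘(ℝ, EuclideanSpace ℝ (Fin n)) x)]
        [∀ k, IsContMDiffRiemannianBundle 𝓘(ℝ, EuclideanSpace ℝ (Fin n)) ∞ (EuclideanSpace ℝ (Fin n))
          (fun x : M k => TangentSpace 𝓘(ℝ, EuclideanSpace ℝ (Fin n)) x)]
        [∀ k, IsRiemannianManifold 𝓘(ℝ, EuclideanSpace ℝ (Fin n)) (M k)]
        [∀ k, MeasurableSpace (M k)] [∀ k, BorelSpace (M k)] (q : ∀ k, M k),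
        (∀ k, HasRicciLowerBound n (M k) K) →
        (∃ v : ℝ, 0 < v ∧ ∀ k, ENNReal.ofReal v ≤
          MeasureTheory.Measure.euclideanHausdorffMeasure n (Metric.ball (q k) 1)) →
        ∀ (X : Type u) [MetricSpace X] [CompleteSpace X] (p : X),
          SeqPointedTendsto q p → RescalingsTendstoEuclidean p n →
          ∃ U : Set X, IsOpen U ∧ p ∈ U ∧ ∃ F : X → EuclideanSpace ℝ (Fin n), IsOpen (F '' U) ∧
            ∀ x ∈ U, ∀ z ∈ U, L⁻¹ * dist x z ≤ dist (F x) (F z) ∧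
              dist (F x) (F z) ≤ L * dist x z := by
  obtain ⟨L, ρ, hL, hρ, hE⟩ := hE
  refine ⟨L, hL, ?_⟩
  intro K M _ _ _ _ _ _ _ _ _ _ q hRic hvol X _ _ p hconv hres
  obtain ⟨v, hv, hvol⟩ := hvol
  obtain ⟨v₁, hv₁, hBG⟩ := hBG K v hv
  obtain ⟨ε, hε, hE⟩ := hE v₁ hv₁
  obtain ⟨r₀, hr₀, hr₀'⟩ := comp_approx hconv hres (inv_pos.2 hε) hε
  -- choice of the scale
  obtain ⟨r, hr, hr1, hr2, hr3⟩ : ∃ r : ℝ, 0 < r ∧ r < r₀ ∧ r ≤ 1 ∧ -ε ≤ K * r ^ 2 := by
    set r : ℝ := min (r₀ / 2) (min 1 (ε / (|K| + 1))) with hrdef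
    have h0 : 0 < r := by rw [hrdef]; positivity
    have h1 : r ≤ r₀ / 2 := min_le_left _ _
    have h2 : r ≤ 1 := (min_le_right _ _).trans (min_le_left _ _)
    have h3 : r ≤ ε / (|K| + 1) := (min_le_right _ _).trans (min_le_right _ _)
    refine ⟨r, h0, by linarith, h2, ?_⟩
    rw [le_div_iff₀ (by positivity)] at h3
    have h4 : r ^ 2 ≤ r := by nlinarith
    have h5 : -|K| ≤ K := neg_abs_le K
    have h6 : 0 ≤ |K| := abs_nonneg K
    nlinarith [sq_nonneg r]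
  have hch : ∀ᶠ k in atTop, Chart n (q k) L (r * ρ) := by
    filter_upwards [hr₀' r hr hr1] with k hk
    have a1 := Scal386.ricciLB_mono (Scal386.ricciLB_sc (n := n) ⟨r, hr⟩ (hRic k)) hr3
    have a2 := Scal386.approx_sc ⟨r, hr⟩ hk
    have a3 := Scal386.vol_sc ⟨r, hr⟩ n (q k) (hBG (M k) (q k) (hRic k) (hvol k) r hr hr2)
    exact chart_of_sc ⟨r, hr⟩ hL (hE (Scal386.Sc ⟨r, hr⟩ (M k)) _ a1 a2 a3)
  have hF : ∀ k, ∃ F : M k → EuclideanSpace ℝ (Fin n), Chart n (q k) L (r * ρ) →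
      ((∀ x z : M k, dist (q k) x < 2 * (r * ρ) → dist (q k) z < 2 * (r * ρ) →
      L⁻¹ * dist x z ≤ dist (F x) (F z) ∧ dist (F x) (F z) ≤ L * dist x z) ∧
    (∀ x : M k, dist (q k) x < r * ρ → ∀ s : ℝ, 0 < s → s ≤ r * ρ →
      ∀ y, dist (F x) y < s / L → ∃ z, dist x z < s ∧ F z = y)) := by
    intro k
    by_cases hk : Chart n (q k) L (r * ρ)
    · obtain ⟨F, hF⟩ := hk
      exact ⟨F, fun _ => hF⟩
    · exact ⟨fun _ => 0, fun h => absurd h hk⟩
  choose F hF using hF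
  exact limit_chart hconv hL (by positivity : 0 < r * ρ) F
    (hch.mono fun k hk => (hF k hk).1) (hch.mono fun k hk => (hF k hk).2)

end Crest.Agent.R247.Lim386
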