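import Crest.Agent.R247.Lim3_386
import Crest.Agent.R247.Asm1_951

/-!
# R247, limit step (4): S0381 from `VC`, `BGr`, `EFF2`

* `bg_of_bgr` : `BG n` from Bishop–Gromov `Asm951.BGr n`;
* `eff1_of`   : my `EFF1` from `Asm951.EFF1`;
* `result_of_parts` : the literal statement of S0381 from `Asm951.VC`, `BGr`, `EFF2`.
-/

set_option autoImplicit false
noncomputable section
open Set Filter Topology Bundle MeasureTheory
open scoped ContDiff Manifold
open Crest.GeometryTopology.CoordMetric Crest.GeometryTopology.ChartCurvature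
open Crest.GeometryTopology.PointedLimit

namespace Crest.Agent.R247.Lim386

universe u

theorem bg_of_bgr {n : ℕ} (h : Asm951.BGr.{u} n) : BG.{u} n := by
  intro K v hv
  set δ : ℝ := |K| with hδ
  have hδ0 : 0 ≤ δ := abs_nonneg K
  refine ⟨v * Real.exp (-(δ / 2)), by positivity, ?_⟩
  intro M _ _ _ _ _ _ _ _ _ _ q hRic hvol r hr hr1
  have h1 := h δ hδ0 M q r 1 (Asm951.ricci_mono (neg_abs_le K) hRic) hr hr1
  have h2 := hvol.trans h1
  have hc : 0 < Real.exp (δ * 1 ^ 2 / 2) * (1 / r) ^ n := by positivity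
  have h3 : v * Real.exp (-(δ / 2)) * r ^ n =
      v / (Real.exp (δ * 1 ^ 2 / 2) * (1 / r) ^ n) := by
    rw [eq_div_iff hc.ne']
    have h4 : Real.exp (-(δ / 2)) * Real.exp (δ * 1 ^ 2 / 2) = 1 := by
      rw [← Real.exp_add]
      simp
    have h5 : r ^ n * (1 / r) ^ n = 1 := by
      rw [← mul_pow, mul_one_div_cancel hr.ne', one_pow]
    calc v * Real.exp (-(δ / 2)) * r ^ n * (Real.exp (δ * 1 ^ 2 / 2) * (1 / r) ^ n)
        = v * (Real.exp (-(δ / 2)) * Real.exp (δ * 1 ^ 2 / 2)) * (r ^ n * (1 / r) ^ n) := by ring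
      _ = v := by rw [h4, h5, mul_one, mul_one]
  rw [h3, ENNReal.ofReal_div_of_pos hc]
  exact ENNReal.div_le_of_le_mul' h2

theorem eff1_of {n : ℕ} (h : Asm951.EFF1.{u} n) : EFF1.{u} n := by
  obtain ⟨L, hL, ρ, hρ, _, H⟩ := h
  refine ⟨L, ρ, hL, hρ, fun v hv => ?_⟩
  obtain ⟨ε, hε, H⟩ := H v hv
  refine ⟨ε, hε, ?_⟩
  intro M _ _ _ _ _ _ _ _ _ _ q hRic hA hvol
  rw [← one_div] at hA
  obtain ⟨F, h1, h2⟩ := H M q hRic hA hvol
  refine ⟨F, fun x z hx hz => h1 x ?_ z ?_, fun x hx s hs hsρ y hy => h2 x ?_ s hs hsρ y hy⟩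
  · rw [Metric.mem_ball, dist_comm]; exact hx
  · rw [Metric.mem_ball, dist_comm]; exact hz
  · rw [Metric.mem_ball, dist_comm]; exact hx

/-- **S0381 from volume convergence, Bishop–Gromov and the volume-pinched theorem.** -/
theorem result_of_parts (n : ℕ) (hVC : Asm951.VC.{u} n) (hBG : Asm951.BGr.{u} n)
    (h2 : Asm951.EFF2.{u} n) :
    ∃ L : ℝ, 1 ≤ L ∧
      ∀ (K : ℝ) (M : ℕ → Type u) [∀ k, MetricSpace (M k)] [∀ k, CompleteSpace (M k)]
        [∀ k, ConnectedSpace (M k)] [∀ k, ChartedSpace (EuclideanSpace ℝ (Fin n)) (M k)]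
        [∀ k, IsManifold 𝓘(ℝ, EuclideanSpace ℝ (Fin n)) ∞ (M k)]
        [∀ k, RiemannianBundle (fun x : M k => TangentSpace 𝓘(ℝ, EuclideanSpace ℝ (Fin n)) x)]
        [∀ k, IsContMDiffRiemannianBundle 𝓘(ℝ, EuclideanSpace ℝ (Fin n)) ∞ (EuclideanSpace ℝ (Fin n))
          (fun x : M k => TangentSpace 𝓘(ℝ, EuclideanSpace ℝ (Fin n)) x)]
        [∀ k, IsRiemannianManifold 𝓘(ℝ, EuclideanSpace ℝ (Fin n)) (M k)]
        [∀ k, MeasurableSpace (M k)] [∀ k, BorelSpace (M k)] (q : ∀ k, M k),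
        (∀ k, HasRicciLowerBound n (M k) K) →
        (∃ v : ℝ, 0 < v ∧ ∀ k, ENNReal.ofReal v ≤
          MeasureTheory.Measure.euclideanHausdorffMeasure n (Metric.ball (q k) 1)) →
        ∀ (X : Type u) [MetricSpace X] [CompleteSpace X] (p : X),
          SeqPointedTendsto q p → RescalingsTendstoEuclidean p n →
          ∃ U : Set X, IsOpen U ∧ p ∈ U ∧ ∃ F : X → EuclideanSpace ℝ (Fin n), IsOpen (F '' U) ∧
            ∀ x ∈ U, ∀ z ∈ U, L⁻¹ * dist x z ≤ dist (F x) (F z) ∧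
              dist (F x) (F z) ≤ L * dist x z :=
  result_of n (bg_of_bgr hBG) (eff1_of (Asm951.eff1_of_eff2 hVC hBG h2))

end Crest.Agent.R247.Lim386
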