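import Crest.Agent.R247.Mcp2_688

/-!
# Local Pythagoras (L): second order Taylor along minimisers + segment inequality

Everything is stated with `ℝ≥0∞`-valued functions:
* `p u v`  = `|P_{x,v}(u)|`,
* `H`      = `|Hess w - g|`,
* `g`      = `|grad (w - f_x)|`,
* `q`      = `|w - f_x|`.
-/

set_option autoImplicit false
set_option linter.unusedSectionVars false
open MeasureTheory Set Filter Topology Crest.Agent.R247.Mcp688
open scoped ENNReal NNReal

noncomputable section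
namespace Crest.Agent.R247.Pyt710

/-- Cauchy–Schwarz for one function. -/
lemma sq_lintegral_le {α : Type*} [MeasurableSpace α] (μ : Measure α) {f : α → ℝ≥0∞}
    (hf : AEMeasurable f μ) : (∫⁻ a, f a ∂μ) ^ 2 ≤ μ univ * ∫⁻ a, f a ^ 2 ∂μ := by
  have h := ENNReal.lintegral_mul_le_Lp_mul_Lq μ Real.HolderConjugate.two_two
    (aemeasurable_const (b := (1 : ℝ≥0∞))) hf
  simp only [Pi.mul_apply, one_mul, ENNReal.one_rpow, lintegral_const] at h
  calc (∫⁻ a, f a ∂μ) ^ 2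
      ≤ ((μ univ) ^ (1 / (2 : ℝ)) * (∫⁻ a, f a ^ (2 : ℝ) ∂μ) ^ (1 / (2 : ℝ))) ^ 2 := by gcongr
    _ = μ univ * ∫⁻ a, f a ^ 2 ∂μ := by
        rw [mul_pow, ← ENNReal.rpow_natCast, ← ENNReal.rpow_mul, ← ENNReal.rpow_natCast,
          ← ENNReal.rpow_mul]
        norm_num

lemma add_sq_le (a b : ℝ≥0∞) : (a + b) ^ 2 ≤ 2 * (a ^ 2 + b ^ 2) := by
  have h := ENNReal.rpow_add_le_mul_rpow_add_rpow a b (p := 2) (by norm_num)
  simpa [show (2 : ℝ) - 1 = 1 by norm_num] using h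

lemma add4_sq_le (a b c d : ℝ≥0∞) :
    (a + b + c + d) ^ 2 ≤ 4 * (a ^ 2 + b ^ 2 + c ^ 2 + d ^ 2) := by
  calc (a + b + c + d) ^ 2 = ((a + b) + (c + d)) ^ 2 := by ring
    _ ≤ 2 * ((a + b) ^ 2 + (c + d) ^ 2) := add_sq_le _ _
    _ ≤ 2 * (2 * (a ^ 2 + b ^ 2) + 2 * (c ^ 2 + d ^ 2)) := by
        gcongr <;> exact add_sq_le _ _
    _ = 4 * (a ^ 2 + b ^ 2 + c ^ 2 + d ^ 2) := by ring

variable {n : ℕ} {κ : ℝ} {X : Type*} [MetricSpace X] [MeasurableSpace X] [BorelSpace X]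
  {μ : Measure X} (C : Rad n κ X μ)

/-- The factor in the segment inequality. -/
def segC (n : ℕ) (κ D : ℝ) : ℝ≥0∞ := ENNReal.ofReal (Real.exp (κ * D ^ 2 / 2) * 2 ^ n)

include C in
/-- **(L) local Pythagoras**, integrated form. -/
theorem pythagoras [SFinite μ] (hκ : 0 ≤ κ) {A W : Set X} (hA : MeasurableSet A)
    (hW : MeasurableSet W) {D : ℝ} (hD : ∀ x ∈ A, ∀ z ∈ A, dist x z ≤ D)
    (hAW : ∀ x ∈ A, ∀ z ∈ A, (x, z) ∈ C.U → ∀ t ∈ Icc (0 : ℝ) 1, C.T x t z ∈ W)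
    {H g q : X → ℝ≥0∞} (hH : Measurable H) (hg : Measurable g) (hq : Measurable q)
    {p : X → X → ℝ≥0∞}
    (hp : ∀ u ∈ A, ∀ v ∈ A, (u, v) ∈ C.U → p u v ≤
      ENNReal.ofReal (D ^ 2) * (∫⁻ t in Icc (0 : ℝ) 1, H (C.T u t v)) + ENNReal.ofReal D * g u
        + q u + q v) :
    ∫⁻ u in A, ∫⁻ v in A, (p u v) ^ 2 ∂μ ∂μ ≤
      4 * (ENNReal.ofReal (D ^ 4) * (segC n κ D * (μ A + μ A) * ∫⁻ y in W, H y ^ 2 ∂μ)
        + ENNReal.ofReal (D ^ 2) * (μ A * ∫⁻ u in A, g u ^ 2 ∂μ)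
        + 2 * (μ A * ∫⁻ u in A, q u ^ 2 ∂μ)) := by
  have hHT : Measurable (fun r : X × X × ℝ => H (C.T r.1 r.2.2 r.2.1) ^ 2) :=
    (hH.comp (C.measT.comp (measurable_fst.prodMk ((measurable_snd.comp measurable_snd).prodMk
      (measurable_fst.comp measurable_snd))))).pow_const 2
  have hHT' : Measurable (fun r : (X × X) × ℝ => H (C.T r.1.1 r.2 r.1.2) ^ 2) :=
    (hH.comp (C.measT.comp ((measurable_fst.comp measurable_fst).prodMk
      (measurable_snd.prodMk (measurable_snd.comp measurable_fst))))).pow_const 2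
  have hm1 : Measurable (fun r : X × X => ∫⁻ t in Icc (0 : ℝ) 1, H (C.T r.1 t r.2) ^ 2) :=
    hHT'.lintegral_prod_right'
  have key : ∀ u ∈ A, ∀ v ∈ A, (u, v) ∈ C.U → (p u v) ^ 2 ≤
      4 * (ENNReal.ofReal (D ^ 4) * ∫⁻ t in Icc (0 : ℝ) 1, H (C.T u t v) ^ 2)
      + (4 * (ENNReal.ofReal (D ^ 2) * g u ^ 2 + q u ^ 2) + 4 * q v ^ 2) := by
    intro u hu v hv hU
    have hD0 : 0 ≤ D := dist_nonneg.trans (hD u hu v hv)
    have hmt : Measurable (fun t : ℝ => H (C.T u t v)) :=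
      hH.comp (C.measT.comp (measurable_const.prodMk (measurable_id.prodMk measurable_const)))
    calc (p u v) ^ 2 ≤ (ENNReal.ofReal (D ^ 2) * (∫⁻ t in Icc (0 : ℝ) 1, H (C.T u t v))
            + ENNReal.ofReal D * g u + q u + q v) ^ 2 := by
          gcongr
          exact hp u hu v hv hU
      _ ≤ 4 * ((ENNReal.ofReal (D ^ 2) * (∫⁻ t in Icc (0 : ℝ) 1, H (C.T u t v))) ^ 2
            + (ENNReal.ofReal D * g u) ^ 2 + q u ^ 2 + q v ^ 2) := add4_sq_le _ _ _ _
      _ ≤ 4 * (ENNReal.ofReal (D ^ 4) * (∫⁻ t in Icc (0 : ℝ) 1, H (C.T u t v) ^ 2)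
            + ENNReal.ofReal (D ^ 2) * g u ^ 2 + q u ^ 2 + q v ^ 2) := by
          rw [mul_pow, mul_pow, ← ENNReal.ofReal_pow (by positivity), ← ENNReal.ofReal_pow hD0,
            ← pow_mul]
          gcongr
          have := sq_lintegral_le (volume.restrict (Icc (0 : ℝ) 1)) hmt.aemeasurable
          simpa using this
      _ = _ := by ring
  calc ∫⁻ u in A, ∫⁻ v in A, (p u v) ^ 2 ∂μ ∂μ
      ≤ ∫⁻ u in A, ∫⁻ v in A, (4 * (ENNReal.ofReal (D ^ 4) *
          ∫⁻ t in Icc (0 : ℝ) 1, H (C.T u t v) ^ 2)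
          + (4 * (ENNReal.ofReal (D ^ 2) * g u ^ 2 + q u ^ 2) + 4 * q v ^ 2)) ∂μ ∂μ := by
        apply setLIntegral_mono' hA
        intro u hu
        apply lintegral_mono_ae
        rw [ae_restrict_iff' hA]
        filter_upwards [C.ae_U u] with v hU hv
        exact key u hu v hv hU
    _ = ∫⁻ u in A, ∫⁻ v in A, 4 * (ENNReal.ofReal (D ^ 4) *
          ∫⁻ t in Icc (0 : ℝ) 1, H (C.T u t v) ^ 2) ∂μ ∂μ
        + ∫⁻ u in A, ∫⁻ v in A, (4 * (ENNReal.ofReal (D ^ 2) * g u ^ 2 + q u ^ 2)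
          + 4 * q v ^ 2) ∂μ ∂μ := by
        have h1 : ∀ u, ∫⁻ v in A, (4 * (ENNReal.ofReal (D ^ 4) *
            ∫⁻ t in Icc (0 : ℝ) 1, H (C.T u t v) ^ 2)
            + (4 * (ENNReal.ofReal (D ^ 2) * g u ^ 2 + q u ^ 2) + 4 * q v ^ 2)) ∂μ
            = ∫⁻ v in A, 4 * (ENNReal.ofReal (D ^ 4) *
              ∫⁻ t in Icc (0 : ℝ) 1, H (C.T u t v) ^ 2) ∂μ
            + ∫⁻ v in A, (4 * (ENNReal.ofReal (D ^ 2) * g u ^ 2 + q u ^ 2) + 4 * q v ^ 2) ∂μ := by
          intro u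
          apply lintegral_add_left
          exact ((hm1.comp (measurable_const.prodMk measurable_id)).const_mul _).const_mul _
        simp_rw [h1]
        apply lintegral_add_left
        exact ((hm1.const_mul _).const_mul _).lintegral_prod_right'
    _ = 4 * (ENNReal.ofReal (D ^ 4) *
          ∫⁻ u in A, ∫⁻ v in A, ∫⁻ t in Icc (0 : ℝ) 1, H (C.T u t v) ^ 2 ∂volume ∂μ ∂μ)
        + (4 * (ENNReal.ofReal (D ^ 2) * (μ A * ∫⁻ u in A, g u ^ 2 ∂μ)
          + μ A * ∫⁻ u in A, q u ^ 2 ∂μ) + 4 * (μ A * ∫⁻ v in A, q v ^ 2 ∂μ)) := by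
        congr 1
        · have h2 : ∀ u, ∫⁻ v in A, 4 * (ENNReal.ofReal (D ^ 4) *
              ∫⁻ t in Icc (0 : ℝ) 1, H (C.T u t v) ^ 2) ∂μ
              = 4 * (ENNReal.ofReal (D ^ 4) *
                ∫⁻ v in A, ∫⁻ t in Icc (0 : ℝ) 1, H (C.T u t v) ^ 2 ∂volume ∂μ) := by
            intro u
            rw [lintegral_const_mul, lintegral_const_mul]
            · exact hm1.comp (measurable_const.prodMk measurable_id)
            · exact (hm1.comp (measurable_const.prodMk measurable_id)).const_mul _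
          simp_rw [h2]
          rw [lintegral_const_mul, lintegral_const_mul]
          · exact hm1.lintegral_prod_right'
          · exact hm1.lintegral_prod_right'.const_mul _
        · have hq2 : Measurable (fun v => q v ^ 2) := hq.pow_const 2
          have hg2 : Measurable (fun v => g v ^ 2) := hg.pow_const 2
          have h3 : ∀ u, ∫⁻ v in A, (4 * (ENNReal.ofReal (D ^ 2) * g u ^ 2 + q u ^ 2)
              + 4 * q v ^ 2) ∂μ
              = 4 * (ENNReal.ofReal (D ^ 2) * g u ^ 2 + q u ^ 2) * μ A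
                + 4 * ∫⁻ v in A, q v ^ 2 ∂μ := by
            intro u
            rw [lintegral_add_left measurable_const, setLIntegral_const,
              lintegral_const_mul _ hq2]
          simp_rw [h3]
          rw [lintegral_add_right _ measurable_const, setLIntegral_const]
          have h4 : Measurable (fun v => ENNReal.ofReal (D ^ 2) * g v ^ 2 + q v ^ 2) :=
            (hg2.const_mul _).add hq2
          rw [lintegral_mul_const _ (h4.const_mul 4), lintegral_const_mul _ h4,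
            lintegral_add_left (hg2.const_mul _), lintegral_const_mul _ hg2]
          ring
    _ ≤ 4 * (ENNReal.ofReal (D ^ 4) * (segC n κ D * (μ A + μ A) * ∫⁻ y in W, H y ^ 2 ∂μ))
        + (4 * (ENNReal.ofReal (D ^ 2) * (μ A * ∫⁻ u in A, g u ^ 2 ∂μ)
          + μ A * ∫⁻ u in A, q u ^ 2 ∂μ) + 4 * (μ A * ∫⁻ v in A, q v ^ 2 ∂μ)) := by
        gcongr
        exact C.segment_le hκ hA hA hW hD hAW (hH.pow_const 2)
    _ = _ := by ring

include C in
/-- **Poincaré inequality `(1,1)`** in the form used for (L2): pairs. -/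
theorem poincare_pairs [SFinite μ] (hκ : 0 ≤ κ) {A W : Set X} (hA : MeasurableSet A)
    (hW : MeasurableSet W) {D : ℝ} (hD : ∀ x ∈ A, ∀ z ∈ A, dist x z ≤ D)
    (hAW : ∀ x ∈ A, ∀ z ∈ A, (x, z) ∈ C.U → ∀ t ∈ Icc (0 : ℝ) 1, C.T x t z ∈ W)
    {G a : X → ℝ≥0∞} (hG : Measurable G) (ha : Measurable a)
    {F : X → ℝ}
    (hF : ∀ u ∈ A, ∀ v ∈ A, (u, v) ∈ C.U → ENNReal.ofReal |F u - F v| ≤
      ENNReal.ofReal D * (∫⁻ t in Icc (0 : ℝ) 1, G (C.T u t v)) + a u + a v) :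
    ∫⁻ u in A, ∫⁻ v in A, ENNReal.ofReal |F u - F v| ∂μ ∂μ ≤
      ENNReal.ofReal D * (segC n κ D * (μ A + μ A) * ∫⁻ y in W, G y ∂μ)
        + 2 * (μ A * ∫⁻ u in A, a u ∂μ) := by
  have hHT' : Measurable (fun r : (X × X) × ℝ => G (C.T r.1.1 r.2 r.1.2)) :=
    (hG.comp (C.measT.comp ((measurable_fst.comp measurable_fst).prodMk
      (measurable_snd.prodMk (measurable_snd.comp measurable_fst)))))
  have hm1 : Measurable (fun r : X × X => ∫⁻ t in Icc (0 : ℝ) 1, G (C.T r.1 t r.2)) :=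
    hHT'.lintegral_prod_right'
  calc ∫⁻ u in A, ∫⁻ v in A, ENNReal.ofReal |F u - F v| ∂μ ∂μ
      ≤ ∫⁻ u in A, ∫⁻ v in A, (ENNReal.ofReal D * (∫⁻ t in Icc (0 : ℝ) 1, G (C.T u t v))
          + (a u + a v)) ∂μ ∂μ := by
        apply setLIntegral_mono' hA
        intro u hu
        apply lintegral_mono_ae
        rw [ae_restrict_iff' hA]
        filter_upwards [C.ae_U u] with v hU hv
        rw [← add_assoc]
        exact hF u hu v hv hU
    _ = (∫⁻ u in A, ∫⁻ v in A, ENNReal.ofReal D * (∫⁻ t in Icc (0 : ℝ) 1, G (C.T u t v)) ∂μ ∂μ)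
        + ∫⁻ u in A, ∫⁻ v in A, (a u + a v) ∂μ ∂μ := by
        have h1 : ∀ u, ∫⁻ v in A, (ENNReal.ofReal D * (∫⁻ t in Icc (0 : ℝ) 1, G (C.T u t v))
            + (a u + a v)) ∂μ
            = (∫⁻ v in A, ENNReal.ofReal D * (∫⁻ t in Icc (0 : ℝ) 1, G (C.T u t v)) ∂μ)
            + ∫⁻ v in A, (a u + a v) ∂μ := by
          intro u
          apply lintegral_add_left
          exact (hm1.comp (measurable_const.prodMk measurable_id)).const_mul _
        simp_rw [h1]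
        apply lintegral_add_left
        exact (hm1.const_mul _).lintegral_prod_right'
    _ = ENNReal.ofReal D *
          ∫⁻ u in A, ∫⁻ v in A, ∫⁻ t in Icc (0 : ℝ) 1, G (C.T u t v) ∂volume ∂μ ∂μ
        + (μ A * ∫⁻ u in A, a u ∂μ + μ A * ∫⁻ v in A, a v ∂μ) := by
        congr 1
        · have h2 : ∀ u, ∫⁻ v in A, ENNReal.ofReal D *
              (∫⁻ t in Icc (0 : ℝ) 1, G (C.T u t v)) ∂μ
              = ENNReal.ofReal D *
                ∫⁻ v in A, ∫⁻ t in Icc (0 : ℝ) 1, G (C.T u t v) ∂volume ∂μ := by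
            intro u
            rw [lintegral_const_mul]
            exact hm1.comp (measurable_const.prodMk measurable_id)
          simp_rw [h2]
          rw [lintegral_const_mul]
          exact hm1.lintegral_prod_right'
        · have h3 : ∀ u, ∫⁻ v in A, (a u + a v) ∂μ = a u * μ A + ∫⁻ v in A, a v ∂μ := by
            intro u
            rw [lintegral_add_left measurable_const, setLIntegral_const]
          simp_rw [h3]
          rw [lintegral_add_right _ measurable_const, setLIntegral_const,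
            lintegral_mul_const _ ha]
          ring
    _ ≤ ENNReal.ofReal D * (segC n κ D * (μ A + μ A) * ∫⁻ y in W, G y ∂μ)
        + (μ A * ∫⁻ u in A, a u ∂μ + μ A * ∫⁻ v in A, a v ∂μ) := by
        gcongr
        exact C.segment_le hκ hA hA hW hD hAW hG
    _ = _ := by ring


include C in
/-- **(L)**, version with the pointwise inequality for almost every pair only. -/
theorem pythagoras_ae [SFinite μ] (hκ : 0 ≤ κ) {A W : Set X} (hA : MeasurableSet A)
    (hW : MeasurableSet W) {D : ℝ} (hD : ∀ x ∈ A, ∀ z ∈ A, dist x z ≤ D)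
    (hAW : ∀ x ∈ A, ∀ z ∈ A, (x, z) ∈ C.U → ∀ t ∈ Icc (0 : ℝ) 1, C.T x t z ∈ W)
    {H g q : X → ℝ≥0∞} (hH : Measurable H) (hg : Measurable g) (hq : Measurable q)
    {p : X → X → ℝ≥0∞}
    (hp : ∀ᵐ u ∂(μ.restrict A), ∀ᵐ v ∂(μ.restrict A), p u v ≤
      ENNReal.ofReal (D ^ 2) * (∫⁻ t in Icc (0 : ℝ) 1, H (C.T u t v)) + ENNReal.ofReal D * g u
        + q u + q v) :
    ∫⁻ u in A, ∫⁻ v in A, (p u v) ^ 2 ∂μ ∂μ ≤
      4 * (ENNReal.ofReal (D ^ 4) * (segC n κ D * (μ A + μ A) * ∫⁻ y in W, H y ^ 2 ∂μ)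
        + ENNReal.ofReal (D ^ 2) * (μ A * ∫⁻ u in A, g u ^ 2 ∂μ)
        + 2 * (μ A * ∫⁻ u in A, q u ^ 2 ∂μ)) := by
  refine le_trans ?_ (pythagoras C hκ hA hW hD hAW hH hg hq
    (p := fun u v => ENNReal.ofReal (D ^ 2) * (∫⁻ t in Icc (0 : ℝ) 1, H (C.T u t v))
      + ENNReal.ofReal D * g u + q u + q v) (fun u _ v _ _ => le_rfl))
  apply lintegral_mono_ae
  filter_upwards [hp] with u hu
  apply lintegral_mono_ae
  filter_upwards [hu] with v hv
  gcongr

include C in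
/-- Poincaré on pairs, version with the pointwise inequality for almost every pair only. -/
theorem poincare_pairs_ae [SFinite μ] (hκ : 0 ≤ κ) {A W : Set X} (hA : MeasurableSet A)
    (hW : MeasurableSet W) {D : ℝ} (hD : ∀ x ∈ A, ∀ z ∈ A, dist x z ≤ D)
    (hAW : ∀ x ∈ A, ∀ z ∈ A, (x, z) ∈ C.U → ∀ t ∈ Icc (0 : ℝ) 1, C.T x t z ∈ W)
    {G a : X → ℝ≥0∞} (hG : Measurable G) (ha : Measurable a)
    {F : X → ℝ}
    (hF : ∀ᵐ u ∂(μ.restrict A), ∀ᵐ v ∂(μ.restrict A), ENNReal.ofReal |F u - F v| ≤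
      ENNReal.ofReal D * (∫⁻ t in Icc (0 : ℝ) 1, G (C.T u t v)) + a u + a v) :
    ∫⁻ u in A, ∫⁻ v in A, ENNReal.ofReal |F u - F v| ∂μ ∂μ ≤
      ENNReal.ofReal D * (segC n κ D * (μ A + μ A) * ∫⁻ y in W, G y ∂μ)
        + 2 * (μ A * ∫⁻ u in A, a u ∂μ) := by
  have hHT' : Measurable (fun r : (X × X) × ℝ => G (C.T r.1.1 r.2 r.1.2)) :=
    (hG.comp (C.measT.comp ((measurable_fst.comp measurable_fst).prodMk
      (measurable_snd.prodMk (measurable_snd.comp measurable_fst)))))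
  have hm1 : Measurable (fun r : X × X => ∫⁻ t in Icc (0 : ℝ) 1, G (C.T r.1 t r.2)) :=
    hHT'.lintegral_prod_right'
  calc ∫⁻ u in A, ∫⁻ v in A, ENNReal.ofReal |F u - F v| ∂μ ∂μ
      ≤ ∫⁻ u in A, ∫⁻ v in A, (ENNReal.ofReal D * (∫⁻ t in Icc (0 : ℝ) 1, G (C.T u t v))
          + (a u + a v)) ∂μ ∂μ := by
        apply lintegral_mono_ae
        filter_upwards [hF] with u hu
        apply lintegral_mono_ae
        filter_upwards [hu] with v hv
        rw [← add_assoc]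
        exact hv
    _ = (∫⁻ u in A, ∫⁻ v in A, ENNReal.ofReal D * (∫⁻ t in Icc (0 : ℝ) 1, G (C.T u t v)) ∂μ ∂μ)
        + ∫⁻ u in A, ∫⁻ v in A, (a u + a v) ∂μ ∂μ := by
        have h1 : ∀ u, ∫⁻ v in A, (ENNReal.ofReal D * (∫⁻ t in Icc (0 : ℝ) 1, G (C.T u t v))
            + (a u + a v)) ∂μ
            = (∫⁻ v in A, ENNReal.ofReal D * (∫⁻ t in Icc (0 : ℝ) 1, G (C.T u t v)) ∂μ)
            + ∫⁻ v in A, (a u + a v) ∂μ := by
          intro u
          apply lintegral_add_left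
          exact (hm1.comp (measurable_const.prodMk measurable_id)).const_mul _
        simp_rw [h1]
        apply lintegral_add_left
        exact (hm1.const_mul _).lintegral_prod_right'
    _ = ENNReal.ofReal D *
          ∫⁻ u in A, ∫⁻ v in A, ∫⁻ t in Icc (0 : ℝ) 1, G (C.T u t v) ∂volume ∂μ ∂μ
        + (μ A * ∫⁻ u in A, a u ∂μ + μ A * ∫⁻ v in A, a v ∂μ) := by
        congr 1
        · have h2 : ∀ u, ∫⁻ v in A, ENNReal.ofReal D *
              (∫⁻ t in Icc (0 : ℝ) 1, G (C.T u t v)) ∂μ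
              = ENNReal.ofReal D *
                ∫⁻ v in A, ∫⁻ t in Icc (0 : ℝ) 1, G (C.T u t v) ∂volume ∂μ := by
            intro u
            rw [lintegral_const_mul]
            exact hm1.comp (measurable_const.prodMk measurable_id)
          simp_rw [h2]
          rw [lintegral_const_mul]
          exact hm1.lintegral_prod_right'
        · have h3 : ∀ u, ∫⁻ v in A, (a u + a v) ∂μ = a u * μ A + ∫⁻ v in A, a v ∂μ := by
            intro u
            rw [lintegral_add_left measurable_const, setLIntegral_const]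
          simp_rw [h3]
          rw [lintegral_add_right _ measurable_const, setLIntegral_const,
            lintegral_mul_const _ ha]
          ring
    _ ≤ ENNReal.ofReal D * (segC n κ D * (μ A + μ A) * ∫⁻ y in W, G y ∂μ)
        + (μ A * ∫⁻ u in A, a u ∂μ + μ A * ∫⁻ v in A, a v ∂μ) := by
        gcongr
        exact C.segment_le hκ hA hA hW hD hAW hG
    _ = _ := by ring

/-- From pairs to deviation from the mean. -/
theorem dev_mean_le {A : Set X} (hA0 : μ A ≠ 0) (hA1 : μ A ≠ ∞)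
    {F : X → ℝ} (hF : IntegrableOn F A μ) {K : ℝ≥0∞}
    (h : ∫⁻ u in A, ∫⁻ v in A, ENNReal.ofReal |F u - F v| ∂μ ∂μ ≤ μ A * K) :
    ∫⁻ u in A, ENNReal.ofReal |F u - ⨍ v in A, F v ∂μ| ∂μ ≤ K := by
  have hpos : 0 < (μ A).toReal := ENNReal.toReal_pos hA0 hA1
  have key : ∀ u, μ A * ENNReal.ofReal |F u - ⨍ v in A, F v ∂μ|
      ≤ ∫⁻ v in A, ENNReal.ofReal |F u - F v| ∂μ := by
    intro u
    have hint : IntegrableOn (fun v => F u - F v) A μ :=
      (integrableOn_const (C := F u) hA1).sub hF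
    have h1 : (μ A).toReal * (F u - ⨍ v in A, F v ∂μ) = ∫ v in A, (F u - F v) ∂μ := by
      rw [integral_sub (integrableOn_const (C := F u) hA1) hF, setIntegral_const, setAverage_eq]
      simp only [smul_eq_mul, Measure.real]
      field_simp
    have h2 : |(μ A).toReal * (F u - ⨍ v in A, F v ∂μ)| ≤ ∫ v in A, |F u - F v| ∂μ := by
      rw [h1]
      exact abs_integral_le_integral_abs
    rw [abs_mul, abs_of_pos hpos] at h2
    have h3 : ENNReal.ofReal (∫ v in A, |F u - F v| ∂μ)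
        = ∫⁻ v in A, ENNReal.ofReal |F u - F v| ∂μ :=
      ofReal_integral_eq_lintegral_ofReal hint.abs (Eventually.of_forall fun v => abs_nonneg _)
    calc μ A * ENNReal.ofReal |F u - ⨍ v in A, F v ∂μ|
        = ENNReal.ofReal ((μ A).toReal * |F u - ⨍ v in A, F v ∂μ|) := by
          rw [ENNReal.ofReal_mul hpos.le, ENNReal.ofReal_toReal hA1]
      _ ≤ ENNReal.ofReal (∫ v in A, |F u - F v| ∂μ) := ENNReal.ofReal_le_ofReal h2
      _ = _ := h3
  have h4 : μ A * ∫⁻ u in A, ENNReal.ofReal |F u - ⨍ v in A, F v ∂μ| ∂μ ≤ μ A * K := by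
    rw [← lintegral_const_mul' _ _ hA1]
    exact (lintegral_mono key).trans h
  exact (ENNReal.mul_le_mul_iff_right hA0 hA1).1 h4

end Crest.Agent.R247.Pyt710
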