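import Crest.Agent.R247.Cal_550
import Crest.Agent.R247.Pyt1_710

/-!
# The local Pythagoras inequality (L) is a consequence of `FarD` (helper596)

`L_of_far`: for the far-propagation data at the centre `x`, thickness `dy j`,
`∫_B ∫_B |Γ(f_x,f_v)(z) - f_x(z) - f_v(z) + f_x(v)|² dv dz ≤ A · ph j · (dy j)^(2n+4)`,
`B = ball x (8 dy j)`.
-/

set_option autoImplicit false
set_option linter.unusedSectionVars false
open MeasureTheory Set Filter Topology Metric
open scoped ENNReal NNReal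

noncomputable section
namespace Crest.Agent.R247.Loc596

open Crest.Agent.R247.Mcp688 Crest.Agent.R247.Far553 Crest.Agent.R247.Cal550

/-! ### one minimiser -/

section one

variable {l ρ : ℝ} {G qs ks Hs gs nks : ℝ → ℝ} {Dw gz : ℝ}

lemma U_eq (hl : 0 < l) (A : AlongD l ρ G qs ks Hs gs nks Dw gz) :
    |A.U l - A.U 0 - l * A.U1 0 - l ^ 2 / 2| ≤ l * ∫ τ in (0 : ℝ)..l, Hs τ := by
  have h0 : (0 : ℝ) ∈ Icc 0 l := ⟨le_rfl, hl.le⟩
  have h1 : l ∈ Icc 0 l := ⟨hl.le, le_rfl⟩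
  have e1 := A.ftc_U 0 h0 l h1
  have hUI : IntervalIntegrable A.U1 volume 0 l := by
    apply ContinuousOn.intervalIntegrable
    rw [uIcc_of_le hl.le]
    exact A.U1_cont
  have e2 : A.U l - A.U 0 - l * A.U1 0 - l ^ 2 / 2 = ∫ τ in (0 : ℝ)..l, (A.U1 τ - A.U1 0 - τ) := by
    have hid : IntervalIntegrable (fun τ : ℝ => τ) volume 0 l := continuous_id.intervalIntegrable _ _
    rw [intervalIntegral.integral_sub (hUI.sub intervalIntegrable_const)
      hid, intervalIntegral.integral_sub hUI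
      intervalIntegrable_const, ← e1]
    simp only [intervalIntegral.integral_const, integral_id, smul_eq_mul, sub_zero]
    ring
  have hH0 : ∀ τ ∈ Icc (0 : ℝ) l, |A.U1 τ - A.U1 0 - τ| ≤ ∫ s in (0 : ℝ)..l, Hs s := by
    intro τ hτ
    have e3 := A.ftc_U1 0 h0 τ hτ
    have heI : IntervalIntegrable A.e volume 0 τ := A.e_int.mono_set (by
      rw [uIcc_of_le hτ.1, uIcc_of_le hl.le]
      exact Icc_subset_Icc le_rfl hτ.2)
    have e4 : A.U1 τ - A.U1 0 - τ = ∫ s in (0 : ℝ)..τ, A.e s := by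
      rw [e3, intervalIntegral.integral_add intervalIntegrable_const heI]
      simp
    rw [e4]
    have hIoo : ∀ᵐ s ∂(volume.restrict (Ioc (0 : ℝ) l)), |A.e s| ≤ Hs s := by
      rw [← restrict_Ioo_eq_restrict_Ioc]
      exact A.e_le
    calc |∫ s in (0 : ℝ)..τ, A.e s| ≤ ∫ s in (0 : ℝ)..τ, |A.e s| :=
          intervalIntegral.abs_integral_le_integral_abs hτ.1
      _ ≤ ∫ s in (0 : ℝ)..l, |A.e s| := by
          apply intervalIntegral.integral_mono_interval le_rfl hτ.1 hτ.2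
          · exact Eventually.of_forall fun s => abs_nonneg _
          · exact A.e_int.abs
      _ ≤ ∫ s in (0 : ℝ)..l, Hs s := by
          apply intervalIntegral.integral_mono_ae_restrict hl.le A.e_int.abs A.Hs_int
          rw [← restrict_Ioo_eq_restrict_Icc]
          exact A.e_le
  rw [e2]
  have h5 : ‖∫ τ in (0 : ℝ)..l, (A.U1 τ - A.U1 0 - τ)‖ ≤
      (∫ s in (0 : ℝ)..l, Hs s) * |l - 0| := by
    apply intervalIntegral.norm_integral_le_of_norm_le_const
    intro τ hτ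
    rw [uIoc_of_le hl.le] at hτ
    rw [Real.norm_eq_abs]
    exact hH0 τ ⟨hτ.1.le, hτ.2⟩
  rw [Real.norm_eq_abs, sub_zero, abs_of_pos hl, mul_comm] at h5
  exact h5

/-- pointwise form of the local Pythagoras along one minimiser -/
lemma pyth_one (hl : 0 < l) (A : AlongD l ρ G qs ks Hs gs nks Dw gz) :
    |l * Dw - G 0 - l ^ 2 / 2 + G l| ≤
      l * (ρ * gz) + l * (∫ τ in (0 : ℝ)..l, Hs τ) + |G 0 - A.U 0| + |G l - A.U l| := by
  have h1 := U_eq hl A
  have h2 := mul_le_mul_of_nonneg_left A.first hl.le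
  have e : l * Dw - G 0 - l ^ 2 / 2 + G l = l * (A.U1 0 + Dw) +
      (A.U l - A.U 0 - l * A.U1 0 - l ^ 2 / 2) + (-(G 0 - A.U 0)) + (G l - A.U l) := by ring
  rw [e]
  refine (abs_add_le _ _).trans ?_
  refine add_le_add ((abs_add_le _ _).trans (add_le_add ((abs_add_le _ _).trans
    (add_le_add ?_ h1)) (abs_neg _).le)) le_rfl
  rw [abs_mul, abs_of_pos hl]
  exact h2

/-- square form -/
lemma pyth_one_sq (hl : 0 < l) (A : AlongD l ρ G qs ks Hs gs nks Dw gz) :
    (l * Dw - G 0 - l ^ 2 / 2 + G l) ^ 2 ≤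
      4 * ((l * (ρ * gz)) ^ 2 + (l * (∫ τ in (0 : ℝ)..l, Hs τ)) ^ 2 + (G 0 - A.U 0) ^ 2 +
        (G l - A.U l) ^ 2) := by
  have h := pyth_one hl A
  have h1 : (l * Dw - G 0 - l ^ 2 / 2 + G l) ^ 2 ≤ (l * (ρ * gz) + l * (∫ τ in (0 : ℝ)..l, Hs τ) +
      |G 0 - A.U 0| + |G l - A.U l|) ^ 2 := by
    rw [← sq_abs (l * Dw - G 0 - l ^ 2 / 2 + G l)]
    exact pow_le_pow_left₀ (abs_nonneg _) h 2
  refine h1.trans ?_
  rw [← sq_abs (G 0 - A.U 0), ← sq_abs (G l - A.U l)]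
  generalize l * (ρ * gz) = a
  generalize l * (∫ τ in (0 : ℝ)..l, Hs τ) = b
  generalize |G 0 - A.U 0| = c
  generalize |G l - A.U l| = d
  nlinarith [sq_nonneg (a - b), sq_nonneg (a - c), sq_nonneg (a - d), sq_nonneg (b - c),
    sq_nonneg (b - d), sq_nonneg (c - d)]

/-- `U` is continuous -/
lemma U_cont (hl : 0 < l) (A : AlongD l ρ G qs ks Hs gs nks Dw gz) :
    ContinuousOn A.U (Icc 0 l) := by
  have hUI : IntegrableOn A.U1 (uIcc 0 l) volume := by
    rw [uIcc_of_le hl.le]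
    exact A.U1_cont.integrableOn_Icc
  have h := intervalIntegral.continuousOn_primitive_interval hUI
  rw [uIcc_of_le hl.le] at h
  refine (h.add (continuousOn_const (c := A.U 0))).congr fun τ hτ => ?_
  have := A.ftc_U 0 ⟨le_rfl, hl.le⟩ τ hτ
  show A.U τ = (∫ t in (0 : ℝ)..τ, A.U1 t) + A.U 0
  linarith

end one

/-! ### lower semicontinuity of the end values -/

lemma le_liminf_left {w : ℝ → ℝ≥0∞} (hw : ContinuousOn w (Icc 0 1)) :
    w 0 ≤ liminf (fun k : ℕ => ENNReal.ofReal ((k : ℝ) + 2) *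
      ∫⁻ t in Icc (0 : ℝ) (1 / ((k : ℝ) + 2)), w t) atTop := by
  refine le_of_forall_lt fun c hc => ?_
  obtain ⟨c', hc1, hc2⟩ := exists_between hc
  refine lt_of_lt_of_le hc1 ?_
  refine le_liminf_of_le (by isBoundedDefault) ?_
  have h0 : ContinuousWithinAt w (Icc 0 1) 0 := hw 0 ⟨le_rfl, zero_le_one⟩
  have h1 : ∀ᶠ t in 𝓝[Icc 0 1] (0 : ℝ), c' < w t := h0.eventually (lt_mem_nhds hc2)
  obtain ⟨ε, hε, hb⟩ := Metric.mem_nhdsWithin_iff.1 h1
  have h2 : ∀ᶠ k : ℕ in atTop, 1 / ((k : ℝ) + 1) < ε :=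
    (tendsto_one_div_add_atTop_nhds_zero_nat (𝕜 := ℝ)).eventually (gt_mem_nhds hε)
  filter_upwards [h2] with k hk
  have hk2 : (0 : ℝ) < (k : ℝ) + 2 := by positivity
  have hk3 : 1 / ((k : ℝ) + 2) ≤ 1 / ((k : ℝ) + 1) := by
    apply one_div_le_one_div_of_le (by positivity); linarith
  have hk4 : 1 / ((k : ℝ) + 2) ≤ 1 := by
    rw [div_le_one hk2]; have : (0 : ℝ) ≤ k := Nat.cast_nonneg k; linarith
  calc c' = ENNReal.ofReal ((k : ℝ) + 2) * (c' * volume (Icc (0 : ℝ) (1 / ((k : ℝ) + 2)))) := by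
        rw [Real.volume_Icc, sub_zero, mul_comm c', ← mul_assoc, ← ENNReal.ofReal_mul hk2.le,
          mul_one_div_cancel hk2.ne', ENNReal.ofReal_one, one_mul]
    _ = ENNReal.ofReal ((k : ℝ) + 2) * ∫⁻ _ in Icc (0 : ℝ) (1 / ((k : ℝ) + 2)), c' := by
        rw [setLIntegral_const]
    _ ≤ _ := by
        refine mul_le_mul_right (setLIntegral_mono' measurableSet_Icc fun t ht => ?_) _
        refine (hb ⟨?_, ht.1, ht.2.trans hk4⟩).le
        rw [mem_ball, Real.dist_eq, sub_zero, abs_of_nonneg ht.1]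
        exact lt_of_le_of_lt (ht.2.trans hk3) hk

lemma le_liminf_right {w : ℝ → ℝ≥0∞} (hw : ContinuousOn w (Icc 0 1)) :
    w 1 ≤ liminf (fun k : ℕ => ENNReal.ofReal ((k : ℝ) + 2) *
      ∫⁻ t in Icc (1 - 1 / ((k : ℝ) + 2)) (1 : ℝ), w t) atTop := by
  have h : ContinuousOn (fun t => w (1 - t)) (Icc 0 1) := by
    refine hw.comp (continuous_const.sub continuous_id).continuousOn fun t ht => ?_
    exact ⟨by linarith [ht.2], by linarith [ht.1]⟩
  have h1 := le_liminf_left h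
  simp only [sub_zero] at h1
  refine h1.trans (le_of_eq ?_)
  congr 1
  ext k
  congr 1
  have hmp : MeasurePreserving (fun t : ℝ => 1 - t) volume volume :=
    Measure.measurePreserving_sub_left volume 1
  have hme : MeasurableEmbedding (fun t : ℝ => 1 - t) :=
    (Homeomorph.subLeft (1 : ℝ)).measurableEmbedding
  have e := hmp.setLIntegral_comp_preimage_emb hme w (Icc (1 - 1 / ((k : ℝ) + 2)) (1 : ℝ))
  rw [← e]
  congr 2
  ext t
  simp only [mem_Icc, mem_preimage]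
  constructor
  · rintro ⟨a, b⟩; exact ⟨by linarith, by linarith⟩
  · rintro ⟨a, b⟩; exact ⟨by linarith, by linarith⟩

lemma reflect (w : ℝ → ℝ≥0∞) (a : ℝ) :
    ∫⁻ t in Icc (0 : ℝ) a, w (1 - t) = ∫⁻ t in Icc (1 - a) (1 : ℝ), w t := by
  have hmp : MeasurePreserving (fun t : ℝ => 1 - t) volume volume :=
    Measure.measurePreserving_sub_left volume 1
  have hme : MeasurableEmbedding (fun t : ℝ => 1 - t) :=
    (Homeomorph.subLeft (1 : ℝ)).measurableEmbedding
  have e := hmp.setLIntegral_comp_preimage_emb hme w (Icc (1 - a) (1 : ℝ))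
  rw [← e]
  congr 2
  ext t
  simp only [mem_Icc, mem_preimage]
  constructor
  · rintro ⟨a, b⟩; exact ⟨by linarith, by linarith⟩
  · rintro ⟨a, b⟩; exact ⟨by linarith, by linarith⟩

/-! ### one pair of points -/

section pair

variable {n : ℕ} {κ : ℝ} {X : Type*} [MetricSpace X] [MeasurableSpace X] [BorelSpace X]
  {μ : Measure X} (C : Rad n κ X μ)

/-- the average of `F` over the beginning of the segment -/
def AL (F : X → ℝ≥0∞) (k : ℕ) (p : X × X) : ℝ≥0∞ :=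
  ENNReal.ofReal ((k : ℝ) + 2) * ∫⁻ t in Icc (0 : ℝ) (1 / ((k : ℝ) + 2)), F (C.T p.1 t p.2)

/-- the average of `F` over the end of the segment -/
def AR (F : X → ℝ≥0∞) (k : ℕ) (p : X × X) : ℝ≥0∞ :=
  ENNReal.ofReal ((k : ℝ) + 2) * ∫⁻ t in Icc (1 - 1 / ((k : ℝ) + 2)) (1 : ℝ), F (C.T p.1 t p.2)

lemma measurable_seg {F : X → ℝ≥0∞} (hF : Measurable F) :
    Measurable (fun r : (X × X) × ℝ => F (C.T r.1.1 r.2 r.1.2)) :=
  hF.comp (C.measT.comp ((measurable_fst.comp measurable_fst).prodMk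
    (measurable_snd.prodMk (measurable_snd.comp measurable_fst))))

lemma measurable_AL {F : X → ℝ≥0∞} (hF : Measurable F) (k : ℕ) : Measurable (AL C F k) :=
  (measurable_seg C hF).lintegral_prod_right'.const_mul _

lemma measurable_AR {F : X → ℝ≥0∞} (hF : Measurable F) (k : ℕ) : Measurable (AR C F k) :=
  (measurable_seg C hF).lintegral_prod_right'.const_mul _

lemma AL_eq_AR {F : X → ℝ≥0∞} {z v : X} (h : (z, v) ∈ C.U) (k : ℕ) :
    AL C F k (z, v) = AR C F k (v, z) := by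
  unfold AL AR
  rw [← reflect]
  congr 1
  refine setLIntegral_congr_fun measurableSet_Icc fun t ht => ?_
  have h1 : t ∈ Icc (0 : ℝ) 1 := by
    refine ⟨ht.1, ht.2.trans ?_⟩
    rw [div_le_one (by positivity)]
    have : (0 : ℝ) ≤ k := Nat.cast_nonneg k
    linarith
  show F (C.T z t v) = F (C.T v (1 - t) z)
  rw [C.T_symm v z (C.symm z v h) t h1]

lemma ae_scale {l : ℝ} (hl : 0 < l) {p : ℝ → Prop}
    (h : ∀ᵐ τ ∂(volume.restrict (Ioo 0 l)), p τ) :
    ∀ᵐ t ∂(volume.restrict (Ioo (0 : ℝ) 1)), p (l * t) := by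
  rw [ae_restrict_iff' measurableSet_Ioo] at h ⊢
  have h1 : ∀ᵐ t ∂(volume : Measure ℝ), l * t ∈ Ioo 0 l → p (l * t) := by
    rw [ae_iff] at h ⊢
    have e : {t : ℝ | ¬(l * t ∈ Ioo 0 l → p (l * t))} =
        (fun t => l * t) ⁻¹' {τ | ¬(τ ∈ Ioo 0 l → p τ)} := rfl
    rw [e, Real.volume_preimage_mul_left hl.ne', h, mul_zero]
  filter_upwards [h1] with t ht h2
  exact ht ⟨by nlinarith [h2.1], by nlinarith [h2.2]⟩

/-- the bound for one pair -/
lemma pair_le {x z v : X} (hU : (z, v) ∈ C.U) (hne : z ≠ v) {ρ Dw gz Λ : ℝ} {H q : X → ℝ}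
    (hH : Measurable H) (hH0 : ∀ y, 0 ≤ H y)
    {ks gs nks : ℝ → ℝ} (hΛ : dist z v ≤ Λ)
    (A : AlongD (dist z v) ρ (fun τ => dist x (ray C z v τ) ^ 2 / 2)
        (fun τ => q (ray C z v τ)) ks (fun τ => H (ray C z v τ)) gs nks Dw gz) :
    ENNReal.ofReal ((dist z v * Dw - dist x z ^ 2 / 2 - dist z v ^ 2 / 2 + dist x v ^ 2 / 2) ^ 2) ≤
      4 * (ENNReal.ofReal ((Λ * ρ) ^ 2) * ENNReal.ofReal (gz ^ 2) +
        ENNReal.ofReal (Λ ^ 4) * (∫⁻ t in Icc (0 : ℝ) 1, ENNReal.ofReal (H (C.T z t v) ^ 2)) +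
        liminf (fun k => AL C (fun y => ENNReal.ofReal ((ρ ^ 2 * q y) ^ 2)) k (z, v)) atTop +
        liminf (fun k => AR C (fun y => ENNReal.ofReal ((ρ ^ 2 * q y) ^ 2)) k (z, v)) atTop) := by
  set l := dist z v with hldef
  have hl : 0 < l := dist_pos.2 hne
  set G : ℝ → ℝ := fun τ => dist x (ray C z v τ) ^ 2 / 2 with hG
  have hr0 : ray C z v 0 = z := by
    unfold ray; rw [zero_div, C.T_zero z v hU]
  have hrl : ray C z v l = v := by
    unfold ray; rw [← hldef, div_self hl.ne', C.T_one z v hU]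
  have hrt : ∀ t : ℝ, ray C z v (l * t) = C.T z t v := by
    intro t; unfold ray; rw [← hldef, mul_div_cancel_left₀ t hl.ne']
  have hG0 : G 0 = dist x z ^ 2 / 2 := by show dist x (ray C z v 0) ^ 2 / 2 = _; rw [hr0]
  have hGl : G l = dist x v ^ 2 / 2 := by show dist x (ray C z v l) ^ 2 / 2 = _; rw [hrl]
  have h1 := pyth_one_sq hl A
  rw [← hG0, ← hGl]
  have e0 : l * Dw - G 0 - l ^ 2 / 2 + G l = l * Dw - G 0 - l ^ 2 / 2 + G l := rfl
  -- continuity of the auxiliary function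
  have hGc : ContinuousOn (fun t : ℝ => G (l * t)) (Icc 0 1) := by
    have hTc : ContinuousOn (fun t : ℝ => C.T z t v) (Icc 0 1) := by
      rw [Metric.continuousOn_iff]
      intro t ht ε hε
      refine ⟨ε / l, by positivity, fun s hs hst => ?_⟩
      rw [C.dist_T z v hU s hs t ht, ← hldef]
      rw [Real.dist_eq] at hst
      calc |s - t| * l < ε / l * l := by gcongr
        _ = ε := by field_simp
    have : (fun t : ℝ => G (l * t)) = fun t => dist x (C.T z t v) ^ 2 / 2 := by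
      ext t; show dist x (ray C z v (l * t)) ^ 2 / 2 = _; rw [hrt]
    rw [this]
    exact (((continuous_const.dist continuous_id).comp_continuousOn hTc).pow 2).div_const 2
  have hUc : ContinuousOn (fun t : ℝ => A.U (l * t)) (Icc 0 1) := by
    refine (U_cont hl A).comp (continuous_const.mul continuous_id).continuousOn fun t ht => ?_
    exact ⟨mul_nonneg hl.le ht.1, by simpa using mul_le_mul_of_nonneg_left ht.2 hl.le⟩
  have hwc : ContinuousOn (fun t : ℝ => ENNReal.ofReal ((G (l * t) - A.U (l * t)) ^ 2)) (Icc 0 1) :=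
    ENNReal.continuous_ofReal.comp_continuousOn ((hGc.sub hUc).pow 2)
  have hae : ∀ᵐ t ∂(volume.restrict (Ioo (0 : ℝ) 1)),
      ENNReal.ofReal ((G (l * t) - A.U (l * t)) ^ 2) =
        ENNReal.ofReal ((ρ ^ 2 * q (C.T z t v)) ^ 2) := by
    filter_upwards [ae_scale hl A.hU] with t ht
    rw [ht, ← hrt t]
    congr 2
    ring
  have hae' : ∀ {a b : ℝ}, 0 ≤ a → b ≤ 1 →
      ∫⁻ t in Icc a b, ENNReal.ofReal ((G (l * t) - A.U (l * t)) ^ 2) =
        ∫⁻ t in Icc a b, ENNReal.ofReal ((ρ ^ 2 * q (C.T z t v)) ^ 2) := by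
    intro a b ha hb
    refine lintegral_congr_ae ?_
    refine ae_restrict_of_ae_restrict_of_subset (Icc_subset_Icc ha hb) ?_
    rw [← restrict_Ioo_eq_restrict_Icc]
    exact hae
  have hk1 : ∀ k : ℕ, 1 / ((k : ℝ) + 2) ≤ 1 := by
    intro k
    rw [div_le_one (by positivity)]
    have : (0 : ℝ) ≤ k := Nat.cast_nonneg k
    linarith
  have hL := le_liminf_left hwc
  have hR := le_liminf_right hwc
  simp only [mul_zero, mul_one] at hL hR
  have eL : (fun k : ℕ => ENNReal.ofReal ((k : ℝ) + 2) *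
      ∫⁻ t in Icc (0 : ℝ) (1 / ((k : ℝ) + 2)), ENNReal.ofReal ((G (l * t) - A.U (l * t)) ^ 2)) =
      fun k => AL C (fun y => ENNReal.ofReal ((ρ ^ 2 * q y) ^ 2)) k (z, v) := by
    ext k
    unfold AL
    rw [hae' le_rfl (hk1 k)]
  have eR : (fun k : ℕ => ENNReal.ofReal ((k : ℝ) + 2) *
      ∫⁻ t in Icc (1 - 1 / ((k : ℝ) + 2)) (1 : ℝ),
        ENNReal.ofReal ((G (l * t) - A.U (l * t)) ^ 2)) =
      fun k => AR C (fun y => ENNReal.ofReal ((ρ ^ 2 * q y) ^ 2)) k (z, v) := by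
    ext k
    unfold AR
    rw [hae' (by linarith [hk1 k]) le_rfl]
  rw [eL] at hL
  rw [eR] at hR
  -- the term with `H`
  have hHterm : ENNReal.ofReal ((l * ∫ τ in (0 : ℝ)..l, H (ray C z v τ)) ^ 2) ≤
      ENNReal.ofReal (Λ ^ 4) * ∫⁻ t in Icc (0 : ℝ) 1, ENNReal.ofReal (H (C.T z t v) ^ 2) := by
    have e1 : ∫ τ in (0 : ℝ)..l, H (ray C z v τ) = l * ∫ t in (0 : ℝ)..1, H (C.T z t v) := by
      have := intervalIntegral.integral_comp_div (a := 0) (b := l) (fun t => H (C.T z t v)) hl.ne'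
      rw [zero_div, div_self hl.ne', smul_eq_mul] at this
      exact this
    have hI0 : 0 ≤ ∫ t in (0 : ℝ)..1, H (C.T z t v) :=
      intervalIntegral.integral_nonneg zero_le_one fun t _ => hH0 _
    have hm : Measurable fun t : ℝ => H (C.T z t v) :=
      hH.comp (C.measT.comp (measurable_const.prodMk (measurable_id.prodMk measurable_const)))
    have e2 : ENNReal.ofReal (∫ t in (0 : ℝ)..1, H (C.T z t v)) ≤
        ∫⁻ t in Icc (0 : ℝ) 1, ENNReal.ofReal (H (C.T z t v)) := by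
      rw [intervalIntegral.integral_of_le zero_le_one, ← restrict_Ioo_eq_restrict_Ioc,
        restrict_Ioo_eq_restrict_Icc]
      by_cases hi : Integrable (fun t => H (C.T z t v)) (volume.restrict (Icc (0 : ℝ) 1))
      · rw [ofReal_integral_eq_lintegral_ofReal hi (Eventually.of_forall fun t => hH0 _)]
      · rw [integral_undef hi, ENNReal.ofReal_zero]; exact bot_le
    have e3 := Pyt710.sq_lintegral_le (volume.restrict (Icc (0 : ℝ) 1))
      (f := fun t => ENNReal.ofReal (H (C.T z t v))) hm.ennreal_ofReal.aemeasurable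
    rw [Measure.restrict_apply_univ, Real.volume_Icc, sub_zero, ENNReal.ofReal_one, one_mul] at e3
    rw [e1]
    have e4 : (l * (l * ∫ t in (0 : ℝ)..1, H (C.T z t v))) ^ 2 =
        l ^ 4 * (∫ t in (0 : ℝ)..1, H (C.T z t v)) ^ 2 := by ring
    rw [e4, ENNReal.ofReal_mul (by positivity), ENNReal.ofReal_pow hI0]
    refine mul_le_mul' (ENNReal.ofReal_le_ofReal (pow_le_pow_left₀ hl.le hΛ 4)) ?_
    refine (pow_le_pow_left' e2 2).trans (e3.trans (le_of_eq ?_))
    refine lintegral_congr fun t => ?_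
    rw [ENNReal.ofReal_pow (hH0 _)]
  have hgterm : ENNReal.ofReal ((l * (ρ * gz)) ^ 2) ≤
      ENNReal.ofReal ((Λ * ρ) ^ 2) * ENNReal.ofReal (gz ^ 2) := by
    rw [← ENNReal.ofReal_mul (by positivity)]
    apply ENNReal.ofReal_le_ofReal
    have : (l * (ρ * gz)) ^ 2 = l ^ 2 * (ρ ^ 2 * gz ^ 2) := by ring
    rw [this]
    have : (Λ * ρ) ^ 2 * gz ^ 2 = Λ ^ 2 * (ρ ^ 2 * gz ^ 2) := by ring
    rw [this]
    gcongr
  calc ENNReal.ofReal ((l * Dw - G 0 - l ^ 2 / 2 + G l) ^ 2)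
      ≤ ENNReal.ofReal (4 * ((l * (ρ * gz)) ^ 2 + (l * (∫ τ in (0 : ℝ)..l, H (ray C z v τ))) ^ 2 +
          (G 0 - A.U 0) ^ 2 + (G l - A.U l) ^ 2)) := ENNReal.ofReal_le_ofReal h1
    _ = 4 * (ENNReal.ofReal ((l * (ρ * gz)) ^ 2) +
          ENNReal.ofReal ((l * (∫ τ in (0 : ℝ)..l, H (ray C z v τ))) ^ 2) +
          ENNReal.ofReal ((G 0 - A.U 0) ^ 2) + ENNReal.ofReal ((G l - A.U l) ^ 2)) := by
        rw [ENNReal.ofReal_mul (by norm_num), ENNReal.ofReal_add (by positivity) (by positivity),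
          ENNReal.ofReal_add (by positivity) (by positivity),
          ENNReal.ofReal_add (by positivity) (by positivity)]
        norm_num
    _ ≤ _ := by gcongr

/-! ### integration over the pairs -/

lemma lintegral_AR_le [SFinite μ] (hκ : 0 ≤ κ) {B W : Set X} (hB : MeasurableSet B)
    (hW : MeasurableSet W) {R : ℝ} (hD : ∀ z ∈ B, ∀ v ∈ B, dist z v ≤ R)
    (hBW : ∀ z ∈ B, ∀ v ∈ B, (z, v) ∈ C.U → ∀ t ∈ Icc (0 : ℝ) 1, C.T z t v ∈ W)
    {F : X → ℝ≥0∞} (hF : Measurable F) (k : ℕ) :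
    ∫⁻ z in B, ∫⁻ v in B, AR C F k (z, v) ∂μ ∂μ ≤
      Pyt710.segC n κ R * μ B * ∫⁻ y in W, F y ∂μ := by
  have hk0 : (0 : ℝ) ≤ k := Nat.cast_nonneg k
  have hk2 : (0 : ℝ) < (k : ℝ) + 2 := by positivity
  have hk : 1 / ((k : ℝ) + 2) ≤ 1 / 2 := one_div_le_one_div_of_le (by norm_num) (by linarith)
  set a : ℝ := 1 - 1 / ((k : ℝ) + 2) with ha
  have ha2 : 1 / 2 ≤ a := by rw [ha]; linarith
  have ha0 : 0 < a := by linarith
  have key : ∀ z ∈ B, ∫⁻ v in B, AR C F k (z, v) ∂μ ≤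
      Pyt710.segC n κ R * ∫⁻ y in W, F y ∂μ := by
    intro z hz
    unfold AR
    rw [lintegral_const_mul' _ _ ENNReal.ofReal_ne_top]
    have h1 := C.ray_lintegral_le hκ z ha0 le_rfl hB hW (hD z hz)
      (fun v hv hU t ht => hBW z hz v hv hU t ⟨ha0.le.trans ht.1, ht.2⟩) hF
    refine (mul_le_mul_right h1 _).trans ?_
    rw [← mul_assoc, ← ENNReal.ofReal_mul hk2.le]
    refine mul_le_mul_left (ENNReal.ofReal_le_ofReal ?_) _
    have e1 : 1 - a = 1 / ((k : ℝ) + 2) := by rw [ha]; ring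
    rw [e1]
    have e2 : ((k : ℝ) + 2) * (Real.exp (κ * R ^ 2 / 2) * a⁻¹ ^ n * (1 / ((k : ℝ) + 2))) =
        Real.exp (κ * R ^ 2 / 2) * a⁻¹ ^ n := by field_simp
    rw [e2]
    have h3 : a⁻¹ ≤ 2 := by
      rw [inv_le_comm₀ ha0 (by norm_num)]; linarith
    have h4 : 0 ≤ a⁻¹ := by positivity
    gcongr
  calc ∫⁻ z in B, ∫⁻ v in B, AR C F k (z, v) ∂μ ∂μ
      ≤ ∫⁻ _ in B, Pyt710.segC n κ R * ∫⁻ y in W, F y ∂μ ∂μ := setLIntegral_mono' hB key
    _ = _ := by rw [setLIntegral_const]; ring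

lemma ae_U_prod [SFinite μ] : ∀ᵐ p ∂(μ.prod μ), p ∈ C.U :=
  (Measure.ae_prod_mem_iff_ae_ae_mem C.measU).2 (Eventually.of_forall C.ae_U)

lemma lintegral_AL_le [SFinite μ] (hκ : 0 ≤ κ) {B W : Set X} (hB : MeasurableSet B)
    (hW : MeasurableSet W) {R : ℝ} (hD : ∀ z ∈ B, ∀ v ∈ B, dist z v ≤ R)
    (hBW : ∀ z ∈ B, ∀ v ∈ B, (z, v) ∈ C.U → ∀ t ∈ Icc (0 : ℝ) 1, C.T z t v ∈ W)
    {F : X → ℝ≥0∞} (hF : Measurable F) (k : ℕ) :
    ∫⁻ z in B, ∫⁻ v in B, AL C F k (z, v) ∂μ ∂μ ≤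
      Pyt710.segC n κ R * μ B * ∫⁻ y in W, F y ∂μ := by
  have e1 : ∫⁻ z in B, ∫⁻ v in B, AL C F k (z, v) ∂μ ∂μ =
      ∫⁻ z in B, ∫⁻ v in B, AR C F k (v, z) ∂μ ∂μ := by
    refine lintegral_congr fun z => ?_
    refine lintegral_congr_ae ?_
    filter_upwards [ae_restrict_of_ae (C.ae_U z)] with v hv
    exact AL_eq_AR C hv k
  rw [e1, lintegral_lintegral_swap]
  · exact lintegral_AR_le C hκ hB hW hD hBW hF k
  · exact ((measurable_AR C hF k).comp measurable_swap).aemeasurable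

lemma lintegral_liminf_pairs [SFinite μ] {B : Set X} {A : ℕ → X × X → ℝ≥0∞}
    (hA : ∀ k, Measurable (A k)) {K : ℝ≥0∞}
    (h : ∀ k, ∫⁻ z in B, ∫⁻ v in B, A k (z, v) ∂μ ∂μ ≤ K) :
    ∫⁻ z in B, ∫⁻ v in B, liminf (fun k => A k (z, v)) atTop ∂μ ∂μ ≤ K := by
  calc ∫⁻ z in B, ∫⁻ v in B, liminf (fun k => A k (z, v)) atTop ∂μ ∂μ
      ≤ ∫⁻ z in B, liminf (fun k => ∫⁻ v in B, A k (z, v) ∂μ) atTop ∂μ := by
        refine lintegral_mono fun z => ?_
        exact lintegral_liminf_le fun k => (hA k).comp measurable_prodMk_left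
    _ ≤ liminf (fun k => ∫⁻ z in B, ∫⁻ v in B, A k (z, v) ∂μ ∂μ) atTop :=
        lintegral_liminf_le fun k => (hA k).lintegral_prod_right'
    _ ≤ liminf (fun _ : ℕ => K) atTop := liminf_le_liminf (Eventually.of_forall h)
    _ = K := liminf_const K

/-- **(L)**, integrated form, for arbitrary data along almost every minimiser. -/
theorem pyth_int [SFinite μ] (hκ : 0 ≤ κ) {x : X} {R ρ : ℝ} {H g q : X → ℝ}
    (hH : Measurable H) (hg : Measurable g) (hq : Measurable q) (hH0 : ∀ y, 0 ≤ H y)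
    {P : X → X → ℝ}
    (hp : ∀ᵐ p ∂(μ.prod μ), dist x p.1 < R → dist x p.2 < R → p.1 ≠ p.2 ∧
      ∃ (Dw : ℝ) (ks gs nks : ℝ → ℝ),
        P p.1 p.2 = dist p.1 p.2 * Dw - dist x p.1 ^ 2 / 2 - dist p.1 p.2 ^ 2 / 2 +
          dist x p.2 ^ 2 / 2 ∧
        Nonempty (AlongD (dist p.1 p.2) ρ (fun τ => dist x (ray C p.1 p.2 τ) ^ 2 / 2)
          (fun τ => q (ray C p.1 p.2 τ)) ks (fun τ => H (ray C p.1 p.2 τ)) gs nks Dw (g p.1))) :
    ∫⁻ z in ball x R, ∫⁻ v in ball x R, ENNReal.ofReal (P z v ^ 2) ∂μ ∂μ ≤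
      4 * (ENNReal.ofReal ((2 * R * ρ) ^ 2) * (μ (ball x R) *
          ∫⁻ z in ball x R, ENNReal.ofReal (g z ^ 2) ∂μ) +
        ENNReal.ofReal ((2 * R) ^ 4) * (Pyt710.segC n κ (2 * R) * (μ (ball x R) + μ (ball x R)) *
          ∫⁻ y in ball x (2 * R), ENNReal.ofReal (H y ^ 2) ∂μ) +
        Pyt710.segC n κ (2 * R) * μ (ball x R) *
          ∫⁻ y in ball x (2 * R), ENNReal.ofReal ((ρ ^ 2 * q y) ^ 2) ∂μ +
        Pyt710.segC n κ (2 * R) * μ (ball x R) *
          ∫⁻ y in ball x (2 * R), ENNReal.ofReal ((ρ ^ 2 * q y) ^ 2) ∂μ) := by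
  set B := ball x R with hBdef
  set W := ball x (2 * R) with hWdef
  have hB : MeasurableSet B := isOpen_ball.measurableSet
  have hW : MeasurableSet W := isOpen_ball.measurableSet
  have hmem : ∀ {y : X}, y ∈ B ↔ dist x y < R := by
    intro y; rw [hBdef, mem_ball, dist_comm]
  have hD : ∀ z ∈ B, ∀ v ∈ B, dist z v ≤ 2 * R := by
    intro z hz v hv
    rw [hmem] at hz hv
    have := dist_triangle_left z v x
    linarith
  have hBW : ∀ z ∈ B, ∀ v ∈ B, (z, v) ∈ C.U → ∀ t ∈ Icc (0 : ℝ) 1, C.T z t v ∈ W := by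
    intro z hz v hv hU t ht
    rw [hmem] at hz hv
    rw [hWdef, mem_ball, dist_comm]
    have h1 : dist x (C.T z t v) ≤ dist x z + t * dist z v := by
      refine (dist_triangle x z _).trans ?_
      rw [C.dist_left hU ht]
    have h2 : dist x (C.T z t v) ≤ dist x v + (1 - t) * dist z v := by
      refine (dist_triangle x v _).trans ?_
      rw [dist_comm v, C.dist_right hU ht]
    have h3 := dist_triangle_left z v x
    have h4 : 0 ≤ dist z v := dist_nonneg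
    nlinarith [ht.1, ht.2]
  set Fq : X → ℝ≥0∞ := fun y => ENNReal.ofReal ((ρ ^ 2 * q y) ^ 2) with hFq
  have hFqm : Measurable Fq := ((hq.const_mul _).pow_const 2).ennreal_ofReal
  have hHm : Measurable fun y => ENNReal.ofReal (H y ^ 2) := (hH.pow_const 2).ennreal_ofReal
  have hgm : Measurable fun y => ENNReal.ofReal (g y ^ 2) := (hg.pow_const 2).ennreal_ofReal
  set FH : X × X → ℝ≥0∞ := fun p => ∫⁻ t in Icc (0 : ℝ) 1, ENNReal.ofReal (H (C.T p.1 t p.2) ^ 2)
    with hFH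
  have hFHm : Measurable FH := (measurable_seg C hHm).lintegral_prod_right'
  have hLm : Measurable fun p : X × X => liminf (fun k => AL C Fq k p) atTop :=
    Measurable.liminf fun k => measurable_AL C hFqm k
  have hRm : Measurable fun p : X × X => liminf (fun k => AR C Fq k p) atTop :=
    Measurable.liminf fun k => measurable_AR C hFqm k
  -- pointwise bound
  have hpt : ∀ᵐ z ∂μ, ∀ᵐ v ∂μ, z ∈ B → v ∈ B → ENNReal.ofReal (P z v ^ 2) ≤
      4 * (ENNReal.ofReal ((2 * R * ρ) ^ 2) * ENNReal.ofReal (g z ^ 2) +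
        ENNReal.ofReal ((2 * R) ^ 4) * FH (z, v) +
        liminf (fun k => AL C Fq k (z, v)) atTop + liminf (fun k => AR C Fq k (z, v)) atTop) := by
    refine Measure.ae_ae_of_ae_prod (p := fun r : X × X => r.1 ∈ B → r.2 ∈ B →
      ENNReal.ofReal (P r.1 r.2 ^ 2) ≤
      4 * (ENNReal.ofReal ((2 * R * ρ) ^ 2) * ENNReal.ofReal (g r.1 ^ 2) +
        ENNReal.ofReal ((2 * R) ^ 4) * FH (r.1, r.2) +
        liminf (fun k => AL C Fq k (r.1, r.2)) atTop +
        liminf (fun k => AR C Fq k (r.1, r.2)) atTop)) ?_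
    filter_upwards [hp, ae_U_prod C] with r h1 h2 h3 h4
    obtain ⟨hne, Dw, ks, gs, nks, hP, ⟨A⟩⟩ := h1 (hmem.1 h3) (hmem.1 h4)
    rw [hP]
    exact pair_le C h2 hne hH hH0 (hD _ h3 _ h4) A
  have hint : ∫⁻ z in B, ∫⁻ v in B, ENNReal.ofReal (P z v ^ 2) ∂μ ∂μ ≤
      ∫⁻ z in B, ∫⁻ v in B, 4 * (ENNReal.ofReal ((2 * R * ρ) ^ 2) * ENNReal.ofReal (g z ^ 2) +
        ENNReal.ofReal ((2 * R) ^ 4) * FH (z, v) +
        liminf (fun k => AL C Fq k (z, v)) atTop +
        liminf (fun k => AR C Fq k (z, v)) atTop) ∂μ ∂μ := by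
    refine lintegral_mono_ae ?_
    rw [ae_restrict_iff' hB]
    filter_upwards [hpt] with z hz hzB
    refine lintegral_mono_ae ?_
    rw [ae_restrict_iff' hB]
    filter_upwards [hz] with v hv hvB
    exact hv hzB hvB
  refine hint.trans ?_
  have m1 : ∀ z, Measurable fun v => FH (z, v) := fun z => hFHm.comp measurable_prodMk_left
  have m2 : ∀ z, Measurable fun v => liminf (fun k => AL C Fq k (z, v)) atTop := fun z =>
    hLm.comp measurable_prodMk_left
  have m3 : ∀ z, Measurable fun v => liminf (fun k => AR C Fq k (z, v)) atTop := fun z =>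
    hRm.comp measurable_prodMk_left
  have n1 : Measurable fun z => ∫⁻ v in B, FH (z, v) ∂μ := hFHm.lintegral_prod_right'
  have n2 : Measurable fun z => ∫⁻ v in B, liminf (fun k => AL C Fq k (z, v)) atTop ∂μ :=
    hLm.lintegral_prod_right'
  have n3 : Measurable fun z => ∫⁻ v in B, liminf (fun k => AR C Fq k (z, v)) atTop ∂μ :=
    hRm.lintegral_prod_right'
  have e1 : ∀ z, ∫⁻ v in B, 4 * (ENNReal.ofReal ((2 * R * ρ) ^ 2) * ENNReal.ofReal (g z ^ 2) +
        ENNReal.ofReal ((2 * R) ^ 4) * FH (z, v) +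
        liminf (fun k => AL C Fq k (z, v)) atTop +
        liminf (fun k => AR C Fq k (z, v)) atTop) ∂μ =
      4 * (ENNReal.ofReal ((2 * R * ρ) ^ 2) * ENNReal.ofReal (g z ^ 2) * μ B +
        ENNReal.ofReal ((2 * R) ^ 4) * ∫⁻ v in B, FH (z, v) ∂μ +
        ∫⁻ v in B, liminf (fun k => AL C Fq k (z, v)) atTop ∂μ +
        ∫⁻ v in B, liminf (fun k => AR C Fq k (z, v)) atTop ∂μ) := by
    intro z
    rw [lintegral_const_mul' _ _ (by norm_num), lintegral_add_right _ (m3 z),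
      lintegral_add_right _ (m2 z), lintegral_add_right _ ((m1 z).const_mul _),
      setLIntegral_const, lintegral_const_mul _ (m1 z)]
  simp only [e1]
  rw [lintegral_const_mul' _ _ (by norm_num), lintegral_add_right _ n3,
      lintegral_add_right _ n2, lintegral_add_right _ (n1.const_mul _),
      lintegral_mul_const _ (hgm.const_mul _), lintegral_const_mul _ hgm,
      lintegral_const_mul _ n1]
  have k1 : ∫⁻ z in B, ∫⁻ v in B, FH (z, v) ∂μ ∂μ ≤
      Pyt710.segC n κ (2 * R) * (μ B + μ B) * ∫⁻ y in W, ENNReal.ofReal (H y ^ 2) ∂μ :=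
    C.segment_le hκ hB hB hW hD hBW hHm
  have k2 : ∫⁻ z in B, ∫⁻ v in B, liminf (fun k => AL C Fq k (z, v)) atTop ∂μ ∂μ ≤
      Pyt710.segC n κ (2 * R) * μ B * ∫⁻ y in W, Fq y ∂μ :=
    lintegral_liminf_pairs (fun k => measurable_AL C hFqm k)
      (fun k => lintegral_AL_le C hκ hB hW hD hBW hFqm k)
  have k3 : ∫⁻ z in B, ∫⁻ v in B, liminf (fun k => AR C Fq k (z, v)) atTop ∂μ ∂μ ≤
      Pyt710.segC n κ (2 * R) * μ B * ∫⁻ y in W, Fq y ∂μ :=
    lintegral_liminf_pairs (fun k => measurable_AR C hFqm k)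
      (fun k => lintegral_AR_le C hκ hB hW hD hBW hFqm k)
  have e2 : ENNReal.ofReal ((2 * R * ρ) ^ 2) * (∫⁻ z in B, ENNReal.ofReal (g z ^ 2) ∂μ) * μ B =
      ENNReal.ofReal ((2 * R * ρ) ^ 2) * (μ B * ∫⁻ z in B, ENNReal.ofReal (g z ^ 2) ∂μ) := by
    ring
  rw [e2]
  gcongr

end pair

/-! ### the theorem over `FarD` -/

section far

variable {n : ℕ} {κ : ℝ} {X : Type*} [MetricSpace X] [MeasurableSpace X] [BorelSpace X]
  {μ : Measure X} {C : Rad n κ X μ}

lemma tendsto_quot {f : ℝ → ℝ} {d : ℝ} (h : HasDerivWithinAt f d (Iio 1) 1) :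
    Tendsto (fun k : ℕ => (f (1 - 1 / ((k : ℝ) + 2)) - f 1) / ((1 - 1 / ((k : ℝ) + 2)) - 1))
      atTop (𝓝 d) := by
  have h1 := hasDerivWithinAt_iff_tendsto_slope.1 h
  have h2 : (Iio (1 : ℝ)) \ {1} = Iio 1 := by
    ext t; simp only [Set.mem_sdiff, mem_Iio, mem_singleton_iff]
    exact ⟨fun h => h.1, fun h => ⟨h, h.ne⟩⟩
  rw [h2] at h1
  have h3 : Tendsto (fun k : ℕ => (1 : ℝ) - 1 / ((k : ℝ) + 2)) atTop (𝓝[<] 1) := by
    apply tendsto_nhdsWithin_iff.2
    constructor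
    · have h4 : Tendsto (fun k : ℕ => (1 : ℝ) / ((k : ℝ) + 2)) atTop (𝓝 0) := by
        have := tendsto_one_div_add_atTop_nhds_zero_nat (𝕜 := ℝ)
        have h5 := this.comp (tendsto_add_atTop_nat 1)
        refine h5.congr fun k => ?_
        simp only [Function.comp]
        push_cast
        ring
      simpa using h4.const_sub 1
    · refine Eventually.of_forall fun k => ?_
      simp only [mem_Iio]
      have : (0 : ℝ) < 1 / ((k : ℝ) + 2) := by positivity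
      linarith
  refine (h1.comp h3).congr fun k => ?_
  simp only [Function.comp, slope_def_field]

variable [SecondCountableTopology X] [SFinite μ] {G : X → X → X → ℝ}

/-- for almost every pair `(z,v)` the representative `G x v z` is the derivative of the half
squared distance to `v` along the `x`-ray through `z` -/
lemma ae_pair_G (hG : GRep C G) (x : X) : ∀ᵐ p ∂(μ.prod μ),
    Tendsto (fun k : ℕ => (dist p.2 (C.T x (1 - 1 / ((k : ℝ) + 2)) p.1) ^ 2 / 2 -
      dist p.2 (C.T x 1 p.1) ^ 2 / 2) / ((1 - 1 / ((k : ℝ) + 2)) - 1)) atTop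
      (𝓝 (G x p.2 p.1)) := by
  set S : Set (X × X) := {p | Tendsto (fun k : ℕ =>
      (dist p.1 (C.T x (1 - 1 / ((k : ℝ) + 2)) p.2) ^ 2 / 2 -
      dist p.1 (C.T x 1 p.2) ^ 2 / 2) / ((1 - 1 / ((k : ℝ) + 2)) - 1)) atTop
      (𝓝 (G x p.1 p.2))} with hS
  have hd : ∀ t : ℝ, Measurable fun p : X × X => dist p.1 (C.T x t p.2) := fun t =>
    measurable_fst.dist ((C.measT_xt x t).comp measurable_snd)
  have hmG : Measurable fun p : X × X => G x p.1 p.2 :=
    hG.meas.comp (measurable_const.prodMk (measurable_fst.prodMk measurable_snd))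
  have hSm : MeasurableSet S := by
    refine measurableSet_tendsto_fun (fun k => ?_) hmG
    exact ((((hd _).pow_const 2).div_const 2).sub (((hd _).pow_const 2).div_const 2)).div_const _
  have h1 : ∀ᵐ p ∂(μ.prod μ), p ∈ S := by
    refine (Measure.ae_prod_mem_iff_ae_ae_mem hSm).2 (Eventually.of_forall fun v => ?_)
    filter_upwards [hG.rd x v] with z hz
    exact tendsto_quot hz
  exact (Measure.measurePreserving_swap (μ := μ) (ν := μ)).quasiMeasurePreserving.ae h1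

lemma G_eq {x z v : X} {Dw g : ℝ} (hU : (x, z) ∈ C.U)
    (h : HasDerivWithinAt (fun t : ℝ => dist (C.T x t z) v) Dw (Iio 1) 1)
    (hg : Tendsto (fun k : ℕ => (dist v (C.T x (1 - 1 / ((k : ℝ) + 2)) z) ^ 2 / 2 -
      dist v (C.T x 1 z) ^ 2 / 2) / ((1 - 1 / ((k : ℝ) + 2)) - 1)) atTop (𝓝 g)) :
    g = dist z v * Dw := by
  have h1 := (h.pow 2).div_const 2
  have h2 := tendsto_quot h1
  refine tendsto_nhds_unique hg ?_
  have e : dist z v * Dw = (↑(2 : ℕ) * dist (C.T x 1 z) v ^ (2 - 1) * Dw) / 2 := by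
    rw [C.T_one x z hU]; push_cast; ring
  rw [e]
  refine h2.congr fun k => ?_
  simp only [Pi.pow_apply, dist_comm v]

/-- no atoms near `x` -/
lemma no_atom {c : FarK} {x : X} {δ : ℝ} {ph : ℕ → ℝ} (D : FarD c C x δ ph) (hn : 1 ≤ n)
    {y : X} (hy : dist x y < 20) : μ {y} = 0 := by
  have h1 : Tendsto (fun r : ℝ => ENNReal.ofReal ((1 + δ) * c.ω * r ^ n)) (𝓝[>] 0) (𝓝 0) := by
    have h2 : Tendsto (fun r : ℝ => (1 + δ) * c.ω * r ^ n) (𝓝 0) (𝓝 ((1 + δ) * c.ω * 0 ^ n)) :=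
      ((continuous_const.mul (continuous_id.pow n)).tendsto 0)
    rw [zero_pow (by omega), mul_zero] at h2
    have h3 := (ENNReal.continuous_ofReal.tendsto 0).comp h2
    rw [ENNReal.ofReal_zero] at h3
    exact h3.mono_left nhdsWithin_le_nhds
  refine le_antisymm (ge_of_tendsto h1 ?_) bot_le
  filter_upwards [Ioo_mem_nhdsGT (show (0 : ℝ) < 20 by norm_num)] with r hr
  refine (measure_mono ?_).trans (D.vol_le y r hy hr.1 hr.2.le)
  intro w hw
  rw [mem_singleton_iff] at hw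
  rw [hw]
  exact mem_ball_self hr.1

/-- the constant of (L) -/
def AL0 (n : ℕ) (c : FarK) : ℝ :=
  4 * (2 * c.ω * 8 ^ n) * c.B3 1 1 *
    (256 + 131072 * (Real.exp 1 * 2 ^ n) + 2 * (Real.exp 1 * 2 ^ n) * (257 * c.B1 1))

lemma AL0_pos (n : ℕ) (c : FarK) : 0 < AL0 n c := by
  have h1 := c.ω_pos
  have h2 := c.B3_pos 1 1
  have h3 := c.B1_pos 1
  unfold AL0
  positivity

/-- **(L) from the far data** (no atoms as a hypothesis). -/
theorem L_of_far' {c : FarK} {x : X} {δ : ℝ} {ph : ℕ → ℝ} (D : FarD c C x δ ph)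
    (hG : GRep C G) (hat : ∀ z : X, dist x z < 20 → μ {z} = 0)
    (hκ : 0 ≤ κ) (hκ1 : κ ≤ 1) (hδ : δ ≤ 1) {j : ℕ} (hj : 4 ≤ j) :
    ∫⁻ u in ball x (8 * dy j), ∫⁻ v in ball x (8 * dy j), ENNReal.ofReal (PP G x v u ^ 2) ∂μ ∂μ ≤
      ENNReal.ofReal (AL0 n c * ph j * dy j ^ (2 * n + 4)) := by
  have hs := dy_pos j
  have hs1 : dy j ≤ 1 / 16 := by
    have := dy_anti hj
    refine this.trans (le_of_eq ?_)
    unfold dy; norm_num
  set s := dy j with hsdef
  have hω := c.ω_pos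
  have hB3 := c.B3_pos 1 1
  have hB1 := c.B1_pos 1
  have hph := D.ph_nonneg j
  -- almost every pair
  have hne : ∀ᵐ p ∂(μ.prod μ), dist x p.1 < 8 * s → p.1 ≠ p.2 := by
    have hm : MeasurableSet {p : X × X | dist x p.1 < 8 * s → p.1 ≠ p.2} := by
      have h1 : MeasurableSet {p : X × X | dist x p.1 < 8 * s} :=
        measurableSet_lt (measurable_const.dist measurable_fst) measurable_const
      have h2 : MeasurableSet {p : X × X | p.1 = p.2} :=
        (isClosed_eq continuous_fst continuous_snd).measurableSet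
      have : {p : X × X | dist x p.1 < 8 * s → p.1 ≠ p.2} =
          {p : X × X | dist x p.1 < 8 * s}ᶜ ∪ {p : X × X | p.1 = p.2}ᶜ := by
        ext p
        simp only [mem_ofPred_eq, mem_union, mem_compl_iff]
        tauto
      rw [this]
      exact h1.compl.union h2.compl
    refine (Measure.ae_prod_iff_ae_ae hm).2 (Eventually.of_forall fun z => ?_)
    by_cases hz : dist x z < 8 * s
    · have h1 : μ {z} = 0 := hat z (by linarith)
      have h2 : ∀ᵐ v ∂μ, v ≠ z := by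
        rw [ae_iff]; simpa using h1
      filter_upwards [h2] with v hv _ h3
      exact hv h3.symm
    · exact Eventually.of_forall fun v h => absurd h hz
  have hp : ∀ᵐ p ∂(μ.prod μ), dist x p.1 < 8 * s → dist x p.2 < 8 * s → p.1 ≠ p.2 ∧
      ∃ (Dw : ℝ) (ks gs nks : ℝ → ℝ),
        PP G x p.2 p.1 = dist p.1 p.2 * Dw - dist x p.1 ^ 2 / 2 - dist p.1 p.2 ^ 2 / 2 +
          dist x p.2 ^ 2 / 2 ∧
        Nonempty (AlongD (dist p.1 p.2) s (fun τ => dist x (ray C p.1 p.2 τ) ^ 2 / 2)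
          (fun τ => D.q j (ray C p.1 p.2 τ)) ks (fun τ => D.H j (ray C p.1 p.2 τ)) gs nks Dw
          (D.g j p.1)) := by
    have hUx : ∀ᵐ p ∂(μ.prod μ), (x, p.1) ∈ C.U :=
      Measure.quasiMeasurePreserving_fst.ae (C.ae_U x)
    filter_upwards [D.d3 j, ae_pair_G hG x, hne, hUx] with p h1 h2 h3 h4 h5 h6
    obtain ⟨Dw, hD1, -, ⟨A⟩⟩ := h1 (by linarith) (by linarith) (h3 h5)
    refine ⟨h3 h5, Dw, _, _, _, ?_, ⟨A⟩⟩
    have e := G_eq h4 hD1 h2
    unfold PP ff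
    rw [e, dist_comm p.2 p.1]
  have key := pyth_int C hκ (x := x) (R := 8 * s) (ρ := s) (P := fun u v => PP G x v u)
    (D.H_meas j) (D.g_meas j) (D.q_meas j) (D.H_nonneg j) hp
  have e16 : 2 * (8 * s) = 16 * s := by ring
  rw [e16] at key
  refine key.trans ?_
  -- the three constants
  have hV : μ (ball x (8 * s)) ≤ ENNReal.ofReal (2 * c.ω * 8 ^ n * s ^ n) := by
    refine (D.vol_le x (8 * s) (by rw [dist_self]; norm_num) (by positivity) (by linarith)).trans ?_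
    apply ENNReal.ofReal_le_ofReal
    rw [mul_pow]
    have : (1 + δ) * c.ω * (8 ^ n * s ^ n) = (1 + δ) * (c.ω * 8 ^ n * s ^ n) := by ring
    rw [this]
    have h2 : 2 * c.ω * 8 ^ n * s ^ n = 2 * (c.ω * 8 ^ n * s ^ n) := by ring
    rw [h2]
    apply mul_le_mul_of_nonneg_right (by linarith) (by positivity)
  have hK : Pyt710.segC n κ (16 * s) ≤ ENNReal.ofReal (Real.exp 1 * 2 ^ n) := by
    unfold Pyt710.segC
    apply ENNReal.ofReal_le_ofReal
    have : κ * (16 * s) ^ 2 / 2 ≤ 1 := by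
      have h1 : (16 * s) ^ 2 ≤ 1 := by nlinarith
      nlinarith [sq_nonneg (16 * s)]
    have := Real.exp_le_exp.2 this
    gcongr
  have hE := D.d2_ball j hj
  rw [← hsdef] at hE
  set E : ℝ≥0∞ := ENNReal.ofReal (c.B3 1 1 * ph j * s ^ n) with hEdef
  have hq0 := D.q_nonneg j
  have hEH : ∫⁻ z in ball x (16 * s), ENNReal.ofReal (D.H j z ^ 2) ∂μ ≤ E := by
    refine le_trans (lintegral_mono fun z => ENNReal.ofReal_le_ofReal ?_) hE
    have := hq0 z
    show D.H j z ^ 2 ≤ D.H j z ^ 2 + D.g j z ^ 2 + D.q j z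
    nlinarith [sq_nonneg (D.g j z)]
  have hEg : ∫⁻ z in ball x (8 * s), ENNReal.ofReal (D.g j z ^ 2) ∂μ ≤ E := by
    refine le_trans (lintegral_mono' (Measure.restrict_mono (ball_subset_ball (by linarith))
      le_rfl) fun z => ENNReal.ofReal_le_ofReal ?_) hE
    have := hq0 z
    show D.g j z ^ 2 ≤ D.H j z ^ 2 + D.g j z ^ 2 + D.q j z
    nlinarith [sq_nonneg (D.H j z)]
  have hEq : ∫⁻ z in ball x (16 * s), ENNReal.ofReal ((s ^ 2 * D.q j z) ^ 2) ∂μ ≤
      ENNReal.ofReal (s ^ 4 * (257 * c.B1 1)) * E := by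
    calc ∫⁻ z in ball x (16 * s), ENNReal.ofReal ((s ^ 2 * D.q j z) ^ 2) ∂μ
        ≤ ∫⁻ z in ball x (16 * s), ENNReal.ofReal (s ^ 4 * (257 * c.B1 1)) *
            ENNReal.ofReal (D.H j z ^ 2 + D.g j z ^ 2 + D.q j z) ∂μ := by
          refine lintegral_mono_ae ?_
          rw [ae_restrict_iff' isOpen_ball.measurableSet]
          filter_upwards [D.q_le j] with z hz hzb
          rw [mem_ball, dist_comm] at hzb
          have h1 := hz (by linarith)
          have h2 := hq0 z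
          rw [← ENNReal.ofReal_mul (by positivity)]
          apply ENNReal.ofReal_le_ofReal
          have h3 : dist x z ^ 2 ≤ (16 * s) ^ 2 := pow_le_pow_left₀ dist_nonneg hzb.le 2
          have h4 : s ^ 2 * D.q j z ≤ s ^ 2 * (257 * c.B1 1) := by
            rw [← hsdef] at h1
            calc s ^ 2 * D.q j z ≤ c.B1 1 * (dist x z ^ 2 + s ^ 2) := h1
              _ ≤ c.B1 1 * ((16 * s) ^ 2 + s ^ 2) := by gcongr
              _ = _ := by ring
          have h5 : (s ^ 2 * D.q j z) ^ 2 ≤ s ^ 4 * (257 * c.B1 1) * D.q j z := by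
            calc (s ^ 2 * D.q j z) ^ 2 = (s ^ 2 * D.q j z) * (s ^ 2 * D.q j z) := by ring
              _ ≤ (s ^ 2 * (257 * c.B1 1)) * (s ^ 2 * D.q j z) := by gcongr
              _ = _ := by ring
          refine h5.trans ?_
          have h6 : (0 : ℝ) ≤ s ^ 4 * (257 * c.B1 1) := by positivity
          nlinarith [mul_nonneg h6 (sq_nonneg (D.H j z)), mul_nonneg h6 (sq_nonneg (D.g j z))]
      _ = ENNReal.ofReal (s ^ 4 * (257 * c.B1 1)) *
            ∫⁻ z in ball x (16 * s), ENNReal.ofReal (D.H j z ^ 2 + D.g j z ^ 2 + D.q j z) ∂μ :=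
          lintegral_const_mul' _ _ ENNReal.ofReal_ne_top
      _ ≤ _ := by gcongr
  set V : ℝ≥0∞ := ENNReal.ofReal (2 * c.ω * 8 ^ n * s ^ n) with hVdef
  set K : ℝ≥0∞ := ENNReal.ofReal (Real.exp 1 * 2 ^ n) with hKdef
  calc 4 * (ENNReal.ofReal ((16 * s * s) ^ 2) * (μ (ball x (8 * s)) *
          ∫⁻ z in ball x (8 * s), ENNReal.ofReal (D.g j z ^ 2) ∂μ) +
        ENNReal.ofReal ((16 * s) ^ 4) * (Pyt710.segC n κ (16 * s) *
          (μ (ball x (8 * s)) + μ (ball x (8 * s))) *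
          ∫⁻ y in ball x (16 * s), ENNReal.ofReal (D.H j y ^ 2) ∂μ) +
        Pyt710.segC n κ (16 * s) * μ (ball x (8 * s)) *
          ∫⁻ y in ball x (16 * s), ENNReal.ofReal ((s ^ 2 * D.q j y) ^ 2) ∂μ +
        Pyt710.segC n κ (16 * s) * μ (ball x (8 * s)) *
          ∫⁻ y in ball x (16 * s), ENNReal.ofReal ((s ^ 2 * D.q j y) ^ 2) ∂μ)
      ≤ 4 * (ENNReal.ofReal ((16 * s * s) ^ 2) * (V * E) +
        ENNReal.ofReal ((16 * s) ^ 4) * (K * (V + V) * E) +
        K * V * (ENNReal.ofReal (s ^ 4 * (257 * c.B1 1)) * E) +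
        K * V * (ENNReal.ofReal (s ^ 4 * (257 * c.B1 1)) * E)) := by gcongr
    _ = ENNReal.ofReal (AL0 n c * ph j * s ^ (2 * n + 4)) := by
      have e4 : (4 : ℝ≥0∞) = ENNReal.ofReal 4 := by norm_num
      rw [hVdef, hKdef, hEdef, e4]
      rw [← ENNReal.ofReal_mul (by positivity), ← ENNReal.ofReal_mul (by positivity),
        ← ENNReal.ofReal_add (by positivity) (by positivity), ← ENNReal.ofReal_mul (by positivity),
        ← ENNReal.ofReal_mul (by positivity), ← ENNReal.ofReal_mul (by positivity),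
        ← ENNReal.ofReal_mul (by positivity), ← ENNReal.ofReal_mul (by positivity),
        ← ENNReal.ofReal_mul (by positivity), ← ENNReal.ofReal_add (by positivity) (by positivity),
        ← ENNReal.ofReal_add (by positivity) (by positivity),
        ← ENNReal.ofReal_add (by positivity) (by positivity), ← ENNReal.ofReal_mul (by positivity)]
      congr 1
      unfold AL0
      ring

/-- **(L) from the far data.** -/
theorem L_of_far {c : FarK} {x : X} {δ : ℝ} {ph : ℕ → ℝ} (D : FarD c C x δ ph)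
    (hG : GRep C G) (hn : 1 ≤ n) (hκ : 0 ≤ κ) (hκ1 : κ ≤ 1) (hδ : δ ≤ 1) {j : ℕ} (hj : 4 ≤ j) :
    ∫⁻ u in ball x (8 * dy j), ∫⁻ v in ball x (8 * dy j), ENNReal.ofReal (PP G x v u ^ 2) ∂μ ∂μ ≤
      ENNReal.ofReal (AL0 n c * ph j * dy j ^ (2 * n + 4)) :=
  L_of_far' D hG (fun _ hz => no_atom D hn hz) hκ hκ1 hδ hj

end far

end Crest.Agent.R247.Loc596
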