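import Crest.Agent.R247.Mcp5_688
import Crest.Agent.R247.Pyt1_710
import Crest.Agent.R247.Hes2_124

/-!
# (L) and (L2) from the local Hessian estimate `HFloc`

Everything is stated over `Hes124.BochS` (gradient/Hessian of smooth functions in an orthonormal
frame) and `Mcp688.Rad` (minimising geodesics).
-/

set_option autoImplicit false
set_option linter.unusedSectionVars false
open MeasureTheory Set Filter Topology Metric
open Crest.Agent.R247.Mcp688 Crest.Agent.R247.Pyt710 Crest.Agent.R247.Dir593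
  Crest.Agent.R247.Hes124
open scoped ENNReal NNReal RealInnerProductSpace

noncomputable section
namespace Crest.Agent.R247.Loc710

section defs
variable {n : ℕ} {κ κ' : ℝ} {X : Type*} [MetricSpace X] [MeasurableSpace X] {μ : Measure X}

/-- `f_x = d_x²/2` -/
def fx (x z : X) : ℝ := dist x z ^ 2 / 2

/-- Pythagoras defect `P_{x,v}(u) = Γ(f_x,f_v)(u) - f_x(u) - f_v(u) + f_x(v)`. -/
def Pyd (S : GradS X (F n) μ) (x v u : X) : ℝ :=
  ⟪S.G (fx x) u, S.G (fx v) u⟫ - fx x u - fx v u + fx x v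

/-- Local Hessian estimate on `ball x r` with a smooth function (equal to `f_x` up to a constant). -/
def HFloc (B : BochS n κ X μ) (x : X) (r D : ℝ) : Prop :=
  ∃ w ∈ B.core, ∃ a : ℝ,
    ∫⁻ z in ball x r, ENNReal.ofReal ((w z + a - fx x z) ^ 2) ∂μ ≤ ENNReal.ofReal (D * r ^ (n + 4)) ∧
    ∫⁻ z in ball x r, ENNReal.ofReal (‖B.G w z - B.G (fx x) z‖ ^ 2) ∂μ ≤
      ENNReal.ofReal (D * r ^ (n + 2)) ∧
    ∫⁻ z in ball x r, ENNReal.ofReal (‖B.H w z - idm n‖ ^ 2) ∂μ ≤ ENNReal.ofReal (D * r ^ n)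

/-- Second order Taylor formula along almost every minimiser, for smooth functions. -/
def TaylorP (B : BochS n κ X μ) (C : Rad n κ' X μ) : Prop :=
  ∀ w ∈ B.core, ∀ᵐ u ∂μ, ∀ᵐ v ∂μ,
    ENNReal.ofReal |⟪B.G w u, B.G (fx v) u⟫ - w u - fx v u + w v| ≤
      ENNReal.ofReal (dist u v ^ 2) *
        ∫⁻ t in Icc (0 : ℝ) 1, ENNReal.ofReal ‖B.H w (C.T u t v) - idm n‖

/-- `|∇f_v| = d_v`, for almost every pair. -/
def UnitP (S : GradS X (F n) μ) : Prop := ∀ᵐ u ∂μ, ∀ᵐ v ∂μ, ‖S.G (fx v) u‖ = dist v u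

/-- `|∇f_x| = d_x` for every `x`. -/
def UnitA (S : GradS X (F n) μ) : Prop := ∀ x, ∀ᵐ u ∂μ, ‖S.G (fx x) u‖ = dist x u

/-- the radial derivative is `⟨∇f_x, ∇φ⟩` -/
def RDG (S : GradS X (F n) μ) (C : Rad n κ' X μ) : Prop :=
  ∀ x, ∀ φ : X → ℝ, LocallyLipschitz φ → RD C x φ (fun z => ⟪S.G (fx x) z, S.G φ z⟫)

end defs

variable {n : ℕ} {κ κ' : ℝ} {X : Type*} [MetricSpace X] [MeasurableSpace X] [BorelSpace X]
  {μ : Measure X} [IsFiniteMeasureOnCompacts μ] [SFinite μ]

lemma locLip_fx (x : X) : LocallyLipschitz (fx x) := by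
  have h1 : LocallyLipschitz (fun z => dist x z) := (LipschitzWith.dist_right x).locallyLipschitz
  have h2 := GradS.locLip_mul h1 (GradS.locLip_mul h1 (LocallyLipschitz.const (1 / 2 : ℝ)))
  have e : fx x = fun z => dist x z * (dist x z * (1 / 2)) := by
    funext z
    unfold fx
    ring
  rw [e]
  exact h2

/-- changing a function on a null set does not change its integral over almost every segment -/
lemma seg_congr (C : Rad n κ' X μ) {φ ψ : X → ℝ≥0∞} (h : φ =ᵐ[μ] ψ) (u : X) :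
    ∀ᵐ v ∂μ, ∫⁻ t in Icc (0 : ℝ) 1, φ (C.T u t v) = ∫⁻ t in Icc (0 : ℝ) 1, ψ (C.T u t v) := by
  filter_upwards [C.ae_ray u h] with v hv
  rw [← restrict_Ioc_eq_restrict_Icc]
  exact lintegral_congr_ae hv

/-- bookkeeping -/
lemma ofReal_combo {a b c d e f g : ℝ} (ha : 0 ≤ a) (hb : 0 ≤ b) (hc : 0 ≤ c) (hd : 0 ≤ d)
    (he : 0 ≤ e) (hf : 0 ≤ f) (hg : 0 ≤ g) :
    4 * (ENNReal.ofReal a * (ENNReal.ofReal b * (ENNReal.ofReal c + ENNReal.ofReal c) *
        ENNReal.ofReal d) + ENNReal.ofReal e * (ENNReal.ofReal c * ENNReal.ofReal f)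
      + 2 * (ENNReal.ofReal c * ENNReal.ofReal g)) =
    ENNReal.ofReal (4 * (a * (b * (c + c) * d) + e * (c * f) + 2 * (c * g))) := by
  have e4 : (4 : ℝ≥0∞) = ENNReal.ofReal 4 := by norm_num
  have e2 : (2 : ℝ≥0∞) = ENNReal.ofReal 2 := by norm_num
  rw [e4, e2, ← ENNReal.ofReal_add hc hc, ← ENNReal.ofReal_mul hb,
    ← ENNReal.ofReal_mul (by positivity), ← ENNReal.ofReal_mul ha, ← ENNReal.ofReal_mul hc,
    ← ENNReal.ofReal_mul he, ← ENNReal.ofReal_mul hc, ← ENNReal.ofReal_mul (by positivity),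
    ← ENNReal.ofReal_add (by positivity) (by positivity),
    ← ENNReal.ofReal_add (by positivity) (by positivity), ← ENNReal.ofReal_mul (by positivity)]

/-- **(L) local Pythagoras.** -/
theorem local_pythagoras (B : BochS n κ X μ) (C : Rad n κ' X μ) (hκ : 0 ≤ κ') (hκ1 : κ' ≤ 1)
    (hT : TaylorP B C) (hU : UnitP B.toGradS) {x : X} {r D V : ℝ} (hr : 0 < r) (hr1 : r ≤ 1)
    (hD : 0 ≤ D) (hloc : HFloc B x (3 * r) D) (hV : 0 ≤ V)
    (hvol : μ (ball x r) ≤ ENNReal.ofReal (V * r ^ n)) :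
    ∫⁻ u in ball x r, ∫⁻ v in ball x r, ENNReal.ofReal (Pyd B.toGradS x v u ^ 2) ∂μ ∂μ ≤
      ENNReal.ofReal (10 ^ 4 * 6 ^ n * V * D * r ^ (2 * n + 4)) := by
  obtain ⟨w, hw, a, h1, h2, h3⟩ := hloc
  have hwT := B.core_test hw
  -- measurable representatives
  set Hf : X → ℝ≥0∞ := fun z => ENNReal.ofReal ‖B.H w z - idm n‖ with hHf
  have hHfm : AEMeasurable Hf μ := ((B.H_meas hw).sub aestronglyMeasurable_const).norm.aemeasurable.ennreal_ofReal
  set gf : X → ℝ≥0∞ := fun z => ENNReal.ofReal ‖B.G w z - B.G (fx x) z‖ with hgf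
  have hgfm : AEMeasurable gf μ :=
    ((B.meas hwT.1).sub (B.meas (locLip_fx x))).norm.aemeasurable.ennreal_ofReal
  have hfxc : Continuous (fx x) := (locLip_fx x).continuous
  have hwc : Continuous w := hwT.1.continuous
  set qf : X → ℝ≥0∞ := fun z => ENNReal.ofReal |w z + a - fx x z| with hqf
  have hqfm : Measurable qf := (((hwc.add continuous_const).sub hfxc).abs.measurable).ennreal_ofReal
  have hp : ∀ᵐ u ∂(μ.restrict (ball x r)), ∀ᵐ v ∂(μ.restrict (ball x r)),
      ENNReal.ofReal |Pyd B.toGradS x v u| ≤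
      ENNReal.ofReal ((2 * r) ^ 2) * (∫⁻ t in Icc (0 : ℝ) 1, hHfm.mk Hf (C.T u t v))
        + ENNReal.ofReal (2 * r) * hgfm.mk gf u + qf u + qf v := by
    rw [ae_restrict_iff' measurableSet_ball]
    filter_upwards [hT w hw, hU, hgfm.ae_eq_mk] with u hu1 hu2 hu3 hux
    rw [ae_restrict_iff' measurableSet_ball]
    filter_upwards [hu1, hu2, seg_congr C hHfm.ae_eq_mk u] with v hv1 hv2 hv3 hvx
    have hduv : dist u v ≤ 2 * r := by
      have h1 : dist u x < r := hux
      have h2 : dist v x < r := hvx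
      linarith [dist_triangle u x v, dist_comm x v]
    have halg : Pyd B.toGradS x v u =
        (⟪B.G w u, B.G (fx v) u⟫ - w u - fx v u + w v)
          + (-⟪B.G w u - B.G (fx x) u, B.G (fx v) u⟫) + (w u + a - fx x u) + (-(w v + a - fx x v)) := by
      unfold Pyd
      rw [inner_sub_left]
      ring
    have habs : |Pyd B.toGradS x v u| ≤
        |⟪B.G w u, B.G (fx v) u⟫ - w u - fx v u + w v| +
          (2 * r) * ‖B.G w u - B.G (fx x) u‖ + |w u + a - fx x u| + |w v + a - fx x v| := by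
      rw [halg]
      refine (abs_add_le _ _).trans ?_
      rw [abs_neg]
      gcongr
      refine (abs_add_le _ _).trans ?_
      gcongr
      refine (abs_add_le _ _).trans ?_
      gcongr
      rw [abs_neg]
      refine (abs_real_inner_le_norm _ _).trans ?_
      rw [hv2, mul_comm, dist_comm v u]
      gcongr
    calc ENNReal.ofReal |Pyd B.toGradS x v u|
        ≤ ENNReal.ofReal (|⟪B.G w u, B.G (fx v) u⟫ - w u - fx v u + w v| +
          (2 * r) * ‖B.G w u - B.G (fx x) u‖ + |w u + a - fx x u| + |w v + a - fx x v|) :=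
          ENNReal.ofReal_le_ofReal habs
      _ = ENNReal.ofReal |⟪B.G w u, B.G (fx v) u⟫ - w u - fx v u + w v| +
          ENNReal.ofReal (2 * r) * gf u + qf u + qf v := by
          rw [ENNReal.ofReal_add (by positivity) (by positivity),
            ENNReal.ofReal_add (by positivity) (by positivity),
            ENNReal.ofReal_add (by positivity) (by positivity),
            ENNReal.ofReal_mul (by positivity)]
      _ ≤ ENNReal.ofReal ((2 * r) ^ 2) * (∫⁻ t in Icc (0 : ℝ) 1, hHfm.mk Hf (C.T u t v))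
        + ENNReal.ofReal (2 * r) * hgfm.mk gf u + qf u + qf v := by
          rw [← hv3, ← hu3]
          gcongr
          exact hv1.trans (by gcongr)
  have hmain := pythagoras_ae C hκ (A := ball x r) (W := ball x (3 * r)) measurableSet_ball
    measurableSet_ball (D := 2 * r) (fun a ha b hb => by
      have h1 : dist a x < r := ha
      have h2 : dist b x < r := hb
      linarith [dist_triangle a x b, dist_comm x b])
    (fun a ha b hb hab t ht => by
      have h1 : dist a x < r := ha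
      have h2 : dist b x < r := hb
      have h3 : dist a (C.T a t b) = t * dist a b := C.dist_left hab ht
      have h4 : dist a b ≤ 2 * r := by linarith [dist_triangle a x b, dist_comm x b]
      have h5 : t * dist a b ≤ 1 * dist a b := mul_le_mul_of_nonneg_right ht.2 dist_nonneg
      have h6 : dist (C.T a t b) x < 3 * r := by
        have := dist_triangle (C.T a t b) a x
        rw [dist_comm (C.T a t b) a] at this
        linarith
      exact h6)
    hHfm.measurable_mk hgfm.measurable_mk hqfm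
    (p := fun u v => ENNReal.ofReal |Pyd B.toGradS x v u|) hp
  have hsq : ∀ a : ℝ, ENNReal.ofReal (a ^ 2) = (ENNReal.ofReal |a|) ^ 2 := fun a => by
    rw [← ENNReal.ofReal_pow (abs_nonneg _), sq_abs]
  have hsqn : ∀ a : ℝ, 0 ≤ a → ENNReal.ofReal (a ^ 2) = (ENNReal.ofReal a) ^ 2 := fun a ha => by
    rw [← ENNReal.ofReal_pow ha]
  have e1 : ∫⁻ y in ball x (3 * r), hHfm.mk Hf y ^ 2 ∂μ ≤ ENNReal.ofReal (D * (3 * r) ^ n) := by
    refine le_trans (le_of_eq ?_) h3
    apply lintegral_congr_ae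
    filter_upwards [ae_restrict_of_ae hHfm.ae_eq_mk] with y hy
    rw [← hy, hsqn _ (norm_nonneg _)]
  have hbb : ball x r ⊆ ball x (3 * r) := ball_subset_ball (by linarith)
  have e2 : ∫⁻ y in ball x r, hgfm.mk gf y ^ 2 ∂μ ≤ ENNReal.ofReal (D * (3 * r) ^ (n + 2)) := by
    refine le_trans ?_ h2
    refine le_trans (le_of_eq ?_) (lintegral_mono_set hbb)
    apply lintegral_congr_ae
    filter_upwards [ae_restrict_of_ae hgfm.ae_eq_mk] with y hy
    rw [← hy, hsqn _ (norm_nonneg _)]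
  have e3 : ∫⁻ y in ball x r, qf y ^ 2 ∂μ ≤ ENNReal.ofReal (D * (3 * r) ^ (n + 4)) := by
    refine le_trans ?_ h1
    refine le_trans (le_of_eq ?_) (lintegral_mono_set hbb)
    apply lintegral_congr
    intro y
    rw [hsq]
  have hseg : segC n κ' (2 * r) ≤ ENNReal.ofReal (9 * 2 ^ n) := by
    unfold segC
    apply ENNReal.ofReal_le_ofReal
    gcongr
    have h4 : κ' * (2 * r) ^ 2 / 2 ≤ 2 := by
      have : (2 * r) ^ 2 ≤ 4 := by nlinarith
      have h5 : κ' * (2 * r) ^ 2 ≤ 1 * 4 := by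
        gcongr
      linarith
    calc Real.exp (κ' * (2 * r) ^ 2 / 2) ≤ Real.exp 2 := Real.exp_le_exp.2 h4
      _ ≤ 9 := by
        have h6 : Real.exp 2 = Real.exp 1 ^ 2 := by rw [← Real.exp_nat_mul]; norm_num
        have h7 := Real.exp_one_lt_d9
        have h8 := Real.exp_pos 1
        rw [h6]
        nlinarith
  calc ∫⁻ u in ball x r, ∫⁻ v in ball x r, ENNReal.ofReal (Pyd B.toGradS x v u ^ 2) ∂μ ∂μ
      = ∫⁻ u in ball x r, ∫⁻ v in ball x r, (ENNReal.ofReal |Pyd B.toGradS x v u|) ^ 2 ∂μ ∂μ := by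
        simp_rw [hsq]
    _ ≤ _ := hmain
    _ ≤ 4 * (ENNReal.ofReal ((2 * r) ^ 4) * (ENNReal.ofReal (9 * 2 ^ n) *
          (ENNReal.ofReal (V * r ^ n) + ENNReal.ofReal (V * r ^ n)) *
            ENNReal.ofReal (D * (3 * r) ^ n))
        + ENNReal.ofReal ((2 * r) ^ 2) * (ENNReal.ofReal (V * r ^ n) *
            ENNReal.ofReal (D * (3 * r) ^ (n + 2)))
        + 2 * (ENNReal.ofReal (V * r ^ n) * ENNReal.ofReal (D * (3 * r) ^ (n + 4)))) := by
        gcongr
    _ = ENNReal.ofReal (4 * ((2 * r) ^ 4 * ((9 * 2 ^ n) * (V * r ^ n + V * r ^ n) *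
          (D * (3 * r) ^ n)) + (2 * r) ^ 2 * ((V * r ^ n) * (D * (3 * r) ^ (n + 2)))
          + 2 * ((V * r ^ n) * (D * (3 * r) ^ (n + 4))))) := by
        apply ofReal_combo <;> positivity
    _ ≤ ENNReal.ofReal (10 ^ 4 * 6 ^ n * V * D * r ^ (2 * n + 4)) := by
        apply ENNReal.ofReal_le_ofReal
        have h6 : (3 : ℝ) ^ n * 2 ^ n = 6 ^ n := by rw [← mul_pow]; norm_num
        have h61 : (3 : ℝ) ^ n ≤ 6 ^ n := by gcongr; norm_num
        have hX : 0 ≤ V * D * r ^ (2 * n + 4) := by positivity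
        have key : 4 * ((2 * r) ^ 4 * ((9 * 2 ^ n) * (V * r ^ n + V * r ^ n) *
          (D * (3 * r) ^ n)) + (2 * r) ^ 2 * ((V * r ^ n) * (D * (3 * r) ^ (n + 2)))
          + 2 * ((V * r ^ n) * (D * (3 * r) ^ (n + 4)))) =
          (1152 * (3 ^ n * 2 ^ n) + 144 * 3 ^ n + 648 * 3 ^ n) * (V * D * r ^ (2 * n + 4)) := by
          rw [mul_pow, mul_pow, mul_pow, mul_pow, mul_pow]
          ring
        rw [key, h6]
        calc (1152 * 6 ^ n + 144 * 3 ^ n + 648 * 3 ^ n) * (V * D * r ^ (2 * n + 4))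
            ≤ (1152 * 6 ^ n + 144 * 6 ^ n + 648 * 6 ^ n) * (V * D * r ^ (2 * n + 4)) := by
              gcongr
          _ = 1944 * 6 ^ n * (V * D * r ^ (2 * n + 4)) := by ring
          _ ≤ 10 ^ 4 * 6 ^ n * (V * D * r ^ (2 * n + 4)) := by
              gcongr
              norm_num
          _ = _ := by ring

end Crest.Agent.R247.Loc710
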