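import Crest.Agent.R247.Loc1_710

/-!
# (L2): the local Pythagoras theorem for two centres (`L¹` form)

For two centres `x, y` and a measurable set `A ⊆ ball x r ∩ ball y r` the function
`u ↦ ⟨∇f_x,∇f_y⟩(u) - f_x(u) - f_y(u)` is `L¹(A)`-close to a constant, the error being controlled by
the local Hessian defects of `x` and `y`.
-/

set_option autoImplicit false
set_option linter.unusedSectionVars false
open MeasureTheory Set Filter Topology Metric
open Crest.Agent.R247.Mcp688 Crest.Agent.R247.Pyt710 Crest.Agent.R247.Dir593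
  Crest.Agent.R247.Hes124
open scoped ENNReal NNReal RealInnerProductSpace

noncomputable section
namespace Crest.Agent.R247.Loc710

variable {n : ℕ} {κ κ' : ℝ} {X : Type*} [MetricSpace X] [MeasurableSpace X] [BorelSpace X]
  {μ : Measure X} [IsFiniteMeasureOnCompacts μ] [SFinite μ]

/-- The gradient and Hessian parts of `HFloc` (all that `(L2)` needs). -/
def HF2 (B : BochS n κ X μ) (x : X) (r D : ℝ) : Prop :=
  ∃ w ∈ B.core,
    ∫⁻ z in ball x r, ENNReal.ofReal (‖B.G w z - B.G (fx x) z‖ ^ 2) ∂μ ≤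
      ENNReal.ofReal (D * r ^ (n + 2)) ∧
    ∫⁻ z in ball x r, ENNReal.ofReal (‖B.H w z - idm n‖ ^ 2) ∂μ ≤ ENNReal.ofReal (D * r ^ n)

lemma HFloc.hf2 {B : BochS n κ X μ} {x : X} {r D : ℝ} (h : HFloc B x r D) : HF2 B x r D := by
  obtain ⟨w, hw, _, -, h2, h3⟩ := h
  exact ⟨w, hw, h2, h3⟩

lemma HF2.mono {B : BochS n κ X μ} {x : X} {r D D' : ℝ} (h : HF2 B x r D) (hr : 0 ≤ r)
    (hD : D ≤ D') : HF2 B x r D' := by
  obtain ⟨w, hw, h2, h3⟩ := h
  exact ⟨w, hw, h2.trans (ENNReal.ofReal_le_ofReal (by gcongr)),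
    h3.trans (ENNReal.ofReal_le_ofReal (by gcongr))⟩

/-- locally Lipschitz functions are Lipschitz on bounded sets of a proper space -/
lemma lip_bdd [ProperSpace X] {q : X → ℝ} (hq : LocallyLipschitz q) (x : X) :
    ∀ R : ℝ, ∃ L : ℝ, ∀ y z, dist x y ≤ R → dist x z ≤ R → |q y - q z| ≤ L * dist y z := by
  intro R
  obtain ⟨K, hK⟩ := (hq.locallyLipschitzOn (s := closedBall x R)).exists_lipschitzOnWith_of_compact
    (isCompact_closedBall x R)
  refine ⟨K, fun y z hy hz => ?_⟩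
  have := hK.dist_le_mul y (by rwa [mem_closedBall, dist_comm]) z
    (by rwa [mem_closedBall, dist_comm])
  rwa [Real.dist_eq] at this

/-- the oscillation of `P` on a minimiser is at most the integral of `|∇P|` -/
lemma pair_le [ProperSpace X] (S : GradS X (F n) μ) (C : Rad n κ' X μ) (hR : RDG S C)
    (hU : UnitA S) {P : X → ℝ} (hP : LocallyLipschitz P) (u : X) :
    ∀ᵐ v ∂μ, ENNReal.ofReal |P u - P v| ≤ ENNReal.ofReal (dist u v) *
      ∫⁻ t in Icc (0 : ℝ) 1, ENNReal.ofReal ‖S.G P (C.T u t v)‖ := by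
  filter_upwards [C.ray_ftc u (hR u P hP) (lip_bdd hP u), C.ae_ray u (hU u), C.ae_U u]
    with v hv hu hUv
  have key : ∀ a ∈ Ioc (0 : ℝ) 1, ENNReal.ofReal |P (C.T u 1 v) - P (C.T u a v)| ≤
      ENNReal.ofReal (dist u v) *
        ∫⁻ t in Icc (0 : ℝ) 1, ENNReal.ofReal ‖S.G P (C.T u t v)‖ := by
    intro a ha
    obtain ⟨hi, he⟩ := hv a 1 ha.1 ha.2 le_rfl
    rw [← he, intervalIntegral.integral_of_le ha.2, ← Real.enorm_eq_ofReal_abs]
    refine (enorm_integral_le_lintegral_enorm _).trans ?_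
    rw [← lintegral_const_mul' _ _ ENNReal.ofReal_ne_top]
    calc ∫⁻ t in Ioc a 1, ‖⟪S.G (fx u) (C.T u t v), S.G P (C.T u t v)⟫ / t‖ₑ
        ≤ ∫⁻ t in Ioc a 1, ENNReal.ofReal (dist u v) *
            ENNReal.ofReal ‖S.G P (C.T u t v)‖ := by
          apply lintegral_mono_ae
          filter_upwards [ae_restrict_of_ae_restrict_of_subset
            (Ioc_subset_Ioc ha.1.le le_rfl) hu, ae_restrict_mem measurableSet_Ioc] with t ht htm
          have ht0 : 0 < t := ha.1.trans htm.1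
          have htI : t ∈ Icc (0 : ℝ) 1 := ⟨ht0.le, htm.2⟩
          rw [Real.enorm_eq_ofReal_abs, ← ENNReal.ofReal_mul dist_nonneg]
          apply ENNReal.ofReal_le_ofReal
          rw [abs_div, abs_of_pos ht0, div_le_iff₀ ht0]
          calc |⟪S.G (fx u) (C.T u t v), S.G P (C.T u t v)⟫|
              ≤ ‖S.G (fx u) (C.T u t v)‖ * ‖S.G P (C.T u t v)‖ := abs_real_inner_le_norm _ _
            _ = dist u v * ‖S.G P (C.T u t v)‖ * t := by
                rw [ht, C.dist_left hUv htI]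
                ring
      _ ≤ ∫⁻ t in Icc (0 : ℝ) 1, ENNReal.ofReal (dist u v) *
            ENNReal.ofReal ‖S.G P (C.T u t v)‖ := by
          apply lintegral_mono_set
          intro t ht
          exact ⟨ha.1.le.trans ht.1.le, ht.2⟩
  have hcont : Tendsto (fun a : ℝ => ENNReal.ofReal |P (C.T u 1 v) - P (C.T u a v)|) (𝓝[>] 0)
      (𝓝 (ENNReal.ofReal |P (C.T u 1 v) - P (C.T u 0 v)|)) := by
    have h1 : Tendsto (fun a : ℝ => C.T u a v) (𝓝[>] 0) (𝓝 (C.T u 0 v)) := by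
      rw [tendsto_iff_dist_tendsto_zero]
      have h2 : Tendsto (fun a : ℝ => |a - 0| * dist u v) (𝓝[>] 0) (𝓝 (|(0 : ℝ) - 0| * dist u v)) := by
        have : Continuous (fun a : ℝ => |a - 0| * dist u v) := by fun_prop
        exact (this.tendsto 0).mono_left nhdsWithin_le_nhds
      simp only [sub_zero, abs_zero, zero_mul] at h2
      refine h2.congr' ?_
      filter_upwards [Ioc_mem_nhdsGT (show (0 : ℝ) < 1 by norm_num)] with a ha
      rw [C.dist_T u v hUv a ⟨ha.1.le, ha.2⟩ 0 ⟨le_rfl, zero_le_one⟩, sub_zero]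
    have h3 : Tendsto (fun a : ℝ => P (C.T u a v)) (𝓝[>] 0) (𝓝 (P (C.T u 0 v))) :=
      (hP.continuous.tendsto _).comp h1
    exact (ENNReal.continuous_ofReal.tendsto _).comp ((tendsto_const_nhds.sub h3).abs)
  have hfin := le_of_tendsto hcont (by
    filter_upwards [Ioc_mem_nhdsGT (show (0 : ℝ) < 1 by norm_num)] with a ha
    exact key a ha)
  rwa [C.T_one u v hUv, C.T_zero u v hUv, abs_sub_comm] at hfin

/-- bound of the Pythagoras defect -/
lemma abs_Pyd_le (S : GradS X (F n) μ) {x y u : X} {r : ℝ} (hx : ‖S.G (fx x) u‖ = dist x u)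
    (hy : ‖S.G (fx y) u‖ = dist y u) (hxr : dist x u ≤ r) (hyr : dist y u ≤ r) :
    |Pyd S x y u| ≤ 3 * r ^ 2 := by
  have hr : 0 ≤ r := dist_nonneg.trans hxr
  have h1 : |⟪S.G (fx x) u, S.G (fx y) u⟫| ≤ r ^ 2 := by
    refine (abs_real_inner_le_norm _ _).trans ?_
    rw [hx, hy, sq]
    gcongr
  have h2 : fx x u ≤ r ^ 2 / 2 := by unfold fx; gcongr
  have h3 : fx y u ≤ r ^ 2 / 2 := by unfold fx; gcongr
  have h4 : fx x y ≤ 2 * r ^ 2 := by
    unfold fx
    have h5 : dist x y ≤ 2 * r := by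
      have := dist_triangle x u y
      rw [dist_comm u y] at this
      linarith
    have h6 : dist x y ^ 2 ≤ (2 * r) ^ 2 := by gcongr
    nlinarith
  have h20 : 0 ≤ fx x u := by unfold fx; positivity
  have h30 : 0 ≤ fx y u := by unfold fx; positivity
  have h40 : 0 ≤ fx x y := by unfold fx; positivity
  unfold Pyd
  rw [abs_le] at h1 ⊢
  constructor <;> nlinarith [h1.1, h1.2, sq_nonneg r]

/-- `P_{x,y} = f_x(y) - |∇f_x - ∇f_y|²/2` -/
lemma Pyd_eq (S : GradS X (F n) μ) {x y u : X} (hx : ‖S.G (fx x) u‖ = dist x u)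
    (hy : ‖S.G (fx y) u‖ = dist y u) :
    Pyd S x y u = fx x y - ‖S.G (fx x) u - S.G (fx y) u‖ ^ 2 / 2 := by
  unfold Pyd
  rw [@norm_sub_sq_real, hx, hy]
  unfold fx
  ring

lemma Pyd_symm (S : GradS X (F n) μ) (x y u : X) : Pyd S x y u = Pyd S y x u := by
  unfold Pyd
  rw [real_inner_comm]
  have : fx x y = fx y x := by unfold fx; rw [dist_comm]
  rw [this]
  ring

lemma aesm_Pyd (S : GradS X (F n) μ) (x y : X) : AEStronglyMeasurable (Pyd S x y) μ := by
  unfold Pyd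
  exact ((((S.meas (locLip_fx x)).inner (S.meas (locLip_fx y))).sub
    (locLip_fx x).continuous.aestronglyMeasurable).sub
    (locLip_fx y).continuous.aestronglyMeasurable).add aestronglyMeasurable_const

/-- real inequality for the gradient of `|∇w|²/2` -/
lemma real_GP {a b σ r : ℝ} (hr : 0 < r) (hσ : 0 < σ) (hσ1 : σ ≤ 1) {hx hy gx gy : ℝ}
    (ha0 : 0 ≤ a) (hb0 : 0 ≤ b) (ha : a ≤ hx + hy) (hb : b ≤ gx + gy + 6 * r) :
    a * b ≤ 7 * r / σ * (hx ^ 2 + hy ^ 2) + 1 / r * (gx ^ 2 + gy ^ 2) + 3 * r * σ := by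
  have h1 : a * b ≤ (hx + hy) * (gx + gy + 6 * r) :=
    mul_le_mul ha hb hb0 (ha0.trans ha)
  have h2 : (hx + hy) * (gx + gy) ≤ r / 2 * (hx + hy) ^ 2 + 1 / (2 * r) * (gx + gy) ^ 2 := by
    have h3 : r / 2 * (hx + hy) ^ 2 + 1 / (2 * r) * (gx + gy) ^ 2 - (hx + hy) * (gx + gy) =
        1 / (2 * r) * (r * (hx + hy) - (gx + gy)) ^ 2 := by
      field_simp
      ring
    have : 0 ≤ 1 / (2 * r) * (r * (hx + hy) - (gx + gy)) ^ 2 := by positivity
    linarith
  have h4 : (hx + hy) * (6 * r) ≤ 3 * r / σ * (hx + hy) ^ 2 + 3 * r * σ := by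
    have h3 : 3 * r / σ * (hx + hy) ^ 2 + 3 * r * σ - (hx + hy) * (6 * r) =
        3 * r / σ * ((hx + hy) - σ) ^ 2 := by
      field_simp
      ring
    have : 0 ≤ 3 * r / σ * ((hx + hy) - σ) ^ 2 := by positivity
    linarith
  have h5 : (hx + hy) ^ 2 ≤ 2 * (hx ^ 2 + hy ^ 2) := by nlinarith [sq_nonneg (hx - hy)]
  have h6 : (gx + gy) ^ 2 ≤ 2 * (gx ^ 2 + gy ^ 2) := by nlinarith [sq_nonneg (gx - gy)]
  have h7 : r / 2 ≤ r / (2 * σ) := by
    apply div_le_div_of_nonneg_left hr.le (by positivity) (by linarith)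
  calc a * b ≤ (hx + hy) * (gx + gy) + (hx + hy) * (6 * r) := by rw [← mul_add]; exact h1
    _ ≤ (r / 2 * (hx + hy) ^ 2 + 1 / (2 * r) * (gx + gy) ^ 2) +
        (3 * r / σ * (hx + hy) ^ 2 + 3 * r * σ) := add_le_add h2 h4
    _ ≤ (r / (2 * σ) * (2 * (hx ^ 2 + hy ^ 2)) + 1 / (2 * r) * (2 * (gx ^ 2 + gy ^ 2))) +
        (3 * r / σ * (2 * (hx ^ 2 + hy ^ 2)) + 3 * r * σ) := by gcongr
    _ = 7 * r / σ * (hx ^ 2 + hy ^ 2) + 1 / r * (gx ^ 2 + gy ^ 2) + 3 * r * σ := by
        field_simp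
        ring

/-- real inequality for the zero order error -/
lemma real_err {b σ r gx gy m : ℝ} (hr : 0 < r) (hσ : 0 < σ) (hσ1 : σ ≤ 1) (hb0 : 0 ≤ b)
    (hb : b ≤ gx + gy) (hm0 : 0 ≤ m) (hm : m ≤ 2 * r) :
    m * b + b ^ 2 / 2 ≤ 3 / σ * (gx ^ 2 + gy ^ 2) + σ * r ^ 2 := by
  have h6 : b ^ 2 ≤ 2 * (gx ^ 2 + gy ^ 2) := by
    calc b ^ 2 ≤ (gx + gy) ^ 2 := by gcongr
      _ ≤ _ := by nlinarith [sq_nonneg (gx - gy)]
  have h1 : m * b ≤ 2 * r * b := by gcongr
  have h2 : 2 * r * b ≤ b ^ 2 / σ + σ * r ^ 2 := by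
    have h3 : b ^ 2 / σ + σ * r ^ 2 - 2 * r * b = 1 / σ * (b - σ * r) ^ 2 := by
      field_simp
      ring
    have : 0 ≤ 1 / σ * (b - σ * r) ^ 2 := by positivity
    linarith
  have h3 : b ^ 2 / 2 ≤ b ^ 2 / (2 * σ) := by
    apply div_le_div_of_nonneg_left (sq_nonneg _) (by positivity) (by linarith)
  calc m * b + b ^ 2 / 2 ≤ b ^ 2 / σ + σ * r ^ 2 + b ^ 2 / (2 * σ) := by linarith
    _ = 3 / (2 * σ) * b ^ 2 + σ * r ^ 2 := by field_simp; ring
    _ ≤ 3 / (2 * σ) * (2 * (gx ^ 2 + gy ^ 2)) + σ * r ^ 2 := by gcongr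
    _ = _ := by field_simp

/-- pair form of `(L2)` -/
theorem pairs2 [ProperSpace X] (B : BochS n κ X μ) (C : Rad n κ' X μ) (hκ : 0 ≤ κ')
    (hκ1 : κ' ≤ 1) (hR : RDG B.toGradS C) (hU : UnitA B.toGradS) {x y : X} {r σ V : ℝ}
    (hr : 0 < r) (hr1 : r ≤ 1) (hσ : 0 < σ) (hσ1 : σ ≤ 1) (hV : 0 ≤ V)
    (hx : HF2 B x (3 * r) (σ ^ 2)) (hy : HF2 B y (3 * r) (σ ^ 2))
    (hvol : μ (ball x (3 * r)) ≤ ENNReal.ofReal (V * r ^ n)) {A : Set X} (hA : MeasurableSet A)
    (hAx : ∀ a ∈ A, dist x a < r) (hAy : ∀ a ∈ A, dist y a < r) :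
    ∫⁻ u in A, ∫⁻ v in A, ENNReal.ofReal |Pyd B.toGradS x y u - Pyd B.toGradS x y v| ∂μ ∂μ ≤
      μ A * ENNReal.ofReal (2000 * 6 ^ n * (1 + V) * σ * r ^ (n + 2)) := by
  obtain ⟨wx, hwx, hx2, hx3⟩ := hx
  obtain ⟨wy, hwy, hy2, hy3⟩ := hy
  have hTx := B.core_test hwx
  have hTy := B.core_test hwy
  have hw := B.core_sub hwx hwy
  obtain ⟨P, hPT, hP1, hP2⟩ := B.half_sq hw
  set W : Set X := ball x (3 * r) ∩ ball y (3 * r) with hWdef
  have hW : MeasurableSet W := measurableSet_ball.inter measurableSet_ball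
  have hdist : ∀ a ∈ A, ∀ b ∈ A, dist a b ≤ 2 * r := fun a ha b hb => by
    have h1 := hAx a ha
    have h2 := hAx b hb
    have := dist_triangle a x b
    rw [dist_comm a x] at this
    linarith
  have hAW : ∀ a ∈ A, ∀ b ∈ A, (a, b) ∈ C.U → ∀ t ∈ Icc (0 : ℝ) 1, C.T a t b ∈ W := by
    intro a ha b hb hab t ht
    have h3 : dist a (C.T a t b) = t * dist a b := C.dist_left hab ht
    have h4 := hdist a ha b hb
    have h5 : t * dist a b ≤ 1 * dist a b := mul_le_mul_of_nonneg_right ht.2 dist_nonneg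
    have h6 := hAx a ha
    have h7 := hAy a ha
    constructor
    · rw [mem_ball, dist_comm]
      have := dist_triangle x a (C.T a t b)
      linarith
    · rw [mem_ball, dist_comm]
      have := dist_triangle y a (C.T a t b)
      linarith
  -- the functions
  set hxf : X → ℝ := fun z => ‖B.H wx z - idm n‖ with hhxf
  set hyf : X → ℝ := fun z => ‖B.H wy z - idm n‖ with hhyf
  set gxf : X → ℝ := fun z => ‖B.G wx z - B.G (fx x) z‖ with hgxf
  set gyf : X → ℝ := fun z => ‖B.G wy z - B.G (fx y) z‖ with hgyf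
  have mhx : AEMeasurable hxf μ := ((B.H_meas hwx).sub aestronglyMeasurable_const).norm.aemeasurable
  have mhy : AEMeasurable hyf μ := ((B.H_meas hwy).sub aestronglyMeasurable_const).norm.aemeasurable
  have mgx : AEMeasurable gxf μ :=
    ((B.meas hTx.1).sub (B.meas (locLip_fx x))).norm.aemeasurable
  have mgy : AEMeasurable gyf μ :=
    ((B.meas hTy.1).sub (B.meas (locLip_fx y))).norm.aemeasurable
  -- gradient of P
  set GP : X → ℝ≥0∞ := fun z => ENNReal.ofReal ‖B.G P z‖ with hGP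
  have hGPm : AEMeasurable GP μ := (B.meas hPT.1).norm.aemeasurable.ennreal_ofReal
  set af : X → ℝ≥0∞ := fun z => ENNReal.ofReal (3 / σ * (gxf z ^ 2 + gyf z ^ 2) + σ * r ^ 2)
    with haf
  have hafm : AEMeasurable af μ :=
    ((((mgx.pow_const 2).add (mgy.pow_const 2)).const_mul _).add_const _).ennreal_ofReal
  -- pointwise facts
  have hGw : ∀ᵐ z ∂μ, B.G (fun x => wx x - wy x) z = B.G wx z - B.G wy z :=
    B.toGradS.sub hTx.1 hTy.1
  have hpoint : ∀ᵐ z ∂μ, z ∈ W → GP z ≤ ENNReal.ofReal (7 * r / σ * (hxf z ^ 2 + hyf z ^ 2)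
      + 1 / r * (gxf z ^ 2 + gyf z ^ 2) + 3 * r * σ) := by
    filter_upwards [hP2, hGw, B.H_sub hwx hwy, hU x, hU y] with z e1 e2 e3 e4 e5 hz
    apply ENNReal.ofReal_le_ofReal
    rw [e1]
    refine (norm_mv_le _ _).trans (real_GP hr hσ hσ1 (norm_nonneg _) (norm_nonneg _) ?_ ?_)
    · rw [e3]
      have : B.H wx z - B.H wy z = (B.H wx z - idm n) - (B.H wy z - idm n) := by abel
      rw [this]
      exact norm_sub_le _ _
    · rw [e2]
      have h1 : B.G wx z - B.G wy z = (B.G wx z - B.G (fx x) z) - (B.G wy z - B.G (fx y) z)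
          + (B.G (fx x) z - B.G (fx y) z) := by abel
      rw [h1]
      have h2 : dist x z < 3 * r := by have := hz.1; rwa [mem_ball, dist_comm] at this
      have h3 : dist y z < 3 * r := by have := hz.2; rwa [mem_ball, dist_comm] at this
      calc ‖(B.G wx z - B.G (fx x) z) - (B.G wy z - B.G (fx y) z)
          + (B.G (fx x) z - B.G (fx y) z)‖
          ≤ ‖(B.G wx z - B.G (fx x) z) - (B.G wy z - B.G (fx y) z)‖
            + ‖B.G (fx x) z - B.G (fx y) z‖ := norm_add_le _ _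
        _ ≤ (gxf z + gyf z) + (‖B.G (fx x) z‖ + ‖B.G (fx y) z‖) :=
            add_le_add (norm_sub_le _ _) (norm_sub_le _ _)
        _ ≤ gxf z + gyf z + 6 * r := by rw [e4, e5]; linarith
  have herr : ∀ᵐ z ∂μ, z ∈ A → ENNReal.ofReal |Pyd B.toGradS x y z + P z - fx x y| ≤ af z := by
    filter_upwards [hP1, hGw, hU x, hU y] with z e1 e2 e4 e5 hz
    apply ENNReal.ofReal_le_ofReal
    rw [Pyd_eq B.toGradS e4 e5, e1, e2]
    set m := B.G (fx x) z - B.G (fx y) z with hm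
    set δ := (B.G wx z - B.G (fx x) z) - (B.G wy z - B.G (fx y) z) with hδ
    have h1 : B.G wx z - B.G wy z = m + δ := by rw [hm, hδ]; abel
    rw [h1, @norm_add_sq_real]
    have h2 : fx x y - ‖m‖ ^ 2 / 2 + (‖m‖ ^ 2 + 2 * ⟪m, δ⟫ + ‖δ‖ ^ 2) / 2 - fx x y =
        ⟪m, δ⟫ + ‖δ‖ ^ 2 / 2 := by ring
    rw [h2]
    have h3 : |⟪m, δ⟫ + ‖δ‖ ^ 2 / 2| ≤ ‖m‖ * ‖δ‖ + ‖δ‖ ^ 2 / 2 := by
      refine (abs_add_le _ _).trans ?_
      rw [abs_of_nonneg (show 0 ≤ ‖δ‖ ^ 2 / 2 by positivity)]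
      gcongr
      exact abs_real_inner_le_norm _ _
    refine h3.trans (real_err hr hσ hσ1 (norm_nonneg _) (norm_sub_le _ _) (norm_nonneg _) ?_)
    calc ‖m‖ ≤ ‖B.G (fx x) z‖ + ‖B.G (fx y) z‖ := norm_sub_le _ _
      _ ≤ 2 * r := by
        rw [e4, e5]
        have := hAx z hz
        have := hAy z hz
        linarith
  -- the pair inequality
  have hF : ∀ᵐ u ∂(μ.restrict A), ∀ᵐ v ∂(μ.restrict A),
      ENNReal.ofReal |Pyd B.toGradS x y u - Pyd B.toGradS x y v| ≤
      ENNReal.ofReal (2 * r) * (∫⁻ t in Icc (0 : ℝ) 1, hGPm.mk GP (C.T u t v))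
        + hafm.mk af u + hafm.mk af v := by
    rw [ae_restrict_iff' hA]
    filter_upwards [herr, hafm.ae_eq_mk] with u hu1 hu2 huA
    rw [ae_restrict_iff' hA]
    filter_upwards [herr, hafm.ae_eq_mk, pair_le B.toGradS C hR hU hPT.1 u,
      seg_congr C hGPm.ae_eq_mk u] with v hv1 hv2 hv3 hv4 hvA
    rw [← hu2, ← hv2, ← hv4]
    have h1 : Pyd B.toGradS x y u - Pyd B.toGradS x y v =
        -(P u - P v) + (Pyd B.toGradS x y u + P u - fx x y)
          + (-(Pyd B.toGradS x y v + P v - fx x y)) := by ring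
    calc ENNReal.ofReal |Pyd B.toGradS x y u - Pyd B.toGradS x y v|
        ≤ ENNReal.ofReal (|P u - P v| + |Pyd B.toGradS x y u + P u - fx x y|
          + |Pyd B.toGradS x y v + P v - fx x y|) := by
          apply ENNReal.ofReal_le_ofReal
          rw [h1]
          refine (abs_add_le _ _).trans ?_
          rw [abs_neg]
          gcongr
          refine (abs_add_le _ _).trans ?_
          rw [abs_neg]
      _ = ENNReal.ofReal |P u - P v| + ENNReal.ofReal |Pyd B.toGradS x y u + P u - fx x y|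
          + ENNReal.ofReal |Pyd B.toGradS x y v + P v - fx x y| := by
          rw [ENNReal.ofReal_add (by positivity) (by positivity),
            ENNReal.ofReal_add (by positivity) (by positivity)]
      _ ≤ _ := by
          gcongr
          · refine hv3.trans ?_
            gcongr
            exact hdist u huA v hvA
          · exact hu1 huA
          · exact hv1 hvA
  have hmain := poincare_pairs_ae C hκ hA hW hdist hAW hGPm.measurable_mk hafm.measurable_mk hF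
  -- integrals
  have hWx : W ⊆ ball x (3 * r) := inter_subset_left
  have hWy : W ⊆ ball y (3 * r) := inter_subset_right
  have hAWs : A ⊆ W := fun a ha => by
    constructor
    · rw [mem_ball, dist_comm]; linarith [hAx a ha]
    · rw [mem_ball, dist_comm]; linarith [hAy a ha]
  have hWvol : μ W ≤ ENNReal.ofReal (V * r ^ n) := (measure_mono hWx).trans hvol
  have iHx : ∫⁻ z in W, ENNReal.ofReal (hxf z ^ 2) ∂μ ≤ ENNReal.ofReal (σ ^ 2 * (3 * r) ^ n) :=
    (lintegral_mono_set hWx).trans hx3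
  have iHy : ∫⁻ z in W, ENNReal.ofReal (hyf z ^ 2) ∂μ ≤ ENNReal.ofReal (σ ^ 2 * (3 * r) ^ n) :=
    (lintegral_mono_set hWy).trans hy3
  have iGx : ∫⁻ z in W, ENNReal.ofReal (gxf z ^ 2) ∂μ ≤
      ENNReal.ofReal (σ ^ 2 * (3 * r) ^ (n + 2)) := (lintegral_mono_set hWx).trans hx2
  have iGy : ∫⁻ z in W, ENNReal.ofReal (gyf z ^ 2) ∂μ ≤
      ENNReal.ofReal (σ ^ 2 * (3 * r) ^ (n + 2)) := (lintegral_mono_set hWy).trans hy2
  have I1 : ∫⁻ z in W, hGPm.mk GP z ∂μ ≤
      ENNReal.ofReal ((32 * 3 ^ n + 3 * V) * σ * r ^ (n + 1)) := by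
    calc ∫⁻ z in W, hGPm.mk GP z ∂μ = ∫⁻ z in W, GP z ∂μ := by
          apply lintegral_congr_ae
          exact ae_restrict_of_ae (hGPm.ae_eq_mk.symm)
      _ ≤ ∫⁻ z in W, ENNReal.ofReal (7 * r / σ * (hxf z ^ 2 + hyf z ^ 2)
            + 1 / r * (gxf z ^ 2 + gyf z ^ 2) + 3 * r * σ) ∂μ := by
          exact lintegral_mono_ae ((ae_restrict_iff' hW).2 hpoint)
      _ = ∫⁻ z in W, (ENNReal.ofReal (7 * r / σ) * (ENNReal.ofReal (hxf z ^ 2)
            + ENNReal.ofReal (hyf z ^ 2)) + ENNReal.ofReal (1 / r) * (ENNReal.ofReal (gxf z ^ 2)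
            + ENNReal.ofReal (gyf z ^ 2)) + ENNReal.ofReal (3 * r * σ)) ∂μ := by
          apply lintegral_congr
          intro z
          rw [ENNReal.ofReal_add (by positivity) (by positivity),
            ENNReal.ofReal_add (by positivity) (by positivity),
            ENNReal.ofReal_mul (by positivity), ENNReal.ofReal_mul (by positivity),
            ENNReal.ofReal_add (by positivity) (by positivity),
            ENNReal.ofReal_add (by positivity) (by positivity)]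
      _ = ENNReal.ofReal (7 * r / σ) * (∫⁻ z in W, ENNReal.ofReal (hxf z ^ 2) ∂μ
            + ∫⁻ z in W, ENNReal.ofReal (hyf z ^ 2) ∂μ) + ENNReal.ofReal (1 / r) *
            (∫⁻ z in W, ENNReal.ofReal (gxf z ^ 2) ∂μ + ∫⁻ z in W, ENNReal.ofReal (gyf z ^ 2) ∂μ)
            + ENNReal.ofReal (3 * r * σ) * μ W := by
          have m1 : AEMeasurable (fun z => ENNReal.ofReal (hxf z ^ 2)) (μ.restrict W) :=
            ((mhx.restrict).pow_const 2).ennreal_ofReal
          have m2 : AEMeasurable (fun z => ENNReal.ofReal (hyf z ^ 2)) (μ.restrict W) :=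
            ((mhy.restrict).pow_const 2).ennreal_ofReal
          have m3 : AEMeasurable (fun z => ENNReal.ofReal (gxf z ^ 2)) (μ.restrict W) :=
            ((mgx.restrict).pow_const 2).ennreal_ofReal
          have m4 : AEMeasurable (fun z => ENNReal.ofReal (gyf z ^ 2)) (μ.restrict W) :=
            ((mgy.restrict).pow_const 2).ennreal_ofReal
          have m12 : AEMeasurable (fun z => ENNReal.ofReal (7 * r / σ) *
              (ENNReal.ofReal (hxf z ^ 2) + ENNReal.ofReal (hyf z ^ 2))) (μ.restrict W) :=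
            (m1.add m2).const_mul _
          rw [lintegral_add_right' _ aemeasurable_const, lintegral_add_left' m12,
            lintegral_const_mul' _ _ ENNReal.ofReal_ne_top, lintegral_const_mul' _ _ ENNReal.ofReal_ne_top,
            lintegral_add_left' m1, lintegral_add_left' m3, lintegral_const,
            Measure.restrict_apply_univ]
      _ ≤ ENNReal.ofReal (7 * r / σ) * (ENNReal.ofReal (σ ^ 2 * (3 * r) ^ n)
            + ENNReal.ofReal (σ ^ 2 * (3 * r) ^ n)) + ENNReal.ofReal (1 / r) *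
            (ENNReal.ofReal (σ ^ 2 * (3 * r) ^ (n + 2)) + ENNReal.ofReal (σ ^ 2 * (3 * r) ^ (n + 2)))
            + ENNReal.ofReal (3 * r * σ) * ENNReal.ofReal (V * r ^ n) := by gcongr
      _ = ENNReal.ofReal (7 * r / σ * (σ ^ 2 * (3 * r) ^ n + σ ^ 2 * (3 * r) ^ n) + 1 / r *
            (σ ^ 2 * (3 * r) ^ (n + 2) + σ ^ 2 * (3 * r) ^ (n + 2))
            + 3 * r * σ * (V * r ^ n)) := by
          rw [← ENNReal.ofReal_add (by positivity) (by positivity),
            ← ENNReal.ofReal_add (by positivity) (by positivity),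
            ← ENNReal.ofReal_mul (by positivity), ← ENNReal.ofReal_mul (by positivity),
            ← ENNReal.ofReal_mul (by positivity),
            ← ENNReal.ofReal_add (by positivity) (by positivity),
            ← ENNReal.ofReal_add (by positivity) (by positivity)]
      _ ≤ ENNReal.ofReal ((32 * 3 ^ n + 3 * V) * σ * r ^ (n + 1)) := by
          apply ENNReal.ofReal_le_ofReal
          have e1 : 7 * r / σ * (σ ^ 2 * (3 * r) ^ n + σ ^ 2 * (3 * r) ^ n) + 1 / r *
            (σ ^ 2 * (3 * r) ^ (n + 2) + σ ^ 2 * (3 * r) ^ (n + 2))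
            + 3 * r * σ * (V * r ^ n) =
            (14 * 3 ^ n + 18 * 3 ^ n * σ + 3 * V) * σ * r ^ (n + 1) := by
            rw [mul_pow, mul_pow]
            field_simp
            ring
          rw [e1]
          have : 18 * 3 ^ n * σ ≤ 18 * 3 ^ n * 1 := by gcongr
          have h2 : 14 * 3 ^ n + 18 * 3 ^ n * σ + 3 * V ≤ 32 * 3 ^ n + 3 * V := by linarith
          gcongr
  have I2 : ∫⁻ z in A, hafm.mk af z ∂μ ≤
      ENNReal.ofReal ((54 * 3 ^ n + V) * σ * r ^ (n + 2)) := by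
    calc ∫⁻ z in A, hafm.mk af z ∂μ = ∫⁻ z in A, af z ∂μ := by
          apply lintegral_congr_ae
          exact ae_restrict_of_ae (hafm.ae_eq_mk.symm)
      _ ≤ ∫⁻ z in W, af z ∂μ := lintegral_mono_set hAWs
      _ = ∫⁻ z in W, (ENNReal.ofReal (3 / σ) * (ENNReal.ofReal (gxf z ^ 2)
            + ENNReal.ofReal (gyf z ^ 2)) + ENNReal.ofReal (σ * r ^ 2)) ∂μ := by
          apply lintegral_congr
          intro z
          rw [haf]
          simp only
          rw [ENNReal.ofReal_add (by positivity) (by positivity),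
            ENNReal.ofReal_mul (by positivity),
            ENNReal.ofReal_add (by positivity) (by positivity)]
      _ = ENNReal.ofReal (3 / σ) *
            (∫⁻ z in W, ENNReal.ofReal (gxf z ^ 2) ∂μ + ∫⁻ z in W, ENNReal.ofReal (gyf z ^ 2) ∂μ)
            + ENNReal.ofReal (σ * r ^ 2) * μ W := by
          have m3 : AEMeasurable (fun z => ENNReal.ofReal (gxf z ^ 2)) (μ.restrict W) :=
            ((mgx.restrict).pow_const 2).ennreal_ofReal
          have m4 : AEMeasurable (fun z => ENNReal.ofReal (gyf z ^ 2)) (μ.restrict W) :=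
            ((mgy.restrict).pow_const 2).ennreal_ofReal
          rw [lintegral_add_right' _ aemeasurable_const, lintegral_const_mul' _ _ ENNReal.ofReal_ne_top,
            lintegral_add_left' m3, lintegral_const, Measure.restrict_apply_univ]
      _ ≤ ENNReal.ofReal (3 / σ) *
            (ENNReal.ofReal (σ ^ 2 * (3 * r) ^ (n + 2)) + ENNReal.ofReal (σ ^ 2 * (3 * r) ^ (n + 2)))
            + ENNReal.ofReal (σ * r ^ 2) * ENNReal.ofReal (V * r ^ n) := by gcongr
      _ = ENNReal.ofReal (3 / σ *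
            (σ ^ 2 * (3 * r) ^ (n + 2) + σ ^ 2 * (3 * r) ^ (n + 2))
            + σ * r ^ 2 * (V * r ^ n)) := by
          rw [← ENNReal.ofReal_add (by positivity) (by positivity),
            ← ENNReal.ofReal_mul (by positivity), ← ENNReal.ofReal_mul (by positivity),
            ← ENNReal.ofReal_add (by positivity) (by positivity)]
      _ = ENNReal.ofReal ((54 * 3 ^ n + V) * σ * r ^ (n + 2)) := by
          congr 1
          rw [mul_pow]
          field_simp
          ring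
  have hseg : segC n κ' (2 * r) ≤ ENNReal.ofReal (9 * 2 ^ n) := by
    unfold segC
    apply ENNReal.ofReal_le_ofReal
    gcongr
    have h4 : κ' * (2 * r) ^ 2 / 2 ≤ 2 := by
      have : (2 * r) ^ 2 ≤ 4 := by nlinarith
      have h5 : κ' * (2 * r) ^ 2 ≤ 1 * 4 := by
        gcongr
      linarith
    calc Real.exp (κ' * (2 * r) ^ 2 / 2) ≤ Real.exp 2 := Real.exp_le_exp.2 h4
      _ ≤ 9 := by
        have h6 : Real.exp 2 = Real.exp 1 ^ 2 := by rw [← Real.exp_nat_mul]; norm_num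
        have h7 := Real.exp_one_lt_d9
        have h8 := Real.exp_pos 1
        rw [h6]
        nlinarith
  calc ∫⁻ u in A, ∫⁻ v in A, ENNReal.ofReal |Pyd B.toGradS x y u - Pyd B.toGradS x y v| ∂μ ∂μ
      ≤ ENNReal.ofReal (2 * r) * (segC n κ' (2 * r) * (μ A + μ A) * ∫⁻ z in W, hGPm.mk GP z ∂μ)
        + 2 * (μ A * ∫⁻ z in A, hafm.mk af z ∂μ) := hmain
    _ ≤ ENNReal.ofReal (2 * r) * (ENNReal.ofReal (9 * 2 ^ n) * (μ A + μ A) *
          ENNReal.ofReal ((32 * 3 ^ n + 3 * V) * σ * r ^ (n + 1)))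
        + 2 * (μ A * ENNReal.ofReal ((54 * 3 ^ n + V) * σ * r ^ (n + 2))) := by gcongr
    _ = μ A * (2 * (ENNReal.ofReal (2 * r) * (ENNReal.ofReal (9 * 2 ^ n) *
          ENNReal.ofReal ((32 * 3 ^ n + 3 * V) * σ * r ^ (n + 1))))
        + 2 * ENNReal.ofReal ((54 * 3 ^ n + V) * σ * r ^ (n + 2))) := by ring
    _ = μ A * ENNReal.ofReal (2 * (2 * r * (9 * 2 ^ n * ((32 * 3 ^ n + 3 * V) * σ * r ^ (n + 1))))
        + 2 * ((54 * 3 ^ n + V) * σ * r ^ (n + 2))) := by
        congr 1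
        have e2 : (2 : ℝ≥0∞) = ENNReal.ofReal 2 := by norm_num
        rw [e2, ← ENNReal.ofReal_mul (by positivity), ← ENNReal.ofReal_mul (by positivity),
          ← ENNReal.ofReal_mul (by positivity), ← ENNReal.ofReal_mul (by positivity),
          ← ENNReal.ofReal_add (by positivity) (by positivity)]
    _ ≤ μ A * ENNReal.ofReal (2000 * 6 ^ n * (1 + V) * σ * r ^ (n + 2)) := by
        gcongr
        have e1 : 2 * (2 * r * (9 * 2 ^ n * ((32 * 3 ^ n + 3 * V) * σ * r ^ (n + 1))))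
          + 2 * ((54 * 3 ^ n + V) * σ * r ^ (n + 2)) =
          (1152 * (2 ^ n * 3 ^ n) + 108 * 2 ^ n * V + 108 * 3 ^ n + 2 * V) *
            (σ * r ^ (n + 2)) := by ring
        have h6 : (2 : ℝ) ^ n * 3 ^ n = 6 ^ n := by rw [← mul_pow]; norm_num
        rw [e1, h6]
        have h3 : (3 : ℝ) ^ n ≤ 6 ^ n := by gcongr; norm_num
        have h2 : (2 : ℝ) ^ n ≤ 6 ^ n := by gcongr; norm_num
        have h1 : (1 : ℝ) ≤ 6 ^ n := one_le_pow₀ (by norm_num)
        have h7 : 1152 * (6 : ℝ) ^ n + 108 * 2 ^ n * V + 108 * 3 ^ n + 2 * V ≤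
            2000 * 6 ^ n * (1 + V) := by
          have a1 : 108 * (2 : ℝ) ^ n * V ≤ 108 * 6 ^ n * V := by gcongr
          have a2 : 2 * V ≤ 2 * (6 ^ n * V) := by nlinarith
          have a3 : 0 ≤ 6 ^ n * V := by positivity
          nlinarith
        calc (1152 * (6 : ℝ) ^ n + 108 * 2 ^ n * V + 108 * 3 ^ n + 2 * V) * (σ * r ^ (n + 2))
            ≤ (2000 * 6 ^ n * (1 + V)) * (σ * r ^ (n + 2)) := by gcongr
          _ = _ := by ring

lemma integrableOn_Pyd (S : GradS X (F n) μ) (hU : UnitA S) {x y : X} {r : ℝ} {A : Set X}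
    (hA : MeasurableSet A) (hAf : μ A ≠ ∞)
    (hAx : ∀ a ∈ A, dist x a < r) (hAy : ∀ a ∈ A, dist y a < r) :
    IntegrableOn (Pyd S x y) A μ := by
  refine Integrable.mono' (g := fun _ => 3 * r ^ 2) (integrableOn_const hAf)
    (aesm_Pyd S x y).restrict ?_
  rw [ae_restrict_iff' hA]
  filter_upwards [hU x, hU y] with z h1 h2 hz
  exact abs_Pyd_le S h1 h2 (hAx z hz).le (hAy z hz).le

/-- **(L2)**, `L¹` form. -/
theorem local_pythagoras2 [ProperSpace X] (B : BochS n κ X μ) (C : Rad n κ' X μ) (hκ : 0 ≤ κ')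
    (hκ1 : κ' ≤ 1) (hR : RDG B.toGradS C) (hU : UnitA B.toGradS) {x y : X} {r D V : ℝ}
    (hr : 0 < r) (hr1 : r ≤ 1) (hD : 0 ≤ D) (hD1 : D ≤ 1) (hV : 0 ≤ V)
    (hx : HF2 B x (3 * r) D) (hy : HF2 B y (3 * r) D)
    (hvol : μ (ball x (3 * r)) ≤ ENNReal.ofReal (V * r ^ n)) {A : Set X} (hA : MeasurableSet A)
    (hAx : ∀ a ∈ A, dist x a < r) (hAy : ∀ a ∈ A, dist y a < r) :
    ∫⁻ u in A, ENNReal.ofReal
        |Pyd B.toGradS x y u - ⨍ v in A, Pyd B.toGradS x y v ∂μ| ∂μ ≤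
      ENNReal.ofReal (2000 * 6 ^ n * (1 + V) * Real.sqrt D * r ^ (n + 2)) := by
  by_cases hA0 : μ A = 0
  · rw [setLIntegral_measure_zero _ _ hA0]
    exact bot_le
  have hAf : μ A ≠ ∞ := by
    refine ne_top_of_le_ne_top ENNReal.ofReal_ne_top ((measure_mono ?_).trans hvol)
    intro a ha
    rw [mem_ball, dist_comm]
    linarith [hAx a ha]
  have hint := integrableOn_Pyd B.toGradS hU hA hAf hAx hAy
  have hσ : ∀ σ : ℝ, 0 < σ → σ ≤ 1 → D ≤ σ ^ 2 →
      ∫⁻ u in A, ENNReal.ofReal |Pyd B.toGradS x y u - ⨍ v in A, Pyd B.toGradS x y v ∂μ| ∂μ ≤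
      ENNReal.ofReal (2000 * 6 ^ n * (1 + V) * σ * r ^ (n + 2)) := by
    intro σ h0 h1 h2
    exact dev_mean_le hA0 hAf hint (pairs2 B C hκ hκ1 hR hU hr hr1 h0 h1 hV
      (hx.mono (by positivity) h2) (hy.mono (by positivity) h2) hvol hA hAx hAy)
  rcases hD.eq_or_lt with h0 | h0
  · -- D = 0
    have ht : Tendsto (fun σ : ℝ => ENNReal.ofReal (2000 * 6 ^ n * (1 + V) * σ * r ^ (n + 2)))
        (𝓝[>] 0) (𝓝 (ENNReal.ofReal (2000 * 6 ^ n * (1 + V) * 0 * r ^ (n + 2)))) := by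
      have : Continuous (fun σ : ℝ => ENNReal.ofReal
          (2000 * 6 ^ n * (1 + V) * σ * r ^ (n + 2))) := by
        apply ENNReal.continuous_ofReal.comp
        fun_prop
      exact (this.tendsto 0).mono_left nhdsWithin_le_nhds
    rw [← h0, Real.sqrt_zero]
    refine ge_of_tendsto ht ?_
    filter_upwards [Ioc_mem_nhdsGT (show (0 : ℝ) < 1 by norm_num)] with σ hσ'
    exact hσ σ hσ'.1 hσ'.2 (by rw [← h0]; positivity)
  · exact hσ (Real.sqrt D) (Real.sqrt_pos.2 h0) (by rw [Real.sqrt_le_one]; exact hD1)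
      (by rw [Real.sq_sqrt hD])

/-- the constant of `(L2)` is bounded by `3 r²` -/
theorem abs_mean_Pyd_le (S : GradS X (F n) μ) (hU : UnitA S) {x y : X} {r : ℝ} {A : Set X}
    (hA : MeasurableSet A) (hAf : μ A ≠ ∞)
    (hAx : ∀ a ∈ A, dist x a < r) (hAy : ∀ a ∈ A, dist y a < r) :
    |⨍ v in A, Pyd S x y v ∂μ| ≤ 3 * r ^ 2 := by
  by_cases hA0 : μ A = 0
  · rw [Measure.restrict_eq_zero.2 hA0]
    simp only [average_zero_measure, abs_zero]
    positivity
  have hpos : 0 < (μ A).toReal := ENNReal.toReal_pos hA0 hAf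
  rw [setAverage_eq, smul_eq_mul, abs_mul, abs_inv, Measure.real, abs_of_pos hpos,
    inv_mul_le_iff₀ hpos]
  have h1 : ‖∫ v in A, Pyd S x y v ∂μ‖ ≤ 3 * r ^ 2 * (μ A).toReal := by
    apply norm_setIntegral_le_of_norm_le_const_ae hAf.lt_top
    rw [ae_restrict_iff' hA]
    filter_upwards [hU x, hU y] with z h1 h2 hz
    exact abs_Pyd_le S h1 h2 (hAx z hz).le (hAy z hz).le
  rw [Real.norm_eq_abs] at h1
  linarith

end Crest.Agent.R247.Loc710
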