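import Crest.Agent.R247.Loc2_710
import Crest.Agent.R247.Cal_550
import Crest.Agent.R247.Fd0_656

/-!
# (L2) in the literal form of `Q9550.PkOn` (helper710)

* `unitA_of_rdg`, `Pyd_eq_PP` : passage from the gradient structure to `GRep`;
* `L2_gen` : (L2) with two different (possibly vanishing or large) defects;
* `hf2_of_obj` : `HF2` from the Hessian objects `Fd656.HObj` and the field `d2_ball`;
* `L2_pk` : the field `PkOn.L2`.
-/

set_option autoImplicit false
set_option linter.unusedSectionVars false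
open MeasureTheory Set Filter Topology Metric
open Crest.Agent.R247.Mcp688 Crest.Agent.R247.Pyt710 Crest.Agent.R247.Dir593
  Crest.Agent.R247.Hes124 Crest.Agent.R247.Far553 Crest.Agent.R247.Cal550
open scoped ENNReal NNReal RealInnerProductSpace

noncomputable section
namespace Crest.Agent.R247.Loc710

section A

variable {n : ℕ} {κ κ' : ℝ} {X : Type*} [MetricSpace X] [MeasurableSpace X] [BorelSpace X]
  {μ : Measure X}

lemma fx_eq_ff (x : X) : (fx x : X → ℝ) = fun u => dist x u ^ 2 / 2 := rfl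

/-- radial derivative of `f_x` with respect to `x` -/
lemma rd_self (C : Rad n κ' X μ) (x : X) : RD C x (fx x) (fun z => dist x z ^ 2) := by
  filter_upwards [C.ae_U x] with z hz
  have h1 : HasDerivWithinAt (fun t : ℝ => (t * dist x z) ^ 2 / 2) (dist x z ^ 2) (Iio 1) 1 := by
    have h2 : HasDerivAt (fun t : ℝ => (t * dist x z) ^ 2 / 2) (dist x z ^ 2) 1 := by
      have h3 : HasDerivAt (fun t : ℝ => (t * dist x z) ^ 2 / 2)
          ((2 : ℕ) * (1 * dist x z) ^ (2 - 1) * (1 * dist x z) / 2) 1 :=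
        (((hasDerivAt_id (1 : ℝ)).mul_const (dist x z)).pow 2).div_const 2
      convert h3 using 1
      norm_num
      ring
    exact h2.hasDerivWithinAt
  refine h1.congr_of_eventuallyEq ?_ ?_
  · filter_upwards [Ioo_mem_nhdsLT (show (0 : ℝ) < 1 by norm_num)] with t ht
    have : dist x (C.T x t z) = t * dist x z := C.dist_left hz ⟨ht.1.le, ht.2.le⟩
    show dist x (C.T x t z) ^ 2 / 2 = _
    rw [this]
  · show dist x (C.T x 1 z) ^ 2 / 2 = _
    rw [C.T_one x z hz, one_mul]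

/-- `|∇f_x| = d_x` follows from the identification of the radial derivatives -/
theorem unitA_of_rdg {S : GradS X (F n) μ} {C : Rad n κ' X μ} (hR : RDG S C) : UnitA S := by
  intro x
  have h1 := hR x (fx x) (locLip_fx x)
  filter_upwards [h1.unique (rd_self C x)] with z hz
  rw [real_inner_self_eq_norm_sq] at hz
  exact (pow_left_inj₀ (norm_nonneg _) dist_nonneg two_ne_zero).1 hz

/-- passage to `GRep` -/
theorem Pyd_eq_PP {S : GradS X (F n) μ} {C : Rad n κ' X μ} (hR : RDG S C)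
    {G : X → X → X → ℝ} (hG : GRep C G) (x v : X) : ∀ᵐ u ∂μ, Pyd S x v u = PP G x v u := by
  have h1 := hR x (fx v) (locLip_fx v)
  filter_upwards [h1.unique (hG.rd x v)] with u hu
  unfold Pyd PP
  rw [hu]
  rfl

end A

section L2

variable {n : ℕ} {κ κ' : ℝ} {X : Type*} [MetricSpace X] [MeasurableSpace X] [BorelSpace X]
  {μ : Measure X} [IsFiniteMeasureOnCompacts μ] [SFinite μ]

/-- **(L2)** for two centres with defects `Dx`, `Dy` (no smallness required). -/
theorem L2_gen [ProperSpace X] (B : BochS n κ X μ) (C : Rad n κ' X μ) (hκ : 0 ≤ κ')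
    (hκ1 : κ' ≤ 1) (hR : RDG B.toGradS C) (hU : UnitA B.toGradS) {x y : X} {r Dx Dy V : ℝ}
    (hr : 0 < r) (hr1 : r ≤ 1) (hDx : 0 ≤ Dx) (hDy : 0 ≤ Dy) (hV : 0 ≤ V)
    (hx : ∀ D', Dx < D' → HF2 B x (3 * r) D') (hy : ∀ D', Dy < D' → HF2 B y (3 * r) D')
    (hvol : μ (ball x (3 * r)) ≤ ENNReal.ofReal (V * r ^ n)) {A : Set X} (hA : MeasurableSet A)
    (hAx : ∀ a ∈ A, dist x a < r) (hAy : ∀ a ∈ A, dist y a < r) :
    ∫⁻ u in A, ENNReal.ofReal
        |Pyd B.toGradS x y u - ⨍ v in A, Pyd B.toGradS x y v ∂μ| ∂μ ≤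
      ENNReal.ofReal (2000 * 6 ^ n * (1 + V) * Real.sqrt (Dx + Dy) * r ^ (n + 2)) := by
  by_cases hA0 : μ A = 0
  · rw [setLIntegral_measure_zero _ _ hA0]
    exact bot_le
  have hAv : μ A ≤ ENNReal.ofReal (V * r ^ n) := by
    refine (measure_mono ?_).trans hvol
    intro a ha
    rw [mem_ball, dist_comm]
    linarith [hAx a ha]
  have hAf : μ A ≠ ∞ := ne_top_of_le_ne_top ENNReal.ofReal_ne_top hAv
  have hint := integrableOn_Pyd B.toGradS hU hA hAf hAx hAy
  have h6 : (1 : ℝ) ≤ 6 ^ n := one_le_pow₀ (by norm_num)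
  rcases le_or_gt 1 (Dx + Dy) with h1 | h1
  · -- large defect
    have hm := abs_mean_Pyd_le B.toGradS hU hA hAf hAx hAy
    calc ∫⁻ u in A, ENNReal.ofReal
          |Pyd B.toGradS x y u - ⨍ v in A, Pyd B.toGradS x y v ∂μ| ∂μ
        ≤ ∫⁻ _ in A, ENNReal.ofReal (6 * r ^ 2) ∂μ := by
          apply lintegral_mono_ae
          refine (ae_restrict_iff' hA).2 ?_
          filter_upwards [hU x, hU y] with z h1 h2 hz
          apply ENNReal.ofReal_le_ofReal
          have h3 := abs_Pyd_le B.toGradS h1 h2 (hAx z hz).le (hAy z hz).le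
          calc |Pyd B.toGradS x y z - ⨍ v in A, Pyd B.toGradS x y v ∂μ|
              ≤ |Pyd B.toGradS x y z| + |⨍ v in A, Pyd B.toGradS x y v ∂μ| := abs_sub _ _
            _ ≤ 6 * r ^ 2 := by linarith
      _ = ENNReal.ofReal (6 * r ^ 2) * μ A := by
          rw [lintegral_const, Measure.restrict_apply_univ]
      _ ≤ ENNReal.ofReal (6 * r ^ 2) * ENNReal.ofReal (V * r ^ n) := by gcongr
      _ = ENNReal.ofReal (6 * r ^ 2 * (V * r ^ n)) := by rw [← ENNReal.ofReal_mul (by positivity)]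
      _ ≤ _ := by
          apply ENNReal.ofReal_le_ofReal
          have h2 : 1 ≤ Real.sqrt (Dx + Dy) := by
            rw [Real.one_le_sqrt]; exact h1
          have h3 : 0 < r ^ (n + 2) := by positivity
          have h4 : 6 * V ≤ 2000 * 6 ^ n * (1 + V) * 1 := by nlinarith
          calc 6 * r ^ 2 * (V * r ^ n) = 6 * V * r ^ (n + 2) := by ring
            _ ≤ (2000 * 6 ^ n * (1 + V) * 1) * r ^ (n + 2) := by gcongr
            _ ≤ 2000 * 6 ^ n * (1 + V) * Real.sqrt (Dx + Dy) * r ^ (n + 2) := by gcongr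
  · -- small defect
    have hσ : ∀ σ : ℝ, 0 < σ → σ ≤ 1 → Dx + Dy < σ ^ 2 →
        ∫⁻ u in A, ENNReal.ofReal |Pyd B.toGradS x y u - ⨍ v in A, Pyd B.toGradS x y v ∂μ| ∂μ ≤
        ENNReal.ofReal (2000 * 6 ^ n * (1 + V) * σ * r ^ (n + 2)) := by
      intro σ h0 h1 h2
      exact dev_mean_le hA0 hAf hint (pairs2 B C hκ hκ1 hR hU hr hr1 h0 h1 hV
        (hx _ (by linarith)) (hy _ (by linarith)) hvol hA hAx hAy)
    have ht : Tendsto (fun σ : ℝ => ENNReal.ofReal (2000 * 6 ^ n * (1 + V) * σ * r ^ (n + 2)))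
        (𝓝[>] (Real.sqrt (Dx + Dy)))
        (𝓝 (ENNReal.ofReal (2000 * 6 ^ n * (1 + V) * Real.sqrt (Dx + Dy) * r ^ (n + 2)))) := by
      have : Continuous (fun σ : ℝ => ENNReal.ofReal
          (2000 * 6 ^ n * (1 + V) * σ * r ^ (n + 2))) := by
        apply ENNReal.continuous_ofReal.comp
        fun_prop
      exact (this.tendsto _).mono_left nhdsWithin_le_nhds
    refine ge_of_tendsto ht ?_
    have hlt : Real.sqrt (Dx + Dy) < 1 := by
      rw [Real.sqrt_lt' (by norm_num)]; linarith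
    filter_upwards [Ioc_mem_nhdsGT hlt] with σ hσ'
    have h0 := Real.sqrt_nonneg (Dx + Dy)
    refine hσ σ (h0.trans_lt hσ'.1) hσ'.2 ?_
    exact (Real.sqrt_lt' (h0.trans_lt hσ'.1)).1 hσ'.1

omit [IsFiniteMeasureOnCompacts μ] [SFinite μ] in
/-- replacing the constant by the mean over a smaller set -/
theorem mean_small {A A₀ : Set X} (hA₀ : MeasurableSet A₀) (hsub : A₀ ⊆ A) (h0 : μ A₀ ≠ 0)
    (hAf : μ A ≠ ∞) {F : X → ℝ} (hF : IntegrableOn F A μ) {c : ℝ} {K Q : ℝ≥0∞}
    (h : ∫⁻ u in A, ENNReal.ofReal |F u - c| ∂μ ≤ K) (hQ : μ A ≤ Q * μ A₀) :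
    ∫⁻ u in A, ENNReal.ofReal |F u - ⨍ v in A₀, F v ∂μ| ∂μ ≤ (1 + Q) * K := by
  set c₀ := ⨍ v in A₀, F v ∂μ with hc₀
  have hf0 : μ A₀ ≠ ∞ := ne_top_of_le_ne_top hAf (measure_mono hsub)
  have hF0 : IntegrableOn F A₀ μ := hF.mono_set hsub
  have hpos : 0 < (μ A₀).toReal := ENNReal.toReal_pos h0 hf0
  have hint : IntegrableOn (fun v => F v - c) A₀ μ := hF0.sub (integrableOn_const hf0)
  have h1 : (μ A₀).toReal * (c₀ - c) = ∫ v in A₀, (F v - c) ∂μ := by
    rw [integral_sub hF0 (integrableOn_const hf0), setIntegral_const, hc₀, setAverage_eq]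
    simp only [smul_eq_mul, Measure.real]
    field_simp
  have h2 : |(μ A₀).toReal * (c₀ - c)| ≤ ∫ v in A₀, |F v - c| ∂μ := by
    rw [h1]
    exact abs_integral_le_integral_abs
  rw [abs_mul, abs_of_pos hpos] at h2
  have h3 : ENNReal.ofReal (∫ v in A₀, |F v - c| ∂μ) = ∫⁻ v in A₀, ENNReal.ofReal |F v - c| ∂μ :=
    ofReal_integral_eq_lintegral_ofReal hint.abs (Eventually.of_forall fun v => abs_nonneg _)
  have h4 : μ A₀ * ENNReal.ofReal |c₀ - c| ≤ K := by
    calc μ A₀ * ENNReal.ofReal |c₀ - c|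
        = ENNReal.ofReal ((μ A₀).toReal * |c₀ - c|) := by
          rw [ENNReal.ofReal_mul hpos.le, ENNReal.ofReal_toReal hf0]
      _ ≤ ENNReal.ofReal (∫ v in A₀, |F v - c| ∂μ) := ENNReal.ofReal_le_ofReal h2
      _ = ∫⁻ v in A₀, ENNReal.ofReal |F v - c| ∂μ := h3
      _ ≤ ∫⁻ v in A, ENNReal.ofReal |F v - c| ∂μ := lintegral_mono_set hsub
      _ ≤ K := h
  calc ∫⁻ u in A, ENNReal.ofReal |F u - c₀| ∂μ
      ≤ ∫⁻ u in A, (ENNReal.ofReal |F u - c| + ENNReal.ofReal |c₀ - c|) ∂μ := by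
        apply lintegral_mono
        intro u
        show ENNReal.ofReal |F u - c₀| ≤ ENNReal.ofReal |F u - c| + ENNReal.ofReal |c₀ - c|
        rw [← ENNReal.ofReal_add (abs_nonneg _) (abs_nonneg _)]
        apply ENNReal.ofReal_le_ofReal
        have : F u - c₀ = (F u - c) - (c₀ - c) := by ring
        rw [this]
        exact abs_sub _ _
    _ = ∫⁻ u in A, ENNReal.ofReal |F u - c| ∂μ + ENNReal.ofReal |c₀ - c| * μ A := by
        rw [lintegral_add_right' _ aemeasurable_const, lintegral_const,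
          Measure.restrict_apply_univ]
    _ ≤ K + ENNReal.ofReal |c₀ - c| * (Q * μ A₀) := by gcongr
    _ = K + Q * (μ A₀ * ENNReal.ofReal |c₀ - c|) := by ring
    _ ≤ K + Q * K := by gcongr
    _ = (1 + Q) * K := by ring

/-- the constant `c_k(x,y)` : mean of `PP` over `ball x r ∪ ball y r`, `r = dy (k+7)` -/
def ccm (μ : Measure X) (G : X → X → X → ℝ) (k : ℕ) (x y : X) : ℝ :=
  ⨍ u in ball x (dy (k + 7)) ∪ ball y (dy (k + 7)), PP G x y u ∂μ

lemma ccm_symm {C : Rad n κ' X μ} {G : X → X → X → ℝ} (hG : GRep C G) (k : ℕ) (x y : X) :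
    ccm μ G k x y = ccm μ G k y x := by
  unfold ccm
  rw [union_comm]
  congr 1
  funext u
  exact hG.PP_symm x y u

omit [IsFiniteMeasureOnCompacts μ] [SFinite μ] in
lemma abs_PP_le {C : Rad n κ' X μ} {G : X → X → X → ℝ} (hG : GRep C G) {x y u : X} {r : ℝ}
    (hxy : dist x y ≤ 8 * r) (hu : u ∈ ball x r ∪ ball y r) : |PP G x y u| ≤ 50 * r ^ 2 := by
  have hr : 0 ≤ r := by
    have := dist_nonneg (x := x) (y := y)
    linarith
  have h0 := hG.bd x y u
  -- both distances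
  have key : ∀ a b : ℝ, 0 ≤ a → 0 ≤ b → a ≤ r → b ≤ 9 * r → a * b ≤ 9 * r ^ 2 ∧
      a ^ 2 / 2 + b ^ 2 / 2 ≤ 41 * r ^ 2 := by
    intro a b ha hb har hbr
    constructor
    · calc a * b ≤ r * (9 * r) := by gcongr
        _ = _ := by ring
    · have : a ^ 2 ≤ r ^ 2 := by gcongr
      have : b ^ 2 ≤ (9 * r) ^ 2 := by gcongr
      nlinarith
  have h4 : ff x y ≤ 32 * r ^ 2 := by
    unfold ff
    have h6 : dist x y ^ 2 ≤ (8 * r) ^ 2 := by gcongr
    nlinarith
  have h40 := ff_nonneg x y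
  have h20 := ff_nonneg x u
  have h30 := ff_nonneg y u
  have h5 : dist x u * dist y u ≤ 9 * r ^ 2 ∧ ff x u + ff y u ≤ 41 * r ^ 2 := by
    unfold ff
    rcases hu with hu | hu
    · rw [mem_ball, dist_comm] at hu
      have h7 := dist_triangle y x u
      rw [dist_comm y x] at h7
      exact key _ _ dist_nonneg dist_nonneg hu.le (by linarith)
    · rw [mem_ball, dist_comm] at hu
      have h7 := dist_triangle x y u
      have h8 := key _ _ (dist_nonneg (x := y) (y := u)) (dist_nonneg (x := x) (y := u)) hu.le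
        (by linarith)
      constructor
      · rw [mul_comm]; exact h8.1
      · rw [add_comm]; exact h8.2
  unfold PP
  have h8 := abs_le.1 (h0.trans h5.1)
  rw [abs_le]
  constructor <;> nlinarith [h8.1, h8.2, h5.2, sq_nonneg r]

lemma aesm_PP {C : Rad n κ' X μ} {G : X → X → X → ℝ} (hG : GRep C G) (x y : X) :
    AEStronglyMeasurable (PP G x y) μ := by
  have h1 : Measurable (fun u => G x y u) :=
    hG.meas.comp (measurable_const.prodMk (measurable_const.prodMk measurable_id))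
  have h2 : ∀ a : X, Measurable (fun u => ff a u) := fun a => by
    unfold ff
    exact (((continuous_const.dist continuous_id).pow 2).div_const 2).measurable
  exact (((h1.sub (h2 x)).sub (h2 y)).add_const _).aestronglyMeasurable

omit [SFinite μ] in
lemma abs_ccm_le [ProperSpace X] {C : Rad n κ' X μ} {G : X → X → X → ℝ} (hG : GRep C G) {k : ℕ}
    {x y : X} (hxy : dist x y ≤ 8 * dy (k + 7)) : |ccm μ G k x y| ≤ 50 * dy (k + 7) ^ 2 := by
  unfold ccm
  set A := ball x (dy (k + 7)) ∪ ball y (dy (k + 7)) with hAdef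
  have hA : MeasurableSet A := measurableSet_ball.union measurableSet_ball
  have hAf : μ A ≠ ∞ := (measure_union_lt_top measure_ball_lt_top measure_ball_lt_top).ne
  by_cases hA0 : μ A = 0
  · rw [Measure.restrict_eq_zero.2 hA0]
    simp only [average_zero_measure, abs_zero]
    positivity
  have hpos : 0 < (μ A).toReal := ENNReal.toReal_pos hA0 hAf
  rw [setAverage_eq, smul_eq_mul, abs_mul, abs_inv, Measure.real, abs_of_pos hpos,
    inv_mul_le_iff₀ hpos]
  have h1 : ‖∫ v in A, PP G x y v ∂μ‖ ≤ 50 * dy (k + 7) ^ 2 * (μ A).toReal := by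
    apply norm_setIntegral_le_of_norm_le_const_ae hAf.lt_top
    refine (ae_restrict_iff' hA).2 (Eventually.of_forall fun z hz => ?_)
    exact abs_PP_le hG hxy hz
  rw [Real.norm_eq_abs] at h1
  linarith

/-- the constant of `(L2)` -/
def AL2 (n : ℕ) (V v : ℝ) : ℝ :=
  (1 + V * 128 ^ n / v) * (2000 * 6 ^ n * (1 + 3 ^ n * V) * 2 ^ (n + 2))

/-- **(L2)** in the form of `PkOn.L2`, for one pair and one scale. -/
theorem LP_of_hf2 [ProperSpace X] (B : BochS n κ X μ) (C : Rad n κ' X μ) (hκ : 0 ≤ κ')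
    (hκ1 : κ' ≤ 1) (hR : RDG B.toGradS C) {G : X → X → X → ℝ} (hG : GRep C G) {x y : X}
    {k : ℕ} (hk : 4 ≤ k) {Dx Dy V v : ℝ} (hDx : 0 ≤ Dx) (hDy : 0 ≤ Dy) (hV : 0 ≤ V) (hv : 0 < v)
    (hxy : dist x y ≤ 8 * dy (k + 7))
    (hx : ∀ D', Dx < D' → HF2 B x (6 * dy k) D') (hy : ∀ D', Dy < D' → HF2 B y (6 * dy k) D')
    (hvol : ∀ s, 0 < s → s ≤ 1 → μ (ball x s) ≤ ENNReal.ofReal (V * s ^ n))
    (hvol' : ∀ s, 0 < s → s ≤ 1 → ENNReal.ofReal (v * s ^ n) ≤ μ (ball x s)) :
    ∫⁻ u in ball x (dy k), ENNReal.ofReal |PP G x y u - ccm μ G k x y| ∂μ ≤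
      ENNReal.ofReal (AL2 n V v * (Real.sqrt Dx + Real.sqrt Dy) * dy k ^ (n + 2)) := by
  have hU := unitA_of_rdg hR
  have hk0 := dy_pos k
  have hk4 : dy k ≤ 1 / 16 := by
    have h1 := dy_anti hk
    have h2 : dy 4 = 1 / 16 := by unfold dy; norm_num
    linarith
  have h7 : dy k = 128 * dy (k + 7) := by
    unfold dy; rw [pow_add]; ring
  have hr7 := dy_pos (k + 7)
  set R := dy k with hRdef
  have hAx : ∀ a ∈ ball x R, dist x a < 2 * R := fun a ha => by
    rw [mem_ball, dist_comm] at ha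
    linarith
  have hAy : ∀ a ∈ ball x R, dist y a < 2 * R := fun a ha => by
    rw [mem_ball, dist_comm] at ha
    have := dist_triangle y x a
    rw [dist_comm y x] at this
    linarith
  have e6 : 3 * (2 * R) = 6 * R := by ring
  have hmain := L2_gen B C hκ hκ1 hR hU (x := x) (y := y) (r := 2 * R) (V := 3 ^ n * V)
    (A := ball x R) (by positivity) (by linarith) hDx hDy (by positivity)
    (by rw [e6]; exact hx) (by rw [e6]; exact hy)
    (by
      rw [e6]
      refine (hvol (6 * R) (by positivity) (by linarith)).trans (le_of_eq ?_)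
      congr 1
      rw [show 6 * R = 3 * (2 * R) by ring, mul_pow 3 (2 * R)]
      ring) measurableSet_ball hAx hAy
  -- integrability of `Pyd` on the ball
  have hAf : μ (ball x R) ≠ ∞ := measure_ball_lt_top.ne
  have hint := integrableOn_Pyd B.toGradS hU measurableSet_ball hAf hAx hAy
  set A₀ : Set X := ball x (dy (k + 7)) ∪ ball y (dy (k + 7)) with hA₀def
  have hA₀ : MeasurableSet A₀ := measurableSet_ball.union measurableSet_ball
  have hsub : A₀ ⊆ ball x R := by
    intro u hu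
    rw [mem_ball]
    rcases hu with hu | hu
    · rw [mem_ball] at hu; linarith
    · rw [mem_ball] at hu
      have := dist_triangle u y x
      rw [dist_comm y x] at this
      linarith
  have hA₀v : ENNReal.ofReal (v * dy (k + 7) ^ n) ≤ μ A₀ :=
    (hvol' _ hr7 (dy_le_one _)).trans (measure_mono subset_union_left)
  have hA₀0 : μ A₀ ≠ 0 := by
    intro h
    rw [h] at hA₀v
    have : 0 < v * dy (k + 7) ^ n := by positivity
    exact absurd hA₀v (not_le.2 (ENNReal.ofReal_pos.2 this))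
  have hQ : μ (ball x R) ≤ ENNReal.ofReal (V * 128 ^ n / v) * μ A₀ := by
    calc μ (ball x R) ≤ ENNReal.ofReal (V * R ^ n) := hvol R hk0 (by linarith)
      _ = ENNReal.ofReal (V * 128 ^ n / v) * ENNReal.ofReal (v * dy (k + 7) ^ n) := by
          rw [← ENNReal.ofReal_mul (by positivity)]
          congr 1
          rw [h7, mul_pow]
          field_simp
      _ ≤ _ := by gcongr
  have h2 := mean_small hA₀ hsub hA₀0 hAf hint hmain hQ
  -- pass to PP
  have hPP := Pyd_eq_PP hR hG x y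
  have hcc : ⨍ v in A₀, Pyd B.toGradS x y v ∂μ = ccm μ G k x y := by
    unfold ccm
    exact average_congr (ae_restrict_of_ae hPP)
  rw [hcc] at h2
  calc ∫⁻ u in ball x R, ENNReal.ofReal |PP G x y u - ccm μ G k x y| ∂μ
      = ∫⁻ u in ball x R, ENNReal.ofReal |Pyd B.toGradS x y u - ccm μ G k x y| ∂μ := by
        apply lintegral_congr_ae
        filter_upwards [ae_restrict_of_ae hPP] with u hu
        rw [hu]
    _ ≤ _ := h2
    _ = ENNReal.ofReal ((1 + V * 128 ^ n / v) *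
          (2000 * 6 ^ n * (1 + 3 ^ n * V) * Real.sqrt (Dx + Dy) * (2 * R) ^ (n + 2))) := by
        rw [← ENNReal.ofReal_one, ← ENNReal.ofReal_add (by norm_num) (by positivity),
          ← ENNReal.ofReal_mul (by positivity)]
    _ ≤ _ := by
        apply ENNReal.ofReal_le_ofReal
        have h3 : Real.sqrt (Dx + Dy) ≤ Real.sqrt Dx + Real.sqrt Dy := by
          rw [Real.sqrt_le_left (by positivity)]
          nlinarith [Real.sq_sqrt hDx, Real.sq_sqrt hDy,
            mul_nonneg (Real.sqrt_nonneg Dx) (Real.sqrt_nonneg Dy)]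
        calc (1 + V * 128 ^ n / v) *
              (2000 * 6 ^ n * (1 + 3 ^ n * V) * Real.sqrt (Dx + Dy) * (2 * R) ^ (n + 2))
            ≤ (1 + V * 128 ^ n / v) *
              (2000 * 6 ^ n * (1 + 3 ^ n * V) * (Real.sqrt Dx + Real.sqrt Dy) *
                (2 * R) ^ (n + 2)) := by gcongr
          _ = AL2 n V v * (Real.sqrt Dx + Real.sqrt Dy) * R ^ (n + 2) := by
              unfold AL2
              rw [mul_pow]
              ring

end L2

section D

open Crest.Agent.R242 Crest.Agent.R247.Dir593.GradS Crest.Agent.R247.Obj554 Crest.Agent.R247.Fd656 Crest.Agent.R247.Smv126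

variable {n : ℕ} {κ κ' : ℝ} {X : Type*} [MetricSpace X] [ProperSpace X] [MeasurableSpace X]
  [BorelSpace X] {μ : Measure X} [IsFiniteMeasureOnCompacts μ]

/-- `L2To` in `lintegral` form -/
lemma L2To.eventually_le {E : Type*} [NormedAddCommGroup E] [InnerProductSpace ℝ E]
    {f : ℕ → X → E} {g : X → E} (h : L2To μ f g) {ε : ℝ} (hε : 0 < ε) :
    ∀ᶠ i in atTop, ∫⁻ z, ENNReal.ofReal (‖f i z - g z‖ ^ 2) ∂μ ≤ ENNReal.ofReal ε := by
  filter_upwards [h.lim.eventually (gt_mem_nhds hε)] with i hi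
  have h1 : Integrable (fun z => ‖f i z - g z‖ ^ 2) μ :=
    ((h.mem i).sub h.mem').integrable_norm_pow (by norm_num)
  rw [← ofReal_integral_eq_lintegral_ofReal h1 (Eventually.of_forall fun z => by positivity)]
  exact ENNReal.ofReal_le_ofReal hi.le

lemma approx_sq {E : Type*} [NormedAddCommGroup E] [InnerProductSpace ℝ E] {A : Set X}
    (hA : MeasurableSet A) {f g h : X → E}
    (hm : AEStronglyMeasurable (fun z => g z - h z) (μ.restrict A)) {a b c : ℝ} (ha : 0 ≤ a)
    (hb : 0 ≤ b) (hc : 2 * a + 2 * b ≤ c)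
    (h1 : ∫⁻ z in A, ENNReal.ofReal (‖f z - g z‖ ^ 2) ∂μ ≤ ENNReal.ofReal a)
    (h2 : ∫⁻ z in A, ENNReal.ofReal (‖g z - h z‖ ^ 2) ∂μ ≤ ENNReal.ofReal b) :
    ∫⁻ z in A, ENNReal.ofReal (‖f z - h z‖ ^ 2) ∂μ ≤ ENNReal.ofReal c := by
  have e2 : (2 : ℝ≥0∞) = ENNReal.ofReal 2 := by norm_num
  calc ∫⁻ z in A, ENNReal.ofReal (‖f z - h z‖ ^ 2) ∂μ
      ≤ ∫⁻ z in A, (2 * ENNReal.ofReal (‖f z - g z‖ ^ 2) + 2 * ENNReal.ofReal (‖g z - h z‖ ^ 2))
          ∂μ := by
        apply lintegral_mono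
        intro z
        show ENNReal.ofReal (‖f z - h z‖ ^ 2) ≤
          2 * ENNReal.ofReal (‖f z - g z‖ ^ 2) + 2 * ENNReal.ofReal (‖g z - h z‖ ^ 2)
        rw [e2, ← ENNReal.ofReal_mul (by norm_num), ← ENNReal.ofReal_mul (by norm_num),
          ← ENNReal.ofReal_add (by positivity) (by positivity)]
        apply ENNReal.ofReal_le_ofReal
        have h3 : ‖f z - h z‖ ≤ ‖f z - g z‖ + ‖g z - h z‖ := norm_sub_le_norm_sub_add_norm_sub _ _ _
        have h4 : ‖f z - h z‖ ^ 2 ≤ (‖f z - g z‖ + ‖g z - h z‖) ^ 2 := by gcongr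
        nlinarith [sq_nonneg (‖f z - g z‖ - ‖g z - h z‖)]
    _ = 2 * ∫⁻ z in A, ENNReal.ofReal (‖f z - g z‖ ^ 2) ∂μ +
          2 * ∫⁻ z in A, ENNReal.ofReal (‖g z - h z‖ ^ 2) ∂μ := by
        have m2 : AEMeasurable (fun z => 2 * ENNReal.ofReal (‖g z - h z‖ ^ 2)) (μ.restrict A) :=
          ((hm.norm.aemeasurable.pow_const 2).ennreal_ofReal).const_mul _
        rw [lintegral_add_right' _ m2, lintegral_const_mul' _ _ (by norm_num),
          lintegral_const_mul' _ _ (by norm_num)]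
    _ ≤ 2 * ENNReal.ofReal a + 2 * ENNReal.ofReal b := by gcongr
    _ = ENNReal.ofReal (2 * a + 2 * b) := by
        rw [e2, ← ENNReal.ofReal_mul (by norm_num), ← ENNReal.ofReal_mul (by norm_num),
          ← ENNReal.ofReal_add (by positivity) (by positivity)]
    _ ≤ _ := ENNReal.ofReal_le_ofReal hc

/-- `‖∇u_k - ∇f_x‖ = ρ · gf` on the ball of radius 32 -/
lemma norm_Duk (B : BochS n κ X μ) (x : X) (k : ℕ) :
    ∀ᵐ z ∂μ, dist x z ≤ 32 → ‖B.D (uk B x k) z - B.G (fx x) z‖ = dy k * gf B x k z := by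
  have h1 := D_uL (S := B.toGradS) (n := n) (κ := κ) (dy_pos k) x
  have h2 : B.D (uk B x k) = B.D (tL (isT_f0 x)) - dy k ^ 2 • B.D (qk B x k) := h1
  filter_upwards [Lp.coeFn_sub (B.D (tL (isT_f0 x))) (dy k ^ 2 • B.D (qk B x k)),
    Lp.coeFn_smul (dy k ^ 2) (B.D (qk B x k)), B.D_tL (isT_f0 x), G_f0 B.toGradS x]
    with z a1 a2 a3 a4 hz
  rw [h2, a1, Pi.sub_apply, a2, Pi.smul_apply, a3, a4]
  have h3 : et x z = 1 := eta_one (hf_le_S0 hz)
  rw [h3, one_smul]
  have h4 : B.G (hf x) z = B.G (fx x) z := rfl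
  rw [h4]
  have h5 : B.G (fx x) z - dy k ^ 2 • (B.D (qk B x k)) z - B.G (fx x) z =
      -(dy k ^ 2 • (B.D (qk B x k)) z) := by abel
  rw [h5, norm_neg, norm_smul, Real.norm_of_nonneg (by have := dy_pos k; positivity)]
  unfold gf
  ring

/-- **`HF2` from the objects of block (5)** -/
theorem hf2_of_obj (B : BochS n κ X μ) {x : X} (O : HObj B x) {k : ℕ} (hk : 4 ≤ k) {b : ℝ}
    (hb : 0 ≤ b)
    (hd2 : ∫⁻ z in ball x (16 * dy k), ENNReal.ofReal (Hf O k z ^ 2 + gf B x k z ^ 2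
      + qf B x k z) ∂μ ≤ ENNReal.ofReal (b * dy k ^ n)) {D' : ℝ} (hD' : 2 * b < D') :
    HF2 B x (6 * dy k) D' := by
  have hρ := dy_pos k
  have hρ1 := dy_le_one k
  set R := 6 * dy k with hR
  have hR0 : 0 < R := by positivity
  have hball : ball x R ⊆ ball x (16 * dy k) := ball_subset_ball (by linarith)
  have hK : ball x R ⊆ closedBall x R := ball_subset_closedBall
  have hcomp : IsCompact (closedBall x R) := isCompact_closedBall x R
  have hd := O.hd k
  set ε : ℝ := (D' - 2 * b) * dy k ^ (n + 2) / 2 with hε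
  have hε0 : 0 < ε := by
    have : 0 < D' - 2 * b := by linarith
    positivity
  have hA := L2To.eventually_le (hd.toA _ hcomp) hε0
  have hD := L2To.eventually_le (hd.toD _ hcomp) hε0
  obtain ⟨i, hiA, hiD⟩ := (hA.and hD).exists
  have hH0 : ∫⁻ z in ball x R, ENNReal.ofReal (‖O.A k z - idm n‖ ^ 2) ∂μ ≤
      ENNReal.ofReal (b * dy k ^ n) := by
    refine le_trans ?_ ((lintegral_mono_set hball).trans hd2)
    apply lintegral_mono
    intro z
    apply ENNReal.ofReal_le_ofReal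
    have h1 := qf_nonneg B x k z
    have h2 : Hf O k z = ‖O.A k z - idm n‖ := rfl
    rw [h2]
    nlinarith [sq_nonneg (gf B x k z)]
  have hG0 : ∫⁻ z in ball x R, ENNReal.ofReal (‖B.D (uk B x k) z - B.G (fx x) z‖ ^ 2) ∂μ ≤
      ENNReal.ofReal (b * dy k ^ (n + 2)) := by
    calc ∫⁻ z in ball x R, ENNReal.ofReal (‖B.D (uk B x k) z - B.G (fx x) z‖ ^ 2) ∂μ
        ≤ ∫⁻ z in ball x R, ENNReal.ofReal (dy k ^ 2) * ENNReal.ofReal (Hf O k z ^ 2 +
            gf B x k z ^ 2 + qf B x k z) ∂μ := by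
          apply lintegral_mono_ae
          refine (ae_restrict_iff' measurableSet_ball).2 ?_
          filter_upwards [norm_Duk B x k] with z hz hzR
          have h1 : dist x z ≤ 32 := by
            rw [mem_ball, dist_comm] at hzR
            linarith
          rw [hz h1, ← ENNReal.ofReal_mul (by positivity)]
          apply ENNReal.ofReal_le_ofReal
          rw [mul_pow]
          have h2 := qf_nonneg B x k z
          gcongr
          nlinarith [sq_nonneg (Hf O k z)]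
      _ = ENNReal.ofReal (dy k ^ 2) * ∫⁻ z in ball x R, ENNReal.ofReal (Hf O k z ^ 2 +
            gf B x k z ^ 2 + qf B x k z) ∂μ := by
          rw [lintegral_const_mul' _ _ ENNReal.ofReal_ne_top]
      _ ≤ ENNReal.ofReal (dy k ^ 2) * ENNReal.ofReal (b * dy k ^ n) := by
          gcongr
          exact (lintegral_mono_set hball).trans hd2
      _ = _ := by
          rw [← ENNReal.ofReal_mul (by positivity)]
          congr 1
          ring
  have hRn : dy k ^ n ≤ R ^ n := by gcongr; linarith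
  have hRn2 : dy k ^ (n + 2) ≤ R ^ (n + 2) := by gcongr; linarith
  have hdn : dy k ^ (n + 2) ≤ dy k ^ n := pow_le_pow_of_le_one hρ.le hρ1 (by omega)
  refine ⟨O.w k i, hd.core i, ?_, ?_⟩
  · refine approx_sq measurableSet_ball ?_ hε0.le (by positivity) ?_
      ((lintegral_mono_set hK).trans hiD) hG0
    · exact ((Lp.aestronglyMeasurable _).sub (B.meas (locLip_fx x))).restrict
    · calc 2 * ε + 2 * (b * dy k ^ (n + 2)) = D' * dy k ^ (n + 2) := by rw [hε]; ring
        _ ≤ D' * R ^ (n + 2) := by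
          have : 0 ≤ D' := by linarith
          gcongr
  · refine approx_sq measurableSet_ball ?_ hε0.le (by positivity) ?_
      ((lintegral_mono_set hK).trans hiA) hH0
    · exact (((O.A_meas k).aestronglyMeasurable).sub aestronglyMeasurable_const).restrict
    · calc 2 * ε + 2 * (b * dy k ^ n) = (D' - 2 * b) * dy k ^ (n + 2) + 2 * b * dy k ^ n := by
            rw [hε]; ring
        _ ≤ (D' - 2 * b) * dy k ^ n + 2 * b * dy k ^ n := by
            have : 0 ≤ D' - 2 * b := by linarith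
            gcongr
        _ = D' * dy k ^ n := by ring
        _ ≤ D' * R ^ n := by
          have : 0 ≤ D' := by linarith
          gcongr

/-- **The field `PkOn.L2`** (with the explicit constant `AL2 n V v * √(2 b)`), from the Hessian
objects and the literal field `d2_ball`. -/
theorem L2_pk (B : BochS n κ X μ) (C : Rad n κ' X μ) (hκ : 0 ≤ κ')
    (hκ1 : κ' ≤ 1) (hR : RDG B.toGradS C) {G : X → X → X → ℝ} (hG : GRep C G) {q : X}
    (O : ∀ x, HObj B x) {ph : X → ℕ → ℝ} {b V v A : ℝ} (hb : 0 ≤ b) (hV : 0 ≤ V) (hv : 0 < v)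
    (hvol : ∀ x, dist x q < 1 → ∀ s, 0 < s → s ≤ 1 → μ (ball x s) ≤ ENNReal.ofReal (V * s ^ n))
    (hvol' : ∀ x, dist x q < 1 → ∀ s, 0 < s → s ≤ 1 →
      ENNReal.ofReal (v * s ^ n) ≤ μ (ball x s))
    (hph : ∀ x, dist x q < 1 → ∀ j, 0 ≤ ph x j)
    (hd2 : ∀ x, dist x q < 1 → ∀ k, 4 ≤ k →
      ∫⁻ z in ball x (16 * dy k), ENNReal.ofReal (Hf (O x) k z ^ 2 + gf B x k z ^ 2
        + qf B x k z) ∂μ ≤ ENNReal.ofReal (b * ph x k * dy k ^ n))
    (hA : AL2 n V v * Real.sqrt (2 * b) ≤ A) :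
    ∃ cc : ℕ → X → X → ℝ, (∀ k x y, cc k x y = cc k y x) ∧
    ∀ k, 4 ≤ k → ∀ x, dist x q < 1 → ∀ y, dist y q < 1 → dist x y ≤ 8 * dy (k + 7) →
      |cc k x y| ≤ 200 * dy (k + 7) ^ 2 ∧
      ∫⁻ u in ball x (dy k), ENNReal.ofReal |PP G x y u - cc k x y| ∂μ ≤
        ENNReal.ofReal (A * (Real.sqrt (ph x k) + Real.sqrt (ph y k)) * dy k ^ (n + 2)) := by
  refine ⟨fun k x y => ccm μ G k x y, fun k x y => ccm_symm hG k x y, ?_⟩
  intro k hk x hx y hy hxy
  have hsq := sq_nonneg (dy (k + 7))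
  refine ⟨(abs_ccm_le hG hxy).trans (by linarith), ?_⟩
  have hpx := hph x hx k
  have hpy := hph y hy k
  have h := LP_of_hf2 B C hκ hκ1 hR hG (x := x) (y := y) hk (Dx := 2 * (b * ph x k))
    (Dy := 2 * (b * ph y k)) (by positivity) (by positivity) hV hv hxy
    (fun D' hD' => hf2_of_obj B (O x) hk (by positivity) (hd2 x hx k hk) hD')
    (fun D' hD' => hf2_of_obj B (O y) hk (by positivity) (hd2 y hy k hk) hD')
    (hvol x hx) (hvol' x hx)
  refine h.trans (ENNReal.ofReal_le_ofReal ?_)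
  have e1 : ∀ a : ℝ, 0 ≤ a → Real.sqrt (2 * (b * a)) = Real.sqrt (2 * b) * Real.sqrt a := by
    intro a ha
    rw [← mul_assoc, Real.sqrt_mul (by positivity)]
  rw [e1 _ hpx, e1 _ hpy]
  have hd := dy_pos k
  calc AL2 n V v * (Real.sqrt (2 * b) * Real.sqrt (ph x k) + Real.sqrt (2 * b) *
        Real.sqrt (ph y k)) * dy k ^ (n + 2)
      = (AL2 n V v * Real.sqrt (2 * b)) * (Real.sqrt (ph x k) + Real.sqrt (ph y k)) *
          dy k ^ (n + 2) := by ring
    _ ≤ A * (Real.sqrt (ph x k) + Real.sqrt (ph y k)) * dy k ^ (n + 2) := by gcongr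

end D

end Crest.Agent.R247.Loc710
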