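import Crest.Agent.R247.Ker4_585
import Crest.Agent.R247.Pl2_661
import Crest.Agent.R247.Cal_550

/-!
R247 block (2b), helper585: (4c) of BP (2b): lower bound `‖J ψ‖² ≥ Λ/(2n) ‖ψ‖²` on the range of the
rounding `E`, from near isometry (N), and norm bound of `J`.

* `low_form`   : `|n ‖J ψ‖² - ⟪ψ, KK ψ⟫| ≤ d μ(X) ‖ψ‖²` if `|n ∫ j_u j_v dν - K(u,v)| ≤ d` a.e.;
* `low_of_rnd` : `√(Λ/(2n)) ‖ψ‖ ≤ ‖J ψ‖` for `E ψ = ψ`;
* `polar`      : polarisation of (N);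
* `low5`       : the two together for `J(w,u) = d(u,w) - d(x,w)`, `K(u,v) = f_x(u)+f_x(v)-f_u(v)`.
-/

set_option autoImplicit false
set_option linter.unusedSectionVars false

noncomputable section

namespace Crest.Agent.R247.Low585

open MeasureTheory Filter Set Metric
open Crest.Agent.R247.Ker585 Crest.Agent.R247.Pl2661 Crest.Agent.R247.Cal550
open scoped ENNReal InnerProductSpace

section abstr

variable {X Y : Type*} [MeasurableSpace X] [MeasurableSpace Y] {μ : Measure X} {ν : Measure Y}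
  [IsFiniteMeasure μ] [SFinite ν]

theorem low_form {n d : ℝ} (hd : 0 ≤ d) {j : Y → X → ℝ} {K : X → X → ℝ} (hj : HK ν μ j)
    (hK : HK μ μ K) (hN : ∀ᵐ u ∂μ, ∀ᵐ v ∂μ, |n * (∫ w, j w u * j w v ∂ν) - K u v| ≤ d)
    (ψ : Lp ℝ 2 μ) :
    |n * ‖kop hj ψ‖ ^ 2 - ⟪ψ, kop hK ψ⟫_ℝ| ≤ d * μ.real univ * ‖ψ‖ ^ 2 := by
  have h1 := norm_kop_sq hj ψ
  have hG : HK μ μ (kcomp ν (fun x y => j y x) j) := hj.swap.comp hj
  have h2 : ‖kop (hG.const_mul n) - kop hK‖ ≤ d * √(μ.real univ * μ.real univ) :=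
    norm_kop_sub_le_of_bdd (hG.const_mul n) hK hd hN
  rw [Real.sqrt_mul_self measureReal_nonneg, kop_const_mul n hG] at h2
  have h3 : n * ‖kop hj ψ‖ ^ 2 - ⟪ψ, kop hK ψ⟫_ℝ = ⟪ψ, (n • kop hG - kop hK) ψ⟫_ℝ := by
    rw [h1, sub_apply, smul_apply, inner_sub_right, real_inner_smul_right]
  rw [h3]
  calc |⟪ψ, (n • kop hG - kop hK) ψ⟫_ℝ| ≤ ‖ψ‖ * ‖(n • kop hG - kop hK) ψ‖ :=
        abs_real_inner_le_norm _ _
    _ ≤ ‖ψ‖ * (d * μ.real univ * ‖ψ‖) := by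
        gcongr
        exact (ContinuousLinearMap.le_opNorm _ _).trans (by gcongr)
    _ = _ := by ring

theorem low_of_rnd {n d Lam e : ℝ} (hn : 0 < n) (hd : 0 ≤ d) (hLam : 0 < Lam) (he : e ≤ 1 / 4)
    (hdL : d * μ.real univ ≤ Lam / 4) {j : Y → X → ℝ} {K : X → X → ℝ} (hj : HK ν μ j)
    (hK : HK μ μ K) (hN : ∀ᵐ u ∂μ, ∀ᵐ v ∂μ, |n * (∫ w, j w u * j w v ∂ν) - K u v| ≤ d)
    {E : Lp ℝ 2 μ →L[ℝ] Lp ℝ 2 μ} (hR : Rnd (Lam⁻¹ • kop hK) E e)
    {ψ : Lp ℝ 2 μ} (hψ : E ψ = ψ) :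
    √(Lam / (2 * n)) * ‖ψ‖ ≤ ‖kop hj ψ‖ := by
  have h1 := (abs_le.1 (low_form hd hj hK hN ψ)).1
  have h2 := hR.inner_A_ge hψ
  rw [smul_apply, real_inner_smul_right] at h2
  have h3 : (1 - e) * Lam * ‖ψ‖ ^ 2 ≤ ⟪ψ, kop hK ψ⟫_ℝ := by
    have := mul_le_mul_of_nonneg_left h2 hLam.le
    rw [← mul_assoc, mul_inv_cancel_left₀ hLam.ne'] at this
    linarith
  have h4 : Lam / 2 * ‖ψ‖ ^ 2 ≤ n * ‖kop hj ψ‖ ^ 2 := by
    have h5 : d * μ.real univ * ‖ψ‖ ^ 2 ≤ Lam / 4 * ‖ψ‖ ^ 2 := by gcongr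
    have h6 : (3 / 4) * Lam * ‖ψ‖ ^ 2 ≤ (1 - e) * Lam * ‖ψ‖ ^ 2 := by
      gcongr
      linarith
    linarith
  have h5 : (√(Lam / (2 * n)) * ‖ψ‖) ^ 2 ≤ ‖kop hj ψ‖ ^ 2 := by
    rw [mul_pow, Real.sq_sqrt (by positivity)]
    rw [div_mul_eq_mul_div, div_le_iff₀ (by positivity)]
    linarith
  exact le_of_sq_le_sq' h5 (norm_nonneg _)
where
  le_of_sq_le_sq' {a b : ℝ} (h : a ^ 2 ≤ b ^ 2) (hb : 0 ≤ b) : a ≤ b :=
    (le_abs_self a).trans (abs_le_of_sq_le_sq h hb)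

end abstr

section metric

variable {X : Type*} [MetricSpace X] [MeasurableSpace X] [BorelSpace X]
  [SecondCountableTopology X]

/-- `K_x(u,v) = f_x(u) + f_x(v) - f_u(v)` -/
def KX (x u v : X) : ℝ := ff x u + ff x v - ff u v

/-- `j_x(w,u) = d(u,w) - d(x,w)` -/
def JX (x w u : X) : ℝ := dist u w - dist x w

theorem KX_symm (x u v : X) : KX x u v = KX x v u := by
  unfold KX; rw [ff_symm u v]; ring

theorem continuous_KX (x : X) : Continuous (Function.uncurry (KX x)) := by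
  unfold KX ff Function.uncurry
  fun_prop

theorem measurable_KX (x : X) : Measurable (Function.uncurry (KX x)) :=
  (continuous_KX x).measurable

theorem measurable_JX (x : X) : Measurable (Function.uncurry (JX x)) := by
  have : Continuous (Function.uncurry (JX x)) := by
    unfold JX Function.uncurry
    fun_prop
  exact this.measurable

theorem abs_JX_le (x w u : X) : |JX x w u| ≤ dist x u := by
  unfold JX
  rw [dist_comm x u]
  exact abs_dist_sub_le u x w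

theorem abs_KX_le {x u v : X} {r : ℝ} (hu : dist x u ≤ r) (hv : dist x v ≤ r) :
    |KX x u v| ≤ r ^ 2 := by
  have h0 : 0 ≤ dist x u := dist_nonneg
  have h1 : 0 ≤ dist x v := dist_nonneg
  have h2 : dist u v ≤ dist x u + dist x v := by
    have := dist_triangle u x v
    rwa [dist_comm u x] at this
  have h3 : |dist x u - dist x v| ≤ dist u v := by
    rw [dist_comm x u, dist_comm x v]
    exact abs_dist_sub_le u v x
  have h4 : 0 ≤ dist u v := dist_nonneg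
  have h5 : (dist x u - dist x v) ^ 2 ≤ dist u v ^ 2 := by
    rw [← sq_abs]; gcongr
  have h6 : dist u v ^ 2 ≤ (dist x u + dist x v) ^ 2 := by gcongr
  have h7 : dist x u * dist x v ≤ r ^ 2 := by
    rw [sq]; exact mul_le_mul hu hv h1 (h0.trans hu)
  unfold KX ff
  rw [abs_le]
  constructor <;> nlinarith

variable {μ ν : Measure X}

/-- polarisation of (N). -/
theorem polar [IsFiniteMeasure ν] {n d : ℝ} {S : Set X} {x : X} (hx : x ∈ S)
    (hN : ∀ u ∈ S, ∀ v ∈ S, |n * (∫ w, (dist u w - dist v w) ^ 2 ∂ν) - dist u v ^ 2| ≤ d)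
    {u v : X} (hu : u ∈ S) (hv : v ∈ S) :
    |n * (∫ w, JX x w u * JX x w v ∂ν) - KX x u v| ≤ 3 / 2 * d := by
  have hi : ∀ a b : X, Integrable (fun w => (dist a w - dist b w) ^ 2) ν := by
    intro a b
    refine Integrable.mono' (integrable_const (dist a b ^ 2)) ?_ ?_
    · exact (Continuous.measurable (by fun_prop)).aestronglyMeasurable
    · refine Eventually.of_forall fun w => ?_
      rw [Real.norm_eq_abs, abs_of_nonneg (sq_nonneg _), ← sq_abs]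
      have := abs_dist_sub_le a b w
      gcongr
  have e1 : ∫ w, JX x w u * JX x w v ∂ν =
      (1 / 2) * ((∫ w, (dist u w - dist x w) ^ 2 ∂ν) + (∫ w, (dist v w - dist x w) ^ 2 ∂ν)
        - ∫ w, (dist u w - dist v w) ^ 2 ∂ν) := by
    have i1 : Integrable (fun w => (dist u w - dist x w) ^ 2 + (dist v w - dist x w) ^ 2) ν :=
      (hi u x).add (hi v x)
    rw [← integral_add (hi u x) (hi v x), ← integral_sub i1 (hi u v), ← integral_const_mul]
    refine integral_congr_ae (Eventually.of_forall fun w => ?_)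
    simp only [JX]
    ring
  have a1 := abs_le.1 (hN u hu x hx)
  have a2 := abs_le.1 (hN v hv x hx)
  have a3 := abs_le.1 (hN u hu v hv)
  rw [dist_comm u x] at a1
  rw [dist_comm v x] at a2
  rw [e1]
  unfold KX ff
  rw [abs_le]
  constructor <;> nlinarith [a1.1, a1.2, a2.1, a2.2, a3.1, a3.2]

theorem HK_KX [IsFiniteMeasure μ] {x : X} {r : ℝ} (hr : ∀ᵐ u ∂μ, dist x u ≤ r) :
    HK μ μ (KX x) := by
  refine HK.of_bdd (measurable_KX x) (B := r ^ 2) ?_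
  filter_upwards [hr] with u hu
  filter_upwards [hr] with v hv
  exact abs_KX_le hu hv

theorem HK_JX [IsFiniteMeasure μ] [IsFiniteMeasure ν] {x : X} {r : ℝ}
    (hr : ∀ᵐ u ∂μ, dist x u ≤ r) : HK ν μ (JX x) := by
  refine HK.of_bdd (measurable_JX x) (B := r) (Eventually.of_forall fun w => ?_)
  filter_upwards [hr] with u hu
  exact (abs_JX_le x w u).trans hu

/-- norm bound of `J`. -/
theorem norm_J_le [IsFiniteMeasure μ] [IsProbabilityMeasure ν] {x : X} {r : ℝ} (hr0 : 0 ≤ r)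
    (hr : ∀ᵐ u ∂μ, dist x u ≤ r) (hj : HK ν μ (JX x)) :
    ‖kop hj‖ ≤ r * √(μ.real univ) := by
  have h := norm_kop_le_of_bdd hr0 hj (Eventually.of_forall fun w => by
    filter_upwards [hr] with u hu
    exact (abs_JX_le x w u).trans hu)
  simpa using h

/-- **(4c)** lower bound for `J` on the range of the rounding `E`. -/
theorem low5 [IsFiniteMeasure μ] [IsFiniteMeasure ν] {n d Lam e : ℝ} {S : Set X} {x : X}
    (hn : 0 < n) (hd : 0 ≤ d) (hLam : 0 < Lam) (he : e ≤ 1 / 4) (hx : x ∈ S)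
    (hS : ∀ᵐ u ∂μ, u ∈ S)
    (hN : ∀ u ∈ S, ∀ v ∈ S, |n * (∫ w, (dist u w - dist v w) ^ 2 ∂ν) - dist u v ^ 2| ≤ d)
    (hdL : 6 * d * μ.real univ ≤ Lam) (hj : HK ν μ (JX x)) (hK : HK μ μ (KX x))
    {E : Lp ℝ 2 μ →L[ℝ] Lp ℝ 2 μ} (hR : Rnd (Lam⁻¹ • kop hK) E e)
    {ψ : Lp ℝ 2 μ} (hψ : E ψ = ψ) :
    √(Lam / (2 * n)) * ‖ψ‖ ≤ ‖kop hj ψ‖ := by
  refine low_of_rnd hn (d := 3 / 2 * d) (by positivity) hLam he (by linarith) hj hK ?_ hR hψ
  filter_upwards [hS] with u hu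
  filter_upwards [hS] with v hv
  exact polar hx hN hu hv

end metric

end Crest.Agent.R247.Low585
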