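import Crest.Agent.R247.Lx1_149

/-!
# Leaf (1-X) of R247: the local `L¹`-in-time means over a whole good scale, fraction variables
-/

set_option autoImplicit false
set_option linter.unusedSectionVars false
open MeasureTheory Set Filter Topology Metric
open scoped ENNReal NNReal

noncomputable section
namespace Crest.Agent.R247.LX149

open Crest.Agent.R247.Mcp688 Crest.Agent.R247.Far553

/-- change of variables `u = t r` -/
lemma lintegral_mul_right (f : ℝ → ℝ≥0∞) {r : ℝ} (hr : 0 < r) (a b : ℝ) :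
    ∫⁻ t in Icc a b, f (t * r) = ENNReal.ofReal r⁻¹ * ∫⁻ u in Icc (a * r) (b * r), f u := by
  have h1 : (Icc a b).indicator (fun t => f (t * r)) =
      fun t => (Icc (a * r) (b * r)).indicator f (t * r) := by
    ext t
    by_cases ht : t ∈ Icc a b
    · rw [indicator_of_mem ht, indicator_of_mem]
      exact ⟨by have := ht.1; gcongr, by have := ht.2; gcongr⟩
    · rw [indicator_of_notMem ht, indicator_of_notMem]
      intro h
      exact ht ⟨le_of_mul_le_mul_right h.1 hr, le_of_mul_le_mul_right h.2 hr⟩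
  rw [← lintegral_indicator measurableSet_Icc, h1, ← lintegral_indicator measurableSet_Icc]
  have h2 := Real.map_volume_mul_right hr.ne'
  have h3 : ∫⁻ t, (Icc (a * r) (b * r)).indicator f (t * r) =
      ∫⁻ u, (Icc (a * r) (b * r)).indicator f u ∂(Measure.map (fun t => t * r) volume) :=
    (lintegral_map_equiv _ (Homeomorph.mulRight₀ r hr.ne').toMeasurableEquiv).symm
  rw [h3, h2, lintegral_smul_measure, abs_of_pos (by positivity), smul_eq_mul]

lemma dy_add (j m : ℕ) : dy (j + m) = dy j * (1/2) ^ m := by unfold dy; rw [pow_add]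

/-- consecutive dyadic scales -/
lemma lintegral_scales (f : ℝ → ℝ≥0∞) (j m : ℕ) :
    ∫⁻ u in Icc (dy (j + m)) (2 * dy j), f u ≤
      ∑ i ∈ Finset.range (m + 1), ∫⁻ u in Icc (dy (j + i)) (2 * dy (j + i)), f u := by
  induction m with
  | zero => simp
  | succ m ih =>
    rw [Finset.sum_range_succ]
    have h1 : Icc (dy (j + (m + 1))) (2 * dy j) ⊆
        Icc (dy (j + m)) (2 * dy j) ∪ Icc (dy (j + (m + 1))) (2 * dy (j + (m + 1))) := by
      intro u hu
      by_cases h : dy (j + m) ≤ u
      · exact Or.inl ⟨h, hu.2⟩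
      · push Not at h
        refine Or.inr ⟨hu.1, ?_⟩
        rw [← add_assoc, dy_succ]
        linarith
    calc ∫⁻ u in Icc (dy (j + (m + 1))) (2 * dy j), f u
        ≤ ∫⁻ u in Icc (dy (j + m)) (2 * dy j) ∪
            Icc (dy (j + (m + 1))) (2 * dy (j + (m + 1))), f u := lintegral_mono_set h1
      _ ≤ _ := (lintegral_union_le _ _ _).trans (add_le_add_left ih _)

variable {n : ℕ} {κ : ℝ} {X : Type*} [MetricSpace X] [MeasurableSpace X] [BorelSpace X]
  {μ : Measure X}

/-- the local mean over the whole scale, in fraction variables, at the ray points of radius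
`r ∈ [6s,8s]` (`s = dy (j+2)`, scales `j, …, j+6` good). -/
theorem eF_whole (C : Rad n κ X μ) {x v : X} (hU : (x, v) ∈ C.U) {F : ℕ → X → ℝ} {K ε : ℝ}
    (hε : 0 ≤ ε) {j k : ℕ} (hk : j + 6 ≤ k)
    (hgood : ∀ i, j ≤ i → i ≤ j + 6 → ¬ bad C x F K ε i v)
    (h8 : 8 * dy (j + 2) ≤ dist x v) {r : ℝ} (hr : r ∈ Icc (6 * dy (j + 2)) (8 * dy (j + 2))) :
    ∫⁻ t in Icc (1/64 : ℝ) 1, loc μ n K (dy k) (F k) (C.T x t (ray C x v r)) ≤
      ENNReal.ofReal (2 * ε) := by
  have hs := dy_pos (j + 2)
  have hj := dy_pos j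
  have hd : 0 < dist x v := by linarith
  have hr0 : 0 < r := by have := hr.1; linarith
  have hrd : r ∈ Ioc 0 (dist x v) := ⟨hr0, hr.2.trans h8⟩
  have e1 : ∫⁻ t in Icc (1/64 : ℝ) 1, loc μ n K (dy k) (F k) (C.T x t (ray C x v r)) =
      ∫⁻ t in Icc (1/64 : ℝ) 1, loc μ n K (dy k) (F k) (ray C x v (t * r)) := by
    apply setLIntegral_congr_fun measurableSet_Icc
    intro t ht
    simp only
    rw [T_ray C hU hd hrd ⟨by have := ht.1; linarith, ht.2⟩]
  rw [e1, lintegral_mul_right (fun u => loc μ n K (dy k) (F k) (ray C x v u)) hr0]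
  have e2 : dy (j + 2) = dy j / 4 := by rw [dy_add]; ring
  have e3 : dy (j + 6) = dy j / 64 := by rw [dy_add]; ring
  have h1 : Icc (1/64 * r) (1 * r) ⊆ Icc (dy (j + 6)) (2 * dy j) := by
    apply Icc_subset_Icc
    · have := hr.1
      rw [e2] at this
      rw [e3]
      linarith
    · have := hr.2
      rw [e2] at this
      linarith
  have h2 : ∫⁻ u in Icc (1/64 * r) (1 * r), loc μ n K (dy k) (F k) (ray C x v u) ≤
      ∑ i ∈ Finset.range (6 + 1), ENNReal.ofReal (ε * dy (j + i)) := by
    refine (lintegral_mono_set h1).trans ((lintegral_scales _ j 6).trans ?_)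
    apply Finset.sum_le_sum
    intro i hi
    rw [Finset.mem_range] at hi
    have h3 := hgood (j + i) (by lia) (by lia)
    unfold bad at h3
    push Not at h3
    exact h3 k (by lia)
  have h3 : ∑ i ∈ Finset.range (6 + 1), ENNReal.ofReal (ε * dy (j + i)) ≤
      ENNReal.ofReal (2 * ε * dy j) := by
    rw [← ENNReal.ofReal_sum_of_nonneg (fun i _ => mul_nonneg hε (dy_pos _).le)]
    apply ENNReal.ofReal_le_ofReal
    simp only [Finset.sum_range_succ, Finset.sum_range_zero, dy_add]
    have := mul_nonneg hε hj.le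
    nlinarith
  calc ENNReal.ofReal r⁻¹ *
        ∫⁻ u in Icc (1/64 * r) (1 * r), loc μ n K (dy k) (F k) (ray C x v u)
      ≤ ENNReal.ofReal r⁻¹ * ENNReal.ofReal (2 * ε * dy j) := by
        gcongr
        exact h2.trans h3
    _ = ENNReal.ofReal (r⁻¹ * (2 * ε * dy j)) :=
        (ENNReal.ofReal_mul (by positivity)).symm
    _ ≤ ENNReal.ofReal (2 * ε) := by
        apply ENNReal.ofReal_le_ofReal
        have h4 : dy j ≤ r := by
          have := hr.1
          rw [e2] at this
          linarith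
        rw [inv_mul_le_iff₀ hr0]
        nlinarith

end Crest.Agent.R247.LX149
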