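import Crest.Agent.R247.Lx4_149

/-!
# Leaf (1-X) of R247: `NN_of_good`

If the seven scales around `dy j` are good for the ray of `v`, every point near `ray C x v τ`,
`τ ∈ [s/4, 3s]`, `s = dy j`, has many rays nearby: it lies in `NN C x s ρ K c`.
-/

set_option autoImplicit false
set_option linter.unusedSectionVars false
open MeasureTheory Set Filter Topology Metric
open scoped ENNReal NNReal

noncomputable section
namespace Crest.Agent.R247.LX149

universe u

open Crest.Agent.R247.Mcp688 Crest.Agent.R247.Far553 Crest.Agent.R247.Pair438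

/-- **(1-X)**: good scales ⟹ many rays near every point close to the ray. -/
theorem NN_of_good (c : FarK) (n : ℕ) :
    ∃ K ε K2 c' : ℝ, 1 ≤ K ∧ 0 < ε ∧ 0 < K2 ∧ 0 < c' ∧ ∀ (κ : ℝ) (X : Type u) [MetricSpace X]
      [MeasurableSpace X] [BorelSpace X] [SecondCountableTopology X] (μ : Measure X) [SFinite μ]
      (C : Rad n κ X μ) (x : X) (δ : ℝ) (ph : ℕ → ℝ) (D : FarD c C x δ ph),
      0 ≤ κ → κ ≤ 1 → -1 ≤ δ → δ ≤ 1/2 →
      ∀ᵐ v ∂μ, 1 ≤ dist x v → dist x v < 12 → ∀ j, 6 ≤ j →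
      (∀ i, j - 2 ≤ i → i ≤ j + 4 → ¬ bad C x (fun k z => D.H k z + D.g k z) K ε i v) →
      ∀ k, j + 4 ≤ k → ∀ τ ∈ Icc (dy j / 4) (3 * dy j), ∀ K1 : ℝ, ∀ b,
      dist b (ray C x v τ) ≤ K1 * dy k → b ∈ NN C x (dy j) (dy k) (K2 + K1) c' := by
  have hN0 := c.N0_ge
  have hω := c.ω_pos
  have hN0p : 0 < c.N0 := by linarith
  have hq1 : 4 / c.N0 ≤ 1 / 2 := by rw [div_le_div_iff₀ hN0p (by norm_num)]; linarith
  have hq0 : 0 < 4 / c.N0 := by positivity
  -- number of short steps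
  obtain ⟨m, hm⟩ : ∃ m : ℕ, (1 - 4 / c.N0) ^ m < 1 / 64 :=
    exists_pow_lt_of_lt_one (by norm_num) (by linarith)
  set Λ : ℝ := 2 ^ (m + 1) with hΛd
  have hΛ : 2 ≤ Λ := by
    rw [hΛd, pow_succ]
    have : (1:ℝ) ≤ 2 ^ m := one_le_pow₀ (by norm_num)
    linarith
  obtain ⟨ε, hε, key⟩ := ce_far.{u} c n (Λ := Λ) (l00 := 1/64) hΛ (by norm_num)
  refine ⟨25, ε / 2, Λ + 2, c.ω / 2 / 20, by norm_num, by positivity, by positivity,
    by positivity, ?_⟩
  intro κ X _ _ _ _ μ _ C x δ ph D hκ hκ1 hδ1 hδ2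
  filter_upwards [C.ae_U x, D.base] with v hU hb hv1 hv12 j hj hgood k hk τ hτ K1 b hbd
  have hd : 0 < dist x v := by linarith
  obtain ⟨j', rfl⟩ : ∃ j', j = j' + 2 := ⟨j - 2, by lia⟩
  set s : ℝ := dy (j' + 2) with hs
  have hsp : 0 < s := dy_pos _
  have hs64 : s ≤ 1 / 64 := by
    have h1 : dy (j' + 2) ≤ dy 6 := dy_anti hj
    have h2 : dy 6 = 1 / 64 := by unfold dy; norm_num
    rw [hs]; linarith
  have hkp := dy_pos k
  have hk8 : dy k ≤ s / 16 := by
    have h1 : dy k ≤ dy (j' + 2 + 4) := dy_anti hk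
    rw [dy_add (j' + 2) 4] at h1
    rw [hs]; linarith
  have h8 : 8 * s ≤ dist x v := by linarith
  have hCE : ∀ r ∈ Icc (6 * s) (8 * s), CEg C x v (1/64) Λ (dy k) r := by
    intro r hr
    have hr0 : 0 < r := by have := hr.1; linarith
    have hrd : r ∈ Ioc 0 (dist x v) := ⟨hr0, hr.2.trans h8⟩
    have hP : (x, ray C x v r) ∈ C.U := ray_mem_U C hU hd hrd
    have hdP : dist x (ray C x v r) = r := dist_x_ray C hU hd ⟨hr0.le, hrd.2⟩
    obtain ⟨ρ₀, hρ₀, hbase⟩ := base_iter C hU hN0 (hb hv12) hr0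
      (by have := hr.2; linarith) (m + 1)
    have hl : (1 - 4 / c.N0) ^ (m + 1) ≤ 1 / 64 := by
      rw [pow_succ]
      have h1 : 0 ≤ (1 - 4 / c.N0) ^ m := by apply pow_nonneg; linarith
      nlinarith
    have h1 := key κ X μ C x δ ph D hκ hκ1 hδ1 hδ2 (ray C x v r) hP
      (by rw [hdP]; have := hr.2; linarith) (1/64) le_rfl (by norm_num) (j' + 2 + 4) (by lia)
      ⟨ρ₀, hρ₀, fun y hy1 hy2 t ht => hbase y hy2 hy1 t ⟨hl.trans ht.1, ht.2⟩⟩
      (by
        intro k' hk'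
        have h2 := eF_whole C hU (F := fun k z => D.H k z + D.g k z) (K := 25) (ε := ε / 2)
          (by positivity) (j := j') (k := k') (by lia)
          (fun i hi1 hi2 => hgood i (by lia) (by lia)) h8 hr
        refine h2.trans (ENNReal.ofReal_le_ofReal (by linarith)))
      k hk
    refine ⟨_, measurableSet_tub C hP (by norm_num) (by norm_num),
      fun y hy => mem_ball.2 hy.1, h1, fun y hy t ht => ?_⟩
    have h2 := hy.2.2 t ht
    have ht0 : t ∈ Icc (0:ℝ) 1 := ⟨by have := ht.1; linarith, ht.2⟩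
    rw [T_ray C hU hd hrd ht0] at h2
    refine h2.trans ?_
    have h3 : Λ * t ≤ Λ * 1 := by gcongr; exact ht.2
    nlinarith
  have h1 := Lam_lower C hU (s := s) (ρ := dy k) (K0 := Λ) (K1 := K1) (v0 := c.ω / 2) hsp hkp
    (by linarith) h8 hCE (by positivity)
    (by
      intro y hy
      rw [mem_closedBall, dist_comm] at hy
      refine le_trans ?_ (D.vol_ge y (dy k) (by linarith) hkp (by linarith))
      apply ENNReal.ofReal_le_ofReal
      have h3 : 0 < c.ω * dy k ^ n := by positivity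
      nlinarith)
    hτ hbd
  show ENNReal.ofReal (c.ω / 2 / 20 * dy k ^ n) ≤ Lam C x s (ball b ((Λ + 2 + K1) * dy k))
  rw [show Λ + 2 + K1 = Λ + K1 + 2 by ring]
  exact h1

end Crest.Agent.R247.LX149
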