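import Crest.Agent.R247.Mcp5_688

/-!
R247, leaf (1-M) (helper193), probability part: if a random integral of `min N C2` along the rays
is at least `c`, then the rays meet `{N > c'}`; the probability is at most `C s⁻ⁿ μ {N > c'}`.
-/

set_option autoImplicit false
set_option linter.unusedSectionVars false

open MeasureTheory Filter Topology Set
open scoped ENNReal

noncomputable section

namespace Crest.Agent.R247.Max193

open Crest.Agent.R247.Mcp688

section Core

variable {T Ω : Type*} [MeasurableSpace T] [MeasurableSpace Ω]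

theorem prob_core (lam : Measure T) [SFinite lam] (ν : Measure Ω) [SFinite ν]
    {F : Ω → T → ℝ≥0∞} {S : Ω → Set T} (hS : ∀ w, MeasurableSet (S w)) {c c' C1 C2 Λ : ℝ}
    (hc : 0 < c) (hC1 : 0 < C1) (hC2 : 0 < C2)
    (hcc : C1 * (c' * Λ) ≤ c / 2) {E : Set (Ω × T)} (hE : MeasurableSet E) {P : Ω → Prop}
    (hΛ : ∀ᵐ w ∂ν, P w → ENNReal.ofReal c' * lam (S w) ≤ ENNReal.ofReal (c' * Λ))
    (hPE : ∀ᵐ w ∂ν, P w → ∀ t ∈ S w, ENNReal.ofReal c' < F w t → (w, t) ∈ E)
    (hP : ∀ᵐ w ∂ν, P w → ENNReal.ofReal c ≤ ENNReal.ofReal C1 *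
      ∫⁻ t in S w, min (F w t) (ENNReal.ofReal C2) ∂lam) :
    ν {w | P w} ≤ ENNReal.ofReal (2 * C1 * C2 / c) * (ν.prod lam) E := by
  have key : ∀ᵐ w ∂ν, P w → ENNReal.ofReal (c / (2 * C1 * C2)) ≤ lam (Prod.mk w ⁻¹' E) := by
    filter_upwards [hΛ, hPE, hP] with w hΛ hPE hP hw
    have hEw : MeasurableSet (Prod.mk w ⁻¹' E) := hE.preimage measurable_prodMk_left
    have h1 : ∫⁻ t in S w, min (F w t) (ENNReal.ofReal C2) ∂lam ≤
        ENNReal.ofReal c' * lam (S w) + ENNReal.ofReal C2 * lam (Prod.mk w ⁻¹' E) := by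
      calc ∫⁻ t in S w, min (F w t) (ENNReal.ofReal C2) ∂lam
          ≤ ∫⁻ t in S w, (ENNReal.ofReal c' +
              (Prod.mk w ⁻¹' E).indicator (fun _ => ENNReal.ofReal C2) t) ∂lam := by
            refine setLIntegral_mono' (hS w) fun t ht => ?_
            rcases le_or_gt (F w t) (ENNReal.ofReal c') with h | h
            · exact (min_le_left _ _).trans (h.trans le_self_add)
            · rw [indicator_of_mem (show t ∈ Prod.mk w ⁻¹' E from hPE hw t ht h)]
              exact (min_le_right _ _).trans le_add_self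
        _ = ENNReal.ofReal c' * lam (S w) +
              ∫⁻ t in S w, (Prod.mk w ⁻¹' E).indicator (fun _ => ENNReal.ofReal C2) t ∂lam := by
            rw [lintegral_add_left measurable_const, setLIntegral_const]
        _ ≤ ENNReal.ofReal c' * lam (S w) +
              ∫⁻ t, (Prod.mk w ⁻¹' E).indicator (fun _ => ENNReal.ofReal C2) t ∂lam := by
            gcongr
            exact Measure.restrict_le_self
        _ = _ := by rw [lintegral_indicator_const hEw]
    have h2 := (hP hw).trans (mul_le_mul_right h1 _)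
    rw [mul_add, ← mul_assoc, ← mul_assoc, mul_assoc _ _ (lam (S w)),
      ← ENNReal.ofReal_mul hC1.le] at h2
    have h3 : ENNReal.ofReal C1 * (ENNReal.ofReal c' * lam (S w)) ≤ ENNReal.ofReal (c / 2) := by
      refine (mul_le_mul_right (hΛ hw) _).trans ?_
      rw [← ENNReal.ofReal_mul hC1.le]
      exact ENNReal.ofReal_le_ofReal hcc
    have h4 : ENNReal.ofReal (c / 2) + ENNReal.ofReal (c / 2) ≤ ENNReal.ofReal (c / 2) +
        ENNReal.ofReal (C1 * C2) * lam (Prod.mk w ⁻¹' E) := by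
      rw [← ENNReal.ofReal_add (by positivity) (by positivity), add_halves]
      exact h2.trans (add_le_add_left h3 _)
    have h5 := (ENNReal.add_le_add_iff_left ENNReal.ofReal_ne_top).1 h4
    have h6 : ENNReal.ofReal (c / (2 * C1 * C2)) = ENNReal.ofReal (c / 2) /
        ENNReal.ofReal (C1 * C2) := by
      rw [← ENNReal.ofReal_div_of_pos (by positivity)]
      congr 1
      field_simp
    rw [h6]
    exact ENNReal.div_le_of_le_mul' h5
  have hm : Measurable fun w => lam (Prod.mk w ⁻¹' E) := measurable_measure_prodMk_left hE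
  have h7 : ν {w | P w} ≤ ν {w | ENNReal.ofReal (c / (2 * C1 * C2)) ≤ lam (Prod.mk w ⁻¹' E)} := by
    refine measure_mono_ae ?_
    filter_upwards [key] with w hw hPw
    exact hw hPw
  have h8 := mul_meas_ge_le_lintegral (μ := ν) hm (ENNReal.ofReal (c / (2 * C1 * C2)))
  rw [← Measure.prod_apply hE] at h8
  have h9 : ENNReal.ofReal (2 * C1 * C2 / c) * ENNReal.ofReal (c / (2 * C1 * C2)) = 1 := by
    rw [← ENNReal.ofReal_mul (by positivity), ← ENNReal.ofReal_one]
    congr 1
    field_simp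
  calc ν {w | P w} ≤ ν {w | ENNReal.ofReal (c / (2 * C1 * C2)) ≤ lam (Prod.mk w ⁻¹' E)} := h7
    _ = ENNReal.ofReal (2 * C1 * C2 / c) * (ENNReal.ofReal (c / (2 * C1 * C2)) *
          ν {w | ENNReal.ofReal (c / (2 * C1 * C2)) ≤ lam (Prod.mk w ⁻¹' E)}) := by
        rw [← mul_assoc, h9, one_mul]
    _ ≤ _ := mul_le_mul_right h8 _

end Core

section Radial

variable {n : ℕ} {κ : ℝ} {X : Type*} [MetricSpace X] [MeasurableSpace X] [BorelSpace X]
  {μ : Measure X}

/-- **probability of a large capped maximal function along the rays** -/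
theorem rad_prob [SFinite μ] (C : Rad n κ X μ) (hκ : 0 ≤ κ) (x : X) {A : Set X}
    (hA : MeasurableSet A) {r1 r2 s : ℝ} (hr1 : 0 < r1)
    (hAr : ∀ w ∈ A, r1 ≤ dist x w ∧ dist x w ≤ r2) (hs : 0 < s) (hs1 : 4 * s ≤ r1)
    {N : X → ℝ≥0∞} (hN : Measurable N) {P : X → Prop} {c C1 C2 : ℝ} (hc : 0 < c) (hC1 : 0 < C1)
    (hC2 : 0 < C2)
    (hP : ∀ᵐ w ∂μ, w ∈ A → P w → ENNReal.ofReal c ≤ ENNReal.ofReal C1 *
      ∫⁻ t in Icc (s / dist x w) (4 * s / dist x w),
        min (N (C.T x t w)) (ENNReal.ofReal C2) * ENNReal.ofReal t⁻¹) :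
    μ {w | w ∈ A ∧ P w} ≤
      ENNReal.ofReal (8 * C1 * C2 * r2 ^ (n + 1) * Real.exp (κ * r2 ^ 2 / 2) / (c * r1) *
        (s⁻¹) ^ n) *
      μ {y | y ∈ Metric.ball x (5 * s) ∧ ENNReal.ofReal (c * r1 / (6 * C1 * r2)) < N y} := by
  rcases A.eq_empty_or_nonempty with hAe | ⟨w0, hw0⟩
  · subst hAe; simp
  have hr2 : 0 < r2 := hr1.trans_le ((hAr w0 hw0).1.trans (hAr w0 hw0).2)
  have hr12 : r1 ≤ r2 := (hAr w0 hw0).1.trans (hAr w0 hw0).2
  set c' : ℝ := c * r1 / (6 * C1 * r2) with hc'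
  have hc'0 : 0 < c' := by positivity
  set D : Set X := {y | y ∈ Metric.ball x (5 * s) ∧ ENNReal.ofReal c' < N y} with hD
  have hDm : MeasurableSet D :=
    Metric.isOpen_ball.measurableSet.inter (measurableSet_lt measurable_const hN)
  set a : ℝ := s / r2 with ha
  set b : ℝ := 4 * s / r1 with hb
  have ha0 : 0 < a := by positivity
  have hb1 : b ≤ 1 := by rw [hb, div_le_one hr1]; exact hs1
  have hmT : Measurable (fun p : X × ℝ => C.T x p.2 p.1) :=
    C.measT.comp (measurable_const.prodMk (measurable_snd.prodMk measurable_fst))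
  set E : Set (X × ℝ) := {p | p.2 ∈ Icc a b ∧ C.T x p.2 p.1 ∈ D} with hE
  have hEm : MeasurableSet E :=
    (measurable_snd measurableSet_Icc).inter (hmT hDm)
  have h1 := prob_core (volume : Measure ℝ) (μ.restrict A) (F := fun w t => N (C.T x t w))
    (S := fun w => Icc (s / dist x w) (4 * s / dist x w)) (fun w => measurableSet_Icc)
    (c := c) (c' := c') (C1 := C1 * (r2 / s)) (C2 := C2) (Λ := 3 * s / r1) hc (by positivity) hC2
    (by
      rw [hc']
      apply le_of_eq
      field_simp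
      ring) (E := E) hEm (P := fun w => w ∈ A ∧ P w)
    (by
      refine Filter.Eventually.of_forall fun w hw => ?_
      obtain ⟨h1, h2⟩ := hAr w hw.1
      have hd : 0 < dist x w := hr1.trans_le h1
      rw [Real.volume_Icc, ← ENNReal.ofReal_mul hc'0.le]
      refine ENNReal.ofReal_le_ofReal (mul_le_mul_of_nonneg_left ?_ hc'0.le)
      have e : 4 * s / dist x w - s / dist x w = 3 * s / dist x w := by ring
      rw [e]
      exact div_le_div_of_nonneg_left (by positivity) hr1 h1)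
    (by
      filter_upwards [ae_restrict_of_ae (C.ae_U x)] with w hU hw t ht hlt
      obtain ⟨h1, h2⟩ := hAr w hw.1
      have hd : 0 < dist x w := hr1.trans_le h1
      have ht0 : 0 < t := lt_of_lt_of_le (by positivity) ht.1
      have htb : t ≤ b := ht.2.trans (by
        rw [hb]; exact div_le_div_of_nonneg_left (by positivity) hr1 h1)
      refine ⟨⟨?_, htb⟩, ?_, hlt⟩
      · refine le_trans ?_ ht.1
        rw [ha]
        exact div_le_div_of_nonneg_left hs.le hd h2
      · rw [Metric.mem_ball, dist_comm, C.dist_left hU ⟨ht0.le, htb.trans hb1⟩]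
        have h3 : t * dist x w ≤ 4 * s := by
          have := ht.2
          rwa [le_div_iff₀ hd] at this
        linarith)
    (by
      filter_upwards [ae_restrict_of_ae hP] with w hw hPw
      obtain ⟨h1, h2⟩ := hAr w hPw.1
      have hd : 0 < dist x w := hr1.trans_le h1
      refine (hw hPw.1 hPw.2).trans ?_
      rw [ENNReal.ofReal_mul hC1.le, mul_assoc]
      refine mul_le_mul_right ?_ _
      rw [← lintegral_const_mul' _ _ ENNReal.ofReal_ne_top]
      refine setLIntegral_mono' measurableSet_Icc fun t ht => ?_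
      rw [mul_comm]
      refine mul_le_mul_left (ENNReal.ofReal_le_ofReal ?_) _
      have h3 : s / r2 ≤ t := (div_le_div_of_nonneg_left hs.le hd h2).trans ht.1
      rw [← inv_div s r2]
      exact inv_anti₀ (by positivity) h3)
  have h2 : μ {w | w ∈ A ∧ P w} = μ.restrict A {w | w ∈ A ∧ P w} := by
    rw [Measure.restrict_eq_self _ (fun w hw => hw.1)]
  rw [h2]
  refine h1.trans ?_
  have h3 : ((μ.restrict A).prod volume) E ≤
      ENNReal.ofReal (Real.exp (κ * r2 ^ 2 / 2) * (a⁻¹) ^ n * (b - a)) * μ D := by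
    have h4 := C.ray_lintegral_le hκ x (a := a) (b := b) (R := r2) ha0 hb1 hA
      (W := univ) MeasurableSet.univ (fun z hz => (hAr z hz).2) (fun z _ _ t _ => mem_univ _)
      (g := D.indicator fun _ => 1) (measurable_const.indicator hDm)
    rw [Measure.restrict_univ, lintegral_indicator_const hDm, one_mul] at h4
    refine le_trans (le_of_eq ?_) h4
    rw [Measure.prod_apply hEm]
    refine lintegral_congr fun w => ?_
    have hm2 : Measurable fun t => C.T x t w := hmT.comp (measurable_const.prodMk measurable_id)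
    have e : (fun t => D.indicator (fun _ => (1:ℝ≥0∞)) (C.T x t w)) =
        ((fun t => C.T x t w) ⁻¹' D).indicator fun _ => 1 := by
      funext t
      by_cases h : C.T x t w ∈ D
      · rw [indicator_of_mem h, indicator_of_mem (show t ∈ (fun t => C.T x t w) ⁻¹' D from h)]
      · rw [indicator_of_notMem h,
          indicator_of_notMem (show t ∉ (fun t => C.T x t w) ⁻¹' D from h)]
    rw [e, lintegral_indicator_const (hm2 hDm), one_mul, Measure.restrict_apply (hm2 hDm)]
    congr 1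
    ext t
    simp only [hE, mem_preimage, mem_ofPred_eq, mem_inter_iff]
    tauto
  refine (mul_le_mul_right h3 _).trans ?_
  rw [← mul_assoc, ← ENNReal.ofReal_mul (by positivity)]
  refine mul_le_mul_left (ENNReal.ofReal_le_ofReal ?_) _
  have h5 : b - a ≤ 4 * s / r1 := by rw [hb]; linarith
  calc 2 * (C1 * (r2 / s)) * C2 / c * (Real.exp (κ * r2 ^ 2 / 2) * (a⁻¹) ^ n * (b - a))
      ≤ 2 * (C1 * (r2 / s)) * C2 / c *
          (Real.exp (κ * r2 ^ 2 / 2) * (a⁻¹) ^ n * (4 * s / r1)) := by gcongr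
    _ = _ := by
      rw [ha, inv_div, div_pow, inv_pow, pow_succ]
      field_simp
      ring

/-- the same for a supremum of real functions -/
theorem rad_prob_sup [SFinite μ] (C : Rad n κ X μ) (hκ : 0 ≤ κ) (x : X) {A : Set X}
    (hA : MeasurableSet A) {r1 r2 s : ℝ} (hr1 : 0 < r1)
    (hAr : ∀ w ∈ A, r1 ≤ dist x w ∧ dist x w ≤ r2) (hs : 0 < s) (hs1 : 4 * s ≤ r1)
    {q : ℕ → X → ℝ} (hq : ∀ i, Measurable (q i)) {P : X → Prop} {c C1 C2 : ℝ} (hc : 0 < c)
    (hC1 : 0 < C1) (hC2 : 0 < C2)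
    (hP : ∀ᵐ w ∂μ, w ∈ A → P w → ENNReal.ofReal c ≤ ENNReal.ofReal C1 *
      ∫⁻ t in Icc (s / dist x w) (4 * s / dist x w),
        min (⨆ i, ENNReal.ofReal (q i (C.T x t w))) (ENNReal.ofReal C2) * ENNReal.ofReal t⁻¹) :
    μ {w | w ∈ A ∧ P w} ≤
      ENNReal.ofReal (8 * C1 * C2 * r2 ^ (n + 1) * Real.exp (κ * r2 ^ 2 / 2) / (c * r1) *
        (s⁻¹) ^ n) *
      μ {y | y ∈ Metric.ball x (5 * s) ∧ ∃ i, c * r1 / (6 * C1 * r2) < q i y} := by
  rcases A.eq_empty_or_nonempty with hAe | ⟨w0, hw0⟩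
  · subst hAe; simp
  have hr2 : 0 < r2 := hr1.trans_le ((hAr w0 hw0).1.trans (hAr w0 hw0).2)
  have h := rad_prob C hκ x hA hr1 hAr hs hs1 (N := fun y => ⨆ i, ENNReal.ofReal (q i y))
    (Measurable.iSup fun i => (hq i).ennreal_ofReal) (P := P) hc hC1 hC2 hP
  convert h using 3
  ext y
  simp only [mem_ofPred_eq]
  refine and_congr_right fun _ => ?_
  rw [lt_iSup_iff]
  refine exists_congr fun i => ?_
  rw [ENNReal.ofReal_lt_ofReal_iff_of_nonneg (by positivity)]

end Radial

/-! ### averaging of the end point -/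

/-- `I ≤ 2 q(b) + 4 ∫_{t1}^b r dt/t` for all `b ∈ [t2,t3]`, averaged over `b`. -/
theorem avg_end {I t1 t2 t3 : ℝ} {q r : ℝ → ℝ} (h1 : 0 < t1) (h12 : t1 ≤ t2) (h23 : t2 < t3)
    (hr : ∀ t ∈ Icc t1 t3, 0 ≤ r t)
    (hqi : IntervalIntegrable (fun t => q t / t) volume t2 t3)
    (hri : IntervalIntegrable (fun t => r t / t) volume t1 t3)
    (h : ∀ b ∈ Icc t2 t3, I ≤ 2 * q b + 4 * ∫ t in t1..b, r t / t) :
    I ≤ 2 / Real.log (t3 / t2) * (∫ t in t2..t3, q t / t) + 4 * ∫ t in t1..t3, r t / t := by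
  have h2 : 0 < t2 := h1.trans_le h12
  have h3 : 0 < t3 := h2.trans h23
  have hlog : 0 < Real.log (t3 / t2) := Real.log_pos (by rw [lt_div_iff₀ h2]; linarith)
  set R := ∫ t in t1..t3, r t / t with hR
  have hmono : ∀ b ∈ Icc t2 t3, ∫ t in t1..b, r t / t ≤ R := by
    intro b hb
    refine intervalIntegral.integral_mono_interval le_rfl (h12.trans hb.1) hb.2 ?_ hri
    refine (ae_restrict_mem measurableSet_Ioc).mono fun t ht => ?_
    exact div_nonneg (hr t ⟨ht.1.le, ht.2⟩) (h1.trans ht.1).le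
  have hinv : ∫ t in t2..t3, t⁻¹ = Real.log (t3 / t2) :=
    integral_inv_of_pos h2 h3
  have hii : IntervalIntegrable (fun t : ℝ => t⁻¹) volume t2 t3 :=
    intervalIntegrable_inv_iff.2 (Or.inr (by
      rw [uIcc_of_le h23.le]; exact fun h => absurd h.1 (not_le.2 h2)))
  have h4 : I * Real.log (t3 / t2) ≤ 2 * (∫ t in t2..t3, q t / t) + 4 * R * Real.log (t3 / t2) := by
    rw [← hinv, ← intervalIntegral.integral_const_mul, ← intervalIntegral.integral_const_mul,
      ← intervalIntegral.integral_const_mul, ← intervalIntegral.integral_add (hqi.const_mul 2)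
        (hii.const_mul (4 * R))]
    refine intervalIntegral.integral_mono_on h23.le (hii.const_mul I)
      ((hqi.const_mul 2).add (hii.const_mul (4 * R))) fun b hb => ?_
    have hb0 : 0 < b := h2.trans_le hb.1
    have h5 := (h b hb).trans (add_le_add le_rfl (mul_le_mul_of_nonneg_left (hmono b hb) (by norm_num)))
    have h6 := mul_le_mul_of_nonneg_right h5 (inv_pos.2 hb0).le
    calc I * b⁻¹ ≤ (2 * q b + 4 * R) * b⁻¹ := h6
      _ = 2 * (q b / b) + 4 * R * b⁻¹ := by rw [div_eq_mul_inv]; ring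
  rw [div_mul_eq_mul_div]
  have h7 : I ≤ (2 * (∫ t in t2..t3, q t / t) + 4 * R * Real.log (t3 / t2)) / Real.log (t3 / t2) := by
    rwa [le_div_iff₀ hlog]
  rw [add_div, mul_div_cancel_right₀ _ hlog.ne'] at h7
  exact h7

end Crest.Agent.R247.Max193
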