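import Crest.Agent.R247.Dir6_593
import Crest.Agent.R247.Max1_193
import Crest.Agent.R247.Max2_193
import Crest.Agent.R247.Far0_553

/-!
R247, leaf (1-M) (helper193): the maximal inequality and the `L¹` bound for `q_ρ = (1 - ρ²Δ)⁻¹ m`
near the centre, over 593's Dirichlet form, with the volume drops of 688.
-/

set_option autoImplicit false
set_option linter.unusedSectionVars false

open MeasureTheory Filter Topology Set
open scoped RealInnerProductSpace ENNReal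

noncomputable section

namespace Crest.Agent.R247.Max193

open Crest.Agent.R242 Crest.Agent.R247.Dir593 Crest.Agent.R247.Dir593.GradS
open Crest.Agent.R247.Mcp688 Crest.Agent.R247.Far553

/-! ### cut-off functions as test functions -/

section Cut

variable {X : Type*} [MetricSpace X]

theorem lip_cut (x : X) {r : ℝ} (hr : 0 < r) :
    LipschitzWith (Real.toNNReal r⁻¹) (fun y : X => cut r (dist x y)) := by
  refine LipschitzWith.of_dist_le_mul fun y z => ?_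
  rw [Real.coe_toNNReal _ (inv_pos.2 hr).le, Real.dist_eq]
  refine (abs_cut_sub hr _ _).trans ?_
  refine mul_le_mul_of_nonneg_left ?_ (inv_pos.2 hr).le
  rw [abs_le]
  have h1 := dist_triangle x z y
  have h2 := dist_triangle x y z
  rw [dist_comm z y] at h1
  constructor <;> linarith

theorem isT_cut [ProperSpace X] (x : X) {r : ℝ} (hr : 0 < r) :
    IsT (fun y : X => cut r (dist x y)) := by
  refine ⟨(lip_cut x hr).locallyLipschitz, ?_⟩
  refine HasCompactSupport.intro (isCompact_closedBall x (2 * r)) fun y hy => ?_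
  rw [Metric.mem_closedBall, not_le, dist_comm] at hy
  exact cut_eq_zero hr hy.le

end Cut

variable {X : Type*} [MetricSpace X] [MeasurableSpace X] {F : Type*}
  [NormedAddCommGroup F] [InnerProductSpace ℝ F] {μ : Measure X} {S : GradS X F μ}
  [BorelSpace X] [IsFiniteMeasureOnCompacts μ] [CompleteSpace F] [ProperSpace X]
  {hd : Dense (S.V : Set (Lp ℝ 2 μ))}

/-- a test function with values in `[0,1]` is a multiplier of the form -/
theorem exists_mult {p : X → ℝ} (hp : IsT p) (h0 : ∀ x, 0 ≤ p x) (h1 : ∀ x, p x ≤ 1) :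
    Nonempty (Mult (S.form hd) p) := by
  obtain ⟨C, hC⟩ := hp.mult S
  refine ⟨⟨hp.1.continuous.aestronglyMeasurable, Filter.Eventually.of_forall h0,
    Filter.Eventually.of_forall h1, 2 * C, mul_nonneg zero_le_two hC.C0, ?_⟩⟩
  intro u w hu hw
  have e : w = hC.mul u := by
    ext1
    filter_upwards [hw, hC.coe_mul u] with x a1 a2
    rw [a1, a2]
  subst e
  refine ⟨hC.mul_mem hu, ?_⟩
  rw [form_E_inner, form_E_inner, real_inner_self_eq_norm_sq, real_inner_self_eq_norm_sq]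
  have a1 := hC.norm_mul_le u
  have a2 := hC.norm_D_mul_le hu
  have b1 : ‖hC.mul u‖ ^ 2 ≤ (C * ‖u‖) ^ 2 := pow_le_pow_left₀ (norm_nonneg _) a1 2
  have b2 : ‖S.D (hC.mul u)‖ ^ 2 ≤ (C * (‖S.D u‖ + ‖u‖)) ^ 2 :=
    pow_le_pow_left₀ (norm_nonneg _) a2 2
  have b3 : (‖S.D u‖ + ‖u‖) ^ 2 ≤ 2 * (‖u‖ ^ 2 + ‖S.D u‖ ^ 2) := by
    nlinarith [sq_nonneg (‖S.D u‖ - ‖u‖)]
  have hC2 : 0 ≤ C ^ 2 := sq_nonneg C
  have b4 : C ^ 2 * (‖S.D u‖ + ‖u‖) ^ 2 ≤ C ^ 2 * (2 * (‖u‖ ^ 2 + ‖S.D u‖ ^ 2)) :=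
    mul_le_mul_of_nonneg_left b3 hC2
  have b5 : 0 ≤ C ^ 2 * ‖S.D u‖ ^ 2 := by positivity
  nlinarith

/-- The inputs for the maximal inequality at the centre `x`:
`l` = 554's functional, `dec` = 386's (R3). -/
structure MaxIn (n : ℕ) (κ : ℝ) (S : GradS X F μ) (hd : Dense (S.V : Set (Lp ℝ 2 μ))) (x : X)
    (l : Fnl (S.form hd)) (C0 C3 c3 : ℝ) : Prop where
  pos : Pos l
  supp : SuppIn l (Metric.ball x 64)
  cutb : ∀ r (hr : 0 < r), r ≤ 16 → l.f (tL (isT_cut x hr)) ≤ Rad.drop n κ μ x r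
  mac : l.f (tL (isT_cut x (show (0:ℝ) < 64 by norm_num))) ≤ C0
  C3_nonneg : 0 ≤ C3
  c3_pos : 0 < c3
  dec : ∀ r, 0 < r → r ≤ 2 → ∀ ρ, 0 < ρ → ρ ≤ r →
    ∀ (hm : MeasurableSet (Metric.ball x r)) (hμ : μ (Metric.ball x r) ≠ ∞),
    ∀ᵐ y ∂μ, 2 * r ≤ dist x y →
      (S.form hd).res (ρ ^ 2) (ind hm hμ) y ≤ C3 * Real.exp (-(c3 * dist x y / ρ))

namespace MaxIn

variable {n : ℕ} {κ : ℝ} {x : X} {l : Fnl (S.form hd)} {C0 C3 c3 : ℝ}

theorem cut_nonneg' (h : MaxIn n κ S hd x l C0 C3 c3) {r : ℝ} (hr : 0 < r) :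
    0 ≤ l.f (tL (isT_cut x hr)) := by
  refine h.pos _ (S.tL_mem _) ?_
  filter_upwards [coe_tL (μ := μ) (isT_cut x hr)] with y hy
  show (0:ℝ) ≤ _
  rw [hy]; exact cut_nonneg _ _

theorem drop_nonneg (h : MaxIn n κ S hd x l C0 C3 c3) {r : ℝ} (hr : 0 < r) (hr16 : r ≤ 16) :
    0 ≤ Rad.drop n κ μ x r := (h.cut_nonneg' hr).trans (h.cutb r hr hr16)

theorem C0_nonneg (h : MaxIn n κ S hd x l C0 C3 c3) : 0 ≤ C0 :=
  (h.cut_nonneg' (show (0:ℝ) < 64 by norm_num)).trans h.mac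

/-- the shells -/
def vsh (x : X) (r : ℝ) (hr : 0 < r) (I j : ℕ) : Lp ℝ 2 μ :=
  if j < I then tL (isT_cut x (show 0 < 2 ^ (j + 2) * r by positivity))
  else tL (isT_cut x (show (0:ℝ) < 64 by norm_num))

theorem vsh_mem {r : ℝ} (hr : 0 < r) (I j : ℕ) : vsh (μ := μ) x r hr I j ∈ (S.form hd).dom := by
  unfold vsh
  split_ifs
  · exact S.tL_mem _
  · exact S.tL_mem _

theorem coe_vsh {r : ℝ} (hr : 0 < r) (I j : ℕ) : ∀ᵐ y ∂μ, vsh (μ := μ) x r hr I j y =
    if j < I then cut (2 ^ (j + 2) * r) (dist x y) else cut 64 (dist x y) := by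
  unfold vsh
  split_ifs with hj
  · exact coe_tL _
  · exact coe_tL _

theorem vsh_nonneg {r : ℝ} (hr : 0 < r) (I j : ℕ) :
    0 ≤ᵐ[μ] (vsh (μ := μ) x r hr I j : X → ℝ) := by
  filter_upwards [coe_vsh (x := x) hr I j] with y hy
  show (0:ℝ) ≤ _
  rw [hy]
  split_ifs
  · exact cut_nonneg _ _
  · exact cut_nonneg _ _

theorem l_vsh (h : MaxIn n κ S hd x l C0 C3 c3) {r : ℝ} (hr : 0 < r) {I : ℕ}
    (hI : 2 ^ (I + 1) * r ≤ 16) (j : ℕ) :
    l.f (vsh x r hr I j) ≤ if j < I then Rad.drop n κ μ x (2 ^ (j + 2) * r) else C0 := by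
  unfold vsh
  split_ifs with hj
  · refine h.cutb _ (show 0 < 2 ^ (j + 2) * r by positivity) (le_trans ?_ hI)
    refine mul_le_mul_of_nonneg_right ?_ hr.le
    exact pow_le_pow_right₀ (by norm_num) (by omega)
  · exact h.mac

/-- the decay, organised in shells -/
theorem decay (h : MaxIn n κ S hd x l C0 C3 c3) {r : ℝ} (hr : 0 < r) (hr2 : r ≤ 2) (I i : ℕ)
    (hm : MeasurableSet (Metric.ball x r)) (hμ : μ (Metric.ball x r) ≠ ∞) :
    ∀ᵐ y ∂μ, y ∈ Metric.ball x 64 →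
      (1 - cut (2 * r) (dist x y)) * (S.form hd).res ((r / 2 ^ i) ^ 2) (ind hm hμ) y ≤
        ∑ j ∈ Finset.range (I + 1), (C3 * Real.exp (-(2 * c3 * 2 ^ j * 2 ^ i))) *
          vsh (μ := μ) x r hr I j y := by
  have hρ : 0 < r / 2 ^ i := by positivity
  have hρr : r / 2 ^ i ≤ r := div_le_self hr.le (one_le_pow₀ (by norm_num))
  have hQ := S.markov hd
  have hall : ∀ᵐ y ∂μ, ∀ j, vsh (μ := μ) x r hr I j y =
      if j < I then cut (2 ^ (j + 2) * r) (dist x y) else cut 64 (dist x y) :=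
    ae_all_iff.2 fun j => coe_vsh hr I j
  filter_upwards [h.dec r hr hr2 _ hρ hρr hm hμ, hall,
    hQ.res_nonneg (by positivity : 0 < (r / 2 ^ i) ^ 2) (ind_nonneg hm hμ)] with y hdec hv h0 hyU
  have h0' : (0:ℝ) ≤ (S.form hd).res ((r / 2 ^ i) ^ 2) (ind hm hμ) y := h0
  have hvn : ∀ j, 0 ≤ vsh (μ := μ) x r hr I j y := fun j => by
    rw [hv j]; split_ifs <;> exact cut_nonneg _ _
  have hterm : ∀ j ∈ Finset.range (I + 1), 0 ≤ (C3 * Real.exp (-(2 * c3 * 2 ^ j * 2 ^ i))) *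
      vsh (μ := μ) x r hr I j y := fun j _ =>
    mul_nonneg (mul_nonneg h.C3_nonneg (Real.exp_pos _).le) (hvn j)
  rw [Metric.mem_ball, dist_comm] at hyU
  rcases lt_or_ge (dist x y) (2 * r) with hlt | hge
  · rw [cut_eq_one (by positivity) hlt.le]
    simp only [sub_self, zero_mul]
    exact Finset.sum_nonneg hterm
  · set J := Nat.findGreatest (fun j => 2 * r * 2 ^ j ≤ dist x y) I with hJ
    have hJ1 : 2 * r * 2 ^ J ≤ dist x y :=
      Nat.findGreatest_spec (P := fun j => 2 * r * 2 ^ j ≤ dist x y) (Nat.zero_le I)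
        (by simpa using hge)
    have hJI : J ≤ I := Nat.findGreatest_le I
    have hvJ : vsh (μ := μ) x r hr I J y = 1 := by
      rw [hv J]
      split_ifs with hlt
      · refine cut_eq_one (by positivity) ?_
        have h3 : ¬ (2 * r * 2 ^ (J + 1) ≤ dist x y) :=
          Nat.findGreatest_is_greatest (P := fun j => 2 * r * 2 ^ j ≤ dist x y)
            (Nat.lt_succ_self _) hlt
        rw [not_le] at h3
        refine h3.le.trans (le_of_eq ?_)
        ring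
      · exact cut_eq_one (by norm_num) hyU.le
    have h4 : (1 - cut (2 * r) (dist x y)) * (S.form hd).res ((r / 2 ^ i) ^ 2) (ind hm hμ) y ≤
        C3 * Real.exp (-(c3 * dist x y / (r / 2 ^ i))) := by
      have h5 : 1 - cut (2 * r) (dist x y) ≤ 1 := by linarith [cut_nonneg (2 * r) (dist x y)]
      calc (1 - cut (2 * r) (dist x y)) * (S.form hd).res ((r / 2 ^ i) ^ 2) (ind hm hμ) y
          ≤ 1 * (S.form hd).res ((r / 2 ^ i) ^ 2) (ind hm hμ) y :=
            mul_le_mul_of_nonneg_right h5 h0'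
        _ ≤ _ := by rw [one_mul]; exact hdec hge
    have h6 : C3 * Real.exp (-(c3 * dist x y / (r / 2 ^ i))) ≤
        (C3 * Real.exp (-(2 * c3 * 2 ^ J * 2 ^ i))) * vsh (μ := μ) x r hr I J y := by
      rw [hvJ, mul_one]
      refine mul_le_mul_of_nonneg_left (Real.exp_le_exp.2 ?_) h.C3_nonneg
      rw [neg_le_neg_iff, le_div_iff₀ hρ]
      have h7 := mul_le_mul_of_nonneg_left hJ1 h.c3_pos.le
      refine le_trans (le_of_eq ?_) h7
      field_simp
    refine (h4.trans h6).trans ?_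
    exact Finset.single_le_sum (f := fun j => (C3 * Real.exp (-(2 * c3 * 2 ^ j * 2 ^ i))) *
      vsh (μ := μ) x r hr I j y) hterm (Finset.mem_range.2 (by omega))

/-- the total bound at radius `r` -/
def tot (n : ℕ) (κ : ℝ) (μ : Measure X) (x : X) (C0 C3 c3 r : ℝ) (I : ℕ) : ℝ :=
  Rad.drop n κ μ x (2 * r) + C3 / (1 - Real.exp (-(2 * c3))) *
    (∑ j ∈ Finset.range I, Real.exp (-(2 * c3 * 2 ^ j)) * Rad.drop n κ μ x (2 ^ (j + 2) * r) +
      Real.exp (-(2 * c3 * 2 ^ I)) * C0)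

theorem sum_vsh_le (h : MaxIn n κ S hd x l C0 C3 c3) {r : ℝ} (hr : 0 < r) {I : ℕ}
    (hI : 2 ^ (I + 1) * r ≤ 16) :
    ∑ j ∈ Finset.range (I + 1), Real.exp (-(2 * c3 * 2 ^ j)) * l.f (vsh x r hr I j) ≤
      ∑ j ∈ Finset.range I, Real.exp (-(2 * c3 * 2 ^ j)) * Rad.drop n κ μ x (2 ^ (j + 2) * r) +
      Real.exp (-(2 * c3 * 2 ^ I)) * C0 := by
  rw [Finset.sum_range_succ]
  refine add_le_add (Finset.sum_le_sum fun j hj => ?_) ?_
  · refine mul_le_mul_of_nonneg_left ?_ (Real.exp_pos _).le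
    have := h.l_vsh hr hI j
    rwa [if_pos (Finset.mem_range.1 hj)] at this
  · refine mul_le_mul_of_nonneg_left ?_ (Real.exp_pos _).le
    have := h.l_vsh hr hI I
    rwa [if_neg (lt_irrefl _)] at this

theorem l_v0 (h : MaxIn n κ S hd x l C0 C3 c3) {r : ℝ} (hr : 0 < r) (hr2 : r ≤ 2) :
    l.f (tL (isT_cut x (show 0 < 2 * r by positivity))) ≤ Rad.drop n κ μ x (2 * r) :=
  h.cutb _ (show 0 < 2 * r by positivity) (by linarith)

/-- **maximal inequality at radius `r`** -/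
theorem max_le (h : MaxIn n κ S hd x l C0 C3 c3) {r : ℝ} (hr : 0 < r) (hr2 : r ≤ 2) {I : ℕ}
    (hI : 2 ^ (I + 1) * r ≤ 16) {t : ℝ} (ht : 0 < t) :
    μ {y | y ∈ Metric.ball x r ∧ ∃ i : ℕ, t < resD (S.form hd) ((r / 2 ^ i) ^ 2) l y} ≤
      ENNReal.ofReal (2 * tot n κ μ x C0 C3 c3 r I / t) := by
  have : IsLocallyFiniteMeasure μ := isLocallyFiniteMeasure_of_isFiniteMeasureOnCompacts
  have hm : MeasurableSet (Metric.ball x r) := Metric.isOpen_ball.measurableSet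
  have hμ : μ (Metric.ball x r) ≠ ∞ :=
    ((measure_mono Metric.ball_subset_closedBall).trans_lt
      (isCompact_closedBall x r).measure_lt_top).ne
  obtain ⟨M⟩ := exists_mult (S := S) (hd := hd) (isT_cut x (show 0 < 2 * r by positivity))
    (fun y => cut_nonneg _ _) (fun y => cut_le_one _ _)
  have ha : 0 < 2 * c3 := by linarith [h.c3_pos]
  have h1 := weak11_shells (S.markov hd) h.pos h.supp hm hμ (h := fun i => (r / 2 ^ i) ^ 2)
    (fun i => by positivity) M (v0 := tL (isT_cut x (show 0 < 2 * r by positivity)))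
    (S.tL_mem _) ((coe_tL (isT_cut x (show 0 < 2 * r by positivity))).mono fun y hy => hy.ge)
    (J := I + 1) (v := vsh x r hr I) (fun j => vsh_mem hr I j) (fun j => vsh_nonneg hr I j)
    h.C3_nonneg ha (fun i => h.decay hr hr2 I i hm hμ) ht
  refine h1.trans (ENNReal.ofReal_le_ofReal ?_)
  have h2 : Real.exp (-(2 * c3)) < 1 := by rw [Real.exp_lt_one_iff]; linarith
  have h3 : 0 ≤ C3 / (1 - Real.exp (-(2 * c3))) := div_nonneg h.C3_nonneg (by linarith)
  refine div_le_div_of_nonneg_right ?_ ht.le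
  refine mul_le_mul_of_nonneg_left ?_ zero_le_two
  exact add_le_add (h.l_v0 hr hr2) (mul_le_mul_of_nonneg_left (h.sum_vsh_le hr hI) h3)

/-- **`L¹` bound at radius `r`** -/
theorem int_le (h : MaxIn n κ S hd x l C0 C3 c3) {r : ℝ} (hr : 0 < r) (hr2 : r ≤ 2) {I : ℕ}
    (hI : 2 ^ (I + 1) * r ≤ 16) (i : ℕ) :
    IntegrableOn (fun y => resD (S.form hd) ((r / 2 ^ i) ^ 2) l y) (Metric.ball x r) μ ∧
    ∫ y in Metric.ball x r, resD (S.form hd) ((r / 2 ^ i) ^ 2) l y ∂μ ≤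
      tot n κ μ x C0 C3 c3 r I := by
  have hm : MeasurableSet (Metric.ball x r) := Metric.isOpen_ball.measurableSet
  have hμ : μ (Metric.ball x r) ≠ ∞ :=
    ((measure_mono Metric.ball_subset_closedBall).trans_lt
      (isCompact_closedBall x r).measure_lt_top).ne
  have hh : 0 < (r / 2 ^ i) ^ 2 := by positivity
  refine ⟨integrableOn_of_L2 _ hm hμ, ?_⟩
  rw [← inner_ind _ hm hμ, inner_resD hh]
  obtain ⟨M⟩ := exists_mult (S := S) (hd := hd) (isT_cut x (show 0 < 2 * r by positivity))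
    (fun y => cut_nonneg _ _) (fun y => cut_le_one _ _)
  have hQ := S.markov hd
  have hmem := (S.form hd).res_mem hh (ind hm hμ)
  rw [M.split l hmem]
  have ha : 0 < 2 * c3 := by linarith [h.c3_pos]
  have h2 : Real.exp (-(2 * c3)) < 1 := by rw [Real.exp_lt_one_iff]; linarith
  have h2' := Real.exp_pos (-(2 * c3))
  refine add_le_add ?_ ?_
  · refine ((M.fnl_mass h.pos (v := tL (isT_cut x (show 0 < 2 * r by positivity)))
      (S.tL_mem _) ((coe_tL (isT_cut x (show 0 < 2 * r by positivity))).mono fun y hy => hy.ge))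
      _ hmem ?_ ?_).trans (h.l_v0 hr hr2)
    · exact hQ.res_nonneg hh (ind_nonneg hm hμ)
    · exact hQ.res_le hh zero_le_one (ind_le_one hm hμ)
  · have h3 := M.out_le hQ h.pos h.supp hmem (J := I + 1) (v := vsh x r hr I)
      (fun j => vsh_mem hr I j) (c := fun j => C3 * Real.exp (-(2 * c3 * 2 ^ j * 2 ^ i)))
      (h.decay hr hr2 I i hm hμ)
    refine h3.trans ?_
    have hlv : ∀ j, 0 ≤ l.f (vsh x r hr I j) := fun j =>
      h.pos _ (vsh_mem hr I j) (vsh_nonneg hr I j)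
    have h4 : ∑ j ∈ Finset.range (I + 1), C3 * Real.exp (-(2 * c3 * 2 ^ j * 2 ^ i)) *
        l.f (vsh x r hr I j) ≤
        C3 * ∑ j ∈ Finset.range (I + 1), Real.exp (-(2 * c3 * 2 ^ j)) * l.f (vsh x r hr I j) := by
      rw [Finset.mul_sum]
      refine Finset.sum_le_sum fun j _ => ?_
      rw [mul_assoc]
      refine mul_le_mul_of_nonneg_left ?_ h.C3_nonneg
      refine mul_le_mul_of_nonneg_right (Real.exp_le_exp.2 ?_) (hlv j)
      have h5 : (1:ℝ) ≤ 2 ^ i := one_le_pow₀ (by norm_num)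
      have h6 : 0 < 2 * c3 * 2 ^ j := by positivity
      nlinarith
    refine h4.trans ?_
    have h7 := h.sum_vsh_le hr hI
    have h8 : 0 ≤ ∑ j ∈ Finset.range (I + 1), Real.exp (-(2 * c3 * 2 ^ j)) *
        l.f (vsh x r hr I j) :=
      Finset.sum_nonneg fun j _ => mul_nonneg (Real.exp_pos _).le (hlv j)
    have h9 : C3 ≤ C3 / (1 - Real.exp (-(2 * c3))) := by
      rw [le_div_iff₀ (by linarith)]
      nlinarith [h.C3_nonneg]
    calc C3 * ∑ j ∈ Finset.range (I + 1), Real.exp (-(2 * c3 * 2 ^ j)) * l.f (vsh x r hr I j)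
        ≤ C3 / (1 - Real.exp (-(2 * c3))) *
          ∑ j ∈ Finset.range (I + 1), Real.exp (-(2 * c3 * 2 ^ j)) * l.f (vsh x r hr I j) :=
          mul_le_mul_of_nonneg_right h9 h8
      _ ≤ _ := mul_le_mul_of_nonneg_left h7 (h.C3_nonneg.trans h9)

end MaxIn

/-! ### dyadic form -/

/-- the far defect at scale `dy j` (radii up to `16`) -/
def phat (n : ℕ) (κ : ℝ) (μ : Measure X) (x : X) (a : ℝ) (j : ℕ) : ℝ :=
  ((dy j)⁻¹) ^ n * (∑ i ∈ Finset.range (j + 5), Real.exp (-(a * 2 ^ i)) *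
    Rad.drop n κ μ x (2 ^ i * dy j) + Real.exp (-(a * 2 ^ j)))

/-- the constant -/
def cA (C0 C3 c3 : ℝ) : ℝ := Real.exp c3 + C3 / (1 - Real.exp (-(2 * c3))) * (1 + C0)

namespace MaxIn

variable {n : ℕ} {κ : ℝ} {x : X} {l : Fnl (S.form hd)} {C0 C3 c3 : ℝ}

theorem two_pow_mul_dy {i j : ℕ} (hij : i < j + 5) : 2 ^ i * dy j ≤ 16 := by
  unfold dy
  have h1 : (2:ℝ) ^ i ≤ 2 ^ (j + 4) := pow_le_pow_right₀ (by norm_num) (by omega)
  have h2 : (2:ℝ) ^ (j + 4) * (1 / 2) ^ j = 16 := by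
    rw [pow_add, mul_right_comm, ← mul_pow]; norm_num
  have h3 : (0:ℝ) ≤ (1 / 2) ^ j := by positivity
  calc (2:ℝ) ^ i * (1 / 2) ^ j ≤ 2 ^ (j + 4) * (1 / 2) ^ j := mul_le_mul_of_nonneg_right h1 h3
    _ = 16 := h2

theorem phat_nonneg (h : MaxIn n κ S hd x l C0 C3 c3) (a : ℝ) (j : ℕ) :
    0 ≤ phat n κ μ x a j := by
  have hd0 := dy_pos j
  unfold phat
  refine mul_nonneg (by positivity) (add_nonneg (Finset.sum_nonneg fun i hi => ?_)
    (Real.exp_pos _).le)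
  refine mul_nonneg (Real.exp_pos _).le (h.drop_nonneg (by positivity)
    (two_pow_mul_dy (Finset.mem_range.1 hi)))

theorem cA_pos (h : MaxIn n κ S hd x l C0 C3 c3) : 0 < cA C0 C3 c3 := by
  unfold cA
  have h1 : Real.exp (-(2 * c3)) < 1 := by rw [Real.exp_lt_one_iff]; linarith [h.c3_pos]
  have h2 : 0 ≤ C3 / (1 - Real.exp (-(2 * c3))) := div_nonneg h.C3_nonneg (by linarith)
  have h3 := h.C0_nonneg
  have h4 := Real.exp_pos c3
  positivity

/-- everything in terms of `phat` -/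
theorem tot_le (h : MaxIn n κ S hd x l C0 C3 c3) {j : ℕ} (hj : 4 ≤ j) :
    tot n κ μ x C0 C3 c3 (32 * dy j) (j - 2) ≤
      cA C0 C3 c3 * (phat n κ μ x (c3 / 64) j * dy j ^ n) := by
  have hd0 := dy_pos j
  have hc := h.c3_pos
  set a : ℝ := c3 / 64 with ha
  set W : ℝ := ∑ i ∈ Finset.range (j + 5), Real.exp (-(a * 2 ^ i)) *
    Rad.drop n κ μ x (2 ^ i * dy j) + Real.exp (-(a * 2 ^ j)) with hW
  have e1 : phat n κ μ x a j * dy j ^ n = W := by
    unfold phat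
    rw [← hW, mul_right_comm, ← mul_pow, inv_mul_cancel₀ hd0.ne', one_pow, one_mul]
  rw [e1]
  have hterm : ∀ i ∈ Finset.range (j + 5), 0 ≤ Real.exp (-(a * 2 ^ i)) *
      Rad.drop n κ μ x (2 ^ i * dy j) := fun i hi =>
    mul_nonneg (Real.exp_pos _).le (h.drop_nonneg (by positivity)
      (two_pow_mul_dy (Finset.mem_range.1 hi)))
  have hS0 := Finset.sum_nonneg hterm
  -- first term
  have t1 : Rad.drop n κ μ x (2 * (32 * dy j)) ≤ Real.exp c3 * W := by
    have e2 : (2:ℝ) * (32 * dy j) = 2 ^ 6 * dy j := by norm_num; ring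
    have h1 := Finset.single_le_sum (f := fun i => Real.exp (-(a * 2 ^ i)) *
      Rad.drop n κ μ x (2 ^ i * dy j)) hterm (Finset.mem_range.2 (show 6 < j + 5 by omega))
    have h2 : Real.exp (-(a * 2 ^ 6)) * Rad.drop n κ μ x (2 ^ 6 * dy j) ≤ W :=
      h1.trans (by rw [hW]; linarith [Real.exp_pos (-(a * 2 ^ j))])
    have e3 : a * 2 ^ 6 = c3 := by rw [ha]; ring
    rw [e3] at h2
    rw [e2]
    have h3 := mul_le_mul_of_nonneg_left h2 (Real.exp_pos c3).le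
    rwa [← mul_assoc, ← Real.exp_add, add_neg_cancel, Real.exp_zero, one_mul] at h3
  -- shells
  have t2 : ∑ i ∈ Finset.range (j - 2), Real.exp (-(2 * c3 * 2 ^ i)) *
      Rad.drop n κ μ x (2 ^ (i + 2) * (32 * dy j)) ≤ W := by
    have h1 : ∑ i ∈ Finset.range (j - 2), Real.exp (-(2 * c3 * 2 ^ i)) *
        Rad.drop n κ μ x (2 ^ (i + 2) * (32 * dy j)) =
        ∑ i ∈ Finset.Ico 7 (j + 5), Real.exp (-(a * 2 ^ i)) *
          Rad.drop n κ μ x (2 ^ i * dy j) := by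
      rw [Finset.sum_Ico_eq_sum_range, show j + 5 - 7 = j - 2 by omega]
      refine Finset.sum_congr rfl fun i _ => ?_
      have e2 : (2:ℝ) ^ (i + 2) * (32 * dy j) = 2 ^ (7 + i) * dy j := by
        rw [pow_add, pow_add]; norm_num; ring
      have e3 : 2 * c3 * 2 ^ i = a * 2 ^ (7 + i) := by
        rw [ha, pow_add]; norm_num; ring
      rw [e2, e3]
    rw [h1]
    have h2 := Finset.sum_le_sum_of_subset_of_nonneg (f := fun i => Real.exp (-(a * 2 ^ i)) *
      Rad.drop n κ μ x (2 ^ i * dy j)) (s := Finset.Ico 7 (j + 5)) (t := Finset.range (j + 5))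
      (fun i hi => Finset.mem_range.2 (Finset.mem_Ico.1 hi).2) (fun i hi _ => hterm i hi)
    refine h2.trans ?_
    rw [hW]; linarith [Real.exp_pos (-(a * 2 ^ j))]
  -- tail
  have t3 : Real.exp (-(2 * c3 * 2 ^ (j - 2))) ≤ W := by
    have h1 : Real.exp (-(2 * c3 * 2 ^ (j - 2))) ≤ Real.exp (-(a * 2 ^ j)) := by
      refine Real.exp_le_exp.2 (neg_le_neg ?_)
      have e2 : (2:ℝ) ^ j = 4 * 2 ^ (j - 2) := by
        rw [show (4:ℝ) = 2 ^ 2 by norm_num, ← pow_add]; congr 1; omega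
      rw [e2, ha]
      have : (0:ℝ) < 2 ^ (j - 2) := by positivity
      nlinarith
    refine h1.trans ?_
    rw [hW]; linarith
  have h1 : Real.exp (-(2 * c3)) < 1 := by rw [Real.exp_lt_one_iff]; linarith
  have h2 : 0 ≤ C3 / (1 - Real.exp (-(2 * c3))) := div_nonneg h.C3_nonneg (by linarith)
  unfold tot cA
  rw [add_mul]
  refine add_le_add t1 ?_
  rw [mul_assoc (C3 / (1 - Real.exp (-(2 * c3)))) (1 + C0) W]
  refine mul_le_mul_of_nonneg_left ?_ h2
  have t4 := mul_le_mul_of_nonneg_right t3 h.C0_nonneg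
  linarith

/-- the scales `32 dy j / 2^i` -/
theorem scale_eq {j k : ℕ} (hjk : j ≤ k + 1) : 32 * dy j / 2 ^ (k + 5 - j) = dy k := by
  unfold dy
  rw [div_eq_iff (by positivity)]
  have e1 : (2:ℝ) ^ (k + 5 - j) * (2:ℝ) ^ j = 2 ^ (k + 5) := by
    rw [← pow_add]; congr 1; omega
  have e2 : ((1:ℝ) / 2) ^ j = (2 ^ j)⁻¹ := by rw [one_div, inv_pow]
  have e3 : ((1:ℝ) / 2) ^ k = (2 ^ k)⁻¹ := by rw [one_div, inv_pow]
  rw [e2, e3]
  field_simp
  rw [mul_comm, ← pow_add] 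
  rw [mul_comm, pow_add] at e1
  rw [pow_add]
  linarith [e1, pow_add (2:ℝ) k 5]

theorem pow_mul_le {j : ℕ} (hj : 4 ≤ j) : 2 ^ (j - 2 + 1) * (32 * dy j) ≤ 16 := by
  have h1 := two_pow_mul_dy (i := j + 4) (j := j) (by omega)
  refine le_trans (le_of_eq ?_) h1
  have e1 : (2:ℝ) ^ (j + 4) = 2 ^ (j - 2 + 1) * 32 := by
    rw [show (32:ℝ) = 2 ^ 5 by norm_num, ← pow_add]; congr 1; omega
  rw [e1]; ring

theorem rad_le {j : ℕ} (hj : 4 ≤ j) : 32 * dy j ≤ 2 := by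
  have h1 := dy_anti hj
  have h2 : dy 4 = 1 / 16 := by unfold dy; norm_num
  linarith

/-- **(MAX)** -/
theorem max_dy (h : MaxIn n κ S hd x l C0 C3 c3) {j : ℕ} (hj : 4 ≤ j) {t : ℝ} (ht : 0 < t) :
    μ {y | y ∈ Metric.ball x (32 * dy j) ∧ ∃ k : ℕ, j ≤ k + 1 ∧
        t < resD (S.form hd) (dy k ^ 2) l y} ≤
      ENNReal.ofReal (2 * cA C0 C3 c3 / t * phat n κ μ x (c3 / 64) j * dy j ^ n) := by
  have hr : 0 < 32 * dy j := by have := dy_pos j; positivity
  have h1 := h.max_le hr (rad_le hj) (pow_mul_le hj) ht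
  refine le_trans (measure_mono ?_) (h1.trans (ENNReal.ofReal_le_ofReal ?_))
  · rintro y ⟨hy, k, hjk, hk⟩
    refine ⟨hy, k + 5 - j, ?_⟩
    rw [scale_eq hjk]; exact hk
  · have h2 := h.tot_le hj
    calc 2 * tot n κ μ x C0 C3 c3 (32 * dy j) (j - 2) / t
        ≤ 2 * (cA C0 C3 c3 * (phat n κ μ x (c3 / 64) j * dy j ^ n)) / t := by gcongr
      _ = _ := by ring

/-- **(m1)** -/
theorem int_dy (h : MaxIn n κ S hd x l C0 C3 c3) {j k : ℕ} (hj : 4 ≤ j) (hjk : j ≤ k + 1) :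
    IntegrableOn (fun y => resD (S.form hd) (dy k ^ 2) l y) (Metric.ball x (32 * dy j)) μ ∧
    ∫ y in Metric.ball x (32 * dy j), resD (S.form hd) (dy k ^ 2) l y ∂μ ≤
      cA C0 C3 c3 * phat n κ μ x (c3 / 64) j * dy j ^ n := by
  have hr : 0 < 32 * dy j := by have := dy_pos j; positivity
  have h1 := h.int_le hr (rad_le hj) (pow_mul_le hj) (k + 5 - j)
  rw [scale_eq hjk] at h1
  refine ⟨h1.1, h1.2.trans ((h.tot_le hj).trans (le_of_eq ?_))⟩
  ring

/-- **(m1R)** -/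
theorem int_res_dy (h : MaxIn n κ S hd x l C0 C3 c3) {j k : ℕ} (hj : 4 ≤ j) (hjk : j ≤ k) :
    IntegrableOn (fun y => (S.form hd).res (dy k ^ 2) (resD (S.form hd) (dy k ^ 2) l) y)
      (Metric.ball x (32 * dy j)) μ ∧
    ∫ y in Metric.ball x (32 * dy j),
        (S.form hd).res (dy k ^ 2) (resD (S.form hd) (dy k ^ 2) l) y ∂μ ≤
      16 / 3 * (cA C0 C3 c3 * phat n κ μ x (c3 / 64) j * dy j ^ n) := by
  obtain ⟨m, rfl⟩ : ∃ m, k = m + 1 := ⟨k - 1, by omega⟩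
  have hk0 := dy_pos (m + 1)
  have e1 : 4 * dy (m + 1) ^ 2 = dy m ^ 2 := by rw [dy_succ]; ring
  have hm : MeasurableSet (Metric.ball x (32 * dy j)) := Metric.isOpen_ball.measurableSet
  have hμ : μ (Metric.ball x (32 * dy j)) ≠ ∞ :=
    ((measure_mono Metric.ball_subset_closedBall).trans_lt
      (isCompact_closedBall x _).measure_lt_top).ne
  have hi := integrableOn_of_L2 ((S.form hd).res (dy (m + 1) ^ 2)
    (resD (S.form hd) (dy (m + 1) ^ 2) l)) hm hμ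
  obtain ⟨h1, h2⟩ := h.int_dy hj (k := m) (by omega)
  refine ⟨hi, ?_⟩
  have h3 := (S.markov hd).res_resD_le (h := dy (m + 1) ^ 2) (by positivity) h.pos
  rw [e1] at h3
  calc ∫ y in Metric.ball x (32 * dy j),
        (S.form hd).res (dy (m + 1) ^ 2) (resD (S.form hd) (dy (m + 1) ^ 2) l) y ∂μ
      ≤ ∫ y in Metric.ball x (32 * dy j), 16 / 3 * resD (S.form hd) (dy m ^ 2) l y ∂μ :=
        integral_mono_ae hi (h1.const_mul _) (ae_restrict_of_ae h3)
    _ = 16 / 3 * ∫ y in Metric.ball x (32 * dy j), resD (S.form hd) (dy m ^ 2) l y ∂μ :=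
        integral_const_mul _ _
    _ ≤ _ := mul_le_mul_of_nonneg_left h2 (by norm_num)

end MaxIn

end Crest.Agent.R247.Max193
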