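import Crest.Agent.R247.Max3_193

/-!
R247, leaf (1-M) (helper193): the maximal inequality and the `L¹` bound for the representatives
`q k`, `R q k` and for `N k = q k + 2 R q k + err k`, where `err` is a cut-off error.
-/

set_option autoImplicit false
set_option linter.unusedSectionVars false

open MeasureTheory Filter Topology Set
open scoped RealInnerProductSpace ENNReal

noncomputable section

namespace Crest.Agent.R247.Max193

open Crest.Agent.R242 Crest.Agent.R247.Dir593 Crest.Agent.R247.Dir593.GradS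
open Crest.Agent.R247.Mcp688 Crest.Agent.R247.Far553

variable {X : Type*} [MetricSpace X] [MeasurableSpace X] {F : Type*}
  [NormedAddCommGroup F] [InnerProductSpace ℝ F] {μ : Measure X} {S : GradS X F μ}
  [BorelSpace X] [IsFiniteMeasureOnCompacts μ] [CompleteSpace F] [ProperSpace X]
  {hd : Dense (S.V : Set (Lp ℝ 2 μ))}

namespace MaxIn

variable {n : ℕ} {κ : ℝ} {x : X} {l : Fnl (S.form hd)} {C0 C3 c3 : ℝ}

/-- `phat` dominates the cut-off errors -/
theorem exp_le_phat (h : MaxIn n κ S hd x l C0 C3 c3) {b : ℝ} {j k : ℕ} (hb : c3 / 64 ≤ b)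
    (hjk : j ≤ k) : Real.exp (-(b * 2 ^ k)) ≤ phat n κ μ x (c3 / 64) j := by
  have hd0 := dy_pos j
  have hd1 := dy_le_one j
  have hc := h.c3_pos
  have h1 : Real.exp (-(b * 2 ^ k)) ≤ Real.exp (-(c3 / 64 * 2 ^ j)) := by
    refine Real.exp_le_exp.2 (neg_le_neg ?_)
    have : (2:ℝ) ^ j ≤ 2 ^ k := pow_le_pow_right₀ (by norm_num) hjk
    exact mul_le_mul hb this (by positivity) (by linarith)
  refine h1.trans ?_
  unfold phat
  have h2 : 0 ≤ ∑ i ∈ Finset.range (j + 5), Real.exp (-(c3 / 64 * 2 ^ i)) *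
      Rad.drop n κ μ x (2 ^ i * dy j) := Finset.sum_nonneg fun i hi =>
    mul_nonneg (Real.exp_pos _).le (h.drop_nonneg (by positivity)
      (two_pow_mul_dy (Finset.mem_range.1 hi)))
  have h3 : (1:ℝ) ≤ ((dy j)⁻¹) ^ n := one_le_pow₀ ((one_le_inv₀ hd0).2 hd1)
  have h4 := Real.exp_pos (-(c3 / 64 * 2 ^ j))
  nlinarith

/-- `R q_k ≤ (16/3) q_{k-1}` for representatives -/
theorem rq_le (h : MaxIn n κ S hd x l C0 C3 c3) {q Rq : ℕ → X → ℝ}
    (hq : ∀ k, q k =ᵐ[μ] (resD (S.form hd) (dy k ^ 2) l : Lp ℝ 2 μ))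
    (hRq : ∀ k, Rq k =ᵐ[μ] (S.form hd).res (dy k ^ 2) (resD (S.form hd) (dy k ^ 2) l)) (k : ℕ) :
    ∀ᵐ y ∂μ, Rq (k + 1) y ≤ 16 / 3 * q k y := by
  have hk0 := dy_pos (k + 1)
  have e1 : 4 * dy (k + 1) ^ 2 = dy k ^ 2 := by rw [dy_succ]; ring
  have h3 := (S.markov hd).res_resD_le (h := dy (k + 1) ^ 2) (by positivity) h.pos
  rw [e1] at h3
  filter_upwards [h3, hq k, hRq (k + 1)] with y a1 a2 a3
  rw [a2, a3]; exact a1

theorem q_nonneg (h : MaxIn n κ S hd x l C0 C3 c3) {q : ℕ → X → ℝ}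
    (hq : ∀ k, q k =ᵐ[μ] (resD (S.form hd) (dy k ^ 2) l : Lp ℝ 2 μ)) : ∀ᵐ y ∂μ, ∀ k, 0 ≤ q k y := by
  refine ae_all_iff.2 fun k => ?_
  have hk := dy_pos k
  filter_upwards [hq k, (S.markov hd).resD_nonneg (h := dy k ^ 2) (by positivity) h.pos]
    with y a1 a2
  rw [a1]; exact a2

theorem rq_nonneg (h : MaxIn n κ S hd x l C0 C3 c3) {Rq : ℕ → X → ℝ}
    (hRq : ∀ k, Rq k =ᵐ[μ] (S.form hd).res (dy k ^ 2) (resD (S.form hd) (dy k ^ 2) l)) :
    ∀ᵐ y ∂μ, ∀ k, 0 ≤ Rq k y := by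
  refine ae_all_iff.2 fun k => ?_
  have hk := dy_pos k
  have h1 : (0:ℝ) < dy k ^ 2 := by positivity
  filter_upwards [hRq k, (S.markov hd).res_nonneg h1 ((S.markov hd).resD_nonneg h1 h.pos)]
    with y a1 a2
  rw [a1]; exact a2

/-- the constant of `max_N` at level `c` -/
def cN (C0 C3 c3 E Vb c : ℝ) : ℝ := 256 * cA C0 C3 c3 / (3 * c) + 2 * E * Vb / c

/-- **[MAX] for `N k = q k + 2 R q k + err k`** (input of 644's `d1b_of`) -/
theorem max_N (h : MaxIn n κ S hd x l C0 C3 c3) {q Rq err : ℕ → X → ℝ}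
    (hq : ∀ k, q k =ᵐ[μ] (resD (S.form hd) (dy k ^ 2) l : Lp ℝ 2 μ))
    (hRq : ∀ k, Rq k =ᵐ[μ] (S.form hd).res (dy k ^ 2) (resD (S.form hd) (dy k ^ 2) l))
    {E b Vb : ℝ} (hE : 0 ≤ E) (hb : c3 / 64 ≤ b) (hVb : 0 ≤ Vb)
    (herr : ∀ k, ∀ᵐ y ∂μ, dist x y < 12 → err k y ≤ E * Real.exp (-(b * 2 ^ k)))
    {j : ℕ} (hj : 4 ≤ j) (hV : μ (Metric.ball x (5 * dy j)) ≤ ENNReal.ofReal (Vb * dy j ^ n))
    {c : ℝ} (hc : 0 < c) :
    μ {y | y ∈ Metric.ball x (5 * dy j) ∧ ∃ k, j ≤ k ∧ c < q k y + 2 * Rq k y + err k y} ≤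
      ENNReal.ofReal (cN C0 C3 c3 E Vb c * phat n κ μ x (c3 / 64) j * dy j ^ n) := by
  have hd0 := dy_pos j
  have hj16 : dy j ≤ 1 / 16 := by
    have h1 := dy_anti hj
    have h2 : dy 4 = 1 / 16 := by unfold dy; norm_num
    rwa [h2] at h1
  have hph := h.phat_nonneg (c3 / 64) j
  set A : Set X := {y | y ∈ Metric.ball x (32 * dy j) ∧ ∃ k : ℕ, j ≤ k + 1 ∧
        3 * c / 128 < resD (S.form hd) (dy k ^ 2) l y} with hA
  set B : Set X := {y | y ∈ Metric.ball x (5 * dy j) ∧ c / 2 ≤ E * Real.exp (-(b * 2 ^ j))}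
    with hB
  have hrq : ∀ᵐ y ∂μ, ∀ k, Rq (k + 1) y ≤ 16 / 3 * q k y := ae_all_iff.2 (h.rq_le hq hRq)
  have hqa : ∀ᵐ y ∂μ, ∀ k, q k y = resD (S.form hd) (dy k ^ 2) l y := ae_all_iff.2 hq
  have hera : ∀ᵐ y ∂μ, ∀ k, dist x y < 12 → err k y ≤ E * Real.exp (-(b * 2 ^ k)) :=
    ae_all_iff.2 herr
  have hsub : {y | y ∈ Metric.ball x (5 * dy j) ∧ ∃ k, j ≤ k ∧ c < q k y + 2 * Rq k y + err k y}
      ≤ᵐ[μ] (A ∪ B : Set X) := by
    filter_upwards [hrq, hqa, hera] with y h1 h2 h3 hy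
    obtain ⟨hyb, k, hjk, hk⟩ := hy
    have hyd : dist x y < 5 * dy j := by
      have := Metric.mem_ball.1 hyb
      rwa [dist_comm] at this
    have hyA : y ∈ Metric.ball x (32 * dy j) :=
      Metric.ball_subset_ball (by linarith) hyb
    by_cases c1 : 3 * c / 128 < q k y
    · refine Or.inl ⟨hyA, k, by omega, ?_⟩
      rw [← h2 k]; exact c1
    · obtain ⟨m, rfl⟩ : ∃ m, k = m + 1 := ⟨k - 1, by omega⟩
      by_cases c2 : 3 * c / 128 < q m y
      · refine Or.inl ⟨hyA, m, by omega, ?_⟩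
        rw [← h2 m]; exact c2
      · refine Or.inr ⟨hyb, ?_⟩
        rw [not_lt] at c1 c2
        have h4 := h1 m
        have h5 := h3 (m + 1) (by linarith)
        have h6 : E * Real.exp (-(b * 2 ^ (m + 1))) ≤ E * Real.exp (-(b * 2 ^ j)) := by
          refine mul_le_mul_of_nonneg_left (Real.exp_le_exp.2 (neg_le_neg ?_)) hE
          have h7 : (2:ℝ) ^ j ≤ 2 ^ (m + 1) := pow_le_pow_right₀ (by norm_num) hjk
          exact mul_le_mul_of_nonneg_left h7 (by linarith [h.c3_pos])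
        linarith
  have hmA : μ A ≤ ENNReal.ofReal (256 * cA C0 C3 c3 / (3 * c) *
      phat n κ μ x (c3 / 64) j * dy j ^ n) := by
    refine (h.max_dy hj (t := 3 * c / 128) (by positivity)).trans
      (ENNReal.ofReal_le_ofReal (le_of_eq ?_))
    field_simp
    ring
  have hmB : μ B ≤ ENNReal.ofReal (2 * E * Vb / c * phat n κ μ x (c3 / 64) j * dy j ^ n) := by
    by_cases hcE : c / 2 ≤ E * Real.exp (-(b * 2 ^ j))
    · have hBe : B ⊆ Metric.ball x (5 * dy j) := fun y hy => hy.1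
      refine (measure_mono hBe).trans (hV.trans (ENNReal.ofReal_le_ofReal ?_))
      refine mul_le_mul_of_nonneg_right ?_ (by positivity)
      have h1 := h.exp_le_phat hb (le_refl j)
      have h2 : c / 2 ≤ E * phat n κ μ x (c3 / 64) j :=
        hcE.trans (mul_le_mul_of_nonneg_left h1 hE)
      have h3 : 1 ≤ 2 * E / c * phat n κ μ x (c3 / 64) j := by
        have : 1 = 2 / c * (c / 2) := by field_simp
        rw [this]
        calc 2 / c * (c / 2) ≤ 2 / c * (E * phat n κ μ x (c3 / 64) j) :=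
              mul_le_mul_of_nonneg_left h2 (by positivity)
          _ = _ := by ring
      calc Vb = Vb * 1 := (mul_one _).symm
        _ ≤ Vb * (2 * E / c * phat n κ μ x (c3 / 64) j) := mul_le_mul_of_nonneg_left h3 hVb
        _ = _ := by ring
    · have hBe : B = ∅ := by
        ext y
        simp only [hB, mem_ofPred_eq, mem_empty_iff_false, iff_false]
        exact fun hy => hcE hy.2
      rw [hBe, measure_empty]
      exact bot_le
  refine (measure_mono_ae hsub).trans ((measure_union_le _ _).trans ((add_le_add hmA hmB).trans ?_))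
  have hcA := h.cA_pos
  rw [← ENNReal.ofReal_add (by positivity) (by positivity)]
  refine ENNReal.ofReal_le_ofReal (le_of_eq ?_)
  unfold cN
  ring

/-- **(m1) for `N k = q k + 2 R q k + err k`**, `lintegral` form -/
theorem int_N (h : MaxIn n κ S hd x l C0 C3 c3) {q Rq err : ℕ → X → ℝ}
    (hq : ∀ k, q k =ᵐ[μ] (resD (S.form hd) (dy k ^ 2) l : Lp ℝ 2 μ))
    (hRq : ∀ k, Rq k =ᵐ[μ] (S.form hd).res (dy k ^ 2) (resD (S.form hd) (dy k ^ 2) l))
    {E b Vb : ℝ} (hE : 0 ≤ E) (hb : c3 / 64 ≤ b) (hVb : 0 ≤ Vb)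
    (herr : ∀ k, ∀ᵐ y ∂μ, dist x y < 12 → err k y ≤ E * Real.exp (-(b * 2 ^ k)))
    {j k : ℕ} (hj : 4 ≤ j) (hjk : j ≤ k)
    (hV : μ (Metric.ball x (32 * dy j)) ≤ ENNReal.ofReal (Vb * dy j ^ n)) :
    ∫⁻ y in Metric.ball x (32 * dy j), ENNReal.ofReal (q k y + 2 * Rq k y + err k y) ∂μ ≤
      ENNReal.ofReal ((12 * cA C0 C3 c3 + E * Vb) * phat n κ μ x (c3 / 64) j * dy j ^ n) := by
  have hd0 := dy_pos j
  have hm : MeasurableSet (Metric.ball x (32 * dy j)) := Metric.isOpen_ball.measurableSet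
  have hj16 : 32 * dy j ≤ 2 := rad_le hj
  have hph := h.phat_nonneg (c3 / 64) j
  have hcA := h.cA_pos
  have hk := dy_pos k
  have hk2 : (0:ℝ) < dy k ^ 2 := by positivity
  obtain ⟨i1, b1⟩ := h.int_dy hj (k := k) (by omega)
  obtain ⟨i2, b2⟩ := h.int_res_dy hj hjk
  have n1 := (S.markov hd).resD_nonneg hk2 h.pos
  have n2 := (S.markov hd).res_nonneg hk2 n1
  have e1 : ∫⁻ y in Metric.ball x (32 * dy j), ENNReal.ofReal (q k y) ∂μ ≤
      ENNReal.ofReal (cA C0 C3 c3 * phat n κ μ x (c3 / 64) j * dy j ^ n) := by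
    have e0 : ∫⁻ y in Metric.ball x (32 * dy j), ENNReal.ofReal (q k y) ∂μ =
        ∫⁻ y in Metric.ball x (32 * dy j),
          ENNReal.ofReal ((resD (S.form hd) (dy k ^ 2) l : Lp ℝ 2 μ) y) ∂μ :=
      lintegral_congr_ae (ae_restrict_of_ae ((hq k).mono fun y hy => by simp only [hy]))
    rw [e0, ← ofReal_integral_eq_lintegral_ofReal i1 (ae_restrict_of_ae n1)]
    exact ENNReal.ofReal_le_ofReal b1
  have e2 : ∫⁻ y in Metric.ball x (32 * dy j), ENNReal.ofReal (Rq k y) ∂μ ≤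
      ENNReal.ofReal (16 / 3 * (cA C0 C3 c3 * phat n κ μ x (c3 / 64) j * dy j ^ n)) := by
    have e0 : ∫⁻ y in Metric.ball x (32 * dy j), ENNReal.ofReal (Rq k y) ∂μ =
        ∫⁻ y in Metric.ball x (32 * dy j),
          ENNReal.ofReal ((S.form hd).res (dy k ^ 2) (resD (S.form hd) (dy k ^ 2) l) y) ∂μ :=
      lintegral_congr_ae (ae_restrict_of_ae ((hRq k).mono fun y hy => by simp only [hy]))
    rw [e0, ← ofReal_integral_eq_lintegral_ofReal i2 (ae_restrict_of_ae n2)]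
    exact ENNReal.ofReal_le_ofReal b2
  have e3 : ∫⁻ y in Metric.ball x (32 * dy j), ENNReal.ofReal (err k y) ∂μ ≤
      ENNReal.ofReal (E * Vb * phat n κ μ x (c3 / 64) j * dy j ^ n) := by
    have h1 : ∫⁻ y in Metric.ball x (32 * dy j), ENNReal.ofReal (err k y) ∂μ ≤
        ∫⁻ _ in Metric.ball x (32 * dy j),
          ENNReal.ofReal (E * phat n κ μ x (c3 / 64) j) ∂μ := by
      refine lintegral_mono_ae ?_
      filter_upwards [ae_restrict_of_ae (herr k), ae_restrict_mem hm] with y hy hyb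
      refine ENNReal.ofReal_le_ofReal ((hy ?_).trans
        (mul_le_mul_of_nonneg_left (h.exp_le_phat hb hjk) hE))
      have := Metric.mem_ball.1 hyb
      rw [dist_comm] at this
      linarith
    refine h1.trans ?_
    rw [setLIntegral_const]
    refine (mul_le_mul_right hV _).trans ?_
    rw [← ENNReal.ofReal_mul (by positivity)]
    refine ENNReal.ofReal_le_ofReal (le_of_eq ?_)
    ring
  have hmq : AEMeasurable (q k) μ :=
    (Lp.aestronglyMeasurable (resD (S.form hd) (dy k ^ 2) l)).aemeasurable.congr (hq k).symm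
  have hmR : AEMeasurable (Rq k) μ :=
    (Lp.aestronglyMeasurable ((S.form hd).res (dy k ^ 2)
      (resD (S.form hd) (dy k ^ 2) l))).aemeasurable.congr (hRq k).symm
  have h1 : ∫⁻ y in Metric.ball x (32 * dy j), ENNReal.ofReal (q k y + 2 * Rq k y + err k y) ∂μ ≤
      ∫⁻ y in Metric.ball x (32 * dy j), (ENNReal.ofReal (q k y) +
        (ENNReal.ofReal 2 * ENNReal.ofReal (Rq k y) + ENNReal.ofReal (err k y))) ∂μ := by
    refine lintegral_mono fun y => ?_
    rw [add_assoc]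
    refine ENNReal.ofReal_add_le.trans (add_le_add le_rfl ?_)
    refine ENNReal.ofReal_add_le.trans (add_le_add ?_ le_rfl)
    rw [ENNReal.ofReal_mul zero_le_two]
  refine h1.trans ?_
  rw [lintegral_add_left' hmq.ennreal_ofReal.restrict,
    lintegral_add_left' (hmR.ennreal_ofReal.const_mul _).restrict,
    lintegral_const_mul' _ _ ENNReal.ofReal_ne_top]
  refine (add_le_add e1 (add_le_add (mul_le_mul_right e2 _) e3)).trans ?_
  rw [← ENNReal.ofReal_mul zero_le_two, ← ENNReal.ofReal_add (by positivity) (by positivity),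
    ← ENNReal.ofReal_add (by positivity) (by positivity)]
  refine ENNReal.ofReal_le_ofReal ?_
  have h2 : 0 ≤ cA C0 C3 c3 * phat n κ μ x (c3 / 64) j * dy j ^ n := by positivity
  nlinarith

end MaxIn

end Crest.Agent.R247.Max193
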