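import Crest.Agent.R247.Mcp4_688
import Crest.Agent.R247.Num2_824

/-!
# R247, block (1-N), part N3': the sum of the volume drops over the dyadic scales
-/

open MeasureTheory Finset
open scoped ENNReal

namespace Crest.Agent.R247.Num824

open Crest.Agent.R247.Mcp688 Crest.Agent.R247.Mcp688.Rad

variable {n : ℕ} {κ : ℝ} {X : Type*} [MetricSpace X] [MeasurableSpace X] {μ : Measure X}

/-- volume ratio -/
noncomputable def vr (n : ℕ) (μ : Measure X) (x : X) (s : ℝ) : ℝ := Vc μ x s / s ^ n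

lemma vr_nonneg (n : ℕ) (μ : Measure X) (x : X) {s : ℝ} (hs : 0 ≤ s) : 0 ≤ vr n μ x s :=
  div_nonneg ENNReal.toReal_nonneg (by positivity)

/-- normalised drop -/
noncomputable def pd (n : ℕ) (κ : ℝ) (μ : Measure X) (x : X) (s : ℝ) : ℝ :=
  drop n κ μ x s / s ^ n

lemma drop_eq_pd (n : ℕ) (κ : ℝ) (μ : Measure X) (x : X) {s : ℝ} (hs : 0 < s) :
    drop n κ μ x s = s ^ n * pd n κ μ x s := by
  unfold pd
  field_simp

lemma pd_le [BorelSpace X] (n : ℕ) {κ : ℝ} (hκ : 0 ≤ κ) (μ : Measure X) (x : X) {s : ℝ} (hs : 0 < s)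
    (h1 : κ * s ^ 2 ≤ 1) :
    pd n κ μ x s ≤ 2 ^ (n + 1) * (vr n μ x s - vr n μ x (2 * s)) +
      64 * 2 ^ n * (κ * s ^ 2) * vr n μ x s := by
  unfold pd vr
  rw [div_le_iff₀ (by positivity)]
  refine (drop_le n hκ μ x hs h1).trans (le_of_eq ?_)
  field_simp

/-- the drop is nonnegative -/
theorem drop_nonneg [BorelSpace X] (C : Rad n κ X μ) [SFinite μ] (hκ : 0 ≤ κ) (x : X) {r : ℝ} (hr : 0 < r)
    (hfin : μ (Metric.closedBall x r) ≠ ∞) : 0 ≤ drop n κ μ x r := by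
  have hd : Measurable fun z : X => dist x z := (continuous_const.dist continuous_id).measurable
  have hm : Measurable fun z : X => cut r (dist x z) := (continuous_cut.measurable).comp hd
  have h := C.nu_bound hκ x hr hfin (φ := fun z => 0 * cut r (dist x z))
    (D := fun z => 0 * (cut' r (dist x z) * dist x z)) (L := 0) (S := 1) (hm.const_mul 0)
    (fun y z => by simp) (fun z _ => by simp) (fun z => by simp) ((C.RD_cut hr).const_mul 0)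
  rw [one_mul] at h
  exact (abs_nonneg _).trans h

theorem pd_nonneg [BorelSpace X] (C : Rad n κ X μ) [SFinite μ] (hκ : 0 ≤ κ) (x : X) {r : ℝ} (hr : 0 < r)
    (hfin : μ (Metric.closedBall x r) ≠ ∞) : 0 ≤ pd n κ μ x r :=
  div_nonneg (drop_nonneg C hκ x hr hfin) (by positivity)

/-- **Telescoping of the drops.** -/
theorem sum_pd_le [BorelSpace X] (n : ℕ) {κ : ℝ} (hκ : 0 ≤ κ) (μ : Measure X) (x : X) {s0 a b : ℝ} (hs : 0 < s0)
    (h1 : κ * s0 ^ 2 ≤ 1) (ha : a ≤ vr n μ x (2 * s0))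
    (hb : ∀ s, 0 < s → s ≤ 2 * s0 → vr n μ x s ≤ b) (N : ℕ) :
    ∑ m ∈ range N, pd n κ μ x (s0 / 2 ^ m) ≤
      2 ^ (n + 1) * (b - a) + 128 * 2 ^ n * (κ * s0 ^ 2) * b := by
  have hb0 : 0 ≤ b := (vr_nonneg n μ x (by positivity)).trans (hb s0 hs (by linarith))
  have hsm : ∀ m : ℕ, 0 < s0 / 2 ^ m := fun m => by positivity
  have hsm' : ∀ m : ℕ, s0 / 2 ^ m ≤ s0 := fun m => by
    apply div_le_self hs.le
    exact one_le_pow₀ (by norm_num)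
  have hstep : ∀ m : ℕ, pd n κ μ x (s0 / 2 ^ m) ≤
      2 ^ (n + 1) * (vr n μ x (s0 / 2 ^ m) - vr n μ x (2 * (s0 / 2 ^ m))) +
        64 * 2 ^ n * (κ * s0 ^ 2) * b * (1 / 4 : ℝ) ^ m := by
    intro m
    have h2 : κ * (s0 / 2 ^ m) ^ 2 ≤ 1 := by
      refine le_trans ?_ h1
      have := hsm' m
      have := (hsm m).le
      gcongr
    refine (pd_le n hκ μ x (hsm m) h2).trans ?_
    have h3 : 64 * 2 ^ n * (κ * (s0 / 2 ^ m) ^ 2) * vr n μ x (s0 / 2 ^ m) ≤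
        64 * 2 ^ n * (κ * (s0 / 2 ^ m) ^ 2) * b := by
      have := hb _ (hsm m) (by linarith [hsm' m])
      gcongr
    have h4 : (s0 / 2 ^ m) ^ 2 = s0 ^ 2 * (1 / 4 : ℝ) ^ m := by
      rw [div_pow, ← pow_mul, mul_comm m 2, pow_mul, one_div, inv_pow, div_eq_mul_inv]
      norm_num
    rw [h4] at h3 ⊢
    have h5 : 64 * 2 ^ n * (κ * (s0 ^ 2 * (1 / 4) ^ m)) * b =
      64 * 2 ^ n * (κ * s0 ^ 2) * b * (1 / 4) ^ m := by ring
    linarith [h3, h5]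
  have htel : ∀ N : ℕ, ∑ m ∈ range N, (vr n μ x (s0 / 2 ^ m) - vr n μ x (2 * (s0 / 2 ^ m))) ≤
      b - a := by
    intro N
    rcases Nat.eq_zero_or_pos N with rfl | hN
    · rw [range_zero, sum_empty]
      linarith [hb (2 * s0) (by positivity) le_rfl]
    obtain ⟨K, rfl⟩ : ∃ K, N = K + 1 := ⟨N - 1, by omega⟩
    have h5 : ∀ K : ℕ, ∑ m ∈ range (K + 1), (vr n μ x (s0 / 2 ^ m) - vr n μ x (2 * (s0 / 2 ^ m))) =
        vr n μ x (s0 / 2 ^ K) - vr n μ x (2 * s0) := by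
      intro K
      induction K with
      | zero => simp
      | succ K ih =>
        rw [sum_range_succ, ih]
        have h6 : 2 * (s0 / 2 ^ (K + 1)) = s0 / 2 ^ K := by
          rw [pow_succ]; field_simp
        rw [h6]
        ring
    rw [h5]
    linarith [hb _ (hsm K) (by linarith [hsm' K])]
  have hgeo : ∑ m ∈ range N, (1 / 4 : ℝ) ^ m ≤ 2 := by
    have h7 := geom_sum_eq (by norm_num : (1 / 4 : ℝ) ≠ 1) N
    rw [h7]
    have h8 : (0 : ℝ) ≤ (1 / 4 : ℝ) ^ N := by positivity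
    rw [div_le_iff_of_neg (by norm_num)]
    linarith
  calc ∑ m ∈ range N, pd n κ μ x (s0 / 2 ^ m)
      ≤ ∑ m ∈ range N, (2 ^ (n + 1) * (vr n μ x (s0 / 2 ^ m) - vr n μ x (2 * (s0 / 2 ^ m))) +
        64 * 2 ^ n * (κ * s0 ^ 2) * b * (1 / 4 : ℝ) ^ m) := sum_le_sum fun m _ => hstep m
    _ = 2 ^ (n + 1) * ∑ m ∈ range N, (vr n μ x (s0 / 2 ^ m) - vr n μ x (2 * (s0 / 2 ^ m))) +
        64 * 2 ^ n * (κ * s0 ^ 2) * b * ∑ m ∈ range N, (1 / 4 : ℝ) ^ m := by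
        rw [sum_add_distrib, mul_sum, mul_sum]
    _ ≤ 2 ^ (n + 1) * (b - a) + 64 * 2 ^ n * (κ * s0 ^ 2) * b * 2 := by
        gcongr
        exact htel N
    _ = _ := by ring

/-- with the volume pinching `(1-δ) ω ≤ v ≤ (1+δ) ω` and `κ s0² ≤ δ ≤ 1` -/
theorem sum_pd_le' [BorelSpace X] (n : ℕ) {κ : ℝ} (hκ : 0 ≤ κ) (μ : Measure X) (x : X) {s0 δ ω : ℝ} (hs : 0 < s0)
    (hδ : δ ≤ 1) (hω : 0 ≤ ω) (h1 : κ * s0 ^ 2 ≤ δ) (ha : (1 - δ) * ω ≤ vr n μ x (2 * s0))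
    (hb : ∀ s, 0 < s → s ≤ 2 * s0 → vr n μ x s ≤ (1 + δ) * ω) (N : ℕ) :
    ∑ m ∈ range N, pd n κ μ x (s0 / 2 ^ m) ≤ 260 * 2 ^ n * ω * δ := by
  have hδ0 : 0 ≤ δ := le_trans (by positivity) h1
  refine (sum_pd_le n hκ μ x hs (h1.trans hδ) ha hb N).trans ?_
  have h2 : 128 * 2 ^ n * (κ * s0 ^ 2) * ((1 + δ) * ω) ≤ 128 * 2 ^ n * δ * ((1 + 1) * ω) := by
    gcongr
  have h3 : (2 : ℝ) ^ (n + 1) = 2 * 2 ^ n := by rw [pow_succ]; ring
  have h4 : (1 + δ) * ω - (1 - δ) * ω = 2 * (δ * ω) := by ring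
  rw [h3, h4]
  have h5 : 0 ≤ 2 ^ n * (δ * ω) := by positivity
  nlinarith

end Crest.Agent.R247.Num824
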