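import Crest.Agent.R247.Max3_193
import Crest.Agent.R247.Num2_824
import Crest.Agent.R247.Num4_824

/-!
R247, leaf (1-M) (helper193): summability of the defects `phat` from the volume pinching.
-/

set_option autoImplicit false
set_option linter.unusedSectionVars false

open MeasureTheory Filter Topology Set Finset
open scoped ENNReal

noncomputable section

namespace Crest.Agent.R247.Max193

open Crest.Agent.R247.Mcp688 Crest.Agent.R247.Far553 Crest.Agent.R247.Num824

/-- the weights -/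
def wt193 (a : ℝ) (n i : ℕ) : ℝ := Real.exp (-(a * 2 ^ i)) * (2 ^ i) ^ n

lemma wt193_nonneg (a : ℝ) (n i : ℕ) : 0 ≤ wt193 a n i := by unfold wt193; positivity

lemma wt193_summable {a : ℝ} (ha : 0 < a) (n : ℕ) : Summable (wt193 a n) := by
  have h := wt_summable ha n
  refine h.congr fun i => ?_
  unfold wt193
  ring

variable {n : ℕ} {κ : ℝ} {X : Type*} [MetricSpace X] [MeasurableSpace X] [BorelSpace X]
  {μ : Measure X}

theorem phat_eq (n : ℕ) (κ : ℝ) (μ : Measure X) (x : X) (a : ℝ) (j : ℕ) :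
    phat n κ μ x a j = ∑ i ∈ range (j + 4 + 1), wt193 a n i * pd n κ μ x (16 / 2 ^ (j + 4 - i)) +
      wt193 a n j := by
  have hd := dy_pos j
  unfold phat
  rw [mul_add, Finset.mul_sum]
  congr 1
  · refine sum_congr rfl fun i hi => ?_
    have hi' : i ≤ j + 4 := by have := mem_range.1 hi; omega
    have e1 : (2:ℝ) ^ i * dy j = 16 / 2 ^ (j + 4 - i) := by
      rw [eq_div_iff (by positivity)]
      unfold dy
      have e2 : (2:ℝ) ^ i * 2 ^ (j + 4 - i) = 2 ^ (j + 4) := by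
        rw [← pow_add]; congr 1; omega
      calc (2:ℝ) ^ i * (1 / 2) ^ j * 2 ^ (j + 4 - i) = (2:ℝ) ^ i * 2 ^ (j + 4 - i) * (1 / 2) ^ j := by
            ring
        _ = 16 * (2 ^ j * (1 / 2) ^ j) := by rw [e2, pow_add]; ring
        _ = 16 := by rw [← mul_pow]; norm_num
    have e3 : Rad.drop n κ μ x (2 ^ i * dy j) =
        (2 ^ i * dy j) ^ n * pd n κ μ x (16 / 2 ^ (j + 4 - i)) := by
      rw [drop_eq_pd n κ μ x (by positivity), e1]
    rw [e3, mul_pow]
    unfold wt193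
    rw [inv_pow]
    field_simp
  · unfold wt193 dy
    rw [← inv_pow, one_div, inv_inv, mul_comm]

theorem phat_sum_le [SFinite μ] (C : Rad n κ X μ) (hκ : 0 ≤ κ) (x : X) {a : ℝ} (ha : 0 < a)
    (hfin : ∀ r, 0 < r → μ (Metric.closedBall x r) ≠ ∞) {P : ℝ}
    (hP : ∀ N, ∑ m ∈ range N, pd n κ μ x (16 / 2 ^ m) ≤ P) (j1 N : ℕ) :
    ∑ j ∈ range N, phat n κ μ x a (j1 + j) ≤
      (∑' i, wt193 a n i) * P + ∑' j, wt193 a n (j1 + j) := by
  have hp0 : ∀ m : ℕ, 0 ≤ pd n κ μ x (16 / 2 ^ m) := fun m =>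
    pd_nonneg C hκ x (by positivity) (hfin _ (by positivity))
  have hw := wt193_summable ha n
  have hP0 : 0 ≤ P := by have := hP 0; simpa using this
  have h1 : ∑ j ∈ range N, phat n κ μ x a (j1 + j) =
      ∑ j ∈ range N, ∑ i ∈ range (j1 + j + 4 + 1), wt193 a n i *
        pd n κ μ x (16 / 2 ^ (j1 + j + 4 - i)) + ∑ j ∈ range N, wt193 a n (j1 + j) := by
    rw [← sum_add_distrib]
    exact sum_congr rfl fun j _ => phat_eq n κ μ x a (j1 + j)
  rw [h1]
  refine add_le_add ?_ ?_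
  · -- convolution
    set g : ℕ → ℝ := fun m => ∑ i ∈ range (m + 1), wt193 a n i * pd n κ μ x (16 / 2 ^ (m - i))
      with hg
    have hg0 : ∀ m, 0 ≤ g m := fun m => sum_nonneg fun i _ => mul_nonneg (wt193_nonneg a n i) (hp0 _)
    have h2 : ∑ j ∈ range N, ∑ i ∈ range (j1 + j + 4 + 1), wt193 a n i *
        pd n κ μ x (16 / 2 ^ (j1 + j + 4 - i)) = ∑ j ∈ range N, g (j1 + 4 + j) := by
      refine sum_congr rfl fun j _ => ?_
      rw [show j1 + 4 + j = j1 + j + 4 by omega]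
    rw [h2]
    have h3 : ∑ j ∈ range N, g (j1 + 4 + j) ≤ ∑ m ∈ range (j1 + 4 + N), g m := by
      rw [sum_range_add g (j1 + 4) N]
      have : 0 ≤ ∑ m ∈ range (j1 + 4), g m := sum_nonneg fun m _ => hg0 m
      linarith
    refine h3.trans ?_
    have h4 := conv (w := wt193 a n) (p := fun m => pd n κ μ x (16 / 2 ^ m)) (wt193_nonneg a n) hp0
      (j1 + 4 + N)
    refine h4.trans ?_
    exact mul_le_mul (hw.sum_le_tsum _ fun i _ => wt193_nonneg a n i) (hP _)
      (sum_nonneg fun m _ => hp0 m) (tsum_nonneg fun i => wt193_nonneg a n i)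
  · have h5 : Summable fun j => wt193 a n (j1 + j) := by
      have := (summable_nat_add_iff (f := wt193 a n) j1).2 hw
      exact this.congr fun j => by rw [add_comm]
    exact h5.sum_le_tsum _ fun i _ => wt193_nonneg a n _

/-- **summability of the defects** with the tail bound -/
theorem phat_summable [SFinite μ] (C : Rad n κ X μ) (hκ : 0 ≤ κ) (x : X) {a : ℝ} (ha : 0 < a)
    (hfin : ∀ r, 0 < r → μ (Metric.closedBall x r) ≠ ∞) {δ ω : ℝ} (hδ : δ ≤ 1) (hω : 0 ≤ ω)
    (h1 : κ * 16 ^ 2 ≤ δ) (hlow : (1 - δ) * ω ≤ vr n μ x (2 * 16))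
    (hup : ∀ s, 0 < s → s ≤ 2 * 16 → vr n μ x s ≤ (1 + δ) * ω) :
    (∀ j, 0 ≤ phat n κ μ x a j) ∧ Summable (phat n κ μ x a) ∧
      ∀ j1, ∑' j, phat n κ μ x a (j1 + j) ≤
        (∑' i, wt193 a n i) * (260 * 2 ^ n * ω * δ) + ∑' j, wt193 a n (j1 + j) := by
  have hp0 : ∀ m : ℕ, 0 ≤ pd n κ μ x (16 / 2 ^ m) := fun m =>
    pd_nonneg C hκ x (by positivity) (hfin _ (by positivity))
  have h0 : ∀ j, 0 ≤ phat n κ μ x a j := fun j => by
    rw [phat_eq]
    exact add_nonneg (sum_nonneg fun i _ => mul_nonneg (wt193_nonneg a n i) (hp0 _))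
      (wt193_nonneg a n j)
  have hP := fun N => sum_pd_le' n hκ μ x (s0 := 16) (by norm_num) hδ hω h1 hlow hup N
  have hb := phat_sum_le C hκ x ha hfin hP
  refine ⟨h0, ?_, fun j1 => ?_⟩
  · refine summable_of_sum_range_le h0 (c := (∑' i, wt193 a n i) * (260 * 2 ^ n * ω * δ) +
      ∑' j, wt193 a n (0 + j)) fun N => ?_
    have := hb 0 N
    simpa using this
  · exact Real.tsum_le_of_sum_range_le (fun j => h0 _) fun N => hb j1 N

end Crest.Agent.R247.Max193
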