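import Mathlib

/-!
# Radial contraction structures (block (6e) of R247, abstract half)

`wm μ κ x` is the measure `exp(-κ d(x,·)²/2) μ`.  A `Rad n κ X μ` is a measurable family of
radial contractions `T x t z` (the point at distance `t·d(x,z)` on the minimising geodesic from
`x` to `z`), defined on a full-measure symmetric set `U` of pairs, with
`(T x t)_* wm x ≤ t⁻ⁿ wm x` (this is exactly `Δ (d_x²/2) ≤ n + κ d_x²` along the rays).
-/

set_option autoImplicit false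
set_option linter.unusedSectionVars false
open MeasureTheory Set Filter Topology
open scoped ENNReal NNReal

noncomputable section
namespace Crest.Agent.R247.Mcp688

/-- The weight `exp(-κ s²/2)`. -/
def wt (κ s : ℝ) : ℝ := Real.exp (-(κ * s ^ 2 / 2))

lemma wt_pos (κ s : ℝ) : 0 < wt κ s := Real.exp_pos _

lemma wt_le_one {κ : ℝ} (hκ : 0 ≤ κ) (s : ℝ) : wt κ s ≤ 1 := by
  unfold wt
  apply Real.exp_le_one_iff.2
  have : 0 ≤ κ * s ^ 2 := mul_nonneg hκ (sq_nonneg s)
  linarith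

lemma wt_anti {κ : ℝ} (hκ : 0 ≤ κ) {s t : ℝ} (hs : 0 ≤ s) (hst : s ≤ t) : wt κ t ≤ wt κ s := by
  unfold wt
  apply Real.exp_le_exp.2
  have : s ^ 2 ≤ t ^ 2 := by gcongr
  nlinarith

lemma continuous_wt (κ : ℝ) : Continuous (wt κ) := by unfold wt; fun_prop

section defs
variable {X : Type*} [MetricSpace X] [MeasurableSpace X]

/-- The measure `exp(-κ d(x,·)²/2) μ`. -/
def wm (μ : Measure X) (κ : ℝ) (x : X) : Measure X :=
  μ.withDensity (fun z => ENNReal.ofReal (wt κ (dist x z)))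

end defs

/-- A measurable family of radial contractions; see the file header. -/
structure Rad (n : ℕ) (κ : ℝ) (X : Type*) [MetricSpace X] [MeasurableSpace X]
    (μ : Measure X) where
  /-- the set of good pairs (unique minimising geodesic) -/
  U : Set (X × X)
  /-- `T x t z` = the point at distance `t·d(x,z)` from `x` on the geodesic from `x` to `z` -/
  T : X → ℝ → X → X
  measU : MeasurableSet U
  measT : Measurable (fun p : X × ℝ × X => T p.1 p.2.1 p.2.2)
  ae_U : ∀ x, ∀ᵐ z ∂μ, (x, z) ∈ U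
  symm : ∀ x z, (x, z) ∈ U → (z, x) ∈ U
  T_symm : ∀ x z, (x, z) ∈ U → ∀ t ∈ Icc (0 : ℝ) 1, T z t x = T x (1 - t) z
  sub : ∀ x z, (x, z) ∈ U → ∀ t ∈ Ioc (0 : ℝ) 1, (x, T x t z) ∈ U
  comp : ∀ x z, (x, z) ∈ U → ∀ s ∈ Icc (0 : ℝ) 1, ∀ t ∈ Ioc (0 : ℝ) 1,
    T x s (T x t z) = T x (s * t) z
  T_one : ∀ x z, (x, z) ∈ U → T x 1 z = z
  T_zero : ∀ x z, (x, z) ∈ U → T x 0 z = x
  dist_T : ∀ x z, (x, z) ∈ U → ∀ s ∈ Icc (0 : ℝ) 1, ∀ t ∈ Icc (0 : ℝ) 1,
    dist (T x s z) (T x t z) = |s - t| * dist x z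
  contr : ∀ x, ∀ t ∈ Ioc (0 : ℝ) 1,
    (wm μ κ x).map (T x t) ≤ ENNReal.ofReal ((t⁻¹) ^ n) • wm μ κ x

section wm
variable {X : Type*} [MetricSpace X] [MeasurableSpace X] [BorelSpace X] (μ : Measure X) {κ : ℝ}
  (x : X)

lemma measurable_wt_dist (κ : ℝ) (x : X) :
    Measurable (fun z : X => ENNReal.ofReal (wt κ (dist x z))) := by
  apply ENNReal.measurable_ofReal.comp
  exact ((continuous_wt κ).comp (continuous_const.dist continuous_id)).measurable

lemma lintegral_wm {g : X → ℝ≥0∞} (hg : Measurable g) :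
    ∫⁻ z, g z ∂(wm μ κ x) = ∫⁻ z, ENNReal.ofReal (wt κ (dist x z)) * g z ∂μ := by
  rw [wm, lintegral_withDensity_eq_lintegral_mul _ (measurable_wt_dist κ x) hg]
  rfl

lemma wm_apply {s : Set X} (hs : MeasurableSet s) :
    wm μ κ x s = ∫⁻ z in s, ENNReal.ofReal (wt κ (dist x z)) ∂μ := by
  rw [wm, withDensity_apply _ hs]

lemma wm_le (hκ : 0 ≤ κ) : wm μ κ x ≤ μ := by
  refine Measure.le_iff.2 fun s hs => ?_
  rw [wm_apply μ x hs]
  calc ∫⁻ z in s, ENNReal.ofReal (wt κ (dist x z)) ∂μ ≤ ∫⁻ _ in s, 1 ∂μ := by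
        apply lintegral_mono
        intro z
        exact ENNReal.ofReal_le_one.2 (wt_le_one hκ _)
    _ = μ s := by simp

lemma le_wm (hκ : 0 ≤ κ) {s : Set X} (hs : MeasurableSet s) {R : ℝ}
    (hR : ∀ z ∈ s, dist x z ≤ R) : ENNReal.ofReal (wt κ R) * μ s ≤ wm μ κ x s := by
  rw [wm_apply μ x hs, ← setLIntegral_const]
  apply setLIntegral_mono (measurable_wt_dist κ x)
  intro z hz
  exact ENNReal.ofReal_le_ofReal (wt_anti hκ dist_nonneg (hR z hz))

lemma wm_ac (κ : ℝ) : wm μ κ x ≪ μ := withDensity_absolutelyContinuous _ _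

lemma ac_wm (κ : ℝ) : μ ≪ wm μ κ x := by
  apply withDensity_absolutelyContinuous' (measurable_wt_dist κ x).aemeasurable
  exact Eventually.of_forall fun z => by simp [wt_pos]

lemma ae_wm_iff (κ : ℝ) {p : X → Prop} : (∀ᵐ z ∂(wm μ κ x), p z) ↔ ∀ᵐ z ∂μ, p z :=
  ⟨fun h => (ac_wm μ x κ).ae_le h, fun h => (wm_ac μ x κ).ae_le h⟩

lemma wm_eq_zero_iff (κ : ℝ) {s : Set X} : wm μ κ x s = 0 ↔ μ s = 0 :=
  ⟨fun h => ac_wm μ x κ h, fun h => wm_ac μ x κ h⟩

end wm

namespace Rad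

variable {n : ℕ} {κ : ℝ} {X : Type*} [MetricSpace X] [MeasurableSpace X] [BorelSpace X]
  {μ : Measure X} (C : Rad n κ X μ)

lemma ofReal_pow_mul (n : ℕ) (t : ℝ) (ht : 0 < t) (a b : ℝ≥0∞)
    (h : a ≤ ENNReal.ofReal ((t⁻¹) ^ n) * b) : ENNReal.ofReal (t ^ n) * a ≤ b := by
  calc ENNReal.ofReal (t ^ n) * a ≤ ENNReal.ofReal (t ^ n) * (ENNReal.ofReal ((t⁻¹) ^ n) * b) := by
        gcongr
    _ = b := by
        rw [← mul_assoc, ← ENNReal.ofReal_mul (by positivity), ← mul_pow, mul_inv_cancel₀ ht.ne',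
          one_pow, ENNReal.ofReal_one, one_mul]

include C

lemma measT_x (x : X) : Measurable (fun p : ℝ × X => C.T x p.1 p.2) :=
  C.measT.comp (measurable_const.prodMk (measurable_fst.prodMk measurable_snd))

lemma measT_xt (x : X) (t : ℝ) : Measurable (C.T x t) :=
  C.measT.comp (measurable_const.prodMk (measurable_const.prodMk measurable_id))

lemma ae_U' (x : X) : ∀ᵐ z ∂(wm μ κ x), (x, z) ∈ C.U := (ae_wm_iff μ x κ).2 (C.ae_U x)

lemma dist_left {x z : X} (h : (x, z) ∈ C.U) {t : ℝ} (ht : t ∈ Icc (0 : ℝ) 1) :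
    dist x (C.T x t z) = t * dist x z := by
  have := C.dist_T x z h 0 ⟨le_refl _, zero_le_one⟩ t ht
  rw [C.T_zero x z h] at this
  rw [this, zero_sub, abs_neg, abs_of_nonneg ht.1]

lemma dist_right {x z : X} (h : (x, z) ∈ C.U) {t : ℝ} (ht : t ∈ Icc (0 : ℝ) 1) :
    dist (C.T x t z) z = (1 - t) * dist x z := by
  have := C.dist_T x z h t ht 1 ⟨zero_le_one, le_refl _⟩
  rw [C.T_one x z h] at this
  rw [this, abs_sub_comm, abs_of_nonneg (by linarith [ht.2])]

lemma lintegral_T_le (x : X) {t : ℝ} (ht : t ∈ Ioc (0 : ℝ) 1) {g : X → ℝ≥0∞}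
    (hg : Measurable g) :
    ∫⁻ z, g (C.T x t z) ∂(wm μ κ x) ≤ ENNReal.ofReal ((t⁻¹) ^ n) * ∫⁻ z, g z ∂(wm μ κ x) := by
  rw [← lintegral_map hg (C.measT_xt x t), ← smul_eq_mul, ← lintegral_smul_measure]
  exact lintegral_mono' (C.contr x t ht) le_rfl

lemma measure_preimage_le (x : X) {t : ℝ} (ht : t ∈ Ioc (0 : ℝ) 1) {A : Set X}
    (hA : MeasurableSet A) :
    wm μ κ x (C.T x t ⁻¹' A) ≤ ENNReal.ofReal ((t⁻¹) ^ n) * wm μ κ x A := by
  rw [← Measure.map_apply (C.measT_xt x t) hA]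
  exact C.contr x t ht A

/-- Bishop–Gromov, directional form: if `T x t` maps `A` into `B` (up to null sets) then
`wm x A ≤ t⁻ⁿ wm x B`. -/
lemma measure_le_of_mapsTo (x : X) {t : ℝ} (ht : t ∈ Ioc (0 : ℝ) 1) {A B : Set X}
    (hB : MeasurableSet B) (h : ∀ z ∈ A, (x, z) ∈ C.U → C.T x t z ∈ B) :
    wm μ κ x A ≤ ENNReal.ofReal ((t⁻¹) ^ n) * wm μ κ x B := by
  refine le_trans ?_ (C.measure_preimage_le x ht hB)
  apply measure_mono_ae
  filter_upwards [C.ae_U' x] with z hz hA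
  exact h z hA hz

/-- radial sets: `wm x {z | dist x z ∈ S} ≤ t⁻ⁿ wm x {z | dist x z ∈ t • S}` in the form of two
sets `S`, `S'` with `t S ⊆ S'`. -/
lemma radial_le (x : X) {t : ℝ} (ht : t ∈ Ioc (0 : ℝ) 1) {S S' : Set ℝ}
    (hS' : MeasurableSet S') (h : ∀ s ∈ S, t * s ∈ S') :
    wm μ κ x {z | dist x z ∈ S} ≤ ENNReal.ofReal ((t⁻¹) ^ n) * wm μ κ x {z | dist x z ∈ S'} := by
  have hm : MeasurableSet {z : X | dist x z ∈ S'} :=
    (continuous_const.dist continuous_id).measurable hS'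
  refine C.measure_le_of_mapsTo x ht hm fun z hz hU => ?_
  simp only [mem_ofPred_eq] at hz ⊢
  rw [C.dist_left hU ⟨ht.1.le, ht.2⟩]
  exact h _ hz

/-- Bishop–Gromov for open balls. -/
lemma ball_le (x : X) {r R : ℝ} (hr : 0 < r) (hR : r ≤ R) :
    wm μ κ x (Metric.ball x R) ≤ ENNReal.ofReal ((R / r) ^ n) * wm μ κ x (Metric.ball x r) := by
  have h0 : 0 < R := lt_of_lt_of_le hr hR
  have ht : r / R ∈ Ioc (0 : ℝ) 1 := ⟨by positivity, (div_le_one h0).2 hR⟩
  have := C.radial_le x ht (S := Iio R) (S' := Iio r) measurableSet_Iio (fun s hs => by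
    simp only [mem_Iio] at hs ⊢
    calc r / R * s < r / R * R := by gcongr
      _ = r := by field_simp)
  rw [inv_div] at this
  convert this using 3 <;> ext z <;> simp [dist_comm]

/-- Bishop–Gromov for closed balls. -/
lemma closedBall_le (x : X) {r R : ℝ} (hr : 0 < r) (hR : r ≤ R) :
    wm μ κ x (Metric.closedBall x R) ≤
      ENNReal.ofReal ((R / r) ^ n) * wm μ κ x (Metric.closedBall x r) := by
  have h0 : 0 < R := lt_of_lt_of_le hr hR
  have ht : r / R ∈ Ioc (0 : ℝ) 1 := ⟨by positivity, (div_le_one h0).2 hR⟩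
  have := C.radial_le x ht (S := Iic R) (S' := Iic r) measurableSet_Iic (fun s hs => by
    simp only [mem_Iic] at hs ⊢
    calc r / R * s ≤ r / R * R := by gcongr
      _ = r := by field_simp)
  rw [inv_div] at this
  convert this using 3 <;> ext z <;> simp [dist_comm]

/-- Bishop–Gromov for half-open annuli. -/
lemma annulus_le (x : X) {t a b : ℝ} (ht : t ∈ Ioc (0 : ℝ) 1) :
    wm μ κ x {z | dist x z ∈ Ico a b} ≤
      ENNReal.ofReal ((t⁻¹) ^ n) * wm μ κ x {z | dist x z ∈ Ico (t * a) (t * b)} :=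
  C.radial_le x ht measurableSet_Ico (fun s hs =>
    ⟨by have := hs.1; have := ht.1; nlinarith, by have := hs.2; have := ht.1; nlinarith⟩)

/-- Bishop–Gromov for the unweighted measure. -/
lemma mu_ball_le (hκ : 0 ≤ κ) (x : X) {r R : ℝ} (hr : 0 < r) (hR : r ≤ R) :
    μ (Metric.ball x R) ≤
      ENNReal.ofReal (Real.exp (κ * R ^ 2 / 2) * (R / r) ^ n) * μ (Metric.ball x r) := by
  have h1 : ENNReal.ofReal (wt κ R) * μ (Metric.ball x R) ≤ wm μ κ x (Metric.ball x R) :=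
    le_wm μ x hκ Metric.isOpen_ball.measurableSet fun z hz => by
      rw [dist_comm]; exact (Metric.mem_ball.1 hz).le
  have h2 := C.ball_le x hr hR
  have h3 : wm μ κ x (Metric.ball x r) ≤ μ (Metric.ball x r) := wm_le μ x hκ _
  calc μ (Metric.ball x R)
      = ENNReal.ofReal (Real.exp (κ * R ^ 2 / 2)) *
          (ENNReal.ofReal (wt κ R) * μ (Metric.ball x R)) := by
        rw [← mul_assoc, ← ENNReal.ofReal_mul (Real.exp_pos _).le, wt, ← Real.exp_add,
          add_neg_cancel, Real.exp_zero, ENNReal.ofReal_one, one_mul]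
    _ ≤ ENNReal.ofReal (Real.exp (κ * R ^ 2 / 2)) *
          (ENNReal.ofReal ((R / r) ^ n) * μ (Metric.ball x r)) := by
        refine mul_le_mul_right (h1.trans (h2.trans ?_)) _
        gcongr
    _ = _ := by rw [← mul_assoc, ← ENNReal.ofReal_mul (Real.exp_pos _).le]

/-- Doubling with a change of centre. -/
lemma mu_ball_le' (hκ : 0 ≤ κ) (x y : X) {r R S : ℝ} (hr : 0 < r) (hS : R + dist x y ≤ S)
    (hrS : r ≤ S) :
    μ (Metric.ball x R) ≤
      ENNReal.ofReal (Real.exp (κ * S ^ 2 / 2) * (S / r) ^ n) * μ (Metric.ball y r) :=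
  (measure_mono (Metric.ball_subset_ball' hS)).trans (C.mu_ball_le hκ y hr hrS)

/-- Packing bound: a finite set of points of `ball x R`, with pairwise distances `≥ 2 r`. -/
lemma packing (hκ : 0 ≤ κ) (x : X) {r R : ℝ} (hr : 0 < r) (hR : r ≤ R)
    (h0 : μ (Metric.ball x (2 * R)) ≠ 0) (hfin : μ (Metric.ball x (2 * R)) ≠ ∞)
    (s : Finset X) (hs : ∀ y ∈ s, dist x y < R)
    (hsep : ∀ y ∈ s, ∀ z ∈ s, y ≠ z → 2 * r ≤ dist y z) :
    (s.card : ℝ) ≤ Real.exp (κ * (3 * R) ^ 2 / 2) * (3 * R / r) ^ n := by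
  set K : ℝ := Real.exp (κ * (3 * R) ^ 2 / 2) * (3 * R / r) ^ n with hK
  have hKpos : 0 < K := by
    have : 0 < R := lt_of_lt_of_le hr hR
    positivity
  have h1 : ∀ y ∈ s, μ (Metric.ball x (2 * R)) ≤ ENNReal.ofReal K * μ (Metric.ball y r) := by
    intro y hy
    exact C.mu_ball_le' hκ x y hr (by have := hs y hy; linarith) (by linarith)
  have h2 : ∑ y ∈ s, μ (Metric.ball y r) ≤ μ (Metric.ball x (2 * R)) := by
    rw [← measure_biUnion_finset]
    · apply measure_mono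
      intro z hz
      simp only [mem_iUnion, Metric.mem_ball, exists_prop] at hz ⊢
      obtain ⟨y, hy, hzy⟩ := hz
      have := hs y hy
      have h3 := dist_triangle z y x
      rw [dist_comm y x] at h3
      linarith
    · intro y hy z hz hyz
      apply Metric.ball_disjoint_ball
      have := hsep y hy z hz hyz
      linarith
    · intro y _
      exact Metric.isOpen_ball.measurableSet
  have h3 : (s.card : ℝ≥0∞) * μ (Metric.ball x (2 * R)) ≤
      ENNReal.ofReal K * μ (Metric.ball x (2 * R)) := by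
    calc (s.card : ℝ≥0∞) * μ (Metric.ball x (2 * R)) = ∑ _y ∈ s, μ (Metric.ball x (2 * R)) := by
          simp
      _ ≤ ∑ y ∈ s, ENNReal.ofReal K * μ (Metric.ball y r) := Finset.sum_le_sum h1
      _ = ENNReal.ofReal K * ∑ y ∈ s, μ (Metric.ball y r) := by rw [Finset.mul_sum]
      _ ≤ _ := by gcongr
  have h4 : (s.card : ℝ≥0∞) ≤ ENNReal.ofReal K := (ENNReal.mul_le_mul_iff_left h0 hfin).1 h3
  have h5 := ENNReal.toReal_mono ENNReal.ofReal_ne_top h4
  rwa [ENNReal.toReal_natCast, ENNReal.toReal_ofReal hKpos.le] at h5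

/-- The set form of the segment/ray bound for the unweighted measure. -/
lemma setLIntegral_T_le (hκ : 0 ≤ κ) (x : X) {t D : ℝ} (ht : t ∈ Ioc (0 : ℝ) 1) {B W : Set X}
    (hB : MeasurableSet B) (hW : MeasurableSet W) (hD : ∀ z ∈ B, dist x z ≤ D)
    (hBW : ∀ z ∈ B, (x, z) ∈ C.U → C.T x t z ∈ W) {g : X → ℝ≥0∞} (hg : Measurable g) :
    ∫⁻ z in B, g (C.T x t z) ∂μ ≤
      ENNReal.ofReal (Real.exp (κ * D ^ 2 / 2) * (t⁻¹) ^ n) * ∫⁻ y in W, g y ∂μ := by
  have h1 : ∫⁻ z in B, g (C.T x t z) ∂μ ≤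
      ENNReal.ofReal (Real.exp (κ * D ^ 2 / 2)) *
        ∫⁻ z, (W.indicator g) (C.T x t z) ∂(wm μ κ x) := by
    have hm : Measurable fun z => (W.indicator g) (C.T x t z) :=
      (hg.indicator hW).comp (C.measT_xt x t)
    rw [lintegral_wm μ x hm, ← lintegral_const_mul', ← lintegral_indicator hB]
    · apply lintegral_mono_ae
      filter_upwards [C.ae_U x] with z hz
      by_cases hzB : z ∈ B
      · rw [indicator_of_mem hzB, indicator_of_mem (hBW z hzB hz), ← mul_assoc,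
          ← ENNReal.ofReal_mul (Real.exp_pos _).le]
        have : 1 ≤ Real.exp (κ * D ^ 2 / 2) * wt κ (dist x z) := by
          have h2 := wt_anti hκ dist_nonneg (hD z hzB)
          calc (1 : ℝ) = Real.exp (κ * D ^ 2 / 2) * wt κ D := by
                rw [wt, ← Real.exp_add, add_neg_cancel, Real.exp_zero]
            _ ≤ _ := by gcongr
        calc g (C.T x t z) = 1 * g (C.T x t z) := (one_mul _).symm
          _ ≤ _ := by
              gcongr
              rw [← ENNReal.ofReal_one]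
              exact ENNReal.ofReal_le_ofReal this
      · rw [indicator_of_notMem hzB]; exact bot_le
    · exact ENNReal.ofReal_ne_top
  have h2 := C.lintegral_T_le x ht (hg.indicator hW)
  have h3 : ∫⁻ z, (W.indicator g) z ∂(wm μ κ x) ≤ ∫⁻ y in W, g y ∂μ := by
    rw [← lintegral_indicator hW]
    exact lintegral_mono' (wm_le μ x hκ) le_rfl
  calc ∫⁻ z in B, g (C.T x t z) ∂μ
      ≤ ENNReal.ofReal (Real.exp (κ * D ^ 2 / 2)) *
        (ENNReal.ofReal ((t⁻¹) ^ n) * ∫⁻ y in W, g y ∂μ) := by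
        refine h1.trans ?_
        gcongr
        exact h2.trans (by gcongr)
    _ = _ := by rw [← mul_assoc, ← ENNReal.ofReal_mul (Real.exp_pos _).le]

end Rad

end Crest.Agent.R247.Mcp688
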