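import Crest.Agent.R247.Mcp1_688

/-! # Segment inequality for radial contraction structures -/

set_option autoImplicit false
set_option linter.unusedSectionVars false
open MeasureTheory Set Filter Topology
open scoped ENNReal NNReal

noncomputable section
namespace Crest.Agent.R247.Mcp688
namespace Rad

variable {n : ℕ} {κ : ℝ} {X : Type*} [MetricSpace X] [MeasurableSpace X] [BorelSpace X]
  {μ : Measure X} (C : Rad n κ X μ)

include C in
/-- **Segment inequality** (Cheeger–Colding). -/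
theorem segment_le [SFinite μ] (hκ : 0 ≤ κ) {A B W : Set X} (hA : MeasurableSet A)
    (hB : MeasurableSet B) (hW : MeasurableSet W) {D : ℝ}
    (hD : ∀ x ∈ A, ∀ z ∈ B, dist x z ≤ D)
    (hABW : ∀ x ∈ A, ∀ z ∈ B, (x, z) ∈ C.U → ∀ t ∈ Icc (0 : ℝ) 1, C.T x t z ∈ W)
    {g : X → ℝ≥0∞} (hg : Measurable g) :
    ∫⁻ x in A, ∫⁻ z in B, ∫⁻ t in Icc (0 : ℝ) 1, g (C.T x t z) ∂volume ∂μ ∂μ ≤
      ENNReal.ofReal (Real.exp (κ * D ^ 2 / 2) * 2 ^ n) * (μ A + μ B) * ∫⁻ y in W, g y ∂μ := by
  set K : ℝ≥0∞ := ENNReal.ofReal (Real.exp (κ * D ^ 2 / 2) * 2 ^ n) with hK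
  set G : ℝ≥0∞ := ∫⁻ y in W, g y ∂μ with hG
  have hKt : ∀ t : ℝ, 1 / 2 ≤ t → t ≤ 1 →
      ENNReal.ofReal (Real.exp (κ * D ^ 2 / 2) * (t⁻¹) ^ n) ≤ K := by
    intro t h1 h2
    apply ENNReal.ofReal_le_ofReal
    have : t⁻¹ ≤ 2 := by
      rw [inv_le_comm₀ (by linarith) (by norm_num)]
      linarith
    have h0 : 0 ≤ t⁻¹ := by positivity
    gcongr
  have hmeas : Measurable (fun p : X × ℝ × X => g (C.T p.1 p.2.1 p.2.2)) := hg.comp C.measT
  -- first half: `t ≥ 1/2`, integrate in `z`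
  have hfar : ∀ t ∈ Icc (1 / 2 : ℝ) 1, ∫⁻ x in A, ∫⁻ z in B, g (C.T x t z) ∂μ ∂μ ≤ K * μ A * G := by
    intro t ht
    calc ∫⁻ x in A, ∫⁻ z in B, g (C.T x t z) ∂μ ∂μ ≤ ∫⁻ _ in A, K * G ∂μ := by
          apply setLIntegral_mono measurable_const
          intro x hx
          refine (C.setLIntegral_T_le hκ x ⟨by linarith [ht.1], ht.2⟩ hB hW (hD x hx)
            (fun z hz hU => hABW x hx z hz hU t ⟨by linarith [ht.1], ht.2⟩) hg).trans ?_
          exact mul_le_mul_left (hKt t ht.1 ht.2) _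
      _ = K * μ A * G := by rw [setLIntegral_const]; ring
  have hnear : ∀ t ∈ Icc (0 : ℝ) (1 / 2),
      ∫⁻ x in A, ∫⁻ z in B, g (C.T x t z) ∂μ ∂μ ≤ K * μ B * G := by
    intro t ht
    have hm1 : Measurable (fun p : X × X => g (C.T p.1 t p.2)) :=
      hmeas.comp (measurable_fst.prodMk (measurable_const.prodMk measurable_snd))
    rw [lintegral_lintegral_swap hm1.aemeasurable]
    calc ∫⁻ z in B, ∫⁻ x in A, g (C.T x t z) ∂μ ∂μ ≤ ∫⁻ _ in B, K * G ∂μ := by
          apply setLIntegral_mono measurable_const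
          intro z hz
          have he : ∫⁻ x in A, g (C.T x t z) ∂μ = ∫⁻ x in A, g (C.T z (1 - t) x) ∂μ := by
            apply setLIntegral_congr_fun_ae hA
            filter_upwards [C.ae_U z] with x hx _
            have := C.T_symm x z (C.symm z x hx) (1 - t) ⟨by linarith [ht.2], by linarith [ht.1]⟩
            rw [this, sub_sub_cancel]
          rw [he]
          refine (C.setLIntegral_T_le hκ z (t := 1 - t) ⟨by linarith [ht.2], by linarith [ht.1]⟩
            hA hW (D := D) (fun x hx => by rw [dist_comm]; exact hD x hx z hz)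
            (fun x hx hU => ?_) hg).trans ?_
          · have := C.T_symm x z (C.symm z x hU) (1 - t) ⟨by linarith [ht.2], by linarith [ht.1]⟩
            rw [this, sub_sub_cancel]
            exact hABW x hx z hz (C.symm z x hU) t ⟨ht.1, by linarith [ht.2]⟩
          · exact mul_le_mul_left (hKt (1 - t) (by linarith [ht.2]) (by linarith [ht.1])) _
      _ = K * μ B * G := by rw [setLIntegral_const]; ring
  -- exchange the order of integration
  have hsw : ∫⁻ x in A, ∫⁻ z in B, ∫⁻ t in Icc (0 : ℝ) 1, g (C.T x t z) ∂volume ∂μ ∂μ =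
      ∫⁻ t in Icc (0 : ℝ) 1, ∫⁻ x in A, ∫⁻ z in B, g (C.T x t z) ∂μ ∂μ ∂volume := by
    have h1 : ∀ x, ∫⁻ z in B, ∫⁻ t in Icc (0 : ℝ) 1, g (C.T x t z) ∂volume ∂μ =
        ∫⁻ t in Icc (0 : ℝ) 1, ∫⁻ z in B, g (C.T x t z) ∂μ ∂volume := by
      intro x
      rw [lintegral_lintegral_swap]
      exact (hmeas.comp (measurable_const.prodMk (measurable_snd.prodMk
        measurable_fst))).aemeasurable
    simp_rw [h1]
    rw [lintegral_lintegral_swap]
    apply Measurable.aemeasurable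
    have h2 : Measurable (fun q : (X × ℝ) × X => g (C.T q.1.1 q.1.2 q.2)) :=
      hmeas.comp (measurable_fst.fst.prodMk (measurable_fst.snd.prodMk measurable_snd))
    exact h2.lintegral_prod_right'
  rw [hsw]
  calc ∫⁻ t in Icc (0 : ℝ) 1, ∫⁻ x in A, ∫⁻ z in B, g (C.T x t z) ∂μ ∂μ ∂volume
      ≤ ∫⁻ t in Icc (0 : ℝ) 1, K * (μ A + μ B) * G ∂volume := by
        apply setLIntegral_mono measurable_const
        intro t ht
        rcases le_total t (1 / 2) with h | h
        · refine (hnear t ⟨ht.1, h⟩).trans ?_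
          gcongr
          exact le_add_self
        · refine (hfar t ⟨h, ht.2⟩).trans ?_
          gcongr
          exact le_self_add
    _ = K * (μ A + μ B) * G := by
        rw [setLIntegral_const, Real.volume_Icc]
        simp

end Rad
end Crest.Agent.R247.Mcp688
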