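import Crest.Agent.R247.Mcp2_688

/-! # Weak Laplacian comparison and calculus along the rays for radial contraction structures

`RD C x φ D` : for almost every `z` the function `t ↦ φ (T x t z)` has left derivative `D z` at
`t = 1` (for smooth `φ` on a manifold `D = ⟪∇φ, ∇(d_x²/2)⟫`). -/

set_option autoImplicit false
set_option linter.unusedSectionVars false
open MeasureTheory Set Filter Topology
open scoped ENNReal NNReal

noncomputable section
namespace Crest.Agent.R247.Mcp688

variable {n : ℕ} {κ : ℝ} {X : Type*} [MetricSpace X] [MeasurableSpace X] [BorelSpace X]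
  {μ : Measure X}

/-- `D` is the radial derivative of `φ` with respect to the centre `x` (a.e., from the left). -/
def RD (C : Rad n κ X μ) (x : X) (φ D : X → ℝ) : Prop :=
  ∀ᵐ z ∂μ, HasDerivWithinAt (fun t : ℝ => φ (C.T x t z)) (D z) (Iio 1) 1

namespace Rad
variable (C : Rad n κ X μ)

lemma integral_T_le (x : X) {t : ℝ} (ht : t ∈ Ioc (0 : ℝ) 1) {φ : X → ℝ} (hφ : Measurable φ)
    (h0 : ∀ z, 0 ≤ φ z) (hint : Integrable φ (wm μ κ x)) :
    Integrable (fun z => φ (C.T x t z)) (wm μ κ x) ∧
    ∫ z, φ (C.T x t z) ∂(wm μ κ x) ≤ (t⁻¹) ^ n * ∫ z, φ z ∂(wm μ κ x) := by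
  have hm : Measurable fun z => φ (C.T x t z) := hφ.comp (C.measT_xt x t)
  have h1 := C.lintegral_T_le x ht (g := fun z => ENNReal.ofReal (φ z)) (by fun_prop)
  have hfin : ∫⁻ z, ENNReal.ofReal (φ z) ∂(wm μ κ x) ≠ ∞ := by
    have := hint.2
    rw [hasFiniteIntegral_iff_ofReal (Eventually.of_forall h0)] at this
    exact this.ne
  have hI : Integrable (fun z => φ (C.T x t z)) (wm μ κ x) := by
    refine ⟨hm.aestronglyMeasurable, ?_⟩
    rw [hasFiniteIntegral_iff_ofReal (Eventually.of_forall fun z => h0 _)]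
    exact lt_of_le_of_lt h1 (ENNReal.mul_lt_top ENNReal.ofReal_lt_top hfin.lt_top)
  refine ⟨hI, ?_⟩
  rw [integral_eq_lintegral_of_nonneg_ae (Eventually.of_forall fun z => h0 _)
    hm.aestronglyMeasurable, integral_eq_lintegral_of_nonneg_ae (Eventually.of_forall h0)
    hφ.aestronglyMeasurable]
  calc (∫⁻ z, ENNReal.ofReal (φ (C.T x t z)) ∂(wm μ κ x)).toReal
      ≤ (ENNReal.ofReal ((t⁻¹) ^ n) * ∫⁻ z, ENNReal.ofReal (φ z) ∂(wm μ κ x)).toReal :=
        ENNReal.toReal_mono (ENNReal.mul_ne_top ENNReal.ofReal_ne_top hfin) h1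
    _ = _ := by
        rw [ENNReal.toReal_mul, ENNReal.toReal_ofReal]
        have := ht.1
        positivity

/-- **Weak Laplacian comparison**, general form: `0 ≤ n ∫ φ + ∫ D` with respect to `wm`. -/
theorem weak_lap (x : X) {φ D b : X → ℝ} (hφ : Measurable φ) (h0 : ∀ z, 0 ≤ φ z)
    (hint : Integrable φ (wm μ κ x)) (hD : RD C x φ D)
    (hb : ∀ᵐ z ∂μ, ∀ t ∈ Ico (1 / 2 : ℝ) 1, |φ (C.T x t z) - φ z| ≤ (1 - t) * b z)
    (hbint : Integrable b (wm μ κ x)) :
    0 ≤ n * ∫ z, φ z ∂(wm μ κ x) + ∫ z, D z ∂(wm μ κ x) := by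
  set ν := wm μ κ x with hν
  have hmem : Ico (1 / 2 : ℝ) 1 ∈ 𝓝[<] (1 : ℝ) := by
    refine mem_nhdsWithin_iff_exists_mem_nhds_inter.2 ⟨Ioi (1 / 2), Ioi_mem_nhds (by norm_num), ?_⟩
    intro t ht
    exact ⟨ht.1.le, ht.2⟩
  have hlim : Tendsto (fun t : ℝ => ∫ z, (φ (C.T x t z) - φ z) / (t - 1) ∂ν) (𝓝[<] 1)
      (𝓝 (∫ z, D z ∂ν)) := by
    apply tendsto_integral_filter_of_dominated_convergence b
    · exact Eventually.of_forall fun t =>
        (((hφ.comp (C.measT_xt x t)).sub hφ).div_const _).aestronglyMeasurable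
    · filter_upwards [hmem] with t ht
      have hb' := (ae_wm_iff μ x κ).2 hb
      filter_upwards [hb'] with z hz
      have h1 := hz t ht
      have h2 : 0 < 1 - t := by linarith [ht.2]
      rw [Real.norm_eq_abs, abs_div, abs_sub_comm t 1, abs_of_pos h2, div_le_iff₀ h2, mul_comm]
      exact h1
    · exact hbint
    · have hD' := (ae_wm_iff μ x κ).2 hD
      have hU := C.ae_U' x
      filter_upwards [hD', hU] with z hz hzU
      have h1 := hasDerivWithinAt_iff_tendsto_slope.1 hz
      have h2 : (Iio (1 : ℝ)) \ {1} = Iio 1 := by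
        ext t; simp only [Set.mem_sdiff, mem_Iio, mem_singleton_iff]
        exact ⟨fun h => h.1, fun h => ⟨h, h.ne⟩⟩
      rw [h2] at h1
      refine h1.congr fun t => ?_
      rw [slope_def_field, C.T_one x z hzU]
  have hlim2 : Tendsto (fun t : ℝ => ((t⁻¹) ^ n - 1) / (t - 1) * ∫ z, φ z ∂ν) (𝓝[<] 1)
      (𝓝 (-(n : ℝ) * ∫ z, φ z ∂ν)) := by
    apply Tendsto.mul_const
    have hder : HasDerivAt (fun t : ℝ => (t⁻¹) ^ n) (-(n : ℝ)) 1 := by
      have h1 : HasDerivAt (fun t : ℝ => t⁻¹) (-((1 : ℝ) ^ 2)⁻¹) 1 := hasDerivAt_inv one_ne_zero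
      exact (h1.fun_pow n).congr_deriv (by norm_num)
    have h1 := hasDerivWithinAt_iff_tendsto_slope.1 (hder.hasDerivWithinAt (s := Iio 1))
    have h2 : (Iio (1 : ℝ)) \ {1} = Iio 1 := by
      ext t; simp only [Set.mem_sdiff, mem_Iio, mem_singleton_iff]
      exact ⟨fun h => h.1, fun h => ⟨h, h.ne⟩⟩
    rw [h2] at h1
    refine h1.congr fun t => ?_
    rw [slope_def_field]
    norm_num
  have hle : ∀ᶠ t in 𝓝[<] (1 : ℝ), ((t⁻¹) ^ n - 1) / (t - 1) * ∫ z, φ z ∂ν ≤
      ∫ z, (φ (C.T x t z) - φ z) / (t - 1) ∂ν := by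
    filter_upwards [hmem] with t ht
    have ht' : t ∈ Ioc (0 : ℝ) 1 := ⟨by linarith [ht.1], ht.2.le⟩
    obtain ⟨h1, h2⟩ := C.integral_T_le x ht' hφ h0 hint
    rw [integral_div, integral_sub h1 hint, div_mul_eq_mul_div]
    have h3 : t - 1 < 0 := by linarith [ht.2]
    rw [div_le_div_right_of_neg h3]
    linarith
  have := le_of_tendsto_of_tendsto hlim2 hlim hle
  linarith

end Rad

/-! ### Calculus of radial derivatives -/

namespace RD
variable {C : Rad n κ X μ} {x : X} {φ ψ D D' : X → ℝ}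

lemma add (h : RD C x φ D) (h' : RD C x ψ D') :
    RD C x (fun z => φ z + ψ z) (fun z => D z + D' z) := by
  filter_upwards [h, h'] with z h1 h2 using h1.add h2

lemma sub (h : RD C x φ D) (h' : RD C x ψ D') :
    RD C x (fun z => φ z - ψ z) (fun z => D z - D' z) := by
  filter_upwards [h, h'] with z h1 h2 using h1.sub h2

lemma const_mul (c : ℝ) (h : RD C x φ D) : RD C x (fun z => c * φ z) (fun z => c * D z) := by
  filter_upwards [h] with z h1 using h1.const_mul c

lemma mul (h : RD C x φ D) (h' : RD C x ψ D') :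
    RD C x (fun z => φ z * ψ z) (fun z => D z * ψ z + φ z * D' z) := by
  filter_upwards [h, h', C.ae_U x] with z h1 h2 hU
  have := h1.mul h2
  simp only [C.T_one x z hU] at this
  exact this

/-- functions of the distance to the centre -/
lemma radial {η η' : ℝ → ℝ} (hη : ∀ᵐ z ∂μ, 0 < dist x z →
      HasDerivWithinAt η (η' (dist x z)) (Iio (dist x z)) (dist x z))
    : RD C x (fun z => η (dist x z)) (fun z => η' (dist x z) * dist x z) := by
  filter_upwards [hη, C.ae_U x] with z h1 hU
  have he : ∀ t ∈ Icc (0 : ℝ) 1, dist x (C.T x t z) = t * dist x z := fun t ht =>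
    C.dist_left hU ht
  have hIoo : Ioo (0 : ℝ) 1 ∈ 𝓝[<] (1 : ℝ) := Ioo_mem_nhdsLT one_pos
  rcases eq_or_lt_of_le (dist_nonneg (x := x) (y := z)) with hd | hd
  · rw [← hd, mul_zero]
    have h2 : HasDerivWithinAt (fun _ : ℝ => η 0) 0 (Iio 1) 1 := hasDerivWithinAt_const _ _ _
    refine h2.congr_of_eventuallyEq ?_ ?_
    · filter_upwards [hIoo] with t ht
      rw [he t ⟨ht.1.le, ht.2.le⟩, ← hd, mul_zero]
    · rw [he 1 ⟨zero_le_one, le_refl _⟩, ← hd, mul_zero]
  · have h3 : HasDerivWithinAt (fun t : ℝ => t * dist x z) (dist x z) (Iio 1) 1 := by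
      simpa using (hasDerivWithinAt_id (1 : ℝ) (Iio 1)).mul_const (dist x z)
    have h4 : HasDerivWithinAt η (η' (dist x z)) (Iio (dist x z)) (1 * dist x z) := by
      rw [one_mul]; exact h1 hd
    have h5 := h4.comp (1 : ℝ) h3 (fun t ht => by
      simp only [mem_Iio] at ht ⊢
      nlinarith)
    refine h5.congr_of_eventuallyEq ?_ ?_
    · filter_upwards [hIoo] with t ht
      rw [he t ⟨ht.1.le, ht.2.le⟩]; rfl
    · rw [he 1 ⟨zero_le_one, le_refl _⟩]; rfl

/-- the radial derivative of `1/wt` -/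
lemma invwt (κ : ℝ) : RD C x (fun z => (wt κ (dist x z))⁻¹)
    (fun z => κ * dist x z ^ 2 * (wt κ (dist x z))⁻¹) := by
  have h := RD.radial (C := C) (x := x) (η := fun s => Real.exp (κ * s ^ 2 / 2))
    (η' := fun s => Real.exp (κ * s ^ 2 / 2) * (κ * s)) (Eventually.of_forall fun z _ => by
      apply HasDerivAt.hasDerivWithinAt
      have h1 : HasDerivAt (fun s : ℝ => κ * s ^ 2 / 2) (κ * dist x z) (dist x z) := by
        exact (((hasDerivAt_pow 2 (dist x z)).const_mul κ).div_const 2).congr_deriv (by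
          push_cast; ring)
      exact h1.exp)
  have e1 : ∀ s : ℝ, (wt κ s)⁻¹ = Real.exp (κ * s ^ 2 / 2) := fun s => by
    rw [wt, ← Real.exp_neg, neg_neg]
  simp only [e1]
  filter_upwards [h] with z hz
  convert hz using 1
  ring

end RD

lemma integral_wm (μ : Measure X) (κ : ℝ) (x : X) (g : X → ℝ) :
    ∫ z, g z ∂(wm μ κ x) = ∫ z, wt κ (dist x z) * g z ∂μ := by
  rw [wm, integral_withDensity_eq_integral_toReal_smul (measurable_wt_dist κ x)
    (Eventually.of_forall fun z => ENNReal.ofReal_lt_top)]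
  simp only [ENNReal.toReal_ofReal (wt_pos κ _).le, smul_eq_mul]

lemma integrable_wm_iff (μ : Measure X) (κ : ℝ) (x : X) (g : X → ℝ) :
    Integrable g (wm μ κ x) ↔ Integrable (fun z => wt κ (dist x z) * g z) μ := by
  rw [wm, integrable_withDensity_iff_integrable_smul' (measurable_wt_dist κ x)
    (Eventually.of_forall fun z => ENNReal.ofReal_lt_top)]
  simp only [ENNReal.toReal_ofReal (wt_pos κ _).le, smul_eq_mul]

namespace RD
variable {C : Rad n κ X μ} {x : X} {φ ψ D D' : X → ℝ}

lemma unique (h : RD C x φ D) (h' : RD C x φ D') : D =ᵐ[μ] D' := by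
  filter_upwards [h, h'] with z h1 h2
  exact (uniqueDiffWithinAt_Iio (1 : ℝ)).eq_deriv _ h1 h2

lemma congr (h : RD C x φ D) (h' : D =ᵐ[μ] D') : RD C x φ D' := by
  filter_upwards [h, h'] with z h1 h2
  rwa [← h2]

lemma tendsto (h : RD C x φ D) : ∀ᵐ z ∂μ,
    Tendsto (fun k : ℕ => (φ (C.T x (1 - 1 / ((k : ℝ) + 2)) z) - φ z) /
      ((1 - 1 / ((k : ℝ) + 2)) - 1)) atTop (𝓝 (D z)) := by
  filter_upwards [h, C.ae_U x] with z hz hzU
  have h1 := hasDerivWithinAt_iff_tendsto_slope.1 hz
  have h2 : (Iio (1 : ℝ)) \ {1} = Iio 1 := by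
    ext t; simp only [Set.mem_sdiff, mem_Iio, mem_singleton_iff]
    exact ⟨fun h => h.1, fun h => ⟨h, h.ne⟩⟩
  rw [h2] at h1
  have h3 : Tendsto (fun k : ℕ => (1 : ℝ) - 1 / ((k : ℝ) + 2)) atTop (𝓝[<] 1) := by
    apply tendsto_nhdsWithin_iff.2
    constructor
    · have h4 : Tendsto (fun k : ℕ => (1 : ℝ) / ((k : ℝ) + 2)) atTop (𝓝 0) := by
        have := tendsto_one_div_add_atTop_nhds_zero_nat (𝕜 := ℝ)
        have h5 := this.comp (tendsto_add_atTop_nat 1)
        refine h5.congr fun k => ?_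
        simp only [Function.comp]
        push_cast
        ring
      simpa using h4.const_sub 1
    · refine Eventually.of_forall fun k => ?_
      simp only [mem_Iio]
      have : (0 : ℝ) < 1 / ((k : ℝ) + 2) := by positivity
      linarith
  refine (h1.comp h3).congr fun k => ?_
  simp only [Function.comp, slope_def_field, C.T_one x z hzU]

lemma aemeasurable (h : RD C x φ D) (hφ : Measurable φ) : AEMeasurable D μ := by
  refine aemeasurable_of_tendsto_metrizable_ae atTop (fun k => ?_) h.tendsto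
  exact (((hφ.comp (C.measT_xt x _)).sub hφ).div_const _).aemeasurable

lemma abs_le (h : RD C x φ D) {L : ℝ} (hL : ∀ y z, |φ y - φ z| ≤ L * dist y z) :
    ∀ᵐ z ∂μ, |D z| ≤ L * dist x z := by
  filter_upwards [h.tendsto, C.ae_U x] with z hz hU
  refine le_of_tendsto hz.abs (Eventually.of_forall fun k => ?_)
  set t : ℝ := 1 - 1 / ((k : ℝ) + 2) with ht
  have h0 : (0 : ℝ) < 1 / ((k : ℝ) + 2) := by positivity
  have h1 : 1 / ((k : ℝ) + 2) ≤ 1 := by
    rw [div_le_one (by positivity)]
    have : (0 : ℝ) ≤ k := Nat.cast_nonneg k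
    linarith
  have h2 := hL (C.T x t z) z
  rw [C.dist_right hU ⟨by linarith, by linarith⟩] at h2
  rw [abs_div, abs_sub_comm t 1, abs_of_pos (by linarith : (0 : ℝ) < 1 - t),
    div_le_iff₀ (by linarith)]
  calc |φ (C.T x t z) - φ z| ≤ L * ((1 - t) * dist x z) := h2
    _ = _ := by ring

lemma eq_zero (h : RD C x φ D) {R : ℝ} (hs : ∀ z, R < dist x z → φ z = 0) :
    ∀ᵐ z ∂μ, R < dist x z → D z = 0 := by
  filter_upwards [h, C.ae_U x] with z hz hU hR
  have h2 : HasDerivWithinAt (fun t : ℝ => φ (C.T x t z)) 0 (Iio 1) 1 := by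
    refine (hasDerivWithinAt_const (1 : ℝ) (Iio 1) (0 : ℝ)).congr_of_eventuallyEq ?_ ?_
    · have hc : Tendsto (fun t : ℝ => t * dist x z) (𝓝[<] 1) (𝓝 (1 * dist x z)) :=
        ((continuous_id.mul continuous_const).tendsto 1).mono_left nhdsWithin_le_nhds
      rw [one_mul] at hc
      filter_upwards [hc.eventually (lt_mem_nhds hR), Ioo_mem_nhdsLT (zero_lt_one' ℝ)] with t h3 h4
      apply hs
      rw [C.dist_left hU ⟨h4.1.le, h4.2.le⟩]
      exact h3
    · rw [C.T_one x z hU]; exact hs z hR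
  exact (uniqueDiffWithinAt_Iio (1 : ℝ)).eq_deriv _ hz h2

lemma integrable (h : RD C x φ D) (hφ : Measurable φ) {L R : ℝ}
    (hL : ∀ y z, |φ y - φ z| ≤ L * dist y z)
    (hs : ∀ z, R < dist x z → φ z = 0) (hfin : μ (Metric.closedBall x R) ≠ ∞) :
    Integrable D μ := by
  have hb : Integrable ((Metric.closedBall x R).indicator fun _ => |L| * R) μ :=
    (integrable_indicator_iff Metric.isClosed_closedBall.measurableSet).2
      (integrableOn_const hfin)
  refine hb.mono' (h.aemeasurable hφ).aestronglyMeasurable ?_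
  filter_upwards [h.abs_le hL, h.eq_zero hs] with z h1 h2
  by_cases hz : z ∈ Metric.closedBall x R
  · rw [indicator_of_mem hz, Real.norm_eq_abs]
    rw [Metric.mem_closedBall, dist_comm] at hz
    calc |D z| ≤ L * dist x z := h1
      _ ≤ |L| * dist x z := by gcongr; exact le_abs_self L
      _ ≤ |L| * R := by gcongr
  · rw [indicator_of_notMem hz, Real.norm_eq_abs]
    rw [Metric.mem_closedBall, dist_comm, not_le] at hz
    rw [h2 hz, abs_zero]

end RD

namespace Rad
variable (C : Rad n κ X μ)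

/-- **Weak Laplacian comparison**, unweighted general form:
`0 ≤ ∫ ((n + κ d_x²) φ + D) dμ`. -/
theorem weak_lap' (hκ : 0 ≤ κ) (x : X) {φ D : X → ℝ} {L R : ℝ} (hφ : Measurable φ)
    (h0 : ∀ z, 0 ≤ φ z) (hL : ∀ y z, |φ y - φ z| ≤ L * dist y z) (hR0 : 0 ≤ R)
    (hsupp : ∀ z, R < dist x z → φ z = 0) (hfin : μ (Metric.closedBall x (2 * R)) ≠ ∞)
    (hD : RD C x φ D) :
    Integrable φ μ ∧ Integrable D μ ∧
    0 ≤ ∫ z, ((n + κ * dist x z ^ 2) * φ z + D z) ∂μ := by
  have hRR : R ≤ 2 * R := by linarith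
  have hfin' : μ (Metric.closedBall x R) ≠ ∞ :=
    ne_top_of_le_ne_top hfin (measure_mono (Metric.closedBall_subset_closedBall hRR))
  have hmb : MeasurableSet (Metric.closedBall x R) := Metric.isClosed_closedBall.measurableSet
  have hmb2 : MeasurableSet (Metric.closedBall x (2 * R)) :=
    Metric.isClosed_closedBall.measurableSet
  have hbd : ∀ z, dist x z ≤ 2 * R → |φ z| ≤ |φ x| + |L| * (2 * R) := by
    intro z hz
    have h1 := hL z x
    have h2 : |φ z| ≤ |φ x| + |φ z - φ x| := by
      have := abs_add_le (φ x) (φ z - φ x)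
      simpa using this
    have h3 : L * dist z x ≤ |L| * (2 * R) := by
      rw [dist_comm]
      calc L * dist x z ≤ |L| * dist x z := by gcongr; exact le_abs_self L
        _ ≤ _ := by gcongr
    linarith
  have hφint : Integrable φ μ := by
    have hb : Integrable ((Metric.closedBall x R).indicator fun _ => |φ x| + |L| * (2 * R)) μ :=
      (integrable_indicator_iff hmb).2 (integrableOn_const hfin')
    refine hb.mono' hφ.aestronglyMeasurable (Eventually.of_forall fun z => ?_)
    by_cases hz : z ∈ Metric.closedBall x R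
    · rw [indicator_of_mem hz, Real.norm_eq_abs]
      rw [Metric.mem_closedBall, dist_comm] at hz
      exact hbd z (by linarith)
    · rw [indicator_of_notMem hz, Real.norm_eq_abs]
      rw [Metric.mem_closedBall, dist_comm, not_le] at hz
      rw [hsupp z hz, abs_zero]
  have hDint : Integrable D μ := hD.integrable hφ hL hsupp hfin'
  refine ⟨hφint, hDint, ?_⟩
  -- the weighted test function
  set w : X → ℝ := fun z => wt κ (dist x z) with hw
  have hwpos : ∀ z, 0 < w z := fun z => wt_pos _ _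
  have hwm : Measurable w :=
    ((continuous_wt κ).comp (continuous_const.dist continuous_id)).measurable
  set E : ℝ := (wt κ (2 * R))⁻¹ with hE
  have hE0 : 0 < E := inv_pos.2 (wt_pos _ _)
  have hwE : ∀ z, dist x z ≤ 2 * R → (w z)⁻¹ ≤ E := fun z hz =>
    inv_anti₀ (wt_pos _ _) (wt_anti hκ dist_nonneg hz)
  have hint1 : Integrable (fun z => φ z * (w z)⁻¹) (wm μ κ x) := by
    rw [integrable_wm_iff]
    refine hφint.congr (Eventually.of_forall fun z => ?_)
    have := (hwpos z).ne'
    show φ z = w z * (φ z * (w z)⁻¹)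
    field_simp
  have hDw := hD.mul (RD.invwt (C := C) (x := x) κ)
  have key := C.weak_lap x (φ := fun z => φ z * (w z)⁻¹)
    (b := (Metric.closedBall x (2 * R)).indicator fun _ =>
      |L| * (2 * R) * E + (|φ x| + |L| * (2 * R)) * (E * (κ * (2 * R) ^ 2)))
    (hφ.mul hwm.inv) (fun z => mul_nonneg (h0 z) (inv_pos.2 (hwpos z)).le) hint1 hDw
    (by
      filter_upwards [C.ae_U x] with z hU t ht
      have ht' : t ∈ Icc (0 : ℝ) 1 := ⟨by linarith [ht.1], ht.2.le⟩
      have h1t : 0 < 1 - t := by linarith [ht.2]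
      have hdl := C.dist_left hU ht'
      have hdr := C.dist_right hU ht'
      by_cases hz : z ∈ Metric.closedBall x (2 * R)
      · rw [indicator_of_mem hz]
        rw [Metric.mem_closedBall, dist_comm] at hz
        have hd0 : 0 ≤ dist x z := dist_nonneg
        have hTz : dist x (C.T x t z) ≤ 2 * R := by
          rw [hdl]
          calc t * dist x z ≤ 1 * dist x z := by gcongr; exact ht'.2
            _ ≤ _ := by linarith
        have e1 : |φ (C.T x t z) - φ z| ≤ (1 - t) * (|L| * (2 * R)) := by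
          calc |φ (C.T x t z) - φ z| ≤ L * dist (C.T x t z) z := hL _ _
            _ ≤ |L| * dist (C.T x t z) z := by gcongr; exact le_abs_self L
            _ = (1 - t) * (|L| * dist x z) := by rw [hdr]; ring
            _ ≤ _ := by gcongr
        have e2 : |(w (C.T x t z))⁻¹ - (w z)⁻¹| ≤ (1 - t) * (E * (κ * (2 * R) ^ 2)) := by
          have hle : (w (C.T x t z))⁻¹ ≤ (w z)⁻¹ := by
            apply inv_anti₀ (hwpos z)
            exact wt_anti hκ dist_nonneg (by rw [hdl]; nlinarith [ht'.2])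
          rw [abs_sub_comm, abs_of_nonneg (by linarith)]
          have e3 : w (C.T x t z) = wt κ (t * dist x z) := by rw [hw]; simp only [hdl]
          rw [e3]
          -- `e^a - e^b ≤ e^a (a-b)` with a = κ d²/2, b = κ t² d²/2
          have e4 : (w z)⁻¹ = Real.exp (κ * dist x z ^ 2 / 2) := by
            rw [hw]; simp only [wt]; rw [← Real.exp_neg, neg_neg]
          have e5 : (wt κ (t * dist x z))⁻¹ = Real.exp (κ * (t * dist x z) ^ 2 / 2) := by
            rw [wt, ← Real.exp_neg, neg_neg]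
          have e6 : Real.exp (κ * dist x z ^ 2 / 2) ≤ E := by rw [← e4]; exact hwE z hz
          have e7 : Real.exp (κ * (t * dist x z) ^ 2 / 2) ≥
              Real.exp (κ * dist x z ^ 2 / 2) *
                (1 - (κ * dist x z ^ 2 / 2 - κ * (t * dist x z) ^ 2 / 2)) := by
            have h8 : Real.exp (κ * (t * dist x z) ^ 2 / 2) =
                Real.exp (κ * dist x z ^ 2 / 2) *
                  Real.exp (κ * (t * dist x z) ^ 2 / 2 - κ * dist x z ^ 2 / 2) := by
              rw [← Real.exp_add]; congr 1; ring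
            rw [h8]
            have h9 := Real.add_one_le_exp (κ * (t * dist x z) ^ 2 / 2 - κ * dist x z ^ 2 / 2)
            apply mul_le_mul_of_nonneg_left _ (Real.exp_pos _).le
            linarith
          rw [e4, e5]
          have e8 : κ * dist x z ^ 2 / 2 - κ * (t * dist x z) ^ 2 / 2 ≤
              (1 - t) * (κ * (2 * R) ^ 2) := by
            have : κ * dist x z ^ 2 / 2 - κ * (t * dist x z) ^ 2 / 2 =
                (1 - t) * (κ * dist x z ^ 2) * ((1 + t) / 2) := by ring
            rw [this]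
            have h9 : κ * dist x z ^ 2 ≤ κ * (2 * R) ^ 2 := by gcongr
            have h10 : 0 ≤ (1 - t) * (κ * dist x z ^ 2) := by positivity
            calc (1 - t) * (κ * dist x z ^ 2) * ((1 + t) / 2)
                ≤ (1 - t) * (κ * dist x z ^ 2) * 1 := by
                  gcongr; linarith [ht'.2]
              _ ≤ _ := by rw [mul_one]; gcongr
          have e9 : 0 ≤ κ * dist x z ^ 2 / 2 - κ * (t * dist x z) ^ 2 / 2 := by
            have : (t * dist x z) ^ 2 ≤ dist x z ^ 2 := by
              apply pow_le_pow_left₀ (by have := ht'.1; positivity)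
              nlinarith [ht'.2]
            nlinarith
          calc Real.exp (κ * dist x z ^ 2 / 2) - Real.exp (κ * (t * dist x z) ^ 2 / 2)
              ≤ Real.exp (κ * dist x z ^ 2 / 2) *
                (κ * dist x z ^ 2 / 2 - κ * (t * dist x z) ^ 2 / 2) := by linarith
            _ ≤ E * ((1 - t) * (κ * (2 * R) ^ 2)) := by
                apply mul_le_mul e6 e8 e9 hE0.le
            _ = _ := by ring
        have e10 : φ (C.T x t z) * (w (C.T x t z))⁻¹ - φ z * (w z)⁻¹ =
            (φ (C.T x t z) - φ z) * (w (C.T x t z))⁻¹ +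
              φ z * ((w (C.T x t z))⁻¹ - (w z)⁻¹) := by ring
        rw [e10]
        calc |(φ (C.T x t z) - φ z) * (w (C.T x t z))⁻¹ + φ z * ((w (C.T x t z))⁻¹ - (w z)⁻¹)|
            ≤ |φ (C.T x t z) - φ z| * |(w (C.T x t z))⁻¹| +
              |φ z| * |(w (C.T x t z))⁻¹ - (w z)⁻¹| := by
              rw [← abs_mul, ← abs_mul]; exact abs_add_le _ _
          _ ≤ (1 - t) * (|L| * (2 * R)) * E +
              (|φ x| + |L| * (2 * R)) * ((1 - t) * (E * (κ * (2 * R) ^ 2))) := by
              have h11 : |(w (C.T x t z))⁻¹| ≤ E := by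
                rw [abs_of_pos (inv_pos.2 (hwpos _))]; exact hwE _ hTz
              have h12 := hbd z hz
              have h13 : 0 ≤ |φ x| + |L| * (2 * R) := by positivity
              have h14 : 0 ≤ (1 - t) * (|L| * (2 * R)) := by positivity
              exact add_le_add (mul_le_mul e1 h11 (abs_nonneg _) h14)
                (mul_le_mul h12 e2 (abs_nonneg _) h13)
          _ = _ := by ring
      · rw [indicator_of_notMem hz, mul_zero]
        rw [Metric.mem_closedBall, dist_comm, not_le] at hz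
        rw [hsupp z (by linarith), hsupp (C.T x t z) (by rw [hdl]; nlinarith [ht.1])]
        simp)
    (by
      have : wm μ κ x (Metric.closedBall x (2 * R)) ≠ ∞ :=
        ne_top_of_le_ne_top hfin (wm_le μ x hκ _)
      exact (integrable_indicator_iff hmb2).2 (integrableOn_const this))
  rw [integral_wm, integral_wm] at key
  have i1 : ∫ z, wt κ (dist x z) * (φ z * (w z)⁻¹) ∂μ = ∫ z, φ z ∂μ := by
    apply integral_congr_ae
    refine Eventually.of_forall fun z => ?_
    have := (hwpos z).ne'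
    show w z * (φ z * (w z)⁻¹) = φ z
    field_simp
  have i2 : ∫ z, wt κ (dist x z) * (D z * (wt κ (dist x z))⁻¹ +
      φ z * (κ * dist x z ^ 2 * (wt κ (dist x z))⁻¹)) ∂μ =
      ∫ z, (D z + κ * dist x z ^ 2 * φ z) ∂μ := by
    apply integral_congr_ae
    refine Eventually.of_forall fun z => ?_
    have := (hwpos z).ne'
    show w z * (D z * (w z)⁻¹ + φ z * (κ * dist x z ^ 2 * (w z)⁻¹)) = _
    field_simp
  rw [i1, i2] at key
  have hint3 : Integrable (fun z => κ * dist x z ^ 2 * φ z) μ := by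
    have hb : Integrable (fun z => (κ * R ^ 2) * |φ z|) μ := hφint.abs.const_mul _
    refine hb.mono' ?_ (Eventually.of_forall fun z => ?_)
    · have : Measurable fun z => κ * dist x z ^ 2 :=
        ((continuous_const.dist continuous_id).measurable.pow_const 2).const_mul κ
      exact (this.mul hφ).aestronglyMeasurable
    · rw [Real.norm_eq_abs, abs_mul, abs_of_nonneg (by positivity : 0 ≤ κ * dist x z ^ 2)]
      by_cases hz : dist x z ≤ R
      · gcongr
      · rw [hsupp z (not_le.1 hz)]; simp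
  calc (0 : ℝ) ≤ n * ∫ z, φ z ∂μ + ∫ z, (D z + κ * dist x z ^ 2 * φ z) ∂μ := key
    _ = ∫ z, ((n + κ * dist x z ^ 2) * φ z + D z) ∂μ := by
      have hI2 : Integrable (fun z => D z + κ * dist x z ^ 2 * φ z) μ := hDint.add hint3
      rw [← integral_const_mul, ← integral_add (hφint.const_mul _) hI2]
      congr 1
      ext z
      ring

end Rad

end Crest.Agent.R247.Mcp688
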