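import Crest.Agent.R247.Mcp3_688

/-! # The comparison functional `ν_x = n + κ d_x² - Δ(d_x²/2) ≥ 0` and the volume drop

`cut r s` = `1` for `s ≤ r`, `2 - s/r` for `r ≤ s ≤ 2r`, `0` beyond. -/

set_option autoImplicit false
set_option linter.unusedSectionVars false
open MeasureTheory Set Filter Topology
open scoped ENNReal NNReal

noncomputable section
namespace Crest.Agent.R247.Mcp688

/-- piecewise linear cut-off -/
def cut (r s : ℝ) : ℝ := max 0 (min 1 (2 - s / r))

/-- its left derivative -/
def cut' (r s : ℝ) : ℝ := if r < s ∧ s ≤ 2 * r then -r⁻¹ else 0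

lemma cut_nonneg (r s : ℝ) : 0 ≤ cut r s := le_max_left _ _
lemma cut_le_one (r s : ℝ) : cut r s ≤ 1 := max_le zero_le_one (min_le_left _ _)

lemma cut_eq_one {r s : ℝ} (hr : 0 < r) (h : s ≤ r) : cut r s = 1 := by
  have : 1 ≤ 2 - s / r := by
    have : s / r ≤ 1 := (div_le_one hr).2 h
    linarith
  rw [cut, min_eq_left this, max_eq_right zero_le_one]

lemma cut_eq_zero {r s : ℝ} (hr : 0 < r) (h : 2 * r ≤ s) : cut r s = 0 := by
  have : 2 - s / r ≤ 0 := by
    have : 2 ≤ s / r := (le_div_iff₀ hr).2 h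
    linarith
  rw [cut, max_eq_left ((min_le_right _ _).trans this)]

lemma cut_mid {r s : ℝ} (hr : 0 < r) (h : r ≤ s) (h' : s ≤ 2 * r) : cut r s = 2 - s / r := by
  have h1 : 1 ≤ s / r := (le_div_iff₀ hr).2 (by linarith)
  have h2 : s / r ≤ 2 := (div_le_iff₀ hr).2 h'
  rw [cut, min_eq_right (by linarith), max_eq_right (by linarith)]

lemma abs_cut_sub {r : ℝ} (hr : 0 < r) (s t : ℝ) : |cut r s - cut r t| ≤ r⁻¹ * |s - t| := by
  unfold cut
  have h1 : |max 0 (min 1 (2 - s / r)) - max 0 (min 1 (2 - t / r))| ≤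
      |min 1 (2 - s / r) - min 1 (2 - t / r)| := by
    have := abs_max_sub_max_le_abs (min 1 (2 - s / r)) (min 1 (2 - t / r)) 0
    rwa [max_comm _ (0 : ℝ), max_comm _ (0 : ℝ)] at this
  have h2 : |min 1 (2 - s / r) - min 1 (2 - t / r)| ≤ |(2 - s / r) - (2 - t / r)| := by
    have := abs_min_sub_min_le_max (1 : ℝ) (2 - s / r) 1 (2 - t / r)
    rw [sub_self, abs_zero, max_eq_right (abs_nonneg _)] at this
    exact this
  refine h1.trans (h2.trans (le_of_eq ?_))
  rw [show (2 - s / r) - (2 - t / r) = -(r⁻¹ * (s - t)) by field_simp; ring, abs_neg, abs_mul,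
    abs_of_pos (inv_pos.2 hr)]

lemma continuous_cut {r : ℝ} : Continuous (cut r) := by
  unfold cut
  fun_prop

lemma hasDerivWithinAt_cut {r s : ℝ} (hr : 0 < r) :
    HasDerivWithinAt (cut r) (cut' r s) (Iio s) s := by
  rcases lt_or_ge s r with h | h
  · have e : cut' r s = 0 := by rw [cut', if_neg (fun h' => absurd h'.1 (not_lt.2 h.le))]
    rw [e]
    refine (hasDerivWithinAt_const s (Iio s) (1 : ℝ)).congr (fun t ht => ?_) ?_
    · exact cut_eq_one hr (by have : t < s := ht; linarith)
    · exact cut_eq_one hr h.le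
  rcases eq_or_lt_of_le h with h | h
  · have e : cut' r s = 0 := by rw [cut', if_neg (fun h' => absurd h'.1 (by rw [h]; exact lt_irrefl _))]
    rw [e]
    refine (hasDerivWithinAt_const s (Iio s) (1 : ℝ)).congr (fun t ht => ?_) ?_
    · exact cut_eq_one hr (by have : t < s := ht; linarith)
    · exact cut_eq_one hr h.symm.le
  rcases le_or_gt s (2 * r) with h' | h'
  · have e : cut' r s = -r⁻¹ := by rw [cut', if_pos ⟨h, h'⟩]
    rw [e]
    have h1 : HasDerivWithinAt (fun t : ℝ => 2 - t / r) (-r⁻¹) (Iio s) s := by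
      have := ((hasDerivAt_id s).div_const r).const_sub 2
      exact (this.congr_deriv (by simp)).hasDerivWithinAt
    refine h1.congr_of_eventuallyEq ?_ (cut_mid hr h.le h')
    filter_upwards [self_mem_nhdsWithin, mem_nhdsWithin_of_mem_nhds (lt_mem_nhds h)] with t ht ht'
    exact cut_mid hr ht'.le (by have : t < s := ht; linarith)
  · have e : cut' r s = 0 := by rw [cut', if_neg (fun h'' => absurd h''.2 (not_le.2 h'))]
    rw [e]
    refine (hasDerivWithinAt_const s (Iio s) (0 : ℝ)).congr_of_eventuallyEq ?_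
      (cut_eq_zero hr h'.le)
    filter_upwards [mem_nhdsWithin_of_mem_nhds (lt_mem_nhds h')] with t ht'
    exact cut_eq_zero hr ht'.le

/-- `cut r s = r⁻¹ ∫_r^{2r} 1_{s < u} du`. -/
lemma cut_eq_integral {r s : ℝ} (hr : 0 < r) :
    cut r s = r⁻¹ * ∫ u in Ioc r (2 * r), (if s < u then (1 : ℝ) else 0) := by
  have h1 : ∫ u in Ioc r (2 * r), (if s < u then (1 : ℝ) else 0) =
      (volume (Ioc r (2 * r) ∩ Ioi s)).toReal := by
    have : (fun u : ℝ => if s < u then (1 : ℝ) else 0) = (Ioi s).indicator (fun _ => (1 : ℝ)) := by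
      ext u; simp [indicator, mem_Ioi]
    rw [this, setIntegral_indicator measurableSet_Ioi, setIntegral_const]
    simp [Measure.real]
  have h2 : Ioc r (2 * r) ∩ Ioi s = Ioc (max r s) (2 * r) := by
    ext u; simp only [mem_inter_iff, mem_Ioc, mem_Ioi, max_lt_iff]; tauto
  rw [h1, h2, Real.volume_Ioc]
  rcases le_total s r with h | h
  · rw [max_eq_left h, cut_eq_one hr h, ENNReal.toReal_ofReal (by linarith)]
    field_simp; ring
  rcases le_total s (2 * r) with h' | h'
  · rw [max_eq_right h, cut_mid hr h h', ENNReal.toReal_ofReal (by linarith)]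
    field_simp
  · rw [max_eq_right h, cut_eq_zero hr h', ENNReal.ofReal_eq_zero.2 (by linarith)]
    simp

/-- `-s · cut' r s = r⁻¹ (2r 1_{s ≤ 2r} - r 1_{s ≤ r}) - cut r s`. -/
lemma mul_cut' {r s : ℝ} (hr : 0 < r) :
    cut' r s * s = cut r s - (if s ≤ 2 * r then 2 else 0) + (if s ≤ r then 1 else 0) := by
  rcases le_or_gt s r with h | h
  · rw [cut', if_neg (fun h' => absurd h'.1 (not_lt.2 h)), cut_eq_one hr h, if_pos h,
      if_pos (by linarith)]
    norm_num
  rcases le_or_gt s (2 * r) with h' | h'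
  · rw [cut', if_pos ⟨h, h'⟩, cut_mid hr h.le h', if_pos h', if_neg (not_le.2 h)]
    field_simp; ring
  · rw [cut', if_neg (fun h'' => absurd h''.2 (not_le.2 h')), cut_eq_zero hr h'.le,
      if_neg (not_le.2 h'), if_neg (not_le.2 h)]
    norm_num

variable {n : ℕ} {κ : ℝ} {X : Type*} [MetricSpace X] [MeasurableSpace X] [BorelSpace X]
  {μ : Measure X}

/-- real-valued volume of closed balls -/
def Vc (μ : Measure X) (x : X) (s : ℝ) : ℝ := μ.real (Metric.closedBall x s)

namespace Rad
variable (C : Rad n κ X μ)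

/-- the radial derivative of the cut-off -/
lemma RD_cut {x : X} {r : ℝ} (hr : 0 < r) :
    RD C x (fun z => cut r (dist x z)) (fun z => cut' r (dist x z) * dist x z) :=
  RD.radial (Eventually.of_forall fun _ _ => hasDerivWithinAt_cut hr)

include C in
lemma measure_closedBall_le (hκ : 0 ≤ κ) (x : X) {r R : ℝ} (hr : 0 < r) (hR : r ≤ R) :
    μ (Metric.closedBall x R) ≤
      ENNReal.ofReal (Real.exp (κ * R ^ 2 / 2) * (R / r) ^ n) * μ (Metric.closedBall x r) := by
  have h1 : ENNReal.ofReal (wt κ R) * μ (Metric.closedBall x R) ≤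
      wm μ κ x (Metric.closedBall x R) :=
    le_wm μ x hκ Metric.isClosed_closedBall.measurableSet fun z hz => by
      rw [dist_comm]; exact Metric.mem_closedBall.1 hz
  have h2 := C.closedBall_le x hr hR
  have h3 : wm μ κ x (Metric.closedBall x r) ≤ μ (Metric.closedBall x r) := wm_le μ x hκ _
  calc μ (Metric.closedBall x R)
      = ENNReal.ofReal (Real.exp (κ * R ^ 2 / 2)) *
          (ENNReal.ofReal (wt κ R) * μ (Metric.closedBall x R)) := by
        rw [← mul_assoc, ← ENNReal.ofReal_mul (Real.exp_pos _).le, wt, ← Real.exp_add,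
          add_neg_cancel, Real.exp_zero, ENNReal.ofReal_one, one_mul]
    _ ≤ ENNReal.ofReal (Real.exp (κ * R ^ 2 / 2)) *
          (ENNReal.ofReal ((R / r) ^ n) * μ (Metric.closedBall x r)) := by
        refine mul_le_mul_right (h1.trans (h2.trans ?_)) _
        gcongr
    _ = _ := by rw [← mul_assoc, ← ENNReal.ofReal_mul (Real.exp_pos _).le]

include C in
lemma closedBall_ne_top (hκ : 0 ≤ κ) (x : X) {r R : ℝ} (hr : 0 < r)
    (hfin : μ (Metric.closedBall x r) ≠ ∞) : μ (Metric.closedBall x R) ≠ ∞ := by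
  rcases le_total r R with h | h
  · exact ne_top_of_le_ne_top (ENNReal.mul_ne_top ENNReal.ofReal_ne_top hfin)
      (C.measure_closedBall_le hκ x hr h)
  · exact ne_top_of_le_ne_top hfin (measure_mono (Metric.closedBall_subset_closedBall h))

include C in
/-- Bishop–Gromov, real-valued, unweighted. -/
lemma Vc_le (hκ : 0 ≤ κ) (x : X) {r R : ℝ} (hr : 0 < r) (hR : r ≤ R)
    (hfin : μ (Metric.closedBall x r) ≠ ∞) :
    Vc μ x R ≤ Real.exp (κ * R ^ 2 / 2) * (R / r) ^ n * Vc μ x r := by
  have h := C.measure_closedBall_le hκ x hr hR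
  have h2 := ENNReal.toReal_mono (ENNReal.mul_ne_top ENNReal.ofReal_ne_top hfin) h
  rw [ENNReal.toReal_mul, ENNReal.toReal_ofReal (by have : 0 < R := hr.trans_le hR; positivity)]
    at h2
  exact h2

include C in
/-- the integral of the cut-off -/
lemma integral_cut_le (hκ : 0 ≤ κ) (x : X) {r : ℝ} (hr : 0 < r) [SFinite μ]
    (hfin : μ (Metric.closedBall x r) ≠ ∞) :
    (n + 1) * ∫ z, cut r (dist x z) ∂μ ≤
      Real.exp (2 * κ * r ^ 2) * (2 ^ (n + 1) - 1) * Vc μ x r := by
  have hd : Measurable fun z : X => dist x z := (continuous_const.dist continuous_id).measurable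
  have hm : Measurable fun z : X => cut r (dist x z) := (continuous_cut.measurable).comp hd
  -- Fubini
  have h1 : ∫⁻ z, ENNReal.ofReal (cut r (dist x z)) ∂μ =
      ENNReal.ofReal r⁻¹ * ∫⁻ u in Ioc r (2 * r), μ (Metric.ball x u) := by
    have e1 : ∀ z : X, ENNReal.ofReal (cut r (dist x z)) =
        ENNReal.ofReal r⁻¹ * ∫⁻ u in Ioc r (2 * r), (if dist x z < u then (1 : ℝ≥0∞) else 0) := by
      intro z
      rw [cut_eq_integral hr, ENNReal.ofReal_mul (inv_pos.2 hr).le,
        ofReal_integral_eq_lintegral_ofReal]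
      · congr 1
        apply lintegral_congr
        intro u
        split_ifs <;> simp
      · have : Integrable (fun _ : ℝ => (1 : ℝ)) (volume.restrict (Ioc r (2 * r))) :=
          integrable_const _
        refine this.mono' ?_ (Eventually.of_forall fun u => ?_)
        · exact (Measurable.ite (measurableSet_lt measurable_const measurable_id)
            measurable_const measurable_const).aestronglyMeasurable
        · split_ifs <;> simp
      · exact Eventually.of_forall fun u => by dsimp only; split_ifs <;> simp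
    simp_rw [e1]
    rw [lintegral_const_mul', lintegral_lintegral_swap]
    · congr 1
      apply lintegral_congr
      intro u
      have : (fun z : X => if dist x z < u then (1 : ℝ≥0∞) else 0) =
          (Metric.ball x u).indicator (fun _ => 1) := by
        ext z; simp [indicator, dist_comm]
      rw [this, lintegral_indicator_const Metric.isOpen_ball.measurableSet, one_mul]
    · apply Measurable.aemeasurable
      exact Measurable.ite (measurableSet_lt (hd.comp measurable_fst) measurable_snd)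
        measurable_const measurable_const
    · exact ENNReal.ofReal_ne_top
  have h2 : ∫⁻ u in Ioc r (2 * r), μ (Metric.ball x u) ≤
      ∫⁻ u in Ioc r (2 * r), ENNReal.ofReal (Real.exp (2 * κ * r ^ 2) * (u / r) ^ n * Vc μ x r) := by
    apply setLIntegral_mono (by fun_prop)
    intro u hu
    have h3 := (measure_mono Metric.ball_subset_closedBall).trans
      (C.measure_closedBall_le hκ x hr hu.1.le)
    refine h3.trans ?_
    have h4 : μ (Metric.closedBall x r) = ENNReal.ofReal (Vc μ x r) :=
      (ENNReal.ofReal_toReal hfin).symm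
    have hu0 : 0 < u := hr.trans hu.1
    rw [h4, ← ENNReal.ofReal_mul (by positivity)]
    apply ENNReal.ofReal_le_ofReal
    have h5 : 0 ≤ Vc μ x r := ENNReal.toReal_nonneg
    have h6 : κ * u ^ 2 / 2 ≤ 2 * κ * r ^ 2 := by
      have h7 : u ^ 2 ≤ (2 * r) ^ 2 := by gcongr; exact hu.2
      nlinarith
    gcongr
  have hV0 : 0 ≤ Vc μ x r := ENNReal.toReal_nonneg
  have h3 : ∫⁻ u in Ioc r (2 * r), ENNReal.ofReal (Real.exp (2 * κ * r ^ 2) * (u / r) ^ n * Vc μ x r) =
      ENNReal.ofReal (Real.exp (2 * κ * r ^ 2) * (r * (2 ^ (n + 1) - 1) / (n + 1)) * Vc μ x r) := by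
    rw [← ofReal_integral_eq_lintegral_ofReal]
    · congr 1
      rw [integral_mul_const, integral_const_mul]
      congr 2
      rw [← intervalIntegral.integral_of_le (by linarith)]
      have : ∀ u : ℝ, (u / r) ^ n = (r ^ n)⁻¹ * u ^ n := fun u => by rw [div_pow]; field_simp
      simp_rw [this]
      rw [intervalIntegral.integral_const_mul, integral_pow]
      field_simp
      ring
    · apply Continuous.integrableOn_Ioc
      fun_prop
    · refine (ae_restrict_mem measurableSet_Ioc).mono fun u hu => ?_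
      have : 0 < u := hr.trans hu.1
      show 0 ≤ Real.exp (2 * κ * r ^ 2) * (u / r) ^ n * Vc μ x r
      positivity
  have h4 : ∫ z, cut r (dist x z) ∂μ ≤
      r⁻¹ * (Real.exp (2 * κ * r ^ 2) * (r * (2 ^ (n + 1) - 1) / (n + 1)) * Vc μ x r) := by
    have hpos : 0 ≤ Real.exp (2 * κ * r ^ 2) * (r * (2 ^ (n + 1) - 1) / (n + 1)) * Vc μ x r := by
      have : (1 : ℝ) ≤ 2 ^ (n + 1) := one_le_pow₀ (by norm_num)
      have h9 : 0 ≤ (2 : ℝ) ^ (n + 1) - 1 := by linarith
      positivity
    rw [integral_eq_lintegral_of_nonneg_ae (Eventually.of_forall fun z => cut_nonneg _ _)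
      hm.aestronglyMeasurable, h1]
    refine ENNReal.toReal_le_of_le_ofReal (by positivity) ?_
    rw [ENNReal.ofReal_mul (inv_pos.2 hr).le, ← h3]
    gcongr
  have hn : (0 : ℝ) < n + 1 := by positivity
  calc (n + 1) * ∫ z, cut r (dist x z) ∂μ ≤ (n + 1) *
        (r⁻¹ * (Real.exp (2 * κ * r ^ 2) * (r * (2 ^ (n + 1) - 1) / (n + 1)) * Vc μ x r)) := by
        gcongr
    _ = _ := by field_simp

/-- the error constant times `κ r²` -/
def drop (n : ℕ) (κ : ℝ) (μ : Measure X) (x : X) (r : ℝ) : ℝ :=
  2 ^ (n + 1) * Vc μ x r - 2 * Vc μ x (2 * r) +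
    ((Real.exp (2 * κ * r ^ 2) - 1) * (2 ^ (n + 1) - 1) +
      4 * κ * r ^ 2 * (Real.exp (2 * κ * r ^ 2) * 2 ^ n)) * Vc μ x r

/-- in terms of volume ratios -/
lemma drop_eq (n : ℕ) (κ : ℝ) (μ : Measure X) (x : X) {r : ℝ} (hr : 0 < r) :
    drop n κ μ x r = 2 ^ (n + 1) * r ^ n * (Vc μ x r / r ^ n - Vc μ x (2 * r) / (2 * r) ^ n) +
    ((Real.exp (2 * κ * r ^ 2) - 1) * (2 ^ (n + 1) - 1) +
      4 * κ * r ^ 2 * (Real.exp (2 * κ * r ^ 2) * 2 ^ n)) * Vc μ x r := by
  unfold drop
  congr 1
  rw [mul_pow]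
  field_simp
  ring

lemma drop_le (n : ℕ) {κ : ℝ} (hκ : 0 ≤ κ) (μ : Measure X) (x : X) {r : ℝ} (hr : 0 < r)
    (h1 : κ * r ^ 2 ≤ 1) :
    drop n κ μ x r ≤ 2 ^ (n + 1) * r ^ n * (Vc μ x r / r ^ n - Vc μ x (2 * r) / (2 * r) ^ n) +
      64 * 2 ^ n * (κ * r ^ 2) * Vc μ x r := by
  rw [drop_eq n κ μ x hr]
  have hV : 0 ≤ Vc μ x r := ENNReal.toReal_nonneg
  set y := κ * r ^ 2 with hy
  have hy0 : 0 ≤ y := by positivity
  have e1 : 2 * κ * r ^ 2 = 2 * y := by rw [hy]; ring
  rw [e1]
  have h2 : Real.exp (2 * y) ≤ 8 := by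
    calc Real.exp (2 * y) ≤ Real.exp 2 := Real.exp_le_exp.2 (by linarith)
      _ = Real.exp 1 ^ 2 := by rw [← Real.exp_nat_mul]; norm_num
      _ ≤ 2.7182818286 ^ 2 := by
          have := Real.exp_one_lt_d9.le
          have h0 := (Real.exp_pos 1).le
          gcongr
      _ ≤ 8 := by norm_num
  have h3 : Real.exp (2 * y) - 1 ≤ 2 * y * 8 := by
    have h4 := Real.add_one_le_exp (-(2 * y))
    have h5 : Real.exp (-(2 * y)) * Real.exp (2 * y) = 1 := by
      rw [← Real.exp_add]; simp
    have h6 := Real.exp_pos (2 * y)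
    nlinarith
  have h3' : 0 ≤ Real.exp (2 * y) - 1 := by
    have := Real.add_one_le_exp (2 * y); linarith
  have hn1 : (2 : ℝ) ^ (n + 1) - 1 ≤ 2 * 2 ^ n := by rw [pow_succ]; linarith
  have hn2 : (0 : ℝ) ≤ 2 ^ n := by positivity
  have h7 : (Real.exp (2 * y) - 1) * (2 ^ (n + 1) - 1) ≤ 32 * 2 ^ n * y := by
    calc (Real.exp (2 * y) - 1) * (2 ^ (n + 1) - 1) ≤ (Real.exp (2 * y) - 1) * (2 * 2 ^ n) := by
          gcongr
      _ ≤ (2 * y * 8) * (2 * 2 ^ n) := by gcongr
      _ = _ := by ring
  have h8 : 4 * κ * r ^ 2 * (Real.exp (2 * y) * 2 ^ n) ≤ 32 * 2 ^ n * y := by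
    have : 4 * κ * r ^ 2 = 4 * y := by rw [hy]; ring
    rw [this]
    calc 4 * y * (Real.exp (2 * y) * 2 ^ n) ≤ 4 * y * (8 * 2 ^ n) := by gcongr
      _ = _ := by ring
  have h9 : ((Real.exp (2 * y) - 1) * (2 ^ (n + 1) - 1) +
      4 * κ * r ^ 2 * (Real.exp (2 * y) * 2 ^ n)) * Vc μ x r ≤ 64 * 2 ^ n * y * Vc μ x r := by
    apply mul_le_mul_of_nonneg_right _ hV
    linarith
  linarith

include C in
/-- the value of the comparison functional on the cut-off is at most the volume drop -/
theorem nu_cut (hκ : 0 ≤ κ) (x : X) {r : ℝ} (hr : 0 < r) [SFinite μ]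
    (hfin : μ (Metric.closedBall x r) ≠ ∞) :
    ∫ z, ((n + κ * dist x z ^ 2) * cut r (dist x z) + cut' r (dist x z) * dist x z) ∂μ ≤
      drop n κ μ x r := by
  have hd : Measurable fun z : X => dist x z := (continuous_const.dist continuous_id).measurable
  have hm : Measurable fun z : X => cut r (dist x z) := (continuous_cut.measurable).comp hd
  have hfin2 : μ (Metric.closedBall x (2 * r)) ≠ ∞ := C.closedBall_ne_top hκ x hr hfin
  have hV2 := C.Vc_le hκ x hr (R := 2 * r) (by linarith) hfin
  have e0 : Real.exp (κ * (2 * r) ^ 2 / 2) * (2 * r / r) ^ n =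
      Real.exp (2 * κ * r ^ 2) * 2 ^ n := by
    congr 2
    · ring
    · field_simp
  rw [e0] at hV2
  have hI2 : Integrable (fun z : X => if dist x z ≤ 2 * r then (2 : ℝ) else 0) μ := by
    have : (fun z : X => if dist x z ≤ 2 * r then (2 : ℝ) else 0) =
        (Metric.closedBall x (2 * r)).indicator (fun _ => 2) := by
      ext z; simp [indicator, dist_comm]
    rw [this]
    exact (integrable_indicator_iff Metric.isClosed_closedBall.measurableSet).2
      (integrableOn_const hfin2)
  have hI1 : Integrable (fun z : X => if dist x z ≤ r then (1 : ℝ) else 0) μ := by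
    have : (fun z : X => if dist x z ≤ r then (1 : ℝ) else 0) =
        (Metric.closedBall x r).indicator (fun _ => 1) := by
      ext z; simp [indicator, dist_comm]
    rw [this]
    exact (integrable_indicator_iff Metric.isClosed_closedBall.measurableSet).2
      (integrableOn_const hfin)
  have hIc : Integrable (fun z : X => cut r (dist x z)) μ := by
    refine hI2.mono' hm.aestronglyMeasurable (Eventually.of_forall fun z => ?_)
    rw [Real.norm_eq_abs, abs_of_nonneg (cut_nonneg _ _)]
    split_ifs with h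
    · exact (cut_le_one _ _).trans (by norm_num)
    · rw [cut_eq_zero hr (not_le.1 h).le]
  have hIk : Integrable (fun z : X => κ * dist x z ^ 2 * cut r (dist x z)) μ := by
    refine (hI2.const_mul (2 * κ * r ^ 2)).mono'
      (((hd.pow_const 2).const_mul κ).mul hm).aestronglyMeasurable
      (Eventually.of_forall fun z => ?_)
    rw [Real.norm_eq_abs, abs_of_nonneg (mul_nonneg (by positivity) (cut_nonneg _ _))]
    split_ifs with h
    · calc κ * dist x z ^ 2 * cut r (dist x z) ≤ κ * (2 * r) ^ 2 * 1 :=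
            mul_le_mul (by gcongr) (cut_le_one _ _) (cut_nonneg _ _) (by positivity)
        _ = _ := by ring
    · rw [cut_eq_zero hr (not_le.1 h).le]; simp
  have e1 : ∀ z : X, (n + κ * dist x z ^ 2) * cut r (dist x z) + cut' r (dist x z) * dist x z =
      (n + 1) * cut r (dist x z) + κ * dist x z ^ 2 * cut r (dist x z) -
        (if dist x z ≤ 2 * r then 2 else 0) + (if dist x z ≤ r then 1 else 0) := by
    intro z
    rw [mul_cut' hr]; ring
  simp_rw [e1]
  have hIa : Integrable (fun z : X => (n + 1) * cut r (dist x z)) μ := hIc.const_mul _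
  have hIab : Integrable (fun z : X => (n + 1) * cut r (dist x z) +
      κ * dist x z ^ 2 * cut r (dist x z)) μ := hIa.add hIk
  have hIabc : Integrable (fun z : X => (n + 1) * cut r (dist x z) +
      κ * dist x z ^ 2 * cut r (dist x z) - (if dist x z ≤ 2 * r then 2 else 0)) μ :=
    hIab.sub hI2
  rw [integral_add hIabc hI1, integral_sub hIab hI2, integral_add hIa hIk, integral_const_mul]
  have i2 : ∫ z : X, (if dist x z ≤ 2 * r then (2 : ℝ) else 0) ∂μ = 2 * Vc μ x (2 * r) := by
    have : (fun z : X => if dist x z ≤ 2 * r then (2 : ℝ) else 0) =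
        (Metric.closedBall x (2 * r)).indicator (fun _ => 2) := by
      ext z; simp [indicator, dist_comm]
    rw [this, integral_indicator_const _ Metric.isClosed_closedBall.measurableSet, smul_eq_mul,
      mul_comm, Vc]
  have i1 : ∫ z : X, (if dist x z ≤ r then (1 : ℝ) else 0) ∂μ = Vc μ x r := by
    have : (fun z : X => if dist x z ≤ r then (1 : ℝ) else 0) =
        (Metric.closedBall x r).indicator (fun _ => 1) := by
      ext z; simp [indicator, dist_comm]
    rw [this, integral_indicator_const _ Metric.isClosed_closedBall.measurableSet, smul_eq_mul,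
      mul_one, Vc]
  have ik : ∫ z : X, κ * dist x z ^ 2 * cut r (dist x z) ∂μ ≤ κ * (2 * r) ^ 2 * Vc μ x (2 * r) := by
    have : ∫ z : X, κ * dist x z ^ 2 * cut r (dist x z) ∂μ ≤
        ∫ z : X, (2 * κ * r ^ 2) * (if dist x z ≤ 2 * r then (2 : ℝ) else 0) ∂μ := by
      apply integral_mono hIk (hI2.const_mul _)
      intro z
      show κ * dist x z ^ 2 * cut r (dist x z) ≤ (2 * κ * r ^ 2) * (if dist x z ≤ 2 * r then (2 : ℝ) else 0)
      split_ifs with h
      · calc κ * dist x z ^ 2 * cut r (dist x z) ≤ κ * (2 * r) ^ 2 * 1 :=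
              mul_le_mul (by gcongr) (cut_le_one _ _) (cut_nonneg _ _) (by positivity)
          _ = _ := by ring
      · rw [cut_eq_zero hr (not_le.1 h).le]; simp
    refine this.trans (le_of_eq ?_)
    rw [integral_const_mul, i2]; ring
  rw [i1, i2]
  have ic := C.integral_cut_le hκ x hr hfin
  have hk0 : 0 ≤ κ * (2 * r) ^ 2 := by positivity
  have ik2 := mul_le_mul_of_nonneg_left hV2 hk0
  unfold drop
  nlinarith

/-- **The comparison functional is bounded by the volume drop** for every Lipschitz function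
supported in the ball. -/
theorem nu_bound (hκ : 0 ≤ κ) (x : X) {r : ℝ} (hr : 0 < r) [SFinite μ]
    (hfin : μ (Metric.closedBall x r) ≠ ∞) {φ D : X → ℝ} {L S : ℝ} (hφ : Measurable φ)
    (hL : ∀ y z, |φ y - φ z| ≤ L * dist y z) (hsupp : ∀ z, r < dist x z → φ z = 0)
    (hS : ∀ z, |φ z| ≤ S) (hD : RD C x φ D) :
    |∫ z, ((n + κ * dist x z ^ 2) * φ z + D z) ∂μ| ≤ S * drop n κ μ x r := by
  have hd : Measurable fun z : X => dist x z := (continuous_const.dist continuous_id).measurable
  have hm : Measurable fun z : X => cut r (dist x z) := (continuous_cut.measurable).comp hd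
  have hS0 : 0 ≤ S := (abs_nonneg _).trans (hS x)
  have hfin4 : μ (Metric.closedBall x (2 * (2 * r))) ≠ ∞ := C.closedBall_ne_top hκ x hr hfin
  have hfinr : μ (Metric.closedBall x (2 * r)) ≠ ∞ := C.closedBall_ne_top hκ x hr hfin
  have hcutL : ∀ y z : X, |cut r (dist x y) - cut r (dist x z)| ≤ r⁻¹ * dist y z := by
    intro y z
    refine (abs_cut_sub hr _ _).trans ?_
    gcongr
    rw [abs_le]
    have h1 := dist_triangle x z y
    have h2 := dist_triangle x y z
    rw [dist_comm z y] at h1
    constructor <;> linarith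
  have hcs : ∀ z : X, 2 * r < dist x z → cut r (dist x z) = 0 := fun z hz =>
    cut_eq_zero hr hz.le
  have hcD : RD C x (fun z => cut r (dist x z)) (fun z => cut' r (dist x z) * dist x z) :=
    C.RD_cut hr
  obtain ⟨hc1, hc2, hc3⟩ := C.weak_lap' hκ x hm (fun z => cut_nonneg _ _) hcutL (by positivity)
    hcs hfin4 hcD
  have key : ∀ σ : ℝ, |σ| = 1 → 0 ≤ ∫ z, ((n + κ * dist x z ^ 2) *
      (S * cut r (dist x z) + σ * φ z) + (S * (cut' r (dist x z) * dist x z) + σ * D z)) ∂μ := by
    intro σ hσ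
    refine (C.weak_lap' hκ x (φ := fun z => S * cut r (dist x z) + σ * φ z)
      (D := fun z => S * (cut' r (dist x z) * dist x z) + σ * D z)
      (L := S * r⁻¹ + L) (R := 2 * r) ((hm.const_mul S).add
      (hφ.const_mul σ)) (fun z => ?_) (fun y z => ?_) (by positivity) (fun z hz => ?_) hfin4
      ((hcD.const_mul S).add (hD.const_mul σ))).2.2
    · have h1 : |σ * φ z| ≤ S * cut r (dist x z) := by
        rw [abs_mul, hσ, one_mul]
        rcases le_or_gt (dist x z) r with h | h
        · rw [cut_eq_one hr h, mul_one]; exact hS z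
        · rw [hsupp z h, abs_zero]; exact mul_nonneg hS0 (cut_nonneg _ _)
      have := (abs_le.1 h1).1
      show 0 ≤ S * cut r (dist x z) + σ * φ z
      linarith
    · have e : S * cut r (dist x y) + σ * φ y - (S * cut r (dist x z) + σ * φ z) =
          S * (cut r (dist x y) - cut r (dist x z)) + σ * (φ y - φ z) := by ring
      show |S * cut r (dist x y) + σ * φ y - (S * cut r (dist x z) + σ * φ z)| ≤ _
      rw [e]
      refine (abs_add_le _ _).trans ?_
      rw [abs_mul, abs_mul, hσ, one_mul, abs_of_nonneg hS0]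
      have h1 := mul_le_mul_of_nonneg_left (hcutL y z) hS0
      have h2 := hL y z
      linarith
    · show S * cut r (dist x z) + σ * φ z = 0
      rw [hcs z hz, hsupp z (by linarith)]; simp
  -- integrability of `φ`, `D`
  have hφint : Integrable φ μ := by
    have hb : Integrable ((Metric.closedBall x r).indicator fun _ => S) μ :=
      (integrable_indicator_iff Metric.isClosed_closedBall.measurableSet).2
        (integrableOn_const hfin)
    refine hb.mono' hφ.aestronglyMeasurable (Eventually.of_forall fun z => ?_)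
    by_cases hz : z ∈ Metric.closedBall x r
    · rw [indicator_of_mem hz, Real.norm_eq_abs]; exact hS z
    · rw [indicator_of_notMem hz, Real.norm_eq_abs]
      rw [Metric.mem_closedBall, dist_comm, not_le] at hz
      rw [hsupp z hz, abs_zero]
  have hDint : Integrable D μ := hD.integrable hφ hL hsupp hfin
  have hw : ∀ {g : X → ℝ} {R : ℝ}, Integrable g μ → (∀ z, R < dist x z → g z = 0) →
      Integrable (fun z => (n + κ * dist x z ^ 2) * g z) μ := by
    intro g R hg hs
    have hb : Integrable (fun z => (n + κ * R ^ 2) * |g z|) μ := hg.abs.const_mul _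
    refine hb.mono' ?_ (Eventually.of_forall fun z => ?_)
    · have : Measurable fun z => (n + κ * dist x z ^ 2 : ℝ) :=
        ((hd.pow_const 2).const_mul κ).const_add _
      exact this.aestronglyMeasurable.mul hg.1
    · rw [Real.norm_eq_abs, abs_mul, abs_of_nonneg (by positivity :
        (0 : ℝ) ≤ n + κ * dist x z ^ 2)]
      by_cases hz : dist x z ≤ R
      · gcongr
      · rw [hs z (not_le.1 hz)]; simp
  have hA : Integrable (fun z => (n + κ * dist x z ^ 2) * cut r (dist x z) +
      cut' r (dist x z) * dist x z) μ := (hw hc1 hcs).add hc2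
  have hB : Integrable (fun z => (n + κ * dist x z ^ 2) * φ z + D z) μ :=
    (hw hφint hsupp).add hDint
  have hle := C.nu_cut hκ x hr hfin
  have hlin : ∀ σ : ℝ, ∫ z, ((n + κ * dist x z ^ 2) *
      (S * cut r (dist x z) + σ * φ z) + (S * (cut' r (dist x z) * dist x z) + σ * D z)) ∂μ =
      S * ∫ z, ((n + κ * dist x z ^ 2) * cut r (dist x z) +
        cut' r (dist x z) * dist x z) ∂μ +
      σ * ∫ z, ((n + κ * dist x z ^ 2) * φ z + D z) ∂μ := by
    intro σ
    rw [← integral_const_mul, ← integral_const_mul, ← integral_add (hA.const_mul S)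
      (hB.const_mul σ)]
    congr 1
    ext z
    ring
  have k1 := key 1 (by simp)
  have k2 := key (-1) (by simp)
  rw [hlin] at k1 k2
  have h3 := mul_le_mul_of_nonneg_left hle hS0
  rw [abs_le]
  constructor <;> linarith

end Rad

end Crest.Agent.R247.Mcp688
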