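import Crest.Agent.R247.Mcp1_688

/-! # Constructor of radial contraction structures from the set form of the contraction property -/

set_option autoImplicit false
set_option linter.unusedSectionVars false
open MeasureTheory Set Filter Topology
open scoped ENNReal NNReal

noncomputable section
namespace Crest.Agent.R247.Mcp688

section uniq
variable {X : Type*} [MetricSpace X]

/-- pairs joined by exactly one minimising geodesic -/
def Uniq (X : Type*) [MetricSpace X] : Set (X × X) :=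
  {p | ∀ c c', dist p.1 c + dist c p.2 = dist p.1 p.2 → dist p.1 c' + dist c' p.2 = dist p.1 p.2 →
    dist p.1 c = dist p.1 c' → c = c'}

/-- existence of intermediate points -/
def ExMid (X : Type*) [MetricSpace X] : Prop :=
  ∀ a b : X, ∀ t ∈ Icc (0 : ℝ) 1, ∃ c, dist a c = t * dist a b ∧ dist c b = (1 - t) * dist a b

open Classical in
/-- the contraction maps -/
def TT (hm : ExMid X) (x : X) (t : ℝ) (z : X) : X :=
  if h : (x, z) ∈ Uniq X ∧ t ∈ Icc (0 : ℝ) 1 then Classical.choose (hm x z t h.2) else x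

variable (hm : ExMid X)

lemma TT_spec {x z : X} (h : (x, z) ∈ Uniq X) {t : ℝ} (ht : t ∈ Icc (0 : ℝ) 1) :
    dist x (TT hm x t z) = t * dist x z ∧ dist (TT hm x t z) z = (1 - t) * dist x z := by
  rw [TT, dif_pos ⟨h, ht⟩]
  exact Classical.choose_spec (hm x z t ht)

lemma TT_unique {x z : X} (h : (x, z) ∈ Uniq X) {t : ℝ} (ht : t ∈ Icc (0 : ℝ) 1) {c : X}
    (h1 : dist x c = t * dist x z) (h2 : dist c z = (1 - t) * dist x z) : c = TT hm x t z := by
  obtain ⟨h3, h4⟩ := TT_spec hm h ht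
  apply h c (TT hm x t z)
  · show dist x c + dist c z = dist x z
    rw [h1, h2]; ring
  · show dist x _ + dist _ z = dist x z
    rw [h3, h4]; ring
  · show dist x c = dist x _
    rw [h1, h3]

lemma Uniq.symm {x z : X} (h : (x, z) ∈ Uniq X) : (z, x) ∈ Uniq X := by
  intro c c' h1 h2 h3
  simp only at h1 h2 h3
  apply h c c'
  · show dist x c + dist c z = dist x z
    rw [dist_comm x c, dist_comm c z, dist_comm x z]; linarith
  · show dist x c' + dist c' z = dist x z
    rw [dist_comm x c', dist_comm c' z, dist_comm x z]; linarith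
  · show dist x c = dist x c'
    rw [dist_comm x c, dist_comm x c']; linarith

/-- uniqueness passes to sub-geodesics -/
lemma Uniq.sub {x y z : X} (h : (x, z) ∈ Uniq X) (hy : dist x y + dist y z = dist x z) :
    (x, y) ∈ Uniq X := by
  have key : ∀ c, dist x c + dist c y = dist x y → dist x c + dist c z = dist x z := by
    intro c hc
    have h1 := dist_triangle c y z
    have h2 := dist_triangle x c z
    linarith
  intro c c' h1 h2 h3
  exact h c c' (key c h1) (key c' h2) h3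

lemma TT_sub {x z : X} (h : (x, z) ∈ Uniq X) {t : ℝ} (ht : t ∈ Icc (0 : ℝ) 1) :
    (x, TT hm x t z) ∈ Uniq X := by
  obtain ⟨h3, h4⟩ := TT_spec hm h ht
  exact Uniq.sub h (by rw [h3, h4]; ring)

lemma TT_one {x z : X} (h : (x, z) ∈ Uniq X) : TT hm x 1 z = z :=
  (TT_unique hm h ⟨zero_le_one, le_refl _⟩ (by ring) (by simp)).symm

lemma TT_zero {x z : X} (h : (x, z) ∈ Uniq X) : TT hm x 0 z = x :=
  (TT_unique hm h ⟨le_refl _, zero_le_one⟩ (by simp) (by ring)).symm

lemma TT_comp {x z : X} (h : (x, z) ∈ Uniq X) {s t : ℝ} (hs : s ∈ Icc (0 : ℝ) 1)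
    (ht : t ∈ Icc (0 : ℝ) 1) : TT hm x s (TT hm x t z) = TT hm x (s * t) z := by
  obtain ⟨h3, h4⟩ := TT_spec hm h ht
  obtain ⟨h5, h6⟩ := TT_spec hm (TT_sub hm h ht) hs
  have hst : s * t ∈ Icc (0 : ℝ) 1 := ⟨mul_nonneg hs.1 ht.1, mul_le_one₀ hs.2 ht.1 ht.2⟩
  have h7 : dist x (TT hm x s (TT hm x t z)) = s * t * dist x z := by rw [h5, h3]; ring
  apply TT_unique hm h hst h7
  have h8 := dist_triangle (TT hm x s (TT hm x t z)) (TT hm x t z) z
  have h9 := dist_triangle x (TT hm x s (TT hm x t z)) z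
  rw [h6, h4, h3] at h8
  rw [h7] at h9
  apply le_antisymm
  · linarith
  · linarith

lemma TT_symm {x z : X} (h : (x, z) ∈ Uniq X) {t : ℝ} (ht : t ∈ Icc (0 : ℝ) 1) :
    TT hm z t x = TT hm x (1 - t) z := by
  obtain ⟨h3, h4⟩ := TT_spec hm (Uniq.symm h) ht
  apply TT_unique hm h ⟨by linarith [ht.2], by linarith [ht.1]⟩
  · rw [dist_comm x, h4, dist_comm z x]
  · rw [dist_comm _ z, h3, dist_comm z x]; ring

lemma TT_dist {x z : X} (h : (x, z) ∈ Uniq X) {s t : ℝ} (hs : s ∈ Icc (0 : ℝ) 1)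
    (ht : t ∈ Icc (0 : ℝ) 1) :
    dist (TT hm x s z) (TT hm x t z) = |s - t| * dist x z := by
  wlog hst : s ≤ t generalizing s t
  · rw [dist_comm, this ht hs (le_of_not_ge hst), abs_sub_comm]
  rcases eq_or_lt_of_le ht.1 with h0 | h0
  · have : s = t := le_antisymm hst (by linarith [hs.1])
    rw [this]; simp
  · have hq : s / t ∈ Icc (0 : ℝ) 1 := ⟨div_nonneg hs.1 h0.le, (div_le_one h0).2 hst⟩
    have h1 := TT_comp hm h hq ht
    rw [div_mul_cancel₀ _ h0.ne'] at h1
    obtain ⟨_, h6⟩ := TT_spec hm (TT_sub hm h ht) hq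
    rw [h1, (TT_spec hm h ht).1] at h6
    rw [h6, abs_of_nonpos (by linarith)]
    field_simp
    ring

/-! ### Measurability -/

section meas
variable [ProperSpace X]

/-- pairs with two geodesics at least `δ` apart somewhere -/
def Nsep (X : Type*) [MetricSpace X] (δ : ℝ) : Set (X × X) :=
  {p | ∃ c c', dist p.1 c + dist c p.2 = dist p.1 p.2 ∧ dist p.1 c' + dist c' p.2 = dist p.1 p.2 ∧
    dist p.1 c = dist p.1 c' ∧ δ ≤ dist c c'}

/-- In a proper space an ultrafilter along which a map stays at bounded distance of a converging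
one has a limit. -/
lemma exists_lim {α : Type*} (G : Ultrafilter α) {u : α → X} {x₀ : X} {R : ℝ}
    (h : ∀ᶠ a in (G : Filter α), dist (u a) x₀ ≤ R) : ∃ c, Tendsto u G (𝓝 c) := by
  have h1 : Metric.closedBall x₀ R ∈ (G.map u : Filter X) := by
    show u ⁻¹' _ ∈ (G : Filter α)
    filter_upwards [h] with a ha using ha
  obtain ⟨c, _, hc⟩ := (isCompact_closedBall x₀ R).ultrafilter_le_nhds' (G.map u) h1
  exact ⟨c, hc⟩

lemma isClosed_Nsep (δ : ℝ) : IsClosed (Nsep X δ) := by
  rw [isClosed_iff_ultrafilter]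
  intro p G hG hN
  classical
  have hch : ∀ q : X × X, ∃ cc : X × X, q ∈ Nsep X δ →
      dist q.1 cc.1 + dist cc.1 q.2 = dist q.1 q.2 ∧
      dist q.1 cc.2 + dist cc.2 q.2 = dist q.1 q.2 ∧
      dist q.1 cc.1 = dist q.1 cc.2 ∧ δ ≤ dist cc.1 cc.2 := by
    intro q
    by_cases hq : q ∈ Nsep X δ
    · obtain ⟨c, c', h⟩ := hq
      exact ⟨(c, c'), fun _ => h⟩
    · exact ⟨q, fun h => absurd h hq⟩
  choose f hf using hch
  have t1 : Tendsto (fun q : X × X => q.1) G (𝓝 p.1) := (continuous_fst.tendsto p).mono_left hG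
  have t2 : Tendsto (fun q : X × X => q.2) G (𝓝 p.2) := (continuous_snd.tendsto p).mono_left hG
  have hev : ∀ᶠ q in (G : Filter (X × X)), q ∈ Nsep X δ := hN
  have td : Tendsto (fun q : X × X => dist q.1 q.2) G (𝓝 (dist p.1 p.2)) := t1.dist t2
  have tx : Tendsto (fun q : X × X => dist q.1 p.1) G (𝓝 0) := by
    have := t1.dist (tendsto_const_nhds (x := p.1))
    simpa using this
  have hb1 : ∀ᶠ q in (G : Filter (X × X)), dist q.1 q.2 ≤ dist p.1 p.2 + 1 :=
    (td.eventually (gt_mem_nhds (by linarith : dist p.1 p.2 < dist p.1 p.2 + 1))).mono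
      fun _ h => h.le
  have hb2 : ∀ᶠ q in (G : Filter (X × X)), dist q.1 p.1 ≤ 1 :=
    (tx.eventually (gt_mem_nhds (by norm_num : (0 : ℝ) < 1))).mono fun _ h => h.le
  obtain ⟨c, hc⟩ := exists_lim G (u := fun q => (f q).1) (x₀ := p.1) (R := dist p.1 p.2 + 2) (by
    filter_upwards [hev, hb1, hb2] with q h1 h2 h3
    obtain ⟨h4, _, _, _⟩ := hf q h1
    have h5 := dist_triangle (f q).1 q.1 p.1
    rw [dist_comm (f q).1 q.1] at h5
    have h6 := dist_nonneg (x := (f q).1) (y := q.2)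
    linarith)
  obtain ⟨c', hc'⟩ := exists_lim G (u := fun q => (f q).2) (x₀ := p.1) (R := dist p.1 p.2 + 2) (by
    filter_upwards [hev, hb1, hb2] with q h1 h2 h3
    obtain ⟨_, h4, _, _⟩ := hf q h1
    have h5 := dist_triangle (f q).2 q.1 p.1
    rw [dist_comm (f q).2 q.1] at h5
    have h6 := dist_nonneg (x := (f q).2) (y := q.2)
    linarith)
  refine ⟨c, c', ?_, ?_, ?_, ?_⟩
  · refine tendsto_nhds_unique ((t1.dist hc).add (hc.dist t2)) (td.congr' ?_)
    filter_upwards [hev] with q h1 using (hf q h1).1.symm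
  · refine tendsto_nhds_unique ((t1.dist hc').add (hc'.dist t2)) (td.congr' ?_)
    filter_upwards [hev] with q h1 using (hf q h1).2.1.symm
  · refine tendsto_nhds_unique (t1.dist hc) ((t1.dist hc').congr' ?_)
    filter_upwards [hev] with q h1 using (hf q h1).2.2.1.symm
  · refine ge_of_tendsto (hc.dist hc') ?_
    filter_upwards [hev] with q h1 using (hf q h1).2.2.2

lemma Uniq_eq : Uniq X = ⋂ m : ℕ, (Nsep X (1 / ((m : ℝ) + 1)))ᶜ := by
  ext p
  simp only [mem_iInter, mem_compl_iff]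
  constructor
  · rintro h m ⟨c, c', h1, h2, h3, h4⟩
    rw [h c c' h1 h2 h3, dist_self] at h4
    have : (0 : ℝ) < 1 / ((m : ℝ) + 1) := by positivity
    linarith
  · intro h c c' h1 h2 h3
    by_contra hne
    obtain ⟨m, hm⟩ := exists_nat_one_div_lt (dist_pos.2 hne)
    exact h m ⟨c, c', h1, h2, h3, hm.le⟩

variable [MeasurableSpace X] [BorelSpace X]

lemma measurableSet_Uniq : MeasurableSet (Uniq X) := by
  rw [Uniq_eq]
  exact MeasurableSet.iInter fun m => (isClosed_Nsep _).measurableSet.compl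

/-- the domain of the contraction map -/
def Sdom (X : Type*) [MetricSpace X] : Set (X × ℝ × X) :=
  {p | (p.1, p.2.2) ∈ Uniq X ∧ p.2.1 ∈ Icc (0 : ℝ) 1}

lemma continuousOn_TT : ContinuousOn (fun p : X × ℝ × X => TT hm p.1 p.2.1 p.2.2) (Sdom X) := by
  intro p hp
  refine tendsto_iff_ultrafilter _ _ _ |>.2 fun G hG => ?_
  have hGn : (G : Filter (X × ℝ × X)) ≤ 𝓝 p := hG.trans nhdsWithin_le_nhds
  have hev : ∀ᶠ q in (G : Filter (X × ℝ × X)), q ∈ Sdom X := hG self_mem_nhdsWithin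
  have t1 : Tendsto (fun q : X × ℝ × X => q.1) G (𝓝 p.1) :=
    (continuous_fst.tendsto p).mono_left hGn
  have t2 : Tendsto (fun q : X × ℝ × X => q.2.1) G (𝓝 p.2.1) :=
    ((continuous_fst.comp continuous_snd).tendsto p).mono_left hGn
  have t3 : Tendsto (fun q : X × ℝ × X => q.2.2) G (𝓝 p.2.2) :=
    ((continuous_snd.comp continuous_snd).tendsto p).mono_left hGn
  have td : Tendsto (fun q : X × ℝ × X => dist q.1 q.2.2) G (𝓝 (dist p.1 p.2.2)) := t1.dist t3
  have tx : Tendsto (fun q : X × ℝ × X => dist q.1 p.1) G (𝓝 0) := by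
    have := t1.dist (tendsto_const_nhds (x := p.1))
    simpa using this
  have hb1 : ∀ᶠ q in (G : Filter (X × ℝ × X)), dist q.1 q.2.2 ≤ dist p.1 p.2.2 + 1 :=
    (td.eventually (gt_mem_nhds (by linarith : dist p.1 p.2.2 < dist p.1 p.2.2 + 1))).mono
      fun _ h => h.le
  have hb2 : ∀ᶠ q in (G : Filter (X × ℝ × X)), dist q.1 p.1 ≤ 1 :=
    (tx.eventually (gt_mem_nhds (by norm_num : (0 : ℝ) < 1))).mono fun _ h => h.le
  obtain ⟨c, hc⟩ := exists_lim G (u := fun q => TT hm q.1 q.2.1 q.2.2) (x₀ := p.1)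
    (R := dist p.1 p.2.2 + 2) (by
    filter_upwards [hev, hb1, hb2] with q h1 h2 h3
    obtain ⟨h4, h5⟩ := TT_spec hm h1.1 h1.2
    have h6 := dist_triangle (TT hm q.1 q.2.1 q.2.2) q.1 p.1
    rw [dist_comm _ q.1, h4] at h6
    have h7 : q.2.1 * dist q.1 q.2.2 ≤ 1 * dist q.1 q.2.2 := by
      gcongr
      exact h1.2.2
    linarith)
  have e1 : dist p.1 c = p.2.1 * dist p.1 p.2.2 := by
    refine tendsto_nhds_unique (t1.dist hc) ((t2.mul td).congr' ?_)
    filter_upwards [hev] with q h1 using (TT_spec hm h1.1 h1.2).1.symm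
  have e2 : dist c p.2.2 = (1 - p.2.1) * dist p.1 p.2.2 := by
    refine tendsto_nhds_unique (hc.dist t3) (((t2.const_sub 1).mul td).congr' ?_)
    filter_upwards [hev] with q h1 using (TT_spec hm h1.1 h1.2).2.symm
  rw [TT_unique hm hp.1 hp.2 e1 e2] at hc
  exact hc

lemma measurable_TT : Measurable (fun p : X × ℝ × X => TT hm p.1 p.2.1 p.2.2) := by
  classical
  have hS : MeasurableSet (Sdom X) := by
    have h1 : Measurable (fun p : X × ℝ × X => (p.1, p.2.2)) :=
      measurable_fst.prodMk measurable_snd.snd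
    exact (h1 measurableSet_Uniq).inter ((measurable_snd.fst) measurableSet_Icc)
  have heq : (fun p : X × ℝ × X => TT hm p.1 p.2.1 p.2.2) =
      (Sdom X).piecewise (fun p => TT hm p.1 p.2.1 p.2.2) (fun p => p.1) := by
    funext p
    by_cases hp : p ∈ Sdom X
    · rw [piecewise_eq_of_mem _ _ _ hp]
    · rw [piecewise_eq_of_notMem _ _ _ hp, TT, dif_neg]
      exact hp
  rw [heq]
  exact (continuousOn_TT hm).measurable_piecewise continuous_fst.continuousOn hS

end meas

end uniq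

/-! ### The contraction property -/

section contr
variable {X : Type*} [MetricSpace X] [ProperSpace X] [MeasurableSpace X] [BorelSpace X]
  (μ : Measure X) {κ : ℝ} (x : X)

lemma wm_le' (hκ : 0 ≤ κ) {s : Set X} (hs : MeasurableSet s) {a : ℝ} (ha : 0 ≤ a)
    (h : ∀ z ∈ s, a ≤ dist x z) : wm μ κ x s ≤ ENNReal.ofReal (wt κ a) * μ s := by
  rw [wm_apply μ x hs, ← setLIntegral_const]
  apply setLIntegral_mono measurable_const
  intro z hz
  exact ENNReal.ofReal_le_ofReal (wt_anti hκ ha (h z hz))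

/-- the set of `t`-intermediate points -/
def Mid (x : X) (t : ℝ) (A : Set X) : Set X :=
  {y | ∃ z ∈ A, dist x y = t * dist x z ∧ dist z y = (1 - t) * dist x z}

variable [IsFiniteMeasureOnCompacts μ] {n : ℕ} (hm : ExMid X)

include hm in
/-- thin annulus estimate -/
lemma annulus_est (hκ : 0 ≤ κ) {t : ℝ} (ht : t ∈ Ioc (0 : ℝ) 1)
    (hset : ∀ R : ℝ, ∀ A : Set X, IsCompact A → A ⊆ Metric.closedBall x R →
      ENNReal.ofReal (t ^ n * Real.exp (-(κ * R ^ 2 * (1 - t ^ 2) / 2))) * μ A ≤ μ (Mid x t A))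
    {B : Set X} (hB : MeasurableSet B) {a b : ℝ} (ha : 0 ≤ a) :
    wm μ κ x ({z | TT hm x t z ∈ B ∧ (x, z) ∈ Uniq X} ∩ {z | dist x z ∈ Ico a b}) ≤
      ENNReal.ofReal ((t⁻¹) ^ n * Real.exp (κ * (b ^ 2 - a ^ 2) / 2)) *
        wm μ κ x (B ∩ {z | dist x z ∈ Ico (t * a) (t * b)}) := by
  have ht' : t ∈ Icc (0 : ℝ) 1 := ⟨ht.1.le, ht.2⟩
  have hd : Measurable fun z : X => dist x z := (continuous_const.dist continuous_id).measurable
  have hTm : Measurable (TT hm x t) := (measurable_TT hm).comp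
    (measurable_const.prodMk (measurable_const.prodMk measurable_id))
  have hUm : MeasurableSet {z | (x, z) ∈ Uniq X} :=
    (measurable_const.prodMk measurable_id) measurableSet_Uniq
  set E : Set X := {z | TT hm x t z ∈ B ∧ (x, z) ∈ Uniq X} ∩ {z | dist x z ∈ Ico a b} with hE
  have hEm : MeasurableSet E := ((hTm hB).inter hUm).inter (hd measurableSet_Ico)
  set B' : Set X := B ∩ {z | dist x z ∈ Ico (t * a) (t * b)} with hB'
  have hB'm : MeasurableSet B' := hB.inter (hd measurableSet_Ico)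
  have hEball : E ⊆ Metric.closedBall x b := fun z hz => by
    rw [Metric.mem_closedBall, dist_comm]; exact hz.2.2.le
  have hEfin : μ E ≠ ∞ := ne_top_of_le_ne_top (isCompact_closedBall x b).measure_lt_top.ne
    (measure_mono hEball)
  have hpos : 0 < t ^ n * Real.exp (-(κ * b ^ 2 * (1 - t ^ 2) / 2)) := by
    have := ht.1; positivity
  have h1 : ∀ A : Set X, IsCompact A → A ⊆ E →
      ENNReal.ofReal (t ^ n * Real.exp (-(κ * b ^ 2 * (1 - t ^ 2) / 2))) * μ A ≤ μ B' := by
    intro A hA hAE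
    refine (hset b A hA (hAE.trans hEball)).trans (measure_mono ?_)
    rintro y ⟨z, hz, h2, h3⟩
    have hzE := hAE hz
    have hy : y = TT hm x t z := by
      apply TT_unique hm hzE.1.2 ht' h2
      rw [dist_comm y z, h3]
    refine ⟨by rw [hy]; exact hzE.1.1, ?_, ?_⟩
    · show t * a ≤ dist x y
      rw [h2]
      have := mul_le_mul_of_nonneg_left hzE.2.1 ht.1.le
      exact this
    · show dist x y < t * b
      rw [h2]
      exact mul_lt_mul_of_pos_left hzE.2.2 ht.1
  have h2 : ENNReal.ofReal (t ^ n * Real.exp (-(κ * b ^ 2 * (1 - t ^ 2) / 2))) * μ E ≤ μ B' := by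
    rw [hEm.measure_eq_iSup_isCompact_of_ne_top hEfin]
    rw [ENNReal.mul_iSup]
    refine iSup_le fun A => ?_
    rw [ENNReal.mul_iSup]
    refine iSup_le fun hAE => ?_
    rw [ENNReal.mul_iSup]
    exact iSup_le fun hA => h1 A hA hAE
  have h3 : wm μ κ x E ≤ ENNReal.ofReal (wt κ a) * μ E := wm_le' μ x hκ hEm ha fun z hz => hz.2.1
  have h4 : ENNReal.ofReal (wt κ (t * b)) * μ B' ≤ wm μ κ x B' :=
    le_wm μ x hκ hB'm fun z hz => hz.2.2.le
  -- numbers
  have ht0 := ht.1
  have e1 : ENNReal.ofReal (wt κ a) = ENNReal.ofReal ((t⁻¹) ^ n * Real.exp (κ * (b ^ 2 - a ^ 2) / 2))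
      * (ENNReal.ofReal (wt κ (t * b)) *
        ENNReal.ofReal (t ^ n * Real.exp (-(κ * b ^ 2 * (1 - t ^ 2) / 2)))) := by
    rw [← ENNReal.ofReal_mul (wt_pos _ _).le, ← ENNReal.ofReal_mul (by positivity)]
    congr 1
    have e2 : (t⁻¹) ^ n * t ^ n = 1 := by rw [← mul_pow, inv_mul_cancel₀ ht0.ne', one_pow]
    have e3 : Real.exp (κ * (b ^ 2 - a ^ 2) / 2) * (wt κ (t * b) *
        Real.exp (-(κ * b ^ 2 * (1 - t ^ 2) / 2))) = wt κ a := by
      unfold wt
      rw [← Real.exp_add, ← Real.exp_add]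
      congr 1
      ring
    calc wt κ a = 1 * (Real.exp (κ * (b ^ 2 - a ^ 2) / 2) * (wt κ (t * b) *
        Real.exp (-(κ * b ^ 2 * (1 - t ^ 2) / 2)))) := by rw [e3, one_mul]
      _ = _ := by rw [← e2]; ring
  calc wm μ κ x E ≤ ENNReal.ofReal (wt κ a) * μ E := h3
    _ = ENNReal.ofReal ((t⁻¹) ^ n * Real.exp (κ * (b ^ 2 - a ^ 2) / 2)) *
        (ENNReal.ofReal (wt κ (t * b)) *
          (ENNReal.ofReal (t ^ n * Real.exp (-(κ * b ^ 2 * (1 - t ^ 2) / 2))) * μ E)) := by
        rw [e1]; ring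
    _ ≤ ENNReal.ofReal ((t⁻¹) ^ n * Real.exp (κ * (b ^ 2 - a ^ 2) / 2)) *
        (ENNReal.ofReal (wt κ (t * b)) * μ B') := by gcongr
    _ ≤ _ := by gcongr

include hm in
theorem contr_of_set (hκ : 0 ≤ κ) {t : ℝ} (ht : t ∈ Ioc (0 : ℝ) 1)
    (hU : ∀ᵐ z ∂μ, (x, z) ∈ Uniq X)
    (hset : ∀ R : ℝ, ∀ A : Set X, IsCompact A → A ⊆ Metric.closedBall x R →
      ENNReal.ofReal (t ^ n * Real.exp (-(κ * R ^ 2 * (1 - t ^ 2) / 2))) * μ A ≤ μ (Mid x t A)) :
    (wm μ κ x).map (TT hm x t) ≤ ENNReal.ofReal ((t⁻¹) ^ n) • wm μ κ x := by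
  have ht0 := ht.1
  have hd : Measurable fun z : X => dist x z := (continuous_const.dist continuous_id).measurable
  have hTm : Measurable (TT hm x t) := (measurable_TT hm).comp
    (measurable_const.prodMk (measurable_const.prodMk measurable_id))
  have hUm : MeasurableSet {z | (x, z) ∈ Uniq X} :=
    (measurable_const.prodMk measurable_id) measurableSet_Uniq
  refine Measure.le_iff.2 fun B hB => ?_
  rw [Measure.map_apply hTm hB, Measure.smul_apply, smul_eq_mul]
  set E : Set X := {z | TT hm x t z ∈ B ∧ (x, z) ∈ Uniq X} with hE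
  have hEm : MeasurableSet E := (hTm hB).inter hUm
  have h0 : wm μ κ x (TT hm x t ⁻¹' B) ≤ wm μ κ x E := by
    apply measure_mono_ae
    filter_upwards [(ae_wm_iff μ x κ).2 hU] with z hz hzB using ⟨hzB, hz⟩
  refine h0.trans ?_
  -- the bound with `ε`
  have key : ∀ ε : ℝ, 0 < ε → wm μ κ x E ≤
      ENNReal.ofReal ((t⁻¹) ^ n * Real.exp (κ * ε / 2)) * wm μ κ x B := by
    intro ε hε
    set a : ℕ → ℝ := fun k => Real.sqrt (k * ε) with ha
    have ha0 : ∀ k, 0 ≤ a k := fun k => Real.sqrt_nonneg _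
    have hasq : ∀ k, a k ^ 2 = k * ε := fun k => Real.sq_sqrt (by positivity)
    have hmono : ∀ k, a k ≤ a (k + 1) := fun k => Real.sqrt_le_sqrt (by
      push_cast; nlinarith)
    have hamono : Monotone a := monotone_nat_of_le_succ hmono
    have ha00 : a 0 = 0 := by simp [ha]
    have htend : Tendsto a atTop atTop := by
      have : Tendsto (fun k : ℕ => (k : ℝ) * ε) atTop atTop :=
        tendsto_natCast_atTop_atTop.atTop_mul_const hε
      exact Real.tendsto_sqrt_atTop.comp this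
    have hcover : ∀ d : ℝ, 0 ≤ d → ∃ k : ℕ, d ∈ Ico (a k) (a (k + 1)) := by
      intro d hd0
      classical
      have hex : ∃ k : ℕ, d < a k := (htend.eventually (eventually_gt_atTop d)).exists
      have hk := Nat.find_spec hex
      have hk0 : Nat.find hex ≠ 0 := by
        intro h; rw [h, ha00] at hk; linarith
      obtain ⟨m, hm'⟩ := Nat.exists_eq_succ_of_ne_zero hk0
      refine ⟨m, ?_, ?_⟩
      · by_contra hcon
        exact Nat.find_min hex (m := m) (by omega) (not_le.1 hcon)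
      · rw [← Nat.succ_eq_add_one, ← hm']; exact hk
    have hEsub : E ⊆ ⋃ k, (E ∩ {z | dist x z ∈ Ico (a k) (a (k + 1))}) := by
      intro z hz
      obtain ⟨k, hk⟩ := hcover (dist x z) dist_nonneg
      exact mem_iUnion.2 ⟨k, hz, hk⟩
    have hdisj : Pairwise (Function.onFun Disjoint fun k : ℕ =>
        (B ∩ {z | dist x z ∈ Ico (t * a k) (t * a (k + 1))})) := by
      intro i j hij
      wlog hlt : i < j generalizing i j
      · exact (this hij.symm (by omega)).symm
      rw [Function.onFun, Set.disjoint_left]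
      rintro z ⟨_, hz1⟩ ⟨_, hz2⟩
      have h1 : a (i + 1) ≤ a j := hamono hlt
      have h2 : t * a (i + 1) ≤ t * a j := by gcongr
      have h3 := hz1.2
      have h4 := hz2.1
      linarith
    have hexp : ∀ k, Real.exp (κ * (a (k + 1) ^ 2 - a k ^ 2) / 2) = Real.exp (κ * ε / 2) := by
      intro k
      rw [hasq, hasq]; congr 1; push_cast; ring
    calc wm μ κ x E ≤ wm μ κ x (⋃ k, (E ∩ {z | dist x z ∈ Ico (a k) (a (k + 1))})) :=
          measure_mono hEsub
      _ ≤ ∑' k, wm μ κ x (E ∩ {z | dist x z ∈ Ico (a k) (a (k + 1))}) := measure_iUnion_le _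
      _ ≤ ∑' k, ENNReal.ofReal ((t⁻¹) ^ n * Real.exp (κ * ε / 2)) *
            wm μ κ x (B ∩ {z | dist x z ∈ Ico (t * a k) (t * a (k + 1))}) := by
          refine ENNReal.tsum_le_tsum fun k => ?_
          have := annulus_est μ x hm hκ ht hset hB (ha0 k) (b := a (k + 1))
          rwa [hexp] at this
      _ = ENNReal.ofReal ((t⁻¹) ^ n * Real.exp (κ * ε / 2)) *
            ∑' k, wm μ κ x (B ∩ {z | dist x z ∈ Ico (t * a k) (t * a (k + 1))}) := by
          rw [ENNReal.tsum_mul_left]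
      _ = ENNReal.ofReal ((t⁻¹) ^ n * Real.exp (κ * ε / 2)) *
            wm μ κ x (⋃ k, (B ∩ {z | dist x z ∈ Ico (t * a k) (t * a (k + 1))})) := by
          rw [measure_iUnion hdisj fun k => hB.inter (hd measurableSet_Ico)]
      _ ≤ _ := by
          gcongr
          exact iUnion_subset fun k => inter_subset_left
  -- let `ε → 0`
  have hlim : Tendsto (fun ε : ℝ => ENNReal.ofReal ((t⁻¹) ^ n * Real.exp (κ * ε / 2)) *
      wm μ κ x B) (𝓝[>] 0) (𝓝 (ENNReal.ofReal ((t⁻¹) ^ n) * wm μ κ x B)) := by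
    apply ENNReal.Tendsto.mul_const
    · apply ENNReal.tendsto_ofReal
      have hc : Continuous fun ε : ℝ => (t⁻¹) ^ n * Real.exp (κ * ε / 2) := by fun_prop
      have := (hc.tendsto 0).mono_left (nhdsWithin_le_nhds (s := Ioi 0))
      simpa using this
    · left
      have : 0 < (t⁻¹) ^ n := by positivity
      simpa using this
  exact ge_of_tendsto hlim (eventually_mem_nhdsWithin.mono fun ε hε => key ε hε)

/-- **Constructor** of radial contraction structures. -/
def Rad.ofSet (hκ : 0 ≤ κ) (hU : ∀ x : X, ∀ᵐ z ∂μ, (x, z) ∈ Uniq X)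
    (hset : ∀ x : X, ∀ t ∈ Ioc (0 : ℝ) 1, ∀ R : ℝ, ∀ A : Set X, IsCompact A →
      A ⊆ Metric.closedBall x R →
      ENNReal.ofReal (t ^ n * Real.exp (-(κ * R ^ 2 * (1 - t ^ 2) / 2))) * μ A ≤ μ (Mid x t A)) :
    Rad n κ X μ where
  U := Uniq X
  T := TT hm
  measU := measurableSet_Uniq
  measT := measurable_TT hm
  ae_U := hU
  symm := fun _ _ h => Uniq.symm h
  T_symm := fun _ _ h _ ht => TT_symm hm h ht
  sub := fun _ _ h _ ht => TT_sub hm h ⟨ht.1.le, ht.2⟩
  comp := fun _ _ h _ hs _ ht => TT_comp hm h hs ⟨ht.1.le, ht.2⟩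
  T_one := fun _ _ h => TT_one hm h
  T_zero := fun _ _ h => TT_zero hm h
  dist_T := fun _ _ h _ hs _ ht => TT_dist hm h hs ht
  contr := fun x t ht => contr_of_set μ x hm hκ ht (hU x) (hset x t ht)

end contr

end Crest.Agent.R247.Mcp688
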