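import Mathlib.Analysis.InnerProductSpace.PiL2
import Mathlib.Analysis.InnerProductSpace.Calculus
import Mathlib.Analysis.Calculus.ContDiff.Basic
import Mathlib.Analysis.Calculus.MeanValue
import Mathlib.Analysis.Calculus.Deriv.Polynomial
import Mathlib.LinearAlgebra.Matrix.Charpoly.Coeff
import Mathlib.LinearAlgebra.Trace
import Mathlib.Topology.Algebra.Module.Determinant

/-!
Row 247, block (6c)/(6d) (helper816), file 1: first order expansion of the determinant.
-/

set_option autoImplicit false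
set_option maxSynthPendingDepth 3

open scoped Topology ContDiff
open Set

noncomputable section

namespace Crest.Agent.R247.Mcs816

variable {E : Type*} [NormedAddCommGroup E] [InnerProductSpace ℝ E] [FiniteDimensional ℝ E]

omit [FiniteDimensional ℝ E] in
/-- second order Taylor bound from a Lipschitz bound of the derivative on a convex set. -/
theorem taylor_of_lip {F : Type*} [NormedAddCommGroup F] [NormedSpace ℝ F]
    {V : Type*} [NormedAddCommGroup V] [NormedSpace ℝ V]
    {f : V → F} {s : Set V} (hs : Convex ℝ s) {C : ℝ}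
    (hf : ∀ y ∈ s, DifferentiableAt ℝ f y)
    (hL : ∀ y ∈ s, ∀ y' ∈ s, ‖fderiv ℝ f y' - fderiv ℝ f y‖ ≤ C * ‖y' - y‖)
    {y y' : V} (hy : y ∈ s) (hy' : y' ∈ s) :
    ‖f y' - f y - fderiv ℝ f y (y' - y)‖ ≤ C * ‖y' - y‖ ^ 2 := by
  have hseg : segment ℝ y y' ⊆ s := hs.segment_subset hy hy'
  have hC : ∀ z ∈ segment ℝ y y', ‖fderiv ℝ f z - fderiv ℝ f y‖ ≤ |C| * ‖y' - y‖ := by
    intro z hz
    have h1 := hL y hy z (hseg hz)
    have h2 : ‖z - y‖ ≤ ‖y' - y‖ := by
      obtain ⟨a, b, ha, hb, hab, rfl⟩ := hz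
      have : a • y + b • y' - y = b • (y' - y) := by
        have : a = 1 - b := by linarith
        rw [this, sub_smul, one_smul, smul_sub]; abel
      rw [this, norm_smul, Real.norm_eq_abs, abs_of_nonneg hb]
      have : b ≤ 1 := by linarith
      nlinarith [norm_nonneg (y' - y)]
    calc _ ≤ C * ‖z - y‖ := h1
      _ ≤ |C| * ‖z - y‖ := by gcongr; exact le_abs_self C
      _ ≤ |C| * ‖y' - y‖ := by gcongr
  have h := (convex_segment y y').norm_image_sub_le_of_norm_hasFDerivWithin_le'
    (f := f) (f' := fun z => fderiv ℝ f z) (φ := fderiv ℝ f y) (C := |C| * ‖y' - y‖)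
    (fun z hz => (hf z (hseg hz)).hasFDerivAt.hasFDerivWithinAt) hC
    (left_mem_segment ℝ y y') (right_mem_segment ℝ y y')
  by_cases hyy : y' = y
  · subst hyy; simp
  · have hpos : 0 < ‖y' - y‖ := norm_pos_iff.2 (sub_ne_zero.2 hyy)
    have hC0 : 0 ≤ C := by
      by_contra hneg
      push Not at hneg
      have h3 := hL y hy y' hy'
      have : C * ‖y' - y‖ < 0 := mul_neg_of_neg_of_pos hneg hpos
      linarith [norm_nonneg (fderiv ℝ f y' - fderiv ℝ f y)]
    rw [abs_of_nonneg hC0] at h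
    calc _ ≤ C * ‖y' - y‖ * ‖y' - y‖ := h
      _ = C * ‖y' - y‖ ^ 2 := by ring

/-- the trace as a continuous linear functional. -/
def trL (E : Type*) [NormedAddCommGroup E] [InnerProductSpace ℝ E] [FiniteDimensional ℝ E] :
    (E →L[ℝ] E) →L[ℝ] ℝ :=
  LinearMap.toContinuousLinearMap
    ((LinearMap.trace ℝ E).comp (ContinuousLinearMap.coeLM ℝ))

theorem trL_apply (L : E →L[ℝ] E) : trL E L = LinearMap.trace ℝ E (L : E →ₗ[ℝ] E) := rfl

omit [FiniteDimensional ℝ E] in
theorem det_eq_matrix (b : OrthonormalBasis (Fin (Module.finrank ℝ E)) ℝ E) (L : E →L[ℝ] E) :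
    L.det = (Matrix.of fun i j => inner ℝ (b i) (L (b j))).det := by
  have h : L.det = LinearMap.det (L : E →ₗ[ℝ] E) := rfl
  rw [h, ← LinearMap.det_toMatrix b.toBasis]
  congr 1
  ext i j
  rw [LinearMap.toMatrix_apply]
  simp [OrthonormalBasis.repr_apply_apply]

theorem trace_eq_matrix (b : OrthonormalBasis (Fin (Module.finrank ℝ E)) ℝ E) (L : E →L[ℝ] E) :
    trL E L = (Matrix.of fun i j => inner ℝ (b i) (L (b j))).trace := by
  rw [trL_apply, LinearMap.trace_eq_matrix_trace ℝ b.toBasis]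
  congr 1
  ext i j
  rw [LinearMap.toMatrix_apply]
  simp [OrthonormalBasis.repr_apply_apply]

theorem contDiff_det : ContDiff ℝ ∞ (fun L : E →L[ℝ] E => L.det) := by
  have b := stdOrthonormalBasis ℝ E
  have h : (fun L : E →L[ℝ] E => L.det) = fun L =>
      ∑ σ : Equiv.Perm (Fin (Module.finrank ℝ E)), (σ.sign : ℤ) • ∏ i,
        inner ℝ (b (σ i)) (L (b i)) := by
    funext L
    rw [det_eq_matrix b L, Matrix.det_apply]
    rfl
  rw [h]
  refine ContDiff.sum fun σ _ => ?_
  refine ContDiff.const_smul _ (contDiff_prod fun i _ => ?_)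
  have : ContDiff ℝ ∞ fun L : E →L[ℝ] E => L (b i) :=
    (ContinuousLinearMap.apply ℝ E (b i)).contDiff
  exact contDiff_const.inner ℝ this

theorem hasDerivAt_det_line (L : E →L[ℝ] E) :
    HasDerivAt (fun t : ℝ => ((ContinuousLinearMap.id ℝ E) + t • L).det) (trL E L) 0 := by
  have b := stdOrthonormalBasis ℝ E
  set M : Matrix (Fin (Module.finrank ℝ E)) (Fin (Module.finrank ℝ E)) ℝ :=
    Matrix.of fun i j => inner ℝ (b i) (L (b j)) with hM
  have hmat : ∀ t : ℝ, (Matrix.of fun i j => inner ℝ (b i)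
      (((ContinuousLinearMap.id ℝ E) + t • L) (b j))) = 1 + t • M := by
    intro t
    ext i j
    simp only [Matrix.of_apply, _root_.add_apply, _root_.smul_apply,
      ContinuousLinearMap.id_apply, inner_add_right, inner_smul_right, Matrix.add_apply,
      Matrix.smul_apply, hM, smul_eq_mul]
    congr 1
    rw [Matrix.one_apply]
    exact (orthonormal_iff_ite.1 b.orthonormal) i j
  have h : (fun t : ℝ => ((ContinuousLinearMap.id ℝ E) + t • L).det) = fun t : ℝ =>
      1 + M.trace * t + (Matrix.det (1 + (Polynomial.X : Polynomial ℝ) •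
        M.map Polynomial.C)).divX.divX.eval t * t ^ 2 := by
    funext t
    rw [det_eq_matrix b, hmat, Matrix.det_one_add_smul]
  rw [h, trace_eq_matrix b L]
  set P := (Matrix.det (1 + (Polynomial.X : Polynomial ℝ) • M.map Polynomial.C)).divX.divX
  have h1 : HasDerivAt (fun t : ℝ => 1 + M.trace * t) (M.trace) 0 := by
    simpa using ((hasDerivAt_id (0 : ℝ)).const_mul M.trace).const_add 1
  have h2 : HasDerivAt (fun t : ℝ => P.eval t * t ^ 2) 0 0 := by
    have := (P.hasDerivAt (0 : ℝ)).mul (hasDerivAt_pow 2 (0 : ℝ))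
    refine (this.congr_deriv (by simp)).congr_of_eventuallyEq (Filter.Eventually.of_forall
      fun t => rfl)
  exact ((h1.add h2).congr_deriv (add_zero _)).congr_of_eventuallyEq (Filter.Eventually.of_forall
      fun t => rfl)

theorem fderiv_det_id (L : E →L[ℝ] E) :
    fderiv ℝ (fun L : E →L[ℝ] E => L.det) (ContinuousLinearMap.id ℝ E) L = trL E L := by
  have h1 : HasDerivAt (fun t : ℝ => (ContinuousLinearMap.id ℝ E) + t • L) L 0 := by
    simpa using ((hasDerivAt_id (0 : ℝ)).smul_const L).const_add (ContinuousLinearMap.id ℝ E)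
  have h2 : HasFDerivAt (fun L : E →L[ℝ] E => L.det)
      (fderiv ℝ (fun L : E →L[ℝ] E => L.det) (ContinuousLinearMap.id ℝ E))
      ((ContinuousLinearMap.id ℝ E) + (0 : ℝ) • L) := by
    rw [zero_smul, add_zero]
    exact (contDiff_det.differentiable (by simp)).differentiableAt.hasFDerivAt
  have h3 := h2.comp_hasDerivAt (0 : ℝ) h1
  exact h3.unique (hasDerivAt_det_line L)

/-- `det (1 + L) = 1 + tr L + O(‖L‖²)`. -/
theorem exists_det_bound (E : Type*) [NormedAddCommGroup E] [InnerProductSpace ℝ E]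
    [FiniteDimensional ℝ E] : ∃ K : ℝ, 0 ≤ K ∧ ∀ L : E →L[ℝ] E, ‖L‖ ≤ 1 →
    |((ContinuousLinearMap.id ℝ E) + L).det - 1 - trL E L| ≤ K * ‖L‖ ^ 2 := by
  set f : (E →L[ℝ] E) → ℝ := fun L => L.det with hf
  have hcd : ContDiff ℝ ∞ f := contDiff_det
  have hf' : ContDiff ℝ ∞ (fderiv ℝ f) := hcd.fderiv_right (by simp)
  set s := Metric.closedBall (ContinuousLinearMap.id ℝ E) (1 : ℝ) with hs
  have hcomp : IsCompact s := isCompact_closedBall _ _
  have hcont : Continuous fun L => ‖fderiv ℝ (fderiv ℝ f) L‖ :=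
    ((hf'.fderiv_right (m := ∞) (by simp)).continuous).norm
  obtain ⟨K, hK⟩ := hcomp.bddAbove_image hcont.continuousOn
  have hK' : ∀ L ∈ s, ‖fderiv ℝ (fderiv ℝ f) L‖ ≤ max K 0 := fun L hL =>
    (hK ⟨L, hL, rfl⟩).trans (le_max_left _ _)
  have hconv : Convex ℝ s := convex_closedBall _ _
  have hlip : ∀ y ∈ s, ∀ y' ∈ s, ‖fderiv ℝ f y' - fderiv ℝ f y‖ ≤ max K 0 * ‖y' - y‖ := by
    intro y hy y' hy'
    exact hconv.norm_image_sub_le_of_norm_fderiv_le
      (fun z _ => (hf'.differentiable (by simp)).differentiableAt) hK' hy hy'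
  refine ⟨max K 0, le_max_right _ _, fun L hL => ?_⟩
  have h := taylor_of_lip hconv (fun z _ => (hcd.differentiable (by simp)).differentiableAt)
    hlip (y := ContinuousLinearMap.id ℝ E) (y' := (ContinuousLinearMap.id ℝ E) + L)
    (Metric.mem_closedBall_self (by norm_num)) (by
      rw [hs, Metric.mem_closedBall, dist_eq_norm, add_sub_cancel_left]; exact hL)
  rw [add_sub_cancel_left, fderiv_det_id, Real.norm_eq_abs] at h
  have hid : f (ContinuousLinearMap.id ℝ E) = 1 := by
    simp only [hf]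
    exact LinearMap.det_id
  rw [hid] at h
  exact h

end Crest.Agent.R247.Mcs816
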