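import Crest.Agent.R247.Mcs1_816
import Mathlib.MeasureTheory.Function.Jacobian
import Mathlib.MeasureTheory.Measure.Haar.InnerProductSpace

/-!
Row 247, block (6c)/(6d) (helper816), file 2: one discrete gradient step for a finite minimum of
smooth functions, in coordinates.
-/

set_option autoImplicit false
set_option maxSynthPendingDepth 3

open scoped Topology ContDiff ENNReal
open Set MeasureTheory

noncomputable section

namespace Crest.Agent.R247.Mcs816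

variable {E : Type*} [NormedAddCommGroup E] [InnerProductSpace ℝ E] [FiniteDimensional ℝ E]

/-- a uniformly smooth sequence of functions `f k` on `U`, with gradients `v k` with respect to the
metric `gg`, and with Laplacian (with respect to the density `w`) at most `H`. -/
structure LF (U : Set E) (w : E → ℝ) (gg : E → E →L[ℝ] E →L[ℝ] ℝ)
    (f : ℕ → E → ℝ) (v : ℕ → E → E) (C H : ℝ) : Prop where
  isOpen : IsOpen U
  one_le : 1 ≤ C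
  w_lower : ∀ y ∈ U, 1 ≤ C * w y
  w_fd : ∀ y ∈ U, ‖fderiv ℝ w y‖ ≤ C
  w_cont : ContinuousOn w U
  w_taylor : ∀ y ∈ U, ∀ y' ∈ U, |w y' - w y - fderiv ℝ w y (y' - y)| ≤ C * ‖y' - y‖ ^ 2
  gg_lower : ∀ y ∈ U, ∀ u, ‖u‖ ^ 2 ≤ C * gg y u u
  gg_lip : ∀ y ∈ U, ∀ y' ∈ U, ∀ u u', |gg y' u u' - gg y u u'| ≤ C * ‖y' - y‖ * ‖u‖ * ‖u'‖
  v_grad : ∀ k, ∀ y ∈ U, ∀ u, gg y (v k y) u = fderiv ℝ (f k) y u
  f_cont : ∀ k, ContinuousOn (f k) U
  f_taylor : ∀ k, ∀ y ∈ U, ∀ y' ∈ U,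
    |f k y' - f k y - fderiv ℝ (f k) y (y' - y)| ≤ C * ‖y' - y‖ ^ 2
  v_bd : ∀ k, ∀ y ∈ U, ‖v k y‖ ≤ C
  v_diff : ∀ k, ∀ y ∈ U, DifferentiableAt ℝ (v k) y
  v_fd : ∀ k, ∀ y ∈ U, ‖fderiv ℝ (v k) y‖ ≤ C
  div : ∀ k, ∀ y ∈ U, fderiv ℝ w y (v k y) + w y * trL E (fderiv ℝ (v k) y) ≤ H * w y

variable {U : Set E} {w : E → ℝ} {gg : E → E →L[ℝ] E →L[ℝ] ℝ}
  {f : ℕ → E → ℝ} {v : ℕ → E → E} {C H : ℝ}

/-- injectivity of the discrete step. -/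
theorem LF.inj (h : LF U w gg f v C H) {δ : ℝ} (hδ : 0 ≤ δ) (hδ' : C * δ * (2 * C + C ^ 2) < 1)
    {k j : ℕ} {y y' : E} (hy : y ∈ U) (hy' : y' ∈ U) (hk : f k y ≤ f j y) (hj : f j y' ≤ f k y')
    (he : y - δ • v k y = y' - δ • v j y') : y = y' := by
  set u := y - y' with hu
  have hC : 0 < C := by linarith [h.one_le]
  have hue : u = δ • (v k y - v j y') := by
    rw [smul_sub, hu]
    have h0 : y - y' - (δ • v k y - δ • v j y') = 0 := by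
      have : y - y' - (δ • v k y - δ • v j y') = (y - δ • v k y) - (y' - δ • v j y') := by abel
      rw [this, he, sub_self]
    exact sub_eq_zero.1 h0
  have h1 := (abs_le.1 (h.f_taylor k y hy y' hy')).2
  have h2 := (abs_le.1 (h.f_taylor j y' hy' y hy)).2
  have hn : ‖y' - y‖ = ‖u‖ := by rw [hu, norm_sub_rev]
  have e1 : fderiv ℝ (f k) y (y' - y) = - fderiv ℝ (f k) y u := by
    rw [hu, ← map_neg, neg_sub]
  have h3 : fderiv ℝ (f k) y u - fderiv ℝ (f j) y' u ≤ 2 * C * ‖u‖ ^ 2 := by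
    rw [hn, e1] at h1
    rw [← hu] at h2
    linarith
  have h4 := (abs_le.1 (h.gg_lip y hy y' hy' (v j y') u)).2
  rw [hn] at h4
  have h5 : C * ‖u‖ * ‖v j y'‖ * ‖u‖ ≤ C ^ 2 * ‖u‖ ^ 2 := by
    have := h.v_bd j y' hy'
    have h6 : C * ‖u‖ * ‖v j y'‖ * ‖u‖ ≤ C * ‖u‖ * C * ‖u‖ := by gcongr
    linarith [h6, show C * ‖u‖ * C * ‖u‖ = C ^ 2 * ‖u‖ ^ 2 by ring]
  have h7 : gg y u u = δ * (gg y (v k y) u - gg y (v j y') u) := by
    have : gg y u = δ • (gg y (v k y) - gg y (v j y')) := by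
      rw [hue, map_smul, map_sub]
    rw [this, _root_.smul_apply, _root_.sub_apply, smul_eq_mul]
  have h8 : gg y (v k y) u - gg y (v j y') u ≤ (2 * C + C ^ 2) * ‖u‖ ^ 2 := by
    have e2 := h.v_grad k y hy u
    have e3 := h.v_grad j y' hy' u
    nlinarith
  have h9 := h.gg_lower y hy u
  have h10 : ‖u‖ ^ 2 ≤ C * δ * (2 * C + C ^ 2) * ‖u‖ ^ 2 := by
    rw [h7] at h9
    calc ‖u‖ ^ 2 ≤ C * (δ * (gg y (v k y) u - gg y (v j y') u)) := h9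
      _ ≤ C * (δ * ((2 * C + C ^ 2) * ‖u‖ ^ 2)) := by gcongr
      _ = _ := by ring
  have h11 : ‖u‖ ^ 2 = 0 := by
    by_contra hne
    have hpos : 0 < ‖u‖ ^ 2 := lt_of_le_of_ne (by positivity) (Ne.symm hne)
    nlinarith
  have h12 : ‖u‖ = 0 := by simpa using h11
  exact sub_eq_zero.1 (norm_eq_zero.1 h12)

/-- pointwise Jacobian bound. -/
theorem exists_jac (E : Type*) [NormedAddCommGroup E] [InnerProductSpace ℝ E]
    [FiniteDimensional ℝ E] (C : ℝ) (hC : 1 ≤ C) :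
    ∃ C' δ0 : ℝ, 0 ≤ C' ∧ 0 < δ0 ∧ ∀ (W w W' : ℝ) (L : E →L[ℝ] E) (δ H : ℝ), 0 ≤ δ → δ ≤ δ0 →
      ‖L‖ ≤ C → |W| ≤ C ^ 2 → 1 ≤ C * w → |W' - w + δ * W| ≤ C ^ 3 * δ ^ 2 →
      0 ≤ W' → W + w * trL E L ≤ H * w →
      0 < ((ContinuousLinearMap.id ℝ E) - δ • L).det ∧
      (1 - δ * H - C' * δ ^ 2) * w ≤ ((ContinuousLinearMap.id ℝ E) - δ • L).det * W' := by
  obtain ⟨K, hK0, hK⟩ := exists_det_bound E
  set T := ‖trL E‖ * C with hT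
  have hT0 : 0 ≤ T := by positivity
  set D := K * C ^ 2 with hD
  have hD0 : 0 ≤ D := by positivity
  refine ⟨(D + C ^ 4 + T * C ^ 3 + C ^ 4 * T + C ^ 3 * D) , min 1 (min (1 / C) (1 / (2 * (T + D) + 2))), by positivity, by positivity, ?_⟩
  intro W w W' L δ H hδ hδ0 hL hW hw hW' hW0 hH
  have hδ1 : δ ≤ 1 := hδ0.trans (min_le_left _ _)
  have hδ2 : δ ≤ 1 / C := hδ0.trans ((min_le_right _ _).trans (min_le_left _ _))
  have hδ3 : δ ≤ 1 / (2 * (T + D) + 2) :=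
    hδ0.trans ((min_le_right _ _).trans (min_le_right _ _))
  have hC0 : 0 < C := by linarith
  have hw0 : 0 < w := by
    by_contra hneg
    push Not at hneg
    nlinarith
  have hnorm : ‖-(δ • L)‖ ≤ δ * C := by
    rw [norm_neg, norm_smul, Real.norm_eq_abs, abs_of_nonneg hδ]
    gcongr
  have hnorm1 : ‖-(δ • L)‖ ≤ 1 := by
    refine hnorm.trans ?_
    rw [le_div_iff₀ hC0] at hδ2
    exact hδ2
  have h1 := hK _ hnorm1
  rw [← sub_eq_add_neg, map_neg, map_smul, smul_eq_mul] at h1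
  have h2 : K * ‖-(δ • L)‖ ^ 2 ≤ D * δ ^ 2 := by
    calc K * ‖-(δ • L)‖ ^ 2 ≤ K * (δ * C) ^ 2 := by gcongr
      _ = D * δ ^ 2 := by rw [hD]; ring
  have h3 := (abs_le.1 (h1.trans h2)).1
  set t := trL E L with ht
  have htT : |t| ≤ T := by
    calc |t| = ‖trL E L‖ := rfl
      _ ≤ ‖trL E‖ * ‖L‖ := (trL E).le_opNorm L
      _ ≤ T := by rw [hT]; gcongr
  have ht1 := (abs_le.1 htT).1
  have ht2 := (abs_le.1 htT).2
  set d := ((ContinuousLinearMap.id ℝ E) - δ • L).det with hd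
  have h4 : 1 - δ * t - D * δ ^ 2 ≤ d := by linarith
  have hsq : δ ^ 2 ≤ δ := by nlinarith
  have h5 : (1 : ℝ) / 2 ≤ 1 - δ * t - D * δ ^ 2 := by
    have h6 : δ * (2 * (T + D) + 2) ≤ 1 := by
      rwa [le_div_iff₀ (by positivity)] at hδ3
    have h7 : δ * t ≤ δ * T := by gcongr
    have h8 : D * δ ^ 2 ≤ D * δ := by gcongr
    linarith
  have h6 : 0 < d := by linarith
  refine ⟨h6, ?_⟩
  have h7 : w - δ * W - C ^ 3 * δ ^ 2 ≤ W' := by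
    have := (abs_le.1 hW').1
    linarith
  have h8 : (1 - δ * t - D * δ ^ 2) * (w - δ * W - C ^ 3 * δ ^ 2) ≤ d * W' := by
    calc (1 - δ * t - D * δ ^ 2) * (w - δ * W - C ^ 3 * δ ^ 2) ≤
        (1 - δ * t - D * δ ^ 2) * W' := by gcongr
      _ ≤ d * W' := by gcongr
  refine le_trans ?_ h8
  have hWa := (abs_le.1 hW).1
  have hWb := (abs_le.1 hW).2
  -- expand
  have e1 : (1 - δ * t - D * δ ^ 2) * (w - δ * W - C ^ 3 * δ ^ 2) =
      w - δ * (W + w * t) - D * δ ^ 2 * w - C ^ 3 * δ ^ 2 + δ ^ 2 * (t * W)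
        + C ^ 3 * δ ^ 3 * t + D * δ ^ 3 * W + D * C ^ 3 * δ ^ 4 := by ring
  rw [e1]
  have hcw : C ^ 3 ≤ C ^ 4 * w := by
    have : C ^ 3 * 1 ≤ C ^ 3 * (C * w) := by gcongr
    linarith
  have htW : -(T * C ^ 2) ≤ t * W := by
    have : |t * W| ≤ T * C ^ 2 := by rw [abs_mul]; gcongr
    exact (abs_le.1 this).1
  have hC2w : C ^ 2 ≤ C ^ 3 * w := by
    have : C ^ 2 * 1 ≤ C ^ 2 * (C * w) := by gcongr
    linarith
  have hd3 : δ ^ 3 ≤ δ ^ 2 := by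
    have : δ ^ 2 * δ ≤ δ ^ 2 * 1 := by gcongr
    linarith
  have t1 : C ^ 3 * δ ^ 2 ≤ C ^ 4 * δ ^ 2 * w := by
    have : δ ^ 2 * C ^ 3 ≤ δ ^ 2 * (C ^ 4 * w) := by gcongr
    linarith
  have t2 : -(T * C ^ 3 * δ ^ 2 * w) ≤ δ ^ 2 * (t * W) := by
    have : δ ^ 2 * (T * C ^ 2) ≤ δ ^ 2 * (T * (C ^ 3 * w)) := by gcongr
    have h' : δ ^ 2 * (-(T * C ^ 2)) ≤ δ ^ 2 * (t * W) := by gcongr
    linarith
  have t3 : -(C ^ 4 * T * δ ^ 2 * w) ≤ C ^ 3 * δ ^ 3 * t := by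
    have a1 : C ^ 3 * δ ^ 3 * (-T) ≤ C ^ 3 * δ ^ 3 * t := by gcongr
    have a2 : C ^ 3 * δ ^ 3 * T ≤ C ^ 3 * δ ^ 2 * T := by gcongr
    have a3 : C ^ 3 * δ ^ 2 * T ≤ (C ^ 4 * w) * δ ^ 2 * T := by gcongr
    linarith
  have t4 : -(C ^ 3 * D * δ ^ 2 * w) ≤ D * δ ^ 3 * W := by
    have a1 : D * δ ^ 3 * (-(C ^ 2)) ≤ D * δ ^ 3 * W := by gcongr
    have a2 : D * δ ^ 3 * C ^ 2 ≤ D * δ ^ 2 * C ^ 2 := by gcongr
    have a3 : D * δ ^ 2 * C ^ 2 ≤ D * δ ^ 2 * (C ^ 3 * w) := by gcongr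
    linarith
  have t5 : 0 ≤ D * C ^ 3 * δ ^ 4 := by positivity
  have t6 : δ * (W + w * t) ≤ δ * (H * w) := by gcongr
  linarith

end Crest.Agent.R247.Mcs816
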