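import Crest.Agent.R247.Mcs2_816

/-!
Row 247, block (6c)/(6d) (helper816), file 3: the measure estimate for one discrete gradient step.
-/

set_option autoImplicit false
set_option maxSynthPendingDepth 3

open scoped Topology ContDiff ENNReal
open Set MeasureTheory

noncomputable section

namespace Crest.Agent.R247.Mcs816

variable {E : Type*} [NormedAddCommGroup E] [InnerProductSpace ℝ E] [FiniteDimensional ℝ E]

/-- the piece of `A` where `k` is the first index of the minimum of `f j`, `j < N`. -/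
def piece (f : ℕ → E → ℝ) (N : ℕ) (A : Set E) (k : ℕ) : Set E :=
  {y | y ∈ A ∧ (∀ j < N, f k y ≤ f j y) ∧ ∀ j < k, f k y < f j y}

omit [InnerProductSpace ℝ E] [FiniteDimensional ℝ E] in
theorem biUnion_piece [InnerProductSpace ℝ E] (f : ℕ → E → ℝ) {N : ℕ} (hN : 0 < N) (A : Set E) :
    ⋃ k ∈ Finset.range N, piece f N A k = A := by
  ext y
  simp only [mem_iUnion, Finset.mem_range, exists_prop]
  constructor
  · rintro ⟨k, -, hk⟩; exact hk.1
  · intro hy
    -- a minimiser exists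
    have h1 : ∃ k, k < N ∧ ∀ j < N, f k y ≤ f j y := by
      obtain ⟨k, hk, hmin⟩ := Finset.exists_min_image (Finset.range N) (fun k => f k y)
        ⟨0, Finset.mem_range.2 hN⟩
      exact ⟨k, Finset.mem_range.1 hk, fun j hj => hmin j (Finset.mem_range.2 hj)⟩
    classical
    refine ⟨Nat.find h1, (Nat.find_spec h1).1, hy, (Nat.find_spec h1).2, fun j hj => ?_⟩
    have h2 := Nat.find_min h1 hj
    have hjN : j < N := hj.trans (Nat.find_spec h1).1
    by_contra hcon
    push Not at hcon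
    exact h2 ⟨hjN, fun i hi => hcon.trans ((Nat.find_spec h1).2 i hi)⟩

omit [InnerProductSpace ℝ E] [FiniteDimensional ℝ E] in
theorem piece_disjoint [InnerProductSpace ℝ E] (f : ℕ → E → ℝ) (N : ℕ) (A : Set E) :
    Pairwise (Function.onFun Disjoint fun k : Fin N => piece f N A k) := by
  intro i j hij
  rw [Function.onFun, Set.disjoint_left]
  intro y hi hj
  rcases lt_or_gt_of_ne (fun h => hij (Fin.ext h) : (i : ℕ) ≠ (j : ℕ)) with h | h
  · exact absurd (hj.2.2 i h) (not_lt.2 (hi.2.1 j j.2))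
  · exact absurd (hi.2.2 j h) (not_lt.2 (hj.2.1 i i.2))

variable [MeasurableSpace E] [BorelSpace E]

omit [InnerProductSpace ℝ E] [FiniteDimensional ℝ E] in
theorem measurableSet_le_of_contOn {U A : Set E} (hU : IsOpen U) (hA : MeasurableSet A)
    (hAU : A ⊆ U) {g h : E → ℝ} (hg : ContinuousOn g U) (hh : ContinuousOn h U) :
    MeasurableSet {y | y ∈ A ∧ g y ≤ h y} := by
  have h1 : IsOpen (U ∩ (fun y => g y - h y) ⁻¹' Ioi 0) :=
    (hg.sub hh).isOpen_inter_preimage hU isOpen_Ioi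
  have h2 : {y | y ∈ A ∧ g y ≤ h y} = A \ (U ∩ (fun y => g y - h y) ⁻¹' Ioi 0) := by
    ext y
    simp only [mem_setOf_eq, mem_diff, mem_inter_iff, mem_preimage, mem_Ioi, not_and, not_lt]
    constructor
    · rintro ⟨ha, hle⟩; exact ⟨ha, fun _ => by linarith⟩
    · rintro ⟨ha, hle⟩; exact ⟨ha, by linarith [hle (hAU ha)]⟩
  rw [h2]
  exact hA.diff h1.measurableSet

omit [InnerProductSpace ℝ E] [FiniteDimensional ℝ E] in
theorem measurableSet_piece {U A : Set E} (hU : IsOpen U) (hA : MeasurableSet A)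
    (hAU : A ⊆ U) {f : ℕ → E → ℝ} (hf : ∀ k, ContinuousOn (f k) U) (N k : ℕ) :
    MeasurableSet (piece f N A k) := by
  have h1 : piece f N A k = A ∩ (⋂ j ∈ {j | j < N}, {y | y ∈ A ∧ f k y ≤ f j y}) ∩
      ⋂ j ∈ {j | j < k}, (A \ {y | y ∈ A ∧ f j y ≤ f k y}) := by
    ext y
    simp only [piece, mem_setOf_eq, mem_inter_iff, mem_iInter, mem_diff, not_and, not_le]
    constructor
    · rintro ⟨ha, h1, h2⟩
      exact ⟨⟨ha, fun j hj => ⟨ha, h1 j hj⟩⟩, fun j hj => ⟨ha, fun _ => h2 j hj⟩⟩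
    · rintro ⟨⟨ha, h1⟩, h2⟩
      exact ⟨ha, fun j hj => (h1 j hj).2, fun j hj => (h2 j hj).2 ha⟩
  rw [h1]
  refine (hA.inter ?_).inter ?_
  · exact MeasurableSet.biInter (to_countable _) fun j _ =>
      measurableSet_le_of_contOn hU hA hAU (hf k) (hf j)
  · exact MeasurableSet.biInter (to_countable _) fun j _ =>
      hA.diff (measurableSet_le_of_contOn hU hA hAU (hf j) (hf k))

/-- **one discrete step**: the image of `A` under `y ↦ y - δ v_k y`, `k` the first minimising
index, has measure at least `(1 - δ H - C' δ²) μ(A)`. -/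
theorem exists_step (E : Type*) [NormedAddCommGroup E] [InnerProductSpace ℝ E]
    [FiniteDimensional ℝ E] [MeasurableSpace E] [BorelSpace E] {C : ℝ} (hC : 1 ≤ C) :
    ∃ C' δ0 : ℝ, 0 ≤ C' ∧ 0 < δ0 ∧ ∀ {U : Set E} {w : E → ℝ} {gg : E → E →L[ℝ] E →L[ℝ] ℝ}
      {f : ℕ → E → ℝ} {v : ℕ → E → E} {H : ℝ}, LF U w gg f v C H →
      ∀ δ, 0 ≤ δ → δ ≤ δ0 → ∀ N, 0 < N → ∀ A : Set E, MeasurableSet A → A ⊆ U →
      (∀ k, ∀ y ∈ A, y - δ • v k y ∈ U) → ∃ B : Set E, MeasurableSet B ∧
      (∀ z ∈ B, ∃ y ∈ A, ∃ k < N, z = y - δ • v k y ∧ ∀ j < N, f k y ≤ f j y) ∧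
      ENNReal.ofReal (1 - δ * H - C' * δ ^ 2) * (∫⁻ y in A, ENNReal.ofReal (w y)) ≤
        ∫⁻ y in B, ENNReal.ofReal (w y) := by
  obtain ⟨C', δ1, hC', hδ1, hjac⟩ := exists_jac E C hC
  have hC0 : 0 < C := by linarith
  refine ⟨C', min δ1 (1 / (2 * (C * (2 * C + C ^ 2)))), hC', by positivity, ?_⟩
  intro U w gg f v H h δ hδ hδ0 N hN A hA hAU hmaps
  have hδa : δ ≤ δ1 := hδ0.trans (min_le_left _ _)
  have hδb : δ ≤ 1 / (2 * (C * (2 * C + C ^ 2))) := hδ0.trans (min_le_right _ _)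
  have hδc : C * δ * (2 * C + C ^ 2) < 1 := by
    rw [le_div_iff₀ (by positivity)] at hδb
    linarith
  set S : ℕ → E → E := fun k y => y - δ • v k y with hS
  set S' : ℕ → E → (E →L[ℝ] E) := fun k y => ContinuousLinearMap.id ℝ E - δ • fderiv ℝ (v k) y
    with hS'
  have hpU : ∀ k, piece f N A k ⊆ U := fun k y hy => hAU hy.1
  have hmeas : ∀ k, MeasurableSet (piece f N A k) := fun k =>
    measurableSet_piece h.isOpen hA hAU h.f_cont N k
  have hder : ∀ k, ∀ y ∈ piece f N A k, HasFDerivWithinAt (S k) (S' k y) (piece f N A k) y := by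
    intro k y hy
    exact ((hasFDerivAt_id y).sub
      ((h.v_diff k y (hpU k hy)).hasFDerivAt.const_smul δ)).hasFDerivWithinAt
  have hinj : ∀ k, InjOn (S k) (piece f N A k) := by
    intro k y hy y' hy' he
    exact h.inj hδ hδc (hpU k hy) (hpU k hy') le_rfl le_rfl he
  set B : Set E := ⋃ k : Fin N, S k '' piece f N A k with hB
  have hmi : ∀ k : Fin N, MeasurableSet (S k '' piece f N A k) := fun k =>
    measurable_image_of_fderivWithin (hmeas k) (hder k) (hinj k)
  have hdisj : Pairwise (Function.onFun Disjoint fun k : Fin N => S k '' piece f N A k) := by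
    intro i j hij
    rw [Function.onFun, Set.disjoint_left]
    rintro z ⟨y, hy, rfl⟩ ⟨y', hy', he⟩
    have := h.inj hδ hδc (hpU i hy) (hpU j hy') (hy.2.1 j j.2) (hy'.2.1 i i.2) he.symm
    subst this
    exact Set.disjoint_left.1 (piece_disjoint f N A hij) hy hy'
  refine ⟨B, MeasurableSet.iUnion hmi, ?_, ?_⟩
  · intro z hz
    rw [hB, mem_iUnion] at hz
    obtain ⟨k, y, hy, rfl⟩ := hz
    exact ⟨y, hy.1, k, k.2, rfl, hy.2.1⟩
  · have e1 : ∫⁻ y in B, ENNReal.ofReal (w y) =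
        ∑ k : Fin N, ∫⁻ y in S k '' piece f N A k, ENNReal.ofReal (w y) := by
      rw [hB, lintegral_iUnion hmi hdisj, tsum_fintype]
    have e2 : ∫⁻ y in A, ENNReal.ofReal (w y) =
        ∑ k : Fin N, ∫⁻ y in piece f N A k, ENNReal.ofReal (w y) := by
      have : A = ⋃ k : Fin N, piece f N A k := by
        have h1 := biUnion_piece f hN A
        refine Subset.antisymm (fun y hy => ?_) (iUnion_subset fun k y hy => hy.1)
        rw [← h1] at hy
        simp only [mem_iUnion, Finset.mem_range, exists_prop] at hy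
        obtain ⟨k, hk, hy⟩ := hy
        exact mem_iUnion.2 ⟨⟨k, hk⟩, hy⟩
      conv_lhs => rw [this]
      rw [lintegral_iUnion (fun k : Fin N => hmeas k) (piece_disjoint f N A), tsum_fintype]
    rw [e1, e2, Finset.mul_sum]
    refine Finset.sum_le_sum fun k _ => ?_
    rw [lintegral_image_eq_lintegral_abs_det_fderiv_mul volume (hmeas k) (hder k) (hinj k),
      ← lintegral_const_mul' _ _ ENNReal.ofReal_ne_top]
    refine setLIntegral_mono' (hmeas k) fun y hy => ?_
    have hyU := hpU k hy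
    have hzU : S k y ∈ U := hmaps k y hy.1
    have hw0 : 0 ≤ w (S k y) := by
      have := h.w_lower _ hzU
      by_contra hneg
      push Not at hneg
      nlinarith
    have hsub : S k y - y = -(δ • v k y) := by simp [hS]
    have hW : |fderiv ℝ w y (v k y)| ≤ C ^ 2 := by
      calc |fderiv ℝ w y (v k y)| = ‖fderiv ℝ w y (v k y)‖ := rfl
        _ ≤ ‖fderiv ℝ w y‖ * ‖v k y‖ := (fderiv ℝ w y).le_opNorm _
        _ ≤ C * C := by
          gcongr
          · exact h.w_fd y hyU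
          · exact h.v_bd k y hyU
        _ = C ^ 2 := by ring
    have hW' : |w (S k y) - w y + δ * fderiv ℝ w y (v k y)| ≤ C ^ 3 * δ ^ 2 := by
      have h1 := h.w_taylor y hyU _ hzU
      rw [hsub, map_neg, map_smul, smul_eq_mul, sub_neg_eq_add, norm_neg, norm_smul,
        Real.norm_eq_abs, abs_of_nonneg hδ] at h1
      refine h1.trans ?_
      have h2 := h.v_bd k y hyU
      calc C * (δ * ‖v k y‖) ^ 2 ≤ C * (δ * C) ^ 2 := by gcongr
        _ = C ^ 3 * δ ^ 2 := by ring
    obtain ⟨hd0, hd⟩ := hjac (fderiv ℝ w y (v k y)) (w y) (w (S k y)) (fderiv ℝ (v k) y) δ H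
      hδ hδa (h.v_fd k y hyU) hW (h.w_lower y hyU) hW' hw0 (h.div k y hyU)
    rw [abs_of_pos hd0, ← ENNReal.ofReal_mul hd0.le]
    rcases le_or_gt 0 (1 - δ * H - C' * δ ^ 2) with hs | hs
    · rw [← ENNReal.ofReal_mul hs]
      exact ENNReal.ofReal_le_ofReal hd
    · rw [ENNReal.ofReal_of_nonpos hs.le, zero_mul]
      exact zero_le

end Crest.Agent.R247.Mcs816
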