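import Crest.Agent.R247.Mcs3_816

/-!
Row 247, block (6c)/(6d) (helper816), file 4: the discrete steps are almost geodesic; chains of
discrete steps.
-/

set_option autoImplicit false
set_option maxSynthPendingDepth 3

open scoped Topology ContDiff ENNReal
open Set MeasureTheory

noncomputable section

namespace Crest.Agent.R247.Mcs816

variable {E : Type*} [NormedAddCommGroup E] [InnerProductSpace ℝ E] [FiniteDimensional ℝ E]
variable {M : Type*} [MetricSpace M]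

/-- metric information on the family `f k`: upper barriers of `d_x²/2`. -/
structure MF (x : M) (X : E → M) (U : Set E) (gg : E → E →L[ℝ] E →L[ℝ] ℝ)
    (f : ℕ → E → ℝ) (v : ℕ → E → E) (C ρ : ℝ) : Prop where
  ρ_pos : 0 < ρ
  dist_le : ∀ y ∈ U, ∀ y' ∈ U,
    dist (X y) (X y') ≤ √(gg y (y' - y) (y' - y)) + C * ‖y' - y‖ ^ 2
  ge : ∀ k, ∀ y ∈ U, dist x (X y) ^ 2 / 2 ≤ f k y
  eik : ∀ k, ∀ y ∈ U, gg y (v k y) (v k y) = 2 * f k y
  near : ∀ η > 0, ∃ N > 0, ∀ y ∈ U, ∃ k < N, f k y ≤ dist x (X y) ^ 2 / 2 + η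
  low : ∀ y ∈ U, ρ ≤ dist x (X y)
  up : ∀ y ∈ U, dist x (X y) ≤ C

variable {x : M} {X : E → M} {U : Set E} {w : E → ℝ} {gg : E → E →L[ℝ] E →L[ℝ] ℝ}
  {f : ℕ → E → ℝ} {v : ℕ → E → E} {C H ρ : ℝ}

theorem sqrt_le_of_sq {d e ρ a : ℝ} (hρ : 0 < ρ) (hd : ρ ≤ d) (he : 0 ≤ e)
    (h : a ≤ d ^ 2 + 2 * e) : √a ≤ d + e / ρ := by
  apply Real.sqrt_le_iff.2
  have hd0 : 0 < d := lt_of_lt_of_le hρ hd
  refine ⟨by positivity, h.trans ?_⟩
  have h1 : e = e / ρ * ρ := by field_simp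
  have h2 : e / ρ * ρ ≤ e / ρ * d := by gcongr
  have h3 : 0 ≤ (e / ρ) ^ 2 := by positivity
  nlinarith

/-- the constant of the almost geodesic estimates. -/
def KK (C ρ : ℝ) : ℝ := 2 * C ^ 3 / ρ + C ^ 3 + 2 / ρ

theorem KK_nonneg {C ρ : ℝ} (hC : 1 ≤ C) (hρ : 0 < ρ) : 0 ≤ KK C ρ := by
  unfold KK; positivity

/-- the discrete step is almost geodesic. -/
theorem step_dist (h : LF U w gg f v C H) (hm : MF x X U gg f v C ρ) {δ η : ℝ} (hδ : 0 ≤ δ)
    (hδ1 : δ ≤ 1 / 2) (hη : 0 ≤ η) {k : ℕ} {y : E} (hy : y ∈ U) (hz : y - δ • v k y ∈ U)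
    (hf : f k y ≤ dist x (X y) ^ 2 / 2 + η) :
    dist x (X (y - δ • v k y)) ≤ (1 - δ) * dist x (X y) + KK C ρ * (δ ^ 2 + η) ∧
    dist (X y) (X (y - δ • v k y)) ≤ δ * dist x (X y) + KK C ρ * (δ ^ 2 + η) := by
  have hC : 1 ≤ C := h.one_le
  have hC0 : 0 < C := by linarith
  have hρ := hm.ρ_pos
  set d := dist x (X y) with hd
  have hdρ : ρ ≤ d := hm.low y hy
  have hd0 : 0 < d := lt_of_lt_of_le hρ hdρ
  set z := y - δ • v k y with hzdef
  have hzy : z - y = -(δ • v k y) := by simp [hzdef]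
  have hnz : ‖z - y‖ ≤ δ * C := by
    rw [hzy, norm_neg, norm_smul, Real.norm_eq_abs, abs_of_nonneg hδ]
    have := h.v_bd k y hy
    gcongr
  have hnz2 : C * ‖z - y‖ ^ 2 ≤ C ^ 3 * δ ^ 2 := by
    calc C * ‖z - y‖ ^ 2 ≤ C * (δ * C) ^ 2 := by gcongr
      _ = _ := by ring
  have hfk : f k y ≤ d ^ 2 / 2 + η := hf
  have hfk1 : d ^ 2 / 2 ≤ f k y := hm.ge k y hy
  have hs : √(2 * f k y) ≤ d + η / ρ := sqrt_le_of_sq hρ hdρ hη (by linarith)
  have hK1 : η / ρ + C ^ 3 * δ ^ 2 ≤ KK C ρ * (δ ^ 2 + η) := by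
    unfold KK
    have e1 : (2 * C ^ 3 / ρ + C ^ 3 + 2 / ρ) * (δ ^ 2 + η) = η / ρ + C ^ 3 * δ ^ 2 +
      (2 * C ^ 3 / ρ * (δ ^ 2 + η) + C ^ 3 * η + 2 / ρ * δ ^ 2 + η / ρ) := by ring
    rw [e1]
    have : 0 ≤ (2 * C ^ 3 / ρ * (δ ^ 2 + η) + C ^ 3 * η + 2 / ρ * δ ^ 2 + η / ρ) := by positivity
    linarith
  have hK2 : (η + C ^ 3 * δ ^ 2) / (ρ / 2) ≤ KK C ρ * (δ ^ 2 + η) := by
    unfold KK
    have e1 : (2 * C ^ 3 / ρ + C ^ 3 + 2 / ρ) * (δ ^ 2 + η) = (η + C ^ 3 * δ ^ 2) / (ρ / 2) +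
      (2 * C ^ 3 / ρ * η + C ^ 3 * (δ ^ 2 + η) + 2 / ρ * δ ^ 2) := by
      field_simp
      ring
    rw [e1]
    have : 0 ≤ (2 * C ^ 3 / ρ * η + C ^ 3 * (δ ^ 2 + η) + 2 / ρ * δ ^ 2) := by positivity
    linarith
  constructor
  · have h1 : dist x (X z) ≤ √(2 * f k z) := by
      apply Real.le_sqrt_of_sq_le
      have := hm.ge k z hz
      linarith
    have h2 : f k z ≤ (1 - 2 * δ) * f k y + C ^ 3 * δ ^ 2 := by
      have h3 := (abs_le.1 (h.f_taylor k y hy z hz)).2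
      rw [hzy, map_neg, map_smul, smul_eq_mul, ← h.v_grad k y hy, hm.eik k y hy] at h3
      rw [hzy] at hnz2
      linarith
    have h4 : 2 * f k z ≤ ((1 - δ) * d) ^ 2 + 2 * (η + C ^ 3 * δ ^ 2) := by
      have h5 : (1 - 2 * δ) * f k y ≤ (1 - 2 * δ) * (d ^ 2 / 2 + η) := by
        have : 0 ≤ 1 - 2 * δ := by linarith
        gcongr
      have h6 : (1 - 2 * δ) * (d ^ 2) ≤ (1 - δ) ^ 2 * d ^ 2 := by
        have : 1 - 2 * δ ≤ (1 - δ) ^ 2 := by nlinarith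
        gcongr
      have h7 : (1 - 2 * δ) * η ≤ η := by nlinarith
      nlinarith
    have h8 : ρ / 2 ≤ (1 - δ) * d := by nlinarith
    have h9 := sqrt_le_of_sq (by linarith : 0 < ρ / 2) h8 (by positivity) h4
    linarith
  · have h1 := hm.dist_le y hy z hz
    have h2 : √(gg y (z - y) (z - y)) = δ * √(2 * f k y) := by
      have e0 : gg y (z - y) (z - y) = (δ * δ) * (2 * f k y) := by
        rw [hzy]
        simp only [map_neg, _root_.neg_apply, neg_neg, map_smul, _root_.smul_apply, smul_eq_mul]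
        rw [hm.eik k y hy]; ring
      rw [e0, Real.sqrt_mul (by positivity), Real.sqrt_mul_self hδ]
    rw [h2] at h1
    have h3 : δ * √(2 * f k y) ≤ δ * d + η / ρ := by
      have h4 : δ * √(2 * f k y) ≤ δ * (d + η / ρ) := by gcongr
      have h5 : δ * (η / ρ) ≤ 1 * (η / ρ) := by
        have : 0 ≤ η / ρ := by positivity
        gcongr
        linarith
      linarith
    linarith

/-- the result of `j` discrete steps. -/
theorem chain [MeasurableSpace E] [BorelSpace E] {C : ℝ} (hC : 1 ≤ C) :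
    ∃ C' δ0 : ℝ, 0 ≤ C' ∧ 0 < δ0 ∧ ∀ {U : Set E} {w : E → ℝ} {gg : E → E →L[ℝ] E →L[ℝ] ℝ}
      {f : ℕ → E → ℝ} {v : ℕ → E → E} {H ρ : ℝ} {x : M} {X : E → M}, LF U w gg f v C H →
      MF x X U gg f v C ρ → ∀ δ, 0 ≤ δ → δ ≤ δ0 → ∀ j : ℕ, (j : ℝ) * δ ≤ 1 → ∀ A : Set E,
      MeasurableSet A → (∀ y ∈ A, Metric.closedBall y (C * (j * δ)) ⊆ U) →
      ∃ B : Set E, MeasurableSet B ∧ B ⊆ U ∧
      (∀ z ∈ B, ∃ y ∈ A, ‖z - y‖ ≤ C * (j * δ) ∧
        dist x (X z) ≤ (1 - δ) ^ j * dist x (X y) + j * (2 * KK C ρ * δ ^ 2) ∧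
        dist (X y) (X z) ≤ (1 - (1 - δ) ^ j) * dist x (X y) + 2 * j * (2 * KK C ρ * δ ^ 2)) ∧
      ENNReal.ofReal (1 - δ * H - C' * δ ^ 2) ^ j * (∫⁻ y in A, ENNReal.ofReal (w y)) ≤
        ∫⁻ y in B, ENNReal.ofReal (w y) := by
  obtain ⟨C', δ0, hC', hδ0, hstep⟩ := exists_step E hC
  refine ⟨C', min δ0 (1 / 2), hC', by positivity, ?_⟩
  intro U w gg f v H ρ x X h hm δ hδ hδ1
  have hδa : δ ≤ δ0 := hδ1.trans (min_le_left _ _)
  have hδb : δ ≤ 1 / 2 := hδ1.trans (min_le_right _ _)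
  have hC0 : 0 < C := by linarith
  have hKK := KK_nonneg hC hm.ρ_pos
  rcases eq_or_lt_of_le hδ with hδe | hδpos
  · -- `δ = 0`
    subst hδe
    intro j _ A hA hAU
    refine ⟨A, hA, fun y hy => hAU y hy (Metric.mem_closedBall_self (by simp)), ?_, ?_⟩
    · intro z hz
      exact ⟨z, hz, by simp, by simp, by simp⟩
    · simp
  obtain ⟨N, hN, hnear⟩ := hm.near (δ ^ 2) (by positivity)
  intro j
  induction j with
  | zero =>
    intro _ A hA hAU
    refine ⟨A, hA, fun y hy => hAU y hy (Metric.mem_closedBall_self (by simp)), ?_, ?_⟩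
    · intro z hz
      exact ⟨z, hz, by simp, by simp, by simp⟩
    · simp
  | succ j ih =>
    intro hj A hA hAU
    push_cast at hj hAU ⊢
    have hjδ : (j : ℝ) * δ ≤ 1 := by nlinarith
    have hj0 : (0 : ℝ) ≤ j := Nat.cast_nonneg j
    obtain ⟨B, hB, hBU, hBd, hBm⟩ := ih hjδ A hA (fun y hy =>
      (Metric.closedBall_subset_closedBall (by gcongr; linarith)).trans (hAU y hy))
    have hmaps : ∀ k, ∀ y ∈ B, y - δ • v k y ∈ U := by
      intro k z hz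
      obtain ⟨y, hy, hzy, -, -⟩ := hBd z hz
      refine hAU y hy ?_
      rw [Metric.mem_closedBall, dist_eq_norm]
      have h1 : z - δ • v k z - y = (z - y) - δ • v k z := by abel
      rw [h1]
      have h2 : ‖δ • v k z‖ ≤ δ * C := by
        rw [norm_smul, Real.norm_eq_abs, abs_of_nonneg hδ]
        have := h.v_bd k z (hBU hz)
        gcongr
      calc ‖(z - y) - δ • v k z‖ ≤ ‖z - y‖ + ‖δ • v k z‖ := norm_sub_le _ _
        _ ≤ C * (j * δ) + δ * C := add_le_add hzy h2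
        _ = C * ((j + 1) * δ) := by ring
    obtain ⟨B', hB', hBd', hBm'⟩ := hstep h δ hδ hδa N hN B hB hBU hmaps
    refine ⟨B', hB', ?_, ?_, ?_⟩
    · intro z' hz'
      obtain ⟨z, hz, k, -, rfl, -⟩ := hBd' z' hz'
      exact hmaps k z hz
    · intro z' hz'
      obtain ⟨z, hz, k, hk, rfl, hmin⟩ := hBd' z' hz'
      obtain ⟨y, hy, hzy, hd1, hd2⟩ := hBd z hz
      have hzU := hBU hz
      have hfz : f k z ≤ dist x (X z) ^ 2 / 2 + δ ^ 2 := by
        obtain ⟨i, hi, hfi⟩ := hnear z hzU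
        exact (hmin i hi).trans hfi
      obtain ⟨h1, h2⟩ := step_dist h hm hδ hδb (by positivity) hzU (hmaps k z hz) hfz
      refine ⟨y, hy, ?_, ?_, ?_⟩
      · have h3 : z - δ • v k z - y = (z - y) - δ • v k z := by abel
        rw [h3]
        have h4 : ‖δ • v k z‖ ≤ δ * C := by
          rw [norm_smul, Real.norm_eq_abs, abs_of_nonneg hδ]
          have := h.v_bd k z hzU
          gcongr
        calc ‖(z - y) - δ • v k z‖ ≤ ‖z - y‖ + ‖δ • v k z‖ := norm_sub_le _ _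
          _ ≤ C * (j * δ) + δ * C := add_le_add hzy h4
          _ = C * ((j + 1) * δ) := by ring
      · have h5 : (1 - δ) * dist x (X z) ≤
            (1 - δ) * ((1 - δ) ^ j * dist x (X y) + j * (2 * KK C ρ * δ ^ 2)) := by
          have : 0 ≤ 1 - δ := by linarith
          gcongr
        have h6 : (1 - δ) * (j * (2 * KK C ρ * δ ^ 2)) ≤ j * (2 * KK C ρ * δ ^ 2) := by
          have : 0 ≤ j * (2 * KK C ρ * δ ^ 2) := by positivity
          nlinarith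
        calc dist x (X (z - δ • v k z)) ≤ (1 - δ) * dist x (X z) + KK C ρ * (δ ^ 2 + δ ^ 2) := h1
          _ ≤ (1 - δ) * ((1 - δ) ^ j * dist x (X y) + j * (2 * KK C ρ * δ ^ 2))
              + KK C ρ * (δ ^ 2 + δ ^ 2) := by linarith
          _ = (1 - δ) ^ (j + 1) * dist x (X y) + (1 - δ) * (j * (2 * KK C ρ * δ ^ 2))
              + 2 * KK C ρ * δ ^ 2 := by ring
          _ ≤ (1 - δ) ^ (j + 1) * dist x (X y) + (j + 1) * (2 * KK C ρ * δ ^ 2) := by linarith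
      · have h5 : δ * dist x (X z) ≤ δ * ((1 - δ) ^ j * dist x (X y)
            + j * (2 * KK C ρ * δ ^ 2)) := by gcongr
        have h6 : δ * (j * (2 * KK C ρ * δ ^ 2)) ≤ 2 * KK C ρ * δ ^ 2 := by
          have h7 : 0 ≤ 2 * KK C ρ * δ ^ 2 := by positivity
          calc δ * (j * (2 * KK C ρ * δ ^ 2)) = (j * δ) * (2 * KK C ρ * δ ^ 2) := by ring
            _ ≤ 1 * (2 * KK C ρ * δ ^ 2) := by gcongr
            _ = _ := one_mul _
        have h8 := dist_triangle (X y) (X z) (X (z - δ • v k z))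
        calc dist (X y) (X (z - δ • v k z)) ≤ dist (X y) (X z) + dist (X z) (X (z - δ • v k z)) := h8
          _ ≤ ((1 - (1 - δ) ^ j) * dist x (X y) + 2 * j * (2 * KK C ρ * δ ^ 2)) +
              (δ * ((1 - δ) ^ j * dist x (X y) + j * (2 * KK C ρ * δ ^ 2))
                + KK C ρ * (δ ^ 2 + δ ^ 2)) := by linarith
          _ = (1 - (1 - δ) ^ (j + 1)) * dist x (X y) + 2 * j * (2 * KK C ρ * δ ^ 2)
              + δ * (j * (2 * KK C ρ * δ ^ 2)) + 2 * KK C ρ * δ ^ 2 := by ring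
          _ ≤ (1 - (1 - δ) ^ (j + 1)) * dist x (X y) + 2 * (j + 1) * (2 * KK C ρ * δ ^ 2) := by
            linarith
    · calc ENNReal.ofReal (1 - δ * H - C' * δ ^ 2) ^ (j + 1) * (∫⁻ y in A, ENNReal.ofReal (w y))
          = ENNReal.ofReal (1 - δ * H - C' * δ ^ 2) * (ENNReal.ofReal (1 - δ * H - C' * δ ^ 2) ^ j
            * (∫⁻ y in A, ENNReal.ofReal (w y))) := by rw [pow_succ]; ring
        _ ≤ ENNReal.ofReal (1 - δ * H - C' * δ ^ 2) * ∫⁻ y in B, ENNReal.ofReal (w y) := by gcongr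
        _ ≤ _ := hBm'

end Crest.Agent.R247.Mcs816
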