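import Crest.Agent.R247.Mcs4_816
import Mathlib.Analysis.SpecialFunctions.Complex.LogBounds
import Mathlib.MeasureTheory.Measure.Regular
import Mathlib.Topology.MetricSpace.ProperSpace

/-!
Row 247, block (6c)/(6d) (helper816), file 5: intermediate points, their thickenings, and the local
contraction estimate.
-/

set_option autoImplicit false
set_option maxSynthPendingDepth 3

open scoped Topology ContDiff ENNReal
open Set MeasureTheory Filter

noncomputable section

namespace Crest.Agent.R247.Mcs816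

section Metric

variable {M : Type*} [MetricSpace M]

/-- the `t`-intermediate points of `A` seen from `x`. -/
def Ipt (x : M) (t : ℝ) (A : Set M) : Set M :=
  {z | ∃ y ∈ A, dist x z = t * dist x y ∧ dist y z = (1 - t) * dist x y}

/-- thickening of `Ipt`. -/
def Thick (x : M) (t : ℝ) (A : Set M) (ε : ℝ) : Set M :=
  {z | ∃ y ∈ A, |dist x z - t * dist x y| ≤ ε ∧ dist y z ≤ (1 - t) * dist x y + ε}

theorem Ipt_mono {x : M} {t : ℝ} {A B : Set M} (h : A ⊆ B) : Ipt x t A ⊆ Ipt x t B :=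
  fun _ ⟨y, hy, h1⟩ => ⟨y, h hy, h1⟩

theorem Thick_mono {x : M} {t : ℝ} {A : Set M} {ε ε' : ℝ} (h : ε ≤ ε') :
    Thick x t A ε ⊆ Thick x t A ε' :=
  fun _ ⟨y, hy, h1, h2⟩ => ⟨y, hy, h1.trans h, h2.trans (by linarith)⟩

theorem Ipt_one (x : M) (A : Set M) : Ipt x 1 A = A := by
  ext z
  constructor
  · rintro ⟨y, hy, -, h⟩
    have : y = z := by
      rw [← dist_eq_zero]; simpa using h
    exact this ▸ hy
  · intro hz
    exact ⟨z, hz, by simp, by simp⟩

/-- semigroup property -/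
theorem Ipt_Ipt {x : M} {s t : ℝ} {A : Set M} :
    Ipt x t (Ipt x s A) ⊆ Ipt x (t * s) A := by
  rintro z ⟨y, ⟨a, ha, h1, h2⟩, h3, h4⟩
  refine ⟨a, ha, by rw [h3, h1]; ring, ?_⟩
  have e1 : dist a z ≤ dist a y + dist y z := dist_triangle _ _ _
  have e2 : dist x a ≤ dist x z + dist z a := dist_triangle _ _ _
  rw [dist_comm z a] at e2
  have h5 : dist x z = t * s * dist x a := by rw [h3, h1]; ring
  have h6 : dist y z = (1 - t) * (s * dist x a) := by rw [h4, h1]
  apply le_antisymm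
  · rw [h2, h6] at e1; linarith
  · rw [h5] at e2; linarith

theorem dist_Ipt {x z : M} {t R : ℝ} {A : Set M} (ht : 0 ≤ t)
    (hA : A ⊆ Metric.closedBall x R) (hz : z ∈ Ipt x t A) : z ∈ Metric.closedBall x (t * R) := by
  obtain ⟨y, hy, h1, -⟩ := hz
  have h2 := hA hy
  rw [Metric.mem_closedBall, dist_comm] at h2 ⊢
  rw [h1]; gcongr

variable [ProperSpace M]

theorem isCompact_Thick (x : M) (t : ℝ) {A : Set M} (hA : IsCompact A) (ε : ℝ) :
    IsCompact (Thick x t A ε) := by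
  obtain ⟨R, hR⟩ := hA.isBounded.subset_closedBall x
  set R' := |t| * |R| + ε with hR'
  have hcl : IsClosed {p : M × M | |dist x p.2 - t * dist x p.1| ≤ ε ∧
      dist p.1 p.2 ≤ (1 - t) * dist x p.1 + ε} := by
    have c1 : IsClosed {p : M × M | |dist x p.2 - t * dist x p.1| ≤ ε} :=
      isClosed_le (by fun_prop) continuous_const
    have c2 : IsClosed {p : M × M | dist p.1 p.2 ≤ (1 - t) * dist x p.1 + ε} :=
      isClosed_le (by fun_prop) (by fun_prop)
    exact c1.inter c2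
  have hc : IsCompact ((A ×ˢ Metric.closedBall x R') ∩ {p : M × M |
      |dist x p.2 - t * dist x p.1| ≤ ε ∧ dist p.1 p.2 ≤ (1 - t) * dist x p.1 + ε}) :=
    (hA.prod (isCompact_closedBall x R')).inter_right hcl
  have himg : Thick x t A ε = Prod.snd '' ((A ×ˢ Metric.closedBall x R') ∩ {p : M × M |
      |dist x p.2 - t * dist x p.1| ≤ ε ∧ dist p.1 p.2 ≤ (1 - t) * dist x p.1 + ε}) := by
    ext z
    constructor
    · rintro ⟨y, hy, h1, h2⟩
      refine ⟨(y, z), ⟨⟨hy, ?_⟩, h1, h2⟩, rfl⟩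
      rw [Metric.mem_closedBall, dist_comm]
      have h3 := (abs_le.1 h1).2
      have h4 := hR hy
      rw [Metric.mem_closedBall, dist_comm] at h4
      have h5 : t * dist x y ≤ |t| * |R| := by
        calc t * dist x y ≤ |t| * dist x y := by gcongr; exact le_abs_self t
          _ ≤ |t| * |R| := by gcongr; exact h4.trans (le_abs_self R)
      show dist x z ≤ R'
      rw [hR']; linarith
    · rintro ⟨⟨y, z'⟩, ⟨⟨hy, -⟩, h1, h2⟩, rfl⟩
      exact ⟨y, hy, h1, h2⟩
  rw [himg]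
  exact hc.image continuous_snd

omit [ProperSpace M] in
theorem iInter_Thick (x : M) (t : ℝ) {A : Set M} (hA : IsCompact A) :
    ⋂ n : ℕ, Thick x t A (1 / ((n : ℝ) + 1)) = Ipt x t A := by
  ext z
  simp only [mem_iInter]
  constructor
  · intro h
    choose y hy h1 h2 using h
    obtain ⟨a, ha, φ, hφ, hlim⟩ := hA.tendsto_subseq hy
    have hε : Tendsto (fun n : ℕ => 1 / ((φ n : ℝ) + 1)) atTop (𝓝 0) :=
      tendsto_one_div_add_atTop_nhds_zero_nat.comp hφ.tendsto_atTop
    have hd : Tendsto (fun n => dist x (y (φ n))) atTop (𝓝 (dist x a)) :=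
      tendsto_const_nhds.dist hlim
    have hd2 : Tendsto (fun n => dist (y (φ n)) z) atTop (𝓝 (dist a z)) :=
      hlim.dist tendsto_const_nhds
    have l1 : |dist x z - t * dist x a| ≤ 0 :=
      le_of_tendsto_of_tendsto' ((tendsto_const_nhds.sub (hd.const_mul t)).abs) hε
        fun n => h1 (φ n)
    have l2 : dist a z ≤ (1 - t) * dist x a + 0 :=
      le_of_tendsto_of_tendsto' hd2 ((hd.const_mul (1 - t)).add hε) fun n => h2 (φ n)
    have l3 : dist x z = t * dist x a := by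
      have := abs_nonpos_iff.1 l1
      linarith
    refine ⟨a, ha, l3, le_antisymm (by linarith) ?_⟩
    have := dist_triangle x z a
    rw [dist_comm z a] at this
    linarith
  · rintro ⟨y, hy, h1, h2⟩ n
    have : (0 : ℝ) ≤ 1 / ((n : ℝ) + 1) := by positivity
    exact ⟨y, hy, by rw [h1, sub_self, abs_zero]; exact this, by linarith⟩

theorem isCompact_Ipt (x : M) (t : ℝ) {A : Set M} (hA : IsCompact A) : IsCompact (Ipt x t A) := by
  rw [← iInter_Thick x t hA]
  refine (isCompact_Thick x t hA (1 / ((0 : ℕ) + 1 : ℝ))).of_isClosed_subset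
    (isClosed_iInter fun n => (isCompact_Thick x t hA _).isClosed) (iInter_subset _ 0)

/-- if `c` is at most the measure of all thickenings, it is at most the measure of `Ipt`. -/
theorem le_measure_Ipt [MeasurableSpace M] [BorelSpace M] (μ : Measure M)
    [IsFiniteMeasureOnCompacts μ] (x : M) (t : ℝ) {A : Set M} (hA : IsCompact A) {c : ℝ≥0∞}
    (h : ∀ ε > 0, c ≤ μ (Thick x t A ε)) : c ≤ μ (Ipt x t A) := by
  rw [← iInter_Thick x t hA]
  have hanti : Antitone fun n : ℕ => Thick x t A (1 / ((n : ℝ) + 1)) := by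
    intro m n hmn
    refine Thick_mono ?_
    have : (m : ℝ) ≤ n := by exact_mod_cast hmn
    gcongr
  rw [hanti.measure_iInter (fun n => (isCompact_Thick x t hA _).measurableSet.nullMeasurableSet)
    ⟨0, (isCompact_Thick x t hA _).measure_lt_top.ne⟩]
  exact le_iInf fun n => h _ (by positivity)

/-- local contraction property: `μ (A_{e^{-τ}}) ≥ e^{-Hτ} μ A` for compact subsets of `W`. -/
def LocC [MeasurableSpace M] (μ : Measure M) (x : M) (W : Set M) (H τ0 : ℝ) : Prop :=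
  ∀ A ⊆ W, IsCompact A → ∀ τ, 0 ≤ τ → τ ≤ τ0 →
    ENNReal.ofReal (Real.exp (-(H * τ))) * μ A ≤ μ (Ipt x (Real.exp (-τ)) A)

end Metric

variable {E : Type*} [NormedAddCommGroup E] [InnerProductSpace ℝ E] [FiniteDimensional ℝ E]
  [MeasurableSpace E] [BorelSpace E]
variable {M : Type*} [MetricSpace M] [ProperSpace M] [MeasurableSpace M] [BorelSpace M]

/-- **local contraction estimate** from a family of smooth barriers in a chart. -/
theorem locC_of {x : M} {X : E → M} {U : Set E} {w : E → ℝ} {gg : E → E →L[ℝ] E →L[ℝ] ℝ}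
    {f : ℕ → E → ℝ} {v : ℕ → E → E} {C H ρ : ℝ} (μ : Measure M) [IsFiniteMeasureOnCompacts μ]
    (h : LF U w gg f v C H) (hm : MF x X U gg f v C ρ)
    {φ : M → E} {W : Set M} (hφ : ContinuousOn φ W)
    (hφX : ∀ m ∈ W, X (φ m) = m) {τ0 : ℝ} (hτ0 : τ0 ≤ 1)
    (hU0 : ∀ m ∈ W, Metric.closedBall (φ m) (C * τ0) ⊆ U)
    (hμ : ∀ B ⊆ U, MeasurableSet B → μ (X '' B) = ∫⁻ y in B, ENNReal.ofReal (w y)) :
    LocC μ x W H τ0 := by
  intro A' hA'W hA' τ hτ hττ0
  have hC : 1 ≤ C := h.one_le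
  have hC0 : 0 < C := by linarith
  obtain ⟨C', δ0, hC', hδ0, hch⟩ := chain (E := E) (M := M) hC
  set A : Set E := φ '' A' with hA
  have hAc : IsCompact A := hA'.image_of_continuousOn (hφ.mono hA'W)
  have hXA : X '' A = A' := by
    rw [hA, image_image]
    refine Subset.antisymm ?_ fun m hm => ⟨m, hm, hφX m (hA'W hm)⟩
    rintro _ ⟨m, hm, rfl⟩
    simpa [hφX m (hA'W hm)] using hm
  have hAU : ∀ y ∈ A, Metric.closedBall y (C * τ) ⊆ U := by
    rintro _ ⟨m, hm, rfl⟩
    exact (Metric.closedBall_subset_closedBall (by gcongr)).trans (hU0 m (hA'W hm))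
  have hAU' : A ⊆ U := fun y hy => hAU y hy (Metric.mem_closedBall_self (by positivity))
  have hμA : μ A' = ∫⁻ y in A, ENNReal.ofReal (w y) := by
    rw [← hXA]; exact hμ A hAU' hAc.measurableSet
  have hKK := KK_nonneg hC hm.ρ_pos
  set t := Real.exp (-τ) with ht
  -- error of `m` steps
  set er : ℕ → ℝ := fun m => |(1 + (-τ) / m) ^ m - t| * C + 4 * KK C ρ * τ ^ 2 / m with her
  have her0 : Tendsto er atTop (𝓝 0) := by
    have h1 : Tendsto (fun m : ℕ => (1 + (-τ) / m) ^ m) atTop (𝓝 t) :=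
      Real.tendsto_one_add_div_pow_exp (-τ)
    have h2 : Tendsto (fun m : ℕ => |(1 + (-τ) / m) ^ m - t| * C) atTop (𝓝 (|t - t| * C)) :=
      ((h1.sub_const t).abs).mul_const C
    have h3 : Tendsto (fun m : ℕ => 4 * KK C ρ * τ ^ 2 / (m : ℝ)) atTop (𝓝 0) :=
      tendsto_const_div_atTop_nhds_zero_nat _
    have := h2.add h3
    simpa [her] using this
  -- measure factor
  set g : ℕ → ℝ := fun m => -(τ / m * H) - C' * (τ / m) ^ 2 with hg
  have hgl : Tendsto (fun m : ℕ => (m : ℝ) * g m) atTop (𝓝 (-(H * τ))) := by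
    have h1 : Tendsto (fun m : ℕ => -(H * τ) - C' * τ ^ 2 / (m : ℝ)) atTop (𝓝 (-(H * τ) - 0)) :=
      tendsto_const_nhds.sub (tendsto_const_div_atTop_nhds_zero_nat _)
    rw [sub_zero] at h1
    refine h1.congr' ?_
    filter_upwards [eventually_gt_atTop 0] with m hm0
    have : (m : ℝ) ≠ 0 := by positivity
    simp only [hg]
    field_simp
  have hg0 : Tendsto g atTop (𝓝 0) := by
    have h1 : Tendsto (fun m : ℕ => τ / (m : ℝ)) atTop (𝓝 0) :=
      tendsto_const_div_atTop_nhds_zero_nat _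
    have h2 := ((h1.mul_const H).neg).sub ((h1.pow 2).const_mul C')
    simpa [hg] using h2
  have hfac : Tendsto (fun m : ℕ => (1 + g m) ^ m) atTop (𝓝 (Real.exp (-(H * τ)))) :=
    Real.tendsto_one_add_pow_exp_of_tendsto hgl
  have hfac' : Tendsto (fun m : ℕ => ENNReal.ofReal (1 + g m) ^ m * μ A') atTop
      (𝓝 (ENNReal.ofReal (Real.exp (-(H * τ))) * μ A')) := by
    have h1 : Tendsto (fun m : ℕ => ENNReal.ofReal ((1 + g m) ^ m)) atTop
        (𝓝 (ENNReal.ofReal (Real.exp (-(H * τ))))) :=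
      (ENNReal.continuous_ofReal.tendsto _).comp hfac
    have h2 : Tendsto (fun m : ℕ => ENNReal.ofReal ((1 + g m) ^ m) * μ A') atTop
        (𝓝 (ENNReal.ofReal (Real.exp (-(H * τ))) * μ A')) :=
      ENNReal.Tendsto.mul_const h1 (Or.inr hA'.measure_lt_top.ne)
    refine h2.congr' ?_
    have h3 : ∀ᶠ m in atTop, 0 < 1 + g m := by
      have : Tendsto (fun m => 1 + g m) atTop (𝓝 (1 + 0)) := tendsto_const_nhds.add hg0
      exact this.eventually (lt_mem_nhds (by norm_num))
    filter_upwards [h3] with m hm3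
    rw [ENNReal.ofReal_pow hm3.le]
  refine le_measure_Ipt μ x t hA' fun ε hε => ?_
  refine le_of_tendsto hfac' ?_
  have hδe : ∀ᶠ m : ℕ in atTop, τ / (m : ℝ) ≤ δ0 := by
    have h1 : Tendsto (fun m : ℕ => τ / (m : ℝ)) atTop (𝓝 0) :=
      tendsto_const_div_atTop_nhds_zero_nat _
    exact (h1.eventually (gt_mem_nhds hδ0)).mono fun m hm => hm.le
  filter_upwards [hδe, her0.eventually (gt_mem_nhds hε), eventually_gt_atTop 0] with m hm1 hm2 hm0
  have hmpos : (0 : ℝ) < m := by exact_mod_cast hm0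
  have hmτ : (m : ℝ) * (τ / m) = τ := by field_simp
  obtain ⟨B, hB, hBU, hBd, hBm⟩ := hch h hm (τ / m) (by positivity) hm1 m
    (by rw [hmτ]; exact hττ0.trans hτ0) A hAc.measurableSet (by rw [hmτ]; exact hAU)
  have e1 : 1 + g m = 1 - τ / m * H - C' * (τ / m) ^ 2 := by simp only [hg]; ring
  rw [e1, hμA]
  refine hBm.trans ?_
  rw [← hμ B hBU hB]
  refine measure_mono ?_
  rintro _ ⟨z, hz, rfl⟩
  obtain ⟨y, hy, -, h1, h2⟩ := hBd z hz
  have hyU := hAU' hy
  refine ⟨X y, hXA ▸ mem_image_of_mem X hy, ?_, ?_⟩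
  all_goals
    have e2 : (1 - τ / (m : ℝ)) = 1 + (-τ) / m := by ring
    have e3 : (m : ℝ) * (2 * KK C ρ * (τ / m) ^ 2) = 2 * KK C ρ * τ ^ 2 / m := by
      field_simp
    have e4 : 2 * (m : ℝ) * (2 * KK C ρ * (τ / m) ^ 2) = 4 * KK C ρ * τ ^ 2 / m := by
      field_simp
      ring
    rw [e2] at h1 h2
    rw [e3] at h1
    rw [e4] at h2
    set q := (1 + (-τ) / (m : ℝ)) ^ m with hq
    have hd0 : 0 ≤ dist x (X y) := dist_nonneg
    have hdC := hm.up y hyU
    have h3 : |q - t| * dist x (X y) ≤ |q - t| * C := by gcongr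
    have h4 : er m ≤ ε := hm2.le
    have h5 : 0 ≤ 2 * KK C ρ * τ ^ 2 / m := by positivity
    have h6 : |(q - t) * dist x (X y)| ≤ |q - t| * C := by
      rw [abs_mul, abs_of_nonneg hd0]; exact h3
    have h7 := abs_le.1 h6
    simp only [her] at h4
    have h8 : 4 * KK C ρ * τ ^ 2 / m = 2 * (2 * KK C ρ * τ ^ 2 / m) := by ring
  · rw [abs_le]
    have h9 := dist_triangle x (X z) (X y)
    rw [dist_comm (X z) (X y)] at h9
    constructor
    · nlinarith [h7.1, h7.2]
    · nlinarith [h7.1, h7.2]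
  · nlinarith [h7.1, h7.2]

end Crest.Agent.R247.Mcs816
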