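import Crest.Agent.R247.Mcs5_816

/-!
Row 247, block (6c)/(6d) (helper816), file 6: from the local contraction estimate to the global one,
by non-branching.
-/

set_option autoImplicit false

open scoped Topology ContDiff ENNReal
open Set MeasureTheory Filter

noncomputable section

namespace Crest.Agent.R247.Mcs816

variable {M : Type*} [MetricSpace M]

/-- minimisers starting at `x` do not branch. -/
def NonBr (x : M) : Prop := ∀ y y' z, z ≠ x → z ≠ y →
  dist x z + dist z y = dist x y → dist x z + dist z y' = dist x y' →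
  dist x y = dist x y' → y = y'

theorem Ipt_disjoint {x : M} (hx : NonBr x) {t : ℝ} (ht : 0 < t) (ht1 : t ≤ 1) {A B : Set M}
    (h : Disjoint A B) : Disjoint (Ipt x t A) (Ipt x t B) := by
  rcases eq_or_lt_of_le ht1 with rfl | ht2
  · rwa [Ipt_one, Ipt_one]
  rw [Set.disjoint_left]
  rintro z ⟨y, hy, h1, h2⟩ ⟨y', hy', h3, h4⟩
  have hd : dist x y = dist x y' := by
    rw [h1] at h3
    exact mul_left_cancel₀ ht.ne' h3
  have hyy : y = y' := by
    rcases eq_or_ne (dist x y) 0 with h0 | h0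
    · have e1 := dist_eq_zero.1 h0
      have e2 := dist_eq_zero.1 (hd ▸ h0 : dist x y' = 0)
      rw [← e1, ← e2]
    · have hzx : z ≠ x := by
        rintro rfl
        rw [dist_self] at h1
        exact h0 ((mul_eq_zero.1 h1.symm).resolve_left ht.ne')
      have hzy : z ≠ y := by
        rintro rfl
        rw [dist_self] at h2
        exact h0 ((mul_eq_zero.1 h2.symm).resolve_left (by linarith))
      refine hx y y' z hzx hzy ?_ ?_ hd
      · rw [dist_comm z y, h1, h2]; ring
      · rw [dist_comm z y', h3, h4]; ring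
  subst hyy
  exact Set.disjoint_left.1 h hy hy'

variable [ProperSpace M] [MeasurableSpace M] [BorelSpace M]

omit [ProperSpace M] [BorelSpace M] in
theorem LocC.mono {μ : Measure M} {x : M} {W W' : Set M} {H H' τ0 τ1 : ℝ}
    (h : LocC μ x W H τ0) (hW : W' ⊆ W) (hH : H ≤ H') (hτ : τ1 ≤ τ0) : LocC μ x W' H' τ1 := by
  intro A hA hAc τ hτ0 hτ1
  refine le_trans ?_ (h A (hA.trans hW) hAc τ hτ0 (hτ1.trans hτ))
  gcongr

theorem LocC.union {μ : Measure M} [IsFiniteMeasureOnCompacts μ] {x : M} (hx : NonBr x)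
    {V W : Set M} {H τ0 : ℝ} (hV : LocC μ x V H τ0) (hW : LocC μ x W H τ0) {O : Set M}
    (hO : IsOpen O) (hWO : W = O ∩ (V ∪ W)) : LocC μ x (V ∪ W) H τ0 := by
  intro A hA hAc τ hτ hτ1
  set c := ENNReal.ofReal (Real.exp (-(H * τ))) with hc
  have hK1 : IsCompact (A \ O) := hAc.diff hO
  have hK1V : A \ O ⊆ V := by
    rintro y ⟨hy, hyO⟩
    rcases hA hy with h | h
    · exact h
    · rw [hWO] at h; exact absurd h.1 hyO
  have hAO : MeasurableSet (A ∩ O) := hAc.measurableSet.inter hO.measurableSet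
  have hAOfin : μ (A ∩ O) ≠ ⊤ :=
    ((measure_mono inter_subset_left).trans_lt hAc.measure_lt_top).ne
  have key : ∀ ε : ℝ≥0∞, ε ≠ 0 → c * μ A ≤ μ (Ipt x (Real.exp (-τ)) A) + c * ε := by
    intro ε hε
    obtain ⟨K2, hK2s, hK2, hK2m⟩ := hAO.exists_isCompact_lt_add hAOfin hε
    have hK2W : K2 ⊆ W := by
      intro y hy
      rw [hWO]
      exact ⟨(hK2s hy).2, hA (hK2s hy).1⟩
    have hdis : Disjoint (A \ O) K2 := by
      rw [Set.disjoint_left]
      rintro y ⟨-, hyO⟩ hy2
      exact hyO (hK2s hy2).2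
    have h1 := hV _ hK1V hK1 τ hτ hτ1
    have h2 := hW _ hK2W hK2 τ hτ hτ1
    have h3 : μ (Ipt x (Real.exp (-τ)) (A \ O)) + μ (Ipt x (Real.exp (-τ)) K2) ≤
        μ (Ipt x (Real.exp (-τ)) A) := by
      rw [← measure_union (Ipt_disjoint hx (Real.exp_pos _)
        (Real.exp_le_one_iff.2 (by linarith)) hdis) (isCompact_Ipt x _ hK2).measurableSet]
      refine measure_mono (union_subset (Ipt_mono sdiff_subset)
        (Ipt_mono fun y hy => (hK2s hy).1))
    have h4 : μ A = μ (A ∩ O) + μ (A \ O) := (measure_inter_add_sdiff A hO.measurableSet).symm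
    calc c * μ A = c * μ (A \ O) + c * μ (A ∩ O) := by rw [h4, mul_add, add_comm]
      _ ≤ c * μ (A \ O) + c * (μ K2 + ε) := by gcongr
      _ = (c * μ (A \ O) + c * μ K2) + c * ε := by rw [mul_add, add_assoc]
      _ ≤ (μ (Ipt x (Real.exp (-τ)) (A \ O)) + μ (Ipt x (Real.exp (-τ)) K2)) + c * ε := by
          gcongr
      _ ≤ μ (Ipt x (Real.exp (-τ)) A) + c * ε := by gcongr
  have hcfin : c ≠ ⊤ := ENNReal.ofReal_ne_top
  have hlim : Tendsto (fun n : ℕ => μ (Ipt x (Real.exp (-τ)) A) +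
      c * ENNReal.ofReal (1 / ((n : ℝ) + 1))) atTop (𝓝 (μ (Ipt x (Real.exp (-τ)) A) + c * 0)) := by
    refine tendsto_const_nhds.add (ENNReal.Tendsto.const_mul ?_ (Or.inr hcfin))
    have := (ENNReal.continuous_ofReal.tendsto 0).comp
      (tendsto_one_div_add_atTop_nhds_zero_nat (𝕜 := ℝ))
    rw [ENNReal.ofReal_zero] at this
    exact this
  rw [mul_zero, add_zero] at hlim
  refine ge_of_tendsto' hlim fun n => key _ ?_
  simp only [ne_eq, ENNReal.ofReal_eq_zero, not_le]
  positivity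

/-- a compact set covered by open sets on which the local contraction holds. -/
theorem LocC.of_cover {μ : Measure M} [IsFiniteMeasureOnCompacts μ] {x : M} (hx : NonBr x)
    {ι : Type*} (s : Finset ι) (Wi : ι → Set M) (hWi : ∀ i ∈ s, IsOpen (Wi i)) {P : Set M}
    {H τ0 : ℝ} (h : ∀ i ∈ s, LocC μ x (Wi i ∩ P) H τ0) :
    LocC μ x ((⋃ i ∈ s, Wi i) ∩ P) H τ0 := by
  classical
  induction s using Finset.induction_on with
  | empty =>
    intro A hA hAc τ _ _
    have : A = ∅ := by
      refine Set.eq_empty_of_subset_empty (hA.trans ?_)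
      simp
    subst this
    simp
  | insert a s ha ih =>
    have h1 := ih (fun i hi => hWi i (Finset.mem_insert_of_mem hi))
      (fun i hi => h i (Finset.mem_insert_of_mem hi))
    have h2 := h a (Finset.mem_insert_self a s)
    have h3 : (⋃ i ∈ insert a s, Wi i) ∩ P = ((⋃ i ∈ s, Wi i) ∩ P) ∪ (Wi a ∩ P) := by
      rw [Finset.set_biUnion_insert, union_inter_distrib_right, union_comm]
    rw [h3]
    refine LocC.union hx h1 h2 (hWi a (Finset.mem_insert_self a s)) ?_
    ext y
    simp only [mem_inter_iff, mem_union]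
    tauto

/-- **uniform local contraction** on a compact set not containing `x`. -/
theorem exists_unif {μ : Measure M} [IsFiniteMeasureOnCompacts μ] {x : M} (hx : NonBr x)
    {h : ℝ → ℝ} (hcont : Continuous h) (hmono : MonotoneOn h (Ici 0))
    (hloc : ∀ y, y ≠ x → ∀ ε > 0, ∃ W, IsOpen W ∧ y ∈ W ∧ ∃ τ0 > 0,
      LocC μ x W (h (dist x y) + ε) τ0) {Q : Set M} (hQ : IsCompact Q) (hxQ : x ∉ Q)
    {ε : ℝ} (hε : 0 < ε) :
    ∃ τ1 > 0, ∀ r, 0 ≤ r → LocC μ x (Q ∩ Metric.closedBall x r) (h r + 2 * ε) τ1 := by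
  have hne : ∀ y ∈ Q, y ≠ x := fun y hy he => hxQ (he ▸ hy)
  -- choose neighbourhoods
  have hch : ∀ y ∈ Q, ∃ W, IsOpen W ∧ y ∈ W ∧ (∀ z ∈ W, h (dist x y) ≤ h (dist x z) + ε) ∧
      ∃ τ0 > 0, LocC μ x W (h (dist x y) + ε) τ0 := by
    intro y hy
    obtain ⟨W, hW, hyW, τ0, hτ0, hL⟩ := hloc y (hne y hy) ε hε
    have hc : Continuous fun z => h (dist x z) := hcont.comp (continuous_const.dist continuous_id)
    have hO : IsOpen {z | h (dist x y) < h (dist x z) + ε} :=
      isOpen_lt continuous_const (hc.add continuous_const)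
    refine ⟨W ∩ {z | h (dist x y) < h (dist x z) + ε}, hW.inter hO, ⟨hyW, ?_⟩, fun z hz => ?_,
      τ0, hτ0, hL.mono inter_subset_left le_rfl le_rfl⟩
    · show h (dist x y) < h (dist x y) + ε
      linarith
    · exact le_of_lt hz.2
  choose! W hW hyW hWh τ hτ hL using hch
  obtain ⟨s, hs, hcov⟩ := hQ.elim_nhds_subcover W (fun y hy => (hW y hy).mem_nhds (hyW y hy))
  have hmin : ∃ τ1 > 0, ∀ y ∈ s, τ1 ≤ τ y := by
    classical
    rcases s.eq_empty_or_nonempty with rfl | hne'
    · exact ⟨1, one_pos, by simp⟩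
    · obtain ⟨y0, hy0, hmin⟩ := s.exists_min_image τ hne'
      exact ⟨τ y0, hτ y0 (hs y0 hy0), hmin⟩
  obtain ⟨τ1, hτ1, hτ1'⟩ := hmin
  refine ⟨τ1, hτ1, fun r hr => ?_⟩
  have h1 : LocC μ x ((⋃ y ∈ s, W y) ∩ (Q ∩ Metric.closedBall x r)) (h r + 2 * ε) τ1 := by
    refine LocC.of_cover hx s W (fun y hy => hW y (hs y hy)) fun y hy => ?_
    rcases (W y ∩ (Q ∩ Metric.closedBall x r)).eq_empty_or_nonempty with he | ⟨z, hz⟩
    · intro A hA hAc _ _ _
      rw [he] at hA
      rw [Set.eq_empty_of_subset_empty hA]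
      simp
    · refine (hL y (hs y hy)).mono inter_subset_left ?_ (hτ1' y hy)
      have h2 := hWh y (hs y hy) z hz.1
      have h3 : dist x z ≤ r := by
        have := hz.2.2
        rwa [Metric.mem_closedBall, dist_comm] at this
      have h4 := hmono (show dist x z ∈ Ici 0 from dist_nonneg) (show r ∈ Ici 0 from hr) h3
      linarith
  refine h1.mono ?_ le_rfl le_rfl
  rintro y ⟨hyQ, hyr⟩
  exact ⟨hcov hyQ, hyQ, hyr⟩

/-- the exponent of the contraction estimate. -/
def GG (a κ r τ : ℝ) : ℝ := a * τ + κ * r ^ 2 * (1 - Real.exp (-(2 * τ))) / 2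

theorem GG_add (a κ r τ τ' : ℝ) :
    GG a κ r τ + GG a κ (Real.exp (-τ) * r) τ' = GG a κ r (τ + τ') := by
  unfold GG
  have h1 : (Real.exp (-τ) * r) ^ 2 = Real.exp (-(2 * τ)) * r ^ 2 := by
    rw [mul_pow, ← Real.exp_nat_mul]
    congr 2
    push_cast; ring
  have h2 : Real.exp (-(2 * (τ + τ'))) = Real.exp (-(2 * τ)) * Real.exp (-(2 * τ')) := by
    rw [← Real.exp_add]; congr 1; ring
  rw [h1, h2]
  ring

theorem le_GG {a κ r δ : ℝ} (hκ : 0 ≤ κ) (hδ : 0 ≤ δ) :
    (a + κ * r ^ 2) * δ ≤ GG a (κ * (1 + 2 * δ)) r δ := by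
  unfold GG
  have h1 : Real.exp (-(2 * δ)) ≤ 1 / (1 + 2 * δ) := by
    rw [Real.exp_neg, ← one_div]
    apply one_div_le_one_div_of_le (by positivity)
    have := Real.add_one_le_exp (2 * δ)
    linarith
  have h2 : 2 * δ ≤ (1 + 2 * δ) * (1 - Real.exp (-(2 * δ))) := by
    have : (1 + 2 * δ) * Real.exp (-(2 * δ)) ≤ (1 + 2 * δ) * (1 / (1 + 2 * δ)) := by gcongr
    rw [mul_one_div_cancel (by positivity)] at this
    linarith
  have h3 : κ * r ^ 2 * (2 * δ) ≤ κ * r ^ 2 * ((1 + 2 * δ) * (1 - Real.exp (-(2 * δ)))) := by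
    gcongr
  linarith

/-- **global contraction estimate**. -/
theorem contraction {μ : Measure M} [IsFiniteMeasureOnCompacts μ] {x : M} (hx : NonBr x)
    (hμx : μ {x} = 0) {a κ : ℝ} (hκ : 0 ≤ κ)
    (hloc : ∀ y, y ≠ x → ∀ ε > 0, ∃ W, IsOpen W ∧ y ∈ W ∧ ∃ τ0 > 0,
      LocC μ x W (a + κ * dist x y ^ 2 + ε) τ0) {R : ℝ} (hR : 0 ≤ R) {A : Set M}
    (hA : IsCompact A) (hAR : A ⊆ Metric.closedBall x R) {τ : ℝ} (hτ : 0 ≤ τ) :
    ENNReal.ofReal (Real.exp (-(a * τ + κ * R ^ 2 * (1 - Real.exp (-(2 * τ))) / 2))) * μ A ≤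
      μ (Ipt x (Real.exp (-τ)) A) := by
  -- first: compact sets away from `x`
  have key : ∀ b > 0, ∀ A : Set M, IsCompact A → A ⊆ Metric.closedBall x R →
      (∀ y ∈ A, b ≤ dist x y) →
      ENNReal.ofReal (Real.exp (-(GG a κ R τ))) * μ A ≤ μ (Ipt x (Real.exp (-τ)) A) := by
    intro b hb A hA hAR hAb
    set Q : Set M := Metric.closedBall x R ∩ {y | Real.exp (-τ) * b ≤ dist x y} with hQdef
    have hQ : IsCompact Q := (isCompact_closedBall x R).inter_right
      (isClosed_le continuous_const (by fun_prop))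
    have hxQ : x ∉ Q := by
      rintro ⟨-, h⟩
      rw [mem_ofPred_eq, dist_self] at h
      have : 0 < Real.exp (-τ) * b := by positivity
      linarith
    have hh : Continuous fun r : ℝ => a + κ * r ^ 2 := by fun_prop
    have hhm : MonotoneOn (fun r : ℝ => a + κ * r ^ 2) (Ici 0) := by
      intro r hr s hs hrs
      have h0 : 0 ≤ r := hr
      show a + κ * r ^ 2 ≤ a + κ * s ^ 2
      gcongr
    -- fixed `ε` and step `δ`
    have step : ∀ ε > 0, ∃ δ1 > 0, ∀ δ, 0 ≤ δ → δ ≤ δ1 → ∀ m : ℕ, (m : ℝ) * δ ≤ τ →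
        ENNReal.ofReal (Real.exp (-(GG (a + 2 * ε) (κ * (1 + 2 * δ)) R (m * δ)))) * μ A ≤
          μ (Ipt x (Real.exp (-(m * δ))) A) := by
      intro ε hε
      obtain ⟨τ1, hτ1, hL⟩ := exists_unif hx hh hhm hloc hQ hxQ hε
      refine ⟨τ1, hτ1, fun δ hδ hδ1 m => ?_⟩
      induction m with
      | zero =>
        intro _
        simp [GG, Ipt_one]
      | succ m ih =>
        intro hm
        push_cast at hm ⊢
        have hmδ : 0 ≤ (m : ℝ) * δ := by positivity
        have ih' := ih (by nlinarith)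
        set A' := Ipt x (Real.exp (-(m * δ))) A with hA'
        have hA'c : IsCompact A' := isCompact_Ipt x _ hA
        have hA'R : A' ⊆ Metric.closedBall x (Real.exp (-(m * δ)) * R) := fun z hz =>
          dist_Ipt (Real.exp_pos _).le hAR hz
        have hA'Q : A' ⊆ Q ∩ Metric.closedBall x (Real.exp (-(m * δ)) * R) := by
          intro z hz
          refine ⟨⟨?_, ?_⟩, hA'R hz⟩
          · refine Metric.closedBall_subset_closedBall ?_ (hA'R hz)
            have : Real.exp (-(m * δ)) ≤ 1 := Real.exp_le_one_iff.2 (by linarith)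
            nlinarith
          · obtain ⟨y, hy, h1, -⟩ := hz
            show Real.exp (-τ) * b ≤ dist x z
            rw [h1]
            have h2 : Real.exp (-τ) ≤ Real.exp (-(m * δ)) := Real.exp_le_exp.2 (by linarith)
            have h3 := hAb y hy
            gcongr
        have h1 := hL (Real.exp (-(m * δ)) * R) (by positivity) A' hA'Q hA'c δ hδ hδ1
        have h2 : Ipt x (Real.exp (-δ)) A' ⊆ Ipt x (Real.exp (-((m + 1) * δ))) A := by
          have := Ipt_Ipt (x := x) (s := Real.exp (-(m * δ))) (t := Real.exp (-δ)) (A := A)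
          rw [← Real.exp_add] at this
          have e : -δ + -(m * δ) = -((m + 1) * δ) := by ring
          rwa [e] at this
        refine le_trans ?_ (measure_mono h2)
        refine le_trans ?_ h1
        refine le_trans ?_ (mul_le_mul_right ih' _)
        rw [← mul_assoc, ← ENNReal.ofReal_mul (Real.exp_pos _).le, ← Real.exp_add]
        gcongr
        have h3 : ((a + 2 * ε) + κ * (Real.exp (-(m * δ)) * R) ^ 2) * δ ≤
            GG (a + 2 * ε) (κ * (1 + 2 * δ)) (Real.exp (-(m * δ)) * R) δ := le_GG hκ hδ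
        have h4 := GG_add (a + 2 * ε) (κ * (1 + 2 * δ)) R (m * δ) δ
        have h5 : (m + 1 : ℝ) * δ = m * δ + δ := by ring
        rw [h5]
        nlinarith
    -- let `m → ∞`, `ε → 0`
    have hlim1 : ∀ ε > 0, ENNReal.ofReal (Real.exp (-(GG (a + 2 * ε) κ R τ))) * μ A ≤
        μ (Ipt x (Real.exp (-τ)) A) := by
      intro ε hε
      obtain ⟨δ1, hδ1, hst⟩ := step ε hε
      have hδl : Tendsto (fun m : ℕ => τ / (m : ℝ)) atTop (𝓝 0) :=
        tendsto_const_div_atTop_nhds_zero_nat _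
      have hl : Tendsto (fun m : ℕ => ENNReal.ofReal (Real.exp
          (-(GG (a + 2 * ε) (κ * (1 + 2 * (τ / (m : ℝ)))) R τ))) * μ A) atTop
          (𝓝 (ENNReal.ofReal (Real.exp (-(GG (a + 2 * ε) (κ * (1 + 2 * 0)) R τ))) * μ A)) := by
        refine ENNReal.Tendsto.mul_const ?_ (Or.inr hA.measure_lt_top.ne)
        have hc : Continuous fun d : ℝ => ENNReal.ofReal (Real.exp
          (-(GG (a + 2 * ε) (κ * (1 + 2 * d)) R τ))) := by
          refine ENNReal.continuous_ofReal.comp ?_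
          unfold GG
          fun_prop
        exact (hc.tendsto 0).comp hδl
      rw [mul_zero, add_zero, mul_one] at hl
      refine le_of_tendsto hl ?_
      filter_upwards [hδl.eventually (gt_mem_nhds hδ1), eventually_gt_atTop 0] with m hm hm0
      have hmpos : (0 : ℝ) < m := by exact_mod_cast hm0
      have e : (m : ℝ) * (τ / m) = τ := by field_simp
      have := hst (τ / m) (by positivity) hm.le m e.le
      rwa [e] at this
    have hl : Tendsto (fun m : ℕ => ENNReal.ofReal (Real.exp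
        (-(GG (a + 2 * (1 / ((m : ℝ) + 1))) κ R τ))) * μ A) atTop
        (𝓝 (ENNReal.ofReal (Real.exp (-(GG (a + 2 * 0) κ R τ))) * μ A)) := by
      refine ENNReal.Tendsto.mul_const ?_ (Or.inr hA.measure_lt_top.ne)
      have hc : Continuous fun d : ℝ => ENNReal.ofReal (Real.exp
        (-(GG (a + 2 * d) κ R τ))) := by
        refine ENNReal.continuous_ofReal.comp ?_
        unfold GG
        fun_prop
      exact (hc.tendsto 0).comp tendsto_one_div_add_atTop_nhds_zero_nat
    rw [mul_zero, add_zero] at hl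
    exact le_of_tendsto' hl fun m => hlim1 _ (by positivity)
  -- remove a small ball
  set c := ENNReal.ofReal (Real.exp (-(GG a κ R τ))) with hc
  show c * μ A ≤ _
  set Am : ℕ → Set M := fun m => A ∩ {y | 1 / ((m : ℝ) + 1) ≤ dist x y} with hAm
  have hmonoA : Monotone Am := by
    intro m k hmk y hy
    refine ⟨hy.1, ?_⟩
    have h1 : 1 / ((m : ℝ) + 1) ≤ dist x y := hy.2
    have : (m : ℝ) ≤ k := by exact_mod_cast hmk
    show 1 / ((k : ℝ) + 1) ≤ dist x y
    refine le_trans ?_ h1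
    gcongr
  have hU : ⋃ m, Am m = A \ {x} := by
    ext y
    simp only [mem_iUnion, Set.mem_sdiff, mem_singleton_iff]
    constructor
    · rintro ⟨m, hy, h1⟩
      refine ⟨hy, ?_⟩
      rintro rfl
      have h2 : 1 / ((m : ℝ) + 1) ≤ dist y y := h1
      rw [dist_self] at h2
      have : 0 < 1 / ((m : ℝ) + 1) := by positivity
      linarith
    · rintro ⟨hy, hyx⟩
      have hpos : 0 < dist x y := dist_pos.2 (Ne.symm hyx)
      obtain ⟨m, hm⟩ := exists_nat_one_div_lt hpos
      exact ⟨m, hy, hm.le⟩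
  have hlim : Tendsto (fun m => μ (Am m)) atTop (𝓝 (μ (A \ {x}))) := by
    rw [← hU]
    exact tendsto_measure_iUnion_atTop hmonoA
  have hdiff : μ (A \ {x}) = μ A := measure_sdiff_null hμx
  rw [hdiff] at hlim
  have hlim2 : Tendsto (fun m => c * μ (Am m)) atTop (𝓝 (c * μ A)) :=
    ENNReal.Tendsto.const_mul hlim (Or.inr ENNReal.ofReal_ne_top)
  refine le_of_tendsto' hlim2 fun m => ?_
  refine (key (1 / ((m : ℝ) + 1)) (by positivity) (Am m)
    (hA.inter_right (isClosed_le continuous_const (by fun_prop)))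
    (inter_subset_left.trans hAR) (fun y hy => hy.2)).trans ?_
  exact measure_mono (Ipt_mono inter_subset_left)

end Crest.Agent.R247.Mcs816
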