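import Crest.Agent.R247.Mcs2_816
import Mathlib.Analysis.Calculus.ContDiff.Operations
import Mathlib.Analysis.Calculus.ContDiff.FiniteDimension
import Mathlib.Analysis.Calculus.FDeriv.CompCLM

/-!
Row 247, block (6c)/(6d) (helper816), file 7: uniform constants.  A family `Φ z` of functions in a
chart, jointly `C²` in the weak sense (`D Φ`, `D² Φ` continuous in the parameter and the point),
yields the structure `LF` on a ball, uniformly for parameters in a compact set.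
-/

set_option autoImplicit false
set_option maxSynthPendingDepth 3

open scoped Topology ContDiff
open Set Filter Metric

noncomputable section

namespace Crest.Agent.R247.Mcs816

variable {E : Type*} [NormedAddCommGroup E] [InnerProductSpace ℝ E] [FiniteDimensional ℝ E]

omit [FiniteDimensional ℝ E] in
theorem LF.mono [FiniteDimensional ℝ E] {U U' : Set E} {w : E → ℝ} {gg : E → E →L[ℝ] E →L[ℝ] ℝ}
    {f : ℕ → E → ℝ} {v : ℕ → E → E} {C C' H : ℝ} (h : LF U w gg f v C H) (hU : IsOpen U')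
    (hUU : U' ⊆ U) (hC : C ≤ C') : LF U' w gg f v C' H := by
  have h1 : 1 ≤ C := h.one_le
  refine ⟨hU, h1.trans hC, ?_, ?_, ?_, ?_, ?_, ?_, ?_, ?_, ?_, ?_, ?_, ?_, ?_⟩
  · intro y hy
    have h2 := h.w_lower y (hUU hy)
    have h3 : 0 < w y := by
      by_contra hneg
      push Not at hneg
      nlinarith
    exact h2.trans (by gcongr)
  · exact fun y hy => (h.w_fd y (hUU hy)).trans hC
  · exact h.w_cont.mono hUU
  · exact fun y hy y' hy' => (h.w_taylor y (hUU hy) y' (hUU hy')).trans (by gcongr)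
  · intro y hy u
    have h2 := h.gg_lower y (hUU hy) u
    have h3 : 0 ≤ gg y u u := by
      by_contra hneg
      push Not at hneg
      nlinarith [sq_nonneg ‖u‖]
    exact h2.trans (by gcongr)
  · exact fun y hy y' hy' u u' => (h.gg_lip y (hUU hy) y' (hUU hy') u u').trans (by gcongr)
  · exact fun k y hy => h.v_grad k y (hUU hy)
  · exact fun k => (h.f_cont k).mono hUU
  · exact fun k y hy y' hy' => (h.f_taylor k y (hUU hy) y' (hUU hy')).trans (by gcongr)
  · exact fun k y hy => (h.v_bd k y (hUU hy)).trans hC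
  · exact fun k y hy => h.v_diff k y (hUU hy)
  · exact fun k y hy => (h.v_fd k y (hUU hy)).trans hC
  · exact fun k y hy => h.div k y (hUU hy)

/-- geometric background data in a chart. -/
structure BG (T : Set E) (gg : E → E →L[ℝ] E →L[ℝ] ℝ) (w : E → ℝ) : Prop where
  isOpen : IsOpen T
  gg_smooth : ContDiffOn ℝ 2 gg T
  gg_pos : ∀ y ∈ T, ∀ u, u ≠ 0 → 0 < gg y u u
  w_smooth : ContDiffOn ℝ 2 w T
  w_pos : ∀ y ∈ T, 0 < w y

/-- inverse metric. -/
def ginv (gg : E → E →L[ℝ] E →L[ℝ] ℝ) (y : E) : (E →L[ℝ] ℝ) →L[ℝ] E :=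
  ContinuousLinearMap.inverse (gg y)

/-- gradient. -/
def gv (gg : E → E →L[ℝ] E →L[ℝ] ℝ) (f : E → ℝ) (y : E) : E := ginv gg y (fderiv ℝ f y)

/-- `w` times the Laplacian. -/
def lapw (gg : E → E →L[ℝ] E →L[ℝ] ℝ) (w : E → ℝ) (f : E → ℝ) (y : E) : ℝ :=
  fderiv ℝ w y (gv gg f y) + w y * trL E (fderiv ℝ (gv gg f) y)

section

variable {T : Set E} {gg : E → E →L[ℝ] E →L[ℝ] ℝ} {w : E → ℝ}

theorem BG.equiv (h : BG T gg w) {y : E} (hy : y ∈ T) :
    ∃ e : E ≃L[ℝ] (E →L[ℝ] ℝ), (e : E →L[ℝ] (E →L[ℝ] ℝ)) = gg y := by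
  have hinj : Function.Injective (gg y : E →ₗ[ℝ] (E →L[ℝ] ℝ)) := by
    rw [← LinearMap.ker_eq_bot, LinearMap.ker_eq_bot']
    intro u hu
    by_contra hne
    have h1 := h.gg_pos y hy u hne
    have h2 : gg y u = 0 := hu
    rw [h2] at h1
    simp at h1
  have hfr : Module.finrank ℝ E = Module.finrank ℝ (E →L[ℝ] ℝ) := by
    rw [← (LinearMap.toContinuousLinearMap (𝕜 := ℝ) (E := E) (F' := ℝ)).finrank_eq]
    exact (Subspace.dual_finrank_eq (K := ℝ) (V := E)).symm
  let e : E ≃ₗ[ℝ] (E →L[ℝ] ℝ) := LinearEquiv.ofInjectiveOfFinrankEq _ hinj hfr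
  refine ⟨e.toContinuousLinearEquiv, ?_⟩
  ext u v
  rfl

theorem BG.ginv_apply (h : BG T gg w) {y : E} (hy : y ∈ T) (ℓ : E →L[ℝ] ℝ) :
    gg y (ginv gg y ℓ) = ℓ := by
  obtain ⟨e, he⟩ := h.equiv hy
  rw [ginv, ← he, ContinuousLinearMap.inverse_equiv]
  simp

theorem BG.gg_inj (h : BG T gg w) {y : E} (hy : y ∈ T) {u v : E} (huv : gg y u = gg y v) :
    u = v := by
  obtain ⟨e, he⟩ := h.equiv hy
  rw [← he] at huv
  exact e.injective huv

theorem BG.contDiffAt_ginv (h : BG T gg w) {y : E} (hy : y ∈ T) :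
    ContDiffAt ℝ 2 (ginv gg) y := by
  obtain ⟨e, he⟩ := h.equiv hy
  have h1 : ContDiffAt ℝ 2 (ContinuousLinearMap.inverse (R := ℝ) (M := E) (M₂ := E →L[ℝ] ℝ))
      (gg y) := by
    rw [← he]
    exact contDiffAt_map_inverse e
  exact h1.comp y (h.gg_smooth.contDiffAt (h.isOpen.mem_nhds hy))

theorem BG.gv_spec (h : BG T gg w) {y : E} (hy : y ∈ T) (f : E → ℝ) (u : E) :
    gg y (gv gg f y) u = fderiv ℝ f y u := by
  rw [gv, h.ginv_apply hy]

/-- uniqueness of the gradient. -/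
theorem BG.gv_unique (h : BG T gg w) {y : E} (hy : y ∈ T) {f : E → ℝ} {v : E}
    (hv : ∀ u, gg y v u = fderiv ℝ f y u) : v = gv gg f y := by
  apply h.gg_inj hy
  ext u
  rw [hv, h.gv_spec hy]

end

end Crest.Agent.R247.Mcs816
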