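import Crest.Agent.R247.Mcs7_816
import Mathlib.Analysis.Calculus.MeanValue
import Mathlib.Topology.Separation.Regular

/-!
Row 247, block (6c)/(6d) (helper816), file 8: the structure `LF` from jointly `C²` families,
uniformly for parameters in a compact set.
-/

set_option autoImplicit false
set_option maxSynthPendingDepth 3
set_option linter.unusedSectionVars false

open scoped Topology ContDiff
open Set Filter Metric

noncomputable section

namespace Crest.Agent.R247.Mcs816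

variable {E : Type*} [NormedAddCommGroup E] [InnerProductSpace ℝ E] [FiniteDimensional ℝ E]

/-- Lipschitz bound on a ball from a bound of the derivative. -/
theorem lip_of_bound {V F : Type*} [NormedAddCommGroup V] [NormedSpace ℝ V]
    [NormedAddCommGroup F] [NormedSpace ℝ F] {f : V → F} {b : V} {r C : ℝ}
    (hf : ∀ y ∈ ball b r, DifferentiableAt ℝ f y) (hC : ∀ y ∈ ball b r, ‖fderiv ℝ f y‖ ≤ C)
    {y y' : V} (hy : y ∈ ball b r) (hy' : y' ∈ ball b r) : ‖f y' - f y‖ ≤ C * ‖y' - y‖ :=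
  (convex_ball b r).norm_image_sub_le_of_norm_fderiv_le (𝕜 := ℝ) hf hC hy hy'

section

variable {T : Set E} {gg : E → E →L[ℝ] E →L[ℝ] ℝ} {w : E → ℝ}

/-- bounds of the geometric background on a ball. -/
theorem BG.bounds (h : BG T gg w) {b : E} {r : ℝ} (hb : closedBall b r ⊆ T) :
    ∃ C : ℝ, 1 ≤ C ∧
      (∀ y ∈ ball b r, 1 ≤ C * w y) ∧
      (∀ y ∈ ball b r, ‖fderiv ℝ w y‖ ≤ C) ∧
      (∀ y ∈ ball b r, ∀ y' ∈ ball b r,
        |w y' - w y - fderiv ℝ w y (y' - y)| ≤ C * ‖y' - y‖ ^ 2) ∧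
      (∀ y ∈ ball b r, ∀ u, ‖u‖ ^ 2 ≤ C * gg y u u) ∧
      (∀ y ∈ ball b r, ∀ y' ∈ ball b r, ∀ u u',
        |gg y' u u' - gg y u u'| ≤ C * ‖y' - y‖ * ‖u‖ * ‖u'‖) := by
  have hcS : IsCompact (closedBall b r) := isCompact_closedBall b r
  have hwc : ContinuousOn w (closedBall b r) := h.w_smooth.continuousOn.mono hb
  have hgc : ContinuousOn gg (closedBall b r) := h.gg_smooth.continuousOn.mono hb
  obtain ⟨C1, h1⟩ := hcS.exists_bound_of_continuousOn
    (hwc.inv₀ (fun y hy => (h.w_pos y (hb hy)).ne'))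
  have hw1 : ContDiffOn ℝ 1 (fderiv ℝ w) T :=
    h.w_smooth.fderiv_of_isOpen h.isOpen (by norm_num)
  have hw2 : ContDiffOn ℝ 0 (fderiv ℝ (fderiv ℝ w)) T :=
    hw1.fderiv_of_isOpen h.isOpen (by norm_num)
  have hg1 : ContDiffOn ℝ 1 (fderiv ℝ gg) T :=
    h.gg_smooth.fderiv_of_isOpen h.isOpen (by norm_num)
  obtain ⟨C2, h2⟩ := hcS.exists_bound_of_continuousOn (hw1.continuousOn.mono hb)
  obtain ⟨C3, h3⟩ := hcS.exists_bound_of_continuousOn (hw2.continuousOn.mono hb)
  obtain ⟨C4, h4⟩ := hcS.exists_bound_of_continuousOn (hg1.continuousOn.mono hb)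
  have hcc : IsCompact (closedBall b r ×ˢ sphere (0 : E) 1) :=
    hcS.prod (isCompact_sphere 0 1)
  have hgq : ContinuousOn (fun q : E × E => gg q.1 q.2 q.2) (closedBall b r ×ˢ sphere (0 : E) 1) := by
    have e1 : ContinuousOn (fun q : E × E => gg q.1) (closedBall b r ×ˢ sphere (0 : E) 1) :=
      hgc.comp continuousOn_fst fun q hq => hq.1
    exact (e1.clm_apply continuousOn_snd).clm_apply continuousOn_snd
  obtain ⟨C5, h5⟩ := hcc.exists_bound_of_continuousOn (hgq.inv₀ (fun q hq =>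
    (h.gg_pos q.1 (hb hq.1) q.2 (by
      intro h0
      have := hq.2
      rw [h0] at this
      simp at this)).ne'))
  set C := |C1| + |C2| + |C3| + |C4| + |C5| + 1 with hC
  have a1 := abs_nonneg C1
  have a2 := abs_nonneg C2
  have a3 := abs_nonneg C3
  have a4 := abs_nonneg C4
  have a5 := abs_nonneg C5
  have l1 := le_abs_self C1
  have l2 := le_abs_self C2
  have l3 := le_abs_self C3
  have l4 := le_abs_self C4
  have l5 := le_abs_self C5
  have hbb : ball b r ⊆ closedBall b r := ball_subset_closedBall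
  have dw : ∀ y ∈ ball b r, DifferentiableAt ℝ w y := fun y hy =>
    (h.w_smooth.contDiffAt (h.isOpen.mem_nhds (hb (hbb hy)))).differentiableAt (by norm_num)
  have dw' : ∀ y ∈ ball b r, DifferentiableAt ℝ (fderiv ℝ w) y := fun y hy =>
    (hw1.contDiffAt (h.isOpen.mem_nhds (hb (hbb hy)))).differentiableAt (by norm_num)
  have dg : ∀ y ∈ ball b r, DifferentiableAt ℝ gg y := fun y hy =>
    (h.gg_smooth.contDiffAt (h.isOpen.mem_nhds (hb (hbb hy)))).differentiableAt (by norm_num)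
  refine ⟨C, by linarith, ?_, ?_, ?_, ?_, ?_⟩
  · intro y hy
    have hw0 := h.w_pos y (hb (hbb hy))
    have e1 := h1 y (hbb hy)
    rw [Pi.inv_apply, Real.norm_eq_abs, abs_of_pos (inv_pos.2 hw0)] at e1
    calc (1 : ℝ) = (w y)⁻¹ * w y := (inv_mul_cancel₀ hw0.ne').symm
      _ ≤ C * w y := by
        have : (w y)⁻¹ ≤ C := by linarith
        gcongr
  · intro y hy
    have := h2 y (hbb hy)
    linarith
  · intro y hy y' hy'
    have := taylor_of_lip (convex_ball b r) dw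
      (fun y hy y' hy' => lip_of_bound dw' (fun z hz => (h3 z (hbb hz)).trans
        (by linarith : C3 ≤ C)) hy hy') hy hy'
    rwa [Real.norm_eq_abs] at this
  · intro y hy u
    rcases eq_or_ne u 0 with rfl | hu
    · simp
    have hu0 : 0 < ‖u‖ := norm_pos_iff.2 hu
    have hmem : (y, ‖u‖⁻¹ • u) ∈ closedBall b r ×ˢ sphere (0 : E) 1 := by
      refine ⟨hbb hy, ?_⟩
      rw [mem_sphere_zero_iff_norm, norm_smul, norm_inv, norm_norm, inv_mul_cancel₀ hu0.ne']
    have e1 := h5 _ hmem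
    have hpos := h.gg_pos y (hb (hbb hy)) u hu
    have e2 : gg y (‖u‖⁻¹ • u) (‖u‖⁻¹ • u) = gg y u u / ‖u‖ ^ 2 := by
      rw [map_smul, map_smul, _root_.smul_apply, smul_eq_mul, smul_eq_mul]
      field_simp
    rw [Pi.inv_apply, e2, Real.norm_eq_abs, abs_of_pos (by positivity), inv_div,
      div_le_iff₀ hpos] at e1
    refine e1.trans ?_
    have : C5 ≤ C := by linarith
    gcongr
  · intro y hy y' hy' u u'
    have e1 := lip_of_bound dg (fun z hz => (h4 z (hbb hz)).trans (by linarith : C4 ≤ C)) hy hy'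
    have e2 : gg y' u u' - gg y u u' = (gg y' - gg y) u u' := by simp
    rw [e2, ← Real.norm_eq_abs]
    calc ‖(gg y' - gg y) u u'‖ ≤ ‖(gg y' - gg y) u‖ * ‖u'‖ := ContinuousLinearMap.le_opNorm _ _
      _ ≤ ‖gg y' - gg y‖ * ‖u‖ * ‖u'‖ := by gcongr; exact ContinuousLinearMap.le_opNorm _ _
      _ ≤ _ := by gcongr

variable {P : Type*} [TopologicalSpace P]

/-- a jointly `C²` family. -/
structure JF (T : Set E) (O : Set (P × E)) (Φ : P → E → ℝ) : Prop where
  isOpen : IsOpen O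
  sub : ∀ q ∈ O, q.2 ∈ T
  smooth : ∀ q ∈ O, ContDiffAt ℝ 2 (Φ q.1) q.2
  c1 : ContinuousOn (fun q : P × E => fderiv ℝ (Φ q.1) q.2) O
  c2 : ContinuousOn (fun q : P × E => fderiv ℝ (fderiv ℝ (Φ q.1)) q.2) O

variable {O : Set (P × E)} {Φ : P → E → ℝ}

theorem JF.diff2 (hΦ : JF T O Φ) {q : P × E} (hq : q ∈ O) :
    DifferentiableAt ℝ (fderiv ℝ (Φ q.1)) q.2 :=
  ((hΦ.smooth q hq).fderiv_right (m := 1) (by norm_num)).differentiableAt (by norm_num)

theorem JF.fderiv_gv (h : BG T gg w) (hΦ : JF T O Φ) {q : P × E} (hq : q ∈ O) :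
    DifferentiableAt ℝ (gv gg (Φ q.1)) q.2 ∧ fderiv ℝ (gv gg (Φ q.1)) q.2 =
      (ginv gg q.2).comp (fderiv ℝ (fderiv ℝ (Φ q.1)) q.2) +
        (fderiv ℝ (ginv gg) q.2).flip (fderiv ℝ (Φ q.1) q.2) := by
  have hd : DifferentiableAt ℝ (ginv gg) q.2 :=
    (h.contDiffAt_ginv (hΦ.sub q hq)).differentiableAt (by norm_num)
  exact ⟨hd.clm_apply (hΦ.diff2 hq), fderiv_clm_apply hd (hΦ.diff2 hq)⟩

theorem JF.cont_gv (h : BG T gg w) (hΦ : JF T O Φ) :
    ContinuousOn (fun q : P × E => gv gg (Φ q.1) q.2) O := by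
  have e1 : ContinuousOn (ginv gg) T := fun y hy =>
    (h.contDiffAt_ginv hy).continuousAt.continuousWithinAt
  have e2 : ContinuousOn (fun q : P × E => ginv gg q.2) O :=
    e1.comp continuousOn_snd fun q hq => hΦ.sub q hq
  exact e2.clm_apply hΦ.c1

theorem JF.cont_fderiv_gv (h : BG T gg w) (hΦ : JF T O Φ) :
    ContinuousOn (fun q : P × E => fderiv ℝ (gv gg (Φ q.1)) q.2) O := by
  have e1 : ContinuousOn (ginv gg) T := fun y hy =>
    (h.contDiffAt_ginv hy).continuousAt.continuousWithinAt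
  have e2 : ContinuousOn (fun q : P × E => ginv gg q.2) O :=
    e1.comp continuousOn_snd fun q hq => hΦ.sub q hq
  have e3 : ContinuousOn (fderiv ℝ (ginv gg)) T := fun y hy =>
    ((h.contDiffAt_ginv hy).fderiv_right (m := 1) (by norm_num)).continuousAt.continuousWithinAt
  have e4 : ContinuousOn (fun q : P × E => fderiv ℝ (ginv gg) q.2) O :=
    e3.comp continuousOn_snd fun q hq => hΦ.sub q hq
  have e5 : ContinuousOn (fun q : P × E => (fderiv ℝ (ginv gg) q.2).flip) O :=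
    (ContinuousLinearMap.flipₗᵢ ℝ E (E →L[ℝ] ℝ) E).continuous.comp_continuousOn e4
  have e6 : ContinuousOn (fun q : P × E => (ginv gg q.2).comp (fderiv ℝ (fderiv ℝ (Φ q.1)) q.2) +
        (fderiv ℝ (ginv gg) q.2).flip (fderiv ℝ (Φ q.1) q.2)) O :=
    (e2.clm_comp hΦ.c2).add (e5.clm_apply hΦ.c1)
  exact e6.congr fun q hq => (hΦ.fderiv_gv h hq).2

theorem JF.cont_lapw (h : BG T gg w) (hΦ : JF T O Φ) :
    ContinuousOn (fun q : P × E => lapw gg w (Φ q.1) q.2) O := by
  have hw1 : ContDiffOn ℝ 1 (fderiv ℝ w) T :=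
    h.w_smooth.fderiv_of_isOpen h.isOpen (by norm_num)
  have e1 : ContinuousOn (fun q : P × E => fderiv ℝ w q.2) O :=
    hw1.continuousOn.comp continuousOn_snd fun q hq => hΦ.sub q hq
  have e2 : ContinuousOn (fun q : P × E => w q.2) O :=
    h.w_smooth.continuousOn.comp continuousOn_snd fun q hq => hΦ.sub q hq
  exact (e1.clm_apply (hΦ.cont_gv h)).add
    (e2.mul ((trL E).continuous.comp_continuousOn (hΦ.cont_fderiv_gv h)))

/-- **uniform constants**. -/
theorem exists_LF [LocallyCompactSpace P] (h : BG T gg w) (hΦ : JF T O Φ)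
    {Z : Set P} (hZ : IsCompact Z) {b : E} (hb : b ∈ T) (hZO : ∀ z ∈ Z, (z, b) ∈ O) {H : ℝ}
    (hH : ∀ z ∈ Z, lapw gg w (Φ z) b < H * w b) :
    ∃ K : Set P, IsCompact K ∧ Z ⊆ interior K ∧ ∃ r > 0, closedBall b r ⊆ T ∧
      K ×ˢ closedBall b r ⊆ O ∧ ∃ C : ℝ, ∀ zk : ℕ → P, (∀ k, zk k ∈ K) →
        LF (ball b r) w gg (fun k => Φ (zk k)) (fun k => gv gg (Φ (zk k))) C H := by
  -- the open set of good pairs
  have hL : ContinuousOn (fun q : P × E => lapw gg w (Φ q.1) q.2 - H * w q.2) O := by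
    have e2 : ContinuousOn (fun q : P × E => w q.2) O :=
      h.w_smooth.continuousOn.comp continuousOn_snd fun q hq => hΦ.sub q hq
    exact (hΦ.cont_lapw h).sub (e2.const_mul H)
  have hO' := hL.isOpen_inter_preimage hΦ.isOpen (isOpen_Iio (a := (0 : ℝ)))
  set O' := O ∩ (fun q : P × E => lapw gg w (Φ q.1) q.2 - H * w q.2) ⁻¹' Iio 0 with hO'def
  have hsub : Z ×ˢ {b} ⊆ O' := by
    rintro ⟨z, b'⟩ ⟨hz, hb'⟩
    obtain rfl : b' = b := hb'
    refine ⟨hZO z hz, ?_⟩
    have := hH z hz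
    show lapw gg w (Φ z) b' - H * w b' < 0
    linarith
  obtain ⟨U, V, hU, hV, hZU, hbV, hUV⟩ := generalized_tube_lemma hZ isCompact_singleton hO' hsub
  obtain ⟨K, hK, hZK, hKU⟩ := exists_compact_between hZ hU hZU
  obtain ⟨r, hr, hrV⟩ := nhds_basis_closedBall.mem_iff.1
    ((hV.inter h.isOpen).mem_nhds ⟨hbV rfl, hb⟩)
  have hrT : closedBall b r ⊆ T := hrV.trans inter_subset_right
  have hKO' : K ×ˢ closedBall b r ⊆ O' :=
    (prod_mono hKU (hrV.trans inter_subset_left)).trans hUV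
  have hKO : K ×ˢ closedBall b r ⊆ O := hKO'.trans inter_subset_left
  refine ⟨K, hK, hZK, r, hr, hrT, hKO, ?_⟩
  have hc : IsCompact (K ×ˢ closedBall b r) := hK.prod (isCompact_closedBall b r)
  obtain ⟨C0, hC0, b1, b2, b3, b4, b5⟩ := h.bounds hrT
  obtain ⟨C2, h2⟩ := hc.exists_bound_of_continuousOn (hΦ.c2.mono hKO)
  obtain ⟨C3, h3⟩ := hc.exists_bound_of_continuousOn ((hΦ.cont_gv h).mono hKO)
  obtain ⟨C4, h4⟩ := hc.exists_bound_of_continuousOn ((hΦ.cont_fderiv_gv h).mono hKO)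
  set C := C0 + |C2| + |C3| + |C4| with hC
  have a2 := abs_nonneg C2
  have a3 := abs_nonneg C3
  have a4 := abs_nonneg C4
  have l2 := le_abs_self C2
  have l3 := le_abs_self C3
  have l4 := le_abs_self C4
  have hCC : C0 ≤ C := by linarith
  have hbb : ball b r ⊆ closedBall b r := ball_subset_closedBall
  refine ⟨C, fun zk hzk => ?_⟩
  have hq : ∀ k, ∀ y ∈ ball b r, (zk k, y) ∈ K ×ˢ closedBall b r := fun k y hy =>
    ⟨hzk k, hbb hy⟩
  refine ⟨isOpen_ball, hC0.trans hCC, ?_, ?_, ?_, ?_, ?_, ?_, ?_, ?_, ?_, ?_, ?_, ?_, ?_⟩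
  · intro y hy
    have := h.w_pos y (hrT (hbb hy))
    exact (b1 y hy).trans (by gcongr)
  · exact fun y hy => (b2 y hy).trans hCC
  · exact h.w_smooth.continuousOn.mono (hbb.trans hrT)
  · exact fun y hy y' hy' => (b3 y hy y' hy').trans (by gcongr)
  · intro y hy u
    have hnn : 0 ≤ gg y u u := by
      rcases eq_or_ne u 0 with rfl | hu
      · simp
      · exact (h.gg_pos y (hrT (hbb hy)) u hu).le
    exact (b4 y hy u).trans (by gcongr)
  · exact fun y hy y' hy' u u' => (b5 y hy y' hy' u u').trans (by gcongr)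
  · exact fun k y hy u => h.gv_spec (hrT (hbb hy)) _ u
  · exact fun k y hy =>
      (hΦ.smooth (zk k, y) (hKO (hq k y hy))).continuousAt.continuousWithinAt
  · intro k y hy y' hy'
    have d1 : ∀ y ∈ ball b r, DifferentiableAt ℝ (Φ (zk k)) y := fun y hy =>
      (hΦ.smooth (zk k, y) (hKO (hq k y hy))).differentiableAt (by norm_num)
    have d2 : ∀ y ∈ ball b r, DifferentiableAt ℝ (fderiv ℝ (Φ (zk k))) y := fun y hy =>
      hΦ.diff2 (hKO (hq k y hy))
    have := taylor_of_lip (convex_ball b r) d1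
      (fun y hy y' hy' => lip_of_bound d2 (fun z hz => (h2 (zk k, z) (hq k z hz)).trans
        (by linarith : C2 ≤ C)) hy hy') hy hy'
    rwa [Real.norm_eq_abs] at this
  · intro k y hy
    have := h3 (zk k, y) (hq k y hy)
    simp only at this
    linarith
  · exact fun k y hy => (hΦ.fderiv_gv h (hKO (hq k y hy))).1
  · intro k y hy
    have := h4 (zk k, y) (hq k y hy)
    simp only at this
    linarith
  · intro k y hy
    have h5 : lapw gg w (Φ (zk k)) y - H * w y < 0 := (hKO' (hq k y hy)).2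
    unfold lapw at h5
    linarith

end

end Crest.Agent.R247.Mcs816
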