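import Crest.Agent.R247.Mcs8_816
import Mathlib.Analysis.SpecialFunctions.Sqrt
import Mathlib.Analysis.Calculus.Deriv.Inv

/-!
Row 247, block (6c)/(6d) (helper816), file 9: families depending on a parameter of a topological
space; chain rule for the Laplacian; the barrier `(c + d)² / 2`.
-/

set_option autoImplicit false
set_option maxSynthPendingDepth 3
set_option linter.unusedSectionVars false

open scoped Topology ContDiff
open Set Filter Metric

noncomputable section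

namespace Crest.Agent.R247.Mcs816

section param

variable {P : Type*} [TopologicalSpace P]
  {A : Type*} [NormedAddCommGroup A] [NormedSpace ℝ A]
  {V : Type*} [NormedAddCommGroup V] [NormedSpace ℝ V]
  {F : Type*} [NormedAddCommGroup F] [NormedSpace ℝ F]

theorem fderiv_slice {ψ : A × V → F} {a : A} {b : V} (h : DifferentiableAt ℝ ψ (a, b)) :
    fderiv ℝ (fun b => ψ (a, b)) b = (fderiv ℝ ψ (a, b)).comp (ContinuousLinearMap.inr ℝ A V) := by
  have h1 : HasFDerivAt (fun b : V => (a, b)) (ContinuousLinearMap.inr ℝ A V) b :=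
    hasFDerivAt_prodMk_right a b
  exact (h.hasFDerivAt.comp b h1).fderiv

theorem slice_eventually {p : P × V → Prop} {z : P} {b : V} (h : ∀ᶠ q in 𝓝 (z, b), p q) :
    ∀ᶠ q in 𝓝 (z, b), ∀ᶠ b' in 𝓝 q.2, p (q.1, b') := by
  filter_upwards [h.eventually_nhds] with q hq
  have h1 : ContinuousAt (fun b' : V => (q.1, b')) q.2 := by fun_prop
  exact h1.eventually hq

theorem param_step {φ : P → A} {ψ : A × V → F} {Φ : P → V → F} {z : P} {b : V} {m : ℕ}
    (hφ : ContinuousAt φ z) (hψ : ContDiffAt ℝ (m + 1 : ℕ) ψ (φ z, b))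
    (hΦ : ∀ᶠ q in 𝓝 (z, b), Φ q.1 q.2 = ψ (φ q.1, q.2)) :
    ContDiffAt ℝ m (fun p => (fderiv ℝ ψ p).comp (ContinuousLinearMap.inr ℝ A V)) (φ z, b) ∧
    ∀ᶠ q in 𝓝 (z, b), fderiv ℝ (Φ q.1) q.2 =
      (fderiv ℝ ψ (φ q.1, q.2)).comp (ContinuousLinearMap.inr ℝ A V) := by
  constructor
  · have h1 : ContDiffAt ℝ m (fderiv ℝ ψ) (φ z, b) := hψ.fderiv_right (by push_cast; rfl)
    exact h1.clm_comp contDiffAt_const
  · have h1 : ContinuousAt (fun q : P × V => (φ q.1, q.2)) (z, b) :=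
      (hφ.comp (f := Prod.fst) (x := (z, b)) continuousAt_fst).prodMk continuousAt_snd
    have h2 : ∀ᶠ p in 𝓝 (φ z, b), ContDiffAt ℝ (m + 1 : ℕ) ψ p := hψ.eventually (by simp)
    filter_upwards [h1.eventually h2, slice_eventually hΦ] with q hq1 hq2
    have h3 : Φ q.1 =ᶠ[𝓝 q.2] fun b => ψ (φ q.1, b) := hq2
    rw [h3.fderiv_eq]
    exact fderiv_slice (hq1.differentiableAt (by simp))

theorem param_JF {φ : P → A} {ψ : A × V → F} {Φ : P → V → F} {z : P} {b : V}
    (hφ : ContinuousAt φ z) (hψ : ContDiffAt ℝ 3 ψ (φ z, b))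
    (hΦ : ∀ᶠ q in 𝓝 (z, b), Φ q.1 q.2 = ψ (φ q.1, q.2)) :
    ContDiffAt ℝ 2 (Φ z) b ∧ ContinuousAt (fun q : P × V => fderiv ℝ (Φ q.1) q.2) (z, b) ∧
      ContinuousAt (fun q : P × V => fderiv ℝ (fderiv ℝ (Φ q.1)) q.2) (z, b) := by
  have h1 : ContinuousAt (fun q : P × V => (φ q.1, q.2)) (z, b) :=
    (hφ.comp (f := Prod.fst) (x := (z, b)) continuousAt_fst).prodMk continuousAt_snd
  obtain ⟨s1, s2⟩ := param_step (m := 2) hφ (by exact_mod_cast hψ) hΦ
  obtain ⟨s3, s4⟩ := param_step (m := 1) (F := V →L[ℝ] F)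
    (ψ := fun p => (fderiv ℝ ψ p).comp (ContinuousLinearMap.inr ℝ A V))
    (Φ := fun z => fderiv ℝ (Φ z)) hφ (by exact_mod_cast s1) s2
  refine ⟨?_, ?_, ?_⟩
  · have h2 : ContDiffAt ℝ 2 (fun b' : V => ψ (φ z, b')) b :=
      ContDiffAt.comp b (f := fun b' : V => (φ z, b')) (hψ.of_le (by norm_num))
        (contDiffAt_const.prodMk contDiffAt_id)
    have h3 := (slice_eventually hΦ).self_of_nhds
    have h4 : Φ z =ᶠ[𝓝 b] fun b => ψ (φ z, b) := h3
    exact h2.congr_of_eventuallyEq h4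
  · have h2 : ContinuousAt ((fun p => (fderiv ℝ ψ p).comp (ContinuousLinearMap.inr ℝ A V)) ∘
        fun q : P × V => (φ q.1, q.2)) (z, b) :=
      ContinuousAt.comp (x := (z, b)) (f := fun q : P × V => (φ q.1, q.2)) s1.continuousAt h1
    exact h2.congr (s2.mono fun q hq => hq.symm)
  · have h2 : ContinuousAt ((fun p => (fderiv ℝ (fun p => (fderiv ℝ ψ p).comp
        (ContinuousLinearMap.inr ℝ A V)) p).comp (ContinuousLinearMap.inr ℝ A V)) ∘
        fun q : P × V => (φ q.1, q.2)) (z, b) :=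
      ContinuousAt.comp (x := (z, b)) (f := fun q : P × V => (φ q.1, q.2)) s3.continuousAt h1
    exact h2.congr (s4.mono fun q hq => hq.symm)

end param

section chain

variable {E : Type*} [NormedAddCommGroup E] [InnerProductSpace ℝ E] [FiniteDimensional ℝ E]
variable {T : Set E} {gg : E → E →L[ℝ] E →L[ℝ] ℝ} {w : E → ℝ}

theorem gv_comp {h : E → ℝ} {y : E} (hh : DifferentiableAt ℝ h y) {G : ℝ → ℝ} {G' : ℝ}
    (hG : HasDerivAt G G' (h y)) : gv gg (fun b => G (h b)) y = G' • gv gg h y := by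
  have h1 : HasFDerivAt (fun b => G (h b)) (G' • fderiv ℝ h y) y := hG.comp_hasFDerivAt y hh.hasFDerivAt
  rw [gv, h1.fderiv, map_smul]
  rfl

/-- chain rule for the Laplacian. -/
theorem BG.lapw_comp (hb : BG T gg w) {h : E → ℝ} {y : E} (hy : y ∈ T) (hh : ContDiffAt ℝ 2 h y)
    {G G' : ℝ → ℝ} {G'' : ℝ}
    (hG : ∀ᶠ s in 𝓝 (h y), HasDerivAt G (G' s) s) (hG' : HasDerivAt G' G'' (h y)) :
    lapw gg w (fun b => G (h b)) y =
      G' (h y) * lapw gg w h y + w y * (G'' * fderiv ℝ h y (gv gg h y)) := by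
  have hd : DifferentiableAt ℝ h y := hh.differentiableAt (by norm_num)
  have hev : gv gg (fun b => G (h b)) =ᶠ[𝓝 y] fun b => G' (h b) • gv gg h b := by
    have e1 : ∀ᶠ b in 𝓝 y, HasDerivAt G (G' (h b)) (h b) := hd.continuousAt.eventually hG
    have e2 : ∀ᶠ b in 𝓝 y, ContDiffAt ℝ 2 h b := hh.eventually (by norm_num)
    filter_upwards [e1, e2] with b hb1 hb2
    exact gv_comp (hb2.differentiableAt (by norm_num)) hb1
  have hgd : DifferentiableAt ℝ (gv gg h) y := by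
    have e1 : DifferentiableAt ℝ (ginv gg) y := (hb.contDiffAt_ginv hy).differentiableAt (by norm_num)
    have e2 : DifferentiableAt ℝ (fderiv ℝ h) y :=
      (hh.fderiv_right (m := 1) (by norm_num)).differentiableAt (by norm_num)
    exact e1.clm_apply e2
  have hφ : HasFDerivAt (fun b => G' (h b)) (G'' • fderiv ℝ h y) y :=
    hG'.comp_hasFDerivAt y hd.hasFDerivAt
  have h1 := (hφ.smul hgd.hasFDerivAt).fderiv
  have h2 : fderiv ℝ (gv gg (fun b => G (h b))) y =
      G' (h y) • fderiv ℝ (gv gg h) y + (G'' • fderiv ℝ h y).smulRight (gv gg h y) := by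
    rw [hev.fderiv_eq]
    exact h1
  unfold lapw
  rw [h2, hev.self_of_nhds, map_smul, map_add, map_smul]
  have h3 : trL E ((G'' • fderiv ℝ h y).smulRight (gv gg h y)) =
      G'' * fderiv ℝ h y (gv gg h y) := by
    rw [trL_apply]
    have e : (((G'' • fderiv ℝ h y).smulRight (gv gg h y) : E →L[ℝ] E) : E →ₗ[ℝ] E) =
        LinearMap.smulRight ((G'' • fderiv ℝ h y : E →L[ℝ] ℝ) : E →ₗ[ℝ] ℝ) (gv gg h y) := rfl
    rw [e, LinearMap.trace_smulRight]
    rfl
  rw [h3, smul_eq_mul, smul_eq_mul]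
  ring

/-- the barrier profile. -/
def Gc (c s : ℝ) : ℝ := (c + √(2 * s)) ^ 2 / 2

theorem hasDerivAt_Gc (c : ℝ) {s : ℝ} (hs : 0 < s) : HasDerivAt (Gc c) (1 + c / √(2 * s)) s := by
  have h1 : HasDerivAt (fun s : ℝ => √(2 * s)) (2 / (2 * √(2 * s))) s := by
    have h2 : HasDerivAt (fun s : ℝ => 2 * s) 2 s := by simpa using (hasDerivAt_id s).const_mul 2
    exact h2.sqrt (by positivity)
  have h3 := ((h1.const_add c).pow 2).div_const 2
  have hne : √(2 * s) ≠ 0 := (Real.sqrt_pos.2 (by positivity)).ne'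
  refine h3.congr_deriv ?_
  field_simp
  ring

theorem hasDerivAt_Gc' (c : ℝ) {s : ℝ} (hs : 0 < s) :
    HasDerivAt (fun s => 1 + c / √(2 * s)) (-(c / √(2 * s) ^ 3)) s := by
  have h1 : HasDerivAt (fun s : ℝ => √(2 * s)) (2 / (2 * √(2 * s))) s := by
    have h2 : HasDerivAt (fun s : ℝ => 2 * s) 2 s := by simpa using (hasDerivAt_id s).const_mul 2
    exact h2.sqrt (by positivity)
  have hne : √(2 * s) ≠ 0 := (Real.sqrt_pos.2 (by positivity)).ne'
  have h3 := ((h1.inv hne).const_mul c).const_add 1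
  refine (h3.congr_deriv ?_).congr_of_eventuallyEq (Eventually.of_forall fun s => ?_)
  · field_simp
  · simp only [div_eq_mul_inv, Pi.inv_apply]

/-- Laplacian of the barrier. -/
theorem BG.lapw_barrier (hb : BG T gg w) {h : E → ℝ} {y : E} (hy : y ∈ T)
    (hh : ContDiffAt ℝ 2 h y) (hpos : 0 < h y) (heik : gg y (gv gg h y) (gv gg h y) = 2 * h y)
    {c Λ : ℝ} (hc : 0 ≤ c) (hΛ : lapw gg w h y ≤ Λ * w y) :
    lapw gg w (fun b => Gc c (h b)) y ≤ (1 + c / √(2 * h y)) * Λ * w y := by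
  have hev : ∀ᶠ s in 𝓝 (h y), HasDerivAt (Gc c) (1 + c / √(2 * s)) s := by
    filter_upwards [lt_mem_nhds hpos] with s hs using hasDerivAt_Gc c hs
  have h1 : lapw gg w (fun b => Gc c (h b)) y = (1 + c / √(2 * h y)) * lapw gg w h y +
      w y * (-(c / √(2 * h y) ^ 3) * fderiv ℝ h y (gv gg h y)) :=
    hb.lapw_comp hy hh (G' := fun s => 1 + c / √(2 * s)) hev (hasDerivAt_Gc' c hpos)
  rw [← hb.gv_spec hy, heik] at h1
  have hs : 0 < √(2 * h y) := Real.sqrt_pos.2 (by positivity)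
  have hw := hb.w_pos y hy
  rw [h1]
  have h2 : 0 ≤ w y * ((c / √(2 * h y) ^ 3) * (2 * h y)) := by positivity
  have h3 : (1 + c / √(2 * h y)) * lapw gg w h y ≤ (1 + c / √(2 * h y)) * (Λ * w y) := by
    gcongr
  linarith

/-- eikonal equation of the barrier. -/
theorem eik_barrier {h : E → ℝ} {y : E}
    (hh : DifferentiableAt ℝ h y) (hpos : 0 < h y)
    (heik : gg y (gv gg h y) (gv gg h y) = 2 * h y) (c : ℝ) :
    gg y (gv gg (fun b => Gc c (h b)) y) (gv gg (fun b => Gc c (h b)) y) = 2 * Gc c (h y) := by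
  rw [gv_comp hh (hasDerivAt_Gc c hpos)]
  rw [map_smul, map_smul, _root_.smul_apply, smul_eq_mul, smul_eq_mul, heik, Gc]
  have hs : 0 < √(2 * h y) := Real.sqrt_pos.2 (by positivity)
  have hsq : √(2 * h y) ^ 2 = 2 * h y := Real.sq_sqrt (by positivity)
  set ρ := √(2 * h y) with hρ
  rw [← hsq]
  field_simp
  ring

end chain

end Crest.Agent.R247.Mcs816
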