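import Crest.Agent.R247.Pair2_438
import Crest.Agent.R247.BL6_562

/-! # Leaf (1-CE) of R247, part 5: the mixed pair inequality in the literal form of Lemma BL -/

set_option autoImplicit false
set_option linter.unusedSectionVars false
open MeasureTheory Set Filter Topology
open scoped ENNReal NNReal

noncomputable section
namespace Crest.Agent.R247.Pair438
open Crest.Agent.R247.Mcp688
open Crest.Agent.R247.BL562 (lam Mix)
open Crest.Agent.R247.Far553 (dy FarK FarD)

variable {n : ℕ} {κ : ℝ} {X : Type*} [MetricSpace X] [MeasurableSpace X] [BorelSpace X]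
  {μ : Measure X} {C : Rad n κ X μ}

/-- the mixed pair inequality, with the absolute constant `2` -/
theorem mix_of [SFinite μ] {x : X} {E : X → X → ℝ≥0∞} (hV : VEL C x) (hE : PV C x E) :
    Mix C x E 2 := by
  filter_upwards [pair1 C hV hE] with p hp h0 h1 a ha
  obtain ⟨-, -, hq0, hq1⟩ := lam_pos h0 h1 ha
  refine (hp h0 h1 a ha).trans (add_le_add (ENNReal.ofReal_le_ofReal ?_) le_rfl)
  have hex : exc x p.1 p.2.1 = dist x p.1 + dist p.1 p.2.1 - dist x p.2.1 := rfl
  rw [← hex]
  have h10 : 0 ≤ 2 * (1 - dist x p.1 / dist x p.2.1) * |dist x p.2.1 - dist x p.2.2| :=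
    mul_nonneg (by linarith) (abs_nonneg _)
  have h11 : Real.sqrt (2 * dist p.1 p.2.1 * exc x p.1 p.2.1) + 2 * exc x p.1 p.2.1 ≤
      Real.sqrt (2 * dist p.1 p.2.1 * exc x p.1 p.2.1) + 2 * exc x p.1 p.2.1 +
        2 * (1 - dist x p.1 / dist x p.2.1) * |dist x p.2.1 - dist x p.2.2| := by linarith
  have h12 := div_le_div_of_nonneg_right h11 hq0.le
  linarith

/-- the mixed pair inequality over `FarD`, in the form consumed by `BL562.blp_of_mix` -/
theorem mix_far [SFinite μ] {c : FarK} {x : X} {δ : ℝ} {ph : ℕ → ℝ} (D : FarD c C x δ ph)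
    (k : ℕ) : Mix C x (Err C (LX149.Fx D k) (dy k)) 2 :=
  mix_of D.vel (LX149.PV_of_far D k)

end Crest.Agent.R247.Pair438
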