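import Crest.Agent.R226.VolChartB_767

/-!
R247, block (0) (helper322), part 1: `C¹` maps between normed spaces and Riemannian manifolds with a
pointwise bound of the derivative are Lipschitz with the SAME constant (locally).
-/

set_option autoImplicit false

open Bundle Bornology Set MeasureTheory Manifold Filter Metric
open scoped ENNReal ContDiff Topology NNReal

namespace Crest.Agent.R247.Ms322

noncomputable section

section Chart

variable
  {E : Type*} [NormedAddCommGroup E] [NormedSpace ℝ E]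
  {H : Type*} [TopologicalSpace H] {I : ModelWithCorners ℝ E H}
  {M : Type*} [PseudoEMetricSpace M] [ChartedSpace H M]
  [RiemannianBundle (fun (x : M) ↦ TangentSpace% x)]
  {F : Type*} [NormedAddCommGroup F] [NormedSpace ℝ F]

attribute [local instance] normedAddCommGroupTangentSpaceVectorSpace
attribute [local instance] normedSpaceTangentSpaceVectorSpace

set_option backward.isDefEq.respectTransparency false in
/-- A `C¹` map from an open convex subset of a normed space to a Riemannian manifold whose derivative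
is bounded by `C` is `C`-Lipschitz there. -/
theorem edist_le_of_convex [IsRiemannianManifold I M] {f : F → M} {s : Set F} (hs : Convex ℝ s)
    (hso : IsOpen s) (hf : ContMDiffOn 𝓘(ℝ, F) I 1 f s) {C : ℝ≥0}
    (hC : ∀ y ∈ s, ∀ v : F, ‖(mfderiv 𝓘(ℝ, F) I f y v : TangentSpace I (f y))‖ₑ ≤ C * ‖v‖ₑ)
    {a b : F} (ha : a ∈ s) (hb : b ∈ s) :
    edist (f a) (f b) ≤ C * edist a b := by
  rw [IsRiemannianManifold.out (I := I)]
  let η := ContinuousAffineMap.lineMap (R := ℝ) a b
  set γ := f ∘ η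
  have hη : ∀ t ∈ Icc (0 : ℝ) 1, η t ∈ s := by
    intro t ht
    have := hs.segment_subset ha hb
    rw [segment_eq_image_lineMap] at this
    exact this ⟨t, ht, by simp [η, ContinuousAffineMap.coe_lineMap_eq]⟩
  have η_smooth : ContMDiff 𝓘(ℝ, ℝ) 𝓘(ℝ, F) 1 η := by
    rw [contMDiff_iff_contDiff]
    exact ContinuousAffineMap.contDiff _
  have hγ : ∀ t ∈ Icc (0 : ℝ) 1, mfderivWithin 𝓘(ℝ, ℝ) I γ (Icc 0 1) t =
      (mfderiv 𝓘(ℝ, F) I f (η t)) ∘L (mfderivWithin 𝓘(ℝ, ℝ) 𝓘(ℝ, F) η (Icc 0 1) t) := by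
    intro t ht
    apply mfderiv_comp_mfderivWithin
    · exact ((hf.contMDiffAt (hso.mem_nhds (hη t ht))).mdifferentiableAt one_ne_zero)
    · exact (η_smooth.mdifferentiable one_ne_zero t).mdifferentiableWithinAt
    · rw [uniqueMDiffWithinAt_iff_uniqueDiffWithinAt]
      exact uniqueDiffOn_Icc zero_lt_one _ ht
  calc riemannianEDist I (f a) (f b) ≤ pathELength I γ 0 1 := by
        apply riemannianEDist_le_pathELength _ _ _ zero_le_one
        · exact hf.comp η_smooth.contMDiffOn hη
        · simp [γ, η, ContinuousAffineMap.coe_lineMap_eq]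
        · simp [γ, η, ContinuousAffineMap.coe_lineMap_eq]
    _ = ∫⁻ t in Icc (0 : ℝ) 1, ‖mfderivWithin 𝓘(ℝ, ℝ) I γ (Icc 0 1) t 1‖ₑ := by
        rw [pathELength_eq_lintegral_mfderivWithin_Icc]
    _ ≤ ∫⁻ t in Icc (0 : ℝ) 1, C * edist a b := by
        apply setLIntegral_mono' measurableSet_Icc (fun t ht ↦ ?_)
        have h1 : (mfderivWithin 𝓘(ℝ, ℝ) 𝓘(ℝ, F) η (Icc 0 1) t (1 : ℝ) : F) = b - a := by
          have h0 : mfderivWithin 𝓘(ℝ, ℝ) 𝓘(ℝ, F) η (Icc 0 1) t
              = fderivWithin ℝ η (Icc 0 1) t := mfderivWithin_eq_fderivWithin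
          rw [h0, fderivWithin_eq_fderiv (uniqueDiffOn_Icc zero_lt_one _ ht)
            ((ContinuousAffineMap.contDiff (𝕜 := ℝ) (n := 1) η).differentiable one_ne_zero t)]
          have h2 : HasDerivAt (η : ℝ → F) (b - a) t := by
            have : (η : ℝ → F) = fun t => AffineMap.lineMap a b t := by
              ext t; simp [η, ContinuousAffineMap.coe_lineMap_eq]
            rw [this]
            exact AffineMap.hasDerivAt_lineMap (a := a) (b := b) (x := t)
          exact (congrArg (fun L : ℝ →L[ℝ] F => L 1) h2.hasFDerivAt.fderiv).trans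
            (by simp)
        have h3 : (mfderivWithin 𝓘(ℝ, ℝ) I γ (Icc 0 1) t (1 : ℝ) : TangentSpace I (f (η t))) =
            mfderiv 𝓘(ℝ, F) I f (η t) (b - a) := by
          have := congrArg (fun L => L (1 : ℝ)) (hγ t ht)
          refine this.trans ?_
          exact congrArg (mfderiv 𝓘(ℝ, F) I f (η t)) h1
        have h4 := hC _ (hη t ht) (b - a)
        rw [← h3] at h4
        refine h4.trans ?_
        gcongr
        rw [edist_comm, edist_eq_enorm_sub]
    _ = C * edist a b := by simp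

set_option backward.isDefEq.respectTransparency false in
/-- Along a path staying in an open set where `f` is `C¹` with derivative bounded by `C`, the
distance of the values at the endpoints is at most `C` times the length. -/
theorem edist_le_of_path [IsManifold I 1 M] {f : M → F} {C : ℝ≥0} {u : Set M} (huo : IsOpen u)
    (hf : ContMDiffOn I 𝓘(ℝ, F) 1 f u)
    (hC : ∀ y ∈ u, ∀ v : TangentSpace I y, ‖(mfderiv I 𝓘(ℝ, F) f y v : F)‖ₑ ≤ C * ‖v‖ₑ)
    {γ : ℝ → M} (γ_smooth : CMDiff[Icc 0 1] 1 γ) (hγu : ∀ t ∈ Icc (0 : ℝ) 1, γ t ∈ u) :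
    edist (f (γ 0)) (f (γ 1)) ≤ C * pathELength I γ 0 1 := by
  let γ' := f ∘ γ
  have hC' : CMDiff[Icc 0 1] 1 γ' := hf.comp γ_smooth hγu
  have key : ‖γ' 1 - γ' 0‖ₑ ≤ C * pathELength I γ 0 1 := by
    calc
      ‖γ' 1 - γ' 0‖ₑ
    _ ≤ ∫⁻ t' in Icc 0 1, ‖derivWithin γ' (Icc 0 1) t'‖ₑ := by
      apply enorm_sub_le_lintegral_derivWithin_Icc_of_contDiffOn_Icc _ zero_le_one
      rwa [← contMDiffOn_iff_contDiffOn]
    _ = ∫⁻ t' in Icc 0 1, ‖mfderiv[Icc 0 1] γ' t' 1‖ₑ := by
      simp_rw [← fderivWithin_derivWithin, mfderivWithin_eq_fderivWithin]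
      rfl
    _ ≤ ∫⁻ t' in Icc 0 1, C * ‖mfderiv[Icc 0 1] γ t' 1‖ₑ := by
      apply setLIntegral_mono' measurableSet_Icc (fun t' ht' ↦ ?_)
      have : mfderiv[Icc 0 1] γ' t' =
          (mfderiv I 𝓘(ℝ, F) f (γ t')) ∘L (mfderiv[Icc 0 1] γ t') := by
        apply mfderiv_comp_mfderivWithin
        · exact (hf.contMDiffAt (huo.mem_nhds (hγu t' ht'))).mdifferentiableAt one_ne_zero
        · exact γ_smooth.mdifferentiableOn one_ne_zero _ ht'
        · rw [uniqueMDiffWithinAt_iff_uniqueDiffWithinAt]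
          exact uniqueDiffOn_Icc zero_lt_one _ ht'
      have : mfderiv[Icc 0 1] γ' t' 1 =
          (mfderiv I 𝓘(ℝ, F) f (γ t')) (mfderiv[Icc 0 1] γ t' 1) :=
        congr($this 1)
      rw [this]
      exact hC _ (hγu t' ht') _
    _ = C * pathELength I γ 0 1 := by
      rw [lintegral_const_mul' _ _ ENNReal.coe_ne_top,
          pathELength_eq_lintegral_mfderivWithin_Icc]
  rw [edist_comm, edist_eq_enorm_sub]
  exact key

set_option backward.isDefEq.respectTransparency false in
/-- A `C¹` map from a Riemannian manifold to a normed space with derivative bounded by `C > 0` on an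
open set is `C`-Lipschitz near every point of that set. -/
theorem exists_lipschitzOnWith_of_bound [IsManifold I 1 M] [IsRiemannianManifold I M] {f : M → F}
    {C : ℝ≥0} (C_pos : 0 < C) {u : Set M} (huo : IsOpen u) (hf : ContMDiffOn I 𝓘(ℝ, F) 1 f u)
    (hC : ∀ y ∈ u, ∀ v : TangentSpace I y, ‖(mfderiv I 𝓘(ℝ, F) f y v : F)‖ₑ ≤ C * ‖v‖ₑ)
    {x : M} (hx : x ∈ u) :
    ∃ V ∈ 𝓝 x, V ⊆ u ∧ LipschitzOnWith C f V := by
  obtain ⟨r, r_pos, hr⟩ : ∃ r > (0 : ℝ≥0∞), eball x r ⊆ u :=
    EMetric.mem_nhds_iff.1 (huo.mem_nhds hx)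
  have hr3 : 0 < r / 3 := ENNReal.div_pos r_pos.ne' (by simp)
  refine ⟨eball x (r / 3), Metric.eball_mem_nhds _ hr3, ?_, ?_⟩
  · intro y hy
    refine hr ?_
    exact Metric.eball_subset_eball (ENNReal.div_le_of_le_mul (by
      calc r = r * 1 := by rw [mul_one]
        _ ≤ r * 3 := by gcongr; norm_num)) hy
  · intro y hy z hz
    have hy' : edist y x < r / 3 := hy
    have hz' : edist z x < r / 3 := hz
    have hyz : edist y z < r / 3 + r / 3 := by
      calc edist y z ≤ edist y x + edist x z := edist_triangle _ _ _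
        _ < r / 3 + r / 3 := by
          rw [edist_comm x z]; exact ENNReal.add_lt_add hy' hz'
    have hC0 : (C : ℝ≥0∞) ≠ 0 := by exact_mod_cast C_pos.ne'
    rw [← ENNReal.div_le_iff' hC0 ENNReal.coe_ne_top]
    apply le_of_forall_gt (fun δ hδ ↦ ?_)
    have hlt : riemannianEDist I y z < min δ (r / 3 + r / 3) := by
      rw [← IsRiemannianManifold.out (I := I) y z]
      exact lt_min hδ hyz
    rcases exists_lt_of_riemannianEDist_lt hlt with ⟨γ, hγ0, hγ1, γ_smooth, hγ⟩
    have hstay : ∀ t ∈ Icc (0 : ℝ) 1, γ t ∈ u := by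
      intro t ht
      have h1 : edist y (γ t) < r / 3 + r / 3 := by
        rw [IsRiemannianManifold.out (I := I) y (γ t)]
        calc riemannianEDist I y (γ t) ≤ pathELength I γ 0 t :=
              riemannianEDist_le_pathELength
                (γ_smooth.mono (Icc_subset_Icc le_rfl ht.2)) hγ0 rfl ht.1
          _ ≤ pathELength I γ 0 1 := by
              gcongr
              exact ht.2
          _ < min δ (r / 3 + r / 3) := hγ
          _ ≤ r / 3 + r / 3 := min_le_right _ _
      refine hr ?_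
      show edist (γ t) x < r
      calc edist (γ t) x ≤ edist (γ t) y + edist y x := edist_triangle _ _ _
        _ < (r / 3 + r / 3) + r / 3 := by
          rw [edist_comm (γ t) y]; exact ENNReal.add_lt_add h1 hy'
        _ = r := ENNReal.add_thirds r
    have hle := edist_le_of_path (I := I) huo hf hC γ_smooth hstay
    rw [hγ0, hγ1] at hle
    calc edist (f y) (f z) / C
        ≤ pathELength I γ 0 1 := by
          rw [ENNReal.div_le_iff' hC0 ENNReal.coe_ne_top]
          exact hle
      _ < min δ (r / 3 + r / 3) := hγ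
      _ ≤ δ := min_le_left _ _

set_option backward.isDefEq.respectTransparency false in
/-- Variant of `exists_lipschitzOnWith_of_bound` with the norm of `F` made explicit. -/
theorem exists_lipschitzOnWith_of_bound' [IsManifold I 1 M] [IsRiemannianManifold I M] {f : M → F}
    {C : ℝ≥0} (C_pos : 0 < C) {u : Set M} (huo : IsOpen u) (hf : ContMDiffOn I 𝓘(ℝ, F) 1 f u)
    (hC : ∀ y ∈ u, ∀ v : TangentSpace I y, ∀ w : F, mfderiv I 𝓘(ℝ, F) f y v = w →
      ‖w‖ₑ ≤ C * ‖v‖ₑ)
    {x : M} (hx : x ∈ u) :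
    ∃ V ∈ 𝓝 x, V ⊆ u ∧ LipschitzOnWith C f V :=
  exists_lipschitzOnWith_of_bound C_pos huo hf (fun y hy v => hC y hy v _ rfl) hx

end Chart

end

end Crest.Agent.R247.Ms322
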