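import Mathlib

/-!
R247, block (0) (helper322), part 9: locally Lipschitz functions near a set, Lipschitz cut-offs,
integration by parts on `ℝⁿ` for locally Lipschitz functions.
-/

set_option autoImplicit false
set_option linter.unusedSectionVars false
set_option linter.unusedVariables false

open Bornology Set MeasureTheory Filter Metric
open scoped ENNReal ContDiff Topology NNReal

namespace Crest.Agent.R247.Ms322

noncomputable section

section LL

variable {X : Type*} [MetricSpace X]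

/-- `f` is Lipschitz near every point of `U`. -/
def LLo (U : Set X) (f : X → ℝ) : Prop :=
  ∀ z ∈ U, ∃ K : ℝ≥0, ∃ t ∈ 𝓝 z, LipschitzOnWith K f t

theorem LLo.mono {U V : Set X} {f : X → ℝ} (h : LLo V f) (hUV : U ⊆ V) : LLo U f :=
  fun z hz => h z (hUV hz)

theorem LLo.of_loc {U : Set X} {f : X → ℝ} (h : LocallyLipschitz f) : LLo U f :=
  fun z _ => h z

theorem LLo.loc {f : X → ℝ} (h : LLo univ f) : LocallyLipschitz f :=
  fun z => h z (mem_univ z)

theorem LLo.of_open {U : Set X} (hU : IsOpen U) {f : X → ℝ} {K : ℝ≥0} (h : LipschitzOnWith K f U) :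
    LLo U f := fun z hz => ⟨K, U, hU.mem_nhds hz, h⟩

theorem LLo.continuousAt {U : Set X} {f : X → ℝ} (h : LLo U f) {z : X} (hz : z ∈ U) :
    ContinuousAt f z := by
  obtain ⟨K, t, ht, hK⟩ := h z hz
  exact hK.continuousOn.continuousAt ht

theorem LLo.continuousOn {U : Set X} {f : X → ℝ} (h : LLo U f) : ContinuousOn f U :=
  fun z hz => (h.continuousAt hz).continuousWithinAt

/-- composition with a locally Lipschitz function of two variables -/
theorem LLo.comp₂ {U : Set X} {f g : X → ℝ} (hf : LLo U f) (hg : LLo U g) {h : ℝ × ℝ → ℝ}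
    (hh : LocallyLipschitz h) : LLo U (fun z => h (f z, g z)) := by
  intro z hz
  obtain ⟨K, t, ht, hK⟩ := hf z hz
  obtain ⟨K', t', ht', hK'⟩ := hg z hz
  obtain ⟨L, s, hs, hL⟩ := hh (f z, g z)
  have hc : ContinuousAt (fun z => (f z, g z)) z :=
    (hf.continuousAt hz).prodMk (hg.continuousAt hz)
  have h1 : LipschitzOnWith (max K K') (fun z => (f z, g z)) (t ∩ t') :=
    (hK.mono inter_subset_left).prodMk (hK'.mono inter_subset_right)
  refine ⟨L * max K K', (t ∩ t') ∩ (fun z => (f z, g z)) ⁻¹' s,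
    inter_mem (inter_mem ht ht') (hc.preimage_mem_nhds hs), ?_⟩
  exact hL.comp (h1.mono inter_subset_left) (fun y hy => hy.2)

theorem LLo.comp₁ {U : Set X} {f : X → ℝ} (hf : LLo U f) {h : ℝ → ℝ}
    (hh : LocallyLipschitz h) : LLo U (fun z => h (f z)) := by
  intro z hz
  obtain ⟨K, t, ht, hK⟩ := hf z hz
  obtain ⟨L, s, hs, hL⟩ := hh (f z)
  refine ⟨L * K, t ∩ f ⁻¹' s, inter_mem ht ((hf.continuousAt hz).preimage_mem_nhds hs), ?_⟩
  exact hL.comp (hK.mono inter_subset_left) (fun y hy => hy.2)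

theorem LLo.mul {U : Set X} {f g : X → ℝ} (hf : LLo U f) (hg : LLo U g) :
    LLo U (fun z => f z * g z) :=
  hf.comp₂ hg (h := fun p => p.1 * p.2)
    (contDiff_fst.mul contDiff_snd : ContDiff ℝ 1 fun p : ℝ × ℝ => p.1 * p.2).locallyLipschitz

theorem LLo.add {U : Set X} {f g : X → ℝ} (hf : LLo U f) (hg : LLo U g) :
    LLo U (fun z => f z + g z) :=
  hf.comp₂ hg (h := fun p => p.1 + p.2)
    (contDiff_fst.add contDiff_snd : ContDiff ℝ 1 fun p : ℝ × ℝ => p.1 + p.2).locallyLipschitz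

theorem LLo.sub {U : Set X} {f g : X → ℝ} (hf : LLo U f) (hg : LLo U g) :
    LLo U (fun z => f z - g z) :=
  hf.comp₂ hg (h := fun p => p.1 - p.2)
    (contDiff_fst.sub contDiff_snd : ContDiff ℝ 1 fun p : ℝ × ℝ => p.1 - p.2).locallyLipschitz

theorem LLo.const {U : Set X} (c : ℝ) : LLo U (fun _ => c) := LLo.of_loc (LocallyLipschitz.const c)

theorem LLo.sum {U : Set X} {ι : Type*} (s : Finset ι) {f : ι → X → ℝ}
    (hf : ∀ i ∈ s, LLo U (f i)) : LLo U (fun z => ∑ i ∈ s, f i z) := by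
  classical
  induction s using Finset.induction_on with
  | empty => simpa using LLo.const (0:ℝ)
  | insert a s ha ih =>
    have e : (fun z => ∑ i ∈ insert a s, f i z) = fun z => f a z + ∑ i ∈ s, f i z := by
      funext z; rw [Finset.sum_insert ha]
    rw [e]
    exact (hf a (Finset.mem_insert_self a s)).add
      (ih fun i hi => hf i (Finset.mem_insert_of_mem hi))

theorem LLo.div {U : Set X} {f g : X → ℝ} (hf : LLo U f) (hg : LLo U g)
    (h0 : ∀ z ∈ U, g z ≠ 0) : LLo U (fun z => f z / g z) := by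
  intro z hz
  obtain ⟨K, t, ht, hK⟩ := hf z hz
  obtain ⟨K', t', ht', hK'⟩ := hg z hz
  have hd : ContDiffAt ℝ 1 (fun p : ℝ × ℝ => p.1 / p.2) (f z, g z) :=
    contDiffAt_fst.div contDiffAt_snd (h0 z hz)
  obtain ⟨L, s, hs, hL⟩ := hd.exists_lipschitzOnWith
  have hc : ContinuousAt (fun z => (f z, g z)) z :=
    (hf.continuousAt hz).prodMk (hg.continuousAt hz)
  have h1 : LipschitzOnWith (max K K') (fun z => (f z, g z)) (t ∩ t') :=
    (hK.mono inter_subset_left).prodMk (hK'.mono inter_subset_right)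
  refine ⟨L * max K K', (t ∩ t') ∩ (fun z => (f z, g z)) ⁻¹' s,
    inter_mem (inter_mem ht ht') (hc.preimage_mem_nhds hs), ?_⟩
  exact hL.comp (h1.mono inter_subset_left) (fun y hy => hy.2)

theorem LLo.congr {U : Set X} {f g : X → ℝ} (hf : LLo U f) (h : ∀ z ∈ U, f =ᶠ[𝓝 z] g) :
    LLo U g := by
  intro z hz
  obtain ⟨K, t, ht, hK⟩ := hf z hz
  obtain ⟨s, hs, hsg⟩ := (h z hz).exists_mem
  refine ⟨K, t ∩ s, inter_mem ht hs, ?_⟩
  intro a ha b hb
  rw [← hsg ha.2, ← hsg hb.2]
  exact hK ha.1 hb.1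

/-- extension by zero: `φ w` is locally Lipschitz if `w` is so near `tsupport φ`. -/
theorem LLo.mul_supp {U : Set X} {φ w : X → ℝ} (hφ : LocallyLipschitz φ) (hw : LLo U w)
    (hs : tsupport φ ⊆ U) : LocallyLipschitz (fun z => φ z * w z) := by
  intro z
  by_cases hz : z ∈ tsupport φ
  · exact ((LLo.of_loc hφ (U := U)).mul hw) z (hs hz)
  · refine ⟨0, (tsupport φ)ᶜ, (isClosed_tsupport φ).isOpen_compl.mem_nhds hz, ?_⟩
    intro a ha b hb
    simp [image_eq_zero_of_notMem_tsupport ha, image_eq_zero_of_notMem_tsupport hb]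

theorem LLo.comp_dist {U : Set X} (p : X) : LLo U (fun z => dist p z) :=
  LLo.of_loc (LipschitzWith.dist_right p).locallyLipschitz

/-- A compactly supported locally Lipschitz function is Lipschitz. -/
theorem exists_lipschitzWith [LocallyCompactSpace X] {f : X → ℝ} (hf : LocallyLipschitz f)
    (hc : HasCompactSupport f) : ∃ K : ℝ≥0, LipschitzWith K f := by
  obtain ⟨δ, hδ, hδc⟩ := hc.isCompact.exists_isCompact_cthickening
  set S := cthickening δ (tsupport f) with hS
  obtain ⟨C, hC⟩ := (hf.locallyLipschitzOn (s := S)).exists_lipschitzOnWith_of_compact hδc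
  obtain ⟨B, hB⟩ := hf.continuous.bounded_above_of_compact_support hc
  have hB0 : 0 ≤ max B 0 := le_max_right _ _
  have hsub : tsupport f ⊆ S := self_subset_cthickening _
  have hC' : ∀ a ∈ S, ∀ b ∈ S, dist (f a) (f b) ≤ C * dist a b := fun a ha b hb => hC.dist_le_mul a ha b hb
  refine ⟨Real.toNNReal (max (C:ℝ) (max B 0 / δ)), LipschitzWith.of_dist_le' ?_⟩
  have key : ∀ a ∈ tsupport f, ∀ b, dist (f a) (f b) ≤ max (C:ℝ) (max B 0 / δ) * dist a b := by
    intro a ha b
    by_cases hb : b ∈ S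
    · exact (hC' a (hsub ha) b hb).trans (mul_le_mul_of_nonneg_right (le_max_left _ _) dist_nonneg)
    · have h0 : f b = 0 := image_eq_zero_of_notMem_tsupport (fun h => hb (hsub h))
      have h1 : δ ≤ dist a b := by
        by_contra hlt
        rw [not_le] at hlt
        exact hb (mem_cthickening_of_dist_le b a δ _ ha (by rw [dist_comm]; exact hlt.le))
      rw [h0, dist_zero_right]
      calc ‖f a‖ ≤ max B 0 := (hB a).trans (le_max_left _ _)
        _ = max B 0 / δ * δ := by field_simp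
        _ ≤ max B 0 / δ * dist a b := by gcongr
        _ ≤ _ := mul_le_mul_of_nonneg_right (le_max_right _ _) dist_nonneg
  intro a b
  by_cases ha : a ∈ tsupport f
  · exact key a ha b
  · by_cases hb : b ∈ tsupport f
    · rw [dist_comm (f a), dist_comm a]; exact key b hb a
    · rw [image_eq_zero_of_notMem_tsupport ha, image_eq_zero_of_notMem_tsupport hb, dist_self]
      exact mul_nonneg ((NNReal.coe_nonneg C).trans (le_max_left _ _)) dist_nonneg

/-- Lipschitz cut-offs. -/
theorem exists_lip_cutoff [LocallyCompactSpace X] {K U : Set X} (hK : IsCompact K) (hU : IsOpen U)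
    (hKU : K ⊆ U) : ∃ χ : X → ℝ, (∃ L : ℝ≥0, LipschitzWith L χ) ∧ HasCompactSupport χ ∧
      tsupport χ ⊆ U ∧ (∃ V, IsOpen V ∧ K ⊆ V ∧ ∀ z ∈ V, χ z = 1) ∧ ∀ z, χ z ∈ Icc (0:ℝ) 1 := by
  rcases K.eq_empty_or_nonempty with rfl | hne
  · refine ⟨fun _ => 0, ⟨0, LipschitzWith.const 0⟩, HasCompactSupport.zero, ?_,
      ⟨∅, isOpen_empty, Subset.rfl, fun z hz => absurd hz (notMem_empty z)⟩,
      fun z => ⟨le_rfl, zero_le_one⟩⟩
    have : tsupport (fun _ : X => (0:ℝ)) = ∅ := by
      rw [tsupport_eq_empty_iff]; rfl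
    rw [this]; exact empty_subset _
  obtain ⟨δ₁, hδ₁, hδ₁c⟩ := hK.exists_isCompact_cthickening
  obtain ⟨δ₂, hδ₂, hδ₂U⟩ := hK.exists_cthickening_subset_open hU hKU
  set δ := min δ₁ δ₂ / 2 with hδ
  have hδ0 : 0 < δ := by positivity
  have h2δ : 2 * δ = min δ₁ δ₂ := by rw [hδ]; ring
  set χ : X → ℝ := fun z => max 0 (min 1 (2 - infDist z K / δ)) with hχ
  have hlip : LipschitzWith (Real.toNNReal δ)⁻¹ χ := by
    have h1 : LipschitzWith (Real.toNNReal δ)⁻¹ (fun z : X => 2 - infDist z K / δ) := by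
      refine LipschitzWith.of_dist_le_mul fun a b => ?_
      have h2 := (lipschitz_infDist_pt K).dist_le_mul a b
      rw [NNReal.coe_inv, Real.coe_toNNReal _ hδ0.le]
      rw [Real.dist_eq] at h2 ⊢
      have e : 2 - infDist a K / δ - (2 - infDist b K / δ) =
          -((infDist a K - infDist b K) / δ) := by ring
      rw [e, abs_neg, abs_div, abs_of_pos hδ0, div_eq_inv_mul]
      gcongr
      simpa using h2
    exact (h1.const_min 1).const_max 0
  have hz0 : ∀ z, χ z ≠ 0 → z ∈ cthickening (2 * δ) K := by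
    intro z hz
    by_contra h
    apply hz
    have h1 : 2 * δ ≤ infDist z K := by
      by_contra hlt
      rw [not_le] at hlt
      apply h
      rw [mem_cthickening_iff]
      rw [infDist] at hlt
      rw [← ENNReal.ofReal_toReal (infEDist_ne_top hne)]
      exact ENNReal.ofReal_le_ofReal hlt.le
    have h2 : 2 - infDist z K / δ ≤ 0 := by
      rw [sub_nonpos, le_div_iff₀ hδ0]; exact h1
    rw [hχ]
    simp only
    rw [max_eq_left]
    exact (min_le_right _ _).trans h2
  have hts : tsupport χ ⊆ cthickening (2 * δ) K :=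
    closure_minimal (fun z hz => hz0 z hz) isClosed_cthickening
  refine ⟨χ, ⟨_, hlip⟩, ?_, ?_, ⟨thickening δ K, isOpen_thickening, self_subset_thickening hδ0 K,
    ?_⟩, ?_⟩
  · refine HasCompactSupport.of_support_subset_isCompact hδ₁c ?_
    intro z hz
    exact cthickening_mono (h2δ.le.trans (min_le_left _ _)) K (hz0 z hz)
  · exact hts.trans ((cthickening_mono (h2δ.le.trans (min_le_right _ _)) K).trans hδ₂U)
  · intro z hz
    rw [mem_thickening_iff_infDist_lt hne] at hz
    rw [hχ]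
    simp only
    have h1 : 1 ≤ 2 - infDist z K / δ := by
      have : infDist z K / δ ≤ 1 := by rw [div_le_one hδ0]; exact hz.le
      linarith
    rw [min_eq_left h1]
    norm_num
  · intro z
    refine ⟨le_max_left _ _, max_le zero_le_one (min_le_left _ _)⟩

end LL

section Euclid

variable {n : ℕ}

local notation "𝔼" => EuclideanSpace ℝ (Fin n)

theorem LLo.of_contDiffOn {U : Set 𝔼} (hU : IsOpen U) {f : 𝔼 → ℝ} (hf : ContDiffOn ℝ 1 f U) :
    LLo U f := fun z hz => (hf.contDiffAt (hU.mem_nhds hz)).exists_lipschitzOnWith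

theorem LLo.ae_differentiableAt {U : Set 𝔼} (hU : IsOpen U) {f : 𝔼 → ℝ} (hf : LLo U f) :
    ∀ᵐ b ∂(volume : Measure 𝔼), b ∈ U → DifferentiableAt ℝ f b := by
  rw [ae_iff]
  refine measure_null_of_locally_null _ fun z hz => ?_
  have hzU : z ∈ U := by
    by_contra h
    exact hz (fun h' => absurd h' h)
  obtain ⟨K, t, ht, hK⟩ := hf z hzU
  have h1 := (hK.mono (interior_subset (s := t))).ae_differentiableWithinAt_of_mem (μ := volume)
  refine ⟨{y | ¬(y ∈ U → DifferentiableAt ℝ f y)} ∩ interior t,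
    inter_mem_nhdsWithin _ (interior_mem_nhds.2 ht), ?_⟩
  refine measure_mono_null ?_ (ae_iff.1 h1)
  rintro y ⟨hy, hyt⟩ hd
  exact hy fun _ => (hd hyt).differentiableAt (isOpen_interior.mem_nhds hyt)

/-- **Integration by parts on an open subset of `ℝⁿ`.** -/
theorem ibp_euclid {U : Set 𝔼} {w φ : 𝔼 → ℝ} (hU : IsOpen U) (hw : LLo U w)
    (hφ : LocallyLipschitz φ) (hc : HasCompactSupport φ) (hs : tsupport φ ⊆ U) (v : 𝔼) :
    ∫ b, w b * fderiv ℝ φ b v = - ∫ b, fderiv ℝ w b v * φ b := by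
  obtain ⟨χ, ⟨L, hL⟩, hχc, hχU, ⟨V, hVo, hKV, hV1⟩, -⟩ := exists_lip_cutoff hc.isCompact hU hs
  have h1 : LocallyLipschitz (fun b => χ b * w b) :=
    LLo.mul_supp hL.locallyLipschitz hw hχU
  obtain ⟨K₁, hK₁⟩ := exists_lipschitzWith h1 (hχc.mul_right)
  obtain ⟨K₂, hK₂⟩ := exists_lipschitzWith hφ hc
  have key := hK₁.integral_lineDeriv_mul_eq (μ := volume) hK₂ hc v
  have e1 : ∫ b, fderiv ℝ w b v * φ b = ∫ b, lineDeriv ℝ (fun b => χ b * w b) b v * φ b := by
    refine integral_congr_ae ?_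
    filter_upwards [hK₁.ae_differentiableAt] with b hb
    by_cases hbs : b ∈ tsupport φ
    · have hev : (fun b => χ b * w b) =ᶠ[𝓝 b] w := by
        filter_upwards [hVo.mem_nhds (hKV hbs)] with y hy
        rw [hV1 y hy, one_mul]
      rw [hb.lineDeriv_eq_fderiv, hev.fderiv_eq]
    · rw [image_eq_zero_of_notMem_tsupport hbs, mul_zero, mul_zero]
  have e2 : ∫ b, w b * fderiv ℝ φ b v = - ∫ b, lineDeriv ℝ φ b (-v) * (χ b * w b) := by
    rw [← integral_neg]
    refine integral_congr_ae ?_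
    filter_upwards [hK₂.ae_differentiableAt] with b hb
    rw [hb.lineDeriv_eq_fderiv, map_neg]
    by_cases hbs : b ∈ tsupport φ
    · rw [hV1 b (hKV hbs)]; ring
    · have hev : φ =ᶠ[𝓝 b] fun _ => 0 := by
        filter_upwards [(isClosed_tsupport φ).isOpen_compl.mem_nhds hbs] with y hy
        exact image_eq_zero_of_notMem_tsupport hy
      rw [hev.fderiv_eq]
      simp
  rw [e1, e2, key]

end Euclid

end

end Crest.Agent.R247.Ms322
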