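import Crest.Agent.R247.Mcp5_688

/-! # Mean value inequality over a radial contraction structure (block (1), leaf (1-MV))

`SubLap C b r A V` : weak `Δ V ≤ A` in `B_r(b)` tested with radial functions of `b` only.
`mean_value`: if `V ≥ 0` on `closedBall b r` is Lipschitz, `SubLap C b r A V` and
`Vc μ b s ≤ Ω sⁿ` for `0 < s ≤ r` then
`∫_{closedBall b r} V ∂μ ≤ exp(κ r²/2) Ω rⁿ (V b + A r²/(2n))`. -/

set_option autoImplicit false
set_option linter.unusedSectionVars false
open MeasureTheory Set Filter Topology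
open scoped ENNReal NNReal

noncomputable section
namespace Crest.Agent.R247.Mv447
open Crest.Agent.R247.Mcp688

/-- the radial weight `(max s ε)⁻ⁿ - r⁻ⁿ` cut off at `r` -/
def et (n : ℕ) (ε r s : ℝ) : ℝ := hw n ε (min s r) - (r⁻¹) ^ n

/-- its left derivative -/
def et' (n : ℕ) (ε r s : ℝ) : ℝ := if s ≤ r then hw' n ε s else 0

lemma hw_anti (m : ℕ) {ε : ℝ} (hε : 0 < ε) {s t : ℝ} (h : s ≤ t) : hw m ε t ≤ hw m ε s := by
  unfold hw
  have h1 : 0 < max s ε := lt_max_of_lt_right hε
  have h2 : max s ε ≤ max t ε := max_le_max_right _ h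
  have h3 : (max t ε)⁻¹ ≤ (max s ε)⁻¹ := inv_anti₀ h1 h2
  have h4 : 0 < (max t ε)⁻¹ := inv_pos.2 (h1.trans_le h2)
  gcongr

lemma et_nonneg (n : ℕ) {ε r : ℝ} (hε : 0 < ε) (hr : ε ≤ r) (s : ℝ) : 0 ≤ et n ε r s := by
  have h := hw_anti n hε (min_le_right s r)
  have h2 : hw n ε r = (r⁻¹) ^ n := by rw [hw, max_eq_left hr]
  unfold et
  linarith

lemma et_eq_zero (n : ℕ) {ε r : ℝ} (hr : ε ≤ r) {s : ℝ} (hs : r ≤ s) : et n ε r s = 0 := by
  rw [et, min_eq_right hs, hw, max_eq_left hr, sub_self]

lemma et_le (n : ℕ) {ε r : ℝ} (hε : 0 < ε) (hr : ε ≤ r) (s : ℝ) :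
    et n ε r s ≤ (ε⁻¹) ^ n := by
  have h := hw_le n hε (min s r)
  have h2 : 0 < (r⁻¹) ^ n := by
    have : 0 < r := hε.trans_le hr
    positivity
  unfold et
  linarith

lemma et_le' (n : ℕ) {ε r : ℝ} (hε : 0 < ε) (hr : ε ≤ r) {s : ℝ} (hs : 0 < s) :
    et n ε r s ≤ (s⁻¹) ^ n := by
  have hr0 : 0 < r := hε.trans_le hr
  rcases le_total s r with h | h
  · rw [et, min_eq_left h, hw]
    have h1 : (max s ε)⁻¹ ≤ s⁻¹ := inv_anti₀ hs (le_max_left _ _)
    have h2 : 0 < (max s ε)⁻¹ := inv_pos.2 (lt_max_of_lt_right hε)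
    have h3 : ((max s ε)⁻¹) ^ n ≤ (s⁻¹) ^ n := by gcongr
    have h4 : 0 < (r⁻¹) ^ n := by positivity
    linarith
  · rw [et_eq_zero n hr h]
    positivity

lemma continuous_et (n : ℕ) {ε r : ℝ} (hε : 0 < ε) : Continuous (et n ε r) := by
  unfold et
  exact ((continuous_hw n hε).comp (continuous_id.min continuous_const)).sub continuous_const

lemma abs_et_sub (n : ℕ) {ε r : ℝ} (hε : 0 < ε) (s t : ℝ) :
    |et n ε r s - et n ε r t| ≤ n * (ε⁻¹) ^ (n - 1) * (ε⁻¹ * ε⁻¹) * |s - t| := by
  have h1 : |hw n ε (min s r) - hw n ε (min t r)| ≤ n * (ε⁻¹) ^ (n - 1) * (ε⁻¹ * ε⁻¹) *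
      |min s r - min t r| := hw_lip n hε _ _
  have h2 : |min s r - min t r| ≤ |s - t| := by
    have := abs_min_sub_min_le_max s r t r
    rw [sub_self, abs_zero, max_eq_left (abs_nonneg _)] at this
    exact this
  unfold et
  rw [sub_sub_sub_cancel_right]
  refine h1.trans ?_
  have : 0 ≤ (n : ℝ) * (ε⁻¹) ^ (n - 1) * (ε⁻¹ * ε⁻¹) := by positivity
  exact mul_le_mul_of_nonneg_left h2 this

lemma hasDerivWithinAt_et (n : ℕ) {ε r s : ℝ} (hε : 0 < ε) :
    HasDerivWithinAt (et n ε r) (et' n ε r s) (Iio s) s := by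
  rcases le_or_gt s r with h | h
  · rw [et', if_pos h]
    have h1 := (hasDerivWithinAt_hw n (s := s) hε).sub_const ((r⁻¹) ^ n)
    refine h1.congr (fun t ht => ?_) ?_
    · have : t < s := ht
      rw [et, min_eq_left (by linarith)]
    · rw [et, min_eq_left h]
  · rw [et', if_neg (not_le.2 h)]
    refine (hasDerivWithinAt_const s (Iio s) (et n ε r r)).congr_of_eventuallyEq ?_ ?_
    · filter_upwards [mem_nhdsWithin_of_mem_nhds (lt_mem_nhds h)] with t ht
      rw [et, et, min_eq_right ht.le, min_self]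
    · rw [et, et, min_eq_right h.le, min_self]

/-- the algebraic identity of the weight -/
lemma et_identity {n : ℕ} (hn : 1 ≤ n) {ε r s : ℝ} (hε : 0 < ε) (hr : ε < r) (_hs : 0 ≤ s) :
    n * et n ε r s + et' n ε r s * s =
      (if s ≤ ε then n * (ε⁻¹) ^ n else 0) - (if s ≤ r then n * (r⁻¹) ^ n else 0) := by
  rcases le_or_gt s ε with h | h
  · have h' : s ≤ r := h.trans hr.le
    rw [if_pos h, if_pos h', et', if_pos h', hw', if_neg (not_lt.2 h), et, min_eq_left h', hw,
      max_eq_right h]
    ring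
  rcases le_or_gt s r with h' | h'
  · rw [if_neg (not_le.2 h), if_pos h', et', if_pos h', hw'_mul hn hε h, et, min_eq_left h']
    ring
  · rw [if_neg (not_le.2 h), if_neg (not_le.2 h'), et', if_neg (not_le.2 h'),
      et_eq_zero n hr.le h'.le]
    ring

variable {n : ℕ} {κ : ℝ} {X : Type*} [MetricSpace X] [MeasurableSpace X] [BorelSpace X]
  {μ : Measure X}

lemma measurable_dist_left (b : X) : Measurable fun z : X => dist b z :=
  (continuous_const.dist continuous_id).measurable

/-- weak `Δ V ≤ A` in `B_r(b)`, tested only with radial functions of `b`; `D` is the radial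
derivative of `V` w.r.t. `b` -/
def SubLap (C : Rad n κ X μ) (b : X) (r A : ℝ) (V : X → ℝ) : Prop :=
  ∃ D : X → ℝ, RD C b V D ∧ ∀ g : ℝ → ℝ, Continuous g → (∀ y, 0 ≤ g y) →
    (∀ y, r ^ 2 / 2 ≤ y → g y = 0) →
    ∫ z, g (dist b z ^ 2 / 2) * D z ∂μ ≤
      A * ∫ z, (∫ s in (dist b z ^ 2 / 2)..(r ^ 2 / 2), g s) ∂μ

/-- integrability of a function bounded on and supported in a ball of finite measure -/
lemma integrable_of_ball {b : X} {r M : ℝ} (hfin : μ (Metric.closedBall b r) ≠ ∞) {F : X → ℝ}
    (hF : AEStronglyMeasurable F μ) (hM : ∀ᵐ z ∂μ, dist b z ≤ r → |F z| ≤ M)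
    (hs : ∀ᵐ z ∂μ, r < dist b z → F z = 0) : Integrable F μ := by
  have hb : Integrable ((Metric.closedBall b r).indicator fun _ => M) μ :=
    (integrable_indicator_iff Metric.isClosed_closedBall.measurableSet).2
      (integrableOn_const hfin)
  refine hb.mono' hF ?_
  filter_upwards [hM, hs] with z h1 h2
  by_cases hz : z ∈ Metric.closedBall b r
  · rw [indicator_of_mem hz, Real.norm_eq_abs]
    rw [Metric.mem_closedBall, dist_comm] at hz
    exact h1 hz
  · rw [indicator_of_notMem hz, Real.norm_eq_abs]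
    rw [Metric.mem_closedBall, dist_comm, not_le] at hz
    rw [h2 hz, abs_zero]

/-- product of a Lipschitz function and a bounded Lipschitz function supported in a ball -/
lemma lip_mul {b : X} {r L M K E : ℝ} {V q : X → ℝ} (hK : 0 ≤ K) (hM : 0 ≤ M)
    (hV : ∀ y z, |V y - V z| ≤ L * dist y z) (hVM : ∀ z, dist b z ≤ r → |V z| ≤ M)
    (hq : ∀ y z, |q y - q z| ≤ K * dist y z) (hqE : ∀ z, |q z| ≤ E)
    (hqs : ∀ z, r < dist b z → q z = 0) (y z : X) :
    |V y * q y - V z * q z| ≤ (|L| * E + M * K) * dist y z := by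
  have hE : 0 ≤ E := (abs_nonneg _).trans (hqE z)
  have hd := dist_nonneg (x := y) (y := z)
  rcases le_or_gt (dist b z) r with hz | hz
  · have e : V y * q y - V z * q z = (V y - V z) * q y + V z * (q y - q z) := by ring
    rw [e]
    refine (abs_add_le _ _).trans ?_
    rw [abs_mul, abs_mul]
    have h1 : |V y - V z| * |q y| ≤ (|L| * dist y z) * E := by
      refine mul_le_mul ((hV y z).trans ?_) (hqE y) (abs_nonneg _) (by positivity)
      exact mul_le_mul_of_nonneg_right (le_abs_self L) hd
    have h2 : |V z| * |q y - q z| ≤ M * (K * dist y z) :=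
      mul_le_mul (hVM z hz) (hq y z) (abs_nonneg _) hM
    calc |V y - V z| * |q y| + |V z| * |q y - q z| ≤ (|L| * dist y z) * E + M * (K * dist y z) :=
          add_le_add h1 h2
      _ = _ := by ring
  · rw [hqs z hz, mul_zero, sub_zero]
    rcases le_or_gt (dist b y) r with hy | hy
    · have h2 : |V y| * |q y - q z| ≤ M * (K * dist y z) :=
        mul_le_mul (hVM y hy) (hq y z) (abs_nonneg _) hM
      rw [hqs z hz, sub_zero] at h2
      rw [abs_mul]
      refine h2.trans ?_
      have : 0 ≤ |L| * E * dist y z := by positivity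
      linarith [this, mul_assoc M K (dist y z), add_mul (|L| * E) (M * K) (dist y z)]
    · rw [hqs y hy, mul_zero, abs_zero]
      positivity

/-- **layer cake** for the test function -/
lemma integral_Z_le {b : X} {r Ω : ℝ} (_hn : 1 ≤ n) (hr : 0 < r) [SFinite μ]
    (hfin : μ (Metric.closedBall b r) ≠ ∞)
    (hup : ∀ s, 0 < s → s ≤ r → Vc μ b s ≤ Ω * s ^ n) {g : ℝ → ℝ} (hg : Continuous g)
    (hg0 : ∀ y, 0 ≤ g y) (hgs : ∀ y, r ^ 2 / 2 ≤ y → g y = 0)
    (hgn : ∀ s, 0 < s → s ≤ r → g (s ^ 2 / 2) ≤ (s⁻¹) ^ n) :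
    ∫ z, (∫ s in (dist b z ^ 2 / 2)..(r ^ 2 / 2), g s) ∂μ ≤ Ω * (r ^ 2 / 2) := by
  have hΩ : 0 ≤ Ω := by
    have h1 := hup r hr le_rfl
    have h2 : 0 ≤ Vc μ b r := ENNReal.toReal_nonneg
    have h3 : 0 < r ^ n := by positivity
    by_contra hcon
    rw [not_le] at hcon
    nlinarith
  set ρ : ℝ := r ^ 2 / 2 with hρ
  have hρ0 : 0 < ρ := by positivity
  have hf : Measurable fun z : X => dist b z ^ 2 / 2 :=
    ((measurable_dist_left b).pow_const 2).div_const 2
  have hf0 : ∀ z : X, 0 ≤ dist b z ^ 2 / 2 := fun z => by positivity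
  -- rewrite the inner integral
  have e1 : ∀ z : X, ENNReal.ofReal (∫ s in (dist b z ^ 2 / 2)..ρ, g s) =
      ∫⁻ s in Ioc 0 ρ, (if dist b z ^ 2 / 2 < s then ENNReal.ofReal (g s) else 0) := by
    intro z
    rcases le_total (dist b z ^ 2 / 2) ρ with h | h
    · rw [intervalIntegral.integral_of_le h, ofReal_integral_eq_lintegral_ofReal
        (hg.integrableOn_Ioc) (Eventually.of_forall fun s => hg0 s)]
      have e2 : (fun s : ℝ => if dist b z ^ 2 / 2 < s then ENNReal.ofReal (g s) else 0) =
          (Ioi (dist b z ^ 2 / 2)).indicator (fun s => ENNReal.ofReal (g s)) := by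
        ext s; simp [indicator, mem_Ioi]
      rw [e2, lintegral_indicator measurableSet_Ioi, Measure.restrict_restrict measurableSet_Ioi]
      congr 2
      ext s
      simp only [mem_Ioc, mem_inter_iff, mem_Ioi]
      have := hf0 z
      constructor
      · rintro ⟨h1, h2⟩
        exact ⟨h1, by linarith, h2⟩
      · rintro ⟨h1, h2, h3⟩
        exact ⟨h1, h3⟩
    · have e3 : ∫ s in (dist b z ^ 2 / 2)..ρ, g s = 0 := by
        rw [intervalIntegral.integral_symm, intervalIntegral.integral_of_le h,
          setIntegral_eq_zero_of_forall_eq_zero, neg_zero]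
        intro s hs
        exact hgs s hs.1.le
      rw [e3, ENNReal.ofReal_zero]
      symm
      rw [lintegral_eq_zero_iff']
      · filter_upwards [ae_restrict_mem measurableSet_Ioc] with s hs
        simp only [Pi.zero_apply]
        rw [if_neg]
        rw [not_lt]
        exact hs.2.trans h
      · exact (Measurable.ite (measurableSet_lt measurable_const measurable_id)
          (ENNReal.measurable_ofReal.comp hg.measurable) measurable_const).aemeasurable
  have hZ0 : ∀ z : X, 0 ≤ ∫ s in (dist b z ^ 2 / 2)..ρ, g s := by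
    intro z
    rcases le_total (dist b z ^ 2 / 2) ρ with h | h
    · exact intervalIntegral.integral_nonneg h fun s _ => hg0 s
    · rw [intervalIntegral.integral_symm, intervalIntegral.integral_of_le h,
          setIntegral_eq_zero_of_forall_eq_zero, neg_zero]
      intro s hs
      exact hgs s hs.1.le
  have hZm : Measurable fun z : X => ∫ s in (dist b z ^ 2 / 2)..ρ, g s := by
    have h1 : Continuous fun y : ℝ => ∫ s in y..ρ, g s := by
      have h2 : Continuous fun y : ℝ => ∫ s in ρ..y, g s :=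
        intervalIntegral.continuous_primitive (fun a c => hg.intervalIntegrable a c) ρ
      have h3 : (fun y : ℝ => ∫ s in y..ρ, g s) = fun y => -∫ s in ρ..y, g s := by
        ext y; rw [intervalIntegral.integral_symm]
      rw [h3]
      exact h2.neg
    exact h1.measurable.comp hf
  rw [integral_eq_lintegral_of_nonneg_ae (Eventually.of_forall hZ0) hZm.aestronglyMeasurable]
  refine ENNReal.toReal_le_of_le_ofReal (by positivity) ?_
  simp_rw [e1]
  rw [lintegral_lintegral_swap]
  · calc ∫⁻ s in Ioc 0 ρ, ∫⁻ z, (if dist b z ^ 2 / 2 < s then ENNReal.ofReal (g s) else 0) ∂μ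
        ≤ ∫⁻ _ in Ioc 0 ρ, ENNReal.ofReal Ω := by
          apply setLIntegral_mono measurable_const
          intro s hs
          set t : ℝ := Real.sqrt (2 * s) with ht
          have ht2 : t ^ 2 = 2 * s := Real.sq_sqrt (by linarith [hs.1])
          have ht0 : 0 < t := Real.sqrt_pos.2 (by linarith [hs.1])
          have htr : t ≤ r := by
            have : t ^ 2 ≤ r ^ 2 := by rw [ht2]; linarith [hs.2]
            exact le_of_sq_le_sq this hr.le
          have e2 : (fun z : X => if dist b z ^ 2 / 2 < s then ENNReal.ofReal (g s) else 0) =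
              {z : X | dist b z ^ 2 / 2 < s}.indicator (fun _ => ENNReal.ofReal (g s)) := by
            ext z; simp [indicator]
          rw [e2, lintegral_indicator_const (measurableSet_lt hf measurable_const)]
          have hsub : {z : X | dist b z ^ 2 / 2 < s} ⊆ Metric.closedBall b t := by
            intro z hz
            rw [Metric.mem_closedBall, dist_comm]
            have h1 : dist b z ^ 2 / 2 < s := hz
            have h2 : dist b z ^ 2 ≤ t ^ 2 := by rw [ht2]; linarith
            exact le_of_sq_le_sq h2 ht0.le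
          have hfint : μ (Metric.closedBall b t) ≠ ∞ :=
            ne_top_of_le_ne_top hfin (measure_mono (Metric.closedBall_subset_closedBall htr))
          have h3 : μ {z : X | dist b z ^ 2 / 2 < s} ≤ ENNReal.ofReal (Ω * t ^ n) := by
            refine (measure_mono hsub).trans ?_
            rw [← ENNReal.ofReal_toReal hfint]
            exact ENNReal.ofReal_le_ofReal (hup t ht0 htr)
          have h4 : g s ≤ (t⁻¹) ^ n := by
            have := hgn t ht0 htr
            rwa [ht2, mul_div_cancel_left₀ s (two_ne_zero)] at this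
          calc ENNReal.ofReal (g s) * μ {z : X | dist b z ^ 2 / 2 < s}
              ≤ ENNReal.ofReal ((t⁻¹) ^ n) * ENNReal.ofReal (Ω * t ^ n) := by
                gcongr
            _ = ENNReal.ofReal Ω := by
                rw [← ENNReal.ofReal_mul (by positivity)]
                congr 1
                rw [inv_pow]
                field_simp
      _ = ENNReal.ofReal (Ω * (r ^ 2 / 2)) := by
          rw [setLIntegral_const, Real.volume_Ioc, ← ENNReal.ofReal_mul hΩ, sub_zero]
  · apply Measurable.aemeasurable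
    exact Measurable.ite (measurableSet_lt (hf.comp measurable_fst) measurable_snd)
      (ENNReal.measurable_ofReal.comp (hg.measurable.comp measurable_snd)) measurable_const

end Crest.Agent.R247.Mv447
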