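import Crest.Agent.R247.Mv1_447

/-! # Mean value inequality over a radial contraction structure: the theorem -/

set_option autoImplicit false
set_option linter.unusedSectionVars false
open MeasureTheory Set Filter Topology
open scoped ENNReal NNReal

noncomputable section
namespace Crest.Agent.R247.Mv447
open Crest.Agent.R247.Mcp688

variable {n : ℕ} {κ : ℝ} {X : Type*} [MetricSpace X] [MeasurableSpace X] [BorelSpace X]
  {μ : Measure X}

lemma measurable_of_lip {V : X → ℝ} {L : ℝ} (hV : ∀ y z, |V y - V z| ≤ L * dist y z) :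
    Measurable V := by
  have : LipschitzWith (Real.toNNReal |L|) V := by
    apply LipschitzWith.of_dist_le_mul
    intro y z
    rw [Real.coe_toNNReal _ (abs_nonneg L), Real.dist_eq]
    refine (hV y z).trans ?_
    gcongr
    exact le_abs_self L
  exact this.continuous.measurable

lemma bound_of_lip {V : X → ℝ} {L r : ℝ} {b : X} (hV : ∀ y z, |V y - V z| ≤ L * dist y z)
    (z : X) (hz : dist b z ≤ r) : |V z| ≤ |V b| + |L| * r := by
  have h1 := hV z b
  have h2 : |V z| ≤ |V b| + |V z - V b| := by
    have := abs_add_le (V b) (V z - V b)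
    simpa using this
  have h3 : L * dist z b ≤ |L| * r := by
    rw [dist_comm]
    calc L * dist b z ≤ |L| * dist b z := by gcongr; exact le_abs_self L
      _ ≤ _ := by gcongr
  linarith

/-- mean value inequality with a cut-off at `ε` -/
lemma mean_value_aux (C : Rad n κ X μ) (hκ : 0 ≤ κ) (hn : 1 ≤ n) {b : X} {r A Ω L : ℝ}
    [SFinite μ] (hr : 0 < r) (hA : 0 ≤ A) (hfin : μ (Metric.closedBall b r) ≠ ∞)
    (hup : ∀ s, 0 < s → s ≤ r → Vc μ b s ≤ Ω * s ^ n) {V : X → ℝ}
    (hV : ∀ y z, |V y - V z| ≤ L * dist y z) (hV0 : ∀ z, dist b z ≤ r → 0 ≤ V z)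
    (hlap : SubLap C b r A V) {ε : ℝ} (hε : 0 < ε) (hεr : ε < r) :
    n * (r⁻¹) ^ n * ∫ z in Metric.closedBall b r, V z ∂(wm μ κ b) ≤
      n * ((V b + |L| * ε) * Ω) + A * (Ω * (r ^ 2 / 2)) := by
  obtain ⟨D, hD, htest⟩ := hlap
  set ν := wm μ κ b with hν
  have hmb : MeasurableSet (Metric.closedBall b r) := Metric.isClosed_closedBall.measurableSet
  have hmbε : MeasurableSet (Metric.closedBall b ε) := Metric.isClosed_closedBall.measurableSet
  have hd := measurable_dist_left b
  have hVm : Measurable V := measurable_of_lip hV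
  have hfinν : ∀ s, ν (Metric.closedBall b s) ≠ ∞ := fun s =>
    ne_top_of_le_ne_top (C.closedBall_ne_top hκ b hr hfin) (wm_le μ b hκ _)
  set q : X → ℝ := fun z => et n ε r (dist b z) with hq
  have hqm : Measurable q := (continuous_et n hε).measurable.comp hd
  have hq0 : ∀ z, 0 ≤ q z := fun z => et_nonneg n hε hεr.le _
  have hqE : ∀ z, |q z| ≤ (ε⁻¹) ^ n := fun z => by
    rw [abs_of_nonneg (hq0 z)]; exact et_le n hε hεr.le _
  have hqs : ∀ z, r < dist b z → q z = 0 := fun z hz => et_eq_zero n hεr.le hz.le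
  set K : ℝ := n * (ε⁻¹) ^ (n - 1) * (ε⁻¹ * ε⁻¹) with hK
  have hK0 : 0 ≤ K := by positivity
  have hqL : ∀ y z, |q y - q z| ≤ K * dist y z := by
    intro y z
    refine (abs_et_sub n hε _ _).trans ?_
    apply mul_le_mul_of_nonneg_left _ hK0
    rw [abs_le]
    have h1 := dist_triangle b z y
    have h2 := dist_triangle b y z
    rw [dist_comm z y] at h1
    constructor <;> linarith
  set M : ℝ := |V b| + |L| * r with hM
  have hM0 : 0 ≤ M := by positivity
  have hVM : ∀ z, dist b z ≤ r → |V z| ≤ M := fun z hz => bound_of_lip hV z hz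
  set φ : X → ℝ := fun z => V z * q z with hφ
  have hφm : Measurable φ := hVm.mul hqm
  have hφ0 : ∀ z, 0 ≤ φ z := by
    intro z
    rcases le_or_gt (dist b z) r with h | h
    · exact mul_nonneg (hV0 z h) (hq0 z)
    · show 0 ≤ V z * q z
      rw [hqs z h, mul_zero]
  have hφs : ∀ z, r < dist b z → φ z = 0 := fun z hz => by
    show V z * q z = 0
    rw [hqs z hz, mul_zero]
  set KK : ℝ := |L| * (ε⁻¹) ^ n + M * K with hKK
  have hKK0 : 0 ≤ KK := by positivity
  have hφL : ∀ y z, |φ y - φ z| ≤ KK * dist y z :=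
    fun y z => lip_mul hK0 hM0 hV hVM hqL hqE hqs y z
  have hφb : ∀ z, dist b z ≤ r → |φ z| ≤ M * (ε⁻¹) ^ n := fun z hz => by
    show |V z * q z| ≤ _
    rw [abs_mul]
    exact mul_le_mul (hVM z hz) (hqE z) (abs_nonneg _) hM0
  have hφI : Integrable φ ν := integrable_of_ball (hfinν r) hφm.aestronglyMeasurable
    (Eventually.of_forall hφb) (Eventually.of_forall hφs)
  have hRDq : RD C b q (fun z => et' n ε r (dist b z) * dist b z) :=
    RD.radial (Eventually.of_forall fun _ _ => hasDerivWithinAt_et n hε)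
  have hRD := hD.mul hRDq
  have key := C.weak_lap b (φ := φ) (b := (Metric.closedBall b (2 * r)).indicator fun _ =>
      KK * (2 * r)) hφm hφ0 hφI hRD
    (by
      filter_upwards [C.ae_U b] with z hU t ht
      have ht' : t ∈ Icc (0 : ℝ) 1 := ⟨by linarith [ht.1], ht.2.le⟩
      have h1t : 0 < 1 - t := by linarith [ht.2]
      have hdl := C.dist_left hU ht'
      have hdr := C.dist_right hU ht'
      by_cases hz : z ∈ Metric.closedBall b (2 * r)
      · rw [indicator_of_mem hz]
        rw [Metric.mem_closedBall, dist_comm] at hz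
        calc |φ (C.T b t z) - φ z| ≤ KK * dist (C.T b t z) z := hφL _ _
          _ = (1 - t) * (KK * dist b z) := by rw [hdr]; ring
          _ ≤ _ := by gcongr
      · rw [indicator_of_notMem hz, mul_zero]
        rw [Metric.mem_closedBall, dist_comm, not_le] at hz
        rw [hφs z (by linarith), hφs (C.T b t z) (by rw [hdl]; nlinarith [ht.1])]
        simp)
    ((integrable_indicator_iff Metric.isClosed_closedBall.measurableSet).2
      (integrableOn_const (hfinν (2 * r))))
  -- integrability of the pieces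
  have hDm : AEMeasurable D ν := (hD.aemeasurable hVm).mono_ac (wm_ac μ b κ)
  have hDb : ∀ᵐ z ∂μ, |D z| ≤ L * dist b z := hD.abs_le hV
  have hDbν : ∀ᵐ z ∂ν, |D z| ≤ L * dist b z := (ae_wm_iff μ b κ).2 hDb
  have hL0 : ∀ᵐ z ∂ν, dist b z ≤ r → |D z| ≤ |L| * r := by
    filter_upwards [hDbν] with z hz hzr
    calc |D z| ≤ L * dist b z := hz
      _ ≤ |L| * dist b z := by gcongr; exact le_abs_self L
      _ ≤ |L| * r := by gcongr
  have hDqI : Integrable (fun z => D z * q z) ν := by
    refine integrable_of_ball (b := b) (M := |L| * r * (ε⁻¹) ^ n) (hfinν r)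
      (hDm.mul hqm.aemeasurable).aestronglyMeasurable ?_ ?_
    · filter_upwards [hL0] with z hz hzr
      rw [abs_mul]
      exact mul_le_mul (hz hzr) (hqE z) (abs_nonneg _) (by positivity)
    · exact Eventually.of_forall fun z hz => by rw [hqs z hz, mul_zero]
  have hVI : ∀ s, s ≤ r → IntegrableOn V (Metric.closedBall b s) ν := by
    intro s hs
    refine IntegrableOn.of_bound (lt_of_le_of_ne le_top (hfinν s))
      hVm.aestronglyMeasurable.restrict M ?_
    filter_upwards [ae_restrict_mem Metric.isClosed_closedBall.measurableSet] with z hz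
    rw [Real.norm_eq_abs]
    apply hVM
    rw [Metric.mem_closedBall, dist_comm] at hz
    linarith
  -- the algebraic identity
  have hid : ∀ z, n * φ z + (D z * q z + V z * (et' n ε r (dist b z) * dist b z)) =
      n * (ε⁻¹) ^ n * (Metric.closedBall b ε).indicator V z -
        n * (r⁻¹) ^ n * (Metric.closedBall b r).indicator V z + D z * q z := by
    intro z
    have h1 := et_identity hn hε hεr (s := dist b z) dist_nonneg
    have e1 : (Metric.closedBall b ε).indicator V z = if dist b z ≤ ε then V z else 0 := by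
      simp [indicator, dist_comm]
    have e2 : (Metric.closedBall b r).indicator V z = if dist b z ≤ r then V z else 0 := by
      simp [indicator, dist_comm]
    rw [e1, e2]
    have h2 : n * φ z + V z * (et' n ε r (dist b z) * dist b z) =
        V z * (n * et n ε r (dist b z) + et' n ε r (dist b z) * dist b z) := by
      show n * (V z * et n ε r (dist b z)) + _ = _
      ring
    rw [h1] at h2
    have h3 : n * φ z + (D z * q z + V z * (et' n ε r (dist b z) * dist b z)) =
        (n * φ z + V z * (et' n ε r (dist b z) * dist b z)) + D z * q z := by ring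
    rw [h3, h2]
    split_ifs <;> ring
  have hIε : Integrable ((Metric.closedBall b ε).indicator V) ν :=
    (integrable_indicator_iff hmbε).2 (hVI ε hεr.le)
  have hIr : Integrable ((Metric.closedBall b r).indicator V) ν :=
    (integrable_indicator_iff hmb).2 (hVI r le_rfl)
  have hA1 : Integrable (fun z => n * (ε⁻¹) ^ n * (Metric.closedBall b ε).indicator V z) ν :=
    hIε.const_mul _
  have hA2 : Integrable (fun z => n * (r⁻¹) ^ n * (Metric.closedBall b r).indicator V z) ν :=
    hIr.const_mul _
  have hA12 : Integrable (fun z => n * (ε⁻¹) ^ n * (Metric.closedBall b ε).indicator V z -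
        n * (r⁻¹) ^ n * (Metric.closedBall b r).indicator V z) ν := hA1.sub hA2
  have hA3 : Integrable (fun z => n * φ z) ν := hφI.const_mul _
  have hA4 : Integrable (fun z => D z * q z + V z * (et' n ε r (dist b z) * dist b z)) ν := by
    have : (fun z => D z * q z + V z * (et' n ε r (dist b z) * dist b z)) = fun z =>
        (n * (ε⁻¹) ^ n * (Metric.closedBall b ε).indicator V z -
        n * (r⁻¹) ^ n * (Metric.closedBall b r).indicator V z + D z * q z) - n * φ z := by
      ext z
      rw [← hid z]; ring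
    rw [this]
    exact (hA12.add hDqI).sub hA3
  have hsum : n * ∫ z, φ z ∂ν + ∫ z, (D z * q z + V z * (et' n ε r (dist b z) * dist b z)) ∂ν =
      n * (ε⁻¹) ^ n * ∫ z in Metric.closedBall b ε, V z ∂ν -
        n * (r⁻¹) ^ n * ∫ z in Metric.closedBall b r, V z ∂ν + ∫ z, D z * q z ∂ν := by
    rw [← integral_const_mul, ← integral_add hA3 hA4, ← integral_indicator hmbε,
      ← integral_indicator hmb, ← integral_const_mul, ← integral_const_mul,
      ← integral_sub hA1 hA2, ← integral_add hA12 hDqI]
    congr 1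
    ext z
    exact hid z
  rw [hsum] at key
  -- the D-term
  have hD1 : ∫ z, D z * q z ∂ν ≤ A * (Ω * (r ^ 2 / 2)) := by
    set g : ℝ → ℝ := fun y => wt κ (Real.sqrt (2 * y)) * et n ε r (Real.sqrt (2 * y)) with hg
    have hgc : Continuous g := by
      have h1 : Continuous fun y : ℝ => Real.sqrt (2 * y) := by fun_prop
      exact ((continuous_wt κ).comp h1).mul ((continuous_et n hε).comp h1)
    have hg0 : ∀ y, 0 ≤ g y := fun y => mul_nonneg (wt_pos _ _).le (et_nonneg n hε hεr.le _)
    have hgs : ∀ y, r ^ 2 / 2 ≤ y → g y = 0 := by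
      intro y hy
      have h1 : r ≤ Real.sqrt (2 * y) := by
        apply Real.le_sqrt_of_sq_le
        linarith
      show wt κ _ * et n ε r _ = 0
      rw [et_eq_zero n hεr.le h1, mul_zero]
    have hgd : ∀ s : ℝ, 0 ≤ s → g (s ^ 2 / 2) = wt κ s * et n ε r s := by
      intro s hs
      have h1 : Real.sqrt (2 * (s ^ 2 / 2)) = s := by
        rw [mul_div_cancel₀ _ (two_ne_zero), Real.sqrt_sq hs]
      show wt κ (Real.sqrt (2 * (s ^ 2 / 2))) * et n ε r (Real.sqrt (2 * (s ^ 2 / 2))) = _
      rw [h1]
    have hgn : ∀ s, 0 < s → s ≤ r → g (s ^ 2 / 2) ≤ (s⁻¹) ^ n := by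
      intro s hs hsr
      rw [hgd s hs.le]
      calc wt κ s * et n ε r s ≤ 1 * et n ε r s := by
            gcongr
            · exact et_nonneg n hε hεr.le _
            · exact wt_le_one hκ s
        _ ≤ _ := by rw [one_mul]; exact et_le' n hε hεr.le hs
    have e1 : ∫ z, D z * q z ∂ν = ∫ z, g (dist b z ^ 2 / 2) * D z ∂μ := by
      rw [hν, integral_wm]
      congr 1
      ext z
      rw [hgd _ dist_nonneg]
      ring
    rw [e1]
    refine (htest g hgc hg0 hgs).trans ?_
    exact mul_le_mul_of_nonneg_left (integral_Z_le hn hr hfin hup hgc hg0 hgs hgn) hA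
  -- the inner ball
  have hin : n * (ε⁻¹) ^ n * ∫ z in Metric.closedBall b ε, V z ∂ν ≤
      n * ((V b + |L| * ε) * Ω) := by
    have hVb : 0 ≤ V b := hV0 b (by rw [dist_self]; exact hr.le)
    have h0 : 0 ≤ V b + |L| * ε := by positivity
    have h1 : ∫ z in Metric.closedBall b ε, V z ∂ν ≤
        ∫ _ in Metric.closedBall b ε, (V b + |L| * ε) ∂ν := by
      apply setIntegral_mono_on (hVI ε hεr.le) (integrableOn_const (hfinν ε)) hmbε
      intro z hz
      rw [Metric.mem_closedBall, dist_comm] at hz
      have h2 := (abs_le.1 (hV z b)).2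
      have h3 : L * dist z b ≤ |L| * ε := by
        rw [dist_comm]
        calc L * dist b z ≤ |L| * dist b z := by gcongr; exact le_abs_self L
          _ ≤ _ := by gcongr
      linarith
    have h2 : ∫ _ in Metric.closedBall b ε, (V b + |L| * ε) ∂ν ≤
        (V b + |L| * ε) * (Ω * ε ^ n) := by
      rw [setIntegral_const, smul_eq_mul, mul_comm]
      apply mul_le_mul_of_nonneg_left _ h0
      refine le_trans ?_ (hup ε hε hεr.le)
      exact ENNReal.toReal_mono (ne_top_of_le_ne_top hfin
        (measure_mono (Metric.closedBall_subset_closedBall hεr.le))) (wm_le μ b hκ _)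
    have h3 : 0 ≤ n * (ε⁻¹) ^ n := by positivity
    calc n * (ε⁻¹) ^ n * ∫ z in Metric.closedBall b ε, V z ∂ν
        ≤ n * (ε⁻¹) ^ n * ((V b + |L| * ε) * (Ω * ε ^ n)) :=
          mul_le_mul_of_nonneg_left (h1.trans h2) h3
      _ = n * ((V b + |L| * ε) * Ω) * ((ε⁻¹) ^ n * ε ^ n) := by ring
      _ = _ := by rw [inv_pow, inv_mul_cancel₀ (by positivity), mul_one]
  linarith

/-- **Mean value inequality.** -/
theorem mean_value (C : Rad n κ X μ) (hκ : 0 ≤ κ) (hn : 1 ≤ n) {b : X} {r A Ω L : ℝ}
    [SFinite μ] (hr : 0 < r) (hA : 0 ≤ A) (hfin : μ (Metric.closedBall b r) ≠ ∞)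
    (hup : ∀ s, 0 < s → s ≤ r → Vc μ b s ≤ Ω * s ^ n) {V : X → ℝ}
    (hV : ∀ y z, |V y - V z| ≤ L * dist y z) (hV0 : ∀ z, dist b z ≤ r → 0 ≤ V z)
    (hlap : SubLap C b r A V) :
    ∫ z in Metric.closedBall b r, V z ∂μ ≤
      Real.exp (κ * r ^ 2 / 2) * Ω * r ^ n * (V b + A * r ^ 2 / (2 * n)) := by
  have hmb : MeasurableSet (Metric.closedBall b r) := Metric.isClosed_closedBall.measurableSet
  have hVb : 0 ≤ V b := hV0 b (by rw [dist_self]; exact hr.le)
  have hVm : Measurable V := measurable_of_lip hV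
  have hn0 : (0 : ℝ) < n := by exact_mod_cast hn
  set I : ℝ := ∫ z in Metric.closedBall b r, V z ∂(wm μ κ b) with hI
  -- let `ε → 0`
  have h1 : n * (r⁻¹) ^ n * I ≤ n * (V b * Ω) + A * (Ω * (r ^ 2 / 2)) := by
    have hlim : Tendsto (fun ε : ℝ => n * ((V b + |L| * ε) * Ω) + A * (Ω * (r ^ 2 / 2)))
        (𝓝[>] 0) (𝓝 (n * ((V b + |L| * 0) * Ω) + A * (Ω * (r ^ 2 / 2)))) := by
      apply Tendsto.mono_left _ nhdsWithin_le_nhds
      apply Continuous.tendsto
      fun_prop
    rw [mul_zero, add_zero] at hlim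
    refine ge_of_tendsto hlim ?_
    filter_upwards [Ioo_mem_nhdsGT hr] with ε hε
    exact mean_value_aux C hκ hn hr hA hfin hup hV hV0 hlap hε.1 hε.2
  have h2 : I ≤ Ω * r ^ n * (V b + A * r ^ 2 / (2 * n)) := by
    have e1 : n * (r⁻¹) ^ n * (Ω * r ^ n * (V b + A * r ^ 2 / (2 * n))) =
        n * (V b * Ω) + A * (Ω * (r ^ 2 / 2)) := by
      rw [inv_pow]
      field_simp
    rw [← e1] at h1
    exact le_of_mul_le_mul_left h1 (by positivity)
  have h3 : Real.exp (-(κ * r ^ 2 / 2)) * ∫ z in Metric.closedBall b r, V z ∂μ ≤ I := by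
    have hVIμ : IntegrableOn V (Metric.closedBall b r) μ := by
      refine IntegrableOn.of_bound (lt_of_le_of_ne le_top hfin)
        hVm.aestronglyMeasurable.restrict (|V b| + |L| * r) ?_
      filter_upwards [ae_restrict_mem hmb] with z hz
      rw [Real.norm_eq_abs]
      apply bound_of_lip hV
      rwa [Metric.mem_closedBall, dist_comm] at hz
    have e1 : I = ∫ z in Metric.closedBall b r, wt κ (dist b z) * V z ∂μ := by
      rw [hI, ← integral_indicator hmb, integral_wm, ← integral_indicator hmb]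
      congr 1
      ext z
      by_cases hz : z ∈ Metric.closedBall b r
      · rw [indicator_of_mem hz, indicator_of_mem hz]
      · rw [indicator_of_notMem hz, indicator_of_notMem hz, mul_zero]
    rw [e1, ← integral_const_mul]
    have hwI : IntegrableOn (fun z => wt κ (dist b z) * V z) (Metric.closedBall b r) μ := by
      refine Integrable.mono' hVIμ.abs
        ((((continuous_wt κ).measurable.comp (measurable_dist_left b)).mul
          hVm).aestronglyMeasurable) ?_
      refine Eventually.of_forall fun z => ?_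
      rw [Real.norm_eq_abs, abs_mul, abs_of_pos (wt_pos _ _)]
      calc wt κ (dist b z) * |V z| ≤ 1 * |V z| := by
            gcongr; exact wt_le_one hκ _
        _ = _ := one_mul _
    apply setIntegral_mono_on (hVIμ.const_mul _) hwI hmb
    intro z hz
    rw [Metric.mem_closedBall, dist_comm] at hz
    exact mul_le_mul_of_nonneg_right (wt_anti hκ dist_nonneg hz) (hV0 z hz)
  have h4 : Real.exp (κ * r ^ 2 / 2) * Real.exp (-(κ * r ^ 2 / 2)) = 1 := by
    rw [← Real.exp_add, add_neg_cancel, Real.exp_zero]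
  have h5 := (Real.exp_pos (κ * r ^ 2 / 2)).le
  calc ∫ z in Metric.closedBall b r, V z ∂μ
      = Real.exp (κ * r ^ 2 / 2) * (Real.exp (-(κ * r ^ 2 / 2)) *
          ∫ z in Metric.closedBall b r, V z ∂μ) := by rw [← mul_assoc, h4, one_mul]
    _ ≤ Real.exp (κ * r ^ 2 / 2) * (Ω * r ^ n * (V b + A * r ^ 2 / (2 * n))) :=
        mul_le_mul_of_nonneg_left (h3.trans h2) h5
    _ = _ := by ring

end Crest.Agent.R247.Mv447
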