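import Crest.Agent.R247.Mv2_447

/-! # `SubLap` for distance functions and the mean value inequality for excess functions -/

set_option autoImplicit false
set_option linter.unusedSectionVars false
open MeasureTheory Set Filter Topology
open scoped ENNReal NNReal

noncomputable section
namespace Crest.Agent.R247.Mv447
open Crest.Agent.R247.Mcp688

variable {n : ℕ} {κ : ℝ} {X : Type*} [MetricSpace X] [MeasurableSpace X] [BorelSpace X]
  {μ : Measure X}

/-- symmetry of the radial derivatives of the two half squared distances: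
`D_v f_b = D_b f_v` (`= ⟪∇f_v, ∇f_b⟫`) -/
def RDsymm (C : Rad n κ X μ) (v b : X) : Prop :=
  ∃ D : X → ℝ, RD C v (fun z => dist b z ^ 2 / 2) D ∧ RD C b (fun z => dist v z ^ 2 / 2) D

/-! ### the primitive -/

section Zg
variable {g : ℝ → ℝ} {r : ℝ}

lemma exists_bound_g (hg : Continuous g) (hgs : ∀ y, r ^ 2 / 2 ≤ y → g y = 0) :
    ∃ G : ℝ, 0 ≤ G ∧ ∀ y, 0 ≤ y → |g y| ≤ G := by
  obtain ⟨G, hG⟩ := (isCompact_Icc (a := (0 : ℝ)) (b := r ^ 2 / 2)).exists_bound_of_continuousOn
    hg.continuousOn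
  refine ⟨|G|, abs_nonneg _, fun y hy => ?_⟩
  rcases le_total y (r ^ 2 / 2) with h | h
  · have := hG y ⟨hy, h⟩
    rw [Real.norm_eq_abs] at this
    exact this.trans (le_abs_self G)
  · rw [hgs y h, abs_zero]; exact abs_nonneg _

lemma Z_eq_zero (hgs : ∀ y, r ^ 2 / 2 ≤ y → g y = 0) {y : ℝ} (hy : r ^ 2 / 2 ≤ y) :
    ∫ s in y..(r ^ 2 / 2), g s = 0 := by
  rw [intervalIntegral.integral_symm, intervalIntegral.integral_of_le hy,
    setIntegral_eq_zero_of_forall_eq_zero, neg_zero]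
  intro s hs
  exact hgs s hs.1.le

lemma Z_nonneg (hg0 : ∀ y, 0 ≤ g y) (hgs : ∀ y, r ^ 2 / 2 ≤ y → g y = 0) (y : ℝ) :
    0 ≤ ∫ s in y..(r ^ 2 / 2), g s := by
  rcases le_total y (r ^ 2 / 2) with h | h
  · exact intervalIntegral.integral_nonneg h fun s _ => hg0 s
  · rw [Z_eq_zero hgs h]

lemma Z_sub (hg : Continuous g) (a c : ℝ) :
    (∫ s in a..(r ^ 2 / 2), g s) - ∫ s in c..(r ^ 2 / 2), g s = ∫ s in a..c, g s := by
  have h := intervalIntegral.integral_add_adjacent_intervals (μ := volume)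
    (hg.intervalIntegrable a c) (hg.intervalIntegrable c (r ^ 2 / 2))
  linarith

lemma abs_Z_sub_le (hg : Continuous g) {G : ℝ} (hG : ∀ y, 0 ≤ y → |g y| ≤ G) {a c : ℝ}
    (ha : 0 ≤ a) (hc : 0 ≤ c) :
    |(∫ s in a..(r ^ 2 / 2), g s) - ∫ s in c..(r ^ 2 / 2), g s| ≤ G * |a - c| := by
  rw [Z_sub hg]
  have := intervalIntegral.norm_integral_le_of_norm_le_const (f := g) (a := a) (b := c) (C := G)
    (fun s hs => by
      rw [Real.norm_eq_abs]
      apply hG
      have : min a c < s := by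
        rw [uIoc, mem_Ioc] at hs
        exact hs.1
      exact (le_min ha hc).trans this.le)
  rw [Real.norm_eq_abs] at this
  rwa [abs_sub_comm a c]

lemma Z_min (hr : 0 ≤ r) (hgs : ∀ y, r ^ 2 / 2 ≤ y → g y = 0) (d : ℝ) :
    ∫ s in (d ^ 2 / 2)..(r ^ 2 / 2), g s =
      ∫ s in ((min d r) ^ 2 / 2)..(r ^ 2 / 2), g s := by
  rcases le_total d r with h | h
  · rw [min_eq_left h]
  · rw [min_eq_right h, intervalIntegral.integral_same]
    apply Z_eq_zero hgs
    have : r ^ 2 ≤ d ^ 2 := by gcongr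
    linarith

lemma Z_lip (hr : 0 ≤ r) (hg : Continuous g) (hgs : ∀ y, r ^ 2 / 2 ≤ y → g y = 0) {G : ℝ}
    (hG0 : 0 ≤ G) (hG : ∀ y, 0 ≤ y → |g y| ≤ G) {d e : ℝ} (hd : 0 ≤ d) (he : 0 ≤ e) :
    |(∫ s in (d ^ 2 / 2)..(r ^ 2 / 2), g s) - ∫ s in (e ^ 2 / 2)..(r ^ 2 / 2), g s| ≤
      G * r * |d - e| := by
  rw [Z_min hr hgs d, Z_min hr hgs e]
  refine (abs_Z_sub_le hg hG (by positivity) (by positivity)).trans ?_
  rw [mul_assoc]
  apply mul_le_mul_of_nonneg_left _ hG0
  have h1 : |min d r - min e r| ≤ |d - e| := by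
    have := abs_min_sub_min_le_max d r e r
    rw [sub_self, abs_zero, max_eq_left (abs_nonneg _)] at this
    exact this
  have h2 : 0 ≤ min d r := le_min hd hr
  have h3 : 0 ≤ min e r := le_min he hr
  have e1 : min d r ^ 2 / 2 - min e r ^ 2 / 2 = (min d r + min e r) / 2 * (min d r - min e r) := by
    ring
  rw [e1, abs_mul, abs_of_nonneg (by positivity)]
  have h4 : (min d r + min e r) / 2 ≤ r := by
    have := min_le_right d r
    have := min_le_right e r
    linarith
  exact mul_le_mul h4 h1 (abs_nonneg _) hr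

lemma Z_le (hr : 0 ≤ r) (hg : Continuous g) (hgs : ∀ y, r ^ 2 / 2 ≤ y → g y = 0) {G : ℝ}
    (hG0 : 0 ≤ G) (hG : ∀ y, 0 ≤ y → |g y| ≤ G) {d : ℝ} (hd : 0 ≤ d) :
    |∫ s in (d ^ 2 / 2)..(r ^ 2 / 2), g s| ≤ G * r * r := by
  have h1 : (∫ s in (r ^ 2 / 2)..(r ^ 2 / 2), g s) = 0 := intervalIntegral.integral_same
  rw [Z_min hr hgs d]
  have h2 := Z_lip hr hg hgs hG0 hG (d := min d r) (e := r) (le_min hd hr) hr
  rw [h1, sub_zero] at h2
  refine h2.trans ?_
  have h3 : |min d r - r| ≤ r := by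
    rw [abs_sub_comm, abs_of_nonneg (by linarith [min_le_right d r])]
    have : 0 ≤ min d r := le_min hd hr
    linarith
  have : 0 ≤ G * r := by positivity
  exact mul_le_mul_of_nonneg_left h3 this

lemma hasDerivAt_Z (hg : Continuous g) (y : ℝ) :
    HasDerivAt (fun u : ℝ => ∫ s in u..(r ^ 2 / 2), g s) (-g y) y :=
  intervalIntegral.integral_hasDerivAt_left (hg.intervalIntegrable _ _)
    (hg.stronglyMeasurableAtFilter _ _) hg.continuousAt

lemma continuous_Z (hg : Continuous g) : Continuous fun u : ℝ => ∫ s in u..(r ^ 2 / 2), g s :=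
  continuous_iff_continuousAt.2 fun y => (hasDerivAt_Z hg y).continuousAt

end Zg

/-! ### integrability -/

lemma integrable_gD (C : Rad n κ X μ) {b : X} {r L : ℝ}
    (hfin : μ (Metric.closedBall b r) ≠ ∞) {V D : X → ℝ}
    (hV : ∀ y z, |V y - V z| ≤ L * dist y z) (hD : RD C b V D) {g : ℝ → ℝ} (hg : Continuous g)
    (hgs : ∀ y, r ^ 2 / 2 ≤ y → g y = 0) (hr : 0 < r) :
    Integrable (fun z => g (dist b z ^ 2 / 2) * D z) μ := by
  obtain ⟨G, hG0, hG⟩ := exists_bound_g hg hgs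
  have hfm : Measurable fun z : X => dist b z ^ 2 / 2 :=
    ((measurable_dist_left b).pow_const 2).div_const 2
  refine integrable_of_ball (b := b) (r := r) (M := G * (|L| * r)) hfin
    ((hg.measurable.comp hfm).aemeasurable.mul
      (hD.aemeasurable (measurable_of_lip hV))).aestronglyMeasurable ?_ ?_
  · filter_upwards [hD.abs_le hV] with z hz hzr
    rw [abs_mul]
    refine mul_le_mul (hG _ (by positivity)) ?_ (abs_nonneg _) hG0
    calc |D z| ≤ L * dist b z := hz
      _ ≤ |L| * dist b z := by gcongr; exact le_abs_self L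
      _ ≤ |L| * r := by gcongr
  · refine Eventually.of_forall fun z hz => ?_
    rw [hgs, zero_mul]
    have : r ^ 2 ≤ dist b z ^ 2 := by gcongr
    linarith

lemma integrable_Z {b : X} {r : ℝ} (hfin : μ (Metric.closedBall b r) ≠ ∞) {g : ℝ → ℝ}
    (hg : Continuous g) (hgs : ∀ y, r ^ 2 / 2 ≤ y → g y = 0) (hr : 0 < r) :
    Integrable (fun z => ∫ s in (dist b z ^ 2 / 2)..(r ^ 2 / 2), g s) μ := by
  obtain ⟨G, hG0, hG⟩ := exists_bound_g hg hgs
  have hfm : Measurable fun z : X => dist b z ^ 2 / 2 :=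
    ((measurable_dist_left b).pow_const 2).div_const 2
  refine integrable_of_ball (b := b) (r := r) (M := G * r * r) hfin
    ((continuous_Z hg).measurable.comp hfm).aestronglyMeasurable ?_ ?_
  · exact Eventually.of_forall fun z _ => Z_le hr.le hg hgs hG0 hG dist_nonneg
  · refine Eventually.of_forall fun z hz => ?_
    apply Z_eq_zero hgs
    have : r ^ 2 ≤ dist b z ^ 2 := by gcongr
    linarith

/-! ### closure properties of `SubLap` -/

namespace SubLap
variable {C : Rad n κ X μ} {b : X} {r A B : ℝ} {V W : X → ℝ}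

lemma add {L L' : ℝ} (hV : SubLap C b r A V) (hW : SubLap C b r B W)
    (hVL : ∀ y z, |V y - V z| ≤ L * dist y z) (hWL : ∀ y z, |W y - W z| ≤ L' * dist y z)
    (hr : 0 < r) (hfin : μ (Metric.closedBall b r) ≠ ∞) :
    SubLap C b r (A + B) (fun z => V z + W z) := by
  obtain ⟨D, hD, h1⟩ := hV
  obtain ⟨D', hD', h2⟩ := hW
  refine ⟨fun z => D z + D' z, hD.add hD', fun g hg hg0 hgs => ?_⟩
  have i1 := integrable_gD C hfin hVL hD hg hgs hr
  have i2 := integrable_gD C hfin hWL hD' hg hgs hr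
  have e1 : ∫ z, g (dist b z ^ 2 / 2) * (D z + D' z) ∂μ =
      ∫ z, g (dist b z ^ 2 / 2) * D z ∂μ + ∫ z, g (dist b z ^ 2 / 2) * D' z ∂μ := by
    rw [← integral_add i1 i2]
    congr 1
    ext z
    ring
  rw [e1, add_mul]
  exact add_le_add (h1 g hg hg0 hgs) (h2 g hg hg0 hgs)

lemma sub_const (hV : SubLap C b r A V) (c : ℝ) : SubLap C b r A (fun z => V z - c) := by
  obtain ⟨D, hD, h1⟩ := hV
  refine ⟨D, ?_, h1⟩
  filter_upwards [hD] with z hz
  exact hz.sub_const c

lemma const_mul (hV : SubLap C b r A V) {c : ℝ} (hc : 0 ≤ c) :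
    SubLap C b r (c * A) (fun z => c * V z) := by
  obtain ⟨D, hD, h1⟩ := hV
  refine ⟨fun z => c * D z, hD.const_mul c, fun g hg hg0 hgs => ?_⟩
  have e1 : ∫ z, g (dist b z ^ 2 / 2) * (c * D z) ∂μ =
      c * ∫ z, g (dist b z ^ 2 / 2) * D z ∂μ := by
    rw [← integral_const_mul]
    congr 1
    ext z
    ring
  rw [e1, mul_assoc]
  exact mul_le_mul_of_nonneg_left (h1 g hg hg0 hgs) hc

lemma mono (hV : SubLap C b r A V) (h : A ≤ B) : SubLap C b r B V := by
  obtain ⟨D, hD, h1⟩ := hV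
  refine ⟨D, hD, fun g hg hg0 hgs => (h1 g hg hg0 hgs).trans ?_⟩
  exact mul_le_mul_of_nonneg_right h (integral_nonneg fun z => Z_nonneg hg0 hgs _)

end SubLap

/-- the radial derivative of a distance function -/
lemma RD_dist (C : Rad n κ X μ) {v b : X} {D : X → ℝ}
    (hD : RD C b (fun z => dist v z ^ 2 / 2) D) :
    RD C b (fun z => dist v z) (fun z => if dist v z = 0 then -dist b v else D z / dist v z) := by
  filter_upwards [hD, C.ae_U b] with z hz hU
  by_cases h0 : dist v z = 0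
  · rw [if_pos h0]
    have hvz : v = z := dist_eq_zero.1 h0
    subst hvz
    have h1 : HasDerivWithinAt (fun t : ℝ => (1 - t) * dist b v) (-dist b v) (Iio 1) 1 := by
      have h2 := ((hasDerivAt_id (1 : ℝ)).const_sub 1).mul_const (dist b v)
      simpa using h2.hasDerivWithinAt (s := Iio 1)
    refine h1.congr_of_eventuallyEq ?_ ?_
    · filter_upwards [Ioo_mem_nhdsLT (zero_lt_one' ℝ)] with t ht
      rw [dist_comm, C.dist_right hU ⟨ht.1.le, ht.2.le⟩]
    · rw [C.T_one b v hU, dist_self]; ring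
  · rw [if_neg h0]
    have hpos : 0 < dist v z := lt_of_le_of_ne dist_nonneg (Ne.symm h0)
    have h1 : HasDerivWithinAt (fun t : ℝ => 2 * (dist v (C.T b t z) ^ 2 / 2)) (2 * D z)
        (Iio 1) 1 := hz.const_mul 2
    have h2 := h1.sqrt (by rw [C.T_one b z hU]; positivity)
    have e1 : (fun t : ℝ => Real.sqrt (2 * (dist v (C.T b t z) ^ 2 / 2))) =
        fun t => dist v (C.T b t z) := by
      ext t
      rw [mul_div_cancel₀ _ (two_ne_zero), Real.sqrt_sq dist_nonneg]
    rw [e1] at h2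
    convert h2 using 1
    rw [C.T_one b z hU, mul_div_cancel₀ _ (two_ne_zero), Real.sqrt_sq dist_nonneg]
    field_simp

lemma dist_lip (v : X) : ∀ y z : X, |dist v y - dist v z| ≤ 1 * dist y z := by
  intro y z
  rw [one_mul, dist_comm v y, dist_comm v z]
  exact abs_dist_sub_le y z v

/-- **weak Laplacian upper bound for a distance function** -/
theorem subLap_dist (C : Rad n κ X μ) (hκ : 0 ≤ κ) (hn : 1 ≤ n) {v b : X} {r L0 R0 : ℝ}
    (hr : 0 < r) (hL0 : 0 < L0) (h1 : ∀ z, dist b z ≤ r → L0 ≤ dist v z)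
    (h2 : ∀ z, dist b z ≤ r → dist v z ≤ R0) (hfin : μ (Metric.closedBall b r) ≠ ∞)
    (hsym : RDsymm C v b) :
    SubLap C b r ((n - 1) / L0 + κ * R0) (fun z => dist v z) := by
  obtain ⟨D, hDv, hDb⟩ := hsym
  have hRDd := RD_dist C hDb
  refine ⟨_, hRDd, fun g hg hg0 hgs => ?_⟩
  set D' : X → ℝ := fun z => if dist v z = 0 then -dist b v else D z / dist v z with hD'
  obtain ⟨G, hG0, hG⟩ := exists_bound_g hg hgs
  have hR0 : 0 ≤ R0 := dist_nonneg.trans (h2 b (by rw [dist_self]; exact hr.le))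
  have hn1 : (1 : ℝ) ≤ n := by exact_mod_cast hn
  set Zb : X → ℝ := fun z => ∫ s in (dist b z ^ 2 / 2)..(r ^ 2 / 2), g s with hZb
  have hfm : Measurable fun z : X => dist b z ^ 2 / 2 :=
    ((measurable_dist_left b).pow_const 2).div_const 2
  have hZm : Measurable Zb := (continuous_Z hg).measurable.comp hfm
  have hZ0 : ∀ z, 0 ≤ Zb z := fun z => Z_nonneg hg0 hgs _
  have hZE : ∀ z, |Zb z| ≤ G * r * r := fun z => Z_le hr.le hg hgs hG0 hG dist_nonneg
  have hZL : ∀ y z, |Zb y - Zb z| ≤ G * r * dist y z := by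
    intro y z
    refine (Z_lip hr.le hg hgs hG0 hG dist_nonneg dist_nonneg).trans ?_
    have := dist_lip b y z
    rw [one_mul] at this
    exact mul_le_mul_of_nonneg_left this (by positivity)
  have hsq : ∀ z : X, r < dist b z → r ^ 2 / 2 ≤ dist b z ^ 2 / 2 := fun z hz => by
    have : r ^ 2 ≤ dist b z ^ 2 := by gcongr
    linarith
  have hZs : ∀ z, r < dist b z → Zb z = 0 := fun z hz => Z_eq_zero hgs (hsq z hz)
  have hgz : ∀ z, r < dist b z → g (dist b z ^ 2 / 2) = 0 := fun z hz => hgs _ (hsq z hz)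
  have hL2 : 0 < L0 / 2 := by positivity
  set q : X → ℝ := fun z => hw 1 (L0 / 2) (dist v z) with hq
  have hqm : Measurable q := (continuous_hw 1 hL2).measurable.comp (measurable_dist_left v)
  have hq0 : ∀ z, 0 < q z := fun z => hw_pos 1 hL2 _
  have hqE : ∀ z, |q z| ≤ ((L0 / 2)⁻¹) ^ 1 := fun z => by
    rw [abs_of_pos (hq0 z)]; exact hw_le 1 hL2 _
  set K : ℝ := ((1 : ℕ) : ℝ) * ((L0 / 2)⁻¹) ^ (1 - 1) * ((L0 / 2)⁻¹ * (L0 / 2)⁻¹) with hK
  have hK0 : 0 ≤ K := by positivity
  have hqL : ∀ y z, |q y - q z| ≤ K * dist y z := by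
    intro y z
    refine (hw_lip 1 hL2 _ _).trans ?_
    have := dist_lip v y z
    rw [one_mul] at this
    exact mul_le_mul_of_nonneg_left this hK0
  -- radial derivatives w.r.t. `v`
  have hRZ : RD C v Zb (fun z => -g (dist b z ^ 2 / 2) * D z) := by
    filter_upwards [hDv, C.ae_U v] with z hz hU
    have h3 := hasDerivAt_Z (r := r) hg (dist b (C.T v 1 z) ^ 2 / 2)
    have h4 := h3.comp_hasDerivWithinAt (1 : ℝ) hz
    rw [C.T_one v z hU] at h4
    exact h4
  have hRq : RD C v q (fun z => hw' 1 (L0 / 2) (dist v z) * dist v z) :=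
    RD.radial (Eventually.of_forall fun _ _ => hasDerivWithinAt_hw 1 hL2)
  have hRD := hRZ.mul hRq
  set R : ℝ := dist v b + r with hR
  have hRpos : 0 ≤ R := by positivity
  have hsupp : ∀ z, R < dist v z → Zb z * q z = 0 := by
    intro z hz
    rw [hZs z, zero_mul]
    have := dist_triangle v b z
    linarith
  have hfinv : μ (Metric.closedBall v (2 * R)) ≠ ∞ := by
    refine ne_top_of_le_ne_top (C.closedBall_ne_top hκ b hr (R := 2 * R + dist v b) hfin)
      (measure_mono (Metric.closedBall_subset_closedBall' le_rfl))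
  have hLip : ∀ y z, |Zb y * q y - Zb z * q z| ≤
      (G * r * ((L0 / 2)⁻¹) ^ 1 + G * r * r * K) * dist y z := by
    intro y z
    have e : Zb y * q y - Zb z * q z = (Zb y - Zb z) * q y + Zb z * (q y - q z) := by ring
    rw [e]
    refine (abs_add_le _ _).trans ?_
    rw [abs_mul, abs_mul]
    have hd := dist_nonneg (x := y) (y := z)
    have a1 : |Zb y - Zb z| * |q y| ≤ (G * r * dist y z) * ((L0 / 2)⁻¹) ^ 1 :=
      mul_le_mul (hZL y z) (hqE y) (abs_nonneg _) (by positivity)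
    have a2 : |Zb z| * |q y - q z| ≤ (G * r * r) * (K * dist y z) :=
      mul_le_mul (hZE z) (hqL y z) (abs_nonneg _) (by positivity)
    calc _ ≤ (G * r * dist y z) * ((L0 / 2)⁻¹) ^ 1 + (G * r * r) * (K * dist y z) :=
          add_le_add a1 a2
      _ = _ := by ring
  obtain ⟨hI1, hI2, key⟩ := C.weak_lap' hκ v (φ := fun z => Zb z * q z) (hZm.mul hqm)
    (fun z => mul_nonneg (hZ0 z) (hq0 z).le) hLip hRpos hsupp hfinv hRD
  -- pointwise
  set A : ℝ := (n - 1) / L0 + κ * R0 with hA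
  have hpt : ∀ z, (n + κ * dist v z ^ 2) * (Zb z * q z) +
      (-g (dist b z ^ 2 / 2) * D z * q z + Zb z * (hw' 1 (L0 / 2) (dist v z) * dist v z)) ≤
      A * Zb z - g (dist b z ^ 2 / 2) * D' z := by
    intro z
    rcases le_or_gt (dist b z) r with h | h
    · have hd1 := h1 z h
      have hd2 := h2 z h
      set d := dist v z with hd
      have hd0 : 0 < d := hL0.trans_le hd1
      have hLd : L0 / 2 < d := by linarith
      have eq : q z = d⁻¹ := by
        show hw 1 (L0 / 2) (dist v z) = _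
        rw [hw, ← hd, max_eq_left hLd.le, pow_one]
      have ew : hw' 1 (L0 / 2) d * d = -d⁻¹ := by
        rw [hw'_mul le_rfl hL2 hLd, hw, max_eq_left hLd.le, pow_one]
        simp
      have eD : D' z = D z * d⁻¹ := by
        show (if dist v z = 0 then -dist b v else D z / dist v z) = _
        rw [← hd, if_neg hd0.ne', div_eq_mul_inv]
      rw [eq, ew, eD]
      have h3 : (n - 1) * d⁻¹ + κ * d ≤ A := by
        have h4 : d⁻¹ ≤ L0⁻¹ := inv_anti₀ hL0 hd1
        have h5 : (n - 1) * d⁻¹ ≤ ((n : ℝ) - 1) * L0⁻¹ := by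
          apply mul_le_mul_of_nonneg_left h4; linarith
        have h6 : κ * d ≤ κ * R0 := by gcongr
        rw [hA, div_eq_mul_inv]
        linarith
      have h7 := mul_le_mul_of_nonneg_right h3 (hZ0 z)
      have e3 : (n + κ * d ^ 2) * (Zb z * d⁻¹) + (-g (dist b z ^ 2 / 2) * D z * d⁻¹ +
          Zb z * -d⁻¹) = ((n - 1) * d⁻¹ + κ * d) * Zb z - g (dist b z ^ 2 / 2) * (D z * d⁻¹) := by
        field_simp
        ring
      rw [e3]
      linarith
    · rw [hZs z h, hgz z h]
      simp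
  have hIZ : Integrable Zb μ := integrable_Z hfin hg hgs hr
  have hIgD : Integrable (fun z => g (dist b z ^ 2 / 2) * D' z) μ :=
    integrable_gD C hfin (dist_lip v) hRDd hg hgs hr
  have hIw : Integrable (fun z => (n + κ * dist v z ^ 2) * (Zb z * q z)) μ := by
    have hb : Integrable (fun z => (n + κ * R ^ 2) * |Zb z * q z|) μ := hI1.abs.const_mul _
    refine hb.mono' ?_ (Eventually.of_forall fun z => ?_)
    · have : Measurable fun z => (n + κ * dist v z ^ 2 : ℝ) :=
        (((measurable_dist_left v).pow_const 2).const_mul κ).const_add _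
      exact this.aestronglyMeasurable.mul hI1.1
    · rw [Real.norm_eq_abs, abs_mul, abs_of_nonneg (by positivity :
        (0 : ℝ) ≤ n + κ * dist v z ^ 2)]
      by_cases hz : dist v z ≤ R
      · gcongr
      · rw [hsupp z (not_le.1 hz)]; simp
  have h3 : ∫ z, ((n + κ * dist v z ^ 2) * (Zb z * q z) +
      (-g (dist b z ^ 2 / 2) * D z * q z + Zb z * (hw' 1 (L0 / 2) (dist v z) * dist v z))) ∂μ ≤
      ∫ z, (A * Zb z - g (dist b z ^ 2 / 2) * D' z) ∂μ :=
    integral_mono (hIw.add hI2) ((hIZ.const_mul A).sub hIgD) hpt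
  rw [integral_sub (hIZ.const_mul A) hIgD, integral_const_mul] at h3
  linarith

end Crest.Agent.R247.Mv447
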