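import Crest.Agent.R247.Pyt1_710

/-!
# Near isometry of `Ψ(x) = d(x,·) ∈ L²(W)`: abstract part (N2)–(N4)

* `path_bound` (N2): if along a 1-Lipschitz path the derivative of `d_w` has mean square `≤ B²`,
  then `∫ |d_w(γ l) - d_w(γ 0)|² dν(w) ≤ (l B)²`.
* `trace_lower` (N3): isotropy from above + unit length gives isotropy from below.
* `lower_of_typical` (N4): lower bound at every point from a lower bound at typical points.
-/

set_option autoImplicit false
set_option linter.unusedSectionVars false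
open MeasureTheory Set Filter Topology Crest.Agent.R247.Pyt710
open scoped ENNReal NNReal RealInnerProductSpace

noncomputable section
namespace Crest.Agent.R247.Nis710

section path
variable {X : Type*} [MetricSpace X] [MeasurableSpace X] [BorelSpace X]
  [SecondCountableTopology X]

lemma lipschitz_dist_path {γ : ℝ → X} (hγ : LipschitzWith 1 γ) (w : X) :
    LipschitzWith 1 (fun s => dist w (γ s)) := by
  have := (LipschitzWith.dist_right w).comp hγ
  simpa [Function.comp_def] using this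

/-- (N2) -/
theorem path_bound (ν : Measure X) [SFinite ν] {γ : ℝ → X} (hγ : LipschitzWith 1 γ) {l B : ℝ}
    (hl : 0 ≤ l)
    (hB : ∀ᵐ s ∂(volume.restrict (Icc 0 l)),
      ∫⁻ w, ENNReal.ofReal ((deriv (fun s => dist w (γ s)) s) ^ 2) ∂ν ≤ ENNReal.ofReal (B ^ 2)) :
    ∫⁻ w, ENNReal.ofReal ((dist w (γ l) - dist w (γ 0)) ^ 2) ∂ν
      ≤ ENNReal.ofReal ((l * B) ^ 2) := by
  have hcont : Continuous (Function.uncurry (fun (w : X) (s : ℝ) => dist w (γ s))) := by
    have : Continuous (fun p : X × ℝ => dist p.1 (γ p.2)) :=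
      continuous_fst.dist (hγ.continuous.comp continuous_snd)
    exact this
  have hmeas : Measurable (fun p : X × ℝ => deriv (fun s => dist p.1 (γ s)) p.2) :=
    measurable_deriv_with_param hcont
  have hmeas2 : Measurable (fun p : X × ℝ =>
      ENNReal.ofReal ((deriv (fun s => dist p.1 (γ s)) p.2) ^ 2)) :=
    (hmeas.pow_const 2).ennreal_ofReal
  have key : ∀ w, ENNReal.ofReal ((dist w (γ l) - dist w (γ 0)) ^ 2) ≤
      ENNReal.ofReal l * ∫⁻ s in Icc 0 l,
        ENNReal.ofReal ((deriv (fun s => dist w (γ s)) s) ^ 2) := by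
    intro w
    have hac : AbsolutelyContinuousOnInterval (fun s => dist w (γ s)) 0 l :=
      ((lipschitz_dist_path hγ w).lipschitzOnWith (s := uIcc 0 l)).absolutelyContinuousOnInterval
    have hftc : dist w (γ l) - dist w (γ 0) = ∫ s in (0 : ℝ)..l, deriv (fun s => dist w (γ s)) s :=
      hac.integral_deriv_eq_sub.symm
    have hmw : Measurable (fun s => deriv (fun s => dist w (γ s)) s) := measurable_deriv _
    have h1 : ENNReal.ofReal |dist w (γ l) - dist w (γ 0)| ≤
        ∫⁻ s in Icc 0 l, ENNReal.ofReal |deriv (fun s => dist w (γ s)) s| := by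
      rw [hftc, intervalIntegral.integral_of_le hl, ← integral_Icc_eq_integral_Ioc]
      have h2 := norm_integral_le_lintegral_norm (μ := volume.restrict (Icc 0 l))
        (fun s => deriv (fun s => dist w (γ s)) s)
      have h3 := ENNReal.ofReal_le_ofReal h2
      simp only [Real.norm_eq_abs] at h3
      exact h3.trans ENNReal.ofReal_toReal_le
    calc ENNReal.ofReal ((dist w (γ l) - dist w (γ 0)) ^ 2)
        = (ENNReal.ofReal |dist w (γ l) - dist w (γ 0)|) ^ 2 := by
          rw [← ENNReal.ofReal_pow (abs_nonneg _), sq_abs]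
      _ ≤ (∫⁻ s in Icc 0 l, ENNReal.ofReal |deriv (fun s => dist w (γ s)) s|) ^ 2 := by
          gcongr
      _ ≤ (volume.restrict (Icc 0 l)) univ *
          ∫⁻ s in Icc 0 l, (ENNReal.ofReal |deriv (fun s => dist w (γ s)) s|) ^ 2 :=
          sq_lintegral_le _ (hmw.abs.ennreal_ofReal).aemeasurable
      _ = ENNReal.ofReal l * ∫⁻ s in Icc 0 l,
            ENNReal.ofReal ((deriv (fun s => dist w (γ s)) s) ^ 2) := by
          rw [Measure.restrict_apply_univ, Real.volume_Icc, sub_zero]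
          congr 1
          apply lintegral_congr
          intro s
          rw [← ENNReal.ofReal_pow (abs_nonneg _), sq_abs]
  calc ∫⁻ w, ENNReal.ofReal ((dist w (γ l) - dist w (γ 0)) ^ 2) ∂ν
      ≤ ∫⁻ w, ENNReal.ofReal l * ∫⁻ s in Icc 0 l,
          ENNReal.ofReal ((deriv (fun s => dist w (γ s)) s) ^ 2) ∂volume ∂ν :=
        lintegral_mono key
    _ = ENNReal.ofReal l * ∫⁻ w, ∫⁻ s in Icc 0 l,
          ENNReal.ofReal ((deriv (fun s => dist w (γ s)) s) ^ 2) ∂volume ∂ν :=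
        lintegral_const_mul' _ _ ENNReal.ofReal_ne_top
    _ = ENNReal.ofReal l * ∫⁻ s in Icc 0 l, ∫⁻ w,
          ENNReal.ofReal ((deriv (fun s => dist w (γ s)) s) ^ 2) ∂ν ∂volume := by
        rw [lintegral_lintegral_swap hmeas2.aemeasurable]
    _ ≤ ENNReal.ofReal l * ∫⁻ s in Icc 0 l, ENNReal.ofReal (B ^ 2) ∂volume := by
        gcongr ENNReal.ofReal l * ?_
        exact lintegral_mono_ae hB
    _ = ENNReal.ofReal ((l * B) ^ 2) := by
        rw [setLIntegral_const, Real.volume_Icc, sub_zero, ← ENNReal.ofReal_mul (sq_nonneg _),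
          ← ENNReal.ofReal_mul hl]
        congr 1
        ring

end path

section trace

/-- (N3): isotropy from above and total mass one give isotropy from below. -/
theorem trace_lower {W : Type*} [MeasurableSpace W] (ν : Measure W) [IsProbabilityMeasure ν]
    {n : ℕ} {ι : Type*} [Fintype ι] {V : Type*} [NormedAddCommGroup V]
    [InnerProductSpace ℝ V] (b : OrthonormalBasis ι ℝ V) (hn : Fintype.card ι = n) (hn0 : 0 < n)
    {e : W → V} (he : ∀ᵐ w ∂ν, ‖e w‖ = 1) (hm : ∀ ξ : V, AEStronglyMeasurable (fun w => ⟪e w, ξ⟫) ν)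
    {ε : ℝ} (hup : ∀ ξ : V, ∫ w, ⟪e w, ξ⟫ ^ 2 ∂ν ≤ (1 + ε) * ‖ξ‖ ^ 2 / n) (ξ : V) :
    (1 - (n - 1) * ε) * ‖ξ‖ ^ 2 / n ≤ ∫ w, ⟪e w, ξ⟫ ^ 2 ∂ν := by
  classical
  have hint : ∀ η : V, Integrable (fun w => ⟪e w, η⟫ ^ 2) ν := by
    intro η
    refine Integrable.mono' (integrable_const (‖η‖ ^ 2)) ((hm η).pow 2) ?_
    filter_upwards [he] with w hw
    rw [Real.norm_eq_abs, abs_of_nonneg (sq_nonneg _)]
    have := abs_real_inner_le_norm (e w) η
    rw [hw, one_mul] at this
    rw [← sq_abs]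
    gcongr
  -- reduce to unit vectors
  by_cases h0 : ξ = 0
  · subst h0
    simp
  have hξ : 0 < ‖ξ‖ := norm_pos_iff.2 h0
  have : FiniteDimensional ℝ V := b.toBasis.finiteDimensional_of_finite
  -- extend `ξ/‖ξ‖` to an orthonormal basis
  set u : V := (‖ξ‖)⁻¹ • ξ with hu
  have hu1 : ‖u‖ = 1 := by
    rw [hu, norm_smul, norm_inv, norm_norm, inv_mul_cancel₀ hξ.ne']
  have hcard : Module.finrank ℝ V = Fintype.card (Fin n) := by
    rw [Module.finrank_eq_card_basis b.toBasis, hn, Fintype.card_fin]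
  obtain ⟨c, hc⟩ := Orthonormal.exists_orthonormalBasis_extension_of_card_eq (𝕜 := ℝ)
    (ι := Fin n) hcard (v := fun _ => u) (s := {⟨0, hn0⟩}) (by
      rw [orthonormal_iff_ite]
      rintro ⟨i, hi⟩ ⟨j, hj⟩
      simp only [mem_singleton_iff] at hi hj
      subst hi hj
      simp [hu1])
  have hc0 : c ⟨0, hn0⟩ = u := hc _ rfl
  have hsum : ∑ i, ∫ w, ⟪e w, c i⟫ ^ 2 ∂ν = 1 := by
    rw [← integral_finsetSum _ (fun i _ => hint (c i))]
    have : ∀ᵐ w ∂ν, ∑ i, ⟪e w, c i⟫ ^ 2 = 1 := by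
      filter_upwards [he] with w hw
      have h := c.sum_sq_norm_inner_right (e w)
      simp only [Real.norm_eq_abs, sq_abs] at h
      have h2 : ∀ i, ⟪e w, c i⟫ ^ 2 = ⟪c i, e w⟫ ^ 2 := fun i => by rw [real_inner_comm]
      rw [Finset.sum_congr rfl (fun i _ => h2 i), h, hw, one_pow]
    rw [integral_congr_ae this]
    simp
  have hle : ∑ i ∈ Finset.univ.erase (⟨0, hn0⟩ : Fin n), ∫ w, ⟪e w, c i⟫ ^ 2 ∂ν
      ≤ (n - 1) * ((1 + ε) / n) := by
    calc ∑ i ∈ Finset.univ.erase (⟨0, hn0⟩ : Fin n), ∫ w, ⟪e w, c i⟫ ^ 2 ∂ν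
        ≤ ∑ i ∈ Finset.univ.erase (⟨0, hn0⟩ : Fin n), (1 + ε) / n := by
          apply Finset.sum_le_sum
          intro i _
          have := hup (c i)
          rwa [c.norm_eq_one, one_pow, mul_one] at this
      _ = (n - 1) * ((1 + ε) / n) := by
          rw [Finset.sum_const, Finset.card_erase_of_mem (Finset.mem_univ _), Finset.card_univ,
            Fintype.card_fin, nsmul_eq_mul, Nat.cast_sub (by omega), Nat.cast_one]
  have h1 : 1 - (n - 1) * ((1 + ε) / n) ≤ ∫ w, ⟪e w, u⟫ ^ 2 ∂ν := by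
    rw [← hc0]
    have := Finset.add_sum_erase Finset.univ (fun i => ∫ w, ⟪e w, c i⟫ ^ 2 ∂ν)
      (Finset.mem_univ (⟨0, hn0⟩ : Fin n))
    linarith
  have h2 : ∫ w, ⟪e w, ξ⟫ ^ 2 ∂ν = ‖ξ‖ ^ 2 * ∫ w, ⟪e w, u⟫ ^ 2 ∂ν := by
    rw [← integral_const_mul]
    congr 1
    ext w
    have : ξ = ‖ξ‖ • u := by
      rw [hu, smul_smul, mul_inv_cancel₀ hξ.ne', one_smul]
    conv_lhs => rw [this, real_inner_smul_right]
    ring
  rw [h2]
  have hn' : (0 : ℝ) < n := by exact_mod_cast hn0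
  calc (1 - (n - 1) * ε) * ‖ξ‖ ^ 2 / n = ‖ξ‖ ^ 2 * (1 - (n - 1) * ((1 + ε) / n)) := by
        field_simp
        ring
    _ ≤ ‖ξ‖ ^ 2 * ∫ w, ⟪e w, u⟫ ^ 2 ∂ν := by gcongr

end trace

end Crest.Agent.R247.Nis710
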