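import Crest.Agent.R247.Nis1_710

/-!
# Near isometry of `Ψ(x) = d(·,x) ∈ L²(ν)`: from typical points to all points

`psi ν u : Lp ℝ 2 ν` is the class of `w ↦ dist w u`.
-/

set_option autoImplicit false
set_option linter.unusedSectionVars false
open MeasureTheory Set Filter Topology Crest.Agent.R247.Pyt710
open scoped ENNReal NNReal RealInnerProductSpace

noncomputable section
namespace Crest.Agent.R247.Nis710

section psi
variable {X : Type*} [MetricSpace X] [MeasurableSpace X] [BorelSpace X]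

lemma memLp_dist {ν : Measure X} [IsFiniteMeasure ν] {p : X} {R : ℝ}
    (hν : ∀ᵐ w ∂ν, dist w p ≤ R) (u : X) : MemLp (fun w => dist w u) 2 ν := by
  refine MemLp.of_bound (C := R + dist p u) ?_ ?_
  · exact (continuous_id.dist continuous_const).aestronglyMeasurable
  · filter_upwards [hν] with w hw
    rw [Real.norm_eq_abs, abs_of_nonneg dist_nonneg]
    exact (dist_triangle w p u).trans (by linarith)

/-- The embedding `u ↦ d(·,u) ∈ L²(ν)` (junk `0` if `ν` has unbounded support). -/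
def psi (ν : Measure X) (u : X) : Lp ℝ 2 ν :=
  open Classical in
  if h : MemLp (fun w => dist w u) 2 ν then h.toLp _ else 0

lemma coe_psi {ν : Measure X} {u : X} (h : MemLp (fun w => dist w u) 2 ν) :
    psi ν u =ᵐ[ν] fun w => dist w u := by
  rw [psi, dif_pos h]
  exact h.coeFn_toLp

lemma psi_eq {ν : Measure X} {u : X} (h : MemLp (fun w => dist w u) 2 ν) :
    psi ν u = h.toLp _ := by
  rw [psi, dif_pos h]

lemma norm_toLp_sq {ν : Measure X} {f : X → ℝ} (h : MemLp f 2 ν) :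
    ‖h.toLp f‖ ^ 2 = ∫ w, f w ^ 2 ∂ν := by
  rw [← real_inner_self_eq_norm_sq, L2.inner_def]
  apply integral_congr_ae
  filter_upwards [h.coeFn_toLp] with w hw
  rw [hw]
  simp [sq]

lemma norm_psi_sub_sq {ν : Measure X} [IsFiniteMeasure ν] {p : X} {R : ℝ}
    (hν : ∀ᵐ w ∂ν, dist w p ≤ R) (u v : X) :
    ‖psi ν u - psi ν v‖ ^ 2 = ∫ w, (dist w u - dist w v) ^ 2 ∂ν := by
  have hu := memLp_dist hν u
  have hv := memLp_dist hν v
  rw [psi_eq hu, psi_eq hv, ← MemLp.toLp_sub hu hv, norm_toLp_sq]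
  rfl

lemma norm_psi_sub_le {ν : Measure X} [IsProbabilityMeasure ν] {p : X} {R : ℝ}
    (hν : ∀ᵐ w ∂ν, dist w p ≤ R) (u v : X) : ‖psi ν u - psi ν v‖ ≤ dist u v := by
  have h := norm_psi_sub_sq hν u v
  have h2 : ∫ w, (dist w u - dist w v) ^ 2 ∂ν ≤ dist u v ^ 2 := by
    have hb : ∀ w, (dist w u - dist w v) ^ 2 ≤ dist u v ^ 2 := by
      intro w
      rw [← sq_abs]
      have := abs_dist_sub_le u v w
      rw [dist_comm w u, dist_comm w v]
      gcongr
    have hint : Integrable (fun w => (dist w u - dist w v) ^ 2) ν := by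
      have h1 := ((memLp_dist hν u).sub (memLp_dist hν v)).integrable_sq
      simpa using h1
    calc ∫ w, (dist w u - dist w v) ^ 2 ∂ν ≤ ∫ _, dist u v ^ 2 ∂ν :=
          integral_mono hint (integrable_const _) hb
      _ = dist u v ^ 2 := by simp
  rw [← h] at h2
  exact (abs_le_of_sq_le_sq' h2 dist_nonneg).2

end psi

section typical
variable {X : Type*} [MetricSpace X] [MeasurableSpace X]

/-- (N4) lower bound at every point from a lower bound at typical points. -/
theorem lower_of_typical {μ : Measure X} {H : Type*} [NormedAddCommGroup H] {Ψ : X → H}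
    {x y : X} {r ρ α τ : ℝ}
    (hΨ : ∀ u, ‖Ψ u - Ψ y‖ ≤ dist u y) {G E : X → H} (hα1 : α ≤ 1) (hα0 : 0 ≤ α)
    (hsub : Metric.ball y ρ ⊆ Metric.ball x (2 * r))
    (hdec : ∀ᵐ u ∂(μ.restrict (Metric.ball x (2 * r))), Ψ u - Ψ x = G u - E u)
    (hG : ∀ᵐ u ∂(μ.restrict (Metric.ball x (2 * r))), α * dist x u ≤ ‖G u‖)
    (hE : (μ.restrict (Metric.ball x (2 * r))) {u | τ * r < ‖E u‖} < μ (Metric.ball y ρ)) :
    α * dist x y - (τ * r + 2 * ρ) ≤ ‖Ψ y - Ψ x‖ := by
  -- there is a good point in the ball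
  have hex : ∃ u ∈ Metric.ball y ρ, Ψ u - Ψ x = G u - E u ∧ α * dist x u ≤ ‖G u‖ ∧
      ‖E u‖ ≤ τ * r := by
    by_contra hcon
    push Not at hcon
    have hle : μ (Metric.ball y ρ) ≤
        (μ.restrict (Metric.ball x (2 * r))) {u | τ * r < ‖E u‖} := by
      calc μ (Metric.ball y ρ) ≤ (μ.restrict (Metric.ball x (2 * r))) (Metric.ball y ρ) := by
            rw [Measure.restrict_eq_self μ hsub]
        _ ≤ (μ.restrict (Metric.ball x (2 * r))) {u | τ * r < ‖E u‖} := by
            apply measure_mono_ae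
            filter_upwards [hdec, hG] with u h1 h2 hu
            exact hcon u hu h1 h2
    exact absurd hE (not_lt.2 hle)
  obtain ⟨u, hu, h1, h2, h3⟩ := hex
  have hd : dist u y < ρ := hu
  have h4 : α * dist x u - τ * r ≤ ‖Ψ u - Ψ x‖ := by
    rw [h1]
    have := norm_sub_norm_le (G u) (E u)
    linarith
  have h5 : ‖Ψ u - Ψ x‖ ≤ ‖Ψ y - Ψ x‖ + ρ := by
    have : Ψ u - Ψ x = (Ψ y - Ψ x) + (Ψ u - Ψ y) := by abel
    rw [this]
    exact (norm_add_le _ _).trans (by linarith [hΨ u])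
  have h6 : dist x y ≤ dist x u + ρ := by
    linarith [dist_triangle x u y]
  have h7 : α * dist x y ≤ α * dist x u + ρ := by
    calc α * dist x y ≤ α * (dist x u + ρ) := by gcongr
      _ = α * dist x u + α * ρ := by ring
      _ ≤ α * dist x u + 1 * ρ := by
          have : 0 ≤ ρ := dist_nonneg.trans hd.le
          gcongr
      _ = _ := by ring
  linarith

/-- Chebyshev in the form used with `lower_of_typical`. -/
lemma cheb {μ : Measure X} {H : Type*} [NormedAddCommGroup H] {E : X → H} {B : Set X}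
    (hEm : AEMeasurable (fun u => ENNReal.ofReal (‖E u‖ ^ 2)) (μ.restrict B)) {τ r : ℝ}
    (hτ : 0 < τ * r) {K : ℝ≥0∞}
    (hK : ∫⁻ u in B, ENNReal.ofReal (‖E u‖ ^ 2) ∂μ ≤ ENNReal.ofReal ((τ * r) ^ 2) * K) :
    (μ.restrict B) {u | τ * r < ‖E u‖} ≤ K := by
  have h1 : (μ.restrict B) {u | τ * r < ‖E u‖} ≤
      (μ.restrict B) {u | ENNReal.ofReal ((τ * r) ^ 2) ≤ ENNReal.ofReal (‖E u‖ ^ 2)} := by
    apply measure_mono
    intro u hu
    simp only [mem_ofPred_eq] at hu ⊢
    exact ENNReal.ofReal_le_ofReal (by gcongr)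
  have h2 := mul_meas_ge_le_lintegral₀ hEm (ENNReal.ofReal ((τ * r) ^ 2))
  have h0 : ENNReal.ofReal ((τ * r) ^ 2) ≠ 0 := by
    rw [Ne, ENNReal.ofReal_eq_zero, not_le]
    positivity
  have h3 := (mul_le_mul_right h1 (ENNReal.ofReal ((τ * r) ^ 2))).trans (h2.trans hK)
  exact (ENNReal.mul_le_mul_iff_right h0 ENNReal.ofReal_ne_top).1 h3

end typical

end Crest.Agent.R247.Nis710
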