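import Crest.Agent.R247.Nis2_710

/-!
# Near isometry of `Ψ`: upper bound (N2), lower bound (N3)+(N4), and the combined form (near)
-/

set_option autoImplicit false
set_option linter.unusedSectionVars false
open MeasureTheory Set Filter Topology Crest.Agent.R247.Pyt710
open scoped ENNReal NNReal RealInnerProductSpace

noncomputable section
namespace Crest.Agent.R247.Nis710

variable {n : ℕ} {X : Type*} [MetricSpace X] [MeasurableSpace X] [BorelSpace X]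
  {μ ν : Measure X} [IsProbabilityMeasure ν]

local notation "𝔼" => EuclideanSpace ℝ (Fin n)

lemma integrable_inner_sq {D : X → 𝔼} (hDm : ∀ ξ, AEStronglyMeasurable (fun w => ⟪D w, ξ⟫) ν)
    (hD1 : ∀ᵐ w ∂ν, ‖D w‖ ≤ 1) (ξ : 𝔼) : Integrable (fun w => ⟪D w, ξ⟫ ^ 2) ν := by
  refine Integrable.mono' (integrable_const (‖ξ‖ ^ 2)) ((hDm ξ).pow 2) ?_
  filter_upwards [hD1] with w hw
  rw [Real.norm_eq_abs, abs_of_nonneg (sq_nonneg _), ← sq_abs]
  have h1 := abs_real_inner_le_norm (D w) ξ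
  have h2 : ‖D w‖ * ‖ξ‖ ≤ 1 * ‖ξ‖ := by gcongr
  have h3 : |⟪D w, ξ⟫| ≤ ‖ξ‖ := by linarith
  gcongr

/-- (N2): upper bound. -/
theorem psi_upper [SecondCountableTopology X] (hn : 0 < n) {p : X} {R ε : ℝ}
    (hν : ∀ᵐ w ∂ν, dist w p ≤ R) (hε : 0 ≤ ε) {D : X → X → 𝔼}
    (hDm : ∀ u ξ, AEStronglyMeasurable (fun w => ⟪D w u, ξ⟫) ν) {S : Set X}
    (hD1 : ∀ u ∈ S, ∀ᵐ w ∂ν, ‖D w u‖ = 1)
    (hN1 : ∀ u ∈ S, ∀ ξ, ∫ w, ⟪D w u, ξ⟫ ^ 2 ∂ν ≤ (1 + ε) * ‖ξ‖ ^ 2 / n)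
    {x y : X} {γ : ℝ → X} (hγ : LipschitzWith 1 γ) (h0 : γ 0 = x) (h1 : γ (dist x y) = y)
    (hder : ∀ᵐ s ∂(volume.restrict (Icc 0 (dist x y))), γ s ∈ S ∧ ∃ ξ : 𝔼, ‖ξ‖ ≤ 1 ∧
      ∀ᵐ w ∂ν, deriv (fun s => dist w (γ s)) s = ⟪D w (γ s), ξ⟫) :
    ‖psi ν x - psi ν y‖ ≤ Real.sqrt ((1 + ε) / n) * dist x y := by
  set B : ℝ := Real.sqrt ((1 + ε) / n) with hB
  have hn' : (0 : ℝ) < n := by exact_mod_cast hn
  have hB2 : B ^ 2 = (1 + ε) / n := Real.sq_sqrt (by positivity)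
  have hstep := path_bound ν hγ (l := dist x y) (B := B) dist_nonneg (by
    filter_upwards [hder] with s hs
    obtain ⟨hS, ξ, hξ, hw⟩ := hs
    have hi := integrable_inner_sq (hDm (γ s)) ((hD1 _ hS).mono fun w h => h.le) ξ
    calc ∫⁻ w, ENNReal.ofReal ((deriv (fun s => dist w (γ s)) s) ^ 2) ∂ν
        = ∫⁻ w, ENNReal.ofReal (⟪D w (γ s), ξ⟫ ^ 2) ∂ν := by
          apply lintegral_congr_ae
          filter_upwards [hw] with w h
          rw [h]
      _ = ENNReal.ofReal (∫ w, ⟪D w (γ s), ξ⟫ ^ 2 ∂ν) :=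
          (ofReal_integral_eq_lintegral_ofReal hi
            (Eventually.of_forall fun w => sq_nonneg _)).symm
      _ ≤ ENNReal.ofReal (B ^ 2) := by
          apply ENNReal.ofReal_le_ofReal
          rw [hB2]
          refine (hN1 _ hS ξ).trans ?_
          have : ‖ξ‖ ^ 2 ≤ 1 := by
            have := norm_nonneg ξ
            nlinarith
          calc (1 + ε) * ‖ξ‖ ^ 2 / n ≤ (1 + ε) * 1 / n := by gcongr
            _ = _ := by rw [mul_one])
  rw [h0, h1] at hstep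
  have hsq := norm_psi_sub_sq hν x y
  have hint : Integrable (fun w => (dist w x - dist w y) ^ 2) ν := by
    have h1 := ((memLp_dist hν x).sub (memLp_dist hν y)).integrable_sq
    simpa using h1
  have h3 : ENNReal.ofReal (‖psi ν x - psi ν y‖ ^ 2) ≤ ENNReal.ofReal ((dist x y * B) ^ 2) := by
    rw [hsq, ofReal_integral_eq_lintegral_ofReal hint (Eventually.of_forall fun w => sq_nonneg _)]
    refine le_trans (le_of_eq ?_) hstep
    apply lintegral_congr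
    intro w
    congr 1
    ring
  have h4 : ‖psi ν x - psi ν y‖ ^ 2 ≤ (dist x y * B) ^ 2 :=
    (ENNReal.ofReal_le_ofReal_iff (sq_nonneg _)).1 h3
  have h5 := (abs_le_of_sq_le_sq' h4 (by positivity)).2
  linarith [mul_comm (dist x y) B]

/-- (N3)+(N4): lower bound. -/
theorem psi_lower (hn : 0 < n) {p : X} {R ε : ℝ}
    (hν : ∀ᵐ w ∂ν, dist w p ≤ R) {D : X → X → 𝔼}
    (hDm : ∀ u ξ, AEStronglyMeasurable (fun w => ⟪D w u, ξ⟫) ν)
    {x y : X} {r ρ τ : ℝ} (hε : 0 ≤ 1 - (n - 1) * ε) (hε0 : 0 ≤ ε)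
    (hsub : Metric.ball y ρ ⊆ Metric.ball x (2 * r))
    (hD1 : ∀ᵐ u ∂(μ.restrict (Metric.ball x (2 * r))), ∀ᵐ w ∂ν, ‖D w u‖ = 1)
    (hN1 : ∀ᵐ u ∂(μ.restrict (Metric.ball x (2 * r))), ∀ ξ,
      ∫ w, ⟪D w u, ξ⟫ ^ 2 ∂ν ≤ (1 + ε) * ‖ξ‖ ^ 2 / n)
    {F : X → 𝔼} (hF : ∀ᵐ u ∂(μ.restrict (Metric.ball x (2 * r))), ‖F u‖ = dist x u)
    {e : X → X → ℝ}
    (hFe : ∀ᵐ u ∂(μ.restrict (Metric.ball x (2 * r))), ∀ᵐ w ∂ν,
      dist w u - dist w x = ⟪F u, D w u⟫ - e u w)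
    (hem : AEMeasurable (fun u => ∫⁻ w, ENNReal.ofReal (e u w ^ 2) ∂ν)
      (μ.restrict (Metric.ball x (2 * r))))
    (hτ : 0 < τ * r) {K : ℝ≥0∞}
    (hK : ∫⁻ u in Metric.ball x (2 * r), ∫⁻ w, ENNReal.ofReal (e u w ^ 2) ∂ν ∂μ
      ≤ ENNReal.ofReal ((τ * r) ^ 2) * K)
    (hKy : K < μ (Metric.ball y ρ)) :
    Real.sqrt ((1 - (n - 1) * ε) / n) * dist x y - (τ * r + 2 * ρ) ≤ ‖psi ν y - psi ν x‖ := by
  classical
  have hn' : (0 : ℝ) < n := by exact_mod_cast hn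
  have hn1 : (1 : ℝ) ≤ n := by exact_mod_cast hn
  set α : ℝ := Real.sqrt ((1 - (n - 1) * ε) / n) with hα
  have hα2 : α ^ 2 = (1 - (n - 1) * ε) / n := Real.sq_sqrt (by positivity)
  have hα0 : 0 ≤ α := Real.sqrt_nonneg _
  have hα1 : α ≤ 1 := by
    rw [hα, Real.sqrt_le_left (by norm_num), one_pow, div_le_one hn']
    have : 0 ≤ (n - 1) * ε := mul_nonneg (by linarith) hε0
    linarith
  -- the two functions as elements of `L²`
  let g : X → X → ℝ := fun u w => ⟪F u, D w u⟫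
  let Gv : X → Lp ℝ 2 ν := fun u => if h : MemLp (g u) 2 ν then h.toLp _ else 0
  let Ev : X → Lp ℝ 2 ν := fun u => if h : MemLp (e u) 2 ν then h.toLp _ else 0
  have hgm : ∀ᵐ u ∂(μ.restrict (Metric.ball x (2 * r))), MemLp (g u) 2 ν := by
    filter_upwards [hD1] with u hu
    refine MemLp.of_bound (C := ‖F u‖) ?_ ?_
    · have := hDm u (F u)
      simpa only [g, real_inner_comm] using this
    · filter_upwards [hu] with w hw
      have := abs_real_inner_le_norm (F u) (D w u)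
      rw [hw, mul_one] at this
      exact this
  have hemm : ∀ᵐ u ∂(μ.restrict (Metric.ball x (2 * r))), MemLp (e u) 2 ν := by
    filter_upwards [hgm, hFe] with u hu h
    have h1 := hu.sub ((memLp_dist hν u).sub (memLp_dist hν x))
    refine (memLp_congr_ae ?_).1 h1
    filter_upwards [h] with w hw
    simp only [Pi.sub_apply, g]
    linarith
  have hdec : ∀ᵐ u ∂(μ.restrict (Metric.ball x (2 * r))), psi ν u - psi ν x = Gv u - Ev u := by
    filter_upwards [hgm, hemm, hFe] with u h1 h2 h3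
    simp only [Gv, Ev, dif_pos h1, dif_pos h2]
    rw [psi_eq (memLp_dist hν u), psi_eq (memLp_dist hν x), ← MemLp.toLp_sub, ← MemLp.toLp_sub]
    apply MemLp.toLp_congr
    filter_upwards [h3] with w hw
    simpa [g] using hw
  have hG : ∀ᵐ u ∂(μ.restrict (Metric.ball x (2 * r))), α * dist x u ≤ ‖Gv u‖ := by
    filter_upwards [hgm, hD1, hN1, hF] with u h1 h2 h3 h4
    simp only [Gv, dif_pos h1]
    have h5 := norm_toLp_sq h1
    have h6 := trace_lower ν (EuclideanSpace.basisFun (Fin n) ℝ) (by simp) hn h2 (hDm u)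
      h3 (F u)
    have h7 : (α * dist x u) ^ 2 ≤ ‖h1.toLp (g u)‖ ^ 2 := by
      rw [h5, mul_pow, hα2, ← h4]
      refine le_trans (le_of_eq (by ring)) (h6.trans (le_of_eq ?_))
      apply integral_congr_ae
      exact Eventually.of_forall fun w => by simp only [g, real_inner_comm]
    exact (abs_le_of_sq_le_sq' h7 (norm_nonneg _)).2
  have hEe : (fun u => ENNReal.ofReal (‖Ev u‖ ^ 2)) =ᵐ[μ.restrict (Metric.ball x (2 * r))]
      fun u => ∫⁻ w, ENNReal.ofReal (e u w ^ 2) ∂ν := by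
    filter_upwards [hemm] with u h2
    simp only [Ev, dif_pos h2]
    rw [norm_toLp_sq h2]
    exact ofReal_integral_eq_lintegral_ofReal h2.integrable_sq
      (Eventually.of_forall fun w => sq_nonneg _)
  have hE := cheb (μ := μ) (E := Ev) (B := Metric.ball x (2 * r)) (hem.congr hEe.symm) hτ
    (K := K) (by rw [lintegral_congr_ae hEe]; exact hK)
  refine lower_of_typical (G := Gv) (E := Ev) (fun u => norm_psi_sub_le hν u y) hα1 hα0 hsub hdec
    hG (lt_of_le_of_lt hE hKy)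

/-- Combination of the two bounds into the relative form `|√n‖Ψx-Ψy‖ - d(x,y)| ≤ ε' d(x,y)`. -/
theorem near_of_bounds (hn : 0 < n) {ε τ ρ' d N : ℝ} (hε0 : 0 ≤ ε)
    (hε : (n - 1) * ε ≤ 1) (hd : 0 ≤ d) (hup : N ≤ Real.sqrt ((1 + ε) / n) * d)
    (hlo : Real.sqrt ((1 - (n - 1) * ε) / n) * d - (τ * d + 2 * (ρ' * d)) ≤ N)
    (hτ : 0 ≤ τ) (hρ : 0 ≤ ρ') :
    |Real.sqrt n * N - d| ≤ (n * ε + Real.sqrt n * (τ + 2 * ρ')) * d := by
  have hn' : (0 : ℝ) < n := by exact_mod_cast hn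
  have hn1 : (1 : ℝ) ≤ n := by exact_mod_cast hn
  have hs : 0 < Real.sqrt n := Real.sqrt_pos.2 hn'
  have h1 : Real.sqrt n * Real.sqrt ((1 + ε) / n) = Real.sqrt (1 + ε) := by
    rw [← Real.sqrt_mul hn'.le]
    congr 1
    field_simp
  have h2 : Real.sqrt n * Real.sqrt ((1 - (n - 1) * ε) / n) = Real.sqrt (1 - (n - 1) * ε) := by
    rw [← Real.sqrt_mul hn'.le]
    congr 1
    field_simp
  have h3 : Real.sqrt (1 + ε) ≤ 1 + ε := by
    rw [Real.sqrt_le_left (by linarith)]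
    nlinarith
  have h4 : 1 - (n - 1) * ε ≤ Real.sqrt (1 - (n - 1) * ε) := by
    apply Real.le_sqrt_of_sq_le
    have : 0 ≤ (n - 1) * ε := mul_nonneg (by linarith) hε0
    nlinarith
  rw [abs_le]
  have hub : Real.sqrt n * N ≤ (1 + ε) * d := by
    calc Real.sqrt n * N ≤ Real.sqrt n * (Real.sqrt ((1 + ε) / n) * d) := by gcongr
      _ = Real.sqrt (1 + ε) * d := by rw [← mul_assoc, h1]
      _ ≤ (1 + ε) * d := by gcongr
  have hlb : (1 - (n - 1) * ε) * d - Real.sqrt n * (τ + 2 * ρ') * d ≤ Real.sqrt n * N := by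
    calc (1 - (n - 1) * ε) * d - Real.sqrt n * (τ + 2 * ρ') * d
        ≤ Real.sqrt (1 - (n - 1) * ε) * d - Real.sqrt n * (τ + 2 * ρ') * d := by gcongr
      _ = Real.sqrt n * (Real.sqrt ((1 - (n - 1) * ε) / n) * d - (τ * d + 2 * (ρ' * d))) := by
          rw [← h2]; ring
      _ ≤ Real.sqrt n * N := by gcongr
  have h5 : 0 ≤ Real.sqrt n * (τ + 2 * ρ') * d := by positivity
  have h6 : 0 ≤ (n : ℝ) * ε * d := by positivity
  have h7 : 0 ≤ (n - 1 : ℝ) * ε * d := by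
    have : 0 ≤ (n - 1 : ℝ) := by linarith
    positivity
  have h8 : 0 ≤ ε * d := by positivity
  constructor <;> nlinarith

end Crest.Agent.R247.Nis710
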