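import Crest.Agent.R247.Num1_824
import Crest.Agent.R247.Num2_824

/-!
# R247, block (1-N), part N3 (continued): the final second moment estimate of sec. 6
-/

open MeasureTheory Finset
open scoped ENNReal

namespace Crest.Agent.R247.Num824

lemma min_one_add_sq {u v : ℝ} (hu : 0 ≤ u) (hv : 0 ≤ v) :
    (min 1 (u + v)) ^ 2 ≤ 2 * u ^ 2 + 2 * v := by
  rcases le_total (u + v) 1 with h | h
  · rw [min_eq_right h]
    have h1 : v ^ 2 ≤ v := by nlinarith
    nlinarith [sq_nonneg (u - v)]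
  · rw [min_eq_left h]
    rcases le_total (1 / 2) v with h2 | h2
    · nlinarith [sq_nonneg u]
    · have h3 : 1 - v ≤ u := by linarith
      have h4 : (1 - v) ^ 2 ≤ u ^ 2 := by
        have : 0 ≤ 1 - v := by linarith
        gcongr
      nlinarith [sq_nonneg v]

/-- squaring a sum of dyadic blocks -/
lemma blocks_sq {b : ℝ} (hb : 0 < b) {K : ℝ} (u v : ℕ → ℝ)
    (hu : ∀ j, 0 ≤ u j) (hv : ∀ j, 0 ≤ v j) (J : ℕ) :
    (∑ j ∈ range J, K * (2 : ℝ) ^ (-(b * j)) * min 1 (u j + v j)) ^ 2 ≤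
      ∑ j ∈ range J, 2 * K ^ 2 * geoC (b / 2) * ((2 : ℝ) ^ (-(b / 2 * j)) * (2 : ℝ) ^ (-(b * j))) *
        (u j ^ 2 + v j) := by
  refine (geo_cs (by positivity : 0 < b / 2) _ J).trans ?_
  rw [mul_sum]
  refine sum_le_sum fun j _ => ?_
  have h1 := min_one_add_sq (hu j) (hv j)
  have hg := geoC_pos (by positivity : 0 < b / 2)
  have h2 : (2 : ℝ) ^ (b / 2 * j) * ((2 : ℝ) ^ (-(b * j)) * (2 : ℝ) ^ (-(b * j))) =
      (2 : ℝ) ^ (-(b / 2 * j)) * (2 : ℝ) ^ (-(b * j)) := by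
    rw [← Real.rpow_add (by norm_num), ← Real.rpow_add (by norm_num),
      ← Real.rpow_add (by norm_num)]
    congr 1
    ring
  calc geoC (b / 2) * ((2 : ℝ) ^ (b / 2 * j) *
        (K * (2 : ℝ) ^ (-(b * j)) * min 1 (u j + v j)) ^ 2)
      = K ^ 2 * geoC (b / 2) * ((2 : ℝ) ^ (b / 2 * j) * ((2 : ℝ) ^ (-(b * j)) *
          (2 : ℝ) ^ (-(b * j)))) * (min 1 (u j + v j)) ^ 2 := by ring
    _ = K ^ 2 * geoC (b / 2) * ((2 : ℝ) ^ (-(b / 2 * j)) * (2 : ℝ) ^ (-(b * j))) *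
          (min 1 (u j + v j)) ^ 2 := by rw [h2]
    _ ≤ K ^ 2 * geoC (b / 2) * ((2 : ℝ) ^ (-(b / 2 * j)) * (2 : ℝ) ^ (-(b * j))) *
          (2 * u j ^ 2 + 2 * v j) := by
        have := two_neg_pos (b / 2 * (j : ℝ))
        have := two_neg_pos (b * (j : ℝ))
        gcongr
    _ = _ := by ring

/-- the constant of `final` -/
noncomputable def finC (b A B : ℝ) : ℝ :=
  3 * B + 12 * A ^ 2 * B * (geoC (b / 2) * logC (b / 2)) + 4 * A ^ 2

lemma finC_nonneg {b A B : ℝ} (hb : 0 < b) (hB : 0 ≤ B) : 0 ≤ finC b A B := by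
  have := geoC_pos (by positivity : 0 < b / 2)
  have := one_le_logC (by positivity : 0 < b / 2)
  unfold finC
  positivity

variable {Ω : Type*} [MeasurableSpace Ω]

/-- **Final second moment estimate.**  `J` scales `s = 2^j t`, `ph j` the averaged drop at
scale `2^j t`, `I0` the first block, `U` the square integrable and `V` the integrable parts. -/
theorem final {b : ℝ} (hb : 0 < b) {P : Measure Ω} {G : Set Ω} (hG : MeasurableSet G) {J : ℕ}
    (hJ : 0 < J) {t A B τ : ℝ} (hB : 0 ≤ B)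
    {R I0 : Ω → ℝ} {U V : ℕ → Ω → ℝ} {ph : ℕ → ℝ≥0∞}
    (hR : ∀ᵐ ω ∂P, |R ω| ≤ A * t)
    (hRG : ∀ᵐ ω ∂P, ω ∈ G → |R ω| ≤ |I0 ω| +
      ∑ j ∈ range J, A * t * (2 : ℝ) ^ (-(b * j)) * min 1 (U j ω + V j ω) + A * t * τ)
    (hU0 : ∀ j ω, 0 ≤ U j ω) (hV0 : ∀ j ω, 0 ≤ V j ω)
    (hUm : ∀ j, AEMeasurable (U j) P) (hVm : ∀ j, AEMeasurable (V j) P)
    (hIm : AEMeasurable I0 P)
    (hI0 : ∫⁻ ω, ENNReal.ofReal (I0 ω ^ 2) ∂P ≤ ENNReal.ofReal (B * t ^ 2) * ph 0)
    (hU : ∀ j < J, ∫⁻ ω, ENNReal.ofReal (U j ω ^ 2) ∂P ≤ ENNReal.ofReal (B * (1 + j)) * ph j)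
    (hV : ∀ j < J, ∫⁻ ω, ENNReal.ofReal (V j ω) ∂P ≤ ENNReal.ofReal (B * (1 + j)) * ph j) :
    ∫⁻ ω, ENNReal.ofReal (R ω ^ 2) ∂P ≤ ENNReal.ofReal (finC b A B * t ^ 2) *
      (∑ j ∈ range J, ENNReal.ofReal ((2 : ℝ) ^ (-(b * j))) * ph j +
        ENNReal.ofReal (τ ^ 2) * P Set.univ + P Gᶜ) := by
  have hb2 : 0 < b / 2 := by positivity
  have hg := geoC_pos hb2
  have hl := one_le_logC hb2
  set w : ℕ → ℝ := fun j => (2 : ℝ) ^ (-(b / 2 * j)) * (2 : ℝ) ^ (-(b * j)) with hw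
  have hw0 : ∀ j, 0 ≤ w j := fun j => mul_nonneg (two_neg_pos _).le (two_neg_pos _).le
  have hwl : ∀ j : ℕ, w j * (1 + j) ≤ logC (b / 2) * (2 : ℝ) ^ (-(b * j)) := by
    intro j
    have h1 := logabs hb2 j
    have h2 : (2 : ℝ) ^ (-(b / 2 / 2 * (j : ℝ))) ≤ 1 := by
      apply Real.rpow_le_one_of_one_le_of_nonpos (by norm_num)
      have : 0 ≤ b / 2 / 2 * (j : ℝ) := by positivity
      linarith
    have h3 := (two_neg_pos (b * (j : ℝ))).le
    calc w j * (1 + j) = ((1 + (j : ℝ)) * (2 : ℝ) ^ (-(b / 2 * j))) * (2 : ℝ) ^ (-(b * j)) := by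
          rw [hw]; ring
      _ ≤ (logC (b / 2) * (2 : ℝ) ^ (-(b / 2 / 2 * j))) * (2 : ℝ) ^ (-(b * j)) := by gcongr
      _ ≤ (logC (b / 2) * 1) * (2 : ℝ) ^ (-(b * j)) := by gcongr
      _ = _ := by rw [mul_one]
  set c : ℝ := 6 * (A * t) ^ 2 * geoC (b / 2) with hc
  have hc0 : 0 ≤ c := by positivity
  -- pointwise bound
  have hpt : ∀ᵐ ω ∂P, ENNReal.ofReal (R ω ^ 2) ≤
      ENNReal.ofReal (3 * I0 ω ^ 2) +
      ((∑ j ∈ range J, (ENNReal.ofReal (c * w j) * ENNReal.ofReal (U j ω ^ 2) +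
        ENNReal.ofReal (c * w j) * ENNReal.ofReal (V j ω))) +
      (ENNReal.ofReal (3 * (A * t) ^ 2 * τ ^ 2) +
        Gᶜ.indicator (fun _ => ENNReal.ofReal ((A * t) ^ 2)) ω)) := by
    filter_upwards [hR, hRG] with ω h1 h2
    by_cases hω : ω ∈ G
    · have h3 := h2 hω
      set S := ∑ j ∈ range J, A * t * (2 : ℝ) ^ (-(b * j)) * min 1 (U j ω + V j ω) with hS
      have h4 : R ω ^ 2 ≤ 3 * I0 ω ^ 2 + (3 * S ^ 2 + 3 * (A * t) ^ 2 * τ ^ 2) := by
        have h5 : R ω ^ 2 ≤ (|I0 ω| + S + A * t * τ) ^ 2 := by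
          rw [← sq_abs (R ω)]
          gcongr
        have h6 : (|I0 ω| + S + A * t * τ) ^ 2 ≤
            3 * (|I0 ω| ^ 2 + S ^ 2 + (A * t * τ) ^ 2) := by
          nlinarith [sq_nonneg (|I0 ω| - S), sq_nonneg (|I0 ω| - A * t * τ),
            sq_nonneg (S - A * t * τ)]
        rw [sq_abs] at h6
        refine h5.trans (h6.trans (le_of_eq (by ring)))
      have h5 : 3 * S ^ 2 ≤ ∑ j ∈ range J, (c * w j * U j ω ^ 2 + c * w j * V j ω) := by
        have h6 := blocks_sq (K := A * t) hb (fun j => U j ω) (fun j => V j ω)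
          (fun j => hU0 j ω) (fun j => hV0 j ω) J
        calc 3 * S ^ 2 ≤ 3 * ∑ j ∈ range J, 2 * (A * t) ^ 2 * geoC (b / 2) *
              ((2 : ℝ) ^ (-(b / 2 * j)) * (2 : ℝ) ^ (-(b * j))) * (U j ω ^ 2 + V j ω) := by
              gcongr
          _ = _ := by
              rw [mul_sum]
              refine sum_congr rfl fun j _ => ?_
              rw [hc, hw]
              ring
      have h7 : ∑ j ∈ range J, (ENNReal.ofReal (c * w j) * ENNReal.ofReal (U j ω ^ 2) +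
          ENNReal.ofReal (c * w j) * ENNReal.ofReal (V j ω)) =
          ENNReal.ofReal (∑ j ∈ range J, (c * w j * U j ω ^ 2 + c * w j * V j ω)) := by
        rw [ENNReal.ofReal_sum_of_nonneg]
        · refine sum_congr rfl fun j _ => ?_
          have := hw0 j
          have := hV0 j ω
          rw [← ENNReal.ofReal_mul (by positivity), ← ENNReal.ofReal_mul (by positivity),
            ← ENNReal.ofReal_add (by positivity) (by positivity)]
        · intro j _
          have := hw0 j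
          have := hV0 j ω
          positivity
      have h8 : 0 ≤ ∑ j ∈ range J, (c * w j * U j ω ^ 2 + c * w j * V j ω) :=
        (by positivity : (0 : ℝ) ≤ 3 * S ^ 2).trans h5
      calc ENNReal.ofReal (R ω ^ 2)
          ≤ ENNReal.ofReal (3 * I0 ω ^ 2 +
            ((∑ j ∈ range J, (c * w j * U j ω ^ 2 + c * w j * V j ω)) +
              3 * (A * t) ^ 2 * τ ^ 2)) := by
            apply ENNReal.ofReal_le_ofReal
            linarith
        _ = ENNReal.ofReal (3 * I0 ω ^ 2) +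
            (ENNReal.ofReal (∑ j ∈ range J, (c * w j * U j ω ^ 2 + c * w j * V j ω)) +
              ENNReal.ofReal (3 * (A * t) ^ 2 * τ ^ 2)) := by
            rw [ENNReal.ofReal_add (by positivity) (by positivity),
              ENNReal.ofReal_add h8 (by positivity)]
        _ ≤ _ := by
            rw [h7]
            gcongr
            exact le_self_add
    · have h3 : R ω ^ 2 ≤ (A * t) ^ 2 := by
        rw [← sq_abs]
        gcongr
      have h4 : ω ∈ Gᶜ := hω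
      calc ENNReal.ofReal (R ω ^ 2) ≤ ENNReal.ofReal ((A * t) ^ 2) :=
            ENNReal.ofReal_le_ofReal h3
        _ = Gᶜ.indicator (fun _ => ENNReal.ofReal ((A * t) ^ 2)) ω := by
            rw [Set.indicator_of_mem h4]
        _ ≤ _ := by
            refine le_trans ?_ le_add_self
            refine le_trans ?_ le_add_self
            exact le_add_self
  -- integrate
  clear_value w
  have hIm' : AEMeasurable (fun ω => ENNReal.ofReal (3 * I0 ω ^ 2)) P :=
    ((hIm.pow_const 2).const_mul 3).ennreal_ofReal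
  have hUm' : ∀ j, AEMeasurable (fun ω => ENNReal.ofReal (c * w j) *
      ENNReal.ofReal (U j ω ^ 2)) P := fun j =>
    (((hUm j).pow_const 2).ennreal_ofReal).const_mul _
  have hVm' : ∀ j, AEMeasurable (fun ω => ENNReal.ofReal (c * w j) *
      ENNReal.ofReal (V j ω)) P := fun j => ((hVm j).ennreal_ofReal).const_mul _
  have hSm : AEMeasurable (fun ω => ∑ j ∈ range J,
      (ENNReal.ofReal (c * w j) * ENNReal.ofReal (U j ω ^ 2) +
        ENNReal.ofReal (c * w j) * ENNReal.ofReal (V j ω))) P :=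
    Finset.aemeasurable_fun_sum _ fun j _ => (hUm' j).add (hVm' j)
  have hUV : ∀ j ∈ range J, AEMeasurable (fun ω => ENNReal.ofReal (c * w j) *
      ENNReal.ofReal (U j ω ^ 2) + ENNReal.ofReal (c * w j) * ENNReal.ofReal (V j ω)) P :=
    fun j _ => (hUm' j).add (hVm' j)
  refine (lintegral_mono_ae hpt).trans ?_
  rw [lintegral_add_left' hIm', lintegral_add_left' hSm, lintegral_add_left measurable_const,
    lintegral_finsetSum' _ hUV, lintegral_const, lintegral_indicator_const hG.compl]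
  set X := ∑ j ∈ range J, ENNReal.ofReal ((2 : ℝ) ^ (-(b * j))) * ph j with hX
  have e1 : ∫⁻ ω, ENNReal.ofReal (3 * I0 ω ^ 2) ∂P ≤ ENNReal.ofReal (3 * B * t ^ 2) * X := by
    have h1 : ∫⁻ ω, ENNReal.ofReal (3 * I0 ω ^ 2) ∂P =
        ENNReal.ofReal 3 * ∫⁻ ω, ENNReal.ofReal (I0 ω ^ 2) ∂P := by
      rw [← lintegral_const_mul' _ _ ENNReal.ofReal_ne_top]
      refine lintegral_congr fun ω => ?_
      rw [← ENNReal.ofReal_mul (by norm_num)]
    have h2 : ph 0 ≤ X := by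
      have h3 : ENNReal.ofReal ((2 : ℝ) ^ (-(b * ((0 : ℕ) : ℝ)))) * ph 0 ≤ X :=
        single_le_sum (f := fun j : ℕ => ENNReal.ofReal ((2 : ℝ) ^ (-(b * (j : ℝ)))) * ph j)
          (fun j _ => zero_le) (mem_range.2 hJ)
      simpa using h3
    rw [h1]
    calc ENNReal.ofReal 3 * ∫⁻ ω, ENNReal.ofReal (I0 ω ^ 2) ∂P
        ≤ ENNReal.ofReal 3 * (ENNReal.ofReal (B * t ^ 2) * X) := by
          gcongr
          exact hI0.trans (by gcongr)
      _ = _ := by
          rw [← mul_assoc, ← ENNReal.ofReal_mul (by norm_num), mul_assoc 3]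
  have e2 : ∑ j ∈ range J, ∫⁻ ω, (ENNReal.ofReal (c * w j) * ENNReal.ofReal (U j ω ^ 2) +
      ENNReal.ofReal (c * w j) * ENNReal.ofReal (V j ω)) ∂P ≤
      ENNReal.ofReal (12 * A ^ 2 * B * (geoC (b / 2) * logC (b / 2)) * t ^ 2) * X := by
    rw [hX, mul_sum]
    refine sum_le_sum fun j hj => ?_
    have hj : j < J := mem_range.1 hj
    rw [lintegral_add_left' (hUm' j), lintegral_const_mul' _ _ ENNReal.ofReal_ne_top,
      lintegral_const_mul' _ _ ENNReal.ofReal_ne_top]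
    have h1 : ENNReal.ofReal (c * w j) * (ENNReal.ofReal (B * (1 + j)) * ph j) ≤
        ENNReal.ofReal (6 * A ^ 2 * B * (geoC (b / 2) * logC (b / 2)) * t ^ 2) *
          (ENNReal.ofReal ((2 : ℝ) ^ (-(b * j))) * ph j) := by
      rw [← mul_assoc, ← mul_assoc, ← ENNReal.ofReal_mul (mul_nonneg hc0 (hw0 j)),
        ← ENNReal.ofReal_mul (by positivity)]
      gcongr ?_ * _
      apply ENNReal.ofReal_le_ofReal
      calc c * w j * (B * (1 + j)) = c * B * (w j * (1 + j)) := by ring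
        _ ≤ c * B * (logC (b / 2) * (2 : ℝ) ^ (-(b * j))) := by
            have := hwl j
            gcongr
        _ = _ := by rw [hc]; ring
    calc ENNReal.ofReal (c * w j) * ∫⁻ ω, ENNReal.ofReal (U j ω ^ 2) ∂P +
          ENNReal.ofReal (c * w j) * ∫⁻ ω, ENNReal.ofReal (V j ω) ∂P
        ≤ ENNReal.ofReal (c * w j) * (ENNReal.ofReal (B * (1 + j)) * ph j) +
          ENNReal.ofReal (c * w j) * (ENNReal.ofReal (B * (1 + j)) * ph j) := by
          gcongr
          · exact hU j hj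
          · exact hV j hj
      _ ≤ ENNReal.ofReal (6 * A ^ 2 * B * (geoC (b / 2) * logC (b / 2)) * t ^ 2) *
          (ENNReal.ofReal ((2 : ℝ) ^ (-(b * j))) * ph j) +
          ENNReal.ofReal (6 * A ^ 2 * B * (geoC (b / 2) * logC (b / 2)) * t ^ 2) *
          (ENNReal.ofReal ((2 : ℝ) ^ (-(b * j))) * ph j) := add_le_add h1 h1
      _ = _ := by
          rw [← add_mul, ← ENNReal.ofReal_add (by positivity) (by positivity)]
          congr 2
          ring
  have e3 : ENNReal.ofReal (3 * (A * t) ^ 2 * τ ^ 2) * P Set.univ =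
      ENNReal.ofReal (3 * A ^ 2 * t ^ 2) * (ENNReal.ofReal (τ ^ 2) * P Set.univ) := by
    rw [← mul_assoc, ← ENNReal.ofReal_mul (by positivity)]
    congr 2
    ring
  rw [e3]
  have f0 : finC b A B * t ^ 2 = 3 * B * t ^ 2 +
      12 * A ^ 2 * B * (geoC (b / 2) * logC (b / 2)) * t ^ 2 + 4 * A ^ 2 * t ^ 2 := by
    unfold finC
    ring
  have f1 : ENNReal.ofReal (3 * A ^ 2 * t ^ 2) ≤ ENNReal.ofReal (finC b A B * t ^ 2) := by
    apply ENNReal.ofReal_le_ofReal
    rw [f0]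
    have : 0 ≤ 3 * B * t ^ 2 := by positivity
    have : 0 ≤ 12 * A ^ 2 * B * (geoC (b / 2) * logC (b / 2)) * t ^ 2 := by positivity
    have : 0 ≤ A ^ 2 * t ^ 2 := by positivity
    linarith
  have f2 : ENNReal.ofReal ((A * t) ^ 2) ≤ ENNReal.ofReal (finC b A B * t ^ 2) := by
    refine le_trans ?_ f1
    apply ENNReal.ofReal_le_ofReal
    have : 0 ≤ A ^ 2 * t ^ 2 := by positivity
    nlinarith
  have f3 : ENNReal.ofReal (3 * B * t ^ 2) +
      ENNReal.ofReal (12 * A ^ 2 * B * (geoC (b / 2) * logC (b / 2)) * t ^ 2) ≤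
      ENNReal.ofReal (finC b A B * t ^ 2) := by
    rw [← ENNReal.ofReal_add (by positivity) (by positivity)]
    apply ENNReal.ofReal_le_ofReal
    rw [f0]
    have : 0 ≤ A ^ 2 * t ^ 2 := by positivity
    linarith
  calc _ ≤ ENNReal.ofReal (3 * B * t ^ 2) * X +
        (ENNReal.ofReal (12 * A ^ 2 * B * (geoC (b / 2) * logC (b / 2)) * t ^ 2) * X +
        (ENNReal.ofReal (finC b A B * t ^ 2) * (ENNReal.ofReal (τ ^ 2) * P Set.univ) +
          ENNReal.ofReal (finC b A B * t ^ 2) * P Gᶜ)) := by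
        gcongr
    _ = (ENNReal.ofReal (3 * B * t ^ 2) +
        ENNReal.ofReal (12 * A ^ 2 * B * (geoC (b / 2) * logC (b / 2)) * t ^ 2)) * X +
        (ENNReal.ofReal (finC b A B * t ^ 2) * (ENNReal.ofReal (τ ^ 2) * P Set.univ) +
          ENNReal.ofReal (finC b A B * t ^ 2) * P Gᶜ) := by ring
    _ ≤ ENNReal.ofReal (finC b A B * t ^ 2) * X +
        (ENNReal.ofReal (finC b A B * t ^ 2) * (ENNReal.ofReal (τ ^ 2) * P Set.univ) +
          ENNReal.ofReal (finC b A B * t ^ 2) * P Gᶜ) := by gcongr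
    _ = _ := by ring

/-- The error `D_m` of (F) at the near scale `t = s_m`: `ph i` = averaged drop of scale `i`,
`pt m` = probability of a short ray (`T_w < (1+θ)l`), `Bd i` = bad event of scale `i`. -/
noncomputable def Dm (b c3 : ℝ) (P : Measure Ω) (Bd : ℕ → Set Ω) (ph pt : ℕ → ℝ≥0∞) (m : ℕ) :
    ℝ≥0∞ :=
  ∑ j ∈ range (m + 1), ENNReal.ofReal ((2 : ℝ) ^ (-(b * j))) * ph (m - j) +
    P {w | Hit c3 (fun j => w ∈ Bd j) m} + pt m

/-- **Summability of the errors.** -/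
theorem sum_Dm {b c3 : ℝ} (hb : 0 < b) (hc3 : 0 < c3) (P : Measure Ω) {Bd : ℕ → Set Ω}
    (hBd : ∀ j, MeasurableSet (Bd j)) (ph pt : ℕ → ℝ≥0∞) {K : ℝ}
    (hK : ∀ i, P (Bd i) ≤ ENNReal.ofReal K * ph i) (N : ℕ) :
    ∑ m ∈ range N, Dm b c3 P Bd ph pt m ≤
      (ENNReal.ofReal (geoC b) + ENNReal.ofReal (1 / c3) * ENNReal.ofReal K) *
        ∑ i ∈ range N, ph i + ∑ m ∈ range N, pt m := by
  unfold Dm
  rw [sum_add_distrib, sum_add_distrib]
  gcongr
  rw [add_mul]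
  refine add_le_add (dblE hb ph N) ((rising_meas hc3 P hBd N).trans ?_)
  rw [mul_assoc]
  gcongr
  rw [mul_sum]
  exact sum_le_sum fun i _ => hK i

end Crest.Agent.R247.Num824
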