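import Crest.Agent.R247.Mcp5_688

/-! # Leaf (1-CE) of R247, part 1: the two-point comparison along the radial flow

`PV C x E` is the one-sided two-point first variation inequality for the `x`-flow, with error
`E`; `pair0` integrates it along the flow for almost every pair. -/

set_option autoImplicit false
set_option linter.unusedSectionVars false
open MeasureTheory Set Filter Topology
open scoped ENNReal NNReal

noncomputable section
namespace Crest.Agent.R247.Pair438
open Crest.Agent.R247.Mcp688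

section general

/-- an a.e. property holds along almost every orbit of an absolutely continuous flow -/
lemma ae_flow {Ω Z : Type*} [MeasurableSpace Ω] [MeasurableSpace Z] {ν : Measure Ω} [SFinite ν]
    {m : Measure Z} {Φ : ℝ → Ω → Z} (hΦ : Measurable (fun q : ℝ × Ω => Φ q.1 q.2))
    {I : Set ℝ} (hI : MeasurableSet I) (hac : ∀ t ∈ I, (ν.map (Φ t)) ≪ m) {p : Z → Prop}
    (hp : ∀ᵐ z ∂m, p z) : ∀ᵐ ω ∂ν, ∀ᵐ t ∂(volume.restrict I), p (Φ t ω) := by
  obtain ⟨N, hN1, hN2, hN3⟩ := exists_measurable_superset_of_null (μ := m) (s := {z | ¬ p z}) hp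
  have hB : MeasurableSet {q : ℝ × Ω | Φ q.1 q.2 ∉ N} := hΦ hN2.compl
  have h1 : ∀ᵐ t ∂(volume.restrict I), ∀ᵐ ω ∂ν, Φ t ω ∉ N := by
    refine (ae_restrict_mem hI).mono fun t ht => ?_
    have hm : Measurable (Φ t) := hΦ.comp (measurable_const.prodMk measurable_id)
    have h2 : (ν.map (Φ t)) N = 0 := hac t ht hN3
    rw [Measure.map_apply hm hN2] at h2
    rw [ae_iff]
    have h4 : {ω | ¬ (Φ t ω ∉ N)} = Φ t ⁻¹' N := by ext ω; simp
    rw [h4]
    exact h2
  have h3 := (Measure.ae_ae_comm (μ := volume.restrict I) (ν := ν)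
    (p := fun t ω => Φ t ω ∉ N) hB).1 h1
  filter_upwards [h3] with ω hω
  filter_upwards [hω] with t ht
  by_contra hcon
  exact ht (hN1 hcon)

lemma ofReal_integral_le {α : Type*} [MeasurableSpace α] {ν : Measure α} (f : α → ℝ) :
    ENNReal.ofReal (∫ a, f a ∂ν) ≤ ∫⁻ a, ENNReal.ofReal (f a) ∂ν := by
  by_cases hf : Integrable f ν
  · rw [integral_eq_lintegral_pos_part_sub_lintegral_neg_part hf]
    calc ENNReal.ofReal _ ≤ ENNReal.ofReal (∫⁻ a, ENNReal.ofReal (f a) ∂ν).toReal := by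
          apply ENNReal.ofReal_le_ofReal
          have : 0 ≤ (∫⁻ a, ENNReal.ofReal (-f a) ∂ν).toReal := ENNReal.toReal_nonneg
          linarith
      _ ≤ _ := ENNReal.ofReal_toReal_le
  · rw [integral_undef hf]
    simp

/-- Gronwall along an affine weight: if `l f' ≥ β f - E` a.e. with `l t = α + β t > 0`, then
`f a / l a ≤ f b / l b + ∫ E / l²`. -/
lemma affine_gronwall {f : ℝ → ℝ} {a b α β : ℝ} (hab : a ≤ b)
    (hf : AbsolutelyContinuousOnInterval f a b) (hl : ∀ t ∈ Icc a b, 0 < α + β * t)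
    {E : ℝ → ℝ≥0∞}
    (h : ∀ᵐ t ∂(volume.restrict (Ioc a b)), ∀ d, HasDerivAt f d t →
      ENNReal.ofReal (β * f t - (α + β * t) * d) ≤ E t) :
    ENNReal.ofReal (f a / (α + β * a)) ≤ ENNReal.ofReal (f b / (α + β * b)) +
      ∫⁻ t in Ioc a b, E t / ENNReal.ofReal ((α + β * t) ^ 2) := by
  set g : ℝ → ℝ := fun t => f t * (α + β * t)⁻¹ with hg
  have hl' : ∀ t ∈ uIcc a b, 0 < α + β * t := by rw [uIcc_of_le hab]; exact hl
  -- the inverse of the weight is absolutely continuous
  have hinv : AbsolutelyContinuousOnInterval (fun t : ℝ => (α + β * t)⁻¹) a b := by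
    have hc : ContDiffOn ℝ 1 (fun t : ℝ => (α + β * t)⁻¹) (uIcc a b) := by
      apply ContDiffOn.inv
      · fun_prop
      · intro t ht
        exact (hl' t ht).ne'
    exact hc.absolutelyContinuousOnInterval
  have hac : AbsolutelyContinuousOnInterval g a b := hf.mul hinv
  have hd : ∀ᵐ t ∂(volume.restrict (Ioc a b)),
      ENNReal.ofReal (- deriv g t) ≤ E t / ENNReal.ofReal ((α + β * t) ^ 2) := by
    have h1 : ∀ᵐ t ∂(volume.restrict (Ioc a b)), DifferentiableAt ℝ f t := by
      rw [ae_restrict_iff' measurableSet_Ioc]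
      filter_upwards [hf.ae_differentiableAt] with t ht hm
      exact ht (by rw [uIcc_of_le hab]; exact ⟨hm.1.le, hm.2⟩)
    filter_upwards [h, h1, ae_restrict_mem measurableSet_Ioc] with t ht hdt hm
    have hpos := hl t ⟨hm.1.le, hm.2⟩
    have h2 : HasDerivAt f (deriv f t) t := hdt.hasDerivAt
    have h3 : HasDerivAt (fun t : ℝ => α + β * t) β t := by
      simpa using ((hasDerivAt_id t).const_mul β).const_add α
    have h4 : HasDerivAt g (deriv f t * (α + β * t)⁻¹ + f t * (-β / (α + β * t) ^ 2)) t :=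
      h2.mul (h3.inv hpos.ne')
    rw [h4.deriv]
    have h5 : -(deriv f t * (α + β * t)⁻¹ + f t * (-β / (α + β * t) ^ 2)) =
        (β * f t - (α + β * t) * deriv f t) / (α + β * t) ^ 2 := by
      field_simp
      ring
    rw [h5, ENNReal.ofReal_div_of_pos (by positivity)]
    gcongr
    exact ht _ h2
  have hFTC := hac.integral_deriv_eq_sub
  have h6 : g a = g b + ∫ t in Ioc a b, - deriv g t := by
    rw [integral_neg, ← intervalIntegral.integral_of_le hab, hFTC]
    ring
  have h7 : f a / (α + β * a) = g a := by simp [hg, div_eq_mul_inv]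
  have h8 : f b / (α + β * b) = g b := by simp [hg, div_eq_mul_inv]
  rw [h7, h8, h6]
  calc ENNReal.ofReal (g b + ∫ t in Ioc a b, - deriv g t)
      ≤ ENNReal.ofReal (g b) + ENNReal.ofReal (∫ t in Ioc a b, - deriv g t) :=
        ENNReal.ofReal_add_le
    _ ≤ ENNReal.ofReal (g b) + ∫⁻ t in Ioc a b, ENNReal.ofReal (- deriv g t) := by
        gcongr
        exact ofReal_integral_le _
    _ ≤ _ := add_le_add_right (lintegral_mono_ae hd) _

/-- a one-sided Dini bound gives a bound for the derivative -/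
lemma dini_deriv {f : ℝ → ℝ} {t d e : ℝ} (hd : HasDerivAt f d t)
    (h : ∀ᶠ s in 𝓝[<] t, f s ≤ f t - (t - s) * e) : e ≤ d := by
  have h1 := hd.hasDerivWithinAt (s := Iio t)
  have h2 := (hasDerivWithinAt_iff_tendsto_slope' (by simp)).1 h1
  refine ge_of_tendsto h2 ?_
  filter_upwards [h, self_mem_nhdsWithin] with s hs hst
  rw [slope_def_field]
  simp only [mem_Iio] at hst
  rw [le_div_iff_of_neg (by linarith)]
  nlinarith

end general

section flow
variable {n : ℕ} {κ : ℝ} {X : Type*} [MetricSpace X] [MeasurableSpace X] [BorelSpace X]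
  {μ : Measure X} (C : Rad n κ X μ)

/-- the error of the two-point first variation at thickness `ρ` -/
def Err (F : X → ℝ≥0∞) (ρ : ℝ) (p q : X) : ℝ≥0∞ :=
  ENNReal.ofReal (dist p q) * (∫⁻ s in Icc (0 : ℝ) 1, F (C.T p s q)) +
    ENNReal.ofReal ρ * (F p + F q)

/-- one-sided two-point first variation inequality for the `x`-flow with error `E` -/
def PV (x : X) (E : X → X → ℝ≥0∞) : Prop :=
  ∀ᵐ p ∂(μ.prod μ), ∀ e : ℝ, E p.1 p.2 < ENNReal.ofReal e → ∀ᶠ t in 𝓝[<] (1 : ℝ),
    dist (C.T x t p.1) (C.T x t p.2) ≤ dist p.1 p.2 - (1 - t) * (dist p.1 p.2 - e)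

lemma PV.of_deriv {x : X} {E : X → X → ℝ≥0∞}
    (h : ∀ᵐ p ∂(μ.prod μ), ∃ G : ℝ,
      HasDerivWithinAt (fun t : ℝ => dist (C.T x t p.1) (C.T x t p.2)) G (Iio 1) 1 ∧
      ENNReal.ofReal (dist p.1 p.2 - G) ≤ E p.1 p.2) (hU : ∀ᵐ p ∂(μ.prod μ),
        (x, p.1) ∈ C.U ∧ (x, p.2) ∈ C.U) : PV C x E := by
  filter_upwards [h, hU] with p hp hU' e he
  obtain ⟨G, hG, hGE⟩ := hp
  have h1 : dist p.1 p.2 - G < e := by
    by_contra hcon
    push Not at hcon
    exact absurd (hGE.trans_lt he) (not_lt.2 (ENNReal.ofReal_le_ofReal hcon))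
  have h2 := (hasDerivWithinAt_iff_tendsto_slope' (by simp)).1 hG
  have h3 : ∀ᶠ t in 𝓝[<] (1 : ℝ), dist p.1 p.2 - e <
      slope (fun t : ℝ => dist (C.T x t p.1) (C.T x t p.2)) 1 t :=
    h2.eventually (lt_mem_nhds (by linarith))
  filter_upwards [h3, self_mem_nhdsWithin] with t ht ht1
  simp only [mem_Iio] at ht1
  rw [slope_def_field, C.T_one _ _ hU'.1, C.T_one _ _ hU'.2, lt_div_iff_of_neg (by linarith)] at ht
  linarith

lemma le_of_forall_ofReal {E : ℝ≥0∞} {z : ℝ} (h : ∀ e : ℝ, E < ENNReal.ofReal e → z ≤ e) :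
    ENNReal.ofReal z ≤ E := by
  by_contra hcon
  push Not at hcon
  obtain ⟨c, hc1, hc2⟩ := exists_between hcon
  have hc3 : c ≠ ∞ := (hc2.trans_le le_top).ne
  have hc4 : ENNReal.ofReal c.toReal = c := ENNReal.ofReal_toReal hc3
  have := h c.toReal (by rw [hc4]; exact hc1)
  have h5 := ENNReal.ofReal_le_ofReal this
  rw [hc4] at h5
  exact absurd hc2 (not_lt.2 h5)

lemma map_T_ac (x : X) {t : ℝ} (ht : t ∈ Ioc (0 : ℝ) 1) : μ.map (C.T x t) ≪ μ := by
  have h1 : μ.map (C.T x t) ≪ (wm μ κ x).map (C.T x t) := (ac_wm μ x κ).map (C.measT_xt x t)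
  have h2 : (wm μ κ x).map (C.T x t) ≪ wm μ κ x :=
    Measure.absolutelyContinuous_of_le_smul (C.contr x t ht)
  exact h1.trans (h2.trans (wm_ac μ x κ))

lemma lip_T {x y : X} (hy : (x, y) ∈ C.U) : LipschitzOnWith (Real.toNNReal (dist x y))
    (fun t : ℝ => C.T x t y) (Icc 0 1) := by
  apply LipschitzOnWith.of_dist_le_mul
  intro s hs t ht
  rw [C.dist_T x y hy s hs t ht, Real.coe_toNNReal _ dist_nonneg, Real.dist_eq]
  linarith

lemma abs_dist_sub_le {Y : Type*} [PseudoMetricSpace Y] (a b c d : Y) :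
    |dist a b - dist c d| ≤ dist a c + dist b d := by
  rw [abs_sub_le_iff]
  constructor
  · have h1 := dist_triangle a c b
    have h2 := dist_triangle c d b
    rw [dist_comm d b] at h2
    linarith
  · have h1 := dist_triangle c a d
    have h2 := dist_triangle a b d
    rw [dist_comm c a] at h1
    linarith

lemma lip_dist {Y : Type*} [PseudoMetricSpace Y] {f g : ℝ → Y} {K K' : ℝ≥0} {S : Set ℝ}
    (hf : LipschitzOnWith K f S) (hg : LipschitzOnWith K' g S) :
    LipschitzOnWith (K + K') (fun t => dist (f t) (g t)) S := by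
  apply LipschitzOnWith.of_dist_le_mul
  intro s hs t ht
  rw [Real.dist_eq]
  have h1 := hf.dist_le_mul s hs t ht
  have h2 := hg.dist_le_mul s hs t ht
  have h3 := abs_dist_sub_le (f s) (g s) (f t) (g t)
  push_cast
  linarith

/-- **PAIR**, two `x`-flows: the inequality holds for almost every pair of starting points and
all times. -/
theorem pair0 [SFinite μ] {x : X} {E : X → X → ℝ≥0∞} (hE : PV C x E) :
    ∀ᵐ p ∂(μ.prod μ), ∀ a ∈ Ioc (0 : ℝ) 1,
      ENNReal.ofReal (dist (C.T x a p.1) (C.T x a p.2) / a) ≤ ENNReal.ofReal (dist p.1 p.2) +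
        ∫⁻ s in Ioc a 1, E (C.T x s p.1) (C.T x s p.2) / ENNReal.ofReal (s ^ 2) := by
  have hU1 : ∀ᵐ p ∂(μ.prod μ), (x, p.1) ∈ C.U := Measure.quasiMeasurePreserving_fst.ae (C.ae_U x)
  have hU2 : ∀ᵐ p ∂(μ.prod μ), (x, p.2) ∈ C.U := Measure.quasiMeasurePreserving_snd.ae (C.ae_U x)
  have hflow := ae_flow (ν := μ.prod μ) (m := μ.prod μ)
    (Φ := fun t p => (C.T x t p.1, C.T x t p.2)) (I := Ioc (0 : ℝ) 1) ?_ measurableSet_Ioc ?_ hE
  rotate_left
  · refine Measurable.prodMk ?_ ?_
    · exact (C.measT_x x).comp (measurable_fst.prodMk (measurable_fst.comp measurable_snd))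
    · exact (C.measT_x x).comp (measurable_fst.prodMk (measurable_snd.comp measurable_snd))
  · intro t ht
    have h1 : (μ.prod μ).map (fun p : X × X => (C.T x t p.1, C.T x t p.2)) =
        (μ.map (C.T x t)).prod (μ.map (C.T x t)) :=
      (Measure.map_prod_map μ μ (C.measT_xt x t) (C.measT_xt x t)).symm
    rw [h1]
    exact (map_T_ac C x ht).prod (map_T_ac C x ht)
  filter_upwards [hflow, hU1, hU2] with p hp h1 h2 a ha
  set f : ℝ → ℝ := fun t => dist (C.T x t p.1) (C.T x t p.2) with hf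
  have hsub : uIcc a 1 ⊆ Icc (0 : ℝ) 1 := by
    rw [uIcc_of_le ha.2]
    exact Icc_subset_Icc_left ha.1.le
  have hlip : LipschitzOnWith _ f (uIcc a 1) :=
    (lip_dist (lip_T C h1) (lip_T C h2)).mono hsub
  have hae : ∀ᵐ t ∂(volume.restrict (Ioc a 1)), ∀ d, HasDerivAt f d t →
      ENNReal.ofReal (1 * f t - (0 + 1 * t) * d) ≤ E (C.T x t p.1) (C.T x t p.2) := by
    have h3 := ae_restrict_of_ae_restrict_of_subset (Ioc_subset_Ioc_left ha.1.le) hp
    filter_upwards [h3, ae_restrict_mem measurableSet_Ioc] with t ht htm d hd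
    have ht0 : 0 < t := ha.1.trans htm.1
    have htI : t ∈ Ioc (0 : ℝ) 1 := ⟨ht0, htm.2⟩
    apply le_of_forall_ofReal
    intro e he
    have h4 := ht e he
    have h5 : Tendsto (fun s : ℝ => s / t) (𝓝[<] t) (𝓝[<] 1) := by
      rw [tendsto_nhdsWithin_iff]
      constructor
      · have : Tendsto (fun s : ℝ => s / t) (𝓝 t) (𝓝 (t / t)) :=
          (continuous_id.div_const t).tendsto t
        rw [div_self ht0.ne'] at this
        exact this.mono_left nhdsWithin_le_nhds
      · filter_upwards [self_mem_nhdsWithin] with s hs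
        simp only [mem_Iio] at hs ⊢
        rw [div_lt_one ht0]
        exact hs
    have h6 : ∀ᶠ s in 𝓝[<] t, f s ≤ f t - (t - s) * ((f t - e) / t) := by
      filter_upwards [h5.eventually h4, Ioo_mem_nhdsLT ht0] with s hs hs0
      have hst : s / t ∈ Icc (0 : ℝ) 1 := ⟨by have := hs0.1; positivity, by
        rw [div_le_one ht0]; exact hs0.2.le⟩
      rw [C.comp x p.1 h1 _ hst t htI, C.comp x p.2 h2 _ hst t htI, div_mul_cancel₀ _ ht0.ne'] at hs
      have h7 : (1 - s / t) * (f t - e) = (t - s) * ((f t - e) / t) := by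
        field_simp
      calc f s ≤ f t - (1 - s / t) * (f t - e) := hs
        _ = _ := by rw [h7]
    have h8 := dini_deriv hd h6
    rw [div_le_iff₀ ht0] at h8
    linarith
  have := affine_gronwall ha.2 hlip.absolutelyContinuousOnInterval (α := 0) (β := 1)
    (fun t ht => by have := ha.1.trans_le ht.1; simpa using this) hae
  simp only [zero_add, one_mul, div_one] at this
  rw [hf] at this
  simp only [C.T_one x p.1 h1, C.T_one x p.2 h2] at this
  exact this

end flow

end Crest.Agent.R247.Pair438
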