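import Crest.Agent.R247.Pair1_438
import Crest.Agent.R247.BL1_562

/-! # Leaf (1-CE) of R247, part 3: the mixed pair (a minimiser `z → y` against an `x`-ray) -/

set_option autoImplicit false
set_option linter.unusedSectionVars false
open MeasureTheory Set Filter Topology
open scoped ENNReal NNReal

noncomputable section
namespace Crest.Agent.R247.Pair438
open Crest.Agent.R247.Mcp688
open Crest.Agent.R247.BL562 (lam measurable_lam)

variable {n : ℕ} {κ : ℝ} {X : Type*} [MetricSpace X] [MeasurableSpace X] [BorelSpace X]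
  {μ : Measure X} (C : Rad n κ X μ)

/-- infinitesimal law of cosines at almost every pair -/
def VEL (x : X) : Prop :=
  ∀ᵐ p ∂(μ.prod μ), ∃ cs ∈ Icc (-1 : ℝ) 1,
    HasDerivWithinAt (fun t : ℝ => dist x (C.T p.1 t p.2)) (cs * dist p.1 p.2) (Iio 1) 1 ∧
    ∀ a b : ℝ, 0 ≤ a → 0 ≤ b →
      Tendsto (fun ε : ℝ => dist (C.T x (1 - a * ε) p.2) (C.T p.1 (1 - b * ε) p.2) / ε) (𝓝[>] 0)
        (𝓝 (Real.sqrt ((a * dist x p.2) ^ 2 + (b * dist p.1 p.2) ^ 2
          - 2 * (a * dist x p.2) * (b * dist p.1 p.2) * cs)))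

/-- the law of `(T z s y, T x (lam s) y')` is absolutely continuous -/
lemma ae_pair_flow [SFinite μ] (x : X) {p : X × X → Prop} (hp : ∀ᵐ q ∂(μ.prod μ), p q) :
    ∀ᵐ w ∂(μ.prod (μ.prod μ)), 0 < dist x w.1 → dist x w.1 ≤ dist x w.2.1 →
      ∀ᵐ s ∂(volume.restrict (Ioc (0 : ℝ) 1)),
        p (C.T w.1 s w.2.1, C.T x (lam x w.1 w.2.1 s) w.2.2) := by
  set ν := μ.prod (μ.prod μ) with hν
  have hdm : Measurable (fun z : X => dist x z) :=
    (continuous_const.dist continuous_id).measurable
  set G : Set (X × X × X) := {w | 0 < dist x w.1 ∧ dist x w.1 ≤ dist x w.2.1} with hG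
  have hGm : MeasurableSet G := by
    apply MeasurableSet.inter
    · exact measurableSet_lt measurable_const (hdm.comp measurable_fst)
    · exact measurableSet_le (hdm.comp measurable_fst)
        (hdm.comp (measurable_fst.comp measurable_snd))
  have hΦ : Measurable (fun q : ℝ × (X × X × X) =>
      ((C.T q.2.1 q.1 q.2.2.1, C.T x (lam x q.2.1 q.2.2.1 q.1) q.2.2.2) : X × X)) := by
    refine Measurable.prodMk ?_ ?_
    · exact C.measT.comp ((measurable_fst.comp measurable_snd).prodMk (measurable_fst.prodMk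
        (measurable_fst.comp (measurable_snd.comp measurable_snd))))
    · refine C.measT.comp (measurable_const.prodMk (Measurable.prodMk ?_
        (measurable_snd.comp (measurable_snd.comp measurable_snd))))
      exact (measurable_lam x).comp ((measurable_fst.comp measurable_snd).prodMk
        ((measurable_fst.comp (measurable_snd.comp measurable_snd)).prodMk measurable_fst))
  have h := ae_flow (ν := ν.restrict G) (m := μ.prod μ)
    (Φ := fun s w => (C.T w.1 s w.2.1, C.T x (lam x w.1 w.2.1 s) w.2.2)) hΦ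
    (I := Ioc (0 : ℝ) 1) measurableSet_Ioc ?_ hp
  · rw [ae_restrict_iff' hGm] at h
    filter_upwards [h] with w hw h1 h2
    exact hw ⟨h1, h2⟩
  · intro s hs
    have hΦs : Measurable (fun w : X × X × X =>
        ((C.T w.1 s w.2.1, C.T x (lam x w.1 w.2.1 s) w.2.2) : X × X)) :=
      hΦ.comp (measurable_const.prodMk measurable_id)
    refine Measure.AbsolutelyContinuous.mk fun N hN h0 => ?_
    rw [Measure.map_apply hΦs hN, Measure.restrict_apply (hΦs hN), hν,
      Measure.measure_prod_null ((hΦs hN).inter hGm)]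
    have hr : ∀ᵐ p ∂μ, μ (Prod.mk p ⁻¹' N) = 0 := Measure.measure_ae_null_of_prod_null h0
    refine Eventually.of_forall fun z => ?_
    show (μ.prod μ) (Prod.mk z ⁻¹' _) = 0
    rw [Measure.measure_prod_null (measurable_prodMk_left ((hΦs hN).inter hGm))]
    have hr' : ∀ᵐ y ∂μ, μ (Prod.mk (C.T z s y) ⁻¹' N) = 0 :=
      ae_of_ae_map (C.measT_xt z s).aemeasurable ((map_T_ac C z hs).ae_le hr)
    filter_upwards [hr'] with y hy
    show μ (Prod.mk y ⁻¹' (Prod.mk z ⁻¹' _)) = 0
    by_cases hzy : 0 < dist x z ∧ dist x z ≤ dist x y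
    · have hl : lam x z y s ∈ Ioc (0 : ℝ) 1 := by
        have h3 : 0 < dist x y := hzy.1.trans_le hzy.2
        have h4 : 0 < dist x z / dist x y := div_pos hzy.1 h3
        have h5 : dist x z / dist x y ≤ 1 := (div_le_one h3).2 hzy.2
        unfold lam
        have := hs.1
        have := hs.2
        constructor <;> nlinarith
      have h6 : (μ.map (C.T x (lam x z y s))) (Prod.mk (C.T z s y) ⁻¹' N) = 0 :=
        map_T_ac C x hl hy
      rw [Measure.map_apply (C.measT_xt x _) (measurable_prodMk_left hN)] at h6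
      refine measure_mono_null ?_ h6
      rintro y' ⟨h7, -⟩
      exact h7
    · refine measure_mono_null (t := ∅) ?_ measure_empty
      rintro y' ⟨-, h7⟩
      exact hzy h7

/-- Jensen for the square root on a unit interval -/
lemma lintegral_sqrt_le {h : ℝ → ℝ} {I : ℝ} (hh : IntegrableOn h (Ioc 0 1))
    (h0 : ∀ᵐ s ∂(volume.restrict (Ioc (0 : ℝ) 1)), 0 ≤ h s)
    (hI : ∫ s in Ioc (0 : ℝ) 1, h s = I) :
    ∫⁻ s in Ioc (0 : ℝ) 1, ENNReal.ofReal (Real.sqrt (h s)) ≤ ENNReal.ofReal (Real.sqrt I) := by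
  have hI0 : 0 ≤ I := by rw [← hI]; exact integral_nonneg_of_ae h0
  have key : ∀ θ : ℝ, 0 < θ → ∫⁻ s in Ioc (0 : ℝ) 1, ENNReal.ofReal (Real.sqrt (h s)) ≤
      ENNReal.ofReal (I / (2 * θ) + θ / 2) := by
    intro θ hθ
    have hint : IntegrableOn (fun s => h s / (2 * θ) + θ / 2) (Ioc 0 1) :=
      (hh.div_const _).add (integrableOn_const (by simp))
    calc ∫⁻ s in Ioc (0 : ℝ) 1, ENNReal.ofReal (Real.sqrt (h s))
        ≤ ∫⁻ s in Ioc (0 : ℝ) 1, ENNReal.ofReal (h s / (2 * θ) + θ / 2) := by
          apply lintegral_mono_ae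
          filter_upwards [h0] with s hs
          apply ENNReal.ofReal_le_ofReal
          have h1 := Real.sq_sqrt hs
          rw [div_add_div _ _ (by positivity) (by norm_num), le_div_iff₀ (by positivity)]
          nlinarith [sq_nonneg (Real.sqrt (h s) - θ)]
      _ = ENNReal.ofReal (∫ s in Ioc (0 : ℝ) 1, (h s / (2 * θ) + θ / 2)) := by
          rw [ofReal_integral_eq_lintegral_ofReal hint]
          filter_upwards [h0] with s hs
          positivity
      _ = _ := by
          rw [integral_add (hh.div_const _) (integrableOn_const (by simp)), integral_div, hI]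
          simp
  rcases eq_or_lt_of_le hI0 with h | h
  · rw [← h, Real.sqrt_zero, ENNReal.ofReal_zero]
    rw [← h] at key
    refine le_of_forall_pos_le_add ?_
    intro ε hε
    by_cases hε' : ε = ∞
    · rw [hε']; simp
    · have hpos : 0 < ε.toReal := ENNReal.toReal_pos hε.ne' hε'
      have := key (ε.toReal) hpos
      refine this.trans ?_
      rw [zero_div, zero_add, zero_add]
      calc ENNReal.ofReal (ε.toReal / 2) ≤ ENNReal.ofReal ε.toReal :=
            ENNReal.ofReal_le_ofReal (by linarith)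
        _ = ε := ENNReal.ofReal_toReal hε'
  · have h1 := key (Real.sqrt I) (Real.sqrt_pos.2 h)
    have h2 : I / (2 * Real.sqrt I) + Real.sqrt I / 2 = Real.sqrt I := by
      have h3 := Real.sq_sqrt hI0
      have h4 := (Real.sqrt_pos.2 h).ne'
      field_simp
      nlinarith
    rwa [h2] at h1

/-- real inequality behind the comparison of the two motions -/
lemma sqrt_cos_le {A B c : ℝ} (hB : 0 ≤ B) (hc : c ∈ Icc (-1 : ℝ) 1) :
    Real.sqrt (A ^ 2 + B ^ 2 - 2 * A * B * c) ≤ |A - B| + Real.sqrt (2 * B * (B - B * c)) := by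
  have h1 : 0 ≤ 2 * B * (B - B * c) := by
    have : 0 ≤ B - B * c := by nlinarith [hc.2]
    positivity
  apply Real.sqrt_le_iff.2
  refine ⟨by positivity, ?_⟩
  set w := Real.sqrt (2 * B * (B - B * c)) with hw
  have h2 : w ^ 2 = 2 * B * (B - B * c) := Real.sq_sqrt h1
  have h3 : B * (1 - c) ≤ w := by
    apply Real.le_sqrt_of_sq_le
    have : (1 - c) ^ 2 ≤ 2 * (1 - c) := by nlinarith [hc.1, hc.2]
    nlinarith [sq_nonneg B]
  have h4 : (A - B) * (B * (1 - c)) ≤ |A - B| * w := by
    have h5 : 0 ≤ B * (1 - c) := mul_nonneg hB (by linarith [hc.2])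
    calc (A - B) * (B * (1 - c)) ≤ |A - B| * (B * (1 - c)) := by
          gcongr
          exact le_abs_self _
      _ ≤ _ := by gcongr
  have h6 : (|A - B| + w) ^ 2 = (A - B) ^ 2 + 2 * (|A - B| * w) + w ^ 2 := by
    rw [add_sq, sq_abs]; ring
  rw [h6, h2]
  nlinarith

/-- projection of a triple to its first two entries -/
lemma ae_proj12 [SFinite μ] {p : X × X → Prop} (hp : ∀ᵐ q ∂(μ.prod μ), p q) :
    ∀ᵐ w ∂(μ.prod (μ.prod μ)), p (w.1, w.2.1) := by
  obtain ⟨N, hN1, hN2, hN3⟩ := exists_measurable_superset_of_null (μ := μ.prod μ)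
    (s := {z | ¬ p z}) hp
  have hm : Measurable (fun w : X × X × X => ((w.1, w.2.1) : X × X)) :=
    measurable_fst.prodMk (measurable_fst.comp measurable_snd)
  have h0 : (μ.prod (μ.prod μ)) ((fun w : X × X × X => ((w.1, w.2.1) : X × X)) ⁻¹' N) = 0 := by
    rw [Measure.measure_prod_null (hm hN2)]
    filter_upwards [Measure.measure_ae_null_of_prod_null hN3] with z hz
    have h1 : Prod.mk z ⁻¹' ((fun w : X × X × X => ((w.1, w.2.1) : X × X)) ⁻¹' N) =
        (Prod.mk z ⁻¹' N) ×ˢ (univ : Set X) := by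
      ext ⟨y, y'⟩
      simp
    rw [h1, Measure.prod_prod]
    simp only [Pi.zero_apply] at hz
    rw [hz, zero_mul]
    rfl
  rw [ae_iff]
  refine measure_mono_null ?_ h0
  intro w hw
  exact hN1 hw

/-- the law of `(z, T z s y)` is absolutely continuous -/
lemma ae_left_flow [SFinite μ] {p : X × X → Prop} (hp : ∀ᵐ q ∂(μ.prod μ), p q) :
    ∀ᵐ w ∂(μ.prod (μ.prod μ)), ∀ᵐ s ∂(volume.restrict (Ioc (0 : ℝ) 1)),
        p (w.1, C.T w.1 s w.2.1) := by
  have hΦ : Measurable (fun q : ℝ × (X × X) => ((q.2.1, C.T q.2.1 q.1 q.2.2) : X × X)) := by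
    refine Measurable.prodMk (measurable_fst.comp measurable_snd) ?_
    exact C.measT.comp ((measurable_fst.comp measurable_snd).prodMk (measurable_fst.prodMk
        (measurable_snd.comp measurable_snd)))
  have h := ae_flow (ν := μ.prod μ) (m := μ.prod μ)
    (Φ := fun s w => (w.1, C.T w.1 s w.2)) hΦ (I := Ioc (0 : ℝ) 1) measurableSet_Ioc ?_ hp
  · exact ae_proj12 (p := fun q => ∀ᵐ s ∂(volume.restrict (Ioc (0 : ℝ) 1)),
      p (q.1, C.T q.1 s q.2)) h
  · intro s hs
    have hΦs : Measurable (fun w : X × X => ((w.1, C.T w.1 s w.2) : X × X)) :=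
      hΦ.comp (measurable_const.prodMk measurable_id)
    refine Measure.AbsolutelyContinuous.mk fun N hN h0 => ?_
    rw [Measure.map_apply hΦs hN, Measure.measure_prod_null (hΦs hN)]
    filter_upwards [Measure.measure_ae_null_of_prod_null h0] with z hz
    have h6 : (μ.map (C.T z s)) (Prod.mk z ⁻¹' N) = 0 := map_T_ac C z hs hz
    rw [Measure.map_apply (C.measT_xt z _) (measurable_prodMk_left hN)] at h6
    exact h6

lemma lam_pos {x z y : X} {s : ℝ} (h1 : 0 < dist x z) (h2 : dist x z ≤ dist x y)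
    (hs : s ∈ Icc (0 : ℝ) 1) : dist x z / dist x y ≤ lam x z y s ∧ lam x z y s ≤ 1 ∧
      0 < dist x z / dist x y ∧ dist x z / dist x y ≤ 1 := by
  have h3 : 0 < dist x y := h1.trans_le h2
  have h4 : 0 < dist x z / dist x y := div_pos h1 h3
  have h5 : dist x z / dist x y ≤ 1 := (div_le_one h3).2 h2
  have := hs.1
  have := hs.2
  unfold lam
  refine ⟨?_, ?_, h4, h5⟩ <;> nlinarith

/-- the derivative of the distance of the two moving points -/
lemma mixed_deriv {x z y y' : X} {E : X → X → ℝ≥0∞} (hzy : (z, y) ∈ C.U) (hy' : (x, y') ∈ C.U)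
    (hz0 : 0 < dist x z) (hzy0 : dist x z ≤ dist x y) {s : ℝ} (hs : s ∈ Ioc (0 : ℝ) 1)
    (hP1 : (x, C.T z s y) ∈ C.U) {m : ℝ}
    (hV : Tendsto (fun ε : ℝ => dist (C.T x (1 - (1 - dist x z / dist x y) / lam x z y s * ε)
      (C.T z s y)) (C.T z (1 - s⁻¹ * ε) (C.T z s y)) / ε) (𝓝[>] 0) (𝓝 m))
    (hE : ∀ e : ℝ, E (C.T z s y) (C.T x (lam x z y s) y') < ENNReal.ofReal e →
      ∀ᶠ t in 𝓝[<] (1 : ℝ),
      dist (C.T x t (C.T z s y)) (C.T x t (C.T x (lam x z y s) y')) ≤
        dist (C.T z s y) (C.T x (lam x z y s) y') -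
          (1 - t) * (dist (C.T z s y) (C.T x (lam x z y s) y') - e))
    {d : ℝ} (hd : HasDerivAt (fun t : ℝ => dist (C.T z t y) (C.T x (lam x z y t) y')) d s) :
    ENNReal.ofReal ((1 - dist x z / dist x y) * dist (C.T z s y) (C.T x (lam x z y s) y') -
      lam x z y s * d) ≤ ENNReal.ofReal (lam x z y s * m) +
        ENNReal.ofReal (1 - dist x z / dist x y) * E (C.T z s y) (C.T x (lam x z y s) y') := by
  have hsI : s ∈ Icc (0 : ℝ) 1 := ⟨hs.1.le, hs.2⟩
  obtain ⟨hl1, hl2, hq0, hq1⟩ := lam_pos hz0 hzy0 hsI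
  set q := dist x z / dist x y with hq
  set L := lam x z y s with hL
  set P1 := C.T z s y with hP1d
  set P2 := C.T x L y' with hP2d
  set f : ℝ → ℝ := fun t => dist (C.T z t y) (C.T x (lam x z y t) y') with hf
  have hL0 : 0 < L := hq0.trans_le hl1
  have hLI : L ∈ Ioc (0 : ℝ) 1 := ⟨hL0, hl2⟩
  set a := (1 - q) / L with ha
  have ha0 : 0 ≤ a := div_nonneg (by linarith) hL0.le
  have haL : a * L = 1 - q := div_mul_cancel₀ _ hL0.ne'
  have hP2 : (x, P2) ∈ C.U := C.sub x y' hy' L hLI
  have hfs : f s = dist P1 P2 := rfl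
  -- the main inequality for one value of `e`
  have main : ∀ e : ℝ, (∀ᶠ ε in 𝓝[>] (0 : ℝ), dist (C.T x (1 - a * ε) P1) (C.T x (1 - a * ε) P2) ≤
      dist P1 P2 - a * ε * (dist P1 P2 - e)) → (1 - q) * dist P1 P2 - L * d ≤
        (1 - q) * e + L * m := by
    intro e he
    refine le_of_forall_pos_le_add fun η hη => ?_
    have hm : ∀ᶠ ε in 𝓝[>] (0 : ℝ), dist (C.T x (1 - a * ε) P1) (C.T z (1 - s⁻¹ * ε) P1) / ε <
        m + η / L := hV.eventually (gt_mem_nhds (by have := div_pos hη hL0; linarith))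
    have hsub : Tendsto (fun s' : ℝ => s - s') (𝓝[<] s) (𝓝[>] 0) := by
      rw [tendsto_nhdsWithin_iff]
      constructor
      · have : Tendsto (fun s' : ℝ => s - s') (𝓝 s) (𝓝 (s - s)) :=
          (continuous_const.sub continuous_id).tendsto s
        rw [sub_self] at this
        exact this.mono_left nhdsWithin_le_nhds
      · filter_upwards [self_mem_nhdsWithin] with s' hs'
        simp only [mem_Iio, mem_Ioi] at hs' ⊢
        linarith
    have hdini : ∀ᶠ s' in 𝓝[<] s, f s' ≤ f s - (s - s') * (a * (dist P1 P2 - e) - (m + η / L)) := by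
      filter_upwards [hsub.eventually he, hsub.eventually hm, Ioo_mem_nhdsLT hs.1] with s' h1 h2 h3
      have h4 : s' / s ∈ Icc (0 : ℝ) 1 := ⟨by have := h3.1; have := hs.1; positivity, by
        rw [div_le_one hs.1]; exact h3.2.le⟩
      have hs'I : s' ∈ Icc (0 : ℝ) 1 := ⟨h3.1.le, h3.2.le.trans hs.2⟩
      have e1 : 1 - s⁻¹ * (s - s') = s' / s := by
        have := hs.1.ne'
        field_simp
        ring
      have e2 : C.T z s' y = C.T z (1 - s⁻¹ * (s - s')) P1 := by
        rw [e1, hP1d, C.comp z y hzy _ h4 s hs, div_mul_cancel₀ _ hs.1.ne']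
      have e3 : lam x z y s' = (1 - a * (s - s')) * L := by
        have h5 : lam x z y s' = L - (s - s') * (1 - q) := by
          rw [hL]
          unfold lam
          rw [← hq]
          ring
        rw [h5, ← haL]
        ring
      obtain ⟨hl1', hl2', -, -⟩ := lam_pos hz0 hzy0 hs'I
      have h6 : 1 - a * (s - s') ∈ Icc (0 : ℝ) 1 := by
        constructor
        · by_contra hcon
          push Not at hcon
          have : lam x z y s' < 0 := by
            rw [e3]
            exact mul_neg_of_neg_of_pos hcon hL0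
          linarith
        · have : 0 ≤ a * (s - s') := mul_nonneg ha0 (by linarith [h3.2])
          linarith
      have e4 : C.T x (lam x z y s') y' = C.T x (1 - a * (s - s')) P2 := by
        rw [e3, hP2d, C.comp x y' hy' _ h6 L hLI]
      have hpos : 0 < s - s' := by linarith [h3.2]
      rw [div_lt_iff₀ hpos] at h2
      show dist (C.T z s' y) (C.T x (lam x z y s') y') ≤ _
      rw [e2, e4, hfs]
      have h7 := dist_triangle_left (C.T z (1 - s⁻¹ * (s - s')) P1) (C.T x (1 - a * (s - s')) P2)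
        (C.T x (1 - a * (s - s')) P1)
      have h8 : a * (s - s') * (dist P1 P2 - e) = (s - s') * (a * (dist P1 P2 - e)) := by ring
      linarith
    have h9 := dini_deriv hd hdini
    have h10 : L * (a * (dist P1 P2 - e) - (m + η / L)) ≤ L * d :=
      mul_le_mul_of_nonneg_left h9 hL0.le
    have h11 : L * (a * (dist P1 P2 - e) - (m + η / L)) =
        (a * L) * (dist P1 P2 - e) - L * m - η := by
      have h12 : L * (η / L) = η := by field_simp
      calc L * (a * (dist P1 P2 - e) - (m + η / L)) =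
          (a * L) * (dist P1 P2 - e) - L * m - L * (η / L) := by ring
        _ = _ := by rw [h12]
    rw [h11, haL] at h10
    linarith
  have hq1' : 0 ≤ 1 - q := by linarith
  rcases eq_or_lt_of_le hq1' with hb | hb
  · -- no inward motion of the second point
    have ha' : a = 0 := by rw [ha, ← hb, zero_div]
    have h1 := main 0 (Eventually.of_forall fun ε => by
      rw [ha', zero_mul, sub_zero, C.T_one x P1 hP1, C.T_one x P2 hP2]
      simp)
    refine le_trans (ENNReal.ofReal_le_ofReal ?_) le_self_add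
    linarith
  · have hap : 0 < a := div_pos hb hL0
    have h1 : ∀ e : ℝ, E P1 P2 < ENNReal.ofReal e →
        ((1 - q) * dist P1 P2 - L * d - L * m) / (1 - q) ≤ e := by
      intro e he
      have ht : Tendsto (fun ε : ℝ => 1 - a * ε) (𝓝[>] 0) (𝓝[<] 1) := by
        rw [tendsto_nhdsWithin_iff]
        constructor
        · have : Tendsto (fun ε : ℝ => 1 - a * ε) (𝓝 0) (𝓝 (1 - a * 0)) :=
            (continuous_const.sub (continuous_const.mul continuous_id)).tendsto 0
          rw [mul_zero, sub_zero] at this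
          exact this.mono_left nhdsWithin_le_nhds
        · filter_upwards [self_mem_nhdsWithin] with ε hε
          simp only [mem_Iio, mem_Ioi] at hε ⊢
          have := mul_pos hap hε
          linarith
      have h2 := main e (by
        filter_upwards [ht.eventually (hE e he)] with ε hε
        refine hε.trans (le_of_eq ?_)
        ring)
      rw [div_le_iff₀ hb]
      linarith
    have h3 := le_of_forall_ofReal h1
    have h4 : (1 - q) * dist P1 P2 - L * d = L * m +
        (1 - q) * (((1 - q) * dist P1 P2 - L * d - L * m) / (1 - q)) := by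
      field_simp
      ring
    calc ENNReal.ofReal ((1 - q) * dist P1 P2 - L * d)
        = ENNReal.ofReal (L * m +
          (1 - q) * (((1 - q) * dist P1 P2 - L * d - L * m) / (1 - q))) := by rw [← h4]
      _ ≤ ENNReal.ofReal (L * m) + ENNReal.ofReal
          ((1 - q) * (((1 - q) * dist P1 P2 - L * d - L * m) / (1 - q))) := ENNReal.ofReal_add_le
      _ = ENNReal.ofReal (L * m) + ENNReal.ofReal (1 - q) * ENNReal.ofReal
          (((1 - q) * dist P1 P2 - L * d - L * m) / (1 - q)) := by
          rw [ENNReal.ofReal_mul hb.le]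
      _ ≤ _ := by gcongr

/-- the excess -/
def exc (x z y : X) : ℝ := dist x z + dist z y - dist x y

lemma exc_nonneg (x z y : X) : 0 ≤ exc x z y := by
  unfold exc
  linarith [dist_triangle x z y]

/-- deterministic part of the mixed pair inequality -/
theorem pair1_det {x z y y' : X} {E : X → X → ℝ≥0∞} (hzy : (z, y) ∈ C.U) (hy' : (x, y') ∈ C.U)
    (hz0 : 0 < dist x z) (hzy0 : dist x z ≤ dist x y)
    (hP1 : ∀ᵐ s ∂(volume.restrict (Ioc (0 : ℝ) 1)), (x, C.T z s y) ∈ C.U)
    (hV : ∀ᵐ s ∂(volume.restrict (Ioc (0 : ℝ) 1)), ∃ cs ∈ Icc (-1 : ℝ) 1,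
      HasDerivWithinAt (fun t : ℝ => dist x (C.T z t (C.T z s y))) (cs * dist z (C.T z s y))
        (Iio 1) 1 ∧
      ∀ a b : ℝ, 0 ≤ a → 0 ≤ b →
        Tendsto (fun ε : ℝ => dist (C.T x (1 - a * ε) (C.T z s y))
          (C.T z (1 - b * ε) (C.T z s y)) / ε) (𝓝[>] 0)
          (𝓝 (Real.sqrt ((a * dist x (C.T z s y)) ^ 2 + (b * dist z (C.T z s y)) ^ 2
            - 2 * (a * dist x (C.T z s y)) * (b * dist z (C.T z s y)) * cs))))
    (hE : ∀ᵐ s ∂(volume.restrict (Ioc (0 : ℝ) 1)), ∀ e : ℝ,
      E (C.T z s y) (C.T x (lam x z y s) y') < ENNReal.ofReal e → ∀ᶠ t in 𝓝[<] (1 : ℝ),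
      dist (C.T x t (C.T z s y)) (C.T x t (C.T x (lam x z y s) y')) ≤
        dist (C.T z s y) (C.T x (lam x z y s) y') -
          (1 - t) * (dist (C.T z s y) (C.T x (lam x z y s) y') - e)) :
    ∀ a ∈ Icc (0 : ℝ) 1,
      ENNReal.ofReal (dist (C.T z a y) (C.T x (lam x z y a) y') / lam x z y a) ≤
        ENNReal.ofReal (dist y y' + (Real.sqrt (2 * dist z y * exc x z y) +
          2 * exc x z y) / (dist x z / dist x y)) +
        ENNReal.ofReal ((1 - dist x z / dist x y) / (dist x z / dist x y) ^ 2) *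
          ∫⁻ s in Ioc a 1, E (C.T z s y) (C.T x (lam x z y s) y') := by
  intro a ha
  obtain ⟨-, -, hq0, hq1⟩ := lam_pos hz0 hzy0 ha
  set q := dist x z / dist x y with hq
  set ℓ := dist z y with hℓ
  set ex := exc x z y with hex
  have hℓ0 : 0 ≤ ℓ := dist_nonneg
  have hex0 : 0 ≤ ex := exc_nonneg x z y
  have hy0 : 0 < dist x y := hz0.trans_le hzy0
  have hqy : q * dist x y = dist x z := div_mul_cancel₀ _ hy0.ne'
  set f : ℝ → ℝ := fun t => dist (C.T z t y) (C.T x (lam x z y t) y') with hf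
  set g : ℝ → ℝ := fun t => dist x (C.T z t y) with hg
  have hlam : ∀ t, lam x z y t = q + (1 - q) * t := fun t => by
    unfold lam; rw [← hq]; ring
  -- Lipschitz bounds
  have hl1 : LipschitzOnWith (Real.toNNReal (dist z y)) (fun t : ℝ => C.T z t y) (Icc 0 1) :=
    lip_T C hzy
  have hl2 : LipschitzOnWith (Real.toNNReal (dist x y') * Real.toNNReal (1 - q))
      (fun t : ℝ => C.T x (lam x z y t) y') (Icc 0 1) := by
    have hA : LipschitzOnWith (Real.toNNReal (1 - q)) (fun t => lam x z y t) (Icc 0 1) := by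
      apply LipschitzOnWith.of_dist_le_mul
      intro s _ t _
      rw [Real.dist_eq, Real.dist_eq, hlam, hlam, Real.coe_toNNReal _ (by linarith)]
      rw [show q + (1 - q) * s - (q + (1 - q) * t) = (1 - q) * (s - t) by ring, abs_mul,
        abs_of_nonneg (by linarith : (0 : ℝ) ≤ 1 - q)]
    have hB : MapsTo (fun t => lam x z y t) (Icc 0 1) (Icc (0 : ℝ) 1) := by
      intro t ht
      obtain ⟨h3, h4, -, -⟩ := lam_pos hz0 hzy0 ht
      exact ⟨hq0.le.trans h3, h4⟩
    exact (lip_T C hy').comp hA hB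
  have hfl := lip_dist hl1 hl2
  have hgl : LipschitzOnWith (0 + Real.toNNReal (dist z y)) g (Icc 0 1) :=
    lip_dist ((LipschitzWith.const x).lipschitzOnWith) hl1
  have hgac : AbsolutelyContinuousOnInterval g 0 1 := by
    apply LipschitzOnWith.absolutelyContinuousOnInterval
    rwa [uIcc_of_le zero_le_one]
  have hg1 : g 1 = dist x y := by rw [hg]; simp only [C.T_one z y hzy]
  have hg0 : g 0 = dist x z := by rw [hg]; simp only [C.T_zero z y hzy]
  -- the function under the square root
  set h : ℝ → ℝ := fun s => 2 * ℓ * (ℓ - deriv g s) with hh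
  have hgint : IntegrableOn (deriv g) (Ioc 0 1) := by
    have := hgac.intervalIntegrable_deriv
    rwa [intervalIntegrable_iff_integrableOn_Ioc_of_le zero_le_one] at this
  have hhint : IntegrableOn h (Ioc 0 1) :=
    ((integrableOn_const (by simp)).sub hgint).const_mul _
  have hhI : ∫ s in Ioc (0 : ℝ) 1, h s = 2 * ℓ * ex := by
    have h1 : ∫ s in Ioc (0 : ℝ) 1, deriv g s = g 1 - g 0 := by
      rw [← intervalIntegral.integral_of_le zero_le_one]
      exact hgac.integral_deriv_eq_sub
    have hci : Integrable (fun _ : ℝ => ℓ) (volume.restrict (Ioc (0 : ℝ) 1)) := integrable_const ℓ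
    rw [hh, integral_const_mul, integral_sub hci hgint, h1, hg1, hg0]
    simp only [integral_const, MeasurableSet.univ, measureReal_restrict_apply, univ_inter,
      Real.volume_real_Ioc_of_le zero_le_one, sub_zero, smul_eq_mul, one_mul]
    rw [hex]
    unfold exc
    ring
  -- bounds along the segment
  have hgd : ∀ᵐ s ∂(volume.restrict (Ioc (0 : ℝ) 1)), DifferentiableAt ℝ g s := by
    rw [ae_restrict_iff' measurableSet_Ioc]
    filter_upwards [hgac.ae_differentiableAt] with t ht hm
    exact ht (by rw [uIcc_of_le zero_le_one]; exact ⟨hm.1.le, hm.2⟩)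
  have hband : ∀ s ∈ Icc (0 : ℝ) 1, |g s - lam x z y s * dist x y| ≤ ex := by
    intro s hs
    have h1 : dist z (C.T z s y) = s * ℓ := C.dist_left hzy hs
    have h2 : dist (C.T z s y) y = (1 - s) * ℓ := C.dist_right hzy hs
    have h3 := dist_triangle x z (C.T z s y)
    have h4 := dist_triangle x (C.T z s y) y
    rw [h1] at h3
    rw [h2] at h4
    have h5 : lam x z y s * dist x y = dist x z + s * (dist x y - dist x z) := by
      rw [hlam, ← hqy]; ring
    have h6 : ex = dist x z + ℓ - dist x y := rfl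
    rw [h5, abs_le]
    have h7 : s * ex ≤ 1 * ex := mul_le_mul_of_nonneg_right hs.2 hex0
    have h8 : (1 - s) * ex ≤ 1 * ex := mul_le_mul_of_nonneg_right (by linarith [hs.1]) hex0
    rw [h6] at h7 h8 ⊢
    constructor
    · show -(dist x z + ℓ - dist x y) ≤ dist x (C.T z s y) - _
      nlinarith
    · show dist x (C.T z s y) - _ ≤ _
      nlinarith
  have hmain : ∀ᵐ s ∂(volume.restrict (Ioc (0 : ℝ) 1)), 0 ≤ h s ∧ ∀ d, HasDerivAt f d s →
      ENNReal.ofReal ((1 - q) * f s - (q + (1 - q) * s) * d) ≤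
        ENNReal.ofReal ((q + (1 - q) * s) * (Real.sqrt (h s) +
          (1 + (1 - q) / (q + (1 - q) * s)) * ex)) +
          ENNReal.ofReal (1 - q) * E (C.T z s y) (C.T x (lam x z y s) y') := by
    filter_upwards [hP1, hV, hE, hgd, ae_restrict_mem measurableSet_Ioc] with s h1 h2 h3 h4 hs
    obtain ⟨cs, hcs, hder, htend⟩ := h2
    have hsI : s ∈ Icc (0 : ℝ) 1 := ⟨hs.1.le, hs.2⟩
    obtain ⟨hL1, hL2, -, -⟩ := lam_pos hz0 hzy0 hsI
    rw [← hq] at hL1
    have hL0 : 0 < lam x z y s := hq0.trans_le hL1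
    have hdz : dist z (C.T z s y) = s * ℓ := C.dist_left hzy hsI
    have hdg : deriv g s = cs * ℓ := by
      have h5 := C.deriv_ray hzy (q := fun w => dist x w) hs hder h4
      rw [hdz] at h5
      have := hs.1.ne'
      show deriv (fun t : ℝ => dist x (C.T z t y)) s = cs * ℓ
      rw [h5]
      field_simp
    have hhs : h s = 2 * ℓ * (ℓ - ℓ * cs) := by
      rw [hh]
      simp only
      rw [hdg]
      ring
    constructor
    · rw [hhs]
      have : 0 ≤ ℓ - ℓ * cs := by nlinarith [hcs.2]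
      positivity
    · intro d hd
      have ha0 : 0 ≤ (1 - q) / lam x z y s := div_nonneg (by linarith) hL0.le
      have h6 := mixed_deriv C hzy hy' hz0 hzy0 hs h1
        (htend ((1 - dist x z / dist x y) / lam x z y s) s⁻¹ ha0 (inv_pos.2 hs.1).le) h3 hd
      rw [← hq] at h6
      rw [← hlam s]
      refine h6.trans ?_
      gcongr
      have hB : s⁻¹ * dist z (C.T z s y) = ℓ := by
        rw [hdz]
        have := hs.1.ne'
        field_simp
      rw [hB]
      refine (sqrt_cos_le hℓ0 hcs).trans ?_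
      rw [hhs, add_comm]
      gcongr
      -- |A - B| ≤ ex / q
      have h7 := hband s hsI
      have h8 : (1 - q) / lam x z y s * dist x (C.T z s y) - ℓ =
          (1 - q) / lam x z y s * (g s - lam x z y s * dist x y) - ex := by
        have h9 : (1 - q) / lam x z y s * (g s - lam x z y s * dist x y) =
            (1 - q) / lam x z y s * g s - (1 - q) * dist x y := by
          field_simp
        rw [h9]
        have h10 : (1 - q) * dist x y = dist x y - dist x z := by rw [← hqy]; ring
        rw [h10]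
        show _ = _ - exc x z y
        unfold exc
        show _ - ℓ = _
        rw [hℓ]
        ring
      rw [h8]
      have h11 : |(1 - q) / lam x z y s * (g s - lam x z y s * dist x y) - ex| ≤
          (1 - q) / lam x z y s * ex + ex := by
        refine (abs_sub _ _).trans ?_
        rw [abs_mul, abs_of_nonneg ha0, abs_of_nonneg hex0]
        gcongr
      refine h11.trans (le_of_eq ?_)
      ring
  have hfa : AbsolutelyContinuousOnInterval f a 1 := by
    apply (hfl.mono _).absolutelyContinuousOnInterval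
    rw [uIcc_of_le ha.2]
    exact Icc_subset_Icc_left ha.1
  have hG := affine_gronwall (f := f) (a := a) (b := 1) (α := q) (β := 1 - q) ha.2 hfa
    (fun t ht => by
      obtain ⟨h3, -, -, -⟩ := lam_pos hz0 hzy0 (s := t) ⟨ha.1.trans ht.1, ht.2⟩
      rw [← hlam t]
      exact hq0.trans_le h3)
    (E := fun s => ENNReal.ofReal ((q + (1 - q) * s) * (Real.sqrt (h s) +
          (1 + (1 - q) / (q + (1 - q) * s)) * ex)) +
          ENNReal.ofReal (1 - q) * E (C.T z s y) (C.T x (lam x z y s) y'))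
    ((ae_restrict_of_ae_restrict_of_subset (Ioc_subset_Ioc_left ha.1) hmain).mono
      fun s hs => hs.2)
  have hf1 : f 1 / (q + (1 - q) * 1) = dist y y' := by
    have h13 : lam x z y 1 = 1 := by rw [hlam]; ring
    rw [hf]
    simp only
    rw [h13, C.T_one z y hzy, C.T_one x y' hy', mul_one, add_sub_cancel, div_one]
  rw [hf1] at hG
  have hfl' : f a / (q + (1 - q) * a) = dist (C.T z a y) (C.T x (lam x z y a) y') /
      lam x z y a := by rw [← hlam a]
  rw [hfl'] at hG
  refine hG.trans ?_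
  -- the integral of the weight
  have hqm : 0 ≤ 1 - q := by linarith
  have hwpos : ∀ t ∈ Icc (0 : ℝ) 1, 0 < q + (1 - q) * t := fun t ht => by
    have := mul_nonneg hqm ht.1
    linarith
  have hwint : ∫⁻ t in Ioc (0 : ℝ) 1, ENNReal.ofReal (q⁻¹ + (1 - q) / (q + (1 - q) * t) ^ 2) ≤
      ENNReal.ofReal (2 / q) := by
    have hder : ∀ t ∈ uIcc (0 : ℝ) 1, HasDerivAt (fun t : ℝ => q⁻¹ * t - (q + (1 - q) * t)⁻¹)
        (q⁻¹ + (1 - q) / (q + (1 - q) * t) ^ 2) t := by
      intro t ht
      rw [uIcc_of_le zero_le_one] at ht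
      have h1 : HasDerivAt (fun t : ℝ => q + (1 - q) * t) (1 - q) t := by
        simpa using ((hasDerivAt_id t).const_mul (1 - q)).const_add q
      have h2 := (h1.inv (hwpos t ht).ne')
      have h3 := ((hasDerivAt_id t).const_mul q⁻¹).sub h2
      have h4 : q⁻¹ * 1 - -(1 - q) / (q + (1 - q) * t) ^ 2 =
          q⁻¹ + (1 - q) / (q + (1 - q) * t) ^ 2 := by ring
      rw [h4] at h3
      exact h3
    have hcont : ContinuousOn (fun t : ℝ => q⁻¹ + (1 - q) / (q + (1 - q) * t) ^ 2)
        (uIcc (0 : ℝ) 1) := by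
      rw [uIcc_of_le zero_le_one]
      refine continuousOn_const.add (ContinuousOn.div continuousOn_const (by fun_prop) ?_)
      intro t ht
      have := hwpos t ht
      positivity
    have hint := hcont.intervalIntegrable (μ := volume)
    have h4 := intervalIntegral.integral_eq_sub_of_hasDerivAt hder hint
    rw [intervalIntegral.integral_of_le zero_le_one] at h4
    rw [← ofReal_integral_eq_lintegral_ofReal
      ((intervalIntegrable_iff_integrableOn_Ioc_of_le zero_le_one).1 hint), h4]
    · apply ENNReal.ofReal_le_ofReal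
      have h5 : 1 ≤ q⁻¹ := (one_le_inv₀ hq0).2 hq1
      rw [div_eq_mul_inv]
      simp only [mul_one, mul_zero, add_zero, zero_sub, sub_neg_eq_add, add_sub_cancel, inv_one]
      linarith
    · filter_upwards [ae_restrict_mem measurableSet_Ioc] with t ht
      have := hwpos t ⟨ht.1.le, ht.2⟩
      show 0 ≤ q⁻¹ + (1 - q) / (q + (1 - q) * t) ^ 2
      positivity
  have hsplit : ∫⁻ t in Ioc a 1, (ENNReal.ofReal ((q + (1 - q) * t) * (Real.sqrt (h t) +
        (1 + (1 - q) / (q + (1 - q) * t)) * ex)) +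
      ENNReal.ofReal (1 - q) * E (C.T z t y) (C.T x (lam x z y t) y')) /
        ENNReal.ofReal ((q + (1 - q) * t) ^ 2) ≤
      ENNReal.ofReal ((Real.sqrt (2 * ℓ * ex) + 2 * ex) / q) +
        ENNReal.ofReal ((1 - q) / q ^ 2) *
          ∫⁻ s in Ioc a 1, E (C.T z s y) (C.T x (lam x z y s) y') := by
    have hmh : Measurable h := (measurable_const.sub (measurable_deriv g)).const_mul _
    have hm1 : Measurable fun t : ℝ => ENNReal.ofReal (Real.sqrt (h t)) := by fun_prop
    have hmeas : Measurable fun t : ℝ => ENNReal.ofReal q⁻¹ * ENNReal.ofReal (Real.sqrt (h t)) +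
        ENNReal.ofReal ex * ENNReal.ofReal (q⁻¹ + (1 - q) / (q + (1 - q) * t) ^ 2) := by
      fun_prop
    calc ∫⁻ t in Ioc a 1, (ENNReal.ofReal ((q + (1 - q) * t) * (Real.sqrt (h t) +
        (1 + (1 - q) / (q + (1 - q) * t)) * ex)) +
        ENNReal.ofReal (1 - q) * E (C.T z t y) (C.T x (lam x z y t) y')) /
          ENNReal.ofReal ((q + (1 - q) * t) ^ 2)
        ≤ ∫⁻ t in Ioc a 1, ((ENNReal.ofReal q⁻¹ * ENNReal.ofReal (Real.sqrt (h t)) +
            ENNReal.ofReal ex * ENNReal.ofReal (q⁻¹ + (1 - q) / (q + (1 - q) * t) ^ 2)) +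
            ENNReal.ofReal ((1 - q) / q ^ 2) * E (C.T z t y) (C.T x (lam x z y t) y')) := by
          apply setLIntegral_mono' measurableSet_Ioc
          intro t ht
          have htI : t ∈ Icc (0 : ℝ) 1 := ⟨ha.1.trans ht.1.le, ht.2⟩
          obtain ⟨h3, h4, -, -⟩ := lam_pos hz0 hzy0 (s := t) htI
          rw [hlam t, ← hq] at h3
          have h5 : 0 < q + (1 - q) * t := hwpos t htI
          rw [ENNReal.add_div]
          refine add_le_add ?_ ?_
          · rw [← ENNReal.ofReal_div_of_pos (by positivity), ← ENNReal.ofReal_mul (by positivity),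
              ← ENNReal.ofReal_mul hex0, ← ENNReal.ofReal_add (by positivity) (by positivity)]
            apply ENNReal.ofReal_le_ofReal
            have h6 : (q + (1 - q) * t) * (Real.sqrt (h t) +
                (1 + (1 - q) / (q + (1 - q) * t)) * ex) / (q + (1 - q) * t) ^ 2 =
                (q + (1 - q) * t)⁻¹ * Real.sqrt (h t) +
                  ex * ((q + (1 - q) * t)⁻¹ + (1 - q) / (q + (1 - q) * t) ^ 2) := by
              field_simp
            rw [h6]
            have h7 : (q + (1 - q) * t)⁻¹ ≤ q⁻¹ := inv_anti₀ hq0 h3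
            gcongr
          · rw [ENNReal.div_eq_inv_mul, ← mul_assoc, ← ENNReal.ofReal_inv_of_pos (by positivity),
              ← ENNReal.ofReal_mul (by positivity)]
            gcongr
            rw [← div_eq_inv_mul]
            gcongr
      _ = (∫⁻ t in Ioc a 1, (ENNReal.ofReal q⁻¹ * ENNReal.ofReal (Real.sqrt (h t)) +
            ENNReal.ofReal ex * ENNReal.ofReal (q⁻¹ + (1 - q) / (q + (1 - q) * t) ^ 2))) +
            ENNReal.ofReal ((1 - q) / q ^ 2) *
              ∫⁻ t in Ioc a 1, E (C.T z t y) (C.T x (lam x z y t) y') := by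
          rw [lintegral_add_left hmeas, lintegral_const_mul' _ _ ENNReal.ofReal_ne_top]
      _ ≤ _ := by
          gcongr
          calc ∫⁻ t in Ioc a 1, (ENNReal.ofReal q⁻¹ * ENNReal.ofReal (Real.sqrt (h t)) +
              ENNReal.ofReal ex * ENNReal.ofReal (q⁻¹ + (1 - q) / (q + (1 - q) * t) ^ 2))
              ≤ ∫⁻ t in Ioc (0 : ℝ) 1, (ENNReal.ofReal q⁻¹ * ENNReal.ofReal (Real.sqrt (h t)) +
              ENNReal.ofReal ex * ENNReal.ofReal (q⁻¹ + (1 - q) / (q + (1 - q) * t) ^ 2)) :=
                lintegral_mono_set (Ioc_subset_Ioc_left ha.1)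
            _ = ENNReal.ofReal q⁻¹ * (∫⁻ t in Ioc (0 : ℝ) 1, ENNReal.ofReal (Real.sqrt (h t))) +
                  ENNReal.ofReal ex * ∫⁻ t in Ioc (0 : ℝ) 1,
                    ENNReal.ofReal (q⁻¹ + (1 - q) / (q + (1 - q) * t) ^ 2) := by
                rw [lintegral_add_left (hm1.const_mul _),
                  lintegral_const_mul' _ _ ENNReal.ofReal_ne_top,
                  lintegral_const_mul' _ _ ENNReal.ofReal_ne_top]
            _ ≤ ENNReal.ofReal q⁻¹ * ENNReal.ofReal (Real.sqrt (2 * ℓ * ex)) +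
                  ENNReal.ofReal ex * ENNReal.ofReal (2 / q) := by
                gcongr
                exact lintegral_sqrt_le hhint (hmain.mono fun s hs => hs.1) hhI
            _ = _ := by
                rw [← ENNReal.ofReal_mul (by positivity), ← ENNReal.ofReal_mul hex0,
                  ← ENNReal.ofReal_add (by positivity) (by positivity)]
                congr 1
                field_simp
  calc ENNReal.ofReal (dist y y') + _ ≤ ENNReal.ofReal (dist y y') +
        (ENNReal.ofReal ((Real.sqrt (2 * ℓ * ex) + 2 * ex) / q) +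
        ENNReal.ofReal ((1 - q) / q ^ 2) *
          ∫⁻ s in Ioc a 1, E (C.T z s y) (C.T x (lam x z y s) y')) := by
        gcongr
    _ = _ := by
        rw [← add_assoc, ← ENNReal.ofReal_add (by positivity) (by positivity)]

/-- **PAIR, mixed form**: for almost every triple `(z, y, y')`, the minimiser `z → y` against the
linear inward motion along the `x`-ray of `y'`. -/
theorem pair1 [SFinite μ] {x : X} {E : X → X → ℝ≥0∞} (hV : VEL C x) (hE : PV C x E) :
    ∀ᵐ w ∂(μ.prod (μ.prod μ)), 0 < dist x w.1 → dist x w.1 ≤ dist x w.2.1 →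
      ∀ a ∈ Icc (0 : ℝ) 1,
      ENNReal.ofReal (dist (C.T w.1 a w.2.1) (C.T x (lam x w.1 w.2.1 a) w.2.2) /
          lam x w.1 w.2.1 a) ≤
        ENNReal.ofReal (dist w.2.1 w.2.2 + (Real.sqrt (2 * dist w.1 w.2.1 * exc x w.1 w.2.1) +
          2 * exc x w.1 w.2.1) / (dist x w.1 / dist x w.2.1)) +
        ENNReal.ofReal ((1 - dist x w.1 / dist x w.2.1) / (dist x w.1 / dist x w.2.1) ^ 2) *
          ∫⁻ s in Ioc a 1, E (C.T w.1 s w.2.1) (C.T x (lam x w.1 w.2.1 s) w.2.2) := by
  have hU : ∀ᵐ q ∂(μ.prod μ), q ∈ C.U :=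
    (Measure.ae_prod_iff_ae_ae (p := fun q => q ∈ C.U) C.measU).2
      (Eventually.of_forall fun z => C.ae_U z)
  have hU12 : ∀ᵐ w ∂(μ.prod (μ.prod μ)), (w.1, w.2.1) ∈ C.U :=
    ae_proj12 (p := fun q => q ∈ C.U) hU
  have hU3 : ∀ᵐ w ∂(μ.prod (μ.prod μ)), (x, w.2.2) ∈ C.U := by
    have h1 : ∀ᵐ q ∂(μ.prod μ), (x, q.2) ∈ C.U := Measure.quasiMeasurePreserving_snd.ae (C.ae_U x)
    exact Measure.quasiMeasurePreserving_snd.ae (p := fun q : X × X => (x, q.2) ∈ C.U) h1
  have hP1 := ae_left_flow C (p := fun q => (x, q.2) ∈ C.U)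
    (Measure.quasiMeasurePreserving_snd.ae (C.ae_U x))
  have hV' := ae_left_flow C hV
  have hE' := ae_pair_flow C x hE
  filter_upwards [hU12, hU3, hP1, hV', hE'] with w h1 h2 h3 h4 h5 h6 h7
  exact pair1_det C h1 h2 h6 h7 h3 h4 (h5 h6 h7)

end Crest.Agent.R247.Pair438
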