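import Mathlib

/-!
R247 block (2b), helper661: the transport lemma.  Everything at unit scale; `m` is the volume
restricted to a bounded set.
-/

set_option autoImplicit false
set_option linter.unusedSectionVars false

noncomputable section

namespace Crest.Agent.R247.Pl4661

open MeasureTheory Set Filter Topology

variable {X : Type*} [MeasurableSpace X]

/-- the path of quadratic functions -/
def Fp (fx fy : X → ℝ) (k : ℝ) (l : ℝ) (u : X) : ℝ :=
  l * (l - 1) * fy u + l * fx u - (l - 1) * k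

/-- the linear factor -/
def Ap (φ : X → ℝ) (a0 a1 : ℝ) (l : ℝ) (u : X) : ℝ := l * (φ u - a0) - (a1 - a0)

/-- integrand -/
def Zp (η : ℝ → ℝ) (fx fy φ g : X → ℝ) (k a0 a1 b0 b1 : ℝ) (l : ℝ) (u : X) : ℝ :=
  Ap φ a0 a1 l u * Ap g b0 b1 l u * η (Fp fx fy k l u)

/-- the derivation applied to the integrand -/
def dZp (η η' : ℝ → ℝ) (fx fy φ g dφ dg p : X → ℝ) (k a0 a1 b0 b1 : ℝ) (l : ℝ) (u : X) : ℝ :=
  l * dφ u * Ap g b0 b1 l u * η (Fp fx fy k l u)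
    + Ap φ a0 a1 l u * (l * dg u) * η (Fp fx fy k l u)
    + Ap φ a0 a1 l u * Ap g b0 b1 l u * (η' (Fp fx fy k l u)
        * (l * (l - 1) * (2 * fy u) + l * p u))

/-- the function of `l` whose endpoints are compared -/
def Gp (n : ℕ) (η : ℝ → ℝ) (fx fy φ g : X → ℝ) (k a0 a1 b0 b1 : ℝ) (l : ℝ) (u : X) : ℝ :=
  l ^ n * Zp η fx fy φ g k a0 a1 b0 b1 l u

/-- its derivative -/
def Gp' (n : ℕ) (η η' : ℝ → ℝ) (fx fy φ g : X → ℝ) (k a0 a1 b0 b1 : ℝ) (l : ℝ) (u : X) : ℝ :=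
  n * l ^ (n - 1) * Zp η fx fy φ g k a0 a1 b0 b1 l u
    + l ^ n * ((φ u - a0) * Ap g b0 b1 l u * η (Fp fx fy k l u)
      + Ap φ a0 a1 l u * (g u - b0) * η (Fp fx fy k l u)
      + Ap φ a0 a1 l u * Ap g b0 b1 l u * (η' (Fp fx fy k l u)
        * ((2 * l - 1) * fy u + fx u - k)))

theorem hasDerivAt_Gp (n : ℕ) {η η' : ℝ → ℝ} (hη : ∀ t, HasDerivAt η (η' t) t)
    (fx fy φ g : X → ℝ) (k a0 a1 b0 b1 l : ℝ) (u : X) :
    HasDerivAt (fun l => Gp n η fx fy φ g k a0 a1 b0 b1 l u)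
      (Gp' n η η' fx fy φ g k a0 a1 b0 b1 l u) l := by
  have hA : HasDerivAt (fun l => Ap φ a0 a1 l u) (φ u - a0) l := by
    unfold Ap
    simpa using ((hasDerivAt_id l).mul_const (φ u - a0)).sub_const (a1 - a0)
  have hB : HasDerivAt (fun l => Ap g b0 b1 l u) (g u - b0) l := by
    unfold Ap
    simpa using ((hasDerivAt_id l).mul_const (g u - b0)).sub_const (b1 - b0)
  have hF : HasDerivAt (fun l => Fp fx fy k l u) ((2 * l - 1) * fy u + fx u - k) l := by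
    unfold Fp
    have h1 : HasDerivAt (fun l : ℝ => l * (l - 1) * fy u) ((1 * (l - 1) + l * 1) * fy u) l :=
      ((hasDerivAt_id l).mul ((hasDerivAt_id l).sub_const 1)).mul_const _
    have h2 : HasDerivAt (fun l : ℝ => l * fx u) (1 * fx u) l := (hasDerivAt_id l).mul_const _
    have h3 : HasDerivAt (fun l : ℝ => (l - 1) * k) (1 * k) l :=
      ((hasDerivAt_id l).sub_const 1).mul_const _
    refine ((h1.add h2).sub h3).congr_deriv ?_
    ring
  have hE : HasDerivAt (fun l => η (Fp fx fy k l u))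
      (η' (Fp fx fy k l u) * ((2 * l - 1) * fy u + fx u - k)) l :=
    (hη (Fp fx fy k l u)).comp l hF
  have hP : HasDerivAt (fun l : ℝ => l ^ n) (n * l ^ (n - 1)) l := hasDerivAt_pow n l
  unfold Gp Gp' Zp
  refine (hP.mul ((hA.mul hB).mul hE)).congr_deriv ?_
  simp only [Pi.mul_apply]
  ring

/-- the algebraic identity behind the transport lemma: `P - c` is
`p u - (fx u + fy u - k)` where `k = f_y(x) - c`. -/
theorem mul_Gp' {n : ℕ} (hn : 1 ≤ n) (η η' : ℝ → ℝ) (fx fy φ g dφ dg p : X → ℝ)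
    (k a0 a1 b0 b1 l : ℝ) (u : X) :
    Gp' n η η' fx fy φ g k a0 a1 b0 b1 l u
      = l ^ (n - 1) * (dZp η η' fx fy φ g dφ dg p k a0 a1 b0 b1 l u
        + n * Zp η fx fy φ g k a0 a1 b0 b1 l u
        - l * ((dφ u - (φ u - a0)) * (Ap g b0 b1 l u * η (Fp fx fy k l u)))
        - l * ((dg u - (g u - b0)) * (Ap φ a0 a1 l u * η (Fp fx fy k l u)))
        - l * ((p u - (fx u + fy u - k)) * (Ap φ a0 a1 l u * Ap g b0 b1 l u
            * η' (Fp fx fy k l u)))) := by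
  obtain ⟨m, rfl⟩ : ∃ m, n = m + 1 := ⟨n - 1, by omega⟩
  simp only [Gp', dZp, Zp, Nat.add_sub_cancel]
  ring

/-- the data of the transport lemma -/
structure TD (m : Measure X) (η η' : ℝ → ℝ) (fx fy φ g dφ dg p : X → ℝ)
    (k a0 a1 b0 b1 cη Sφ Sg : ℝ) : Prop where
  hη : ∀ t, HasDerivAt η (η' t) t
  hη' : Continuous η'
  bη : ∀ t, |η t| ≤ cη
  bη' : ∀ t, |η' t| ≤ cη
  mfx : Measurable fx
  mfy : Measurable fy
  mφ : Measurable φ
  mg : Measurable g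
  mdφ : AEMeasurable dφ m
  mdg : AEMeasurable dg m
  mp : AEMeasurable p m
  bd : ∃ R : ℝ, ∀ᵐ u ∂m, |fx u| ≤ R ∧ |fy u| ≤ R ∧ |dφ u| ≤ R ∧ |dg u| ≤ R ∧ |p u| ≤ R
  bφ : ∀ᵐ u ∂m, |φ u| ≤ Sφ
  bg : ∀ᵐ u ∂m, |g u| ≤ Sg
  ba0 : |a0| ≤ Sφ
  ba1 : |a1| ≤ Sφ
  bb0 : |b0| ≤ Sg
  bb1 : |b1| ≤ Sg

variable {m : Measure X} {η η' : ℝ → ℝ} {fx fy φ g dφ dg p : X → ℝ}
  {k a0 a1 b0 b1 cη Sφ Sg : ℝ}

theorem abs_Ap_le {φ : X → ℝ} {a0 a1 S l : ℝ} {u : X} (h : |φ u| ≤ S) (h0 : |a0| ≤ S)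
    (h1 : |a1| ≤ S) (hl1 : 1 ≤ l) (hl2 : l ≤ 2) : |Ap φ a0 a1 l u| ≤ 4 * S := by
  have e : Ap φ a0 a1 l u = l * φ u - (l - 1) * a0 - a1 := by unfold Ap; ring
  rw [e]
  have q1 : |l * φ u| ≤ 2 * S := by
    rw [abs_mul, abs_of_nonneg (by linarith : 0 ≤ l)]
    exact mul_le_mul hl2 h (abs_nonneg _) (by norm_num)
  have q2 : |(l - 1) * a0| ≤ 1 * S := by
    rw [abs_mul, abs_of_nonneg (by linarith : 0 ≤ l - 1)]
    exact mul_le_mul (by linarith) h0 (abs_nonneg _) (by norm_num)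
  have := abs_sub (l * φ u - (l - 1) * a0) a1
  have := abs_sub (l * φ u) ((l - 1) * a0)
  linarith

theorem abs_Ap_le' {φ : X → ℝ} {a0 a1 S l : ℝ} {u : X} (h : |φ u| ≤ S) (h0 : |a0| ≤ S)
    (h1 : |a1| ≤ S) (hl1 : |l| ≤ 3) : |Ap φ a0 a1 l u| ≤ 8 * S := by
  have e : Ap φ a0 a1 l u = l * φ u - (l - 1) * a0 - a1 := by unfold Ap; ring
  rw [e]
  have hS : 0 ≤ S := (abs_nonneg _).trans h
  have q1 : |l * φ u| ≤ 3 * S := by
    rw [abs_mul]
    exact mul_le_mul hl1 h (abs_nonneg _) (by norm_num)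
  have q3 : |l - 1| ≤ 4 := by
    have := abs_sub l 1
    simp only [abs_one] at this
    linarith
  have q2 : |(l - 1) * a0| ≤ 4 * S := by
    rw [abs_mul]
    exact mul_le_mul q3 h0 (abs_nonneg _) (by norm_num)
  have := abs_sub (l * φ u - (l - 1) * a0) a1
  have := abs_sub (l * φ u) ((l - 1) * a0)
  linarith

namespace TD

variable (T : TD m η η' fx fy φ g dφ dg p k a0 a1 b0 b1 cη Sφ Sg)

include T

theorem cη_nonneg : 0 ≤ cη := (abs_nonneg _).trans (T.bη 0)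
theorem Sφ_nonneg : 0 ≤ Sφ := (abs_nonneg _).trans T.ba0
theorem Sg_nonneg : 0 ≤ Sg := (abs_nonneg _).trans T.bb0

theorem cont_η : Continuous η :=
  continuous_iff_continuousAt.2 fun t => (T.hη t).continuousAt

theorem meas_F (l : ℝ) : Measurable (Fp fx fy k l) := by
  unfold Fp
  exact ((T.mfy.const_mul _).add (T.mfx.const_mul _)).sub_const _

theorem meas_A (l : ℝ) : Measurable (Ap φ a0 a1 l) := by
  unfold Ap
  exact ((T.mφ.sub_const _).const_mul _).sub_const _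

theorem meas_B (l : ℝ) : Measurable (Ap g b0 b1 l) := by
  unfold Ap
  exact ((T.mg.sub_const _).const_mul _).sub_const _

theorem meas_ηF (l : ℝ) : Measurable fun u => η (Fp fx fy k l u) :=
  T.cont_η.measurable.comp (T.meas_F l)

theorem meas_η'F (l : ℝ) : Measurable fun u => η' (Fp fx fy k l u) :=
  T.hη'.measurable.comp (T.meas_F l)

theorem meas_Z (l : ℝ) : Measurable (Zp η fx fy φ g k a0 a1 b0 b1 l) :=
  ((T.meas_A l).mul (T.meas_B l)).mul (T.meas_ηF l)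

theorem meas_G (n : ℕ) (l : ℝ) : Measurable (Gp n η fx fy φ g k a0 a1 b0 b1 l) :=
  (T.meas_Z l).const_mul _

theorem meas_dZ (l : ℝ) : AEMeasurable (dZp η η' fx fy φ g dφ dg p k a0 a1 b0 b1 l) m :=
  ((((T.mdφ.const_mul l).mul (T.meas_B l).aemeasurable).mul (T.meas_ηF l).aemeasurable).add
    (((T.meas_A l).aemeasurable.mul (T.mdg.const_mul l)).mul (T.meas_ηF l).aemeasurable)).add
    (((T.meas_A l).mul (T.meas_B l)).aemeasurable.mul ((T.meas_η'F l).aemeasurable.mul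
      (((T.mfy.const_mul 2).const_mul _).aemeasurable.add (T.mp.const_mul l))))

theorem meas_G' (n : ℕ) (l : ℝ) : Measurable (Gp' n η η' fx fy φ g k a0 a1 b0 b1 l) :=
  ((T.meas_Z l).const_mul _).add
    ((((((T.mφ.sub_const _).mul (T.meas_B l)).mul (T.meas_ηF l)).add
      (((T.meas_A l).mul (T.mg.sub_const _)).mul (T.meas_ηF l))).add
      (((T.meas_A l).mul (T.meas_B l)).mul ((T.meas_η'F l).mul
        (((T.mfy.const_mul _).add T.mfx).sub_const _)))).const_mul _)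

/-- uniform bounds for continuous expressions of the data -/
theorem bdd_of_cont (Φ : ℝ × ℝ × ℝ × ℝ × ℝ × ℝ × ℝ × ℝ → ℝ) (hΦ : Continuous Φ) :
    ∃ R : ℝ, ∀ᵐ u ∂m, ∀ l : ℝ, |l| ≤ 3 →
      |Φ (l, fx u, fy u, φ u, g u, dφ u, dg u, p u)| ≤ R := by
  obtain ⟨R, hR⟩ := T.bd
  set K : ℝ := max 3 (max R (max Sφ Sg)) with hK
  have k1 : 3 ≤ K := le_max_left _ _
  have k2 : R ≤ K := (le_max_left _ _).trans (le_max_right _ _)
  have k3 : Sφ ≤ K := (le_max_left _ _).trans ((le_max_right _ _).trans (le_max_right _ _))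
  have k4 : Sg ≤ K := (le_max_right _ _).trans ((le_max_right _ _).trans (le_max_right _ _))
  obtain ⟨M, hM⟩ := (isCompact_closedBall (0 : ℝ × ℝ × ℝ × ℝ × ℝ × ℝ × ℝ × ℝ)
    K).exists_bound_of_continuousOn hΦ.continuousOn
  refine ⟨M, ?_⟩
  filter_upwards [hR, T.bφ, T.bg] with u hu hφ hg l hl
  obtain ⟨u1, u2, u3, u4, u5⟩ := hu
  refine hM _ ?_
  rw [mem_closedBall_zero_iff]
  simp only [Prod.norm_def, Real.norm_eq_abs, sup_le_iff]
  exact ⟨hl.trans k1, u1.trans k2, u2.trans k2, hφ.trans k3, hg.trans k4, u3.trans k2,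
    u4.trans k2, u5.trans k2⟩

theorem bdd_Z : ∃ R : ℝ, ∀ᵐ u ∂m, ∀ l : ℝ, |l| ≤ 3 →
    |Zp η fx fy φ g k a0 a1 b0 b1 l u| ≤ R := by
  have hc := T.cont_η
  obtain ⟨R, hR⟩ := T.bdd_of_cont (fun q => (q.1 * (q.2.2.2.1 - a0) - (a1 - a0))
    * (q.1 * (q.2.2.2.2.1 - b0) - (b1 - b0))
    * η (q.1 * (q.1 - 1) * q.2.2.1 + q.1 * q.2.1 - (q.1 - 1) * k)) (by fun_prop)
  exact ⟨R, hR⟩

theorem bdd_G (n : ℕ) : ∃ R : ℝ, ∀ᵐ u ∂m, ∀ l : ℝ, |l| ≤ 3 →
    |Gp n η fx fy φ g k a0 a1 b0 b1 l u| ≤ R := by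
  have hc := T.cont_η
  obtain ⟨R, hR⟩ := T.bdd_of_cont (fun q => q.1 ^ n * ((q.1 * (q.2.2.2.1 - a0) - (a1 - a0))
    * (q.1 * (q.2.2.2.2.1 - b0) - (b1 - b0))
    * η (q.1 * (q.1 - 1) * q.2.2.1 + q.1 * q.2.1 - (q.1 - 1) * k))) (by fun_prop)
  exact ⟨R, hR⟩

theorem bdd_dZ : ∃ R : ℝ, ∀ᵐ u ∂m, ∀ l : ℝ, |l| ≤ 3 →
    |dZp η η' fx fy φ g dφ dg p k a0 a1 b0 b1 l u| ≤ R := by
  have hc := T.cont_η
  have hc' := T.hη'
  obtain ⟨R, hR⟩ := T.bdd_of_cont (fun q => q.1 * q.2.2.2.2.2.1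
      * (q.1 * (q.2.2.2.2.1 - b0) - (b1 - b0))
      * η (q.1 * (q.1 - 1) * q.2.2.1 + q.1 * q.2.1 - (q.1 - 1) * k)
    + (q.1 * (q.2.2.2.1 - a0) - (a1 - a0)) * (q.1 * q.2.2.2.2.2.2.1)
      * η (q.1 * (q.1 - 1) * q.2.2.1 + q.1 * q.2.1 - (q.1 - 1) * k)
    + (q.1 * (q.2.2.2.1 - a0) - (a1 - a0)) * (q.1 * (q.2.2.2.2.1 - b0) - (b1 - b0))
      * (η' (q.1 * (q.1 - 1) * q.2.2.1 + q.1 * q.2.1 - (q.1 - 1) * k)
      * (q.1 * (q.1 - 1) * (2 * q.2.2.1) + q.1 * q.2.2.2.2.2.2.2))) (by fun_prop)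
  exact ⟨R, hR⟩

theorem bdd_G' (n : ℕ) : ∃ R : ℝ, ∀ᵐ u ∂m, ∀ l : ℝ, |l| ≤ 3 →
    |Gp' n η η' fx fy φ g k a0 a1 b0 b1 l u| ≤ R := by
  have hc := T.cont_η
  have hc' := T.hη'
  obtain ⟨R, hR⟩ := T.bdd_of_cont (fun q => n * q.1 ^ (n - 1)
      * ((q.1 * (q.2.2.2.1 - a0) - (a1 - a0)) * (q.1 * (q.2.2.2.2.1 - b0) - (b1 - b0))
      * η (q.1 * (q.1 - 1) * q.2.2.1 + q.1 * q.2.1 - (q.1 - 1) * k))
    + q.1 ^ n * ((q.2.2.2.1 - a0) * (q.1 * (q.2.2.2.2.1 - b0) - (b1 - b0))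
        * η (q.1 * (q.1 - 1) * q.2.2.1 + q.1 * q.2.1 - (q.1 - 1) * k)
      + (q.1 * (q.2.2.2.1 - a0) - (a1 - a0)) * (q.2.2.2.2.1 - b0)
        * η (q.1 * (q.1 - 1) * q.2.2.1 + q.1 * q.2.1 - (q.1 - 1) * k)
      + (q.1 * (q.2.2.2.1 - a0) - (a1 - a0)) * (q.1 * (q.2.2.2.2.1 - b0) - (b1 - b0))
        * (η' (q.1 * (q.1 - 1) * q.2.2.1 + q.1 * q.2.1 - (q.1 - 1) * k)
        * ((2 * q.1 - 1) * q.2.2.1 + q.2.1 - k)))) (by fun_prop)
  exact ⟨R, hR⟩

variable [IsFiniteMeasure m]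

omit T in
theorem integrable_of_bdd' {f : X → ℝ} (hf : AEMeasurable f m) {R : ℝ}
    (h : ∀ᵐ u ∂m, |f u| ≤ R) : Integrable f m :=
  Integrable.of_bound hf.aestronglyMeasurable R (by simpa using h)

theorem int_Z {l : ℝ} (hl : |l| ≤ 3) : Integrable (Zp η fx fy φ g k a0 a1 b0 b1 l) m := by
  obtain ⟨R, hR⟩ := T.bdd_Z
  exact integrable_of_bdd' (T.meas_Z l).aemeasurable (hR.mono fun u h => h l hl)

theorem int_G (n : ℕ) {l : ℝ} (hl : |l| ≤ 3) :
    Integrable (Gp n η fx fy φ g k a0 a1 b0 b1 l) m := by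
  obtain ⟨R, hR⟩ := T.bdd_G n
  exact integrable_of_bdd' (T.meas_G n l).aemeasurable (hR.mono fun u h => h l hl)

theorem int_dZ {l : ℝ} (hl : |l| ≤ 3) :
    Integrable (dZp η η' fx fy φ g dφ dg p k a0 a1 b0 b1 l) m := by
  obtain ⟨R, hR⟩ := T.bdd_dZ
  exact integrable_of_bdd' (T.meas_dZ l) (hR.mono fun u h => h l hl)

theorem hasDerivAt_int (n : ℕ) {l : ℝ} (hl : l ∈ Icc (1 : ℝ) 2) :
    HasDerivAt (fun l => ∫ u, Gp n η fx fy φ g k a0 a1 b0 b1 l u ∂m)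
      (∫ u, Gp' n η η' fx fy φ g k a0 a1 b0 b1 l u ∂m) l := by
  obtain ⟨R, hR⟩ := T.bdd_G' n
  have hs : Ioo (0 : ℝ) 3 ∈ 𝓝 l := Ioo_mem_nhds (by linarith [hl.1]) (by linarith [hl.2])
  have hab : ∀ x ∈ Ioo (0 : ℝ) 3, |x| ≤ 3 := fun x hx => by
    rw [abs_of_pos hx.1]; exact hx.2.le
  refine (hasDerivAt_integral_of_dominated_loc_of_deriv_le (bound := fun _ => R) hs ?_ ?_ ?_ ?_
    (integrable_const _) ?_).2
  · exact Eventually.of_forall fun l => (T.meas_G n l).aestronglyMeasurable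
  · exact T.int_G n (hab l (mem_of_mem_nhds hs))
  · exact (T.meas_G' n l).aestronglyMeasurable
  · filter_upwards [hR] with u hu x hx
    exact hu x (hab x hx)
  · exact Eventually.of_forall fun u x _ => hasDerivAt_Gp n T.hη fx fy φ g k a0 a1 b0 b1 x u

omit T in
theorem integral_five {A B C D E : X → ℝ} (hA : Integrable A m) (hB : Integrable B m)
    (hC : Integrable C m) (hD : Integrable D m) (hE : Integrable E m) (c l : ℝ) :
    ∫ u, (A u + c * B u - l * C u - l * D u - l * E u) ∂m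
      = (∫ u, A u ∂m) + c * (∫ u, B u ∂m) - l * (∫ u, C u ∂m) - l * (∫ u, D u ∂m)
        - l * (∫ u, E u ∂m) := by
  have k2 : Integrable (fun u => c * B u) m := hB.const_mul c
  have k3 : Integrable (fun u => l * C u) m := hC.const_mul l
  have k4 : Integrable (fun u => l * D u) m := hD.const_mul l
  have k5 : Integrable (fun u => l * E u) m := hE.const_mul l
  have s1 : Integrable (fun u => A u + c * B u) m := hA.add k2
  have s2 : Integrable (fun u => A u + c * B u - l * C u) m := s1.sub k3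
  have s3 : Integrable (fun u => A u + c * B u - l * C u - l * D u) m := s2.sub k4
  rw [integral_sub s3 k5, integral_sub s2 k4, integral_sub s1 k3, integral_add hA k2,
    integral_const_mul, integral_const_mul, integral_const_mul, integral_const_mul]

/-- **Transport lemma, one half.** -/
theorem transport {n : ℕ} (hn : 1 ≤ n) {M : ℝ}
    (hM : ∀ l ∈ Icc (1 : ℝ) 2, |(∫ u, dZp η η' fx fy φ g dφ dg p k a0 a1 b0 b1 l u ∂m)
      + n * ∫ u, Zp η fx fy φ g k a0 a1 b0 b1 l u ∂m| ≤ M) :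
    |(∫ u, Gp n η fx fy φ g k a0 a1 b0 b1 2 u ∂m)
        - ∫ u, (φ u - a1) * (g u - b1) * η (fx u) ∂m|
      ≤ 2 ^ n * (M + 8 * cη * Sg * (∫ u, |dφ u - (φ u - a0)| ∂m)
        + 8 * cη * Sφ * (∫ u, |dg u - (g u - b0)| ∂m)
        + 32 * cη * Sφ * Sg * (∫ u, |p u - (fx u + fy u - k)| ∂m)) := by
  have hS1 := T.Sφ_nonneg
  have hS2 := T.Sg_nonneg
  have hc := T.cη_nonneg
  obtain ⟨R, hR⟩ := T.bd
  -- integrability of the three error functions
  have i1 : Integrable (fun u => dφ u - (φ u - a0)) m := by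
    have e1 : Integrable dφ m := integrable_of_bdd' T.mdφ (hR.mono fun u h => h.2.2.1)
    have e2 : Integrable φ m := integrable_of_bdd' T.mφ.aemeasurable T.bφ
    exact e1.sub (e2.sub (integrable_const _))
  have i2 : Integrable (fun u => dg u - (g u - b0)) m := by
    have e1 : Integrable dg m := integrable_of_bdd' T.mdg (hR.mono fun u h => h.2.2.2.1)
    have e2 : Integrable g m := integrable_of_bdd' T.mg.aemeasurable T.bg
    exact e1.sub (e2.sub (integrable_const _))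
  have i3 : Integrable (fun u => p u - (fx u + fy u - k)) m := by
    have e1 : Integrable p m := integrable_of_bdd' T.mp (hR.mono fun u h => h.2.2.2.2)
    have e2 : Integrable fx m := integrable_of_bdd' T.mfx.aemeasurable (hR.mono fun u h => h.1)
    have e3 : Integrable fy m := integrable_of_bdd' T.mfy.aemeasurable (hR.mono fun u h => h.2.1)
    exact e1.sub ((e2.add e3).sub (integrable_const _))
  set Bd : ℝ := 2 ^ n * (M + 8 * cη * Sg * (∫ u, |dφ u - (φ u - a0)| ∂m)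
        + 8 * cη * Sφ * (∫ u, |dg u - (g u - b0)| ∂m)
        + 32 * cη * Sφ * Sg * (∫ u, |p u - (fx u + fy u - k)| ∂m)) with hBd
  -- derivative bound
  have key : ∀ l ∈ Icc (1 : ℝ) 2,
      ‖∫ u, Gp' n η η' fx fy φ g k a0 a1 b0 b1 l u ∂m‖ ≤ Bd := by
    intro l hl
    have hl1 := hl.1
    have hl2 := hl.2
    have hl3 : |l| ≤ 3 := by rw [abs_of_nonneg (by linarith)]; linarith
    have hl0 : 0 ≤ l := by linarith
    -- bounds of the multipliers
    have w1 : ∀ᵐ u ∂m, |Ap g b0 b1 l u * η (Fp fx fy k l u)| ≤ 4 * Sg * cη := by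
      filter_upwards [T.bg] with u hu
      rw [abs_mul]
      exact mul_le_mul (abs_Ap_le hu T.bb0 T.bb1 hl1 hl2) (T.bη _) (abs_nonneg _) (by positivity)
    have w2 : ∀ᵐ u ∂m, |Ap φ a0 a1 l u * η (Fp fx fy k l u)| ≤ 4 * Sφ * cη := by
      filter_upwards [T.bφ] with u hu
      rw [abs_mul]
      exact mul_le_mul (abs_Ap_le hu T.ba0 T.ba1 hl1 hl2) (T.bη _) (abs_nonneg _) (by positivity)
    have w3 : ∀ᵐ u ∂m, |Ap φ a0 a1 l u * Ap g b0 b1 l u * η' (Fp fx fy k l u)|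
        ≤ 16 * Sφ * Sg * cη := by
      filter_upwards [T.bφ, T.bg] with u hu hg
      rw [abs_mul, abs_mul]
      calc _ ≤ (4 * Sφ) * (4 * Sg) * cη := by
            gcongr
            · exact abs_Ap_le hu T.ba0 T.ba1 hl1 hl2
            · exact abs_Ap_le hg T.bb0 T.bb1 hl1 hl2
            · exact T.bη' _
        _ = _ := by ring
    have gen : ∀ (e w : X → ℝ) (W : ℝ), Integrable e m → Measurable w →
        (∀ᵐ u ∂m, |w u| ≤ W) → 0 ≤ W →
        Integrable (fun u => e u * w u) m ∧ |∫ u, e u * w u ∂m| ≤ W * ∫ u, |e u| ∂m := by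
      intro e w W he hw hW hW0
      have j1 : Integrable (fun u => e u * w u) m := by
        refine he.mul_bdd (c := W) hw.aestronglyMeasurable ?_
        simpa using hW
      refine ⟨j1, ?_⟩
      calc |∫ u, e u * w u ∂m| ≤ ∫ u, |e u * w u| ∂m := abs_integral_le_integral_abs
        _ ≤ ∫ u, W * |e u| ∂m := by
            refine integral_mono_ae j1.abs (he.abs.const_mul W) ?_
            filter_upwards [hW] with u hu
            show |e u * w u| ≤ W * |e u|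
            rw [abs_mul, mul_comm]
            exact mul_le_mul_of_nonneg_right hu (abs_nonneg _)
        _ = _ := integral_const_mul _ _
    obtain ⟨j1, b1'⟩ := gen (fun u => dφ u - (φ u - a0))
      (fun u => Ap g b0 b1 l u * η (Fp fx fy k l u)) _ i1 ((T.meas_B l).mul (T.meas_ηF l)) w1
      (by positivity)
    obtain ⟨j2, b2'⟩ := gen (fun u => dg u - (g u - b0))
      (fun u => Ap φ a0 a1 l u * η (Fp fx fy k l u)) _ i2 ((T.meas_A l).mul (T.meas_ηF l)) w2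
      (by positivity)
    obtain ⟨j3, b3'⟩ := gen (fun u => p u - (fx u + fy u - k))
      (fun u => Ap φ a0 a1 l u * Ap g b0 b1 l u * η' (Fp fx fy k l u)) _ i3
      (((T.meas_A l).mul (T.meas_B l)).mul (T.meas_η'F l)) w3 (by positivity)
    have hrep : ∫ u, Gp' n η η' fx fy φ g k a0 a1 b0 b1 l u ∂m
        = l ^ (n - 1) * (((∫ u, dZp η η' fx fy φ g dφ dg p k a0 a1 b0 b1 l u ∂m)
          + n * ∫ u, Zp η fx fy φ g k a0 a1 b0 b1 l u ∂m)
          - l * (∫ u, (dφ u - (φ u - a0)) * (Ap g b0 b1 l u * η (Fp fx fy k l u)) ∂m)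
          - l * (∫ u, (dg u - (g u - b0)) * (Ap φ a0 a1 l u * η (Fp fx fy k l u)) ∂m)
          - l * (∫ u, (p u - (fx u + fy u - k)) * (Ap φ a0 a1 l u * Ap g b0 b1 l u
            * η' (Fp fx fy k l u)) ∂m)) := by
      have e0 : ∀ u, Gp' n η η' fx fy φ g k a0 a1 b0 b1 l u = _ :=
        fun u => mul_Gp' hn η η' fx fy φ g dφ dg p k a0 a1 b0 b1 l u
      rw [integral_congr_ae (Eventually.of_forall e0), integral_const_mul]
      congr 1
      exact integral_five (T.int_dZ hl3) (T.int_Z hl3) j1 j2 j3 _ _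
    rw [hrep, Real.norm_eq_abs, abs_mul]
    have hpow : |l ^ (n - 1)| ≤ 2 ^ (n - 1) := by
      rw [abs_pow, abs_of_nonneg hl0]
      exact pow_le_pow_left₀ hl0 hl2 _
    have hM' := hM l hl
    have hM0 : 0 ≤ M := (abs_nonneg _).trans hM'
    have tot : |((∫ u, dZp η η' fx fy φ g dφ dg p k a0 a1 b0 b1 l u ∂m)
          + n * ∫ u, Zp η fx fy φ g k a0 a1 b0 b1 l u ∂m)
          - l * (∫ u, (dφ u - (φ u - a0)) * (Ap g b0 b1 l u * η (Fp fx fy k l u)) ∂m)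
          - l * (∫ u, (dg u - (g u - b0)) * (Ap φ a0 a1 l u * η (Fp fx fy k l u)) ∂m)
          - l * (∫ u, (p u - (fx u + fy u - k)) * (Ap φ a0 a1 l u * Ap g b0 b1 l u
            * η' (Fp fx fy k l u)) ∂m)|
        ≤ M + 8 * cη * Sg * (∫ u, |dφ u - (φ u - a0)| ∂m)
        + 8 * cη * Sφ * (∫ u, |dg u - (g u - b0)| ∂m)
        + 32 * cη * Sφ * Sg * (∫ u, |p u - (fx u + fy u - k)| ∂m) := by
      have lm : ∀ (a b : ℝ), |a| ≤ b → |l * a| ≤ 2 * b := fun a b h => by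
        rw [abs_mul, abs_of_nonneg hl0]
        exact mul_le_mul hl2 h (abs_nonneg _) (by norm_num)
      have c1 := lm _ _ b1'
      have c2 := lm _ _ b2'
      have c3 := lm _ _ b3'
      have gen4 : ∀ (a b c d B1 B2 B3 : ℝ), |a| ≤ M → |b| ≤ B1 → |c| ≤ B2 → |d| ≤ B3 →
          |a - b - c - d| ≤ M + B1 + B2 + B3 := by
        intro a b c d B1 B2 B3 h1 h2 h3 h4
        have q1 := abs_sub (a - b - c) d
        have q2 := abs_sub (a - b) c
        have q3 := abs_sub a b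
        linarith
      refine (gen4 _ _ _ _ _ _ _ hM' c1 c2 c3).trans (le_of_eq ?_)
      ring
    rw [hBd]
    refine mul_le_mul ?_ tot (abs_nonneg _) (by positivity)
    exact hpow.trans (pow_le_pow_right₀ (by norm_num) (by omega))
  have hmv := (convex_Icc (1 : ℝ) 2).norm_image_sub_le_of_norm_hasDerivWithin_le
    (f := fun l => ∫ u, Gp n η fx fy φ g k a0 a1 b0 b1 l u ∂m)
    (fun l hl => (T.hasDerivAt_int n hl).hasDerivWithinAt) key
    (left_mem_Icc.2 (by norm_num)) (right_mem_Icc.2 (by norm_num))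
  have h1 : (∫ u, Gp n η fx fy φ g k a0 a1 b0 b1 1 u ∂m)
      = ∫ u, (φ u - a1) * (g u - b1) * η (fx u) ∂m := by
    refine integral_congr_ae (Eventually.of_forall fun u => ?_)
    simp only [Gp, Zp, Ap, Fp]
    rw [show (1 : ℝ) * (1 - 1) * fy u + 1 * fx u - (1 - 1) * k = fx u by ring]
    ring
  rw [← h1]
  refine hmv.trans (le_of_eq ?_)
  norm_num

end TD

end Crest.Agent.R247.Pl4661
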