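import Crest.Agent.R247.Pl4_661
import Crest.Agent.R247.Gap1_79

/-!
R247 block (2b), helper661: the unit scale environment and the two-sided transport lemma.
-/

set_option autoImplicit false
set_option linter.unusedSectionVars false

noncomputable section

namespace Crest.Agent.R247.Pl5661

open MeasureTheory Set Filter Topology Crest.Agent.R247.Pl4661
open Crest.Agent.R247.Gap79 (K P)

variable {X W : Type*} [MeasurableSpace X] [MeasurableSpace W]

/-- cut-off pair: `η = -φt'`. -/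
structure Cut (η η' φt : ℝ → ℝ) (cη : ℝ) : Prop where
  hη : ∀ t, HasDerivAt η (η' t) t
  hη' : Continuous η'
  hφ : ∀ t, HasDerivAt φt (-η t) t
  η0 : ∀ t, 0 ≤ η t
  bη : ∀ t, η t ≤ cη
  bη' : ∀ t, |η' t| ≤ cη
  φ0 : ∀ t, 0 ≤ φt t
  φ1 : ∀ t, φt t ≤ 1
  far : ∀ t, 2 ≤ t → η t = 0 ∧ η' t = 0 ∧ φt t = 0

namespace Cut
variable {η η' φt : ℝ → ℝ} {cη : ℝ} (c : Cut η η' φt cη)
include c

theorem cη0 : 0 ≤ cη := (abs_nonneg _).trans (c.bη' 0)
theorem abs_η (t : ℝ) : |η t| ≤ cη := by rw [abs_of_nonneg (c.η0 t)]; exact c.bη t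
theorem cont_η : Continuous η := continuous_iff_continuousAt.2 fun t => (c.hη t).continuousAt
theorem cont_φ : Continuous φt := continuous_iff_continuousAt.2 fun t => (c.hφ t).continuousAt

end Cut

/-- The unit scale environment on a bounded set `B`.  `f a u` is half the squared distance,
`G a b = Γ(f_a, f_b)`, `h w` a far distance function, `Gh a w = Γ(f_a, h_w)`;
`R a φ dφ` means that `φ` is locally Lipschitz with derivative `dφ = Γ(f_a, φ)` a.e. -/
structure Env (vol : Measure X) (R : X → (X → ℝ) → (X → ℝ) → Prop)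
    (f : X → X → ℝ) (G : X → X → X → ℝ) (h : W → X → ℝ) (Gh : X → W → X → ℝ)
    (B : Set X) (F : ℝ) : Prop where
  symm : ∀ a b, f a b = f b a
  self : ∀ a, f a a = 0
  nonneg : ∀ a b, 0 ≤ f a b
  mf : Measurable (fun p : X × X => f p.1 p.2)
  mh : Measurable (fun p : W × X => h p.1 p.2)
  mG : ∀ a b, AEMeasurable (G a b) vol
  mGh : ∀ a w, AEMeasurable (Gh a w) vol
  Gsymm : ∀ a b, ∀ᵐ u ∂vol, G a b u = G b a u
  Gself : ∀ a, ∀ᵐ u ∂vol, G a a u = 2 * f a u
  mB : MeasurableSet B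
  fin : vol B ≠ ⊤
  F0 : 0 ≤ F
  fF : ∀ a ∈ B, ∀ u ∈ B, f a u ≤ F
  GF : ∀ a ∈ B, ∀ b ∈ B, ∀ᵐ u ∂(vol.restrict B), |G a b u| ≤ F
  hF : ∀ w, ∀ a ∈ B, ∀ u ∈ B, |h w a - h w u| ≤ F
  GhF : ∀ a ∈ B, ∀ w, ∀ᵐ u ∂(vol.restrict B), |Gh a w u| ≤ F
  Rconst : ∀ a (c : ℝ), R a (fun _ => c) (fun _ => 0)
  Radd : ∀ a φ φ' ψ ψ', R a φ φ' → R a ψ ψ' → R a (fun u => φ u + ψ u) (fun u => φ' u + ψ' u)
  Rmul : ∀ a φ φ' ψ ψ', R a φ φ' → R a ψ ψ' →
    R a (fun u => φ u * ψ u) (fun u => φ' u * ψ u + φ u * ψ' u)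
  Rcomp : ∀ a φ φ' (g g' : ℝ → ℝ), R a φ φ' → (∀ t, HasDerivAt g (g' t) t) → Continuous g' →
    R a (fun u => g (φ u)) (fun u => g' (φ u) * φ' u)
  Rcongr : ∀ a φ φ' ψ', R a φ φ' → φ' =ᵐ[vol] ψ' → R a φ ψ'
  Rf : ∀ a b, R a (f b) (G a b)
  Rh : ∀ a w, R a (h w) (Gh a w)

/-- `(m)` at the centre `a`: the comparison functional is small. -/
def MB (vol : Measure X) (R : X → (X → ℝ) → (X → ℝ) → Prop) (n : ℕ) (B : Set X) (a : X)
    (β : ℝ) : Prop :=
  ∀ (ζ dζ : X → ℝ) (S : ℝ), R a ζ dζ → (∀ u, u ∉ B → ζ u = 0) → (∀ u, |ζ u| ≤ S) →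
    |(∫ u, dζ u ∂vol) + n * ∫ u, ζ u ∂vol| ≤ S * β

/-- outside `B` the functions `f_a` are large -/
def Far (f : X → X → ℝ) (B : Set X) (L : ℝ) (a : X) : Prop := ∀ u, u ∉ B → 2 + L ≤ f a u

section

variable {vol : Measure X} {R : X → (X → ℝ) → (X → ℝ) → Prop}
    {f : X → X → ℝ} {G : X → X → X → ℝ} {h : W → X → ℝ} {Gh : X → W → X → ℝ}
    {B : Set X} {F : ℝ} {η η' φt : ℝ → ℝ} {cη : ℝ} {n : ℕ}

namespace Env

variable (E : Env vol R f G h Gh B F)
include E

theorem Rlin (a : X) {φ φ' : X → ℝ} (hφ : R a φ φ') (l κ : ℝ) :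
    R a (fun u => l * φ u + κ) (fun u => l * φ' u) := by
  have h1 := E.Rmul a _ _ _ _ (E.Rconst a l) hφ
  have h2 := E.Radd a _ _ _ _ h1 (E.Rconst a κ)
  refine E.Rcongr a _ _ _ h2 (Eventually.of_forall fun u => ?_)
  show 0 * φ u + l * φ' u + 0 = l * φ' u
  ring

theorem mfa (a : X) : Measurable (f a) :=
  E.mf.comp (measurable_const.prodMk measurable_id)

theorem mha (w : W) : Measurable (h w) :=
  E.mh.comp (measurable_const.prodMk measurable_id)

theorem finB : IsFiniteMeasure (vol.restrict B) := ⟨by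
  rw [Measure.restrict_apply_univ]; exact lt_top_iff_ne_top.2 E.fin⟩

end Env

/-- one conical function -/
structure Con (vol : Measure X) (R : X → (X → ℝ) → (X → ℝ) → Prop) (B : Set X) (x y : X)
    (φ dφx dφy : X → ℝ) (vx vy S : ℝ) : Prop where
  m : Measurable φ
  mx : AEMeasurable dφx vol
  my : AEMeasurable dφy vol
  Rx : R x φ dφx
  Ry : R y φ dφy
  bφ : ∀ u ∈ B, |φ u| ≤ S
  bx : ∃ C : ℝ, ∀ᵐ u ∂(vol.restrict B), |dφx u| ≤ C
  by' : ∃ C : ℝ, ∀ᵐ u ∂(vol.restrict B), |dφy u| ≤ C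
  bvx : |vx| ≤ S
  bvy : |vy| ≤ S

theorem Con.symm {x y : X} {φ dφx dφy : X → ℝ} {vx vy S : ℝ}
    (c : Con vol R B x y φ dφx dφy vx vy S) : Con vol R B y x φ dφy dφx vy vx S :=
  ⟨c.m, c.my, c.mx, c.Ry, c.Rx, c.bφ, c.by', c.bx, c.bvy, c.bvx⟩

/-- the support of the path stays in `B` -/
theorem Fp_far {x y : X} {k L : ℝ} (E : Env vol R f G h Gh B F) (hk : |k| ≤ L)
    (hx : Far f B L x) {l : ℝ} (hl : l ∈ Icc (1 : ℝ) 2) {u : X} (hu : u ∉ B) :
    2 ≤ Fp (f x) (f y) k l u := by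
  have h1 := hx u hu
  have h2 := E.nonneg y u
  have h3 := E.nonneg x u
  have h4 := (abs_le.1 hk).2
  have h5 : 0 ≤ L := (abs_nonneg _).trans hk
  obtain ⟨l1, l2⟩ := hl
  unfold Fp
  have e1 : 0 ≤ l * (l - 1) * f y u := by
    have : 0 ≤ l * (l - 1) := mul_nonneg (by linarith) (by linarith)
    positivity
  have e2 : f x u ≤ l * f x u := by nlinarith
  have e3 : (l - 1) * k ≤ L := by nlinarith
  linarith

/-- half of the transport from `x` to the middle, derivatives taken along `y`. -/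
theorem half {x y : X} (E : Env vol R f G h Gh B F) (c : Cut η η' φt cη) (hn : 1 ≤ n)
    (hxB : x ∈ B) (hyB : y ∈ B) {k L β : ℝ} (hk : |k| ≤ L) (hfx : Far f B L x)
    (hm : MB vol R n B y β)
    {φ dφx dφy : X → ℝ} {vx vy S : ℝ} (cφ : Con vol R B x y φ dφx dφy vx vy S)
    {g dgx dgy : X → ℝ} {wx wy S' : ℝ} (cg : Con vol R B x y g dgx dgy wx wy S') :
    |(∫ u in B, Gp n η (f x) (f y) φ g k vy vx wy wx 2 u ∂vol)
        - ∫ u in B, (φ u - vx) * (g u - wx) * η (f x u) ∂vol|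
      ≤ 2 ^ n * (16 * S * S' * cη * β + 8 * cη * S' * (∫ u in B, |dφy u - (φ u - vy)| ∂vol)
        + 8 * cη * S * (∫ u in B, |dgy u - (g u - wy)| ∂vol)
        + 32 * cη * S * S' * (∫ u in B, |G y x u - (f x u + f y u - k)| ∂vol)) := by
  have := E.finB
  have hc0 := c.cη0
  have hS : 0 ≤ S := (abs_nonneg _).trans cφ.bvx
  have hS' : 0 ≤ S' := (abs_nonneg _).trans cg.bvx
  obtain ⟨C1, hC1⟩ := cφ.by'
  obtain ⟨C2, hC2⟩ := cg.by'
  have T : TD (vol.restrict B) η η' (f x) (f y) φ g dφy dgy (G y x) k vy vx wy wx cη S S' := by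
    refine ⟨c.hη, c.hη', c.abs_η, c.bη', E.mfa x, E.mfa y, cφ.m, cg.m, cφ.my.restrict,
      cg.my.restrict, (E.mG y x).restrict, ⟨max F (max C1 C2), ?_⟩, ?_, ?_, cφ.bvy, cφ.bvx,
      cg.bvy, cg.bvx⟩
    · filter_upwards [hC1, hC2, E.GF y hyB x hxB, ae_restrict_mem E.mB] with u h1 h2 h3 hu
      refine ⟨?_, ?_, h1.trans ?_, h2.trans ?_, h3.trans (le_max_left _ _)⟩
      · rw [abs_of_nonneg (E.nonneg x u)]
        exact (E.fF x hxB u hu).trans (le_max_left _ _)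
      · rw [abs_of_nonneg (E.nonneg y u)]
        exact (E.fF y hyB u hu).trans (le_max_left _ _)
      · exact (le_max_left _ _).trans (le_max_right _ _)
      · exact (le_max_right _ _).trans (le_max_right _ _)
    · filter_upwards [ae_restrict_mem E.mB] with u hu using cφ.bφ u hu
    · filter_upwards [ae_restrict_mem E.mB] with u hu using cg.bφ u hu
  refine T.transport hn (M := 16 * S * S' * cη * β) ?_
  intro l hl
  -- the test function
  have hfar : ∀ u, u ∉ B → 2 ≤ Fp (f x) (f y) k l u := fun u hu => Fp_far E hk hfx hl hu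
  have hZ0 : ∀ u, u ∉ B → Zp η (f x) (f y) φ g k vy vx wy wx l u = 0 := by
    intro u hu
    unfold Zp
    rw [(c.far _ (hfar u hu)).1, mul_zero]
  have hdZ0 : ∀ u, u ∉ B →
      dZp η η' (f x) (f y) φ g dφy dgy (G y x) k vy vx wy wx l u = 0 := by
    intro u hu
    unfold dZp
    rw [(c.far _ (hfar u hu)).1, (c.far _ (hfar u hu)).2.1]
    ring
  have hRA : R y (Ap φ vy vx l) (fun u => l * dφy u) := by
    have := E.Rlin y cφ.Ry l (-(l * vy) - (vx - vy))
    have e : (fun u => l * φ u + (-(l * vy) - (vx - vy))) = Ap φ vy vx l := by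
      funext u; unfold Ap; ring
    rwa [e] at this
  have hRB : R y (Ap g wy wx l) (fun u => l * dgy u) := by
    have := E.Rlin y cg.Ry l (-(l * wy) - (wx - wy))
    have e : (fun u => l * g u + (-(l * wy) - (wx - wy))) = Ap g wy wx l := by
      funext u; unfold Ap; ring
    rwa [e] at this
  have hRF : R y (Fp (f x) (f y) k l) (fun u => l * (l - 1) * (2 * f y u) + l * G y x u) := by
    have h1 := E.Rlin y (E.Rf y y) (l * (l - 1)) 0
    have h2 := E.Rlin y (E.Rf y x) l (-((l - 1) * k))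
    have h3 := E.Radd y _ _ _ _ h1 h2
    have e : (fun u => (l * (l - 1) * f y u + 0) + (l * f x u + -((l - 1) * k)))
        = Fp (f x) (f y) k l := by
      funext u; unfold Fp; ring
    rw [e] at h3
    refine E.Rcongr y _ _ _ h3 ?_
    filter_upwards [E.Gself y] with u hu
    rw [hu]
  have hRη : R y (fun u => η (Fp (f x) (f y) k l u))
      (fun u => η' (Fp (f x) (f y) k l u) * (l * (l - 1) * (2 * f y u) + l * G y x u)) :=
    E.Rcomp y _ _ η η' hRF c.hη c.hη'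
  have hRZ : R y (Zp η (f x) (f y) φ g k vy vx wy wx l)
      (dZp η η' (f x) (f y) φ g dφy dgy (G y x) k vy vx wy wx l) := by
    have h1 := E.Rmul y _ _ _ _ (E.Rmul y _ _ _ _ hRA hRB) hRη
    refine E.Rcongr y _ _ _ h1 (Eventually.of_forall fun u => ?_)
    simp only [dZp]
    ring
  have hZS : ∀ u, |Zp η (f x) (f y) φ g k vy vx wy wx l u| ≤ 16 * S * S' * cη := by
    intro u
    by_cases hu : u ∈ B
    · unfold Zp
      rw [abs_mul, abs_mul]
      calc _ ≤ (4 * S) * (4 * S') * cη := by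
            refine mul_le_mul (mul_le_mul ?_ ?_ (abs_nonneg _) (by linarith)) (c.abs_η _)
              (abs_nonneg _) (mul_nonneg (by linarith) (by linarith))
            · exact abs_Ap_le (cφ.bφ u hu) cφ.bvy cφ.bvx hl.1 hl.2
            · exact abs_Ap_le (cg.bφ u hu) cg.bvy cg.bvx hl.1 hl.2
        _ = _ := by ring
    · rw [hZ0 u hu, abs_zero]
      have := mul_nonneg (mul_nonneg hS hS') hc0
      nlinarith
  have h1 := hm _ _ _ hRZ hZ0 hZS
  rw [← setIntegral_eq_integral_of_forall_compl_eq_zero (s := B) hZ0,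
    ← setIntegral_eq_integral_of_forall_compl_eq_zero (s := B) hdZ0] at h1
  exact h1

/-- the middle expression is symmetric -/
theorem Gp_two_symm (x y : X) (φ g : X → ℝ) (k vx vy wx wy : ℝ) (u : X) :
    Gp n η (f x) (f y) φ g k vy vx wy wx 2 u = Gp n η (f y) (f x) φ g k vx vy wx wy 2 u := by
  unfold Gp Zp Ap Fp
  have e : (2 : ℝ) * (2 - 1) * f y u + 2 * f x u - (2 - 1) * k
      = 2 * (2 - 1) * f x u + 2 * f y u - (2 - 1) * k := by ring
  rw [e]
  ring

/-- **two-sided transport** -/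
theorem two_sided {x y : X} (E : Env vol R f G h Gh B F) (c : Cut η η' φt cη) (hn : 1 ≤ n)
    (hxB : x ∈ B) (hyB : y ∈ B) {k L βx βy : ℝ} (hk : |k| ≤ L) (hfx : Far f B L x)
    (hfy : Far f B L y) (hmx : MB vol R n B x βx) (hmy : MB vol R n B y βy)
    {φ dφx dφy : X → ℝ} {vx vy S : ℝ} (cφ : Con vol R B x y φ dφx dφy vx vy S)
    {g dgx dgy : X → ℝ} {wx wy S' : ℝ} (cg : Con vol R B x y g dgx dgy wx wy S') :
    |(∫ u in B, (φ u - vy) * (g u - wy) * η (f y u) ∂vol)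
        - ∫ u in B, (φ u - vx) * (g u - wx) * η (f x u) ∂vol|
      ≤ 2 ^ n * (16 * S * S' * cη * (βx + βy)
        + 8 * cη * S' * ((∫ u in B, |dφx u - (φ u - vx)| ∂vol)
          + ∫ u in B, |dφy u - (φ u - vy)| ∂vol)
        + 8 * cη * S * ((∫ u in B, |dgx u - (g u - wx)| ∂vol)
          + ∫ u in B, |dgy u - (g u - wy)| ∂vol)
        + 64 * cη * S * S' * (∫ u in B, |G y x u - (f x u + f y u - k)| ∂vol)) := by
  have h1 := half E c hn hxB hyB hk hfx hmy cφ cg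
  have h2 := half E c hn hyB hxB hk hfy hmx cφ.symm cg.symm
  have e1 : (∫ u in B, Gp n η (f x) (f y) φ g k vy vx wy wx 2 u ∂vol)
      = ∫ u in B, Gp n η (f y) (f x) φ g k vx vy wx wy 2 u ∂vol := by
    congr 1; funext u; exact Gp_two_symm x y φ g k vx vy wx wy u
  have e2 : (∫ u in B, |G x y u - (f y u + f x u - k)| ∂vol)
      = ∫ u in B, |G y x u - (f x u + f y u - k)| ∂vol := by
    refine integral_congr_ae ?_
    filter_upwards [ae_restrict_of_ae (E.Gsymm x y)] with u hu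
    rw [hu, add_comm (f y u)]
  rw [e1] at h1
  rw [e2] at h2
  have h3 := abs_sub_le (∫ u in B, (φ u - vy) * (g u - wy) * η (f y u) ∂vol)
    (∫ u in B, Gp n η (f y) (f x) φ g k vx vy wx wy 2 u ∂vol)
    (∫ u in B, (φ u - vx) * (g u - wx) * η (f x u) ∂vol)
  rw [abs_sub_comm] at h2
  calc _ ≤ _ := h3
    _ ≤ _ := add_le_add h2 h1
    _ = _ := by ring

end

end Crest.Agent.R247.Pl5661
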