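import Crest.Agent.R247.Pl5_661

/-!
R247 block (2b), helper661: the pointwise kernel estimates (T1)-(T6) at unit scale
(interface of helper923, msg 6892).
-/

set_option autoImplicit false
set_option linter.unusedSectionVars false

noncomputable section

namespace Crest.Agent.R247.Pl6661

open MeasureTheory Set Filter Topology Crest.Agent.R247.Pl4661 Crest.Agent.R247.Pl5661
open scoped ENNReal
open Crest.Agent.R247.Gap79 (K P)

variable {X W : Type*} [MeasurableSpace X] [MeasurableSpace W]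
variable {vol : Measure X} {R : X → (X → ℝ) → (X → ℝ) → Prop}
    {f : X → X → ℝ} {G : X → X → X → ℝ} {h : W → X → ℝ} {Gh : X → W → X → ℝ}
    {B : Set X} {F : ℝ} {η η' φt : ℝ → ℝ} {cη : ℝ} {n : ℕ}

/-! ### the conical functions -/

theorem abs_K_le (E : Env vol R f G h Gh B F) {x z u : X} (hx : x ∈ B) (hz : z ∈ B)
    (hu : u ∈ B) : |K f x z u| ≤ 2 * F := by
  unfold K
  have h1 := E.fF x hx z hz
  have h2 := E.fF x hx u hu
  have h3 := E.fF z hz u hu
  have p1 := E.nonneg x z
  have p2 := E.nonneg x u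
  have p3 := E.nonneg z u
  have := E.F0
  rw [abs_le]
  constructor <;> linarith

theorem meas_K (E : Env vol R f G h Gh B F) (x z : X) : Measurable (K f x z) := by
  unfold K
  exact (measurable_const.add (E.mfa x)).sub (E.mfa z)

theorem R_K (E : Env vol R f G h Gh B F) (a x z : X) :
    R a (K f x z) (fun u => G a x u - G a z u) := by
  have h1 := E.Rlin a (E.Rf a x) 1 (f x z)
  have h2 := E.Rlin a (E.Rf a z) (-1) 0
  have h3 := E.Radd a _ _ _ _ h1 h2
  have e : (fun u => (1 * f x u + f x z) + (-1 * f z u + 0)) = K f x z := by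
    funext u; unfold K; ring
  rw [e] at h3
  refine E.Rcongr a _ _ _ h3 (Eventually.of_forall fun u => ?_)
  show 1 * G a x u + -1 * G a z u = G a x u - G a z u
  ring

theorem bd_GG (E : Env vol R f G h Gh B F) {a x z : X} (ha : a ∈ B) (hx : x ∈ B)
    (hz : z ∈ B) : ∀ᵐ u ∂(vol.restrict B), |G a x u - G a z u| ≤ 2 * F := by
  filter_upwards [E.GF a ha x hx, E.GF a ha z hz] with u h1 h2
  refine (abs_sub _ _).trans ?_
  linarith

theorem conK (E : Env vol R f G h Gh B F) {x y z : X} (hx : x ∈ B) (hy : y ∈ B) (hz : z ∈ B)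
    {c : ℝ} (hc : |c| ≤ F) :
    Con vol R B x y (K f x z) (fun u => G x x u - G x z u) (fun u => G y x u - G y z u)
      0 (K f x z y - c) (3 * F) where
  m := meas_K E x z
  mx := (E.mG x x).sub (E.mG x z)
  my := (E.mG y x).sub (E.mG y z)
  Rx := R_K E x x z
  Ry := R_K E y x z
  bφ := fun u hu => (abs_K_le E hx hz hu).trans (by have := E.F0; linarith)
  bx := ⟨2 * F, bd_GG E hx hx hz⟩
  by' := ⟨2 * F, bd_GG E hy hx hz⟩
  bvx := by rw [abs_zero]; have := E.F0; linarith
  bvy := by
    refine (abs_sub _ _).trans ?_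
    have := abs_K_le E hx hz hy
    linarith

theorem conH (E : Env vol R f G h Gh B F) {x y : X} (hx : x ∈ B) (hy : y ∈ B) (w : W) :
    Con vol R B x y (fun u => h w u - h w x) (Gh x w) (Gh y w) 0 (h w y - h w x) F where
  m := (E.mha w).sub_const _
  mx := E.mGh x w
  my := E.mGh y w
  Rx := by
    have h1 := E.Rlin x (E.Rh x w) 1 (-(h w x))
    have e : (fun u => 1 * h w u + -(h w x)) = fun u => h w u - h w x := by
      funext u; ring
    rw [e] at h1
    exact E.Rcongr x _ _ _ h1 (Eventually.of_forall fun u => one_mul _)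
  Ry := by
    have h1 := E.Rlin y (E.Rh y w) 1 (-(h w x))
    have e : (fun u => 1 * h w u + -(h w x)) = fun u => h w u - h w x := by
      funext u; ring
    rw [e] at h1
    exact E.Rcongr y _ _ _ h1 (Eventually.of_forall fun u => one_mul _)
  bφ := fun u hu => by rw [abs_sub_comm]; exact E.hF w x hx u hu
  bx := ⟨F, E.GhF x hx w⟩
  by' := ⟨F, E.GhF y hy w⟩
  bvx := by rw [abs_zero]; exact E.F0
  bvy := by rw [abs_sub_comm]; exact E.hF w x hx y hy

/-! ### the error functions -/

theorem mP (E : Env vol R f G h Gh B F) (a v : X) : AEMeasurable (P f G a v) vol := by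
  unfold P
  exact (((E.mG a v).sub (E.mfa a).aemeasurable).sub (E.mfa v).aemeasurable).add_const _

theorem bd_P (E : Env vol R f G h Gh B F) {a v : X} (ha : a ∈ B) (hv : v ∈ B) :
    ∀ᵐ u ∂(vol.restrict B), |P f G a v u| ≤ 4 * F := by
  filter_upwards [E.GF a ha v hv, ae_restrict_mem E.mB] with u h0 hu
  unfold P
  have h1 := E.fF a ha u hu
  have h2 := E.fF v hv u hu
  have h3 := E.fF a ha v hv
  have p1 := E.nonneg a u
  have p2 := E.nonneg v u
  have p3 := E.nonneg a v
  have := E.F0
  rw [abs_le] at *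
  constructor <;> linarith [h0.1, h0.2]

theorem int_P (E : Env vol R f G h Gh B F) {a v : X} (ha : a ∈ B) (hv : v ∈ B) :
    Integrable (P f G a v) (vol.restrict B) := by
  have := E.finB
  exact TD.integrable_of_bdd' (mP E a v).restrict (bd_P E ha hv)

theorem int_Pc (E : Env vol R f G h Gh B F) {a v : X} (ha : a ∈ B) (hv : v ∈ B) (c : ℝ) :
    Integrable (fun u => P f G a v u - c) (vol.restrict B) := by
  have := E.finB
  exact (int_P E ha hv).sub (integrable_const _)

/-- the far defect -/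
def EE (h : W → X → ℝ) (Gh : X → W → X → ℝ) (x : X) (u : X) (w : W) : ℝ :=
  Gh x w u - (h w u - h w x)

theorem int_EE (E : Env vol R f G h Gh B F) {a : X} (ha : a ∈ B) (w : W) :
    Integrable (fun u => EE h Gh a u w) (vol.restrict B) := by
  have := E.finB
  refine TD.integrable_of_bdd' (R := 2 * F)
    ((E.mGh a w).sub ((E.mha w).sub_const _).aemeasurable).restrict ?_
  filter_upwards [E.GhF a ha w, ae_restrict_mem E.mB] with u h1 hu
  unfold EE
  have h2 := E.hF w a ha u hu
  rw [abs_sub_comm] at h2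
  refine (abs_sub _ _).trans ?_
  linarith

theorem errK_x (E : Env vol R f G h Gh B F) (x z : X) :
    ∫ u in B, |(G x x u - G x z u) - (K f x z u - 0)| ∂vol = ∫ u in B, |P f G x z u| ∂vol := by
  refine integral_congr_ae ?_
  filter_upwards [ae_restrict_of_ae (E.Gself x)] with u hu
  show |(G x x u - G x z u) - (K f x z u - 0)| = |P f G x z u|
  rw [hu, ← abs_neg (P f G x z u)]
  congr 1
  unfold K P
  ring

theorem errK_y (E : Env vol R f G h Gh B F) {x y z : X} (hx : x ∈ B) (hy : y ∈ B)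
    (hz : z ∈ B) (c : ℝ) :
    ∫ u in B, |(G y x u - G y z u) - (K f x z u - (K f x z y - c))| ∂vol
      ≤ (∫ u in B, |P f G y z u| ∂vol) + ∫ u in B, |P f G x y u - c| ∂vol := by
  have i1 := (int_P E hy hz).abs
  have i2 := (int_Pc E hx hy c).abs
  rw [← integral_add i1 i2]
  refine integral_mono_of_nonneg (Eventually.of_forall fun u => abs_nonneg _) (i1.add i2) ?_
  filter_upwards [ae_restrict_of_ae (E.Gsymm x y)] with u hu
  show |(G y x u - G y z u) - (K f x z u - (K f x z y - c))|
    ≤ |P f G y z u| + |P f G x y u - c|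
  have e : (G y x u - G y z u) - (K f x z u - (K f x z y - c))
      = (P f G x y u - c) - P f G y z u := by
    unfold K P
    rw [← hu, E.symm z y]
    ring
  rw [e, add_comm]
  exact abs_sub _ _

theorem err_c (E : Env vol R f G h Gh B F) (x y : X) (c : ℝ) :
    ∫ u in B, |G y x u - (f x u + f y u - (f y x - c))| ∂vol
      = ∫ u in B, |P f G x y u - c| ∂vol := by
  refine integral_congr_ae ?_
  filter_upwards [ae_restrict_of_ae (E.Gsymm x y)] with u hu
  show |G y x u - (f x u + f y u - (f y x - c))| = |P f G x y u - c|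
  congr 1
  unfold P
  rw [← hu, E.symm y x]
  ring

/-! ### integrals over `B` and over the space -/

theorem setInt_eq (c : Cut η η' φt cη) {L : ℝ} (hL : 0 ≤ L) {x : X} (hfx : Far f B L x)
    (q : X → ℝ) : ∫ u in B, q u * η (f x u) ∂vol = ∫ u, q u * η (f x u) ∂vol := by
  refine setIntegral_eq_integral_of_forall_compl_eq_zero fun u hu => ?_
  rw [(c.far _ (by have := hfx u hu; linarith)).1, mul_zero]

theorem setInt_eq_four (E : Env vol R f G h Gh B F) (c : Cut η η' φt cη) {L : ℝ} (hL : 0 ≤ L)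
    {x : X} (hfx : Far f B L x) (q : X → ℝ) :
    ∫ u in B, q u * η (4 * f x u) ∂vol = ∫ u, q u * η (4 * f x u) ∂vol := by
  refine setIntegral_eq_integral_of_forall_compl_eq_zero fun u hu => ?_
  have h1 := hfx u hu
  have h2 := E.nonneg x u
  rw [(c.far _ (by linarith)).1, mul_zero]

theorem setInt_φ (c : Cut η η' φt cη) {L : ℝ} (hL : 0 ≤ L) {x : X} (hfx : Far f B L x) :
    ∫ u in B, φt (f x u) ∂vol = ∫ u, φt (f x u) ∂vol := by
  refine setIntegral_eq_integral_of_forall_compl_eq_zero fun u hu => ?_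
  exact (c.far _ (by have := hfx u hu; linarith)).2.2

/-! ### two-centre integration by parts -/

theorem ibp2 {x y : X} (E : Env vol R f G h Gh B F) (c : Cut η η' φt cη)
    (hxB : x ∈ B) (hyB : y ∈ B) {L β : ℝ} (hL : 0 ≤ L) (hfx : Far f B L x)
    (hmx : MB vol R n B x β) (hmy : MB vol R n B y β)
    {g dgx dgy : X → ℝ} {wx wy S : ℝ} (cg : Con vol R B x y g dgx dgy wx wy S) (c0 : ℝ) :
    |(wy - wx) * (∫ u in B, φt (f x u) ∂vol)
        - ∫ u in B, g u * (K f x y u - c0) * η (f x u) ∂vol|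
      ≤ 2 * S * β + (∫ u in B, |dgx u - (g u - wx)| ∂vol)
        + (∫ u in B, |dgy u - (g u - wy)| ∂vol)
        + S * cη * ∫ u in B, |P f G x y u - c0| ∂vol := by
  have := E.finB
  have hc0 := c.cη0
  have hS : 0 ≤ S := (abs_nonneg _).trans cg.bvx
  obtain ⟨C1, hC1⟩ := cg.bx
  obtain ⟨C2, hC2⟩ := cg.by'
  have mφ : Measurable fun u => φt (f x u) := c.cont_φ.measurable.comp (E.mfa x)
  have mη : Measurable fun u => η (f x u) := c.cont_η.measurable.comp (E.mfa x)
  have bφ : ∀ u, |φt (f x u)| ≤ 1 := fun u => by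
    rw [abs_of_nonneg (c.φ0 _)]; exact c.φ1 _
  -- the test function and its derivatives
  have hfar : ∀ u, u ∉ B → 2 ≤ f x u := fun u hu => by have := hfx u hu; linarith
  have hR : ∀ a dg, R a g dg → R a (fun u => g u * φt (f x u))
      (fun u => dg u * φt (f x u) + g u * (-η (f x u) * G a x u)) := fun a dg hg =>
    E.Rmul a _ _ _ _ hg (E.Rcomp a _ _ φt (fun t => -η t) (E.Rf a x) c.hφ c.cont_η.neg)
  have hζ0 : ∀ u, u ∉ B → g u * φt (f x u) = 0 := fun u hu => by
    rw [(c.far _ (hfar u hu)).2.2, mul_zero]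
  have hζS : ∀ u, |g u * φt (f x u)| ≤ S := by
    intro u
    by_cases hu : u ∈ B
    · rw [abs_mul]
      calc _ ≤ S * 1 := mul_le_mul (cg.bφ u hu) (bφ u) (abs_nonneg _) hS
        _ = S := mul_one _
    · rw [hζ0 u hu, abs_zero]; exact hS
  have h1 := hmx _ _ _ (hR x dgx cg.Rx) hζ0 hζS
  have h2 := hmy _ _ _ (hR y dgy cg.Ry) hζ0 hζS
  have hd0 : ∀ a (dg : X → ℝ), ∀ u, u ∉ B →
      dg u * φt (f x u) + g u * (-η (f x u) * G a x u) = 0 := fun a dg u hu => by
    rw [(c.far _ (hfar u hu)).2.2, (c.far _ (hfar u hu)).1]; ring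
  rw [← setIntegral_eq_integral_of_forall_compl_eq_zero (s := B) hζ0,
    ← setIntegral_eq_integral_of_forall_compl_eq_zero (s := B) (hd0 x dgx)] at h1
  rw [← setIntegral_eq_integral_of_forall_compl_eq_zero (s := B) hζ0,
    ← setIntegral_eq_integral_of_forall_compl_eq_zero (s := B) (hd0 y dgy)] at h2
  -- integrability
  have gi : Integrable g (vol.restrict B) := TD.integrable_of_bdd' cg.m.aemeasurable
    (by filter_upwards [ae_restrict_mem E.mB] with u hu using cg.bφ u hu)
  have dxi : Integrable dgx (vol.restrict B) := TD.integrable_of_bdd' cg.mx.restrict hC1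
  have dyi : Integrable dgy (vol.restrict B) := TD.integrable_of_bdd' cg.my.restrict hC2
  have mulφ : ∀ {q : X → ℝ}, Integrable q (vol.restrict B) →
      Integrable (fun u => q u * φt (f x u)) (vol.restrict B) := fun hq =>
    hq.mul_bdd (c := 1) mφ.aestronglyMeasurable (Eventually.of_forall bφ)
  have mulη : ∀ {q : X → ℝ}, Integrable q (vol.restrict B) →
      Integrable (fun u => q u * η (f x u)) (vol.restrict B) := fun hq =>
    hq.mul_bdd (c := cη) mη.aestronglyMeasurable
      (Eventually.of_forall fun u => c.abs_η _)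
  have mulg : ∀ {q : X → ℝ}, Integrable q (vol.restrict B) →
      Integrable (fun u => q u * g u) (vol.restrict B) := fun hq =>
    hq.mul_bdd (c := S) cg.m.aestronglyMeasurable
      (by filter_upwards [ae_restrict_mem E.mB] with u hu using cg.bφ u hu)
  have Gi : ∀ {a b : X}, a ∈ B → b ∈ B → Integrable (G a b) (vol.restrict B) := fun ha hb =>
    TD.integrable_of_bdd' (E.mG _ _).restrict (E.GF _ ha _ hb)
  have kxi : ∀ {a : X}, a ∈ B → Integrable (fun u => g u * (-η (f x u) * G a x u))
      (vol.restrict B) := fun ha => by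
    refine ((mulη (mulg (Gi ha hxB))).neg).congr (Eventually.of_forall fun u => ?_)
    show -(G _ x u * g u * η (f x u)) = g u * (-η (f x u) * G _ x u)
    ring
  have ex : Integrable (fun u => dgx u - (g u - wx)) (vol.restrict B) :=
    dxi.sub (gi.sub (integrable_const _))
  have ey : Integrable (fun u => dgy u - (g u - wy)) (vol.restrict B) :=
    dyi.sub (gi.sub (integrable_const _))
  have Pi' : Integrable (fun u => P f G x y u - c0) (vol.restrict B) := int_Pc E hxB hyB c0
  have iφ : Integrable (fun u => φt (f x u)) (vol.restrict B) :=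
    TD.integrable_of_bdd' mφ.aemeasurable (Eventually.of_forall bφ)
  -- the K term
  have Ki : Integrable (fun u => K f x y u - c0) (vol.restrict B) := by
    refine Integrable.sub ?_ (integrable_const _)
    refine TD.integrable_of_bdd' (meas_K E x y).aemeasurable (R := 2 * F) ?_
    filter_upwards [ae_restrict_mem E.mB] with u hu using abs_K_le E hxB hyB hu
  have t1 : Integrable (fun u => (wy - wx) * φt (f x u)) (vol.restrict B) := iφ.const_mul _
  have t2 : Integrable (fun u => g u * (K f x y u - c0) * η (f x u)) (vol.restrict B) := by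
    refine (mulη (mulg Ki)).congr (Eventually.of_forall fun u => ?_)
    show (K f x y u - c0) * g u * η (f x u) = g u * (K f x y u - c0) * η (f x u)
    ring
  have t3 : Integrable (fun u => (dgx u - (g u - wx)) * φt (f x u)) (vol.restrict B) := mulφ ex
  have t4 : Integrable (fun u => (dgy u - (g u - wy)) * φt (f x u)) (vol.restrict B) := mulφ ey
  have t5 : Integrable (fun u => (P f G x y u - c0) * (g u * η (f x u))) (vol.restrict B) := by
    refine (mulη (mulg Pi')).congr (Eventually.of_forall fun u => ?_)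
    show (P f G x y u - c0) * g u * η (f x u) = (P f G x y u - c0) * (g u * η (f x u))
    ring
  have key : (∫ u in B, (dgx u * φt (f x u) + g u * (-η (f x u) * G x x u)) ∂vol)
      - (∫ u in B, (dgy u * φt (f x u) + g u * (-η (f x u) * G y x u)) ∂vol)
      = (wy - wx) * (∫ u in B, φt (f x u) ∂vol)
        - (∫ u in B, g u * (K f x y u - c0) * η (f x u) ∂vol)
        + (∫ u in B, (dgx u - (g u - wx)) * φt (f x u) ∂vol)
        - (∫ u in B, (dgy u - (g u - wy)) * φt (f x u) ∂vol)
        + ∫ u in B, (P f G x y u - c0) * (g u * η (f x u)) ∂vol := by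
    have s1 : Integrable (fun u => (wy - wx) * φt (f x u)
        - g u * (K f x y u - c0) * η (f x u)) (vol.restrict B) := t1.sub t2
    have s2 : Integrable (fun u => (wy - wx) * φt (f x u)
        - g u * (K f x y u - c0) * η (f x u)
        + (dgx u - (g u - wx)) * φt (f x u)) (vol.restrict B) := s1.add t3
    have s3 : Integrable (fun u => (wy - wx) * φt (f x u)
        - g u * (K f x y u - c0) * η (f x u)
        + (dgx u - (g u - wx)) * φt (f x u)
        - (dgy u - (g u - wy)) * φt (f x u)) (vol.restrict B) := s2.sub t4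
    have q1 : Integrable (fun u => dgx u * φt (f x u) + g u * (-η (f x u) * G x x u))
        (vol.restrict B) := (mulφ dxi).add (kxi hxB)
    have q2 : Integrable (fun u => dgy u * φt (f x u) + g u * (-η (f x u) * G y x u))
        (vol.restrict B) := (mulφ dyi).add (kxi hyB)
    rw [← integral_sub q1 q2,
      ← integral_const_mul, ← integral_sub t1 t2, ← integral_add s1 t3, ← integral_sub s2 t4,
      ← integral_add s3 t5]
    refine integral_congr_ae ?_
    filter_upwards [ae_restrict_of_ae (E.Gself x), ae_restrict_of_ae (E.Gsymm x y)] with u hu hs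
    rw [hu, ← hs]
    unfold K P
    ring
  have b3 : |∫ u in B, (dgx u - (g u - wx)) * φt (f x u) ∂vol|
      ≤ ∫ u in B, |dgx u - (g u - wx)| ∂vol := by
    refine abs_integral_le_integral_abs.trans (integral_mono_ae t3.abs ex.abs ?_)
    refine Eventually.of_forall fun u => ?_
    show |(dgx u - (g u - wx)) * φt (f x u)| ≤ |dgx u - (g u - wx)|
    rw [abs_mul]
    exact mul_le_of_le_one_right (abs_nonneg _) (bφ u)
  have b4 : |∫ u in B, (dgy u - (g u - wy)) * φt (f x u) ∂vol|
      ≤ ∫ u in B, |dgy u - (g u - wy)| ∂vol := by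
    refine abs_integral_le_integral_abs.trans (integral_mono_ae t4.abs ey.abs ?_)
    refine Eventually.of_forall fun u => ?_
    show |(dgy u - (g u - wy)) * φt (f x u)| ≤ |dgy u - (g u - wy)|
    rw [abs_mul]
    exact mul_le_of_le_one_right (abs_nonneg _) (bφ u)
  have b5 : |∫ u in B, (P f G x y u - c0) * (g u * η (f x u)) ∂vol|
      ≤ S * cη * ∫ u in B, |P f G x y u - c0| ∂vol := by
    rw [← integral_const_mul]
    refine abs_integral_le_integral_abs.trans
      (integral_mono_ae t5.abs (Pi'.abs.const_mul _) ?_)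
    filter_upwards [ae_restrict_mem E.mB] with u hu
    show |(P f G x y u - c0) * (g u * η (f x u))| ≤ S * cη * |P f G x y u - c0|
    rw [abs_mul, abs_mul, mul_comm]
    refine mul_le_mul_of_nonneg_right ?_ (abs_nonneg _)
    exact mul_le_mul (cg.bφ u hu) (c.abs_η _) (abs_nonneg _) hS
  have gen : ∀ (a b m1 m2 e3 e4 e5 A3 A4 A5 : ℝ), |m1| ≤ S * β → |m2| ≤ S * β →
      m1 - m2 = a - b + e3 - e4 + e5 → |e3| ≤ A3 → |e4| ≤ A4 → |e5| ≤ A5 →
      |a - b| ≤ 2 * S * β + A3 + A4 + A5 := by
    intro a b m1 m2 e3 e4 e5 A3 A4 A5 h1 h2 he h3 h4 h5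
    rw [abs_le] at *
    constructor <;> linarith [h1.1, h1.2, h2.1, h2.2, h3.1, h3.2, h4.1, h4.2, h5.1, h5.2]
  refine gen _ _ _ _ _ _ _ _ _ _ h1 h2 ?_ b3 b4 b5
  rw [← key]
  ring

/-! ### (T1)-(T6), real form -/

section T

variable {x y : X} (E : Env vol R f G h Gh B F) (c : Cut η η' φt cη) (hn : 1 ≤ n)
  (hxB : x ∈ B) (hyB : y ∈ B) {L β : ℝ} (hfx : Far f B L x) (hfy : Far f B L y)
  (hmx : MB vol R n B x β) (hmy : MB vol R n B y β) {c0 : ℝ} (hc0 : |c0| ≤ F)
  (hL : |f y x - c0| ≤ L)

/-- the constant of all estimates -/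
def C1 (n : ℕ) (F cη : ℝ) : ℝ := 2 ^ n * (1 + cη) * (1000 * (1 + F) ^ 2)

include E c hxB hyB hfx hmx hmy hL

theorem T1_real (w : W) :
    |(∫ u, φt (f x u) ∂vol) * (h w y - h w x)
        - ∫ u, (h w u - h w x) * (K f x u y - c0) * η (f x u) ∂vol|
      ≤ 2 * F * β + (∫ u in B, |EE h Gh x u w| ∂vol) + (∫ u in B, |EE h Gh y u w| ∂vol)
        + F * cη * ∫ u in B, |P f G x y u - c0| ∂vol := by
  have hF := E.F0
  have hL0 : 0 ≤ L := (abs_nonneg _).trans hL
  have h1 := ibp2 E c hxB hyB hL0 hfx hmx hmy (conH E hxB hyB w) c0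
  rw [setInt_φ c hL0 hfx, setInt_eq c hL0 hfx] at h1
  have e1 : (∫ u in B, |Gh x w u - ((h w u - h w x) - 0)| ∂vol)
      = ∫ u in B, |EE h Gh x u w| ∂vol := by
    congr 1; funext u; unfold EE; rw [sub_zero]
  have e2 : (∫ u in B, |Gh y w u - ((h w u - h w x) - (h w y - h w x))| ∂vol)
      = ∫ u in B, |EE h Gh y u w| ∂vol := by
    congr 1; funext u; unfold EE; congr 1; ring
  rw [e1, e2] at h1
  have e3 : ∀ u, K f x u y = K f x y u := fun u => Gap79.K_symm E.symm x u y
  simp_rw [e3]
  rw [sub_zero, mul_comm (h w y - h w x)] at h1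
  exact h1

theorem T2_real {z : X} (hz : z ∈ B) (hc0 : |c0| ≤ F) :
    |(∫ u, K f x z u * (K f x u y - c0) * η (f x u) ∂vol)
        - (∫ u, φt (f x u) ∂vol) * (K f x z y - c0)|
      ≤ 6 * F * β + (∫ u in B, |P f G x z u| ∂vol) + (∫ u in B, |P f G y z u| ∂vol)
        + (1 + 3 * F * cη) * ∫ u in B, |P f G x y u - c0| ∂vol := by
  have hF := E.F0
  have hL0 : 0 ≤ L := (abs_nonneg _).trans hL
  have h1 := ibp2 E c hxB hyB hL0 hfx hmx hmy (conK E hxB hyB hz hc0) c0
  rw [setInt_φ c hL0 hfx, setInt_eq c hL0 hfx, errK_x E] at h1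
  have h2 := errK_y E hxB hyB hz c0
  have e3 : ∀ u, K f x u y = K f x y u := fun u => Gap79.K_symm E.symm x u y
  simp_rw [e3]
  rw [abs_sub_comm, mul_comm (∫ u, φt (f x u) ∂vol)]
  rw [sub_zero, e3 z] at h1
  rw [e3 z] at h2
  refine h1.trans ?_
  linarith

include hn hfy

/-- transport for two kernels. -/
theorem T3_real {z w : X} (hz : z ∈ B) (hw : w ∈ B) (hc0 : |c0| ≤ F) :
    |(∫ v, K f y w v * (K f x z v - K f x z y + c0) * η (f y v) ∂vol)
        - ∫ u, (K f y w u - K f y w x + c0) * K f x z u * η (f x u) ∂vol|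
      ≤ 2 ^ n * (16 * (3 * F) * (3 * F) * cη * (β + β)
        + 8 * cη * (3 * F) * ((∫ u in B, |P f G x z u| ∂vol)
          + ((∫ u in B, |P f G y z u| ∂vol) + ∫ u in B, |P f G x y u - c0| ∂vol))
        + 8 * cη * (3 * F) * (((∫ u in B, |P f G x w u| ∂vol)
          + ∫ u in B, |P f G x y u - c0| ∂vol) + ∫ u in B, |P f G y w u| ∂vol)
        + 64 * cη * (3 * F) * (3 * F) * ∫ u in B, |P f G x y u - c0| ∂vol) := by
  have hF := E.F0
  have hc := c.cη0
  have hL0 : 0 ≤ L := (abs_nonneg _).trans hL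
  have hk : |f y x - c0| ≤ L := hL
  have h1 := two_sided E c hn hxB hyB hk hfx hfy hmx hmy (conK E hxB hyB hz hc0)
    (conK E hyB hxB hw hc0).symm
  rw [errK_x E, errK_x E, err_c E] at h1
  have h2 := errK_y E hxB hyB hz c0
  have h3 := errK_y E hyB hxB hw c0
  have e4 : (∫ u in B, |P f G y x u - c0| ∂vol) = ∫ u in B, |P f G x y u - c0| ∂vol := by
    refine integral_congr_ae ?_
    filter_upwards [ae_restrict_of_ae (E.Gsymm x y)] with u hu
    show |P f G y x u - c0| = |P f G x y u - c0|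
    congr 1
    unfold P
    rw [hu, E.symm y x]; ring
  rw [e4] at h3
  have e1 : (∫ u in B, (K f x z u - (K f x z y - c0)) * (K f y w u - 0) * η (f y u) ∂vol)
      = ∫ v, K f y w v * (K f x z v - K f x z y + c0) * η (f y v) ∂vol := by
    rw [setInt_eq c hL0 hfy]
    congr 1; funext u; ring
  have e2 : (∫ u in B, (K f x z u - 0) * (K f y w u - (K f y w x - c0)) * η (f x u) ∂vol)
      = ∫ u, (K f y w u - K f y w x + c0) * K f x z u * η (f x u) ∂vol := by
    rw [setInt_eq c hL0 hfx]
    congr 1; funext u; ring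
  rw [e1, e2] at h1
  refine h1.trans ?_
  have p : 0 ≤ 8 * cη * (3 * F) := by positivity
  refine mul_le_mul_of_nonneg_left ?_ (by positivity)
  have q1 := mul_le_mul_of_nonneg_left (add_le_add (le_refl (∫ u in B, |P f G x z u| ∂vol)) h2) p
  have q2 := mul_le_mul_of_nonneg_left (add_le_add h3 (le_refl (∫ u in B, |P f G y w u| ∂vol))) p
  linarith

/-- transport for a kernel and a far function. -/
theorem T4_real {z : X} (hz : z ∈ B) (w : W) (hc0 : |c0| ≤ F) :
    |(∫ v, (h w v - h w y) * (K f x z v - K f x z y + c0) * η (f y v) ∂vol)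
        - ∫ u, (h w u - h w x) * K f x z u * η (f x u) ∂vol|
      ≤ 2 ^ n * (16 * (3 * F) * F * cη * (β + β)
        + 8 * cη * F * ((∫ u in B, |P f G x z u| ∂vol)
          + ((∫ u in B, |P f G y z u| ∂vol) + ∫ u in B, |P f G x y u - c0| ∂vol))
        + 8 * cη * (3 * F) * ((∫ u in B, |EE h Gh x u w| ∂vol)
          + ∫ u in B, |EE h Gh y u w| ∂vol)
        + 64 * cη * (3 * F) * F * ∫ u in B, |P f G x y u - c0| ∂vol) := by
  have hF := E.F0
  have hc := c.cη0
  have hL0 : 0 ≤ L := (abs_nonneg _).trans hL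
  have hk : |f y x - c0| ≤ L := hL
  have h1 := two_sided E c hn hxB hyB hk hfx hfy hmx hmy (conK E hxB hyB hz hc0)
    (conH E hxB hyB w)
  rw [errK_x E, err_c E] at h1
  have h2 := errK_y E hxB hyB hz c0
  have e1 : (∫ u in B, (K f x z u - (K f x z y - c0)) * ((h w u - h w x) - (h w y - h w x))
      * η (f y u) ∂vol)
      = ∫ v, (h w v - h w y) * (K f x z v - K f x z y + c0) * η (f y v) ∂vol := by
    rw [setInt_eq c hL0 hfy]
    congr 1; funext u; ring
  have e2 : (∫ u in B, (K f x z u - 0) * ((h w u - h w x) - 0) * η (f x u) ∂vol)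
      = ∫ u, (h w u - h w x) * K f x z u * η (f x u) ∂vol := by
    rw [setInt_eq c hL0 hfx]
    congr 1; funext u; ring
  have e3 : (∫ u in B, |Gh x w u - ((h w u - h w x) - 0)| ∂vol)
      = ∫ u in B, |EE h Gh x u w| ∂vol := by
    congr 1; funext u; unfold EE; rw [sub_zero]
  have e4 : (∫ u in B, |Gh y w u - ((h w u - h w x) - (h w y - h w x))| ∂vol)
      = ∫ u in B, |EE h Gh y u w| ∂vol := by
    congr 1; funext u; unfold EE; congr 1; ring
  rw [e1, e2, e3, e4] at h1
  refine h1.trans ?_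
  have p : 0 ≤ 8 * cη * F := by positivity
  refine mul_le_mul_of_nonneg_left ?_ (by positivity)
  have q1 := mul_le_mul_of_nonneg_left (add_le_add (le_refl (∫ u in B, |P f G x z u| ∂vol)) h2) p
  linarith

end T

section S

variable {x : X} (E : Env vol R f G h Gh B F) (c : Cut η η' φt cη) (hn : 1 ≤ n)
  (hxB : x ∈ B) {L β : ℝ} (hfx : Far f B L x)
  (hmx : MB vol R n B x β) (hL : 0 ≤ L)

include E c hn hxB hfx hmx hL

/-- scale change for two kernels. -/
theorem T5_real {z w : X} (hz : z ∈ B) (hw : w ∈ B) :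
    |2 ^ (n + 2) * (∫ v, K f x w v * K f x z v * η (4 * f x v) ∂vol)
        - ∫ u, K f x w u * K f x z u * η (f x u) ∂vol|
      ≤ 2 ^ n * (16 * (3 * F) * (3 * F) * cη * β
        + 8 * cη * (3 * F) * (∫ u in B, |P f G x w u| ∂vol)
        + 8 * cη * (3 * F) * (∫ u in B, |P f G x z u| ∂vol)) := by
  have hF := E.F0
  have hc := c.cη0
  have h0 : |(0 : ℝ)| ≤ F := by rw [abs_zero]; exact hF
  have hk : |f x x - 0| ≤ L := by rw [E.self, sub_zero, abs_zero]; exact hL
  have cw := conK E hxB hxB hw h0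
  have cz := conK E hxB hxB hz h0
  have h1 := half E c hn hxB hxB hk hfx hmx cw cz
  have hv : ∀ z, K f x z x - 0 = 0 := fun z => by
    rw [Gap79.K_vertex E.self E.symm]; ring
  rw [hv w, hv z, errK_x E, errK_x E] at h1
  have e5 : (∫ u in B, |G x x u - (f x u + f x u - (f x x - 0))| ∂vol) = 0 := by
    refine (integral_congr_ae (g := fun _ => (0 : ℝ)) ?_).trans (integral_zero _ _)
    filter_upwards [ae_restrict_of_ae (E.Gself x)] with u hu
    rw [hu, E.self, abs_eq_zero]; ring
  rw [e5] at h1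
  have e1 : (∫ u in B, Gp n η (f x) (f x) (K f x w) (K f x z) (f x x - 0) 0 0 0 0 2 u ∂vol)
      = 2 ^ (n + 2) * ∫ v, K f x w v * K f x z v * η (4 * f x v) ∂vol := by
    rw [← setInt_eq_four E c hL hfx, ← integral_const_mul]
    congr 1; funext u
    unfold Gp Zp Ap Fp
    rw [E.self, show (2 : ℝ) * (2 - 1) * f x u + 2 * f x u - (2 - 1) * (0 - 0) = 4 * f x u by
      ring, pow_add]
    ring
  have e2 : (∫ u in B, (K f x w u - 0) * (K f x z u - 0) * η (f x u) ∂vol)
      = ∫ u, K f x w u * K f x z u * η (f x u) ∂vol := by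
    rw [setInt_eq c hL hfx]
    congr 1; funext u; ring
  rw [e1, e2] at h1
  refine h1.trans (le_of_eq ?_)
  ring

/-- scale change for a kernel and a far function. -/
theorem T6_real {z : X} (hz : z ∈ B) (w : W) :
    |2 ^ (n + 2) * (∫ v, (h w v - h w x) * K f x z v * η (4 * f x v) ∂vol)
        - ∫ u, (h w u - h w x) * K f x z u * η (f x u) ∂vol|
      ≤ 2 ^ n * (16 * F * (3 * F) * cη * β
        + 8 * cη * (3 * F) * (∫ u in B, |EE h Gh x u w| ∂vol)
        + 8 * cη * F * (∫ u in B, |P f G x z u| ∂vol)) := by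
  have hF := E.F0
  have hc := c.cη0
  have h0 : |(0 : ℝ)| ≤ F := by rw [abs_zero]; exact hF
  have hk : |f x x - 0| ≤ L := by rw [E.self, sub_zero, abs_zero]; exact hL
  have cw := conH E hxB hxB w
  have cz := conK E hxB hxB hz h0
  have h1 := half E c hn hxB hxB hk hfx hmx cw cz
  have hv : ∀ z, K f x z x - 0 = 0 := fun z => by
    rw [Gap79.K_vertex E.self E.symm]; ring
  rw [hv z, errK_x E, sub_self] at h1
  have e5 : (∫ u in B, |G x x u - (f x u + f x u - (f x x - 0))| ∂vol) = 0 := by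
    refine (integral_congr_ae (g := fun _ => (0 : ℝ)) ?_).trans (integral_zero _ _)
    filter_upwards [ae_restrict_of_ae (E.Gself x)] with u hu
    rw [hu, E.self, abs_eq_zero]; ring
  rw [e5] at h1
  have e1 : (∫ u in B, Gp n η (f x) (f x) (fun u => h w u - h w x) (K f x z) (f x x - 0)
      0 0 0 0 2 u ∂vol)
      = 2 ^ (n + 2) * ∫ v, (h w v - h w x) * K f x z v * η (4 * f x v) ∂vol := by
    rw [← setInt_eq_four E c hL hfx, ← integral_const_mul]
    congr 1; funext u
    unfold Gp Zp Ap Fp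
    rw [E.self, show (2 : ℝ) * (2 - 1) * f x u + 2 * f x u - (2 - 1) * (0 - 0) = 4 * f x u by
      ring, pow_add]
    ring
  have e2 : (∫ u in B, ((h w u - h w x) - 0) * (K f x z u - 0) * η (f x u) ∂vol)
      = ∫ u, (h w u - h w x) * K f x z u * η (f x u) ∂vol := by
    rw [setInt_eq c hL hfx]
    congr 1; funext u; ring
  have e3 : (∫ u in B, |Gh x w u - ((h w u - h w x) - 0)| ∂vol)
      = ∫ u in B, |EE h Gh x u w| ∂vol := by
    congr 1; funext u; unfold EE; rw [sub_zero]
  rw [e1, e2, e3] at h1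
  refine h1.trans (le_of_eq ?_)
  ring

end S

end Crest.Agent.R247.Pl6661
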