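import Crest.Agent.R247.Pl6_661

/-!
R247 block (2b), helper661: the pointwise kernel estimates (T1)-(T6) in `ℝ≥0∞` form
(interface of helper923, msg 6892).
-/

set_option autoImplicit false
set_option linter.unusedSectionVars false

noncomputable section

namespace Crest.Agent.R247.Pl7661

open MeasureTheory Set Filter Topology Crest.Agent.R247.Pl4661 Crest.Agent.R247.Pl5661
  Crest.Agent.R247.Pl6661
open scoped ENNReal
open Crest.Agent.R247.Gap79 (K P)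

variable {X W : Type*} [MeasurableSpace X] [MeasurableSpace W]
variable {vol : Measure X} {R : X → (X → ℝ) → (X → ℝ) → Prop}
    {f : X → X → ℝ} {G : X → X → X → ℝ} {h : W → X → ℝ} {Gh : X → W → X → ℝ}
    {B : Set X} {F : ℝ} {η η' φt : ℝ → ℝ} {cη : ℝ} {n : ℕ}

theorem MB.nonneg (E : Env vol R f G h Gh B F) {x : X} {β : ℝ} (hm : MB vol R n B x β) :
    0 ≤ β := by
  have h1 := hm _ _ 1 (E.Rconst x 0) (fun _ _ => rfl) (fun _ => by simp)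
  have h2 := (abs_nonneg _).trans h1
  linarith

/-- half of the constant -/
def Dc (F cη : ℝ) : ℝ := (1 + cη) * (1000 * (1 + F) ^ 2)

theorem C1_eq (n : ℕ) (F cη : ℝ) : C1 n F cη = 2 ^ n * Dc F cη := by
  unfold C1 Dc; ring

theorem Dc_facts {F cη : ℝ} (hF : 0 ≤ F) (hc : 0 ≤ cη) :
    1 ≤ Dc F cη ∧ 2 * F ≤ Dc F cη ∧ F * cη ≤ Dc F cη ∧ 6 * F ≤ Dc F cη ∧
    (1 + 3 * F * cη) ≤ Dc F cη ∧ 16 * (3 * F) * (3 * F) * cη * 2 ≤ Dc F cη ∧
    8 * cη * (3 * F) ≤ Dc F cη ∧ 8 * cη * F ≤ Dc F cη ∧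
    8 * cη * (3 * F) + 8 * cη * (3 * F) + 64 * cη * (3 * F) * (3 * F) ≤ Dc F cη ∧
    16 * (3 * F) * F * cη * 2 ≤ Dc F cη ∧
    8 * cη * F + 64 * cη * (3 * F) * F ≤ Dc F cη ∧
    16 * (3 * F) * (3 * F) * cη ≤ Dc F cη ∧ 16 * F * (3 * F) * cη ≤ Dc F cη := by
  have e : Dc F cη = 1000 * (1 + 2 * F + F ^ 2 + cη + 2 * (F * cη) + F ^ 2 * cη) := by
    unfold Dc; ring
  have p1 : 0 ≤ F * cη := mul_nonneg hF hc
  have p2 : 0 ≤ F ^ 2 := by positivity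
  have p3 : 0 ≤ F ^ 2 * cη := mul_nonneg p2 hc
  rw [e]
  refine ⟨?_, ?_, ?_, ?_, ?_, ?_, ?_, ?_, ?_, ?_, ?_, ?_, ?_⟩ <;> nlinarith

theorem one_le_two_pow' (n : ℕ) : (1 : ℝ) ≤ 2 ^ n := one_le_pow₀ (by norm_num)

theorem two_pow_nn (n : ℕ) : (0 : ℝ) ≤ 2 ^ n := by positivity

theorem Dc_le_C1 {F cη : ℝ} (hF : 0 ≤ F) (hc : 0 ≤ cη) (n : ℕ) : Dc F cη ≤ C1 n F cη := by
  rw [C1_eq]
  have h1 := (Dc_facts hF hc).1
  have h2 := one_le_two_pow' n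
  nlinarith

/-- conversion to `ℝ≥0∞` -/
theorem ofReal_int {m : Measure X} {g : X → ℝ} (hg : Integrable g m) :
    ENNReal.ofReal (∫ u, |g u| ∂m) = ∫⁻ u, ‖g u‖ₑ ∂m := by
  have := ofReal_integral_norm_eq_lintegral_enorm hg
  simpa [Real.norm_eq_abs] using this

theorem enorm_le_of (a C : ℝ) (hC : 0 ≤ C) {S : ℝ} (h : |a| ≤ C * S) :
    ‖a‖ₑ ≤ ENNReal.ofReal C * ENNReal.ofReal S := by
  rw [← ofReal_norm, Real.norm_eq_abs, ← ENNReal.ofReal_mul hC]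
  exact ENNReal.ofReal_le_ofReal h

section T

variable {x y : X} (E : Env vol R f G h Gh B F) (c : Cut η η' φt cη) (hn : 1 ≤ n)
  (hxB : x ∈ B) (hyB : y ∈ B) {L β : ℝ} (hfx : Far f B L x) (hfy : Far f B L y)
  (hmx : MB vol R n B x β) (hmy : MB vol R n B y β) {c0 : ℝ}
  (hL : |f y x - c0| ≤ L)

include E c hxB hyB hfx hmx hmy hL

theorem T1 (w : W) :
    ‖(∫ u, φt (f x u) ∂vol) * (h w y - h w x)
        - ∫ u, (h w u - h w x) * (K f x u y - c0) * η (f x u) ∂vol‖ₑ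
      ≤ ENNReal.ofReal (C1 n F cη) * (ENNReal.ofReal β + (∫⁻ u in B, ‖EE h Gh x u w‖ₑ ∂vol)
        + (∫⁻ u in B, ‖EE h Gh y u w‖ₑ ∂vol) + ∫⁻ u in B, ‖P f G x y u - c0‖ₑ ∂vol) := by
  have hF := E.F0
  have hc := c.cη0
  have hβ := MB.nonneg E hmx
  have h1 := T1_real E c hxB hyB hfx hmx hmy hL (c0 := c0) w
  have d := Dc_facts hF hc
  have dC := Dc_le_C1 hF hc n
  have n1 : 0 ≤ ∫ u in B, |EE h Gh x u w| ∂vol := integral_nonneg fun _ => abs_nonneg _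
  have n2 : 0 ≤ ∫ u in B, |EE h Gh y u w| ∂vol := integral_nonneg fun _ => abs_nonneg _
  have n3 : 0 ≤ ∫ u in B, |P f G x y u - c0| ∂vol := integral_nonneg fun _ => abs_nonneg _
  rw [← ofReal_int (int_EE E hxB w), ← ofReal_int (int_EE E hyB w),
    ← ofReal_int (int_Pc E hxB hyB c0), ← ENNReal.ofReal_add hβ n1,
    ← ENNReal.ofReal_add (add_nonneg hβ n1) n2,
    ← ENNReal.ofReal_add (add_nonneg (add_nonneg hβ n1) n2) n3]
  refine enorm_le_of _ _ (by linarith [d.1]) (h1.trans ?_)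
  have q0 := mul_le_mul_of_nonneg_right (d.2.1.trans dC) hβ
  have q1 := mul_le_mul_of_nonneg_right (d.1.trans dC) n1
  have q2 := mul_le_mul_of_nonneg_right (d.1.trans dC) n2
  have q3 := mul_le_mul_of_nonneg_right (d.2.2.1.trans dC) n3
  linarith

theorem T2 {z : X} (hz : z ∈ B) (hc0 : |c0| ≤ F) :
    ‖(∫ u, K f x z u * (K f x u y - c0) * η (f x u) ∂vol)
        - (∫ u, φt (f x u) ∂vol) * (K f x z y - c0)‖ₑ
      ≤ ENNReal.ofReal (C1 n F cη) * (ENNReal.ofReal β + (∫⁻ u in B, ‖P f G x z u‖ₑ ∂vol)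
        + (∫⁻ u in B, ‖P f G y z u‖ₑ ∂vol) + ∫⁻ u in B, ‖P f G x y u - c0‖ₑ ∂vol) := by
  have hF := E.F0
  have hc := c.cη0
  have hβ := MB.nonneg E hmx
  have h1 := T2_real E c hxB hyB hfx hmx hmy hL hz hc0
  have d := Dc_facts hF hc
  have dC := Dc_le_C1 hF hc n
  have n1 : 0 ≤ ∫ u in B, |P f G x z u| ∂vol := integral_nonneg fun _ => abs_nonneg _
  have n2 : 0 ≤ ∫ u in B, |P f G y z u| ∂vol := integral_nonneg fun _ => abs_nonneg _
  have n3 : 0 ≤ ∫ u in B, |P f G x y u - c0| ∂vol := integral_nonneg fun _ => abs_nonneg _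
  rw [← ofReal_int (int_P E hxB hz), ← ofReal_int (int_P E hyB hz),
    ← ofReal_int (int_Pc E hxB hyB c0), ← ENNReal.ofReal_add hβ n1,
    ← ENNReal.ofReal_add (add_nonneg hβ n1) n2,
    ← ENNReal.ofReal_add (add_nonneg (add_nonneg hβ n1) n2) n3]
  refine enorm_le_of _ _ (by linarith [d.1]) (h1.trans ?_)
  have q0 := mul_le_mul_of_nonneg_right (d.2.2.2.1.trans dC) hβ
  have q1 := mul_le_mul_of_nonneg_right (d.1.trans dC) n1
  have q2 := mul_le_mul_of_nonneg_right (d.1.trans dC) n2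
  have q3 := mul_le_mul_of_nonneg_right (d.2.2.2.2.1.trans dC) n3
  linarith

include hn hfy

theorem T3 {z w : X} (hz : z ∈ B) (hw : w ∈ B) (hc0 : |c0| ≤ F) :
    ‖(∫ v, K f y w v * (K f x z v - K f x z y + c0) * η (f y v) ∂vol)
        - ∫ u, (K f y w u - K f y w x + c0) * K f x z u * η (f x u) ∂vol‖ₑ
      ≤ ENNReal.ofReal (C1 n F cη) * (ENNReal.ofReal β + (∫⁻ u in B, ‖P f G x z u‖ₑ ∂vol)
        + (∫⁻ u in B, ‖P f G y z u‖ₑ ∂vol) + (∫⁻ u in B, ‖P f G x w u‖ₑ ∂vol)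
        + (∫⁻ u in B, ‖P f G y w u‖ₑ ∂vol) + ∫⁻ u in B, ‖P f G x y u - c0‖ₑ ∂vol) := by
  have hF := E.F0
  have hc := c.cη0
  have hβ := MB.nonneg E hmx
  have h1 := T3_real E c hn hxB hyB hfx hfy hmx hmy hL hz hw hc0
  have d := Dc_facts hF hc
  have dC := Dc_le_C1 hF hc n
  have n1 : 0 ≤ ∫ u in B, |P f G x z u| ∂vol := integral_nonneg fun _ => abs_nonneg _
  have n2 : 0 ≤ ∫ u in B, |P f G y z u| ∂vol := integral_nonneg fun _ => abs_nonneg _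
  have n3 : 0 ≤ ∫ u in B, |P f G x w u| ∂vol := integral_nonneg fun _ => abs_nonneg _
  have n4 : 0 ≤ ∫ u in B, |P f G y w u| ∂vol := integral_nonneg fun _ => abs_nonneg _
  have n5 : 0 ≤ ∫ u in B, |P f G x y u - c0| ∂vol := integral_nonneg fun _ => abs_nonneg _
  rw [← ofReal_int (int_P E hxB hz), ← ofReal_int (int_P E hyB hz),
    ← ofReal_int (int_P E hxB hw), ← ofReal_int (int_P E hyB hw),
    ← ofReal_int (int_Pc E hxB hyB c0), ← ENNReal.ofReal_add hβ n1,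
    ← ENNReal.ofReal_add (add_nonneg hβ n1) n2,
    ← ENNReal.ofReal_add (add_nonneg (add_nonneg hβ n1) n2) n3,
    ← ENNReal.ofReal_add (add_nonneg (add_nonneg (add_nonneg hβ n1) n2) n3) n4,
    ← ENNReal.ofReal_add (add_nonneg (add_nonneg (add_nonneg (add_nonneg hβ n1) n2) n3) n4) n5]
  refine enorm_le_of _ _ (by linarith [d.1]) (h1.trans ?_)
  rw [C1_eq, mul_assoc (2 ^ n) (Dc F cη)]
  refine mul_le_mul_of_nonneg_left ?_ (two_pow_nn n)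
  have q0 := mul_le_mul_of_nonneg_right d.2.2.2.2.2.1 hβ
  have q1 := mul_le_mul_of_nonneg_right d.2.2.2.2.2.2.1 n1
  have q2 := mul_le_mul_of_nonneg_right d.2.2.2.2.2.2.1 n2
  have q3 := mul_le_mul_of_nonneg_right d.2.2.2.2.2.2.1 n3
  have q4 := mul_le_mul_of_nonneg_right d.2.2.2.2.2.2.1 n4
  have q5 := mul_le_mul_of_nonneg_right d.2.2.2.2.2.2.2.2.1 n5
  linarith

theorem T4 {z : X} (hz : z ∈ B) (w : W) (hc0 : |c0| ≤ F) :
    ‖(∫ v, (h w v - h w y) * (K f x z v - K f x z y + c0) * η (f y v) ∂vol)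
        - ∫ u, (h w u - h w x) * K f x z u * η (f x u) ∂vol‖ₑ
      ≤ ENNReal.ofReal (C1 n F cη) * (ENNReal.ofReal β + (∫⁻ u in B, ‖P f G x z u‖ₑ ∂vol)
        + (∫⁻ u in B, ‖P f G y z u‖ₑ ∂vol) + (∫⁻ u in B, ‖EE h Gh x u w‖ₑ ∂vol)
        + (∫⁻ u in B, ‖EE h Gh y u w‖ₑ ∂vol) + ∫⁻ u in B, ‖P f G x y u - c0‖ₑ ∂vol) := by
  have hF := E.F0
  have hc := c.cη0
  have hβ := MB.nonneg E hmx
  have h1 := T4_real E c hn hxB hyB hfx hfy hmx hmy hL hz w hc0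
  have d := Dc_facts hF hc
  have dC := Dc_le_C1 hF hc n
  have n1 : 0 ≤ ∫ u in B, |P f G x z u| ∂vol := integral_nonneg fun _ => abs_nonneg _
  have n2 : 0 ≤ ∫ u in B, |P f G y z u| ∂vol := integral_nonneg fun _ => abs_nonneg _
  have n3 : 0 ≤ ∫ u in B, |EE h Gh x u w| ∂vol := integral_nonneg fun _ => abs_nonneg _
  have n4 : 0 ≤ ∫ u in B, |EE h Gh y u w| ∂vol := integral_nonneg fun _ => abs_nonneg _
  have n5 : 0 ≤ ∫ u in B, |P f G x y u - c0| ∂vol := integral_nonneg fun _ => abs_nonneg _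
  rw [← ofReal_int (int_P E hxB hz), ← ofReal_int (int_P E hyB hz),
    ← ofReal_int (int_EE E hxB w), ← ofReal_int (int_EE E hyB w),
    ← ofReal_int (int_Pc E hxB hyB c0), ← ENNReal.ofReal_add hβ n1,
    ← ENNReal.ofReal_add (add_nonneg hβ n1) n2,
    ← ENNReal.ofReal_add (add_nonneg (add_nonneg hβ n1) n2) n3,
    ← ENNReal.ofReal_add (add_nonneg (add_nonneg (add_nonneg hβ n1) n2) n3) n4,
    ← ENNReal.ofReal_add (add_nonneg (add_nonneg (add_nonneg (add_nonneg hβ n1) n2) n3) n4) n5]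
  refine enorm_le_of _ _ (by linarith [d.1]) (h1.trans ?_)
  rw [C1_eq, mul_assoc (2 ^ n) (Dc F cη)]
  refine mul_le_mul_of_nonneg_left ?_ (two_pow_nn n)
  have q0 := mul_le_mul_of_nonneg_right d.2.2.2.2.2.2.2.2.2.1 hβ
  have q1 := mul_le_mul_of_nonneg_right d.2.2.2.2.2.2.2.1 n1
  have q2 := mul_le_mul_of_nonneg_right d.2.2.2.2.2.2.2.1 n2
  have q3 := mul_le_mul_of_nonneg_right d.2.2.2.2.2.2.1 n3
  have q4 := mul_le_mul_of_nonneg_right d.2.2.2.2.2.2.1 n4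
  have q5 := mul_le_mul_of_nonneg_right d.2.2.2.2.2.2.2.2.2.2.1 n5
  linarith

end T

section S

variable {x : X} (E : Env vol R f G h Gh B F) (c : Cut η η' φt cη) (hn : 1 ≤ n)
  (hxB : x ∈ B) {L β : ℝ} (hfx : Far f B L x)
  (hmx : MB vol R n B x β) (hL : 0 ≤ L)

include E c hn hxB hfx hmx hL

theorem T5 {z w : X} (hz : z ∈ B) (hw : w ∈ B) :
    ‖2 ^ (n + 2) * (∫ v, K f x w v * K f x z v * η (4 * f x v) ∂vol)
        - ∫ u, K f x w u * K f x z u * η (f x u) ∂vol‖ₑ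
      ≤ ENNReal.ofReal (C1 n F cη) * (ENNReal.ofReal β + (∫⁻ u in B, ‖P f G x z u‖ₑ ∂vol)
        + ∫⁻ u in B, ‖P f G x w u‖ₑ ∂vol) := by
  have hF := E.F0
  have hc := c.cη0
  have hβ := MB.nonneg E hmx
  have h1 := T5_real E c hn hxB hfx hmx hL hz hw
  have d := Dc_facts hF hc
  have dC := Dc_le_C1 hF hc n
  have n1 : 0 ≤ ∫ u in B, |P f G x z u| ∂vol := integral_nonneg fun _ => abs_nonneg _
  have n2 : 0 ≤ ∫ u in B, |P f G x w u| ∂vol := integral_nonneg fun _ => abs_nonneg _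
  rw [← ofReal_int (int_P E hxB hz), ← ofReal_int (int_P E hxB hw),
    ← ENNReal.ofReal_add hβ n1, ← ENNReal.ofReal_add (add_nonneg hβ n1) n2]
  refine enorm_le_of _ _ (by linarith [d.1]) (h1.trans ?_)
  rw [C1_eq, mul_assoc (2 ^ n) (Dc F cη)]
  refine mul_le_mul_of_nonneg_left ?_ (two_pow_nn n)
  have q0 := mul_le_mul_of_nonneg_right d.2.2.2.2.2.2.2.2.2.2.2.1 hβ
  have q1 := mul_le_mul_of_nonneg_right d.2.2.2.2.2.2.1 n1
  have q2 := mul_le_mul_of_nonneg_right d.2.2.2.2.2.2.1 n2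
  linarith

theorem T6 {z : X} (hz : z ∈ B) (w : W) :
    ‖2 ^ (n + 2) * (∫ v, (h w v - h w x) * K f x z v * η (4 * f x v) ∂vol)
        - ∫ u, (h w u - h w x) * K f x z u * η (f x u) ∂vol‖ₑ
      ≤ ENNReal.ofReal (C1 n F cη) * (ENNReal.ofReal β + (∫⁻ u in B, ‖P f G x z u‖ₑ ∂vol)
        + ∫⁻ u in B, ‖EE h Gh x u w‖ₑ ∂vol) := by
  have hF := E.F0
  have hc := c.cη0
  have hβ := MB.nonneg E hmx
  have h1 := T6_real E c hn hxB hfx hmx hL hz w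
  have d := Dc_facts hF hc
  have dC := Dc_le_C1 hF hc n
  have n1 : 0 ≤ ∫ u in B, |P f G x z u| ∂vol := integral_nonneg fun _ => abs_nonneg _
  have n2 : 0 ≤ ∫ u in B, |EE h Gh x u w| ∂vol := integral_nonneg fun _ => abs_nonneg _
  rw [← ofReal_int (int_P E hxB hz), ← ofReal_int (int_EE E hxB w),
    ← ENNReal.ofReal_add hβ n1, ← ENNReal.ofReal_add (add_nonneg hβ n1) n2]
  refine enorm_le_of _ _ (by linarith [d.1]) (h1.trans ?_)
  rw [C1_eq, mul_assoc (2 ^ n) (Dc F cη)]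
  refine mul_le_mul_of_nonneg_left ?_ (two_pow_nn n)
  have q0 := mul_le_mul_of_nonneg_right d.2.2.2.2.2.2.2.2.2.2.2.2 hβ
  have q1 := mul_le_mul_of_nonneg_right d.2.2.2.2.2.2.2.1 n1
  have q2 := mul_le_mul_of_nonneg_right d.2.2.2.2.2.2.1 n2
  linarith

end S

end Crest.Agent.R247.Pl7661
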