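import Mathlib

/-!
R247 block (2b), helper585: an explicit `C¹` cut off.

`φc = 1` on `(-∞,1/2]`, `φc = 0` on `[2,∞)`, `φc' = -ηc`, `ηc ≥ 0` of class `C¹`,
supported in `[1/2,2]`, everything bounded by `8`.
-/

set_option autoImplicit false
set_option linter.unusedSectionVars false

noncomputable section

namespace Crest.Agent.R247.PlI585

open MeasureTheory Set Filter Topology

/-- square of the positive part -/
def ppart (s : ℝ) : ℝ := max 0 s

theorem hasDerivAt_ppart_sq (s : ℝ) : HasDerivAt (fun t => ppart t ^ 2) (2 * ppart s) s := by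
  rcases lt_trichotomy s 0 with h | h | h
  · have e : (fun t => ppart t ^ 2) =ᶠ[𝓝 s] fun _ => (0 : ℝ) := by
      filter_upwards [gt_mem_nhds h] with t ht
      simp [ppart, max_eq_left ht.le]
    have e2 : ppart s = 0 := max_eq_left h.le
    rw [e2, mul_zero]
    exact (hasDerivAt_const s (0 : ℝ)).congr_of_eventuallyEq e
  · subst h
    have e2 : ppart 0 = 0 := by simp [ppart]
    rw [e2, mul_zero, hasDerivAt_iff_tendsto]
    have hb : ∀ t : ℝ, ‖t - 0‖⁻¹ * ‖ppart t ^ 2 - ppart 0 ^ 2 - (t - 0) • (0 : ℝ)‖ ≤ |t| := by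
      intro t
      rw [e2]
      simp only [sub_zero, smul_zero, ne_eq, OfNat.ofNat_ne_zero, not_false_eq_true, zero_pow,
        Real.norm_eq_abs]
      rcases eq_or_ne t 0 with rfl | ht
      · simp
      · have h1 : |ppart t| ≤ |t| := by
          unfold ppart
          rcases le_total t 0 with h | h
          · rw [max_eq_left h, abs_zero]; exact abs_nonneg _
          · rw [max_eq_right h]
        have h2 : |ppart t ^ 2| ≤ |t| ^ 2 := by
          rw [abs_pow]; gcongr
        have h3 : 0 < |t| := abs_pos.2 ht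
        rw [inv_mul_le_iff₀ h3]
        nlinarith
    refine squeeze_zero (fun t => by positivity) hb ?_
    have : Tendsto (fun t : ℝ => |t|) (𝓝 0) (𝓝 |0|) := (continuous_abs).tendsto 0
    simpa using this
  · have e : (fun t => ppart t ^ 2) =ᶠ[𝓝 s] fun t => t ^ 2 := by
      filter_upwards [lt_mem_nhds h] with t ht
      simp [ppart, max_eq_right ht.le]
    have e2 : ppart s = s := max_eq_right h.le
    rw [e2]
    have := hasDerivAt_pow 2 s
    refine HasDerivAt.congr_of_eventuallyEq ?_ e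
    simpa using this

theorem continuous_ppart : Continuous ppart := by unfold ppart; fun_prop

/-- the parabola `(t - 1/2) (2 - t)` -/
def pq (t : ℝ) : ℝ := (t - 1 / 2) * (2 - t)

theorem hasDerivAt_pq (t : ℝ) : HasDerivAt pq (5 / 2 - 2 * t) t := by
  have h1 : HasDerivAt (fun t : ℝ => t - 1 / 2) 1 t := (hasDerivAt_id t).sub_const _
  have h2 : HasDerivAt (fun t : ℝ => 2 - t) (-1) t := (hasDerivAt_id t).const_sub _
  have := h1.mul h2
  refine this.congr_deriv ?_
  ring

/-- the profile `η` -/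
def ηc (t : ℝ) : ℝ := 320 / 81 * ppart (pq t) ^ 2

/-- its derivative -/
def ηc' (t : ℝ) : ℝ := 320 / 81 * (2 * ppart (pq t) * (5 / 2 - 2 * t))

theorem hasDerivAt_ηc (t : ℝ) : HasDerivAt ηc (ηc' t) t := by
  have h := ((hasDerivAt_ppart_sq (pq t)).comp t (hasDerivAt_pq t)).const_mul (320 / 81 : ℝ)
  exact h

theorem continuous_pq : Continuous pq := by unfold pq; fun_prop

theorem continuous_ηc : Continuous ηc := by
  have h1 := continuous_ppart.comp continuous_pq
  unfold ηc
  exact continuous_const.mul (h1.pow 2)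

theorem continuous_ηc' : Continuous ηc' := by
  have h1 := continuous_ppart.comp continuous_pq
  unfold ηc'
  exact continuous_const.mul ((continuous_const.mul h1).mul (by fun_prop))

theorem ppart_nonneg (s : ℝ) : 0 ≤ ppart s := le_max_left _ _

theorem ηc_nonneg (t : ℝ) : 0 ≤ ηc t := by unfold ηc; positivity

theorem ppart_pq_left {t : ℝ} (h : t ≤ 1 / 2) : ppart (pq t) = 0 := by
  refine max_eq_left ?_
  unfold pq
  exact mul_nonpos_of_nonpos_of_nonneg (by linarith) (by linarith)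

theorem ppart_pq_right {t : ℝ} (h : 2 ≤ t) : ppart (pq t) = 0 := by
  refine max_eq_left ?_
  unfold pq
  exact mul_nonpos_of_nonneg_of_nonpos (by linarith) (by linarith)

theorem ppart_pq_le (t : ℝ) : ppart (pq t) ≤ 9 / 16 := by
  refine max_le (by norm_num) ?_
  unfold pq
  nlinarith [sq_nonneg (t - 5 / 4)]

theorem ηc_left {t : ℝ} (h : t ≤ 1 / 2) : ηc t = 0 := by
  unfold ηc; rw [ppart_pq_left h]; ring

theorem ηc_right {t : ℝ} (h : 2 ≤ t) : ηc t = 0 := by
  unfold ηc; rw [ppart_pq_right h]; ring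

theorem ηc'_right {t : ℝ} (h : 2 ≤ t) : ηc' t = 0 := by
  unfold ηc'; rw [ppart_pq_right h]; ring

theorem ηc_le (t : ℝ) : ηc t ≤ 8 := by
  unfold ηc
  have h1 := ppart_pq_le t
  have h2 := ppart_nonneg (pq t)
  nlinarith

theorem abs_ηc'_le (t : ℝ) : |ηc' t| ≤ 8 := by
  by_cases h1 : t ≤ 1 / 2
  · unfold ηc'; rw [ppart_pq_left h1]; norm_num
  by_cases h2 : 2 ≤ t
  · unfold ηc'; rw [ppart_pq_right h2]; norm_num
  push Not at h1 h2
  have h3 := ppart_pq_le t
  have h4 := ppart_nonneg (pq t)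
  have h5 : |5 / 2 - 2 * t| ≤ 3 / 2 := by rw [abs_le]; constructor <;> linarith
  unfold ηc'
  rw [abs_mul, abs_mul, abs_of_nonneg (by norm_num : (0 : ℝ) ≤ 320 / 81),
    abs_of_nonneg (by positivity : 0 ≤ 2 * ppart (pq t))]
  have h6 : 2 * ppart (pq t) * |5 / 2 - 2 * t| ≤ 2 * (9 / 16) * (3 / 2) := by gcongr
  nlinarith

/-- the cut off -/
def φc (t : ℝ) : ℝ := 1 - ∫ s in (1 / 2 : ℝ)..t, ηc s

theorem hasDerivAt_φc (t : ℝ) : HasDerivAt φc (-ηc t) t := by
  have h := intervalIntegral.integral_hasDerivAt_right (a := (1 / 2 : ℝ)) (b := t)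
    (continuous_ηc.intervalIntegrable _ _) (continuous_ηc.stronglyMeasurableAtFilter _ _)
    continuous_ηc.continuousAt
  exact h.const_sub 1

theorem φc_left {t : ℝ} (h : t ≤ 1 / 2) : φc t = 1 := by
  unfold φc
  have : ∫ s in (1 / 2 : ℝ)..t, ηc s = ∫ s in (1 / 2 : ℝ)..t, (0 : ℝ) := by
    apply intervalIntegral.integral_congr
    intro s hs
    rw [uIcc_of_ge h] at hs
    exact ηc_left hs.2
  rw [this]; simp

theorem integral_ηc : ∫ s in (1 / 2 : ℝ)..2, ηc s = 1 := by
  have e : ∫ s in (1 / 2 : ℝ)..2, ηc s =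
      ∫ s in (1 / 2 : ℝ)..2, 320 / 81 * (s ^ 4 - 5 * s ^ 3 + 33 / 4 * s ^ 2 - 5 * s + 1) := by
    apply intervalIntegral.integral_congr
    intro s hs
    rw [uIcc_of_le (by norm_num)] at hs
    have h1 : 0 ≤ pq s := by
      unfold pq; exact mul_nonneg (by linarith [hs.1]) (by linarith [hs.2])
    simp only [ηc, ppart]
    rw [max_eq_right h1]
    unfold pq
    ring
  rw [e, intervalIntegral.integral_const_mul]
  have h2 : ∫ s in (1 / 2 : ℝ)..2, (s ^ 4 - 5 * s ^ 3 + 33 / 4 * s ^ 2 - 5 * s + 1) = 81 / 320 := by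
    have hd : ∀ s ∈ uIcc (1 / 2 : ℝ) 2, HasDerivAt
        (fun s : ℝ => s ^ 5 / 5 - 5 * (s ^ 4 / 4) + 33 / 4 * (s ^ 3 / 3) - 5 * (s ^ 2 / 2) + s)
        (s ^ 4 - 5 * s ^ 3 + 33 / 4 * s ^ 2 - 5 * s + 1) s := by
      intro s _
      have h5 := (hasDerivAt_pow 5 s).div_const 5
      have h4 := ((hasDerivAt_pow 4 s).div_const 4).const_mul (5 : ℝ)
      have h3 := ((hasDerivAt_pow 3 s).div_const 3).const_mul (33 / 4 : ℝ)
      have h2 := ((hasDerivAt_pow 2 s).div_const 2).const_mul (5 : ℝ)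
      have := (((h5.sub h4).add h3).sub h2).add (hasDerivAt_id s)
      refine this.congr_deriv ?_
      norm_num
    rw [intervalIntegral.integral_eq_sub_of_hasDerivAt hd
      ((by fun_prop : Continuous fun s : ℝ =>
        s ^ 4 - 5 * s ^ 3 + 33 / 4 * s ^ 2 - 5 * s + 1).intervalIntegrable _ _)]
    norm_num
  rw [h2]; norm_num

theorem φc_right {t : ℝ} (h : 2 ≤ t) : φc t = 0 := by
  unfold φc
  rw [← intervalIntegral.integral_add_adjacent_intervals (b := 2)
    (continuous_ηc.intervalIntegrable _ _) (continuous_ηc.intervalIntegrable _ _), integral_ηc]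
  have : ∫ s in (2 : ℝ)..t, ηc s = ∫ s in (2 : ℝ)..t, (0 : ℝ) := by
    apply intervalIntegral.integral_congr
    intro s hs
    rw [uIcc_of_le h] at hs
    exact ηc_right hs.1
  rw [this]; simp

theorem φc_anti : Antitone φc :=
  antitone_of_deriv_nonpos (fun t => (hasDerivAt_φc t).differentiableAt) fun t => by
    rw [(hasDerivAt_φc t).deriv]
    linarith [ηc_nonneg t]

theorem φc_nonneg (t : ℝ) : 0 ≤ φc t := by
  rcases le_total t 2 with h | h
  · rw [← φc_right (le_refl 2)]; exact φc_anti h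
  · rw [φc_right h]

theorem φc_le_one (t : ℝ) : φc t ≤ 1 := by
  rcases le_total t (1 / 2) with h | h
  · rw [φc_left h]
  · rw [← φc_left (le_refl (1 / 2))]; exact φc_anti h

theorem continuous_φc : Continuous φc :=
  continuous_iff_continuousAt.2 fun t => (hasDerivAt_φc t).continuousAt

end Crest.Agent.R247.PlI585
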