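import Crest.Agent.R247.PlI0_585
import Crest.Agent.R247.Gap2_79
import Crest.Agent.R247.Pl5_661

/-!
R247 block (2b), helper585: instantiation of 661's environment `Env` (and of `Cut`, `Far`, `MB`)
over 688's `Rad` and 550's `GRep` at scale `r`, with `vol = μ` (not rescaled) and 79's `fr r`.
-/

set_option autoImplicit false
set_option linter.unusedSectionVars false

noncomputable section

namespace Crest.Agent.R247.PlI585

open MeasureTheory Set Filter Topology Metric
open scoped ENNReal NNReal
open Crest.Agent.R247.Mcp688 Crest.Agent.R247.Cal550 Crest.Agent.R247.Gap79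
open Crest.Agent.R247.Far553

/-- 661's cut off -/
theorem cutP : Pl5661.Cut ηc ηc' φc 8 where
  hη := hasDerivAt_ηc
  hη' := continuous_ηc'
  hφ := hasDerivAt_φc
  η0 := ηc_nonneg
  bη := ηc_le
  bη' := abs_ηc'_le
  φ0 := φc_nonneg
  φ1 := φc_le_one
  far := fun _ h => ⟨ηc_right h, ηc'_right h, φc_right h⟩

/-- 79's cut off -/
theorem cutG : Gap79.Cut φc ηc 8 where
  der := hasDerivAt_φc
  φ0 := fun _ h => φc_right h
  η0 := fun _ h => ηc_right h
  φ1 := fun s => by rw [abs_of_nonneg (φc_nonneg s)]; exact φc_le_one s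
  ηn := ηc_nonneg
  η1 := ηc_le
  mη := continuous_ηc.measurable

variable {n : ℕ} {κ : ℝ} {X : Type*} [MetricSpace X] [MeasurableSpace X] [BorelSpace X]
  {μ : Measure X}

/-- far distance functions at scale `r` -/
def hr (r : ℝ) (w u : X) : ℝ := dist u w / r

/-- scaled derivatives of the far distance functions -/
def ghr (G : X → X → X → ℝ) (r : ℝ) (a w u : X) : ℝ := Ed G a u w / r

/-- `φ` is locally Lipschitz with radial derivative `φ'` -/
def Rr (C : Rad n κ X μ) (a : X) (φ φ' : X → ℝ) : Prop := LocallyLipschitz φ ∧ RD C a φ φ'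

theorem fr_eq_ff (r : ℝ) (a u : X) : fr r a u = ff a u / r ^ 2 := rfl

theorem P_eq (G : X → X → X → ℝ) (r : ℝ) (a v u : X) :
    Gap79.P (fr r) (Gs G r) a v u = PP G a v u / r ^ 2 := by
  unfold Gap79.P Gs fr PP ff; ring

theorem ghr_sub (G : X → X → X → ℝ) (r : ℝ) (a w u : X) :
    ghr G r a w u - (hr r w u - hr r w a) = ee G a u w / r := by
  unfold ghr hr ee; ring

theorem locLip_mul {f g : X → ℝ} (hf : LocallyLipschitz f) (hg : LocallyLipschitz g) :
    LocallyLipschitz (fun z => f z * g z) := by
  have h1 : LocallyLipschitz fun q : ℝ × ℝ => q.1 * q.2 :=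
    (contDiff_fst.mul contDiff_snd : ContDiff ℝ 1 fun q : ℝ × ℝ => q.1 * q.2).locallyLipschitz
  exact h1.comp (hf.prodMk hg)

theorem locLip_add {f g : X → ℝ} (hf : LocallyLipschitz f) (hg : LocallyLipschitz g) :
    LocallyLipschitz (fun z => f z + g z) := by
  have h1 : LocallyLipschitz fun q : ℝ × ℝ => q.1 + q.2 :=
    (contDiff_fst.add contDiff_snd : ContDiff ℝ 1 fun q : ℝ × ℝ => q.1 + q.2).locallyLipschitz
  exact h1.comp (hf.prodMk hg)

theorem locLip_comp {g g' : ℝ → ℝ} (hg : ∀ t, HasDerivAt g (g' t) t) (hg' : Continuous g')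
    {f : X → ℝ} (hf : LocallyLipschitz f) : LocallyLipschitz (fun z => g (f z)) := by
  have h1 : ContDiff ℝ 1 g := by
    rw [contDiff_one_iff_deriv]
    refine ⟨fun t => (hg t).differentiableAt, ?_⟩
    have : deriv g = g' := funext fun t => (hg t).deriv
    rw [this]; exact hg'
  exact h1.locallyLipschitz.comp hf

theorem locLip_dist (w : X) : LocallyLipschitz (fun u : X => dist u w) :=
  (LipschitzWith.dist_left w).locallyLipschitz

theorem locLip_fr (r : ℝ) (b : X) : LocallyLipschitz (fr r b) := by
  have h := locLip_comp (g := fun t => t ^ 2 / 2 / r ^ 2) (g' := fun t => (2 * t) / 2 / r ^ 2)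
    (fun t => by
      have := ((hasDerivAt_pow 2 t).div_const 2).div_const (r ^ 2)
      refine this.congr_deriv ?_
      push_cast; ring) (by fun_prop) (LipschitzWith.dist_right b).locallyLipschitz
  exact h

/-- locally Lipschitz functions vanishing outside a ball of a proper space are Lipschitz. -/
theorem lip_of_locLip [ProperSpace X] {φ : X → ℝ} (hφ : LocallyLipschitz φ) {a : X} {ρ : ℝ}
    (h0 : ∀ z, ρ ≤ dist a z → φ z = 0) : ∃ L, ∀ y z, |φ y - φ z| ≤ L * dist y z := by
  have hK : IsCompact (closedBall a (ρ + 1)) := isCompact_closedBall a (ρ + 1)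
  obtain ⟨L1, hL1⟩ : ∃ L, LipschitzOnWith L φ (closedBall a (ρ + 1)) :=
    (hφ.locallyLipschitzOn (s := closedBall a (ρ + 1))).exists_lipschitzOnWith_of_compact hK
  obtain ⟨S, hS⟩ : ∃ S, ∀ z ∈ closedBall a (ρ + 1), ‖φ z‖ ≤ S :=
    hK.exists_bound_of_continuousOn hφ.continuous.continuousOn
  have hS' : ∀ z, |φ z| ≤ max S 0 := by
    intro z
    by_cases hz : z ∈ closedBall a (ρ + 1)
    · exact (hS z hz).trans (le_max_left _ _)
    · rw [mem_closedBall, not_le, dist_comm] at hz
      rw [h0 z (by linarith), abs_zero]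
      exact le_max_right _ _
  refine ⟨max L1 (max S 0), fun y z => ?_⟩
  have hd : 0 ≤ dist y z := dist_nonneg
  have key : ∀ y z : X, y ∈ closedBall a (ρ + 1) → z ∉ closedBall a (ρ + 1) →
      |φ y - φ z| ≤ max S 0 * dist y z := by
    intro y z hy hz
    rw [mem_closedBall, not_le, dist_comm] at hz
    rw [h0 z (by linarith), sub_zero]
    by_cases hy' : ρ ≤ dist a y
    · rw [h0 y hy', abs_zero]; positivity
    · push Not at hy'
      have : 1 ≤ dist y z := by
        have := dist_triangle a y z
        linarith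
      have h3 : 0 ≤ max S 0 := le_max_right _ _
      have := hS' y
      nlinarith
  by_cases hy : y ∈ closedBall a (ρ + 1) <;> by_cases hz : z ∈ closedBall a (ρ + 1)
  · have := hL1.dist_le_mul y hy z hz
    rw [Real.dist_eq] at this
    exact this.trans (mul_le_mul_of_nonneg_right (le_max_left _ _) hd)
  · exact (key y z hy hz).trans (mul_le_mul_of_nonneg_right (le_max_right _ _) hd)
  · rw [abs_sub_comm]
    refine (key z y hz hy).trans ?_
    rw [dist_comm z y]
    exact mul_le_mul_of_nonneg_right (le_max_right _ _) hd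
  · rw [mem_closedBall, not_le, dist_comm] at hy hz
    rw [h0 y (by linarith), h0 z (by linarith), sub_zero, abs_zero]
    positivity

section env

variable {C : Rad n κ X μ} {G : X → X → X → ℝ} (hG : GRep C G) {r : ℝ} (hr0 : 0 < r)

theorem dist_le_of_mem_two {x : X} {R : ℝ} {B : Set X} (hB : B ⊆ ball x (R * r)) {a u : X}
    (ha : a ∈ B) (hu : u ∈ B) : dist a u ≤ 2 * R * r := by
  have h1 := mem_ball.1 (hB ha)
  have h2 := mem_ball.1 (hB hu)
  have := dist_triangle_right a u x
  linarith

include hG hr0 in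
/-- **(I1)** the environment on a bounded measurable set `B` of radius `≤ 128 r`. -/
theorem env [ProperSpace X] [IsFiniteMeasureOnCompacts μ] (sing : ∀ z : X, μ {z} = 0)
    {B : Set X} (hBm : MeasurableSet B) {x : X} (hB : B ⊆ ball x (128 * r)) :
    Pl5661.Env μ (Rr C) (fr r) (Gs G r) (hr r) (ghr G r) B (2 ^ 16) where
  symm := fr_symm r
  self := fr_self r
  nonneg := fr_nonneg r
  mf := measurable_fr_pair r
  mh := by
    have : Continuous (fun p : X × X => hr r p.1 p.2) := by unfold hr; fun_prop
    exact this.measurable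
  mG := fun a b => by
    have h1 : Measurable (fun u => G a b u) :=
      hG.meas.comp (measurable_const.prodMk (measurable_const.prodMk measurable_id))
    exact (h1.div_const _).aemeasurable
  mGh := fun a w => by
    have h1 : Measurable (fun u => Ed G a u w) :=
      (hG.meas_Ed a).comp (measurable_id.prodMk measurable_const)
    exact (h1.div_const _).aemeasurable
  Gsymm := fun a b => Eventually.of_forall fun u => by
    unfold Gs; rw [hG.symm a b u]
  Gself := fun a => Eventually.of_forall fun u => by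
    unfold Gs fr; rw [hG.self a u]; ring
  mB := hBm
  fin := by
    refine ((measure_mono (hB.trans ball_subset_closedBall)).trans_lt ?_).ne
    exact (isCompact_closedBall x (128 * r)).measure_lt_top
  F0 := by positivity
  fF := fun a ha u hu => by
    have h1 := dist_le_of_mem_two hB ha hu
    have := fr_le (R := 256) hr0 (by linarith : dist a u ≤ 256 * r)
    norm_num at this ⊢
    linarith
  GF := fun a ha b hb => by
    filter_upwards [ae_restrict_mem hBm] with u hu
    have h1 := dist_le_of_mem_two hB ha hu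
    have h2 := dist_le_of_mem_two hB hb hu
    have h3 := hG.bd a b u
    unfold Gs
    rw [abs_div, abs_of_nonneg (by positivity : (0 : ℝ) ≤ r ^ 2), div_le_iff₀ (by positivity)]
    refine h3.trans ?_
    have : dist a u * dist b u ≤ (2 * 128 * r) * (2 * 128 * r) := by gcongr
    nlinarith
  hF := fun w a ha u hu => by
    have h1 := dist_le_of_mem_two hB ha hu
    unfold hr
    rw [← sub_div, abs_div, abs_of_pos hr0, div_le_iff₀ hr0]
    refine (abs_dist_sub_le a u w).trans (h1.trans ?_)
    nlinarith
  GhF := fun a ha w => by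
    filter_upwards [ae_restrict_mem hBm] with u hu
    have h1 := dist_le_of_mem_two hB ha hu
    have h3 := hG.bd a w u
    unfold ghr Ed
    rw [abs_div, abs_of_pos hr0, div_le_iff₀ hr0, abs_div, abs_of_nonneg dist_nonneg]
    rcases eq_or_lt_of_le (dist_nonneg (x := u) (y := w)) with h0 | h0
    · rw [← h0, div_zero]; positivity
    · rw [div_le_iff₀ h0]
      refine h3.trans ?_
      rw [dist_comm w u]
      have : dist a u ≤ 2 ^ 16 * r := by nlinarith
      exact mul_le_mul_of_nonneg_right this h0.le
  Rconst := fun a c => ⟨LocallyLipschitz.const c, RD_const c⟩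
  Radd := fun a φ φ' ψ ψ' h1 h2 => ⟨locLip_add h1.1 h2.1, h1.2.add h2.2⟩
  Rmul := fun a φ φ' ψ ψ' h1 h2 => ⟨locLip_mul h1.1 h2.1, h1.2.mul h2.2⟩
  Rcomp := fun a φ φ' g g' h1 h2 h3 => ⟨locLip_comp h2 h3 h1.1, RD_comp h1.2 h2⟩
  Rcongr := fun a φ φ' ψ' h1 h2 => ⟨h1.1, h1.2.congr h2⟩
  Rf := fun a b => ⟨locLip_fr r b, by
    filter_upwards [hG.rd a b] with z hz using hz.div_const _⟩
  Rh := fun a w => ⟨by
    have := locLip_mul (locLip_dist w) (LocallyLipschitz.const (r⁻¹))
    unfold hr
    simpa only [div_eq_mul_inv] using this, by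
    filter_upwards [hG.rd_dist sing a w] with z hz using hz.div_const _⟩

end env

/-- **(I2)** -/
theorem far_of {r : ℝ} (hr0 : 0 < r) {B : Set X} {a : X}
    (h : ball a (21 * r) ⊆ B) : Pl5661.Far (fr r) B 200 a := by
  intro u hu
  have h1 : 21 * r ≤ dist a u := by
    by_contra h2
    push Not at h2
    exact hu (h (by rw [mem_ball, dist_comm]; exact h2))
  unfold fr
  rw [le_div_iff₀ (by positivity), le_div_iff₀ (by norm_num)]
  have : (21 * r) ^ 2 ≤ dist a u ^ 2 := by gcongr
  nlinarith [sq_nonneg r]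

end Crest.Agent.R247.PlI585
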