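import Crest.Agent.R247.Pln5_923

/-!
# R247, block (2b), Pl5' part 5b (helper585): (A3) for the two scales `f` and `4 f` at one centre
-/

set_option autoImplicit false
set_option linter.unusedSectionVars false

noncomputable section

namespace Crest.Agent.R247.Pln923

open MeasureTheory Filter Set
open scoped ENNReal InnerProductSpace
open Crest.Agent.R247.Ker585 Crest.Agent.R247.Pl2661
open Crest.Agent.R247.Gap79 (K P)
open Crest.Agent.R247.Pl5661 (Env Cut MB Far)
open Crest.Agent.R247.Pl6661 (EE C1)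

variable {X W : Type*} [MeasurableSpace X] [MeasurableSpace W]

section

variable {vol : Measure X} [SFinite vol] {ν : Measure W} [SFinite ν]
  {R : X → (X → ℝ) → (X → ℝ) → Prop}
  {f : X → X → ℝ} {G : X → X → X → ℝ} {h : W → X → ℝ} {Gh : X → W → X → ℝ}
  {B : Set X} {F : ℝ} {η η' φt : ℝ → ℝ} {cη : ℝ} {n : ℕ} {L β Q s ε : ℝ}

theorem K_four (f : X → X → ℝ) (x z u : X) :
    K (fun a u => 4 * f a u) x z u = 4 * K f x z u := by
  unfold K; ring

theorem Com.den4 (d : Com vol ν R f G h Gh B F η η' φt cη n L β Q s ε) {x : X}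
    (hx : Far f B L x) : Den vol (fun a u => 4 * f a u) η B Q s x where
  mf := (d.E.mfa x).const_mul 4
  mη := d.c.cont_η.measurable
  η0 := d.c.η0
  ηQ := fun t => (d.c.bη t).trans d.cQ
  out := fun u hu => (d.c.far _ (by have := hx u hu; have := d.L0; linarith)).1
  mB := d.E.mB
  volB := d.volB
  Q1 := d.Q1
  s0 := d.s0

theorem Com.hK4 (d : Com vol ν R f G h Gh B F η η' φt cη n L β Q s ε) {x : X}
    (ox : One vol ν R f G h Gh B F n L β Q s ε x) :
    HK (mm vol (fun a u => 4 * f a u) η x) (mm vol f η x) (K f x) := by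
  have i1 := (d.den ox.far).finite
  have i2 := (d.den4 ox.far).finite
  refine HK.of_bdd (B := 2 * F) d.mK ?_
  filter_upwards [(d.den4 ox.far).ae_mem] with v hv
  filter_upwards [(d.den ox.far).ae_mem] with z hz
  exact d.K_le ox.xB hv hz

/-- **(A3)** -/
theorem Com.A3 (d : Com vol ν R f G h Gh B F η η' φt cη n L β Q s ε) {x : X}
    (ox : One vol ν R f G h Gh B F n L β Q s ε x)
    (h2 : 2 ^ (n + 1) ≤ Q) {Λ Λ' e : ℝ}
    (N : Node (mm vol f η x) ν (K f x) (fun w u => h w u - h w x) Λ e Q s n)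
    (N' : Node (mm vol (fun a u => 4 * f a u) η x) ν (K (fun a u => 4 * f a u) x)
      (fun w u => 2 * (h w u - h w x)) Λ' e Q s n)
    (he : 4 * Q ^ 4 * e ≤ 1) :
    ‖N.P - N'.P‖ ≤ 72 * Q ^ 10 * ε := by
  have hQ := d.Q1
  have hs := d.s0
  have hε := d.ε0
  have hQ0 : 0 < Q := by linarith
  have dx := d.den ox.far
  have d4 := d.den4 ox.far
  have hC0 : 0 ≤ C1 n F cη := C1_nonneg d.E.F0 d.c.cη0
  have hKs : ∀ a z u, K f a z u = K f a u z := fun a z u => Gap79.K_symm d.E.symm a z u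
  have mA : Measurable (fun z => aP vol f G B x z + aP vol f G B x z) :=
    (d.maP ox.mG).add (d.maP ox.mG)
  have mD : Measurable (fun w => aE vol h Gh B x w + aE vol h Gh B x w) :=
    (d.maE ox.mGh).add (d.maE ox.mGh)
  have hβ : 0 ≤ β := Pl7661.MB.nonneg d.E ox.mb
  have g0 : ENNReal.ofReal β ≤ ENNReal.ofReal (2 * Q * s * ε) := by
    refine ENNReal.ofReal_le_ofReal ?_
    have h1 := d.βle
    have h3 : 0 ≤ Q * s * ε := by positivity
    linarith
  have p1 : (1 : ℝ) ≤ 2 ^ n := Pl7661.one_le_two_pow' n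
  have p0 : (0 : ℝ) < 2 ^ n := by positivity
  have p2 : (2 : ℝ) ≤ 2 ^ n := by
    calc (2 : ℝ) = 2 ^ 1 := by norm_num
      _ ≤ 2 ^ n := pow_le_pow_right₀ (by norm_num) d.hn
  have q1 : (2 : ℝ) ^ (n + 1) = 2 * 2 ^ n := by ring
  have q2 : (2 : ℝ) ^ (n + 2) = 4 * 2 ^ n := by ring
  have h2' : (2 : ℝ) ^ n ≤ Q := by rw [q1] at h2; linarith
  -- bounds of the form `C * (β + a + b) ≤ C * (β + (a + a) + (b + b))`
  have mono : ∀ a b : ℝ≥0∞, ENNReal.ofReal (C1 n F cη) * (ENNReal.ofReal β + a + b) ≤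
      ENNReal.ofReal (C1 n F cη) * (ENNReal.ofReal β + (b + b) + (a + a)) := by
    intro a b
    refine mul_le_mul' le_rfl ?_
    calc ENNReal.ofReal β + a + b = ENNReal.ofReal β + b + a := by ring
      _ ≤ _ := add_le_add (add_le_add le_rfl le_self_add) le_self_add
  -- (T3)
  have t3 : hs2 (mm vol (fun a u => 4 * f a u) η x) (mm vol f η x) (fun w z =>
      2 ^ n * kcomp (mm vol (fun a u => 4 * f a u) η x) (K (fun a u => 4 * f a u) x) (K f x) w z -
      1 * kcomp (mm vol f η x) (K f x) (K f x) w z) ≤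
      ENNReal.ofReal ((s ^ 2 * (6 * Q ^ 4 * ε)) ^ 2) := by
    refine hs_T3 (A := fun z => aP vol f G B x z + aP vol f G B x z)
      (g₀ := ENNReal.ofReal β) hQ hs hε hC0 d.CQ
      dx.univ_le d4.univ_le mA.aemeasurable mA.aemeasurable (d.A_sq dx ox ox) (d.A_sq d4 ox ox)
      g0 ?_
    filter_upwards [d4.ae_mem] with w hw
    filter_upwards [dx.ae_mem] with z hz
    have h1 := Pl7661.T5 d.E d.c d.hn ox.xB ox.far ox.mb d.L0 hz hw
    have e1 : 2 ^ n * kcomp (mm vol (fun a u => 4 * f a u) η x) (K (fun a u => 4 * f a u) x)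
        (K f x) w z = 2 ^ (n + 2) * (∫ v, K f x w v * K f x z v * η (4 * f x v) ∂vol) := by
      unfold kcomp
      rw [d4.integral_eq, q2, mul_comm (4 : ℝ) (2 ^ n), mul_assoc]
      congr 1
      rw [← integral_const_mul]
      refine integral_congr_ae (Eventually.of_forall fun u => ?_)
      show K (fun a u => 4 * f a u) x w u * K f x u z * η (4 * f x u) = _
      rw [K_four, hKs x u z]
      ring
    have e2 : kcomp (mm vol f η x) (K f x) (K f x) w z =
        ∫ u, K f x w u * K f x z u * η (f x u) ∂vol := by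
      unfold kcomp
      rw [dx.integral_eq]
      refine integral_congr_ae (Eventually.of_forall fun u => ?_)
      show K f x w u * K f x u z * η (f x u) = _
      rw [hKs x u z]
    rw [one_mul, e1, e2]
    exact h1.trans (mono _ _)
  have ex4 : ∀ w z, kcomp (mm vol (fun a u => 4 * f a u) η x) (fun w u => 2 * (h w u - h w x))
      (K f x) w z = 2 * ∫ v, (h w v - h w x) * K f x z v * η (4 * f x v) ∂vol := by
    intro w z
    unfold kcomp
    rw [d4.integral_eq, ← integral_const_mul]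
    refine integral_congr_ae (Eventually.of_forall fun u => ?_)
    show 2 * (h w u - h w x) * K f x u z * η (4 * f x u) = _
    rw [hKs x u z]
    ring
  have ex8 : ∀ w z, kcomp (mm vol (fun a u => 4 * f a u) η x) (fun w u => 2 * (h w u - h w x))
      (K (fun a u => 4 * f a u) x) w z =
      8 * ∫ v, (h w v - h w x) * K f x z v * η (4 * f x v) ∂vol := by
    intro w z
    unfold kcomp
    rw [d4.integral_eq, ← integral_const_mul]
    refine integral_congr_ae (Eventually.of_forall fun u => ?_)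
    show 2 * (h w u - h w x) * K (fun a u => 4 * f a u) x u z * η (4 * f x u) = _
    rw [K_four, hKs x u z]
    ring
  have ex1 : ∀ w z, kcomp (mm vol f η x) (fun w u => h w u - h w x) (K f x) w z =
      ∫ u, (h w u - h w x) * K f x z u * η (f x u) ∂vol := by
    intro w z
    unfold kcomp
    rw [dx.integral_eq]
    refine integral_congr_ae (Eventually.of_forall fun u => ?_)
    show (h w u - h w x) * K f x u z * η (f x u) = _
    rw [hKs x u z]
  -- (T4)
  have t4 : hs2 ν (mm vol f η x) (fun w z =>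
      2 ^ (n + 1) * kcomp (mm vol (fun a u => 4 * f a u) η x)
        (fun w u => 2 * (h w u - h w x)) (K f x) w z -
      1 * kcomp (mm vol f η x) (fun w u => h w u - h w x) (K f x) w z) ≤
      ENNReal.ofReal ((s * Real.sqrt s * (6 * Q ^ 3 * ε)) ^ 2) := by
    refine hs_T4 (A := fun z => aP vol f G B x z + aP vol f G B x z)
      (D := fun w => aE vol h Gh B x w + aE vol h Gh B x w)
      (g₀ := ENNReal.ofReal β) hQ hs hε hC0 d.CQ
      dx.univ_le d.ν1 mA.aemeasurable mD.aemeasurable (d.A_sq dx ox ox) (d.aE2_sq ox ox) g0 ?_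
    refine Eventually.of_forall fun w => ?_
    filter_upwards [dx.ae_mem] with z hz
    have h1 := Pl7661.T6 d.E d.c d.hn ox.xB ox.far ox.mb d.L0 hz w
    rw [ex4, ex1, one_mul]
    have e1 : (2:ℝ) ^ (n + 1) * (2 * ∫ v, (h w v - h w x) * K f x z v * η (4 * f x v) ∂vol) =
        2 ^ (n + 2) * ∫ v, (h w v - h w x) * K f x z v * η (4 * f x v) ∂vol := by
      rw [q1, q2]; ring
    rw [e1]
    exact h1.trans (mono _ _)
  have t4' : hs2 ν (mm vol (fun a u => 4 * f a u) η x) (fun w z =>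
      2 / 2 ^ n * kcomp (mm vol f η x) (fun w u => h w u - h w x) (fun a b => K f x b a) w z -
      1 * kcomp (mm vol (fun a u => 4 * f a u) η x)
        (fun w u => 2 * (h w u - h w x)) (K (fun a u => 4 * f a u) x) w z) ≤
      ENNReal.ofReal ((s * Real.sqrt s * (6 * Q ^ 3 * ε)) ^ 2) := by
    refine hs_T4 (A := fun z => aP vol f G B x z + aP vol f G B x z)
      (D := fun w => aE vol h Gh B x w + aE vol h Gh B x w)
      (g₀ := ENNReal.ofReal β) hQ hs hε hC0 d.CQ
      d4.univ_le d.ν1 mA.aemeasurable mD.aemeasurable (d.A_sq d4 ox ox) (d.aE2_sq ox ox) g0 ?_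
    refine Eventually.of_forall fun w => ?_
    filter_upwards [d4.ae_mem] with z hz
    have h1 := Pl7661.T6 d.E d.c d.hn ox.xB ox.far ox.mb d.L0 hz w
    have hsw : (fun a b => K f x b a) = K f x := by
      funext a b
      exact hKs x b a
    rw [hsw, ex8, ex1, one_mul]
    set X' := ∫ v, (h w v - h w x) * K f x z v * η (4 * f x v) ∂vol with hX'
    set Y' := ∫ u, (h w u - h w x) * K f x z u * η (f x u) ∂vol with hY'
    have e1 : 2 / 2 ^ n * Y' - 8 * X' = -((2 / 2 ^ n) * (2 ^ (n + 2) * X' - Y')) := by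
      rw [q2]
      field_simp
      ring
    have e2 : ‖2 / 2 ^ n * Y' - 8 * X'‖ₑ ≤ ‖2 ^ (n + 2) * X' - Y'‖ₑ := by
      rw [e1, enorm_neg, enorm_mul]
      have e3 : ‖(2 / 2 ^ n : ℝ)‖ₑ ≤ 1 := by
        rw [← ofReal_norm, Real.norm_of_nonneg (by positivity), ← ENNReal.ofReal_one]
        refine ENNReal.ofReal_le_ofReal ?_
        rw [div_le_one p0]
        exact p2
      calc ‖(2 / 2 ^ n : ℝ)‖ₑ * ‖2 ^ (n + 2) * X' - Y'‖ₑ
          ≤ 1 * ‖2 ^ (n + 2) * X' - Y'‖ₑ := mul_le_mul' e3 le_rfl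
        _ = _ := one_mul _
    exact e2.trans (h1.trans (mono _ _))
  have hi : Q⁻¹ ≤ 1 := inv_le_one_of_one_le₀ hQ
  have ha2' : 2 / (2:ℝ) ^ n ≤ Q := ((div_le_one p0).2 p2).trans hQ
  have h1 := N.norm_sub_le N' he (d.hK4 ox) (a := 2 ^ (n + 1)) (a' := 2 / 2 ^ n) (ρ := 1)
    (ρ' := 2 ^ n)
    (τ3 := 6 * Q ^ 4 * ε) (τ4 := 6 * Q ^ 3 * ε) (by positivity) (by positivity) h2 ha2'
    hi hQ (hi.trans p1) h2' (by positivity) (by positivity)
    t3 t4 t4'
  refine h1.trans ?_
  have h3 : Q ^ 5 ≤ Q ^ 10 := pow_le_pow_right₀ hQ (by norm_num)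
  calc 8 * Q ^ 6 * (6 * Q ^ 4 * ε) + 4 * Q ^ 2 * (6 * Q ^ 3 * ε)
      = (48 * Q ^ 10 + 24 * Q ^ 5) * ε := by ring
    _ ≤ (48 * Q ^ 10 + 24 * Q ^ 10) * ε := by gcongr
    _ = _ := by ring

/-- **(A3)**, with equalities in place of the literal forms -/
theorem A3' (d : Com vol ν R f G h Gh B F η η' φt cη n L β Q s ε) {x : X}
    (ox : One vol ν R f G h Gh B F n L β Q s ε x)
    (h2 : 2 ^ (n + 1) ≤ Q) {Λ Λ' e : ℝ}
    (N : Node (mm vol f η x) ν (K f x) (fun w u => h w u - h w x) Λ e Q s n)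
    {f' : X → X → ℝ} (hf' : f' = fun a u => 4 * f a u) {j' : W → X → ℝ}
    (hj' : j' = fun w u => 2 * (h w u - h w x))
    (N' : Node (mm vol f' η x) ν (K f' x) j' Λ' e Q s n)
    (he : 4 * Q ^ 4 * e ≤ 1) :
    ‖N.P - N'.P‖ ≤ 72 * Q ^ 10 * ε := by
  subst hf' hj'
  exact d.A3 ox h2 N N' he

end

end Crest.Agent.R247.Pln923
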