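import Crest.Agent.R247.Ker2_585
import Crest.Agent.R247.Pl2_661

/-!
# R247, block (2b), Pl5' part 1 (helper923): planes from kernels, abstract form

Two nodes: `(m, k, j)` and `(m', k', j')` (finite measures, symmetric kernels, kernels to `L²(ν)`), and a
transition kernel `M`.  Hilbert–Schmidt estimates for the commutators give closeness of the planes.
-/

set_option autoImplicit false
set_option linter.unusedSectionVars false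

noncomputable section

namespace Crest.Agent.R247.Pln923

open MeasureTheory Filter Set
open scoped ENNReal InnerProductSpace
open Crest.Agent.R247.Ker585 Crest.Agent.R247.Pl2661

variable {X Y Ω : Type*} [MeasurableSpace X] [MeasurableSpace Y] [MeasurableSpace Ω]
  {m : Measure X} {m' : Measure Y} {ν : Measure Ω} [SFinite m] [SFinite m'] [SFinite ν]

/-- norm of `a • (S ∘ T) - b • (S' ∘ T')` from the kernels -/
theorem norm_comp_sub_le {Z : Type*} [MeasurableSpace Z] {p : Measure Z} [SFinite p]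
    {X' : Type*} [MeasurableSpace X'] {l : Measure X'} [SFinite l]
    {k₁ : Z → Y → ℝ} {k₂ : Y → X → ℝ} {k₃ : Z → X' → ℝ} {k₄ : X' → X → ℝ}
    (h₁ : HK p m' k₁) (h₂ : HK m' m k₂) (h₃ : HK p l k₃) (h₄ : HK l m k₄) (a b : ℝ) {B : ℝ}
    (hB : 0 ≤ B)
    (h : hs2 p m (fun z x => a * kcomp m' k₁ k₂ z x - b * kcomp l k₃ k₄ z x) ≤
      ENNReal.ofReal (B ^ 2)) :
    ‖a • (kop h₁ ∘L kop h₂) - b • (kop h₃ ∘L kop h₄)‖ ≤ B := by
  rw [kop_comp, kop_comp, ← kop_const_mul, ← kop_const_mul, ← kop_sub]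
  exact norm_kop_le' _ hB h

/-- **Closeness of planes of two nodes.** -/
theorem two_nodes {k : X → X → ℝ} {k' : Y → Y → ℝ} {M : Y → X → ℝ} {j : Ω → X → ℝ}
    {j' : Ω → Y → ℝ}
    (hk : HK m m k) (hk' : HK m' m' k') (hM : HK m' m M) (hj : HK ν m j) (hj' : HK ν m' j')
    (sk : ∀ x y, k x y = k y x) (sk' : ∀ x y, k' x y = k' y x)
    {E : Lp ℝ 2 m →L[ℝ] Lp ℝ 2 m} {E' : Lp ℝ 2 m' →L[ℝ] Lp ℝ 2 m'} {e : ℝ}
    {Λ Λ' a a' ρ ρ' : ℝ} (hΛ : 0 < Λ) (hΛ' : 0 < Λ') (ha : 0 < a) (ha' : 0 < a')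
    (hρ : 0 < ρ) (hρ' : 0 < ρ')
    (hR : Rnd (Λ⁻¹ • kop hk) E e) (hR' : Rnd (Λ'⁻¹ • kop hk') E' e) (he : e ≤ 1 / 2)
    {cJ c τ3 τ4 τ4' τ t2 : ℝ}
    (hJ : ‖kop hj‖ ≤ cJ) (hJ' : ‖kop hj'‖ ≤ cJ) (hc : 0 < c)
    (hlow : ∀ v, E v = v → c * ‖v‖ ≤ ‖kop hj v‖)
    (hlow' : ∀ v, E' v = v → c * ‖v‖ ≤ ‖kop hj' v‖)
    (g1 : e * (ρ * Λ + ρ' * Λ') ≤ ρ * Λ / 2) (g2 : e * (ρ * Λ + ρ' * Λ') ≤ ρ' * Λ' / 2)
    (h3 : 0 ≤ τ3) (h4 : 0 ≤ τ4) (h4' : 0 ≤ τ4')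
    (t3 : hs2 m' m (fun w z => ρ' * kcomp m' k' M w z - ρ * kcomp m M k w z) ≤
      ENNReal.ofReal (τ3 ^ 2))
    (t4 : hs2 ν m (fun w z => a * kcomp m' j' M w z - 1 * kcomp m j k w z) ≤
      ENNReal.ofReal (τ4 ^ 2))
    (t4' : hs2 ν m' (fun w z => a' * kcomp m j (fun x y => M y x) w z -
      1 * kcomp m' j' k' w z) ≤ ENNReal.ofReal (τ4' ^ 2))
    (b1 : a * τ3 ≤ ρ * Λ ^ 2 * τ) (b2 : a' * τ3 ≤ ρ' * Λ' ^ 2 * τ)
    (b3 : τ4 ≤ Λ * t2) (b4 : τ4' ≤ Λ' * t2) :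
    ‖plane (kop hj) E - plane (kop hj') E'‖ ≤ 4 * (2 * cJ * τ + t2) / c := by
  have p1 : 0 < ρ * Λ := mul_pos hρ hΛ
  have p2 : 0 < ρ' * Λ' := mul_pos hρ' hΛ'
  refine norm_plane_sub_le (lam1 := ρ * Λ) (lam1' := ρ' * Λ') (lam2 := ρ' * Λ') (lam2' := ρ * Λ)
    hR hR' he (kop hj) (kop hj') ((a / Λ) • kop hM)
    ((a' / Λ') • kop hM.swap) hJ hJ' hc hlow hlow' p1 p2.le p2 p1.le g1
    (by linarith) ?_ ?_ ?_ ?_
  · have e1 : (ρ' * Λ') • ((Λ'⁻¹ • kop hk') ∘L ((a / Λ) • kop hM)) -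
        (ρ * Λ) • (((a / Λ) • kop hM) ∘L (Λ⁻¹ • kop hk)) =
        (a / Λ) • (ρ' • (kop hk' ∘L kop hM) - ρ • (kop hM ∘L kop hk)) := by
      simp only [ContinuousLinearMap.smul_comp, ContinuousLinearMap.comp_smul, smul_smul, smul_sub]
      congr 2
      · field_simp
      · field_simp
    rw [e1, norm_smul, Real.norm_of_nonneg (by positivity)]
    have e2 := norm_comp_sub_le hk' hM hM hk ρ' ρ h3 t3
    calc a / Λ * ‖ρ' • (kop hk' ∘L kop hM) - ρ • (kop hM ∘L kop hk)‖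
        ≤ a / Λ * τ3 := by gcongr
      _ = (a * τ3) / Λ := by ring
      _ ≤ (ρ * Λ ^ 2 * τ) / Λ := by gcongr
      _ = ρ * Λ * τ := by field_simp
  · have e1 : (ρ * Λ) • ((Λ⁻¹ • kop hk) ∘L ((a' / Λ') • kop hM.swap)) -
        (ρ' * Λ') • (((a' / Λ') • kop hM.swap) ∘L (Λ'⁻¹ • kop hk')) =
        (a' / Λ') • (ρ • (kop hk ∘L kop hM.swap) - ρ' • (kop hM.swap ∘L kop hk')) := by
      simp only [ContinuousLinearMap.smul_comp, ContinuousLinearMap.comp_smul, smul_smul, smul_sub]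
      congr 2
      · field_simp
      · field_simp
    rw [e1, norm_smul, Real.norm_of_nonneg (by positivity)]
    have e2 := norm_comp_sub_le hk' hM hM hk ρ' ρ h3 t3
    have e3 : ‖ρ • (kop hk ∘L kop hM.swap) - ρ' • (kop hM.swap ∘L kop hk')‖ =
        ‖ρ' • (kop hk' ∘L kop hM) - ρ • (kop hM ∘L kop hk)‖ := by
      rw [← LinearIsometryEquiv.norm_map ContinuousLinearMap.adjoint
        (ρ' • (kop hk' ∘L kop hM) - ρ • (kop hM ∘L kop hk))]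
      have a1 : ContinuousLinearMap.adjoint (kop hk) = kop hk :=
        ContinuousLinearMap.isSelfAdjoint_iff'.1 (isSelfAdjoint_kop hk sk)
      have a2 : ContinuousLinearMap.adjoint (kop hk') = kop hk' :=
        ContinuousLinearMap.isSelfAdjoint_iff'.1 (isSelfAdjoint_kop hk' sk')
      rw [map_sub, map_smulₛₗ, map_smulₛₗ, ContinuousLinearMap.adjoint_comp,
        ContinuousLinearMap.adjoint_comp, a1, a2, adjoint_kop]
      simp only [starRingEnd_apply, star_trivial]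
      rw [← norm_neg]
      congr 1
      abel
    rw [e3]
    calc a' / Λ' * ‖ρ' • (kop hk' ∘L kop hM) - ρ • (kop hM ∘L kop hk)‖
        ≤ a' / Λ' * τ3 := by gcongr
      _ = (a' * τ3) / Λ' := by ring
      _ ≤ (ρ' * Λ' ^ 2 * τ) / Λ' := by gcongr
      _ = ρ' * Λ' * τ := by field_simp
  · have e1 : kop hj' ∘L ((a / Λ) • kop hM) - kop hj ∘L (Λ⁻¹ • kop hk) =
        Λ⁻¹ • (a • (kop hj' ∘L kop hM) - (1:ℝ) • (kop hj ∘L kop hk)) := by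
      simp only [ContinuousLinearMap.comp_smul, smul_smul, smul_sub]
      congr 2
      · field_simp
      · field_simp
    rw [e1, norm_smul, Real.norm_of_nonneg (by positivity)]
    have e2 := norm_comp_sub_le hj' hM hj hk a 1 h4 t4
    calc Λ⁻¹ * ‖a • (kop hj' ∘L kop hM) - (1:ℝ) • (kop hj ∘L kop hk)‖
        ≤ Λ⁻¹ * τ4 := by gcongr
      _ ≤ Λ⁻¹ * (Λ * t2) := by gcongr
      _ = t2 := by field_simp
  · have e1 : kop hj ∘L ((a' / Λ') • kop hM.swap) - kop hj' ∘L (Λ'⁻¹ • kop hk') =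
        Λ'⁻¹ • (a' • (kop hj ∘L kop hM.swap) - (1:ℝ) • (kop hj' ∘L kop hk')) := by
      simp only [ContinuousLinearMap.comp_smul, smul_smul, smul_sub]
      congr 2
      · field_simp
      · field_simp
    rw [e1, norm_smul, Real.norm_of_nonneg (by positivity)]
    have e2 := norm_comp_sub_le hj hM.swap hj' hk' a' 1 h4' t4'
    calc Λ'⁻¹ * ‖a' • (kop hj ∘L kop hM.swap) - (1:ℝ) • (kop hj' ∘L kop hk')‖
        ≤ Λ'⁻¹ * τ4' := by gcongr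
      _ ≤ Λ'⁻¹ * (Λ' * t2) := by gcongr
      _ = t2 := by field_simp

/-- **(4c) lower bound of `J` on the plane.** -/
theorem low_of_near {k : X → X → ℝ} {j : Ω → X → ℝ} (hk : HK m m k) (hj : HK ν m j)
    {E : Lp ℝ 2 m →L[ℝ] Lp ℝ 2 m} {e Λ a β : ℝ} (hΛ : 0 < Λ) (ha : 0 < a) (hβ : 0 ≤ β)
    (hR : Rnd (Λ⁻¹ • kop hk) E e)
    (hn : hs2 m m (fun u v => a * kcomp ν (fun u w => j w u) j u v - 1 * k u v) ≤
      ENNReal.ofReal (β ^ 2)) (v : Lp ℝ 2 m) (hv : E v = v) :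
    ((1 - e) * Λ - β) * ‖v‖ ^ 2 ≤ a * ‖kop hj v‖ ^ 2 := by
  have h1 : ‖a • (kop hj.swap ∘L kop hj) - (1:ℝ) • kop hk‖ ≤ β := by
    rw [kop_comp, ← kop_const_mul, ← kop_const_mul, ← kop_sub]
    exact norm_kop_le' _ hβ hn
  have h2 : ⟪v, (kop hj.swap ∘L kop hj) v⟫_ℝ = ‖kop hj v‖ ^ 2 := by
    rw [ContinuousLinearMap.comp_apply, ← adjoint_kop, ContinuousLinearMap.adjoint_inner_right,
      real_inner_self_eq_norm_sq]
  have h3 := hR.inner_A_ge hv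
  have h4 : ⟪v, (Λ⁻¹ • kop hk) v⟫_ℝ = Λ⁻¹ * ⟪v, kop hk v⟫_ℝ := by
    rw [smul_apply, real_inner_smul_right]
  rw [h4] at h3
  have h5 : (1 - e) * Λ * ‖v‖ ^ 2 ≤ ⟪v, kop hk v⟫_ℝ := by
    have := mul_le_mul_of_nonneg_left h3 hΛ.le
    calc (1 - e) * Λ * ‖v‖ ^ 2 = Λ * ((1 - e) * ‖v‖ ^ 2) := by ring
      _ ≤ Λ * (Λ⁻¹ * ⟪v, kop hk v⟫_ℝ) := this
      _ = _ := by field_simp
  have h6 : |⟪v, (a • (kop hj.swap ∘L kop hj) - (1:ℝ) • kop hk) v⟫_ℝ| ≤ β * ‖v‖ ^ 2 := by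
    refine (abs_real_inner_le_norm _ _).trans ?_
    have := (a • (kop hj.swap ∘L kop hj) - (1:ℝ) • kop hk).le_opNorm v
    calc ‖v‖ * ‖(a • (kop hj.swap ∘L kop hj) - (1:ℝ) • kop hk) v‖
        ≤ ‖v‖ * (‖a • (kop hj.swap ∘L kop hj) - (1:ℝ) • kop hk‖ * ‖v‖) := by gcongr
      _ ≤ ‖v‖ * (β * ‖v‖) := by gcongr
      _ = _ := by ring
  have h7 : ⟪v, (a • (kop hj.swap ∘L kop hj) - (1:ℝ) • kop hk) v⟫_ℝ =
      a * ‖kop hj v‖ ^ 2 - ⟪v, kop hk v⟫_ℝ := by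
    rw [sub_apply, inner_sub_right, smul_apply, smul_apply, one_smul, real_inner_smul_right, h2]
  rw [h7] at h6
  have := (abs_le.1 h6).1
  linarith

/-- lower bound in the form consumed by `two_nodes`. -/
theorem low_of_near' {k : X → X → ℝ} {j : Ω → X → ℝ} (hk : HK m m k) (hj : HK ν m j)
    {E : Lp ℝ 2 m →L[ℝ] Lp ℝ 2 m} {e Λ a β : ℝ} (hΛ : 0 < Λ) (ha : 0 < a) (hβ : 0 ≤ β)
    (hR : Rnd (Λ⁻¹ • kop hk) E e) (he : e ≤ 1 / 4) (hβΛ : β ≤ Λ / 4)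
    (hn : hs2 m m (fun u v => a * kcomp ν (fun u w => j w u) j u v - 1 * k u v) ≤
      ENNReal.ofReal (β ^ 2)) (v : Lp ℝ 2 m) (hv : E v = v) :
    Real.sqrt (Λ / (2 * a)) * ‖v‖ ≤ ‖kop hj v‖ := by
  have h1 := low_of_near hk hj hΛ ha hβ hR hn v hv
  have h2 : Λ / 2 * ‖v‖ ^ 2 ≤ a * ‖kop hj v‖ ^ 2 := by
    refine le_trans ?_ h1
    have : Λ / 2 ≤ (1 - e) * Λ - β := by nlinarith
    gcongr
  apply le_of_sq_le_sq _ (norm_nonneg _)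
  rw [mul_pow, Real.sq_sqrt (by positivity)]
  rw [div_mul_eq_mul_div, div_le_iff₀ (by positivity)]
  linarith
where
  le_of_sq_le_sq {a b : ℝ} (h : a ^ 2 ≤ b ^ 2) (hb : 0 ≤ b) : a ≤ b :=
    (le_abs_self a).trans (abs_le_of_sq_le_sq h hb)

/-- norm of an `L²` class from a bound of the integral of the square -/
theorem norm_le_of_lintegral {Z : Type*} [MeasurableSpace Z] {p : Measure Z} (f : Lp ℝ 2 p)
    {g : Z → ℝ} (hfg : f =ᵐ[p] g) {B : ℝ} (hB : 0 ≤ B)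
    (h : ∫⁻ z, ‖g z‖ₑ ^ 2 ∂p ≤ ENNReal.ofReal (B ^ 2)) : ‖f‖ ≤ B := by
  rw [Lp.norm_def]
  apply ENNReal.toReal_le_of_le_ofReal hB
  have h1 : eLpNorm f 2 p ^ 2 ≤ ENNReal.ofReal B ^ 2 := by
    rw [eLpNorm_congr_ae hfg, eLpNorm_two_sq, ← ENNReal.ofReal_pow hB]
    exact h
  exact (ENNReal.pow_le_pow_left_iff (by norm_num)).1 h1

/-- **(A1) from kernels.** -/
theorem a1_of_kernels {k : X → X → ℝ} {j : Ω → X → ℝ} (hk : HK m m k) (hj : HK ν m j)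
    {E : Lp ℝ 2 m →L[ℝ] Lp ℝ 2 m} {e Λ cJ ta tb : ℝ} (hΛ : 0 < Λ) (he : e ≤ 1 / 2)
    (hR : Rnd (Λ⁻¹ • kop hk) E e) (hJ : ‖kop hj‖ ≤ cJ) (hta : 0 ≤ ta) (htb : 0 ≤ tb)
    {f : X → ℝ} (hf : MemLp f 2 m) (v : Lp ℝ 2 ν) {g : Ω → ℝ} (hv : v =ᵐ[ν] g)
    (h1 : ∫⁻ w, ‖Λ * g w - ∫ u, j w u * f u ∂m‖ₑ ^ 2 ∂ν ≤ ENNReal.ofReal (ta ^ 2))
    (h2 : ∫⁻ z, ‖∫ u, k z u * f u ∂m - Λ * f z‖ₑ ^ 2 ∂m ≤ ENNReal.ofReal ((Λ * tb) ^ 2)) :
    ‖v - plane (kop hj) E v‖ ≤ (ta + 2 * cJ * tb) / Λ := by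
  refine norm_sub_plane_of_approx hR he (kop hj) hJ v (hf.toLp f) hΛ ?_ ?_
  · refine norm_le_of_lintegral _ (g := fun w => Λ * g w - ∫ u, j w u * f u ∂m) ?_ hta h1
    filter_upwards [Lp.coeFn_sub (Λ • v) (kop hj (hf.toLp f)), Lp.coeFn_smul Λ v, hv,
      kop_toLp hj hf] with w h3 h4 h5 h6
    rw [h3, Pi.sub_apply, h4, Pi.smul_apply, h5, h6, smul_eq_mul]
  · have h3 : (Λ⁻¹ • kop hk) (hf.toLp f) - hf.toLp f =
        Λ⁻¹ • (kop hk (hf.toLp f) - Λ • hf.toLp f) := by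
      rw [smul_apply, smul_sub, smul_smul, inv_mul_cancel₀ hΛ.ne', one_smul]
    rw [h3, norm_smul, Real.norm_of_nonneg (by positivity)]
    have h4 : ‖kop hk (hf.toLp f) - Λ • hf.toLp f‖ ≤ Λ * tb := by
      refine norm_le_of_lintegral _ (g := fun z => ∫ u, k z u * f u ∂m - Λ * f z) ?_
        (by positivity) h2
      filter_upwards [Lp.coeFn_sub (kop hk (hf.toLp f)) (Λ • hf.toLp f),
        Lp.coeFn_smul Λ (hf.toLp f), hf.coeFn_toLp, kop_toLp hk hf] with w h3 h4 h5 h6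
      rw [h3, Pi.sub_apply, h4, Pi.smul_apply, h5, h6, smul_eq_mul]
    calc Λ⁻¹ * ‖kop hk (hf.toLp f) - Λ • hf.toLp f‖ ≤ Λ⁻¹ * (Λ * tb) := by gcongr
      _ = tb := by field_simp

end Crest.Agent.R247.Pln923
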