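import Crest.Agent.R247.Pln1_923
import Crest.Agent.R247.Glu6_923

/-!
# R247, block (2b), Pl5' part 2 (helper923): nodes

A `Node` is a finite measure with a symmetric kernel, a kernel to `L²(ν)` and a round-off projection
of rank `n`.  `Node.P` is the plane (projection of `L²(ν)` of rank `n`).
-/

set_option autoImplicit false
set_option linter.unusedSectionVars false

noncomputable section

namespace Crest.Agent.R247.Pln923

open MeasureTheory Filter Set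
open scoped ENNReal InnerProductSpace
open Crest.Agent.R247.Ker585 Crest.Agent.R247.Pl2661

section rank

variable {V H : Type*} [NormedAddCommGroup V] [InnerProductSpace ℝ V] [CompleteSpace V]
  [NormedAddCommGroup H] [InnerProductSpace ℝ H] [CompleteSpace H]

/-- the plane has the rank of `E`. -/
theorem planeSub_rank {J : V →L[ℝ] H} {E : V →L[ℝ] V} (hEE : ∀ v, E (E v) = E v) {c : ℝ}
    (hc : 0 < c) (hlow : ∀ v, E v = v → c * ‖v‖ ≤ ‖J v‖) {n : ℕ}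
    (hf : FiniteDimensional ℝ (LinearMap.range E.toLinearMap))
    (hn : Module.finrank ℝ (LinearMap.range E.toLinearMap) = n) :
    FiniteDimensional ℝ (planeSub J E) ∧ Module.finrank ℝ (planeSub J E) = n := by
  set W := LinearMap.range E.toLinearMap with hW
  have hE : ∀ v ∈ W, E v = v := by
    rintro _ ⟨u, rfl⟩
    exact hEE u
  have h1 : LinearMap.range (J ∘L E : V →L[ℝ] H).toLinearMap = W.map J.toLinearMap := by
    ext y
    constructor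
    · rintro ⟨v, rfl⟩
      exact ⟨E v, ⟨v, rfl⟩, rfl⟩
    · rintro ⟨_, ⟨v, rfl⟩, rfl⟩
      exact ⟨v, rfl⟩
  have h2 : FiniteDimensional ℝ (W.map J.toLinearMap) := by infer_instance
  have h3 : planeSub J E = W.map J.toLinearMap := by
    unfold planeSub
    rw [h1]
    exact (Submodule.closed_of_finiteDimensional _).submodule_topologicalClosure_eq
  rw [h3]
  refine ⟨h2, ?_⟩
  rw [← hn]
  have hinj : Function.Injective (J.toLinearMap.domRestrict W) := by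
    rw [← LinearMap.ker_eq_bot, LinearMap.ker_eq_bot']
    intro v hv
    have h4 := hlow v (hE v v.2)
    have h5 : J v = 0 := hv
    rw [h5, norm_zero] at h4
    have h6 : ‖(v : V)‖ = 0 := by
      have := norm_nonneg (v : V)
      nlinarith
    exact Subtype.ext (norm_eq_zero.1 h6)
  have h7 : W.map J.toLinearMap = LinearMap.range (J.toLinearMap.domRestrict W) := by
    ext y
    constructor
    · rintro ⟨v, hv, rfl⟩
      exact ⟨⟨v, hv⟩, rfl⟩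
    · rintro ⟨v, rfl⟩
      exact ⟨v, v.2, rfl⟩
  rw [h7]
  exact LinearMap.finrank_range_of_inj hinj

end rank

variable {X Y Ω : Type*} [MeasurableSpace X] [MeasurableSpace Y] [MeasurableSpace Ω]
  {m : Measure X} {m' : Measure Y} {ν : Measure Ω} [SFinite m] [SFinite m'] [SFinite ν]

/-- A node; `s` is the size of the mass (`s = rⁿ` at scale `r`). -/
structure Node (m : Measure X) (ν : Measure Ω) [SFinite m] [SFinite ν] (k : X → X → ℝ)
    (j : Ω → X → ℝ) (Λ e Q s : ℝ) (n : ℕ) where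
  hk : HK m m k
  sk : ∀ x y, k x y = k y x
  hj : HK ν m j
  E : Lp ℝ 2 m →L[ℝ] Lp ℝ 2 m
  R : Rnd (Λ⁻¹ • kop hk) E e
  fin : FiniteDimensional ℝ (LinearMap.range E.toLinearMap)
  rank : Module.finrank ℝ (LinearMap.range E.toLinearMap) = n
  low : ∀ v, E v = v → Q⁻¹ * Real.sqrt s * ‖v‖ ≤ ‖kop hj v‖
  up : ‖kop hj‖ ≤ Q * Real.sqrt s
  s_pos : 0 < s
  Q_ge : 1 ≤ Q
  Λ_ge : Q⁻¹ * s ≤ Λ
  Λ_le : Λ ≤ Q * s
  e_half : e ≤ 1 / 4

namespace Node

variable {k : X → X → ℝ} {k' : Y → Y → ℝ} {j : Ω → X → ℝ} {j' : Ω → Y → ℝ}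
  {Λ Λ' e Q s : ℝ} {n : ℕ}

/-- the plane of a node -/
def P (N : Node m ν k j Λ e Q s n) : Lp ℝ 2 ν →L[ℝ] Lp ℝ 2 ν := plane (kop N.hj) N.E

theorem isProj (N : Node m ν k j Λ e Q s n) : Glu923.IsProj N.P := by
  refine ⟨plane_idem _ _, fun u v => ?_⟩
  have h := plane_isSelfAdjoint (kop N.hj) N.E
  have h1 : ContinuousLinearMap.adjoint N.P = N.P := by
    rwa [ContinuousLinearMap.isSelfAdjoint_iff'] at h
  conv_lhs => rw [← h1]
  exact ContinuousLinearMap.adjoint_inner_left _ _ _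

theorem Q_pos (N : Node m ν k j Λ e Q s n) : 0 < Q := by
  have := N.Q_ge
  linarith

theorem Λ_pos (N : Node m ν k j Λ e Q s n) : 0 < Λ :=
  (mul_pos (inv_pos.2 N.Q_pos) N.s_pos).trans_le N.Λ_ge

theorem s_le_QΛ (N : Node m ν k j Λ e Q s n) : s ≤ Q * Λ := by
  have h := mul_le_mul_of_nonneg_left N.Λ_ge N.Q_pos.le
  rwa [← mul_assoc, mul_inv_cancel₀ N.Q_pos.ne', one_mul] at h

theorem e_nonneg (N : Node m ν k j Λ e Q s n) : 0 ≤ e := N.R.e_nonneg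

theorem exists_range (N : Node m ν k j Λ e Q s n) : ∃ V : Submodule ℝ (Lp ℝ 2 ν),
    FiniteDimensional ℝ V ∧ Module.finrank ℝ V = n ∧ ∀ v, N.P v ∈ V := by
  have h := planeSub_rank (J := kop N.hj) N.R.EE
    (mul_pos (inv_pos.2 N.Q_pos) (Real.sqrt_pos.2 N.s_pos)) N.low N.fin N.rank
  exact ⟨planeSub (kop N.hj) N.E, h.1, h.2, fun v => plane_apply_mem _ _ v⟩

/-- change of the constants -/
def weaken (N : Node m ν k j Λ e Q s n) {Q' s' : ℝ} (hs' : 0 < s') (hQ : Q ≤ Q')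
    (h1 : Q * s ≤ Q' * s') (h2 : Q * s' ≤ Q' * s) : Node m ν k j Λ e Q' s' n where
  hk := N.hk
  sk := N.sk
  hj := N.hj
  E := N.E
  R := N.R
  fin := N.fin
  rank := N.rank
  s_pos := hs'
  Q_ge := N.Q_ge.trans hQ
  e_half := N.e_half
  Λ_le := N.Λ_le.trans h1
  Λ_ge := by
    refine le_trans ?_ N.Λ_ge
    have hQ0 := N.Q_pos
    have hQ' : 0 < Q' := hQ0.trans_le hQ
    rw [inv_mul_le_iff₀ hQ', ← mul_assoc, mul_comm Q' Q⁻¹, mul_assoc, le_inv_mul_iff₀ hQ0]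
    exact h2
  up := by
    refine N.up.trans ?_
    have hQ0 := N.Q_pos
    have hQ' : 0 < Q' := hQ0.trans_le hQ
    have h3 : Q * Real.sqrt s = Real.sqrt (Q * (Q * s)) := by
      rw [← mul_assoc, Real.sqrt_mul (by positivity), Real.sqrt_mul_self hQ0.le]
    have h4 : Q' * Real.sqrt s' = Real.sqrt (Q' * (Q' * s')) := by
      rw [← mul_assoc, Real.sqrt_mul (by positivity), Real.sqrt_mul_self hQ'.le]
    rw [h3, h4]
    apply Real.sqrt_le_sqrt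
    have := N.s_pos
    exact mul_le_mul hQ h1 (by positivity) hQ'.le
  low := fun v hv => by
    refine le_trans ?_ (N.low v hv)
    have hQ0 := N.Q_pos
    have hQ' : 0 < Q' := hQ0.trans_le hQ
    refine mul_le_mul_of_nonneg_right ?_ (norm_nonneg _)
    have h3 : Q⁻¹ * Real.sqrt s = Real.sqrt (Q⁻¹ * (Q⁻¹ * s)) := by
      rw [← mul_assoc, Real.sqrt_mul (by positivity), Real.sqrt_mul_self (by positivity)]
    have h4 : Q'⁻¹ * Real.sqrt s' = Real.sqrt (Q'⁻¹ * (Q'⁻¹ * s')) := by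
      rw [← mul_assoc, Real.sqrt_mul (by positivity), Real.sqrt_mul_self (by positivity)]
    rw [h3, h4]
    apply Real.sqrt_le_sqrt
    have := N.s_pos
    have h5 : Q'⁻¹ ≤ Q⁻¹ := inv_anti₀ hQ0 hQ
    refine mul_le_mul h5 ?_ (by positivity) (by positivity)
    rw [inv_mul_le_iff₀ hQ', ← mul_assoc, mul_comm Q' Q⁻¹, mul_assoc, le_inv_mul_iff₀ hQ0]
    exact h2

@[simp] theorem weaken_P (N : Node m ν k j Λ e Q s n) {Q' s' : ℝ} (hs' : 0 < s') (hQ : Q ≤ Q')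
    (h1 : Q * s ≤ Q' * s') (h2 : Q * s' ≤ Q' * s) : (N.weaken hs' hQ h1 h2).P = N.P := rfl

/-- **Closeness of the planes of two nodes.** -/
theorem norm_sub_le (N : Node m ν k j Λ e Q s n) (N' : Node m' ν k' j' Λ' e Q s n)
    (he : 4 * Q ^ 4 * e ≤ 1)
    {M : Y → X → ℝ} (hM : HK m' m M) {a a' ρ ρ' τ3 τ4 : ℝ} (ha : 0 < a) (ha' : 0 < a')
    (ha2 : a ≤ Q) (ha2' : a' ≤ Q) (hρ : Q⁻¹ ≤ ρ) (hρ2 : ρ ≤ Q) (hρ' : Q⁻¹ ≤ ρ') (hρ2' : ρ' ≤ Q)
    (h3 : 0 ≤ τ3) (h4 : 0 ≤ τ4)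
    (t3 : hs2 m' m (fun w z => ρ' * kcomp m' k' M w z - ρ * kcomp m M k w z) ≤
      ENNReal.ofReal ((s ^ 2 * τ3) ^ 2))
    (t4 : hs2 ν m (fun w z => a * kcomp m' j' M w z - 1 * kcomp m j k w z) ≤
      ENNReal.ofReal ((s * Real.sqrt s * τ4) ^ 2))
    (t4' : hs2 ν m' (fun w z => a' * kcomp m j (fun x y => M y x) w z -
      1 * kcomp m' j' k' w z) ≤ ENNReal.ofReal ((s * Real.sqrt s * τ4) ^ 2)) :
    ‖N.P - N'.P‖ ≤ 8 * Q ^ 6 * τ3 + 4 * Q ^ 2 * τ4 := by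
  have hQ := N.Q_ge
  have hQ0 := N.Q_pos
  have hs := N.s_pos
  have hΛ := N.Λ_pos
  have hΛ' := N'.Λ_pos
  have he0 := N.e_nonneg
  have h5 := N.s_le_QΛ
  have h6 := N'.s_le_QΛ
  have hss : 0 < Real.sqrt s := Real.sqrt_pos.2 hs
  have hi : 0 < Q⁻¹ := inv_pos.2 hQ0
  have hρ0 : 0 < ρ := hi.trans_le hρ
  have hρ0' : 0 < ρ' := hi.trans_le hρ'
  have g : ∀ {L σ : ℝ}, s ≤ Q * L → 0 < L → Q⁻¹ ≤ σ → e * (ρ * Λ + ρ' * Λ') ≤ σ * L / 2 := by
    intro L σ hL hL0 hσ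
    have h7 : e * (ρ * Λ + ρ' * Λ') ≤ e * (2 * Q ^ 2 * s) := by
      have h8 : ρ * Λ ≤ Q * (Q * s) := mul_le_mul hρ2 N.Λ_le hΛ.le hQ0.le
      have h9 : ρ' * Λ' ≤ Q * (Q * s) := mul_le_mul hρ2' N'.Λ_le hΛ'.le hQ0.le
      refine mul_le_mul_of_nonneg_left ?_ he0
      nlinarith
    have h8 : e * (2 * Q ^ 2 * s) ≤ e * (2 * Q ^ 2 * (Q * L)) := by gcongr
    have h9 : e * (2 * Q ^ 2 * (Q * L)) = (4 * Q ^ 4 * e) * (Q⁻¹ * L / 2) := by
      field_simp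
      ring
    have h10 : (4 * Q ^ 4 * e) * (Q⁻¹ * L / 2) ≤ 1 * (Q⁻¹ * L / 2) := by gcongr
    have h11 : Q⁻¹ * L ≤ σ * L := by gcongr
    linarith
  have hbs : ∀ {b t L σ : ℝ}, s ≤ Q * L → 0 < L → 0 < b → b ≤ Q → 0 ≤ t → Q⁻¹ ≤ σ →
      b * (s ^ 2 * t) ≤ σ * L ^ 2 * (Q ^ 4 * t) := by
    intro b t L σ hL hL0 hb hb2 ht hσ
    have h7 : s ^ 2 ≤ (Q * L) ^ 2 := by gcongr
    calc b * (s ^ 2 * t) ≤ Q * ((Q * L) ^ 2 * t) := by gcongr
      _ = Q⁻¹ * L ^ 2 * (Q ^ 4 * t) := by field_simp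
      _ ≤ _ := by gcongr
  have hbt : ∀ {t L : ℝ}, s ≤ Q * L → 0 ≤ t → s * Real.sqrt s * t ≤ L * (Q * Real.sqrt s * t) := by
    intro t L hL ht
    calc s * Real.sqrt s * t ≤ (Q * L) * Real.sqrt s * t := by gcongr
      _ = _ := by ring
  have := two_nodes N.hk N'.hk hM N.hj N'.hj N.sk N'.sk hΛ hΛ' ha ha' hρ0 hρ0' N.R N'.R
    (by linarith [N.e_half]) N.up N'.up (mul_pos (inv_pos.2 hQ0) hss) N.low N'.low (g h5 hΛ hρ)
    (g h6 hΛ' hρ') (by positivity) (by positivity) (by positivity) t3 t4 t4'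
    (hbs h5 hΛ ha ha2 h3 hρ)
    (hbs h6 hΛ' ha' ha2' h3 hρ') (hbt h5 h4) (hbt h6 h4)
  refine this.trans (le_of_eq ?_)
  field_simp
  ring

/-- **(A1) for a node.** -/
theorem norm_sub_P_le (N : Node m ν k j Λ e Q s n) {ta tb : ℝ} (hta : 0 ≤ ta) (htb : 0 ≤ tb)
    {f : X → ℝ} (hf : MemLp f 2 m) (v : Lp ℝ 2 ν) {g : Ω → ℝ} (hv : v =ᵐ[ν] g)
    (h1 : ∫⁻ w, ‖Λ * g w - ∫ u, j w u * f u ∂m‖ₑ ^ 2 ∂ν ≤ ENNReal.ofReal ((s * ta) ^ 2))
    (h2 : ∫⁻ z, ‖∫ u, k z u * f u ∂m - Λ * f z‖ₑ ^ 2 ∂m ≤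
      ENNReal.ofReal ((s * Real.sqrt s * tb) ^ 2)) :
    ‖v - N.P v‖ ≤ Q * ta + 2 * Q ^ 3 * tb := by
  have hQ := N.Q_ge
  have hQ0 := N.Q_pos
  have hs := N.s_pos
  have hss : 0 < Real.sqrt s := Real.sqrt_pos.2 hs
  have hΛ := N.Λ_pos
  have h5 := N.s_le_QΛ
  have h3 := a1_of_kernels N.hk N.hj hΛ (by linarith [N.e_half]) N.R N.up
    (ta := s * ta) (by positivity)
    (tb := s * Real.sqrt s * tb / Λ) (by positivity) hf v hv h1 (by
      rw [mul_div_cancel₀ _ hΛ.ne']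
      exact h2)
  refine h3.trans ?_
  have h6 : s * Λ⁻¹ ≤ Q := by
    rw [← div_eq_mul_inv, div_le_iff₀ hΛ]
    exact h5
  have h7 : (s * ta + 2 * (Q * Real.sqrt s) * (s * Real.sqrt s * tb / Λ)) / Λ =
      ta * (s * Λ⁻¹) + 2 * Q * tb * (s * Λ⁻¹) ^ 2 := by
    have : Real.sqrt s * Real.sqrt s = s := Real.mul_self_sqrt hs.le
    calc (s * ta + 2 * (Q * Real.sqrt s) * (s * Real.sqrt s * tb / Λ)) / Λ =
        (s * ta + 2 * Q * (Real.sqrt s * Real.sqrt s) * (s * tb / Λ)) / Λ := by ring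
      _ = _ := by
        rw [this]
        field_simp
  rw [h7]
  have hi : 0 ≤ s * Λ⁻¹ := by positivity
  calc ta * (s * Λ⁻¹) + 2 * Q * tb * (s * Λ⁻¹) ^ 2 ≤ ta * Q + 2 * Q * tb * Q ^ 2 := by gcongr
    _ = _ := by ring

end Node

/-! ### Hilbert–Schmidt bounds from pointwise bounds -/

theorem two_mul_le' (a b : ℝ≥0∞) : a * b + a * b ≤ a ^ 2 + b ^ 2 := by
  rcases le_total a b with h | h
  · obtain ⟨c, rfl⟩ := exists_add_of_le h
    calc a * (a + c) + a * (a + c) ≤ (a * (a + c) + a * (a + c)) + c ^ 2 := le_self_add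
      _ = _ := by ring
  · obtain ⟨c, rfl⟩ := exists_add_of_le h
    calc (b + c) * b + (b + c) * b ≤ ((b + c) * b + (b + c) * b) + c ^ 2 := le_self_add
      _ = _ := by ring

theorem add3_sq_le (a b c : ℝ≥0∞) : (a + b + c) ^ 2 ≤ 3 * (a ^ 2 + b ^ 2 + c ^ 2) := by
  calc (a + b + c) ^ 2 = a ^ 2 + b ^ 2 + c ^ 2 + (a * b + a * b) + (a * c + a * c)
        + (b * c + b * c) := by ring
    _ ≤ a ^ 2 + b ^ 2 + c ^ 2 + (a ^ 2 + b ^ 2) + (a ^ 2 + c ^ 2) + (b ^ 2 + c ^ 2) :=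
        add_le_add (add_le_add (add_le_add le_rfl (two_mul_le' a b)) (two_mul_le' a c))
          (two_mul_le' b c)
    _ = _ := by ring

/-- Hilbert–Schmidt bound from a pointwise bound `c₀ + b w + a z`. -/
theorem hs2_le_of_bound {κ : Y → X → ℝ} {c₀ : ℝ≥0∞} {b : Y → ℝ≥0∞} {a : X → ℝ≥0∞}
    (ha : AEMeasurable a m) (hb : AEMeasurable b m')
    (h : ∀ᵐ w ∂m', ∀ᵐ z ∂m, ‖κ w z‖ₑ ≤ c₀ + b w + a z) :
    hs2 m' m κ ≤ 3 * (c₀ ^ 2 * (m univ * m' univ) + m univ * ∫⁻ w, b w ^ 2 ∂m'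
      + m' univ * ∫⁻ z, a z ^ 2 ∂m) := by
  unfold hs2
  have ha2 : AEMeasurable (fun z => a z ^ 2) m := ha.pow_const 2
  have hb2 : AEMeasurable (fun w => b w ^ 2) m' := hb.pow_const 2
  calc ∫⁻ w, ∫⁻ z, ‖κ w z‖ₑ ^ 2 ∂m ∂m'
      ≤ ∫⁻ w, 3 * (c₀ ^ 2 * m univ + m univ * b w ^ 2 + ∫⁻ z, a z ^ 2 ∂m) ∂m' := by
        refine lintegral_mono_ae ?_
        filter_upwards [h] with w hw
        calc ∫⁻ z, ‖κ w z‖ₑ ^ 2 ∂m ≤ ∫⁻ z, (3 * (c₀ ^ 2 + b w ^ 2) + 3 * a z ^ 2) ∂m := by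
              refine lintegral_mono_ae ?_
              filter_upwards [hw] with z hz
              calc ‖κ w z‖ₑ ^ 2 ≤ (c₀ + b w + a z) ^ 2 := by gcongr
                _ ≤ 3 * (c₀ ^ 2 + b w ^ 2 + a z ^ 2) := add3_sq_le _ _ _
                _ = _ := by ring
          _ = _ := by
              rw [lintegral_add_left measurable_const, lintegral_const,
                lintegral_const_mul'' _ ha2]
              ring
    _ = _ := by
        rw [lintegral_const_mul' _ _ (by simp), lintegral_add_right _ measurable_const,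
          lintegral_add_left measurable_const, lintegral_const, lintegral_const,
          lintegral_const_mul'' _ hb2]
        ring

end Crest.Agent.R247.Pln923
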