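import Crest.Agent.R247.Pln2_923
import Crest.Agent.R247.Pl7_661

/-!
# R247, block (2b), Pl5' part 4 (helper923): Hilbert–Schmidt integration of (T1)–(T6)
-/

set_option autoImplicit false
set_option linter.unusedSectionVars false

noncomputable section

namespace Crest.Agent.R247.Pln923

open MeasureTheory Filter Set
open scoped ENNReal InnerProductSpace
open Crest.Agent.R247.Ker585 Crest.Agent.R247.Pl2661
open Crest.Agent.R247.Gap79 (K P)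
open Crest.Agent.R247.Pl6661 (EE)

variable {X W : Type*} [MeasurableSpace X] [MeasurableSpace W]

/-- the measure with density `η (f x ·)` -/
def mm (vol : Measure X) (f : X → X → ℝ) (η : ℝ → ℝ) (x : X) : Measure X :=
  vol.withDensity (fun u => ENNReal.ofReal (η (f x u)))

instance (vol : Measure X) [SFinite vol] (f : X → X → ℝ) (η : ℝ → ℝ) (x : X) :
    SFinite (mm vol f η x) := by
  unfold mm; infer_instance

/-- hypotheses on the density at `x` -/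
structure Den (vol : Measure X) (f : X → X → ℝ) (η : ℝ → ℝ) (B : Set X) (Q s : ℝ) (x : X) :
    Prop where
  mf : Measurable (f x)
  mη : Measurable η
  η0 : ∀ t, 0 ≤ η t
  ηQ : ∀ t, η t ≤ Q
  out : ∀ u, u ∉ B → η (f x u) = 0
  mB : MeasurableSet B
  volB : vol B ≤ ENNReal.ofReal (Q * s)
  Q1 : 1 ≤ Q
  s0 : 0 < s

namespace Den

variable {vol : Measure X} {f : X → X → ℝ} {η : ℝ → ℝ} {B : Set X} {Q s : ℝ} {x : X}
  (d : Den vol f η B Q s x)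
include d

theorem mden : Measurable (fun u => ENNReal.ofReal (η (f x u))) :=
  (d.mη.comp d.mf).ennreal_ofReal

theorem lintegral_le (g : X → ℝ≥0∞) :
    ∫⁻ u, g u ∂(mm vol f η x) ≤ ENNReal.ofReal Q * ∫⁻ u in B, g u ∂vol := by
  have h1 : ∫⁻ u, g u ∂(mm vol f η x) ≤ ∫⁻ u, ENNReal.ofReal (η (f x u)) * g u ∂vol := by
    unfold mm
    exact lintegral_withDensity_le_lintegral_mul vol d.mden g
  refine h1.trans ?_
  rw [← lintegral_const_mul' _ _ ENNReal.ofReal_ne_top, ← lintegral_indicator d.mB]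
  refine lintegral_mono fun u => ?_
  by_cases hu : u ∈ B
  · simp only [indicator_of_mem hu]
    gcongr
    exact d.ηQ _
  · simp only [indicator_of_notMem hu]
    rw [d.out _ hu, ENNReal.ofReal_zero, zero_mul]

theorem integral_eq (g : X → ℝ) :
    ∫ u, g u ∂(mm vol f η x) = ∫ u, g u * η (f x u) ∂vol := by
  unfold mm
  rw [integral_withDensity_eq_integral_toReal_smul d.mden
    (Eventually.of_forall fun u => ENNReal.ofReal_lt_top)]
  refine integral_congr_ae (Eventually.of_forall fun u => ?_)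
  simp only [smul_eq_mul]
  rw [ENNReal.toReal_ofReal (d.η0 _), mul_comm]

theorem univ_le : mm vol f η x univ ≤ ENNReal.ofReal (Q ^ 2 * s) := by
  have h := d.lintegral_le (fun _ => 1)
  rw [lintegral_one, lintegral_one, Measure.restrict_apply_univ] at h
  refine h.trans ?_
  have hQ := d.Q1
  calc ENNReal.ofReal Q * vol B ≤ ENNReal.ofReal Q * ENNReal.ofReal (Q * s) := by
        gcongr
        exact d.volB
    _ = ENNReal.ofReal (Q ^ 2 * s) := by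
        rw [← ENNReal.ofReal_mul (by linarith)]
        congr 1
        ring

theorem finite : IsFiniteMeasure (mm vol f η x) :=
  ⟨d.univ_le.trans_lt ENNReal.ofReal_lt_top⟩

theorem ae_mem : ∀ᵐ u ∂(mm vol f η x), u ∈ B := by
  rw [ae_iff]
  have h := d.lintegral_le (fun u => {u | ¬ u ∈ B}.indicator (fun _ => 1) u)
  have hm : MeasurableSet {u | ¬ u ∈ B} := d.mB.compl
  rw [lintegral_indicator_const hm, one_mul] at h
  have h2 : ∫⁻ u in B, {u | ¬ u ∈ B}.indicator (fun _ => (1:ℝ≥0∞)) u ∂vol = 0 := by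
    rw [lintegral_eq_zero_iff' ((measurable_const.indicator hm).aemeasurable)]
    filter_upwards [ae_restrict_mem d.mB] with u hu
    simp [hu]
  rw [h2, mul_zero] at h
  exact le_antisymm h (zero_le)

end Den

/-! ### numerical form of the Hilbert–Schmidt bound -/

theorem three_bound {c₀ p p' ib ia : ℝ≥0∞} {c r r' jb ja : ℝ} (hc : 0 ≤ c) (hr : 0 ≤ r)
    (hr' : 0 ≤ r') (hjb : 0 ≤ jb) (hja : 0 ≤ ja) (h1 : c₀ ≤ ENNReal.ofReal c)
    (h2 : p ≤ ENNReal.ofReal r) (h3 : p' ≤ ENNReal.ofReal r') (h4 : ib ≤ ENNReal.ofReal jb)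
    (h5 : ia ≤ ENNReal.ofReal ja) :
    3 * (c₀ ^ 2 * (p * p') + p * ib + p' * ia) ≤
      ENNReal.ofReal (3 * (c ^ 2 * (r * r') + r * jb + r' * ja)) := by
  have e : ENNReal.ofReal (3 * (c ^ 2 * (r * r') + r * jb + r' * ja)) =
      3 * (ENNReal.ofReal c ^ 2 * (ENNReal.ofReal r * ENNReal.ofReal r') +
        ENNReal.ofReal r * ENNReal.ofReal jb + ENNReal.ofReal r' * ENNReal.ofReal ja) := by
    rw [ENNReal.ofReal_mul (by norm_num), ENNReal.ofReal_add (by positivity) (by positivity),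
      ENNReal.ofReal_add (by positivity) (by positivity), ENNReal.ofReal_mul (by positivity),
      ENNReal.ofReal_mul hr, ENNReal.ofReal_mul hr, ENNReal.ofReal_mul hr', ENNReal.ofReal_pow hc]
    norm_num
  rw [e]
  gcongr

section HS

variable {m m' : Measure X} {ν : Measure W} [SFinite m] [SFinite m'] [SFinite ν]
  {Q s ε : ℝ} {C : ℝ}

/-- (T3), (T5) integrated. -/
theorem hs_T3 {κ : X → X → ℝ} {A : X → ℝ≥0∞} {g₀ : ℝ≥0∞} (hQ : 1 ≤ Q) (hs : 0 < s) (hε : 0 ≤ ε)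
    (hC : 0 ≤ C) (hCQ : C ≤ Q)
    (hm : m univ ≤ ENNReal.ofReal (Q ^ 2 * s)) (hm' : m' univ ≤ ENNReal.ofReal (Q ^ 2 * s))
    (mA : AEMeasurable A m) (mA' : AEMeasurable A m')
    (hA : ∫⁻ z, A z ^ 2 ∂m ≤ ENNReal.ofReal (4 * Q ^ 3 * s ^ 3 * ε ^ 2))
    (hA' : ∫⁻ z, A z ^ 2 ∂m' ≤ ENNReal.ofReal (4 * Q ^ 3 * s ^ 3 * ε ^ 2))
    (hg : g₀ ≤ ENNReal.ofReal (2 * Q * s * ε))
    (h : ∀ᵐ w ∂m', ∀ᵐ z ∂m, ‖κ w z‖ₑ ≤ ENNReal.ofReal C * (g₀ + A w + A z)) :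
    hs2 m' m κ ≤ ENNReal.ofReal ((s ^ 2 * (6 * Q ^ 4 * ε)) ^ 2) := by
  have h1 := hs2_le_of_bound (κ := κ) (c₀ := ENNReal.ofReal C * g₀)
    (b := fun w => ENNReal.ofReal C * A w) (a := fun z => ENNReal.ofReal C * A z)
    (mA.const_mul _) (mA'.const_mul _) (by
      filter_upwards [h] with w hw
      filter_upwards [hw] with z hz
      refine hz.trans (le_of_eq ?_)
      ring)
  refine h1.trans ?_
  have e1 : ∀ p : Measure X, ∀ mp : AEMeasurable A p,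
      ∫⁻ z, (ENNReal.ofReal C * A z) ^ 2 ∂p = ENNReal.ofReal C ^ 2 * ∫⁻ z, A z ^ 2 ∂p := by
    intro p mp
    simp_rw [mul_pow]
    exact lintegral_const_mul'' _ (mp.pow_const 2)
  rw [e1 m mA, e1 m' mA']
  have h2 : ENNReal.ofReal C * g₀ ≤ ENNReal.ofReal (C * (2 * Q * s * ε)) := by
    rw [ENNReal.ofReal_mul hC]
    gcongr
  have h3 : ∀ {I : ℝ≥0∞}, I ≤ ENNReal.ofReal (4 * Q ^ 3 * s ^ 3 * ε ^ 2) →
      ENNReal.ofReal C ^ 2 * I ≤ ENNReal.ofReal (C ^ 2 * (4 * Q ^ 3 * s ^ 3 * ε ^ 2)) := by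
    intro I hI
    rw [ENNReal.ofReal_mul (by positivity), ENNReal.ofReal_pow hC]
    gcongr
  have hQ0 : 0 < Q := by linarith
  refine (three_bound (by positivity) (by positivity) (by positivity) (by positivity)
    (by positivity) h2 hm hm' (h3 hA') (h3 hA)).trans (ENNReal.ofReal_le_ofReal ?_)
  have hC2 : C ^ 2 ≤ Q ^ 2 := by gcongr
  calc 3 * ((C * (2 * Q * s * ε)) ^ 2 * (Q ^ 2 * s * (Q ^ 2 * s)) +
        Q ^ 2 * s * (C ^ 2 * (4 * Q ^ 3 * s ^ 3 * ε ^ 2)) +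
        Q ^ 2 * s * (C ^ 2 * (4 * Q ^ 3 * s ^ 3 * ε ^ 2)))
      = C ^ 2 * ((12 * Q ^ 6 + 24 * Q ^ 5) * (s ^ 4 * ε ^ 2)) := by ring
    _ ≤ Q ^ 2 * ((12 * Q ^ 6 + 24 * Q ^ 6) * (s ^ 4 * ε ^ 2)) := by
        have h9 : Q ^ 5 ≤ Q ^ 6 := pow_le_pow_right₀ hQ (by norm_num)
        gcongr
    _ = _ := by ring

/-- (T4), (T6) integrated. -/
theorem hs_T4 {κ : W → X → ℝ} {A : X → ℝ≥0∞} {D : W → ℝ≥0∞} {g₀ : ℝ≥0∞} (hQ : 1 ≤ Q)
    (hs : 0 < s) (hε : 0 ≤ ε) (hC : 0 ≤ C) (hCQ : C ≤ Q)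
    (hm : m univ ≤ ENNReal.ofReal (Q ^ 2 * s)) (hν : ν univ ≤ 1)
    (mA : AEMeasurable A m) (mD : AEMeasurable D ν)
    (hA : ∫⁻ z, A z ^ 2 ∂m ≤ ENNReal.ofReal (4 * Q ^ 3 * s ^ 3 * ε ^ 2))
    (hD : ∫⁻ w, D w ^ 2 ∂ν ≤ ENNReal.ofReal (4 * Q ^ 2 * s ^ 2 * ε ^ 2))
    (hg : g₀ ≤ ENNReal.ofReal (2 * Q * s * ε))
    (h : ∀ᵐ w ∂ν, ∀ᵐ z ∂m, ‖κ w z‖ₑ ≤ ENNReal.ofReal C * (g₀ + D w + A z)) :
    hs2 ν m κ ≤ ENNReal.ofReal ((s * Real.sqrt s * (6 * Q ^ 3 * ε)) ^ 2) := by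
  have h1 := hs2_le_of_bound (κ := κ) (c₀ := ENNReal.ofReal C * g₀)
    (b := fun w => ENNReal.ofReal C * D w) (a := fun z => ENNReal.ofReal C * A z)
    (mA.const_mul _) (mD.const_mul _) (by
      filter_upwards [h] with w hw
      filter_upwards [hw] with z hz
      refine hz.trans (le_of_eq ?_)
      ring)
  refine h1.trans ?_
  have e1 : ∫⁻ z, (ENNReal.ofReal C * A z) ^ 2 ∂m = ENNReal.ofReal C ^ 2 * ∫⁻ z, A z ^ 2 ∂m := by
    simp_rw [mul_pow]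
    exact lintegral_const_mul'' _ (mA.pow_const 2)
  have e2 : ∫⁻ z, (ENNReal.ofReal C * D z) ^ 2 ∂ν = ENNReal.ofReal C ^ 2 * ∫⁻ z, D z ^ 2 ∂ν := by
    simp_rw [mul_pow]
    exact lintegral_const_mul'' _ (mD.pow_const 2)
  rw [e1, e2]
  have h2 : ENNReal.ofReal C * g₀ ≤ ENNReal.ofReal (C * (2 * Q * s * ε)) := by
    rw [ENNReal.ofReal_mul hC]
    gcongr
  have h3 : ENNReal.ofReal C ^ 2 * (∫⁻ z, A z ^ 2 ∂m) ≤
      ENNReal.ofReal (C ^ 2 * (4 * Q ^ 3 * s ^ 3 * ε ^ 2)) := by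
    rw [ENNReal.ofReal_mul (by positivity), ENNReal.ofReal_pow hC]
    gcongr
  have h4 : ENNReal.ofReal C ^ 2 * (∫⁻ z, D z ^ 2 ∂ν) ≤
      ENNReal.ofReal (C ^ 2 * (4 * Q ^ 2 * s ^ 2 * ε ^ 2)) := by
    rw [ENNReal.ofReal_mul (by positivity), ENNReal.ofReal_pow hC]
    gcongr
  have hν' : ν univ ≤ ENNReal.ofReal 1 := by rwa [ENNReal.ofReal_one]
  have hQ0 : 0 < Q := by linarith
  refine (three_bound (by positivity) (by positivity) zero_le_one (by positivity)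
    (by positivity) h2 hm hν' h4 h3).trans (ENNReal.ofReal_le_ofReal ?_)
  have hC2 : C ^ 2 ≤ Q ^ 2 := by gcongr
  calc 3 * ((C * (2 * Q * s * ε)) ^ 2 * (Q ^ 2 * s * 1) +
        Q ^ 2 * s * (C ^ 2 * (4 * Q ^ 2 * s ^ 2 * ε ^ 2)) +
        1 * (C ^ 2 * (4 * Q ^ 3 * s ^ 3 * ε ^ 2)))
      = C ^ 2 * ((12 * Q ^ 4 + 12 * Q ^ 4 + 12 * Q ^ 3) * (s ^ 3 * ε ^ 2)) := by ring
    _ ≤ Q ^ 2 * ((12 * Q ^ 4 + 12 * Q ^ 4 + 12 * Q ^ 4) * (s ^ 3 * ε ^ 2)) := by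
        have h9 : Q ^ 3 ≤ Q ^ 4 := pow_le_pow_right₀ hQ (by norm_num)
        gcongr
    _ = s ^ 2 * s * (6 * Q ^ 3 * ε) ^ 2 := by ring
    _ = _ := by
        have : Real.sqrt s ^ 2 = s := Real.sq_sqrt hs.le
        calc s ^ 2 * s * (6 * Q ^ 3 * ε) ^ 2 = s ^ 2 * Real.sqrt s ^ 2 * (6 * Q ^ 3 * ε) ^ 2 := by
              rw [this]
          _ = _ := by ring

/-- (T1) integrated. -/
theorem hs_T1 {g : W → ℝ} {D : W → ℝ≥0∞} {g₀ : ℝ≥0∞} (hQ : 1 ≤ Q)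
    (hs : 0 < s) (hε : 0 ≤ ε) (hC : 0 ≤ C) (hCQ : C ≤ Q) (hν : ν univ ≤ 1)
    (mD : AEMeasurable D ν)
    (hD : ∫⁻ w, D w ^ 2 ∂ν ≤ ENNReal.ofReal (4 * Q ^ 2 * s ^ 2 * ε ^ 2))
    (hg : g₀ ≤ ENNReal.ofReal (2 * Q * s * ε))
    (h : ∀ᵐ w ∂ν, ‖g w‖ₑ ≤ ENNReal.ofReal C * (g₀ + D w)) :
    ∫⁻ w, ‖g w‖ₑ ^ 2 ∂ν ≤ ENNReal.ofReal ((s * (5 * Q ^ 2 * ε)) ^ 2) := by
  have h2 : ∀ a b : ℝ≥0∞, (a + b) ^ 2 ≤ 2 * (a ^ 2 + b ^ 2) := fun a b => by
    calc (a + b) ^ 2 = a ^ 2 + b ^ 2 + (a * b + a * b) := by ring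
      _ ≤ a ^ 2 + b ^ 2 + (a ^ 2 + b ^ 2) := by
          refine add_le_add le_rfl ?_
          have := two_mul_le' a b
          calc a * b + a * b = 2 * (a * b) := by ring
            _ = 2 * a * b := by ring
            _ ≤ _ := by first | exact this | (refine le_trans (le_of_eq ?_) this; ring)
      _ = _ := by ring
  have hQ0 : 0 < Q := by linarith
  calc ∫⁻ w, ‖g w‖ₑ ^ 2 ∂ν
      ≤ ∫⁻ w, (2 * (ENNReal.ofReal C * g₀) ^ 2 + 2 * ENNReal.ofReal C ^ 2 * D w ^ 2) ∂ν := by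
        refine lintegral_mono_ae ?_
        filter_upwards [h] with w hw
        calc ‖g w‖ₑ ^ 2 ≤ (ENNReal.ofReal C * g₀ + ENNReal.ofReal C * D w) ^ 2 := by
              gcongr
              exact hw.trans (le_of_eq (mul_add _ _ _))
          _ ≤ _ := h2 _ _
          _ = _ := by ring
    _ = 2 * (ENNReal.ofReal C * g₀) ^ 2 * ν univ +
        2 * ENNReal.ofReal C ^ 2 * ∫⁻ w, D w ^ 2 ∂ν := by
        rw [lintegral_add_left measurable_const, lintegral_const,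
          lintegral_const_mul'' _ (mD.pow_const 2)]
    _ ≤ 2 * (ENNReal.ofReal Q * ENNReal.ofReal (2 * Q * s * ε)) ^ 2 * 1 +
        2 * ENNReal.ofReal Q ^ 2 * ENNReal.ofReal (4 * Q ^ 2 * s ^ 2 * ε ^ 2) := by
        gcongr
    _ = ENNReal.ofReal (2 * (Q * (2 * Q * s * ε)) ^ 2 + 2 * Q ^ 2 * (4 * Q ^ 2 * s ^ 2 * ε ^ 2)) := by
        rw [ENNReal.ofReal_add (by positivity) (by positivity),
          ENNReal.ofReal_mul (p := 2) (by norm_num),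
          ENNReal.ofReal_mul (p := 2 * Q ^ 2) (by positivity), ENNReal.ofReal_mul (p := 2)
            (by norm_num),
          ENNReal.ofReal_pow (p := Q * (2 * Q * s * ε)) (by positivity),
          ENNReal.ofReal_pow (p := Q) (by positivity),
          ENNReal.ofReal_mul (p := Q) hQ0.le, mul_one]
        norm_num
    _ ≤ _ := by
        apply ENNReal.ofReal_le_ofReal
        have : 0 ≤ Q ^ 4 * s ^ 2 * ε ^ 2 := by positivity
        nlinarith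

/-- (T2) integrated. -/
theorem hs_T2 {g : X → ℝ} {A : X → ℝ≥0∞} {g₀ : ℝ≥0∞} (hQ : 1 ≤ Q)
    (hs : 0 < s) (hε : 0 ≤ ε) (hC : 0 ≤ C) (hCQ : C ≤ Q)
    (hm : m univ ≤ ENNReal.ofReal (Q ^ 2 * s))
    (mA : AEMeasurable A m)
    (hA : ∫⁻ z, A z ^ 2 ∂m ≤ ENNReal.ofReal (4 * Q ^ 3 * s ^ 3 * ε ^ 2))
    (hg : g₀ ≤ ENNReal.ofReal (2 * Q * s * ε))
    (h : ∀ᵐ z ∂m, ‖g z‖ₑ ≤ ENNReal.ofReal C * (g₀ + A z)) :
    ∫⁻ z, ‖g z‖ₑ ^ 2 ∂m ≤ ENNReal.ofReal ((s * Real.sqrt s * (5 * Q ^ 3 * ε)) ^ 2) := by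
  have h2 : ∀ a b : ℝ≥0∞, (a + b) ^ 2 ≤ 2 * (a ^ 2 + b ^ 2) := fun a b => by
    calc (a + b) ^ 2 = a ^ 2 + b ^ 2 + (a * b + a * b) := by ring
      _ ≤ a ^ 2 + b ^ 2 + (a ^ 2 + b ^ 2) := by
          refine add_le_add le_rfl ?_
          have := two_mul_le' a b
          calc a * b + a * b = 2 * (a * b) := by ring
            _ = 2 * a * b := by ring
            _ ≤ _ := by first | exact this | (refine le_trans (le_of_eq ?_) this; ring)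
      _ = _ := by ring
  have hQ0 : 0 < Q := by linarith
  calc ∫⁻ z, ‖g z‖ₑ ^ 2 ∂m
      ≤ ∫⁻ z, (2 * (ENNReal.ofReal C * g₀) ^ 2 + 2 * ENNReal.ofReal C ^ 2 * A z ^ 2) ∂m := by
        refine lintegral_mono_ae ?_
        filter_upwards [h] with w hw
        calc ‖g w‖ₑ ^ 2 ≤ (ENNReal.ofReal C * g₀ + ENNReal.ofReal C * A w) ^ 2 := by
              gcongr
              exact hw.trans (le_of_eq (mul_add _ _ _))
          _ ≤ _ := h2 _ _
          _ = _ := by ring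
    _ = 2 * (ENNReal.ofReal C * g₀) ^ 2 * m univ +
        2 * ENNReal.ofReal C ^ 2 * ∫⁻ z, A z ^ 2 ∂m := by
        rw [lintegral_add_left measurable_const, lintegral_const,
          lintegral_const_mul'' _ (mA.pow_const 2)]
    _ ≤ 2 * (ENNReal.ofReal Q * ENNReal.ofReal (2 * Q * s * ε)) ^ 2 * ENNReal.ofReal (Q ^ 2 * s) +
        2 * ENNReal.ofReal Q ^ 2 * ENNReal.ofReal (4 * Q ^ 3 * s ^ 3 * ε ^ 2) := by
        gcongr
    _ = ENNReal.ofReal (2 * (Q * (2 * Q * s * ε)) ^ 2 * (Q ^ 2 * s) +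
          2 * Q ^ 2 * (4 * Q ^ 3 * s ^ 3 * ε ^ 2)) := by
        rw [ENNReal.ofReal_add (by positivity) (by positivity),
          ENNReal.ofReal_mul (p := 2 * (Q * (2 * Q * s * ε)) ^ 2) (by positivity),
          ENNReal.ofReal_mul (p := 2) (by norm_num),
          ENNReal.ofReal_mul (p := 2 * Q ^ 2) (by positivity), ENNReal.ofReal_mul (p := 2)
            (by norm_num),
          ENNReal.ofReal_pow (p := Q * (2 * Q * s * ε)) (by positivity),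
          ENNReal.ofReal_pow (p := Q) (by positivity),
          ENNReal.ofReal_mul (p := Q) hQ0.le]
        norm_num
    _ ≤ ENNReal.ofReal (s ^ 2 * s * (5 * Q ^ 3 * ε) ^ 2) := by
        apply ENNReal.ofReal_le_ofReal
        have h5 : 0 ≤ s ^ 3 * ε ^ 2 := by positivity
        have h6 : Q ^ 5 ≤ Q ^ 6 := pow_le_pow_right₀ hQ (by norm_num)
        have h7 : Q ^ 5 * (s ^ 3 * ε ^ 2) ≤ Q ^ 6 * (s ^ 3 * ε ^ 2) := by gcongr
        have h8 : 0 ≤ Q ^ 6 * (s ^ 3 * ε ^ 2) := by positivity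
        nlinarith
    _ = _ := by
        congr 1
        have : Real.sqrt s ^ 2 = s := Real.sq_sqrt hs.le
        calc s ^ 2 * s * (5 * Q ^ 3 * ε) ^ 2 = s ^ 2 * Real.sqrt s ^ 2 * (5 * Q ^ 3 * ε) ^ 2 := by
              rw [this]
          _ = _ := by ring

end HS

end Crest.Agent.R247.Pln923
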