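import Crest.Agent.R247.Pln4_923
import Crest.Agent.R247.Ker4_585

/-!
# R247, block (2b), Pl5' part 5 (helper923): (A1), (A2) for a pair of nodes at one scale
-/

set_option autoImplicit false
set_option linter.unusedSectionVars false

noncomputable section

namespace Crest.Agent.R247.Pln923

open MeasureTheory Filter Set
open scoped ENNReal InnerProductSpace
open Crest.Agent.R247.Ker585 Crest.Agent.R247.Pl2661
open Crest.Agent.R247.Gap79 (K P)
open Crest.Agent.R247.Pl5661 (Env Cut MB Far)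
open Crest.Agent.R247.Pl6661 (EE C1)

variable {X W : Type*} [MeasurableSpace X] [MeasurableSpace W]

/-- `∫_B |P_{x,z}|` -/
def aP (vol : Measure X) (f : X → X → ℝ) (G : X → X → X → ℝ) (B : Set X) (x z : X) : ℝ≥0∞ :=
  ∫⁻ u in B, ‖P f G x z u‖ₑ ∂vol

/-- `∫_B |e_x(·, w)|` -/
def aE (vol : Measure X) (h : W → X → ℝ) (Gh : X → W → X → ℝ) (B : Set X) (x : X) (w : W) :
    ℝ≥0∞ := ∫⁻ u in B, ‖EE h Gh x u w‖ₑ ∂vol

/-- one centre -/
structure One (vol : Measure X) (ν : Measure W) (R : X → (X → ℝ) → (X → ℝ) → Prop)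
    (f : X → X → ℝ) (G : X → X → X → ℝ) (h : W → X → ℝ) (Gh : X → W → X → ℝ)
    (B : Set X) (F : ℝ) (n : ℕ) (L β Q s ε : ℝ) (x : X) : Prop where
  xB : x ∈ B
  far : Far f B L x
  mb : MB vol R n B x β
  mG : Measurable (fun p : X × X => G x p.1 p.2)
  mGh : Measurable (fun p : W × X => Gh x p.1 p.2)
  LL : ∫⁻ v in B, ∫⁻ u in B, ‖P f G x v u‖ₑ ^ 2 ∂vol ∂vol ≤ ENNReal.ofReal (Q * s ^ 2 * ε ^ 2)
  FF : ∫⁻ w, ∫⁻ u in B, ‖EE h Gh x u w‖ₑ ^ 2 ∂vol ∂ν ≤ ENNReal.ofReal (Q * s * ε ^ 2)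

/-- common data -/
structure Com (vol : Measure X) (ν : Measure W) (R : X → (X → ℝ) → (X → ℝ) → Prop)
    (f : X → X → ℝ) (G : X → X → X → ℝ) (h : W → X → ℝ) (Gh : X → W → X → ℝ)
    (B : Set X) (F : ℝ) (η η' φt : ℝ → ℝ) (cη : ℝ) (n : ℕ) (L β Q s ε : ℝ) : Prop where
  E : Env vol R f G h Gh B F
  c : Cut η η' φt cη
  hn : 1 ≤ n
  Q1 : 1 ≤ Q
  s0 : 0 < s
  ε0 : 0 ≤ ε
  CQ : C1 n F cη ≤ Q
  cQ : cη ≤ Q
  volB : vol B ≤ ENNReal.ofReal (Q * s)
  βle : β ≤ Q * s * ε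
  ν1 : ν univ ≤ 1
  L0 : 0 ≤ L

theorem C1_nonneg {n : ℕ} {F cη : ℝ} (hF : 0 ≤ F) (hc : 0 ≤ cη) : 0 ≤ C1 n F cη := by
  unfold C1; positivity

section

variable {vol : Measure X} [SFinite vol] {ν : Measure W} [SFinite ν]
  {R : X → (X → ℝ) → (X → ℝ) → Prop}
  {f : X → X → ℝ} {G : X → X → X → ℝ} {h : W → X → ℝ} {Gh : X → W → X → ℝ}
  {B : Set X} {F : ℝ} {η η' φt : ℝ → ℝ} {cη : ℝ} {n : ℕ} {L β Q s ε : ℝ}

section com

variable (d : Com vol ν R f G h Gh B F η η' φt cη n L β Q s ε)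
include d

theorem Com.den {x : X} (hx : Far f B L x) : Den vol f η B Q s x where
  mf := d.E.mfa x
  mη := d.c.cont_η.measurable
  η0 := d.c.η0
  ηQ := fun t => (d.c.bη t).trans d.cQ
  out := fun u hu => (d.c.far _ (by have := hx u hu; have := d.L0; linarith)).1
  mB := d.E.mB
  volB := d.volB
  Q1 := d.Q1
  s0 := d.s0

theorem Com.mPj {x : X} (hG : Measurable (fun p : X × X => G x p.1 p.2)) :
    Measurable (fun p : X × X => P f G x p.1 p.2) := by
  unfold P
  have h1 : Measurable (fun p : X × X => f x p.2) := (d.E.mfa x).comp measurable_snd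
  have h2 : Measurable (fun p : X × X => f p.1 p.2) := d.E.mf
  have h3 : Measurable (fun p : X × X => f x p.1) := (d.E.mfa x).comp measurable_fst
  exact ((hG.sub h1).sub h2).add h3

theorem Com.mEj {x : X} (hG : Measurable (fun p : W × X => Gh x p.1 p.2)) :
    Measurable (fun p : W × X => EE h Gh x p.2 p.1) := by
  unfold EE
  have h1 : Measurable (fun p : W × X => h p.1 p.2) := d.E.mh
  have h2 : Measurable (fun p : W × X => h p.1 x) :=
    d.E.mh.comp (measurable_fst.prodMk measurable_const)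
  exact hG.sub (h1.sub h2)

theorem Com.maP {x : X} (hG : Measurable (fun p : X × X => G x p.1 p.2)) :
    Measurable (aP vol f G B x) := by
  unfold aP
  exact Measurable.lintegral_prod_right' (f := fun p : X × X => ‖P f G x p.1 p.2‖ₑ)
    (d.mPj hG).enorm

theorem Com.maE {x : X} (hG : Measurable (fun p : W × X => Gh x p.1 p.2)) :
    Measurable (aE vol h Gh B x) := by
  unfold aE
  exact Measurable.lintegral_prod_right' (f := fun p : W × X => ‖EE h Gh x p.2 p.1‖ₑ)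
    (d.mEj hG).enorm

theorem Com.aP_sq {x : X} (o : One vol ν R f G h Gh B F n L β Q s ε x) :
    ∫⁻ z in B, aP vol f G B x z ^ 2 ∂vol ≤ ENNReal.ofReal (Q ^ 2 * s ^ 3 * ε ^ 2) := by
  have hQ := d.Q1
  have hs := d.s0
  have hm : ∀ z, AEMeasurable (fun u => ‖P f G x z u‖ₑ) (vol.restrict B) := fun z =>
    ((d.mPj o.mG).comp (measurable_const.prodMk measurable_id)).enorm.aemeasurable
  calc ∫⁻ z in B, aP vol f G B x z ^ 2 ∂vol
      ≤ ∫⁻ z in B, vol B * ∫⁻ u in B, ‖P f G x z u‖ₑ ^ 2 ∂vol ∂vol := by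
        refine lintegral_mono fun z => ?_
        have := Gap79.sq_lintegral_le (vol.restrict B) (hm z)
        rwa [Measure.restrict_apply_univ] at this
    _ = vol B * ∫⁻ z in B, ∫⁻ u in B, ‖P f G x z u‖ₑ ^ 2 ∂vol ∂vol :=
        lintegral_const_mul' _ _ d.E.fin
    _ ≤ ENNReal.ofReal (Q * s) * ENNReal.ofReal (Q * s ^ 2 * ε ^ 2) :=
        mul_le_mul' d.volB o.LL
    _ = _ := by
        rw [← ENNReal.ofReal_mul (by positivity)]
        congr 1
        ring

theorem Com.aE_sq {x : X} (o : One vol ν R f G h Gh B F n L β Q s ε x) :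
    ∫⁻ w, aE vol h Gh B x w ^ 2 ∂ν ≤ ENNReal.ofReal (Q ^ 2 * s ^ 2 * ε ^ 2) := by
  have hQ := d.Q1
  have hs := d.s0
  have hm : ∀ w, AEMeasurable (fun u => ‖EE h Gh x u w‖ₑ) (vol.restrict B) := fun w =>
    ((d.mEj o.mGh).comp (measurable_const.prodMk measurable_id)).enorm.aemeasurable
  calc ∫⁻ w, aE vol h Gh B x w ^ 2 ∂ν
      ≤ ∫⁻ w, vol B * ∫⁻ u in B, ‖EE h Gh x u w‖ₑ ^ 2 ∂vol ∂ν := by
        refine lintegral_mono fun w => ?_
        have := Gap79.sq_lintegral_le (vol.restrict B) (hm w)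
        rwa [Measure.restrict_apply_univ] at this
    _ = vol B * ∫⁻ w, ∫⁻ u in B, ‖EE h Gh x u w‖ₑ ^ 2 ∂vol ∂ν :=
        lintegral_const_mul' _ _ d.E.fin
    _ ≤ ENNReal.ofReal (Q * s) * ENNReal.ofReal (Q * s * ε ^ 2) :=
        mul_le_mul' d.volB o.FF
    _ = _ := by
        rw [← ENNReal.ofReal_mul (by positivity)]
        congr 1
        ring

/-- `∫ (α_x + α_y)² ≤ 4 Q² s³ ε²` on `B` -/
theorem Com.aP2_sq {x y : X} (ox : One vol ν R f G h Gh B F n L β Q s ε x)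
    (oy : One vol ν R f G h Gh B F n L β Q s ε y) :
    ∫⁻ z in B, (aP vol f G B x z + aP vol f G B y z) ^ 2 ∂vol ≤
      ENNReal.ofReal (4 * Q ^ 2 * s ^ 3 * ε ^ 2) := by
  have hQ := d.Q1
  have hs := d.s0
  have m1 : Measurable fun z => aP vol f G B x z ^ 2 := (d.maP ox.mG).pow_const 2
  have m2 : Measurable fun z => aP vol f G B y z ^ 2 := (d.maP oy.mG).pow_const 2
  calc ∫⁻ z in B, (aP vol f G B x z + aP vol f G B y z) ^ 2 ∂vol
      ≤ ∫⁻ z in B, 2 * (aP vol f G B x z ^ 2 + aP vol f G B y z ^ 2) ∂vol :=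
        lintegral_mono fun z => Gap79.add_sq_le _ _
    _ = 2 * (∫⁻ z in B, aP vol f G B x z ^ 2 ∂vol + ∫⁻ z in B, aP vol f G B y z ^ 2 ∂vol) := by
        rw [lintegral_const_mul' _ _ (by norm_num), lintegral_add_left m1]
    _ ≤ 2 * (ENNReal.ofReal (Q ^ 2 * s ^ 3 * ε ^ 2) + ENNReal.ofReal (Q ^ 2 * s ^ 3 * ε ^ 2)) :=
        mul_le_mul' le_rfl (add_le_add (d.aP_sq ox) (d.aP_sq oy))
    _ = _ := by
        rw [← ENNReal.ofReal_add (by positivity) (by positivity),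
          show (2 : ℝ≥0∞) = ENNReal.ofReal 2 by norm_num, ← ENNReal.ofReal_mul (by norm_num)]
        congr 1
        ring

theorem Com.aE2_sq {x y : X} (ox : One vol ν R f G h Gh B F n L β Q s ε x)
    (oy : One vol ν R f G h Gh B F n L β Q s ε y) :
    ∫⁻ w, (aE vol h Gh B x w + aE vol h Gh B y w) ^ 2 ∂ν ≤
      ENNReal.ofReal (4 * Q ^ 2 * s ^ 2 * ε ^ 2) := by
  have hQ := d.Q1
  have hs := d.s0
  have m1 : Measurable fun z => aE vol h Gh B x z ^ 2 := (d.maE ox.mGh).pow_const 2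
  have m2 : Measurable fun z => aE vol h Gh B y z ^ 2 := (d.maE oy.mGh).pow_const 2
  calc ∫⁻ z, (aE vol h Gh B x z + aE vol h Gh B y z) ^ 2 ∂ν
      ≤ ∫⁻ z, 2 * (aE vol h Gh B x z ^ 2 + aE vol h Gh B y z ^ 2) ∂ν :=
        lintegral_mono fun z => Gap79.add_sq_le _ _
    _ = 2 * (∫⁻ z, aE vol h Gh B x z ^ 2 ∂ν + ∫⁻ z, aE vol h Gh B y z ^ 2 ∂ν) := by
        rw [lintegral_const_mul' _ _ (by norm_num), lintegral_add_left m1]
    _ ≤ 2 * (ENNReal.ofReal (Q ^ 2 * s ^ 2 * ε ^ 2) + ENNReal.ofReal (Q ^ 2 * s ^ 2 * ε ^ 2)) :=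
        mul_le_mul' le_rfl (add_le_add (d.aE_sq ox) (d.aE_sq oy))
    _ = _ := by
        rw [← ENNReal.ofReal_add (by positivity) (by positivity),
          show (2 : ℝ≥0∞) = ENNReal.ofReal 2 by norm_num, ← ENNReal.ofReal_mul (by norm_num)]
        congr 1
        ring

/-- the bound of `A²` with respect to a measure with density -/
theorem Com.A_sq {f' : X → X → ℝ} {a x y : X} (da : Den vol f' η B Q s a)
    (ox : One vol ν R f G h Gh B F n L β Q s ε x)
    (oy : One vol ν R f G h Gh B F n L β Q s ε y) :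
    ∫⁻ z, (aP vol f G B x z + aP vol f G B y z) ^ 2 ∂(mm vol f' η a) ≤
      ENNReal.ofReal (4 * Q ^ 3 * s ^ 3 * ε ^ 2) := by
  have hQ := d.Q1
  refine (da.lintegral_le _).trans ((mul_le_mul' le_rfl (d.aP2_sq ox oy)).trans (le_of_eq ?_))
  rw [← ENNReal.ofReal_mul (by positivity)]
  congr 1
  ring

theorem Com.g0_le {x y : X} {c0 : ℝ}
    (hc : ∫⁻ u in B, ‖P f G x y u - c0‖ₑ ∂vol ≤ ENNReal.ofReal (Q * s * ε)) :
    ENNReal.ofReal β + ∫⁻ u in B, ‖P f G x y u - c0‖ₑ ∂vol ≤ ENNReal.ofReal (2 * Q * s * ε) := by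
  have hQ := d.Q1
  have hs := d.s0
  have hε := d.ε0
  have e : ENNReal.ofReal (2 * Q * s * ε) =
      ENNReal.ofReal (Q * s * ε) + ENNReal.ofReal (Q * s * ε) := by
    rw [← ENNReal.ofReal_add (by positivity) (by positivity)]
    congr 1
    ring
  rw [e]
  exact add_le_add (ENNReal.ofReal_le_ofReal d.βle) hc

theorem Com.c_symm {x y : X} {c0 : ℝ} :
    ∫⁻ u in B, ‖P f G y x u - c0‖ₑ ∂vol = ∫⁻ u in B, ‖P f G x y u - c0‖ₑ ∂vol := by
  refine lintegral_congr_ae ?_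
  filter_upwards [ae_restrict_of_ae (d.E.Gsymm x y)] with u hu
  show ‖P f G y x u - c0‖ₑ = ‖P f G x y u - c0‖ₑ
  congr 1
  unfold P
  rw [hu, d.E.symm y x]; ring

/-- measurability of `K` -/
theorem Com.mK {x : X} : Measurable (Function.uncurry (K f x)) := by
  have h1 : Measurable (fun p : X × X => f x p.2) := (d.E.mfa x).comp measurable_snd
  have h2 : Measurable (fun p : X × X => f p.1 p.2) := d.E.mf
  have h3 : Measurable (fun p : X × X => f x p.1) := (d.E.mfa x).comp measurable_fst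
  exact (h3.add h1).sub h2

theorem Com.K_le {x z u : X} (hx : x ∈ B) (hz : z ∈ B) (hu : u ∈ B) : |K f x z u| ≤ 2 * F := by
  have h1 := d.E.fF x hx z hz
  have h2 := d.E.fF x hx u hu
  have h3 := d.E.fF z hz u hu
  have h4 := d.E.nonneg x z
  have h5 := d.E.nonneg x u
  have h6 := d.E.nonneg z u
  unfold K
  rw [abs_le]
  constructor <;> linarith

end com

/-- identity (iii) -/
theorem K_swap {f : X → X → ℝ} (hf : ∀ a b, f a b = f b a) (x y u v : X) :
    K f x u v - K f x u y = K f y v u - K f y v x := by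
  unfold K
  rw [hf v u, hf v x, hf u y, hf y x]
  ring

/-- the mixed kernel -/
def MK (f : X → X → ℝ) (x y : X) (c0 : ℝ) (v z : X) : ℝ := K f x z v - K f x z y + c0

theorem MK_swap {f : X → X → ℝ} (hf : ∀ a b, f a b = f b a) (x y : X) (c0 : ℝ) (v z : X) :
    MK f x y c0 v z = MK f y x c0 z v := by
  unfold MK
  rw [K_swap hf]

theorem Com.hM (d : Com vol ν R f G h Gh B F η η' φt cη n L β Q s ε) {x y : X}
    (ox : One vol ν R f G h Gh B F n L β Q s ε x)
    (oy : One vol ν R f G h Gh B F n L β Q s ε y) (c0 : ℝ) :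
    HK (mm vol f η y) (mm vol f η x) (MK f x y c0) := by
  have i1 := (d.den ox.far).finite
  have i2 := (d.den oy.far).finite
  have hm : Measurable (Function.uncurry (MK f x y c0)) := by
    have h1 : Measurable (fun p : X × X => K f x p.2 p.1) := (d.mK (x := x)).comp measurable_swap
    have h2 : Measurable (fun p : X × X => K f x p.2 y) :=
      (d.mK (x := x)).comp (measurable_snd.prodMk measurable_const)
    exact (h1.sub h2).add_const c0
  refine HK.of_bdd (B := 4 * F + |c0|) hm ?_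
  filter_upwards [(d.den oy.far).ae_mem] with v hv
  filter_upwards [(d.den ox.far).ae_mem] with z hz
  have h1 := d.K_le ox.xB hz hv
  have h2 := d.K_le ox.xB hz oy.xB
  unfold MK
  refine (abs_add_le _ _).trans (add_le_add ((abs_sub _ _).trans ?_) le_rfl)
  linarith

/-- **(A2)** -/
theorem Com.A2 (d : Com vol ν R f G h Gh B F η η' φt cη n L β Q s ε) {x y : X}
    (ox : One vol ν R f G h Gh B F n L β Q s ε x)
    (oy : One vol ν R f G h Gh B F n L β Q s ε y) {c0 : ℝ} (hc0 : |c0| ≤ F)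
    (hL : |f y x - c0| ≤ L)
    (hc : ∫⁻ u in B, ‖P f G x y u - c0‖ₑ ∂vol ≤ ENNReal.ofReal (Q * s * ε))
    {Λ Λ' e : ℝ}
    (N : Node (mm vol f η x) ν (K f x) (fun w u => h w u - h w x) Λ e Q s n)
    (N' : Node (mm vol f η y) ν (K f y) (fun w u => h w u - h w y) Λ' e Q s n)
    (he : 4 * Q ^ 4 * e ≤ 1) :
    ‖N.P - N'.P‖ ≤ 72 * Q ^ 10 * ε := by
  have hQ := d.Q1
  have hs := d.s0
  have hε := d.ε0
  have hQ0 : 0 < Q := by linarith
  have dx := d.den ox.far
  have dy := d.den oy.far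
  have hC0 : 0 ≤ C1 n F cη := C1_nonneg d.E.F0 d.c.cη0
  have hKs : ∀ a z u, K f a z u = K f a u z := fun a z u => Gap79.K_symm d.E.symm a z u
  have mA : Measurable (fun z => aP vol f G B x z + aP vol f G B y z) :=
    (d.maP ox.mG).add (d.maP oy.mG)
  have mD : Measurable (fun w => aE vol h Gh B x w + aE vol h Gh B y w) :=
    (d.maE ox.mGh).add (d.maE oy.mGh)
  have mA' : Measurable (fun z => aP vol f G B y z + aP vol f G B x z) :=
    (d.maP oy.mG).add (d.maP ox.mG)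
  have mD' : Measurable (fun w => aE vol h Gh B y w + aE vol h Gh B x w) :=
    (d.maE oy.mGh).add (d.maE ox.mGh)
  have g0 := d.g0_le (x := x) (y := y) hc
  have hcs := hc
  rw [← d.c_symm] at hcs
  have g0' := d.g0_le (x := y) (y := x) hcs
  have hL' : |f x y - c0| ≤ L := by rw [d.E.symm x y]; exact hL
  -- (T3)
  have t3 : hs2 (mm vol f η y) (mm vol f η x) (fun w z =>
      1 * kcomp (mm vol f η y) (K f y) (MK f x y c0) w z -
      1 * kcomp (mm vol f η x) (MK f x y c0) (K f x) w z) ≤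
      ENNReal.ofReal ((s ^ 2 * (6 * Q ^ 4 * ε)) ^ 2) := by
    refine hs_T3 (A := fun z => aP vol f G B x z + aP vol f G B y z)
      (g₀ := ENNReal.ofReal β + ∫⁻ u in B, ‖P f G x y u - c0‖ₑ ∂vol) hQ hs hε hC0 d.CQ
      dx.univ_le dy.univ_le mA.aemeasurable mA.aemeasurable (d.A_sq dx ox oy) (d.A_sq dy ox oy)
      g0 ?_
    filter_upwards [dy.ae_mem] with w hw
    filter_upwards [dx.ae_mem] with z hz
    have h1 := Pl7661.T3 d.E d.c d.hn ox.xB oy.xB ox.far oy.far ox.mb oy.mb hL hz hw hc0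
    have e1 : kcomp (mm vol f η y) (K f y) (MK f x y c0) w z =
        ∫ v, K f y w v * (K f x z v - K f x z y + c0) * η (f y v) ∂vol := by
      unfold kcomp MK
      rw [dy.integral_eq]
    have e2 : kcomp (mm vol f η x) (MK f x y c0) (K f x) w z =
        ∫ u, (K f y w u - K f y w x + c0) * K f x z u * η (f x u) ∂vol := by
      unfold kcomp
      rw [dx.integral_eq]
      refine integral_congr_ae (Eventually.of_forall fun u => ?_)
      show MK f x y c0 w u * K f x u z * η (f x u) = _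
      rw [MK_swap d.E.symm, hKs x u z]
      rfl
    rw [one_mul, one_mul, e1, e2]
    refine h1.trans (mul_le_mul' le_rfl (le_of_eq ?_))
    simp only [aP]
    ring
  -- (T4)
  have key : ∀ {a b : X} (oa : One vol ν R f G h Gh B F n L β Q s ε a)
      (ob : One vol ν R f G h Gh B F n L β Q s ε b), |f b a - c0| ≤ L →
      ENNReal.ofReal β + ∫⁻ u in B, ‖P f G a b u - c0‖ₑ ∂vol ≤ ENNReal.ofReal (2 * Q * s * ε) →
      hs2 ν (mm vol f η a) (fun w z =>
        1 * kcomp (mm vol f η b) (fun w u => h w u - h w b) (MK f a b c0) w z -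
        1 * kcomp (mm vol f η a) (fun w u => h w u - h w a) (K f a) w z) ≤
        ENNReal.ofReal ((s * Real.sqrt s * (6 * Q ^ 3 * ε)) ^ 2) := by
    intro a b oa ob hLab g0ab
    have da := d.den oa.far
    have db := d.den ob.far
    refine hs_T4 (A := fun z => aP vol f G B a z + aP vol f G B b z)
      (D := fun w => aE vol h Gh B a w + aE vol h Gh B b w)
      (g₀ := ENNReal.ofReal β + ∫⁻ u in B, ‖P f G a b u - c0‖ₑ ∂vol) hQ hs hε hC0 d.CQ
      da.univ_le d.ν1 ((d.maP oa.mG).add (d.maP ob.mG)).aemeasurable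
      ((d.maE oa.mGh).add (d.maE ob.mGh)).aemeasurable (d.A_sq da oa ob) (d.aE2_sq oa ob) g0ab ?_
    refine Eventually.of_forall fun w => ?_
    filter_upwards [da.ae_mem] with z hz
    have h1 := Pl7661.T4 d.E d.c d.hn oa.xB ob.xB oa.far ob.far oa.mb ob.mb hLab hz w hc0
    have e1 : kcomp (mm vol f η b) (fun w u => h w u - h w b) (MK f a b c0) w z =
        ∫ v, (h w v - h w b) * (K f a z v - K f a z b + c0) * η (f b v) ∂vol := by
      unfold kcomp MK
      rw [db.integral_eq]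
    have e2 : kcomp (mm vol f η a) (fun w u => h w u - h w a) (K f a) w z =
        ∫ u, (h w u - h w a) * K f a z u * η (f a u) ∂vol := by
      unfold kcomp
      rw [da.integral_eq]
      refine integral_congr_ae (Eventually.of_forall fun u => ?_)
      show (h w u - h w a) * K f a u z * η (f a u) = _
      rw [hKs a u z]
    rw [one_mul, one_mul, e1, e2]
    refine h1.trans (mul_le_mul' le_rfl (le_of_eq ?_))
    simp only [aP, aE]
    ring
  have t4 := key ox oy hL g0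
  have t4' := key oy ox hL' g0'
  have hMs : (fun x' y' => MK f x y c0 y' x') = MK f y x c0 := by
    funext a b
    exact MK_swap d.E.symm x y c0 b a
  have h1 := N.norm_sub_le N' he (d.hM ox oy c0) (a := 1) (a' := 1) (ρ := 1) (ρ' := 1)
    (τ3 := 6 * Q ^ 4 * ε) (τ4 := 6 * Q ^ 3 * ε) one_pos one_pos hQ hQ
    (inv_le_one_of_one_le₀ hQ) hQ (inv_le_one_of_one_le₀ hQ) hQ (by positivity) (by positivity)
    t3 t4 (by
      rw [hMs]
      exact t4')
  refine h1.trans ?_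
  have h2 : Q ^ 5 ≤ Q ^ 10 := pow_le_pow_right₀ hQ (by norm_num)
  calc 8 * Q ^ 6 * (6 * Q ^ 4 * ε) + 4 * Q ^ 2 * (6 * Q ^ 3 * ε)
      = (48 * Q ^ 10 + 24 * Q ^ 5) * ε := by ring
    _ ≤ (48 * Q ^ 10 + 24 * Q ^ 10) * ε := by gcongr
    _ = _ := by ring

/-- **(A1)** -/
theorem Com.A1 (d : Com vol ν R f G h Gh B F η η' φt cη n L β Q s ε) {x y : X}
    (ox : One vol ν R f G h Gh B F n L β Q s ε x)
    (oy : One vol ν R f G h Gh B F n L β Q s ε y) {c0 : ℝ} (hc0 : |c0| ≤ F)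
    (hL : |f y x - c0| ≤ L)
    (hc : ∫⁻ u in B, ‖P f G x y u - c0‖ₑ ∂vol ≤ ENNReal.ofReal (Q * s * ε))
    {e : ℝ}
    (N : Node (mm vol f η x) ν (K f x) (fun w u => h w u - h w x) (∫ u, φt (f x u) ∂vol) e Q s n)
    (v : Lp ℝ 2 ν) (hv : v =ᵐ[ν] fun w => h w y - h w x) :
    ‖v - N.P v‖ ≤ 15 * Q ^ 6 * ε := by
  have hQ := d.Q1
  have hs := d.s0
  have hε := d.ε0
  have hQ0 : 0 < Q := by linarith
  have dx := d.den ox.far
  have dy := d.den oy.far
  have ifx := dx.finite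
  have hC0 : 0 ≤ C1 n F cη := C1_nonneg d.E.F0 d.c.cη0
  have mA : Measurable (fun z => aP vol f G B x z + aP vol f G B y z) :=
    (d.maP ox.mG).add (d.maP oy.mG)
  have mD : Measurable (fun w => aE vol h Gh B x w + aE vol h Gh B y w) :=
    (d.maE ox.mGh).add (d.maE oy.mGh)
  have g0 := d.g0_le (x := x) (y := y) hc
  have hfm : MemLp (fun u => K f x u y - c0) 2 (mm vol f η x) := by
    refine MemLp.of_bound (C := 2 * F + |c0|) ?_ ?_
    · exact (((d.mK (x := x)).comp (measurable_id.prodMk measurable_const)).sub_const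
        c0).aestronglyMeasurable
    · filter_upwards [dx.ae_mem] with u hu
      rw [Real.norm_eq_abs]
      exact (abs_sub _ _).trans (add_le_add (d.K_le ox.xB hu oy.xB) le_rfl)
  have t1 : ∫⁻ w, ‖(∫ u, φt (f x u) ∂vol) * (h w y - h w x) -
      ∫ u, (h w u - h w x) * (K f x u y - c0) ∂(mm vol f η x)‖ₑ ^ 2 ∂ν ≤
      ENNReal.ofReal ((s * (5 * Q ^ 2 * ε)) ^ 2) := by
    refine hs_T1 (D := fun w => aE vol h Gh B x w + aE vol h Gh B y w)
      (g₀ := ENNReal.ofReal β + ∫⁻ u in B, ‖P f G x y u - c0‖ₑ ∂vol) hQ hs hε hC0 d.CQ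
      d.ν1 mD.aemeasurable (d.aE2_sq ox oy) g0 ?_
    refine Eventually.of_forall fun w => ?_
    have h1 := Pl7661.T1 d.E d.c ox.xB oy.xB ox.far ox.mb oy.mb hL w
    rw [dx.integral_eq]
    refine h1.trans (mul_le_mul' le_rfl (le_of_eq ?_))
    simp only [aE]
    ring
  have t2 : ∫⁻ z, ‖(∫ u, K f x z u * (K f x u y - c0) ∂(mm vol f η x)) -
      (∫ u, φt (f x u) ∂vol) * (K f x z y - c0)‖ₑ ^ 2 ∂(mm vol f η x) ≤
      ENNReal.ofReal ((s * Real.sqrt s * (5 * Q ^ 3 * ε)) ^ 2) := by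
    refine hs_T2 (A := fun z => aP vol f G B x z + aP vol f G B y z)
      (g₀ := ENNReal.ofReal β + ∫⁻ u in B, ‖P f G x y u - c0‖ₑ ∂vol) hQ hs hε hC0 d.CQ
      dx.univ_le mA.aemeasurable (d.A_sq dx ox oy) g0 ?_
    filter_upwards [dx.ae_mem] with z hz
    have h1 := Pl7661.T2 d.E d.c ox.xB oy.xB ox.far ox.mb oy.mb hL hz hc0
    rw [dx.integral_eq]
    refine h1.trans (mul_le_mul' le_rfl (le_of_eq ?_))
    simp only [aP]
    ring
  have h1 := N.norm_sub_P_le (ta := 5 * Q ^ 2 * ε) (tb := 5 * Q ^ 3 * ε) (by positivity)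
    (by positivity) hfm v hv t1 t2
  refine h1.trans ?_
  have h2 : Q ^ 3 ≤ Q ^ 6 := pow_le_pow_right₀ hQ (by norm_num)
  calc Q * (5 * Q ^ 2 * ε) + 2 * Q ^ 3 * (5 * Q ^ 3 * ε) = (5 * Q ^ 3 + 10 * Q ^ 6) * ε := by ring
    _ ≤ (5 * Q ^ 6 + 10 * Q ^ 6) * ε := by gcongr
    _ = _ := by ring

end

end Crest.Agent.R247.Pln923
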