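import Crest.Agent.R247.Frd4_657

/-!
R247, block (5), leaf (5-P), file 1: locally Lipschitz functions on an open subset of `ℝⁿ` are in
`L²_loc`, their (a.e. defined) derivatives are in `L²_loc` and are weak derivatives. Closure of weak
derivatives under `L²_loc` convergence. (helper657)
-/

set_option autoImplicit false
open scoped ContDiff ENNReal NNReal Topology
open MeasureTheory Set Filter Metric
open Crest.GeometryTopology.CoordMetric
open Crest.Agent.R202.Ell

namespace Crest.Agent.R247.Frd657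

noncomputable section

variable {n : ℕ}

/-- a locally Lipschitz function with compact support is Lipschitz -/
theorem exists_lipschitz {f : EE n → ℝ} (hf : LocallyLipschitz f) (hc : HasCompactSupport f) :
    ∃ C : ℝ≥0, LipschitzWith C f := by
  obtain ⟨R, hR⟩ := hc.isCompact.isBounded.subset_closedBall (0 : EE n)
  obtain ⟨K, hK⟩ := LocallyLipschitzOn.exists_lipschitzOnWith_of_compact
    (isCompact_closedBall (0 : EE n) (R + 1)) (hf.locallyLipschitzOn)
  obtain ⟨S, hS⟩ := hc.exists_bound_of_continuous hf.continuous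
  have hS0 : 0 ≤ S := (norm_nonneg _).trans (hS 0)
  -- reduce to an estimate with real constant
  have key : ∀ x y, dist (f x) (f y) ≤ (K + S) * dist x y := by
    have h1 : ∀ x y, x ∈ tsupport f → dist (f x) (f y) ≤ (K + S) * dist x y := by
      intro x y hx
      have hxR : ‖x‖ ≤ R := by simpa using hR hx
      by_cases hy : ‖y‖ ≤ R + 1
      · have h2 := hK.dist_le_mul x (by simpa using by linarith) y (by simpa using hy)
        refine h2.trans (mul_le_mul_of_nonneg_right (by linarith) dist_nonneg)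
      · push Not at hy
        have hy0 : f y = 0 := by
          apply image_eq_zero_of_notMem_tsupport
          intro h
          have : ‖y‖ ≤ R := by simpa using hR h
          linarith
        have hd : 1 ≤ dist x y := by
          rw [dist_eq_norm, norm_sub_rev]
          have := norm_sub_norm_le y x
          linarith
        rw [hy0, dist_zero_right]
        have h3 := hS x
        have h4 : S * 1 ≤ S * dist x y := mul_le_mul_of_nonneg_left hd hS0
        have h5 : 0 ≤ (K : ℝ) * dist x y := by positivity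
        nlinarith
    intro x y
    by_cases hx : x ∈ tsupport f
    · exact h1 x y hx
    · by_cases hy : y ∈ tsupport f
      · rw [dist_comm, dist_comm x y]; exact h1 y x hy
      · rw [image_eq_zero_of_notMem_tsupport hx, image_eq_zero_of_notMem_tsupport hy, dist_self]
        positivity
  refine ⟨K + Real.toNNReal S, LipschitzWith.of_dist_le_mul fun x y => ?_⟩
  rw [NNReal.coe_add, Real.coe_toNNReal S hS0]
  exact key x y

section
variable {Ω : Set (EE n)}

/-- cutting off a function which is locally Lipschitz on `Ω` -/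
theorem locLip_cut (hΩ : IsOpen Ω) {f θ : EE n → ℝ} (hf : LocallyLipschitzOn Ω f) (hθ : IsTest θ)
    (hs : tsupport θ ⊆ Ω) : LocallyLipschitz (fun x => θ x * f x) := by
  have hmul : LocallyLipschitz (fun p : ℝ × ℝ => p.1 * p.2) :=
    (contDiff_fst.mul contDiff_snd : ContDiff ℝ 1 fun p : ℝ × ℝ => p.1 * p.2).locallyLipschitz
  have hθl : LocallyLipschitz θ := (hθ.smooth.of_le (by simp)).locallyLipschitz
  intro x
  by_cases hx : x ∈ tsupport θ
  · have hxΩ := hs hx
    obtain ⟨K1, t1, ht1, hK1⟩ := hf hxΩ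
    have ht1' : t1 ∈ 𝓝 x := by rwa [hΩ.nhdsWithin_eq hxΩ] at ht1
    obtain ⟨K2, t2, ht2, hK2⟩ := hθl x
    obtain ⟨K3, t3, ht3, hK3⟩ := hmul (θ x, f x)
    have hcf : ContinuousAt f x := (hf.continuousOn).continuousAt (hΩ.mem_nhds hxΩ)
    have hcont : ContinuousAt (fun y => (θ y, f y)) x := (hθ.continuous.continuousAt).prodMk hcf
    have ht4 := hcont.preimage_mem_nhds ht3
    refine ⟨K3 * max K2 K1, t1 ∩ t2 ∩ (fun y => (θ y, f y)) ⁻¹' t3,
      inter_mem (inter_mem ht1' ht2) ht4, ?_⟩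
    have hp : LipschitzOnWith (max K2 K1) (fun y => (θ y, f y))
        (t1 ∩ t2 ∩ (fun y => (θ y, f y)) ⁻¹' t3) :=
      (hK2.mono (fun y hy => hy.1.2)).prodMk (hK1.mono (fun y hy => hy.1.1))
    exact hK3.comp hp (fun y hy => hy.2)
  · refine ⟨0, (tsupport θ)ᶜ, (isClosed_tsupport θ).isOpen_compl.mem_nhds hx, ?_⟩
    intro y hy z hz
    simp [image_eq_zero_of_notMem_tsupport hy, image_eq_zero_of_notMem_tsupport hz]

/-- bound of the derivative of a locally Lipschitz function on compact sets -/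
theorem pderiv_bdd (hΩ : IsOpen Ω) {f : EE n → ℝ} (hf : LocallyLipschitzOn Ω f) {K : Set (EE n)}
    (hK : IsCompact K) (hKΩ : K ⊆ Ω) (i : Fin n) : ∃ C : ℝ, ∀ x ∈ K, |pderiv i f x| ≤ C := by
  refine hK.induction_on (p := fun s => ∃ C : ℝ, ∀ x ∈ s ∩ K, |pderiv i f x| ≤ C)
    ⟨0, fun x hx => absurd hx.1 (notMem_empty x)⟩ ?_ ?_ ?_ |>.imp fun C hC x hx => hC x ⟨hx, hx⟩
  · rintro s t hst ⟨C, hC⟩
    exact ⟨C, fun x hx => hC x ⟨hst hx.1, hx.2⟩⟩
  · rintro s t ⟨C, hC⟩ ⟨C', hC'⟩
    refine ⟨max C C', fun x hx => ?_⟩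
    rcases hx.1 with h | h
    · exact (hC x ⟨h, hx.2⟩).trans (le_max_left _ _)
    · exact (hC' x ⟨h, hx.2⟩).trans (le_max_right _ _)
  · intro x hx
    have hxΩ := hKΩ hx
    obtain ⟨L, t, ht, hL⟩ := hf hxΩ
    have ht' : t ∈ 𝓝 x := by rwa [hΩ.nhdsWithin_eq hxΩ] at ht
    refine ⟨interior t, mem_nhdsWithin_of_mem_nhds (interior_mem_nhds.2 ht'), L, ?_⟩
    intro y hy
    have hyt : t ∈ 𝓝 y := mem_interior_iff_mem_nhds.1 hy.1
    have h1 : ‖fderiv ℝ f y‖ ≤ L := norm_fderiv_le_of_lipschitzOn ℝ hyt hL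
    have h2 := (fderiv ℝ f y).le_opNorm (EuclideanSpace.single i 1)
    have h3 : ‖(EuclideanSpace.single i (1 : ℝ) : EE n)‖ = 1 := by simp
    rw [h3, mul_one] at h2
    exact h2.trans h1

theorem measurable_pderiv (f : EE n → ℝ) (i : Fin n) : Measurable (pderiv i f) :=
  measurable_fderiv_apply_const ℝ f (EuclideanSpace.single i 1)

theorem L2On.of_locLip {f : EE n → ℝ} (hf : LocallyLipschitzOn Ω f) : L2On Ω f :=
  L2On.of_continuousOn hf.continuousOn

theorem L2On.pderiv_of_locLip (hΩ : IsOpen Ω) {f : EE n → ℝ} (hf : LocallyLipschitzOn Ω f)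
    (i : Fin n) : L2On Ω (pderiv i f) := by
  intro K hK hc
  obtain ⟨C, hC⟩ := pderiv_bdd hΩ hf hc hK i
  have : IsFiniteMeasure (volume.restrict K : Measure (EE n)) :=
    ⟨by rw [Measure.restrict_apply_univ]; exact hc.measure_lt_top⟩
  refine MemLp.of_bound (measurable_pderiv f i).aestronglyMeasurable C ?_
  rw [ae_restrict_iff' hc.measurableSet]
  exact Eventually.of_forall fun x hx => by simpa [Real.norm_eq_abs] using hC x hx

/-- a locally Lipschitz function is a.e. differentiable -/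
theorem ae_diff (hΩ : IsOpen Ω) {f : EE n → ℝ} (hf : LocallyLipschitzOn Ω f) :
    ∀ᵐ x, x ∈ Ω → DifferentiableAt ℝ f x := by
  have h1 : ∀ x ∈ Ω, ∃ t, t ∈ 𝓝[Ω] x ∧ ∀ᵐ y, y ∈ t → DifferentiableAt ℝ f y := by
    intro x hx
    obtain ⟨L, t, ht, hL⟩ := hf hx
    have ht' : t ∈ 𝓝 x := by rwa [hΩ.nhdsWithin_eq hx] at ht
    have h2 := (hL.mono interior_subset).ae_differentiableWithinAt_of_mem (μ := (volume : Measure (EE n)))
    refine ⟨interior t, mem_nhdsWithin_of_mem_nhds (interior_mem_nhds.2 ht'), ?_⟩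
    filter_upwards [h2] with y hy hyt
    exact (hy hyt).differentiableAt (isOpen_interior.mem_nhds hyt)
  choose! t ht1 ht2 using h1
  obtain ⟨T, hTΩ, hTc, hT⟩ := TopologicalSpace.countable_cover_nhdsWithin ht1
  have h3 : ∀ᵐ y, ∀ x ∈ T, y ∈ t x → DifferentiableAt ℝ f y :=
    (ae_ball_iff hTc).2 fun x hx => ht2 x (hTΩ hx)
  filter_upwards [h3] with y hy hyΩ
  obtain ⟨x, hx, hyx⟩ := mem_iUnion₂.1 (hT hyΩ)
  exact hy x hx hyx

/-- **a locally Lipschitz function has its a.e. derivative as weak derivative** -/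
theorem WDOn.of_locLip (hΩ : IsOpen Ω) {f : EE n → ℝ} (hf : LocallyLipschitzOn Ω f) (i : Fin n) :
    WDOn Ω i f (pderiv i f) := by
  intro φ hφ hs
  obtain ⟨θ, hθ, hθΩ, hθ1', hθ1, -⟩ := exists_cutoff (K := tsupport φ) hφ.cpt hΩ hs
  obtain ⟨C, hC⟩ := exists_lipschitz (locLip_cut hΩ hf hθ hθΩ) hθ.cpt.mul_right
  obtain ⟨D, hD⟩ := exists_lipschitz (f := φ) (hφ.smooth.of_le (by simp)).locallyLipschitz hφ.cpt
  have key := LipschitzWith.integral_lineDeriv_mul_eq (μ := (volume : Measure (EE n))) hC hD hφ.cpt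
    (EuclideanSpace.single i 1)
  have e1 : ∫ x, lineDeriv ℝ (fun x => θ x * f x) x (EuclideanSpace.single i 1) * φ x
      = ∫ x, pderiv i f x * φ x := by
    apply integral_congr_ae
    filter_upwards [ae_diff hΩ hf] with x hx
    by_cases hxs : x ∈ tsupport φ
    · have h1 : (fun y => θ y * f y) =ᶠ[𝓝 x] f := by
        filter_upwards [hθ1'.filter_mono (nhds_le_nhdsSet hxs)] with y hy
        rw [hy, one_mul]
      have h2 : DifferentiableAt ℝ (fun y => θ y * f y) x :=
        (hx (hs hxs)).congr_of_eventuallyEq h1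
      rw [h2.lineDeriv_eq_fderiv, h1.fderiv_eq]
      rfl
    · rw [image_eq_zero_of_notMem_tsupport hxs, mul_zero, mul_zero]
  have e2 : ∫ x, lineDeriv ℝ φ x (-(EuclideanSpace.single i 1)) * (θ x * f x)
      = - ∫ x, f x * pderiv i φ x := by
    rw [← integral_neg]
    congr 1; ext x
    rw [(hφ.smooth.differentiable (by simp) x).lineDeriv_eq_fderiv, map_neg]
    by_cases hxs : x ∈ tsupport φ
    · rw [hθ1 x hxs]
      unfold Crest.GeometryTopology.CoordMetric.pderiv
      ring
    · have h3 : fderiv ℝ φ x (EuclideanSpace.single i 1) = 0 := pderiv_zero_off hxs i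
      have h4 : pderiv i φ x = 0 := pderiv_zero_off hxs i
      rw [h3, h4]; ring
  rw [e1, e2] at key
  linarith

/-! ### closure under local `L²` convergence -/

/-- `f k → g` in `L²_loc(Ω)` -/
def TendL2 (Ω : Set (EE n)) (f : ℕ → EE n → ℝ) (g : EE n → ℝ) : Prop :=
  ∀ K, K ⊆ Ω → IsCompact K →
    Tendsto (fun k => eLpNorm (fun x => f k x - g x) 2 (volume.restrict K)) atTop (𝓝 0)

/-- pairing with a test function passes to the limit -/
theorem TendL2.tendsto_integral {f : ℕ → EE n → ℝ} {g : EE n → ℝ} (h : TendL2 Ω f g)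
    (hf : ∀ k, L2On Ω (f k)) (hg : L2On Ω g) {ψ : EE n → ℝ} (hψ : Continuous ψ)
    (hc : HasCompactSupport ψ) (hs : tsupport ψ ⊆ Ω) :
    Tendsto (fun k => ∫ x, f k x * ψ x) atTop (𝓝 (∫ x, g x * ψ x)) := by
  have hK : IsCompact (tsupport ψ) := hc
  set K := tsupport ψ with hKdef
  have hψ2 : MemLp ψ 2 (volume.restrict K) := (hψ.memLp_of_hasCompactSupport hc).restrict _
  have h0 := h K hs hK
  have e1 : ∀ u : EE n → ℝ, ∫ x, u x * ψ x = ∫ x in K, u x * ψ x := by
    intro u
    refine (setIntegral_eq_integral_of_forall_compl_eq_zero fun x hx => ?_).symm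
    rw [image_eq_zero_of_notMem_tsupport hx, mul_zero]
  have hm : ∀ k, MemLp (fun x => f k x - g x) 2 (volume.restrict K) := fun k =>
    (hf k K hs hK).sub (hg K hs hK)
  have hb : ∀ k, |(∫ x, f k x * ψ x) - ∫ x, g x * ψ x| ≤
      (eLpNorm (fun x => f k x - g x) 2 (volume.restrict K)).toReal
        * (eLpNorm ψ 2 (volume.restrict K)).toReal := by
    intro k
    have i1 : Integrable (fun x => f k x * ψ x) (volume.restrict K) :=
      (hf k K hs hK).integrable_mul hψ2
    have i2 : Integrable (fun x => g x * ψ x) (volume.restrict K) :=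
      (hg K hs hK).integrable_mul hψ2
    rw [e1, e1, ← integral_sub i1 i2]
    have e2 : ∫ x in K, (f k x * ψ x - g x * ψ x) = inner ℝ (hψ2.toLp ψ) ((hm k).toLp _) := by
      rw [L2.inner_def]
      apply integral_congr_ae
      filter_upwards [hψ2.coeFn_toLp, (hm k).coeFn_toLp] with x h1 h2
      rw [h1, h2]
      simp only [RCLike.inner_apply, conj_trivial]
      ring
    rw [e2]
    refine (abs_real_inner_le_norm _ _).trans ?_
    rw [Lp.norm_toLp, Lp.norm_toLp, mul_comm]
  rw [tendsto_iff_dist_tendsto_zero]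
  have h1 : Tendsto (fun k => (eLpNorm (fun x => f k x - g x) 2 (volume.restrict K)).toReal
      * (eLpNorm ψ 2 (volume.restrict K)).toReal) atTop (𝓝 0) := by
    have h2 := (ENNReal.tendsto_toReal ENNReal.zero_ne_top).comp h0
    have h3 := h2.mul_const ((eLpNorm ψ 2 (volume.restrict K)).toReal)
    simpa using h3
  exact squeeze_zero (fun _ => dist_nonneg) hb h1

theorem WDOn.closed {f F : ℕ → EE n → ℝ} {g G : EE n → ℝ} {i : Fin n}
    (hf : ∀ k, L2On Ω (f k)) (hF : ∀ k, L2On Ω (F k)) (hg : L2On Ω g) (hG : L2On Ω G)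
    (h1 : TendL2 Ω f g) (h2 : TendL2 Ω F G) (hW : ∀ k, WDOn Ω i (f k) (F k)) : WDOn Ω i g G := by
  intro φ hφ hs
  have t1 := h1.tendsto_integral hf hg (hφ.pderiv i).continuous (hφ.pderiv i).cpt
    ((tsupport_pderiv φ i).trans hs)
  have t2 := (h2.tendsto_integral hF hG hφ.continuous hφ.cpt hs).neg
  refine tendsto_nhds_unique t1 (t2.congr fun k => ?_)
  exact (hW k φ hφ hs).symm

end

end

end Crest.Agent.R247.Frd657
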