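import Mathlib
import Crest.Agent.R202.GeoTens

/-!
R247 (helper97), block (6f), part 1: calculus along rays in coordinates (index free).

`HessAt Γx u x X Y = D²u(X,Y) - du(Γ(X,Y))`; gradient fields; eikonal functions have
`Hess d (∇d, ·) = 0`, i.e. integral curves of `∇d` are geodesics; derivatives along curves of
`du(γ')` and `⟨∇u, ∇v⟩`.
-/

set_option autoImplicit false

open scoped ContDiff Topology
open Filter Set
open Crest.Agent.R202.Tens

namespace Crest.Agent.R247.Ray97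

section abstr
variable {E : Type*} [NormedAddCommGroup E] [NormedSpace ℝ E]

/-- The Hessian of `u` at `x` for the connection with Christoffel map `Γx` at `x`. -/
noncomputable def HessAt (Γx : E →L[ℝ] E →L[ℝ] E) (u : E → ℝ) (x X Y : E) : ℝ :=
  fderiv ℝ (fderiv ℝ u) x X Y - fderiv ℝ u x (Γx X Y)

lemma hessAt_symm {Γx : E →L[ℝ] E →L[ℝ] E} {u : E → ℝ} {x : E} (hu : ContDiffAt ℝ 2 u x)
    (hΓ : ∀ X Y, Γx X Y = Γx Y X) (X Y : E) : HessAt Γx u x X Y = HessAt Γx u x Y X := by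
  have h := hu.isSymmSndFDerivAt (by simp)
  unfold HessAt
  rw [hΓ X Y, h.eq X Y]

/-- metric compatibility -/
lemma compat {G : E → E →L[ℝ] E →L[ℝ] ℝ} {x : E} {Γx : E →L[ℝ] E →L[ℝ] E}
    (hLC : IsLC G x Γx) (hsym : ∀ U V, G x U V = G x V U)
    (hdsym : ∀ W U V, fderiv ℝ G x W U V = fderiv ℝ G x W V U) (W X Y : E) :
    fderiv ℝ G x W X Y = G x (Γx W X) Y + G x X (Γx W Y) := by
  rw [hsym X (Γx W Y), hLC W X Y, hLC W Y X, hdsym W Y X]
  rw [hdsym X W Y, hdsym Y W X]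
  rw [hdsym X Y W, hdsym Y X W]
  ring

/-- derivative of `z ↦ G z (V z) (W z)` -/
lemma hasFDerivAt_GVW {G : E → E →L[ℝ] E →L[ℝ] ℝ} {V W : E → E} {x : E}
    (hG : DifferentiableAt ℝ G x) (hV : DifferentiableAt ℝ V x) (hW : DifferentiableAt ℝ W x)
    (X : E) :
    fderiv ℝ (fun z => G z (V z) (W z)) x X =
      fderiv ℝ G x X (V x) (W x) + G x (fderiv ℝ V x X) (W x) + G x (V x) (fderiv ℝ W x X) := by
  have h := fderiv_apply2 (G := G) (Φ := fun z => z) (y := x) (u := V) (v := W) hG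
    differentiableAt_id hV hW X
  simpa using h

variable {G : E → E →L[ℝ] E →L[ℝ] ℝ} {x : E} {Γx : E →L[ℝ] E →L[ℝ] E} {u : E → ℝ} {V : E → E}

/-- `Hess u (X, Y) = ⟨∇_X ∇u, Y⟩` -/
theorem hessAt_eq (hLC : IsLC G x Γx) (hsym : ∀ U V, G x U V = G x V U)
    (hdsym : ∀ W U V, fderiv ℝ G x W U V = fderiv ℝ G x W V U)
    (hG : DifferentiableAt ℝ G x) (hV : DifferentiableAt ℝ V x)
    (hu : ContDiffAt ℝ 2 u x)
    (hgrad : ∀ᶠ z in 𝓝 x, ∀ Y, G z (V z) Y = fderiv ℝ u z Y) (X Y : E) :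
    HessAt Γx u x X Y = G x (fderiv ℝ V x X + Γx X (V x)) Y := by
  have hddu : DifferentiableAt ℝ (fderiv ℝ u) x :=
    (hu.fderiv_right (m := 1) (by norm_num)).differentiableAt (by norm_num)
  have e1 : (fun z => G z (V z) Y) =ᶠ[𝓝 x] fun z => fderiv ℝ u z Y := by
    filter_upwards [hgrad] with z hz using hz Y
  have e2 : fderiv ℝ (fun z => G z (V z) Y) x X = fderiv ℝ G x X (V x) Y
      + G x (fderiv ℝ V x X) Y := by
    have := hasFDerivAt_GVW (W := fun _ => Y) hG hV (differentiableAt_const _) X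
    simpa using this
  have e3 : fderiv ℝ (fun z => fderiv ℝ u z Y) x X = fderiv ℝ (fderiv ℝ u) x X Y := by
    rw [fderiv_clm_apply hddu (differentiableAt_const _)]
    simp
  rw [e1.fderiv_eq, e3, compat hLC hsym hdsym] at e2
  have h0 := hgrad.self_of_nhds (Γx X Y)
  unfold HessAt
  rw [e2, ← h0, map_add, add_apply]
  ring

/-- derivative of `⟨∇u, ∇v⟩` -/
theorem fderiv_inner_grad (hLC : IsLC G x Γx) (hsym : ∀ U V, G x U V = G x V U)
    (hdsym : ∀ W U V, fderiv ℝ G x W U V = fderiv ℝ G x W V U)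
    (hG : DifferentiableAt ℝ G x) (hV : DifferentiableAt ℝ V x)
    (hu : ContDiffAt ℝ 2 u x)
    (hgrad : ∀ᶠ z in 𝓝 x, ∀ Y, G z (V z) Y = fderiv ℝ u z Y)
    {v : E → ℝ} {W : E → E} (hW : DifferentiableAt ℝ W x) (hv : ContDiffAt ℝ 2 v x)
    (hgradv : ∀ᶠ z in 𝓝 x, ∀ Y, G z (W z) Y = fderiv ℝ v z Y) (X : E) :
    fderiv ℝ (fun z => G z (V z) (W z)) x X =
      HessAt Γx u x X (W x) + HessAt Γx v x X (V x) := by
  rw [hasFDerivAt_GVW hG hV hW, hessAt_eq hLC hsym hdsym hG hV hu hgrad,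
    hessAt_eq hLC hsym hdsym hG hW hv hgradv, compat hLC hsym hdsym]
  rw [map_add, map_add, add_apply, add_apply]
  rw [hsym (V x) (Γx X (W x)), hsym (V x) (fderiv ℝ W x X)]
  ring

/-- the eikonal equation kills `Hess d (·, ∇d)` -/
theorem hessAt_eikonal (hLC : IsLC G x Γx) (hsym : ∀ U V, G x U V = G x V U)
    (hdsym : ∀ W U V, fderiv ℝ G x W U V = fderiv ℝ G x W V U)
    (hG : DifferentiableAt ℝ G x) (hV : DifferentiableAt ℝ V x)
    (hu : ContDiffAt ℝ 2 u x)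
    (hgrad : ∀ᶠ z in 𝓝 x, ∀ Y, G z (V z) Y = fderiv ℝ u z Y) {C : ℝ}
    (heik : ∀ᶠ z in 𝓝 x, G z (V z) (V z) = C) (X : E) :
    HessAt Γx u x X (V x) = 0 := by
  have h1 := fderiv_inner_grad hLC hsym hdsym hG hV hu hgrad hV hu hgrad X
  have e1 : (fun z => G z (V z) (V z)) =ᶠ[𝓝 x] fun _ => C := by
    filter_upwards [heik] with z hz using hz
  rw [e1.fderiv_eq] at h1
  simp at h1
  linarith

/-- integral curves of the gradient of an eikonal function are geodesics -/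
theorem eikonal_geodesic (hLC : IsLC G x Γx) (hsym : ∀ U V, G x U V = G x V U)
    (hdsym : ∀ W U V, fderiv ℝ G x W U V = fderiv ℝ G x W V U)
    (hG : DifferentiableAt ℝ G x) (hV : DifferentiableAt ℝ V x)
    (hΓ : ∀ X Y, Γx X Y = Γx Y X) (hnd : ∀ U, (∀ Z, G x U Z = 0) → U = 0)
    (hu : ContDiffAt ℝ 2 u x)
    (hgrad : ∀ᶠ z in 𝓝 x, ∀ Y, G z (V z) Y = fderiv ℝ u z Y) {C : ℝ}
    (heik : ∀ᶠ z in 𝓝 x, G z (V z) (V z) = C) :
    fderiv ℝ V x (V x) = - Γx (V x) (V x) := by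
  rw [← sub_eq_zero, sub_neg_eq_add]
  apply hnd
  intro Z
  rw [← hessAt_eq hLC hsym hdsym hG hV hu hgrad, hessAt_symm hu hΓ,
    hessAt_eikonal hLC hsym hdsym hG hV hu hgrad heik]

/-- first derivative along a curve -/
lemma hasDerivAt_comp {c : ℝ → E} {s : ℝ} {c' : E} (hc : HasDerivAt c c' s)
    {v : E → ℝ} (hv : DifferentiableAt ℝ v (c s)) :
    HasDerivAt (fun t => v (c t)) (fderiv ℝ v (c s) c') s :=
  hv.hasFDerivAt.comp_hasDerivAt s hc

/-- **second derivative along an integral curve of an eikonal gradient** -/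
theorem hasDerivAt_fderiv_ray {c : ℝ → E} {s : ℝ} (hxc : c s = x)
    (hc : HasDerivAt c (V x) s)
    (hLC : IsLC G x Γx) (hsym : ∀ U V, G x U V = G x V U)
    (hdsym : ∀ W U V, fderiv ℝ G x W U V = fderiv ℝ G x W V U)
    (hG : DifferentiableAt ℝ G x) (hV : DifferentiableAt ℝ V x)
    (hΓ : ∀ X Y, Γx X Y = Γx Y X) (hnd : ∀ U, (∀ Z, G x U Z = 0) → U = 0)
    (hu : ContDiffAt ℝ 2 u x)
    (hgrad : ∀ᶠ z in 𝓝 x, ∀ Y, G z (V z) Y = fderiv ℝ u z Y) {C : ℝ}
    (heik : ∀ᶠ z in 𝓝 x, G z (V z) (V z) = C)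
    {v : E → ℝ} (hv : ContDiffAt ℝ 2 v x) :
    HasDerivAt (fun t => fderiv ℝ v (c t) (V (c t))) (HessAt Γx v x (V x) (V x)) s := by
  subst hxc
  have hddv : DifferentiableAt ℝ (fderiv ℝ v) (c s) :=
    (hv.fderiv_right (m := 1) (by norm_num)).differentiableAt (by norm_num)
  have h1 : DifferentiableAt ℝ (fun z => fderiv ℝ v z (V z)) (c s) := hddv.clm_apply hV
  have h2 := hasDerivAt_comp hc h1
  convert h2 using 1
  rw [fderiv_clm_apply hddv hV]
  simp only [add_apply, ContinuousLinearMap.comp_apply, ContinuousLinearMap.flip_apply]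
  rw [eikonal_geodesic hLC hsym hdsym hG hV hΓ hnd hu hgrad heik]
  unfold HessAt
  rw [map_neg]
  ring

end abstr

section coord
open Crest.GeometryTopology.CoordMetric Crest.GeometryTopology.ChartCurvature
variable {n : ℕ} {g : MetricField n} {U : Set (EuclideanSpace ℝ (Fin n))}

local notation "EE" => EuclideanSpace ℝ (Fin n)

/-- coordinate Hessian for the metric field `g` -/
noncomputable def hess (g : MetricField n) (u : EE → ℝ) (x X Y : EE) : ℝ :=
  HessAt (Gam g x) u x X Y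

lemma Gf_apply (g : MetricField n) (x X Y : EE) : Gf g x X Y = bil (g x) X Y := rfl

lemma gf_symm (hg : IsRiemannianOn g U) {x : EE} (hx : x ∈ U) (X Y : EE) :
    Gf g x X Y = Gf g x Y X := bil_symm hg hx X Y

lemma differentiableAt_Gf (hg : IsRiemannianOn g U) {x : EE} (hx : x ∈ U) :
    DifferentiableAt ℝ (Gf g) x :=
  (hasFDerivAt_Gf fun i j => differentiableAt_entry hg hx i j).differentiableAt

lemma fderiv_gf_symm (hg : IsRiemannianOn g U) {x : EE} (hx : x ∈ U) (W X Y : EE) :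
    fderiv ℝ (Gf g) x W X Y = fderiv ℝ (Gf g) x W Y X := by
  have hd := fun i j => differentiableAt_entry hg hx i j
  rw [fderiv_Gf hd, fderiv_Gf hd]
  refine Finset.sum_congr rfl fun l _ => ?_
  rw [Finset.sum_comm]
  refine Finset.sum_congr rfl fun i _ => Finset.sum_congr rfl fun j _ => ?_
  rw [pderiv_metric_symm hg hx l j i]
  ring

lemma isLC (hg : IsRiemannianOn g U) {x : EE} (hx : x ∈ U) : IsLC (Gf g) x (Gam g x) :=
  isLC_Gam (fun i j => differentiableAt_entry hg hx i j)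
    ((hg.posDef x hx).det_pos.ne'.isUnit) (fun i j => metric_symm hg hx i j)

lemma gam_symm (hg : IsRiemannianOn g U) {x : EE} (hx : x ∈ U) (X Y : EE) :
    Gam g x X Y = Gam g x Y X := by
  ext k
  rw [Gam_apply, Gam_apply, Finset.sum_comm]
  refine Finset.sum_congr rfl fun i _ => Finset.sum_congr rfl fun j _ => ?_
  rw [christoffel_symm hg hx k j i]
  ring

lemma gf_nondeg (hg : IsRiemannianOn g U) {x : EE} (hx : x ∈ U) (X : EE)
    (h : ∀ Z, Gf g x X Z = 0) : X = 0 := by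
  by_contra hX
  have := bil_pos hg hx hX
  have h2 := h X
  rw [Gf_apply] at h2
  exact this.ne' h2

end coord

end Crest.Agent.R247.Ray97
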