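import Mathlib

/-!
R247 (helper97), block (6f), part 4a: first and second order Taylor inequalities on `[0,1]` for a
function which is (twice) differentiable on the open interval, with `ℝ≥0∞`-valued bounds
(no integrability or measurability hypothesis on the bound).
-/

set_option autoImplicit false
open MeasureTheory Set Filter Topology
open scoped ENNReal

namespace Crest.Agent.R247.Ray97

/-- **FTC inequality** -/
theorem ftc_1d {φ φ' : ℝ → ℝ} {K : ℝ → ℝ≥0∞} (hc : ContinuousOn φ (Icc 0 1))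
    (h1 : ∀ t ∈ Ioo (0 : ℝ) 1, HasDerivAt φ (φ' t) t)
    (hK : ∀ t ∈ Ioo (0 : ℝ) 1, ENNReal.ofReal |φ' t| ≤ K t) :
    ENNReal.ofReal |φ 1 - φ 0| ≤ ∫⁻ t in Icc (0 : ℝ) 1, K t := by
  set I := ∫⁻ t in Icc (0 : ℝ) 1, K t with hI
  rcases eq_or_ne I ∞ with htop | hfin
  · rw [htop]; exact le_top
  -- integrability of `φ'`
  have hmeas : AEStronglyMeasurable φ' (volume.restrict (Ioo (0 : ℝ) 1)) := by
    have h2 : AEStronglyMeasurable (deriv φ) (volume.restrict (Ioo (0 : ℝ) 1)) :=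
      (measurable_deriv φ).aestronglyMeasurable
    refine h2.congr ?_
    filter_upwards [ae_restrict_mem measurableSet_Ioo] with t ht using (h1 t ht).deriv
  have hle : ∫⁻ t in Ioo (0 : ℝ) 1, ‖φ' t‖ₑ ≤ I := by
    calc ∫⁻ t in Ioo (0 : ℝ) 1, ‖φ' t‖ₑ ≤ ∫⁻ t in Ioo (0 : ℝ) 1, K t := by
          apply lintegral_mono_ae
          filter_upwards [ae_restrict_mem measurableSet_Ioo] with t ht
          rw [← Real.enorm_abs, Real.enorm_of_nonneg (abs_nonneg _)]
          exact hK t ht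
      _ ≤ I := lintegral_mono_set Ioo_subset_Icc_self
  have hint : IntegrableOn φ' (Ioo 0 1) volume :=
    ⟨hmeas, lt_of_le_of_lt hle (lt_top_iff_ne_top.2 hfin)⟩
  have hii : IntervalIntegrable φ' volume 0 1 := by
    rw [intervalIntegrable_iff_integrableOn_Ioo_of_le (by norm_num)]
    exact hint
  have hftc := intervalIntegral.integral_eq_sub_of_hasDerivAt_of_le (by norm_num : (0 : ℝ) ≤ 1)
    hc h1 hii
  rw [← hftc, intervalIntegral.integral_of_le (by norm_num), integral_Ioc_eq_integral_Ioo,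
    ← Real.enorm_of_nonneg (abs_nonneg _), Real.enorm_abs]
  exact (enorm_integral_le_lintegral_enorm _).trans hle

/-- **second order Taylor inequality** -/
theorem taylor_1d {φ φ' φ'' : ℝ → ℝ} {d0 c : ℝ} {K : ℝ → ℝ≥0∞}
    (hc : ContinuousOn φ (Icc 0 1))
    (h1 : ∀ t ∈ Ioo (0 : ℝ) 1, HasDerivAt φ (φ' t) t)
    (h2 : ∀ t ∈ Ioo (0 : ℝ) 1, HasDerivAt φ' (φ'' t) t)
    (h0 : Tendsto φ' (𝓝[>] 0) (𝓝 d0))
    (hK : ∀ t ∈ Ioo (0 : ℝ) 1, ENNReal.ofReal |φ'' t - c| ≤ K t) :
    ENNReal.ofReal |φ 1 - φ 0 - d0 - c / 2| ≤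
      ∫⁻ t in Icc (0 : ℝ) 1, ENNReal.ofReal (1 - t) * K t := by
  set I := ∫⁻ t in Icc (0 : ℝ) 1, ENNReal.ofReal (1 - t) * K t with hI
  rcases eq_or_ne I ∞ with htop | hfin
  · rw [htop]; exact le_top
  -- the inequality on `[ε, 1-ε]`
  have key : ∀ ε ∈ Ioo (0 : ℝ) (1 / 2), ENNReal.ofReal |φ (1 - ε) - φ ε - (1 - 2 * ε) * φ' ε
      - c * (1 - 2 * ε) ^ 2 / 2| ≤ I := by
    intro ε hε
    set g : ℝ → ℝ := fun t => (1 - ε - t) * (φ'' t - c) with hg
    set Ψ : ℝ → ℝ := fun t => φ t + (1 - ε - t) * φ' t + c * (1 - ε - t) ^ 2 / 2 with hΨ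
    have hε1 : ε ≤ 1 - ε := by linarith [hε.2]
    have hsub : Icc ε (1 - ε) ⊆ Ioo 0 1 := fun t ht =>
      ⟨lt_of_lt_of_le hε.1 ht.1, lt_of_le_of_lt ht.2 (by linarith [hε.1])⟩
    have hd : ∀ t ∈ Icc ε (1 - ε), HasDerivAt Ψ (g t) t := by
      intro t ht
      have ht' := hsub ht
      have e1 := h1 t ht'
      have e2 := h2 t ht'
      have e3 : HasDerivAt (fun t : ℝ => 1 - ε - t) (-1) t := by
        simpa using (hasDerivAt_id t).const_sub (1 - ε)
      have e4 := (e3.fun_pow 2)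
      have e5 := (e1.add (e3.mul e2)).add ((e4.const_mul c).div_const 2)
      refine e5.congr_deriv ?_
      simp only [hg]
      push_cast
      ring
    have hmeas : AEStronglyMeasurable g (volume.restrict (Ioc ε (1 - ε))) := by
      have m1 : AEStronglyMeasurable (deriv φ') (volume.restrict (Ioc ε (1 - ε))) :=
        (measurable_deriv φ').aestronglyMeasurable
      have m2 : AEStronglyMeasurable φ'' (volume.restrict (Ioc ε (1 - ε))) := by
        refine m1.congr ?_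
        filter_upwards [ae_restrict_mem measurableSet_Ioc] with t ht
        exact (h2 t (hsub (Ioc_subset_Icc_self ht))).deriv
      exact ((continuous_const.sub continuous_id).aestronglyMeasurable.mul
        (m2.sub aestronglyMeasurable_const))
    have hle : ∫⁻ t in Ioc ε (1 - ε), ‖g t‖ₑ ≤ I := by
      calc ∫⁻ t in Ioc ε (1 - ε), ‖g t‖ₑ
          ≤ ∫⁻ t in Ioc ε (1 - ε), ENNReal.ofReal (1 - t) * K t := by
            apply lintegral_mono_ae
            filter_upwards [ae_restrict_mem measurableSet_Ioc] with t ht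
            have ht' := hsub (Ioc_subset_Icc_self ht)
            simp only [hg]
            rw [enorm_mul, ← Real.enorm_abs (φ'' t - c), Real.enorm_of_nonneg (abs_nonneg _),
              Real.enorm_of_nonneg (by linarith [ht.2])]
            gcongr
            · linarith [hε.1]
            · exact hK t ht'
        _ ≤ I := lintegral_mono_set (fun t ht =>
            ⟨(hsub (Ioc_subset_Icc_self ht)).1.le, (hsub (Ioc_subset_Icc_self ht)).2.le⟩)
    have hii : IntervalIntegrable g volume ε (1 - ε) := by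
      rw [intervalIntegrable_iff_integrableOn_Ioc_of_le hε1]
      exact ⟨hmeas, lt_of_le_of_lt hle (lt_top_iff_ne_top.2 hfin)⟩
    have hftc := intervalIntegral.integral_eq_sub_of_hasDerivAt
      (fun t ht => hd t (by rwa [uIcc_of_le hε1] at ht)) hii
    have e : Ψ (1 - ε) - Ψ ε = φ (1 - ε) - φ ε - (1 - 2 * ε) * φ' ε
      - c * (1 - 2 * ε) ^ 2 / 2 := by simp only [hΨ]; ring
    rw [← e, ← hftc, intervalIntegral.integral_of_le hε1,
      ← Real.enorm_of_nonneg (abs_nonneg _), Real.enorm_abs]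
    exact (enorm_integral_le_lintegral_enorm _).trans hle
  -- the limit
  have hφ0 : Tendsto φ (𝓝[>] 0) (𝓝 (φ 0)) :=
    (hc 0 (by simp)).mono_left (nhdsWithin_le_of_mem (by
      exact mem_of_superset (Ioo_mem_nhdsGT (zero_lt_one (α := ℝ))) Ioo_subset_Icc_self))
  have hφ1 : Tendsto (fun ε : ℝ => φ (1 - ε)) (𝓝[>] 0) (𝓝 (φ 1)) := by
    have ht : Tendsto (fun ε : ℝ => 1 - ε) (𝓝[>] 0) (𝓝[Icc 0 1] 1) := by
      rw [tendsto_nhdsWithin_iff]
      constructor
      · have : Tendsto (fun ε : ℝ => 1 - ε) (𝓝 0) (𝓝 (1 - 0)) := by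
          exact (continuous_const.sub continuous_id).tendsto _
        rw [sub_zero] at this
        exact this.mono_left nhdsWithin_le_nhds
      · filter_upwards [Ioo_mem_nhdsGT (zero_lt_one (α := ℝ))] with ε hε
        exact ⟨by linarith [hε.2], by linarith [hε.1]⟩
    have h3 : Tendsto φ (𝓝[Icc 0 1] 1) (𝓝 (φ 1)) := hc 1 (by simp)
    exact h3.comp ht
  have hid : Tendsto (fun ε : ℝ => ε) (𝓝[>] 0) (𝓝 0) := nhdsWithin_le_nhds
  have hlim : Tendsto (fun ε : ℝ => ENNReal.ofReal |φ (1 - ε) - φ ε - (1 - 2 * ε) * φ' ε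
      - c * (1 - 2 * ε) ^ 2 / 2|) (𝓝[>] 0)
      (𝓝 (ENNReal.ofReal |φ 1 - φ 0 - (1 - 2 * 0) * d0 - c * (1 - 2 * 0) ^ 2 / 2|)) := by
    refine (ENNReal.continuous_ofReal.tendsto _).comp ?_
    refine Tendsto.abs ?_
    have h12 : Tendsto (fun ε : ℝ => 1 - 2 * ε) (𝓝[>] 0) (𝓝 (1 - 2 * 0)) :=
      tendsto_const_nhds.sub (hid.const_mul 2)
    exact ((hφ1.sub hφ0).sub (h12.mul h0)).sub (((h12.pow 2).const_mul c).div_const 2)
  have hfinal := le_of_tendsto hlim (by
    filter_upwards [Ioo_mem_nhdsGT (show (0 : ℝ) < 1 / 2 by norm_num)] with ε hε using key ε hε)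
  have e : φ 1 - φ 0 - (1 - 2 * 0) * d0 - c * (1 - 2 * 0) ^ 2 / 2 = φ 1 - φ 0 - d0 - c / 2 := by
    ring
  rwa [e] at hfinal

end Crest.Agent.R247.Ray97
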