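import Crest.Prelude.Def_PointedLimit
import Mathlib.Geometry.Manifold.Riemannian.Basic
import Mathlib.Geometry.Euclidean.Volume.Measure

/-!
# R247: rescaling of a Riemannian manifold (1): the metric space and the bundle metric
-/

set_option autoImplicit false
noncomputable section
open Set Filter Topology Bundle MeasureTheory
open scoped ContDiff Manifold ENNReal NNReal

namespace Crest.Agent.R247.Scal386

universe u

section metric
variable {M : Type u}

/-- The metric space `(M, r⁻¹ dist)`, with the same uniform structure and bornology. -/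
@[reducible] def scMetric (r : ℝ) (hr : 0 < r) (m : MetricSpace M) : MetricSpace M where
  dist x y := r⁻¹ * dist x y
  dist_self x := by simp
  dist_comm x y := by rw [dist_comm]
  dist_triangle x y z := by
    rw [← mul_add]
    exact mul_le_mul_of_nonneg_left (dist_triangle x y z) (by positivity)
  eq_of_dist_eq_zero {x y} h := by
    have : dist x y = 0 := by
      rcases mul_eq_zero.1 h with h | h
      · exact absurd h (by positivity)
      · exact h
    exact dist_eq_zero.1 this
  toUniformSpace := m.toUniformSpace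
  uniformity_dist := by
    have h1 := Metric.mk_uniformity_basis (α := M) (β := ℝ) (p := fun ε => 0 < ε)
      (f := fun ε => r * ε) (fun i hi => by positivity)
      (fun ε hε => ⟨ε / r, by positivity, by rw [mul_div_cancel₀ _ hr.ne']⟩)
    rw [h1.eq_biInf]
    refine iInf_congr fun ε => iInf_congr fun hε => ?_
    congr 1
    ext p
    simp only [mem_ofPred_eq]
    rw [inv_mul_lt_iff₀ hr]
  toBornology := m.toBornology
  cobounded_sets := by
    have h := @PseudoMetricSpace.cobounded_sets M _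
    rw [h]
    ext s
    simp only [mem_ofPred_eq]
    constructor
    · rintro ⟨C, hC⟩
      exact ⟨r⁻¹ * C, fun x hx y hy => mul_le_mul_of_nonneg_left (hC x hx y hy) (by positivity)⟩
    · rintro ⟨C, hC⟩
      exact ⟨r * C, fun x hx y hy => (inv_mul_le_iff₀ hr).1 (hC x hx y hy)⟩

/-- Type synonym for `M` with distances divided by `r`. -/
def Sc (_ : {r : ℝ // 0 < r}) (M : Type u) : Type u := M

variable (r : {r : ℝ // 0 < r})

instance instMetricSc [m : MetricSpace M] : MetricSpace (Sc r M) := scMetric r.1 r.2 m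

variable [MetricSpace M]

/-- the identity map to the rescaled space -/
def toSc (x : M) : Sc r M := x

/-- the identity map from the rescaled space -/
def ofSc (x : Sc r M) : M := x

theorem dist_sc (x y : Sc r M) : dist x y = r.1⁻¹ * dist (ofSc r x) (ofSc r y) := rfl

theorem dist_toSc (x y : M) : dist (toSc r x) (toSc r y) = r.1⁻¹ * dist x y := rfl

instance instCompleteSc [h : CompleteSpace M] : CompleteSpace (Sc r M) := h

instance instConnectedSc [h : ConnectedSpace M] : ConnectedSpace (Sc r M) := h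

variable {n : ℕ}

instance instChartedSc [h : ChartedSpace (EuclideanSpace ℝ (Fin n)) M] :
    ChartedSpace (EuclideanSpace ℝ (Fin n)) (Sc r M) := h

instance instManifoldSc [ChartedSpace (EuclideanSpace ℝ (Fin n)) M]
    [h : IsManifold 𝓘(ℝ, EuclideanSpace ℝ (Fin n)) ∞ M] :
    IsManifold 𝓘(ℝ, EuclideanSpace ℝ (Fin n)) ∞ (Sc r M) := h

instance instMeasSc [h : MeasurableSpace M] : MeasurableSpace (Sc r M) := h

instance instBorelSc [MeasurableSpace M] [h : BorelSpace M] : BorelSpace (Sc r M) := h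

theorem approx_sc {Y : Type*} [MetricSpace Y] {q : M} {c : Y} {R ε : ℝ}
    (h : Crest.GeometryTopology.PointedLimit.IsScaledApprox r.1⁻¹ q c R ε) :
    Crest.GeometryTopology.PointedLimit.IsScaledApprox 1 (toSc r q) c R ε := by
  obtain ⟨f, h0, h1, h2⟩ := h
  refine ⟨fun x => f (ofSc r x), h0, ?_, ?_⟩
  · intro x x' hx hx'
    rw [one_mul] at hx hx' ⊢
    exact h1 (ofSc r x) (ofSc r x') hx hx'
  · intro y hy
    obtain ⟨x, hx, hxy⟩ := h2 y hy
    exact ⟨toSc r x, by rw [one_mul]; exact hx, hxy⟩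

end metric

section bundle

variable {M : Type u} {n : ℕ} (r : {r : ℝ // 0 < r}) [MetricSpace M]
  [ChartedSpace (EuclideanSpace ℝ (Fin n)) M]

/-- the metric tensor divided by `r ^ 2` -/
def scRM (g : RiemannianMetric (fun x : M => TangentSpace 𝓘(ℝ, EuclideanSpace ℝ (Fin n)) x)) :
    RiemannianMetric
      (fun x : Sc r M => TangentSpace 𝓘(ℝ, EuclideanSpace ℝ (Fin n)) x) where
  inner b := (r.1 ^ 2)⁻¹ • g.inner (ofSc r b)
  symm b v w := by
    exact congrArg (fun t => (r.1 ^ 2)⁻¹ * t) (g.symm (ofSc r b) v w)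
  pos b v hv := by
    show 0 < (r.1 ^ 2)⁻¹ * g.inner (ofSc r b) v v
    have h1 := g.pos (ofSc r b) v hv
    have := r.2
    positivity
  continuousAt b := by
    exact (g.continuousAt (ofSc r b)).const_mul ((r.1 ^ 2)⁻¹)
  isVonNBounded b := by
    have hr := r.2
    have h := g.isVonNBounded (ofSc r b)
    have h2 := h.image ((r.1 : ℝ) • ContinuousLinearMap.id ℝ
      (TangentSpace 𝓘(ℝ, EuclideanSpace ℝ (Fin n)) (ofSc r b)))
    refine h2.subset ?_
    intro v hv
    have hv' : (r.1 ^ 2)⁻¹ * g.inner (ofSc r b) v v < 1 := hv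
    refine ⟨r.1⁻¹ • v, ?_, ?_⟩
    · show g.inner (ofSc r b) (r.1⁻¹ • v) (r.1⁻¹ • v) < 1
      have : g.inner (ofSc r b) (r.1⁻¹ • v) (r.1⁻¹ • v)
          = r.1⁻¹ * (r.1⁻¹ * g.inner (ofSc r b) v v) := by
        simp
      rw [this, ← mul_assoc, ← mul_inv, ← pow_two]
      exact hv'
    · show (r.1 : ℝ) • (r.1⁻¹ • v) = v
      rw [smul_smul, mul_inv_cancel₀ hr.ne', one_smul]

instance instRBSc [h : RiemannianBundle
      (fun x : M => TangentSpace 𝓘(ℝ, EuclideanSpace ℝ (Fin n)) x)] :
    RiemannianBundle (fun x : Sc r M => TangentSpace 𝓘(ℝ, EuclideanSpace ℝ (Fin n)) x) :=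
  ⟨scRM r h.g⟩

theorem inner_sc [h : RiemannianBundle
      (fun x : M => TangentSpace 𝓘(ℝ, EuclideanSpace ℝ (Fin n)) x)] (x : Sc r M)
    (v w : TangentSpace 𝓘(ℝ, EuclideanSpace ℝ (Fin n)) x) :
    inner ℝ v w = (r.1 ^ 2)⁻¹ *
      @inner ℝ (TangentSpace 𝓘(ℝ, EuclideanSpace ℝ (Fin n)) (ofSc r x)) _ v w := rfl

theorem norm_sc [h : RiemannianBundle
      (fun x : M => TangentSpace 𝓘(ℝ, EuclideanSpace ℝ (Fin n)) x)] (x : Sc r M)
    (v : TangentSpace 𝓘(ℝ, EuclideanSpace ℝ (Fin n)) x) :
    ‖v‖ = r.1⁻¹ * @norm (TangentSpace 𝓘(ℝ, EuclideanSpace ℝ (Fin n)) (ofSc r x)) _ v := by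
  have hr := r.2
  have h1 := @norm_eq_sqrt_real_inner (TangentSpace 𝓘(ℝ, EuclideanSpace ℝ (Fin n)) x) _ _ v
  have h2 := @norm_eq_sqrt_real_inner
    (TangentSpace 𝓘(ℝ, EuclideanSpace ℝ (Fin n)) (ofSc r x)) _ _ v
  rw [h1, inner_sc]
  refine Eq.trans ?_ (congrArg (fun t => r.1⁻¹ * t) h2.symm)
  rw [Real.sqrt_mul (by positivity), Real.sqrt_inv, Real.sqrt_sq hr.le]

end bundle

end Crest.Agent.R247.Scal386
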