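import Crest.Agent.R247.Scal1_386

/-!
# R247: rescaling of a Riemannian manifold (2): smoothness of the rescaled bundle metric
-/

set_option autoImplicit false
noncomputable section
open Set Filter Topology Bundle MeasureTheory
open scoped ContDiff Manifold ENNReal NNReal

namespace Crest.Agent.R247.Scal386

universe u

section P
variable {n : ℕ}

/-- smoothness of a family of bilinear forms on the tangent spaces (raw form; used only to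
transport along the identity `M → Sc r M`) -/
def SmB (n : ℕ) (X : Type u) [TopologicalSpace X] [ChartedSpace (EuclideanSpace ℝ (Fin n)) X]
    [IsManifold 𝓘(ℝ, EuclideanSpace ℝ (Fin n)) ∞ X]
    (B : X → EuclideanSpace ℝ (Fin n) →L[ℝ] EuclideanSpace ℝ (Fin n) →L[ℝ] ℝ) : Prop :=
  ContMDiff 𝓘(ℝ, EuclideanSpace ℝ (Fin n))
      (𝓘(ℝ, EuclideanSpace ℝ (Fin n)).prod 𝓘(ℝ, EuclideanSpace ℝ (Fin n) →L[ℝ]
        EuclideanSpace ℝ (Fin n) →L[ℝ] ℝ)) ∞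
      (fun b : X ↦ (TotalSpace.mk' (EuclideanSpace ℝ (Fin n) →L[ℝ]
        EuclideanSpace ℝ (Fin n) →L[ℝ] ℝ)
        (E := fun b : X => TangentSpace 𝓘(ℝ, EuclideanSpace ℝ (Fin n)) b →L[ℝ]
          TangentSpace 𝓘(ℝ, EuclideanSpace ℝ (Fin n)) b →L[ℝ] ℝ) b (B b)))

theorem SmB_smul {X : Type u} [TopologicalSpace X] [ChartedSpace (EuclideanSpace ℝ (Fin n)) X]
    [IsManifold 𝓘(ℝ, EuclideanSpace ℝ (Fin n)) ∞ X]
    (g : Π (x : X), TangentSpace 𝓘(ℝ, EuclideanSpace ℝ (Fin n)) x →L[ℝ]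
        TangentSpace 𝓘(ℝ, EuclideanSpace ℝ (Fin n)) x →L[ℝ] ℝ)
    (h : ContMDiff 𝓘(ℝ, EuclideanSpace ℝ (Fin n))
      (𝓘(ℝ, EuclideanSpace ℝ (Fin n)).prod 𝓘(ℝ, EuclideanSpace ℝ (Fin n) →L[ℝ]
        EuclideanSpace ℝ (Fin n) →L[ℝ] ℝ)) ∞
      (fun b ↦ TotalSpace.mk' (EuclideanSpace ℝ (Fin n) →L[ℝ]
        EuclideanSpace ℝ (Fin n) →L[ℝ] ℝ) b (g b))) (c : ℝ) :
    SmB n X (fun x => (c • g x : TangentSpace 𝓘(ℝ, EuclideanSpace ℝ (Fin n)) x →L[ℝ]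
        TangentSpace 𝓘(ℝ, EuclideanSpace ℝ (Fin n)) x →L[ℝ] ℝ)) := by
  have := ContMDiff.const_smul_section (s := g) (a := c) h
  exact this

end P

variable {M : Type u} {n : ℕ} (r : {r : ℝ // 0 < r}) [MetricSpace M]
  [ChartedSpace (EuclideanSpace ℝ (Fin n)) M]
  [IsManifold 𝓘(ℝ, EuclideanSpace ℝ (Fin n)) ∞ M]

theorem SmB_sc {B : M → EuclideanSpace ℝ (Fin n) →L[ℝ] EuclideanSpace ℝ (Fin n) →L[ℝ] ℝ}
    (h : SmB n M B) : SmB n (Sc r M) B := h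

variable [RiemannianBundle (fun x : M => TangentSpace 𝓘(ℝ, EuclideanSpace ℝ (Fin n)) x)]

instance instCMDSc [h : IsContMDiffRiemannianBundle 𝓘(ℝ, EuclideanSpace ℝ (Fin n)) ∞
      (EuclideanSpace ℝ (Fin n)) (fun x : M => TangentSpace 𝓘(ℝ, EuclideanSpace ℝ (Fin n)) x)] :
    IsContMDiffRiemannianBundle 𝓘(ℝ, EuclideanSpace ℝ (Fin n)) ∞
      (EuclideanSpace ℝ (Fin n))
      (fun x : Sc r M => TangentSpace 𝓘(ℝ, EuclideanSpace ℝ (Fin n)) x) := by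
  obtain ⟨g, hg, hg2⟩ := h.exists_contMDiff
  have h1 := SmB_sc r (SmB_smul g hg ((r.1 ^ 2)⁻¹))
  refine ⟨_, h1, ?_⟩
  intro x v w
  rw [inner_sc]
  exact congrArg (fun t => (r.1 ^ 2)⁻¹ * t) (hg2 x v w)

end Crest.Agent.R247.Scal386
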