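import Crest.Agent.R247.Scal2_386

/-!
# R247: rescaling of a Riemannian manifold (3): the Riemannian distance
-/

set_option autoImplicit false
noncomputable section
open Set Filter Topology Bundle MeasureTheory Manifold
open scoped ContDiff ENNReal NNReal

namespace Crest.Agent.R247.Scal386

universe u

section RD

/-- Riemannian distance for an arbitrary family of extended norms (raw form; used only to
transport along the identity `M → Sc r M`) -/
def RD (n : ℕ) (X : Type u) [TopologicalSpace X] [ChartedSpace (EuclideanSpace ℝ (Fin n)) X]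
    (N : X → EuclideanSpace ℝ (Fin n) → ℝ≥0∞) (x y : X) : ℝ≥0∞ :=
  letI : ∀ x : X, ENorm (TangentSpace 𝓘(ℝ, EuclideanSpace ℝ (Fin n)) x) := fun x => ⟨N x⟩
  riemannianEDist 𝓘(ℝ, EuclideanSpace ℝ (Fin n)) x y

variable {n : ℕ} {X : Type u} [TopologicalSpace X] [ChartedSpace (EuclideanSpace ℝ (Fin n)) X]

theorem RD_mul (N : X → EuclideanSpace ℝ (Fin n) → ℝ≥0∞) (x y : X) {c : ℝ≥0∞} (h0 : c ≠ 0)
    (h1 : c ≠ ⊤) : RD n X (fun x v => c * N x v) x y = c * RD n X N x y := by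
  unfold RD
  simp only [riemannianEDist]
  rw [ENNReal.mul_iInf_of_ne h0 h1]
  refine iInf_congr fun γ => ?_
  rw [ENNReal.mul_iInf_of_ne h0 h1]
  refine iInf_congr fun h => ?_
  exact lintegral_const_mul' c _ h1

end RD

variable {M : Type u} {n : ℕ} (r : {r : ℝ // 0 < r}) [MetricSpace M]
  [ChartedSpace (EuclideanSpace ℝ (Fin n)) M]

theorem RD_sc (N : M → EuclideanSpace ℝ (Fin n) → ℝ≥0∞) (x y : M) :
    RD n (Sc r M) N x y = RD n M N x y := rfl

variable [RiemannianBundle (fun x : M => TangentSpace 𝓘(ℝ, EuclideanSpace ℝ (Fin n)) x)]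

theorem enorm_sc (x : Sc r M) (v : TangentSpace 𝓘(ℝ, EuclideanSpace ℝ (Fin n)) x) :
    ‖v‖ₑ = ENNReal.ofReal r.1⁻¹ *
      @enorm (TangentSpace 𝓘(ℝ, EuclideanSpace ℝ (Fin n)) (ofSc r x)) _ v := by
  have hr := r.2
  rw [← ofReal_norm, norm_sc, ENNReal.ofReal_mul (by positivity)]
  congr 1
  exact ofReal_norm _

theorem riemannianEDist_sc (x y : Sc r M) :
    riemannianEDist 𝓘(ℝ, EuclideanSpace ℝ (Fin n)) x y = ENNReal.ofReal r.1⁻¹ *
      riemannianEDist 𝓘(ℝ, EuclideanSpace ℝ (Fin n)) (ofSc r x) (ofSc r y) := by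
  have hr := r.2
  have h1 : riemannianEDist 𝓘(ℝ, EuclideanSpace ℝ (Fin n)) x y
      = RD n (Sc r M) (fun x v => @enorm (TangentSpace 𝓘(ℝ, EuclideanSpace ℝ (Fin n)) x) _ v)
        x y := rfl
  have h2 : (fun (x : Sc r M) (v : EuclideanSpace ℝ (Fin n)) =>
      @enorm (TangentSpace 𝓘(ℝ, EuclideanSpace ℝ (Fin n)) x) _ v) = fun x v =>
      ENNReal.ofReal r.1⁻¹ *
        @enorm (TangentSpace 𝓘(ℝ, EuclideanSpace ℝ (Fin n)) (ofSc r x)) _ v := by
    funext x v
    exact enorm_sc r x v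
  rw [h1, h2]
  have h3 := RD_mul (n := n) (X := M)
    (fun (x : M) (v : EuclideanSpace ℝ (Fin n)) =>
      @enorm (TangentSpace 𝓘(ℝ, EuclideanSpace ℝ (Fin n)) x) _ v) (ofSc r x) (ofSc r y)
    (c := ENNReal.ofReal r.1⁻¹) (by simp [hr]) ENNReal.ofReal_ne_top
  exact h3

instance instRMSc [h : IsRiemannianManifold 𝓘(ℝ, EuclideanSpace ℝ (Fin n)) M] :
    IsRiemannianManifold 𝓘(ℝ, EuclideanSpace ℝ (Fin n)) (Sc r M) := by
  refine ⟨fun x y => ?_⟩
  have hr := r.2
  rw [riemannianEDist_sc, ← h.out (ofSc r x) (ofSc r y), edist_dist, edist_dist, dist_sc,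
    ENNReal.ofReal_mul (by positivity)]

end Crest.Agent.R247.Scal386
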