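import Crest.Agent.R247.Obj2_554
import Crest.Agent.R247.Mcp2_688

/-!
R247, block P6c (helper554): Sobolev-to-Lipschitz over `GradS` + `Rad`.

* `test_seg`: `|f w - f y| ≤ d(y,w) ∫₀¹ ‖∇f‖(T y t w) dt` for test functions, a.e. `w`, every `y`.
* `sob_seg`: the same for `v ∈ V`, a.e. `y`, a.e. `w`.
* `sob_lip`: `‖D v‖ ≤ A` a.e. gives a Lipschitz representative with gradient `D v`.
* `LK.locLip`: the link `RD C y φ ⟪∇f_y, ∇φ⟫` for all locally Lipschitz `φ`.
-/

set_option autoImplicit false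
set_option linter.unusedSectionVars false

open MeasureTheory Filter Topology Set
open scoped RealInnerProductSpace ENNReal NNReal

noncomputable section

namespace Crest.Agent.R247.Sli554

open Crest.Agent.R242 Crest.Agent.R247.Dir593 Crest.Agent.R247.Dir593.GradS
open Crest.Agent.R247.Smv126 Crest.Agent.R247.Mcp688 Crest.Agent.R247.Obj554

variable {X : Type*} [MetricSpace X] [ProperSpace X] [MeasurableSpace X] [BorelSpace X]
  {F : Type*} [NormedAddCommGroup F] [InnerProductSpace ℝ F] {μ : Measure X}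
  [IsFiniteMeasureOnCompacts μ] {S : GradS X F μ} [CompleteSpace F] {n : ℕ} {κ : ℝ}
  {C : Rad n κ X μ}

/-- test functions along the segments from an arbitrary point `y` -/
theorem test_seg [SFinite μ] (hL : LK S C) (W : WLap S n κ) {f : X → ℝ} (hf : IsT f)
    {g : X → ℝ≥0∞} (hgf : ∀ᵐ z ∂μ, ‖S.G f z‖ₑ ≤ g z) (y : X) :
    ∀ᵐ w ∂μ, ENNReal.ofReal |f w - f y| ≤
      ENNReal.ofReal (dist y w) * ∫⁻ t in Icc (0:ℝ) 1, g (C.T y t w) := by
  obtain ⟨K, hK0, hK⟩ := isT_lip hf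
  have ftc := C.ray_ftc y (hL y hf) (fun R => ⟨K, fun a b _ _ => hK a b⟩)
  have hb : ∀ᵐ z ∂μ, |(⟪S.G (Smv126.hf y) z, S.G f z⟫ : ℝ)| ≤ dist y z * ‖S.G f z‖ ∧
      ‖S.G f z‖ₑ ≤ g z := by
    filter_upwards [W.normSq_G_hf y, hgf] with z h1 h2
    refine ⟨?_, h2⟩
    have h3 : ‖S.G (Smv126.hf y) z‖ = dist y z := by
      have := (sq_eq_sq₀ (norm_nonneg _) dist_nonneg).1 h1
      exact this
    calc |(⟪S.G (Smv126.hf y) z, S.G f z⟫ : ℝ)| ≤ ‖S.G (Smv126.hf y) z‖ * ‖S.G f z‖ :=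
          abs_real_inner_le_norm _ _
      _ = _ := by rw [h3]
  filter_upwards [ftc, C.ae_ray y hb, C.ae_U y] with w h1 h2 hU
  have key : ∀ a : ℝ, 0 < a → a ≤ 1 → ENNReal.ofReal |f w - f (C.T y a w)| ≤
      ENNReal.ofReal (dist y w) * ∫⁻ t in Icc (0:ℝ) 1, g (C.T y t w) := by
    intro a ha ha1
    obtain ⟨hi, he⟩ := h1 a 1 ha ha1 le_rfl
    rw [C.T_one y w hU] at he
    rw [← he, intervalIntegral.integral_of_le ha1]
    have h3 : ENNReal.ofReal |∫ t in Ioc a 1,
        (⟪S.G (Smv126.hf y) (C.T y t w), S.G f (C.T y t w)⟫ : ℝ) / t| ≤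
        ∫⁻ t in Ioc a 1, ‖(⟪S.G (Smv126.hf y) (C.T y t w), S.G f (C.T y t w)⟫ : ℝ) / t‖ₑ := by
      rw [← Real.norm_eq_abs, ofReal_norm]
      exact enorm_integral_le_lintegral_enorm _
    refine h3.trans ?_
    rw [← lintegral_const_mul' _ _ ENNReal.ofReal_ne_top]
    have h4 : ∫⁻ t in Ioc a 1, ‖(⟪S.G (Smv126.hf y) (C.T y t w), S.G f (C.T y t w)⟫ : ℝ) / t‖ₑ ≤
        ∫⁻ t in Ioc a 1, ENNReal.ofReal (dist y w) * g (C.T y t w) := by
      refine lintegral_mono_ae ?_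
      have h5 : Ioc a 1 ⊆ Ioc (0:ℝ) 1 := Ioc_subset_Ioc_left ha.le
      filter_upwards [ae_restrict_of_ae_restrict_of_subset h5 h2,
        ae_restrict_mem measurableSet_Ioc] with t ht htm
      have ht0 : 0 < t := ha.trans htm.1
      have hd := C.dist_left hU (t := t) ⟨ht0.le, htm.2⟩
      have h6 : |(⟪S.G (Smv126.hf y) (C.T y t w), S.G f (C.T y t w)⟫ : ℝ) / t| ≤
          dist y w * ‖S.G f (C.T y t w)‖ := by
        rw [abs_div, abs_of_pos ht0, div_le_iff₀ ht0]
        refine ht.1.trans (le_of_eq ?_)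
        rw [hd]; ring
      calc ‖(⟪S.G (Smv126.hf y) (C.T y t w), S.G f (C.T y t w)⟫ : ℝ) / t‖ₑ =
            ENNReal.ofReal |(⟪S.G (Smv126.hf y) (C.T y t w), S.G f (C.T y t w)⟫ : ℝ) / t| := by
            rw [← Real.norm_eq_abs, ofReal_norm]
        _ ≤ ENNReal.ofReal (dist y w * ‖S.G f (C.T y t w)‖) := ENNReal.ofReal_le_ofReal h6
        _ = ENNReal.ofReal (dist y w) * ‖S.G f (C.T y t w)‖ₑ := by
            rw [ENNReal.ofReal_mul dist_nonneg, ofReal_norm]
        _ ≤ _ := by gcongr; exact ht.2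
    refine h4.trans ?_
    refine lintegral_mono_set ?_
    exact Ioc_subset_Icc_self.trans (Icc_subset_Icc_left ha.le)
  -- let `a → 0`
  set a : ℕ → ℝ := fun k => 1 / ((k:ℝ) + 1) with ha
  have ha0 : ∀ k, 0 < a k := fun k => by simp only [ha]; positivity
  have ha1 : ∀ k, a k ≤ 1 := fun k => by
    simp only [ha]
    rw [div_le_one (by positivity)]
    have : (0:ℝ) ≤ k := Nat.cast_nonneg k
    linarith
  have hlim : Tendsto a atTop (𝓝 0) := tendsto_one_div_add_atTop_nhds_zero_nat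
  have hT : Tendsto (fun k => C.T y (a k) w) atTop (𝓝 y) := by
    rw [tendsto_iff_dist_tendsto_zero]
    have e : ∀ k, dist (C.T y (a k) w) y = a k * dist y w := fun k => by
      rw [dist_comm]
      exact C.dist_left hU ⟨(ha0 k).le, ha1 k⟩
    simp_rw [e]
    simpa using hlim.mul_const (dist y w)
  have hc : Tendsto (fun k => ENNReal.ofReal |f w - f (C.T y (a k) w)|) atTop
      (𝓝 (ENNReal.ofReal |f w - f y|)) := by
    refine ENNReal.tendsto_ofReal ?_
    exact (tendsto_const_nhds.sub ((hf.1.continuous.tendsto y).comp hT)).abs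
  exact le_of_tendsto' hc fun k => key (a k) (ha0 k) (ha1 k)

omit [ProperSpace X] [IsFiniteMeasureOnCompacts μ] [BorelSpace X] in
/-- `L²` convergence gives `L¹` convergence on sets of finite measure -/
theorem l1_of_L2 {G' : ℕ → Lp F 2 μ} {G0 : Lp F 2 μ} (h : Tendsto G' atTop (𝓝 G0)) {B : Set X}
    (hfin : μ B ≠ ∞) : Tendsto (fun k => ∫⁻ z in B, ‖G' k z - G0 z‖ₑ ∂μ) atTop (𝓝 0) := by
  have h1 := (Lp.tendsto_Lp_iff_tendsto_eLpNorm' G' G0).1 h
  have h2 : ∀ k, ∫⁻ z in B, ‖G' k z - G0 z‖ₑ ∂μ ≤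
      eLpNorm (⇑(G' k) - ⇑G0) 2 μ * (μ B) ^ (1 / (1:ℝ≥0∞).toReal - 1 / (2:ℝ≥0∞).toReal) := by
    intro k
    have hm : AEStronglyMeasurable (⇑(G' k) - ⇑G0) (μ.restrict B) :=
      ((Lp.aestronglyMeasurable _).sub (Lp.aestronglyMeasurable _)).restrict
    have h3 := eLpNorm_le_eLpNorm_mul_rpow_measure_univ (μ := μ.restrict B)
      (p := 1) (q := 2) (by norm_num) hm
    rw [eLpNorm_one_eq_lintegral_enorm, Measure.restrict_apply_univ] at h3
    refine h3.trans ?_
    gcongr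
    exact Measure.restrict_le_self
  have hne : (μ B) ^ (1 / (1:ℝ≥0∞).toReal - 1 / (2:ℝ≥0∞).toReal) ≠ ∞ := by
    refine ENNReal.rpow_ne_top_of_nonneg ?_ hfin
    norm_num
  have h4 : Tendsto (fun k => eLpNorm (⇑(G' k) - ⇑G0) 2 μ *
      (μ B) ^ (1 / (1:ℝ≥0∞).toReal - 1 / (2:ℝ≥0∞).toReal)) atTop (𝓝 0) := by
    have := ENNReal.Tendsto.mul_const h1 (b := (μ B) ^ (1 / (1:ℝ≥0∞).toReal -
      1 / (2:ℝ≥0∞).toReal)) (Or.inr hne)
    rwa [zero_mul] at this
  exact tendsto_of_tendsto_of_tendsto_of_le_of_le tendsto_const_nhds h4 (fun _ => zero_le) h2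

/-- functions of `V` along almost every segment -/
theorem sob_seg [SFinite μ] (hκ : 0 ≤ κ) (hL : LK S C) (W : WLap S n κ) {v : Lp ℝ 2 μ}
    (hv : v ∈ S.V) {g : X → ℝ≥0∞} (hg : Measurable g) (hvg : ∀ᵐ z ∂μ, ‖S.D v z‖ₑ ≤ g z) :
    ∀ᵐ y ∂μ, ∀ᵐ w ∂μ, ENNReal.ofReal |v w - v y| ≤
      ENNReal.ofReal (dist y w) * ∫⁻ t in Icc (0:ℝ) 1, g (C.T y t w) := by
  rcases isEmpty_or_nonempty X with hX | ⟨⟨o⟩⟩
  · exact Eventually.of_forall fun z => (hX.false z).elim
  obtain ⟨f, hf, t1, t2, t3, t4⟩ := S.exists_seq_ae hv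
  -- measurable error functions
  have he : ∀ k, AEMeasurable (fun z => ‖S.G (f k) z - S.D v z‖ₑ) μ := fun k =>
    ((S.meas (hf k).1).sub (Lp.aestronglyMeasurable _)).enorm
  set E : ℕ → X → ℝ≥0∞ := fun k => (he k).mk _ with hE
  have hEm : ∀ k, Measurable (E k) := fun k => (he k).measurable_mk
  have hEe : ∀ k, ∀ᵐ z ∂μ, ‖S.G (f k) z - S.D v z‖ₑ = E k z := fun k => (he k).ae_eq_mk
  have hbd : ∀ k, ∀ᵐ z ∂μ, ‖S.G (f k) z‖ₑ ≤ g z + E k z := fun k => by
    filter_upwards [hEe k, hvg] with z h1 h2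
    calc ‖S.G (f k) z‖ₑ = ‖S.D v z + (S.G (f k) z - S.D v z)‖ₑ := by congr 1; abel
      _ ≤ ‖S.D v z‖ₑ + ‖S.G (f k) z - S.D v z‖ₑ := enorm_add_le _ _
      _ ≤ g z + E k z := by rw [h1]; gcongr
  have hseg : ∀ y, ∀ᵐ w ∂μ, ∀ k, ENNReal.ofReal |f k w - f k y| ≤
      ENNReal.ofReal (dist y w) * ∫⁻ t in Icc (0:ℝ) 1, (g (C.T y t w) + E k (C.T y t w)) :=
    fun y => ae_all_iff.2 fun k => test_seg hL W (hf k) (g := fun z => g z + E k z) (hbd k) y
  -- the integrals of the errors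
  set I : ℕ → X → X → ℝ≥0∞ := fun k y w => ∫⁻ t in Icc (0:ℝ) 1, E k (C.T y t w) with hI
  have hIm : ∀ k, Measurable (Function.uncurry (I k)) := fun k => by
    have h1 : Measurable (fun q : (X × X) × ℝ => E k (C.T q.1.1 q.2 q.1.2)) := by
      have h2 : Measurable (fun q : (X × X) × ℝ => ((q.1.1, q.2, q.1.2) : X × ℝ × X)) := by
        fun_prop
      exact (hEm k).comp (C.measT.comp h2)
    exact h1.lintegral_prod_right'
  have hIm1 : ∀ k y, Measurable (I k y) := fun k y =>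
    (hIm k).comp (measurable_const.prodMk measurable_id)
  have hzero : ∀ m : ℕ, ∀ᵐ y ∂μ, y ∈ Metric.closedBall o m → ∀ᵐ w ∂μ,
      w ∈ Metric.closedBall o m → liminf (fun k => I k y w) atTop = 0 := by
    intro m
    set B := Metric.closedBall o (m:ℝ) with hB
    set W' := Metric.closedBall o (3 * (m:ℝ)) with hW'
    have hBm : MeasurableSet B := Metric.isClosed_closedBall.measurableSet
    have hW'm : MeasurableSet W' := Metric.isClosed_closedBall.measurableSet
    have hfin : μ W' ≠ ∞ := (isCompact_closedBall o _).measure_lt_top.ne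
    have hfinB : μ B ≠ ∞ := (isCompact_closedBall o _).measure_lt_top.ne
    have hsub : ∀ y ∈ B, ∀ w ∈ B, (y, w) ∈ C.U → ∀ t ∈ Icc (0:ℝ) 1, C.T y t w ∈ W' := by
      intro y hy w hw hU t ht
      rw [hB, Metric.mem_closedBall] at hy hw
      rw [hW', Metric.mem_closedBall]
      have h1 := C.dist_left hU ht
      have h2 : dist y w ≤ 2 * m := by
        have := dist_triangle_right y w o
        linarith
      have h3 : dist (C.T y t w) y ≤ 2 * m := by
        rw [dist_comm, h1]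
        calc t * dist y w ≤ 1 * dist y w := mul_le_mul_of_nonneg_right ht.2 dist_nonneg
          _ ≤ 2 * m := by rw [one_mul]; exact h2
      have := dist_triangle (C.T y t w) y o
      linarith
    have hle : ∀ k, ∫⁻ y in B, ∫⁻ w in B, I k y w ∂μ ∂μ ≤
        ENNReal.ofReal (Real.exp (κ * (2 * m) ^ 2 / 2) * 2 ^ n) * (μ B + μ B) *
          ∫⁻ z in W', E k z ∂μ := fun k =>
      C.segment_le hκ hBm hBm hW'm (fun y hy w hw => by
        rw [hB, Metric.mem_closedBall] at hy hw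
        have := dist_triangle_right y w o
        linarith) hsub (hEm k)
    have hEl : Tendsto (fun k => ∫⁻ z in W', E k z ∂μ) atTop (𝓝 0) := by
      refine (l1_of_L2 t2 hfin).congr fun k => ?_
      refine lintegral_congr_ae (ae_restrict_of_ae ?_)
      filter_upwards [hEe k, S.D_tL (hf k)] with z h1 h2
      rw [h2, h1]
    have hlim : Tendsto (fun k => ∫⁻ y in B, ∫⁻ w in B, I k y w ∂μ ∂μ) atTop (𝓝 0) := by
      refine tendsto_of_tendsto_of_tendsto_of_le_of_le tendsto_const_nhds ?_ (fun _ => zero_le) hle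
      have hne : ENNReal.ofReal (Real.exp (κ * (2 * m) ^ 2 / 2) * 2 ^ n) * (μ B + μ B) ≠ ∞ :=
        ENNReal.mul_ne_top ENNReal.ofReal_ne_top (ENNReal.add_ne_top.2 ⟨hfinB, hfinB⟩)
      have := ENNReal.Tendsto.const_mul hEl
        (a := ENNReal.ofReal (Real.exp (κ * (2 * m) ^ 2 / 2) * 2 ^ n) * (μ B + μ B)) (Or.inr hne)
      rwa [mul_zero] at this
    have hout : ∀ k, Measurable fun y => ∫⁻ w in B, I k y w ∂μ := fun k =>
      (hIm k).lintegral_prod_right'
    have h1 : ∫⁻ y in B, ∫⁻ w in B, liminf (fun k => I k y w) atTop ∂μ ∂μ = 0 := by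
      refine le_antisymm ?_ zero_le
      calc ∫⁻ y in B, ∫⁻ w in B, liminf (fun k => I k y w) atTop ∂μ ∂μ
          ≤ ∫⁻ y in B, liminf (fun k => ∫⁻ w in B, I k y w ∂μ) atTop ∂μ :=
            lintegral_mono fun y => lintegral_liminf_le fun k => hIm1 k y
        _ ≤ liminf (fun k => ∫⁻ y in B, ∫⁻ w in B, I k y w ∂μ ∂μ) atTop :=
            lintegral_liminf_le hout
        _ = 0 := hlim.liminf_eq
    have hm1 : Measurable (Function.uncurry fun y w => liminf (fun k => I k y w) atTop) :=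
      Measurable.liminf fun k => hIm k
    have hm2 : Measurable fun y => ∫⁻ w in B, liminf (fun k => I k y w) atTop ∂μ :=
      hm1.lintegral_prod_right'
    rw [lintegral_eq_zero_iff hm2] at h1
    rw [Filter.EventuallyEq, ae_restrict_iff' hBm] at h1
    filter_upwards [h1] with y hy hyB
    have h2 := hy hyB
    simp only [Pi.zero_apply] at h2
    rw [lintegral_eq_zero_iff (Measurable.liminf fun k => hIm1 k y), Filter.EventuallyEq,
      ae_restrict_iff' hBm] at h2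
    exact h2
  filter_upwards [ae_all_iff.2 hzero, t3] with y h1 h2
  have h3 : ∀ᵐ w ∂μ, ∀ m : ℕ, y ∈ Metric.closedBall o m → w ∈ Metric.closedBall o m →
      liminf (fun k => I k y w) atTop = 0 := by
    refine ae_all_iff.2 fun m => ?_
    by_cases hy : y ∈ Metric.closedBall o m
    · filter_upwards [h1 m hy] with w hw _ hwm
      exact hw hwm
    · exact Eventually.of_forall fun w hy' => absurd hy' hy
  filter_upwards [h3, t3, hseg y] with w h4 h5 h6
  obtain ⟨m, hm⟩ := exists_nat_ge (max (dist y o) (dist w o))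
  have h7 := h4 m (Metric.mem_closedBall.2 ((le_max_left _ _).trans hm))
    (Metric.mem_closedBall.2 ((le_max_right _ _).trans hm))
  set Ig := ∫⁻ t in Icc (0:ℝ) 1, g (C.T y t w) with hIg
  have hsum : ∀ k, ∫⁻ t in Icc (0:ℝ) 1, (g (C.T y t w) + E k (C.T y t w)) = Ig + I k y w := by
    intro k
    rw [lintegral_add_left]
    exact hg.comp (C.measT.comp (by fun_prop : Measurable fun t : ℝ => ((y, t, w) : X × ℝ × X)))
  have hL' : Tendsto (fun k => ENNReal.ofReal |f k w - f k y|) atTop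
      (𝓝 (ENNReal.ofReal |v w - v y|)) := ENNReal.tendsto_ofReal (h5.sub h2).abs
  have step : ∀ ε : ℝ≥0∞, 0 < ε → ENNReal.ofReal |v w - v y| ≤
      ENNReal.ofReal (dist y w) * (Ig + ε) := by
    intro ε hε
    have hfr : ∃ᶠ k in atTop, I k y w < ε := by
      refine Filter.frequently_lt_of_liminf_lt ?_ (by rw [h7]; exact hε)
      exact isCobounded_ge_of_top
    refine le_of_tendsto_of_frequently hL' (hfr.mono fun k hk => ?_)
    refine (h6 k).trans ?_
    rw [hsum k]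
    gcongr
  have hlast : Tendsto (fun j : ℕ => ENNReal.ofReal (dist y w) * (Ig + ((j:ℝ≥0∞) + 1)⁻¹)) atTop
      (𝓝 (ENNReal.ofReal (dist y w) * (Ig + 0))) := by
    refine ENNReal.Tendsto.const_mul (tendsto_const_nhds.add ?_) (Or.inr ENNReal.ofReal_ne_top)
    have h8 := ENNReal.tendsto_inv_nat_nhds_zero.comp (tendsto_add_atTop_nat 1)
    refine h8.congr fun j => ?_
    simp
  rw [add_zero] at hlast
  refine ge_of_tendsto' hlast fun j => step _ ?_
  exact ENNReal.inv_pos.2 (by finiteness)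

/-- an a.e. Lipschitz bound for almost every pair gives a Lipschitz representative -/
theorem lip_rep {A : ℝ≥0} (hpos : ∀ (x : X) (r : ℝ), 0 < r → μ (Metric.ball x r) ≠ 0)
    {v : X → ℝ} (h : ∀ᵐ y ∂μ, ∀ᵐ w ∂μ, |v w - v y| ≤ A * dist y w) :
    ∃ f : X → ℝ, LipschitzWith A f ∧ ∀ᵐ z ∂μ, v z = f z := by
  set E : Set X := {y | ∀ᵐ w ∂μ, |v w - v y| ≤ A * dist y w} with hE
  have hlip : LipschitzOnWith A v E := by
    refine LipschitzOnWith.of_dist_le_mul fun y hy y' hy' => ?_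
    rw [Real.dist_eq]
    refine le_of_forall_pos_le_add fun ε hε => ?_
    set δ : ℝ := ε / (2 * A + 1) with hδ
    have hδ0 : 0 < δ := by positivity
    have hex : ∃ w ∈ Metric.ball y δ, |v w - v y| ≤ A * dist y w ∧ |v w - v y'| ≤ A * dist y' w := by
      by_contra hcon
      push Not at hcon
      have h1 : ∀ᵐ w ∂μ, w ∉ Metric.ball y δ := by
        have hy1 : ∀ᵐ w ∂μ, |v w - v y| ≤ A * dist y w := hy
        have hy2 : ∀ᵐ w ∂μ, |v w - v y'| ≤ A * dist y' w := hy'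
        filter_upwards [hy1, hy2] with w h1 h2 hw
        exact absurd h2 (not_le.2 (hcon w hw h1))
      rw [ae_iff] at h1
      simp only [not_not, ofPred_mem_eq] at h1
      exact hpos y δ hδ0 h1
    obtain ⟨w, hw, h1, h2⟩ := hex
    rw [Metric.mem_ball, dist_comm] at hw
    have h3 : |v y - v y'| ≤ |v w - v y| + |v w - v y'| := by
      have : v y - v y' = -(v w - v y) + (v w - v y') := by ring
      rw [this]
      refine (abs_add_le _ _).trans ?_
      rw [abs_neg]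
    have h4 : dist y' w ≤ dist y y' + dist y w := by
      have := dist_triangle_left y' w y
      linarith
    have hA : (0:ℝ) ≤ A := A.2
    have h5 : (A:ℝ) * dist y' w ≤ A * (dist y y' + dist y w) := mul_le_mul_of_nonneg_left h4 hA
    have h6 : (2 * (A:ℝ)) * dist y w ≤ 2 * A * δ := by gcongr
    have h7 : 2 * (A:ℝ) * δ ≤ ε := by
      rw [hδ, mul_div_assoc', div_le_iff₀ (by positivity)]
      nlinarith
    nlinarith
  obtain ⟨f, hf, hfe⟩ := hlip.extend_real
  refine ⟨f, hf, ?_⟩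
  filter_upwards [h] with z hz
  exact hfe hz

/-- cut-off of a locally Lipschitz function -/
lemma exists_cut [Nonempty X] (m : ℕ) (o : X) : ∃ χ : X → ℝ, IsT χ ∧
    ∀ z ∈ Metric.ball o m, χ z = 1 := by
  refine ⟨fun z => max 0 (min 1 ((m:ℝ) + 1 - dist o z)), ⟨?_, ?_⟩, fun z hz => ?_⟩
  · have h2 : LipschitzWith 1 fun z : X => (m:ℝ) + 1 - dist o z := by
      refine LipschitzWith.of_dist_le_mul fun y z => ?_
      rw [Real.dist_eq, NNReal.coe_one, one_mul]
      have : (m:ℝ) + 1 - dist o y - (m + 1 - dist o z) = -(dist o y - dist o z) := by ring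
      rw [this, abs_neg, dist_comm o y, dist_comm o z]
      exact abs_dist_sub_le y z o
    exact ((h2.const_min 1).const_max 0).locallyLipschitz
  · refine HasCompactSupport.intro (isCompact_closedBall o (m + 1)) fun z hz => ?_
    rw [Metric.mem_closedBall, not_le, dist_comm] at hz
    show max 0 (min 1 ((m:ℝ) + 1 - dist o z)) = 0
    rw [max_eq_left]
    exact (min_le_right _ _).trans (by linarith)
  · rw [Metric.mem_ball, dist_comm] at hz
    show max 0 (min 1 ((m:ℝ) + 1 - dist o z)) = 1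
    rw [min_eq_left (by linarith), max_eq_right zero_le_one]

/-- the gradient of an element of `V` is the gradient of its locally Lipschitz representative -/
theorem D_eq_G {v : Lp ℝ 2 μ} (hv : v ∈ S.V) {f : X → ℝ} (hf : LocallyLipschitz f)
    (hvf : ∀ᵐ z ∂μ, v z = f z) : ∀ᵐ z ∂μ, S.D v z = S.G f z := by
  rcases isEmpty_or_nonempty X with hX | hX
  · exact Eventually.of_forall fun z => (hX.false z).elim
  obtain ⟨o⟩ := hX
  have : Nonempty X := ⟨o⟩
  have key : ∀ m : ℕ, ∀ᵐ z ∂μ, z ∈ Metric.ball o (m:ℝ) → S.D v z = S.G f z := by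
    intro m
    obtain ⟨χ, hχ, hχ1⟩ := exists_cut (X := X) m o
    have hT : IsT fun z => χ z * f z := hχ.mul hf
    have hw : ((tL hT : Lp ℝ 2 μ) : X → ℝ) =ᵐ[μ] fun x => χ x * v x := by
      filter_upwards [coe_tL (μ := μ) hT, hvf] with z a1 a2
      rw [a1, a2]
    obtain ⟨-, hD⟩ := S.D_mul_test hv hχ hw
    filter_upwards [hD, S.D_tL hT, S.mul hχ.1 hf, hvf] with z a1 a2 a3 a4 hz
    rw [a2, a3, hχ1 z hz, a4, one_smul, one_smul] at a1
    exact (add_right_cancel a1).symm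
  filter_upwards [ae_all_iff.2 key] with z hz
  obtain ⟨m, hm⟩ := exists_nat_gt (dist z o)
  exact hz m (Metric.mem_ball.2 hm)

/-- **Sobolev-to-Lipschitz** -/
theorem sob_lip [SFinite μ] (hκ : 0 ≤ κ) (hL : LK S C) (W : WLap S n κ)
    (hpos : ∀ (x : X) (r : ℝ), 0 < r → μ (Metric.ball x r) ≠ 0) {v : Lp ℝ 2 μ} (hv : v ∈ S.V)
    {A : ℝ≥0} (hA : ∀ᵐ z ∂μ, ‖S.D v z‖ ≤ A) :
    ∃ f : X → ℝ, LipschitzWith A f ∧ (∀ᵐ z ∂μ, v z = f z) ∧ ∀ᵐ z ∂μ, S.D v z = S.G f z := by
  have h1 := sob_seg hκ hL W hv (g := fun _ => (A : ℝ≥0∞)) measurable_const (by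
    filter_upwards [hA] with z hz
    rw [← ofReal_norm, ← ENNReal.ofReal_coe_nnreal]
    exact ENNReal.ofReal_le_ofReal hz)
  have h2 : ∀ᵐ y ∂μ, ∀ᵐ w ∂μ, |v w - v y| ≤ A * dist y w := by
    filter_upwards [h1] with y hy
    filter_upwards [hy] with w hw
    rw [setLIntegral_const, Real.volume_Icc, sub_zero, ENNReal.ofReal_one, mul_one,
      ← ENNReal.ofReal_coe_nnreal, ← ENNReal.ofReal_mul dist_nonneg,
      ENNReal.ofReal_le_ofReal_iff (by positivity)] at hw
    linarith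
  obtain ⟨f, hf, hfe⟩ := lip_rep hpos h2
  exact ⟨f, hf, hfe, D_eq_G hv hf.locallyLipschitz hfe⟩

/-- the link for locally Lipschitz functions -/
theorem LK.locLip (hL : LK S C) (y : X) {φ : X → ℝ} (hφ : LocallyLipschitz φ) :
    RD C y φ (fun z => ⟪S.G (Smv126.hf y) z, S.G φ z⟫) := by
  have key : ∀ m : ℕ, ∀ᵐ z ∂μ, z ∈ Metric.ball y (m:ℝ) →
      HasDerivWithinAt (fun t : ℝ => φ (C.T y t z)) ⟪S.G (Smv126.hf y) z, S.G φ z⟫ (Iio 1) 1 := by
    intro m
    have : Nonempty X := ⟨y⟩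
    obtain ⟨χ, hχ, hχ1⟩ := exists_cut (X := X) m y
    have hT : IsT fun z => χ z * φ z := hχ.mul hφ
    have hloc := S.loc hT.1 hφ (Metric.isOpen_ball (x := y) (ε := (m:ℝ)))
      (fun z hz => by show χ z * φ z = φ z; rw [hχ1 z hz, one_mul])
    filter_upwards [hL y hT, hloc, C.ae_U y] with z a1 a2 hU hz
    rw [a2 hz] at a1
    have hev : ∀ᶠ t in 𝓝[Iio 1] (1:ℝ), φ (C.T y t z) = χ (C.T y t z) * φ (C.T y t z) := by
      filter_upwards [Ioo_mem_nhdsLT (show (0:ℝ) < 1 by norm_num)] with t ht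
      have h1 := C.dist_left hU (t := t) ⟨ht.1.le, ht.2.le⟩
      have h2 : C.T y t z ∈ Metric.ball y (m:ℝ) := by
        rw [Metric.mem_ball, dist_comm] at hz ⊢
        rw [h1]
        calc t * dist y z ≤ 1 * dist y z := mul_le_mul_of_nonneg_right ht.2.le dist_nonneg
          _ < m := by rw [one_mul]; exact hz
      rw [hχ1 _ h2, one_mul]
    refine a1.congr_of_eventuallyEq hev ?_
    rw [C.T_one y z hU, hχ1 z hz, one_mul]
  show ∀ᵐ z ∂μ, _
  filter_upwards [ae_all_iff.2 key] with z hz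
  obtain ⟨m, hm⟩ := exists_nat_gt (dist z y)
  exact hz m (Metric.mem_ball.2 hm)

end Crest.Agent.R247.Sli554
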