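import Crest.Agent.R226.Index_77

/-!
R247 (helper879), block (6b), file 1: Euclidean calculus.
* `ND f p` : the mixed Hessian of `f : E × E → ℝ` at `p` is nondegenerate
* `argmin_smooth` : smoothness of a nondegenerate minimiser and second derivative of the value
* `value_step2` : `Index77.value_step` together with nondegeneracy of the mixed Hessian
-/

set_option autoImplicit false

open Set Filter Topology
open scoped ContDiff
open Crest.Agent.R226.EucMin77 Crest.Agent.R226.Index77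

namespace Crest.Agent.R247.Sm879

section
variable {E : Type*} [NormedAddCommGroup E] [NormedSpace ℝ E]
variable {E₁ : Type*} [NormedAddCommGroup E₁] [NormedSpace ℝ E₁]
variable {E₂ : Type*} [NormedAddCommGroup E₂] [NormedSpace ℝ E₂]

/-- the mixed Hessian is nondegenerate -/
def ND (f : E × E → ℝ) (p : E × E) : Prop :=
  ∀ h : E, (∀ k : E, fderiv ℝ (fderiv ℝ f) p (0, k) (h, 0) = 0) → h = 0

theorem sep_swap [FiniteDimensional ℝ E] (B : E →ₗ[ℝ] E →ₗ[ℝ] ℝ)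
    (H : ∀ h, (∀ k, B h k = 0) → h = 0) {k : E} (hk : ∀ h, B h k = 0) : k = 0 := by
  have hinj : Function.Injective B := by
    rw [injective_iff_map_eq_zero]
    intro h hh
    apply H
    intro k
    rw [hh]; rfl
  have hfin : Module.finrank ℝ E = Module.finrank ℝ (E →ₗ[ℝ] ℝ) :=
    (Subspace.dual_finrank_eq (K := ℝ) (V := E)).symm
  have hsurj : Function.Surjective B :=
    (LinearMap.injective_iff_surjective_of_finrank_eq_finrank hfin).1 hinj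
  by_contra hne
  obtain ⟨φ, hφ⟩ := exists_dual_vector ℝ k (norm_ne_zero_iff.2 hne)
  obtain ⟨h, hh⟩ := hsurj (φ : E →ₗ[ℝ] ℝ)
  have h1 := hφ.2
  have h3 : φ k = 0 := by
    have := hk h
    rw [hh] at this
    exact this
  rw [h3] at h1
  exact (norm_ne_zero_iff.2 hne) (by exact_mod_cast h1.symm)

/-- the mixed part of a bilinear form on `E × E` -/
noncomputable def mixB (D : (E × E) →L[ℝ] (E × E) →L[ℝ] ℝ) : E →ₗ[ℝ] E →ₗ[ℝ] ℝ :=
  LinearMap.mk₂ ℝ (fun h k => D (0, k) (h, 0))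
    (fun a b k => by
      have : ((a + b, 0) : E × E) = (a, 0) + (b, 0) := by simp
      rw [this, map_add])
    (fun c a k => by
      have : ((c • a, 0) : E × E) = c • (a, 0) := by simp
      rw [this, map_smul])
    (fun a k l => by
      have : ((0, k + l) : E × E) = (0, k) + (0, l) := by simp
      rw [this, map_add]; rfl)
    (fun c a k => by
      have : ((0, c • k) : E × E) = c • (0, k) := by simp
      rw [this, map_smul]; rfl)

theorem mixB_apply (D : (E × E) →L[ℝ] (E × E) →L[ℝ] ℝ) (h k : E) :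
    mixB D h k = D (0, k) (h, 0) := rfl

theorem ND.symm [FiniteDimensional ℝ E] {f : E × E → ℝ} {p : E × E} (H : ND f p) {k : E}
    (hk : ∀ h : E, fderiv ℝ (fderiv ℝ f) p (0, k) (h, 0) = 0) : k = 0 :=
  sep_swap (mixB (fderiv ℝ (fderiv ℝ f) p)) H hk

theorem ND.of_symm [FiniteDimensional ℝ E] {f : E × E → ℝ} {p : E × E}
    (H : ∀ k : E, (∀ h : E, fderiv ℝ (fderiv ℝ f) p (0, k) (h, 0) = 0) → k = 0) : ND f p := by
  intro h hh
  exact sep_swap (mixB (fderiv ℝ (fderiv ℝ f) p)).flip H hh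

/-- smoothness of a nondegenerate minimiser, first order condition and second derivative of
the value function -/
theorem argmin_smooth [CompleteSpace E₁] [FiniteDimensional ℝ E₂]
    {g : E₁ × E₂ → ℝ} {p₀ : E₁} {z₀ : E₂} (hg : ContDiffAt ℝ ∞ g (p₀, z₀))
    (hpos : ∀ h : E₂, h ≠ 0 → 0 < fderiv ℝ (fderiv ℝ g) (p₀, z₀) (0, h) (0, h))
    {V : E₁ → ℝ} {ζ : E₁ → E₂} (hζ : Tendsto ζ (𝓝 p₀) (𝓝 z₀))
    (hV : ∀ᶠ p in 𝓝 p₀, V p = g (p, ζ p))
    (hmin : ∀ᶠ p in 𝓝 p₀, IsLocalMin (fun z => g (p, z)) (ζ p)) :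
    ContDiffAt ℝ ∞ ζ p₀ ∧ ContDiffAt ℝ ∞ V p₀ ∧
      (∀ u w : E₁, fderiv ℝ (fderiv ℝ V) p₀ u w =
        fderiv ℝ (fderiv ℝ g) (p₀, z₀) (u, fderiv ℝ ζ p₀ u) (w, 0)) ∧
      (∀ (u : E₁) (j : E₂), fderiv ℝ (fderiv ℝ g) (p₀, z₀) (u, fderiv ℝ ζ p₀ u) (0, j) = 0) := by
  have : CompleteSpace E₂ := FiniteDimensional.complete ℝ E₂
  have hζ₀ : ζ p₀ = z₀ := eq_of_tendsto_nhds hζ
  set F : E₁ × E₂ → (E₂ →L[ℝ] ℝ) := fun q => fderiv ℝ g q ∘L ContinuousLinearMap.inr ℝ E₁ E₂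
    with hF
  have hfd : ContDiffAt ℝ ∞ (fderiv ℝ g) (p₀, z₀) := hg.fderiv_right (by simp)
  have hFc : ContDiffAt ℝ ∞ F (p₀, z₀) := by
    have : ContDiffAt ℝ ∞ (fun q : E₁ × E₂ => ((ContinuousLinearMap.compL ℝ E₂ (E₁ × E₂) ℝ).flip
        (ContinuousLinearMap.inr ℝ E₁ E₂)) (fderiv ℝ g q)) (p₀, z₀) :=
      ContDiffAt.continuousLinearMap_comp _ hfd
    exact this
  have hFd : fderiv ℝ F (p₀, z₀) = ((ContinuousLinearMap.compL ℝ E₂ (E₁ × E₂) ℝ).flip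
        (ContinuousLinearMap.inr ℝ E₁ E₂)) ∘L (fderiv ℝ (fderiv ℝ g) (p₀, z₀)) := by
    have h1 : HasFDerivAt (fderiv ℝ g) (fderiv ℝ (fderiv ℝ g) (p₀, z₀)) (p₀, z₀) :=
      (hfd.differentiableAt (by simp)).hasFDerivAt
    exact ((((ContinuousLinearMap.compL ℝ E₂ (E₁ × E₂) ℝ).flip
        (ContinuousLinearMap.inr ℝ E₁ E₂)).hasFDerivAt).comp _ h1).fderiv
  have happ : ∀ h k : E₂, (fderiv ℝ F (p₀, z₀) ∘L ContinuousLinearMap.inr ℝ E₁ E₂) h k =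
      fderiv ℝ (fderiv ℝ g) (p₀, z₀) (0, h) (0, k) := by
    intro h k
    rw [hFd]
    simp
  have hinj : Function.Injective (fderiv ℝ F (p₀, z₀) ∘L ContinuousLinearMap.inr ℝ E₁ E₂) := by
    rw [injective_iff_map_eq_zero]
    intro h hh
    by_contra hne
    have h1 := hpos h hne
    rw [← happ h h, hh] at h1
    simp at h1
  have hfin : Module.finrank ℝ E₂ = Module.finrank ℝ (E₂ →L[ℝ] ℝ) := by
    rw [← (LinearMap.toContinuousLinearMap (𝕜 := ℝ) (E := E₂) (F' := ℝ)).finrank_eq]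
    exact (Subspace.dual_finrank_eq (K := ℝ) (V := E₂)).symm
  have hinv : (fderiv ℝ F (p₀, z₀) ∘L ContinuousLinearMap.inr ℝ E₁ E₂).IsInvertible := by
    set L := (fderiv ℝ F (p₀, z₀) ∘L ContinuousLinearMap.inr ℝ E₁ E₂)
    refine ⟨(LinearEquiv.ofInjectiveOfFinrankEq (L : E₂ →ₗ[ℝ] (E₂ →L[ℝ] ℝ)) hinj
      hfin).toContinuousLinearEquiv, ?_⟩
    ext x y
    rfl
  have hne : (∞ : WithTop ℕ∞) ≠ 0 := by simp
  have key := hFc.eventually_apply_eq_iff_implicitFunction hne hinv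
  have hψ := hFc.contDiffAt_implicitFunction hne hinv
  have hψ0 := hFc.implicitFunction_apply_self hne hinv
  set ψ := hFc.implicitFunction hne hinv with hψdef
  have htend : Tendsto (fun p => (p, ζ p)) (𝓝 p₀) (𝓝 (p₀, z₀)) :=
    (tendsto_id).prodMk_nhds hζ
  have hdiff : ∀ᶠ q in 𝓝 (p₀, z₀), DifferentiableAt ℝ g q := by
    have := (hg.of_le (m := 1) (by simp)).eventually (by simp)
    filter_upwards [this] with q hq using hq.differentiableAt (by simp)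
  have hFz : ∀ᶠ p in 𝓝 p₀, F (p, ζ p) = 0 := by
    filter_upwards [hmin, htend.eventually hdiff] with p hp hd
    have h1 : HasFDerivAt (fun z => g (p, z)) (fderiv ℝ g (p, ζ p) ∘L
        ContinuousLinearMap.inr ℝ E₁ E₂) (ζ p) :=
      hd.hasFDerivAt.comp (ζ p) (hasFDerivAt_prodMk_right p (ζ p))
    exact hp.hasFDerivAt_eq_zero h1
  have hFu : F (p₀, z₀) = 0 := by
    have := hFz.self_of_nhds
    rwa [hζ₀] at this
  have heq : ∀ᶠ p in 𝓝 p₀, ψ p = ζ p := by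
    filter_upwards [htend.eventually key, hFz] with p hp hz
    exact hp.1 (by rw [hz, hFu])
  have hζc : ContDiffAt ℝ ∞ ζ p₀ := hψ.congr_of_eventuallyEq (heq.mono fun p hp => hp.symm)
  have hgz : ContDiffAt ℝ ∞ g (p₀, ζ p₀) := by rw [hζ₀]; exact hg
  have hVc : ContDiffAt ℝ ∞ V p₀ := by
    refine ContDiffAt.congr_of_eventuallyEq ?_ hV
    exact ContDiffAt.comp (f := fun p => (p, ζ p)) p₀ hgz (contDiffAt_id.prodMk hζc)
  -- first derivative of `V`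
  have hζd : ∀ᶠ p in 𝓝 p₀, DifferentiableAt ℝ ζ p := by
    have := (hζc.of_le (m := 1) (by simp)).eventually (by simp)
    filter_upwards [this] with q hq using hq.differentiableAt (by simp)
  have hDV : ∀ᶠ p in 𝓝 p₀, fderiv ℝ V p =
      fderiv ℝ g (p, ζ p) ∘L ContinuousLinearMap.inl ℝ E₁ E₂ := by
    filter_upwards [hV.eventually_nhds, htend.eventually hdiff, hζd, hFz] with p hp hd hz hF0
    have h1 : HasFDerivAt (fun p => (p, ζ p))
        ((ContinuousLinearMap.id ℝ E₁).prod (fderiv ℝ ζ p)) p :=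
      (hasFDerivAt_id p).prodMk hz.hasFDerivAt
    have h2 := hd.hasFDerivAt.comp p h1
    have h3 : V =ᶠ[𝓝 p] g ∘ fun p => (p, ζ p) := hp
    rw [h3.fderiv_eq, h2.fderiv]
    ext w
    have h4 : fderiv ℝ g (p, ζ p) (0, fderiv ℝ ζ p w) = 0 := by
      have := congrArg (fun L : E₂ →L[ℝ] ℝ => L (fderiv ℝ ζ p w)) hF0
      simpa [hF] using this
    have h5 : ((w, fderiv ℝ ζ p w) : E₁ × E₂) = (w, 0) + (0, fderiv ℝ ζ p w) := by simp
    simp only [ContinuousLinearMap.comp_apply, ContinuousLinearMap.prod_apply,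
      ContinuousLinearMap.id_apply, ContinuousLinearMap.inl_apply]
    rw [h5, map_add, h4, add_zero]
  have hcurve : HasFDerivAt (fun p => (p, ζ p))
      ((ContinuousLinearMap.id ℝ E₁).prod (fderiv ℝ ζ p₀)) p₀ :=
    (hasFDerivAt_id p₀).prodMk (hζc.differentiableAt (by simp)).hasFDerivAt
  have hg2 : HasFDerivAt (fderiv ℝ g) (fderiv ℝ (fderiv ℝ g) (p₀, z₀)) (p₀, ζ p₀) := by
    rw [hζ₀]
    exact (hfd.differentiableAt (by simp)).hasFDerivAt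
  have hcomp : HasFDerivAt (fun p => fderiv ℝ g (p, ζ p))
      (fderiv ℝ (fderiv ℝ g) (p₀, z₀) ∘L
        ((ContinuousLinearMap.id ℝ E₁).prod (fderiv ℝ ζ p₀))) p₀ := hg2.comp p₀ hcurve
  refine ⟨hζc, hVc, ?_, ?_⟩
  · intro u w
    have h1 : HasFDerivAt (fun p => fderiv ℝ g (p, ζ p) ∘L ContinuousLinearMap.inl ℝ E₁ E₂)
        (((ContinuousLinearMap.compL ℝ E₁ (E₁ × E₂) ℝ).flip
          (ContinuousLinearMap.inl ℝ E₁ E₂)) ∘L (fderiv ℝ (fderiv ℝ g) (p₀, z₀) ∘L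
        ((ContinuousLinearMap.id ℝ E₁).prod (fderiv ℝ ζ p₀)))) p₀ :=
      ((ContinuousLinearMap.compL ℝ E₁ (E₁ × E₂) ℝ).flip
          (ContinuousLinearMap.inl ℝ E₁ E₂)).hasFDerivAt.comp p₀ hcomp
    rw [Filter.EventuallyEq.fderiv_eq hDV, h1.fderiv]
    simp
  · intro u j
    have h1 : HasFDerivAt (fun p => F (p, ζ p))
        (((ContinuousLinearMap.compL ℝ E₂ (E₁ × E₂) ℝ).flip
          (ContinuousLinearMap.inr ℝ E₁ E₂)) ∘L (fderiv ℝ (fderiv ℝ g) (p₀, z₀) ∘L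
        ((ContinuousLinearMap.id ℝ E₁).prod (fderiv ℝ ζ p₀)))) p₀ :=
      ((ContinuousLinearMap.compL ℝ E₂ (E₁ × E₂) ℝ).flip
          (ContinuousLinearMap.inr ℝ E₁ E₂)).hasFDerivAt.comp p₀ hcomp
    have h2 : HasFDerivAt (fun p => F (p, ζ p)) (0 : E₁ →L[ℝ] (E₂ →L[ℝ] ℝ)) p₀ :=
      (hasFDerivAt_const (0 : E₂ →L[ℝ] ℝ) p₀).congr_of_eventuallyEq hFz
    have h3 := h1.unique h2
    have h4 := congrArg (fun L : E₁ →L[ℝ] (E₂ →L[ℝ] ℝ) => L u j) h3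
    simpa using h4

/-- **smoothness step**, Euclidean form, with nondegeneracy of the mixed Hessian. -/
theorem value_step2 [FiniteDimensional ℝ E] {f₁ f₂ : E × E → ℝ} {V : E × E → ℝ} {a₀ ζ₀ β₀ : E}
    (h1 : ContDiffAt ℝ ∞ f₁ (a₀, ζ₀)) (h2 : ContDiffAt ℝ ∞ f₂ (ζ₀, β₀))
    (n1 : ND f₁ (a₀, ζ₀)) (n2 : ND f₂ (ζ₀, β₀))
    (hpos : ∀ h : E, h ≠ 0 → 0 < fderiv ℝ (fderiv ℝ f₁) (a₀, ζ₀) (0, h) (0, h) +
      fderiv ℝ (fderiv ℝ f₂) (ζ₀, β₀) (h, 0) (h, 0))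
    {ζ : E × E → E} (hζ : Tendsto ζ (𝓝 (a₀, β₀)) (𝓝 ζ₀))
    (hV : ∀ᶠ p in 𝓝 (a₀, β₀), V p = 2 * f₁ (p.1, ζ p) + 2 * f₂ (ζ p, p.2))
    (hmin : ∀ᶠ p in 𝓝 (a₀, β₀),
      IsLocalMin (fun z => 2 * f₁ (p.1, z) + 2 * f₂ (z, p.2)) (ζ p)) :
    ContDiffAt ℝ ∞ ζ (a₀, β₀) ∧ ContDiffAt ℝ ∞ V (a₀, β₀) ∧ ND V (a₀, β₀) := by
  have : CompleteSpace E := FiniteDimensional.complete ℝ E
  let L₁ : (E × E) × E →L[ℝ] E × E :=
    ((ContinuousLinearMap.fst ℝ E E) ∘L (ContinuousLinearMap.fst ℝ (E × E) E)).prod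
      (ContinuousLinearMap.snd ℝ (E × E) E)
  let L₂ : (E × E) × E →L[ℝ] E × E :=
    (ContinuousLinearMap.snd ℝ (E × E) E).prod
      ((ContinuousLinearMap.snd ℝ E E) ∘L (ContinuousLinearMap.fst ℝ (E × E) E))
  have hL₁ : ∀ q : (E × E) × E, L₁ q + 0 = (q.1.1, q.2) := by intro q; simp [L₁]
  have hL₂ : ∀ q : (E × E) × E, L₂ q + 0 = (q.2, q.1.2) := by intro q; simp [L₂]
  set g : (E × E) × E → ℝ := fun q => 2 * f₁ (L₁ q + 0) + 2 * f₂ (L₂ q + 0) with hg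
  have hgq : ∀ (p : E × E) (z : E), g (p, z) = 2 * f₁ (p.1, z) + 2 * f₂ (z, p.2) := by
    intro p z; simp only [hg, hL₁, hL₂]
  have h1' : ContDiffAt ℝ ∞ f₁ (L₁ ((a₀, β₀), ζ₀) + 0) := by rw [hL₁]; exact h1
  have h2' : ContDiffAt ℝ ∞ f₂ (L₂ ((a₀, β₀), ζ₀) + 0) := by rw [hL₂]; exact h2
  have hg1 : ContDiffAt ℝ ∞ (fun q => f₁ (L₁ q + 0)) ((a₀, β₀), ζ₀) :=
    ContDiffAt.comp _ (f := fun q => L₁ q + 0) h1' (by fun_prop)
  have hg2 : ContDiffAt ℝ ∞ (fun q => f₂ (L₂ q + 0)) ((a₀, β₀), ζ₀) :=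
    ContDiffAt.comp _ (f := fun q => L₂ q + 0) h2' (by fun_prop)
  have hg1' : ContDiffAt ℝ ∞ (fun q => 2 * f₁ (L₁ q + 0)) ((a₀, β₀), ζ₀) :=
    contDiffAt_const.mul hg1
  have hg2' : ContDiffAt ℝ ∞ (fun q => 2 * f₂ (L₂ q + 0)) ((a₀, β₀), ζ₀) :=
    contDiffAt_const.mul hg2
  have hgs : ContDiffAt ℝ ∞ g ((a₀, β₀), ζ₀) := hg1'.add hg2'
  have h2le : (2 : WithTop ℕ∞) ≤ ∞ := ENat.LEInfty.out
  have hD : ∀ u v : (E × E) × E, fderiv ℝ (fderiv ℝ g) ((a₀, β₀), ζ₀) u v =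
      2 * fderiv ℝ (fderiv ℝ f₁) (a₀, ζ₀) (L₁ u) (L₁ v) +
      2 * fderiv ℝ (fderiv ℝ f₂) (ζ₀, β₀) (L₂ u) (L₂ v) := by
    intro u v
    have e1 := hess_add (f := fun q => 2 * f₁ (L₁ q + 0)) (g := fun q => 2 * f₂ (L₂ q + 0))
      (hg1'.of_le h2le) (hg2'.of_le h2le) u v
    have e3 := hess_const_mul (hg1.of_le h2le) 2 u v
    have e4 := hess_const_mul (hg2.of_le h2le) 2 u v
    have e5 := hess_comp_affine L₁ 0 (h1'.of_le h2le) u v
    have e6 := hess_comp_affine L₂ 0 (h2'.of_le h2le) u v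
    rw [hL₁] at e5
    rw [hL₂] at e6
    rw [hg, e1, e3, e4, e5, e6]
  obtain ⟨r1, r2, r3, r4⟩ := argmin_smooth (V := V) hgs
    (fun h hh => by
      rw [hD]
      have := hpos h hh
      have e1 : L₁ (0, h) = (0, h) := by simp [L₁]
      have e2 : L₂ (0, h) = (h, 0) := by simp [L₂]
      rw [e1, e2]
      linarith) hζ
    (by filter_upwards [hV] with p hp; rw [hgq, hp])
    (by filter_upwards [hmin] with p hp; simpa only [hgq] using hp)
  refine ⟨r1, r2, ?_⟩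
  set Z := fderiv ℝ ζ (a₀, β₀) with hZ
  let Zb : E →ₗ[ℝ] E := (Z ∘L ContinuousLinearMap.inr ℝ E E : E →L[ℝ] E)
  have hZb : ∀ k, Zb k = Z (0, k) := fun k => by simp [Zb]
  have hinj : Function.Injective Zb := by
    rw [injective_iff_map_eq_zero]
    intro k hk
    apply n2.symm
    intro j
    have h := r4 (0, k) j
    rw [← hZb, hk, hD] at h
    have e1 : L₁ (((0 : E), k), (0 : E)) = 0 := by simp [L₁]
    have e2 : L₂ (((0 : E), k), (0 : E)) = (0, k) := by simp [L₂]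
    have e3 : L₂ (0, j) = (j, 0) := by simp [L₂]
    rw [e1, e2, e3] at h
    simpa using h
  have hsurj : Function.Surjective Zb := LinearMap.injective_iff_surjective.1 hinj
  intro h hh
  apply n1
  intro j
  obtain ⟨k, rfl⟩ := hsurj j
  have h5 := hh k
  rw [r3, ← hZb, hD] at h5
  have e1 : L₁ (((0 : E), k), Zb k) = (0, Zb k) := by simp [L₁]
  have e2 : L₁ ((h, (0 : E)), (0 : E)) = (h, 0) := by simp [L₁]
  have e3 : L₂ ((h, (0 : E)), (0 : E)) = 0 := by simp [L₂]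
  rw [e1, e2, e3] at h5
  simpa using h5

end

end Crest.Agent.R247.Sm879
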