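import Crest.Agent.R247.Smv0_126

/-!
R247, block (5-M) (helper126): (SM) mean value inequality for nonnegative supersolutions
`v - h Δ v ≥ 0`: radial test functions.
-/

set_option autoImplicit false
set_option linter.unusedSectionVars false

open MeasureTheory Filter Topology Set
open scoped RealInnerProductSpace ENNReal NNReal

noncomputable section

namespace Crest.Agent.R247.Smv126

open Crest.Agent.R247.Dir593 Crest.Agent.R247.Dir593.GradS

/-! ### auxiliary one-dimensional functions -/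

/-- bump -/
def qb (ε τ : ℝ) : ℝ := 48 / ε ^ 3 * max 0 ((τ - ε / 2) * (ε - τ))

theorem continuous_qb (ε : ℝ) : Continuous (qb ε) := by unfold qb; fun_prop

theorem qb_nonneg {ε : ℝ} (hε : 0 < ε) (τ : ℝ) : 0 ≤ qb ε τ := by
  unfold qb
  exact mul_nonneg (by positivity) (le_max_left _ _)

theorem qb_zero_left {ε : ℝ} (hε : 0 < ε) {τ : ℝ} (h : τ ≤ ε / 2) : qb ε τ = 0 := by
  unfold qb
  rw [max_eq_left, mul_zero]
  nlinarith

theorem qb_zero_right {ε : ℝ} (hε : 0 < ε) {τ : ℝ} (h : ε ≤ τ) : qb ε τ = 0 := by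
  unfold qb
  rw [max_eq_left, mul_zero]
  nlinarith

theorem qb_le {ε : ℝ} (hε : 0 < ε) (τ : ℝ) : qb ε τ ≤ 3 / ε := by
  unfold qb
  have h1 : max 0 ((τ - ε / 2) * (ε - τ)) ≤ ε ^ 2 / 16 := by
    refine max_le (by positivity) ?_
    nlinarith [sq_nonneg (τ - 3 * ε / 4)]
  calc 48 / ε ^ 3 * max 0 ((τ - ε / 2) * (ε - τ)) ≤ 48 / ε ^ 3 * (ε ^ 2 / 16) := by gcongr
    _ = 3 / ε := by field_simp; ring

/-- smooth step: `0` for `s ≤ ε/2`, `1` for `s ≥ ε` -/
def psi (ε s : ℝ) : ℝ := ∫ τ in (0:ℝ)..s, qb ε τ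

theorem hasDerivAt_psi (ε s : ℝ) : HasDerivAt (psi ε) (qb ε s) s :=
  intervalIntegral.integral_hasDerivAt_right ((continuous_qb ε).intervalIntegrable _ _)
    ((continuous_qb ε).stronglyMeasurableAtFilter _ _) (continuous_qb ε).continuousAt

theorem contDiff_psi (ε : ℝ) : ContDiff ℝ 1 (psi ε) := by
  refine contDiff_one_iff_deriv.2 ⟨fun s => (hasDerivAt_psi ε s).differentiableAt, ?_⟩
  have : deriv (psi ε) = qb ε := funext fun s => (hasDerivAt_psi ε s).deriv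
  rw [this]
  exact continuous_qb ε

theorem psi_zero {ε : ℝ} (hε : 0 < ε) {s : ℝ} (h : s ≤ ε / 2) : psi ε s = 0 := by
  unfold psi
  rw [intervalIntegral.integral_congr (g := fun _ => 0)]
  · simp
  · intro τ hτ
    refine qb_zero_left hε ?_
    rcases le_total 0 s with h0 | h0
    · rw [uIcc_of_le h0] at hτ
      exact hτ.2.trans h
    · rw [uIcc_of_ge h0] at hτ
      exact hτ.2.trans (by positivity)

theorem psi_mono {ε : ℝ} (hε : 0 < ε) : Monotone (psi ε) :=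
  monotone_of_deriv_nonneg (fun s => (hasDerivAt_psi ε s).differentiableAt) fun s => by
    rw [(hasDerivAt_psi ε s).deriv]; exact qb_nonneg hε s

theorem psi_one {ε : ℝ} (hε : 0 < ε) {s : ℝ} (h : ε ≤ s) : psi ε s = 1 := by
  have h1 : psi ε s = psi ε ε := by
    unfold psi
    rw [← intervalIntegral.integral_add_adjacent_intervals (b := ε)
      ((continuous_qb ε).intervalIntegrable _ _) ((continuous_qb ε).intervalIntegrable _ _)]
    rw [intervalIntegral.integral_congr (a := ε) (b := s) (g := fun _ => 0)]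
    · simp
    · intro τ hτ
      rw [uIcc_of_le h] at hτ
      exact qb_zero_right hε hτ.1
  rw [h1]
  have h2 : psi ε ε = psi ε (ε / 2) + ∫ τ in (ε / 2)..ε, qb ε τ := by
    unfold psi
    rw [intervalIntegral.integral_add_adjacent_intervals
      ((continuous_qb ε).intervalIntegrable _ _) ((continuous_qb ε).intervalIntegrable _ _)]
  rw [h2, psi_zero hε le_rfl, zero_add]
  have h3 : ∫ τ in (ε / 2)..ε, qb ε τ =
      ∫ τ in (ε / 2)..ε, (48 / ε ^ 3 * ((τ - ε / 2) * (ε - τ))) := by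
    refine intervalIntegral.integral_congr fun τ hτ => ?_
    rw [uIcc_of_le (by linarith)] at hτ
    simp only [qb]
    rw [max_eq_right (mul_nonneg (by linarith [hτ.1]) (by linarith [hτ.2]))]
  rw [h3]
  have h4 : ∀ τ ∈ uIcc (ε / 2) ε, HasDerivAt
      (fun τ : ℝ => 48 / ε ^ 3 * (3 * ε / 4 * τ ^ 2 - τ ^ 3 / 3 - ε ^ 2 / 2 * τ))
      (48 / ε ^ 3 * ((τ - ε / 2) * (ε - τ))) τ := by
    intro τ _
    have a1 : HasDerivAt (fun τ : ℝ => τ ^ 2) ((2:ℕ) * τ ^ (2 - 1)) τ := hasDerivAt_pow 2 τ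
    have a2 : HasDerivAt (fun τ : ℝ => τ ^ 3) ((3:ℕ) * τ ^ (3 - 1)) τ := hasDerivAt_pow 3 τ
    have a3 := (((a1.const_mul (3 * ε / 4)).sub (a2.div_const 3)).sub
      ((hasDerivAt_id τ).const_mul (ε ^ 2 / 2))).const_mul (48 / ε ^ 3)
    refine a3.congr_deriv ?_
    norm_num
    left
    ring
  rw [intervalIntegral.integral_eq_sub_of_hasDerivAt h4
    ((by fun_prop : Continuous fun τ : ℝ => 48 / ε ^ 3 * ((τ - ε / 2) * (ε - τ))).intervalIntegrable
      _ _)]
  field_simp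
  ring

theorem psi_nonneg {ε : ℝ} (hε : 0 < ε) (s : ℝ) : 0 ≤ psi ε s := by
  rcases le_total s (ε / 2) with h | h
  · rw [psi_zero hε h]
  · have := psi_mono hε h
    rwa [psi_zero hε le_rfl] at this

theorem psi_le_one {ε : ℝ} (hε : 0 < ε) (s : ℝ) : psi ε s ≤ 1 := by
  rcases le_total ε s with h | h
  · rw [psi_one hε h]
  · have := psi_mono hε h
    rwa [psi_one hε le_rfl] at this

/-- cut at `b` -/
def ub (k : ℕ) (b s : ℝ) : ℝ := max 0 (min 1 (k * (b - s)))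

theorem continuous_ub (k : ℕ) (b : ℝ) : Continuous (ub k b) := by unfold ub; fun_prop

theorem ub_nonneg (k : ℕ) (b s : ℝ) : 0 ≤ ub k b s := le_max_left _ _

theorem ub_le_one (k : ℕ) (b s : ℝ) : ub k b s ≤ 1 := max_le zero_le_one (min_le_left _ _)

theorem ub_zero (k : ℕ) {b s : ℝ} (h : b ≤ s) : ub k b s = 0 := by
  unfold ub
  rw [max_eq_left]
  refine (min_le_right _ _).trans ?_
  exact mul_nonpos_of_nonneg_of_nonpos (Nat.cast_nonneg k) (by linarith)

theorem tendsto_ub {b s : ℝ} (h : s < b) : Tendsto (fun k => ub k b s) atTop (𝓝 1) := by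
  obtain ⟨k0, hk0⟩ := exists_nat_gt (1 / (b - s))
  have hpos : 0 < b - s := by linarith
  refine tendsto_const_nhds.congr' ?_
  filter_upwards [eventually_ge_atTop k0] with k hk
  unfold ub
  have h1 : 1 ≤ (k:ℝ) * (b - s) := by
    rw [div_lt_iff₀ hpos] at hk0
    have : (k0:ℝ) ≤ k := Nat.cast_le.2 hk
    nlinarith
  rw [min_eq_left h1, max_eq_right zero_le_one]

/-- `A(s) = ∫_s^b τ^m u` -/
def Ab (m k : ℕ) (b s : ℝ) : ℝ := ∫ τ in s..b, τ ^ m * ub k b τ

theorem continuous_Ai (m k : ℕ) (b : ℝ) : Continuous fun τ => τ ^ m * ub k b τ :=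
  (continuous_pow m).mul (continuous_ub k b)

theorem hasDerivAt_Ab (m k : ℕ) (b s : ℝ) : HasDerivAt (Ab m k b) (-(s ^ m * ub k b s)) s :=
  intervalIntegral.integral_hasDerivAt_left ((continuous_Ai m k b).intervalIntegrable _ _)
    ((continuous_Ai m k b).stronglyMeasurableAtFilter _ _) (continuous_Ai m k b).continuousAt

theorem contDiff_Ab (m k : ℕ) (b : ℝ) : ContDiff ℝ 1 (Ab m k b) := by
  refine contDiff_one_iff_deriv.2 ⟨fun s => (hasDerivAt_Ab m k b s).differentiableAt, ?_⟩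
  have : deriv (Ab m k b) = fun s => -(s ^ m * ub k b s) :=
    funext fun s => (hasDerivAt_Ab m k b s).deriv
  rw [this]
  exact (continuous_Ai m k b).neg

theorem Ab_zero (m k : ℕ) {b s : ℝ} (h : b ≤ s) : Ab m k b s = 0 := by
  unfold Ab
  rw [intervalIntegral.integral_congr (g := fun _ => 0)]
  · simp
  · intro τ hτ
    rw [uIcc_of_ge h] at hτ
    simp only
    rw [ub_zero k hτ.1, mul_zero]

theorem Ab_nonneg (m k : ℕ) {b s : ℝ} (h0 : 0 ≤ s) : 0 ≤ Ab m k b s := by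
  rcases le_total b s with h | h
  · rw [Ab_zero m k h]
  · unfold Ab
    refine intervalIntegral.integral_nonneg h fun τ hτ => ?_
    exact mul_nonneg (pow_nonneg (h0.trans hτ.1) m) (ub_nonneg k b τ)

theorem Ab_le (m k : ℕ) {b s : ℝ} (h0 : 0 ≤ s) (hb : 0 ≤ b) :
    Ab m k b s ≤ b ^ (m + 1) / (m + 1) := by
  rcases le_total b s with h | h
  · rw [Ab_zero m k h]; positivity
  · unfold Ab
    have h1 : ∫ τ in s..b, τ ^ m * ub k b τ ≤ ∫ τ in s..b, τ ^ m := by
      refine intervalIntegral.integral_mono_on h ((continuous_Ai m k b).intervalIntegrable _ _)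
        ((continuous_pow m).intervalIntegrable _ _) fun τ hτ => ?_
      have := pow_nonneg (h0.trans hτ.1) m
      calc τ ^ m * ub k b τ ≤ τ ^ m * 1 := by gcongr; exact ub_le_one k b τ
        _ = τ ^ m := mul_one _
    refine h1.trans ?_
    rw [integral_pow]
    have : 0 ≤ s ^ (m + 1) := pow_nonneg h0 _
    gcongr
    linarith

/-- the Gaussian power weight -/
def wb (m : ℕ) (κ s : ℝ) : ℝ := (s ^ (m + 1))⁻¹ * Real.exp (-(κ * s ^ 2 / 2))

/-- the test profile -/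
def zb (m k : ℕ) (κ ε b s : ℝ) : ℝ := wb m κ s * (psi ε s * Ab m k b s)

theorem zb_zero_left {m k : ℕ} {κ ε b s : ℝ} (hε : 0 < ε) (h : s ≤ ε / 2) :
    zb m k κ ε b s = 0 := by
  unfold zb; rw [psi_zero hε h]; ring

theorem zb_zero_right {m k : ℕ} {κ ε b s : ℝ} (h : b ≤ s) : zb m k κ ε b s = 0 := by
  unfold zb; rw [Ab_zero m k h]; ring

theorem wb_nonneg {m : ℕ} {κ s : ℝ} (h : 0 ≤ s) : 0 ≤ wb m κ s := by
  unfold wb; positivity

theorem zb_nonneg {m k : ℕ} {κ ε b : ℝ} (hε : 0 < ε) (s : ℝ) : 0 ≤ zb m k κ ε b s := by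
  rcases le_total s (ε / 2) with h | h
  · rw [zb_zero_left hε h]
  · have h0 : 0 ≤ s := (by positivity : 0 ≤ ε / 2).trans h
    exact mul_nonneg (wb_nonneg h0) (mul_nonneg (psi_nonneg hε s) (Ab_nonneg m k h0))

theorem hasDerivAt_wb {m : ℕ} {κ s : ℝ} (h : 0 < s) :
    HasDerivAt (wb m κ) (-((m + 1 + κ * s ^ 2) / s) * wb m κ s) s := by
  have a1 : HasDerivAt (fun s : ℝ => (s ^ (m + 1))⁻¹)
      (-(((m + 1 : ℕ) : ℝ) * s ^ (m + 1 - 1)) / (s ^ (m + 1)) ^ 2) s :=
    (hasDerivAt_pow (m + 1) s).fun_inv (by positivity)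
  have a2 : HasDerivAt (fun s : ℝ => Real.exp (-(κ * s ^ 2 / 2)))
      (Real.exp (-(κ * s ^ 2 / 2)) * (-(κ * ((2:ℕ) * s ^ (2 - 1)) / 2))) s :=
    ((((hasDerivAt_pow 2 s).const_mul κ).div_const 2).neg).exp
  refine (a1.mul a2).congr_deriv ?_
  unfold wb
  have : s ^ (m + 1 - 1) = s ^ m := by simp
  rw [this]
  push_cast
  field_simp
  ring

theorem hasDerivAt_zb {m k : ℕ} {κ ε b s : ℝ} (h : 0 < s) :
    HasDerivAt (zb m k κ ε b) (-((m + 1 + κ * s ^ 2) / s) * zb m k κ ε b s +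
      wb m κ s * (qb ε s * Ab m k b s - psi ε s * (s ^ m * ub k b s))) s := by
  refine ((hasDerivAt_wb h).mul ((hasDerivAt_psi ε s).mul (hasDerivAt_Ab m k b s))).congr_deriv ?_
  unfold zb
  simp only [Pi.mul_apply]
  ring

theorem contDiff_zb {m k : ℕ} {κ ε b : ℝ} (hε : 0 < ε) : ContDiff ℝ 1 (zb m k κ ε b) := by
  rw [contDiff_iff_contDiffAt]
  intro s
  rcases lt_or_ge s (ε / 2) with h | h
  · refine (contDiffAt_const (c := (0:ℝ))).congr_of_eventuallyEq ?_
    filter_upwards [Iio_mem_nhds h] with t ht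
    exact zb_zero_left hε (le_of_lt ht)
  · have hs : 0 < s := lt_of_lt_of_le (by positivity) h
    have h1 : ContDiffAt ℝ 1 (wb m κ) s := by
      unfold wb
      refine ContDiffAt.mul (ContDiffAt.inv (by fun_prop) (by positivity)) ?_
      exact (by fun_prop : ContDiff ℝ 1 fun s : ℝ => Real.exp (-(κ * s ^ 2 / 2))).contDiffAt
    exact h1.mul ((contDiff_psi ε).contDiffAt.mul (contDiff_Ab m k b).contDiffAt)

/-- the key identity -/
theorem zb_key {m k : ℕ} {κ ε b s : ℝ} (hε : 0 < ε) (hs : 0 ≤ s) :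
    ((m + 1 : ℕ) + κ * s ^ 2) * zb m k κ ε b s + s * deriv (zb m k κ ε b) s =
      s * wb m κ s * (qb ε s * Ab m k b s) -
        Real.exp (-(κ * s ^ 2 / 2)) * (psi ε s * ub k b s) := by
  rcases eq_or_lt_of_le hs with h | h
  · rw [← h, zb_zero_left hε (by positivity), psi_zero hε (by positivity)]; ring
  · rw [(hasDerivAt_zb h).deriv]
    have e : s * wb m κ s * s ^ m = Real.exp (-(κ * s ^ 2 / 2)) := by
      unfold wb; field_simp; ring
    rw [← e]
    push_cast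
    field_simp
    ring

/-- the second profile -/
def eb (m k : ℕ) (κ ε b s : ℝ) : ℝ := ∫ τ in s..b, τ * zb m k κ ε b τ

theorem continuous_ei {m k : ℕ} {κ ε b : ℝ} (hε : 0 < ε) :
    Continuous fun τ => τ * zb m k κ ε b τ := continuous_id.mul (contDiff_zb hε).continuous

theorem hasDerivAt_eb {m k : ℕ} {κ ε b : ℝ} (hε : 0 < ε) (s : ℝ) :
    HasDerivAt (eb m k κ ε b) (-(s * zb m k κ ε b s)) s :=
  intervalIntegral.integral_hasDerivAt_left ((continuous_ei hε).intervalIntegrable _ _)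
    ((continuous_ei hε).stronglyMeasurableAtFilter _ _) (continuous_ei hε).continuousAt

theorem contDiff_eb {m k : ℕ} {κ ε b : ℝ} (hε : 0 < ε) : ContDiff ℝ 1 (eb m k κ ε b) := by
  refine contDiff_one_iff_deriv.2 ⟨fun s => (hasDerivAt_eb hε s).differentiableAt, ?_⟩
  have : deriv (eb m k κ ε b) = fun s => -(s * zb m k κ ε b s) :=
    funext fun s => (hasDerivAt_eb hε s).deriv
  rw [this]
  exact (continuous_ei hε).neg

theorem eb_zero {m k : ℕ} {κ ε b s : ℝ} (h : b ≤ s) : eb m k κ ε b s = 0 := by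
  unfold eb
  rw [intervalIntegral.integral_congr (g := fun _ => 0)]
  · simp
  · intro τ hτ
    rw [uIcc_of_ge h] at hτ
    simp only
    rw [zb_zero_right hτ.1, mul_zero]

theorem eb_nonneg {m k : ℕ} {κ ε b s : ℝ} (hε : 0 < ε) (h0 : 0 ≤ s) : 0 ≤ eb m k κ ε b s := by
  rcases le_total b s with h | h
  · rw [eb_zero h]
  · unfold eb
    exact intervalIntegral.integral_nonneg h fun τ hτ =>
      mul_nonneg (h0.trans hτ.1) (zb_nonneg hε τ)

/-! ### the radial inequality -/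

section Main

variable {X : Type*} [MetricSpace X] [MeasurableSpace X] {F : Type*}
  [NormedAddCommGroup F] [InnerProductSpace ℝ F] {μ : Measure X} [BorelSpace X]
  [IsFiniteMeasureOnCompacts μ]

/-- weak supersolution `v - h Δ v ≥ 0`, `v ∈ V` -/
def Sup (S : GradS X F μ) (h : ℝ) (v : Lp ℝ 2 μ) : Prop :=
  ∀ φ : X → ℝ, IsT φ → (∀ z, 0 ≤ φ z) → 0 ≤ ∫ z, (v z * φ z + h * ⟪S.D v z, S.G φ z⟫) ∂μ

variable {S : GradS X F μ}

theorem integrable_vφ (v : Lp ℝ 2 μ) {φ : X → ℝ} (hφ : IsT φ) :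
    Integrable (fun z => v z * φ z) μ := (Lp.memLp v).integrable_mul hφ.memLp

theorem integrable_DG (v : Lp F 2 μ) {φ : X → ℝ} (hφ : IsT φ) :
    Integrable (fun z => ⟪v z, S.G φ z⟫) μ := by
  have h1 := L2.integrable_inner (𝕜 := ℝ) v ((hφ.memLpG S).toLp (S.G φ))
  refine h1.congr ?_
  filter_upwards [MemLp.coeFn_toLp (hφ.memLpG S)] with z hz
  rw [hz]

/-- the radial inequality -/
theorem radial_ineq [ProperSpace X] {n : ℕ} {κ : ℝ} (W : WLap S n κ) (y : X) {v : Lp ℝ 2 μ}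
    (hv : v ∈ S.V) (h0 : 0 ≤ᵐ[μ] (v : X → ℝ)) {h : ℝ} (hh : 0 ≤ h) (hsup : Sup S h v)
    {ζ η : ℝ → ℝ} (hζ : ContDiff ℝ 1 ζ) (hη : ContDiff ℝ 1 η) (hd : ∀ s, deriv η s = -(s * ζ s))
    (hζ0 : ∀ s, 0 ≤ s → 0 ≤ ζ s) (hη0 : ∀ s, 0 ≤ s → 0 ≤ η s) {b : ℝ} (hb1 : ∀ s, b ≤ s → ζ s = 0)
    (hb2 : ∀ s, b ≤ s → η s = 0) :
    0 ≤ ∫ z, (η (dist y z) + h * ((n + κ * dist y z ^ 2) * ζ (dist y z) +
      dist y z * deriv ζ (dist y z))) * v z ∂μ := by
  have Tζ : IsT fun z => ζ (dist y z) := isT_radial y hζ hb1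
  have Tη : IsT fun z => η (dist y z) := isT_radial y hη hb2
  have k1 := hsup _ Tη fun z => hη0 _ dist_nonneg
  obtain ⟨i1, i2, k2⟩ := W.lapV y hv h0 Tζ fun z => hζ0 _ dist_nonneg
  have k3 : 0 ≤ ∫ z, (v z * η (dist y z) + h * ⟪S.D v z, S.G (fun z => η (dist y z)) z⟫) ∂μ +
      h * ∫ z, (((n + κ * dist y z ^ 2) * ζ (dist y z) +
        ⟪S.G (hf y) z, S.G (fun z => ζ (dist y z)) z⟫) * v z +
        ζ (dist y z) * ⟪S.G (hf y) z, S.D v z⟫) ∂μ := add_nonneg k1 (mul_nonneg hh k2)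
  have j1 : Integrable (fun z => v z * η (dist y z) +
      h * ⟪S.D v z, S.G (fun z => η (dist y z)) z⟫) μ :=
    (integrable_vφ v Tη).add ((integrable_DG (S.D v) Tη).const_mul h)
  have j2 : Integrable (fun z => h * (((n + κ * dist y z ^ 2) * ζ (dist y z) +
        ⟪S.G (hf y) z, S.G (fun z => ζ (dist y z)) z⟫) * v z +
        ζ (dist y z) * ⟪S.G (hf y) z, S.D v z⟫)) μ := (i1.add i2).const_mul h
  rw [← integral_const_mul, ← integral_add j1 j2] at k3
  refine k3.trans_eq (integral_congr_ae ?_)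
  filter_upwards [W.inner_radial y hζ, G_comp S y hη, G_hf S y] with z e1 e2 e3
  rw [e1, e2, e3, hd, real_inner_smul_left, real_inner_smul_right, real_inner_comm]
  ring

end Main

end Crest.Agent.R247.Smv126
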