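import Crest.Agent.R247.Smv1_126

/-!
R247, block (5-M) (helper126): (SM) mean value inequality for nonnegative supersolutions
`v - h Δ v ≥ 0` in `V`.
-/

set_option autoImplicit false
set_option linter.unusedSectionVars false

open MeasureTheory Filter Topology Set
open scoped RealInnerProductSpace ENNReal NNReal

noncomputable section

namespace Crest.Agent.R247.Smv126

open Crest.Agent.R247.Dir593 Crest.Agent.R247.Dir593.GradS

variable {X : Type*} [MetricSpace X] [MeasurableSpace X] {F : Type*}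
  [NormedAddCommGroup F] [InnerProductSpace ℝ F] {μ : Measure X} [BorelSpace X]
  [IsFiniteMeasureOnCompacts μ] [ProperSpace X]

/-- Gaussian weight -/
def gw (κ : ℝ) (y z : X) : ℝ := Real.exp (-(κ * dist y z ^ 2 / 2))

theorem gw_pos (κ : ℝ) (y z : X) : 0 < gw κ y z := Real.exp_pos _

theorem gw_le_one {κ : ℝ} (hκ : 0 ≤ κ) (y z : X) : gw κ y z ≤ 1 := by
  unfold gw
  rw [Real.exp_le_one_iff]
  have : 0 ≤ κ * dist y z ^ 2 / 2 := by positivity
  linarith

theorem continuous_gw (κ : ℝ) (y : X) : Continuous (gw κ y) := by unfold gw; fun_prop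

/-- weighted mass of the open ball -/
def NN (μ : Measure X) (κ : ℝ) (y : X) (v : X → ℝ) (τ : ℝ) : ℝ :=
  ∫ z in Metric.ball y τ, gw κ y z * v z ∂μ

/-- weighted mass of the closed ball -/
def NC (μ : Measure X) (κ : ℝ) (y : X) (v : X → ℝ) (τ : ℝ) : ℝ :=
  ∫ z in Metric.closedBall y τ, gw κ y z * v z ∂μ

theorem integrable_radial (y : X) {g : ℝ → ℝ} {b : ℝ} (hg : Continuous g)
    (h0 : ∀ s, b ≤ s → g s = 0) (v : Lp ℝ 2 μ) : Integrable (fun z => g (dist y z) * v z) μ := by
  have h1 : HasCompactSupport fun z => g (dist y z) :=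
    HasCompactSupport.intro (isCompact_closedBall y b) fun z hz => by
      rw [Metric.mem_closedBall, not_le, dist_comm] at hz
      exact h0 _ hz.le
  have h2 : MemLp (fun z => g (dist y z)) 2 μ :=
    (hg.comp (continuous_const.dist continuous_id)).memLp_of_hasCompactSupport h1
  exact h2.integrable_mul (Lp.memLp v)

theorem integrableOn_gw (κ : ℝ) (y : X) (τ : ℝ) (v : Lp ℝ 2 μ) :
    IntegrableOn (fun z => gw κ y z * v z) (Metric.closedBall y τ) μ := by
  have hK := isCompact_closedBall y τ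
  have h1 : IntegrableOn v (Metric.closedBall y τ) μ :=
    integrableOn_of_L2 v Metric.isClosed_closedBall.measurableSet hK.measure_lt_top.ne
  exact h1.continuousOn_mul (continuous_gw κ y).continuousOn hK

theorem NN_nonneg {κ : ℝ} {y : X} {v : Lp ℝ 2 μ} (h0 : 0 ≤ᵐ[μ] (v : X → ℝ)) (τ : ℝ) :
    0 ≤ NN μ κ y v τ := by
  refine integral_nonneg_of_ae (ae_restrict_of_ae ?_)
  filter_upwards [h0] with z hz
  exact mul_nonneg (gw_pos κ y z).le hz

theorem NC_nonneg {κ : ℝ} {y : X} {v : Lp ℝ 2 μ} (h0 : 0 ≤ᵐ[μ] (v : X → ℝ)) (τ : ℝ) :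
    0 ≤ NC μ κ y v τ := by
  refine integral_nonneg_of_ae (ae_restrict_of_ae ?_)
  filter_upwards [h0] with z hz
  exact mul_nonneg (gw_pos κ y z).le hz

theorem NN_mono {κ : ℝ} {y : X} {v : Lp ℝ 2 μ} (h0 : 0 ≤ᵐ[μ] (v : X → ℝ)) {s t : ℝ}
    (hst : s ≤ t) : NN μ κ y v s ≤ NN μ κ y v t := by
  refine setIntegral_mono_set ((integrableOn_gw κ y t v).mono_set Metric.ball_subset_closedBall)
    (ae_restrict_of_ae ?_) (Metric.ball_subset_ball hst).eventuallyLE
  filter_upwards [h0] with z hz
  exact mul_nonneg (gw_pos κ y z).le hz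

theorem NN_le_NC {κ : ℝ} {y : X} {v : Lp ℝ 2 μ} (h0 : 0 ≤ᵐ[μ] (v : X → ℝ)) {s t : ℝ}
    (hst : s ≤ t) : NN μ κ y v s ≤ NC μ κ y v t := by
  refine setIntegral_mono_set (integrableOn_gw κ y t v)
    (ae_restrict_of_ae ?_)
    ((Metric.ball_subset_closedBall).trans (Metric.closedBall_subset_closedBall hst)).eventuallyLE
  filter_upwards [h0] with z hz
  exact mul_nonneg (gw_pos κ y z).le hz

variable {S : GradS X F μ}

/-- the inequality for the explicit profiles -/
theorem ineq_k {m k : ℕ} {κ : ℝ} (W : WLap S (m + 1) κ) (y : X) {v : Lp ℝ 2 μ}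
    (hv : v ∈ S.V) (h0 : 0 ≤ᵐ[μ] (v : X → ℝ)) {h : ℝ} (hh : 0 ≤ h) (hsup : Sup S h v)
    {ε b : ℝ} (hε : 0 < ε) (hb : 0 ≤ b) :
    h * ∫ z, (gw κ y z * (psi ε (dist y z) * ub k b (dist y z))) * v z ∂μ ≤
      h * ∫ z, (dist y z * wb m κ (dist y z) * (qb ε (dist y z) * Ab m k b (dist y z))) * v z ∂μ +
      ∫ z, eb m k κ ε b (dist y z) * v z ∂μ := by
  have hζ : ContDiff ℝ 1 (zb m k κ ε b) := contDiff_zb hε
  have key := radial_ineq W y hv h0 hh hsup hζ (contDiff_eb (m := m) (k := k) (κ := κ) (b := b) hε)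
    (fun s => (hasDerivAt_eb hε s).deriv) (fun s _ => zb_nonneg hε s) (fun s hs => eb_nonneg hε hs)
    (b := b) (fun s hs => zb_zero_right hs) (fun s hs => eb_zero hs)
  -- the three pieces
  have iY : Integrable (fun z => (gw κ y z * (psi ε (dist y z) * ub k b (dist y z))) * v z) μ := by
    refine integrable_radial (b := b) y (g := fun s => Real.exp (-(κ * s ^ 2 / 2)) *
      (psi ε s * ub k b s)) ?_ ?_ v
    · exact (by fun_prop : Continuous fun s : ℝ => Real.exp (-(κ * s ^ 2 / 2))).mul
        ((contDiff_psi ε).continuous.mul (continuous_ub k b))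
    · intro s hs
      rw [ub_zero k hs]; ring
  have hder : Continuous (deriv (zb m k κ ε b)) := hζ.continuous_deriv le_rfl
  have iX : Integrable (fun z => (dist y z * wb m κ (dist y z) *
      (qb ε (dist y z) * Ab m k b (dist y z))) * v z) μ := by
    have h1 := integrable_radial (b := b) y (g := fun s => ((m + 1 : ℕ) + κ * s ^ 2) *
      zb m k κ ε b (max s 0) + max s 0 * deriv (zb m k κ ε b) (max s 0) +
      Real.exp (-(κ * s ^ 2 / 2)) * (psi ε s * ub k b s)) ?_ ?_ v
    · refine h1.congr (Filter.Eventually.of_forall fun z => ?_)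
      have e := zb_key (m := m) (k := k) (κ := κ) (b := b) hε (dist_nonneg (x := y) (y := z))
      simp only [max_eq_left (dist_nonneg (x := y) (y := z))]
      rw [e]
      ring
    · have c0 : Continuous fun s : ℝ => max s 0 := continuous_id.max continuous_const
      exact (((by fun_prop : Continuous fun s : ℝ => ((m + 1 : ℕ) : ℝ) + κ * s ^ 2).mul
        (hζ.continuous.comp c0)).add (c0.mul (hder.comp c0))).add
        ((by fun_prop : Continuous fun s : ℝ => Real.exp (-(κ * s ^ 2 / 2))).mul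
        ((contDiff_psi ε).continuous.mul (continuous_ub k b)))
    · intro s hs
      have hs0 : 0 ≤ s := hb.trans hs
      have e := zb_key (m := m) (k := k) (κ := κ) (b := b) hε hs0
      simp only [max_eq_left hs0]
      rw [e, Ab_zero m k hs]; ring
  have iE : Integrable (fun z => eb m k κ ε b (dist y z) * v z) μ :=
    integrable_radial (b := b) y (contDiff_eb hε).continuous (fun s hs => eb_zero hs) v
  have e1 : ∫ z, (eb m k κ ε b (dist y z) + h * (((m + 1 : ℕ) + κ * dist y z ^ 2) *
      zb m k κ ε b (dist y z) + dist y z * deriv (zb m k κ ε b) (dist y z))) * v z ∂μ =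
      ∫ z, eb m k κ ε b (dist y z) * v z ∂μ +
      (h * ∫ z, (dist y z * wb m κ (dist y z) * (qb ε (dist y z) * Ab m k b (dist y z))) * v z ∂μ -
      h * ∫ z, (gw κ y z * (psi ε (dist y z) * ub k b (dist y z))) * v z ∂μ) := by
    have j1 : Integrable (fun z => h * (dist y z * wb m κ (dist y z) *
        (qb ε (dist y z) * Ab m k b (dist y z)) * v z) -
        h * (gw κ y z * (psi ε (dist y z) * ub k b (dist y z)) * v z)) μ :=
      (iX.const_mul h).sub (iY.const_mul h)
    rw [← integral_const_mul, ← integral_const_mul, ← integral_sub (iX.const_mul h)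
      (iY.const_mul h), ← integral_add iE j1]
    refine integral_congr_ae (Filter.Eventually.of_forall fun z => ?_)
    simp only
    rw [zb_key hε dist_nonneg]
    unfold gw
    ring
  rw [e1] at key
  linarith

/-- bound of the first right hand side term -/
theorem X_le {m k : ℕ} {κ : ℝ} (y : X) {v : Lp ℝ 2 μ} (h0 : 0 ≤ᵐ[μ] (v : X → ℝ))
    {ε b : ℝ} (hε : 0 < ε) (hb : 0 ≤ b) :
    ∫ z, (dist y z * wb m κ (dist y z) * (qb ε (dist y z) * Ab m k b (dist y z))) * v z ∂μ ≤
      (3 * 2 ^ m / ε ^ (m + 1) * (b ^ (m + 1) / (m + 1))) * NC μ κ y v ε := by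
  unfold NC
  rw [← integral_const_mul, ← integral_indicator Metric.isClosed_closedBall.measurableSet]
  refine integral_mono_of_nonneg ?_ ?_ ?_
  · filter_upwards [h0] with z hz
    refine mul_nonneg (mul_nonneg (mul_nonneg dist_nonneg (wb_nonneg dist_nonneg))
      (mul_nonneg (qb_nonneg hε _) (Ab_nonneg m k dist_nonneg))) hz
  · rw [integrable_indicator_iff Metric.isClosed_closedBall.measurableSet]
    exact (integrableOn_gw κ y ε v).const_mul _
  · filter_upwards [h0] with z hz
    have hz0 : (0:ℝ) ≤ v z := hz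
    set d := dist y z with hd
    have hd0 : 0 ≤ d := dist_nonneg
    by_cases h1 : z ∈ Metric.closedBall y ε
    · rw [indicator_of_mem h1]
      rcases le_total d (ε / 2) with h2 | h2
      · rw [qb_zero_left hε h2]
        have : 0 ≤ 3 * 2 ^ m / ε ^ (m + 1) * (b ^ (m + 1) / (m + 1)) * (gw κ y z * v z) :=
          mul_nonneg (by positivity) (mul_nonneg (gw_pos κ y z).le hz0)
        simpa using this
      · have hdp : 0 < d := lt_of_lt_of_le (by positivity) h2
        have a1 : d * wb m κ d = (d ^ m)⁻¹ * gw κ y z := by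
          unfold wb gw
          rw [← hd, pow_succ]
          field_simp
        have a2 : (d ^ m)⁻¹ ≤ 2 ^ m / ε ^ m := by
          rw [inv_le_comm₀ (by positivity) (by positivity), inv_div, ← div_pow]
          exact pow_le_pow_left₀ (by positivity) h2 m
        have a3 := qb_le hε d
        have a4 := Ab_le m k hd0 hb
        rw [a1]
        have g0 := (gw_pos κ y z).le
        have q0 := qb_nonneg hε d
        have A0 := Ab_nonneg m k (b := b) hd0
        calc (d ^ m)⁻¹ * gw κ y z * (qb ε d * Ab m k b d) * v z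
            ≤ 2 ^ m / ε ^ m * gw κ y z * (3 / ε * (b ^ (m + 1) / (m + 1))) * v z := by gcongr
          _ = 3 * 2 ^ m / ε ^ (m + 1) * (b ^ (m + 1) / (m + 1)) * (gw κ y z * v z) := by
            rw [pow_succ ε m]; field_simp
    · rw [indicator_of_notMem h1]
      rw [Metric.mem_closedBall, not_le, dist_comm] at h1
      rw [qb_zero_right hε h1.le]
      simp

/-- Tonelli bound of the second right hand side term -/
theorem E_le [SFinite μ] {m k : ℕ} {κ : ℝ} (hκ : 0 ≤ κ) (y : X) {v : Lp ℝ 2 μ}
    (h0 : 0 ≤ᵐ[μ] (v : X → ℝ)) {h : ℝ} (hh : 0 < h) {ε b M : ℝ} (hε : 0 < ε) (hb : 0 ≤ b)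
    (hM : 0 ≤ M) (hN : ∀ τ, ε / 2 ≤ τ → τ ≤ b → NN μ κ y v τ ≤ M * τ ^ (m + 1) *
      Real.exp (τ ^ 2 / h)) :
    ∫ z, eb m k κ ε b (dist y z) * v z ∂μ ≤
      (b ^ (m + 1) / (m + 1)) * M * (h / 2) * Real.exp (b ^ 2 / h) := by
  set c : ℝ := (b ^ (m + 1) / (m + 1)) * M with hc
  have hc0 : 0 ≤ c := by positivity
  have hvm : Measurable (v : X → ℝ) := (Lp.stronglyMeasurable v).measurable
  have hdm : Measurable fun z : X => dist y z := (continuous_const.dist continuous_id).measurable
  have hgc : Continuous fun τ => τ * zb m k κ ε b τ := continuous_ei hε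
  have hg0 : ∀ τ, 0 ≤ τ * zb m k κ ε b τ := by
    intro τ
    rcases le_total τ (ε / 2) with h1 | h1
    · rw [zb_zero_left hε h1, mul_zero]
    · exact mul_nonneg ((by positivity : 0 ≤ ε / 2).trans h1) (zb_nonneg hε τ)
  have hE0 : ∀ z : X, 0 ≤ eb m k κ ε b (dist y z) := fun z => eb_nonneg hε dist_nonneg
  rw [integral_eq_lintegral_of_nonneg_ae ?_ ?_]
  rotate_left
  · filter_upwards [h0] with z hz
    exact mul_nonneg (hE0 z) hz
  · exact (((contDiff_eb hε).continuous.measurable.comp hdm).mul hvm).aestronglyMeasurable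
  refine ENNReal.toReal_le_of_le_ofReal (by positivity) ?_
  -- the double integral
  set Φ : X → ℝ → ℝ≥0∞ := fun z τ =>
    (Ioc (dist y z) b).indicator (fun τ => ENNReal.ofReal (τ * zb m k κ ε b τ)) τ *
      ENNReal.ofReal (v z) with hΦ
  have s1 : ∫⁻ z, ENNReal.ofReal (eb m k κ ε b (dist y z) * v z) ∂μ =
      ∫⁻ z, (∫⁻ τ, Φ z τ) ∂μ := by
    refine lintegral_congr fun z => ?_
    rw [hΦ]
    simp only
    rw [lintegral_mul_const _ ((hgc.measurable.ennreal_ofReal).indicator measurableSet_Ioc),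
      lintegral_indicator measurableSet_Ioc, ENNReal.ofReal_mul (hE0 z)]
    congr 1
    rcases le_total b (dist y z) with hz | hz
    · rw [eb_zero hz, Ioc_eq_empty (not_lt.2 hz)]; simp
    · unfold eb
      rw [intervalIntegral.integral_of_le hz, ofReal_integral_eq_lintegral_ofReal]
      · exact (hgc.integrableOn_Icc).mono_set Ioc_subset_Icc_self
      · exact Filter.Eventually.of_forall fun τ => hg0 τ
  have hmeas : Measurable (Function.uncurry Φ) := by
    have hs : MeasurableSet {p : X × ℝ | dist y p.1 < p.2 ∧ p.2 ≤ b} :=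
      (measurableSet_lt (hdm.comp measurable_fst) measurable_snd).inter
        (measurableSet_le measurable_snd measurable_const)
    have e : Function.uncurry Φ = fun p : X × ℝ =>
        ({p : X × ℝ | dist y p.1 < p.2 ∧ p.2 ≤ b}).indicator
          (fun p => ENNReal.ofReal (p.2 * zb m k κ ε b p.2)) p * ENNReal.ofReal (v p.1) := by
      funext p
      obtain ⟨z, τ⟩ := p
      simp only [Function.uncurry_apply_pair, hΦ]
      congr 1
    rw [e]
    exact (((hgc.measurable.comp measurable_snd).ennreal_ofReal).indicator hs).mul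
      ((hvm.comp measurable_fst).ennreal_ofReal)
  rw [s1, lintegral_lintegral_swap hmeas.aemeasurable]
  -- pointwise bound in `τ`
  have s2 : ∀ τ : ℝ, ∫⁻ z, Φ z τ ∂μ ≤
      (Ioc 0 b).indicator (fun τ => ENNReal.ofReal (c * (τ * Real.exp (τ ^ 2 / h)))) τ := by
    intro τ
    by_cases hτb : τ ≤ b
    swap
    · have : ∀ z, Φ z τ = 0 := fun z => by
        simp only [hΦ]
        rw [indicator_of_notMem (fun h => hτb h.2), zero_mul]
      simp only [this, lintegral_zero]
      exact zero_le
    rcases le_total τ (ε / 2) with hτ | hτ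
    · have : ∀ z, Φ z τ = 0 := fun z => by
        simp only [hΦ]
        by_cases hz : τ ∈ Ioc (dist y z) b
        · rw [indicator_of_mem hz, zb_zero_left hε hτ]; simp
        · rw [indicator_of_notMem hz, zero_mul]
      simp only [this, lintegral_zero]
      exact zero_le
    have hτ0 : 0 < τ := lt_of_lt_of_le (by positivity) hτ
    rw [indicator_of_mem (show τ ∈ Ioc (0:ℝ) b from ⟨hτ0, hτb⟩)]
    have e1 : ∀ z, Φ z τ = ENNReal.ofReal (τ * zb m k κ ε b τ) *
        (Metric.ball y τ).indicator (fun z => ENNReal.ofReal (v z)) z := fun z => by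
      simp only [hΦ]
      by_cases hz : z ∈ Metric.ball y τ
      · rw [indicator_of_mem hz, indicator_of_mem]
        exact ⟨Metric.mem_ball'.1 hz, hτb⟩
      · rw [indicator_of_notMem hz, indicator_of_notMem, zero_mul, mul_zero]
        exact fun h => hz (Metric.mem_ball'.2 h.1)
    simp only [e1]
    rw [lintegral_const_mul _ (hvm.ennreal_ofReal.indicator Metric.isOpen_ball.measurableSet),
      lintegral_indicator Metric.isOpen_ball.measurableSet]
    -- compare with the weighted mass
    have e2 : ∫⁻ z in Metric.ball y τ, ENNReal.ofReal (v z) ∂μ ≤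
        ENNReal.ofReal (Real.exp (κ * τ ^ 2 / 2) * NN μ κ y v τ) := by
      unfold NN
      rw [← integral_const_mul, ofReal_integral_eq_lintegral_ofReal]
      · refine setLIntegral_mono_ae' Metric.isOpen_ball.measurableSet ?_
        filter_upwards [h0] with z hz hzb
        refine ENNReal.ofReal_le_ofReal ?_
        have hz0 : (0:ℝ) ≤ v z := hz
        have hd : dist y z ≤ τ := (Metric.mem_ball'.1 hzb).le
        have hd0 : 0 ≤ dist y z := dist_nonneg
        have h3 : 1 ≤ Real.exp (κ * τ ^ 2 / 2) * gw κ y z := by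
          unfold gw
          rw [← Real.exp_add, Real.one_le_exp_iff]
          have : dist y z ^ 2 ≤ τ ^ 2 := pow_le_pow_left₀ hd0 hd 2
          nlinarith
        calc v z = 1 * v z := (one_mul _).symm
          _ ≤ (Real.exp (κ * τ ^ 2 / 2) * gw κ y z) * v z := by gcongr
          _ = _ := by ring
      · exact ((integrableOn_gw κ y τ v).mono_set Metric.ball_subset_closedBall).const_mul _
      · refine ae_restrict_of_ae ?_
        filter_upwards [h0] with z hz
        exact mul_nonneg (Real.exp_pos _).le (mul_nonneg (gw_pos κ y z).le hz)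
    refine (mul_le_mul_right e2 _).trans ?_
    rw [← ENNReal.ofReal_mul (hg0 τ)]
    refine ENNReal.ofReal_le_ofReal ?_
    have h4 := hN τ hτ hτb
    have h5 : τ * zb m k κ ε b τ ≤ (τ ^ m)⁻¹ * Real.exp (-(κ * τ ^ 2 / 2)) *
        (b ^ (m + 1) / (m + 1)) := by
      have a1 : τ * wb m κ τ = (τ ^ m)⁻¹ * Real.exp (-(κ * τ ^ 2 / 2)) := by
        unfold wb
        rw [pow_succ]
        field_simp
      unfold zb
      rw [← mul_assoc, a1]
      have a4 := Ab_le m k hτ0.le hb
      have A0 := Ab_nonneg m k (b := b) hτ0.le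
      have a5 : psi ε τ * Ab m k b τ ≤ 1 * (b ^ (m + 1) / (m + 1)) :=
        mul_le_mul (psi_le_one hε τ) a4 A0 zero_le_one
      rw [one_mul] at a5
      gcongr
    have hN0 := NN_nonneg (κ := κ) (y := y) h0 τ
    calc τ * zb m k κ ε b τ * (Real.exp (κ * τ ^ 2 / 2) * NN μ κ y v τ)
        ≤ ((τ ^ m)⁻¹ * Real.exp (-(κ * τ ^ 2 / 2)) * (b ^ (m + 1) / (m + 1))) *
          (Real.exp (κ * τ ^ 2 / 2) * (M * τ ^ (m + 1) * Real.exp (τ ^ 2 / h))) := by gcongr
      _ = (Real.exp (-(κ * τ ^ 2 / 2)) * Real.exp (κ * τ ^ 2 / 2)) *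
          (c * (((τ ^ m)⁻¹ * τ ^ (m + 1)) * Real.exp (τ ^ 2 / h))) := by rw [hc]; ring
      _ = c * (τ * Real.exp (τ ^ 2 / h)) := by
        rw [← Real.exp_add, neg_add_cancel, Real.exp_zero, one_mul]
        congr 2
        rw [pow_succ]
        field_simp
  refine (lintegral_mono s2).trans ?_
  rw [lintegral_indicator measurableSet_Ioc]
  have hcont : Continuous fun τ : ℝ => c * (τ * Real.exp (τ ^ 2 / h)) := by fun_prop
  rw [← ofReal_integral_eq_lintegral_ofReal ((hcont.integrableOn_Icc).mono_set Ioc_subset_Icc_self)]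
  · refine ENNReal.ofReal_le_ofReal ?_
    rw [← intervalIntegral.integral_of_le hb]
    have hder : ∀ τ ∈ uIcc 0 b, HasDerivAt (fun τ : ℝ => c * (h / 2 * Real.exp (τ ^ 2 / h)))
        (c * (τ * Real.exp (τ ^ 2 / h))) τ := by
      intro τ _
      have a1 : HasDerivAt (fun τ : ℝ => τ ^ 2 / h) ((2:ℕ) * τ ^ (2 - 1) / h) τ :=
        (hasDerivAt_pow 2 τ).div_const h
      refine ((a1.exp.const_mul (h / 2)).const_mul c).congr_deriv ?_
      simp only [Nat.add_one_sub_one, pow_one, Nat.cast_ofNat]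
      field_simp
    rw [intervalIntegral.integral_eq_sub_of_hasDerivAt hder (hcont.intervalIntegrable _ _)]
    have : 0 ≤ c * (h / 2 * Real.exp ((0:ℝ) ^ 2 / h)) := by positivity
    nlinarith
  · exact (ae_restrict_iff' measurableSet_Ioc).2 (Filter.Eventually.of_forall fun τ hτ =>
      mul_nonneg hc0 (mul_nonneg hτ.1.le (Real.exp_pos _).le))

end Crest.Agent.R247.Smv126
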