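import Crest.Agent.R247.Smv2_126

/-!
R247, block (5-M) (helper126): (SM), final form, all centres; a.e. form.
-/

set_option autoImplicit false
set_option linter.unusedSectionVars false

open MeasureTheory Filter Topology Set
open scoped RealInnerProductSpace ENNReal NNReal

noncomputable section

namespace Crest.Agent.R247.Smv126

open Crest.Agent.R247.Dir593 Crest.Agent.R247.Dir593.GradS

variable {X : Type*} [MetricSpace X] [MeasurableSpace X] {F : Type*}
  [NormedAddCommGroup F] [InnerProductSpace ℝ F] {μ : Measure X} [BorelSpace X]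
  [IsFiniteMeasureOnCompacts μ] [ProperSpace X] {S : GradS X F μ}

/-- one improvement step -/
theorem sm_step [SFinite μ] {m : ℕ} {κ : ℝ} (W : WLap S (m + 1) κ) (hκ : 0 ≤ κ) (y : X)
    {v : Lp ℝ 2 μ} (hv : v ∈ S.V) (h0 : 0 ≤ᵐ[μ] (v : X → ℝ)) {h : ℝ} (hh : 0 < h)
    (hsup : Sup S h v) {ε b M : ℝ} (hε : 0 < ε) (hb : ε ≤ b) (hM : 0 ≤ M)
    (hN : ∀ τ, ε / 2 ≤ τ → τ ≤ b → NN μ κ y v τ ≤ M * τ ^ (m + 1) * Real.exp (τ ^ 2 / h)) :
    NN μ κ y v b ≤ b ^ (m + 1) * Real.exp (b ^ 2 / h) *
      (2 ^ (m + 2) * (NC μ κ y v ε / ε ^ (m + 1)) + M / 2) := by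
  have hb0 : 0 < b := lt_of_lt_of_le hε hb
  have hC0 : 0 ≤ NC μ κ y v ε := NC_nonneg h0 ε
  -- the limit in `k`
  have h1 : ∀ k : ℕ, h * ∫ z, (gw κ y z * (psi ε (dist y z) * ub k b (dist y z))) * v z ∂μ ≤
      h * ((3 * 2 ^ m / ε ^ (m + 1) * (b ^ (m + 1) / (m + 1))) * NC μ κ y v ε) +
      (b ^ (m + 1) / (m + 1)) * M * (h / 2) * Real.exp (b ^ 2 / h) := by
    intro k
    refine (ineq_k W y hv h0 hh.le hsup hε hb0.le).trans (add_le_add ?_ ?_)
    · exact mul_le_mul_of_nonneg_left (X_le y h0 hε hb0.le) hh.le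
    · exact E_le hκ y h0 hh hε hb0.le hM hN
  have h2 : Tendsto (fun k : ℕ => ∫ z, (gw κ y z * (psi ε (dist y z) * ub k b (dist y z))) * v z ∂μ)
      atTop (𝓝 (∫ z, (Metric.ball y b).indicator (fun z => gw κ y z * psi ε (dist y z) * v z) z
        ∂μ)) := by
    refine tendsto_integral_of_dominated_convergence
      ((Metric.closedBall y b).indicator fun z => gw κ y z * v z) (fun k => ?_) ?_ (fun k => ?_) ?_
    · refine ((((continuous_gw κ y).mul
        (((contDiff_psi ε).continuous.comp (continuous_const.dist continuous_id)).mul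
        ((continuous_ub k b).comp (continuous_const.dist
          continuous_id)))).aestronglyMeasurable).mul
        (Lp.aestronglyMeasurable v))
    · rw [integrable_indicator_iff Metric.isClosed_closedBall.measurableSet]
      exact integrableOn_gw κ y b v
    · filter_upwards [h0] with z hz
      have hz0 : (0:ℝ) ≤ v z := hz
      have g0 := (gw_pos κ y z).le
      have p0 := psi_nonneg hε (dist y z)
      have p1 := psi_le_one hε (dist y z)
      have u0 := ub_nonneg k b (dist y z)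
      have u1 := ub_le_one k b (dist y z)
      rw [Real.norm_of_nonneg (by positivity)]
      by_cases h3 : z ∈ Metric.closedBall y b
      · rw [indicator_of_mem h3]
        calc gw κ y z * (psi ε (dist y z) * ub k b (dist y z)) * v z
            ≤ gw κ y z * (1 * 1) * v z := by gcongr
          _ = gw κ y z * v z := by ring
      · rw [indicator_of_notMem h3]
        rw [Metric.mem_closedBall, not_le, dist_comm] at h3
        rw [ub_zero k h3.le]; simp
    · refine Filter.Eventually.of_forall fun z => ?_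
      by_cases h3 : z ∈ Metric.ball y b
      · rw [indicator_of_mem h3]
        have h4 := tendsto_ub (Metric.mem_ball'.1 h3)
        have h5 := ((h4.const_mul (psi ε (dist y z))).const_mul (gw κ y z)).mul_const (v z)
        rw [mul_one] at h5
        exact h5
      · rw [indicator_of_notMem h3]
        have h4 : b ≤ dist y z := not_lt.1 fun h => h3 (Metric.mem_ball'.2 h)
        refine tendsto_const_nhds.congr fun k => ?_
        rw [ub_zero k h4]; simp
  have h3 := le_of_tendsto' (h2.const_mul h) h1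
  rw [integral_indicator Metric.isOpen_ball.measurableSet] at h3
  set J : ℝ := ∫ z in Metric.ball y b, gw κ y z * psi ε (dist y z) * v z ∂μ with hJ
  -- splitting
  have iB : IntegrableOn (fun z => gw κ y z * v z) (Metric.ball y b) μ :=
    (integrableOn_gw κ y b v).mono_set Metric.ball_subset_closedBall
  have iP : IntegrableOn (fun z => gw κ y z * psi ε (dist y z) * v z) (Metric.ball y b) μ := by
    refine iB.mono' ?_ ?_
    · exact ((((continuous_gw κ y).mul ((contDiff_psi ε).continuous.comp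
        (continuous_const.dist continuous_id))).aestronglyMeasurable).mul
        (Lp.aestronglyMeasurable v)).restrict
    · refine ae_restrict_of_ae ?_
      filter_upwards [h0] with z hz
      have hz0 : (0:ℝ) ≤ v z := hz
      have g0 := (gw_pos κ y z).le
      have p0 := psi_nonneg hε (dist y z)
      have p1 := psi_le_one hε (dist y z)
      rw [Real.norm_of_nonneg (by positivity)]
      calc gw κ y z * psi ε (dist y z) * v z ≤ gw κ y z * 1 * v z := by gcongr
        _ = gw κ y z * v z := by ring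
  have h4 : NN μ κ y v b ≤ NC μ κ y v ε + J := by
    have e1 : NN μ κ y v b - J = ∫ z in Metric.ball y b, gw κ y z * (1 - psi ε (dist y z)) * v z
        ∂μ := by
      unfold NN
      rw [hJ, ← integral_sub iB iP]
      refine integral_congr_ae (Filter.Eventually.of_forall fun z => ?_)
      simp only
      ring
    have e2 : ∫ z in Metric.ball y b, gw κ y z * (1 - psi ε (dist y z)) * v z ∂μ ≤
        NC μ κ y v ε := by
      unfold NC
      rw [← integral_indicator Metric.isOpen_ball.measurableSet,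
        ← integral_indicator Metric.isClosed_closedBall.measurableSet]
      refine integral_mono_of_nonneg ?_ ?_ ?_
      · filter_upwards [h0] with z hz
        have hz0 : (0:ℝ) ≤ v z := hz
        have g0 := (gw_pos κ y z).le
        have p1 := psi_le_one hε (dist y z)
        by_cases h6 : z ∈ Metric.ball y b
        · rw [indicator_of_mem h6]
          exact mul_nonneg (mul_nonneg g0 (by linarith)) hz0
        · rw [indicator_of_notMem h6]; exact le_rfl
      · rw [integrable_indicator_iff Metric.isClosed_closedBall.measurableSet]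
        exact integrableOn_gw κ y ε v
      · filter_upwards [h0] with z hz
        have hz0 : (0:ℝ) ≤ v z := hz
        have g0 := (gw_pos κ y z).le
        have p0 := psi_nonneg hε (dist y z)
        have p1 := psi_le_one hε (dist y z)
        by_cases h5 : z ∈ Metric.closedBall y ε
        · rw [indicator_of_mem h5]
          by_cases h6 : z ∈ Metric.ball y b
          · rw [indicator_of_mem h6]
            calc gw κ y z * (1 - psi ε (dist y z)) * v z ≤ gw κ y z * 1 * v z := by
                  gcongr; linarith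
              _ = gw κ y z * v z := by ring
          · rw [indicator_of_notMem h6]; positivity
        · rw [indicator_of_notMem h5]
          rw [Metric.mem_closedBall, not_le, dist_comm] at h5
          by_cases h6 : z ∈ Metric.ball y b
          · rw [indicator_of_mem h6, psi_one hε h5.le]; simp
          · rw [indicator_of_notMem h6]
    linarith
  -- arithmetic
  have hm : (0:ℝ) < (m:ℝ) + 1 := by positivity
  have h6 : J ≤ (3 * 2 ^ m / ε ^ (m + 1) * (b ^ (m + 1) / (m + 1))) * NC μ κ y v ε +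
      (b ^ (m + 1) / (m + 1)) * M * (1 / 2) * Real.exp (b ^ 2 / h) := by
    have : h * J ≤ h * ((3 * 2 ^ m / ε ^ (m + 1) * (b ^ (m + 1) / (m + 1))) * NC μ κ y v ε +
      (b ^ (m + 1) / (m + 1)) * M * (1 / 2) * Real.exp (b ^ 2 / h)) := by
      refine h3.trans_eq ?_
      ring
    exact le_of_mul_le_mul_left this hh
  have hE1 : 1 ≤ Real.exp (b ^ 2 / h) := Real.one_le_exp (by positivity)
  have hbε : 1 ≤ b ^ (m + 1) / ε ^ (m + 1) := by
    rw [one_le_div (by positivity)]
    exact pow_le_pow_left₀ hε.le hb _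
  have hbm : b ^ (m + 1) / (m + 1) ≤ b ^ (m + 1) := by
    rw [div_le_iff₀ hm]
    have : 0 ≤ b ^ (m + 1) * m := by positivity
    nlinarith
  set G : ℝ := NC μ κ y v ε / ε ^ (m + 1) with hG
  have hG0 : 0 ≤ G := by positivity
  have hCG : NC μ κ y v ε = G * ε ^ (m + 1) := by rw [hG]; field_simp
  have a1 : NC μ κ y v ε ≤ b ^ (m + 1) * G := by
    calc NC μ κ y v ε = 1 * NC μ κ y v ε := (one_mul _).symm
      _ ≤ b ^ (m + 1) / ε ^ (m + 1) * NC μ κ y v ε := by gcongr
      _ = b ^ (m + 1) * G := by rw [hG]; ring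
  have a2 : (3 * 2 ^ m / ε ^ (m + 1) * (b ^ (m + 1) / (m + 1))) * NC μ κ y v ε ≤
      3 * 2 ^ m * (b ^ (m + 1) * G) := by
    calc (3 * 2 ^ m / ε ^ (m + 1) * (b ^ (m + 1) / (m + 1))) * NC μ κ y v ε
        = 3 * 2 ^ m * ((b ^ (m + 1) / (m + 1)) * G) := by rw [hG]; field_simp
      _ ≤ 3 * 2 ^ m * (b ^ (m + 1) * G) := by gcongr
  have a3 : (b ^ (m + 1) / (m + 1)) * M * (1 / 2) * Real.exp (b ^ 2 / h) ≤
      b ^ (m + 1) * Real.exp (b ^ 2 / h) * (M / 2) := by
    calc (b ^ (m + 1) / (m + 1)) * M * (1 / 2) * Real.exp (b ^ 2 / h)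
        ≤ b ^ (m + 1) * M * (1 / 2) * Real.exp (b ^ 2 / h) := by gcongr
      _ = _ := by ring
  have a4 : (1 + 3 * 2 ^ m) * (b ^ (m + 1) * G) ≤
      b ^ (m + 1) * Real.exp (b ^ 2 / h) * (2 ^ (m + 2) * G) := by
    have h7 : (1:ℝ) ≤ 2 ^ m := one_le_pow₀ (by norm_num)
    have h8 : (2:ℝ) ^ (m + 2) = 4 * 2 ^ m := by rw [pow_add]; ring
    rw [h8]
    have h9 : 0 ≤ b ^ (m + 1) * G := by positivity
    calc (1 + 3 * 2 ^ m) * (b ^ (m + 1) * G) ≤ (4 * 2 ^ m) * (b ^ (m + 1) * G) := by
          gcongr; linarith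
      _ = 1 * ((4 * 2 ^ m) * (b ^ (m + 1) * G)) := (one_mul _).symm
      _ ≤ Real.exp (b ^ 2 / h) * ((4 * 2 ^ m) * (b ^ (m + 1) * G)) := by gcongr
      _ = _ := by ring
  calc NN μ κ y v b ≤ NC μ κ y v ε + J := h4
    _ ≤ b ^ (m + 1) * G + (3 * 2 ^ m * (b ^ (m + 1) * G) +
        b ^ (m + 1) * Real.exp (b ^ 2 / h) * (M / 2)) := by linarith
    _ ≤ b ^ (m + 1) * Real.exp (b ^ 2 / h) * (2 ^ (m + 2) * G) +
        b ^ (m + 1) * Real.exp (b ^ 2 / h) * (M / 2) := by linarith
    _ = _ := by ring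

/-- **(SM)**: mean value inequality at every centre, for all radii. -/
theorem sm [SFinite μ] {n : ℕ} (hn : 1 ≤ n) {κ : ℝ} (W : WLap S n κ) (hκ : 0 ≤ κ) (y : X)
    {v : Lp ℝ 2 μ} (hv : v ∈ S.V) (h0 : 0 ≤ᵐ[μ] (v : X → ℝ)) {h : ℝ} (hh : 0 < h)
    (hsup : Sup S h v) {ε b : ℝ} (hε : 0 < ε) (hb : ε ≤ b) :
    NN μ κ y v b ≤ 2 ^ (n + 2) * Real.exp (b ^ 2 / h) * (b / ε) ^ n * NC μ κ y v ε := by
  obtain ⟨m, rfl⟩ : ∃ m, n = m + 1 := ⟨n - 1, by omega⟩
  have hb0 : 0 < b := lt_of_lt_of_le hε hb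
  have hC0 : 0 ≤ NC μ κ y v ε := NC_nonneg h0 ε
  set A : ℝ := 2 ^ (m + 2) * (NC μ κ y v ε / ε ^ (m + 1)) with hA
  have hA0 : 0 ≤ A := by positivity
  let P : ℝ → Prop := fun M => ∀ τ, ε / 2 ≤ τ → τ ≤ b →
    NN μ κ y v τ ≤ M * τ ^ (m + 1) * Real.exp (τ ^ 2 / h)
  have step : ∀ M, 0 ≤ M → P M → P (A + M / 2) := by
    intro M hM hP τ h1 h2
    rcases le_total τ ε with h3 | h3
    · have hτ0 : 0 < τ := lt_of_lt_of_le (by positivity) h1
      have h4 : NN μ κ y v τ ≤ NC μ κ y v ε := NN_le_NC h0 h3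
      have h5 : NC μ κ y v ε ≤ A * τ ^ (m + 1) := by
        have h6 : ε ^ (m + 1) ≤ 2 ^ (m + 1) * τ ^ (m + 1) := by
          rw [← mul_pow]
          exact pow_le_pow_left₀ hε.le (by linarith) _
        rw [hA]
        have h7 : NC μ κ y v ε = (NC μ κ y v ε / ε ^ (m + 1)) * ε ^ (m + 1) := by field_simp
        have h8 : (2:ℝ) ^ (m + 1) ≤ 2 ^ (m + 2) := pow_le_pow_right₀ (by norm_num) (by omega)
        have h9 : 0 ≤ NC μ κ y v ε / ε ^ (m + 1) := by positivity
        calc NC μ κ y v ε = (NC μ κ y v ε / ε ^ (m + 1)) * ε ^ (m + 1) := h7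
          _ ≤ (NC μ κ y v ε / ε ^ (m + 1)) * (2 ^ (m + 2) * τ ^ (m + 1)) := by
            gcongr
            exact h6.trans (by gcongr)
          _ = _ := by ring
      have hE1 : 1 ≤ Real.exp (τ ^ 2 / h) := Real.one_le_exp (by positivity)
      calc NN μ κ y v τ ≤ A * τ ^ (m + 1) := h4.trans h5
        _ ≤ (A + M / 2) * τ ^ (m + 1) := by gcongr; linarith
        _ = (A + M / 2) * τ ^ (m + 1) * 1 := (mul_one _).symm
        _ ≤ _ := by gcongr
    · have := sm_step W hκ y hv h0 hh hsup hε h3 hM fun τ' a1 a2 => hP τ' a1 (a2.trans h2)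
      rw [← hA] at this
      calc NN μ κ y v τ ≤ _ := this
        _ = _ := by ring
  -- the initial constant
  set M0 : ℝ := NN μ κ y v b / (ε / 2) ^ (m + 1) with hM0
  have hNb : 0 ≤ NN μ κ y v b := NN_nonneg h0 b
  have hM00 : 0 ≤ M0 := by positivity
  have hP0 : P M0 := by
    intro τ h1 h2
    have hτ0 : 0 < τ := lt_of_lt_of_le (by positivity) h1
    have hE1 : 1 ≤ Real.exp (τ ^ 2 / h) := Real.one_le_exp (by positivity)
    have h3 : (ε / 2) ^ (m + 1) ≤ τ ^ (m + 1) := pow_le_pow_left₀ (by positivity) h1 _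
    calc NN μ κ y v τ ≤ NN μ κ y v b := NN_mono h0 h2
      _ = M0 * (ε / 2) ^ (m + 1) := by rw [hM0]; field_simp
      _ ≤ M0 * τ ^ (m + 1) := by gcongr
      _ = M0 * τ ^ (m + 1) * 1 := (mul_one _).symm
      _ ≤ _ := by gcongr
  -- iteration
  have hit : ∀ j : ℕ, 0 ≤ 2 * A + (M0 - 2 * A) / 2 ^ j ∧ P (2 * A + (M0 - 2 * A) / 2 ^ j) := by
    intro j
    induction j with
    | zero => simpa using ⟨hM00, hP0⟩
    | succ j ih =>
      have e : 2 * A + (M0 - 2 * A) / 2 ^ (j + 1) = A + (2 * A + (M0 - 2 * A) / 2 ^ j) / 2 := by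
        rw [pow_succ]; field_simp; ring
      rw [e]
      exact ⟨by have := ih.1; positivity, step _ ih.1 ih.2⟩
  have hlim : Tendsto (fun j : ℕ => (2 * A + (M0 - 2 * A) / 2 ^ j) * b ^ (m + 1) *
      Real.exp (b ^ 2 / h)) atTop (𝓝 ((2 * A + 0) * b ^ (m + 1) * Real.exp (b ^ 2 / h))) := by
    refine ((tendsto_const_nhds.add ?_).mul_const _).mul_const _
    have h1 : Tendsto (fun j : ℕ => (M0 - 2 * A) * ((1 / 2 : ℝ) ^ j)) atTop (𝓝 ((M0 - 2 * A) * 0)) :=
      (tendsto_pow_atTop_nhds_zero_of_lt_one (by norm_num) (by norm_num)).const_mul _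
    rw [mul_zero] at h1
    refine h1.congr fun j => ?_
    rw [div_pow, one_pow]; ring
  have hfin := ge_of_tendsto' hlim fun j => (hit j).2 b (by linarith) le_rfl
  refine hfin.trans_eq ?_
  rw [hA]
  have : (2:ℝ) ^ (m + 1 + 2) = 2 * 2 ^ (m + 2) := by rw [pow_succ]; ring
  rw [this, div_pow, add_zero]
  field_simp

end Crest.Agent.R247.Smv126
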