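import Crest.Agent.R247.Smv3_126
import Crest.Agent.R247.Dir6_593
import Crest.Agent.R247.Far0_553

/-!
R247, block (5-M) (helper126): (SM) almost everywhere, lower barrier for `R 1_B`, and
(R2): `(R_h φ)(y) ≥ c b⁻ⁿ ∫_{B(y,b/2)} φ` for a.e. `y`.
-/

set_option autoImplicit false
set_option linter.unusedSectionVars false

open MeasureTheory Filter Topology Set
open scoped RealInnerProductSpace ENNReal NNReal

noncomputable section

namespace Crest.Agent.R247.Smv126

open Crest.Agent.R242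
open Crest.Agent.R247.Dir593 Crest.Agent.R247.Dir593.GradS

/-- doubling from a `Rad` structure -/
theorem doubling_of_rad {n : ℕ} {κ : ℝ} {X : Type*} [MetricSpace X] [MeasurableSpace X]
    [BorelSpace X] {μ : Measure X} (C : Mcp688.Rad n κ X μ) (hκ : 0 ≤ κ) :
    IsUnifLocDoublingMeasure μ := by
  refine ⟨⟨Real.toNNReal (Real.exp (2 * κ) * 2 ^ n), ?_⟩⟩
  filter_upwards [Ioo_mem_nhdsGT (zero_lt_one' ℝ)] with ε hε x
  have h1 := C.measure_closedBall_le hκ x hε.1 (R := 2 * ε) (by linarith [hε.1])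
  refine h1.trans ?_
  have e : ((Real.toNNReal (Real.exp (2 * κ) * 2 ^ n) : ℝ≥0) : ℝ≥0∞) =
      ENNReal.ofReal (Real.exp (2 * κ) * 2 ^ n) := rfl
  rw [e]
  have hε0 : ε ≠ 0 := hε.1.ne'
  have h2 : 2 * ε / ε = 2 := by field_simp
  rw [h2]
  refine mul_le_mul_left (ENNReal.ofReal_le_ofReal ?_) _
  have h3 : κ * (2 * ε) ^ 2 / 2 ≤ 2 * κ := by
    have : ε ^ 2 ≤ 1 := pow_le_one₀ hε.1.le hε.2.le
    nlinarith
  have h4 : Real.exp (κ * (2 * ε) ^ 2 / 2) ≤ Real.exp (2 * κ) := Real.exp_le_exp.2 h3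
  exact mul_le_mul_of_nonneg_right h4 (by positivity)

variable {X : Type*} [MetricSpace X] [MeasurableSpace X] {F : Type*}
  [NormedAddCommGroup F] [InnerProductSpace ℝ F] {μ : Measure X} [BorelSpace X]
  [IsFiniteMeasureOnCompacts μ] [ProperSpace X] {S : GradS X F μ}

/-- supersolutions in the sense of the form -/
theorem sup_of_form [CompleteSpace F] {hd : Dense (S.V : Set (Lp ℝ 2 μ))} {v : Lp ℝ 2 μ} {h : ℝ}
    (hs : ∀ w ∈ S.V, 0 ≤ᵐ[μ] (w : X → ℝ) → 0 ≤ h * (S.form hd).E v w + ⟪v, w⟫) : Sup S h v := by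
  intro φ hφ h0
  have h1 := hs (tL hφ) (S.tL_mem hφ) (by
    filter_upwards [coe_tL (μ := μ) hφ] with z hz
    rw [hz]; exact h0 z)
  refine h1.trans_eq ?_
  rw [form_E, L2.inner_def, integral_add (integrable_vφ v hφ)
    ((integrable_DG (S.D v) hφ).const_mul h), integral_const_mul, add_comm]
  congr 1
  · refine integral_congr_ae ?_
    filter_upwards [coe_tL (μ := μ) hφ] with z hz
    rw [hz]; simp [mul_comm]
  · congr 1
    refine integral_congr_ae ?_
    filter_upwards [S.D_tL hφ] with z hz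
    rw [hz]

/-- **(SM)** at almost every point. -/
theorem sm_ae [SFinite μ] [IsUnifLocDoublingMeasure μ] {n : ℕ} (hn : 1 ≤ n) {κ : ℝ}
    (W : WLap S n κ) (hκ : 0 ≤ κ) {v : Lp ℝ 2 μ} (hv : v ∈ S.V) (h0 : 0 ≤ᵐ[μ] (v : X → ℝ))
    {h : ℝ} (hh : 0 < h) (hsup : Sup S h v) :
    ∀ᵐ y ∂μ, ∀ v1 : ℝ, 0 ≤ v1 →
      (∀ᶠ ε in 𝓝[>] (0:ℝ), μ (Metric.closedBall y ε) ≤ ENNReal.ofReal (v1 * ε ^ n)) →
      ∀ b : ℝ, 0 < b → ∫ z in Metric.ball y b, v z ∂μ ≤
        2 ^ (n + 2) * Real.exp (b ^ 2 / h + κ * b ^ 2 / 2) * v1 * b ^ n * v y := by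
  have : IsLocallyFiniteMeasure μ := isLocallyFiniteMeasure_of_isFiniteMeasureOnCompacts
  have hloc : LocallyIntegrable (v : X → ℝ) μ := (Lp.memLp v).locallyIntegrable (by norm_num)
  filter_upwards [IsUnifLocDoublingMeasure.ae_tendsto_average μ hloc 1] with y hy v1 hv1 hup b hb
  have hA : Tendsto (fun ε : ℝ => ⨍ z in Metric.closedBall y ε, v z ∂μ) (𝓝[>] 0) (𝓝 (v y)) := by
    refine hy (fun _ => y) (fun ε => ε) tendsto_id ?_
    filter_upwards [self_mem_nhdsWithin] with ε hε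
    rw [Metric.mem_closedBall, dist_self, one_mul]
    exact le_of_lt hε
  have hvb : IntegrableOn v (Metric.closedBall y b) μ :=
    integrableOn_of_L2 v Metric.isClosed_closedBall.measurableSet
      (isCompact_closedBall y b).measure_lt_top.ne
  -- first the weighted mass
  have h1 : NN μ κ y v b ≤ 2 ^ (n + 2) * Real.exp (b ^ 2 / h) * b ^ n * (v1 * v y) := by
    refine ge_of_tendsto ((hA.const_mul v1).const_mul _) ?_
    filter_upwards [hup, Ioc_mem_nhdsGT hb] with ε e1 e2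
    have hε : 0 < ε := e2.1
    have h2 := sm hn W hκ y hv h0 hh hsup hε e2.2
    have hvε : IntegrableOn v (Metric.closedBall y ε) μ :=
      hvb.mono_set (Metric.closedBall_subset_closedBall e2.2)
    have h3 : NC μ κ y v ε ≤ ∫ z in Metric.closedBall y ε, v z ∂μ := by
      unfold NC
      refine integral_mono_of_nonneg ?_ hvε ?_
      · refine ae_restrict_of_ae ?_
        filter_upwards [h0] with z hz
        exact mul_nonneg (gw_pos κ y z).le hz
      · refine ae_restrict_of_ae ?_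
        filter_upwards [h0] with z hz
        have hz0 : (0:ℝ) ≤ v z := hz
        calc gw κ y z * v z ≤ 1 * v z := by gcongr; exact gw_le_one hκ y z
          _ = v z := one_mul _
    have hI0 : 0 ≤ ∫ z in Metric.closedBall y ε, v z ∂μ :=
      integral_nonneg_of_ae (ae_restrict_of_ae h0)
    have hfin : μ (Metric.closedBall y ε) ≠ ∞ := (isCompact_closedBall y ε).measure_lt_top.ne
    have h4 : ∫ z in Metric.closedBall y ε, v z ∂μ =
        μ.real (Metric.closedBall y ε) * ⨍ z in Metric.closedBall y ε, v z ∂μ := by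
      rw [← smul_eq_mul, measure_smul_setAverage _ hfin]
    have hav0 : 0 ≤ ⨍ z in Metric.closedBall y ε, v z ∂μ := by
      rw [setAverage_eq, smul_eq_mul]
      exact mul_nonneg (by positivity) hI0
    have h5 : μ.real (Metric.closedBall y ε) ≤ v1 * ε ^ n :=
      ENNReal.toReal_le_of_le_ofReal (by positivity) e1
    have h6 : NC μ κ y v ε ≤ v1 * ε ^ n * ⨍ z in Metric.closedBall y ε, v z ∂μ := by
      refine h3.trans ?_
      rw [h4]
      gcongr
    calc NN μ κ y v b ≤ 2 ^ (n + 2) * Real.exp (b ^ 2 / h) * (b / ε) ^ n * NC μ κ y v ε := h2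
      _ ≤ 2 ^ (n + 2) * Real.exp (b ^ 2 / h) * (b / ε) ^ n *
          (v1 * ε ^ n * ⨍ z in Metric.closedBall y ε, v z ∂μ) := by gcongr
      _ = 2 ^ (n + 2) * Real.exp (b ^ 2 / h) * b ^ n *
          (v1 * ⨍ z in Metric.closedBall y ε, v z ∂μ) := by
        rw [div_pow]; field_simp
  have h2 : ∫ z in Metric.ball y b, v z ∂μ ≤ Real.exp (κ * b ^ 2 / 2) * NN μ κ y v b := by
    unfold NN
    rw [← integral_const_mul]
    refine setIntegral_mono_on_ae (hvb.mono_set Metric.ball_subset_closedBall)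
      (((integrableOn_gw κ y b v).mono_set Metric.ball_subset_closedBall).const_mul _)
      Metric.isOpen_ball.measurableSet ?_
    filter_upwards [h0] with z hz hzb
    have hz0 : (0:ℝ) ≤ v z := hz
    have hd : dist y z ≤ b := (Metric.mem_ball'.1 hzb).le
    have h3 : 1 ≤ Real.exp (κ * b ^ 2 / 2) * gw κ y z := by
      unfold gw
      rw [← Real.exp_add, Real.one_le_exp_iff]
      have : dist y z ^ 2 ≤ b ^ 2 := pow_le_pow_left₀ dist_nonneg hd 2
      nlinarith
    calc v z = 1 * v z := (one_mul _).symm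
      _ ≤ (Real.exp (κ * b ^ 2 / 2) * gw κ y z) * v z := by gcongr
      _ = _ := by ring
  refine h2.trans ((mul_le_mul_of_nonneg_left h1 (Real.exp_pos _).le).trans_eq ?_)
  rw [Real.exp_add]
  ring

/-! ### the lower barrier -/

/-- `(1 - s²/b²)⁺` -/
def r1 (b s : ℝ) : ℝ := max (1 - s ^ 2 / b ^ 2) 0

theorem hasDerivAt_p (b s : ℝ) :
    HasDerivAt (fun s : ℝ => 1 - s ^ 2 / b ^ 2) (-(2 * s / b ^ 2)) s := by
  have := ((hasDerivAt_pow 2 s).div_const (b ^ 2)).const_sub 1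
  simpa using this

theorem hasDerivAt_c2 (b s : ℝ) :
    HasDerivAt (fun s => r1 b s ^ 2) (-(4 * s / b ^ 2) * r1 b s) s := by
  have h1 := (hasDerivAt_sq_max (1 - s ^ 2 / b ^ 2)).comp s (hasDerivAt_p b s)
  refine h1.congr_deriv ?_
  unfold r1; ring

theorem r1_mul (b s : ℝ) : r1 b s * (1 - s ^ 2 / b ^ 2) = r1 b s ^ 2 := by
  unfold r1
  rcases le_total (1 - s ^ 2 / b ^ 2) 0 with h | h
  · rw [max_eq_right h]; ring
  · rw [max_eq_left h]; ring

theorem c3_eq (b s : ℝ) : r1 b s ^ 3 = r1 b s ^ 2 * (1 - s ^ 2 / b ^ 2) := by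
  rw [pow_succ (r1 b s) 2, pow_two, mul_assoc, mul_assoc, ← pow_two, ← r1_mul]

theorem hasDerivAt_c3 (b s : ℝ) :
    HasDerivAt (fun s => r1 b s ^ 3) (-(6 * s / b ^ 2) * r1 b s ^ 2) s := by
  have e : (fun s => r1 b s ^ 3) = fun s => r1 b s ^ 2 * (1 - s ^ 2 / b ^ 2) :=
    funext fun s => c3_eq b s
  rw [e]
  refine ((hasDerivAt_c2 b s).mul (hasDerivAt_p b s)).congr_deriv ?_
  have := r1_mul b s
  calc -(4 * s / b ^ 2) * r1 b s * (1 - s ^ 2 / b ^ 2) + r1 b s ^ 2 * -(2 * s / b ^ 2)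
      = -(4 * s / b ^ 2) * (r1 b s * (1 - s ^ 2 / b ^ 2)) + r1 b s ^ 2 * -(2 * s / b ^ 2) := by ring
    _ = _ := by rw [this]; ring

theorem continuous_r1 (b : ℝ) : Continuous (r1 b) := by unfold r1; fun_prop

theorem contDiff_c2 (b : ℝ) : ContDiff ℝ 1 (fun s => r1 b s ^ 2) := by
  refine contDiff_one_iff_deriv.2 ⟨fun s => (hasDerivAt_c2 b s).differentiableAt, ?_⟩
  have : deriv (fun s => r1 b s ^ 2) = fun s => -(4 * s / b ^ 2) * r1 b s :=
    funext fun s => (hasDerivAt_c2 b s).deriv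
  rw [this]
  exact (by fun_prop : Continuous fun s : ℝ => -(4 * s / b ^ 2)).mul (continuous_r1 b)

theorem contDiff_c3 (b : ℝ) : ContDiff ℝ 1 (fun s => r1 b s ^ 3) := by
  refine contDiff_one_iff_deriv.2 ⟨fun s => (hasDerivAt_c3 b s).differentiableAt, ?_⟩
  have : deriv (fun s => r1 b s ^ 3) = fun s => -(6 * s / b ^ 2) * r1 b s ^ 2 :=
    funext fun s => (hasDerivAt_c3 b s).deriv
  rw [this]
  exact (by fun_prop : Continuous fun s : ℝ => -(6 * s / b ^ 2)).mul ((continuous_r1 b).pow 2)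

theorem r1_zero {b s : ℝ} (hb : 0 < b) (h : b ≤ s) : r1 b s = 0 := by
  unfold r1
  rw [max_eq_right]
  have : 1 ≤ s ^ 2 / b ^ 2 := by
    rw [one_le_div (by positivity)]
    exact pow_le_pow_left₀ hb.le h 2
  linarith

theorem r1_nonneg (b s : ℝ) : 0 ≤ r1 b s := le_max_right _ _

theorem r1_le_one {b s : ℝ} (hb : 0 < b) : r1 b s ≤ 1 := by
  unfold r1
  refine max_le ?_ zero_le_one
  have : 0 ≤ s ^ 2 / b ^ 2 := by positivity
  linarith

theorem r1_half {b s : ℝ} (hb : 0 < b) (h0 : 0 ≤ s) (h : s ≤ b / 2) : 3 / 4 ≤ r1 b s := by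
  unfold r1
  refine le_max_of_le_left ?_
  have : s ^ 2 / b ^ 2 ≤ 1 / 4 := by
    rw [div_le_iff₀ (by positivity)]
    nlinarith
  linarith

/-- **lower barrier**: `(1 - d_y²/b²)₊³ ≤ (1 + 6 h (n + κ b²)/b²) R_h 1_{B(y,b)}` -/
theorem barrier [CompleteSpace F] (hd : Dense (S.V : Set (Lp ℝ 2 μ))) {n : ℕ} {κ : ℝ}
    (W : WLap S n κ) (hκ : 0 ≤ κ) (y : X) {h b : ℝ} (hh : 0 < h) (hb : 0 < b)
    (hB : MeasurableSet (Metric.ball y b)) (hμ : μ (Metric.ball y b) ≠ ∞) :
    ∀ᵐ z ∂μ, r1 b (dist y z) ^ 3 ≤ (1 + 6 * h * (n + κ * b ^ 2) / b ^ 2) *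
      (S.form hd).res h (ind hB hμ) z := by
  have T3 : IsT fun z => r1 b (dist y z) ^ 3 :=
    isT_radial y (contDiff_c3 b) (R := b) fun s hs => by rw [r1_zero hb hs]; norm_num
  have T2 : IsT fun z => r1 b (dist y z) ^ 2 :=
    isT_radial y (contDiff_c2 b) (R := b) fun s hs => by rw [r1_zero hb hs]; norm_num
  set Q := S.form hd with hQ
  set c : ℝ := 1 + 6 * h * (n + κ * b ^ 2) / b ^ 2 with hc
  have key := (S.markov hd).le_resD_sub hh (l := (Fnl.ofInner Q (ind hB hμ)).smul c)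
    (v := tL T3) (S.tL_mem T3) ?_
  · rw [resD_smul hh, resD_ofInner hh] at key
    filter_upwards [key, coe_tL (μ := μ) T3, Lp.coeFn_smul c (Q.res h (ind hB hμ))] with z e1 e2 e3
    rw [e2, e3, Pi.smul_apply, smul_eq_mul] at e1
    exact e1
  · intro w hw hw0
    obtain ⟨i1, i2, k2⟩ := W.lapV y hw hw0 T2 fun z => sq_nonneg _
    rw [integral_add i1 i2] at k2
    have iw : IntegrableOn w (Metric.ball y b) μ := integrableOn_of_L2 w hB hμ
    have hIw0 : 0 ≤ ∫ z in Metric.ball y b, w z ∂μ :=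
      integral_nonneg_of_ae (ae_restrict_of_ae hw0)
    -- the zeroth order term
    have k3 : ∫ z, (((n:ℝ) + κ * dist y z ^ 2) * r1 b (dist y z) ^ 2 +
        ⟪S.G (hf y) z, S.G (fun z => r1 b (dist y z) ^ 2) z⟫) * w z ∂μ ≤
        (n + κ * b ^ 2) * ∫ z in Metric.ball y b, w z ∂μ := by
      rw [← integral_const_mul, ← integral_indicator hB]
      refine integral_mono_ae i1 ((integrable_indicator_iff hB).2 (iw.const_mul _)) ?_
      filter_upwards [W.inner_radial y (contDiff_c2 b), hw0] with z e1 e2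
      have e20 : (0:ℝ) ≤ w z := e2
      rw [e1, (hasDerivAt_c2 b (dist y z)).deriv]
      have d0 : 0 ≤ dist y z := dist_nonneg
      have r0 := r1_nonneg b (dist y z)
      by_cases hz : z ∈ Metric.ball y b
      · rw [indicator_of_mem hz]
        have hzb : dist y z ≤ b := (Metric.mem_ball'.1 hz).le
        have a1 : dist y z * (-(4 * dist y z / b ^ 2) * r1 b (dist y z)) ≤ 0 := by
          have : 0 ≤ dist y z * ((4 * dist y z / b ^ 2) * r1 b (dist y z)) := by positivity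
          linarith
        have a2 : ((n:ℝ) + κ * dist y z ^ 2) * r1 b (dist y z) ^ 2 ≤ (n + κ * b ^ 2) * 1 := by
          have := r1_le_one (s := dist y z) hb
          have h1 : r1 b (dist y z) ^ 2 ≤ 1 := pow_le_one₀ r0 this
          gcongr
        have a3 := add_le_add a2 a1
        calc _ ≤ ((n + κ * b ^ 2) * 1 + 0) * w z := by gcongr
          _ = _ := by ring
      · rw [indicator_of_notMem hz]
        have hzb : b ≤ dist y z := not_lt.1 fun h => hz (Metric.mem_ball'.2 h)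
        rw [r1_zero hb hzb]; simp
    -- the energy
    have k4 : Q.E (tL T3) w = -(6 / b ^ 2) * ∫ z, r1 b (dist y z) ^ 2 *
        ⟪S.G (hf y) z, S.D w z⟫ ∂μ := by
      rw [hQ, form_E, ← integral_const_mul]
      refine integral_congr_ae ?_
      filter_upwards [S.D_tL T3, G_comp S y (contDiff_c3 b), G_hf S y] with z e1 e2 e3
      rw [e1, e2, e3, (hasDerivAt_c3 b (dist y z)).deriv, real_inner_smul_left,
        real_inner_smul_left]
      ring
    have k5 : (⟪(tL T3 : Lp ℝ 2 μ), w⟫ : ℝ) ≤ ∫ z in Metric.ball y b, w z ∂μ := by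
      rw [L2.inner_def, ← integral_indicator hB]
      refine integral_mono_ae (L2.integrable_inner _ _) ((integrable_indicator_iff hB).2 iw) ?_
      filter_upwards [coe_tL (μ := μ) T3, hw0] with z e1 e2
      have e20 : (0:ℝ) ≤ w z := e2
      rw [e1]
      have e3 : (inner ℝ (r1 b (dist y z) ^ 3) (w z) : ℝ) = r1 b (dist y z) ^ 3 * w z := by
        simp [mul_comm]
      rw [e3]
      by_cases hz : z ∈ Metric.ball y b
      · rw [indicator_of_mem hz]
        have h1 : r1 b (dist y z) ^ 3 ≤ 1 := pow_le_one₀ (r1_nonneg _ _) (r1_le_one hb)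
        calc r1 b (dist y z) ^ 3 * w z ≤ 1 * w z := by gcongr
          _ = w z := one_mul _
      · rw [indicator_of_notMem hz]
        have hzb : b ≤ dist y z := not_lt.1 fun h => hz (Metric.mem_ball'.2 h)
        rw [r1_zero hb hzb]; simp
    show h * Q.E (tL T3) w + ⟪(tL T3 : Lp ℝ 2 μ), w⟫ ≤ c * ⟪ind hB hμ, w⟫
    have k6 : (⟪ind hB hμ, w⟫ : ℝ) = ∫ z in Metric.ball y b, w z ∂μ := by
      rw [real_inner_comm, inner_ind]
    rw [k6, k4]
    set I2 : ℝ := ∫ z, r1 b (dist y z) ^ 2 * ⟪S.G (hf y) z, S.D w z⟫ ∂μ with hI2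
    set Iw : ℝ := ∫ z in Metric.ball y b, w z ∂μ with hIw
    have h7 : -I2 ≤ (n + κ * b ^ 2) * Iw := by linarith
    have h8 : h * (-(6 / b ^ 2) * I2) ≤ (6 * h / b ^ 2) * ((n + κ * b ^ 2) * Iw) := by
      have e : h * (-(6 / b ^ 2) * I2) = (6 * h / b ^ 2) * (-I2) := by ring
      rw [e]
      gcongr
    have e9 : c * Iw = Iw + (6 * h / b ^ 2) * ((n + κ * b ^ 2) * Iw) := by rw [hc]; ring
    rw [e9]
    linarith

/-- **(R2)**: lower bound of the resolvent by local means, at almost every point. -/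
theorem r2 [SFinite μ] [IsUnifLocDoublingMeasure μ] [CompleteSpace F]
    (hd : Dense (S.V : Set (Lp ℝ 2 μ))) {n : ℕ} (hn : 1 ≤ n) {κ : ℝ}
    (W : WLap S n κ) (hκ : 0 ≤ κ) {φ : Lp ℝ 2 μ} (h0 : 0 ≤ᵐ[μ] (φ : X → ℝ))
    {h : ℝ} (hh : 0 < h) :
    ∀ᵐ y ∂μ, ∀ v1 : ℝ, 0 ≤ v1 →
      (∀ᶠ ε in 𝓝[>] (0:ℝ), μ (Metric.closedBall y ε) ≤ ENNReal.ofReal (v1 * ε ^ n)) →
      ∀ b : ℝ, 0 < b → ∫ z in Metric.ball y (b / 2), φ z ∂μ ≤
        64 / 27 * (1 + 6 * h * (n + κ * b ^ 2) / b ^ 2) *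
        (2 ^ (n + 2) * Real.exp (b ^ 2 / h + κ * b ^ 2 / 2) * v1 * b ^ n) *
        (S.form hd).res h φ y := by
  set v : Lp ℝ 2 μ := (S.form hd).res h φ with hvdef
  have hv : v ∈ S.V := (S.form hd).res_mem hh φ
  have hv0 : 0 ≤ᵐ[μ] (v : X → ℝ) := (S.markov hd).res_nonneg hh h0
  have hsup : Sup S h v := by
    refine sup_of_form (hd := hd) fun w hw hw0 => ?_
    have h1 := (S.form hd).res_eq hh φ hw
    rw [← hvdef] at h1
    have h2 : (0:ℝ) ≤ ⟪φ, w⟫ := by
      rw [L2.inner_def]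
      refine integral_nonneg_of_ae ?_
      filter_upwards [h0, hw0] with z e1 e2
      have : (inner ℝ (φ z) (w z) : ℝ) = φ z * w z := by simp [mul_comm]
      simp only [Pi.zero_apply]
      rw [this]
      exact mul_nonneg e1 e2
    rw [h1]
    exact h2
  filter_upwards [sm_ae hn W hκ hv hv0 hh hsup] with y hy v1 hv1 hup b hb
  have h1 := hy v1 hv1 hup b hb
  have hB : MeasurableSet (Metric.ball y b) := Metric.isOpen_ball.measurableSet
  have hμ : μ (Metric.ball y b) ≠ ∞ :=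
    ((measure_mono Metric.ball_subset_closedBall).trans_lt
      (isCompact_closedBall y b).measure_lt_top).ne
  have h2 := barrier hd W hκ y hh hb hB hμ
  set c : ℝ := 1 + 6 * h * (n + κ * b ^ 2) / b ^ 2 with hc
  have hc0 : 0 ≤ c := by positivity
  -- symmetry
  have h3 : ∫ z in Metric.ball y b, v z ∂μ = ⟪(S.form hd).res h (ind hB hμ), φ⟫ := by
    rw [← inner_ind _ hB hμ, hvdef, (S.form hd).res_symm, real_inner_comm]
  have h4 : ∫ z in Metric.ball y (b / 2), φ z ∂μ ≤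
      64 / 27 * (c * ⟪(S.form hd).res h (ind hB hμ), φ⟫) := by
    rw [L2.inner_def, ← integral_const_mul, ← integral_const_mul,
      ← integral_indicator Metric.isOpen_ball.measurableSet]
    refine integral_mono_ae ?_ ((((L2.integrable_inner _ _).const_mul c)).const_mul _) ?_
    · refine (integrable_indicator_iff Metric.isOpen_ball.measurableSet).2
        (integrableOn_of_L2 φ Metric.isOpen_ball.measurableSet ?_)
      exact ((measure_mono Metric.ball_subset_closedBall).trans_lt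
        (isCompact_closedBall y (b / 2)).measure_lt_top).ne
    · filter_upwards [h2, h0] with z e1 e2
      have e20 : (0:ℝ) ≤ φ z := e2
      have e3 : (inner ℝ ((S.form hd).res h (ind hB hμ) z) (φ z) : ℝ) =
          (S.form hd).res h (ind hB hμ) z * φ z := by simp [mul_comm]
      rw [e3, ← mul_assoc c]
      by_cases hz : z ∈ Metric.ball y (b / 2)
      · rw [indicator_of_mem hz]
        have h5 := r1_half hb (dist_nonneg (x := y) (y := z)) (Metric.mem_ball'.1 hz).le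
        have h6 : (27:ℝ) / 64 ≤ r1 b (dist y z) ^ 3 := by
          have : ((3:ℝ) / 4) ^ 3 ≤ r1 b (dist y z) ^ 3 := pow_le_pow_left₀ (by norm_num) h5 3
          linarith [this, (by norm_num : ((3:ℝ) / 4) ^ 3 = 27 / 64)]
        have h7 : (27:ℝ) / 64 ≤ c * (S.form hd).res h (ind hB hμ) z := h6.trans e1
        calc φ z = 64 / 27 * ((27 / 64) * φ z) := by ring
          _ ≤ 64 / 27 * ((c * (S.form hd).res h (ind hB hμ) z) * φ z) := by gcongr
      · rw [indicator_of_notMem hz]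
        have h6 : 0 ≤ r1 b (dist y z) ^ 3 := pow_nonneg (r1_nonneg _ _) 3
        have h7 : 0 ≤ c * (S.form hd).res h (ind hB hμ) z := h6.trans e1
        positivity
  rw [← h3] at h4
  calc ∫ z in Metric.ball y (b / 2), φ z ∂μ ≤ 64 / 27 * (c * ∫ z in Metric.ball y b, v z ∂μ) := h4
    _ ≤ 64 / 27 * (c * (2 ^ (n + 2) * Real.exp (b ^ 2 / h + κ * b ^ 2 / 2) * v1 * b ^ n * v y)) := by
      gcongr
    _ = _ := by ring

end Crest.Agent.R247.Smv126
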