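import Crest.Agent.R247.Smv4_126

/-!
R247, block (5-M) (helper126): compactly supported locally Lipschitz functions are Lipschitz;
`WLap` from 688's `Rad` and the radial derivative identity; (R2) in the `loc` form of `Far0`.
-/

set_option autoImplicit false
set_option linter.unusedSectionVars false

open MeasureTheory Filter Topology Set
open scoped RealInnerProductSpace ENNReal NNReal

noncomputable section

namespace Crest.Agent.R247.Smv126

open Crest.Agent.R242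
open Crest.Agent.R247.Dir593 Crest.Agent.R247.Dir593.GradS

/-- a locally Lipschitz function with compact support is Lipschitz -/
theorem isT_lip {X : Type*} [MetricSpace X] {f : X → ℝ} (hf : IsT f) :
    ∃ L : ℝ, 0 ≤ L ∧ ∀ y z, |f y - f z| ≤ L * dist y z := by
  by_contra hcon
  push Not at hcon
  have h1 : ∀ k : ℕ, ∃ a b : X, a ∈ tsupport f ∧ (k:ℝ) * dist a b < |f a - f b| := by
    intro k
    obtain ⟨y, z, hyz⟩ := hcon k (Nat.cast_nonneg k)
    by_cases hy : y ∈ tsupport f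
    · exact ⟨y, z, hy, hyz⟩
    · by_cases hz : z ∈ tsupport f
      · refine ⟨z, y, hz, ?_⟩
        rw [dist_comm, abs_sub_comm]; exact hyz
      · rw [image_eq_zero_of_notMem_tsupport hy, image_eq_zero_of_notMem_tsupport hz, sub_self,
          abs_zero] at hyz
        exact absurd hyz (not_lt.2 (mul_nonneg (Nat.cast_nonneg k) dist_nonneg))
  choose a b ha hab using h1
  obtain ⟨x, -, φ, hφ, hx⟩ := hf.2.isCompact.tendsto_subseq ha
  obtain ⟨M, hM⟩ : ∃ M : ℝ, ∀ y, |f y| ≤ M := by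
    obtain ⟨M, hM⟩ := hf.1.continuous.bounded_above_of_compact_support hf.2
    exact ⟨M, hM⟩
  have hM0 : 0 ≤ M := (abs_nonneg _).trans (hM x)
  -- the other point converges too
  have hd : Tendsto (fun k => dist (a (φ k)) (b (φ k))) atTop (𝓝 0) := by
    have h2 : Tendsto (fun k : ℕ => 2 * M / ((k:ℝ) + 1)) atTop (𝓝 0) := by
      have := (tendsto_one_div_add_atTop_nhds_zero_nat (𝕜 := ℝ)).const_mul (2 * M)
      simpa [div_eq_mul_inv] using this
    have h3 : Tendsto (fun k : ℕ => 2 * M / (k:ℝ)) atTop (𝓝 0) :=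
      tendsto_const_nhds.div_atTop tendsto_natCast_atTop_atTop
    refine squeeze_zero' (Filter.Eventually.of_forall fun _ => dist_nonneg) ?_
      (h3.comp hφ.tendsto_atTop)
    filter_upwards [eventually_gt_atTop 0] with k hk
    have hk1 : (0:ℝ) < (φ k : ℝ) := by
      have : k ≤ φ k := hφ.le_apply
      exact_mod_cast lt_of_lt_of_le hk this
    show dist (a (φ k)) (b (φ k)) ≤ 2 * M / (φ k : ℝ)
    rw [le_div_iff₀ hk1]
    have h4 := (hab (φ k)).le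
    have h5 := abs_sub (f (a (φ k))) (f (b (φ k)))
    have h6 := hM (a (φ k))
    have h7 := hM (b (φ k))
    linarith
  have hbx : Tendsto (fun k => b (φ k)) atTop (𝓝 x) := by
    rw [tendsto_iff_dist_tendsto_zero]
    refine squeeze_zero (fun _ => dist_nonneg) (fun k => dist_triangle_left (b (φ k)) x (a (φ k))) ?_
    have := hd.add (tendsto_iff_dist_tendsto_zero.1 hx)
    simpa using this
  obtain ⟨K, t, ht, hK⟩ := hf.1 x
  have e1 := hx.eventually_mem ht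
  have e2 := hbx.eventually_mem ht
  have e3 : ∀ᶠ k : ℕ in atTop, (K:ℝ) ≤ (φ k : ℝ) :=
    (tendsto_natCast_atTop_atTop.comp hφ.tendsto_atTop).eventually_ge_atTop (K:ℝ)
  obtain ⟨k, k1, k2, k3⟩ := (e1.and (e2.and e3)).exists
  have h8 := hK.dist_le_mul _ k1 _ k2
  simp only [Function.comp_apply] at h8
  rw [Real.dist_eq] at h8
  have h9 := hab (φ k)
  have h10 : (K:ℝ) * dist (a (φ k)) (b (φ k)) ≤ (φ k : ℝ) * dist (a (φ k)) (b (φ k)) :=
    mul_le_mul_of_nonneg_right k3 dist_nonneg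
  linarith

variable {X : Type*} [MetricSpace X] [MeasurableSpace X] {F : Type*}
  [NormedAddCommGroup F] [InnerProductSpace ℝ F] {μ : Measure X} [BorelSpace X]
  [IsFiniteMeasureOnCompacts μ] [ProperSpace X] {S : GradS X F μ}

/-- **`WLap` from `Rad`**: the only manifold input is the identity
`(radial derivative of φ w.r.t. y) = ⟪∇ (d_y²/2), ∇ φ⟫` and `|∇ d_y| = 1`. -/
theorem WLap.of_rad {n : ℕ} {κ : ℝ} (C : Mcp688.Rad n κ X μ) (hκ : 0 ≤ κ)
    (hRD : ∀ (y : X) {φ : X → ℝ}, IsT φ →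
      Mcp688.RD C y φ fun z => ⟪S.G (hf y) z, S.G φ z⟫)
    (hunit : ∀ y : X, ∀ᵐ z ∂μ, ‖S.G (dist y) z‖ = 1) : WLap S n κ where
  unit := hunit
  lap := by
    intro y φ hφ h0
    obtain ⟨L, -, hL⟩ := isT_lip hφ
    obtain ⟨R, hR⟩ := hφ.2.isCompact.isBounded.subset_closedBall y
    have hRR : ∀ z, max R 0 < dist y z → φ z = 0 := fun z hz => by
      refine image_eq_zero_of_notMem_tsupport fun h => ?_
      have := hR h
      rw [Metric.mem_closedBall, dist_comm] at this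
      exact absurd (this.trans (le_max_left R 0)) (not_le.2 hz)
    exact (C.weak_lap' hκ y hφ.1.continuous.measurable h0 hL (le_max_right R 0) hRR
      (isCompact_closedBall y _).measure_lt_top.ne (hRD y hφ)).2.2

/-- the constant of (R2) -/
def cR2 (n : ℕ) (K v1 : ℝ) : ℝ :=
  64 / 27 * (1 + 6 * (n + 4 * K ^ 2) / (4 * K ^ 2)) *
    (2 ^ (n + 2) * Real.exp (6 * K ^ 2) * v1 * (2 * K) ^ n)

/-- **(R2)** in the `loc` form: `ρ⁻ⁿ ∫_{B(y,Kρ)} φ ≤ C R_ρ φ (y)` for a.e. `y`. -/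
theorem r2_loc [SFinite μ] [IsUnifLocDoublingMeasure μ] [CompleteSpace F]
    (hd : Dense (S.V : Set (Lp ℝ 2 μ))) {n : ℕ} (hn : 1 ≤ n) {κ : ℝ}
    (W : WLap S n κ) (hκ : 0 ≤ κ) {φ : Lp ℝ 2 μ} (h0 : 0 ≤ᵐ[μ] (φ : X → ℝ))
    {ρ : ℝ} (hρ : 0 < ρ) (hκρ : κ * ρ ^ 2 ≤ 1) {K v1 : ℝ} (hK : 0 < K) (hv1 : 0 ≤ v1) :
    ∀ᵐ y ∂μ,
      (∀ᶠ ε in 𝓝[>] (0:ℝ), μ (Metric.closedBall y ε) ≤ ENNReal.ofReal (v1 * ε ^ n)) →
      Far553.loc μ n K ρ φ y ≤ ENNReal.ofReal (cR2 n K v1 * (S.form hd).res (ρ ^ 2) φ y) := by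
  have hres0 := (S.markov hd).res_nonneg (sq_pos_of_pos hρ) h0
  filter_upwards [r2 hd hn W hκ h0 (sq_pos_of_pos hρ), hres0] with y hy hres hup
  have hres' : (0:ℝ) ≤ (S.form hd).res (ρ ^ 2) φ y := hres
  have h1 := hy v1 hv1 hup (2 * (K * ρ)) (by positivity)
  have e0 : 2 * (K * ρ) / 2 = K * ρ := by ring
  rw [e0] at h1
  unfold Far553.loc
  have hfin : μ (Metric.ball y (K * ρ)) ≠ ∞ :=
    ((measure_mono Metric.ball_subset_closedBall).trans_lt
      (isCompact_closedBall y _).measure_lt_top).ne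
  rw [← ofReal_integral_eq_lintegral_ofReal
    (integrableOn_of_L2 φ Metric.isOpen_ball.measurableSet hfin) (ae_restrict_of_ae h0),
    ← ENNReal.ofReal_mul (by positivity)]
  refine ENNReal.ofReal_le_ofReal ?_
  have hb : (2 * (K * ρ)) ^ n = (2 * K) ^ n * ρ ^ n := by rw [← mul_pow]; ring
  have a1 : 6 * ρ ^ 2 * (n + κ * (2 * (K * ρ)) ^ 2) / (2 * (K * ρ)) ^ 2 ≤
      6 * (n + 4 * K ^ 2) / (4 * K ^ 2) := by
    rw [div_le_div_iff₀ (by positivity) (by positivity)]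
    have h2 : κ * (2 * (K * ρ)) ^ 2 ≤ 4 * K ^ 2 := by
      calc κ * (2 * (K * ρ)) ^ 2 = (κ * ρ ^ 2) * (4 * K ^ 2) := by ring
        _ ≤ 1 * (4 * K ^ 2) := by gcongr
        _ = _ := one_mul _
    calc 6 * ρ ^ 2 * (n + κ * (2 * (K * ρ)) ^ 2) * (4 * K ^ 2)
        ≤ 6 * ρ ^ 2 * (n + 4 * K ^ 2) * (4 * K ^ 2) := by gcongr
      _ = 6 * (n + 4 * K ^ 2) * (2 * (K * ρ)) ^ 2 := by ring
  have a2 : Real.exp ((2 * (K * ρ)) ^ 2 / ρ ^ 2 + κ * (2 * (K * ρ)) ^ 2 / 2) ≤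
      Real.exp (6 * K ^ 2) := by
    refine Real.exp_le_exp.2 ?_
    have h2 : (2 * (K * ρ)) ^ 2 / ρ ^ 2 = 4 * K ^ 2 := by field_simp; ring
    have h3 : κ * (2 * (K * ρ)) ^ 2 / 2 ≤ 2 * K ^ 2 := by
      calc κ * (2 * (K * ρ)) ^ 2 / 2 = (κ * ρ ^ 2) * (2 * K ^ 2) := by ring
        _ ≤ 1 * (2 * K ^ 2) := by gcongr
        _ = _ := one_mul _
    rw [h2]; linarith
  have hρn : 0 < ρ ^ n := by positivity
  calc ρ⁻¹ ^ n * ∫ z in Metric.ball y (K * ρ), φ z ∂μ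
      ≤ ρ⁻¹ ^ n * (64 / 27 * (1 + 6 * ρ ^ 2 * (n + κ * (2 * (K * ρ)) ^ 2) / (2 * (K * ρ)) ^ 2) *
        (2 ^ (n + 2) * Real.exp ((2 * (K * ρ)) ^ 2 / ρ ^ 2 + κ * (2 * (K * ρ)) ^ 2 / 2) * v1 *
          (2 * (K * ρ)) ^ n) * (S.form hd).res (ρ ^ 2) φ y) := by gcongr
    _ ≤ ρ⁻¹ ^ n * (64 / 27 * (1 + 6 * (n + 4 * K ^ 2) / (4 * K ^ 2)) *
        (2 ^ (n + 2) * Real.exp (6 * K ^ 2) * v1 * ((2 * K) ^ n * ρ ^ n)) *
          (S.form hd).res (ρ ^ 2) φ y) := by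
      rw [hb]; gcongr
    _ = cR2 n K v1 * (S.form hd).res (ρ ^ 2) φ y := by
      unfold cR2
      rw [inv_pow]
      field_simp

theorem cR2_nonneg (n : ℕ) {K v1 : ℝ} (hK : 0 < K) (hv1 : 0 ≤ v1) : 0 ≤ cR2 n K v1 := by
  unfold cR2; positivity

end Crest.Agent.R247.Smv126
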