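import Crest.Agent.R247.Far1_553
import Crest.Agent.R247.Mv4_447
import Crest.Agent.R247.Lx1_149

/-!
# (1-STP), part 1: one backward step (doc 1392, sec. 2-3) from `BLP`, `CEP`

`brk_le` is the choice of the thickness; `window` is the step over one window of the ray.
-/

set_option autoImplicit false
set_option linter.unusedSectionVars false
open MeasureTheory Set Filter Topology Metric
open scoped ENNReal NNReal

noncomputable section
namespace Crest.Agent.R247.Stp553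

universe u
open Crest.Agent.R247.Mcp688 Crest.Agent.R247.Far553 Crest.Agent.R247.Exc853

/-- a dyadic number in `[a/2, a]` -/
lemma exists_dy {a : ℝ} (ha : 0 < a) (ha1 : a ≤ 1) : ∃ k : ℕ, a / 2 ≤ dy k ∧ dy k ≤ a := by
  obtain ⟨k, hk1, hk2⟩ := exists_nat_pow_near_of_lt_one (x := a) (y := (1 / 2 : ℝ)) ha ha1
    (by norm_num) (by norm_num)
  have h1 : a ≤ dy k := hk2
  have h2 : dy (k + 1) < a := hk1
  refine ⟨k + 1, ?_, h2.le⟩
  rw [dy_succ]; linarith

/-- size of the bracket -/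
lemma brk_le {η A' ρ L DT xb e C2 S : ℝ} (hη1 : η ≤ 1) (hL : 0 < L)
    (hDT : 0 ≤ DT) (hS : S = Real.sqrt (L * DT)) (hSA : S ≤ A') (hA' : 0 < A')
    (hA'L : A' ≤ L / 256) (hρ0 : 0 < ρ) (hρ : ρ ≤ η * A') (hC2 : 0 ≤ C2) (he : 0 ≤ e)
    (hxb : xb ≤ 224 * (DT + ρ ^ 2 / L)) {R : ℝ} (hR : R ≤ 2 * A') :
    brk ρ (L + 2 * ρ) xb C2 R e ≤ 23 * S + (24 * η + 2 * C2 * e) * A' := by
  have hS0 : 0 ≤ S := by rw [hS]; positivity
  have hS2 : S ^ 2 = L * DT := by rw [hS, Real.sq_sqrt (by positivity)]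
  have hρA : ρ ≤ A' := hρ.trans (by nlinarith)
  have hρL : ρ ≤ L / 256 := hρA.trans hA'L
  have hDTe : DT = S ^ 2 / L := by rw [hS2]; field_simp
  have h1 : 224 * DT ≤ S := by
    rw [hDTe, ← mul_div_assoc, div_le_iff₀ hL]
    nlinarith
  have h2 : 224 * (ρ ^ 2 / L) ≤ ρ := by
    rw [← mul_div_assoc, div_le_iff₀ hL]
    nlinarith
  have hxb1 : xb ≤ S + ρ := by linarith
  have h3 : (L + 2 * ρ) * xb ≤ (22 * (S + ρ)) ^ 2 := by
    have h4 : (L + 2 * ρ) * xb ≤ (L + 2 * ρ) * (224 * (DT + ρ ^ 2 / L)) :=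
      mul_le_mul_of_nonneg_left hxb (by positivity)
    have h5 : 0 ≤ 224 * (DT + ρ ^ 2 / L) := by positivity
    have h6 : (L + 2 * ρ) * (224 * (DT + ρ ^ 2 / L)) ≤ (2 * L) * (224 * (DT + ρ ^ 2 / L)) :=
      mul_le_mul_of_nonneg_right (by linarith) h5
    have h7 : (2 * L) * (224 * (DT + ρ ^ 2 / L)) = 448 * (L * DT) + 448 * ρ ^ 2 := by
      field_simp; ring
    rw [← hS2] at h7
    nlinarith [mul_nonneg hS0 hρ0.le]
  have h8 : Real.sqrt ((L + 2 * ρ) * xb) ≤ 22 * (S + ρ) := by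
    rw [Real.sqrt_le_left (by positivity)]; exact h3
  have h9 : C2 * R * e ≤ 2 * C2 * e * A' := by
    have : C2 * e * R ≤ C2 * e * (2 * A') := mul_le_mul_of_nonneg_left hR (by positivity)
    linarith
  unfold brk
  nlinarith

lemma loc_mono {X : Type*} [MetricSpace X] [MeasurableSpace X] {μ : Measure X} {n : ℕ}
    {K K' ρ : ℝ} (hK : K ≤ K') (hρ : 0 ≤ ρ) (F : X → ℝ) (y : X) :
    loc μ n K ρ F y ≤ loc μ n K' ρ F y := by
  unfold loc
  gcongr

/-- the step over one window, before the choice of `A'` -/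
theorem window_aux {n : ℕ} {c : FarK} {C1 : ℝ} (hC1 : 1 ≤ C1) {η C2 Kb Kc εc e0 : ℝ}
    (hη0 : 0 < η) (hη1 : η ≤ 1) (hC2 : 1 ≤ C2) (he0 : 0 < e0) (heε : e0 ≤ εc)
    (hsm : C1 * (24 * η + 2 * C2 * e0) ≤ 1 / 4)
    {κ : ℝ} {X : Type u} [MetricSpace X] [MeasurableSpace X] [BorelSpace X] [ProperSpace X]
    {μ : Measure X} [IsFiniteMeasureOnCompacts μ] (C : Rad n κ X μ) (x : X) (hB : Bpf μ)
    (F : ℕ → X → ℝ)
    (hBL : ∀ (b bp P : X) (r0 r1 : ℝ) (k : ℕ), (x, P) ∈ C.U → dist x b = r0 → dist x bp = r1 →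
        dist x P = r1 → r1 ≤ 10 → r1 ≤ 2 * r0 → 8 * dy k ≤ r1 - r0 → (2 / η) * dy k ≤ r1 / 16 →
      ∀ S : Set X, MeasurableSet S → S ⊆ ball P (dy k) →
        ENNReal.ofReal (9 / 10) * μ (ball P (dy k)) ≤ μ S →
        (∀ y' ∈ S, ∀ t ∈ Icc ((r0 - 2 * dy k) / r1) 1,
          dist (C.T x t y') (C.T x t P) ≤ 2 * dy k) →
      ∀ xb e : ℝ, 0 ≤ xb → 0 ≤ e →
        ∫⁻ z in ball b (dy k), ∫⁻ y in ball bp (dy k),
            ENNReal.ofReal (dist x z + dist z y - dist x y) ∂μ ∂μ ≤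
          ENNReal.ofReal xb * (μ (ball b (dy k)) * μ (ball bp (dy k))) →
        ∫⁻ r in Icc r0 r1, loc μ n Kb (dy k) (F k) (C.T x (r / r1) P) ≤
          ENNReal.ofReal (e * r1) →
        dist bp P + C1 * brk (dy k) (dist b bp + 2 * dy k) xb C2 ((2 / η) * dy k) e <
          (2 / η) * dy k →
        dist b (C.T x (r0 / r1) P) / r0 ≤
          dist bp P / r1 +
            C1 * brk (dy k) (dist b bp + 2 * dy k) xb C2 ((2 / η) * dy k) e / r0)
    {v : X} (hU : (x, v) ∈ C.U) (hv1 : 1 ≤ dist x v)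
    (hCE : ∀ r L : ℝ, 0 < L → c.N0 * L ≤ r →
      c.N0 * L ≤ dist x v - r → ∀ k0, 5 ≤ k0 →
      (∀ k, k0 ≤ k → ∫⁻ τ in Icc (r - 4 * L) r,
        loc μ n Kc (dy k) (F k) (ray C x v τ) ≤ ENNReal.ofReal (εc * r)) →
      ∀ k, k0 ≤ k → ∃ S, MeasurableSet S ∧ S ⊆ ball (ray C x v r) (dy k) ∧
        ENNReal.ofReal (9 / 10) * μ (ball (ray C x v r) (dy k)) ≤ μ S ∧
        ∀ y ∈ S, (x, y) ∈ C.U ∧ ∀ t ∈ Icc (1 - 4 * L / r) 1,
          dist (C.T x t y) (C.T x t (ray C x v r)) ≤ 2 * dy k)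
    {b bp : X} {L DT : ℝ} (hL : 0 < L) (hbL : dist b bp = L)
    (hr : L / 2 ≤ dist x bp - dist x b) (hN1 : c.N0 * L ≤ dist x bp)
    (hN2 : c.N0 * L ≤ dist x v - dist x bp) (h11 : dist x bp ≤ 10) (hDT : 0 ≤ DT)
    (hxb : ∀ ρ, 0 < ρ → 16 * ρ ≤ L → xbar μ x b bp ρ ≤ 224 * (DT + ρ ^ 2 / L))
    (htube : ∀ k, dy k ≤ L / 2 → ∫⁻ τ in Icc (dist x bp - 2 * L) (dist x bp),
      loc μ n (max Kc Kb) (dy k) (F k) (ray C x v τ) ≤ ENNReal.ofReal (e0 * dist x bp))
    {A' : ℝ} (hA' : 0 < A')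
    (hAA : 92 * C1 * (Real.sqrt (L * DT) + dist bp (ray C x v (dist x bp))) ≤ A')
    (hA'L : A' ≤ L / 256) :
    dist b (ray C x v (dist x b)) / dist x b ≤
      dist bp (ray C x v (dist x bp)) / dist x bp +
        C1 * (23 * Real.sqrt (L * DT) + (24 * η + 2 * C2 * e0) * A') / dist x b := by
  set r0 := dist x b with hr0
  set r1 := dist x bp with hr1
  set S0 := Real.sqrt (L * DT) with hS0
  have hN0 := c.N0_ge
  have hd : 0 < dist x v := by linarith
  have hS0n : 0 ≤ S0 := Real.sqrt_nonneg _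
  have hLr1 : 8 * L ≤ r1 := le_trans (by nlinarith) hN1
  have hLr2 : 8 * L ≤ dist x v - r1 := le_trans (by nlinarith) hN2
  have hr01 : r1 - r0 ≤ L := by
    have := dist_triangle x b bp
    rw [hbL] at this
    linarith
  have hr1p : 0 < r1 := by linarith
  have hr0p : 0 < r0 := by linarith
  set P := ray C x v r1 with hP
  have hPU : (x, P) ∈ C.U := LX149.ray_mem_U C hU hd ⟨hr1p, by linarith⟩
  have hxP : dist x P = r1 := LX149.dist_x_ray C hU hd ⟨hr1p.le, by linarith⟩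
  -- the thickness
  obtain ⟨k, hk1, hk2⟩ := exists_dy (a := η * A') (by positivity) (by nlinarith)
  set ρ := dy k with hρ
  have hρ0 : 0 < ρ := dy_pos k
  have hρA : ρ ≤ A' := hk2.trans (by nlinarith)
  have hρL : 256 * ρ ≤ L := by linarith
  have hM1 : A' ≤ (2 / η) * ρ := by
    have : A' = (2 / η) * (η * A' / 2) := by field_simp
    rw [this]
    exact mul_le_mul_of_nonneg_left hk1 (by positivity)
  have hM2 : (2 / η) * ρ ≤ 2 * A' := by
    have : 2 * A' = (2 / η) * (η * A') := by field_simp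
    rw [this]
    exact mul_le_mul_of_nonneg_left hk2 (by positivity)
  have hk5 : 5 ≤ k := by
    by_contra hlt
    have h1 : dy 4 ≤ dy k := dy_anti (by omega)
    have h2 : dy 4 = 1 / 16 := by unfold dy; norm_num
    have h3 : ρ ≤ 1 / 16 / 2 := by linarith
    rw [h2] at h1
    linarith
  -- CE
  obtain ⟨S, hSm, hSb, hSv, hSt⟩ := hCE r1 (L / 2) (by linarith) (by nlinarith) (by nlinarith) k
    hk5 (fun k' hk' => by
      have h1 : dy k' ≤ L / 2 := (dy_anti hk').trans (by linarith)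
      have h2 := htube k' h1
      have h3 : r1 - 4 * (L / 2) = r1 - 2 * L := by ring
      rw [h3]
      refine (lintegral_mono fun τ => loc_mono (le_max_left Kc Kb) (dy_pos k').le _ _).trans
        (h2.trans (ENNReal.ofReal_le_ofReal ?_))
      exact mul_le_mul_of_nonneg_right heε hr1p.le) k le_rfl
  -- the excess
  set xb := xbar μ x b bp ρ with hxbdef
  have hxb0 : 0 ≤ xb := xbar_nonneg x b bp ρ
  have hxb1 := hxb ρ hρ0 (by linarith)
  have hbrk : brk ρ (L + 2 * ρ) xb C2 ((2 / η) * ρ) e0 ≤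
      23 * S0 + (24 * η + 2 * C2 * e0) * A' := by
    refine brk_le hη1 hL hDT hS0 ?_ hA' hA'L hρ0 hk2 (by linarith) he0.le hxb1 hM2
    have h1 : S0 + dist bp P ≤ 92 * C1 * (S0 + dist bp P) := by
      have : 0 ≤ S0 + dist bp P := by positivity
      nlinarith
    have : 0 ≤ dist bp P := dist_nonneg
    linarith
  have hno : dist bp P + C1 * brk ρ (dist b bp + 2 * ρ) xb C2 ((2 / η) * ρ) e0 < (2 / η) * ρ := by
    rw [hbL]
    have h1 : C1 * brk ρ (L + 2 * ρ) xb C2 ((2 / η) * ρ) e0 ≤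
        C1 * (23 * S0 + (24 * η + 2 * C2 * e0) * A') :=
      mul_le_mul_of_nonneg_left hbrk (by linarith)
    have h2 : C1 * (23 * S0 + (24 * η + 2 * C2 * e0) * A') =
        23 * C1 * S0 + (C1 * (24 * η + 2 * C2 * e0)) * A' := by ring
    have h3 : (C1 * (24 * η + 2 * C2 * e0)) * A' ≤ 1 / 4 * A' :=
      mul_le_mul_of_nonneg_right hsm hA'.le
    have h4 : 0 ≤ dist bp P := dist_nonneg
    have h5 : 23 * C1 * S0 + dist bp P ≤ A' / 4 := by
      have : dist bp P ≤ C1 * dist bp P := by nlinarith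
      have h6 : 92 * C1 * (S0 + dist bp P) ≤ A' := hAA
      nlinarith
    linarith
  have key := hBL b bp P r0 r1 k hPU rfl rfl hxP h11 (by linarith) (by linarith)
    (by linarith) S hSm hSb hSv (fun y' hy' t ht => (hSt y' hy').2 t ⟨?_, ht.2⟩) xb e0 hxb0 he0.le
    ?_ ?_ hno
  · have hg : C.T x (r0 / r1) P = ray C x v r0 := by
      rw [hP, LX149.T_ray C hU hd ⟨hr1p, by linarith⟩
        ⟨by positivity, (div_le_one hr1p).2 (by linarith)⟩, div_mul_cancel₀ _ hr1p.ne']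
    rw [hg, hbL] at key
    refine key.trans ?_
    gcongr
  · refine le_trans ?_ ht.1
    rw [le_div_iff₀ hr1p, sub_mul, one_mul, div_mul_cancel₀ _ hr1p.ne']
    linarith
  · rw [lintegral_xbar hB x b bp hρ0, mul_assoc]
  · have h2 := htube k (by linarith)
    refine le_trans ?_ h2
    calc ∫⁻ r in Icc r0 r1, loc μ n Kb (dy k) (F k) (C.T x (r / r1) P)
        = ∫⁻ r in Icc r0 r1, loc μ n Kb (dy k) (F k) (ray C x v r) := by
          refine setLIntegral_congr_fun measurableSet_Icc fun r hr => ?_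
          rw [hP, LX149.T_ray C hU hd ⟨hr1p, by linarith⟩
            ⟨div_nonneg (hr0p.le.trans hr.1) hr1p.le, (div_le_one hr1p).2 hr.2⟩,
            div_mul_cancel₀ _ hr1p.ne']
      _ ≤ ∫⁻ r in Icc r0 r1, loc μ n (max Kc Kb) (dy k) (F k) (ray C x v r) :=
          lintegral_mono fun r => loc_mono (le_max_right Kc Kb) (dy_pos k).le _ _
      _ ≤ _ := lintegral_mono_set (Icc_subset_Icc (by linarith) le_rfl)

/-- **One window**: `K = 92 C₁`, and `C₁' = 48 C₁`. -/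
theorem window {n : ℕ} {c : FarK} (hBLP : BLP.{u} n c) (hCEP : CEP.{u} n c) :
    ∃ K C1 : ℝ, 1 ≤ K ∧ 1 ≤ C1 ∧ ∀ G : ℝ, 1 < G → ∃ Kb e0 : ℝ, 1 ≤ Kb ∧ 0 < e0 ∧
    ∀ {κ : ℝ} {X : Type u} [MetricSpace X] [MeasurableSpace X] [BorelSpace X] [ProperSpace X]
      {μ : Measure X} [IsFiniteMeasureOnCompacts μ] (C : Rad n κ X μ) (x : X) (δ : ℝ)
      (ph : ℕ → ℝ) (D : FarD c C x δ ph), 0 ≤ κ → κ * 1600 ≤ 1 → -1 ≤ δ → δ ≤ 1 / 2 →
    ∀ᵐ v ∂μ, 1 ≤ dist x v → dist x v ≤ 11 → ∀ (b bp : X) (L DT : ℝ), 0 < L → dist b bp = L →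
      L / 2 ≤ dist x bp - dist x b → c.N0 * L ≤ dist x bp → c.N0 * L ≤ dist x v - dist x bp →
      dist x bp ≤ 10 → 0 ≤ DT →
      (∀ ρ, 0 < ρ → 16 * ρ ≤ L → xbar μ x b bp ρ ≤ 224 * (DT + ρ ^ 2 / L)) →
      (∀ k, dy k ≤ L / 2 → ∫⁻ τ in Icc (dist x bp - 2 * L) (dist x bp),
        loc μ n Kb (dy k) (fun z => D.H k z + D.g k z) (ray C x v τ) ≤
          ENNReal.ofReal (e0 * dist x bp)) →
      K * (Real.sqrt (L * DT) + dist bp (ray C x v (dist x bp))) ≤ L / 256 →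
      dist b (ray C x v (dist x b)) / dist x b ≤
        G * (dist bp (ray C x v (dist x bp)) / dist x bp
          + C1 / dist x bp * Real.sqrt (L * DT)) := by
  obtain ⟨C1, hC1, hBL⟩ := hBLP
  obtain ⟨Kc, εc, hKc, hεc, hCE⟩ := hCEP
  refine ⟨92 * C1, 48 * C1, by linarith, by linarith, fun G hG => ?_⟩
  set γ := min 1 ((G - 1) / 2) with hγ
  have hγ0 : 0 < γ := lt_min one_pos (by linarith)
  have hγ1 : γ ≤ 1 := min_le_left _ _
  have hγG : 2 * γ ≤ G - 1 := by have := min_le_right 1 ((G - 1) / 2); linarith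
  have hC10 : 0 < C1 := by linarith
  set η := γ / (4416 * C1 ^ 2) with hη
  have hη0 : 0 < η := by positivity
  have hη1 : η ≤ 1 := by
    rw [hη, div_le_one (by positivity)]
    nlinarith
  obtain ⟨C2, hC2, Kb, hKb, hBL'⟩ := hBL (2 / η) (by rw [le_div_iff₀ hη0]; linarith)
  have hC20 : 0 < C2 := by linarith
  set e0 := min εc (γ / (368 * C1 ^ 2 * C2)) with he0
  have he00 : 0 < e0 := lt_min hεc (by positivity)
  have he0ε : e0 ≤ εc := min_le_left _ _
  have hη2 : C1 * (24 * η) * (92 * C1) = γ / 2 := by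
    rw [hη]; field_simp; norm_num
  have he2 : C1 * (2 * C2 * e0) * (92 * C1) ≤ γ / 2 := by
    have h1 : e0 ≤ γ / (368 * C1 ^ 2 * C2) := min_le_right _ _
    calc C1 * (2 * C2 * e0) * (92 * C1)
        ≤ C1 * (2 * C2 * (γ / (368 * C1 ^ 2 * C2))) * (92 * C1) := by gcongr
      _ = γ / 2 := by field_simp; norm_num
  have hsum : C1 * (24 * η + 2 * C2 * e0) * (92 * C1) ≤ γ := by nlinarith
  have hcf : 0 ≤ C1 * (24 * η + 2 * C2 * e0) := by positivity
  have hsm : C1 * (24 * η + 2 * C2 * e0) ≤ 1 / 4 := by nlinarith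
  refine ⟨max Kc Kb, e0, le_trans hKc (le_max_left _ _), he00, ?_⟩
  intro κ X _ _ _ _ μ _ C x δ ph D hκ hκ' hδ0 hδ
  have hω := c.ω_pos
  have hB : Bpf μ := by
    refine bpf_of_rad C hκ x ?_
    have h1 := D.vol_ge x 1 (by simp) one_pos (by norm_num)
    intro h0
    rw [h0] at h1
    have h2 : 0 < (1 - δ) * c.ω * 1 ^ n := by
      have : 0 < 1 - δ := by linarith
      positivity
    have h3 := ENNReal.ofReal_pos.2 h2
    exact absurd h1 (not_le.2 h3)
  filter_upwards [hCE C x δ ph D hκ hκ' hδ0 hδ, C.ae_U x] with v hv hU hv1 hv11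
  intro b bp L DT hL hbL hr hN1 hN2 h11 hDT hxb htube hK
  have main : ∀ A' : ℝ, 0 < A' →
      92 * C1 * (Real.sqrt (L * DT) + dist bp (ray C x v (dist x bp))) ≤ A' → A' ≤ L / 256 →
      dist b (ray C x v (dist x b)) / dist x b ≤
        dist bp (ray C x v (dist x bp)) / dist x bp +
          C1 * (23 * Real.sqrt (L * DT) + (24 * η + 2 * C2 * e0) * A') / dist x b :=
    fun A' hA' hAA hA'L =>
      window_aux hC1 hη0 hη1 hC2 he00 he0ε hsm C x hB (fun k z => D.H k z + D.g k z)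
        (fun b bp P r0 r1 k h1 h2 h3 h4 h5 h6 h7 h8 S h9 h10 h11 h12 xb e h13 h14 h15 h16 h17 =>
          hBL' C x δ ph D hκ hκ' hδ0 hδ b bp P r0 r1 k h1 h2 h3 h4 h5 h6 h7 h8 S h9 h10 h11 h12
            xb e h13 h14 h15 h16 h17) hU hv1 (hv hv11) hL hbL hr hN1 hN2 h11 hDT hxb htube
        hA' hAA hA'L
  have hN0 := c.N0_ge
  have hr1p : 8 * L ≤ dist x bp := le_trans (by nlinarith) hN1
  have hr01 : dist x bp - dist x b ≤ L := by
    have := dist_triangle x b bp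
    rw [hbL] at this
    linarith
  have hr0p : 0 < dist x b := by linarith
  have hbp : 0 < dist x bp := by linarith
  set S0 := Real.sqrt (L * DT) with hS0
  set Dp := dist bp (ray C x v (dist x bp)) with hDp
  have hS0n : 0 ≤ S0 := Real.sqrt_nonneg _
  have hDpn : 0 ≤ Dp := dist_nonneg
  set r0 := dist x b
  set r1 := dist x bp
  rcases (add_nonneg hS0n hDpn).eq_or_lt with h0 | h0
  · -- `S0 = Dp = 0`
    have hS00 : S0 = 0 := by linarith
    have hDp0 : Dp = 0 := by linarith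
    have h1 : ∀ A' : ℝ, 0 < A' → A' ≤ L / 256 → dist b (ray C x v r0) ≤ A' := by
      intro A' hA' hA'L
      have := main A' hA' (by rw [hS00, hDp0]; simpa using hA'.le) hA'L
      rw [hS00, hDp0, zero_div, zero_add, mul_zero, zero_add, div_le_div_iff_of_pos_right hr0p]
        at this
      nlinarith
    have h2 : dist b (ray C x v r0) ≤ 0 := by
      refine le_of_forall_pos_le_add fun ε hε => ?_
      rw [zero_add]
      exact (h1 (min ε (L / 256)) (lt_min hε (by positivity)) (min_le_right _ _)).trans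
        (min_le_left _ _)
    have h3 : dist b (ray C x v r0) / r0 ≤ 0 := div_nonpos_of_nonpos_of_nonneg h2 hr0p.le
    rw [hS00, hDp0]
    simpa using h3
  · have h1 := main (92 * C1 * (S0 + Dp)) (by positivity) le_rfl hK
    refine h1.trans ?_
    have h2 : C1 * (23 * S0 + (24 * η + 2 * C2 * e0) * (92 * C1 * (S0 + Dp))) ≤
        23 * C1 * S0 + γ * (S0 + Dp) := by
      have : C1 * (23 * S0 + (24 * η + 2 * C2 * e0) * (92 * C1 * (S0 + Dp))) =
        23 * C1 * S0 + (C1 * (24 * η + 2 * C2 * e0) * (92 * C1)) * (S0 + Dp) := by ring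
      rw [this]
      have h3 := mul_le_mul_of_nonneg_right hsum h0.le
      linarith
    have h3 : (r0)⁻¹ ≤ 2 * (r1)⁻¹ := by
      rw [← div_eq_mul_inv, inv_eq_one_div, div_le_div_iff₀ hr0p hbp]
      linarith
    have h4 : 0 ≤ 23 * C1 * S0 + γ * (S0 + Dp) := by positivity
    have h5 : C1 * (23 * S0 + (24 * η + 2 * C2 * e0) * (92 * C1 * (S0 + Dp))) / r0 ≤
        (23 * C1 * S0 + γ * (S0 + Dp)) * (2 * r1⁻¹) := by
      rw [div_eq_mul_inv]
      exact mul_le_mul h2 h3 (by positivity) h4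
    have h6 : G * (Dp / r1 + 48 * C1 / r1 * S0) =
        G * Dp * r1⁻¹ + G * (48 * C1 * S0) * r1⁻¹ := by
      rw [div_eq_mul_inv, div_eq_mul_inv]; ring
    rw [h6]
    have h7 : Dp / r1 = Dp * r1⁻¹ := div_eq_mul_inv _ _
    rw [h7]
    have h8 : 0 ≤ r1⁻¹ := by positivity
    have h9 : Dp + (23 * C1 * S0 + γ * (S0 + Dp)) * 2 ≤ G * Dp + G * (48 * C1 * S0) := by
      have h10 : Dp + 2 * γ * Dp ≤ G * Dp := by nlinarith
      have h11 : 46 * C1 * S0 + 2 * γ * S0 ≤ G * (48 * C1 * S0) := by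
        have h12 : 46 * C1 * S0 + 2 * γ * S0 ≤ 48 * C1 * S0 := by nlinarith
        have h13 : 0 ≤ 48 * C1 * S0 := by positivity
        nlinarith
      linarith
    nlinarith [mul_le_mul_of_nonneg_right h9 h8]

end Crest.Agent.R247.Stp553
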