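import Crest.Agent.R247.Stp2_553
import Crest.Agent.R247.BL7_562

/-! # (1-STP), part 3: `BLP` holds, so `stp_all hn (blp n c)` is unconditional -/

set_option autoImplicit false
noncomputable section
namespace Crest.Agent.R247.Stp553

universe u
open Crest.Agent.R247.Far553

/-- `BLP` holds (562, 438, 149). -/
theorem blp (n : ℕ) (c : FarK) : BLP.{u} n c := BL562.blp n c

end Crest.Agent.R247.Stp553
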