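import Crest.Agent.R247.Sv9_436
import Crest.Agent.R247.Hes6_124

/-! # R247, leaf (1-S): the global (hHF), error = a number -/

set_option autoImplicit false
set_option linter.unusedSectionVars false
open MeasureTheory Set Filter Topology Metric TopologicalSpace
open scoped ENNReal NNReal RealInnerProductSpace

noncomputable section
namespace Crest.Agent.R247.Sv436

open Crest.Agent.R247.Mcp688 Crest.Agent.R247.Far553 Crest.Agent.R242
open Crest.Agent.R247.Dir593 Crest.Agent.R247.Dir593.GradS Crest.Agent.R247.Smv126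
open Crest.Agent.R247.Obj554 Crest.Agent.R247.Hes124 Crest.Agent.R247.Fd656

variable {n : ℕ} {κ : ℝ} {X : Type*} [MetricSpace X] [ProperSpace X] [MeasurableSpace X]
  [BorelSpace X] {μ : Measure X} [IsFiniteMeasureOnCompacts μ]

/-- the error number `exp(-16/((4n+6)ρ))` -/
def eNum (n : ℕ) (ρ : ℝ) : ℝ := Real.exp (-(16 / ((4 * n + 6) * ρ)))

lemma eNum_pos (n : ℕ) (ρ : ℝ) : 0 < eNum n ρ := Real.exp_pos _

lemma eNum_le_one (n : ℕ) {ρ : ℝ} (hρ : 0 < ρ) : eNum n ρ ≤ 1 := by
  unfold eNum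
  apply Real.exp_le_one_iff.2
  have : 0 ≤ 16 / ((4 * (n:ℝ) + 6) * ρ) := by positivity
  linarith

/-- mass of `R 1_E` outside the ball of radius `32` -/
theorem res_outer [SigmaFinite μ] (B : BochS n κ X μ) (W : WLap B.toGradS n κ) (hκ : 0 ≤ κ)
    {ρ : ℝ} (hρ : 0 < ρ) (hκρ : κ * ρ ^ 2 ≤ 1) (x : X) {E : Set X} (hE : MeasurableSet E)
    (hμ : μ E ≠ ∞) (hs : E ⊆ closedBall x 16) :
    Integrable (fun z => (QF B.toGradS).res (ρ ^ 2) (ind hE hμ) z *
      {z | 32 < dist x z}.indicator (fun _ => (1:ℝ)) z) μ ∧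
    ∫ z, (QF B.toGradS).res (ρ ^ 2) (ind hE hμ) z *
      {z | 32 < dist x z}.indicator (fun _ => (1:ℝ)) z ∂μ ≤ 2 * eNum n ρ * μ.real E := by
  have h0 : (0:ℝ) < ρ ^ 2 := by positivity
  set φ := (QF B.toGradS).res (ρ ^ 2) (ind hE hμ) with hφ
  have M := B.markov B.dense_V
  have hfin : IsFiniteMeasure (μ.restrict E) := ⟨by rw [Measure.restrict_apply_univ]; exact hμ.lt_top⟩
  have φ0 : 0 ≤ᵐ[μ] (φ : X → ℝ) := M.res_nonneg h0 (ind_nonneg hE hμ)
  have iE : Integrable (ind hE hμ : X → ℝ) μ := by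
    refine ((integrable_indicator_iff hE).2 (integrableOn_const (C := (1:ℝ)) (hs := hμ))).congr ?_
    exact (coe_ind hE hμ).symm
  have iφ : Integrable φ μ := (M.symMarkov_res h0).integrable (ind_nonneg hE hμ) iE
  have hdm : Measurable fun z : X => dist x z := (continuous_const.dist continuous_id).measurable
  set G : Set X := {z | 32 < dist x z} with hG
  have hGm : MeasurableSet G := hdm measurableSet_Ioi
  set Gm : ℕ → Set X := fun m => {z | 32 < dist x z ∧ dist x z ≤ m} with hGmdef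
  have hGmm : ∀ m, MeasurableSet (Gm m) := fun m =>
    (hdm measurableSet_Ioi).inter (hdm measurableSet_Iic)
  have hGmf : ∀ m, μ (Gm m) ≠ ∞ := fun m => by
    have : Gm m ⊆ closedBall x m := fun z hz => by
      rw [mem_closedBall, dist_comm]; exact hz.2
    exact ((measure_mono this).trans_lt (isCompact_closedBall x _).measure_lt_top).ne
  have e0 : ∀ (T : Set X), (fun z => φ z * T.indicator (fun _ => (1:ℝ)) z) =
      T.indicator (φ : X → ℝ) := by
    intro T
    funext z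
    by_cases h : z ∈ T
    · rw [indicator_of_mem h, indicator_of_mem h, mul_one]
    · rw [indicator_of_notMem h, indicator_of_notMem h, mul_zero]
  rw [e0 G]
  refine ⟨iφ.indicator hGm, ?_⟩
  rw [integral_indicator hGm]
  have hmono : Monotone Gm := by
    intro a b hab z hz
    exact ⟨hz.1, hz.2.trans (by exact_mod_cast hab)⟩
  have hU : ⋃ m, Gm m = G := by
    ext z
    simp only [hGmdef, mem_iUnion, hG]
    constructor
    · rintro ⟨m, h1, -⟩; exact h1
    · intro h1
      obtain ⟨m, hm⟩ := exists_nat_ge (dist x z)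
      exact ⟨m, h1, hm⟩
  have hlim := tendsto_setIntegral_of_monotone hGmm hmono (f := (φ : X → ℝ)) (μ := μ)
    (iφ.integrableOn)
  rw [hU] at hlim
  refine le_of_tendsto' hlim fun m => ?_
  have h1 := (int_res_ind B (ρ ^ 2) hE hμ (hGmm m) (hGmf m)).2
  rw [← hφ, e0 (Gm m), integral_indicator (hGmm m)] at h1
  rw [h1]
  have hdec := Din939.res_decay_in B.dense_V W hκ (f := ind (hGmm m) (hGmf m)) (M := 1) zero_le_one
    (ind_nonneg _ _) (ind_le_one _ _) (x₀ := x) (a₀ := 32) (ρ := ρ) (by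
      filter_upwards [coe_ind (hGmm m) (hGmf m)] with z hz hd
      rw [hz, indicator_of_notMem]
      intro h
      exact absurd h.1 (not_lt.2 hd.le)) hρ hκρ
  have hle : ∫ z in E, (QF B.toGradS).res (ρ ^ 2) (ind (hGmm m) (hGmf m)) z ∂μ ≤
      ∫ _ in E, 2 * eNum n ρ ∂μ := by
    refine integral_mono_ae (integrableOn_of_L2 _ hE hμ) (integrable_const _) ?_
    filter_upwards [ae_restrict_of_ae hdec, ae_restrict_mem hE] with z h2 h3
    refine h2.trans ?_
    rw [mul_one]
    have h4 : dist x z ≤ 16 := by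
      have := hs h3
      rwa [mem_closedBall, dist_comm] at this
    unfold eNum
    have hn : (0:ℝ) ≤ n := Nat.cast_nonneg n
    have h5 : 16 / ((4 * (n:ℝ) + 6) * ρ) ≤ (32 - dist x z) / ((4 * n + 6) * ρ) := by
      gcongr
      linarith
    have h6 : Real.exp (-((32 - dist x z) / ((4 * n + 6) * ρ))) ≤
        Real.exp (-(16 / ((4 * (n:ℝ) + 6) * ρ))) := Real.exp_le_exp.2 (by linarith)
    linarith
  refine hle.trans (le_of_eq ?_)
  rw [setIntegral_const, smul_eq_mul, mul_comm]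

set_option maxHeartbeats 400000 in
/-- **(hHF), global form**: the input of `locIn_of` for `F = H + g`, `S = F²`. -/
theorem hHFg_of [SigmaFinite μ] {B : BochS n κ X μ} {x : X} (W : WLap B.toGradS n κ) (hκ : 0 ≤ κ)
    (hκ8 : 8 * κ ≤ 1) (O : HObj B x) (k : ℕ) {D qt rq : X → ℝ}
    (eD : ∀ᵐ z ∂μ, D z = ⟪B.G (hf x) z, B.D (qk B x k) z⟫)
    (eq : ∀ᵐ z ∂μ, qt z = qk B x k z)
    (erq : ∀ᵐ z ∂μ, rq z = (QF B.toGradS).res (dy k ^ 2) (qk B x k) z)
    {E : Set X} (hE : MeasurableSet E) (hs : E ⊆ closedBall x 16) :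
    ∫⁻ z, ENNReal.ofReal ((Hf O k z + gf B x k z) ^ 2) * PE B.toGradS (dy k) E z ∂μ ≤
        ENNReal.ofReal (10 * ∫ z in E, (D z - qt z + (2 * rq z + CE n * eNum n (dy k))) ∂μ) ∧
      0 ≤ ∫ z in E, (D z - qt z + (2 * rq z + CE n * eNum n (dy k))) ∂μ := by
  have hρ := dy_pos k
  have hρ1 := dy_le_one k
  have h0 : (0:ℝ) < dy k ^ 2 := by positivity
  have hρ2 : dy k ^ 2 ≤ 1 := by nlinarith
  have hκρ : 8 * κ * dy k ^ 2 ≤ 1 := by nlinarith
  have hμ : μ E ≠ ∞ :=
    ((measure_mono hs).trans_lt (isCompact_closedBall x 16).measure_lt_top).ne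
  have hfin : IsFiniteMeasure (μ.restrict E) := ⟨by rw [Measure.restrict_apply_univ]; exact hμ.lt_top⟩
  obtain ⟨kk, K⟩ := keq_of hκ (by linarith) W O k
  obtain ⟨P, hBW⟩ := bw_of hκ (by linarith) W O k
  have hF2 := Fx_sq_le hBW W hκ (by linarith) hρ hρ1 hκρ
  have hsub : E ⊆ ball x 32 := hs.trans (closedBall_subset_ball (by norm_num))
  set q := qk B x k with hq
  set φ := (QF B.toGradS).res (dy k ^ 2) (ind hE hμ) with hφ
  have hCE := CE_nonneg n
  have M := B.markov B.dense_V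
  have φ0 : 0 ≤ᵐ[μ] (φ : X → ℝ) := M.res_nonneg h0 (ind_nonneg hE hμ)
  have φ1 : ∀ᵐ z ∂μ, φ z ≤ 1 := M.res_le h0 zero_le_one (ind_le_one hE hμ)
  have φb : ∀ᵐ z ∂μ, |φ z| ≤ 1 := by
    filter_upwards [φ0, φ1] with z h1 h2
    rw [abs_of_nonneg h1]; exact h2
  have φmem : φ ∈ B.V := (QF B.toGradS).res_mem h0 _
  have iφS := K.int φ φmem 1 φb
  obtain ⟨iout, eout⟩ := res_outer B W hκ hρ (by nlinarith) x hE hμ hs
  rw [← hφ] at iout eout
  have hFm : Measurable fun z => (Hf O k z + gf B x k z) ^ 2 :=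
    ((Hf_meas B x O k).add (gf_meas B x k)).pow_const 2
  have hpt : ∀ᵐ z ∂μ, φ z * (Hf O k z + gf B x k z) ^ 2 ≤
      5 * (φ z * SP B x (dy k) (O.A k) z) +
      5 * CE n * (φ z * {z | 32 < dist x z}.indicator (fun _ => (1:ℝ)) z) := by
    filter_upwards [hF2, φ0] with z h1 h2
    have h3 : (0:ℝ) ≤ φ z := h2
    have h4 := mul_le_mul_of_nonneg_left h1 h3
    have h5 : {z | 32 < dist x z}.indicator (fun _ => CE n) z =
        CE n * {z | 32 < dist x z}.indicator (fun _ => (1:ℝ)) z := by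
      by_cases h : z ∈ {z | 32 < dist x z}
      · rw [indicator_of_mem h, indicator_of_mem h, mul_one]
      · rw [indicator_of_notMem h, indicator_of_notMem h, mul_zero]
    rw [h5] at h4
    have h6 : Fx B x (dy k) (O.A k) z = Hf O k z + gf B x k z := rfl
    have h7 : Spx B x (dy k) (O.A k) z = SP B x (dy k) (O.A k) z := rfl
    rw [h6, h7] at h4
    linarith
  have iR : Integrable (fun z => 5 * (φ z * SP B x (dy k) (O.A k) z) +
      5 * CE n * (φ z * {z | 32 < dist x z}.indicator (fun _ => (1:ℝ)) z)) μ :=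
    (iφS.const_mul 5).add (iout.const_mul _)
  have hφT0 : ∀ᵐ z ∂μ, 0 ≤ φ z * (Hf O k z + gf B x k z) ^ 2 := by
    filter_upwards [φ0] with z h1
    exact mul_nonneg h1 (sq_nonneg _)
  have iT : Integrable (fun z => φ z * (Hf O k z + gf B x k z) ^ 2) μ := by
    refine iR.mono' ((Lp.aestronglyMeasurable φ).mul hFm.aestronglyMeasurable) ?_
    filter_upwards [hpt, hφT0] with z h1 h2
    rw [Real.norm_of_nonneg h2]; exact h1
  have h1 : ∫ z, φ z * (Hf O k z + gf B x k z) ^ 2 ∂μ ≤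
      5 * ∫ z, φ z * SP B x (dy k) (O.A k) z ∂μ +
      5 * CE n * (2 * eNum n (dy k) * μ.real E) := by
    refine (integral_mono_ae iT iR hpt).trans ?_
    rw [integral_add (iφS.const_mul 5) (iout.const_mul _), integral_const_mul, integral_const_mul]
    gcongr
  have h2 := key_ineq B W hρ x K hE hμ hsub
  -- the right-hand side
  have iq : IntegrableOn q E μ := integrableOn_of_L2 q hE hμ
  have iRq : IntegrableOn ((QF B.toGradS).res (dy k ^ 2) q) E μ := integrableOn_of_L2 _ hE hμ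
  have ih : IntegrableOn (fun z => (⟪B.G (hf x) z, B.D q z⟫ : ℝ)) E μ := by
    have h1 : IntegrableOn (fun z => ‖B.D q z‖) E μ := by
      exact ((Lp.memLp (B.D q)).restrict E).norm.integrable (by norm_num)
    refine Integrable.mono' (h1.const_mul 32) ?_ ?_
    · exact ((B.meas (locLip_hf x)).inner (Lp.aestronglyMeasurable (B.D q))).restrict
    · filter_upwards [ae_restrict_of_ae (W.normSq_G_hf x), ae_restrict_mem hE] with z h2 h3
      have h4 : dist x z < 32 := by
        have := hsub h3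
        rwa [mem_ball, dist_comm] at this
      have h5 : ‖B.G (hf x) z‖ ≤ 32 := by
        have h6 : ‖B.G (hf x) z‖ = dist x z := by
          have := congrArg Real.sqrt h2
          rwa [Real.sqrt_sq (norm_nonneg _), Real.sqrt_sq dist_nonneg] at this
        rw [h6]; exact h4.le
      exact (norm_inner_le_norm _ _).trans (mul_le_mul_of_nonneg_right h5 (norm_nonneg _))
  have i3 : IntegrableOn (fun z => (⟪B.G (hf x) z, B.D q z⟫ - q z +
      2 * (QF B.toGradS).res (dy k ^ 2) q z : ℝ)) E μ := (ih.sub iq).add (iRq.const_mul _)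
  have h3 : ∫ z in E, (D z - qt z + (2 * rq z + CE n * eNum n (dy k))) ∂μ =
      (∫ z in E, (⟪B.G (hf x) z, B.D q z⟫ - q z + 2 * (QF B.toGradS).res (dy k ^ 2) q z) ∂μ) +
      CE n * eNum n (dy k) * μ.real E := by
    have e1 : CE n * eNum n (dy k) * μ.real E = ∫ _ in E, CE n * eNum n (dy k) ∂μ := by
      rw [setIntegral_const, smul_eq_mul, mul_comm]
    rw [e1, ← integral_add i3 (integrable_const _)]
    refine integral_congr_ae ?_
    filter_upwards [ae_restrict_of_ae eD, ae_restrict_of_ae eq, ae_restrict_of_ae erq]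
      with z a1 a2 a3
    rw [a1, a2, a3]
    ring
  have h4 : ∫ z, φ z * (Hf O k z + gf B x k z) ^ 2 ∂μ ≤
      10 * ∫ z in E, (D z - qt z + (2 * rq z + CE n * eNum n (dy k))) ∂μ := by
    rw [h3]
    have : 5 * CE n * (2 * eNum n (dy k) * μ.real E) =
      10 * (CE n * eNum n (dy k) * μ.real E) := by ring
    linarith
  have h5 : 0 ≤ ∫ z, φ z * (Hf O k z + gf B x k z) ^ 2 ∂μ := integral_nonneg_of_ae hφT0
  refine ⟨?_, by linarith⟩
  refine le_trans (le_of_eq ?_) (ENNReal.ofReal_le_ofReal h4)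
  rw [ofReal_integral_eq_lintegral_ofReal iT hφT0]
  refine lintegral_congr fun z => ?_
  unfold PE
  rw [cE_eq hE hμ, ← ENNReal.ofReal_mul (sq_nonneg _)]
  congr 1
  rw [← hφ]
  ring

end Crest.Agent.R247.Sv436
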