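import Crest.Agent.R247.Sv10_436

/-! # R247, leaf (1-S): `LocIn` for the literal objects, every thickness; the field `d1a` -/

set_option autoImplicit false
set_option linter.unusedSectionVars false
open MeasureTheory Set Filter Topology Metric TopologicalSpace
open scoped ENNReal NNReal RealInnerProductSpace

noncomputable section
namespace Crest.Agent.R247.Sv436

open Crest.Agent.R247.Mcp688 Crest.Agent.R247.Far553 Crest.Agent.R242
open Crest.Agent.R247.Dir593 Crest.Agent.R247.Dir593.GradS Crest.Agent.R247.Smv126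
open Crest.Agent.R247.Obj554 Crest.Agent.R247.Hes124 Crest.Agent.R247.Fd656

section gen

variable {X : Type*} [MetricSpace X]

lemma HalfSq.mono {h : X → X → ℝ} {R R' : ℝ} (H : HalfSq h R) (h0 : 0 ≤ R') (hR : R' ≤ R) :
    HalfSq h R' where
  near := fun y z hd => H.near y z (hd.trans hR)
  far := fun y z hd => by
    rcases le_total (dist y z) R with h1 | h1
    · rw [H.near y z h1]
      gcongr
    · refine le_trans ?_ (H.far y z h1)
      gcongr
  lip := H.lip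

variable [MeasurableSpace X] {μ : Measure X}

lemma SurvIn.congr {h : X → X → ℝ} {x : X} {Q Q' : X → ℝ} {A C0 C0' : ℝ}
    (H : SurvIn μ h x Q A C0) (hQ : ∀ᵐ z ∂μ, Q' z = Q z) (hC : C0 ≤ C0') :
    SurvIn μ h x Q' A C0' := by
  intro v β c hβ hc
  filter_upwards [H v β c hβ hc, hQ] with z h1 h2
  rw [h2]
  refine h1.trans ?_
  have : C0 * (1 + β) ≤ C0' * (1 + β) := by
    gcongr
  linarith

end gen

variable {n : ℕ} {κ : ℝ} {X : Type*} [MetricSpace X] [ProperSpace X] [MeasurableSpace X]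
  [BorelSpace X] {μ : Measure X} [IsFiniteMeasureOnCompacts μ]

lemma sigmaFinite_of : SigmaFinite μ := inferInstance

lemma cR2_anti {n : ℕ} {κ K v1 : ℝ} (hκ : 0 ≤ κ) (hκ1 : κ ≤ 1) (hK : 1 ≤ K) (hv1 : 0 < v1) :
    cR2 n 1 K v1 ≤ cR2 n κ K v1 := by
  unfold cR2
  have hn : (0 : ℝ) ≤ n := Nat.cast_nonneg n
  gcongr

/-- integrability of the right-hand side -/
lemma int_rhs {B : BochS n κ X μ} {x : X} (W : WLap B.toGradS n κ) (k : ℕ) {D qt rq : X → ℝ}
    (eD : ∀ᵐ z ∂μ, D z = ⟪B.G (hf x) z, B.D (qk B x k) z⟫)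
    (eq : ∀ᵐ z ∂μ, qt z = qk B x k z)
    (erq : ∀ᵐ z ∂μ, rq z = (QF B.toGradS).res (dy k ^ 2) (qk B x k) z) (c : ℝ) :
    IntegrableOn (fun z => D z - qt z + (2 * rq z + c)) (closedBall x 16) μ := by
  have hE : MeasurableSet (closedBall x 16) := isClosed_closedBall.measurableSet
  have hμ : μ (closedBall x 16) ≠ ∞ := (isCompact_closedBall x 16).measure_lt_top.ne
  have hfin : IsFiniteMeasure (μ.restrict (closedBall x 16)) :=
    ⟨by rw [Measure.restrict_apply_univ]; exact hμ.lt_top⟩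
  set q := qk B x k with hq
  set E := closedBall x (16:ℝ) with hEd
  have iq : IntegrableOn q E μ := integrableOn_of_L2 q hE hμ
  have iRq : IntegrableOn ((QF B.toGradS).res (dy k ^ 2) q) E μ := integrableOn_of_L2 _ hE hμ
  have ih : IntegrableOn (fun z => (⟪B.G (hf x) z, B.D q z⟫ : ℝ)) E μ := by
    have h1 : IntegrableOn (fun z => ‖B.D q z‖) E μ := by
      exact ((Lp.memLp (B.D q)).restrict E).norm.integrable (by norm_num)
    refine Integrable.mono' (h1.const_mul 32) ?_ ?_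
    · exact ((B.meas (locLip_hf x)).inner (Lp.aestronglyMeasurable (B.D q))).restrict
    · filter_upwards [ae_restrict_of_ae (W.normSq_G_hf x), ae_restrict_mem hE] with z h2 h3
      have h4 : dist x z ≤ 16 := by
        rwa [hEd, mem_closedBall, dist_comm] at h3
      have h5 : ‖B.G (hf x) z‖ ≤ 32 := by
        have h6 : ‖B.G (hf x) z‖ = dist x z := by
          have := congrArg Real.sqrt h2
          rwa [Real.sqrt_sq (norm_nonneg _), Real.sqrt_sq dist_nonneg] at this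
        rw [h6]; linarith
      exact (norm_inner_le_norm _ _).trans (mul_le_mul_of_nonneg_right h5 (norm_nonneg _))
  have i3 : IntegrableOn (fun z => (⟪B.G (hf x) z, B.D q z⟫ - q z +
      (2 * (QF B.toGradS).res (dy k ^ 2) q z + c) : ℝ)) E μ :=
    (ih.sub iq).add ((iRq.const_mul _).add (integrable_const _))
  refine i3.congr ?_
  filter_upwards [ae_restrict_of_ae eD, ae_restrict_of_ae eq, ae_restrict_of_ae erq]
    with z a1 a2 a3
  rw [a1, a2, a3]

/-- the constant `c1` of `LocIn` -/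
def c1c (n : ℕ) (K V v1 : ℝ) : ℝ :=
  Real.exp (K ^ 2 / 2) * K ^ n * V * ((cR2 n 1 K v1)⁻¹ * 10)

/-- the constant `C0` of `LocIn` -/
def C0c (n : ℕ) : ℝ := 2 * (2 * CN n 1) + CE n

lemma C0c_nonneg (n : ℕ) : 0 ≤ C0c n := by
  unfold C0c
  have := CN_nonneg n zero_le_one
  have := CE_nonneg n
  positivity

/-- representative of `R q_k` -/
def rqf (B : BochS n κ X μ) (x : X) (k : ℕ) (z : X) : ℝ :=
  max ((QF B.toGradS).res (dy k ^ 2) (qk B x k) z) 0

lemma rqf_meas (B : BochS n κ X μ) (x : X) (k : ℕ) : Measurable (rqf B x k) :=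
  ((Lp.stronglyMeasurable _).measurable).max measurable_const

lemma rqf_nonneg (B : BochS n κ X μ) (x : X) (k : ℕ) (z : X) : 0 ≤ rqf B x k z := le_max_right _ _

lemma rqf_ae {B : BochS n κ X μ} (W : WLap B.toGradS n κ) (x : X) (k : ℕ) :
    ∀ᵐ z ∂μ, rqf B x k z = (QF B.toGradS).res (dy k ^ 2) (qk B x k) z := by
  have h0 : (0:ℝ) < dy k ^ 2 := by have := dy_pos k; positivity
  filter_upwards [(B.markov B.dense_V).res_nonneg h0 (qL_nonneg W (dy_pos k) x)] with z hz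
  exact max_eq_left hz

/-- everything which `LocIn` needs about one thickness: the Lipschitz representative -/
structure QRep (B : BochS n κ X μ) (C : Rad n κ X μ) (x : X) (k : ℕ) (qc D : X → ℝ) : Prop where
  lip : LocallyLipschitz qc
  nonneg : ∀ z, 0 ≤ qc z
  ae_q : ∀ᵐ z ∂μ, qc z = qk B x k z
  ae_D : ∀ᵐ z ∂μ, D z = ⟪B.G (hf x) z, B.D (qk B x k) z⟫
  rd : RD C x qc D

theorem exists_QRep {B : BochS n κ X μ} {C : Rad n κ X μ} {x : X} (hκ : 0 ≤ κ) (hκ1 : 4 * κ ≤ 1)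
    (hL : LK B.toGradS C) (W : WLap B.toGradS n κ)
    (hpos : ∀ (x : X) (r : ℝ), 0 < r → μ (Metric.ball x r) ≠ 0) (O : HObj B x) (k : ℕ) :
    ∃ qc D, QRep B C x k qc D := by
  obtain ⟨qc, h1, h2, h3, h4, h5⟩ := exists_qc hκ hκ1 hL W hpos O k
  refine ⟨qc, fun z => ⟪B.G (hf x) z, B.G qc z⟫, h1, h2, ?_, ?_, h5 x⟩
  · filter_upwards [h3] with z hz
    exact hz.symm
  · filter_upwards [h4] with z hz
    rw [hz]

set_option maxHeartbeats 400000 in
/-- **`LocIn` for the literal objects** -/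
theorem locIn_k (hn : 1 ≤ n) {B : BochS n κ X μ} {C : Rad n κ X μ} {x : X}
    (W : WLap B.toGradS n κ) (hκ : 0 ≤ κ) (hκ8 : 8 * κ ≤ 1) (O : HObj B x) (k : ℕ)
    {qc D : X → ℝ} (hQ : QRep B C x k qc D) {v1 V : ℝ} (hv1 : 0 < v1)
    (hd : ∀ y : X, ∀ᶠ ε in 𝓝[>] (0:ℝ), μ (closedBall y ε) ≤ ENNReal.ofReal (v1 * ε ^ n))
    (hV : 0 ≤ V)
    (hvol : ∀ y r, dist x y ≤ 16 → 0 < r → r ≤ 1 → μ (ball y r) ≤ ENNReal.ofReal (V * r ^ n))
    {K : ℝ} (hK : 1 ≤ K) :
    LocIn C x 16 K (dy k) (c1c n K V v1) (C0c n) (fun z => Hf O k z + gf B x k z) qc D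
      (fun z => 2 * rqf B x k z + CE n * eNum n (dy k)) := by
  have hρ := dy_pos k
  have hρ1 := dy_le_one k
  have hκ1 : κ ≤ 1 := by linarith
  have h0 : (0:ℝ) < dy k ^ 2 := by positivity
  have hCN := CN_nonneg n hκ
  have hCN1 : CN n κ ≤ CN n 1 := CN_mono n hκ1
  have hCE := CE_nonneg n
  have M := B.markov B.dense_V
  have hrq := rqf_ae W x k
  have hrq' : ∀ᵐ z ∂μ, rqf B x k z = (QF B.toGradS).res (dy k ^ 2) (qk B x k) z := hrq
  have hlip : ∀ R, ∃ L, ∀ y z, dist x y ≤ R → dist x z ≤ R → |qc y - qc z| ≤ L * dist y z := by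
    intro R
    obtain ⟨L, hL⟩ := (hQ.lip.locallyLipschitzOn
      (s := closedBall x R)).exists_lipschitzOnWith_of_compact (isCompact_closedBall x R)
    refine ⟨L, fun y z hy hz => ?_⟩
    have := hL.dist_le_mul y (by rwa [mem_closedBall, dist_comm]) z
      (by rwa [mem_closedBall, dist_comm])
    rwa [Real.dist_eq] at this
  have hrqb : ∃ Mb, ∀ᵐ z ∂μ, dist x z ≤ 16 → rqf B x k z ≤ Mb := by
    have hq : ∀ᵐ z ∂μ, qk B x k z ≤ (dy k ^ 2)⁻¹ * cinf + CN n κ := by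
      filter_upwards [qL_le (S := B.toGradS) (n := n) hκ hρ x] with z h1
      have h2 : hh x z ≤ cinf := Phi_le_cinf _
      have h3 : dy k ^ 2 * qk B x k z ≤ cinf + CN n κ * dy k ^ 2 := h1.trans (by linarith)
      calc qk B x k z = (dy k ^ 2)⁻¹ * (dy k ^ 2 * qk B x k z) := by field_simp
        _ ≤ (dy k ^ 2)⁻¹ * (cinf + CN n κ * dy k ^ 2) :=
            mul_le_mul_of_nonneg_left h3 (inv_pos.2 h0).le
        _ = _ := by field_simp
    have hc := cinf_pos
    refine ⟨(dy k ^ 2)⁻¹ * cinf + CN n κ, ?_⟩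
    filter_upwards [M.res_le h0 (by positivity) hq, hrq] with z h1 h2 _
    rw [h2]
    exact h1
  have hsq : SurvIn μ hh x qc (dy k ^ 2)⁻¹ (2 * CN n 1) :=
    (survIn_q W hκ hρ x).congr hQ.ae_q (by linarith)
  have hsr : SurvIn μ hh x (rqf B x k) (dy k ^ 2)⁻¹ (2 * CN n 1) :=
    (survIn_Rq W hκ hρ x).congr hrq (by linarith)
  have hcpos : 0 < cR2 n 1 K v1 := cR2_pos zero_le_one hK hv1
  have hCN1' : 0 ≤ CN n 1 := CN_nonneg n zero_le_one
  have key := locIn_of (μ := μ) C (x := x) (h := hh) (R0 := 16) (K := K) (ρ := dy k)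
    (cK := cR2 n 1 K v1) (V := Real.exp (K ^ 2 / 2) * K ^ n * V) (A := (dy k ^ 2)⁻¹)
    (C0 := 2 * CN n 1) (CE := CE n) (CS := 10) hρ hcpos (by positivity) hCE (by norm_num)
    (halfSq_hh.mono (by norm_num) (by norm_num))
    (F := fun z => Hf O k z + gf B x k z) (S := fun z => (Hf O k z + gf B x k z) ^ 2)
    (q := qc) (D := D) (rq := rqf B x k) (er := fun _ => CE n * eNum n (dy k))
    ((Hf_meas B x O k).add (gf_meas B x k))
    (fun z => add_nonneg (Hf_nonneg B x O k z) (gf_nonneg B x k z))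
    (((Hf_meas B x O k).add (gf_meas B x k)).pow_const 2) (fun z => le_rfl)
    (fun y hy => by
      refine (hvol_of C hκ hK hρ hρ1 hV (hvol y _ hy hρ hρ1)).trans
        (ENNReal.ofReal_le_ofReal ?_)
      have h1 : Real.exp (κ * K ^ 2 / 2) ≤ Real.exp (K ^ 2 / 2) := by
        apply Real.exp_le_exp.2
        have : κ * K ^ 2 ≤ 1 * K ^ 2 := by gcongr
        linarith
      gcongr)
    hQ.lip.continuous.measurable hQ.nonneg (rqf_meas B x k) (rqf_nonneg B x k)
    measurable_const (fun _ => mul_nonneg hCE (eNum_pos n _).le)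
    (fun _ _ => by
      have := eNum_le_one n hρ
      nlinarith)
    hQ.rd hlip hrqb (int_rhs W k hQ.ae_D hQ.ae_q hrq' _) (PE B.toGradS (dy k))
    (fun E hE hs => hHFg_of W hκ hκ8 O k hQ.ae_D hQ.ae_q hrq' hE hs)
    (fun E hE hs => by
      have hμ : μ E ≠ ∞ :=
        ((measure_mono hs).trans_lt (isCompact_closedBall x 16).measure_lt_top).ne
      filter_upwards [hR2_of hn W C hκ hv1 hd hK hρ hρ1 hE hμ] with z hz
      refine le_trans ?_ hz
      gcongr
      exact cR2_anti hκ hκ1 hK hv1)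
    hsq hsr (by positivity)
  exact key

/-- the constant of `d1a` -/
def B1c (n : ℕ) (V v1 K : ℝ) : ℝ := Real.sqrt (4 * c1c n K V v1 * C0c n) + 1

/-- **field `d1a` of `FarD`** for `H := Hf O`, `g := gf B x` -/
theorem d1a_lit (hn : 1 ≤ n) {B : BochS n κ X μ} {C : Rad n κ X μ} {x : X}
    (W : WLap B.toGradS n κ) (hL : LK B.toGradS C) (hκ : 0 ≤ κ) (hκ8 : 8 * κ ≤ 1)
    (hpos : ∀ (x : X) (r : ℝ), 0 < r → μ (Metric.ball x r) ≠ 0) (O : HObj B x)
    {v1 V : ℝ} (hv1 : 0 < v1)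
    (hd : ∀ y : X, ∀ᶠ ε in 𝓝[>] (0:ℝ), μ (closedBall y ε) ≤ ENNReal.ofReal (v1 * ε ^ n))
    (hV : 0 ≤ V)
    (hvol : ∀ y r, dist x y ≤ 16 → 0 < r → r ≤ 1 → μ (ball y r) ≤ ENNReal.ofReal (V * r ^ n))
    {B1 : ℝ → ℝ} (hB1 : ∀ K, 1 ≤ K → B1c n V v1 K ≤ B1 K) :
    ∀ K, 1 ≤ K → ∀ᵐ v ∂μ, dist x v < 12 → ∀ k, ∀ a b : ℝ, 0 < a → a ≤ b → b < dist x v →
      8 * (b - a) ≤ a → 8 * (b - a) ≤ dist x v - b → dy k ≤ b - a →
      ∫⁻ r in Icc a b, loc μ n K (dy k) (fun z => Hf O k z + gf B x k z) (ray C x v r) ≤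
        ENNReal.ofReal (B1 K * a * Real.sqrt ((b - a) / min a (dist x v - b))) := by
  intro K hK
  have hex := fun k => exists_QRep (C := C) hκ (by linarith) hL W hpos O k
  choose qc D hQ using hex
  refine d1a_of C x (R0 := 16) (K := K) (C1 := B1 K) (by norm_num) (fun _ => c1c n K V v1)
    (fun _ => C0c n) (fun k => locIn_k hn W hκ hκ8 O k (hQ k) hv1 hd hV hvol hK) fun k => ?_
  refine le_trans ?_ (hB1 K hK)
  unfold B1c
  linarith

end Crest.Agent.R247.Sv436
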