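import Crest.Agent.R247.Sv11_436
import Crest.Agent.R247.Bad1_644
import Crest.Agent.R247.Max5_193

/-! # R247, leaf (1-S): the field `d1b` of `FarD` for the literal objects -/

set_option autoImplicit false
set_option linter.unusedSectionVars false
open MeasureTheory Set Filter Topology Metric TopologicalSpace
open scoped ENNReal NNReal RealInnerProductSpace

noncomputable section
namespace Crest.Agent.R247.Sv436

open Crest.Agent.R247.Mcp688 Crest.Agent.R247.Far553 Crest.Agent.R242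
open Crest.Agent.R247.Dir593 Crest.Agent.R247.Dir593.GradS Crest.Agent.R247.Smv126
open Crest.Agent.R247.Obj554 Crest.Agent.R247.Hes124 Crest.Agent.R247.Fd656
open Crest.Agent.R247.Max193

/-- `eNum` at a dyadic scale -/
lemma eNum_dy (n k : ℕ) : eNum n (dy k) = Real.exp (-(16 / (4 * n + 6) * 2 ^ k)) := by
  unfold eNum dy
  congr 2
  have : (0:ℝ) < 4 * n + 6 := by positivity
  rw [one_div, inv_pow]
  field_simp

lemma cA_mono {C0 C0' C3 c3 : ℝ} (h : C0 ≤ C0') (hC3 : 0 ≤ C3) (hc3 : 0 < c3) :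
    Max193.cA C0 C3 c3 ≤ Max193.cA C0' C3 c3 := by
  unfold Max193.cA
  have h1 : Real.exp (-(2 * c3)) < 1 := by
    rw [← Real.exp_zero]
    exact Real.exp_lt_exp.2 (by linarith)
  have h2 : 0 < 1 - Real.exp (-(2 * c3)) := by linarith
  have h3 : 0 ≤ C3 / (1 - Real.exp (-(2 * c3))) := by positivity
  nlinarith

/-- volume of `closedBall x 64` -/
def V64 (n : ℕ) (V : ℝ) : ℝ := Real.exp (65 ^ 2 / 2) * 65 ^ n * V

/-- constants of `d1b` -/
def CKc (n : ℕ) (V v1 K : ℝ) : ℝ := Real.sqrt (2 * c1c n K V v1) + 1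

def C2c (n : ℕ) : ℝ := 3 * C0c n + 1

def cNc (n : ℕ) (V c : ℝ) : ℝ :=
  256 * Max193.cA (CN n 1 * V64 n V) 2 (Max193.c3 n) / (3 * c) + 2 * CE n * (V * 5 ^ n) / c

/-- the constant of `d1b` -/
def B2c (n : ℕ) (V v1 K ε : ℝ) : ℝ :=
  96 * 12 ^ n * Real.exp 72 * C2c n / (ε / CKc n V v1 K) ^ 2 *
    cNc n V ((ε / CKc n V v1 K) ^ 2 / 6)

variable {n : ℕ} {κ : ℝ} {X : Type*} [MetricSpace X] [ProperSpace X] [MeasurableSpace X]
  [BorelSpace X] {μ : Measure X} [IsFiniteMeasureOnCompacts μ]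

lemma real_closedBall_64 (C : Rad n κ X μ) (hκ : 0 ≤ κ) (hκ1 : κ ≤ 1) {x : X} {V : ℝ}
    (hV : 0 ≤ V) (h : μ (ball x 1) ≤ ENNReal.ofReal V) :
    μ.real (closedBall x 64) ≤ V64 n V := by
  have h1 := hvol_of C hκ (K := 65) (ρ := 1) (V := V) (by norm_num) one_pos le_rfl hV (y := x)
    (by simpa using h)
  have h2 : μ (closedBall x 64) ≤ μ (ball x (65 * 1)) := by
    apply measure_mono
    exact closedBall_subset_ball (by norm_num)
  have h3 : μ (closedBall x 64) ≤ ENNReal.ofReal (V64 n V) := by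
    refine (h2.trans h1).trans (ENNReal.ofReal_le_ofReal ?_)
    unfold V64
    rw [one_pow, mul_one]
    gcongr
    nlinarith
  have h4 : 0 ≤ V64 n V := by unfold V64; positivity
  exact ENNReal.toReal_le_of_le_ofReal h4 h3

/-- **field `d1b` of `FarD`** for `H := Hf O`, `g := gf B x`, `ph := phat n κ μ x (c3 n / 64)` -/
theorem d1b_lit (hn : 1 ≤ n) {B : BochS n κ X μ} {C : Rad n κ X μ} {x : X}
    (W : WLap B.toGradS n κ) (hL : LK B.toGradS C) (hκ : 0 ≤ κ) (hκ8 : 8 * κ ≤ 1)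
    (hpos : ∀ (x : X) (r : ℝ), 0 < r → μ (Metric.ball x r) ≠ 0) (O : HObj B x)
    {v1 V : ℝ} (hv1 : 0 < v1)
    (hd : ∀ y : X, ∀ᶠ ε in 𝓝[>] (0:ℝ), μ (closedBall y ε) ≤ ENNReal.ofReal (v1 * ε ^ n))
    (hV : 0 ≤ V)
    (hvol : ∀ y r, dist x y ≤ 16 → 0 < r → r ≤ 1 → μ (ball y r) ≤ ENNReal.ofReal (V * r ^ n))
    {B2 : ℝ → ℝ → ℝ} (hB2 : ∀ K ε, 1 ≤ K → 0 < ε → B2c n V v1 K ε ≤ B2 K ε) :
    ∀ K ε, 1 ≤ K → 0 < ε → ∀ j, 4 ≤ j →
      μ {v | 1 ≤ dist x v ∧ dist x v < 12 ∧
          bad C x (fun k z => Hf O k z + gf B x k z) K ε j v} ≤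
        ENNReal.ofReal (B2 K ε * phat n κ μ x (Max193.c3 n / 64) j) := by
  intro K ε hK hε j hj
  have hκ1 : κ ≤ 1 := by linarith
  have hex := fun k => exists_QRep (C := C) hκ (by linarith) hL W hpos O k
  choose qc D hQ using hex
  have hCE := CE_nonneg n
  set N : ℕ → X → ℝ := fun k z => qc k z + (2 * rqf B x k z + CE n * eNum n (dy k)) with hN
  have hNm : ∀ k, Measurable (N k) := fun k =>
    (hQ k).lip.continuous.measurable.add (((rqf_meas B x k).const_mul 2).add measurable_const)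
  have hN0 : ∀ k z, 0 ≤ N k z := fun k z => by
    have h1 := (hQ k).nonneg z
    have h2 := rqf_nonneg B x k z
    have h3 := (eNum_pos n (dy k)).le
    have h4 := mul_nonneg hCE h3
    show 0 ≤ qc k z + (2 * rqf B x k z + CE n * eNum n (dy k))
    linarith
  have hC0c := C0c_nonneg n
  have hC2 : 0 < C2c n := by unfold C2c; linarith
  have hCK : 0 < CKc n V v1 K := by unfold CKc; positivity
  have h5 := d1b_in C x (R0 := 16) (K := K) (CK := CKc n V v1 K) (C2 := C2c n) (by norm_num)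
    (fun _ => c1c n K V v1) (fun _ => C0c n) hCK.le
    (fun k => locIn_k hn W hκ hκ8 O k (hQ k) hv1 hd hV hvol hK)
    (fun k => by unfold CKc; linarith) (fun k => by unfold C2c; linarith) j hj
  have hV1 : μ (ball x 1) ≤ ENNReal.ofReal V := by
    have := hvol x 1 (by rw [dist_self]; norm_num) one_pos le_rfl
    simpa using this
  have h64 := real_closedBall_64 C hκ hκ1 hV hV1
  have hMx := Max193.maxIn_lx hL W hκ (by linarith) x h64
  have hdj := dy_pos j
  have hdj16 : dy j ≤ 1 / 16 := by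
    have h1 := dy_anti hj
    have h2 : dy 4 = 1 / 16 := by unfold dy; norm_num
    rw [h2] at h1; exact h1
  set c : ℝ := (ε / CKc n V v1 K) ^ 2 / 6 with hc
  have hc0 : 0 < c := by rw [hc]; positivity
  have hn0 : (0:ℝ) ≤ n := Nat.cast_nonneg n
  have hMN := hMx.max_N (q := qc) (Rq := fun k => rqf B x k)
    (err := fun k _ => CE n * eNum n (dy k))
    (fun k => (hQ k).ae_q) (fun k => rqf_ae W x k) (E := CE n) (b := 16 / (4 * n + 6))
    (Vb := V * 5 ^ n) hCE (by
      unfold Max193.c3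
      rw [div_div, div_le_div_iff₀ (by positivity) (by positivity)]
      nlinarith) (by positivity)
    (fun k => Eventually.of_forall fun y _ => by
      show CE n * eNum n (dy k) ≤ _
      rw [eNum_dy]) hj (by
      have h1 := hvol x (5 * dy j) (by rw [dist_self]; norm_num) (by positivity) (by linarith)
      refine h1.trans (ENNReal.ofReal_le_ofReal (le_of_eq ?_))
      rw [mul_pow]; ring) hc0
  have hph : 0 ≤ phat n κ μ x (Max193.c3 n / 64) j := hMx.phat_nonneg _ j
  have hM : μ {y | y ∈ ball x (5 * dy j) ∧ ∃ k, j ≤ k ∧ c < N k y} ≤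
      ENNReal.ofReal (cNc n V c * phat n κ μ x (Max193.c3 n / 64) j * dy j ^ n) := by
    refine le_trans (measure_mono ?_) (hMN.trans (ENNReal.ofReal_le_ofReal ?_))
    · rintro y ⟨h1, k, h2, h3⟩
      refine ⟨h1, k, h2, ?_⟩
      have h4 : N k y = qc k y + (2 * rqf B x k y + CE n * eNum n (dy k)) := rfl
      rw [h4] at h3
      show c < qc k y + 2 * rqf B x k y + CE n * eNum n (dy k)
      linarith
    · have hCN1 : CN n κ ≤ CN n 1 := CN_mono n hκ1
      have hV64 : 0 ≤ V64 n V := by unfold V64; positivity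
      have h1 : MaxIn.cN (CN n κ * V64 n V) 2 (Max193.c3 n) (CE n) (V * 5 ^ n) c ≤
          cNc n V c := by
        unfold MaxIn.cN cNc
        have := cA_mono (C0 := CN n κ * V64 n V) (C0' := CN n 1 * V64 n V) (C3 := 2)
          (by gcongr) (by norm_num) (Max193.c3_pos n)
        gcongr
      gcongr
  have hM' : μ {y | y ∈ ball x (5 * dy j) ∧
      ∃ k, j ≤ k ∧ (ε / CKc n V v1 K) ^ 2 / 6 < N k y} ≤
      ENNReal.ofReal (cNc n V c * phat n κ μ x (Max193.c3 n / 64) j * dy j ^ n) := hM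
  have hfin := Bad644.d1b_of C hκ x hNm hN0 hj hε hCK hC2 h5 hM'
  refine hfin.trans (ENNReal.ofReal_le_ofReal ?_)
  have hcN : 0 ≤ cNc n V c := by
    unfold cNc
    have h1 : 0 < Max193.cA (CN n 1 * V64 n V) 2 (Max193.c3 n) := by
      have h2 := hMx.cA_pos
      have h3 := cA_mono (C0 := CN n κ * V64 n V) (C0' := CN n 1 * V64 n V) (C3 := 2)
          (mul_le_mul_of_nonneg_right (CN_mono n hκ1) (by unfold V64; positivity))
          (by norm_num) (Max193.c3_pos n)
      linarith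
    positivity
  calc 96 * 12 ^ n * Real.exp (72 * κ) * C2c n / (ε / CKc n V v1 K) ^ 2 *
        (cNc n V c * phat n κ μ x (Max193.c3 n / 64) j)
      ≤ 96 * 12 ^ n * Real.exp 72 * C2c n / (ε / CKc n V v1 K) ^ 2 *
        (cNc n V c * phat n κ μ x (Max193.c3 n / 64) j) := by
        gcongr
        linarith
    _ = B2c n V v1 K ε * phat n κ μ x (Max193.c3 n / 64) j := by
        unfold B2c
        rw [← hc]
        ring
    _ ≤ B2 K ε * phat n κ μ x (Max193.c3 n / 64) j := by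
        gcongr
        exact hB2 K ε hK hε

end Crest.Agent.R247.Sv436
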