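import Crest.Agent.R247.Mcp5_688

/-! # R247, leaf (1-S): the ray inequality from the pointwise resolvent identity, survival bounds

`C : Rad n κ X μ`, centre `x`.  All functions are read along the rays `t ↦ C.T x t v`. -/

set_option autoImplicit false
set_option linter.unusedSectionVars false
open MeasureTheory Set Filter Topology
open scoped ENNReal NNReal

noncomputable section
namespace Crest.Agent.R247.Sv436

open Crest.Agent.R247.Mcp688

variable {n : ℕ} {κ : ℝ} {X : Type*} [MetricSpace X] [MeasurableSpace X] [BorelSpace X]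
  {μ : Measure X}

/-- bounded measurable functions are integrable along rays, with the weight `1/t` -/
lemma intervalIntegrable_ray (C : Rad n κ X μ) {x v : X} {B : X → ℝ} (hB : Measurable B)
    {a b M : ℝ} (ha : 0 < a) (hab : a ≤ b)
    (hM : ∀ᵐ t ∂(volume.restrict (Ioc a b)), |B (C.T x t v)| ≤ M) :
    IntervalIntegrable (fun t => B (C.T x t v) / t) volume a b := by
  rw [intervalIntegrable_iff_integrableOn_Ioc_of_le hab]
  have hmT : Measurable fun t : ℝ => C.T x t v :=
    C.measT.comp (measurable_const.prodMk (measurable_id.prodMk measurable_const))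
  have hm : Measurable fun t : ℝ => B (C.T x t v) / t := (hB.comp hmT).div measurable_id
  refine Integrable.mono' (g := fun _ => |M| / a) (integrable_const _) hm.aestronglyMeasurable ?_
  filter_upwards [hM, ae_restrict_mem measurableSet_Ioc] with t ht htm
  have ht0 : 0 < t := ha.trans htm.1
  rw [Real.norm_eq_abs, abs_div, abs_of_pos ht0]
  calc |B (C.T x t v)| / t ≤ |M| / t :=
        div_le_div_of_nonneg_right (ht.trans (le_abs_self M)) ht0.le
    _ ≤ |M| / a := by
        gcongr
        exact htm.1.le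

/-- **The ray identity.**  `q` locally Lipschitz with radial derivative `D`, and a.e. on
`closedBall x R0` the pointwise identity `A + N = 2 D - 2 q + 4 B + E`.  Then along almost every
ray ending in `closedBall x R0`: `∫_a^b (A + N + 2 q)/t = 2 (q(b) - q(a)) + ∫ (4 B + E)/t`. -/
theorem ray_identity [SFinite μ] (C : Rad n κ X μ) (x : X) {q D A N B : X → ℝ} {R0 : ℝ}
    (hD : RD C x q D)
    (hL : ∀ R, ∃ L, ∀ y z, dist x y ≤ R → dist x z ≤ R → |q y - q z| ≤ L * dist y z)
    (hP : ∀ᵐ y ∂μ, dist x y ≤ R0 → A y + N y = 2 * D y - 2 * q y + B y)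
    (hqm : Measurable q) (hB : Measurable B) {M : ℝ}
    (hBM : ∀ᵐ y ∂μ, dist x y ≤ R0 → |B y| ≤ M) :
    ∀ᵐ v ∂μ, dist x v ≤ R0 → ∀ a b : ℝ, 0 < a → a ≤ b → b ≤ 1 →
      IntervalIntegrable (fun t => (A (C.T x t v) + N (C.T x t v)) / t) volume a b ∧
      IntervalIntegrable (fun t => q (C.T x t v) / t) volume a b ∧
      IntervalIntegrable (fun t => B (C.T x t v) / t) volume a b ∧
      ∫ t in a..b, (A (C.T x t v) + N (C.T x t v)) / t =
        2 * (q (C.T x b v) - q (C.T x a v)) - 2 * (∫ t in a..b, q (C.T x t v) / t)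
          + (∫ t in a..b, B (C.T x t v) / t) := by
  filter_upwards [C.ray_ftc x hD hL, C.ae_U x, C.ae_ray x hP, C.ae_ray x hBM]
    with v hv hU hPv hBv hR a b ha hab hb
  obtain ⟨hI, hE⟩ := hv a b ha hab hb
  have hsub : Ioc a b ⊆ Ioc (0 : ℝ) 1 := Ioc_subset_Ioc ha.le hb
  have hin : ∀ t ∈ Ioc a b, dist x (C.T x t v) ≤ R0 := by
    intro t ht
    have ht' : t ∈ Icc (0 : ℝ) 1 := ⟨ha.le.trans ht.1.le, ht.2.trans hb⟩
    rw [C.dist_left hU ht']
    calc t * dist x v ≤ 1 * dist x v := by gcongr; exact ht'.2
      _ ≤ R0 := by rw [one_mul]; exact hR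
  have hBI : IntervalIntegrable (fun t => B (C.T x t v) / t) volume a b := by
    refine intervalIntegrable_ray C hB ha hab (M := M) ?_
    filter_upwards [ae_restrict_of_ae_restrict_of_subset hsub hBv,
      ae_restrict_mem measurableSet_Ioc] with t ht htm
    exact ht (hin t htm)
  have hqI : IntervalIntegrable (fun t => q (C.T x t v) / t) volume a b := by
    obtain ⟨L, hL'⟩ := hL R0
    have hx0 : dist x x ≤ R0 := by
      rw [dist_self]
      exact dist_nonneg.trans hR
    refine intervalIntegrable_ray C hqm ha hab (M := |q x| + |L| * R0) ?_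
    filter_upwards [ae_restrict_mem measurableSet_Ioc] with t htm
    have h1 := hL' (C.T x t v) x (hin t htm) hx0
    have h2 : |q (C.T x t v)| ≤ |q x| + |q (C.T x t v) - q x| := by
      have := abs_add_le (q x) (q (C.T x t v) - q x)
      simpa using this
    have h3 : L * dist (C.T x t v) x ≤ |L| * R0 := by
      rw [dist_comm]
      have h4 := hin t htm
      calc L * dist x (C.T x t v) ≤ |L| * dist x (C.T x t v) := by
            gcongr
            exact le_abs_self L
        _ ≤ _ := by gcongr
    linarith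
  have hAE : ∀ᵐ t ∂(volume.restrict (Ioc a b)),
      (A (C.T x t v) + N (C.T x t v)) / t =
        2 * (D (C.T x t v) / t) - 2 * (q (C.T x t v) / t) + B (C.T x t v) / t := by
    filter_upwards [ae_restrict_of_ae_restrict_of_subset hsub hPv,
      ae_restrict_mem measurableSet_Ioc] with t ht htm
    rw [ht (hin t htm)]
    ring
  have hsum : IntervalIntegrable (fun t =>
      2 * (D (C.T x t v) / t) - 2 * (q (C.T x t v) / t) + B (C.T x t v) / t) volume a b :=
    ((hI.const_mul 2).sub (hqI.const_mul 2)).add hBI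
  refine ⟨?_, hqI, hBI, ?_⟩
  · refine hsum.congr_ae ?_
    rw [uIoc_of_le hab]
    filter_upwards [hAE] with t ht
    exact ht.symm
  · rw [intervalIntegral.integral_of_le hab, integral_congr_ae hAE,
      ← intervalIntegral.integral_of_le hab,
      intervalIntegral.integral_add ((hI.const_mul 2).sub (hqI.const_mul 2)) hBI,
      intervalIntegral.integral_sub (hI.const_mul 2) (hqI.const_mul 2),
      intervalIntegral.integral_const_mul, intervalIntegral.integral_const_mul, hE]

/-- **The ray inequality.** -/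
theorem ray_ineq [SFinite μ] (C : Rad n κ X μ) (x : X) {q D B : X → ℝ} {R0 c1 : ℝ}
    (hc1 : 0 ≤ c1) (hD : RD C x q D)
    (hL : ∀ R, ∃ L, ∀ y z, dist x y ≤ R → dist x z ≤ R → |q y - q z| ≤ L * dist y z)
    {A : X → ℝ≥0∞}
    (hP : ∀ᵐ y ∂μ, dist x y ≤ R0 → 0 ≤ D y - q y + B y ∧
      A y ≤ ENNReal.ofReal (c1 * (D y - q y + B y)))
    (hq0 : ∀ y, 0 ≤ q y) (hqm : Measurable q) (hB : Measurable B) {M : ℝ}
    (hBM : ∀ᵐ y ∂μ, dist x y ≤ R0 → |B y| ≤ M) :
    ∀ᵐ v ∂μ, dist x v ≤ R0 → ∀ a b : ℝ, 0 < a → a ≤ b → b ≤ 1 →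
      IntervalIntegrable (fun t => B (C.T x t v) / t) volume a b ∧
      ∫⁻ t in Ioc a b, A (C.T x t v) * ENNReal.ofReal t⁻¹ ≤
        ENNReal.ofReal (c1 * (q (C.T x b v) + ∫ t in a..b, B (C.T x t v) / t)) := by
  have hid := ray_identity C x (q := q) (D := D) (A := fun y => D y - q y + B y)
    (N := fun y => D y - q y + B y) (B := fun y => 2 * B y) hD hL
    (Eventually.of_forall fun y _ => by ring) hqm (hB.const_mul 2) (M := 2 * M) (by
      filter_upwards [hBM] with y hy hR
      rw [abs_mul, abs_of_pos (two_pos : (0 : ℝ) < 2)]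
      linarith [hy hR])
  filter_upwards [hid, C.ae_ray x hP, C.ae_U x] with v hv hPv hU hR a b ha hab hb
  obtain ⟨h1, h2, h3, h4⟩ := hv hR a b ha hab hb
  have hsub : Ioc a b ⊆ Ioc (0 : ℝ) 1 := Ioc_subset_Ioc ha.le hb
  have hBI : IntervalIntegrable (fun t => B (C.T x t v) / t) volume a b := by
    have := h3.const_mul (1 / 2)
    refine this.congr ?_
    exact fun t _ => by ring
  have hfI : IntervalIntegrable
      (fun t => (D (C.T x t v) - q (C.T x t v) + B (C.T x t v)) / t) volume a b := by
    have := h1.const_mul (1 / 2)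
    refine this.congr ?_
    exact fun t _ => by ring
  have hin : ∀ t ∈ Ioc a b, dist x (C.T x t v) ≤ R0 := by
    intro t ht
    have ht' : t ∈ Icc (0 : ℝ) 1 := ⟨ha.le.trans ht.1.le, ht.2.trans hb⟩
    rw [C.dist_left hU ht']
    calc t * dist x v ≤ 1 * dist x v := by gcongr; exact ht'.2
      _ ≤ R0 := by rw [one_mul]; exact hR
  have hval : ∫ t in a..b, (D (C.T x t v) - q (C.T x t v) + B (C.T x t v)) / t =
      (q (C.T x b v) - q (C.T x a v)) - (∫ t in a..b, q (C.T x t v) / t)
        + ∫ t in a..b, B (C.T x t v) / t := by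
    have e1 : ∫ t in a..b, ((D (C.T x t v) - q (C.T x t v) + B (C.T x t v)) +
        (D (C.T x t v) - q (C.T x t v) + B (C.T x t v))) / t =
        2 * ∫ t in a..b, (D (C.T x t v) - q (C.T x t v) + B (C.T x t v)) / t := by
      rw [← intervalIntegral.integral_const_mul]
      exact intervalIntegral.integral_congr fun t _ => by ring
    have e2 : ∫ t in a..b, 2 * B (C.T x t v) / t = 2 * ∫ t in a..b, B (C.T x t v) / t := by
      rw [← intervalIntegral.integral_const_mul]
      exact intervalIntegral.integral_congr fun t _ => by ring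
    rw [e1, e2] at h4
    linarith
  have hqpos : 0 ≤ ∫ t in a..b, q (C.T x t v) / t := by
    apply intervalIntegral.integral_nonneg hab
    intro t ht
    exact div_nonneg (hq0 _) (ha.le.trans ht.1)
  refine ⟨hBI, ?_⟩
  have hPt := ae_restrict_of_ae_restrict_of_subset hsub hPv
  calc ∫⁻ t in Ioc a b, A (C.T x t v) * ENNReal.ofReal t⁻¹
      ≤ ∫⁻ t in Ioc a b, ENNReal.ofReal
          (c1 * ((D (C.T x t v) - q (C.T x t v) + B (C.T x t v)) / t)) := by
        refine lintegral_mono_ae ?_
        filter_upwards [hPt, ae_restrict_mem measurableSet_Ioc] with t ht htm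
        have ht0 : 0 < t := ha.trans htm.1
        obtain ⟨h5, h6⟩ := ht (hin t htm)
        calc A (C.T x t v) * ENNReal.ofReal t⁻¹
            ≤ ENNReal.ofReal (c1 * (D (C.T x t v) - q (C.T x t v) + B (C.T x t v))) *
                ENNReal.ofReal t⁻¹ := by gcongr
          _ = _ := by
              rw [← ENNReal.ofReal_mul (mul_nonneg hc1 h5)]
              congr 1
              rw [div_eq_mul_inv]
              ring
    _ = ENNReal.ofReal (∫ t in Ioc a b,
          c1 * ((D (C.T x t v) - q (C.T x t v) + B (C.T x t v)) / t)) := by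
        rw [ofReal_integral_eq_lintegral_ofReal]
        · exact (((intervalIntegrable_iff_integrableOn_Ioc_of_le hab).1 hfI).const_mul c1)
        · filter_upwards [hPt, ae_restrict_mem measurableSet_Ioc] with t ht htm
          have ht0 : 0 < t := ha.trans htm.1
          have h5 := (ht (hin t htm)).1
          show 0 ≤ c1 * ((D (C.T x t v) - q (C.T x t v) + B (C.T x t v)) / t)
          positivity
    _ ≤ _ := by
        apply ENNReal.ofReal_le_ofReal
        rw [← intervalIntegral.integral_of_le hab, intervalIntegral.integral_const_mul, hval]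
        have := hq0 (C.T x a v)
        gcongr
        linarith

end Crest.Agent.R247.Sv436
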