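import Crest.Agent.R247.Far0_553

/-! # R247, leaf (1-S): from the integrated resolvent identity to a pointwise bound of the
local means of `S` (`loc μ n K ρ S ≤ c_K⁻¹ (D - q + B)` a.e.). -/

set_option autoImplicit false
set_option linter.unusedSectionVars false
open MeasureTheory Set Filter Topology Metric
open scoped ENNReal NNReal

noncomputable section
namespace Crest.Agent.R247.Sv436

open Crest.Agent.R247.Mcp688 Crest.Agent.R247.Far553

variable {X : Type*} [MetricSpace X] [SecondCountableTopology X] [MeasurableSpace X] [BorelSpace X]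
  {μ : Measure X}

lemma measurable_loc_aux [SFinite μ] (r : ℝ) {F : X → ℝ≥0∞} (hF : Measurable F) :
    Measurable fun y : X => ∫⁻ z in ball y r, F z ∂μ := by
  have h1 : (fun y : X => ∫⁻ z in ball y r, F z ∂μ) =
      fun y : X => ∫⁻ z, ({p : X × X | dist p.2 p.1 < r}.indicator fun p => F p.2) (y, z) ∂μ := by
    funext y
    rw [← lintegral_indicator measurableSet_ball]
    refine lintegral_congr fun z => ?_
    by_cases h : dist z y < r
    · rw [indicator_of_mem (mem_ball.2 h), indicator_of_mem (show (y, z) ∈ {p : X × X |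
        dist p.2 p.1 < r} from h)]
    · rw [indicator_of_notMem (fun h' => h (mem_ball.1 h')), indicator_of_notMem
        (show (y, z) ∉ {p : X × X | dist p.2 p.1 < r} from h)]
  rw [h1]
  refine Measurable.lintegral_prod_right' (f := {p : X × X | dist p.2 p.1 < r}.indicator
    fun p => F p.2) ?_
  exact (hF.comp measurable_snd).indicator
    (measurableSet_lt (measurable_snd.dist measurable_fst) measurable_const)

lemma measurable_loc [SFinite μ] (n : ℕ) (K ρ : ℝ) {F : X → ℝ} (hF : Measurable F) :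
    Measurable (loc μ n K ρ F) := by
  unfold loc
  exact (measurable_loc_aux (K * ρ) hF.ennreal_ofReal).const_mul _

/-- symmetry of the kernel of `loc` -/
lemma lintegral_loc_symm [SFinite μ] (n : ℕ) (K ρ : ℝ) {S : X → ℝ} (hS : Measurable S)
    {E : Set X} (hE : MeasurableSet E) :
    ∫⁻ y in E, loc μ n K ρ S y ∂μ =
      ∫⁻ z, ENNReal.ofReal (S z) * loc μ n K ρ (E.indicator fun _ => 1) z ∂μ := by
  have hSm : Measurable fun z => ENNReal.ofReal (S z) := hS.ennreal_ofReal
  have hk : Measurable fun p : X × X => ({p : X × X | dist p.2 p.1 < K * ρ}.indicator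
      fun p => ENNReal.ofReal (S p.2) * E.indicator (fun _ => (1 : ℝ≥0∞)) p.1) p := by
    refine ((hSm.comp measurable_snd).mul ?_).indicator
      (measurableSet_lt (measurable_snd.dist measurable_fst) measurable_const)
    exact (measurable_const.indicator hE).comp measurable_fst
  have h1 : ∫⁻ y in E, loc μ n K ρ S y ∂μ = ENNReal.ofReal ((ρ⁻¹) ^ n) *
      ∫⁻ y, ∫⁻ z, ({p : X × X | dist p.2 p.1 < K * ρ}.indicator
        fun p => ENNReal.ofReal (S p.2) * E.indicator (fun _ => (1 : ℝ≥0∞)) p.1) (y, z) ∂μ ∂μ := by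
    unfold loc
    rw [lintegral_const_mul _ (measurable_loc_aux (K * ρ) hSm), ← lintegral_indicator hE]
    congr 1
    refine lintegral_congr fun y => ?_
    by_cases hy : y ∈ E
    · rw [indicator_of_mem hy, ← lintegral_indicator measurableSet_ball]
      refine lintegral_congr fun z => ?_
      by_cases h : dist z y < K * ρ
      · rw [indicator_of_mem (mem_ball.2 h), indicator_of_mem (show (y, z) ∈ {p : X × X |
          dist p.2 p.1 < K * ρ} from h), indicator_of_mem hy, mul_one]
      · rw [indicator_of_notMem (fun h' => h (mem_ball.1 h')), indicator_of_notMem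
          (show (y, z) ∉ {p : X × X | dist p.2 p.1 < K * ρ} from h)]
    · rw [indicator_of_notMem hy]
      symm
      rw [← lintegral_zero (α := X) (μ := μ)]
      refine lintegral_congr fun z => ?_
      by_cases h : dist z y < K * ρ
      · rw [indicator_of_mem (show (y, z) ∈ {p : X × X | dist p.2 p.1 < K * ρ} from h),
          indicator_of_notMem hy, mul_zero]
      · rw [indicator_of_notMem (show (y, z) ∉ {p : X × X | dist p.2 p.1 < K * ρ} from h)]
  rw [h1, lintegral_lintegral_swap hk.aemeasurable]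
  rw [← lintegral_const_mul _ (Measurable.lintegral_prod_left' hk)]
  refine lintegral_congr fun z => ?_
  unfold loc
  rw [mul_left_comm]
  congr 1
  rw [← lintegral_indicator measurableSet_ball, ← lintegral_const_mul]
  · refine lintegral_congr fun y => ?_
    by_cases h : dist z y < K * ρ
    · rw [indicator_of_mem (show (y, z) ∈ {p : X × X | dist p.2 p.1 < K * ρ} from h),
        indicator_of_mem (show y ∈ ball z (K * ρ) by rw [mem_ball, dist_comm]; exact h)]
      by_cases hy : y ∈ E
      · simp [hy]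
      · simp [hy]
    · rw [indicator_of_notMem (show (y, z) ∉ {p : X × X | dist p.2 p.1 < K * ρ} from h),
        indicator_of_notMem (show y ∉ ball z (K * ρ) by rw [mem_ball, dist_comm]; exact h),
        mul_zero]
  · refine Measurable.indicator ?_ measurableSet_ball
    exact (measurable_const.indicator hE).ennreal_ofReal

/-- **(PL)** pointwise bound of the local means of `S` -/
theorem ploc [SFinite μ] [SigmaFinite μ] (n : ℕ) {K ρ cK R0 : ℝ} (hcK : 0 < cK) {x : X}
    {S g : X → ℝ} (hS : Measurable S) (hg : IntegrableOn g (closedBall x R0) μ)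
    (P : Set X → X → ℝ≥0∞)
    (hHF : ∀ E, MeasurableSet E → E ⊆ closedBall x R0 →
      ∫⁻ z, ENNReal.ofReal (S z) * P E z ∂μ ≤ ENNReal.ofReal (∫ z in E, g z ∂μ) ∧
        0 ≤ ∫ z in E, g z ∂μ)
    (hR2 : ∀ E, MeasurableSet E → E ⊆ closedBall x R0 →
      ∀ᵐ z ∂μ, ENNReal.ofReal cK * loc μ n K ρ (E.indicator fun _ => 1) z ≤ P E z) :
    ∀ᵐ y ∂μ, dist x y ≤ R0 →
      0 ≤ g y ∧ loc μ n K ρ S y ≤ ENNReal.ofReal (cK⁻¹ * g y) := by
  have hB : MeasurableSet (closedBall x R0) := isClosed_closedBall.measurableSet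
  have hmS := measurable_loc (μ := μ) n K ρ hS
  have key : ∀ᵐ y ∂(μ.restrict (closedBall x R0)),
      ENNReal.ofReal cK * loc μ n K ρ S y ≤ ENNReal.ofReal (g y) := by
    refine ae_le_of_forall_setLIntegral_le_of_sigmaFinite₀
      ((hmS.const_mul _).aemeasurable) fun E hE _ => ?_
    rw [Measure.restrict_restrict hE]
    set E' := E ∩ closedBall x R0 with hE'
    have hE'm : MeasurableSet E' := hE.inter hB
    have hsub : E' ⊆ closedBall x R0 := inter_subset_right
    have h1 : ∫⁻ y in E', ENNReal.ofReal cK * loc μ n K ρ S y ∂μ ≤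
        ENNReal.ofReal (∫ z in E', g z ∂μ) := by
      have hm2 : Measurable fun z => ENNReal.ofReal (S z) *
          loc μ n K ρ (E'.indicator fun _ => 1) z :=
        hS.ennreal_ofReal.mul (measurable_loc n K ρ (measurable_const.indicator hE'm))
      rw [lintegral_const_mul _ hmS, lintegral_loc_symm n K ρ hS hE'm,
        ← lintegral_const_mul _ hm2]
      refine (lintegral_mono_ae ?_).trans (hHF E' hE'm hsub).1
      filter_upwards [hR2 E' hE'm hsub] with z hz
      rw [mul_left_comm]
      gcongr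
    refine h1.trans ?_
    have hgi : IntegrableOn g E' μ := hg.mono_set hsub
    calc ENNReal.ofReal (∫ z in E', g z ∂μ)
        ≤ ENNReal.ofReal (∫ z in E', max (g z) 0 ∂μ) := by
          apply ENNReal.ofReal_le_ofReal
          exact integral_mono hgi hgi.pos_part (fun z => le_max_left _ _)
      _ = ∫⁻ z in E', ENNReal.ofReal (max (g z) 0) ∂μ :=
          ofReal_integral_eq_lintegral_ofReal hgi.pos_part
            (Eventually.of_forall fun z => le_max_right _ _)
      _ ≤ ∫⁻ z in E', ENNReal.ofReal (g z) ∂μ := by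
          refine lintegral_mono fun z => ?_
          rcases le_total (g z) 0 with h | h
          · rw [max_eq_right h]; simp
          · rw [max_eq_left h]
  have key2 := (ae_restrict_iff' hB).1 key
  have key3 : ∀ᵐ y ∂(μ.restrict (closedBall x R0)), 0 ≤ g y := by
    refine ae_nonneg_of_forall_setIntegral_nonneg hg fun E hE _ => ?_
    rw [Measure.restrict_restrict hE]
    exact (hHF _ (hE.inter hB) inter_subset_right).2
  have key4 := (ae_restrict_iff' hB).1 key3
  filter_upwards [key2, key4] with y hy hy4 hd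
  have h1 := hy (by rw [mem_closedBall, dist_comm]; exact hd)
  refine ⟨hy4 (by rw [mem_closedBall, dist_comm]; exact hd), ?_⟩
  calc loc μ n K ρ S y = ENNReal.ofReal cK⁻¹ * (ENNReal.ofReal cK * loc μ n K ρ S y) := by
        rw [← mul_assoc, ← ENNReal.ofReal_mul (inv_nonneg.2 hcK.le), inv_mul_cancel₀ hcK.ne',
          ENNReal.ofReal_one, one_mul]
    _ ≤ ENNReal.ofReal cK⁻¹ * ENNReal.ofReal (g y) := by gcongr
    _ = _ := by rw [← ENNReal.ofReal_mul (inv_nonneg.2 hcK.le)]

/-- Cauchy–Schwarz for local means: `loc F ≤ √(V loc (F²))` -/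
lemma loc_sq_le (n : ℕ) {K ρ V : ℝ} (hρ : 0 < ρ) {F S : X → ℝ} (hF : Measurable F)
    (hF0 : ∀ z, 0 ≤ F z) (hFS : ∀ z, F z ^ 2 ≤ S z) {y : X}
    (hvol : μ (ball y (K * ρ)) ≤ ENNReal.ofReal (V * ρ ^ n)) :
    loc μ n K ρ F y ^ 2 ≤ ENNReal.ofReal V * loc μ n K ρ S y := by
  unfold loc
  have h1 : (∫⁻ z in ball y (K * ρ), ENNReal.ofReal (F z) ∂μ) ^ 2 ≤
      μ (ball y (K * ρ)) * ∫⁻ z in ball y (K * ρ), ENNReal.ofReal (F z) ^ 2 ∂μ := by
    have h := ENNReal.lintegral_mul_le_Lp_mul_Lq (μ.restrict (ball y (K * ρ)))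
      Real.HolderConjugate.two_two (f := fun _ => 1) (g := fun z => ENNReal.ofReal (F z))
      aemeasurable_const hF.ennreal_ofReal.aemeasurable
    simp only [Pi.mul_apply, one_mul, ENNReal.one_rpow, lintegral_const, Measure.restrict_apply
      MeasurableSet.univ, univ_inter] at h
    calc (∫⁻ z in ball y (K * ρ), ENNReal.ofReal (F z) ∂μ) ^ 2
        ≤ (μ (ball y (K * ρ)) ^ (1 / (2 : ℝ)) *
          (∫⁻ z in ball y (K * ρ), ENNReal.ofReal (F z) ^ (2 : ℝ) ∂μ) ^ (1 / (2 : ℝ))) ^ 2 := by
          gcongr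
      _ = _ := by
          rw [mul_pow, ← ENNReal.rpow_natCast, ← ENNReal.rpow_natCast, ← ENNReal.rpow_mul,
            ← ENNReal.rpow_mul]
          simp
  calc (ENNReal.ofReal ((ρ⁻¹) ^ n) * ∫⁻ z in ball y (K * ρ), ENNReal.ofReal (F z) ∂μ) ^ 2
      = ENNReal.ofReal ((ρ⁻¹) ^ n) * (ENNReal.ofReal ((ρ⁻¹) ^ n) *
          (∫⁻ z in ball y (K * ρ), ENNReal.ofReal (F z) ∂μ) ^ 2) := by ring
    _ ≤ ENNReal.ofReal ((ρ⁻¹) ^ n) * (ENNReal.ofReal ((ρ⁻¹) ^ n) *
          (ENNReal.ofReal (V * ρ ^ n) *
            ∫⁻ z in ball y (K * ρ), ENNReal.ofReal (S z) ∂μ)) := by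
        gcongr
        refine h1.trans ?_
        refine mul_le_mul' hvol (lintegral_mono fun z => ?_)
        rw [← ENNReal.ofReal_pow (hF0 z)]
        exact ENNReal.ofReal_le_ofReal (hFS z)
    _ = (ENNReal.ofReal ((ρ⁻¹) ^ n) * ENNReal.ofReal (V * ρ ^ n)) *
          (ENNReal.ofReal ((ρ⁻¹) ^ n) * ∫⁻ z in ball y (K * ρ), ENNReal.ofReal (S z) ∂μ) := by
        ring
    _ = _ := by
        rw [← ENNReal.ofReal_mul (by positivity)]
        congr 2
        rw [inv_pow]
        field_simp

end Crest.Agent.R247.Sv436
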