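import Crest.Agent.R247.Sv2_436
import Crest.Agent.R247.Sv3_436

/-! # R247, leaf (1-S): local means of `F` along the rays (short intervals)  -/

set_option autoImplicit false
set_option linter.unusedSectionVars false
open MeasureTheory Set Filter Topology Metric
open scoped ENNReal NNReal

noncomputable section
namespace Crest.Agent.R247.Sv436

open Crest.Agent.R247.Mcp688 Crest.Agent.R247.Far553

/-- change of variables `r = l t` for `∫⁻` over an interval -/
lemma lintegral_scale {l a b : ℝ} (hl : 0 < l) (G : ℝ → ℝ≥0∞) (hG : Measurable G) :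
    ∫⁻ r in Ioc a b, G (r / l) = ENNReal.ofReal l * ∫⁻ t in Ioc (a / l) (b / l), G t := by
  have h1 := Real.map_volume_mul_left (a := l) hl.ne'
  have h2 : ∫⁻ r, (Ioc a b).indicator (fun r => G (r / l)) r ∂(Measure.map (l * ·) volume) =
      ∫⁻ t, (Ioc (a / l) (b / l)).indicator G t := by
    have hm1 : Measurable ((Ioc a b).indicator (fun r => G (r / l))) :=
      (hG.comp (measurable_id.div_const l)).indicator measurableSet_Ioc
    rw [lintegral_map hm1 (measurable_const_mul l)]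
    refine lintegral_congr fun t => ?_
    by_cases ht : t ∈ Ioc (a / l) (b / l)
    · rw [indicator_of_mem ht, indicator_of_mem]
      · rw [mul_div_cancel_left₀ _ hl.ne']
      · rw [mem_Ioc, div_lt_iff₀ hl, le_div_iff₀ hl] at ht
        exact ⟨by linarith [ht.1], by linarith [ht.2]⟩
    · rw [indicator_of_notMem ht, indicator_of_notMem]
      intro h
      apply ht
      rw [mem_Ioc, div_lt_iff₀ hl, le_div_iff₀ hl]
      exact ⟨by linarith [h.1], by linarith [h.2]⟩
  rw [h1, lintegral_smul_measure, lintegral_indicator measurableSet_Ioc,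
    lintegral_indicator measurableSet_Ioc, abs_of_pos (inv_pos.2 hl), smul_eq_mul] at h2
  rw [← h2, ← mul_assoc, ← ENNReal.ofReal_mul hl.le, mul_inv_cancel₀ hl.ne', ENNReal.ofReal_one,
    one_mul]

/-- Cauchy–Schwarz on an interval -/
lemma lintegral_sq_le {a b : ℝ} {G : ℝ → ℝ≥0∞} (hG : Measurable G) :
    (∫⁻ r in Ioc a b, G r) ^ 2 ≤ ENNReal.ofReal (b - a) * ∫⁻ r in Ioc a b, G r ^ 2 := by
  have h := ENNReal.lintegral_mul_le_Lp_mul_Lq (volume.restrict (Ioc a b))
    Real.HolderConjugate.two_two (f := fun _ => 1) (g := G) aemeasurable_const hG.aemeasurable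
  simp only [Pi.mul_apply, one_mul, ENNReal.one_rpow, lintegral_const, Measure.restrict_apply
    MeasurableSet.univ, univ_inter, Real.volume_Ioc] at h
  calc (∫⁻ r in Ioc a b, G r) ^ 2
      ≤ (ENNReal.ofReal (b - a) ^ (1 / (2 : ℝ)) *
        (∫⁻ r in Ioc a b, G r ^ (2 : ℝ)) ^ (1 / (2 : ℝ))) ^ 2 := by gcongr
    _ = _ := by
        rw [mul_pow, ← ENNReal.rpow_natCast, ← ENNReal.rpow_natCast, ← ENNReal.rpow_mul,
          ← ENNReal.rpow_mul]
        simp

variable {n : ℕ} {κ : ℝ} {X : Type*} [MetricSpace X] [MeasurableSpace X] [BorelSpace X]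
  {μ : Measure X}

/-- the squared local mean, integrated in arclength along the ray of `v` -/
lemma ray_sq_le (C : Rad n κ X μ) {x v : X} (hv : 0 < dist x v) {G : X → ℝ≥0∞}
    (hG : Measurable G) {a b c1 Z : ℝ} (ha : 0 < a)
    (h : ∫⁻ t in Ioc (a / dist x v) (b / dist x v), G (C.T x t v) ^ 2 * ENNReal.ofReal t⁻¹ ≤
      ENNReal.ofReal (c1 * Z)) (hb : 0 ≤ b) :
    (∫⁻ r in Ioc a b, G (ray C x v r)) ^ 2 ≤
      ENNReal.ofReal ((b - a) * (b * (c1 * Z))) := by
  rcases lt_or_ge b a with hab | hab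
  · rw [Ioc_eq_empty (not_lt.2 hab.le)]
    simp
  set l := dist x v with hl
  have hmT : Measurable fun t : ℝ => C.T x t v :=
    C.measT.comp (measurable_const.prodMk (measurable_id.prodMk measurable_const))
  have hmr : Measurable fun r : ℝ => G (ray C x v r) :=
    hG.comp (hmT.comp (measurable_id.div_const l))
  have h1 := lintegral_sq_le (a := a) (b := b) hmr
  have h2 : ∫⁻ r in Ioc a b, G (ray C x v r) ^ 2 ≤ ENNReal.ofReal b * ENNReal.ofReal (c1 * Z) := by
    have h3 := lintegral_scale (a := a) (b := b) hv (fun t => G (C.T x t v) ^ 2)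
      ((hG.comp hmT).pow_const 2)
    have h4 : ∫⁻ r in Ioc a b, G (ray C x v r) ^ 2 =
        ∫⁻ r in Ioc a b, (fun t => G (C.T x t v) ^ 2) (r / l) := rfl
    rw [h4, h3]
    calc ENNReal.ofReal l * ∫⁻ t in Ioc (a / l) (b / l), G (C.T x t v) ^ 2
        ≤ ENNReal.ofReal l * ∫⁻ t in Ioc (a / l) (b / l),
            ENNReal.ofReal (b / l) * (G (C.T x t v) ^ 2 * ENNReal.ofReal t⁻¹) := by
          gcongr ENNReal.ofReal l * ?_
          refine setLIntegral_mono ((((hG.comp hmT).pow_const 2).mul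
            (measurable_id.inv.ennreal_ofReal)).const_mul _) fun t ht => ?_
          have ht0 : 0 < t := (div_pos ha hv).trans ht.1
          have : 1 ≤ ENNReal.ofReal (b / l) * ENNReal.ofReal t⁻¹ := by
            rw [← ENNReal.ofReal_mul (by positivity), ← ENNReal.ofReal_one]
            apply ENNReal.ofReal_le_ofReal
            rw [← div_eq_mul_inv, le_div_iff₀ ht0, one_mul]
            exact ht.2
          calc G (C.T x t v) ^ 2 = G (C.T x t v) ^ 2 * 1 := (mul_one _).symm
            _ ≤ G (C.T x t v) ^ 2 * (ENNReal.ofReal (b / l) * ENNReal.ofReal t⁻¹) := by gcongr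
            _ = _ := by ring
      _ = ENNReal.ofReal l * (ENNReal.ofReal (b / l) *
            ∫⁻ t in Ioc (a / l) (b / l), (G (C.T x t v) ^ 2 * ENNReal.ofReal t⁻¹)) := by
          rw [lintegral_const_mul]
          exact ((hG.comp hmT).pow_const 2).mul (measurable_id.inv.ennreal_ofReal)
      _ ≤ ENNReal.ofReal l * (ENNReal.ofReal (b / l) * ENNReal.ofReal (c1 * Z)) := by gcongr
      _ = _ := by
          rw [← mul_assoc, ← ENNReal.ofReal_mul hv.le]
          congr 2
          field_simp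
  calc (∫⁻ r in Ioc a b, G (ray C x v r)) ^ 2
      ≤ ENNReal.ofReal (b - a) * (ENNReal.ofReal b * ENNReal.ofReal (c1 * Z)) := h1.trans (by gcongr)
    _ = _ := by
        rw [← ENNReal.ofReal_mul hb, ← ENNReal.ofReal_mul (by linarith)]

/-- what the resolvent side gives for one thickness: `F = H + g` and
`loc (F)² ≤ c1 (D - q + B)` -/
structure LocIn (C : Rad n κ X μ) (x : X) (R0 K ρ c1 C0 : ℝ) (F q D B : X → ℝ) : Prop where
  F_meas : Measurable F
  q_meas : Measurable q
  B_meas : Measurable B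
  q_nonneg : ∀ y, 0 ≤ q y
  B_nonneg : ∀ y, 0 ≤ B y
  c1_nonneg : 0 ≤ c1
  C0_nonneg : 0 ≤ C0
  rd : RD C x q D
  lip : ∀ R, ∃ L, ∀ y z, dist x y ≤ R → dist x z ≤ R → |q y - q z| ≤ L * dist y z
  bdd : ∃ M, ∀ᵐ y ∂μ, dist x y ≤ R0 → |B y| ≤ M
  pl : ∀ᵐ y ∂μ, dist x y ≤ R0 → 0 ≤ D y - q y + B y ∧
    loc μ n K ρ F y ^ 2 ≤ ENNReal.ofReal (c1 * (D y - q y + B y))
  q_surv : ∀ᵐ v ∂μ, 0 < dist x v → dist x v < R0 → ∀ t ∈ Ioo (0 : ℝ) 1,
    q (C.T x t v) ≤ C0 / (1 - t)
  B_surv : ∀ᵐ v ∂μ, 0 < dist x v → dist x v < R0 → ∀ᵐ t ∂(volume.restrict (Ioo (0 : ℝ) 1)),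
    B (C.T x t v) ≤ C0 / (1 - t)

/-- the integral of a function bounded by `C0/(1-t)` against `dt/t` -/
lemma integral_B_le {C0 a b : ℝ} (hC0 : 0 ≤ C0) (ha : 0 < a) (hab : a ≤ b) (hb : b < 1)
    {f : ℝ → ℝ} (hf : IntervalIntegrable (fun t => f t / t) volume a b)
    (h : ∀ᵐ t ∂(volume.restrict (Ioo (0 : ℝ) 1)), f t ≤ C0 / (1 - t)) :
    ∫ t in a..b, f t / t ≤ C0 / (1 - b) * ((b - a) / a) := by
  have h1 : ∫ t in a..b, f t / t ≤ ∫ _t in a..b, C0 / (1 - b) / a := by
    apply intervalIntegral.integral_mono_ae_restrict hab hf intervalIntegrable_const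
    have hsub : Ioc a b ⊆ Ioo (0 : ℝ) 1 := fun t ht => ⟨ha.trans ht.1, lt_of_le_of_lt ht.2 hb⟩
    have h2 : ∀ᵐ t ∂(volume.restrict (Ioc a b)), f t / t ≤ C0 / (1 - b) / a := by
      filter_upwards [ae_restrict_of_ae_restrict_of_subset hsub h,
        ae_restrict_mem measurableSet_Ioc] with t ht htm
      have ht0 : 0 < t := ha.trans htm.1
      have h3 : 0 < 1 - b := by linarith
      have h4 : C0 / (1 - t) ≤ C0 / (1 - b) := by
        apply div_le_div_of_nonneg_left hC0 h3
        linarith [htm.2]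
      calc f t / t ≤ C0 / (1 - b) / t := by gcongr; exact ht.trans h4
        _ ≤ C0 / (1 - b) / a := by
            have : 0 ≤ C0 / (1 - b) := div_nonneg hC0 h3.le
            gcongr
            exact htm.1.le
    rwa [Measure.restrict_congr_set Ioc_ae_eq_Icc] at h2
  refine h1.trans (le_of_eq ?_)
  rw [intervalIntegral.integral_const, smul_eq_mul]
  field_simp

/-- **(d1a)**: local means over short intervals of the rays -/
theorem d1a_core [SecondCountableTopology X] [SFinite μ] (C : Rad n κ X μ) (x : X)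
    {R0 K ρ c1 C0 : ℝ} {F q D B : X → ℝ}
    (I : LocIn C x R0 K ρ c1 C0 F q D B) :
    ∀ᵐ v ∂μ, 0 < dist x v → dist x v < R0 → ∀ a b : ℝ, 0 < a → a ≤ b → b < dist x v →
      8 * (b - a) ≤ a →
      ∫⁻ r in Icc a b, loc μ n K ρ F (ray C x v r) ≤
        ENNReal.ofReal (Real.sqrt (4 * c1 * C0) * a *
          Real.sqrt ((b - a) / min a (dist x v - b))) := by
  obtain ⟨M, hM⟩ := I.bdd
  have hineq := ray_ineq C x (A := fun y => loc μ n K ρ F y ^ 2) I.c1_nonneg I.rd I.lip I.pl
    I.q_nonneg I.q_meas I.B_meas hM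
  filter_upwards [hineq, I.q_surv, I.B_surv] with v hv hq hB hv0 hvR a b ha hab hbl h8
  set l := dist x v with hl
  have hal : 0 < a / l := div_pos ha hv0
  have hbl1 : b / l < 1 := (div_lt_one hv0).2 hbl
  have hb0 : 0 < b := ha.trans_le hab
  have hbl0 : 0 < b / l := div_pos hb0 hv0
  obtain ⟨hBI, h1⟩ := hv hvR.le (a / l) (b / l) hal (by gcongr) hbl1.le
  have h2 : q (C.T x (b / l) v) ≤ C0 / (1 - b / l) := hq hv0 hvR _ ⟨hbl0, hbl1⟩
  have h3 := integral_B_le I.C0_nonneg hal (by gcongr : a / l ≤ b / l) hbl1 hBI (hB hv0 hvR)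
  have h4 : (b / l - a / l) / (a / l) = (b - a) / a := by
    field_simp
  rw [h4] at h3
  have h5 : (b - a) / a ≤ 1 / 8 := by
    rw [div_le_iff₀ ha]
    linarith
  have hpos : 0 < 1 - b / l := by linarith
  have hZ : q (C.T x (b / l) v) + ∫ t in (a / l)..(b / l), B (C.T x t v) / t ≤
      9 / 8 * (C0 / (1 - b / l)) := by
    have h6 : 0 ≤ C0 / (1 - b / l) := div_nonneg I.C0_nonneg hpos.le
    nlinarith
  have h7 := h1.trans (ENNReal.ofReal_le_ofReal (mul_le_mul_of_nonneg_left hZ I.c1_nonneg))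
  have h8' := ray_sq_le C hv0 (measurable_loc n K ρ I.F_meas) ha h7 hb0.le
  rw [Measure.restrict_congr_set (Ioc_ae_eq_Icc (a := a) (b := b) (μ := volume)).symm]
  have hmin : 0 < min a (l - b) := lt_min ha (by linarith)
  have h9 : (b - a) * (b * (c1 * (9 / 8 * (C0 / (1 - b / l))))) ≤
      (Real.sqrt (4 * c1 * C0) * a * Real.sqrt ((b - a) / min a (l - b))) ^ 2 := by
    have hc : 0 ≤ c1 * C0 := mul_nonneg I.c1_nonneg I.C0_nonneg
    rw [mul_pow, mul_pow, Real.sq_sqrt (by nlinarith), Real.sq_sqrt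
      (div_nonneg (by linarith) hmin.le)]
    have e1 : C0 / (1 - b / l) = C0 * (l / (l - b)) := by
      have : l - b ≠ 0 := by linarith
      field_simp
    rw [e1]
    have e2 : b * (l / (l - b)) ≤ 3 * (a ^ 2 / min a (l - b)) := by
      have hlb : 0 < l - b := by linarith
      have e3 : b * (l / (l - b)) = b ^ 2 / (l - b) + b := by
        field_simp
        ring
      have e4 : b ≤ 9 / 8 * a := by linarith
      have e5 : b ^ 2 / (l - b) ≤ 81 / 64 * (a ^ 2 / min a (l - b)) := by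
        calc b ^ 2 / (l - b) ≤ (9 / 8 * a) ^ 2 / (l - b) := by gcongr
          _ ≤ (9 / 8 * a) ^ 2 / min a (l - b) := by
              gcongr
              exact min_le_right _ _
          _ = _ := by ring
      have e6 : b ≤ 9 / 8 * (a ^ 2 / min a (l - b)) := by
        have : a ≤ a ^ 2 / min a (l - b) := by
          rw [le_div_iff₀ hmin, pow_two]
          gcongr
          exact min_le_left _ _
        linarith
      have e7 : 0 ≤ a ^ 2 / min a (l - b) := by positivity
      rw [e3]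
      linarith
    have hba : 0 ≤ b - a := by linarith
    calc (b - a) * (b * (c1 * (9 / 8 * (C0 * (l / (l - b))))))
        = 9 / 8 * (c1 * C0) * (b - a) * (b * (l / (l - b))) := by ring
      _ ≤ 9 / 8 * (c1 * C0) * (b - a) * (3 * (a ^ 2 / min a (l - b))) := by gcongr
      _ ≤ 4 * (c1 * C0) * (b - a) * (a ^ 2 / min a (l - b)) := by
          have : 0 ≤ (c1 * C0) * (b - a) * (a ^ 2 / min a (l - b)) := by positivity
          nlinarith
      _ = _ := by ring
  have h10 : (∫⁻ r in Ioc a b, loc μ n K ρ F (ray C x v r)) ^ 2 ≤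
      ENNReal.ofReal (Real.sqrt (4 * c1 * C0) * a * Real.sqrt ((b - a) / min a (l - b))) ^ 2 := by
    rw [← ENNReal.ofReal_pow (by positivity)]
    exact h8'.trans (ENNReal.ofReal_le_ofReal h9)
  exact (ENNReal.pow_le_pow_left_iff two_ne_zero).1 h10

end Crest.Agent.R247.Sv436
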