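import Crest.Agent.R247.Sv4_436

/-! # R247, leaf (1-S): local means along the rays over one dyadic scale, controlled by the
time averages of `q + B` (input of the bad-scale bound, 644's `d1b_of`). -/

set_option autoImplicit false
set_option linter.unusedSectionVars false
open MeasureTheory Set Filter Topology Metric
open scoped ENNReal NNReal

noncomputable section
namespace Crest.Agent.R247.Sv436

open Crest.Agent.R247.Mcp688 Crest.Agent.R247.Far553

variable {n : ℕ} {κ : ℝ} {X : Type*} [MetricSpace X] [MeasurableSpace X] [BorelSpace X]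
  {μ : Measure X}

/-- bounded measurable functions are integrable in arclength along rays -/
lemma intervalIntegrable_arc (C : Rad n κ X μ) {x v : X} {B : X → ℝ} (hB : Measurable B)
    {a b M : ℝ} (hab : a ≤ b)
    (hM : ∀ᵐ r ∂(volume.restrict (Ioc a b)), |B (ray C x v r)| ≤ M) :
    IntervalIntegrable (fun r => B (ray C x v r)) volume a b := by
  rw [intervalIntegrable_iff_integrableOn_Ioc_of_le hab]
  have hmT : Measurable fun r : ℝ => ray C x v r :=
    C.measT.comp (measurable_const.prodMk ((measurable_id.div_const _).prodMk measurable_const))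
  refine Integrable.mono' (g := fun _ => M) (integrable_const _)
    (hB.comp hmT).aestronglyMeasurable ?_
  filter_upwards [hM] with r hr
  rw [Real.norm_eq_abs]
  exact hr

/-- transfer of an a.e. statement in the fraction `t` to an a.e. statement in `r = l t` -/
lemma ae_arc_of_frac {l : ℝ} (hl : 0 < l) {p : ℝ → Prop} {a b : ℝ} (ha : 0 ≤ a) (hb : b < l)
    (h : ∀ᵐ t ∂(volume.restrict (Ioo (0 : ℝ) 1)), p t) :
    ∀ᵐ r ∂(volume.restrict (Ioc a b)), p (r / l) := by
  obtain ⟨N, hN1, hN2, hN3⟩ := exists_measurable_superset_of_null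
    (μ := volume.restrict (Ioo (0 : ℝ) 1)) (s := {t | ¬ p t}) h
  have h1 : ∫⁻ r in Ioc a b, (N.indicator (fun _ => (1 : ℝ≥0∞))) (r / l) = 0 := by
    rw [lintegral_scale hl _ (measurable_const.indicator hN2)]
    have h2 : ∫⁻ t in Ioc (a / l) (b / l), N.indicator (fun _ => (1 : ℝ≥0∞)) t ≤
        ∫⁻ t in Ioo (0 : ℝ) 1, N.indicator (fun _ => (1 : ℝ≥0∞)) t := by
      apply lintegral_mono_set
      intro t ht
      exact ⟨lt_of_le_of_lt (div_nonneg ha hl.le) ht.1,
        lt_of_le_of_lt ht.2 ((div_lt_one hl).2 hb)⟩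
    have h3 : ∫⁻ t in Ioo (0 : ℝ) 1, N.indicator (fun _ => (1 : ℝ≥0∞)) t = 0 := by
      rw [lintegral_indicator_const hN2, one_mul, hN3]
    rw [h3, nonpos_iff_eq_zero] at h2
    rw [h2, mul_zero]
  have hm : Measurable fun r : ℝ => (N.indicator (fun _ => (1 : ℝ≥0∞))) (r / l) :=
    (measurable_const.indicator hN2).comp (measurable_id.div_const l)
  have h4 := (lintegral_eq_zero_iff hm).1 h1
  filter_upwards [h4] with r hr
  by_contra hcon
  have : r / l ∈ N := hN1 hcon
  simp [this] at hr

/-- **input of (d1b)**: one dyadic scale of a ray -/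
theorem d1b_core [SecondCountableTopology X] [SFinite μ] (C : Rad n κ X μ) (x : X)
    {R0 K ρ c1 C0 : ℝ} {F q D B : X → ℝ}
    (I : LocIn C x R0 K ρ c1 C0 F q D B) :
    ∀ᵐ v ∂μ, 0 < dist x v → dist x v < R0 → ∀ s : ℝ, 0 < s → 16 * s ≤ dist x v →
      ∫⁻ r in Icc s (2 * s), loc μ n K ρ F (ray C x v r) ≤
        ENNReal.ofReal (Real.sqrt (2 * c1) * s * Real.sqrt (s⁻¹ *
          ∫ r in s..4 * s, min (3 * C0) (q (ray C x v r) + B (ray C x v r)))) := by
  obtain ⟨M, hM⟩ := I.bdd
  have hineq := ray_ineq C x (A := fun y => loc μ n K ρ F y ^ 2) I.c1_nonneg I.rd I.lip I.pl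
    I.q_nonneg I.q_meas I.B_meas hM
  filter_upwards [hineq, I.q_surv, I.B_surv] with v hv hq hB hv0 hvR s hs h16
  set l := dist x v with hl
  have hC0 := I.C0_nonneg
  -- bounds along the ray
  have hqr : ∀ r ∈ Ioc s (4 * s), q (ray C x v r) ≤ 4 / 3 * C0 := by
    intro r hr
    have h1 : r / l ∈ Ioo (0 : ℝ) 1 :=
      ⟨div_pos (hs.trans hr.1) hv0, (div_lt_one hv0).2 (by linarith [hr.2])⟩
    have h2 := hq hv0 hvR _ h1
    have h3 : r / l ≤ 1 / 4 := by
      rw [div_le_iff₀ hv0]
      linarith [hr.2]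
    have h4 : C0 / (1 - r / l) ≤ 4 / 3 * C0 := by
      rw [div_le_iff₀ (by linarith)]
      nlinarith
    exact h2.trans h4
  have hBr : ∀ᵐ r ∂(volume.restrict (Ioc s (4 * s))), B (ray C x v r) ≤ 4 / 3 * C0 := by
    have h1 := ae_arc_of_frac hv0 hs.le (by linarith : 4 * s < l) (hB hv0 hvR)
    filter_upwards [h1, ae_restrict_mem measurableSet_Ioc] with r hr hrm
    have h3 : r / l ≤ 1 / 4 := by
      rw [div_le_iff₀ hv0]
      linarith [hrm.2]
    have h4 : C0 / (1 - r / l) ≤ 4 / 3 * C0 := by
      rw [div_le_iff₀ (by linarith)]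
      nlinarith
    exact hr.trans h4
  have hs4 : s ≤ 4 * s := by linarith
  have hqI : IntervalIntegrable (fun r => q (ray C x v r)) volume s (4 * s) :=
    intervalIntegrable_arc C I.q_meas hs4 (M := 4 / 3 * C0) (by
      filter_upwards [ae_restrict_mem measurableSet_Ioc] with r hr
      rw [abs_of_nonneg (I.q_nonneg _)]
      exact hqr r hr)
  have hBI : IntervalIntegrable (fun r => B (ray C x v r)) volume s (4 * s) :=
    intervalIntegrable_arc C I.B_meas hs4 (M := 4 / 3 * C0) (by
      filter_upwards [hBr] with r hr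
      rw [abs_of_nonneg (I.B_nonneg _)]
      exact hr)
  set Y : ℝ := s⁻¹ * ∫ r in s..4 * s, (q (ray C x v r) + B (ray C x v r)) with hY
  have hcap : ∫ r in s..4 * s, min (3 * C0) (q (ray C x v r) + B (ray C x v r)) =
      ∫ r in s..4 * s, (q (ray C x v r) + B (ray C x v r)) := by
    rw [intervalIntegral.integral_of_le hs4, intervalIntegral.integral_of_le hs4]
    apply integral_congr_ae
    filter_upwards [hBr, ae_restrict_mem measurableSet_Ioc] with r hr hrm
    rw [min_eq_right]
    have := hqr r hrm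
    linarith
  rw [hcap]
  -- the interval of fractions
  have ha : 0 < s / l := div_pos hs hv0
  set β : ℝ := ∫ t in (s / l)..(4 * s / l), B (C.T x t v) / t with hβ
  have h4l : 4 * s / l ≤ 1 := (div_le_one hv0).2 (by linarith)
  have hle4 : s / l ≤ 4 * s / l := div_le_div_of_nonneg_right hs4 hv0.le
  obtain ⟨hBI4, -⟩ := hv hvR.le (s / l) (4 * s / l) ha hle4 h4l
  set A : ℝ≥0∞ := ∫⁻ t in Ioc (s / l) (2 * s / l), loc μ n K ρ F (C.T x t v) ^ 2 *
    ENNReal.ofReal t⁻¹ with hA
  have hstep : ∀ r ∈ Icc (2 * s) (4 * s), A ≤ ENNReal.ofReal (c1 * (q (ray C x v r) + β)) := by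
    intro r hr
    have hr1 : s / l ≤ r / l := by gcongr; linarith [hr.1]
    have hr2 : r / l ≤ 4 * s / l := by
      have := hr.2
      gcongr
    obtain ⟨hBIr, h1⟩ := hv hvR.le (s / l) (r / l) ha hr1 (hr2.trans h4l)
    have h2 : A ≤ ∫⁻ t in Ioc (s / l) (r / l), loc μ n K ρ F (C.T x t v) ^ 2 *
        ENNReal.ofReal t⁻¹ := by
      apply lintegral_mono_set
      apply Ioc_subset_Ioc_right
      gcongr
      exact hr.1
    refine (h2.trans h1).trans (ENNReal.ofReal_le_ofReal ?_)
    refine mul_le_mul_of_nonneg_left ?_ I.c1_nonneg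
    have h3 : ∫ t in (s / l)..(r / l), B (C.T x t v) / t ≤ β := by
      rw [hβ]
      apply intervalIntegral.integral_mono_interval le_rfl hr1 hr2 ?_ hBI4
      refine (ae_restrict_mem measurableSet_Ioc).mono fun t ht => ?_
      exact div_nonneg (I.B_nonneg _) (ha.trans ht.1).le
    have e : C.T x (r / l) v = ray C x v r := rfl
    rw [e]
    linarith
  have hAfin : A ≠ ∞ := ne_top_of_le_ne_top ENNReal.ofReal_ne_top
    (hstep (2 * s) ⟨le_rfl, by linarith⟩)
  have hβ0 : 0 ≤ β := by
    rw [hβ]
    apply intervalIntegral.integral_nonneg hle4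
    intro t ht
    exact div_nonneg (I.B_nonneg _) (ha.le.trans ht.1)
  have hstep' : ∀ r ∈ Icc (2 * s) (4 * s), A.toReal ≤ c1 * (q (ray C x v r) + β) := by
    intro r hr
    apply ENNReal.toReal_le_of_le_ofReal _ (hstep r hr)
    have := I.q_nonneg (ray C x v r)
    exact mul_nonneg I.c1_nonneg (by linarith)
  -- averaging the end point
  have hqI2 : IntervalIntegrable (fun r => q (ray C x v r)) volume (2 * s) (4 * s) := by
    refine hqI.mono_set ?_
    rw [uIcc_of_le (by linarith), uIcc_of_le hs4]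
    exact Icc_subset_Icc_left (by linarith)
  have havg : (2 * s) * A.toReal ≤ c1 * ((∫ r in (2 * s)..(4 * s), q (ray C x v r)) +
      2 * s * β) := by
    have h1 : ∫ _r in (2 * s)..(4 * s), A.toReal ≤
        ∫ r in (2 * s)..(4 * s), c1 * (q (ray C x v r) + β) := by
      apply intervalIntegral.integral_mono_on (by linarith) intervalIntegrable_const
        ((hqI2.add intervalIntegrable_const).const_mul c1)
      intro r hr
      exact hstep' r hr
    rw [intervalIntegral.integral_const, smul_eq_mul, intervalIntegral.integral_const_mul,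
      intervalIntegral.integral_add hqI2 intervalIntegrable_const,
      intervalIntegral.integral_const, smul_eq_mul] at h1
    have e : 4 * s - 2 * s = 2 * s := by ring
    rw [e] at h1
    exact h1
  have hβ' : β ≤ s⁻¹ * ∫ r in s..4 * s, B (ray C x v r) := by
    have h1 := intervalIntegral.integral_comp_div (a := s) (b := 4 * s)
      (fun t => B (C.T x t v) / t) hv0.ne'
    have h2 : β = l⁻¹ * ∫ r in s..4 * s, B (C.T x (r / l) v) / (r / l) := by
      rw [h1, smul_eq_mul, ← mul_assoc, inv_mul_cancel₀ hv0.ne', one_mul]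
    have h3 : ∫ r in s..4 * s, B (C.T x (r / l) v) / (r / l) ≤
        ∫ r in s..4 * s, (l * s⁻¹) * B (ray C x v r) := by
      have hI1 : IntervalIntegrable (fun r => B (C.T x (r / l) v) / (r / l)) volume s (4 * s) := by
        have : (fun r => B (C.T x (r / l) v) / (r / l)) =
            fun r => B (ray C x v r) * (l / r) := by
          funext r
          rw [div_div_eq_mul_div, mul_div_assoc]
          rfl
        rw [this]
        apply hBI.mul_continuousOn
        rw [uIcc_of_le hs4]
        apply ContinuousOn.div continuousOn_const continuousOn_id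
        intro r hr
        exact (hs.trans_le hr.1).ne'
      apply intervalIntegral.integral_mono_on hs4 hI1 (hBI.const_mul _)
      intro r hr
      have hr0 : 0 < r := hs.trans_le hr.1
      have h4 : B (C.T x (r / l) v) / (r / l) = B (ray C x v r) * (l * r⁻¹) := by
        rw [div_div_eq_mul_div, mul_div_assoc, div_eq_mul_inv l r]
        rfl
      rw [h4, mul_comm (l * s⁻¹)]
      have h5 : r⁻¹ ≤ s⁻¹ := inv_anti₀ hs hr.1
      have := I.B_nonneg (ray C x v r)
      gcongr
    rw [h2]
    calc l⁻¹ * ∫ r in s..4 * s, B (C.T x (r / l) v) / (r / l)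
        ≤ l⁻¹ * ∫ r in s..4 * s, (l * s⁻¹) * B (ray C x v r) := by gcongr
      _ = _ := by
          rw [intervalIntegral.integral_const_mul, ← mul_assoc, ← mul_assoc,
            inv_mul_cancel₀ hv0.ne', one_mul]
  have hq2 : ∫ r in (2 * s)..(4 * s), q (ray C x v r) ≤ ∫ r in s..4 * s, q (ray C x v r) := by
    apply intervalIntegral.integral_mono_interval (by linarith) (by linarith) le_rfl ?_ hqI
    exact Eventually.of_forall fun r => I.q_nonneg _
  have hq0 : 0 ≤ ∫ r in s..4 * s, q (ray C x v r) :=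
    intervalIntegral.integral_nonneg hs4 fun r _ => I.q_nonneg _
  have hAY : A.toReal ≤ c1 * Y := by
    have h1 : Y = s⁻¹ * (∫ r in s..4 * s, q (ray C x v r)) +
        s⁻¹ * ∫ r in s..4 * s, B (ray C x v r) := by
      rw [hY, intervalIntegral.integral_add hqI hBI, mul_add]
    have h2 : s⁻¹ * (∫ r in s..4 * s, q (ray C x v r)) + β ≤ Y := by rw [h1]; linarith
    have h3 : A.toReal ≤ c1 * ((2 * s)⁻¹ * (∫ r in s..4 * s, q (ray C x v r)) + β) := by
      have h4 : (2 * s) * A.toReal ≤ c1 * ((∫ r in s..4 * s, q (ray C x v r)) + 2 * s * β) :=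
        havg.trans (mul_le_mul_of_nonneg_left (by linarith) I.c1_nonneg)
      calc A.toReal = (2 * s)⁻¹ * ((2 * s) * A.toReal) := by
            rw [← mul_assoc, inv_mul_cancel₀ (by positivity), one_mul]
        _ ≤ (2 * s)⁻¹ * (c1 * ((∫ r in s..4 * s, q (ray C x v r)) + 2 * s * β)) := by gcongr
        _ = _ := by field_simp
    refine h3.trans (mul_le_mul_of_nonneg_left ?_ I.c1_nonneg)
    have h5 : (2 * s)⁻¹ * (∫ r in s..4 * s, q (ray C x v r)) ≤
        s⁻¹ * (∫ r in s..4 * s, q (ray C x v r)) := by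
      gcongr
      linarith
    linarith
  have hA2 : A ≤ ENNReal.ofReal (c1 * Y) := by
    rw [← ENNReal.ofReal_toReal hAfin]
    exact ENNReal.ofReal_le_ofReal hAY
  have h7 := ray_sq_le C hv0 (measurable_loc n K ρ I.F_meas) hs (b := 2 * s) hA2 (by linarith)
  rw [Measure.restrict_congr_set (Ioc_ae_eq_Icc (a := s) (b := 2 * s) (μ := volume)).symm]
  have hY0 : 0 ≤ Y := by
    rw [hY]
    refine mul_nonneg (by positivity) (intervalIntegral.integral_nonneg hs4 fun r _ => ?_)
    exact add_nonneg (I.q_nonneg _) (I.B_nonneg _)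
  have h9 : (2 * s - s) * (2 * s * (c1 * Y)) =
      (Real.sqrt (2 * c1) * s * Real.sqrt Y) ^ 2 := by
    rw [mul_pow, mul_pow, Real.sq_sqrt (by linarith [I.c1_nonneg]), Real.sq_sqrt hY0]
    ring
  have h10 : (∫⁻ r in Ioc s (2 * s), loc μ n K ρ F (ray C x v r)) ^ 2 ≤
      ENNReal.ofReal (Real.sqrt (2 * c1) * s * Real.sqrt Y) ^ 2 := by
    rw [← ENNReal.ofReal_pow (by positivity), ← h9]
    exact h7
  exact (ENNReal.pow_le_pow_left_iff two_ne_zero).1 h10

end Crest.Agent.R247.Sv436
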