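import Crest.Agent.R247.Sv5_436

/-! # R247, leaf (1-S): assembly of `LocIn` from the resolvent side, and the literal `d1a` / input
of `d1b` of `FarD`. -/

set_option autoImplicit false
set_option linter.unusedSectionVars false
open MeasureTheory Set Filter Topology Metric TopologicalSpace
open scoped ENNReal NNReal

noncomputable section
namespace Crest.Agent.R247.Sv436

open Crest.Agent.R247.Mcp688 Crest.Agent.R247.Far553

variable {n : ℕ} {κ : ℝ} {X : Type*} [MetricSpace X] [MeasurableSpace X] [BorelSpace X]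
  {μ : Measure X}

/-- survival bound along the rays for a continuous `Q`: every fraction -/
theorem surv_ray_cont [SeparableSpace X] [SFinite μ] (C : Rad n κ X μ)
    {h : X → X → ℝ} {R0 : ℝ}
    (H : HalfSq h R0) {x : X} {Q : X → ℝ} {A C0 : ℝ} (hS : SurvIn μ h x Q A C0)
    (hQ : ∀ R, ∃ L, ∀ y z, dist x y ≤ R → dist x z ≤ R → |Q y - Q z| ≤ L * dist y z) :
    ∀ᵐ v ∂μ, 0 < dist x v → dist x v < R0 → ∀ t ∈ Ioo (0 : ℝ) 1,
      Q (C.T x t v) ≤ C0 / (1 - t) := by
  filter_upwards [surv_ray C H hS, C.ae_U x] with v hv hU h0 hR t ht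
  obtain ⟨L, hL⟩ := hQ (dist x v)
  have hae := hv h0 hR
  -- continuity of `t ↦ Q (T x t v)` on `(0,1)`
  have hcont : ContinuousOn (fun t : ℝ => Q (C.T x t v)) (Ioo 0 1) := by
    have hlip : LipschitzOnWith (Real.toNNReal (|L| * dist x v))
        (fun t : ℝ => Q (C.T x t v)) (Ioo 0 1) := by
      apply LipschitzOnWith.of_dist_le_mul
      intro a ha b hb
      have ha' : a ∈ Icc (0 : ℝ) 1 := ⟨ha.1.le, ha.2.le⟩
      have hb' : b ∈ Icc (0 : ℝ) 1 := ⟨hb.1.le, hb.2.le⟩
      rw [Real.coe_toNNReal _ (by positivity), Real.dist_eq, Real.dist_eq]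
      have h1 : ∀ s ∈ Icc (0 : ℝ) 1, dist x (C.T x s v) ≤ dist x v := by
        intro s hs
        rw [C.dist_left hU hs]
        calc s * dist x v ≤ 1 * dist x v := by gcongr; exact hs.2
          _ = _ := one_mul _
      calc |Q (C.T x a v) - Q (C.T x b v)| ≤ L * dist (C.T x a v) (C.T x b v) :=
            hL _ _ (h1 a ha') (h1 b hb')
        _ ≤ |L| * dist (C.T x a v) (C.T x b v) := by gcongr; exact le_abs_self L
        _ = _ := by rw [C.dist_T x v hU a ha' b hb']; ring
    exact hlip.continuousOn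
  have hcont2 : ContinuousOn (fun t : ℝ => C0 / (1 - t)) (Ioo 0 1) := by
    refine ContinuousOn.div continuousOn_const
      (f := fun _ => C0) (g := fun s : ℝ => 1 - s) (by fun_prop) fun s hs => ?_
    have h2 := hs.2
    exact (sub_pos.2 h2).ne'
  by_contra hcon
  push Not at hcon
  have hopen : IsOpen {s : ℝ | s ∈ Ioo (0 : ℝ) 1 ∧ C0 / (1 - s) < Q (C.T x s v)} := by
    have : {s : ℝ | s ∈ Ioo (0 : ℝ) 1 ∧ C0 / (1 - s) < Q (C.T x s v)} =
        Ioo (0 : ℝ) 1 ∩ (fun s => Q (C.T x s v) - C0 / (1 - s)) ⁻¹' Ioi 0 := by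
      ext s
      simp [sub_pos]
    rw [this]
    exact (hcont.sub hcont2).isOpen_inter_preimage isOpen_Ioo isOpen_Ioi
  have hne : {s : ℝ | s ∈ Ioo (0 : ℝ) 1 ∧ C0 / (1 - s) < Q (C.T x s v)}.Nonempty :=
    ⟨t, ht, hcon⟩
  have hpos := hopen.measure_pos (volume : Measure ℝ) hne
  have hzero : volume {s : ℝ | s ∈ Ioo (0 : ℝ) 1 ∧ C0 / (1 - s) < Q (C.T x s v)} = 0 := by
    have h1 := (ae_restrict_iff' measurableSet_Ioo).1 hae
    refine measure_mono_null ?_ h1
    rintro s ⟨hs1, hs2⟩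
    simp only [mem_compl_iff, mem_ofPred_eq, not_forall]
    exact ⟨hs1, not_le.2 hs2⟩
  rw [hzero] at hpos
  exact lt_irrefl _ hpos

/-- **`LocIn` from the resolvent side**: `q` (= representative of `q_ρ`), `rq` (= `R q_ρ`),
`er ≥ 0` (all error terms), `S` with `F² ≤ S`,
`P E = R 1_E`, `(hHF)` the integrated identity (inequality) tested with indicators, `(hR2)` the
lower bound for the resolvent, `(hSq)`, `(hSr)` the survival inputs. -/
theorem locIn_of [SecondCountableTopology X] [SFinite μ] [SigmaFinite μ] (C : Rad n κ X μ)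
    {x : X} {h : X → X → ℝ} {R0 K ρ cK V A C0 CE CS : ℝ} (hρ : 0 < ρ)
    (hcK : 0 < cK) (hV : 0 ≤ V) (hCE : 0 ≤ CE) (hCS : 0 ≤ CS)
    (H : HalfSq h R0) {F S q D rq er : X → ℝ}
    (hF : Measurable F) (hF0 : ∀ z, 0 ≤ F z) (hS : Measurable S) (hFS : ∀ z, F z ^ 2 ≤ S z)
    (hvol : ∀ y, dist x y ≤ R0 → μ (ball y (K * ρ)) ≤ ENNReal.ofReal (V * ρ ^ n))
    (hq : Measurable q) (hq0 : ∀ z, 0 ≤ q z) (hrq : Measurable rq) (hrq0 : ∀ z, 0 ≤ rq z)
    (her : Measurable er) (her0 : ∀ z, 0 ≤ er z) (herC : ∀ z, dist x z ≤ R0 → er z ≤ CE)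
    (hRD : RD C x q D)
    (hlip : ∀ R, ∃ L, ∀ y z, dist x y ≤ R → dist x z ≤ R → |q y - q z| ≤ L * dist y z)
    (hrqb : ∃ M, ∀ᵐ z ∂μ, dist x z ≤ R0 → rq z ≤ M)
    (hint : IntegrableOn (fun z => D z - q z + (2 * rq z + er z)) (closedBall x R0) μ)
    (P : Set X → X → ℝ≥0∞)
    (hHF : ∀ E, MeasurableSet E → E ⊆ closedBall x R0 →
      ∫⁻ z, ENNReal.ofReal (S z) * P E z ∂μ ≤
        ENNReal.ofReal (CS * ∫ z in E, (D z - q z + (2 * rq z + er z)) ∂μ) ∧
      0 ≤ ∫ z in E, (D z - q z + (2 * rq z + er z)) ∂μ)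
    (hR2 : ∀ E, MeasurableSet E → E ⊆ closedBall x R0 →
      ∀ᵐ z ∂μ, ENNReal.ofReal cK * loc μ n K ρ (E.indicator fun _ => 1) z ≤ P E z)
    (hSq : SurvIn μ h x q A C0) (hSr : SurvIn μ h x rq A C0) (hC0 : 0 ≤ C0) :
    LocIn C x R0 K ρ (V * (cK⁻¹ * CS)) (2 * C0 + CE) F q D (fun z => 2 * rq z + er z) := by
  have hpl := ploc (μ := μ) n hcK hS (hint.const_mul CS) P (x := x) (K := K) (ρ := ρ)
    (g := fun z => CS * (D z - q z + (2 * rq z + er z))) (fun E hE hsub => by
      obtain ⟨h1, h2⟩ := hHF E hE hsub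
      rw [integral_const_mul]
      exact ⟨h1, mul_nonneg hCS h2⟩) hR2
  have hg0 : ∀ᵐ y ∂μ, dist x y ≤ R0 → 0 ≤ D y - q y + (2 * rq y + er y) := by
    have hB : MeasurableSet (closedBall x R0) := isClosed_closedBall.measurableSet
    have key3 : ∀ᵐ y ∂(μ.restrict (closedBall x R0)), 0 ≤ D y - q y + (2 * rq y + er y) := by
      refine ae_nonneg_of_forall_setIntegral_nonneg hint fun E hE _ => ?_
      rw [Measure.restrict_restrict hE]
      exact (hHF _ (hE.inter hB) inter_subset_right).2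
    filter_upwards [(ae_restrict_iff' hB).1 key3] with y hy hd
    exact hy (by rw [mem_closedBall, dist_comm]; exact hd)
  refine
    { F_meas := hF
      q_meas := hq
      B_meas := (hrq.const_mul 2).add her
      q_nonneg := hq0
      B_nonneg := fun y => by have := hrq0 y; have := her0 y; positivity
      c1_nonneg := by positivity
      C0_nonneg := by positivity
      rd := hRD
      lip := hlip
      bdd := ?_
      pl := ?_
      q_surv := ?_
      B_surv := ?_ }
  · obtain ⟨M, hM⟩ := hrqb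
    refine ⟨2 * M + CE, ?_⟩
    filter_upwards [hM] with y hy hd
    have h1 := hy hd
    have h2 := herC y hd
    have h3 := hrq0 y
    have h4 := her0 y
    rw [abs_of_nonneg (by positivity)]
    linarith
  · filter_upwards [hpl, hg0] with y hy hg hd
    refine ⟨hg hd, ?_⟩
    have h1 := loc_sq_le (μ := μ) n (K := K) (V := V) hρ hF hF0 hFS (hvol y hd)
    refine h1.trans ?_
    calc ENNReal.ofReal V * loc μ n K ρ S y
        ≤ ENNReal.ofReal V * ENNReal.ofReal (cK⁻¹ * (CS * (D y - q y + (2 * rq y + er y)))) := by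
          gcongr
          exact (hy hd).2
      _ = _ := by
          rw [← ENNReal.ofReal_mul hV]
          congr 1
          ring
  · filter_upwards [surv_ray_cont C H hSq hlip] with v hv h0 hR t ht
    refine (hv h0 hR t ht).trans ?_
    have : 0 < 1 - t := by linarith [ht.2]
    gcongr
    linarith
  · filter_upwards [surv_ray C H hSr, C.ae_U x] with v hv hU h0 hR
    filter_upwards [hv h0 hR, ae_restrict_mem measurableSet_Ioo] with t ht htm
    have h1 : 0 < 1 - t := by linarith [htm.2]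
    have h2 : er (C.T x t v) ≤ CE := by
      apply herC
      rw [C.dist_left hU ⟨htm.1.le, htm.2.le⟩]
      calc t * dist x v ≤ 1 * dist x v := by gcongr; exact htm.2.le
        _ ≤ R0 := by rw [one_mul]; exact hR.le
    have h3 : CE ≤ CE / (1 - t) := by
      rw [le_div_iff₀ h1]
      nlinarith [htm.1]
    calc 2 * rq (C.T x t v) + er (C.T x t v) ≤ 2 * (C0 / (1 - t)) + CE / (1 - t) := by
          linarith
      _ = (2 * C0 + CE) / (1 - t) := by ring

/-- **the literal field `d1a` of `FarD`** from `LocIn` at every thickness, `R0 ≥ 12` -/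
theorem d1a_of [SecondCountableTopology X] [SFinite μ] (C : Rad n κ X μ) (x : X)
    {R0 K C1 : ℝ} (hR0 : 12 ≤ R0) (c1 C0 : ℕ → ℝ)
    {F q D B : ℕ → X → ℝ} (I : ∀ k, LocIn C x R0 K (dy k) (c1 k) (C0 k) (F k) (q k) (D k) (B k))
    (hC1 : ∀ k, Real.sqrt (4 * c1 k * C0 k) ≤ C1) :
    ∀ᵐ v ∂μ, dist x v < 12 → ∀ k, ∀ a b : ℝ, 0 < a → a ≤ b → b < dist x v →
      8 * (b - a) ≤ a → 8 * (b - a) ≤ dist x v - b → dy k ≤ b - a →
      ∫⁻ r in Icc a b, loc μ n K (dy k) (F k) (ray C x v r) ≤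
        ENNReal.ofReal (C1 * a * Real.sqrt ((b - a) / min a (dist x v - b))) := by
  have h := ae_all_iff.2 fun k => d1a_core C x (I k)
  filter_upwards [h] with v hv h12 k a b ha hab hbl h8 _ _
  refine (hv k (ha.trans_le (hab.trans hbl.le)) (h12.trans_le hR0) a b ha hab hbl h8).trans ?_
  apply ENNReal.ofReal_le_ofReal
  have := hC1 k
  gcongr

/-- **Sv5 in the literal form of `Bad1_644.d1b_of`** -/
theorem d1b_in [SecondCountableTopology X] [SFinite μ] (C : Rad n κ X μ) (x : X)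
    {R0 K CK C2 : ℝ} (hR0 : 12 ≤ R0) (c1 C0 : ℕ → ℝ) (hCK : 0 ≤ CK)
    {F q D B : ℕ → X → ℝ} (I : ∀ k, LocIn C x R0 K (dy k) (c1 k) (C0 k) (F k) (q k) (D k) (B k))
    (hC1 : ∀ k, Real.sqrt (2 * c1 k) ≤ CK) (hC2 : ∀ k, 3 * C0 k ≤ C2) :
    ∀ j, 4 ≤ j → ∀ᵐ v ∂μ, 1 ≤ dist x v → dist x v < 12 → ∀ k, j ≤ k →
      ∫⁻ r in Icc (dy j) (2 * dy j), loc μ n K (dy k) (F k) (ray C x v r) ≤
        ENNReal.ofReal (CK * dy j * √((dy j)⁻¹ * ∫ r in dy j..4 * dy j,
          min C2 (q k (ray C x v r) + B k (ray C x v r)))) := by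
  intro j hj
  have h := ae_all_iff.2 fun k => d1b_core C x (I k)
  filter_upwards [h, ae_all_iff.2 fun k => (I k).B_surv] with v hv hBs h1 h12 k _
  have hs := dy_pos j
  have h16 : 16 * dy j ≤ dist x v := by
    have h2 := dy_anti hj
    have h3 : dy 4 = 1 / 16 := by unfold dy; norm_num
    rw [h3] at h2
    linarith
  refine (hv k (by linarith) (h12.trans_le hR0) (dy j) hs h16).trans ?_
  apply ENNReal.ofReal_le_ofReal
  have hs4 : dy j ≤ 4 * dy j := by linarith
  have hInt : ∀ c, IntervalIntegrable (fun r => min c (q k (ray C x v r) + B k (ray C x v r)))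
      volume (dy j) (4 * dy j) := by
    intro c
    have hm : Measurable fun z => min c (q k z + B k z) :=
      measurable_const.min ((I k).q_meas.add (I k).B_meas)
    refine intervalIntegrable_arc C (B := fun z => min c (q k z + B k z)) hm hs4 (M := |c|) ?_
    refine Eventually.of_forall fun r => ?_
    have h3 : 0 ≤ q k (ray C x v r) + B k (ray C x v r) :=
      add_nonneg ((I k).q_nonneg _) ((I k).B_nonneg _)
    rw [abs_le]
    refine ⟨?_, (min_le_left _ _).trans (le_abs_self c)⟩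
    rcases le_total c (q k (ray C x v r) + B k (ray C x v r)) with h4 | h4
    · rw [min_eq_left h4]; exact neg_abs_le c
    · rw [min_eq_right h4]
      have := abs_nonneg c
      linarith
  have hmono : ∫ r in dy j..4 * dy j, min (3 * C0 k) (q k (ray C x v r) + B k (ray C x v r)) ≤
      ∫ r in dy j..4 * dy j, min C2 (q k (ray C x v r) + B k (ray C x v r)) := by
    apply intervalIntegral.integral_mono_on hs4 (hInt _) (hInt _)
    intro r _
    exact min_le_min_right _ (hC2 k)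
  have := hC1 k
  gcongr

end Crest.Agent.R247.Sv436
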