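import Crest.Agent.R247.Sv6_436
import Crest.Agent.R247.Smv4_126
import Crest.Agent.R247.Obj1_554

/-! # R247, leaf (1-S): (R2) and volume bounds in the form consumed by `Sv436.locIn_of` -/

set_option autoImplicit false
set_option linter.unusedSectionVars false
open MeasureTheory Set Filter Topology Metric TopologicalSpace
open scoped ENNReal NNReal RealInnerProductSpace

noncomputable section
namespace Crest.Agent.R247.Sv436

open Crest.Agent.R247.Mcp688 Crest.Agent.R247.Far553 Crest.Agent.R242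
open Crest.Agent.R247.Dir593 Crest.Agent.R247.Dir593.GradS Crest.Agent.R247.Smv126
open Crest.Agent.R247.Obj554

/-- volume of large multiples of small balls (Bishop–Gromov) -/
lemma hvol_of {n : ℕ} {κ : ℝ} {X : Type*} [MetricSpace X] [MeasurableSpace X] [BorelSpace X]
    {μ : Measure X} (C : Rad n κ X μ) (hκ : 0 ≤ κ) {K ρ V : ℝ} (hK : 1 ≤ K) (hρ : 0 < ρ)
    (hρ1 : ρ ≤ 1) (hV : 0 ≤ V) {y : X} (h : μ (ball y ρ) ≤ ENNReal.ofReal (V * ρ ^ n)) :
    μ (ball y (K * ρ)) ≤ ENNReal.ofReal (Real.exp (κ * K ^ 2 / 2) * K ^ n * V * ρ ^ n) := by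
  have h1 := C.mu_ball_le hκ y hρ (R := K * ρ) (by nlinarith)
  have e : K * ρ / ρ = K := by field_simp
  rw [e] at h1
  calc μ (ball y (K * ρ)) ≤ ENNReal.ofReal (Real.exp (κ * (K * ρ) ^ 2 / 2) * K ^ n) *
        ENNReal.ofReal (V * ρ ^ n) := h1.trans (by gcongr)
    _ = ENNReal.ofReal (Real.exp (κ * (K * ρ) ^ 2 / 2) * K ^ n * (V * ρ ^ n)) := by
        rw [← ENNReal.ofReal_mul (by positivity)]
    _ ≤ _ := by
        apply ENNReal.ofReal_le_ofReal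
        have h2 : (K * ρ) ^ 2 ≤ K ^ 2 := by
          rw [mul_pow]
          have : ρ ^ 2 ≤ 1 := by nlinarith
          nlinarith [sq_nonneg K]
        have h3 : Real.exp (κ * (K * ρ) ^ 2 / 2) ≤ Real.exp (κ * K ^ 2 / 2) := by gcongr
        calc Real.exp (κ * (K * ρ) ^ 2 / 2) * K ^ n * (V * ρ ^ n)
            ≤ Real.exp (κ * K ^ 2 / 2) * K ^ n * (V * ρ ^ n) := by gcongr
          _ = _ := by ring

section R2

variable {X : Type*} [MetricSpace X] [ProperSpace X] [MeasurableSpace X] [BorelSpace X]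
  {F : Type*} [NormedAddCommGroup F] [InnerProductSpace ℝ F] [CompleteSpace F] {μ : Measure X}
  [IsFiniteMeasureOnCompacts μ] (S : GradS X F μ)

/-- the class of the indicator of `E` (of `∅` if `E` is not admissible) -/
def cE (μ : Measure X) (E : Set X) : Lp ℝ 2 μ :=
  open Classical in
  if h : MeasurableSet E ∧ μ E ≠ ∞ then ind h.1 h.2 else 0

lemma cE_eq {E : Set X} (hE : MeasurableSet E) (hμ : μ E ≠ ∞) : cE μ E = ind hE hμ := by
  unfold cE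
  rw [dif_pos ⟨hE, hμ⟩]

/-- `R_ρ 1_E` as a nonnegative extended real function -/
def PE (ρ : ℝ) (E : Set X) (z : X) : ℝ≥0∞ := ENNReal.ofReal ((QF S).res (ρ ^ 2) (cE μ E) z)

variable {S}

/-- the constant of (R2) -/
def cR2 (n : ℕ) (κ K v1 : ℝ) : ℝ :=
  (64 / 27 * (1 + 6 * (n + κ * (4 * K ^ 2))) *
    (2 ^ (n + 2) * Real.exp (4 * K ^ 2 + κ * (4 * K ^ 2) / 2) * v1 * (2 * K) ^ n))⁻¹

lemma cR2_pos {n : ℕ} {κ K v1 : ℝ} (hκ : 0 ≤ κ) (hK : 1 ≤ K) (hv1 : 0 < v1) :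
    0 < cR2 n κ K v1 := by
  unfold cR2
  have : (0 : ℝ) ≤ n := Nat.cast_nonneg n
  positivity

/-- **(R2)** in the form `(hR2)` of `locIn_of` -/
theorem hR2_of {n : ℕ} (hn : 1 ≤ n) {κ : ℝ} (W : WLap S n κ) (C : Rad n κ X μ) (hκ : 0 ≤ κ)
    {v1 : ℝ} (hv1 : 0 < v1)
    (hd : ∀ y : X, ∀ᶠ ε in 𝓝[>] (0:ℝ), μ (closedBall y ε) ≤ ENNReal.ofReal (v1 * ε ^ n))
    {K ρ : ℝ} (hK : 1 ≤ K) (hρ : 0 < ρ) (hρ1 : ρ ≤ 1)
    {E : Set X} (hE : MeasurableSet E) (hμ : μ E ≠ ∞) :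
    ∀ᵐ z ∂μ, ENNReal.ofReal (cR2 n κ K v1) * Far553.loc μ n K ρ (E.indicator fun _ => 1) z ≤
      PE S ρ E z := by
  have := doubling_of_rad C hκ
  have h0 : 0 ≤ᵐ[μ] (cE μ E : X → ℝ) := by
    rw [cE_eq hE hμ]
    exact ind_nonneg hE hμ
  have hr := r2 (S := S) S.dense_V hn W hκ (φ := cE μ E) h0 (h := ρ ^ 2) (by positivity)
  have hc := coe_ind (μ := μ) hE hμ
  filter_upwards [hr] with y hy
  have h1 := hy v1 hv1.le (hd y) (2 * (K * ρ)) (by positivity)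
  have e0 : 2 * (K * ρ) / 2 = K * ρ := by ring
  rw [e0] at h1
  -- the local mean as a real integral
  have hball : μ (ball y (K * ρ)) ≠ ∞ := measure_ball_lt_top.ne
  have e1 : ∫ z in ball y (K * ρ), (cE μ E : X → ℝ) z ∂μ =
      ∫ z in ball y (K * ρ), E.indicator (fun _ => (1 : ℝ)) z ∂μ := by
    apply integral_congr_ae
    rw [cE_eq hE hμ]
    exact ae_restrict_of_ae hc
  have e2 : ∫⁻ z in ball y (K * ρ), ENNReal.ofReal (E.indicator (fun _ => (1 : ℝ)) z) ∂μ =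
      ENNReal.ofReal (∫ z in ball y (K * ρ), E.indicator (fun _ => (1 : ℝ)) z ∂μ) := by
    rw [ofReal_integral_eq_lintegral_ofReal]
    · have : IsFiniteMeasure (μ.restrict (ball y (K * ρ))) :=
        ⟨by rw [Measure.restrict_apply_univ]; exact hball.lt_top⟩
      exact (integrable_const (1 : ℝ)).indicator hE
    · exact Eventually.of_forall fun z => indicator_nonneg (fun _ _ => zero_le_one) z
  rw [e1] at h1
  unfold PE Far553.loc
  rw [e2, ← ENNReal.ofReal_mul (by positivity), ← ENNReal.ofReal_mul (cR2_pos hκ hK hv1).le]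
  apply ENNReal.ofReal_le_ofReal
  set I : ℝ := ∫ z in ball y (K * ρ), E.indicator (fun _ => (1 : ℝ)) z ∂μ with hI
  set v : ℝ := (QF S).res (ρ ^ 2) (cE μ E) y with hv
  have hn0 : (0 : ℝ) ≤ n := Nat.cast_nonneg n
  have hI0 : 0 ≤ I := by
    apply integral_nonneg
    exact fun z => indicator_nonneg (fun _ _ => zero_le_one) z
  have hρ2 : ρ ^ 2 ≤ 1 := by nlinarith
  have hK2 : (2 * (K * ρ)) ^ 2 = 4 * K ^ 2 * ρ ^ 2 := by ring
  -- nonnegativity of `v` follows from the inequality (the constants are positive)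
  set c1 : ℝ := 64 / 27 * (1 + 6 * ρ ^ 2 * (n + κ * (2 * (K * ρ)) ^ 2) / (2 * (K * ρ)) ^ 2) *
    (2 ^ (n + 2) * Real.exp ((2 * (K * ρ)) ^ 2 / ρ ^ 2 + κ * (2 * (K * ρ)) ^ 2 / 2) * v1 *
      (2 * (K * ρ)) ^ n) with hc1
  have hc1pos : 0 < c1 := by rw [hc1]; positivity
  have hv0 : 0 ≤ v := by
    by_contra hneg
    push Not at hneg
    have : c1 * v < 0 := mul_neg_of_pos_of_neg hc1pos hneg
    linarith
  set c2 : ℝ := 64 / 27 * (1 + 6 * (n + κ * (4 * K ^ 2))) *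
    (2 ^ (n + 2) * Real.exp (4 * K ^ 2 + κ * (4 * K ^ 2) / 2) * v1 * (2 * K) ^ n) with hc2
  have hc2pos : 0 < c2 := by rw [hc2]; positivity
  have hcc : c1 ≤ c2 * ρ ^ n := by
    have a1 : 6 * ρ ^ 2 * (n + κ * (2 * (K * ρ)) ^ 2) / (2 * (K * ρ)) ^ 2 ≤
        6 * (n + κ * (4 * K ^ 2)) := by
      rw [hK2]
      have b1 : 6 * ρ ^ 2 * (n + κ * (4 * K ^ 2 * ρ ^ 2)) / (4 * K ^ 2 * ρ ^ 2) =
          6 * (n + κ * (4 * K ^ 2 * ρ ^ 2)) / (4 * K ^ 2) := by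
        field_simp
      rw [b1, div_le_iff₀ (by positivity)]
      have b2 : κ * (4 * K ^ 2 * ρ ^ 2) ≤ κ * (4 * K ^ 2) := by
        have : 4 * K ^ 2 * ρ ^ 2 ≤ 4 * K ^ 2 := by nlinarith [sq_nonneg K]
        gcongr
      have b3 : (1 : ℝ) ≤ 4 * K ^ 2 := by nlinarith
      have b4 : 0 ≤ 6 * (n + κ * (4 * K ^ 2)) := by positivity
      nlinarith
    have a2 : Real.exp ((2 * (K * ρ)) ^ 2 / ρ ^ 2 + κ * (2 * (K * ρ)) ^ 2 / 2) ≤
        Real.exp (4 * K ^ 2 + κ * (4 * K ^ 2) / 2) := by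
      apply Real.exp_le_exp.2
      rw [hK2]
      have b1 : 4 * K ^ 2 * ρ ^ 2 / ρ ^ 2 = 4 * K ^ 2 := by field_simp
      rw [b1]
      have b2 : κ * (4 * K ^ 2 * ρ ^ 2) ≤ κ * (4 * K ^ 2) := by
        have : 4 * K ^ 2 * ρ ^ 2 ≤ 4 * K ^ 2 := by nlinarith [sq_nonneg K]
        gcongr
      linarith
    have a3 : (2 * (K * ρ)) ^ n = (2 * K) ^ n * ρ ^ n := by rw [← mul_pow]; ring
    calc c1 ≤ 64 / 27 * (1 + 6 * (n + κ * (4 * K ^ 2))) *
          (2 ^ (n + 2) * Real.exp (4 * K ^ 2 + κ * (4 * K ^ 2) / 2) * v1 *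
            ((2 * K) ^ n * ρ ^ n)) := by
          rw [hc1, ← a3]
          gcongr
      _ = _ := by rw [hc2]; ring
  have hfin : I ≤ c2 * ρ ^ n * v := h1.trans (mul_le_mul_of_nonneg_right hcc hv0)
  calc cR2 n κ K v1 * ((ρ⁻¹) ^ n * I) ≤ c2⁻¹ * ((ρ⁻¹) ^ n * (c2 * ρ ^ n * v)) := by
        have : cR2 n κ K v1 = c2⁻¹ := rfl
        rw [this]
        gcongr
    _ = v := by
        rw [inv_pow]
        field_simp

end R2

end Crest.Agent.R247.Sv436
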