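import Crest.Agent.R247.Sv7_436
import Crest.Agent.R247.Fd0_656
import Crest.Agent.R247.Obj2_554
import Crest.Agent.R247.Dec3_386

/-! # R247, leaf (1-S): the integrated identity (hHF) of `Sv436.locIn_of` from the `k`-equation

`SP` is the right-hand side `S'` of the `k`-equation; `SP_ge` collects its sign properties
(`S' ≥ 2|A-I|² + (ρ²/2)|Dq|²` for `d_x < 32`, `S' ≥ 0` for `d_x > 64`, `S' ≥ -C` in between). -/

set_option autoImplicit false
set_option linter.unusedSectionVars false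
open MeasureTheory Set Filter Topology Metric TopologicalSpace
open scoped ENNReal NNReal RealInnerProductSpace

noncomputable section
namespace Crest.Agent.R247.Sv436

open Crest.Agent.R247.Mcp688 Crest.Agent.R247.Far553 Crest.Agent.R242
open Crest.Agent.R247.Dir593 Crest.Agent.R247.Dir593.GradS Crest.Agent.R247.Smv126
open Crest.Agent.R247.Obj554 Crest.Agent.R247.Hes124

section scalar

/-- `|∇h|² - 2h ≤ 0` as a function of `s = d²/2` -/
lemma two_mul_eta_sq_le {s : ℝ} (hs : 0 ≤ s) : s * eta s ^ 2 ≤ Phi s := by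
  have hanti : ∀ a b : ℝ, a ≤ b → eta b ≤ eta a := by
    intro a b hab
    unfold eta
    apply Real.smoothTransition.monotone
    have : (0:ℝ) < S1 - S0 := by norm_num [S1, S0]
    gcongr
  have h1 : s * eta s ≤ Phi s := by
    have h2 : ∫ t in (0:ℝ)..s, eta s ≤ ∫ t in (0:ℝ)..s, eta t := by
      apply intervalIntegral.integral_mono_on hs intervalIntegrable_const
        (continuous_eta.intervalIntegrable _ _)
      intro t ht
      exact hanti _ _ ht.2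
    rw [intervalIntegral.integral_const, smul_eq_mul, sub_zero] at h2
    exact h2
  have h3 : s * eta s ^ 2 ≤ s * eta s := by
    have h4 := eta_nonneg s
    have h5 := eta_le_one s
    have : eta s ^ 2 ≤ eta s := by nlinarith
    gcongr
  linarith

lemma deriv_Nfun_left (n : ℕ) (κ : ℝ) {s : ℝ} (h : s < S0) : deriv (Nfun n κ) s = 2 * κ := by
  have h1 : Nfun n κ =ᶠ[𝓝 s] fun t => n + 2 * κ * t := by
    filter_upwards [Iio_mem_nhds h] with t ht
    exact Nfun_eq n κ (le_of_lt ht)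
  rw [h1.deriv_eq]
  have h2 : HasDerivAt (fun t : ℝ => (n:ℝ) + 2 * κ * t) (2 * κ) s := by
    have := ((hasDerivAt_id s).const_mul (2 * κ)).const_add (n:ℝ)
    simpa using this
  exact h2.deriv

lemma deriv_Nfun_right (n : ℕ) (κ : ℝ) {s : ℝ} (h : S1 < s) : deriv (Nfun n κ) s = 0 := by
  have h1 : Nfun n κ =ᶠ[𝓝 s] fun _ => (0 : ℝ) := by
    filter_upwards [Ioi_mem_nhds h] with t ht
    exact Nfun_zero n κ (le_of_lt ht)
  rw [h1.deriv_eq]
  simp

end scalar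

variable {n : ℕ} {κ : ℝ} {X : Type*} [MetricSpace X] [ProperSpace X] [MeasurableSpace X]
  [BorelSpace X] {μ : Measure X} [IsFiniteMeasureOnCompacts μ]

/-- the right-hand side `S'` of the `k`-equation -/
def SP (B : BochS n κ X μ) (x : X) (ρ : ℝ) (A : X → Hes124.S n) (z : X) : ℝ :=
  2 * ‖A z - idm n‖ ^ 2 +
    2 * ⟪mv (B.Ric z) (B.D (uL B.toGradS n κ x ρ) z), B.D (uL B.toGradS n κ x ρ) z⟫ +
    ρ ^ 2 * ‖B.D (qL B.toGradS n κ x ρ) z‖ ^ 2 +
    2 * ⟪B.G (Nf n κ x) z, B.D (uL B.toGradS n κ x ρ) z⟫ + 2 * (Nf n κ x z - n)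

/-- `2|A-I|² + (ρ²/2)|Dq|²` -/
def TP (B : BochS n κ X μ) (x : X) (ρ : ℝ) (A : X → Hes124.S n) (z : X) : ℝ :=
  2 * ‖A z - idm n‖ ^ 2 + ρ ^ 2 / 2 * ‖B.D (qL B.toGradS n κ x ρ) z‖ ^ 2

/-- the annulus carrying the cut-off error -/
def annS (x : X) : Set X := {z | 32 ≤ dist x z ∧ dist x z ≤ 64}

lemma TP_nonneg (B : BochS n κ X μ) (x : X) (ρ : ℝ) (A : X → Hes124.S n) (z : X) :
    0 ≤ TP B x ρ A z := by
  unfold TP
  positivity

lemma annS_meas (x : X) : MeasurableSet (annS x) := by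
  have h : Measurable fun z : X => dist x z := (continuous_const.dist continuous_id).measurable
  exact (h measurableSet_Ici).inter (h measurableSet_Iic)

lemma annS_sub (x : X) : annS x ⊆ closedBall x 64 := fun z hz => by
  rw [mem_closedBall, dist_comm]
  exact hz.2

lemma annS_fin (x : X) : μ (annS x) ≠ ∞ :=
  ((measure_mono (annS_sub x)).trans_lt (isCompact_closedBall x 64).measure_lt_top).ne

/-- pointwise value of `D u` -/
lemma D_uL_ae (B : BochS n κ X μ) {ρ : ℝ} (hρ : 0 < ρ) (x : X) :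
    ∀ᵐ z ∂μ, B.D (uL B.toGradS n κ x ρ) z =
      et x z • B.G (hf x) z - ρ ^ 2 • B.D (qL B.toGradS n κ x ρ) z := by
  have h := D_uL (S := B.toGradS) (n := n) (κ := κ) hρ x
  filter_upwards [Lp.coeFn_sub (B.D (tL (isT_f0 x))) (ρ ^ 2 • B.D (qL B.toGradS n κ x ρ)),
    Lp.coeFn_smul (ρ ^ 2) (B.D (qL B.toGradS n κ x ρ)), B.D_tL (isT_f0 x),
    G_f0 B.toGradS x] with z a1 a2 a3 a4
  rw [h, a1, Pi.sub_apply, a2, Pi.smul_apply, a3, a4]

/-- pointwise value of `u` -/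
lemma uL_ae (B : BochS n κ X μ) {ρ : ℝ} (x : X) :
    ∀ᵐ z ∂μ, uL B.toGradS n κ x ρ z = f0 x z - ρ ^ 2 * qL B.toGradS n κ x ρ z := by
  filter_upwards [Lp.coeFn_sub (tL (isT_f0 x) : Lp ℝ 2 μ) (ρ ^ 2 • qL B.toGradS n κ x ρ),
    Lp.coeFn_smul (ρ ^ 2) (qL B.toGradS n κ x ρ), coe_tL (μ := μ) (isT_f0 x)] with z a1 a2 a3
  unfold uL
  rw [a1, Pi.sub_apply, a2, Pi.smul_apply, a3, smul_eq_mul]

/-- the constant of the annulus error: `2κ A₁² + 2 A₁ A₂ + 2 CN + 2n` -/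
def Cann (n : ℕ) (κ A1 A2 : ℝ) : ℝ := 2 * κ * A1 ^ 2 + 2 * (A2 * A1) + 2 * CN n κ + 2 * n

set_option maxHeartbeats 1000000 in
/-- **sign properties of `S'`** -/
theorem SP_ge (B : BochS n κ X μ) (W : WLap B.toGradS n κ) (hκ : 0 ≤ κ) {ρ : ℝ} (hρ : 0 < ρ)
    (hκρ : 4 * κ * ρ ^ 2 ≤ 1) (x : X) {A : X → Hes124.S n}
    (htr : ∀ᵐ z ∂μ, tr (A z) = Nf n κ x z - qL B.toGradS n κ x ρ z)
    {A1 A2 : ℝ} (hA1 : 0 ≤ A1) (hA2 : 0 ≤ A2)
    (hD : ∀ᵐ z ∂μ, ‖B.D (uL B.toGradS n κ x ρ) z‖ ≤ A1)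
    (hN : ∀ᵐ z ∂μ, ‖B.G (Nf n κ x) z‖ ≤ A2) :
    ∀ᵐ z ∂μ, (ball x 32).indicator (TP B x ρ A) z ≤
      SP B x ρ A z + Cann n κ A1 A2 * (annS x).indicator (fun _ => (1:ℝ)) z := by
  filter_upwards [D_uL_ae B hρ x, htr, hD, hN, B.Ric_lb, G_Nf B.toGradS n κ x,
    W.normSq_G_hf x, qL_nonneg W hρ x] with z h1 h2 h3 h4 h5 h6 h7 h8
  set U := B.D (uL B.toGradS n κ x ρ) z with hU
  set g := B.D (qL B.toGradS n κ x ρ) z with hg
  set e := B.G (hf x) z with he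
  have hR := h5 U
  have hρ2 : 0 < ρ ^ 2 := by positivity
  have hCN := CN_nonneg n hκ
  have hn : (0:ℝ) ≤ n := Nat.cast_nonneg n
  have hCann : 0 ≤ Cann n κ A1 A2 := by unfold Cann; positivity
  rcases lt_or_ge (dist x z) 32 with hd | hd
  · -- inner region
    have hzb : z ∈ ball x 32 := by rw [mem_ball, dist_comm]; exact hd
    have hza : z ∉ annS x := fun h => absurd h.1 (not_le.2 hd)
    rw [indicator_of_mem hzb, indicator_of_notMem hza, mul_zero, add_zero]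
    have hs : hf x z < S0 := by
      unfold hf S0
      nlinarith [dist_nonneg (x := x) (y := z)]
    have e1 : et x z = 1 := eta_one hs.le
    rw [deriv_Nfun_left n κ hs] at h6
    have e2 := Nf_eq n κ hd.le
    rw [e1, one_smul] at h1
    have e3 : ‖e‖ ^ 2 = dist x z ^ 2 := h7
    have e4 : ⟪B.G (Nf n κ x) z, U⟫ = 2 * κ * ⟪e, U⟫ := by rw [h6, real_inner_smul_left]
    have e5 : ‖U‖ ^ 2 = ‖e‖ ^ 2 - 2 * (ρ ^ 2 * ⟪e, g⟫) + ρ ^ 4 * ‖g‖ ^ 2 := by
      rw [h1, norm_sub_sq_real, real_inner_smul_right, norm_smul, Real.norm_of_nonneg hρ2.le]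
      ring
    have e6 : ⟪e, U⟫ = ‖e‖ ^ 2 - ρ ^ 2 * ⟪e, g⟫ := by
      rw [h1, inner_sub_right, real_inner_smul_right, real_inner_self_eq_norm_sq]
    unfold TP SP
    rw [← hU, ← hg, e4, e2, ← e3, e6]
    rw [e5] at hR
    have e7 : 0 ≤ κ * ‖e‖ ^ 2 := by positivity
    have e8 : 2 * κ * ρ ^ 4 * ‖g‖ ^ 2 ≤ ρ ^ 2 / 2 * ‖g‖ ^ 2 := by
      have h9 : 2 * κ * ρ ^ 4 ≤ ρ ^ 2 / 2 := by
        have h10 := mul_le_mul_of_nonneg_right hκρ hρ2.le
        linarith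
      exact mul_le_mul_of_nonneg_right h9 (by positivity)
    linarith
  · have hzb : z ∉ ball x 32 := by rw [mem_ball, dist_comm]; exact not_lt.2 hd
    rw [indicator_of_notMem hzb]
    have hUn := h3
    have hU2 : ‖U‖ ^ 2 ≤ A1 ^ 2 := by
      have := norm_nonneg U
      nlinarith
    rcases le_or_gt (dist x z) 64 with hd2 | hd2
    · -- annulus
      have hza : z ∈ annS x := ⟨hd, hd2⟩
      rw [indicator_of_mem hza, mul_one]
      have e1 : |⟪B.G (Nf n κ x) z, U⟫| ≤ A2 * A1 :=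
        (abs_real_inner_le_norm _ _).trans (mul_le_mul h4 h3 (norm_nonneg _) hA2)
      have e2 := abs_le.1 e1
      have e3 := abs_le.1 (abs_Nf_le n hκ x z)
      have e4 : κ * ‖U‖ ^ 2 ≤ κ * A1 ^ 2 := by gcongr
      have e5 : 0 ≤ ρ ^ 2 * ‖g‖ ^ 2 := by positivity
      have e6 : 0 ≤ 2 * ‖A z - idm n‖ ^ 2 := by positivity
      unfold SP Cann
      rw [← hU, ← hg]
      linarith [e2.1, e3.1]
    · -- outer region
      have hza : z ∉ annS x := fun h => absurd h.2 (not_le.2 hd2)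
      rw [indicator_of_notMem hza, mul_zero, add_zero]
      have hs : S1 < hf x z := by
        unfold hf S1
        nlinarith [dist_nonneg (x := x) (y := z)]
      have e1 : et x z = 0 := eta_zero hs.le
      rw [deriv_Nfun_right n κ hs, zero_smul] at h6
      have e2 : Nf n κ x z = 0 := Nfun_zero n κ hs.le
      rw [e1, zero_smul, zero_sub] at h1
      have e3 : ‖U‖ ^ 2 = ρ ^ 4 * ‖g‖ ^ 2 := by
        rw [h1, norm_neg, norm_smul, Real.norm_of_nonneg hρ2.le]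
        ring
      have e4 := norm_sub_idm_sq (A z)
      unfold SP
      rw [← hU, ← hg, h6, inner_zero_left, e2, e4, h2, e2]
      have e5 : 2 * κ * ρ ^ 4 * ‖g‖ ^ 2 ≤ ρ ^ 2 * ‖g‖ ^ 2 := by
        have h9 : 2 * κ * ρ ^ 4 ≤ ρ ^ 2 := by
          have h10 := mul_le_mul_of_nonneg_right hκρ hρ2.le
          linarith
        exact mul_le_mul_of_nonneg_right h9 (by positivity)
      rw [e3] at hR
      have e6 : 0 ≤ ‖A z‖ ^ 2 := by positivity
      linarith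

/-- the `k`-equation: `k = |Du|² - 2u`, `k - ρ² Δ k = |∇f₀|² - 2 f₀ + ρ² (4q - S')` -/
structure KEq (B : BochS n κ X μ) (x : X) (ρ : ℝ) (A : X → Hes124.S n) (k : Lp ℝ 2 μ) :
    Prop where
  mem : k ∈ B.V
  val : ∀ᵐ z ∂μ, k z = ‖B.D (uL B.toGradS n κ x ρ) z‖ ^ 2 - 2 * uL B.toGradS n κ x ρ z
  int : ∀ p ∈ B.V, ∀ c : ℝ, (∀ᵐ z ∂μ, |p z| ≤ c) → Integrable (fun z => p z * SP B x ρ A z) μ
  eq : ∀ p ∈ B.V, ∀ c : ℝ, (∀ᵐ z ∂μ, |p z| ≤ c) →
    ρ ^ 2 * ⟪B.D k, B.D p⟫ + ⟪k, p⟫ =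
      ∫ z, p z * (‖B.G (f0 x) z‖ ^ 2 - 2 * f0 x z) ∂μ +
        ρ ^ 2 * ∫ z, p z * (4 * qL B.toGradS n κ x ρ z - SP B x ρ A z) ∂μ

/-- `|∇f₀|² - 2f₀ ∈ [0, 2 c_∞]` -/
lemma E0_bounds (B : BochS n κ X μ) (W : WLap B.toGradS n κ) (x : X) :
    ∀ᵐ z ∂μ, 0 ≤ ‖B.G (f0 x) z‖ ^ 2 - 2 * f0 x z ∧
      ‖B.G (f0 x) z‖ ^ 2 - 2 * f0 x z ≤ 2 * cinf := by
  filter_upwards [G_f0 B.toGradS x, W.normSq_G_hf x] with z h1 h2
  have h3 := f0_nonpos x z
  refine ⟨by have := sq_nonneg ‖B.G (f0 x) z‖; linarith, ?_⟩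
  rw [h1, norm_smul, mul_pow, h2]
  have h4 := two_mul_eta_sq_le (hf_nonneg x z)
  have h5 : ‖et x z‖ ^ 2 = eta (hf x z) ^ 2 := by
    unfold et
    rw [Real.norm_eq_abs, sq_abs]
  rw [h5]
  have h6 : dist x z ^ 2 = 2 * hf x z := by unfold hf; ring
  rw [h6]
  unfold f0
  nlinarith

/-- `k` on `ball x 32` -/
lemma k_val (B : BochS n κ X μ) (W : WLap B.toGradS n κ) {ρ : ℝ} (hρ : 0 < ρ) (x : X)
    {A : X → Hes124.S n} {k : Lp ℝ 2 μ} (K : KEq B x ρ A k) :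
    ∀ᵐ z ∂μ, z ∈ ball x 32 → k z = 2 * cinf +
      ρ ^ 2 * (-2 * ⟪B.G (hf x) z, B.D (qL B.toGradS n κ x ρ) z⟫ +
        ρ ^ 2 * ‖B.D (qL B.toGradS n κ x ρ) z‖ ^ 2 + 2 * qL B.toGradS n κ x ρ z) := by
  filter_upwards [K.val, D_uL_ae B hρ x, uL_ae B x, W.normSq_G_hf x] with z h1 h2 h3 h4 hz
  rw [mem_ball, dist_comm] at hz
  have e1 : et x z = 1 := eta_one (hf_le_S0 hz.le)
  rw [e1, one_smul] at h2
  have hρ2 : 0 < ρ ^ 2 := by positivity
  rw [h1, h2, h3, f0_eq hz.le, norm_sub_sq_real, real_inner_smul_right, norm_smul,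
    Real.norm_of_nonneg hρ2.le, h4]
  ring

/-- **the integrated identity, inequality form** -/
theorem key_ineq [SigmaFinite μ] (B : BochS n κ X μ) (W : WLap B.toGradS n κ) {ρ : ℝ}
    (hρ : 0 < ρ) (x : X) {A : X → Hes124.S n} {k : Lp ℝ 2 μ} (K : KEq B x ρ A k)
    {E : Set X} (hE : MeasurableSet E) (hμ : μ E ≠ ∞) (hs : E ⊆ ball x 32) :
    ∫ z, (QF B.toGradS).res (ρ ^ 2) (ind hE hμ) z * SP B x ρ A z ∂μ ≤
      2 * ∫ z in E, (⟪B.G (hf x) z, B.D (qL B.toGradS n κ x ρ) z⟫ - qL B.toGradS n κ x ρ z +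
        2 * (QF B.toGradS).res (ρ ^ 2) (qL B.toGradS n κ x ρ) z) ∂μ := by
  have h0 : (0:ℝ) < ρ ^ 2 := by positivity
  set q := qL B.toGradS n κ x ρ with hq
  set φ := (QF B.toGradS).res (ρ ^ 2) (ind hE hμ) with hφ
  have M := B.markov B.dense_V
  have hfin : IsFiniteMeasure (μ.restrict E) := ⟨by rw [Measure.restrict_apply_univ]; exact hμ.lt_top⟩
  have φmem : φ ∈ B.V := (QF B.toGradS).res_mem h0 _
  have φ0 : 0 ≤ᵐ[μ] (φ : X → ℝ) := M.res_nonneg h0 (ind_nonneg hE hμ)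
  have φ1 : ∀ᵐ z ∂μ, φ z ≤ 1 := M.res_le h0 zero_le_one (ind_le_one hE hμ)
  have φb : ∀ᵐ z ∂μ, |φ z| ≤ 1 := by
    filter_upwards [φ0, φ1] with z h1 h2
    rw [abs_of_nonneg h1]; exact h2
  have iE : Integrable (ind hE hμ : X → ℝ) μ := by
    refine ((integrable_indicator_iff hE).2 (integrableOn_const (C := (1:ℝ)) (hs := hμ))).congr ?_
    exact (coe_ind hE hμ).symm
  have iφ : Integrable φ μ := (M.symMarkov_res h0).integrable (ind_nonneg hE hμ) iE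
  have iφle : ∫ z, φ z ∂μ ≤ μ.real E := by
    refine ((M.symMarkov_res h0).integral_le (ind_nonneg hE hμ) iE).trans (le_of_eq ?_)
    rw [integral_congr_ae (coe_ind hE hμ), integral_indicator hE, setIntegral_const,
      smul_eq_mul, mul_one]
  -- left-hand side
  have e1 : ρ ^ 2 * ⟪B.D k, B.D φ⟫ + ⟪k, φ⟫ = ∫ z in E, k z ∂μ := by
    have h1 := (QF B.toGradS).res_eq h0 (ind hE hμ) (v := k) K.mem
    have h2 : (QF B.toGradS).E φ k = ⟪B.D φ, B.D k⟫ := rfl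
    rw [← hφ, h2, real_inner_comm, real_inner_comm k φ, real_inner_comm k (ind hE hμ)] at h1
    rw [h1, inner_ind]
  have e2 := K.eq φ φmem 1 φb
  rw [e1] at e2
  -- `∫ φ q = ∫_E R q`
  have e3 : ∫ z, φ z * q z ∂μ = ∫ z in E, (QF B.toGradS).res (ρ ^ 2) q z ∂μ := by
    have h1 := (QF B.toGradS).res_symm (ρ ^ 2) (ind hE hμ) q
    rw [← hφ, real_inner_comm _ (ind hE hμ), inner_ind, L2.inner_def] at h1
    rw [← h1]
    refine integral_congr_ae (Eventually.of_forall fun z => ?_)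
    simp [mul_comm]
  have iφq : Integrable (fun z => φ z * q z) μ := by
    refine (L2.integrable_inner (𝕜 := ℝ) q φ).congr (Eventually.of_forall fun z => ?_)
    simp
  have iφS := K.int φ φmem 1 φb
  have e4 : ∫ z, φ z * (4 * q z - SP B x ρ A z) ∂μ =
      4 * (∫ z in E, (QF B.toGradS).res (ρ ^ 2) q z ∂μ) - ∫ z, φ z * SP B x ρ A z ∂μ := by
    rw [← e3, ← integral_const_mul, ← integral_sub (iφq.const_mul 4) iφS]
    refine integral_congr_ae (Eventually.of_forall fun z => ?_)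
    simp only
    ring
  have e5 : ∫ z, φ z * (‖B.G (f0 x) z‖ ^ 2 - 2 * f0 x z) ∂μ ≤ 2 * cinf * μ.real E := by
    have h1 : ∫ z, φ z * (‖B.G (f0 x) z‖ ^ 2 - 2 * f0 x z) ∂μ ≤ ∫ z, 2 * cinf * φ z ∂μ := by
      refine integral_mono_of_nonneg ?_ (iφ.const_mul _) ?_
      · filter_upwards [φ0, E0_bounds B W x] with z h1 h2
        exact mul_nonneg h1 h2.1
      · filter_upwards [φ0, E0_bounds B W x] with z h1 h2
        have h3 : (0:ℝ) ≤ φ z := h1
        show φ z * _ ≤ 2 * cinf * φ z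
        rw [mul_comm]
        exact mul_le_mul_of_nonneg_right h2.2 h3
    rw [integral_const_mul] at h1
    have := cinf_pos
    exact h1.trans (mul_le_mul_of_nonneg_left iφle (by positivity))
  -- integrability on `E`
  have iq : IntegrableOn q E μ := integrableOn_of_L2 q hE hμ
  have iRq : IntegrableOn ((QF B.toGradS).res (ρ ^ 2) q) E μ := integrableOn_of_L2 _ hE hμ
  have iDq : IntegrableOn (fun z => ‖B.D q z‖ ^ 2) E μ := (int_sq (Lp.memLp (B.D q))).integrableOn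
  have ih : IntegrableOn (fun z => (⟪B.G (hf x) z, B.D q z⟫ : ℝ)) E μ := by
    have h1 : IntegrableOn (fun z => ‖B.D q z‖) E μ := by
      exact ((Lp.memLp (B.D q)).restrict E).norm.integrable (by norm_num)
    refine Integrable.mono' (h1.const_mul 32) ?_ ?_
    · exact ((B.meas (locLip_hf x)).inner (Lp.aestronglyMeasurable (B.D q))).restrict
    · filter_upwards [ae_restrict_of_ae (W.normSq_G_hf x), ae_restrict_mem hE] with z h2 h3
      have h4 : dist x z < 32 := by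
        have := hs h3
        rwa [mem_ball, dist_comm] at this
      have h5 : ‖B.G (hf x) z‖ ≤ 32 := by
        have h6 : ‖B.G (hf x) z‖ = dist x z := by
          have := congrArg Real.sqrt h2
          rwa [Real.sqrt_sq (norm_nonneg _), Real.sqrt_sq dist_nonneg] at this
        rw [h6]; exact h4.le
      exact (norm_inner_le_norm _ _).trans (mul_le_mul_of_nonneg_right h5 (norm_nonneg _))
  -- value of `∫_E k`
  have e6 : ∫ z in E, k z ∂μ = 2 * cinf * μ.real E +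
      ρ ^ 2 * (-2 * (∫ z in E, ⟪B.G (hf x) z, B.D q z⟫ ∂μ) +
        ρ ^ 2 * (∫ z in E, ‖B.D q z‖ ^ 2 ∂μ) + 2 * ∫ z in E, q z ∂μ) := by
    have h1 : ∫ z in E, k z ∂μ = ∫ z in E, (2 * cinf +
        ρ ^ 2 * (-2 * ⟪B.G (hf x) z, B.D q z⟫ + ρ ^ 2 * ‖B.D q z‖ ^ 2 + 2 * q z)) ∂μ := by
      refine integral_congr_ae ?_
      filter_upwards [ae_restrict_of_ae (k_val B W hρ x K), ae_restrict_mem hE] with z h2 h3
      exact h2 (hs h3)
    have i1 : IntegrableOn (fun z => -2 * ⟪B.G (hf x) z, B.D q z⟫ + ρ ^ 2 * ‖B.D q z‖ ^ 2) E μ :=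
      (ih.const_mul _).add (iDq.const_mul _)
    have i2 : IntegrableOn (fun z => -2 * ⟪B.G (hf x) z, B.D q z⟫ + ρ ^ 2 * ‖B.D q z‖ ^ 2 +
        2 * q z) E μ := i1.add (iq.const_mul _)
    rw [h1, integral_add (integrable_const _) (i2.const_mul _), setIntegral_const, smul_eq_mul,
      integral_const_mul, integral_add i1 (iq.const_mul _),
      integral_add (ih.const_mul _) (iDq.const_mul _),
      integral_const_mul, integral_const_mul, integral_const_mul]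
    ring
  have e7 : 0 ≤ ∫ z in E, ‖B.D q z‖ ^ 2 ∂μ := integral_nonneg fun z => by positivity
  have e8 : ∫ z in E, (⟪B.G (hf x) z, B.D q z⟫ - q z +
        2 * (QF B.toGradS).res (ρ ^ 2) q z) ∂μ =
      (∫ z in E, ⟪B.G (hf x) z, B.D q z⟫ ∂μ) - (∫ z in E, q z ∂μ) +
        2 * ∫ z in E, (QF B.toGradS).res (ρ ^ 2) q z ∂μ := by
    have i3 : IntegrableOn (fun z => ⟪B.G (hf x) z, B.D q z⟫ - q z) E μ := ih.sub iq
    rw [integral_add i3 (iRq.const_mul _), integral_sub ih iq, integral_const_mul]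
  rw [e8]
  rw [e4, e6] at e2
  have e9 : ρ ^ 2 * (-2 * (∫ z in E, ⟪B.G (hf x) z, B.D q z⟫ ∂μ) +
        ρ ^ 2 * (∫ z in E, ‖B.D q z‖ ^ 2 ∂μ) + 2 * ∫ z in E, q z ∂μ) ≤
      ρ ^ 2 * (4 * (∫ z in E, (QF B.toGradS).res (ρ ^ 2) q z ∂μ) -
        ∫ z, φ z * SP B x ρ A z ∂μ) := by linarith
  have e10 := le_of_mul_le_mul_left e9 h0
  have e11 : 0 ≤ ρ ^ 2 * ∫ z in E, ‖B.D q z‖ ^ 2 ∂μ := mul_nonneg h0.le e7
  linarith

/-- duality `∫ R1_E · 1_G = ∫_E R 1_G` -/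
lemma int_res_ind (B : BochS n κ X μ) (h : ℝ) {E G : Set X} (hE : MeasurableSet E)
    (hμ : μ E ≠ ∞) (hG : MeasurableSet G) (hμG : μ G ≠ ∞) :
    Integrable (fun z => (QF B.toGradS).res h (ind hE hμ) z * G.indicator (fun _ => (1:ℝ)) z) μ ∧
    ∫ z, (QF B.toGradS).res h (ind hE hμ) z * G.indicator (fun _ => (1:ℝ)) z ∂μ =
      ∫ z in E, (QF B.toGradS).res h (ind hG hμG) z ∂μ := by
  have h1 : ⟪(QF B.toGradS).res h (ind hE hμ), ind hG hμG⟫ =
      ∫ z in E, (QF B.toGradS).res h (ind hG hμG) z ∂μ := by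
    rw [(QF B.toGradS).res_symm h (ind hE hμ) (ind hG hμG), real_inner_comm, inner_ind]
  rw [L2.inner_def] at h1
  have h2 : (fun z => ⟪(QF B.toGradS).res h (ind hE hμ) z, ind hG hμG z⟫) =ᵐ[μ]
      fun z => (QF B.toGradS).res h (ind hE hμ) z * G.indicator (fun _ => (1:ℝ)) z := by
    filter_upwards [coe_ind hG hμG] with z hz
    rw [hz]
    simp [mul_comm]
  constructor
  · exact (L2.integrable_inner (𝕜 := ℝ) _ _).congr h2
  · rw [← h1]
    exact (integral_congr_ae h2).symm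

set_option maxHeartbeats 400000 in
/-- **(hHF)**: the input of `locIn_of` -/
theorem hHF_of [SigmaFinite μ] (B : BochS n κ X μ) (W : WLap B.toGradS n κ) (hκ : 0 ≤ κ) {ρ : ℝ}
    (hρ : 0 < ρ) (hκρ : 4 * κ * ρ ^ 2 ≤ 1) (x : X) {A : X → Hes124.S n} (hA : Measurable A)
    (htr : ∀ᵐ z ∂μ, tr (A z) = Nf n κ x z - qL B.toGradS n κ x ρ z)
    {A1 A2 : ℝ} (hA1 : 0 ≤ A1) (hA2 : 0 ≤ A2)
    (hD : ∀ᵐ z ∂μ, ‖B.D (uL B.toGradS n κ x ρ) z‖ ≤ A1)
    (hN : ∀ᵐ z ∂μ, ‖B.G (Nf n κ x) z‖ ≤ A2) {k : Lp ℝ 2 μ} (K : KEq B x ρ A k)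
    {D qt rq er : X → ℝ}
    (eD : ∀ᵐ z ∂μ, D z = ⟪B.G (hf x) z, B.D (qL B.toGradS n κ x ρ) z⟫)
    (eq : ∀ᵐ z ∂μ, qt z = qL B.toGradS n κ x ρ z)
    (erq : ∀ᵐ z ∂μ, rq z = (QF B.toGradS).res (ρ ^ 2) (qL B.toGradS n κ x ρ) z)
    (eer : ∀ᵐ z ∂μ, er z = Cann n κ A1 A2 / 2 *
      (QF B.toGradS).res (ρ ^ 2) (ind (annS_meas x) (annS_fin x)) z)
    {E : Set X} (hE : MeasurableSet E) (hs : E ⊆ ball x 32) :
    ∫⁻ z, ENNReal.ofReal (4 * (ball x 32).indicator (TP B x ρ A) z) * PE B.toGradS ρ E z ∂μ ≤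
        ENNReal.ofReal (8 * ∫ z in E, (D z - qt z + (2 * rq z + er z)) ∂μ) ∧
      0 ≤ ∫ z in E, (D z - qt z + (2 * rq z + er z)) ∂μ := by
  have h0 : (0:ℝ) < ρ ^ 2 := by positivity
  have hμ : μ E ≠ ∞ :=
    ((measure_mono (hs.trans ball_subset_closedBall)).trans_lt
      (isCompact_closedBall x 32).measure_lt_top).ne
  have hfin : IsFiniteMeasure (μ.restrict E) := ⟨by rw [Measure.restrict_apply_univ]; exact hμ.lt_top⟩
  set q := qL B.toGradS n κ x ρ with hq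
  set φ := (QF B.toGradS).res (ρ ^ 2) (ind hE hμ) with hφ
  set T : X → ℝ := (ball x 32).indicator (TP B x ρ A) with hT
  set Ca := Cann n κ A1 A2 with hCa
  have M := B.markov B.dense_V
  have φ0 : 0 ≤ᵐ[μ] (φ : X → ℝ) := M.res_nonneg h0 (ind_nonneg hE hμ)
  have φ1 : ∀ᵐ z ∂μ, φ z ≤ 1 := M.res_le h0 zero_le_one (ind_le_one hE hμ)
  have φb : ∀ᵐ z ∂μ, |φ z| ≤ 1 := by
    filter_upwards [φ0, φ1] with z h1 h2
    rw [abs_of_nonneg h1]; exact h2
  have φmem : φ ∈ B.V := (QF B.toGradS).res_mem h0 _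
  have T0 : ∀ z, 0 ≤ T z := fun z => indicator_nonneg (fun z _ => TP_nonneg B x ρ A z) z
  have hTm : Measurable T := by
    refine Measurable.indicator ?_ isOpen_ball.measurableSet
    unfold TP
    exact (((hA.sub_const _).norm.pow_const 2).const_mul 2).add
      (((Lp.stronglyMeasurable (B.D q)).measurable.norm.pow_const 2).const_mul _)
  have iφS := K.int φ φmem 1 φb
  obtain ⟨iann, eann⟩ := int_res_ind B (ρ ^ 2) hE hμ (annS_meas x) (annS_fin (μ := μ) x)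
  rw [← hφ] at iann eann
  have hpt : ∀ᵐ z ∂μ, φ z * T z ≤ φ z * SP B x ρ A z +
      Ca * (φ z * (annS x).indicator (fun _ => (1:ℝ)) z) := by
    filter_upwards [SP_ge B W hκ hρ hκρ x htr hA1 hA2 hD hN, φ0] with z h1 h2
    have h3 : (0:ℝ) ≤ φ z := h2
    have h4 := mul_le_mul_of_nonneg_left h1 h3
    rw [← hT] at h4
    linarith
  have iR : Integrable (fun z => φ z * SP B x ρ A z +
      Ca * (φ z * (annS x).indicator (fun _ => (1:ℝ)) z)) μ := iφS.add (iann.const_mul _)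
  have hφT0 : ∀ᵐ z ∂μ, 0 ≤ φ z * T z := by
    filter_upwards [φ0] with z h1
    exact mul_nonneg h1 (T0 z)
  have iT : Integrable (fun z => φ z * T z) μ := by
    refine iR.mono' ((Lp.aestronglyMeasurable φ).mul hTm.aestronglyMeasurable) ?_
    filter_upwards [hpt, hφT0] with z h1 h2
    rw [Real.norm_of_nonneg h2]; exact h1
  have h1 : ∫ z, φ z * T z ∂μ ≤ ∫ z, φ z * SP B x ρ A z ∂μ +
      Ca * ∫ z in E, (QF B.toGradS).res (ρ ^ 2) (ind (annS_meas x) (annS_fin x)) z ∂μ := by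
    refine (integral_mono_ae iT iR hpt).trans (le_of_eq ?_)
    rw [integral_add iφS (iann.const_mul _), integral_const_mul, eann]
  have h2 := key_ineq B W hρ x K hE hμ hs
  rw [← hφ, ← hq] at h2
  -- the right-hand side
  have iq : IntegrableOn q E μ := integrableOn_of_L2 q hE hμ
  have iRq : IntegrableOn ((QF B.toGradS).res (ρ ^ 2) q) E μ := integrableOn_of_L2 _ hE hμ
  have ia : IntegrableOn ((QF B.toGradS).res (ρ ^ 2) (ind (annS_meas x) (annS_fin x))) E μ :=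
    integrableOn_of_L2 _ hE hμ
  have ih : IntegrableOn (fun z => (⟪B.G (hf x) z, B.D q z⟫ : ℝ)) E μ := by
    have h1 : IntegrableOn (fun z => ‖B.D q z‖) E μ := by
      exact ((Lp.memLp (B.D q)).restrict E).norm.integrable (by norm_num)
    refine Integrable.mono' (h1.const_mul 32) ?_ ?_
    · exact ((B.meas (locLip_hf x)).inner (Lp.aestronglyMeasurable (B.D q))).restrict
    · filter_upwards [ae_restrict_of_ae (W.normSq_G_hf x), ae_restrict_mem hE] with z h2 h3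
      have h4 : dist x z < 32 := by
        have := hs h3
        rwa [mem_ball, dist_comm] at this
      have h5 : ‖B.G (hf x) z‖ ≤ 32 := by
        have h6 : ‖B.G (hf x) z‖ = dist x z := by
          have := congrArg Real.sqrt h2
          rwa [Real.sqrt_sq (norm_nonneg _), Real.sqrt_sq dist_nonneg] at this
        rw [h6]; exact h4.le
      exact (norm_inner_le_norm _ _).trans (mul_le_mul_of_nonneg_right h5 (norm_nonneg _))
  have i3 : IntegrableOn (fun z => (⟪B.G (hf x) z, B.D q z⟫ - q z +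
      2 * (QF B.toGradS).res (ρ ^ 2) q z : ℝ)) E μ := (ih.sub iq).add (iRq.const_mul _)
  have h3 : ∫ z in E, (D z - qt z + (2 * rq z + er z)) ∂μ =
      (∫ z in E, (⟪B.G (hf x) z, B.D q z⟫ - q z + 2 * (QF B.toGradS).res (ρ ^ 2) q z) ∂μ) +
      Ca / 2 * ∫ z in E, (QF B.toGradS).res (ρ ^ 2) (ind (annS_meas x) (annS_fin x)) z ∂μ := by
    rw [← integral_const_mul, ← integral_add i3 (ia.const_mul _)]
    refine integral_congr_ae ?_
    filter_upwards [ae_restrict_of_ae eD, ae_restrict_of_ae eq, ae_restrict_of_ae erq,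
      ae_restrict_of_ae eer] with z a1 a2 a3 a4
    rw [a1, a2, a3, a4]
    ring
  have h4 : 4 * ∫ z, φ z * T z ∂μ ≤ 8 * ∫ z in E, (D z - qt z + (2 * rq z + er z)) ∂μ := by
    rw [h3]; linarith
  have h5 : 0 ≤ ∫ z, φ z * T z ∂μ := integral_nonneg_of_ae hφT0
  refine ⟨?_, by linarith⟩
  refine le_trans (le_of_eq ?_) (ENNReal.ofReal_le_ofReal h4)
  rw [← integral_const_mul, ofReal_integral_eq_lintegral_ofReal (iT.const_mul 4)
    (hφT0.mono fun z hz => mul_nonneg (by norm_num) hz)]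
  refine lintegral_congr fun z => ?_
  unfold PE
  rw [cE_eq hE hμ, ← ENNReal.ofReal_mul (mul_nonneg (by norm_num) (T0 z))]
  congr 1
  rw [← hφ]
  ring

end Crest.Agent.R247.Sv436
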