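import Crest.Agent.R247.Sv8_436
import Crest.Agent.R247.Hes5_124
import Crest.Agent.R247.Gb4_593
import Crest.Agent.R247.Obj3_554
import Crest.Agent.R247.Din_939

/-! # R247, leaf (1-S): the `k`-equation for the literal objects, global (hHF)

* `bw_of`  : helper124's `BW` for `u_k`, `O.A k` (helper593's GB1–GB4);
* `keq_of` : `KEq` for the literal objects;
* `hHFg_of`: (hHF) for the global `F = |A - I| + ρ |Dq|`, error = a number. -/

set_option autoImplicit false
set_option linter.unusedSectionVars false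
open MeasureTheory Set Filter Topology Metric TopologicalSpace
open scoped ENNReal NNReal RealInnerProductSpace

noncomputable section
namespace Crest.Agent.R247.Sv436

open Crest.Agent.R247.Mcp688 Crest.Agent.R247.Far553 Crest.Agent.R242
open Crest.Agent.R247.Dir593 Crest.Agent.R247.Dir593.GradS Crest.Agent.R247.Smv126
open Crest.Agent.R247.Obj554 Crest.Agent.R247.Hes124 Crest.Agent.R247.Fd656

variable {n : ℕ} {κ : ℝ} {X : Type*} [MetricSpace X] [ProperSpace X] [MeasurableSpace X]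
  [BorelSpace X] {μ : Measure X} [IsFiniteMeasureOnCompacts μ]

/-- helper124's package for the literal objects -/
theorem bw_of {B : BochS n κ X μ} {x : X} (hκ : 0 ≤ κ) (hκ1 : 4 * κ ≤ 1)
    (W : WLap B.toGradS n κ) (O : HObj B x) (k : ℕ) :
    ∃ P : Lp ℝ 2 μ, BW B (uk B x k) (gL B.toGradS n κ x (dy k)) (O.A k) P := by
  have hE := Obj554.eqn hκ W O k
  have hA : MemLp (O.A k) 2 μ := Gb593.memLp_A (O.hd k) hκ (Lp.memLp _) hE.tr
  have hR := norm_Duk_le hκ hκ1 W O k
  have hb := Gb593.int_bm (O.hd k) hκ hE hA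
  obtain ⟨p1, p2⟩ := Gb593.P_mem (O.hd k) hA hR
  refine ⟨(Gb593.memLp_P hR).toLp (Gb593.P B (uk B x k)), ?_⟩
  exact
    { u_mem := uL_mem (dy_pos k) x
      g_mem := gL_mem (dy_pos k) x
      weak := fun p hp => uL_weak (S := B.toGradS) (n := n) (κ := κ) (dy_pos k) x hp
      trA := hE.tr
      A_memLp := hA
      P_mem := p1
      P_eq := by
        filter_upwards [(Gb593.memLp_P hR).coeFn_toLp] with z hz
        rw [hz]; rfl
      DP := p2
      bdd := ⟨_, hR⟩
      int := hb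
      boch := fun p hp ⟨C1, hpb⟩ => (Gb593.boch_V (O.hd k) hE hA hb hR hp hpb).2.2.2 }

/-- the function `|∇f₀|² - 2 f₀` -/
def th0 (x z : X) : ℝ := 2 * hf x z * eta (hf x z) ^ 2 - 2 * (Phi (hf x z) - cinf)

lemma isT_th0 (x : X) : IsT (th0 x) := by
  refine isT_radial' x (χ := fun s => 2 * s * eta s ^ 2 - 2 * (Phi s - cinf)) ?_ ?_
  · have h1 : ContDiff ℝ 1 eta := contDiff_eta1
    have h2 : ContDiff ℝ 1 (fun s => Phi s - cinf) := contDiff_f0
    have h3 : ContDiff ℝ 1 (fun s : ℝ => 2 * s) := by fun_prop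
    exact (h3.mul (h1.pow 2)).sub (contDiff_const.mul h2)
  · intro s hs
    show 2 * s * eta s ^ 2 - 2 * (Phi s - cinf) = 0
    rw [eta_zero hs, Phi_const hs]
    unfold cinf
    ring

lemma th0_ae {B : BochS n κ X μ} (W : WLap B.toGradS n κ) (x : X) :
    ∀ᵐ z ∂μ, th0 x z = ‖B.G (f0 x) z‖ ^ 2 - 2 * f0 x z := by
  filter_upwards [G_f0 B.toGradS x, W.normSq_G_hf x] with z h1 h2
  rw [h1, norm_smul, mul_pow, h2]
  unfold th0 f0 et
  rw [Real.norm_eq_abs, sq_abs]
  have h6 : dist x z ^ 2 = 2 * hf x z := by unfold hf; ring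
  rw [h6]
  ring

/-- **the un-cut `k`-equation for the literal objects** -/
theorem keq_of {B : BochS n κ X μ} {x : X} (hκ : 0 ≤ κ) (hκ1 : 4 * κ ≤ 1)
    (W : WLap B.toGradS n κ) (O : HObj B x) (k : ℕ) :
    ∃ kk : Lp ℝ 2 μ, KEq B x (dy k) (O.A k) kk := by
  obtain ⟨P, h⟩ := bw_of hκ hκ1 W O k
  have hT := isT_th0 x
  have hq : qL B.toGradS n κ x (dy k) ∈ B.V := qL_mem (dy_pos k) x
  have hK : (2:ℝ) • P - (2:ℝ) • uk B x k ∈ B.V :=
    B.V.sub_mem (B.V.smul_mem _ h.P_mem) (B.V.smul_mem _ h.u_mem)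
  have hi := h.int_four (isT_Nf n κ x) (ρ := dy k) (q := qL B.toGradS n κ x (dy k)) rfl
  refine ⟨(2:ℝ) • P - (2:ℝ) • uk B x k, hK, ?_, ?_, ?_⟩
  · filter_upwards [Lp.coeFn_sub ((2:ℝ) • P) ((2:ℝ) • uk B x k), Lp.coeFn_smul (2:ℝ) P,
      Lp.coeFn_smul (2:ℝ) (uk B x k), h.P_eq] with z a1 a2 a3 a4
    rw [a1, Pi.sub_apply, a2, a3, Pi.smul_apply, Pi.smul_apply, a4, smul_eq_mul, smul_eq_mul]
    ring
  · intro p hp c hpb
    have i1 : Integrable (fun z => p z * (4 * qL B.toGradS n κ x (dy k) z)) μ := by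
      refine ((int_mul (Lp.memLp p) (Lp.memLp (qL B.toGradS n κ x (dy k)))).const_mul 4).congr
        (Eventually.of_forall fun z => ?_)
      simp only
      ring
    have i2 := BochS.int_bdd_mul hi (Lp.aestronglyMeasurable p) hpb
    refine (i1.sub i2).congr (Eventually.of_forall fun z => ?_)
    simp only [Pi.sub_apply]
    show _ = p z * Sp B (uk B x k) (qL B.toGradS n κ x (dy k)) (O.A k) (Nf n κ x) (dy k) z
    ring
  · intro p hp c hpb
    have e := h.keq (isT_f0 x) (isT_Nf n κ x) hT hq (ρ := dy k) rfl rfl (th0_ae W x) hp ⟨c, hpb⟩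
    have e1 : BW.kL (uk B x k) P hT = ((2:ℝ) • P - (2:ℝ) • uk B x k) - tL hT := rfl
    rw [e1, B.D_sub hK (B.tL_mem hT), inner_sub_left, inner_sub_left] at e
    have e2 : (⟪B.D (tL hT), B.D p⟫ : ℝ) = ∫ z, ⟪B.G (th0 x) z, B.D p z⟫ ∂μ := by
      rw [L2.inner_def]
      refine integral_congr_ae ?_
      filter_upwards [B.D_tL hT] with z hz
      rw [hz]
    have e3 : (⟪(tL hT : Lp ℝ 2 μ), p⟫ : ℝ) =
        ∫ z, p z * (‖B.G (f0 x) z‖ ^ 2 - 2 * f0 x z) ∂μ := by
      rw [L2.inner_def]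
      refine integral_congr_ae ?_
      filter_upwards [coe_tL (μ := μ) hT, th0_ae W x] with z a1 a2
      rw [a1, ← a2]
      simp
    have e4 : ∫ z, (4 * qL B.toGradS n κ x (dy k) z -
          Sp B (uk B x k) (qL B.toGradS n κ x (dy k)) (O.A k) (Nf n κ x) (dy k) z) * p z ∂μ =
        ∫ z, p z * (4 * qL B.toGradS n κ x (dy k) z - SP B x (dy k) (O.A k) z) ∂μ := by
      refine integral_congr_ae (Eventually.of_forall fun z => ?_)
      simp only
      rw [mul_comm]
      rfl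
    rw [e2, e3, e4] at e
    linarith

end Crest.Agent.R247.Sv436
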