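import Mathlib

/-!
# R247, block (3) (Colding volume convergence), file 1: abstract carre-du-champ calculus

`Cdc M` : a pointwise "carre du champ" on real functions of a metric space `M`:
`D f x` = "f is differentiable at x", `Γ f g x` = `⟨grad f, grad g⟩ (x)`.
The only rules are: symmetry, the chain rule for functions of finitely many functions, locality,
positivity and the bound by the Lipschitz constant.
(Instance on a Riemannian manifold: `D f x := MDifferentiableAt I 𝓘(ℝ, ℝ) f x`,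
`Γ f g x :=` dual metric of `mfderiv f x`, `mfderiv g x`.)
-/

set_option autoImplicit false

noncomputable section

open MeasureTheory Filter Topology Set
open scoped ENNReal NNReal

namespace Crest.Agent.R247.VC402

/-- Pointwise carre-du-champ calculus. -/
structure Cdc (M : Type*) [MetricSpace M] where
  /-- differentiability of a function at a point -/
  D : (M → ℝ) → M → Prop
  /-- `⟨grad f, grad g⟩ (x)` -/
  Γ : (M → ℝ) → (M → ℝ) → M → ℝ
  symm : ∀ f g x, Γ f g x = Γ g f x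
  chain : ∀ {k : ℕ} (F : (Fin k → ℝ) → ℝ) (F' : (Fin k → ℝ) →L[ℝ] ℝ) (u : Fin k → M → ℝ) (x : M),
    (∀ i, D (u i) x) → HasFDerivAt F F' (fun i => u i x) →
      D (fun y => F (fun i => u i y)) x ∧
        ∀ g, D g x → Γ (fun y => F (fun i => u i y)) g x =
          ∑ i, F' (Pi.single i 1) * Γ (u i) g x
  congr : ∀ f f' x, f =ᶠ[𝓝 x] f' → D f x → D f' x ∧ ∀ g, D g x → Γ f g x = Γ f' g x
  nonneg : ∀ f x, D f x → 0 ≤ Γ f f x
  le_lip : ∀ f x (K : ℝ), D f x → 0 ≤ K → (∀ y, |f y - f x| ≤ K * dist y x) → Γ f f x ≤ K ^ 2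

namespace Cdc

variable {M : Type*} [MetricSpace M] (𝒟 : Cdc M) {f g h : M → ℝ} {x : M}

lemma D_const (c : ℝ) (x : M) : 𝒟.D (fun _ => c) x :=
  (𝒟.chain (k := 0) (fun _ => c) 0 (fun i => i.elim0) x (fun i => i.elim0)
    (hasFDerivAt_const c _)).1

lemma Γ_const (c : ℝ) (hg : 𝒟.D g x) : 𝒟.Γ (fun _ => c) g x = 0 := by
  have := (𝒟.chain (k := 0) (fun _ => c) 0 (fun i => i.elim0) x (fun i => i.elim0)
    (hasFDerivAt_const c _)).2 g hg
  simpa using this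

/-- functions of two functions -/
lemma chain₂ (F : ℝ → ℝ → ℝ) (a b : ℝ) (hf : 𝒟.D f x) (hg : 𝒟.D g x)
    (hF : HasFDerivAt (fun v : Fin 2 → ℝ => F (v 0) (v 1))
      (a • ContinuousLinearMap.proj (R := ℝ) (φ := fun _ : Fin 2 => ℝ) 0
        + b • ContinuousLinearMap.proj (R := ℝ) (φ := fun _ : Fin 2 => ℝ) 1) ![f x, g x]) :
    𝒟.D (fun y => F (f y) (g y)) x ∧
      ∀ h, 𝒟.D h x → 𝒟.Γ (fun y => F (f y) (g y)) h x = a * 𝒟.Γ f h x + b * 𝒟.Γ g h x := by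
  have key := 𝒟.chain (k := 2) (fun v => F (v 0) (v 1))
    (a • ContinuousLinearMap.proj (R := ℝ) (φ := fun _ : Fin 2 => ℝ) 0
        + b • ContinuousLinearMap.proj (R := ℝ) (φ := fun _ : Fin 2 => ℝ) 1) ![f, g] x
    (by intro i; fin_cases i <;> simpa)
    (by
      have e : (fun i => (![f, g] : Fin 2 → M → ℝ) i x) = ![f x, g x] := by
        funext i; fin_cases i <;> rfl
      rw [e]; exact hF)
  refine ⟨?_, ?_⟩
  · simpa using key.1
  · intro h hh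
    have := key.2 h hh
    simpa [Fin.sum_univ_two] using this

lemma chain₁ (θ : ℝ → ℝ) (a : ℝ) (hf : 𝒟.D f x) (hθ : HasDerivAt θ a (f x)) :
    𝒟.D (fun y => θ (f y)) x ∧ ∀ h, 𝒟.D h x → 𝒟.Γ (fun y => θ (f y)) h x = a * 𝒟.Γ f h x := by
  have hF : HasFDerivAt (fun v : Fin 1 → ℝ => θ (v 0))
      (a • ContinuousLinearMap.proj (R := ℝ) (φ := fun _ : Fin 1 => ℝ) 0)
      (fun i => (![f] : Fin 1 → M → ℝ) i x) := by
    have h1 : HasFDerivAt (fun v : Fin 1 → ℝ => v 0)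
        (ContinuousLinearMap.proj (R := ℝ) (φ := fun _ : Fin 1 => ℝ) 0)
        (fun i => (![f] : Fin 1 → M → ℝ) i x) := hasFDerivAt_apply 0 _
    have h2 : HasDerivAt θ a ((fun v : Fin 1 → ℝ => v 0) (fun i => (![f] : Fin 1 → M → ℝ) i x)) := by
      simpa using hθ
    exact HasDerivAt.comp_hasFDerivAt (f := fun v : Fin 1 → ℝ => v 0) _ h2 h1
  have key := 𝒟.chain (k := 1) (fun v => θ (v 0)) _ ![f] x
    (by intro i; fin_cases i; simpa) hF
  refine ⟨by simpa using key.1, ?_⟩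
  intro h hh
  have := key.2 h hh
  simpa using this

lemma D_add (hf : 𝒟.D f x) (hg : 𝒟.D g x) : 𝒟.D (fun y => f y + g y) x := by
  refine (𝒟.chain₂ (fun s t => s + t) 1 1 hf hg ?_).1
  simpa using (hasFDerivAt_apply (𝕜 := ℝ) (0 : Fin 2) ![f x, g x]).fun_add
    (hasFDerivAt_apply (𝕜 := ℝ) (1 : Fin 2) ![f x, g x])

lemma Γ_add (hf : 𝒟.D f x) (hg : 𝒟.D g x) (hh : 𝒟.D h x) :
    𝒟.Γ (fun y => f y + g y) h x = 𝒟.Γ f h x + 𝒟.Γ g h x := by
  have := (𝒟.chain₂ (fun s t => s + t) 1 1 hf hg (by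
    simpa using (hasFDerivAt_apply (𝕜 := ℝ) (0 : Fin 2) ![f x, g x]).fun_add
      (hasFDerivAt_apply (𝕜 := ℝ) (1 : Fin 2) ![f x, g x]))).2 h hh
  simpa using this

omit [MetricSpace M] in
lemma hasFDerivAt_sub₂ (w : Fin 2 → ℝ) : HasFDerivAt (fun v : Fin 2 → ℝ => v 0 - v 1)
      ((1 : ℝ) • ContinuousLinearMap.proj (R := ℝ) (φ := fun _ : Fin 2 => ℝ) 0
        + (-1 : ℝ) • ContinuousLinearMap.proj (R := ℝ) (φ := fun _ : Fin 2 => ℝ) 1) w := by
  have h := (hasFDerivAt_apply (𝕜 := ℝ) (0 : Fin 2) w).fun_sub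
    (hasFDerivAt_apply (𝕜 := ℝ) (1 : Fin 2) w)
  refine h.congr_fderiv ?_
  ext v
  simp [sub_eq_add_neg]

lemma D_sub (hf : 𝒟.D f x) (hg : 𝒟.D g x) : 𝒟.D (fun y => f y - g y) x := by
  refine (𝒟.chain₂ (fun s t => s - t) 1 (-1) hf hg ?_).1
  exact hasFDerivAt_sub₂ _

lemma Γ_sub (hf : 𝒟.D f x) (hg : 𝒟.D g x) (hh : 𝒟.D h x) :
    𝒟.Γ (fun y => f y - g y) h x = 𝒟.Γ f h x - 𝒟.Γ g h x := by
  have := (𝒟.chain₂ (fun s t => s - t) 1 (-1) hf hg (by
    exact hasFDerivAt_sub₂ _)).2 h hh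
  rw [this]; ring

lemma D_mul (hf : 𝒟.D f x) (hg : 𝒟.D g x) : 𝒟.D (fun y => f y * g y) x := by
  refine (𝒟.chain₂ (fun s t => s * t) (g x) (f x) hf hg ?_).1
  have := (hasFDerivAt_apply (𝕜 := ℝ) (0 : Fin 2) ![f x, g x]).fun_mul
      (hasFDerivAt_apply (𝕜 := ℝ) (1 : Fin 2) ![f x, g x])
  simpa [add_comm] using this

lemma Γ_mul (hf : 𝒟.D f x) (hg : 𝒟.D g x) (hh : 𝒟.D h x) :
    𝒟.Γ (fun y => f y * g y) h x = g x * 𝒟.Γ f h x + f x * 𝒟.Γ g h x := by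
  have := (𝒟.chain₂ (fun s t => s * t) (g x) (f x) hf hg (by
    have := (hasFDerivAt_apply (𝕜 := ℝ) (0 : Fin 2) ![f x, g x]).fun_mul
      (hasFDerivAt_apply (𝕜 := ℝ) (1 : Fin 2) ![f x, g x])
    simpa [add_comm] using this)).2 h hh
  exact this

lemma D_smul (c : ℝ) (hf : 𝒟.D f x) : 𝒟.D (fun y => c * f y) x := by
  refine (𝒟.chain₁ (fun s => c * s) c hf ?_).1
  simpa using (hasDerivAt_id (f x)).const_mul c

lemma Γ_smul (c : ℝ) (hf : 𝒟.D f x) (hh : 𝒟.D h x) :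
    𝒟.Γ (fun y => c * f y) h x = c * 𝒟.Γ f h x :=
  (𝒟.chain₁ (fun s => c * s) c hf (by simpa using (hasDerivAt_id (f x)).const_mul c)).2 h hh

lemma D_neg (hf : 𝒟.D f x) : 𝒟.D (fun y => - f y) x := by
  refine (𝒟.chain₁ (fun s => - s) (-1) hf ?_).1
  simpa using (hasDerivAt_id' (f x)).fun_neg

lemma Γ_neg (hf : 𝒟.D f x) (hh : 𝒟.D h x) :
    𝒟.Γ (fun y => - f y) h x = - 𝒟.Γ f h x := by
  have := (𝒟.chain₁ (fun s => - s) (-1) hf (by simpa using (hasDerivAt_id' (f x)).fun_neg)).2 h hh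
  simpa using this

lemma D_sub_const (c : ℝ) (hf : 𝒟.D f x) : 𝒟.D (fun y => f y - c) x :=
  𝒟.D_sub hf (𝒟.D_const c x)

lemma Γ_sub_const (c : ℝ) (hf : 𝒟.D f x) (hh : 𝒟.D h x) :
    𝒟.Γ (fun y => f y - c) h x = 𝒟.Γ f h x := by
  rw [𝒟.Γ_sub hf (𝒟.D_const c x) hh, 𝒟.Γ_const c hh, sub_zero]

lemma Γ_eq_zero_of_eventually_const (c : ℝ) (hf : f =ᶠ[𝓝 x] fun _ => c) (hh : 𝒟.D h x) :
    𝒟.Γ f h x = 0 := by
  rw [← ((𝒟.congr _ _ x hf.symm (𝒟.D_const c x)).2 h hh), 𝒟.Γ_const c hh]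

lemma cauchy_schwarz (hf : 𝒟.D f x) (hg : 𝒟.D g x) :
    (𝒟.Γ f g x) ^ 2 ≤ 𝒟.Γ f f x * 𝒟.Γ g g x := by
  have key : ∀ t : ℝ, 0 ≤ 𝒟.Γ f f x + 2 * t * 𝒟.Γ f g x + t ^ 2 * 𝒟.Γ g g x := by
    intro t
    have hD := 𝒟.D_add hf (𝒟.D_smul t hg)
    have h0 := 𝒟.nonneg _ x hD
    have e : 𝒟.Γ (fun y => f y + t * g y) (fun y => f y + t * g y) x
        = 𝒟.Γ f f x + 2 * t * 𝒟.Γ f g x + t ^ 2 * 𝒟.Γ g g x := by
      rw [𝒟.Γ_add hf (𝒟.D_smul t hg) hD, 𝒟.Γ_smul t hg hD, 𝒟.symm f _ x, 𝒟.symm g _ x,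
        𝒟.Γ_add hf (𝒟.D_smul t hg) hf, 𝒟.Γ_add hf (𝒟.D_smul t hg) hg,
        𝒟.Γ_smul t hg hf, 𝒟.Γ_smul t hg hg, 𝒟.symm g f x]
      ring
    rwa [e] at h0
  have hg0 := 𝒟.nonneg g x hg
  have hf0 := 𝒟.nonneg f x hf
  rcases hg0.eq_or_lt with h | h
  · -- Γ g g = 0
    rw [← h, mul_zero]
    by_contra hne
    push Not at hne
    have hne' : 𝒟.Γ f g x ≠ 0 := by
      intro h0; rw [h0] at hne; simp at hne
    have k := key (-(𝒟.Γ f f x + 1) / (2 * 𝒟.Γ f g x))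
    rw [← h] at k
    have : 𝒟.Γ f f x + 2 * (-(𝒟.Γ f f x + 1) / (2 * 𝒟.Γ f g x)) * 𝒟.Γ f g x = -1 := by
      field_simp; ring
    rw [this] at k
    norm_num at k
  · have k := key (-(𝒟.Γ f g x) / 𝒟.Γ g g x)
    have e : 𝒟.Γ f f x + 2 * (-(𝒟.Γ f g x) / 𝒟.Γ g g x) * 𝒟.Γ f g x
        + (-(𝒟.Γ f g x) / 𝒟.Γ g g x) ^ 2 * 𝒟.Γ g g x
        = (𝒟.Γ f f x * 𝒟.Γ g g x - 𝒟.Γ f g x ^ 2) / 𝒟.Γ g g x := by
      field_simp; ring
    rw [e] at k
    have := (div_nonneg_iff.1 k)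
    rcases this with h1 | h1
    · linarith [h1.1]
    · linarith [h1.2]

lemma abs_Γ_le (hf : 𝒟.D f x) (hg : 𝒟.D g x) {K L : ℝ} (hK : 0 ≤ K) (hL : 0 ≤ L)
    (hKf : 𝒟.Γ f f x ≤ K ^ 2) (hLg : 𝒟.Γ g g x ≤ L ^ 2) : |𝒟.Γ f g x| ≤ K * L := by
  have h := 𝒟.cauchy_schwarz hf hg
  apply abs_le_of_sq_le_sq _ (by positivity)
  calc 𝒟.Γ f g x ^ 2 ≤ 𝒟.Γ f f x * 𝒟.Γ g g x := h
    _ ≤ K ^ 2 * L ^ 2 := mul_le_mul hKf hLg (𝒟.nonneg g x hg) (by positivity)
    _ = (K * L) ^ 2 := by ring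

lemma Γ_le_of_lip {K : ℝ≥0} (hf : 𝒟.D f x) (hK : LipschitzWith K f) : 𝒟.Γ f f x ≤ (K : ℝ) ^ 2 := by
  refine 𝒟.le_lip f x K hf K.2 ?_
  intro y
  have := hK.dist_le_mul y x
  rwa [Real.dist_eq] at this

lemma abs_Γ_le_lip {K L : ℝ≥0} (hf : 𝒟.D f x) (hg : 𝒟.D g x) (hK : LipschitzWith K f)
    (hL : LipschitzWith L g) : |𝒟.Γ f g x| ≤ K * L :=
  𝒟.abs_Γ_le hf hg K.2 L.2 (𝒟.Γ_le_of_lip hf hK) (𝒟.Γ_le_of_lip hg hL)

end Cdc

/-! ### Lipschitz functions -/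

/-- `f` is Lipschitz (some constant). -/
def Lp {M : Type*} [MetricSpace M] (f : M → ℝ) : Prop := ∃ K : ℝ≥0, LipschitzWith K f

section Lip

variable {M : Type*} [MetricSpace M] {f g : M → ℝ}

lemma Lp.continuous (hf : Lp f) : Continuous f := by
  obtain ⟨K, hK⟩ := hf; exact hK.continuous

lemma Lp.const (c : ℝ) : Lp (fun _ : M => c) := ⟨0, LipschitzWith.const c⟩

lemma Lp.add (hf : Lp f) (hg : Lp g) : Lp (fun x => f x + g x) := by
  obtain ⟨K, hK⟩ := hf; obtain ⟨L, hL⟩ := hg; exact ⟨K + L, hK.add hL⟩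

lemma Lp.sub (hf : Lp f) (hg : Lp g) : Lp (fun x => f x - g x) := by
  obtain ⟨K, hK⟩ := hf; obtain ⟨L, hL⟩ := hg; exact ⟨K + L, hK.sub hL⟩

lemma Lp.neg (hf : Lp f) : Lp (fun x => - f x) := by
  obtain ⟨K, hK⟩ := hf; exact ⟨K, hK.neg⟩

lemma lip_of {f : M → ℝ} {K : ℝ} (hK : 0 ≤ K) (h : ∀ x y, |f x - f y| ≤ K * dist x y) : Lp f :=
  ⟨⟨K, hK⟩, LipschitzWith.of_dist_le_mul (fun x y => by rw [Real.dist_eq]; exact h x y)⟩

lemma Lp.bound (hf : Lp f) : ∃ K : ℝ, 0 ≤ K ∧ ∀ x y, |f x - f y| ≤ K * dist x y := by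
  obtain ⟨K, hK⟩ := hf
  exact ⟨K, K.2, fun x y => by have := hK.dist_le_mul x y; rwa [Real.dist_eq] at this⟩

lemma Lp.comp {θ : ℝ → ℝ} {K : ℝ≥0} (hθ : LipschitzWith K θ) (hf : Lp f) :
    Lp (fun x => θ (f x)) := by
  obtain ⟨L, hL⟩ := hf; exact ⟨K * L, hθ.comp hL⟩

lemma Lp.smul (c : ℝ) (hf : Lp f) : Lp (fun x => c * f x) := by
  obtain ⟨K, h0, hK⟩ := hf.bound
  refine lip_of (K := |c| * K) (by positivity) ?_
  intro x y
  rw [← mul_sub, abs_mul, mul_assoc]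
  exact mul_le_mul_of_nonneg_left (hK x y) (abs_nonneg _)

lemma lp_dist (p : M) : Lp (fun x => dist p x) := ⟨1, LipschitzWith.dist_right p⟩

/-- product of a bounded-support Lipschitz function with a Lipschitz function -/
lemma Lp.mul_cutoff {χ : M → ℝ} (p : M) (R : ℝ) (hχ : Lp χ) (hsupp : ∀ x, R ≤ dist p x → χ x = 0)
    (hf : Lp f) : Lp (fun x => χ x * f x) := by
  obtain ⟨K, hK0, hK⟩ := hχ.bound
  obtain ⟨L, hL0, hL⟩ := hf.bound
  -- bound of f on the ball and bound of χ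
  set R' := max R 0 with hR'
  have hR'0 : 0 ≤ R' := le_max_right _ _
  set A := |f p| + L * R' with hA
  have hA0 : 0 ≤ A := by positivity
  have hfA : ∀ x, dist p x < R → |f x| ≤ A := by
    intro x hx
    have h1 : |f x| ≤ |f p| + |f x - f p| := by
      have := abs_add_le (f p) (f x - f p); simpa using this
    have h2 : |f x - f p| ≤ L * R' := (hL x p).trans (mul_le_mul_of_nonneg_left
      (by rw [dist_comm]; exact hx.le.trans (le_max_left _ _)) hL0)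
    linarith
  set B := |χ p| + K * R' with hB
  have hB0 : 0 ≤ B := by positivity
  have hχB : ∀ x, |χ x| ≤ B := by
    intro x
    by_cases hx : R ≤ dist p x
    · rw [hsupp x hx]; simpa using hB0
    · push Not at hx
      have h1 : |χ x| ≤ |χ p| + |χ x - χ p| := by
        have := abs_add_le (χ p) (χ x - χ p); simpa using this
      have h2 : |χ x - χ p| ≤ K * R' := (hK x p).trans (mul_le_mul_of_nonneg_left
        (by rw [dist_comm]; exact hx.le.trans (le_max_left _ _)) hK0)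
      linarith
  refine lip_of (K := A * K + B * L) (by positivity) ?_
  have main : ∀ x y, dist p x < R → |χ x * f x - χ y * f y| ≤ (A * K + B * L) * dist x y := by
    intro x y hx
    have e : χ x * f x - χ y * f y = (χ x - χ y) * f x + χ y * (f x - f y) := by ring
    rw [e]
    calc |(χ x - χ y) * f x + χ y * (f x - f y)|
        ≤ |(χ x - χ y) * f x| + |χ y * (f x - f y)| := abs_add_le _ _
      _ = |χ x - χ y| * |f x| + |χ y| * |f x - f y| := by rw [abs_mul, abs_mul]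
      _ ≤ (K * dist x y) * A + B * (L * dist x y) := by
          have := hK x y; have := hL x y; have := hfA x hx; have := hχB y
          gcongr
      _ = (A * K + B * L) * dist x y := by ring
  intro x y
  by_cases hx : dist p x < R
  · exact main x y hx
  · by_cases hy : dist p y < R
    · have := main y x hy
      rw [abs_sub_comm, dist_comm x y]; exact this
    · push Not at hx hy
      rw [hsupp x hx, hsupp y hy]
      simp only [zero_mul, sub_self, abs_zero]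
      positivity

end Lip

/-! ### the cutoff function -/

/-- `(max 0 t)^(m+1)` is differentiable for `m ≥ 1`. -/
lemma hasDerivAt_posPow (m : ℕ) (hm : 1 ≤ m) (t : ℝ) :
    HasDerivAt (fun t : ℝ => (max 0 t) ^ (m + 1)) ((m + 1 : ℕ) * (max 0 t) ^ m) t := by
  rcases lt_trichotomy t 0 with h | h | h
  · have e : (fun t : ℝ => (max 0 t) ^ (m + 1)) =ᶠ[𝓝 t] fun _ => 0 := by
      filter_upwards [Iio_mem_nhds h] with s hs
      rw [max_eq_left hs.le]; simp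
    rw [max_eq_left h.le]
    have : ((m + 1 : ℕ) : ℝ) * 0 ^ m = 0 := by
      rw [zero_pow (by omega)]; ring
    rw [this]
    exact (hasDerivAt_const t (0 : ℝ)).congr_of_eventuallyEq e
  · subst h
    have : ((m + 1 : ℕ) : ℝ) * (max 0 (0 : ℝ)) ^ m = 0 := by
      rw [max_self, zero_pow (by omega)]; ring
    rw [this]
    rw [hasDerivAt_iff_isLittleO]
    simp only [sub_zero, smul_zero, max_self]
    rw [zero_pow (by omega)]
    simp only [sub_zero]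
    -- (max 0 t)^(m+1) = o(t)
    rw [Asymptotics.isLittleO_iff]
    intro c hc
    have hcont : Tendsto (fun t : ℝ => |t| ^ m) (𝓝 0) (𝓝 0) := by
      have : Continuous (fun t : ℝ => |t| ^ m) := by fun_prop
      have h := this.tendsto 0
      simpa [show m ≠ 0 by omega] using h
    filter_upwards [hcont.eventually (Iio_mem_nhds hc)] with s hs
    rw [Real.norm_eq_abs, Real.norm_eq_abs, abs_pow, pow_succ]
    have h1 : |max 0 s| ≤ |s| := by
      rcases le_total 0 s with h | h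
      · rw [max_eq_right h]
      · rw [max_eq_left h]; simp
    calc |max 0 s| ^ m * |max 0 s| ≤ |s| ^ m * |s| := by gcongr
      _ ≤ c * |s| := by
        have : |s| ^ m < c := hs
        have := this.le; gcongr
  · have e : (fun t : ℝ => (max 0 t) ^ (m + 1)) =ᶠ[𝓝 t] fun t => t ^ (m + 1) := by
      filter_upwards [Ioi_mem_nhds h] with s hs
      rw [max_eq_right (le_of_lt (Set.mem_Ioi.1 hs))]
    rw [max_eq_right h.le]
    have := hasDerivAt_pow (m + 1) t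
    simp only [Nat.add_sub_cancel] at this
    exact this.congr_of_eventuallyEq e

/-- cutoff: `1` for `t ≤ a`, `0` for `t ≥ a + 1/2` -/
def cut (a t : ℝ) : ℝ := (max 0 (1 - (max 0 (2 * (t - a))) ^ 2)) ^ 2

/-- derivative of `cut` -/
def cut' (a t : ℝ) : ℝ := 2 * (max 0 (1 - (max 0 (2 * (t - a))) ^ 2)) * (-(2 * (max 0 (2 * (t - a))) * 2))

lemma hasDerivAt_cut (a t : ℝ) : HasDerivAt (cut a) (cut' a t) t := by
  have h1 : HasDerivAt (fun t : ℝ => 2 * (t - a)) 2 t := by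
    simpa using ((hasDerivAt_id t).sub_const a).const_mul 2
  have h2 := (hasDerivAt_posPow 1 le_rfl (2 * (t - a))).comp t h1
  have h3 : HasDerivAt (fun t : ℝ => 1 - (max 0 (2 * (t - a))) ^ 2)
      (-(((1 + 1 : ℕ) : ℝ) * (max 0 (2 * (t - a))) ^ 1 * 2)) t := by
    simpa using (h2.const_sub 1)
  have h4 := (hasDerivAt_posPow 1 le_rfl (1 - (max 0 (2 * (t - a))) ^ 2)).comp t h3
  have e : (cut a) = (fun t : ℝ => (max 0 t) ^ (1 + 1)) ∘ (fun t : ℝ => 1 - (max 0 (2 * (t - a))) ^ 2) := by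
    funext s; simp [cut]
  rw [e]
  refine h4.congr_deriv ?_
  unfold cut'
  norm_num

lemma cut_nonneg (a t : ℝ) : 0 ≤ cut a t := by unfold cut; positivity

lemma cut_le_one (a t : ℝ) : cut a t ≤ 1 := by
  unfold cut
  have h1 : max 0 (1 - (max 0 (2 * (t - a))) ^ 2) ≤ 1 := by
    apply max_le (by norm_num)
    have : 0 ≤ (max 0 (2 * (t - a))) ^ 2 := by positivity
    linarith
  have h0 : 0 ≤ max 0 (1 - (max 0 (2 * (t - a))) ^ 2) := le_max_left _ _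
  nlinarith

lemma cut_eq_one {a t : ℝ} (h : t ≤ a) : cut a t = 1 := by
  unfold cut
  rw [max_eq_left (by linarith : 2 * (t - a) ≤ 0)]
  simp

lemma cut_eq_zero {a t : ℝ} (h : a + 1 / 2 ≤ t) : cut a t = 0 := by
  unfold cut
  have h1 : 1 ≤ 2 * (t - a) := by linarith
  rw [max_eq_right (by linarith : (0 : ℝ) ≤ 2 * (t - a))]
  rw [max_eq_left (by nlinarith)]
  simp

lemma cut'_eq_zero_of_le {a t : ℝ} (h : t ≤ a) : cut' a t = 0 := by
  unfold cut'
  rw [max_eq_left (by linarith : 2 * (t - a) ≤ 0)]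
  simp

lemma cut'_eq_zero_of_ge {a t : ℝ} (h : a + 1 / 2 ≤ t) : cut' a t = 0 := by
  unfold cut'
  have h1 : 1 ≤ 2 * (t - a) := by linarith
  rw [max_eq_right (by linarith : (0 : ℝ) ≤ 2 * (t - a))]
  rw [max_eq_left (by nlinarith)]
  simp

lemma abs_cut'_le (a t : ℝ) : |cut' a t| ≤ 8 := by
  by_cases h : a + 1 / 2 ≤ t
  · rw [cut'_eq_zero_of_ge h]; simp
  push Not at h
  unfold cut'
  set v := max 0 (2 * (t - a)) with hv
  have hv0 : 0 ≤ v := le_max_left _ _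
  have hv1 : v ≤ 1 := max_le (by norm_num) (by linarith)
  set w := max 0 (1 - v ^ 2) with hw
  have hw0 : 0 ≤ w := le_max_left _ _
  have hw1 : w ≤ 1 := max_le (by norm_num) (by nlinarith)
  rw [abs_mul, abs_neg, abs_of_nonneg (by positivity), abs_of_nonneg (by positivity)]
  nlinarith [mul_nonneg hv0 hw0, mul_le_mul hv1 hw1 hw0 (by norm_num)]

lemma cut_lipschitz (a : ℝ) : LipschitzWith 8 (cut a) := by
  apply lipschitzWith_of_nnnorm_deriv_le (fun t => (hasDerivAt_cut a t).differentiableAt)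
  intro t
  rw [(hasDerivAt_cut a t).deriv]
  have := abs_cut'_le a t
  rw [← Real.norm_eq_abs] at this
  exact_mod_cast this

end Crest.Agent.R247.VC402
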