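import Crest.Agent.R247.VC1_402

/-!
# R247, block (3), file 2: integral estimates (positive functional, Caccioppoli, almost orthogonality)
-/

set_option autoImplicit false
set_option linter.unusedSectionVars false
set_option linter.unusedVariables false

noncomputable section

open MeasureTheory Filter Topology Set
open scoped ENNReal NNReal

namespace Crest.Agent.R247.VC402

/-- First-order calculus on a metric measure space (what block (3) consumes). -/
structure Setup (n : ℕ) (M : Type*) [MetricSpace M] [MeasurableSpace M] (ν : Measure M) where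
  cd : Cdc M
  rad : ∀ f, Lp f → ∀ᵐ x ∂ν, cd.D f x
  meas : ∀ f g, Lp f → Lp g → AEStronglyMeasurable (cd.Γ f g) ν
  unit : ∀ q : M, ∀ᵐ x ∂ν, cd.Γ (fun y => dist q y) (fun y => dist q y) x = 1
  area : ∀ b : Fin n → M → ℝ, (∀ i x y, |b i x - b i y| ≤ dist x y) → ∀ A, MeasurableSet A →
    volume ((fun x => (WithLp.toLp 2 (fun i => b i x) : EuclideanSpace ℝ (Fin n))) '' A) ≤ ν A

/-- `T p χ`: Lipschitz test functions supported in the ball of radius 5 about `p`. -/
def T {M : Type*} [MetricSpace M] (p : M) (χ : M → ℝ) : Prop :=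
  Lp χ ∧ ∀ x, 9 / 2 ≤ dist p x → χ x = 0

section TestFunctions

variable {M : Type*} [MetricSpace M] {p : M} {f g χ ζ : M → ℝ}

lemma T.lp (h : T p χ) : Lp χ := h.1

lemma T.add (h : T p χ) (h' : T p ζ) : T p (fun x => χ x + ζ x) :=
  ⟨h.1.add h'.1, fun x hx => by simp only [h.2 x hx, h'.2 x hx, add_zero]⟩

lemma T.sub (h : T p χ) (h' : T p ζ) : T p (fun x => χ x - ζ x) :=
  ⟨h.1.sub h'.1, fun x hx => by simp only [h.2 x hx, h'.2 x hx, sub_zero]⟩

lemma T.smul (c : ℝ) (h : T p χ) : T p (fun x => c * χ x) :=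
  ⟨h.1.smul c, fun x hx => by simp only [h.2 x hx, mul_zero]⟩

lemma T.mul (h : T p χ) (hf : Lp f) : T p (fun x => χ x * f x) :=
  ⟨Lp.mul_cutoff p (9 / 2) h.1 h.2 hf, fun x hx => by simp only [h.2 x hx, zero_mul]⟩

/-- the cutoff functions -/
def co (p : M) (a : ℝ) (x : M) : ℝ := cut a (dist p x)

lemma co_T {a : ℝ} (ha : a ≤ 4) : T p (co p a) :=
  ⟨Lp.comp (cut_lipschitz a) (lp_dist p), fun x hx => cut_eq_zero (by linarith)⟩

lemma co_nonneg (a : ℝ) (x : M) : 0 ≤ co p a x := cut_nonneg _ _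
lemma co_le_one (a : ℝ) (x : M) : co p a x ≤ 1 := cut_le_one _ _
lemma co_eq_one {a : ℝ} {x : M} (h : dist p x ≤ a) : co p a x = 1 := cut_eq_one h
lemma co_eq_zero {a : ℝ} {x : M} (h : a + 1 / 2 ≤ dist p x) : co p a x = 0 := cut_eq_zero h

lemma co_lip (p : M) (a : ℝ) : LipschitzWith 8 (co p a) := by
  have := (cut_lipschitz a).comp (LipschitzWith.dist_right p)
  rw [mul_one] at this
  exact this

lemma co_mul_co {a b : ℝ} (h : a + 1 / 2 ≤ b) (x : M) : co p a x * co p b x = co p a x := by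
  by_cases hx : dist p x ≤ b
  · rw [co_eq_one hx, mul_one]
  · push Not at hx
    rw [co_eq_zero (a := a) (by linarith), zero_mul]

end TestFunctions

section Integrals

variable {n : ℕ} {M : Type*} [MetricSpace M] [ProperSpace M] [MeasurableSpace M] [BorelSpace M]
  {ν : Measure M} [IsFiniteMeasureOnCompacts ν] (S : Setup n M ν) {p : M} {f g χ ζ : M → ℝ}

omit [BorelSpace M] in
lemma measure_ball_lt_top (p : M) (r : ℝ) : ν {x | dist p x < r} < ⊤ := by
  refine lt_of_le_of_lt (measure_mono ?_) ((isCompact_closedBall p r).measure_lt_top (μ := ν))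
  intro x hx
  rw [Metric.mem_closedBall, dist_comm]; exact le_of_lt hx

/-- volume of `B_5` -/
def V (ν : Measure M) (p : M) : ℝ := ν.real {x | dist p x < 5}

omit [ProperSpace M] [BorelSpace M] [IsFiniteMeasureOnCompacts ν] in
lemma V_nonneg : 0 ≤ V ν p := measureReal_nonneg

lemma measurableSet_B (p : M) (r : ℝ) : MeasurableSet {x | dist p x < r} :=
  (isOpen_lt (by fun_prop) continuous_const).measurableSet

/-- bounded functions supported in `B_5` are integrable, with the obvious bound -/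
lemma integrable_of_bdd {F : M → ℝ} (hF : AEStronglyMeasurable F ν) {C : ℝ}
    (hC : ∀ᵐ x ∂ν, |F x| ≤ C) (h0 : ∀ᵐ x ∂ν, 5 ≤ dist p x → F x = 0) :
    Integrable F ν := by
  have hb : ∀ᵐ x ∂ν, ‖F x‖ ≤ ‖({x | dist p x < 5} : Set M).indicator (fun _ => C) x‖ := by
    filter_upwards [hC, h0] with x h1 h2
    by_cases hx : dist p x < 5
    · rw [indicator_of_mem (by exact hx), Real.norm_eq_abs, Real.norm_eq_abs]
      exact h1.trans (le_abs_self _)
    · push Not at hx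
      rw [h2 hx]; simp
  refine Integrable.mono ?_ hF hb
  rw [integrable_indicator_iff (measurableSet_B p 5)]
  exact integrableOn_const (measure_ball_lt_top p 5).ne

lemma integral_le_of_bdd {F : M → ℝ} (hF : AEStronglyMeasurable F ν) {C : ℝ} (hC0 : 0 ≤ C)
    (hC : ∀ᵐ x ∂ν, |F x| ≤ C) (h0 : ∀ᵐ x ∂ν, 5 ≤ dist p x → F x = 0) :
    |∫ x, F x ∂ν| ≤ C * V ν p := by
  have hb : ∀ᵐ x ∂ν, |F x| ≤ ({x | dist p x < 5} : Set M).indicator (fun _ => C) x := by
    filter_upwards [hC, h0] with x h1 h2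
    by_cases hx : dist p x < 5
    · rw [indicator_of_mem (by exact hx)]
      exact h1
    · push Not at hx
      rw [h2 hx]
      simp [indicator_of_notMem (show x ∉ {x | dist p x < 5} by simpa using hx)]
  have hi : Integrable (({x | dist p x < 5} : Set M).indicator (fun _ => C)) ν := by
    rw [integrable_indicator_iff (measurableSet_B p 5)]
    exact integrableOn_const (measure_ball_lt_top p 5).ne
  calc |∫ x, F x ∂ν| ≤ ∫ x, |F x| ∂ν := abs_integral_le_integral_abs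
    _ ≤ ∫ x, ({x | dist p x < 5} : Set M).indicator (fun _ => C) x ∂ν :=
        integral_mono_ae (integrable_of_bdd hF hC h0).abs hi hb
    _ = C * V ν p := by
        rw [integral_indicator (measurableSet_B p 5), setIntegral_const, smul_eq_mul, mul_comm]
        rfl

lemma T.integrable (h : T p χ) : Integrable χ ν := by
  have hc : HasCompactSupport χ := by
    refine HasCompactSupport.intro (isCompact_closedBall p 5) ?_
    intro x hx
    rw [Metric.mem_closedBall, not_le, dist_comm] at hx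
    exact h.2 x (by linarith)
  exact h.1.continuous.integrable_of_hasCompactSupport hc

omit [ProperSpace M] [BorelSpace M] [IsFiniteMeasureOnCompacts ν] in
/-- `Γ(f, χ)` vanishes off the support of the test function (a.e.) -/
lemma Setup.Γ_zero (hf : Lp f) (h : T p χ) :
    ∀ᵐ x ∂ν, 5 ≤ dist p x → S.cd.Γ f χ x = 0 := by
  filter_upwards [S.rad f hf] with x hx h5
  have he : χ =ᶠ[𝓝 x] fun _ => 0 := by
    have : IsOpen {y | 9 / 2 < dist p y} := isOpen_lt continuous_const (by fun_prop)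
    have h5' : x ∈ {y | 9 / 2 < dist p y} := by
      show 9 / 2 < dist p x
      linarith
    filter_upwards [this.mem_nhds h5'] with y hy
    exact h.2 y (le_of_lt hy)
  rw [S.cd.symm, S.cd.Γ_eq_zero_of_eventually_const 0 he hx]

omit [ProperSpace M] [BorelSpace M] [IsFiniteMeasureOnCompacts ν] in
lemma Setup.Γ_bdd (hf : Lp f) (hg : Lp g) : ∃ C, 0 ≤ C ∧ ∀ᵐ x ∂ν, |S.cd.Γ f g x| ≤ C := by
  have hf' := hf
  have hg' := hg
  obtain ⟨K, hK⟩ := hf'
  obtain ⟨L, hL⟩ := hg'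
  refine ⟨K * L, by positivity, ?_⟩
  filter_upwards [S.rad f hf, S.rad g hg] with x h1 h2
  exact S.cd.abs_Γ_le_lip h1 h2 hK hL

lemma Setup.Γ_int (hf : Lp f) (h : T p χ) : Integrable (S.cd.Γ f χ) ν := by
  obtain ⟨C, hC0, hC⟩ := S.Γ_bdd hf h.1
  exact integrable_of_bdd (S.meas f χ hf h.1) hC (S.Γ_zero hf h)

lemma Setup.Γ_int' (hf : Lp f) (h : T p χ) : Integrable (S.cd.Γ χ f) ν := by
  have := S.Γ_int hf h
  refine this.congr (Eventually.of_forall fun x => S.cd.symm _ _ _)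

/-- the functional `Λ` -/
def Setup.Λ (b : M → ℝ) (κ : ℝ) (χ : M → ℝ) : ℝ := κ * ∫ x, χ x ∂ν + ∫ x, S.cd.Γ b χ x ∂ν

/-- positivity of `Λ` on nonnegative test functions: `Δ b ≤ κ` weakly on `B_5(p)` -/
def Setup.Pos (b : M → ℝ) (κ : ℝ) (p : M) : Prop :=
  ∀ χ, T p χ → (∀ x, 0 ≤ χ x) → 0 ≤ S.Λ b κ χ

lemma Setup.intΓ_add (hf : Lp f) (h : T p χ) (h' : T p ζ) :
    ∫ x, S.cd.Γ f (fun y => χ y + ζ y) x ∂ν = ∫ x, S.cd.Γ f χ x ∂ν + ∫ x, S.cd.Γ f ζ x ∂ν := by
  rw [← integral_add (S.Γ_int hf h) (S.Γ_int hf h')]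
  refine integral_congr_ae ?_
  filter_upwards [S.rad f hf, S.rad χ h.1, S.rad ζ h'.1] with x h1 h2 h3
  rw [S.cd.symm, S.cd.Γ_add h2 h3 h1, S.cd.symm χ, S.cd.symm ζ]

lemma Setup.intΓ_sub (hf : Lp f) (h : T p χ) (h' : T p ζ) :
    ∫ x, S.cd.Γ f (fun y => χ y - ζ y) x ∂ν = ∫ x, S.cd.Γ f χ x ∂ν - ∫ x, S.cd.Γ f ζ x ∂ν := by
  rw [← integral_sub (S.Γ_int hf h) (S.Γ_int hf h')]
  refine integral_congr_ae ?_
  filter_upwards [S.rad f hf, S.rad χ h.1, S.rad ζ h'.1] with x h1 h2 h3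
  rw [S.cd.symm, S.cd.Γ_sub h2 h3 h1, S.cd.symm χ, S.cd.symm ζ]

lemma Setup.intΓ_smul (c : ℝ) (hf : Lp f) (h : T p χ) :
    ∫ x, S.cd.Γ f (fun y => c * χ y) x ∂ν = c * ∫ x, S.cd.Γ f χ x ∂ν := by
  rw [← integral_const_mul]
  refine integral_congr_ae ?_
  filter_upwards [S.rad f hf, S.rad χ h.1] with x h1 h2
  rw [S.cd.symm, S.cd.Γ_smul c h2 h1, S.cd.symm χ]

lemma Setup.Λ_add {κ : ℝ} (hf : Lp f) (h : T p χ) (h' : T p ζ) :
    S.Λ f κ (fun y => χ y + ζ y) = S.Λ f κ χ + S.Λ f κ ζ := by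
  unfold Setup.Λ
  rw [S.intΓ_add hf h h', integral_add h.integrable h'.integrable]; ring

lemma Setup.Λ_sub {κ : ℝ} (hf : Lp f) (h : T p χ) (h' : T p ζ) :
    S.Λ f κ (fun y => χ y - ζ y) = S.Λ f κ χ - S.Λ f κ ζ := by
  unfold Setup.Λ
  rw [S.intΓ_sub hf h h', integral_sub h.integrable h'.integrable]; ring

lemma Setup.Λ_smul {κ : ℝ} (c : ℝ) (hf : Lp f) (h : T p χ) :
    S.Λ f κ (fun y => c * χ y) = c * S.Λ f κ χ := by
  unfold Setup.Λ
  rw [S.intΓ_smul c hf h, integral_const_mul]; ring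

/-- domination -/
lemma Setup.abs_Λ_le {κ t : ℝ} (hP : S.Pos f κ p) (hf : Lp f) (h : T p χ) (h' : T p ζ)
    (hd : ∀ x, |ζ x| ≤ t * χ x) : |S.Λ f κ ζ| ≤ t * S.Λ f κ χ := by
  have h1 := hP _ ((h.smul t).sub h') (fun x => by have := (abs_le.1 (hd x)).2; linarith)
  have h2 := hP _ ((h.smul t).add h') (fun x => by have := (abs_le.1 (hd x)).1; linarith)
  rw [S.Λ_sub hf (h.smul t) h', S.Λ_smul t hf h] at h1
  rw [S.Λ_add hf (h.smul t) h', S.Λ_smul t hf h] at h2
  rw [abs_le]; constructor <;> linarith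

lemma T.abs_int_le {t : ℝ} (ht : 0 ≤ t) (h : T p χ) (hd : ∀ x, |χ x| ≤ t) :
    |∫ x, χ x ∂ν| ≤ t * V ν p := by
  refine integral_le_of_bdd h.1.continuous.aestronglyMeasurable ht (Eventually.of_forall hd)
    (Eventually.of_forall fun x hx => h.2 x (by linarith))

/-- `Γ(f, ζ)` integral bound: `|∫ Γ(f, ζ)| ≤ t (Λ(χ) + κ V)` if `|ζ| ≤ t χ`, `χ ≤ 1`. -/
lemma Setup.abs_intΓ_le {κ t : ℝ} (hκ : 0 ≤ κ) (ht : 0 ≤ t) (hP : S.Pos f κ p) (hf : Lp f)
    (h : T p χ) (h' : T p ζ) (hd : ∀ x, |ζ x| ≤ t * χ x) (h1 : ∀ x, χ x ≤ 1) :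
    |∫ x, S.cd.Γ f ζ x ∂ν| ≤ t * (S.Λ f κ χ + κ * V ν p) := by
  have e : ∫ x, S.cd.Γ f ζ x ∂ν = S.Λ f κ ζ - κ * ∫ x, ζ x ∂ν := by unfold Setup.Λ; ring
  have h2 := S.abs_Λ_le hP hf h h' hd
  have h3 : |∫ x, ζ x ∂ν| ≤ t * V ν p := h'.abs_int_le ht (fun x => (hd x).trans (by
    have := h1 x
    calc t * χ x ≤ t * 1 := by gcongr
      _ = t := mul_one t))
  rw [e]
  calc |S.Λ f κ ζ - κ * ∫ x, ζ x ∂ν| ≤ |S.Λ f κ ζ| + |κ * ∫ x, ζ x ∂ν| := abs_sub _ _
    _ ≤ t * S.Λ f κ χ + κ * (t * V ν p) := by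
        rw [abs_mul κ, abs_of_nonneg hκ]; gcongr
    _ = t * (S.Λ f κ χ + κ * V ν p) := by ring

/-- Caccioppoli for weak subsolution-type functions: `Λ_e ≥ 0`, `|e| ≤ a` on `B_5`. -/
lemma Setup.caccioppoli {κ a : ℝ} {K : ℝ≥0} (hκ : 0 ≤ κ) (ha : 0 ≤ a) (hP : S.Pos f κ p)
    (hf : LipschitzWith K f) (hfa : ∀ x, dist p x < 5 → |f x| ≤ a) :
    ∫ x, (co p 4 x) ^ 2 * S.cd.Γ f f x ∂ν ≤ 2 * a * (κ + 16 * K) * V ν p := by
  have hfL : Lp f := ⟨K, hf⟩
  have hc : T p (co p 4) := co_T le_rfl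
  have hcL := hc.1
  -- test function χ² (a - f)
  have hT : T p (fun x => co p 4 x * (co p 4 x * (a - f x))) := by
    have h1 : T p (fun x => co p 4 x * (a - f x)) := hc.mul ((Lp.const a).sub hfL)
    exact hc.mul h1.1
  have hpos : ∀ x, 0 ≤ co p 4 x * (co p 4 x * (a - f x)) := by
    intro x
    by_cases hx : dist p x < 5
    · have := (abs_le.1 (hfa x hx)).2
      have h0 := co_nonneg (p := p) 4 x
      have : 0 ≤ a - f x := by linarith
      positivity
    · push Not at hx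
      rw [hc.2 x (by linarith)]; simp
  have hup : ∀ x, |co p 4 x * (co p 4 x * (a - f x))| ≤ 2 * a := by
    intro x
    rw [abs_of_nonneg (hpos x)]
    by_cases hx : dist p x < 5
    · have h1 := (abs_le.1 (hfa x hx))
      have h0 := co_nonneg (p := p) 4 x
      have h2 := co_le_one (p := p) 4 x
      have h3 : 0 ≤ a - f x := by linarith
      calc co p 4 x * (co p 4 x * (a - f x)) ≤ 1 * (1 * (a - f x)) := by gcongr
        _ ≤ 2 * a := by linarith
    · push Not at hx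
      rw [hc.2 x (by linarith)]; simpa using ha
  have h0 := hP _ hT hpos
  unfold Setup.Λ at h0
  have hI1 : κ * ∫ x, co p 4 x * (co p 4 x * (a - f x)) ∂ν ≤ κ * (2 * a * V ν p) := by
    refine mul_le_mul_of_nonneg_left ?_ hκ
    exact (le_abs_self _).trans (hT.abs_int_le (by linarith) hup)
  -- expand Γ(f, χ²(a-f))
  have hexp : ∀ᵐ x ∂ν, S.cd.Γ f (fun x => co p 4 x * (co p 4 x * (a - f x))) x
      = 2 * co p 4 x * (a - f x) * S.cd.Γ f (co p 4) x - (co p 4 x) ^ 2 * S.cd.Γ f f x := by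
    filter_upwards [S.rad f hfL, S.rad _ hcL] with x h1 h2
    have h3 : S.cd.D (fun y => a - f y) x := S.cd.D_sub (S.cd.D_const a x) h1
    have h4 : S.cd.D (fun y => co p 4 y * (a - f y)) x := S.cd.D_mul h2 h3
    rw [S.cd.symm f, S.cd.Γ_mul h2 h4 h1, S.cd.Γ_mul h2 h3 h1, S.cd.Γ_sub (S.cd.D_const a x) h1 h1,
      S.cd.Γ_const a h1, S.cd.symm (co p 4) f]
    ring
  rw [integral_congr_ae hexp] at h0
  have hmeas1 : AEStronglyMeasurable
      (fun x => 2 * co p 4 x * (a - f x) * S.cd.Γ f (co p 4) x) ν := by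
    refine AEStronglyMeasurable.mul ?_ (S.meas _ _ hfL hcL)
    have hcc := hcL.continuous
    have hfc := hf.continuous
    exact (by fun_prop : Continuous fun x => 2 * co p 4 x * (a - f x)).aestronglyMeasurable
  have hmeas2 : AEStronglyMeasurable (fun x => (co p 4 x) ^ 2 * S.cd.Γ f f x) ν := by
    refine AEStronglyMeasurable.mul ?_ (S.meas _ _ hfL hfL)
    have hcc := hcL.continuous
    exact (by fun_prop : Continuous fun x => (co p 4 x) ^ 2).aestronglyMeasurable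
  have hb1 : ∀ᵐ x ∂ν, |2 * co p 4 x * (a - f x) * S.cd.Γ f (co p 4) x| ≤ 32 * a * K := by
    filter_upwards [S.rad f hfL, S.rad _ hcL] with x h1 h2
    have hG := S.cd.abs_Γ_le_lip h1 h2 hf (co_lip p 4)
    by_cases hx : dist p x < 5
    · have h3 := abs_le.1 (hfa x hx)
      have h4 : |a - f x| ≤ 2 * a := by rw [abs_le]; constructor <;> linarith
      have h5 := co_nonneg (p := p) 4 x
      have h6 := co_le_one (p := p) 4 x
      rw [abs_mul, abs_mul, abs_mul, abs_of_nonneg h5, abs_two]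
      calc 2 * co p 4 x * |a - f x| * |S.cd.Γ f (co p 4) x|
          ≤ 2 * 1 * (2 * a) * (K * (8 : ℝ≥0)) := by gcongr
        _ = 32 * a * K := by push_cast; ring
    · push Not at hx
      rw [hc.2 x (by linarith)]
      simp only [mul_zero, zero_mul, abs_zero]; positivity
  have hz1 : ∀ᵐ x ∂ν, 5 ≤ dist p x → 2 * co p 4 x * (a - f x) * S.cd.Γ f (co p 4) x = 0 :=
    Eventually.of_forall fun x hx => by rw [hc.2 x (by linarith)]; simp
  have hb2 : ∀ᵐ x ∂ν, |(co p 4 x) ^ 2 * S.cd.Γ f f x| ≤ (K : ℝ) ^ 2 := by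
    filter_upwards [S.rad f hfL] with x h1
    have hG := S.cd.Γ_le_of_lip h1 hf
    have hG0 := S.cd.nonneg _ _ h1
    have h5 := co_nonneg (p := p) 4 x
    have h6 := co_le_one (p := p) 4 x
    rw [abs_of_nonneg (by positivity)]
    calc (co p 4 x) ^ 2 * S.cd.Γ f f x ≤ 1 ^ 2 * (K : ℝ) ^ 2 := by gcongr
      _ = (K : ℝ) ^ 2 := by ring
  have hz2 : ∀ᵐ x ∂ν, 5 ≤ dist p x → (co p 4 x) ^ 2 * S.cd.Γ f f x = 0 :=
    Eventually.of_forall fun x hx => by rw [hc.2 x (by linarith)]; simp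
  rw [integral_sub (integrable_of_bdd hmeas1 hb1 hz1) (integrable_of_bdd hmeas2 hb2 hz2)] at h0
  have hI2 := (le_abs_self _).trans (integral_le_of_bdd hmeas1 (by positivity) hb1 hz1)
  linarith

/-- small test integrals against the cutoff of radius `3`: AM-GM form -/
lemma Setup.int_cut_le {t : ℝ} (ht : 0 < t) (hf : Lp f) :
    |∫ x, S.cd.Γ f (co p 3) x ∂ν| ≤
      4 * t * V ν p + 4 / t * ∫ x, (co p 4 x) ^ 2 * S.cd.Γ f f x ∂ν := by
  have hc3 : T p (co p 3) := co_T (by norm_num)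
  have hc4 : T p (co p 4) := co_T le_rfl
  obtain ⟨C, hC0, hC⟩ := S.Γ_bdd hf hf
  have hmeas2 : AEStronglyMeasurable (fun x => (co p 4 x) ^ 2 * S.cd.Γ f f x) ν := by
    refine AEStronglyMeasurable.mul ?_ (S.meas _ _ hf hf)
    have hcc := hc4.1.continuous
    exact (by fun_prop : Continuous fun x => (co p 4 x) ^ 2).aestronglyMeasurable
  have hb2 : ∀ᵐ x ∂ν, |(co p 4 x) ^ 2 * S.cd.Γ f f x| ≤ C := by
    filter_upwards [hC] with x h1
    have h5 := co_nonneg (p := p) 4 x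
    have h6 := co_le_one (p := p) 4 x
    rw [abs_mul, abs_of_nonneg (by positivity)]
    calc (co p 4 x) ^ 2 * |S.cd.Γ f f x| ≤ 1 ^ 2 * C := by gcongr
      _ = C := by ring
  have hz2 : ∀ᵐ x ∂ν, 5 ≤ dist p x → (co p 4 x) ^ 2 * S.cd.Γ f f x = 0 :=
    Eventually.of_forall fun x hx => by rw [hc4.2 x (by linarith)]; simp
  have hi2 := integrable_of_bdd hmeas2 hb2 hz2
  have hi1 : Integrable (({x | dist p x < 5} : Set M).indicator (fun _ => 4 * t)) ν := by
    rw [integrable_indicator_iff (measurableSet_B p 5)]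
    exact integrableOn_const (measure_ball_lt_top p 5).ne
  have hpt : ∀ᵐ x ∂ν, |S.cd.Γ f (co p 3) x| ≤
      ({x | dist p x < 5} : Set M).indicator (fun _ => 4 * t) x
        + 4 / t * ((co p 4 x) ^ 2 * S.cd.Γ f f x) := by
    filter_upwards [S.rad f hf, S.rad _ hc3.1, S.Γ_zero hf hc3] with x h1 h2 h3
    have hG0 := S.cd.nonneg _ _ h1
    by_cases hx : dist p x ≤ 4
    · rw [co_eq_one hx, indicator_of_mem (by show dist p x < 5; linarith), one_pow, one_mul]
      have hsq := S.cd.cauchy_schwarz h1 h2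
      have h8 := S.cd.Γ_le_of_lip h2 (co_lip p 3)
      have h64 : S.cd.Γ f (co p 3) x ^ 2 ≤ (8 * √(S.cd.Γ f f x)) ^ 2 := by
        rw [mul_pow, Real.sq_sqrt hG0]
        calc S.cd.Γ f (co p 3) x ^ 2 ≤ S.cd.Γ f f x * S.cd.Γ (co p 3) (co p 3) x := hsq
          _ ≤ S.cd.Γ f f x * ((8 : ℝ≥0) : ℝ) ^ 2 := by gcongr
          _ = 8 ^ 2 * S.cd.Γ f f x := by push_cast; ring
      have habs := abs_le_of_sq_le_sq h64 (by positivity)
      have : 8 * √(S.cd.Γ f f x) ≤ 4 * t + 4 / t * S.cd.Γ f f x := by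
        have hs := Real.sq_sqrt hG0
        set r := √(S.cd.Γ f f x) with hr
        have : 0 ≤ 4 / t * (t - r) ^ 2 := by positivity
        have e : 4 / t * (t - r) ^ 2 = 4 * t - 8 * r + 4 / t * r ^ 2 := by field_simp; ring
        rw [← hs]; linarith
      linarith [abs_le.1 habs |>.1]
    · push Not at hx
      have hz : S.cd.Γ f (co p 3) x = 0 := by
        have he : (co p 3) =ᶠ[𝓝 x] fun _ => 0 := by
          have : IsOpen {y | 4 < dist p y} := isOpen_lt continuous_const (by fun_prop)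
          filter_upwards [this.mem_nhds hx] with y hy
          exact co_eq_zero (by have : 4 < dist p y := hy; linarith)
        rw [S.cd.symm, S.cd.Γ_eq_zero_of_eventually_const 0 he h1]
      rw [hz, abs_zero]
      have : 0 ≤ ({x | dist p x < 5} : Set M).indicator (fun _ => 4 * t) x := by
        apply indicator_nonneg; intro y hy; positivity
      positivity
  calc |∫ x, S.cd.Γ f (co p 3) x ∂ν| ≤ ∫ x, |S.cd.Γ f (co p 3) x| ∂ν := abs_integral_le_integral_abs
    _ ≤ ∫ x, (({x | dist p x < 5} : Set M).indicator (fun _ => 4 * t) x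
        + 4 / t * ((co p 4 x) ^ 2 * S.cd.Γ f f x)) ∂ν :=
        integral_mono_ae (S.Γ_int hf hc3).abs (hi1.add (hi2.const_mul _)) hpt
    _ = 4 * t * V ν p + 4 / t * ∫ x, (co p 4 x) ^ 2 * S.cd.Γ f f x ∂ν := by
        rw [integral_add hi1 (hi2.const_mul _), integral_const_mul,
          integral_indicator (measurableSet_B p 5), setIntegral_const, smul_eq_mul, mul_comm (ν.real _)]
        rfl

end Integrals

end Crest.Agent.R247.VC402
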