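import Crest.Agent.R247.VC2_402

/-!
# R247, block (3), file 3: direction functions: small Laplacian mass and almost orthogonality
-/

set_option autoImplicit false
set_option linter.unusedSectionVars false
set_option linter.unusedVariables false

noncomputable section

open MeasureTheory Filter Topology Set
open scoped ENNReal NNReal RealInnerProductSpace

namespace Crest.Agent.R247.VC402

/-- model space -/
abbrev E (n : ℕ) := EuclideanSpace ℝ (Fin n)

/-- The family of "direction functions" at `p`: `β v ≈ ⟪φ, v⟫` with `Δ(β v) ≤ κ` weakly and `|∇ β v| = 1`. -/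
structure Dirs {n : ℕ} {M : Type*} [MetricSpace M] [MeasurableSpace M] {ν : Measure M}
    (S : Setup n M ν) (p : M) (φ : M → E n) (ψ κ : ℝ) (β : E n → M → ℝ) : Prop where
  lip : ∀ v, ‖v‖ = 1 → LipschitzWith 1 (β v)
  pos : ∀ v, ‖v‖ = 1 → S.Pos (β v) κ p
  unit : ∀ v, ‖v‖ = 1 → ∀ᵐ x ∂ν, S.cd.Γ (β v) (β v) x = 1
  close : ∀ v, ‖v‖ = 1 → ∀ x, dist p x < 5 → |β v x - ⟪φ x, v⟫| ≤ ψ
  ψ0 : 0 < ψ
  ψ1 : ψ ≤ 1
  κ0 : 0 ≤ κ
  κ1 : κ ≤ 1

namespace Dirs

variable {n : ℕ} {M : Type*} [MetricSpace M] [ProperSpace M] [MeasurableSpace M] [BorelSpace M]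
  {ν : Measure M} [IsFiniteMeasureOnCompacts ν] {S : Setup n M ν} {p : M} {φ : M → E n} {ψ κ : ℝ}
  {β : E n → M → ℝ} (h : Dirs S p φ ψ κ β)

include h

lemma lp (v : E n) (hv : ‖v‖ = 1) : Lp (β v) := ⟨1, h.lip v hv⟩

/-- smallness of the Laplacian mass -/
lemma Λ_le (v : E n) (hv : ‖v‖ = 1) : S.Λ (β v) κ (co p 3) ≤ (2 * κ + 548 * √ψ) * V ν p := by
  have hv' : ‖-v‖ = 1 := by rw [norm_neg]; exact hv
  have hκ0 := h.κ0
  have hκ1 := h.κ1
  have hψ0 := h.ψ0
  have hL := h.lp v hv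
  have hL' := h.lp (-v) hv'
  set e : M → ℝ := fun x => β v x + β (-v) x with he
  have hc3 : T p (co p 3) := co_T (by norm_num)
  have heq : ∀ χ, T p χ → S.Λ e (2 * κ) χ = S.Λ (β v) κ χ + S.Λ (β (-v)) κ χ := by
    intro χ hχ
    unfold Setup.Λ
    have : ∫ x, S.cd.Γ e χ x ∂ν = ∫ x, S.cd.Γ (β v) χ x ∂ν + ∫ x, S.cd.Γ (β (-v)) χ x ∂ν := by
      rw [← integral_add (S.Γ_int hL hχ) (S.Γ_int hL' hχ)]
      refine integral_congr_ae ?_
      filter_upwards [S.rad _ hL, S.rad _ hL', S.rad _ hχ.1] with x h1 h2 h3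
      exact S.cd.Γ_add h1 h2 h3
    rw [this]; ring
  have hPe : S.Pos e (2 * κ) p := by
    intro χ hχ h0
    rw [heq χ hχ]
    exact add_nonneg (h.pos v hv χ hχ h0) (h.pos (-v) hv' χ hχ h0)
  have hlip : LipschitzWith 2 e := by
    have := (h.lip v hv).add (h.lip (-v) hv')
    rwa [show (1 : ℝ≥0) + 1 = 2 by norm_num] at this
  have hsup : ∀ x, dist p x < 5 → |e x| ≤ 2 * ψ := by
    intro x hx
    have h1 := abs_le.1 (h.close v hv x hx)
    have h2 := abs_le.1 (h.close (-v) hv' x hx)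
    rw [inner_neg_right] at h2
    rw [abs_le]; simp only [he]; constructor <;> linarith
  have hcac := S.caccioppoli (p := p) (by linarith : 0 ≤ 2 * κ) (by linarith : 0 ≤ 2 * ψ) hPe hlip hsup
  have hV : 0 ≤ V ν p := V_nonneg
  have hcac' : ∫ x, (co p 4 x) ^ 2 * S.cd.Γ e e x ∂ν ≤ 136 * ψ * V ν p := by
    refine hcac.trans ?_
    push_cast
    have : 2 * (2 * ψ) * (2 * κ + 16 * 2) ≤ 136 * ψ := by nlinarith
    exact mul_le_mul_of_nonneg_right this hV
  have hs : 0 < √ψ := Real.sqrt_pos.2 hψ0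
  have hcut := S.int_cut_le (p := p) hs (hL.add hL')
  have hcut' : |∫ x, S.cd.Γ e (co p 3) x ∂ν| ≤ 548 * √ψ * V ν p := by
    refine hcut.trans ?_
    have : 4 / √ψ * ∫ x, (co p 4 x) ^ 2 * S.cd.Γ e e x ∂ν ≤ 4 / √ψ * (136 * ψ * V ν p) := by
      gcongr
    have e1 : 4 / √ψ * (136 * ψ * V ν p) = 544 * √ψ * V ν p := by
      have hsq := Real.mul_self_sqrt hψ0.le
      have hne := hs.ne'
      field_simp
      nlinarith [hsq]
    calc 4 * √ψ * V ν p + 4 / √ψ * ∫ x, (co p 4 x) ^ 2 * S.cd.Γ e e x ∂ν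
        ≤ 4 * √ψ * V ν p + 544 * √ψ * V ν p := by linarith
      _ = 548 * √ψ * V ν p := by ring
  have h1 := h.pos (-v) hv' (co p 3) hc3 (co_nonneg 3)
  have h2 := heq (co p 3) hc3
  have h3 : S.Λ e (2 * κ) (co p 3) ≤ 2 * κ * V ν p + 548 * √ψ * V ν p := by
    unfold Setup.Λ
    have h4 : |∫ x, co p 3 x ∂ν| ≤ 1 * V ν p := hc3.abs_int_le zero_le_one (fun x => by
      rw [abs_of_nonneg (co_nonneg 3 x)]; exact co_le_one 3 x)
    have h5 : 2 * κ * ∫ x, co p 3 x ∂ν ≤ 2 * κ * (1 * V ν p) :=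
      mul_le_mul_of_nonneg_left ((le_abs_self _).trans h4) (by linarith)
    have h6 := (le_abs_self _).trans hcut'
    linarith
  linarith

/-- the small constant `η₁` -/
lemma intΓ_le {t : ℝ} (ht : 0 ≤ t) (v : E n) (hv : ‖v‖ = 1) {ζ : M → ℝ} (hζ : T p ζ)
    (hd : ∀ x, |ζ x| ≤ t * co p 3 x) :
    |∫ x, S.cd.Γ (β v) ζ x ∂ν| ≤ t * ((3 * κ + 548 * √ψ) * V ν p) := by
  have h1 := S.abs_intΓ_le h.κ0 ht (h.pos v hv) (h.lp v hv) (co_T (by norm_num) : T p (co p 3)) hζ hd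
    (fun x => co_le_one 3 x)
  refine h1.trans (mul_le_mul_of_nonneg_left ?_ ht)
  have := h.Λ_le v hv
  linarith

/-- almost orthogonality -/
lemma orth (v w : E n) (hv : ‖v‖ = 1) (hw : ‖w‖ = 1) (hvw : ⟪v, w⟫ = 0)
    (hsmall : 3 * κ + 548 * √ψ ≤ 1) :
    ∫ x, (co p 2 x) ^ 2 * |S.cd.Γ (β v) (β w) x| ∂ν ≤ 307 * √ψ * V ν p := by
  have hκ0 := h.κ0
  have hψ0 := h.ψ0
  have hψ1 := h.ψ1
  have hs : 0 < √ψ := Real.sqrt_pos.2 hψ0
  have hV : 0 ≤ V ν p := V_nonneg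
  set c : ℝ := (√2)⁻¹ with hc
  have h2 : 0 < √(2 : ℝ) := by positivity
  have hc0 : 0 < c := by positivity
  have hcc : c * c = 1 / 2 := by
    rw [hc, ← mul_inv, Real.mul_self_sqrt (by norm_num)]; norm_num
  have hc1 : c ≤ 1 := by nlinarith
  set u : E n := c • (v + w) with hu
  have hun : ‖u‖ = 1 := by
    have h3 : ‖v + w‖ ^ 2 = 2 := by
      rw [norm_add_sq_real, hv, hw, hvw]; norm_num
    have h4 : ‖v + w‖ = √2 := by
      rw [← h3, Real.sqrt_sq (norm_nonneg _)]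
    rw [hu, norm_smul, Real.norm_of_nonneg hc0.le, h4, hc, inv_mul_cancel₀ h2.ne']
  have hLv := h.lp v hv
  have hLw := h.lp w hw
  have hLu := h.lp u hun
  set f : M → ℝ := fun x => c * (β v x + β w x) - β u x with hf
  have hfLip : LipschitzWith 3 f := by
    refine LipschitzWith.of_dist_le_mul ?_
    intro x y
    rw [Real.dist_eq]
    have h3 := (h.lip v hv).dist_le_mul x y
    have h4 := (h.lip w hw).dist_le_mul x y
    have h5 := (h.lip u hun).dist_le_mul x y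
    rw [Real.dist_eq] at h3 h4 h5
    simp only [NNReal.coe_one, one_mul] at h3 h4 h5
    have e : f x - f y = c * (β v x - β v y) + c * (β w x - β w y) - (β u x - β u y) := by
      simp only [hf]; ring
    rw [e]
    have hd : 0 ≤ dist x y := dist_nonneg
    calc |c * (β v x - β v y) + c * (β w x - β w y) - (β u x - β u y)|
        ≤ |c * (β v x - β v y)| + |c * (β w x - β w y)| + |β u x - β u y| := by
          refine (abs_sub _ _).trans ?_
          gcongr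
          exact abs_add_le _ _
      _ ≤ 1 * dist x y + 1 * dist x y + dist x y := by
          rw [abs_mul, abs_mul, abs_of_nonneg hc0.le]
          gcongr
      _ = ((3 : ℝ≥0) : ℝ) * dist x y := by push_cast; ring
  have hfL : Lp f := ⟨3, hfLip⟩
  have hfs : ∀ x, dist p x < 5 → |f x| ≤ 3 * ψ := by
    intro x hx
    have h3 := abs_le.1 (h.close v hv x hx)
    have h4 := abs_le.1 (h.close w hw x hx)
    have h5 := abs_le.1 (h.close u hun x hx)
    have e : ⟪φ x, u⟫ = c * (⟪φ x, v⟫ + ⟪φ x, w⟫) := by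
      rw [hu, inner_smul_right, inner_add_right]
    rw [e] at h5
    have e2 : f x = c * (β v x - ⟪φ x, v⟫) + c * (β w x - ⟪φ x, w⟫)
        - (β u x - c * (⟪φ x, v⟫ + ⟪φ x, w⟫)) := by simp only [hf]; ring
    have b1 : |c * (β v x - ⟪φ x, v⟫)| ≤ ψ := by
      rw [abs_mul, abs_of_nonneg hc0.le]
      calc c * |β v x - ⟪φ x, v⟫| ≤ 1 * ψ := by gcongr; exact abs_le.2 h3
        _ = ψ := one_mul _
    have b2 : |c * (β w x - ⟪φ x, w⟫)| ≤ ψ := by
      rw [abs_mul, abs_of_nonneg hc0.le]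
      calc c * |β w x - ⟪φ x, w⟫| ≤ 1 * ψ := by gcongr; exact abs_le.2 h4
        _ = ψ := one_mul _
    rw [e2, abs_le]
    rw [abs_le] at b1 b2
    constructor <;> linarith
  -- test function
  have hc2 : T p (co p 2) := co_T (by norm_num)
  have hζ1 : T p (fun x => co p 2 x * f x) := hc2.mul hfL
  have hζ : T p (fun x => co p 2 x * (co p 2 x * f x)) := hc2.mul hζ1.1
  have hζd : ∀ x, |co p 2 x * (co p 2 x * f x)| ≤ 3 * ψ * co p 3 x := by
    intro x
    by_cases hx : dist p x ≤ 3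
    · rw [co_eq_one hx, mul_one, abs_mul, abs_mul, abs_of_nonneg (co_nonneg 2 x)]
      have h3 := co_nonneg (p := p) 2 x
      have h4 := co_le_one (p := p) 2 x
      have h5 := hfs x (by linarith)
      calc co p 2 x * (co p 2 x * |f x|) ≤ 1 * (1 * (3 * ψ)) := by gcongr
        _ = 3 * ψ := by ring
    · push Not at hx
      rw [co_eq_zero (a := 2) (by linarith)]
      have := co_nonneg (p := p) 3 x
      simp only [zero_mul, mul_zero, abs_zero]; positivity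
  have B1 := h.intΓ_le (by positivity : 0 ≤ 3 * ψ) v hv hζ hζd
  have B2 := h.intΓ_le (by positivity : 0 ≤ 3 * ψ) w hw hζ hζd
  have B3 := h.intΓ_le (by positivity : 0 ≤ 3 * ψ) u hun hζ hζd
  have hsm : 3 * ψ * ((3 * κ + 548 * √ψ) * V ν p) ≤ 3 * ψ * (1 * V ν p) := by gcongr
  have hlin : ∫ x, S.cd.Γ f (fun x => co p 2 x * (co p 2 x * f x)) x ∂ν
      = c * ∫ x, S.cd.Γ (β v) (fun x => co p 2 x * (co p 2 x * f x)) x ∂ν
        + c * ∫ x, S.cd.Γ (β w) (fun x => co p 2 x * (co p 2 x * f x)) x ∂ν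
        - ∫ x, S.cd.Γ (β u) (fun x => co p 2 x * (co p 2 x * f x)) x ∂ν := by
    have hadd : Integrable (fun x => c * S.cd.Γ (β v) (fun x => co p 2 x * (co p 2 x * f x)) x
        + c * S.cd.Γ (β w) (fun x => co p 2 x * (co p 2 x * f x)) x) ν :=
      ((S.Γ_int hLv hζ).const_mul c).add ((S.Γ_int hLw hζ).const_mul c)
    rw [← integral_const_mul, ← integral_const_mul,
      ← integral_add ((S.Γ_int hLv hζ).const_mul c) ((S.Γ_int hLw hζ).const_mul c),
      ← integral_sub hadd (S.Γ_int hLu hζ)]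
    refine integral_congr_ae ?_
    filter_upwards [S.rad _ hLv, S.rad _ hLw, S.rad _ hLu, S.rad _ hζ.1] with x h1 h2 h3 h4
    have h5 := S.cd.D_add h1 h2
    simp only [hf]
    rw [S.cd.Γ_sub (S.cd.D_smul c h5) h3 h4, S.cd.Γ_smul c h5 h4, S.cd.Γ_add h1 h2 h4]
    ring
  have hΓζ : ∫ x, S.cd.Γ f (fun x => co p 2 x * (co p 2 x * f x)) x ∂ν ≤ 9 * ψ * V ν p := by
    rw [hlin]
    have b1 := abs_le.1 B1
    have b2 := abs_le.1 B2
    have b3 := abs_le.1 B3
    set I1 := ∫ x, S.cd.Γ (β v) (fun x => co p 2 x * (co p 2 x * f x)) x ∂ν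
    set I2 := ∫ x, S.cd.Γ (β w) (fun x => co p 2 x * (co p 2 x * f x)) x ∂ν
    have hQ : 0 ≤ 3 * ψ * V ν p := by positivity
    have i1 : c * I1 ≤ 3 * ψ * V ν p := by
      calc c * I1 ≤ c * (3 * ψ * V ν p) := by gcongr; linarith [b1.2]
        _ ≤ 1 * (3 * ψ * V ν p) := by gcongr
        _ = _ := one_mul _
    have i2 : c * I2 ≤ 3 * ψ * V ν p := by
      calc c * I2 ≤ c * (3 * ψ * V ν p) := by gcongr; linarith [b2.2]
        _ ≤ 1 * (3 * ψ * V ν p) := by gcongr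
        _ = _ := one_mul _
    linarith [b3.1]
  have hexp : ∀ᵐ x ∂ν, S.cd.Γ f (fun x => co p 2 x * (co p 2 x * f x)) x
      = (co p 2 x) ^ 2 * S.cd.Γ f f x + 2 * co p 2 x * f x * S.cd.Γ f (co p 2) x := by
    filter_upwards [S.rad f hfL, S.rad _ hc2.1] with x h1 h2
    rw [S.cd.symm f, S.cd.Γ_mul h2 (S.cd.D_mul h2 h1) h1, S.cd.Γ_mul h2 h1 h1, S.cd.symm (co p 2) f]
    ring
  have hmeas1 : AEStronglyMeasurable (fun x => (co p 2 x) ^ 2 * S.cd.Γ f f x) ν := by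
    refine AEStronglyMeasurable.mul ?_ (S.meas _ _ hfL hfL)
    have hcc := hc2.1.continuous
    exact (by fun_prop : Continuous fun x => (co p 2 x) ^ 2).aestronglyMeasurable
  have hmeas2 : AEStronglyMeasurable (fun x => 2 * co p 2 x * f x * S.cd.Γ f (co p 2) x) ν := by
    refine AEStronglyMeasurable.mul ?_ (S.meas _ _ hfL hc2.1)
    have hcc := hc2.1.continuous
    have hfc := hfL.continuous
    exact (by fun_prop : Continuous fun x => 2 * co p 2 x * f x).aestronglyMeasurable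
  have hb1 : ∀ᵐ x ∂ν, |(co p 2 x) ^ 2 * S.cd.Γ f f x| ≤ 9 := by
    filter_upwards [S.rad f hfL] with x h1
    have hG := S.cd.Γ_le_of_lip h1 hfLip
    have hG0 := S.cd.nonneg _ _ h1
    have h5 := co_nonneg (p := p) 2 x
    have h6 := co_le_one (p := p) 2 x
    rw [abs_of_nonneg (by positivity)]
    calc (co p 2 x) ^ 2 * S.cd.Γ f f x ≤ 1 ^ 2 * ((3 : ℝ≥0) : ℝ) ^ 2 := by gcongr
      _ = 9 := by norm_num
  have hz1 : ∀ᵐ x ∂ν, 5 ≤ dist p x → (co p 2 x) ^ 2 * S.cd.Γ f f x = 0 :=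
    Eventually.of_forall fun x hx => by rw [hc2.2 x (by linarith)]; simp
  have hb2 : ∀ᵐ x ∂ν, |2 * co p 2 x * f x * S.cd.Γ f (co p 2) x| ≤ 144 * ψ := by
    filter_upwards [S.rad f hfL, S.rad _ hc2.1] with x h1 h2
    have hG := S.cd.abs_Γ_le_lip h1 h2 hfLip (co_lip p 2)
    by_cases hx : dist p x < 5
    · have h3 := hfs x hx
      have h5 := co_nonneg (p := p) 2 x
      have h6 := co_le_one (p := p) 2 x
      rw [abs_mul, abs_mul, abs_mul, abs_of_nonneg h5, abs_two]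
      calc 2 * co p 2 x * |f x| * |S.cd.Γ f (co p 2) x|
          ≤ 2 * 1 * (3 * ψ) * ((3 : ℝ≥0) * (8 : ℝ≥0)) := by gcongr
        _ = 144 * ψ := by push_cast; ring
    · push Not at hx
      rw [hc2.2 x (by linarith)]
      simp only [mul_zero, zero_mul, abs_zero]; positivity
  have hz2 : ∀ᵐ x ∂ν, 5 ≤ dist p x → 2 * co p 2 x * f x * S.cd.Γ f (co p 2) x = 0 :=
    Eventually.of_forall fun x hx => by rw [hc2.2 x (by linarith)]; simp
  have hi1 := integrable_of_bdd hmeas1 hb1 hz1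
  have hmain : ∫ x, (co p 2 x) ^ 2 * S.cd.Γ f f x ∂ν ≤ 153 * ψ * V ν p := by
    rw [integral_congr_ae hexp, integral_add hi1 (integrable_of_bdd hmeas2 hb2 hz2)] at hΓζ
    have := abs_le.1 (integral_le_of_bdd hmeas2 (by positivity) hb2 hz2)
    linarith [this.1]
  -- pointwise
  have hmeas3 : AEStronglyMeasurable (fun x => (co p 2 x) ^ 2 * |S.cd.Γ (β v) (β w) x|) ν := by
    refine AEStronglyMeasurable.mul ?_ (S.meas _ _ hLv hLw).norm
    have hcc := hc2.1.continuous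
    exact (by fun_prop : Continuous fun x => (co p 2 x) ^ 2).aestronglyMeasurable
  have hb3 : ∀ᵐ x ∂ν, |(co p 2 x) ^ 2 * (|S.cd.Γ (β v) (β w) x|)| ≤ 1 := by
    filter_upwards [S.rad _ hLv, S.rad _ hLw] with x h1 h2
    have hG := S.cd.abs_Γ_le_lip h1 h2 (h.lip v hv) (h.lip w hw)
    have h5 := co_nonneg (p := p) 2 x
    have h6 := co_le_one (p := p) 2 x
    rw [abs_of_nonneg (by positivity)]
    calc (co p 2 x) ^ 2 * |S.cd.Γ (β v) (β w) x| ≤ 1 ^ 2 * ((1 : ℝ≥0) * (1 : ℝ≥0)) := by gcongr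
      _ = 1 := by norm_num
  have hz3 : ∀ᵐ x ∂ν, 5 ≤ dist p x → (co p 2 x) ^ 2 * |S.cd.Γ (β v) (β w) x| = 0 :=
    Eventually.of_forall fun x hx => by rw [hc2.2 x (by linarith)]; simp
  have hpt : ∀ᵐ x ∂ν, (co p 2 x) ^ 2 * |S.cd.Γ (β v) (β w) x| ≤
      ({x | dist p x < 5} : Set M).indicator (fun _ => √ψ) x
        + (1 / √ψ + 1) * ((co p 2 x) ^ 2 * S.cd.Γ f f x) := by
    filter_upwards [S.rad _ hLv, S.rad _ hLw, S.rad _ hLu, h.unit v hv, h.unit w hw, h.unit u hun]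
      with x h1 h2 h3 uv uw uu
    have hD : S.cd.D f x := S.cd.D_sub (S.cd.D_smul c (S.cd.D_add h1 h2)) h3
    have hG0 := S.cd.nonneg _ _ hD
    have hDs := S.cd.D_add h1 h2
    have e1 : S.cd.Γ f (β u) x = c * (S.cd.Γ (β v) (β u) x + S.cd.Γ (β w) (β u) x) - 1 := by
      simp only [hf]
      rw [S.cd.Γ_sub (S.cd.D_smul c hDs) h3 h3, S.cd.Γ_smul c hDs h3, S.cd.Γ_add h1 h2 h3, uu]
    have e2 : S.cd.Γ f (β v) x = c * (1 + S.cd.Γ (β v) (β w) x) - S.cd.Γ (β v) (β u) x := by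
      simp only [hf]
      rw [S.cd.Γ_sub (S.cd.D_smul c hDs) h3 h1, S.cd.Γ_smul c hDs h1, S.cd.Γ_add h1 h2 h1, uv,
        S.cd.symm (β w) (β v), S.cd.symm (β u) (β v)]
    have e3 : S.cd.Γ f (β w) x = c * (S.cd.Γ (β v) (β w) x + 1) - S.cd.Γ (β w) (β u) x := by
      simp only [hf]
      rw [S.cd.Γ_sub (S.cd.D_smul c hDs) h3 h2, S.cd.Γ_smul c hDs h2, S.cd.Γ_add h1 h2 h2, uw,
        S.cd.symm (β u) (β w)]
    have e4 : S.cd.Γ f f x = c * (S.cd.Γ f (β v) x + S.cd.Γ f (β w) x) - S.cd.Γ f (β u) x := by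
      have : S.cd.Γ f f x = S.cd.Γ (fun x => c * (β v x + β w x) - β u x) f x := rfl
      rw [this, S.cd.Γ_sub (S.cd.D_smul c hDs) h3 hD, S.cd.Γ_smul c hDs hD, S.cd.Γ_add h1 h2 hD,
        S.cd.symm (β v) f, S.cd.symm (β w) f, S.cd.symm (β u) f]
    have key : S.cd.Γ (β v) (β w) x = 2 * S.cd.Γ f (β u) x + S.cd.Γ f f x := by
      rw [e4, e2, e3, e1]
      linear_combination (-2 - 2 * S.cd.Γ (β v) (β w) x) * hcc
    have hcs := S.cd.cauchy_schwarz hD h3
    rw [uu, mul_one] at hcs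
    have habs : |S.cd.Γ f (β u) x| ≤ √(S.cd.Γ f f x) := by
      apply Real.abs_le_sqrt hcs
    have hb : |S.cd.Γ (β v) (β w) x| ≤ √ψ + (1 / √ψ + 1) * S.cd.Γ f f x := by
      have hr := Real.sq_sqrt hG0
      set r := √(S.cd.Γ f f x) with hrdef
      have hr0 : 0 ≤ r := Real.sqrt_nonneg _
      have h9 : |S.cd.Γ (β v) (β w) x| ≤ 2 * r + r ^ 2 := by
        rw [key]
        calc |2 * S.cd.Γ f (β u) x + S.cd.Γ f f x| ≤ |2 * S.cd.Γ f (β u) x| + |S.cd.Γ f f x| :=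
              abs_add_le _ _
          _ ≤ 2 * r + r ^ 2 := by
              rw [abs_mul, abs_two, abs_of_nonneg hG0, hr]; linarith
      have h10 : 2 * r ≤ √ψ + 1 / √ψ * r ^ 2 := by
        have : 0 ≤ 1 / √ψ * (√ψ - r) ^ 2 := by positivity
        have e : 1 / √ψ * (√ψ - r) ^ 2 = √ψ - 2 * r + 1 / √ψ * r ^ 2 := by field_simp; ring
        linarith
      rw [← hr]
      linarith
    have h5 := co_nonneg (p := p) 2 x
    have h6 := co_le_one (p := p) 2 x
    by_cases hx : dist p x < 5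
    · rw [indicator_of_mem (by exact hx)]
      calc (co p 2 x) ^ 2 * |S.cd.Γ (β v) (β w) x|
          ≤ (co p 2 x) ^ 2 * (√ψ + (1 / √ψ + 1) * S.cd.Γ f f x) := by gcongr
        _ = (co p 2 x) ^ 2 * √ψ + (1 / √ψ + 1) * ((co p 2 x) ^ 2 * S.cd.Γ f f x) := by ring
        _ ≤ 1 ^ 2 * √ψ + (1 / √ψ + 1) * ((co p 2 x) ^ 2 * S.cd.Γ f f x) := by gcongr
        _ = _ := by ring
    · push Not at hx
      rw [hc2.2 x (by linarith)]
      simp [indicator_of_notMem (show x ∉ {x | dist p x < 5} by simpa using hx)]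
  have hi3 : Integrable (({x | dist p x < 5} : Set M).indicator (fun _ => √ψ)) ν := by
    rw [integrable_indicator_iff (measurableSet_B p 5)]
    exact integrableOn_const (measure_ball_lt_top p 5).ne
  calc ∫ x, (co p 2 x) ^ 2 * |S.cd.Γ (β v) (β w) x| ∂ν
      ≤ ∫ x, (({x | dist p x < 5} : Set M).indicator (fun _ => √ψ) x
        + (1 / √ψ + 1) * ((co p 2 x) ^ 2 * S.cd.Γ f f x)) ∂ν :=
        integral_mono_ae (integrable_of_bdd hmeas3 hb3 hz3) (hi3.add (hi1.const_mul _)) hpt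
    _ = √ψ * V ν p + (1 / √ψ + 1) * ∫ x, (co p 2 x) ^ 2 * S.cd.Γ f f x ∂ν := by
        rw [integral_add hi3 (hi1.const_mul _), integral_const_mul,
          integral_indicator (measurableSet_B p 5), setIntegral_const, smul_eq_mul, mul_comm (ν.real _)]
        rfl
    _ ≤ √ψ * V ν p + (1 / √ψ + 1) * (153 * ψ * V ν p) := by gcongr
    _ ≤ 307 * √ψ * V ν p := by
        have e1 : (1 / √ψ) * (153 * ψ * V ν p) = 153 * √ψ * V ν p := by
          have hsq := Real.mul_self_sqrt hψ0.le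
          have hne := hs.ne'
          field_simp
          nlinarith [hsq]
        have e2 : ψ ≤ √ψ := by
          have hsq := Real.mul_self_sqrt hψ0.le
          have : √ψ ≤ 1 := Real.sqrt_le_one.2 hψ1
          nlinarith
        have : 153 * ψ * V ν p ≤ 153 * √ψ * V ν p := by gcongr
        nlinarith

end Dirs

end Crest.Agent.R247.VC402
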