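import Crest.Agent.R247.VC3_402

/-!
# R247, block (3), file 4: the divergence inequality for the push-forward measure
-/

set_option autoImplicit false
set_option linter.unusedSectionVars false
set_option linter.unusedVariables false

noncomputable section

open MeasureTheory Filter Topology Set
open scoped ENNReal NNReal RealInnerProductSpace

namespace Crest.Agent.R247.VC402

/-- basis vectors -/
abbrev ee {n : ℕ} (i : Fin n) : E n := EuclideanSpace.single i (1 : ℝ)

lemma norm_ee {n : ℕ} (i : Fin n) : ‖ee i‖ = 1 := by simp [ee]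

lemma inner_ee {n : ℕ} (x : E n) (i : Fin n) : ⟪x, ee i⟫ = x i := by
  simp [ee, EuclideanSpace.inner_single_right]

lemma ee_orth {n : ℕ} {i j : Fin n} (h : i ≠ j) : ⟪ee i, ee j⟫ = 0 := by
  rw [inner_ee]; simp [ee, Ne.symm h]

lemma norm_le_sum {n : ℕ} (x : E n) : ‖x‖ ≤ ∑ i, |x i| := by
  have h : x = ∑ i, x i • ee i := by
    ext j
    simp [ee, Pi.single_apply]
  calc ‖x‖ = ‖∑ i, x i • ee i‖ := by rw [← h]
    _ ≤ ∑ i, ‖x i • ee i‖ := norm_sum_le _ _
    _ = ∑ i, |x i| := by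
        refine Finset.sum_congr rfl fun i _ => ?_
        rw [norm_smul, norm_ee, mul_one, Real.norm_eq_abs]

lemma norm_le_of_forall {n : ℕ} (x : E n) {a : ℝ} (h : ∀ i, |x i| ≤ a) : ‖x‖ ≤ n * a := by
  refine (norm_le_sum x).trans ?_
  calc ∑ i, |x i| ≤ ∑ _i : Fin n, a := Finset.sum_le_sum fun i _ => h i
    _ = n * a := by simp

lemma abs_apply_le {n : ℕ} (x : E n) (i : Fin n) : |x i| ≤ ‖x‖ := by
  have := PiLp.norm_apply_le x i
  rwa [Real.norm_eq_abs] at this

/-- the map `Φ` -/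
def Φ {n : ℕ} {M : Type*} (β : E n → M → ℝ) (x : M) : E n := WithLp.toLp 2 (fun i => β (ee i) x)

@[simp] lemma Φ_apply {n : ℕ} {M : Type*} (β : E n → M → ℝ) (x : M) (i : Fin n) :
    Φ β x i = β (ee i) x := rfl

/-- divergence -/
def dv {n : ℕ} (X : E n → E n) (z : E n) : ℝ := ∑ j, (fderiv ℝ X z (ee j)) j

namespace Dirs

variable {n : ℕ} {M : Type*} [MetricSpace M] [ProperSpace M] [MeasurableSpace M] [BorelSpace M]
  {ν : Measure M} [IsFiniteMeasureOnCompacts ν] {S : Setup n M ν} {p : M} {φ : M → E n} {ψ κ : ℝ}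
  {β : E n → M → ℝ} (h : Dirs S p φ ψ κ β)

include h

lemma Φ_close {x : M} (hx : dist p x < 5) : ‖Φ β x - φ x‖ ≤ n * ψ := by
  refine norm_le_of_forall _ fun i => ?_
  have := h.close (ee i) (norm_ee i) x hx
  rw [inner_ee] at this
  simpa using this

lemma Φ_lip (x y : M) : ‖Φ β x - Φ β y‖ ≤ n * dist x y := by
  refine norm_le_of_forall _ fun i => ?_
  have := (h.lip (ee i) (norm_ee i)).dist_le_mul x y
  rw [Real.dist_eq] at this
  simpa using this

lemma Φ_lipschitz : LipschitzWith n (Φ β) := by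
  refine LipschitzWith.of_dist_le_mul fun x y => ?_
  rw [dist_eq_norm]
  simpa using h.Φ_lip x y

lemma Φ_cont : Continuous (Φ β) := h.Φ_lipschitz.continuous

lemma chain_X {X : E n → E n} (hX : Differentiable ℝ X) (j : Fin n) {x : M}
    (hD : ∀ i, S.cd.D (β (ee i)) x) :
    S.cd.D (fun y => X (Φ β y) j) x ∧ ∀ g, S.cd.D g x →
      S.cd.Γ (fun y => X (Φ β y) j) g x
        = ∑ i, (fderiv ℝ X (Φ β x) (ee i)) j * S.cd.Γ (β (ee i)) g x := by
  set L : (Fin n → ℝ) →L[ℝ] E n := ((PiLp.continuousLinearEquiv 2 ℝ (fun _ : Fin n => ℝ)).symm :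
    (Fin n → ℝ) →L[ℝ] E n) with hL
  have hLa : ∀ v : Fin n → ℝ, L v = WithLp.toLp 2 v := fun v => rfl
  set pr : E n →L[ℝ] ℝ := EuclideanSpace.proj j with hpr
  have hF : HasFDerivAt (fun v : Fin n → ℝ => X (WithLp.toLp 2 v) j)
      (pr.comp ((fderiv ℝ X (Φ β x)).comp L)) (fun i => β (ee i) x) := by
    have h1 : HasFDerivAt (fun v : Fin n → ℝ => L v) L (fun i => β (ee i) x) := L.hasFDerivAt
    have h2 : HasFDerivAt X (fderiv ℝ X (Φ β x)) (L (fun i => β (ee i) x)) := by
      have : L (fun i => β (ee i) x) = Φ β x := rfl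
      rw [this]
      exact (hX _).hasFDerivAt
    have h3 := h2.comp _ h1
    exact pr.hasFDerivAt.comp _ h3
  have key := S.cd.chain (fun v : Fin n → ℝ => X (WithLp.toLp 2 v) j) _ (fun i => β (ee i)) x hD hF
  refine ⟨key.1, fun g hg => ?_⟩
  rw [show (fun y => X (Φ β y) j) = fun y => (fun v : Fin n → ℝ => X (WithLp.toLp 2 v) j)
    (fun i => β (ee i) y) from rfl, key.2 g hg]
  refine Finset.sum_congr rfl fun i _ => ?_
  congr 1

/-- the divergence inequality -/
lemma div_ineq (hsmall : 3 * κ + 548 * √ψ ≤ 1) {X : E n → E n} {A : ℝ} (hA : 0 ≤ A)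
    (hX : ContDiff ℝ 1 X) (hXb : ∀ z, ‖X z‖ ≤ A) (hXd : ∀ z, ‖fderiv ℝ X z‖ ≤ A)
    (hreg : ∀ x, 3 / 2 ≤ dist p x → dist p x < 5 → X (Φ β x) = 0) :
    ∫ x, co p (3 / 2) x * dv X (Φ β x) ∂ν ≤
      n * (A * ((3 * κ + 548 * √ψ) * V ν p) + n * (A * (307 * √ψ * V ν p))) := by
  have hXdiff : Differentiable ℝ X := hX.differentiable (by norm_num)
  have hψ0 := h.ψ0
  have hκ0 := h.κ0
  have hV : 0 ≤ V ν p := V_nonneg
  have hs : 0 ≤ √ψ := Real.sqrt_nonneg _
  have hLb : ∀ i : Fin n, Lp (β (ee i)) := fun i => h.lp _ (norm_ee i)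
  have hΦc := h.Φ_cont
  have hXlip : LipschitzWith ⟨A, hA⟩ X := by
    apply lipschitzWith_of_nnnorm_fderiv_le hXdiff
    intro z
    exact hXd z
  -- entries of the derivative
  set a : Fin n → Fin n → M → ℝ := fun i j x => (fderiv ℝ X (Φ β x) (ee i)) j with ha
  have hac : ∀ i j, Continuous (a i j) := by
    intro i j
    have h1 : Continuous (fderiv ℝ X) := hX.continuous_fderiv (by norm_num)
    have h2 : Continuous fun x => fderiv ℝ X (Φ β x) (ee i) :=
      (h1.comp hΦc).clm_apply continuous_const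
    exact (EuclideanSpace.proj j : E n →L[ℝ] ℝ).continuous.comp h2
  have hab : ∀ i j x, |a i j x| ≤ A := by
    intro i j x
    calc |a i j x| ≤ ‖fderiv ℝ X (Φ β x) (ee i)‖ := abs_apply_le _ _
      _ ≤ ‖fderiv ℝ X (Φ β x)‖ * ‖ee i‖ := ContinuousLinearMap.le_opNorm _ _
      _ ≤ A * 1 := by rw [norm_ee]; gcongr; exact hXd _
      _ = A := mul_one A
  have hXL : ∀ j, Lp (fun x => X (Φ β x) j) := by
    intro j
    refine lip_of (K := A * n) (by positivity) fun x y => ?_
    have h1 := (hXlip.dist_le_mul (Φ β x) (Φ β y))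
    have h2 := h.Φ_lip x y
    rw [← dist_eq_norm] at h2
    calc |X (Φ β x) j - X (Φ β y) j| = |(X (Φ β x) - X (Φ β y)) j| := by simp
      _ ≤ ‖X (Φ β x) - X (Φ β y)‖ := abs_apply_le _ _
      _ = dist (X (Φ β x)) (X (Φ β y)) := (dist_eq_norm _ _).symm
      _ ≤ A * dist (Φ β x) (Φ β y) := h1
      _ ≤ A * (n * dist x y) := by gcongr
      _ = A * n * dist x y := by ring
  have hc : T p (co p (3 / 2)) := co_T (by norm_num)
  have hG : ∀ j, T p (fun x => co p (3 / 2) x * X (Φ β x) j) := fun j => hc.mul (hXL j)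
  have hGd : ∀ j x, |co p (3 / 2) x * X (Φ β x) j| ≤ A * co p 3 x := by
    intro j x
    by_cases hx : dist p x ≤ 3
    · rw [co_eq_one hx, mul_one, abs_mul, abs_of_nonneg (co_nonneg (p := p) (3 / 2) x)]
      calc co p (3 / 2) x * |X (Φ β x) j| ≤ 1 * A := by
            have := co_le_one (p := p) (3 / 2) x
            gcongr
            exact (abs_apply_le _ _).trans (hXb _)
        _ = A := one_mul A
    · push Not at hx
      rw [co_eq_zero (a := 3 / 2) (by linarith)]
      have := co_nonneg (p := p) 3 x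
      simp only [zero_mul, abs_zero]; positivity
  have hIj : ∀ j : Fin n, |∫ x, S.cd.Γ (β (ee j)) (fun x => co p (3 / 2) x * X (Φ β x) j) x ∂ν|
      ≤ A * ((3 * κ + 548 * √ψ) * V ν p) := fun j =>
    h.intΓ_le hA (ee j) (norm_ee j) (hG j) (hGd j)
  -- measurability/boundedness of the pieces
  have hm : ∀ i j : Fin n, AEStronglyMeasurable
      (fun x => co p (3 / 2) x * (a i j x * S.cd.Γ (β (ee i)) (β (ee j)) x)) ν := by
    intro i j
    refine AEStronglyMeasurable.mul hc.1.continuous.aestronglyMeasurable ?_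
    exact (hac i j).aestronglyMeasurable.mul (S.meas _ _ (hLb i) (hLb j))
  have hb : ∀ i j : Fin n, ∀ᵐ x ∂ν,
      |co p (3 / 2) x * (a i j x * S.cd.Γ (β (ee i)) (β (ee j)) x)| ≤ A := by
    intro i j
    filter_upwards [S.rad _ (hLb i), S.rad _ (hLb j)] with x h1 h2
    have hg := S.cd.abs_Γ_le_lip h1 h2 (h.lip _ (norm_ee i)) (h.lip _ (norm_ee j))
    have h5 := co_nonneg (p := p) (3 / 2) x
    have h6 := co_le_one (p := p) (3 / 2) x
    rw [abs_mul, abs_mul, abs_of_nonneg h5]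
    calc co p (3 / 2) x * (|a i j x| * |S.cd.Γ (β (ee i)) (β (ee j)) x|)
        ≤ 1 * (A * ((1 : ℝ≥0) * (1 : ℝ≥0))) := by
          have := hab i j x
          gcongr
      _ = A := by norm_num
  have hz : ∀ i j : Fin n, ∀ᵐ x ∂ν, 5 ≤ dist p x →
      co p (3 / 2) x * (a i j x * S.cd.Γ (β (ee i)) (β (ee j)) x) = 0 := fun i j =>
    Eventually.of_forall fun x hx => by rw [hc.2 x (by linarith), zero_mul]
  have hi : ∀ i j : Fin n, Integrable
      (fun x => co p (3 / 2) x * (a i j x * S.cd.Γ (β (ee i)) (β (ee j)) x)) ν := fun i j =>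
    integrable_of_bdd (hm i j) (hb i j) (hz i j)
  -- the off-diagonal terms
  have hoff : ∀ i j : Fin n, i ≠ j →
      |∫ x, co p (3 / 2) x * (a i j x * S.cd.Γ (β (ee i)) (β (ee j)) x) ∂ν|
        ≤ A * (307 * √ψ * V ν p) := by
    intro i j hij
    have ho := h.orth (ee i) (ee j) (norm_ee i) (norm_ee j) (ee_orth hij) hsmall
    have hc2 : T p (co p 2) := co_T (by norm_num)
    have hm3 : AEStronglyMeasurable
        (fun x => (co p 2 x) ^ 2 * |S.cd.Γ (β (ee i)) (β (ee j)) x|) ν := by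
      refine AEStronglyMeasurable.mul ?_ (S.meas _ _ (hLb i) (hLb j)).norm
      have hcc := hc2.1.continuous
      exact (by fun_prop : Continuous fun x => (co p 2 x) ^ 2).aestronglyMeasurable
    have hb3 : ∀ᵐ x ∂ν, |(co p 2 x) ^ 2 * (|S.cd.Γ (β (ee i)) (β (ee j)) x|)| ≤ 1 := by
      filter_upwards [S.rad _ (hLb i), S.rad _ (hLb j)] with x h1 h2
      have hg := S.cd.abs_Γ_le_lip h1 h2 (h.lip _ (norm_ee i)) (h.lip _ (norm_ee j))
      have h5 := co_nonneg (p := p) 2 x
      have h6 := co_le_one (p := p) 2 x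
      rw [abs_of_nonneg (by positivity)]
      calc (co p 2 x) ^ 2 * |S.cd.Γ (β (ee i)) (β (ee j)) x|
          ≤ 1 ^ 2 * ((1 : ℝ≥0) * (1 : ℝ≥0)) := by gcongr
        _ = 1 := by norm_num
    have hz3 : ∀ᵐ x ∂ν, 5 ≤ dist p x →
        (co p 2 x) ^ 2 * |S.cd.Γ (β (ee i)) (β (ee j)) x| = 0 :=
      Eventually.of_forall fun x hx => by rw [hc2.2 x (by linarith)]; simp
    have hi3 := integrable_of_bdd hm3 hb3 hz3
    calc |∫ x, co p (3 / 2) x * (a i j x * S.cd.Γ (β (ee i)) (β (ee j)) x) ∂ν|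
        ≤ ∫ x, |co p (3 / 2) x * (a i j x * S.cd.Γ (β (ee i)) (β (ee j)) x)| ∂ν :=
          abs_integral_le_integral_abs
      _ ≤ ∫ x, A * ((co p 2 x) ^ 2 * |S.cd.Γ (β (ee i)) (β (ee j)) x|) ∂ν := by
          refine integral_mono (hi i j).abs (hi3.const_mul A) fun x => ?_
          show |co p (3 / 2) x * (a i j x * S.cd.Γ (β (ee i)) (β (ee j)) x)|
            ≤ A * ((co p 2 x) ^ 2 * |S.cd.Γ (β (ee i)) (β (ee j)) x|)
          rw [abs_mul, abs_mul, abs_of_nonneg (co_nonneg (3 / 2) x)]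
          have h0 := co_nonneg (p := p) (3 / 2) x
          have h1 := co_le_one (p := p) (3 / 2) x
          have h2 := hab i j x
          by_cases hx : dist p x ≤ 2
          · rw [co_eq_one hx, one_pow, one_mul]
            calc co p (3 / 2) x * (|a i j x| * |S.cd.Γ (β (ee i)) (β (ee j)) x|)
                ≤ 1 * (A * |S.cd.Γ (β (ee i)) (β (ee j)) x|) := by gcongr
              _ = A * |S.cd.Γ (β (ee i)) (β (ee j)) x| := one_mul _
          · push Not at hx
            rw [co_eq_zero (a := 3 / 2) (by linarith), zero_mul]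
            positivity
      _ = A * ∫ x, (co p 2 x) ^ 2 * |S.cd.Γ (β (ee i)) (β (ee j)) x| ∂ν := integral_const_mul _ _
      _ ≤ A * (307 * √ψ * V ν p) := by gcongr
  -- the expansion of Γ(b_j, G_j)
  have hexp : ∀ j : Fin n, ∀ᵐ x ∂ν,
      S.cd.Γ (β (ee j)) (fun x => co p (3 / 2) x * X (Φ β x) j) x
        = ∑ i, co p (3 / 2) x * (a i j x * S.cd.Γ (β (ee i)) (β (ee j)) x) := by
    intro j
    have hall : ∀ᵐ x ∂ν, ∀ i : Fin n, S.cd.D (β (ee i)) x := by
      rw [ae_all_iff]; exact fun i => S.rad _ (hLb i)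
    filter_upwards [hall, S.rad _ (lp_dist p)] with x hD hd
    have hcut := S.cd.chain₁ (cut (3 / 2)) _ hd (hasDerivAt_cut (3 / 2) (dist p x))
    have hXc := h.chain_X hXdiff j hD
    have e1 : S.cd.Γ (co p (3 / 2)) (β (ee j)) x
        = cut' (3 / 2) (dist p x) * S.cd.Γ (fun y => dist p y) (β (ee j)) x :=
      hcut.2 _ (hD j)
    have hDco : S.cd.D (co p (3 / 2)) x := hcut.1
    rw [S.cd.symm, S.cd.Γ_mul hDco hXc.1 (hD j), hXc.2 _ (hD j), e1]
    have hzero : X (Φ β x) j * (cut' (3 / 2) (dist p x) * S.cd.Γ (fun y => dist p y) (β (ee j)) x) = 0 := by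
      by_cases hx1 : dist p x ≤ 3 / 2
      · rw [cut'_eq_zero_of_le hx1]; ring
      · push Not at hx1
        by_cases hx2 : dist p x < 5
        · rw [hreg x hx1.le hx2]; simp
        · push Not at hx2
          rw [cut'_eq_zero_of_ge (by linarith)]; ring
    rw [hzero, zero_add, Finset.mul_sum]
  have hdiag : ∀ j : Fin n, ∫ x, co p (3 / 2) x * a j j x ∂ν ≤
      A * ((3 * κ + 548 * √ψ) * V ν p) + n * (A * (307 * √ψ * V ν p)) := by
    intro j
    have e1 : ∫ x, co p (3 / 2) x * a j j x ∂ν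
        = ∫ x, co p (3 / 2) x * (a j j x * S.cd.Γ (β (ee j)) (β (ee j)) x) ∂ν := by
      refine integral_congr_ae ?_
      filter_upwards [h.unit (ee j) (norm_ee j)] with x hx
      rw [hx, mul_one]
    have e2 : ∫ x, S.cd.Γ (β (ee j)) (fun x => co p (3 / 2) x * X (Φ β x) j) x ∂ν
        = ∑ i, ∫ x, co p (3 / 2) x * (a i j x * S.cd.Γ (β (ee i)) (β (ee j)) x) ∂ν := by
      rw [integral_congr_ae (hexp j), integral_finsetSum _ fun i _ => hi i j]
    rw [← Finset.add_sum_erase _ _ (Finset.mem_univ j)] at e2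
    rw [e1]
    have h1 := (abs_le.1 (hIj j)).2
    have h2 : -(∑ i ∈ Finset.univ.erase j,
        ∫ x, co p (3 / 2) x * (a i j x * S.cd.Γ (β (ee i)) (β (ee j)) x) ∂ν)
        ≤ n * (A * (307 * √ψ * V ν p)) := by
      rw [← Finset.sum_neg_distrib]
      calc ∑ i ∈ Finset.univ.erase j,
            -∫ x, co p (3 / 2) x * (a i j x * S.cd.Γ (β (ee i)) (β (ee j)) x) ∂ν
          ≤ ∑ i ∈ Finset.univ.erase j, A * (307 * √ψ * V ν p) := by
            refine Finset.sum_le_sum fun i hi' => ?_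
            have := (abs_le.1 (hoff i j (Finset.ne_of_mem_erase hi'))).1
            linarith
        _ ≤ ∑ i : Fin n, A * (307 * √ψ * V ν p) := by
            refine Finset.sum_le_sum_of_subset_of_nonneg (Finset.erase_subset _ _) ?_
            intros; positivity
        _ = n * (A * (307 * √ψ * V ν p)) := by simp
    linarith
  have hint : ∀ j : Fin n, Integrable (fun x => co p (3 / 2) x * a j j x) ν := by
    intro j
    have := hi j j
    refine this.congr ?_
    filter_upwards [h.unit (ee j) (norm_ee j)] with x hx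
    rw [hx, mul_one]
  calc ∫ x, co p (3 / 2) x * dv X (Φ β x) ∂ν
      = ∫ x, ∑ j, co p (3 / 2) x * a j j x ∂ν := by
        refine integral_congr_ae (Eventually.of_forall fun x => ?_)
        simp only [dv, ha, Finset.mul_sum]
    _ = ∑ j, ∫ x, co p (3 / 2) x * a j j x ∂ν := integral_finsetSum _ fun j _ => hint j
    _ ≤ ∑ _j : Fin n, (A * ((3 * κ + 548 * √ψ) * V ν p) + n * (A * (307 * √ψ * V ν p))) :=
        Finset.sum_le_sum fun j _ => hdiag j
    _ = n * (A * ((3 * κ + 548 * √ψ) * V ν p) + n * (A * (307 * √ψ * V ν p))) := by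
        simp only [Finset.sum_const, Finset.card_univ, Fintype.card_fin, nsmul_eq_mul]

end Dirs

end Crest.Agent.R247.VC402
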