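import Crest.Agent.R247.VC4_402

/-!
# R247, block (3), file 5: the explicit test field `X₀ z = -(9-|z|²)₊^{4n+1} z`
-/

set_option autoImplicit false
set_option linter.unusedSectionVars false
set_option linter.unusedVariables false

noncomputable section

open MeasureTheory Filter Topology Set
open scoped ENNReal NNReal RealInnerProductSpace

namespace Crest.Agent.R247.VC402

lemma contDiff_posPow (m : ℕ) (hm : 1 ≤ m) : ContDiff ℝ 1 (fun t : ℝ => (max 0 t) ^ (m + 1)) := by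
  rw [contDiff_one_iff_deriv]
  refine ⟨fun t => (hasDerivAt_posPow m hm t).differentiableAt, ?_⟩
  have : deriv (fun t : ℝ => (max 0 t) ^ (m + 1)) = fun t => ((m + 1 : ℕ) : ℝ) * (max 0 t) ^ m := by
    funext t; exact (hasDerivAt_posPow m hm t).deriv
  rw [this]
  fun_prop

variable {n : ℕ}

/-- profile -/
def gg (n : ℕ) (t : ℝ) : ℝ := (max 0 t) ^ (4 * n + 1)

/-- test field -/
def X₀ (z : E n) : E n := (-(gg n (9 - ‖z‖ ^ 2))) • z

lemma X₀_eq_zero {z : E n} (hz : 3 ≤ ‖z‖) : X₀ z = 0 := by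
  unfold X₀ gg
  rw [max_eq_left (by nlinarith)]
  simp

lemma contDiff_X₀ (hn : 1 ≤ n) : ContDiff ℝ 1 (X₀ : E n → E n) := by
  unfold X₀
  have h1 : ContDiff ℝ 1 (fun z : E n => gg n (9 - ‖z‖ ^ 2)) := by
    have h2 : ContDiff ℝ 1 (fun z : E n => 9 - ‖z‖ ^ 2) := by
      exact contDiff_const.sub (contDiff_norm_sq ℝ)
    exact (contDiff_posPow (4 * n) (by omega)).comp h2
  exact h1.neg.smul contDiff_id

lemma dv_X₀ (hn : 1 ≤ n) (z : E n) :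
    dv X₀ z = (max 0 (9 - ‖z‖ ^ 2)) ^ (4 * n) * ((9 * n + 2) * ‖z‖ ^ 2 - 9 * n) := by
  set g' : ℝ := ((4 * n + 1 : ℕ) : ℝ) * (max 0 (9 - ‖z‖ ^ 2)) ^ (4 * n) with hg'
  set ℓ : E n →L[ℝ] ℝ := innerSL ℝ z with hℓ
  have h1 : HasFDerivAt (fun z : E n => ‖z‖ ^ 2) (2 • ℓ) z := by
    exact (hasStrictFDerivAt_norm_sq z).hasFDerivAt
  have h2 : HasFDerivAt (fun z : E n => 9 - ‖z‖ ^ 2) (-(2 • ℓ)) z := h1.const_sub 9
  have h3 : HasFDerivAt (fun z : E n => gg n (9 - ‖z‖ ^ 2)) (g' • (-(2 • ℓ) : E n →L[ℝ] ℝ)) z :=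
    HasDerivAt.comp_hasFDerivAt (f := fun z : E n => 9 - ‖z‖ ^ 2) z
      (hasDerivAt_posPow (4 * n) (by omega) (9 - ‖z‖ ^ 2)) h2
  have h4 := h3.fun_neg.fun_smul (hasFDerivAt_id z)
  have h5 : fderiv ℝ (X₀ : E n → E n) z = _ := h4.fderiv
  unfold dv
  rw [h5]
  have e : ∀ j : Fin n, (((-gg n (9 - ‖z‖ ^ 2)) • ContinuousLinearMap.id ℝ (E n)
        + (-(g' • (-(2 • ℓ) : E n →L[ℝ] ℝ)) : E n →L[ℝ] ℝ).smulRight (id z)) (ee j)) j
      = -gg n (9 - ‖z‖ ^ 2) + 2 * g' * (z j) ^ 2 := by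
    intro j
    have hin : ℓ (ee j) = z j := by
      rw [hℓ, innerSL_apply_apply, inner_ee]
    simp only [ContinuousLinearMap.add_apply, ContinuousLinearMap.smul_apply,
      ContinuousLinearMap.id_apply, ContinuousLinearMap.smulRight_apply, id,
      ContinuousLinearMap.neg_apply, hin, PiLp.add_apply, PiLp.smul_apply, smul_eq_mul]
    simp [ee]
    ring
  simp only [e]
  rw [Finset.sum_add_distrib, ← Finset.mul_sum, Finset.sum_const, Finset.card_univ, Fintype.card_fin,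
    nsmul_eq_mul, ← EuclideanSpace.real_norm_sq_eq z]
  rw [hg']
  unfold gg
  rw [pow_succ]
  set w := max 0 (9 - ‖z‖ ^ 2) with hw
  by_cases h9 : ‖z‖ ^ 2 ≤ 9
  · have hw' : w = 9 - ‖z‖ ^ 2 := max_eq_right (by linarith)
    have : (n : ℝ) * -(w ^ (4 * n) * w) + 2 * (((4 * n + 1 : ℕ) : ℝ) * w ^ (4 * n)) * ‖z‖ ^ 2
        = w ^ (4 * n) * (2 * (4 * n + 1) * ‖z‖ ^ 2 - n * w) := by push_cast; ring
    rw [this, hw']
    ring
  · push Not at h9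
    have hw' : w = 0 := max_eq_left (by linarith)
    rw [hw', zero_pow (by omega)]
    ring

lemma dv_X₀_nonneg (hn : 1 ≤ n) {z : E n} (hz : 1 ≤ ‖z‖) : 0 ≤ dv X₀ z := by
  rw [dv_X₀ hn]
  have h1 : 1 ≤ ‖z‖ ^ 2 := by nlinarith
  have h2 : (0 : ℝ) ≤ n := Nat.cast_nonneg n
  have h3 : 0 ≤ (9 * (n : ℝ) + 2) * ‖z‖ ^ 2 - 9 * n := by nlinarith
  positivity

lemma one_le_dv_X₀ (hn : 1 ≤ n) {z : E n} (hz : 1 ≤ ‖z‖) (hz2 : ‖z‖ ≤ 2) : 1 ≤ dv X₀ z := by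
  rw [dv_X₀ hn]
  have h1 : 1 ≤ ‖z‖ ^ 2 := by nlinarith
  have h2 : (0 : ℝ) ≤ n := Nat.cast_nonneg n
  have h3 : 1 ≤ (9 * (n : ℝ) + 2) * ‖z‖ ^ 2 - 9 * n := by nlinarith
  have h4 : 1 ≤ max 0 (9 - ‖z‖ ^ 2) := by
    have : ‖z‖ ^ 2 ≤ 4 := by nlinarith
    exact le_max_of_le_right (by linarith)
  have h5 : 1 ≤ (max 0 (9 - ‖z‖ ^ 2)) ^ (4 * n) := one_le_pow₀ h4
  nlinarith

lemma fderiv_X₀_eq_zero {z : E n} (hz : 3 < ‖z‖) : fderiv ℝ (X₀ : E n → E n) z = 0 := by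
  have : (X₀ : E n → E n) =ᶠ[𝓝 z] fun _ => 0 := by
    have ho : IsOpen {w : E n | 3 < ‖w‖} := isOpen_lt continuous_const continuous_norm
    filter_upwards [ho.mem_nhds hz] with w hw
    exact X₀_eq_zero (le_of_lt hw)
  rw [this.fderiv_eq]
  simp

lemma exists_bound_X₀ (hn : 1 ≤ n) : ∃ A : ℝ, 0 ≤ A ∧ (∀ z : E n, ‖X₀ z‖ ≤ A) ∧
    ∀ z : E n, ‖fderiv ℝ (X₀ : E n → E n) z‖ ≤ A := by
  have hX := contDiff_X₀ hn
  have hc1 : HasCompactSupport (X₀ : E n → E n) :=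
    HasCompactSupport.intro (isCompact_closedBall (0 : E n) 3) fun z hz => by
      rw [Metric.mem_closedBall, dist_zero_right, not_le] at hz
      exact X₀_eq_zero hz.le
  have hc2 : HasCompactSupport (fderiv ℝ (X₀ : E n → E n)) := hc1.fderiv ℝ
  obtain ⟨A1, hA1⟩ := hX.continuous.bounded_above_of_compact_support hc1
  obtain ⟨A2, hA2⟩ := (hX.continuous_fderiv (by norm_num)).bounded_above_of_compact_support hc2
  refine ⟨max A1 A2, ?_, fun z => (hA1 z).trans (le_max_left _ _),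
    fun z => (hA2 z).trans (le_max_right _ _)⟩
  exact (norm_nonneg _).trans ((hA1 0).trans (le_max_left _ _))

/-- scaled and translated field -/
def XX (r : ℝ) (y z : E n) : E n := r • X₀ (r⁻¹ • (z - y))

lemma contDiff_XX (hn : 1 ≤ n) (r : ℝ) (y : E n) : ContDiff ℝ 1 (XX r y) := by
  unfold XX
  have h1 : ContDiff ℝ 1 (fun z : E n => r⁻¹ • (z - y)) := by fun_prop
  exact ((contDiff_X₀ hn).comp h1).const_smul r

lemma fderiv_XX (hn : 1 ≤ n) {r : ℝ} (hr : 0 < r) (y z : E n) :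
    fderiv ℝ (XX r y) z = fderiv ℝ (X₀ : E n → E n) (r⁻¹ • (z - y)) := by
  have h1 : HasFDerivAt (fun z : E n => r⁻¹ • (z - y)) (r⁻¹ • ContinuousLinearMap.id ℝ (E n)) z :=
    ((hasFDerivAt_id z).sub_const y).const_smul r⁻¹
  have h2 : HasFDerivAt (X₀ : E n → E n) (fderiv ℝ (X₀ : E n → E n) (r⁻¹ • (z - y))) (r⁻¹ • (z - y)) :=
    ((contDiff_X₀ hn).differentiable (by norm_num) _).hasFDerivAt
  have h3 := (h2.comp z h1).const_smul r
  have h4 : fderiv ℝ (XX r y) z = _ := h3.fderiv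
  rw [h4]
  ext v
  simp [smul_smul, hr.ne']

lemma dv_XX (hn : 1 ≤ n) {r : ℝ} (hr : 0 < r) (y z : E n) :
    dv (XX r y) z = dv X₀ (r⁻¹ • (z - y)) := by
  unfold dv; rw [fderiv_XX hn hr]

lemma norm_arg {r : ℝ} (hr : 0 < r) (y z : E n) : ‖r⁻¹ • (z - y)‖ = ‖z - y‖ / r := by
  rw [norm_smul, norm_inv, Real.norm_of_nonneg hr.le]; ring

lemma XX_eq_zero {r : ℝ} (hr : 0 < r) {y z : E n} (h : 3 * r ≤ ‖z - y‖) : XX r y z = 0 := by
  unfold XX
  rw [X₀_eq_zero, smul_zero]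
  rw [norm_arg hr, le_div_iff₀ hr]; exact h

lemma fderiv_XX_eq_zero (hn : 1 ≤ n) {r : ℝ} (hr : 0 < r) {y z : E n} (h : 3 * r < ‖z - y‖) :
    fderiv ℝ (XX r y) z = 0 := by
  rw [fderiv_XX hn hr, fderiv_X₀_eq_zero]
  rw [norm_arg hr, lt_div_iff₀ hr]; exact h

/-- finite sum of fields -/
def XS (F : Finset (E n)) (r : E n → ℝ) (z : E n) : E n := ∑ y ∈ F, XX (r y) y z

lemma contDiff_XS (hn : 1 ≤ n) (F : Finset (E n)) (r : E n → ℝ) : ContDiff ℝ 1 (XS F r) := by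
  unfold XS
  exact ContDiff.sum fun y _ => contDiff_XX hn (r y) y

lemma fderiv_XS (hn : 1 ≤ n) (F : Finset (E n)) (r : E n → ℝ) (z : E n) :
    fderiv ℝ (XS F r) z = ∑ y ∈ F, fderiv ℝ (XX (r y) y) z := by
  unfold XS
  rw [fderiv_fun_sum fun y _ => (contDiff_XX hn (r y) y).differentiable (by norm_num) z]

lemma dv_XS (hn : 1 ≤ n) (F : Finset (E n)) (r : E n → ℝ) (z : E n) :
    dv (XS F r) z = ∑ y ∈ F, dv (XX (r y) y) z := by
  unfold dv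
  rw [fderiv_XS hn, Finset.sum_comm]
  refine Finset.sum_congr rfl fun j _ => ?_
  simp [Finset.sum_apply]

lemma bound_XS (hn : 1 ≤ n) {A : ℝ} (hA : 0 ≤ A) (hA1 : ∀ z : E n, ‖X₀ z‖ ≤ A)
    (hA2 : ∀ z : E n, ‖fderiv ℝ (X₀ : E n → E n) z‖ ≤ A) (F : Finset (E n)) (r : E n → ℝ)
    (hr : ∀ y ∈ F, 0 < r y ∧ r y ≤ 1)
    (hdisj : (F : Set (E n)).PairwiseDisjoint fun y => Metric.closedBall y (3 * r y)) (z : E n) :
    ‖XS F r z‖ ≤ A ∧ ‖fderiv ℝ (XS F r) z‖ ≤ A := by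
  rw [fderiv_XS hn]
  unfold XS
  by_cases h : ∃ y ∈ F, z ∈ Metric.closedBall y (3 * r y)
  · obtain ⟨y, hy, hz⟩ := h
    have hoth : ∀ y' ∈ F, y' ≠ y → 3 * r y' < ‖z - y'‖ := by
      intro y' hy' hne
      have hd := hdisj hy' hy hne
      have : z ∉ Metric.closedBall y' (3 * r y') := fun hz' =>
        (Set.disjoint_left.1 hd hz') hz
      rwa [Metric.mem_closedBall, not_le, dist_eq_norm] at this
    rw [Finset.sum_eq_single_of_mem y hy fun y' hy' hne => XX_eq_zero (hr y' hy').1 (hoth y' hy' hne).le,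
      Finset.sum_eq_single_of_mem y hy fun y' hy' hne => fderiv_XX_eq_zero hn (hr y' hy').1 (hoth y' hy' hne)]
    constructor
    · unfold XX
      rw [norm_smul, Real.norm_of_nonneg (hr y hy).1.le]
      calc r y * ‖X₀ ((r y)⁻¹ • (z - y))‖ ≤ 1 * A :=
            mul_le_mul (hr y hy).2 (hA1 _) (norm_nonneg _) zero_le_one
        _ = A := one_mul A
    · rw [fderiv_XX hn (hr y hy).1]; exact hA2 _
  · push Not at h
    have h' : ∀ y ∈ F, 3 * r y < ‖z - y‖ := by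
      intro y hy
      have := h y hy
      rwa [Metric.mem_closedBall, not_le, dist_eq_norm] at this
    rw [Finset.sum_eq_zero fun y hy => XX_eq_zero (hr y hy).1 (h' y hy).le,
      Finset.sum_eq_zero fun y hy => fderiv_XX_eq_zero hn (hr y hy).1 (h' y hy)]
    simpa using hA

end Crest.Agent.R247.VC402
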