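import Crest.Agent.R247.VC5_402

/-!
# R247, block (3), file 6: maximal empty balls, Vitali covering, the image is almost full
-/

set_option autoImplicit false
set_option linter.unusedSectionVars false
set_option linter.unusedVariables false

noncomputable section

open MeasureTheory Filter Topology Set
open scoped ENNReal NNReal RealInnerProductSpace

namespace Crest.Agent.R247.VC402

namespace Dirs

variable {n : ℕ} {M : Type*} [MetricSpace M] [ProperSpace M] [MeasurableSpace M] [BorelSpace M]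
  {ν : Measure M} [IsFiniteMeasureOnCompacts ν] {S : Setup n M ν} {p : M} {φ : M → E n} {ψ κ : ℝ}
  {β : E n → M → ℝ} (h : Dirs S p φ ψ κ β)

include h

/-- norm estimate for `Φ` from the approximation property -/
lemma norm_Φ {ε : ℝ} (hp : φ p = 0)
    (hφ : ∀ x, dist p x < 5 → |‖φ x‖ - dist p x| ≤ ε) {x : M} (hx : dist p x < 5) :
    |‖Φ β x‖ - dist p x| ≤ ε + n * ψ := by
  have h1 := abs_le.1 (hφ x hx)
  have h2 := h.Φ_close hx
  have h3 : |‖Φ β x‖ - ‖φ x‖| ≤ ‖Φ β x - φ x‖ := abs_norm_sub_norm_le _ _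
  have h4 := abs_le.1 (h3.trans h2)
  rw [abs_le]; constructor <;> linarith

/-- finite families of empty balls -/
lemma finite_sum_le (hn : 1 ≤ n) (hsmall : 3 * κ + 548 * √ψ ≤ 1) {ε c A : ℝ}
    (hp : φ p = 0) (hφ : ∀ x, dist p x < 5 → |‖φ x‖ - dist p x| ≤ ε)
    (hθ : ε + n * ψ ≤ 1 / 40) (hc : 0 ≤ c)
    (hvol : ∀ x, dist p x ≤ 2 → ∀ r, 0 < r → r ≤ 1 → c * r ^ n ≤ ν.real (Metric.ball x r))
    (hA : 0 ≤ A) (hA1 : ∀ z : E n, ‖X₀ z‖ ≤ A)
    (hA2 : ∀ z : E n, ‖fderiv ℝ (X₀ : E n → E n) z‖ ≤ A)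
    (F : Finset (E n)) (r : E n → ℝ) (hr : ∀ y ∈ F, 0 < r y ∧ r y ≤ 1 / 40)
    (hF : ∀ y ∈ F, ‖y‖ < 1)
    (hempty : ∀ y ∈ F, ∀ x, dist p x ≤ 2 → r y ≤ ‖Φ β x - y‖)
    (hatt : ∀ y ∈ F, ∃ x, dist p x ≤ 2 ∧ ‖Φ β x - y‖ = r y)
    (hdisj : (F : Set (E n)).PairwiseDisjoint fun y => Metric.closedBall y (3 * r y)) :
    ∑ y ∈ F, c * (r y / n) ^ n ≤
      n * (A * ((3 * κ + 548 * √ψ) * V ν p) + n * (A * (307 * √ψ * V ν p))) := by
  classical
  have hn0 : (0 : ℝ) < n := by exact_mod_cast hn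
  have hn1 : (1 : ℝ) ≤ n := by exact_mod_cast hn
  -- centres on M
  have : Nonempty M := ⟨p⟩
  choose! x' hx'1 hx'2 using hatt
  have hx'3 : ∀ y ∈ F, dist p (x' y) ≤ 11 / 10 := by
    intro y hy
    have h1 := abs_le.1 (h.norm_Φ hp hφ (x := x' y) (by linarith [hx'1 y hy]))
    have h2 : ‖Φ β (x' y)‖ ≤ ‖y‖ + r y := by
      have := norm_add_le y (Φ β (x' y) - y)
      rw [add_sub_cancel, hx'2 y hy] at this
      exact this
    have h3 := hF y hy
    have h4 := (hr y hy).2
    linarith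
  have hbd := bound_XS hn hA hA1 hA2 F r (fun y hy => ⟨(hr y hy).1, by linarith [(hr y hy).2]⟩) hdisj
  have hXS := contDiff_XS hn F r
  have hfar : ∀ x, 3 / 2 ≤ dist p x → dist p x < 5 → ∀ y ∈ F, 3 * r y < ‖Φ β x - y‖ := by
    intro x hx1 hx2 y hy
    have h1 := abs_le.1 (h.norm_Φ hp hφ hx2)
    have h2 : ‖Φ β x‖ ≤ ‖y‖ + ‖Φ β x - y‖ := by
      have := norm_add_le y (Φ β x - y)
      rwa [add_sub_cancel] at this
    have h3 := hF y hy
    have h4 := (hr y hy).2
    linarith
  have hreg : ∀ x, 3 / 2 ≤ dist p x → dist p x < 5 → XS F r (Φ β x) = 0 := by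
    intro x hx1 hx2
    unfold XS
    exact Finset.sum_eq_zero fun y hy => XX_eq_zero (hr y hy).1 (hfar x hx1 hx2 y hy).le
  have hdiv := h.div_ineq hsmall hA hXS (fun z => (hbd z).1) (fun z => (hbd z).2) hreg
  refine le_trans ?_ hdiv
  -- lower bound of the integrand by the indicator functions
  have hlow : ∀ x, ∑ y ∈ F, (Metric.ball (x' y) (r y / n)).indicator (fun _ => (1 : ℝ)) x
      ≤ co p (3 / 2) x * dv (XS F r) (Φ β x) := by
    intro x
    have hind : ∀ y ∈ F, 3 / 2 ≤ dist p x →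
        (Metric.ball (x' y) (r y / n)).indicator (fun _ => (1 : ℝ)) x = 0 := by
      intro y hy hx
      apply indicator_of_notMem
      intro hmem
      rw [Metric.mem_ball, dist_comm] at hmem
      have h1 := dist_triangle p (x' y) x
      have h2 := hx'3 y hy
      have h3 : r y / n ≤ r y := div_le_self (hr y hy).1.le hn1
      have h4 := (hr y hy).2
      linarith
    by_cases hx : dist p x < 3 / 2
    · rw [co_eq_one hx.le, one_mul, dv_XS hn]
      refine Finset.sum_le_sum fun y hy => ?_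
      rw [dv_XX hn (hr y hy).1]
      have hr0 := (hr y hy).1
      have h1 : 1 ≤ ‖(r y)⁻¹ • (Φ β x - y)‖ := by
        rw [norm_arg hr0, le_div_iff₀ hr0, one_mul]
        exact hempty y hy x (by linarith)
      by_cases hb : x ∈ Metric.ball (x' y) (r y / n)
      · rw [indicator_of_mem hb]
        refine one_le_dv_X₀ hn h1 ?_
        rw [norm_arg hr0, div_le_iff₀ hr0]
        rw [Metric.mem_ball] at hb
        have h2 := h.Φ_lip x (x' y)
        have h3 : (n : ℝ) * dist x (x' y) ≤ r y := by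
          calc (n : ℝ) * dist x (x' y) ≤ n * (r y / n) := by gcongr
            _ = r y := by field_simp
        have h4 : ‖Φ β x - y‖ ≤ ‖Φ β x - Φ β (x' y)‖ + ‖Φ β (x' y) - y‖ := by
          have := norm_add_le (Φ β x - Φ β (x' y)) (Φ β (x' y) - y)
          rwa [sub_add_sub_cancel] at this
        rw [hx'2 y hy] at h4
        linarith
      · rw [indicator_of_notMem hb]
        exact dv_X₀_nonneg hn h1
    · push Not at hx
      rw [Finset.sum_eq_zero fun y hy => hind y hy hx]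
      by_cases hx2 : dist p x < 5
      · have : dv (XS F r) (Φ β x) = 0 := by
          unfold dv
          have h0 : fderiv ℝ (XS F r) (Φ β x) = 0 := by
            rw [fderiv_XS hn]
            exact Finset.sum_eq_zero fun y hy => fderiv_XX_eq_zero hn (hr y hy).1 (hfar x hx hx2 y hy)
          rw [h0]; simp
        rw [this, mul_zero]
      · push Not at hx2
        rw [co_eq_zero (a := 3 / 2) (by linarith), zero_mul]
  -- integrate
  have hballfin : ∀ y, ν (Metric.ball (x' y) (r y / n)) ≠ ⊤ := fun y =>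
    (lt_of_le_of_lt (measure_mono Metric.ball_subset_closedBall)
      ((isCompact_closedBall _ _).measure_lt_top (μ := ν))).ne
  have hint1 : ∀ y ∈ F, Integrable ((Metric.ball (x' y) (r y / n)).indicator (fun _ => (1 : ℝ))) ν := by
    intro y hy
    rw [integrable_indicator_iff Metric.isOpen_ball.measurableSet]
    exact integrableOn_const (hballfin y)
  have hint2 : Integrable (fun x => co p (3 / 2) x * dv (XS F r) (Φ β x)) ν := by
    have hcont : Continuous fun x => co p (3 / 2) x * dv (XS F r) (Φ β x) := by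
      have h1 : Continuous (fderiv ℝ (XS F r)) := hXS.continuous_fderiv (by norm_num)
      have h2 : Continuous (co p (3 / 2)) := (co_lip p (3 / 2)).continuous
      refine h2.mul ?_
      unfold dv
      refine continuous_finsetSum _ fun j _ => ?_
      exact (EuclideanSpace.proj j : E n →L[ℝ] ℝ).continuous.comp
        ((h1.comp h.Φ_cont).clm_apply continuous_const)
    refine hcont.integrable_of_hasCompactSupport ?_
    refine HasCompactSupport.intro (isCompact_closedBall p 2) fun x hx => ?_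
    rw [Metric.mem_closedBall, not_le, dist_comm] at hx
    rw [co_eq_zero (a := 3 / 2) (by linarith), zero_mul]
  calc ∑ y ∈ F, c * (r y / n) ^ n ≤ ∑ y ∈ F, ν.real (Metric.ball (x' y) (r y / n)) := by
        refine Finset.sum_le_sum fun y hy => ?_
        refine hvol (x' y) (hx'1 y hy) (r y / n) (div_pos (hr y hy).1 hn0) ?_
        have h3 : r y / n ≤ r y := div_le_self (hr y hy).1.le hn1
        linarith [(hr y hy).2]
    _ = ∑ y ∈ F, ∫ x, (Metric.ball (x' y) (r y / n)).indicator (fun _ => (1 : ℝ)) x ∂ν := by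
        refine Finset.sum_congr rfl fun y hy => ?_
        rw [integral_indicator Metric.isOpen_ball.measurableSet, setIntegral_const, smul_eq_mul, mul_one]
    _ = ∫ x, ∑ y ∈ F, (Metric.ball (x' y) (r y / n)).indicator (fun _ => (1 : ℝ)) x ∂ν :=
        (integral_finsetSum _ hint1).symm
    _ ≤ ∫ x, co p (3 / 2) x * dv (XS F r) (Φ β x) ∂ν :=
        integral_mono (integrable_finsetSum _ hint1) hint2 hlow

/-- almost full image -/
lemma image_almost_full (hn : 1 ≤ n) (hsmall : 3 * κ + 548 * √ψ ≤ 1) {ε c A : ℝ}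
    (hp : φ p = 0) (hφ : ∀ x, dist p x < 5 → |‖φ x‖ - dist p x| ≤ ε)
    (hcov : ∀ y : E n, ‖y‖ < 1 → ∃ x, dist p x < 5 ∧ ‖φ x - y‖ ≤ ε)
    (hε : 0 ≤ ε) (hθ : ε + n * ψ ≤ 1 / 40) (hc : 0 < c)
    (hvol : ∀ x, dist p x ≤ 2 → ∀ r, 0 < r → r ≤ 1 → c * r ^ n ≤ ν.real (Metric.ball x r))
    (hA : 0 ≤ A) (hA1 : ∀ z : E n, ‖X₀ z‖ ≤ A)
    (hA2 : ∀ z : E n, ‖fderiv ℝ (X₀ : E n → E n) z‖ ≤ A) :
    volume (Metric.ball (0 : E n) 1 \ (Φ β '' Metric.closedBall p 2)) ≤
      ENNReal.ofReal ((5 * 3) ^ n * (n ^ n / c *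
        (n * (A * ((3 * κ + 548 * √ψ) * V ν p) + n * (A * (307 * √ψ * V ν p))))))
        * volume (Metric.ball (0 : E n) 1) := by
  classical
  set Q := n * (A * ((3 * κ + 548 * √ψ) * V ν p) + n * (A * (307 * √ψ * V ν p))) with hQ
  have hψ0 := h.ψ0
  have hn0 : (0 : ℝ) < n := by exact_mod_cast hn
  set K : Set (E n) := Φ β '' Metric.closedBall p 2 with hK
  have hKc : IsCompact K := (isCompact_closedBall p 2).image h.Φ_cont
  have hKn : K.Nonempty := ⟨Φ β p, p, by simp, rfl⟩
  set t := Metric.ball (0 : E n) 1 \ K with ht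
  set r : E n → ℝ := fun y => Metric.infDist y K with hr
  have hrpos : ∀ y ∈ t, 0 < r y := fun y hy => (hKc.isClosed.notMem_iff_infDist_pos hKn).1 hy.2
  have htn : ∀ y ∈ t, ‖y‖ < 1 := fun y hy => by simpa using hy.1
  have hrle : ∀ y ∈ t, r y ≤ 1 / 40 := by
    intro y hy
    obtain ⟨x, hx, hxy⟩ := hcov y (htn y hy)
    have h1 := abs_le.1 (hφ x hx)
    have h2 : ‖φ x‖ ≤ ‖y‖ + ε := by
      have := norm_add_le y (φ x - y)
      rw [add_sub_cancel] at this
      linarith
    have h3 := htn y hy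
    have hnψ : 0 ≤ n * ψ := by positivity
    have hx2 : dist p x ≤ 2 := by linarith
    have hmem : Φ β x ∈ K := ⟨x, by rw [Metric.mem_closedBall, dist_comm]; exact hx2, rfl⟩
    calc r y ≤ dist y (Φ β x) := Metric.infDist_le_dist_of_mem hmem
      _ = ‖Φ β x - y‖ := by rw [dist_comm, dist_eq_norm]
      _ ≤ ‖Φ β x - φ x‖ + ‖φ x - y‖ := by
          have := norm_add_le (Φ β x - φ x) (φ x - y)
          rwa [sub_add_sub_cancel] at this
      _ ≤ n * ψ + ε := add_le_add (h.Φ_close hx) hxy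
      _ ≤ 1 / 40 := by linarith
  have hempty : ∀ y, ∀ x, dist p x ≤ 2 → r y ≤ ‖Φ β x - y‖ := by
    intro y x hx
    have hmem : Φ β x ∈ K := ⟨x, by rw [Metric.mem_closedBall, dist_comm]; exact hx, rfl⟩
    have := Metric.infDist_le_dist_of_mem (x := y) hmem
    rwa [dist_comm, dist_eq_norm] at this
  have hatt : ∀ y, ∃ x, dist p x ≤ 2 ∧ ‖Φ β x - y‖ = r y := by
    intro y
    obtain ⟨z, ⟨x, hx, rfl⟩, hz⟩ := hKc.exists_infDist_eq_dist hKn y
    refine ⟨x, by rw [Metric.mem_closedBall, dist_comm] at hx; exact hx, ?_⟩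
    rw [hr]; simp only
    rw [hz, dist_comm, dist_eq_norm]
  obtain ⟨u, hut, hud, huc⟩ := Vitali.exists_disjoint_subfamily_covering_enlargement_closedBall
    t id (fun y => 3 * r y) (3 / 40) (fun y hy => by have := hrle y hy; linarith) 5 (by norm_num)
  have hucount : u.Countable := by
    refine hud.countable_of_nonempty_interior fun y hy => ?_
    refine ⟨y, ?_⟩
    rw [mem_interior_iff_mem_nhds]
    exact Metric.closedBall_mem_nhds y (by have := hrpos y (hut hy); positivity)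
  have hcover : t ⊆ ⋃ y ∈ u, Metric.closedBall y (5 * (3 * r y)) := by
    intro y hy
    obtain ⟨b, hb, hsub⟩ := huc y hy
    rw [mem_iUnion₂]
    exact ⟨b, hb, hsub (Metric.mem_closedBall_self (by have := hrpos y hy; positivity))⟩
  have hQ0 : 0 ≤ Q := by
    have hV : 0 ≤ V ν p := V_nonneg
    have := h.κ0
    have := Real.sqrt_nonneg ψ
    positivity
  have hfin : ∀ F : Finset (E n), (F : Set (E n)) ⊆ u → ∑ y ∈ F, r y ^ n ≤ n ^ n / c * Q := by
    intro F hF
    have h1 := h.finite_sum_le hn hsmall hp hφ hθ hc.le hvol hA hA1 hA2 F r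
      (fun y hy => ⟨hrpos y (hut (hF hy)), hrle y (hut (hF hy))⟩)
      (fun y hy => htn y (hut (hF hy))) (fun y _ => hempty y) (fun y _ => hatt y)
      (hud.subset hF)
    have h2 : ∑ y ∈ F, c * (r y / n) ^ n = (c / n ^ n) * ∑ y ∈ F, r y ^ n := by
      rw [Finset.mul_sum]
      refine Finset.sum_congr rfl fun y _ => ?_
      rw [div_pow]; ring
    rw [h2] at h1
    have hnn : (0 : ℝ) < (n : ℝ) ^ n := by positivity
    rw [div_mul_eq_mul_div, div_le_iff₀ hnn] at h1
    rw [div_mul_eq_mul_div, le_div_iff₀ hc]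
    calc (∑ y ∈ F, r y ^ n) * c = c * ∑ y ∈ F, r y ^ n := by ring
      _ ≤ Q * n ^ n := h1
      _ = n ^ n * Q := by ring
  calc volume t ≤ volume (⋃ y ∈ u, Metric.closedBall y (5 * (3 * r y))) := measure_mono hcover
    _ ≤ ∑' y : u, volume (Metric.closedBall (y : E n) (5 * (3 * r y))) :=
        measure_biUnion_le _ hucount _
    _ = ∑' y : u, ENNReal.ofReal ((5 * (3 * r y)) ^ n) * volume (Metric.ball (0 : E n) 1) := by
        refine tsum_congr fun y => ?_
        have := hrpos y (hut y.2)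
        rw [Measure.addHaar_closedBall _ _ (by positivity)]
        simp
    _ ≤ ENNReal.ofReal ((5 * 3) ^ n * (n ^ n / c * Q)) * volume (Metric.ball (0 : E n) 1) := by
        rw [ENNReal.tsum_mul_right]
        refine mul_le_mul_left ?_ _
        rw [ENNReal.tsum_eq_iSup_sum]
        refine iSup_le fun s => ?_
        have hpos : ∀ y ∈ s, 0 ≤ (5 * (3 * r (y : E n))) ^ n := fun y _ => by
          have := hrpos y (hut y.2); positivity
        rw [← ENNReal.ofReal_sum_of_nonneg hpos]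
        apply ENNReal.ofReal_le_ofReal
        have h1 := hfin (s.map (Function.Embedding.subtype _)) (by
          intro y hy
          simp only [Finset.coe_map, Function.Embedding.coe_subtype, mem_image, Finset.mem_coe] at hy
          obtain ⟨z, _, rfl⟩ := hy
          exact z.2)
        rw [Finset.sum_map] at h1
        simp only [Function.Embedding.coe_subtype] at h1
        calc ∑ y ∈ s, (5 * (3 * r (y : E n))) ^ n = (5 * 3) ^ n * ∑ y ∈ s, r (y : E n) ^ n := by
              rw [Finset.mul_sum]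
              refine Finset.sum_congr rfl fun y _ => ?_
              rw [← mul_pow]; ring
          _ ≤ (5 * 3) ^ n * (n ^ n / c * Q) := by gcongr

/-- main inequality -/
theorem volume_le (hn : 1 ≤ n) (hsmall : 3 * κ + 548 * √ψ ≤ 1) {ε c A : ℝ}
    (hp : φ p = 0) (hφ : ∀ x, dist p x < 5 → |‖φ x‖ - dist p x| ≤ ε)
    (hcov : ∀ y : E n, ‖y‖ < 1 → ∃ x, dist p x < 5 ∧ ‖φ x - y‖ ≤ ε)
    (hε : 0 ≤ ε) (hθ : ε + n * ψ ≤ 1 / 40) (hc : 0 < c)
    (hvol : ∀ x, dist p x ≤ 2 → ∀ r, 0 < r → r ≤ 1 → c * r ^ n ≤ ν.real (Metric.ball x r))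
    (hA : 0 ≤ A) (hA1 : ∀ z : E n, ‖X₀ z‖ ≤ A)
    (hA2 : ∀ z : E n, ‖fderiv ℝ (X₀ : E n → E n) z‖ ≤ A) :
    ENNReal.ofReal ((1 - (ε + n * ψ)) ^ n) * volume (Metric.ball (0 : E n) 1) ≤
      ν (Metric.ball p 1) +
      ENNReal.ofReal ((5 * 3) ^ n * (n ^ n / c *
        (n * (A * ((3 * κ + 548 * √ψ) * V ν p) + n * (A * (307 * √ψ * V ν p))))))
        * volume (Metric.ball (0 : E n) 1) := by
  have hψ0 := h.ψ0
  have hnψ : 0 ≤ n * ψ := by positivity
  have h0 : (0 : ℝ) < 1 - (ε + n * ψ) := by linarith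
  have e1 : ENNReal.ofReal ((1 - (ε + n * ψ)) ^ n) * volume (Metric.ball (0 : E n) 1)
      = volume (Metric.ball (0 : E n) (1 - (ε + n * ψ))) := by
    rw [Measure.addHaar_ball_of_pos _ _ h0]; simp
  rw [e1]
  have hsub : Metric.ball (0 : E n) (1 - (ε + n * ψ)) ⊆
      (Φ β '' Metric.ball p 1) ∪ (Metric.ball (0 : E n) 1 \ (Φ β '' Metric.closedBall p 2)) := by
    intro y hy
    rw [Metric.mem_ball, dist_zero_right] at hy
    by_cases hyK : y ∈ Φ β '' Metric.closedBall p 2
    · left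
      obtain ⟨x, hx, rfl⟩ := hyK
      rw [Metric.mem_closedBall, dist_comm] at hx
      refine ⟨x, ?_, rfl⟩
      have := abs_le.1 (h.norm_Φ hp hφ (x := x) (by linarith))
      rw [Metric.mem_ball, dist_comm]
      linarith [this.1]
    · right
      refine ⟨?_, hyK⟩
      rw [Metric.mem_ball, dist_zero_right]
      linarith
  have hΦ : volume (Φ β '' Metric.ball p 1) ≤ ν (Metric.ball p 1) := by
    refine S.area (fun i => β (ee i)) ?_ _ Metric.isOpen_ball.measurableSet
    intro i x y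
    have := (h.lip (ee i) (norm_ee i)).dist_le_mul x y
    rwa [Real.dist_eq, NNReal.coe_one, one_mul] at this
  calc volume (Metric.ball (0 : E n) (1 - (ε + n * ψ)))
      ≤ volume ((Φ β '' Metric.ball p 1) ∪ (Metric.ball (0 : E n) 1 \ (Φ β '' Metric.closedBall p 2))) :=
        measure_mono hsub
    _ ≤ volume (Φ β '' Metric.ball p 1) + volume (Metric.ball (0 : E n) 1 \ (Φ β '' Metric.closedBall p 2)) :=
        measure_union_le _ _
    _ ≤ _ := add_le_add hΦ (h.image_almost_full hn hsmall hp hφ hcov hε hθ hc hvol hA hA1 hA2)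

end Dirs

end Crest.Agent.R247.VC402
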