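import Crest.Agent.R247.VC7_402

/-!
# R247, block (3), file 8: volume convergence, abstract form relative to the volume of the ball
-/

set_option autoImplicit false
set_option linter.unusedSectionVars false
set_option linter.unusedVariables false

noncomputable section

open MeasureTheory Filter Topology Set
open scoped ENNReal NNReal RealInnerProductSpace
open Crest.GeometryTopology.PointedLimit

namespace Crest.Agent.R247.VC402

set_option maxHeartbeats 2000000 in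
/-- **Volume convergence, abstract form, relative to the volume of the 5-ball** (scale invariant
in the measure: neither a lower nor an upper bound of the volume is needed). -/
theorem vol_conv_rel (n : ℕ) (hn : 1 ≤ n) {c δ : ℝ} (hc : 0 < c) (hδ : 0 < δ) :
    ∃ κ₀ : ℝ, 0 < κ₀ ∧ κ₀ ≤ 1 ∧ ∀ L : ℝ, ∃ ε₀ : ℝ, 0 < ε₀ ∧ ∀ ε : ℝ, 0 < ε → ε ≤ ε₀ →
      ∀ (M : Type*) [MetricSpace M] [ProperSpace M] [MeasurableSpace M] [BorelSpace M]
        (ν : Measure M) [IsFiniteMeasureOnCompacts ν] (S : Setup n M ν) (p : M),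
        (∀ q, L ≤ dist p q → dist p q < ε⁻¹ → S.Pos (fun y => dist q y) κ₀ p) →
        IsScaledApprox 1 p (0 : EuclideanSpace ℝ (Fin n)) ε⁻¹ ε →
        0 < V ν p →
        (∀ x, dist p x ≤ 2 → ∀ r, 0 < r → r ≤ 1 → c * V ν p * r ^ n ≤ ν.real (Metric.ball x r)) →
        ENNReal.ofReal (1 - δ) * volume (Metric.ball (0 : EuclideanSpace ℝ (Fin n)) 1) ≤
          ν (Metric.ball p 1) := by
  obtain ⟨A, hA, hA1, hA2⟩ := exists_bound_X₀ hn
  have hn0 : (0 : ℝ) < n := by exact_mod_cast hn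
  have hn1 : (1 : ℝ) ≤ n := by exact_mod_cast hn
  -- the big constant
  obtain ⟨K, hK⟩ : ∃ K : ℝ, K = (5 * 3) ^ n * (n ^ n / c * (n * A * (551 + 307 * n))) + 1 :=
    ⟨_, rfl⟩
  have hK1 : 1 ≤ K := by
    have : 0 ≤ (5 * 3 : ℝ) ^ n * (n ^ n / c * (n * A * (551 + 307 * n))) := by positivity
    linarith
  have hK0 : 0 < K := by linarith
  obtain ⟨κ₀, hκ₀pos, hκ₀6, hκ₀δ⟩ : ∃ κ₀ : ℝ, 0 < κ₀ ∧ κ₀ ≤ 1 / 6 ∧ κ₀ ≤ δ / (4 * K) :=
    ⟨min (1 / 6) (δ / (4 * K)), by positivity, min_le_left _ _, min_le_right _ _⟩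
  refine ⟨κ₀, hκ₀pos, by linarith, fun L => ?_⟩
  -- τ bounds √ψ
  obtain ⟨τ, hτpos, hτ1, hτδ⟩ : ∃ τ : ℝ, 0 < τ ∧ τ ≤ 1 / 1200 ∧ τ ≤ δ / (4 * K) :=
    ⟨min (1 / 1200) (δ / (4 * K)), by positivity, min_le_left _ _, min_le_right _ _⟩
  have hL20 : 0 < |L| + 20 := by positivity
  obtain ⟨ε₀, hε₀, c1, c2, c3, c4⟩ : ∃ ε₀ : ℝ, 0 < ε₀ ∧ ε₀ ≤ 1 / (2 * (|L| + 20)) ∧
      ε₀ ≤ τ ^ 2 / 74 ∧ ε₀ ≤ 1 / (40 * (75 * n)) ∧ ε₀ ≤ δ / (2 * (75 * n ^ 2)) :=
    ⟨min (min (1 / (2 * (|L| + 20))) (τ ^ 2 / 74))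
      (min (1 / (40 * (75 * n))) (δ / (2 * (75 * n ^ 2)))), by positivity,
      (min_le_left _ _).trans (min_le_left _ _), (min_le_left _ _).trans (min_le_right _ _),
      (min_le_right _ _).trans (min_le_left _ _), (min_le_right _ _).trans (min_le_right _ _)⟩
  refine ⟨ε₀, hε₀, ?_⟩
  intro ε hε hεε M _ _ _ _ ν _ S p hPos happ hV hvol
  have b1 : ε ≤ 1 / (2 * (|L| + 20)) := hεε.trans c1
  have b2 : ε ≤ τ ^ 2 / 74 := hεε.trans c2
  have b3 : ε ≤ 1 / (40 * (75 * n)) := hεε.trans c3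
  have b4 : ε ≤ δ / (2 * (75 * n ^ 2)) := hεε.trans c4
  -- R' = 1/(2ε)
  obtain ⟨R', hR'⟩ : ∃ R' : ℝ, R' = ε⁻¹ / 2 := ⟨_, rfl⟩
  have hR'L : |L| + 20 ≤ R' := by
    rw [le_div_iff₀ (by positivity)] at b1
    rw [hR', le_div_iff₀ (by norm_num), le_inv_comm₀ (by positivity) hε, ← one_div,
      le_div_iff₀ (by positivity)]
    linarith
  have hL' := le_abs_self L
  have hLabs := abs_nonneg L
  have hR'20 : 20 ≤ R' := by linarith
  have hεinv : ε⁻¹ = 2 * R' := by rw [hR']; ring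
  have hε0' : ε ≤ 1 / 2000 := by
    have h2000 : (2000 : ℝ) ≤ 40 * (75 * n) := by linarith
    exact b3.trans (one_div_le_one_div_of_le (by norm_num) h2000)
  have hε1 : ε ≤ 1 / 40 := by linarith
  obtain ⟨φ, hφp, hφd, hφc⟩ := happ
  simp only [one_mul] at hφd hφc
  have hφn : ∀ x, dist p x < ε⁻¹ → |‖φ x‖ - dist p x| ≤ ε := by
    intro x hx
    have h1 := hφd x p hx (by rw [dist_self]; positivity)
    rw [hφp, dist_zero_right, dist_comm x p] at h1
    exact h1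
  -- far points
  have hex : ∀ v : E n, ‖v‖ = 1 → ∃ q, dist p q < ε⁻¹ ∧ dist (φ q) (-(R' • v)) ≤ ε := by
    intro v hv
    apply hφc
    rw [dist_zero_left, norm_neg, norm_smul, hv, Real.norm_of_nonneg (by linarith), hεinv]
    linarith
  have : Nonempty M := ⟨p⟩
  choose! q hq1 hq2 using hex
  set β : E n → M → ℝ := fun v x => dist (q v) x - R' with hβ
  obtain ⟨ψ, hψ⟩ : ∃ ψ : ℝ, ψ = 74 * ε := ⟨_, rfl⟩
  have hψpos : 0 < ψ := by rw [hψ]; positivity
  have hψτ : √ψ ≤ τ := by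
    rw [Real.sqrt_le_left hτpos.le]
    rw [le_div_iff₀ (by norm_num)] at b2
    linarith
  have hqd : ∀ v, ‖v‖ = 1 → L ≤ dist p (q v) := by
    intro v hv
    have h1 := abs_le.1 (hφn (q v) (hq1 v hv))
    have h2 : ‖-(R' • v)‖ ≤ ‖φ (q v)‖ + ε := by
      have h3 := norm_le_norm_add_norm_sub' (-(R' • v)) (φ (q v))
      have h4 := hq2 v hv
      rw [dist_eq_norm, norm_sub_rev] at h4
      linarith
    rw [norm_neg, norm_smul, hv, Real.norm_of_nonneg (by linarith), mul_one] at h2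
    linarith
  have hDirs : Dirs S p φ ψ κ₀ β := by
    refine ⟨?_, ?_, ?_, ?_, hψpos, ?_, hκ₀pos.le, by linarith⟩
    · intro v hv
      have h1 : LipschitzWith 1 (fun x => dist (q v) x) := LipschitzWith.dist_right _
      have h2 := h1.sub (LipschitzWith.const R')
      simpa using h2
    · intro v hv χ hχ h0
      have h1 := hPos (q v) (hqd v hv) (hq1 v hv) χ hχ h0
      have e : S.Λ (β v) κ₀ χ = S.Λ (fun y => dist (q v) y) κ₀ χ := by
        unfold Setup.Λ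
        congr 1
        refine integral_congr_ae ?_
        filter_upwards [S.rad _ (lp_dist (q v)), S.rad _ hχ.1] with x h2 h3
        exact S.cd.Γ_sub_const R' h2 h3
      rw [e]; exact h1
    · intro v hv
      filter_upwards [S.rad _ (lp_dist (q v)), S.unit (q v)] with x h2 h3
      have hD := S.cd.D_sub_const R' h2
      simp only [hβ]
      rw [S.cd.Γ_sub_const R' h2 hD, S.cd.symm, S.cd.Γ_sub_const R' h2 h2, h3]
    · intro v hv x hx
      have h1 := abs_le.1 (hφd (q v) x (hq1 v hv) (by rw [hεinv]; linarith))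
      have h2 := hq2 v hv
      have h3 := abs_le.1 (hφn x (by rw [hεinv]; linarith))
      have h4 := abs_le.1 (norm_shift (ξ := φ x) hv (R := R') (by linarith) (by linarith))
      have h5 : |dist (φ (q v)) (φ x) - ‖R' • v + φ x‖| ≤ ε := by
        have e1 : ‖R' • v + φ x‖ = dist (-(R' • v)) (φ x) := by
          rw [dist_eq_norm, ← norm_neg]; congr 1; abel
        rw [e1]
        exact (abs_dist_sub_le _ _ _).trans h2
      have h5' := abs_le.1 h5
      have h6 : 36 / R' = 72 * ε := by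
        rw [hR']; field_simp; norm_num
      rw [h6] at h4
      rw [abs_le]
      simp only [hβ]
      rw [hψ]
      constructor <;> linarith
    · rw [hψ]; linarith
  have hsm : 3 * κ₀ + 548 * √ψ ≤ 1 := by linarith
  have hε40 : ε * (40 * (75 * n)) ≤ 1 := by rwa [le_div_iff₀ (by positivity)] at b3
  have hεn : ε ≤ n * ε := le_mul_of_one_le_left hε.le hn1
  have hθ : ε + n * ψ ≤ 1 / 40 := by
    rw [hψ]; linarith
  have hcov : ∀ y : E n, ‖y‖ < 1 → ∃ x, dist p x < 5 ∧ ‖φ x - y‖ ≤ ε := by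
    intro y hy
    obtain ⟨x, hx1, hx2⟩ := hφc y (by rw [dist_zero_left, hεinv]; linarith)
    refine ⟨x, ?_, by rwa [← dist_eq_norm]⟩
    have h1 := abs_le.1 (hφn x hx1)
    have h2 : ‖φ x‖ ≤ ‖y‖ + ε := by
      rw [dist_eq_norm] at hx2
      have := norm_add_le y (φ x - y)
      rw [add_sub_cancel] at this
      linarith
    linarith
  have hmain := hDirs.volume_le hn hsm hφp (fun x hx => hφn x (by rw [hεinv]; linarith)) hcov
    hε.le hθ (mul_pos hc hV) hvol hA hA1 hA2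
  -- arithmetic
  obtain ⟨B, hB⟩ : ∃ B : ℝ, B = (5 * 3 : ℝ) ^ n * (n ^ n / (c * V ν p) *
        (n * (A * ((3 * κ₀ + 548 * √ψ) * V ν p) + n * (A * (307 * √ψ * V ν p))))) := ⟨_, rfl⟩
  rw [← hB] at hmain
  have hs0 : 0 ≤ √ψ := Real.sqrt_nonneg _
  have hB0 : 0 ≤ B := by rw [hB]; positivity
  have hBle : B ≤ δ / 2 := by
    have hm0 : 0 ≤ κ₀ + √ψ := by positivity
    have h1 : 3 * κ₀ + 548 * √ψ ≤ 551 * (κ₀ + √ψ) := by linarith
    have h2 : 307 * √ψ ≤ 307 * (κ₀ + √ψ) := by linarith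
    have hBe : B = (5 * 3 : ℝ) ^ n * (n ^ n / c *
        (n * (A * (3 * κ₀ + 548 * √ψ) + n * (A * (307 * √ψ))))) := by
      rw [hB]
      field_simp
    have h3 : A * (3 * κ₀ + 548 * √ψ) + n * (A * (307 * √ψ))
        ≤ A * (551 + 307 * n) * (κ₀ + √ψ) := by
      calc A * (3 * κ₀ + 548 * √ψ) + n * (A * (307 * √ψ))
          ≤ A * (551 * (κ₀ + √ψ)) + n * (A * (307 * (κ₀ + √ψ))) := by gcongr
        _ = A * (551 + 307 * n) * (κ₀ + √ψ) := by ring
    have h4 : B ≤ (K - 1) * (κ₀ + √ψ) := by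
      rw [hBe, hK, add_sub_cancel_right]
      calc (5 * 3 : ℝ) ^ n * (n ^ n / c *
            (n * (A * (3 * κ₀ + 548 * √ψ) + n * (A * (307 * √ψ)))))
          ≤ (5 * 3 : ℝ) ^ n * (n ^ n / c * (n * (A * (551 + 307 * n) * (κ₀ + √ψ)))) := by
            gcongr
        _ = (5 * 3) ^ n * (n ^ n / c * (n * A * (551 + 307 * n))) * (κ₀ + √ψ) := by ring
    have h5 : (K - 1) * (κ₀ + √ψ) ≤ K * (δ / (4 * K) + δ / (4 * K)) := by
      apply mul_le_mul (by linarith) _ hm0 hK0.le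
      linarith
    have h6 : K * (δ / (4 * K) + δ / (4 * K)) = δ / 2 := by field_simp; ring
    linarith
  have hbern : 1 - n * (ε + n * ψ) ≤ (1 - (ε + n * ψ)) ^ n := by
    have := one_add_mul_le_pow (a := -(ε + n * ψ)) (by linarith) n
    calc 1 - n * (ε + n * ψ) = 1 + n * (-(ε + n * ψ)) := by ring
      _ ≤ (1 + -(ε + n * ψ)) ^ n := this
      _ = (1 - (ε + n * ψ)) ^ n := by rw [← sub_eq_add_neg]
  have hnθ : n * (ε + n * ψ) ≤ δ / 2 := by
    have h1 : ε * (2 * (75 * n ^ 2)) ≤ δ := by rwa [le_div_iff₀ (by positivity)] at b4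
    have h2 : n * (ε + n * ψ) = ε * (n + 74 * n ^ 2) := by rw [hψ]; ring
    rw [h2]
    have h3 : (n : ℝ) ≤ n ^ 2 := le_self_pow₀ hn1 (by norm_num)
    have h4 : ε * (n + 74 * n ^ 2) ≤ ε * (75 * n ^ 2) := by
      apply mul_le_mul_of_nonneg_left _ hε.le
      linarith
    linarith
  have hfin : 1 - δ ≤ (1 - (ε + n * ψ)) ^ n - B := by linarith
  set ω := volume (Metric.ball (0 : EuclideanSpace ℝ (Fin n)) 1) with hω
  have hωt : ω ≠ ⊤ := MeasureTheory.measure_ball_lt_top.ne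
  calc ENNReal.ofReal (1 - δ) * ω ≤ ENNReal.ofReal ((1 - (ε + n * ψ)) ^ n - B) * ω := by
        gcongr
    _ = ENNReal.ofReal ((1 - (ε + n * ψ)) ^ n) * ω - ENNReal.ofReal B * ω := by
        rw [ENNReal.ofReal_sub _ hB0, ENNReal.sub_mul fun _ _ => hωt]
    _ ≤ ν (Metric.ball p 1) := by
        rw [tsub_le_iff_right]; exact hmain

end Crest.Agent.R247.VC402
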