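import Crest.Agent.R247.VC8_402

/-!
# R247, block (3), file 9: from `Δ (d_q²/2) ≤ n + K d_q²` to `Δ d_q ≤ κ₀` on `B_5(p)` for far points `q`
-/

set_option autoImplicit false
set_option linter.unusedSectionVars false
set_option linter.unusedVariables false

noncomputable section

open MeasureTheory Filter Topology Set
open scoped ENNReal NNReal

namespace Crest.Agent.R247.VC402

variable {n : ℕ} {M : Type*} [MetricSpace M] [ProperSpace M] [MeasurableSpace M] [BorelSpace M]
  {ν : Measure M} [IsFiniteMeasureOnCompacts ν] (S : Setup n M ν) {p q : M} {χ : M → ℝ}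

/-- weak Laplacian comparison for `d_q²/2` tested with Lipschitz functions of bounded support -/
def Setup.Lap (q : M) (K : ℝ) : Prop := ∀ φ : M → ℝ, Lp φ → (∃ R : ℝ, ∀ x, R ≤ dist q x → φ x = 0) →
  (∀ x, 0 ≤ φ x) →
  0 ≤ ∫ x, ((n + K * dist q x ^ 2) * φ x + S.cd.Γ (fun y => dist q y ^ 2 / 2) φ x) ∂ν

/-- `1 / max (d_q) ℓ` -/
def rw' (q : M) (ℓ : ℝ) (x : M) : ℝ := (max (dist q x) ℓ)⁻¹

lemma lp_rw' {ℓ : ℝ} (hℓ : 0 < ℓ) : Lp (rw' q ℓ) := by
  refine lip_of (K := (ℓ⁻¹) ^ 2) (by positivity) fun x y => ?_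
  unfold rw'
  set a := max (dist q x) ℓ with ha
  set b := max (dist q y) ℓ with hb
  have ha0 : ℓ ≤ a := le_max_right _ _
  have hb0 : ℓ ≤ b := le_max_right _ _
  have ha1 : 0 < a := hℓ.trans_le ha0
  have hb1 : 0 < b := hℓ.trans_le hb0
  have hab : |a - b| ≤ dist x y := by
    refine (abs_max_sub_max_le_abs _ _ _).trans ?_
    rw [dist_comm q x, dist_comm q y]
    exact abs_dist_sub_le x y q
  rw [inv_sub_inv ha1.ne' hb1.ne', abs_div, abs_sub_comm, abs_of_pos (mul_pos ha1 hb1)]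
  rw [div_le_iff₀ (mul_pos ha1 hb1)]
  have h1 : ℓ⁻¹ ^ 2 * (a * b) ≥ 1 := by
    have : ℓ * ℓ ≤ a * b := mul_le_mul ha0 hb0 hℓ.le ha1.le
    calc ℓ⁻¹ ^ 2 * (a * b) ≥ ℓ⁻¹ ^ 2 * (ℓ * ℓ) := by gcongr
      _ = 1 := by field_simp
  calc |a - b| ≤ dist x y := hab
    _ = 1 * dist x y := (one_mul _).symm
    _ ≤ (ℓ⁻¹ ^ 2 * (a * b)) * dist x y := by gcongr
    _ = _ := by ring

theorem pos_of_lap {K κ₀ L D : ℝ} (hK : 0 ≤ K) (h : S.Lap q K) (hn : 1 ≤ n) (hL : 5 < L)
    (h1 : L ≤ dist p q) (h2 : dist p q ≤ D) (h3 : (n - 1) / (L - 5) + K * (D + 5) ≤ κ₀) :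
    S.Pos (fun y => dist q y) κ₀ p := by
  intro χ hχ h0
  have hℓ : 0 < L - 5 := by linarith
  have hD0 : 0 ≤ D + 5 := by have := dist_nonneg (x := p) (y := q); linarith
  set w := rw' q (L - 5) with hw
  have hwL : Lp w := lp_rw' hℓ
  set φ : M → ℝ := fun x => χ x * w x with hφ
  have hφT : T p φ := hχ.mul hwL
  have hw0 : ∀ x, 0 < w x := fun x => by
    rw [hw]; unfold rw'
    exact inv_pos.2 (hℓ.trans_le (le_max_right _ _))
  have hdq : ∀ x, dist p x < 5 → L - 5 < dist q x := fun x hx => by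
    have := dist_triangle p x q
    rw [dist_comm x q] at this
    linarith
  have hdq' : ∀ x, dist p x < 5 → dist q x < D + 5 := fun x hx => by
    have := dist_triangle q p x
    rw [dist_comm q p] at this
    linarith
  have hwx : ∀ x, dist p x < 5 → w x = (dist q x)⁻¹ := fun x hx => by
    rw [hw]; unfold rw'
    rw [max_eq_left (hdq x hx).le]
  have key := h φ hφT.1 ⟨dist p q + 5, fun x hx => hφT.2 x (by
    have := dist_triangle q p x
    rw [dist_comm q p] at this
    linarith)⟩ (fun x => mul_nonneg (h0 x) (hw0 x).le)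
  -- the test function g = (κ₀ - (n-1) w - K d_q) χ
  have hgT : T p (fun x => χ x * (κ₀ - (n - 1) * w x - K * dist q x)) :=
    hχ.mul (((Lp.const κ₀).sub (hwL.smul (n - 1))).sub ((lp_dist q).smul K))
  have hfq : Lp (fun y => dist q y) := lp_dist q
  have e1 : (fun x => (n + K * dist q x ^ 2) * φ x + S.cd.Γ (fun y => dist q y ^ 2 / 2) φ x) =ᵐ[ν]
      fun x => (κ₀ * χ x + S.cd.Γ (fun y => dist q y) χ x) -
        χ x * (κ₀ - (n - 1) * w x - K * dist q x) := by
    filter_upwards [S.rad _ hfq, S.rad _ hχ.1, S.rad _ hwL, S.unit q] with x d1 d2 d3 d4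
    have hDφ : S.cd.D φ x := S.cd.D_mul d2 d3
    have hsq : S.cd.Γ (fun y => dist q y ^ 2 / 2) φ x = dist q x * S.cd.Γ (fun y => dist q y) φ x := by
      refine (S.cd.chain₁ (fun s => s ^ 2 / 2) (dist q x) d1 ?_).2 _ hDφ
      have := ((hasDerivAt_id (dist q x)).pow 2).div_const 2
      simpa using this
    by_cases hx : dist p x < 5
    · have hd0 : 0 < dist q x := hℓ.trans (hdq x hx)
      have hΓw : S.cd.Γ w (fun y => dist q y) x = -(dist q x ^ 2)⁻¹ := by
        have hev : (fun y => (dist q y)⁻¹) =ᶠ[𝓝 x] w := by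
          have : IsOpen {y | dist p y < 5} := isOpen_lt (by fun_prop) continuous_const
          filter_upwards [this.mem_nhds hx] with y hy
          exact (hwx y hy).symm
        have hc := S.cd.chain₁ (fun s => s⁻¹) (-(dist q x ^ 2)⁻¹) d1 (hasDerivAt_inv hd0.ne')
        rw [← (S.cd.congr _ _ x hev hc.1).2 _ d1, hc.2 _ d1, d4, mul_one]
      have hΓφ : S.cd.Γ (fun y => dist q y) φ x =
          w x * S.cd.Γ (fun y => dist q y) χ x + χ x * (-(dist q x ^ 2)⁻¹) := by
        rw [S.cd.symm, S.cd.Γ_mul d2 d3 d1, hΓw, S.cd.symm χ]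
      rw [hsq, hΓφ, hφ]
      simp only
      rw [hwx x hx]
      field_simp
      ring
    · push Not at hx
      have hχ0 : χ x = 0 := hχ.2 x (by linarith)
      have hev : χ =ᶠ[𝓝 x] fun _ => 0 := by
        have : IsOpen {y | 9 / 2 < dist p y} := isOpen_lt continuous_const (by fun_prop)
        filter_upwards [this.mem_nhds (show (9 / 2 : ℝ) < dist p x by linarith)] with y hy
        exact hχ.2 y (le_of_lt hy)
      have hev' : φ =ᶠ[𝓝 x] fun _ => 0 := by
        filter_upwards [hev] with y hy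
        rw [hφ]; simp [hy]
      rw [hsq, S.cd.symm, S.cd.Γ_eq_zero_of_eventually_const 0 hev' d1,
        S.cd.symm _ χ, S.cd.Γ_eq_zero_of_eventually_const 0 hev d1, hφ]
      simp [hχ0]
  have hI1 : Integrable (fun x => κ₀ * χ x + S.cd.Γ (fun y => dist q y) χ x) ν :=
    (hχ.integrable.const_mul κ₀).add (S.Γ_int hfq hχ)
  rw [integral_congr_ae e1, integral_sub hI1
    hgT.integrable, integral_add (hχ.integrable.const_mul κ₀) (S.Γ_int hfq hχ),
    integral_const_mul] at key
  have hg0 : 0 ≤ ∫ x, χ x * (κ₀ - (n - 1) * w x - K * dist q x) ∂ν := by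
    refine integral_nonneg fun x => ?_
    by_cases hx : dist p x < 5
    · refine mul_nonneg (h0 x) ?_
      have hn1 : (0 : ℝ) ≤ n - 1 := by
        have : (1 : ℝ) ≤ n := by exact_mod_cast hn
        linarith
      have h4 : (n - 1) * w x ≤ (n - 1) / (L - 5) := by
        rw [hwx x hx, div_eq_mul_inv]
        have := inv_anti₀ hℓ (hdq x hx).le
        gcongr
      have h5 : K * dist q x ≤ K * (D + 5) := by
        have := (hdq' x hx).le
        gcongr
      linarith
    · push Not at hx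
      show 0 ≤ χ x * _
      rw [hχ.2 x (by linarith), zero_mul]
  unfold Setup.Λ
  linarith

end Crest.Agent.R247.VC402
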