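import Crest.Agent.R247.Mcp5_688

/-!
R247 (helper338), leaf (1-V), file 3 (metric measure part): almost every point is interior to a
minimiser from `x` (over `Rad`).
-/

set_option autoImplicit false
set_option linter.unusedSectionVars false
open MeasureTheory Set Filter Topology
open scoped ENNReal NNReal

namespace Crest.Agent.R247.Vel338

open Crest.Agent.R247.Mcp688

section
variable {X : Type*} [MetricSpace X]

/-- points interior to a minimiser from `x` -/
def Int' (x : X) : Set X := {P | ∃ P', P ≠ P' ∧ dist x P + dist P P' = dist x P'}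

theorem measurableSet_Int' [ProperSpace X] [MeasurableSpace X] [BorelSpace X] (x : X) :
    MeasurableSet (Int' x) := by
  have hK : ∀ k : ℕ, IsCompact {p : X × X | dist x p.1 ≤ k ∧ dist x p.2 ≤ k ∧
      1 / ((k : ℝ) + 1) ≤ dist p.1 p.2 ∧ dist x p.1 + dist p.1 p.2 = dist x p.2} := by
    intro k
    have h1 : IsCompact (Metric.closedBall x (k : ℝ) ×ˢ Metric.closedBall x (k : ℝ)) :=
      (isCompact_closedBall x _).prod (isCompact_closedBall x _)
    have h2 : IsClosed {p : X × X | dist x p.1 ≤ k ∧ dist x p.2 ≤ k ∧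
      1 / ((k : ℝ) + 1) ≤ dist p.1 p.2 ∧ dist x p.1 + dist p.1 p.2 = dist x p.2} := by
      have c1 : Continuous fun p : X × X => dist x p.1 := continuous_const.dist continuous_fst
      have c2 : Continuous fun p : X × X => dist x p.2 := continuous_const.dist continuous_snd
      have c3 : Continuous fun p : X × X => dist p.1 p.2 := continuous_fst.dist continuous_snd
      exact (isClosed_le c1 continuous_const).inter ((isClosed_le c2 continuous_const).inter
        ((isClosed_le continuous_const c3).inter (isClosed_eq (c1.add c3) c2)))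
    refine h1.of_isClosed_subset h2 ?_
    rintro p ⟨h3, h4, -, -⟩
    exact ⟨by rw [Metric.mem_closedBall, dist_comm]; exact h3,
      by rw [Metric.mem_closedBall, dist_comm]; exact h4⟩
  have hEq : Int' x = ⋃ k : ℕ, Prod.fst '' {p : X × X | dist x p.1 ≤ k ∧ dist x p.2 ≤ k ∧
      1 / ((k : ℝ) + 1) ≤ dist p.1 p.2 ∧ dist x p.1 + dist p.1 p.2 = dist x p.2} := by
    ext P
    simp only [Int', mem_iUnion, mem_image, mem_ofPred_eq, Prod.exists, exists_and_right,
      exists_eq_right]
    constructor
    · rintro ⟨P', hne, h⟩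
      have hpos : 0 < dist P P' := dist_pos.2 hne
      obtain ⟨k, hk⟩ := exists_nat_ge (max (max (dist x P) (dist x P')) (1 / dist P P'))
      refine ⟨k, P', ?_, ?_, ?_, h⟩
      · exact (le_max_left _ _).trans ((le_max_left _ _).trans hk)
      · exact (le_max_right _ _).trans ((le_max_left _ _).trans hk)
      · have h1 : 1 / dist P P' ≤ (k : ℝ) + 1 := by
          have := (le_max_right _ _).trans hk
          linarith
        rw [div_le_comm₀ (by positivity) hpos]
        exact h1
    · rintro ⟨k, P', -, -, h3, h4⟩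
      refine ⟨P', dist_pos.1 (lt_of_lt_of_le (by positivity) h3), h4⟩
  rw [hEq]
  exact MeasurableSet.iUnion fun k => ((hK k).image continuous_fst).isClosed.measurableSet

end

section
variable {n : ℕ} {κ : ℝ} {X : Type*} [MetricSpace X] [MeasurableSpace X] [BorelSpace X]
  {μ : Measure X} (C : Rad n κ X μ)

include C in
/-- almost every `P ≠ x` is interior to a minimiser from `x` -/
theorem ae_int [ProperSpace X] [IsFiniteMeasureOnCompacts μ] (hκ : 0 ≤ κ) (x : X) :
    ∀ᵐ P ∂μ, x ≠ P → P ∈ Int' x := by
  have hI := measurableSet_Int' x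
  have hx1 : MeasurableSet {P : X | x ≠ P} := by
    have : {P : X | x ≠ P} = {x}ᶜ := by ext P; simp [eq_comm]
    rw [this]; exact (measurableSet_singleton x).compl
  have key : ∀ R : ℕ, ∀ᵐ P ∂μ, P ∈ Metric.closedBall x (R : ℝ) → x ≠ P → P ∈ Int' x := by
    intro R
    set A : Set X := Metric.closedBall x (R : ℝ) ∩ {P | x ≠ P} with hA
    set B : Set X := A ∩ Int' x with hB
    have hAm : MeasurableSet A := Metric.isClosed_closedBall.measurableSet.inter hx1
    have hBm : MeasurableSet B := hAm.inter hI
    have h1 : ∀ t : ℝ, 0 < t → t < 1 → wm μ κ x A ≤ ENNReal.ofReal ((t⁻¹) ^ n) * wm μ κ x B := by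
      intro t ht0 ht1
      refine C.measure_le_of_mapsTo x ⟨ht0, ht1.le⟩ hBm ?_
      rintro z ⟨hz1, hz2⟩ hU
      have htI : t ∈ Icc (0 : ℝ) 1 := ⟨ht0.le, ht1.le⟩
      have e1 := C.dist_left hU htI
      have e2 := C.dist_right hU htI
      have hd : 0 < dist x z := dist_pos.2 hz2
      have hzR : dist x z ≤ R := by rw [dist_comm]; exact hz1
      refine ⟨⟨?_, ?_⟩, z, ?_, ?_⟩
      · rw [Metric.mem_closedBall, dist_comm, e1]
        nlinarith
      · have : 0 < dist x (C.T x t z) := by rw [e1]; positivity
        exact dist_pos.1 this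
      · have : 0 < dist (C.T x t z) z := by
          rw [e2]
          have : 0 < 1 - t := by linarith
          positivity
        exact dist_pos.1 this
      · rw [e1, e2]; ring
    have h2 : wm μ κ x A ≤ wm μ κ x B := by
      have h3 : Tendsto (fun t : ℝ => ENNReal.ofReal ((t⁻¹) ^ n) * wm μ κ x B) (𝓝[<] 1)
          (𝓝 (ENNReal.ofReal ((1⁻¹) ^ n) * wm μ κ x B)) := by
        refine ENNReal.Tendsto.mul_const ?_ (Or.inl (by simp))
        refine (ENNReal.continuous_ofReal.tendsto _).comp ?_
        refine Tendsto.mono_left ?_ nhdsWithin_le_nhds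
        exact (continuousAt_inv₀ (one_ne_zero)).pow n
      rw [inv_one, one_pow, ENNReal.ofReal_one, one_mul] at h3
      refine ge_of_tendsto h3 ?_
      have e : Ioo (0 : ℝ) 1 ∈ 𝓝[<] (1 : ℝ) := Ioo_mem_nhdsLT (by norm_num)
      filter_upwards [e] with t ht
      exact h1 t ht.1 ht.2
    have hfin : wm μ κ x B ≠ ⊤ := by
      have : wm μ κ x B ≤ μ (Metric.closedBall x (R : ℝ)) :=
        (wm_le μ x hκ _).trans (measure_mono (inter_subset_left.trans inter_subset_left))
      exact ne_top_of_le_ne_top (isCompact_closedBall x _).measure_lt_top.ne this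
    have h4 : wm μ κ x (A \ B) = 0 := by
      rw [measure_sdiff inter_subset_left hBm.nullMeasurableSet hfin]
      exact tsub_eq_zero_of_le h2
    rw [wm_eq_zero_iff] at h4
    have h5 : ∀ᵐ P ∂μ, P ∉ A \ B := measure_eq_zero_iff_ae_notMem.1 h4
    filter_upwards [h5] with P hP h6 h7
    by_contra h8
    exact hP ⟨⟨h6, h7⟩, fun h9 => h8 h9.2⟩
  have := ae_all_iff.2 key
  filter_upwards [this] with P hP hne
  obtain ⟨R, hR⟩ := exists_nat_ge (dist P x)
  exact hP R hR hne

end

end Crest.Agent.R247.Vel338
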